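import Crest.Agent.R165.ExpG_337

/-!
# Row 165 (S0250), block G: norm bounds for the exponential of even Grassmann elements (helper337)
-/

set_option autoImplicit false

noncomputable section

namespace Crest.Agent.R165.ExpNx337

open scoped ENNReal Nat
open Crest.Agent.R165.Gr0x606 Crest.Agent.R165.Gr1x606 Crest.Agent.R165.GeOpsx337 Crest.Agent.R165.GrLocx337
  Crest.Agent.R165.PNormx417 Crest.Agent.R165.ExpGx337

variable {V : Type*} [AddCommGroup V] [Module ℝ V]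

/-! ### real inequalities -/

theorem abs_exp_sub_one_le (c : ℝ) : |Real.exp c - 1| ≤ Real.exp |c| - 1 := by
  rcases le_total 0 c with hc | hc
  · rw [abs_of_nonneg hc, abs_of_nonneg]
    linarith [Real.one_le_exp hc]
  · rw [abs_of_nonpos hc, abs_of_nonpos (by linarith [Real.exp_le_one_iff.2 hc])]
    have h1 : Real.exp c * Real.exp (-c) = 1 := by rw [← Real.exp_add]; simp
    nlinarith [Real.exp_pos c, Real.exp_pos (-c), sq_nonneg (Real.exp c - 1),
      sq_nonneg (Real.exp c - Real.exp (-c)), sq_nonneg (Real.exp (-c) - 1)]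

theorem abs_exp_sub_one_sub_le (c : ℝ) : |Real.exp c - 1 - c| ≤ Real.exp |c| - 1 - |c| := by
  have h0 : 0 ≤ Real.exp c - 1 - c := by linarith [Real.add_one_le_exp c]
  rw [abs_of_nonneg h0]
  rcases le_total 0 c with hc | hc
  · rw [abs_of_nonneg hc]
  · rw [abs_of_nonpos hc]
    have h1 : -c ≤ Real.sinh (-c) := Real.self_le_sinh_iff.2 (by linarith)
    rw [Real.sinh_eq, neg_neg] at h1
    linarith

theorem exp_sub_mono {s x : ℝ} (hs : 0 ≤ s) (h : s ≤ x) :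
    Real.exp s - 1 - s ≤ Real.exp x - 1 - x := by
  have h1 : Real.exp x = Real.exp s * Real.exp (x - s) := by rw [← Real.exp_add]; ring_nf
  have h2 := Real.add_one_le_exp (x - s)
  have h3 := Real.one_le_exp hs
  have h4 : Real.exp s * (x - s + 1) ≤ Real.exp s * Real.exp (x - s) :=
    mul_le_mul_of_nonneg_left h2 (Real.exp_pos s).le
  nlinarith

theorem sum_succ_le {x : ℝ} (hx : 0 ≤ x) (k : ℕ) :
    ∑ i ∈ Finset.range k, x ^ (i + 1) / ((i + 1)! : ℝ) ≤ Real.exp x - 1 := by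
  have := Real.sum_le_exp_of_nonneg hx (k + 1)
  rw [Finset.sum_range_succ'] at this
  simp only [pow_zero, Nat.factorial_zero, Nat.cast_one, div_one] at this
  linarith

theorem sum_succ2_le {x : ℝ} (hx : 0 ≤ x) (k : ℕ) :
    ∑ i ∈ Finset.range k, x ^ (i + 2) / ((i + 2)! : ℝ) ≤ Real.exp x - 1 - x := by
  have := Real.sum_le_exp_of_nonneg hx (k + 2)
  rw [Finset.sum_range_succ', Finset.sum_range_succ'] at this
  simp only [pow_zero, Nat.factorial_zero, Nat.cast_one, div_one, zero_add, pow_one,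
    Nat.factorial_one] at this
  linarith

/-! ### splitting off the constant term -/

theorem pnorm_split (w : V → ℝ≥0∞) (F : Gr V) :
    ‖ct F‖ₑ + pnorm w (F - algebraMap ℝ (Gr V) (ct F)) ≤ pnorm w F := by
  have h1 : ESemi fun F : Gr V => ‖ct F‖ₑ := ESemi.enorm.comp (ct (V := V)).toLinearMap
  have h2 : ESemi fun F : Gr V => pnorm w (F - algebraMap ℝ (Gr V) (ct F)) :=
    (pnorm_semi w).comp (LinearMap.id - (Algebra.linearMap ℝ (Gr V)) ∘ₗ (ct (V := V)).toLinearMap)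
  refine semi_le_of_mono_one (h1.add_semi h2) (fun L _ => ?_) F
  cases L with
  | nil => simp
  | cons x L =>
    have h0 : ct (mono (x :: L)) = 0 := by rw [mono_cons, map_mul, ct_fi, zero_mul]
    show ‖ct (mono (x :: L))‖ₑ + pnorm w (mono (x :: L) - algebraMap ℝ (Gr V) (ct (mono (x :: L)))) ≤ _
    rw [h0, map_zero, sub_zero, enorm_zero, zero_add]
    exact pnorm_mono_le _ _

theorem pG_split (w : V → ℝ≥0∞) (a : Ge V) : ‖ctG a‖ₑ + pG w (nl a) ≤ pG w a :=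
  pnorm_split w (a : Gr V)

/-! ### nilpotent exponential -/

theorem pG_term_le {w : V → ℝ≥0∞} {a : Ge V} {x : ℝ} (hx : 0 ≤ x) (h : pG w a ≤ ENNReal.ofReal x)
    (i : ℕ) : pG w ((i ! : ℝ)⁻¹ • a ^ i) ≤ ENNReal.ofReal (x ^ i / (i ! : ℝ)) := by
  refine (pG_smul_le w _ _).trans ?_
  have h1 := pG_pow_le h ENNReal.ofReal_ne_top i
  rw [← ENNReal.ofReal_pow hx] at h1
  have hf : (0 : ℝ) ≤ (i ! : ℝ)⁻¹ := by positivity
  rw [Real.enorm_eq_ofReal hf]
  calc ENNReal.ofReal (i ! : ℝ)⁻¹ * pG w (a ^ i)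
      ≤ ENNReal.ofReal (i ! : ℝ)⁻¹ * ENNReal.ofReal (x ^ i) := by gcongr
    _ = ENNReal.ofReal (x ^ i / (i ! : ℝ)) := by
      rw [← ENNReal.ofReal_mul hf, div_eq_inv_mul]

theorem pG_nexp_sub_one_le {w : V → ℝ≥0∞} {a : Ge V} (ha : IsNilpotent a) {x : ℝ} (hx : 0 ≤ x)
    (h : pG w a ≤ ENNReal.ofReal x) : pG w (nexp a - 1) ≤ ENNReal.ofReal (Real.exp x - 1) := by
  obtain ⟨k, hk⟩ := ha
  have hk' : a ^ (k + 1) = 0 := by rw [pow_succ, hk, zero_mul]
  have e : nexp a - 1 = ∑ i ∈ Finset.range k, ((i + 1)! : ℝ)⁻¹ • a ^ (i + 1) := by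
    rw [nexp_eq_sum hk', Finset.sum_range_succ']
    simp
  rw [e]
  refine (pG_sum_le w _ _).trans ?_
  calc ∑ i ∈ Finset.range k, pG w (((i + 1)! : ℝ)⁻¹ • a ^ (i + 1))
      ≤ ∑ i ∈ Finset.range k, ENNReal.ofReal (x ^ (i + 1) / ((i + 1)! : ℝ)) :=
        Finset.sum_le_sum fun i _ => pG_term_le hx h (i + 1)
    _ = ENNReal.ofReal (∑ i ∈ Finset.range k, x ^ (i + 1) / ((i + 1)! : ℝ)) := by
        rw [ENNReal.ofReal_sum_of_nonneg]
        intro i _; positivity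
    _ ≤ _ := ENNReal.ofReal_le_ofReal (sum_succ_le hx k)

theorem pG_nexp_sub_le {w : V → ℝ≥0∞} {a : Ge V} (ha : IsNilpotent a) {x : ℝ} (hx : 0 ≤ x)
    (h : pG w a ≤ ENNReal.ofReal x) : pG w (nexp a - 1 - a) ≤ ENNReal.ofReal (Real.exp x - 1 - x) := by
  obtain ⟨k, hk⟩ := ha
  have hk' : a ^ (k + 2) = 0 := by rw [pow_add, hk, zero_mul]
  have e : nexp a - 1 - a = ∑ i ∈ Finset.range k, ((i + 2)! : ℝ)⁻¹ • a ^ (i + 2) := by
    rw [nexp_eq_sum hk', Finset.sum_range_succ', Finset.sum_range_succ']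
    simp
  rw [e]
  refine (pG_sum_le w _ _).trans ?_
  calc ∑ i ∈ Finset.range k, pG w (((i + 2)! : ℝ)⁻¹ • a ^ (i + 2))
      ≤ ∑ i ∈ Finset.range k, ENNReal.ofReal (x ^ (i + 2) / ((i + 2)! : ℝ)) :=
        Finset.sum_le_sum fun i _ => pG_term_le hx h (i + 2)
    _ = ENNReal.ofReal (∑ i ∈ Finset.range k, x ^ (i + 2) / ((i + 2)! : ℝ)) := by
        rw [ENNReal.ofReal_sum_of_nonneg]
        intro i _; positivity
    _ ≤ _ := ENNReal.ofReal_le_ofReal (sum_succ2_le hx k)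

/-! ### the exponential -/

/-- real splitting of a bound -/
theorem split_bound {w : V → ℝ≥0∞} {a : Ge V} {x : ℝ} (hx : 0 ≤ x)
    (h : pG w a ≤ ENNReal.ofReal x) : ∃ y : ℝ, 0 ≤ y ∧ pG w (nl a) ≤ ENNReal.ofReal y ∧
      |ctG a| + y ≤ x := by
  have h1 := (pG_split w a).trans h
  have hfin : pG w (nl a) ≠ ∞ := ne_top_of_le_ne_top ENNReal.ofReal_ne_top (le_add_self.trans h1)
  refine ⟨(pG w (nl a)).toReal, ENNReal.toReal_nonneg, ?_, ?_⟩
  · rw [ENNReal.ofReal_toReal hfin]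
  · have h2 := (ENNReal.toReal_le_toReal (ENNReal.add_ne_top.2 ⟨enorm_ne_top, hfin⟩)
      ENNReal.ofReal_ne_top).2 h1
    rw [ENNReal.toReal_add enorm_ne_top hfin, ENNReal.toReal_ofReal hx, toReal_enorm,
      Real.norm_eq_abs] at h2
    exact h2

theorem pG_gexp_sub_one_le {w : V → ℝ≥0∞} {a : Ge V} {x : ℝ} (hx : 0 ≤ x)
    (h : pG w a ≤ ENNReal.ofReal x) : pG w (gexp a - 1) ≤ ENNReal.ofReal (Real.exp x - 1) := by
  obtain ⟨y, hy0, hy, hxy⟩ := split_bound hx h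
  set c := ctG a with hc
  have e : gexp a - 1 = (Real.exp c - 1) • (1 : Ge V) + Real.exp c • (nexp (nl a) - 1) := by
    rw [gexp, ← hc, sub_smul, one_smul, smul_sub]; ring
  have h1 : pG w ((Real.exp c - 1) • (1 : Ge V)) ≤ ENNReal.ofReal (Real.exp |c| - 1) := by
    refine (pG_smul_le w _ _).trans ?_
    calc ‖Real.exp c - 1‖ₑ * pG w (1 : Ge V) ≤ ‖Real.exp c - 1‖ₑ * 1 := by
          gcongr; exact pG_one_le w
      _ = ENNReal.ofReal |Real.exp c - 1| := by rw [mul_one, Real.enorm_eq_ofReal_abs]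
      _ ≤ _ := ENNReal.ofReal_le_ofReal (abs_exp_sub_one_le c)
  have h2 : pG w (Real.exp c • (nexp (nl a) - 1)) ≤
      ENNReal.ofReal (Real.exp |c| * (Real.exp y - 1)) := by
    refine (pG_smul_le w _ _).trans ?_
    rw [ENNReal.ofReal_mul (Real.exp_pos _).le, Real.enorm_eq_ofReal (Real.exp_pos _).le]
    exact mul_le_mul' (ENNReal.ofReal_le_ofReal (Real.exp_le_exp.2 (le_abs_self c)))
      (pG_nexp_sub_one_le (nl_nil a) hy0 hy)
  rw [e]
  refine (pG_add_le w _ _).trans ((add_le_add h1 h2).trans ?_)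
  have p1 : 0 ≤ Real.exp |c| - 1 := by linarith [Real.one_le_exp (abs_nonneg c)]
  have p2 : 0 ≤ Real.exp |c| * (Real.exp y - 1) :=
    mul_nonneg (Real.exp_pos _).le (by linarith [Real.one_le_exp hy0])
  rw [← ENNReal.ofReal_add p1 p2]
  apply ENNReal.ofReal_le_ofReal
  have h3 : Real.exp (|c| + y) ≤ Real.exp x := Real.exp_le_exp.2 hxy
  rw [Real.exp_add] at h3
  nlinarith

theorem pG_gexp_le {w : V → ℝ≥0∞} {a : Ge V} {x : ℝ} (hx : 0 ≤ x)
    (h : pG w a ≤ ENNReal.ofReal x) : pG w (gexp a) ≤ ENNReal.ofReal (Real.exp x) := by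
  have h1 := pG_gexp_sub_one_le hx h
  have e : gexp a = 1 + (gexp a - 1) := by ring
  rw [e]
  refine (pG_add_le w _ _).trans ((add_le_add (pG_one_le w) h1).trans ?_)
  have p1 : 0 ≤ Real.exp x - 1 := by linarith [Real.one_le_exp hx]
  rw [← ENNReal.ofReal_one, ← ENNReal.ofReal_add zero_le_one p1]
  apply ENNReal.ofReal_le_ofReal
  linarith

/-- quadratic remainder -/
theorem pG_gexp_sub_sub_le {w : V → ℝ≥0∞} {a : Ge V} {x : ℝ} (hx : 0 ≤ x)
    (h : pG w a ≤ ENNReal.ofReal x) :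
    pG w (gexp a - 1 - a) ≤ ENNReal.ofReal (Real.exp x - 1 - x) := by
  obtain ⟨y, hy0, hy, hxy⟩ := split_bound hx h
  set c := ctG a with hc
  have e : gexp a - 1 - a = (Real.exp c - 1 - c) • (1 : Ge V) + Real.exp c • (nexp (nl a) - 1 - nl a)
      + (Real.exp c - 1) • nl a := by
    have h0 : a = c • (1 : Ge V) + nl a := by
      rw [← Algebra.algebraMap_eq_smul_one, hc]; exact (add_nl a).symm
    conv_lhs => rw [gexp, ← hc]
    nth_rewrite 2 [h0]
    simp only [sub_smul, one_smul, smul_sub]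
    abel
  have h1 : pG w ((Real.exp c - 1 - c) • (1 : Ge V)) ≤ ENNReal.ofReal (Real.exp |c| - 1 - |c|) := by
    refine (pG_smul_le w _ _).trans ?_
    calc ‖Real.exp c - 1 - c‖ₑ * pG w (1 : Ge V) ≤ ‖Real.exp c - 1 - c‖ₑ * 1 := by
          gcongr; exact pG_one_le w
      _ = ENNReal.ofReal |Real.exp c - 1 - c| := by rw [mul_one, Real.enorm_eq_ofReal_abs]
      _ ≤ _ := ENNReal.ofReal_le_ofReal (abs_exp_sub_one_sub_le c)
  have h2 : pG w (Real.exp c • (nexp (nl a) - 1 - nl a)) ≤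
      ENNReal.ofReal (Real.exp |c| * (Real.exp y - 1 - y)) := by
    refine (pG_smul_le w _ _).trans ?_
    rw [ENNReal.ofReal_mul (Real.exp_pos _).le, Real.enorm_eq_ofReal (Real.exp_pos _).le]
    exact mul_le_mul' (ENNReal.ofReal_le_ofReal (Real.exp_le_exp.2 (le_abs_self c)))
      (pG_nexp_sub_le (nl_nil a) hy0 hy)
  have h3 : pG w ((Real.exp c - 1) • nl a) ≤ ENNReal.ofReal ((Real.exp |c| - 1) * y) := by
    refine (pG_smul_le w _ _).trans ?_
    have p1 : 0 ≤ Real.exp |c| - 1 := by linarith [Real.one_le_exp (abs_nonneg c)]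
    rw [ENNReal.ofReal_mul p1, Real.enorm_eq_ofReal_abs]
    exact mul_le_mul' (ENNReal.ofReal_le_ofReal (abs_exp_sub_one_le c)) hy
  rw [e]
  refine (pG_add_le w _ _).trans ((add_le_add ((pG_add_le w _ _).trans (add_le_add h1 h2)) h3).trans ?_)
  have p0 : 1 ≤ Real.exp |c| := Real.one_le_exp (abs_nonneg c)
  have p1 : 0 ≤ Real.exp |c| - 1 - |c| := by linarith [Real.add_one_le_exp |c|]
  have p2 : 0 ≤ Real.exp |c| * (Real.exp y - 1 - y) :=
    mul_nonneg (Real.exp_pos _).le (by linarith [Real.add_one_le_exp y])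
  have p3 : 0 ≤ (Real.exp |c| - 1) * y := mul_nonneg (by linarith) hy0
  rw [← ENNReal.ofReal_add p1 p2, ← ENNReal.ofReal_add (add_nonneg p1 p2) p3]
  apply ENNReal.ofReal_le_ofReal
  have h4 := exp_sub_mono (add_nonneg (abs_nonneg c) hy0) hxy
  rw [Real.exp_add] at h4
  nlinarith

/-- Lipschitz bound -/
theorem pG_gexp_sub_gexp_le {w : V → ℝ≥0∞} {a a' : Ge V} {x d : ℝ} (hx : 0 ≤ x) (hd : 0 ≤ d)
    (h : pG w a' ≤ ENNReal.ofReal x) (h' : pG w (a - a') ≤ ENNReal.ofReal d) :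
    pG w (gexp a - gexp a') ≤ ENNReal.ofReal (Real.exp x * (Real.exp d - 1)) := by
  have e : gexp a - gexp a' = gexp a' * (gexp (a - a') - 1) := by
    rw [mul_sub, mul_one, ← gexp_add]; congr 2; ring
  rw [e, ENNReal.ofReal_mul (Real.exp_pos _).le]
  exact pG_mul_le' (pG_gexp_le hx h) (pG_gexp_sub_one_le hd h') ENNReal.ofReal_ne_top
    ENNReal.ofReal_ne_top

/-- Lipschitz bound for the quadratic remainder -/
theorem pG_rem_sub_rem_le {w : V → ℝ≥0∞} {a a' : Ge V} {x d : ℝ} (hx : 0 ≤ x) (hd : 0 ≤ d)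
    (h : pG w a' ≤ ENNReal.ofReal x) (h' : pG w (a - a') ≤ ENNReal.ofReal d) :
    pG w ((gexp a - 1 - a) - (gexp a' - 1 - a')) ≤
      ENNReal.ofReal ((Real.exp x - 1) * (Real.exp d - 1) + (Real.exp d - 1 - d)) := by
  have e : (gexp a - 1 - a) - (gexp a' - 1 - a') =
      (gexp a' - 1) * (gexp (a - a') - 1) + (gexp (a - a') - 1 - (a - a')) := by
    have h1 : gexp a = gexp a' * gexp (a - a') := by rw [← gexp_add]; congr 1; ring
    rw [h1]; ring
  have p1 : 0 ≤ Real.exp x - 1 := by linarith [Real.one_le_exp hx]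
  have p2 : 0 ≤ Real.exp d - 1 := by linarith [Real.one_le_exp hd]
  have p3 : 0 ≤ Real.exp d - 1 - d := by linarith [Real.add_one_le_exp d]
  rw [e, ENNReal.ofReal_add (mul_nonneg p1 p2) p3, ENNReal.ofReal_mul p1]
  refine (pG_add_le w _ _).trans (add_le_add ?_ (pG_gexp_sub_sub_le hd h'))
  exact pG_mul_le' (pG_gexp_sub_one_le hx h) (pG_gexp_sub_one_le hd h') ENNReal.ofReal_ne_top
    ENNReal.ofReal_ne_top

end Crest.Agent.R165.ExpNx337
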