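import Crest.Agent.R165.DefRec_915
import Crest.Agent.R165.ExpN_337

/-!
# Row 165, block G/P: norms of the convolved activities `H_k` and of the exponent `A_k` (helper915)

For a composite background with the per-polymer bounds `DStep`:
* `NK_H_le` : `N'(H_k) ≤ n (qL + c qT) N(K_k)`
* `NK_A_le` : `N'(A_k) ≤ n (qL + c qT + 2 c CX) N(K_k)`
where `N'` may be taken with a larger polymer weight `Γ' ≤ c Γ` (room for the cluster sums), and
`CX` bounds the extraction maps.
-/

set_option autoImplicit false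
set_option linter.unusedSectionVars false

open scoped ENNReal
open Crest.Agent.R165.Gr0x606 Crest.Agent.R165.Gr1x606 Crest.Agent.R165.GeOpsx337
  Crest.Agent.R165.ExpGx337 Crest.Agent.R165.KFlowx337
open Crest.Agent.R165.Latx683 Crest.Agent.R165.PNormx417
open Crest.Agent.R165.GDefx387 Crest.Agent.R165.Packx915 Crest.Agent.R165.NSumx915
open Crest.Agent.R165.Bridgex915 Crest.Agent.R165.DefStepx915 Crest.Agent.R165.NKDefx915

namespace Crest.Agent.R165.DefRecx915

/-- the constant part is bounded by the norm -/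
theorem pG_ct_le {V : Type*} [AddCommGroup V] [Module ℝ V] (v : V → ℝ≥0∞) (x : Ge V) :
    pG v (algebraMap ℝ (Ge V) (ctG x)) ≤ pG v x := by
  have h := Crest.Agent.R165.ExpNx337.pG_split v x
  refine le_trans ?_ ((le_self_add (b := pG v (nl x))).trans h)
  rw [Algebra.algebraMap_eq_smul_one]
  refine (pG_smul_le _ _ _).trans ?_
  calc ‖ctG x‖ₑ * pG v (1 : Ge V) ≤ ‖ctG x‖ₑ * 1 := mul_le_mul' le_rfl (pG_one_le v)
    _ = _ := mul_one _

/-! ### sums over polymers -/

section gen

variable {X : Type*} {d : X → X → ℕ} {r r' : ℕ} {Γ Γ' : ℝ≥0∞}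

/-- linear step with one class and different polymer weights -/
theorem NN_step2 {q : ℝ≥0∞} {n : ℕ} {b a : Finset X → ℝ≥0∞}
    (hq : ∀ U, b U ≠ 0 → Γ' ^ pack d r' U * b U ≤ q * (Γ ^ pack d r U * a U))
    (hn : Cov d r' r n) : NN d r' Γ' b ≤ q * (n * NN d r Γ a) := by
  refine iSup_le fun f => ?_
  obtain ⟨net, hcard, hnet⟩ := hn.net f
  have h1 : bs d r' Γ' b f ≤
      ∑' U : Finset X, Set.indicator {U | near d r' f U} (fun U => q * (Γ ^ pack d r U * a U)) U := by
    rw [bs]
    refine ENNReal.tsum_le_tsum fun U => ?_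
    by_cases h : near d r' f U
    · rw [Set.indicator_of_mem (by exact h), Set.indicator_of_mem (by exact h)]
      by_cases h0 : b U = 0
      · rw [h0, mul_zero]
        exact zero_le
      · exact hq U h0
    · rw [Set.indicator_of_notMem (by exact h)]
      exact zero_le
  refine h1.trans ?_
  refine (cover_sum (d := d) (r := r) (P := fun U => near d r' f U)
    (fun U => q * (Γ ^ pack d r U * a U)) net (fun U hU => hnet U hU)).trans ?_
  have h3 : ∀ g ∈ net, (∑' U : Finset X, Set.indicator {U | near d r g U}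
      (fun U => q * (Γ ^ pack d r U * a U)) U) ≤ q * NN d r Γ a := by
    intro g _
    have : (∑' U : Finset X, Set.indicator {U | near d r g U}
        (fun U => q * (Γ ^ pack d r U * a U)) U) = q * bs d r Γ a g := by
      rw [bs, ← ENNReal.tsum_mul_left]
      refine tsum_congr fun U => ?_
      by_cases h : near d r g U
      · rw [Set.indicator_of_mem (by exact h), Set.indicator_of_mem (by exact h)]
      · rw [Set.indicator_of_notMem (by exact h), Set.indicator_of_notMem (by exact h), mul_zero]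
    rw [this]
    exact mul_le_mul_right (bs_le_NN _ g) _
  refine (Finset.sum_le_sum h3).trans ?_
  rw [Finset.sum_const, nsmul_eq_mul]
  calc (net.card : ℝ≥0∞) * (q * NN d r Γ a)
      ≤ (n : ℝ≥0∞) * (q * NN d r Γ a) := mul_le_mul_left (Nat.cast_le.2 hcard) _
    _ = q * ((n : ℝ≥0∞) * NN d r Γ a) := by ring

/-- exchanging sources and targets of an extraction -/
theorem tsum_inn_out {F V : Type*} [DecidableEq F] [AddCommGroup V] [Module ℝ V] (e : Extr F V)
    (g : Finset F → Finset F → ℝ≥0∞) :
    ∑' T : Finset F, ∑ U ∈ e.inn T, g U T = ∑' U : Finset F, ∑ T ∈ e.out U, g U T := by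
  classical
  have h1 : ∀ T, ∑ U ∈ e.inn T, g U T = ∑' U : Finset F, if T ∈ e.out U then g U T else 0 := by
    intro T
    rw [tsum_eq_sum (s := e.inn T)]
    · exact Finset.sum_congr rfl fun U hU => by rw [if_pos ((e.mem_iff U T).2 hU)]
    · intro U hU
      rw [if_neg fun h => hU ((e.mem_iff U T).1 h)]
  have h2 : ∀ U, ∑ T ∈ e.out U, g U T = ∑' T : Finset F, if T ∈ e.out U then g U T else 0 := by
    intro U
    rw [tsum_eq_sum (s := e.out U)]
    · exact Finset.sum_congr rfl fun T hT => by rw [if_pos hT]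
    · intro T hT
      rw [if_neg hT]
  simp only [h1, h2]
  exact ENNReal.tsum_comm

/-- **norm of what is moved**: the extraction moves parts of small sets (in total `≤ CX a U`) to
singletons -/
theorem NN_gain_le [DecidableEq X] {V : Type*} [AddCommGroup V] [Module ℝ V]
    (e : Extr X V) {c CX : ℝ≥0∞} {n : ℕ} (b a : Finset X → ℝ≥0∞) (x : Finset X → Finset X → ℝ≥0∞)
    (hb : ∀ T, b T ≤ ∑ U ∈ e.inn T, x U T)
    (hout : ∀ U, ∀ T ∈ e.out U, pack d r U ≤ 1 ∧ T.card ≤ 1)
    (hx : ∀ U, ∑ T ∈ e.out U, x U T ≤ CX * a U) (hΓ' : 1 ≤ Γ') (hc : Γ' ≤ c * Γ)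
    (hn : Cov d r' r n) : NN d r' Γ' b ≤ c * CX * (n * NN d r Γ a) := by
  classical
  refine iSup_le fun f => ?_
  obtain ⟨net, hcard, hnet⟩ := hn.net f
  set v : Finset X → ℝ≥0∞ := fun U =>
    if U.Nonempty ∧ pack d r U ≤ 1 then Γ' * (CX * a U) else 0 with hv
  have h1 : bs d r' Γ' b f ≤ ∑' U : Finset X, Set.indicator {U | near d r' f U} v U := by
    rw [bs]
    calc (∑' T : Finset X, Set.indicator {T | near d r' f T} (fun T => Γ' ^ pack d r' T * b T) T)
        ≤ ∑' T : Finset X, ∑ U ∈ e.inn T,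
            (if near d r' f T then Γ' * x U T else 0) := by
          refine ENNReal.tsum_le_tsum fun T => ?_
          by_cases h : near d r' f T
          · rw [Set.indicator_of_mem (by exact h)]
            simp only [if_pos h]
            rw [← Finset.mul_sum]
            rcases (e.inn T).eq_empty_or_nonempty with h0 | ⟨U, hU⟩
            · have : b T = 0 := le_antisymm ((hb T).trans (by rw [h0, Finset.sum_empty])) zero_le
              rw [this, mul_zero]
              exact zero_le
            · have hT := (hout U T ((e.mem_iff U T).2 hU)).2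
              have hp : pack d r' T ≤ 1 := pack_le_card.trans hT
              refine mul_le_mul' ?_ (hb T)
              calc Γ' ^ pack d r' T ≤ Γ' ^ 1 := pow_le_pow_right₀ hΓ' hp
                _ = Γ' := pow_one _
          · rw [Set.indicator_of_notMem (by exact h)]
            exact zero_le
      _ = ∑' U : Finset X, ∑ T ∈ e.out U, (if near d r' f T then Γ' * x U T else 0) :=
          tsum_inn_out e _
      _ ≤ _ := by
          refine ENNReal.tsum_le_tsum fun U => ?_
          rcases (e.out U).eq_empty_or_nonempty with h0 | ⟨T₀, hT₀⟩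
          · rw [h0, Finset.sum_empty]
            exact zero_le
          · have hU1 := (hout U T₀ hT₀).1
            have hUne : U.Nonempty := (e.ne U T₀ hT₀).mono (e.sub U T₀ hT₀)
            by_cases h : near d r' f U
            · rw [Set.indicator_of_mem (by exact h)]
              simp only [hv, if_pos (And.intro hUne hU1)]
              calc ∑ T ∈ e.out U, (if near d r' f T then Γ' * x U T else 0)
                  ≤ ∑ T ∈ e.out U, Γ' * x U T := by
                    refine Finset.sum_le_sum fun T _ => ?_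
                    split_ifs
                    · exact le_rfl
                    · exact zero_le
                _ = Γ' * ∑ T ∈ e.out U, x U T := by rw [Finset.mul_sum]
                _ ≤ _ := mul_le_mul' le_rfl (hx U)
            · rw [Set.indicator_of_notMem (by exact h)]
              refine le_of_eq (Finset.sum_eq_zero fun T hT => ?_)
              rw [if_neg]
              intro hT'
              exact h (hT'.mono (e.sub U T hT) le_rfl)
  refine h1.trans ?_
  refine (cover_sum (d := d) (r := r) (P := fun U => near d r' f U) v net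
    (fun U hU => hnet U hU)).trans ?_
  have h3 : ∀ g ∈ net, (∑' U : Finset X, Set.indicator {U | near d r g U} v U) ≤
      c * CX * NN d r Γ a := by
    intro g _
    have h4 : (∑' U : Finset X, Set.indicator {U | near d r g U} v U) ≤
        c * CX * bs d r Γ a g := by
      rw [bs, ← ENNReal.tsum_mul_left]
      refine ENNReal.tsum_le_tsum fun U => ?_
      by_cases h : near d r g U
      · rw [Set.indicator_of_mem (by exact h), Set.indicator_of_mem (by exact h)]
        simp only [hv]
        split_ifs with hU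
        · have hpk : pack d r U = 1 := le_antisymm hU.2 (pack_pos hU.1)
          rw [hpk, pow_one]
          calc Γ' * (CX * a U) ≤ (c * Γ) * (CX * a U) := mul_le_mul' hc le_rfl
            _ = _ := by ring
        · exact zero_le
      · rw [Set.indicator_of_notMem (by exact h)]
        exact zero_le
    exact h4.trans (mul_le_mul' le_rfl (bs_le_NN _ g))
  refine (Finset.sum_le_sum h3).trans ?_
  rw [Finset.sum_const, nsmul_eq_mul]
  calc (net.card : ℝ≥0∞) * (c * CX * NN d r Γ a)
      ≤ (n : ℝ≥0∞) * (c * CX * NN d r Γ a) := mul_le_mul_left (Nat.cast_le.2 hcard) _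
    _ = c * CX * ((n : ℝ≥0∞) * NN d r Γ a) := by ring

end gen

/-! ### the norms of `H_k` and `A_k` -/

variable {G : Type} [CommRing G] [CN G] [DecidableEq G]
variable {w : BW G} {a a' : ℝ} {r r' : ℕ} {Γ Γ' : ℝ≥0∞} {em em' : Finset (G × G) → Prop}
variable {κ : Type*} [Fintype κ] {A : κ → Set (G × G)} {m N : κ → ℕ} {q : κ → ℝ≥0∞}
  {qL qT CX : ℝ≥0∞} {ac : Finset (G × G) → Prop}

/-- all polymers -/
def allP : Finset (G × G) → Prop := fun _ => True

/-- the number of old balls covering a new ball -/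
def nn2 (r r' : ℕ) : ℕ := (2 * (r' / r) + 3) ^ 2

/-- per-polymer bound of the convolved activity, all active polymers -/
theorem DStep.pG_H_le [GoodG G] {S : Cov (Fld G)} {c : ℝ≥0∞}
    (H : DStep w a a' r r' Γ Γ' S ac em A m N q qL qT) (hrr : r ≤ r') (hΓ : 1 ≤ Γ)
    (hc : Γ' ≤ c * Γ) {U : Finset (G × G)} (hac : ac U) (hne : U.Nonempty) (K : Ge (Fld G)) :
    Γ' ^ pack fd r' U * pG (wU w a' r' U) (cvG S K) ≤
      (qL + c * qT) * (Γ ^ pack fd r U * pG (wU w a r U) K) := by
  have hΓ0 : Γ ^ pack fd r U ≠ 0 := pow_ne_zero _ (lt_of_lt_of_le one_pos hΓ).ne'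
  by_cases hfin : pG (wU w a r U) K = ∞
  · rw [hfin, ENNReal.mul_top hΓ0, ENNReal.mul_top]
    · exact le_top
    · intro h
      exact H.qL_ne (add_eq_zero.1 h).1
  by_cases hs : size r U ≤ 1
  · have h1 := H.any U hac hs K hfin
    rw [Bridgex915.size_eq_pack] at hs
    have hp : pack fd r U = 1 := le_antisymm hs (pack_pos hne)
    have hp' : pack fd r' U = 1 :=
      le_antisymm ((pack_anti hrr).trans hs) (pack_pos hne)
    rw [hp, hp', pow_one, pow_one]
    calc Γ' * pG (wU w a' r' U) (cvG S K) ≤ (c * Γ) * (qT * pG (wU w a r U) K) :=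
          mul_le_mul' hc h1
      _ = (c * qT) * (Γ * pG (wU w a r U) K) := by ring
      _ ≤ _ := mul_le_mul' le_add_self le_rfl
  · have h1 := H.large U hac (by omega) K hfin
    rw [Bridgex915.size_eq_pack, Bridgex915.size_eq_pack] at h1
    exact h1.trans (mul_le_mul' le_self_add le_rfl)

/-- **norm of the convolved activities** -/
theorem NK_H_le [GoodG G] (D : Sys (G × G) (Fld G)) (k : ℕ) {c : ℝ≥0∞}
    (H : DStep w a a' r r' Γ Γ' (D.S k) ac em A m N q qL qT) (hr : 0 < r) (hrr : r ≤ r')
    (hΓ : 1 ≤ Γ) (hc : Γ' ≤ c * Γ)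
    (hac : ∀ U, D.K k U ≠ 0 → ac U) (hne : ∀ U, ac U → U.Nonempty) :
    NK w a' r' Γ' allP (fun U => ((D.H k U : Ge (Fld G)) : Gr (Fld G))) ≤
      (qL + c * qT) * (nn2 r r' *
        NK w a r Γ allP (fun U => ((D.K k U : Ge (Fld G)) : Gr (Fld G)))) := by
  rw [NK_eq_NN, NK_eq_NN]
  refine NN_step2 (fun U hU => ?_) (cov_fd hr r')
  rw [act_of (p := allP) trivial] at hU ⊢
  rw [act_of (p := allP) trivial]
  have hK : D.K k U ≠ 0 := by
    intro h
    apply hU
    rw [Sys.H, h, map_zero]
    simp
  exact H.pG_H_le hrr hΓ hc (hac U hK) (hne U (hac U hK)) _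

/-- the extraction maps are bounded: total size of the moved parts -/
def XBd (w : BW G) (a a' : ℝ) (r r' : ℕ) (ac : Finset (G × G) → Prop) (D : Sys (G × G) (Fld G))
    (k : ℕ) (CX : ℝ≥0∞) : Prop :=
  ∀ U, ac U → ∑ T ∈ (D.e k).out U, pG (wU w a' r' T) ((D.e k).X U T (D.H k U)) ≤
    CX * pG (wU w a r U) (D.K k U)

theorem XBd.lost {D : Sys (G × G) (Fld G)} {k : ℕ} (h : XBd w a a' r r' ac D k CX)
    {U : Finset (G × G)} (hU : ac U) :
    pG (wU w a' r' U) ((D.e k).lost (D.H k) U) ≤ CX * pG (wU w a r U) (D.K k U) := by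
  refine le_trans ?_ (h U hU)
  rw [Extr.lost]
  refine (pG_sum_le _ _ _).trans (Finset.sum_le_sum fun T hT => ?_)
  exact pnorm_le_pnorm (fun l => wU_anti w a' r' ((D.e k).sub U T hT) l) _

/-- **norm of the exponent** -/
theorem NK_A_le [GoodG G] (D : Sys (G × G) (Fld G)) (k : ℕ) {c : ℝ≥0∞}
    (H : DStep w a a' r r' Γ Γ' (D.S k) ac em A m N q qL qT) (hr : 0 < r) (hrr : r ≤ r')
    (hΓ : 1 ≤ Γ) (hΓΓ : Γ ≤ Γ') (hc : Γ' ≤ c * Γ)
    (hac : ∀ U, D.K k U ≠ 0 → ac U) (hne : ∀ U, ac U → U.Nonempty)
    (hvac : VacCt D) (he : EmbExtr r em' (D.e k)) (hX : XBd w a a' r r' ac D k CX) :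
    NK w a' r' Γ' allP (fun U => ((D.A k U : Ge (Fld G)) : Gr (Fld G))) ≤
      (qL + c * qT + 2 * (c * CX)) * (nn2 r r' *
        NK w a r Γ allP (fun U => ((D.K k U : Ge (Fld G)) : Gr (Fld G)))) := by
  classical
  have hΓ' : 1 ≤ Γ' := hΓ.trans hΓΓ
  -- the three parts
  have h0 : NK w a' r' Γ' allP (fun U => ((D.A k U : Ge (Fld G)) : Gr (Fld G))) ≤
      NN fd r' Γ' (fun U => (pG (wU w a' r' U) ((D.e k).gain (D.H k) U) +
        pG (wU w a' r' U) ((D.e k).lost (D.H k) U)) + pG (wU w a' r' U) (D.vac (D.H k U))) := by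
    rw [NK_eq_NN]
    refine NN_mono fun U => ?_
    rw [act_of (p := allP) trivial, ← pG_def, Sys.A, AA]
    exact (pG_sub_le _ _ _).trans (add_le_add (pG_sub_le _ _ _) le_rfl)
  refine h0.trans ((NN_add_le _ _).trans ?_)
  have hK0 : ∀ U, D.K k U = 0 → D.H k U = 0 := fun U h => by rw [Sys.H, h, map_zero]
  -- gain
  have hg : NN fd r' Γ' (fun U => pG (wU w a' r' U) ((D.e k).gain (D.H k) U)) ≤
      c * CX * (nn2 r r' * NN fd r Γ (fun U => pG (wU w a r U) (D.K k U))) := by
    refine NN_gain_le (D.e k) _ _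
      (fun U T => pG (wU w a' r' T) ((D.e k).X U T (D.H k U))) ?_ ?_ ?_ hΓ' hc (cov_fd hr r')
    · intro T
      rw [Extr.gain]
      exact pG_sum_le _ _ _
    · intro U T hT
      obtain ⟨hs, f, _, hTf, _⟩ := he U T hT
      rw [Bridgex915.size_eq_pack] at hs
      exact ⟨hs, by rw [hTf, Finset.card_singleton]⟩
    · intro U
      by_cases h : D.K k U = 0
      · rw [Finset.sum_eq_zero fun T _ => by rw [hK0 U h, map_zero, pG_zero]]
        exact zero_le
      · exact hX U (hac U h)
  -- lost
  have hl : NN fd r' Γ' (fun U => pG (wU w a' r' U) ((D.e k).lost (D.H k) U)) ≤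
      c * CX * (nn2 r r' * NN fd r Γ (fun U => pG (wU w a r U) (D.K k U))) := by
    refine NN_step2 (fun U hU => ?_) (cov_fd hr r')
    have hne0 : (D.e k).lost (D.H k) U ≠ 0 := fun h => hU (by rw [h, pG_zero])
    have hK : D.K k U ≠ 0 := by
      intro h
      apply hne0
      rw [Extr.lost]
      exact Finset.sum_eq_zero fun T _ => by rw [hK0 U h, map_zero]
    have hs : size r U ≤ 1 := by
      by_contra hcon
      exact hne0 (he.lost_large _ (by omega))
    rw [Bridgex915.size_eq_pack] at hs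
    have hUne := hne U (hac U hK)
    have hp : pack fd r U = 1 := le_antisymm hs (pack_pos hUne)
    have hp' : pack fd r' U = 1 := le_antisymm ((pack_anti hrr).trans hs) (pack_pos hUne)
    rw [hp, hp', pow_one, pow_one]
    calc Γ' * pG (wU w a' r' U) ((D.e k).lost (D.H k) U)
        ≤ (c * Γ) * (CX * pG (wU w a r U) (D.K k U)) := mul_le_mul' hc (hX.lost (hac U hK))
      _ = _ := by ring
  -- vacuum
  have hv : NN fd r' Γ' (fun U => pG (wU w a' r' U) (D.vac (D.H k U))) ≤
      (qL + c * qT) * (nn2 r r' * NN fd r Γ (fun U => pG (wU w a r U) (D.K k U))) := by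
    refine NN_step2 (fun U hU => ?_) (cov_fd hr r')
    have hK : D.K k U ≠ 0 := by
      intro h
      apply hU
      rw [hK0 U h, map_zero, pG_zero]
    refine le_trans ?_ (H.pG_H_le hrr hΓ hc (hac U hK) (hne U (hac U hK)) _)
    refine mul_le_mul' le_rfl ?_
    rw [hvac]
    exact pG_ct_le _ _
  have hN : NN fd r Γ (fun U => pG (wU w a r U) (D.K k U)) =
      NK w a r Γ allP (fun U => ((D.K k U : Ge (Fld G)) : Gr (Fld G))) := by
    rw [NK_eq_NN]
    congr 1
    funext U
    rw [act_of (p := allP) trivial]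
    rfl
  rw [hN] at hg hl hv
  refine (add_le_add ((NN_add_le _ _).trans (add_le_add hg hl)) hv).trans (le_of_eq ?_)
  ring

end Crest.Agent.R165.DefRecx915
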