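import Crest.Agent.R165.Bar4_304

/-!
# Row 165: the barrier lemma for the spinor Laplacian (helper304), part 5

`Dsp` = discrete Laplacian on faces `(i, j)`, with the sign `-1` on the edges `(i,-1) - (i,0)`,
`i ≥ 0` (branch point = the vertex at the lower left corner of the face `(0, 0)`).

`barrier`: `Dsp u = 0` in the box `InBox R` outside `InBox R0`, `u = 0` outside `InBox R`
⇒ `|u(z)| ≤ C |z|^{-1/2} max_{InBox R0} |u|`.
-/

set_option autoImplicit false

noncomputable section

namespace Crest.Agent.R165.Bar304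

/-- sign of the edge `(i,j) - (i,j+1)` -/
def sB (i j : ℤ) : ℝ := if j = -1 ∧ 0 ≤ i then -1 else 1

/-- spinor Laplacian -/
def Dsp (u : ℤ → ℤ → ℝ) (i j : ℤ) : ℝ :=
  u (i + 1) j + u (i - 1) j + sB i j * u i (j + 1) + sB i (j - 1) * u i (j - 1) - 4 * u i j

/-- the gauge of the reflection -/
def eps (i j : ℤ) : ℝ := if 0 ≤ i ∧ 0 ≤ j then -1 else 1

theorem eps_sq (i j : ℤ) : eps i j * eps i j = 1 := by unfold eps; split_ifs <;> norm_num

theorem eps_swap (i j : ℤ) : eps i j = eps j i := by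
  unfold eps; congr 1; exact propext and_comm

theorem abs_eps (i j : ℤ) : |eps i j| = 1 := by unfold eps; split_ifs <;> norm_num

theorem abs_sB (i j : ℤ) : |sB i j| = 1 := by unfold sB; split_ifs <;> norm_num

/-- reflection in the diagonal -/
def T (u : ℤ → ℤ → ℝ) (i j : ℤ) : ℝ := eps i j * u j i

theorem Dsp_T (u : ℤ → ℤ → ℝ) (i j : ℤ) : Dsp (T u) i j = eps i j * Dsp u j i := by
  have e1 : eps (i + 1) j = eps i j * sB j i := by
    unfold eps sB
    by_cases h1 : 0 ≤ j
    · by_cases h2 : i = -1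
      · subst h2; simp [h1]
      · by_cases h3 : 0 ≤ i
        · have : 0 ≤ i + 1 := by omega
          simp [h1, h2, h3, this]
        · have : ¬ 0 ≤ i + 1 := by omega
          simp [h1, h2, h3, this]
    · simp [h1]
  have e2 : eps (i - 1) j = eps i j * sB j (i - 1) := by
    unfold eps sB
    by_cases h1 : 0 ≤ j
    · by_cases h2 : i = 0
      · subst h2; simp [h1]
      · have h2' : ¬ (i - 1 = -1) := by omega
        by_cases h3 : 0 ≤ i
        · have : 0 ≤ i - 1 := by omega
          simp [h1, h2', h3]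
          intro h; exfalso; omega
        · have : ¬ 0 ≤ i - 1 := by omega
          simp [h1, h2', h3]
          intro h; exfalso; omega
    · simp [h1]
  have e3 : eps i (j + 1) * sB i j = eps i j := by
    rw [eps_swap i (j + 1), eps_swap i j]
    unfold eps sB
    by_cases h1 : 0 ≤ i
    · by_cases h2 : j = -1
      · subst h2; simp [h1]
      · by_cases h3 : 0 ≤ j
        · have : 0 ≤ j + 1 := by omega
          simp [h1, h2, h3, this]
        · have : ¬ 0 ≤ j + 1 := by omega
          simp [h1, h2, h3, this]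
    · simp [h1]
  have e4 : eps i (j - 1) * sB i (j - 1) = eps i j := by
    rw [eps_swap i (j - 1), eps_swap i j]
    unfold eps sB
    by_cases h1 : 0 ≤ i
    · by_cases h2 : j = 0
      · subst h2; simp [h1]
      · have h2' : ¬ (j - 1 = -1) := by omega
        by_cases h3 : 0 ≤ j
        · have : 0 ≤ j - 1 := by omega
          simp [h1, h2', h3]
          intro h; exfalso; omega
        · have : ¬ 0 ≤ j - 1 := by omega
          simp [h1, h2', h3]
          intro h; exfalso; omega
    · simp [h1]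
  unfold Dsp T
  rw [e1, e2]
  linear_combination u (j + 1) i * e3 + u (j - 1) i * e4

theorem InBox_swap {R i j : ℤ} : InBox R i j ↔ InBox R j i := by unfold InBox; tauto

theorem InBox_neg {R i j : ℤ} : InBox R (-1 - i) (-1 - j) ↔ InBox R i j := by
  unfold InBox; omega

theorem rI_neg (i j : ℤ) : rI (-1 - i) (-1 - j) = rI i j := by
  have h1 := rI_sq (-1 - i) (-1 - j)
  have h2 := rI_sq i j
  have h3 := rI_ge_one (-1 - i) (-1 - j)
  have h4 := rI_ge_one i j
  push_cast at h1
  have h5 : rI (-1 - i) (-1 - j) ^ 2 = rI i j ^ 2 := by rw [h1, h2]; ring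
  nlinarith

theorem Dsp_add (u v : ℤ → ℤ → ℝ) (a b : ℝ) (i j : ℤ) :
    Dsp (fun i j => a * u i j + b * v i j) i j = a * Dsp u i j + b * Dsp v i j := by
  unfold Dsp; ring

theorem sub_of_Dsp {u : ℤ → ℤ → ℝ} {i j : ℤ} (h : Dsp u i j = 0) :
    4 * |u i j| ≤ |u (i + 1) j| + |u (i - 1) j| + |u i (j + 1)| + |u i (j - 1)| := by
  have h1 : 4 * u i j = u (i + 1) j + u (i - 1) j + sB i j * u i (j + 1) +
      sB i (j - 1) * u i (j - 1) := by unfold Dsp at h; linarith
  have h2 : 4 * |u i j| = |4 * u i j| := by rw [abs_mul]; norm_num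
  rw [h2, h1]
  have h3 : |sB i j * u i (j + 1)| = |u i (j + 1)| := by rw [abs_mul, abs_sB, one_mul]
  have h4 : |sB i (j - 1) * u i (j - 1)| = |u i (j - 1)| := by rw [abs_mul, abs_sB, one_mul]
  have t1 := abs_add_le (u (i + 1) j + u (i - 1) j + sB i j * u i (j + 1))
    (sB i (j - 1) * u i (j - 1))
  have t2 := abs_add_le (u (i + 1) j + u (i - 1) j) (sB i j * u i (j + 1))
  have t3 := abs_add_le (u (i + 1) j) (u (i - 1) j)
  rw [h4] at t1; rw [h3] at t2
  linarith

/-- **THE BARRIER LEMMA** -/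
theorem barrier : ∃ R0 : ℤ, 1 ≤ R0 ∧ ∃ C : ℝ, 1 ≤ C ∧ ∀ (R : ℤ) (u : ℤ → ℤ → ℝ) (M : ℝ),
    (∀ i j, ¬ InBox R i j → u i j = 0) →
    (∀ i j, InBox R i j → ¬ InBox R0 i j → Dsp u i j = 0) →
    (∀ i j, InBox R0 i j → |u i j| ≤ M) →
    ∀ i j, |u i j| ≤ C * M / √(rI i j) := by
  obtain ⟨R0, hR0, C, hC, hcmp⟩ := compare
  refine ⟨R0, hR0, 2 * C, by linarith, fun R u M hout hD hin i j => ?_⟩
  have hM : 0 ≤ M := (abs_nonneg _).trans (hin 0 0 (by unfold InBox; omega))
  set o : ℤ → ℤ → ℝ := fun i j => (1 / 2) * u i j + (-(1 / 2)) * T u i j with ho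
  set e : ℤ → ℤ → ℝ := fun i j => (1 / 2) * u i j + (1 / 2) * T u i j with he
  have hT0 : ∀ i j, ¬ InBox R i j → T u i j = 0 := fun i j h => by
    unfold T; rw [hout j i (fun hc => h (InBox_swap.1 hc)), mul_zero]
  have hTM : ∀ i j, InBox R0 i j → |T u i j| ≤ M := fun i j h => by
    unfold T; rw [abs_mul, abs_eps, one_mul]; exact hin j i (InBox_swap.1 h)
  have hTD : ∀ i j, InBox R i j → ¬ InBox R0 i j → Dsp (T u) i j = 0 := fun i j h1 h2 => by
    rw [Dsp_T, hD j i (InBox_swap.1 h1) (fun hc => h2 (InBox_swap.1 hc)), mul_zero]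
  have ho_ : ∀ i j, |o i j| ≤ C * M / √(rI i j) := by
    refine hcmp R (fun i j => |o i j|) M ?_ ?_ ?_ ?_ hM
    · intro i j h
      simp only [ho, hout i j h, hT0 i j h]; norm_num
    · intro i hi
      have h1 : T u i i = u i i := by
        unfold T eps
        rw [if_neg (by omega), one_mul]
      simp only [ho, h1]
      rw [show (1 / 2 : ℝ) * u i i + -(1 / 2) * u i i = 0 by ring, abs_zero]
    · intro i j h1 h2
      have h3 : Dsp o i j = 0 := by
        rw [ho, Dsp_add, hD i j h1 h2, hTD i j h1 h2]; ring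
      have := sub_of_Dsp h3
      linarith
    · intro i j h
      have h1 := hin i j h
      have h2 := hTM i j h
      simp only [ho]
      have h3 := abs_add_le (1 / 2 * u i j) (-(1 / 2) * T u i j)
      rw [abs_mul, abs_mul, abs_neg] at h3
      rw [abs_of_pos (by norm_num : (0 : ℝ) < 1 / 2)] at h3
      linarith
  have he_ : ∀ i j, |e (-1 - i) (-1 - j)| ≤ C * M / √(rI i j) := by
    refine hcmp R (fun i j => |e (-1 - i) (-1 - j)|) M ?_ ?_ ?_ ?_ hM
    · intro i j h
      have h' : ¬ InBox R (-1 - i) (-1 - j) := fun hc => h (InBox_neg.1 hc)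
      simp only [he, hout _ _ h', hT0 _ _ h']; norm_num
    · intro i hi
      have h1 : T u (-1 - i) (-1 - i) = - u (-1 - i) (-1 - i) := by
        unfold T eps
        rw [if_pos (by omega)]; ring
      simp only [he, h1]
      rw [show (1 / 2 : ℝ) * u (-1 - i) (-1 - i) + 1 / 2 * -u (-1 - i) (-1 - i) = 0 by ring,
        abs_zero]
    · intro i j h1 h2
      have h1' : InBox R (-1 - i) (-1 - j) := InBox_neg.2 h1
      have h2' : ¬ InBox R0 (-1 - i) (-1 - j) := fun hc => h2 (InBox_neg.1 hc)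
      have h3 : Dsp e (-1 - i) (-1 - j) = 0 := by
        rw [he, Dsp_add, hD _ _ h1' h2', hTD _ _ h1' h2']; ring
      have h4 := sub_of_Dsp h3
      have e1 : (-1 - (i + 1) : ℤ) = -1 - i - 1 := by ring
      have e2 : (-1 - (i - 1) : ℤ) = -1 - i + 1 := by ring
      have e3 : (-1 - (j + 1) : ℤ) = -1 - j - 1 := by ring
      have e4 : (-1 - (j - 1) : ℤ) = -1 - j + 1 := by ring
      simp only [e1, e2, e3, e4]
      linarith
    · intro i j h
      have h' : InBox R0 (-1 - i) (-1 - j) := InBox_neg.2 h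
      have h1 := hin _ _ h'
      have h2 := hTM _ _ h'
      simp only [he]
      have h3 := abs_add_le (1 / 2 * u (-1 - i) (-1 - j)) (1 / 2 * T u (-1 - i) (-1 - j))
      rw [abs_mul, abs_mul] at h3
      rw [abs_of_pos (by norm_num : (0 : ℝ) < 1 / 2)] at h3
      linarith
  have h1 := ho_ i j
  have h2 := he_ (-1 - i) (-1 - j)
  rw [rI_neg] at h2
  rw [show (-1 - (-1 - i) : ℤ) = i by ring, show (-1 - (-1 - j) : ℤ) = j by ring] at h2
  have h3 : u i j = o i j + e i j := by simp only [ho, he]; ring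
  have h4 := abs_add_le (o i j) (e i j)
  rw [← h3] at h4
  calc |u i j| ≤ |o i j| + |e i j| := h4
    _ ≤ C * M / √(rI i j) + C * M / √(rI i j) := add_le_add h1 h2
    _ = 2 * C * M / √(rI i j) := by ring

end Crest.Agent.R165.Bar304
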