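import Crest.Agent.R165.Br3_644
import Crest.Agent.R165.Bar5_304

/-!
# Row 165 (S0250), block U (helper470): the maximum principle near a branch vertex ((AX) of 813)

`wB` = critical plane background with one branch vertex `(0,0)` (Br3_644).
* `cw, cu` : north east and south west corner values of a field
* `R1, R2` : Cauchy-Riemann relations; `Dsp_cw, Dsp_cu` : spinor Laplacians of the corner values
* `ax` : if `A φ = 0` on `|f| ≤ R`, the corner value at the branch vanishes and `|φ| ≤ M` for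
  `R - 1 ≤ |f| ≤ R + 1`, then `|φ| ≤ 2 M` for `|f| ≤ R`.
-/

set_option autoImplicit false

noncomputable section

namespace Crest.Agent.R165.AxMaxx470

open Crest.Agent.R165.Br1x644 Crest.Agent.R165.Latx683
open Crest.Agent.R165.Bar304 (Dsp sub_of_Dsp max_principle)

theorem xc_eq : xc ^ 2 + 2 * xc = 1 := by
  have h2 : √2 * √2 = (2:ℝ) := Real.mul_self_sqrt (by norm_num)
  unfold xc; linear_combination h2

theorem xc_pos : 0 < xc := by
  have : (1 : ℝ) < Real.sqrt 2 := by
    rw [show (1 : ℝ) = Real.sqrt 1 by simp]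
    exact Real.sqrt_lt_sqrt (by norm_num) (by norm_num)
  unfold xc; linarith

/-- the face `(x,y)` is solved -/
def Sol (φ : HE ℤ → ℝ) (x y : ℤ) : Prop := ∀ d : Fin 4, Aop wB φ ((x, y), d) = 0

/-- north east corner value of the face `(x,y)` -/
def cw (φ : HE ℤ → ℝ) (x y : ℤ) : ℝ := -(φ ((x, y), 2) + sg x y * xc * φ ((x, y + 1), 0))
/-- south west corner value of the face `(x,y)` -/
def cu (φ : HE ℤ → ℝ) (x y : ℤ) : ℝ := φ ((x, y), 0) - sg x (y - 1) * xc * φ ((x, y - 1), 2)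

section rel

variable {φ : HE ℤ → ℝ} {x y : ℤ}

theorem Sol.S (h : Sol φ x y) : φ ((x, y), 1) + φ ((x, y), 2) + φ ((x, y), 3)
    + sg x (y - 1) * xc * φ ((x, y - 1), 2) = 0 := by
  have := h 0
  rw [Aop_S] at this
  simp only [yN_wB] at this
  exact this
theorem Sol.E (h : Sol φ x y) : -φ ((x, y), 0) + φ ((x, y), 2) + φ ((x, y), 3)
    + xc * φ ((x + 1, y), 3) = 0 := by
  have := h 1
  rw [Aop_E, yE_wB] at this
  exact this
theorem Sol.N (h : Sol φ x y) : -φ ((x, y), 0) - φ ((x, y), 1) + φ ((x, y), 3)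
    - sg x y * xc * φ ((x, y + 1), 0) = 0 := by
  have := h 2
  rw [Aop_N, yN_wB] at this
  exact this
theorem Sol.W (h : Sol φ x y) : -φ ((x, y), 0) - φ ((x, y), 1) - φ ((x, y), 2)
    - xc * φ ((x - 1, y), 1) = 0 := by
  have := h 3
  rw [Aop_W] at this
  simp only [yE_wB] at this
  exact this

/-- north east corner through the vertical edge -/
theorem cw_hor (h : Sol φ x y) : cw φ x y = φ ((x, y), 1) + xc * φ ((x + 1, y), 3) := by
  unfold cw; linear_combination h.N - h.E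

/-- south west corner through the vertical edge -/
theorem cu_hor (h : Sol φ x y) : cu φ x y = φ ((x, y), 3) - xc * φ ((x - 1, y), 1) := by
  unfold cu; linear_combination -h.S - h.W

/-- first Cauchy-Riemann relation -/
theorem R1 (h : Sol φ x y) (h' : Sol φ (x + 1) y) :
    cu φ (x + 1) y - cu φ x y = cw φ x y - sg x (y - 1) * cw φ x (y - 1) := by
  rw [cu_hor h', cw_hor h]
  unfold cu cw
  simp only [add_sub_cancel_right, sub_add_cancel]
  have hs := sg_sq x (y - 1)
  have h1 := h.S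
  have h2 := h.E
  linear_combination (-(1 + xc)) * h1 + (1 + xc) * h2 + (sg x (y - 1) * φ ((x, y - 1), 2)
    - φ ((x + 1, y), 3)) * xc_eq - xc * φ ((x, y), 0) * hs

/-- second Cauchy-Riemann relation -/
theorem R2 (h : Sol φ x y) (h' : Sol φ (x - 1) y) :
    sg x y * cu φ x (y + 1) - cu φ x y = cw φ (x - 1) y - cw φ x y := by
  rw [cu_hor h, cw_hor h']
  unfold cu cw
  simp only [add_sub_cancel_right, sub_add_cancel]
  have hs := sg_sq x y
  have h1 := h.N
  have h2 := h.W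
  linear_combination (-(1 + xc)) * h1 + (1 + xc) * h2 + (φ ((x - 1, y), 1)
    - sg x y * φ ((x, y + 1), 0)) * xc_eq - xc * φ ((x, y), 2) * hs

theorem sB_eq (x y : ℤ) : Crest.Agent.R165.Bar304.sB x y = sg x y := rfl

/-- spinor Laplacian of the north east corner -/
theorem Dsp_cw (h : Sol φ x y) (h1 : Sol φ (x + 1) y) (h2 : Sol φ (x - 1) y)
    (h3 : Sol φ x (y + 1)) (h4 : Sol φ (x + 1) (y + 1)) :
    Dsp (cw φ) x y = (sg x y - sg (x + 1) y) * cu φ (x + 1) (y + 1) := by
  have a1 := R1 h h1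
  have a2 := R1 h3 h4
  have a3 := R2 h h2
  have a4 := R2 h1 (by rw [add_sub_cancel_right]; exact h)
  rw [add_sub_cancel_right] at a2 a4
  unfold Dsp
  rw [sB_eq, sB_eq]
  have hs := sg_sq x y
  linear_combination a1 - sg x y * a2 - a3 + a4 + cw φ x y * hs

/-- spinor Laplacian of the south west corner -/
theorem Dsp_cu (h : Sol φ x y) (h1 : Sol φ (x + 1) y) (h2 : Sol φ (x - 1) y)
    (h3 : Sol φ x (y - 1)) (h4 : Sol φ (x - 1) (y - 1)) :
    Dsp (cu φ) x y = (sg (x - 1) (y - 1) - sg x (y - 1)) * cw φ (x - 1) (y - 1) := by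
  have a1 := R1 h h1
  have a2 := R1 h2 (by rw [sub_add_cancel]; exact h)
  have a3 := R2 h h2
  have a4 := R2 h3 h4
  rw [sub_add_cancel] at a2 a4
  unfold Dsp
  rw [sB_eq, sB_eq]
  have hs := sg_sq x (y - 1)
  linear_combination a1 - a2 + a3 - sg x (y - 1) * a4 + cu φ x y * hs

/-- the north edge value from the corners -/
theorem val_N (φ : HE ℤ → ℝ) (x y : ℤ) :
    (1 + xc ^ 2) * φ ((x, y), 2) = -cw φ x y - sg x y * xc * cu φ x (y + 1) := by
  unfold cw cu
  rw [add_sub_cancel_right]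
  linear_combination (-xc ^ 2 * φ ((x, y), 2)) * sg_sq x y

/-- the south edge value from the corners -/
theorem val_S (φ : HE ℤ → ℝ) (x y : ℤ) :
    (1 + xc ^ 2) * φ ((x, y), 0) = cu φ x y - sg x (y - 1) * xc * cw φ x (y - 1) := by
  unfold cw cu
  rw [sub_add_cancel]
  linear_combination (-xc ^ 2 * φ ((x, y), 0)) * sg_sq x (y - 1)

/-- the east edge value from the corners -/
theorem val_E (h : Sol φ x y) (h' : Sol φ (x + 1) y) :
    (1 + xc ^ 2) * φ ((x, y), 1) = cw φ x y - xc * cu φ (x + 1) y := by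
  rw [cw_hor h, cu_hor h', add_sub_cancel_right]
  ring

/-- the west edge value from the corners -/
theorem val_W (h : Sol φ x y) (h' : Sol φ (x - 1) y) :
    (1 + xc ^ 2) * φ ((x, y), 3) = cu φ x y + xc * cw φ (x - 1) y := by
  rw [cu_hor h, cw_hor h', sub_add_cancel]
  ring

end rel

/-! ### maximum principle on boxes -/

theorem abs_step (j : ℤ) : |j + 1| ≤ |j| + 1 ∧ |j| ≤ |j + 1| + 1 ∧ |j - 1| ≤ |j| + 1 ∧
    |j| ≤ |j - 1| + 1 := by
  refine ⟨?_, ?_, ?_, ?_⟩ <;>
    (rcases abs_cases j with h | h <;> rcases abs_cases (j + 1) with h1 | h1 <;>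
      rcases abs_cases (j - 1) with h2 | h2 <;> omega)

/-- subharmonic functions on the box `|z| < R` with boundary values `≤ B` are `≤ B` -/
theorem box_max (R : ℤ) (g : ℤ → ℤ → ℝ) (B : ℝ)
    (hsub : ∀ i j : ℤ, |i| < R → |j| < R →
      4 * g i j ≤ g (i + 1) j + g (i - 1) j + g i (j + 1) + g i (j - 1))
    (hbd : ∀ i j : ℤ, |i| ≤ R → |j| ≤ R → (R ≤ |i| ∨ R ≤ |j|) → g i j ≤ B) :
    ∀ i j : ℤ, |i| ≤ R → |j| ≤ R → g i j ≤ B := by
  intro i j hi hj
  set F : ℤ → ℤ → ℝ := fun i j => if |i| ≤ R ∧ |j| ≤ R then g i j - B else 0 with hF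
  have hin : ∀ i j : ℤ, |i| ≤ R → |j| ≤ R → F i j = g i j - B := fun i j h1 h2 => if_pos ⟨h1, h2⟩
  have key := max_principle ((Finset.Ioo (-R) R) ×ˢ (Finset.Ioo (-R) R)) F ?_ ?_ i j
  · rw [hin i j hi hj] at key; linarith
  · rintro ⟨a, b⟩ hab
    simp only [Finset.mem_product, Finset.mem_Ioo] at hab
    obtain ⟨⟨h1, h2⟩, h3, h4⟩ := hab
    simp only
    rw [hin a b (abs_le.2 ⟨by omega, by omega⟩) (abs_le.2 ⟨by omega, by omega⟩),
      hin (a + 1) b (abs_le.2 ⟨by omega, by omega⟩) (abs_le.2 ⟨by omega, by omega⟩),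
      hin (a - 1) b (abs_le.2 ⟨by omega, by omega⟩) (abs_le.2 ⟨by omega, by omega⟩),
      hin a (b + 1) (abs_le.2 ⟨by omega, by omega⟩) (abs_le.2 ⟨by omega, by omega⟩),
      hin a (b - 1) (abs_le.2 ⟨by omega, by omega⟩) (abs_le.2 ⟨by omega, by omega⟩)]
    have := hsub a b (abs_lt.2 ⟨h1, h2⟩) (abs_lt.2 ⟨h3, h4⟩)
    linarith
  · rintro ⟨a, b⟩ hab
    simp only
    by_cases hc : |a| ≤ R ∧ |b| ≤ R
    · rw [hin a b hc.1 hc.2]
      have : R ≤ |a| ∨ R ≤ |b| := by
        by_contra hcon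
        rw [not_or, not_le, not_le, abs_lt, abs_lt] at hcon
        apply hab
        simp only [Finset.mem_product, Finset.mem_Ioo]
        exact hcon
      have := hbd a b hc.1 hc.2 this
      linarith
    · simp only [hF]
      rw [if_neg hc]

/-- **(AX)** maximum principle near the branch vertex -/
theorem ax (R : ℤ) (hR : 1 ≤ R) (φ : HE ℤ → ℝ) (M : ℝ)
    (hA : ∀ x y : ℤ, |x| ≤ R → |y| ≤ R → ∀ d : Fin 4, Aop wB φ ((x, y), d) = 0)
    (h0 : φ ((0, 0), 0) + xc * φ ((0, -1), 2) = 0)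
    (hM : ∀ x y : ℤ, |x| ≤ R + 1 → |y| ≤ R + 1 → (R - 1 ≤ |x| ∨ R - 1 ≤ |y|) →
      ∀ d : Fin 4, |φ ((x, y), d)| ≤ M) :
    ∀ x y : ℤ, |x| ≤ R → |y| ≤ R → ∀ d : Fin 4, |φ ((x, y), d)| ≤ 2 * M := by
  have hx0 := xc_pos
  have hx1 := xc_eq
  have hM0 : 0 ≤ M := (abs_nonneg _).trans (hM (R + 1) 0 (by rw [abs_of_nonneg (by omega)])
    (by rw [abs_zero]; omega) (Or.inl (by rw [abs_of_nonneg (by omega)]; omega)) 0)
  have hsol : ∀ x y : ℤ, |x| ≤ R → |y| ≤ R → Sol φ x y := hA
  have hs1 : ∀ x y : ℤ, |sg x y| = 1 := fun x y => by unfold sg; split_ifs <;> norm_num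
  have hu0 : cu φ 0 0 = 0 := by
    unfold cu
    have : sg 0 (0 - 1) = -1 := by unfold sg; norm_num
    rw [this]
    simp only [zero_sub]
    linarith
  set B : ℝ := (1 + xc) * M with hB
  have hB0 : 0 ≤ B := by positivity
  -- the corner values on the boundary of the box
  have bw : ∀ i j : ℤ, |i| ≤ R → |j| ≤ R → (R ≤ |i| ∨ R ≤ |j|) → |cw φ i j| ≤ B := by
    intro i j hi hj hb
    have hst := abs_step j
    have t1 := hM i j (by omega) (by omega) (by omega) 2
    have t2 := hM i (j + 1) (by omega) (by omega) (by omega) 0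
    unfold cw
    rw [abs_neg]
    have t3 := abs_add_le (φ ((i, j), 2)) (sg i j * xc * φ ((i, j + 1), 0))
    have t4 : |sg i j * xc * φ ((i, j + 1), 0)| = xc * |φ ((i, j + 1), 0)| := by
      rw [abs_mul, abs_mul, hs1, one_mul, abs_of_pos hx0]
    rw [t4] at t3
    nlinarith
  have bu : ∀ i j : ℤ, |i| ≤ R → |j| ≤ R → (R ≤ |i| ∨ R ≤ |j|) → |cu φ i j| ≤ B := by
    intro i j hi hj hb
    have hst := abs_step j
    have t1 := hM i j (by omega) (by omega) (by omega) 0
    have t2 := hM i (j - 1) (by omega) (by omega) (by omega) 2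
    unfold cu
    have t3 := abs_sub (φ ((i, j), 0)) (sg i (j - 1) * xc * φ ((i, j - 1), 2))
    have t4 : |sg i (j - 1) * xc * φ ((i, j - 1), 2)| = xc * |φ ((i, j - 1), 2)| := by
      rw [abs_mul, abs_mul, hs1, one_mul, abs_of_pos hx0]
    rw [t4] at t3
    nlinarith
  have mw : ∀ i j : ℤ, |i| ≤ R → |j| ≤ R → |cw φ i j| ≤ B := by
    refine box_max R (fun i j => |cw φ i j|) B ?_ bw
    intro i j hi hj
    rw [abs_lt] at hi hj
    apply sub_of_Dsp
    rw [Dsp_cw (hsol i j (by rw [abs_le]; omega) (by rw [abs_le]; omega))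
      (hsol (i + 1) j (by rw [abs_le]; omega) (by rw [abs_le]; omega))
      (hsol (i - 1) j (by rw [abs_le]; omega) (by rw [abs_le]; omega))
      (hsol i (j + 1) (by rw [abs_le]; omega) (by rw [abs_le]; omega))
      (hsol (i + 1) (j + 1) (by rw [abs_le]; omega) (by rw [abs_le]; omega))]
    by_cases hc : i = -1 ∧ j = -1
    · obtain ⟨rfl, rfl⟩ := hc
      rw [show (-1 : ℤ) + 1 = 0 by norm_num, hu0, mul_zero]
    · have : sg i j = sg (i + 1) j := by
        unfold sg
        by_cases h1 : j = -1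
        · by_cases h2 : 0 ≤ i
          · rw [if_pos ⟨h1, h2⟩, if_pos ⟨h1, by omega⟩]
          · rw [if_neg (by omega), if_neg (by omega)]
        · rw [if_neg (by omega), if_neg (by omega)]
      rw [this, sub_self, zero_mul]
  have mu : ∀ i j : ℤ, |i| ≤ R → |j| ≤ R → |cu φ i j| ≤ B := by
    refine box_max R (fun i j => |cu φ i j|) B ?_ bu
    intro i j hi hj
    rw [abs_lt] at hi hj
    by_cases hc : i = 0 ∧ j = 0
    · obtain ⟨rfl, rfl⟩ := hc
      simp only [hu0, abs_zero, mul_zero]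
      positivity
    · apply sub_of_Dsp
      rw [Dsp_cu (hsol i j (by rw [abs_le]; omega) (by rw [abs_le]; omega))
        (hsol (i + 1) j (by rw [abs_le]; omega) (by rw [abs_le]; omega))
        (hsol (i - 1) j (by rw [abs_le]; omega) (by rw [abs_le]; omega))
        (hsol i (j - 1) (by rw [abs_le]; omega) (by rw [abs_le]; omega))
        (hsol (i - 1) (j - 1) (by rw [abs_le]; omega) (by rw [abs_le]; omega))]
      have : sg (i - 1) (j - 1) = sg i (j - 1) := by
        unfold sg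
        by_cases h1 : j - 1 = -1
        · by_cases h2 : 0 ≤ i - 1
          · rw [if_pos ⟨h1, h2⟩, if_pos ⟨h1, by omega⟩]
          · rw [if_neg (by omega), if_neg (by omega)]
        · rw [if_neg (by omega), if_neg (by omega)]
      rw [this, sub_self, zero_mul]
  -- back to the field
  have fin : ∀ v a b s : ℝ, |s| = 1 → |a| ≤ B → |b| ≤ B →
      (1 + xc ^ 2) * v = a + s * xc * b → |v| ≤ 2 * M := by
    intro v a b s hs ha hb hv
    have h1 : (1 + xc ^ 2) * |v| ≤ (1 + xc) * B := by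
      have : (1 + xc ^ 2) * |v| = |(1 + xc ^ 2) * v| := by
        rw [abs_mul, abs_of_pos (by positivity : (0 : ℝ) < 1 + xc ^ 2)]
      rw [this, hv]
      have t := abs_add_le a (s * xc * b)
      have t2 : |s * xc * b| = xc * |b| := by rw [abs_mul, abs_mul, hs, one_mul, abs_of_pos hx0]
      rw [t2] at t
      nlinarith
    have h2 : (1 + xc) * B = 2 * M := by
      rw [hB]; linear_combination M * hx1
    rw [h2] at h1
    have h3 := abs_nonneg v
    nlinarith [mul_nonneg (sq_nonneg xc) h3]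
  intro x y hx hy d
  by_cases hb : R - 1 ≤ |x| ∨ R - 1 ≤ |y|
  · exact (hM x y (by omega) (by omega) hb d).trans (by linarith)
  · rw [not_or, not_le, not_le, abs_lt, abs_lt] at hb
    fin_cases d
    · refine fin _ (cu φ x y) (cw φ x (y - 1)) (-sg x (y - 1)) (by rw [abs_neg, hs1]) (mu x y hx hy)
        (mw x (y - 1) hx (by rw [abs_le]; omega)) ?_
      have := val_S φ x y
      simp only [Fin.zero_eta, Fin.isValue]
      linear_combination this
    · refine fin _ (cw φ x y) (cu φ (x + 1) y) (-1) (by norm_num) (mw x y hx hy)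
        (mu (x + 1) y (by rw [abs_le]; omega) hy) ?_
      have := val_E (hsol x y hx hy) (hsol (x + 1) y (by rw [abs_le]; omega) hy)
      simp only [Fin.mk_one, Fin.isValue]
      linear_combination this
    · refine fin _ (-cw φ x y) (cu φ x (y + 1)) (-sg x y) (by rw [abs_neg, hs1])
        (by rw [abs_neg]; exact mw x y hx hy) (mu x (y + 1) hx (by rw [abs_le]; omega)) ?_
      have := val_N φ x y
      simp only [Fin.reduceFinMk, Fin.isValue]
      linear_combination this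
    · refine fin _ (cu φ x y) (cw φ (x - 1) y) 1 (by norm_num) (mu x y hx hy)
        (mw (x - 1) y (by rw [abs_le]; omega) hy) ?_
      have := val_W (hsol x y hx hy) (hsol (x - 1) y (by rw [abs_le]; omega) hy)
      simp only [Fin.reduceFinMk, Fin.isValue]
      linear_combination this

/-- (AX) in the form of 813 (sup norm of the face, layer `R - 2 ≤ |f| ≤ R + 1`) -/
theorem ax' (R : ℤ) (hR : 1 ≤ R) (φ : HE ℤ → ℝ) (M : ℝ)
    (hA : ∀ f : ℤ × ℤ, max |f.1| |f.2| ≤ R → ∀ d : Fin 4, Aop wB φ (f, d) = 0)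
    (h0 : φ ((0, 0), 0) + xc * φ ((0, -1), 2) = 0)
    (hM : ∀ f : ℤ × ℤ, R - 2 ≤ max |f.1| |f.2| → max |f.1| |f.2| ≤ R + 1 →
      ∀ d : Fin 4, |φ (f, d)| ≤ M) :
    ∀ f : ℤ × ℤ, max |f.1| |f.2| ≤ R → ∀ d : Fin 4, |φ (f, d)| ≤ 2 * M := by
  rintro ⟨x, y⟩ hf d
  refine ax R hR φ M (fun x y h1 h2 d => hA (x, y) (max_le h1 h2) d) h0
    (fun x y h1 h2 h3 d => hM (x, y) ?_ (max_le h1 h2) d) x y ((le_max_left _ _).trans hf)
    ((le_max_right _ _).trans hf) d
  simp only
  rcases h3 with h3 | h3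
  · exact le_trans (by omega) (le_max_left _ _)
  · exact le_trans (by omega) (le_max_right _ _)

end Crest.Agent.R165.AxMaxx470
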