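import Crest.Agent.R165.Br3_644

/-!
# Row 165 (S0250), block U (helper470): values at the branch vertex ((AX2) of 813)

* `P_one_one : P 1 1 = 2 - √2`, `P_neg_one : P (-1) 1 = √2 - 1` (closed form of the integrals)
* `Pz_one_zero`, `Pz_neg_one_zero`
* `PsiS_lES`, `PsiS_lNW` : the south east and north west corner values of `PsiS` at the face `(0,0)`
  are `-1` (for `E - y W`) and `1` (for `N - y S`): the unit step ratio of the plane is one.
-/

set_option autoImplicit false

noncomputable section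

namespace Crest.Agent.R165.AxValx470

open Real MeasureTheory Set intervalIntegral
open Crest.Agent.R165.Br0x644 Crest.Agent.R165.Br1x644 Crest.Agent.R165.Latx683
open Crest.Agent.R165.Pkx583 (rho rho_nonneg rho_le_one sin_ge sin_pos')

/-- the primitive -/
def HH (u : ℝ) : ℝ :=
  -2 * (3 / 2 * Real.arcsin (Real.cos (u/2) - Real.sin (u/2))
    - 1 / 2 * ((Real.cos (u/2) - Real.sin (u/2)) * √(Real.sin u))
    - √2 * Real.arcsin (rho u))

/-- the integrand -/
def hh (u : ℝ) : ℝ := √(Real.sin u) * (1 - Real.sin u) / (Real.cos (u/2) + Real.sin (u/2))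

theorem half_sq (u : ℝ) : (Real.cos (u/2) + Real.sin (u/2)) ^ 2 = 1 + Real.sin u := by
  have hs : Real.sin u = 2 * Real.sin (u/2) * Real.cos (u/2) := by
    rw [← Real.sin_two_mul]; congr 1; ring
  have h2 := Real.sin_sq_add_cos_sq (u/2)
  rw [hs]; linear_combination h2

theorem half_sq' (u : ℝ) : (Real.cos (u/2) - Real.sin (u/2)) ^ 2 = 1 - Real.sin u := by
  have hs : Real.sin u = 2 * Real.sin (u/2) * Real.cos (u/2) := by
    rw [← Real.sin_two_mul]; congr 1; ring
  have h2 := Real.sin_sq_add_cos_sq (u/2)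
  rw [hs]; linear_combination h2

theorem half_mul (u : ℝ) :
    (Real.cos (u/2) - Real.sin (u/2)) * (Real.cos (u/2) + Real.sin (u/2)) = Real.cos u := by
  have hc : Real.cos u = Real.cos (u/2) ^ 2 - Real.sin (u/2) ^ 2 := by
    have := Real.cos_two_mul' (u/2)
    rw [← this]; congr 1; ring
  rw [hc]; ring

theorem cont_rho : ContinuousOn rho (Icc 0 (π/2)) := by
  unfold rho
  refine ContinuousOn.div (by fun_prop) (by fun_prop) fun u hu => ?_
  have : 0 ≤ Real.sin u := Real.sin_nonneg_of_nonneg_of_le_pi hu.1 (by linarith [hu.2, Real.pi_pos])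
  linarith

theorem cont_HH : ContinuousOn HH (Icc 0 (π/2)) := by
  unfold HH
  have h1 : Continuous fun u : ℝ => Real.arcsin (Real.cos (u/2) - Real.sin (u/2)) :=
    Real.continuous_arcsin.comp (by fun_prop)
  have h2 : ContinuousOn (fun u => Real.arcsin (rho u)) (Icc 0 (π/2)) :=
    Real.continuous_arcsin.comp_continuousOn cont_rho
  have h3 : Continuous fun u : ℝ => (Real.cos (u/2) - Real.sin (u/2)) * √(Real.sin u) := by
    fun_prop
  exact continuousOn_const.mul (((h1.continuousOn.const_mul _).sub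
    (h3.continuousOn.const_mul _)).sub (h2.const_mul _))

theorem deriv_HH {u : ℝ} (h0 : 0 < u) (h1 : u < π/2) : HasDerivAt HH (hh u) u := by
  have hpi := Real.pi_pos
  have hs : 0 < Real.sin u := sin_pos' h0 h1.le
  have hs1 : Real.sin u < 1 := by
    have := Real.sin_lt_sin_of_lt_of_le_pi_div_two (by linarith) le_rfl h1
    rwa [Real.sin_pi_div_two] at this
  set S := Real.sin u with hS
  set q := Real.cos (u/2) + Real.sin (u/2) with hq
  set v := Real.cos (u/2) - Real.sin (u/2) with hv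
  have hq2 : q ^ 2 = 1 + S := half_sq u
  have hv2 : v ^ 2 = 1 - S := half_sq' u
  have hvq : v * q = Real.cos u := half_mul u
  have hq0 : 0 < q := half_pos h0.le h1.le
  have hr : 0 < √S := Real.sqrt_pos.2 hs
  have hrr : √S * √S = S := Real.mul_self_sqrt hs.le
  -- derivative of `v`
  have d0 : HasDerivAt (fun u : ℝ => u/2) (1/2) u := (hasDerivAt_id u).div_const 2
  have dv : HasDerivAt (fun u : ℝ => Real.cos (u/2) - Real.sin (u/2)) (-(1/2) * q) u := by
    refine (d0.cos.sub d0.sin).congr_deriv ?_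
    rw [hq]; ring
  have hv1 : v ≠ 1 := by intro h; rw [h] at hv2; linarith
  have hv1' : v ≠ -1 := by intro h; rw [h] at hv2; linarith
  have e1 : √(1 - v ^ 2) = √S := by rw [hv2]; congr 1; ring
  have dA : HasDerivAt (fun u : ℝ => Real.arcsin (Real.cos (u/2) - Real.sin (u/2)))
      (1 / √S * (-(1/2) * q)) u := by
    have := (Real.hasDerivAt_arcsin hv1' hv1).comp u dv
    rw [e1] at this
    exact this
  have dS : HasDerivAt (fun u : ℝ => √(Real.sin u)) (Real.cos u / (2 * √S)) u :=
    (Real.hasDerivAt_sin u).sqrt hs.ne'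
  have dB : HasDerivAt (fun u : ℝ => (Real.cos (u/2) - Real.sin (u/2)) * √(Real.sin u))
      (-(1/2) * q * √S + v * (Real.cos u / (2 * √S))) u := dv.mul dS
  -- derivative of `rho`
  have hne : 1 + S ≠ 0 := by linarith
  have dR : HasDerivAt rho (-1 / (1 + S)) u := by
    have h := (Real.hasDerivAt_cos u).div ((Real.hasDerivAt_sin u).const_add 1) hne
    have e : (fun u : ℝ => Real.cos u / (1 + Real.sin u)) = rho := rfl
    have h' : HasDerivAt rho ((-Real.sin u * (1 + Real.sin u) - Real.cos u * Real.cos u) /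
      (1 + Real.sin u) ^ 2) u := h
    refine h'.congr_deriv ?_
    have h2 := Real.sin_sq_add_cos_sq u
    rw [← hS] at h2 ⊢
    rw [div_eq_div_iff (by positivity) hne]
    linear_combination (-(1 + S)) * h2
  have hrho : rho u * q = v := rho_half h0.le h1.le
  have hrho2 : 1 - rho u ^ 2 = 2 * S / (1 + S) := by
    have : rho u ^ 2 * (1 + S) = 1 - S := by
      rw [← hq2, ← hv2, ← hrho]; ring
    rw [eq_div_iff hne]; linear_combination -this
  have hρ1 : rho u ≠ 1 := by
    intro h; rw [h] at hrho2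
    have : (0:ℝ) < 2 * S / (1 + S) := by positivity
    rw [← hrho2] at this; norm_num at this
  have hρ2 : rho u ≠ -1 := by
    intro h; rw [h] at hrho2
    have : (0:ℝ) < 2 * S / (1 + S) := by positivity
    rw [← hrho2] at this; norm_num at this
  have e2 : √(1 - rho u ^ 2) = √2 * √S / q := by
    rw [hrho2, Real.sqrt_div (by positivity), Real.sqrt_mul (by norm_num), ← hq2,
      Real.sqrt_sq hq0.le]
  have dC : HasDerivAt (fun u => Real.arcsin (rho u)) (1 / (√2 * √S / q) * (-1 / (1 + S))) u := by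
    have := (Real.hasDerivAt_arcsin hρ2 hρ1).comp u dR
    rw [e2] at this
    exact this
  have hd := (((dA.const_mul (3/2)).sub (dB.const_mul (1/2))).sub (dC.const_mul (√2))).const_mul (-2)
  refine hd.congr_deriv ?_
  unfold hh
  rw [← hS, ← hq, ← hvq]
  have h2 : √2 ≠ 0 := by positivity
  have hq1 : q ≠ 0 := hq0.ne'
  have hr1 : √S ≠ 0 := hr.ne'
  have hSq : 1 + S = q ^ 2 := hq2.symm
  have hr2 : √S ^ 2 = S := by rw [sq, hrr]
  rw [hSq]
  field_simp
  rw [hr2, hv2, hq2]
  ring

theorem int_hh : ∫ u in (0:ℝ)..(π/2), hh u = 3 * π / 2 - √2 * π := by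
  have hpi := Real.pi_pos
  have hcont : ContinuousOn hh (Icc 0 (π/2)) := by
    unfold hh
    refine ContinuousOn.div (by fun_prop) (by fun_prop) fun u hu => ?_
    exact (half_pos hu.1 hu.2).ne'
  have hint : IntervalIntegrable hh volume 0 (π/2) := by
    apply ContinuousOn.intervalIntegrable
    rw [uIcc_of_le (by positivity)]
    exact hcont
  rw [intervalIntegral.integral_eq_sub_of_hasDerivAt_of_le (by positivity) cont_HH
    (fun u hu => deriv_HH hu.1 hu.2) hint]
  have e1 : Real.cos (π/2/2) - Real.sin (π/2/2) = 0 := by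
    rw [show π/2/2 = π/4 by ring, Real.cos_pi_div_four, Real.sin_pi_div_four]; ring
  have e2 : rho (π/2) = 0 := by unfold rho; simp
  have e3 : rho 0 = 1 := by unfold rho; simp
  unfold HH
  rw [e1, e2, e3]
  simp only [zero_div, Real.cos_zero, Real.sin_zero, sub_zero, Real.arcsin_one, Real.arcsin_zero,
    Real.sqrt_zero]
  ring

/-- the difference of the two integrands -/
theorem diff_pt {u : ℝ} (h0 : 0 < u) (h1 : u ≤ π/2) :
    amp u * (rho u ^ 1 * ph 1 u) - amp u * (rho u ^ 1 * ph (-1) u) = hh u := by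
  have hs : 0 < Real.sin u := sin_pos' h0 h1
  have hq0 : 0 < Real.cos (u/2) + Real.sin (u/2) := half_pos h0.le h1
  have hrho := rho_half h0.le h1
  have hsq := half_sq' u
  have e1 : ph 1 u - ph (-1) u = √2 * Real.sin u * (Real.cos (u/2) - Real.sin (u/2)) := by
    unfold Br0x644.ph
    have a1 : (((1:ℤ):ℝ) + 1/2) * u - π/4 = u + (u/2 - π/4) := by push_cast; ring
    have a2 : (((-1:ℤ):ℝ) + 1/2) * u - π/4 = -(u - (u/2 - π/4)) := by push_cast; ring
    rw [a1, a2, Real.cos_neg, Real.cos_add u, Real.cos_sub u, Real.sin_sub, Real.cos_pi_div_four,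
      Real.sin_pi_div_four]
    ring
  have e2 : rho u = (Real.cos (u/2) - Real.sin (u/2)) / (Real.cos (u/2) + Real.sin (u/2)) := by
    rw [eq_div_iff hq0.ne']; exact hrho
  have e3 : amp u * (√2 * Real.sin u) = √(Real.sin u) := by
    unfold amp
    rw [Real.sqrt_mul (by norm_num)]
    have h2 : √2 ≠ 0 := by positivity
    have h3 : √(Real.sin u) ≠ 0 := (Real.sqrt_pos.2 hs).ne'
    have h4 : √(Real.sin u) * √(Real.sin u) = Real.sin u := Real.mul_self_sqrt hs.le
    field_simp
    rw [sq]; exact h4.symm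
  rw [pow_one, ← mul_sub, ← mul_sub, e1, e2]
  unfold hh
  rw [← e3, ← hsq]
  field_simp

theorem P_diff : P 1 1 - P (-1) 1 = 3 - 2 * √2 := by
  have hpi := Real.pi_pos
  unfold P
  rw [← mul_sub, ← intervalIntegral.integral_sub (ii_P _ _) (ii_P _ _)]
  have : ∫ u in (0:ℝ)..(π/2), (amp u * (rho u ^ 1 * ph 1 u) - amp u * (rho u ^ 1 * ph (-1) u)) =
      ∫ u in (0:ℝ)..(π/2), hh u := by
    apply intervalIntegral.integral_congr_ae
    refine Filter.Eventually.of_forall fun u hu => ?_
    rw [uIoc_of_le (by positivity)] at hu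
    exact diff_pt hu.1 hu.2
  rw [this, int_hh]
  field_simp

theorem P_sum : P 1 1 + P (-1) 1 = 1 := by
  have h := cr1 0 0
  have h2 := P_neg (-1) (by norm_num)
  norm_num at h h2
  rw [P_zero, h2] at h
  linarith

theorem P_one_one : P 1 1 = 2 - √2 := by linarith [P_diff, P_sum]
theorem P_neg_one : P (-1) 1 = √2 - 1 := by linarith [P_diff, P_sum]

theorem Pz_one_zero : Pz 1 0 = 2 - √2 := by
  unfold Pz; norm_num; exact P_one_one
theorem Pz_zero_one : Pz 0 1 = 2 - √2 := by rw [Pz_symm]; exact Pz_one_zero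
theorem Pz_neg_one_zero : Pz (-1) 0 = √2 - 1 := by
  unfold Pz; norm_num; exact P_neg_one
theorem Pz_zero_neg_one : Pz 0 (-1) = √2 - 1 := by rw [Pz_symm]; exact Pz_neg_one_zero

/-- south east corner value of `PsiS` at the face `(0,0)` -/
theorem PsiS_lES : PsiS ((0, 0), 1) - xc * PsiS ((1, 0), 3) = -1 := by
  have h2 : √2 * √2 = (2:ℝ) := Real.mul_self_sqrt (by norm_num)
  unfold PsiS
  rw [fieldOf_E, fieldOf_W]
  have a1 : sC (0 + 1) 0 = 1 := by unfold sC; norm_num
  have a2 : sA 0 0 = 1 := by unfold sA; norm_num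
  have a3 : sC 1 0 = 1 := by unfold sC; norm_num
  have a4 : sA (1 - 1) 0 = 1 := by unfold sA; norm_num
  simp only [zero_add, sub_self, a2, a3, neg_zero, Pz_zero, Pz_neg_one_zero,
    div_eq_mul_inv, two_inv, one_mul]
  unfold xc
  linear_combination (-√2/4) * h2

/-- north west corner value of `PsiS` at the face `(0,0)` -/
theorem PsiS_lNW : PsiS ((0, 0), 2) - xc * PsiS ((0, 1), 0) = 1 := by
  have h2 : √2 * √2 = (2:ℝ) := Real.mul_self_sqrt (by norm_num)
  unfold PsiS
  rw [fieldOf_N, fieldOf_S]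
  have a1 : sC 0 0 = -1 := by unfold sC; norm_num
  have a2 : sA 0 0 = 1 := by unfold sA; norm_num
  have a3 : sC 0 1 = -1 := by unfold sC; norm_num
  have a4 : sA (0 - 1) 0 = 1 := by unfold sA; norm_num
  have a5 : sC (0 + 1) 1 = -1 := by unfold sC; norm_num
  have a6 : sA 0 1 = 1 := by unfold sA; norm_num
  have a7 : Pz (-(0 + 1)) (-1) = 0 := Pz_neg _ (by norm_num)
  have a8 : Pz (0 - 1) 0 = √2 - 1 := by rw [zero_sub]; exact Pz_neg_one_zero
  simp only [a1, a2, a3, a4, a5, a6, a7, a8, neg_zero, Pz_zero, Pz_zero_neg_one, Pz_zero_one,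
    div_eq_mul_inv, two_inv]
  unfold xc
  linear_combination (√2/4) * h2

end Crest.Agent.R165.AxValx470
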