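import Mathlib

/-!
# Row 165, barrier lemma, part 1 (helper304): complex Taylor estimates

`H w = (1/4) Σ_k w (1 + δ_k w²)^{-1/2} - w`, `δ_k = ±1 ± i`; `|re (H w)| ≤ C ‖w‖^8 re w`.
-/

set_option autoImplicit false

noncomputable section

open Complex

namespace Crest.Agent.R165.Bar304

/-- `(1+z)^p` -/
def pw (p : ℝ) (z : ℂ) : ℂ := (1 + z) ^ (p : ℂ)

theorem re_pos {z : ℂ} (hz : ‖z‖ ≤ 1 / 2) : 1 / 2 ≤ (1 + z).re := by
  have h := Complex.abs_re_le_norm z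
  have := (abs_le.1 (h.trans hz)).1
  simp only [add_re, one_re]
  linarith

theorem slit {z : ℂ} (hz : ‖z‖ ≤ 1 / 2) : 1 + z ∈ slitPlane := by
  left
  linarith [re_pos hz]

theorem ne0 {z : ℂ} (hz : ‖z‖ ≤ 1 / 2) : 1 + z ≠ 0 := slitPlane_ne_zero (slit hz)

theorem pw_zero (p : ℝ) : pw p 0 = 1 := by simp [pw]

theorem pw_deriv (p : ℝ) {z : ℂ} (hz : ‖z‖ ≤ 1 / 2) :
    HasDerivAt (pw p) ((p : ℂ) * pw (p - 1) z) z := by
  have h1 : HasDerivAt (fun z : ℂ => 1 + z) 1 z := (hasDerivAt_id z).const_add 1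
  have h2 := h1.cpow_const (c := (p : ℂ)) (slit hz)
  have : ((p - 1 : ℝ) : ℂ) = (p : ℂ) - 1 := by push_cast; ring
  unfold pw
  rw [this]
  simpa using h2

theorem pw_norm {p : ℝ} (hp : p ≤ 0) {z : ℂ} (hz : ‖z‖ ≤ 1 / 2) :
    ‖pw p z‖ ≤ (1 / 2 : ℝ) ^ p := by
  have h1 : ‖pw p z‖ = ‖1 + z‖ ^ p := by
    unfold pw
    rw [Complex.norm_cpow_of_ne_zero (ne0 hz)]
    simp
  rw [h1]
  have h2 : (1 / 2 : ℝ) ≤ ‖1 + z‖ := (re_pos hz).trans (Complex.re_le_norm _)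
  exact Real.rpow_le_rpow_of_nonpos (by norm_num) h2 hp

theorem step {f f' : ℂ → ℂ} {n : ℕ} {C : ℝ} (hf : ∀ y, ‖y‖ ≤ 1 / 2 → HasDerivAt f (f' y) y)
    (h0 : f 0 = 0) (hC : 0 ≤ C) (hb : ∀ y, ‖y‖ ≤ 1 / 2 → ‖f' y‖ ≤ C * ‖y‖ ^ n) :
    ∀ z, ‖z‖ ≤ 1 / 2 → ‖f z‖ ≤ C * ‖z‖ ^ (n + 1) := by
  intro z hz
  have hconv : Convex ℝ (Metric.closedBall (0 : ℂ) ‖z‖) := convex_closedBall _ _
  have h1 := hconv.norm_image_sub_le_of_norm_hasDerivWithin_le (f := f) (f' := f')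
    (C := C * ‖z‖ ^ n) (x := 0) (y := z) ?_ ?_ ?_ ?_
  · rw [h0, sub_zero, sub_zero] at h1
    rw [pow_succ, ← mul_assoc]
    exact h1
  · intro y hy
    have hy' : ‖y‖ ≤ ‖z‖ := by simpa using hy
    exact (hf y (hy'.trans hz)).hasDerivWithinAt
  · intro y hy
    have hy' : ‖y‖ ≤ ‖z‖ := by simpa using hy
    refine (hb y (hy'.trans hz)).trans ?_
    gcongr
  · simp
  · simp

theorem e0 (p : ℝ) : ∃ C : ℝ, 0 ≤ C ∧ ∀ z, ‖z‖ ≤ 1 / 2 → ‖pw p z‖ ≤ C * ‖z‖ ^ 0 := by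
  by_cases hp : p ≤ 0
  · exact ⟨(1 / 2 : ℝ) ^ p, by positivity, fun z hz => by simpa using pw_norm hp hz⟩
  · have hcont : ContinuousOn (fun z => ‖pw p z‖) (Metric.closedBall (0 : ℂ) (1 / 2)) := by
      intro z hz
      have hz' : ‖z‖ ≤ 1 / 2 := by simpa using hz
      exact ((pw_deriv p hz').continuousAt.norm).continuousWithinAt
    obtain ⟨C, hC⟩ := (isCompact_closedBall (0 : ℂ) (1 / 2)).bddAbove_image hcont
    refine ⟨max C 0, le_max_right _ _, fun z hz => ?_⟩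
    have : ‖pw p z‖ ≤ C := hC ⟨z, by simpa using hz, rfl⟩
    rw [pow_zero, mul_one]
    exact this.trans (le_max_left _ _)

theorem e1 (p : ℝ) : ∃ C : ℝ, 0 ≤ C ∧ ∀ z, ‖z‖ ≤ 1 / 2 → ‖pw p z - 1‖ ≤ C * ‖z‖ ^ 1 := by
  obtain ⟨C, hC, h⟩ := e0 (p - 1)
  refine ⟨|p| * C, by positivity, ?_⟩
  refine step (f := fun z => pw p z - 1) (f' := fun z => (p : ℂ) * pw (p - 1) z) (n := 0) ?_ ?_
    (by positivity) ?_
  · intro y hy
    exact (pw_deriv p hy).sub_const 1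
  · simp [pw_zero]
  · intro y hy
    rw [norm_mul, Complex.norm_real, Real.norm_eq_abs, mul_assoc]
    exact mul_le_mul_of_nonneg_left (h y hy) (abs_nonneg _)

theorem e2 (p : ℝ) : ∃ C : ℝ, 0 ≤ C ∧ ∀ z, ‖z‖ ≤ 1 / 2 →
    ‖pw p z - 1 - p * z‖ ≤ C * ‖z‖ ^ 2 := by
  obtain ⟨C, hC, h⟩ := e1 (p - 1)
  refine ⟨|p| * C, by positivity, ?_⟩
  refine step (f := fun z => pw p z - 1 - p * z) (f' := fun z => (p : ℂ) * (pw (p - 1) z - 1))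
    (n := 1) ?_ ?_ (by positivity) ?_
  · intro y hy
    have := ((pw_deriv p hy).sub_const 1).sub ((hasDerivAt_id y).const_mul (p : ℂ))
    refine this.congr_deriv ?_
    ring
  · simp [pw_zero]
  · intro y hy
    rw [norm_mul, Complex.norm_real, Real.norm_eq_abs, mul_assoc]
    exact mul_le_mul_of_nonneg_left (h y hy) (abs_nonneg _)

theorem e3 (p : ℝ) : ∃ C : ℝ, 0 ≤ C ∧ ∀ z, ‖z‖ ≤ 1 / 2 →
    ‖pw p z - 1 - p * z - p * (p - 1) / 2 * z ^ 2‖ ≤ C * ‖z‖ ^ 3 := by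
  obtain ⟨C, hC, h⟩ := e2 (p - 1)
  refine ⟨|p| * C, by positivity, ?_⟩
  refine step (f := fun z => pw p z - 1 - p * z - p * (p - 1) / 2 * z ^ 2)
    (f' := fun z => (p : ℂ) * (pw (p - 1) z - 1 - ((p - 1 : ℝ) : ℂ) * z))
    (n := 2) ?_ ?_ (by positivity) ?_
  · intro y hy
    have := (((pw_deriv p hy).sub_const 1).sub ((hasDerivAt_id y).const_mul (p : ℂ))).sub
      ((hasDerivAt_pow 2 y).const_mul ((p : ℂ) * (p - 1) / 2))
    refine this.congr_deriv ?_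
    push_cast
    ring
  · simp [pw_zero]
  · intro y hy
    rw [norm_mul, Complex.norm_real, Real.norm_eq_abs, mul_assoc]
    exact mul_le_mul_of_nonneg_left (h y hy) (abs_nonneg _)

theorem e4 (p : ℝ) : ∃ C : ℝ, 0 ≤ C ∧ ∀ z, ‖z‖ ≤ 1 / 2 →
    ‖pw p z - 1 - p * z - p * (p - 1) / 2 * z ^ 2 - p * (p - 1) * (p - 2) / 6 * z ^ 3‖
      ≤ C * ‖z‖ ^ 4 := by
  obtain ⟨C, hC, h⟩ := e3 (p - 1)
  refine ⟨|p| * C, by positivity, ?_⟩
  refine step (f := fun z => pw p z - 1 - p * z - p * (p - 1) / 2 * z ^ 2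
      - p * (p - 1) * (p - 2) / 6 * z ^ 3)
    (f' := fun z => (p : ℂ) * (pw (p - 1) z - 1 - ((p - 1 : ℝ) : ℂ) * z
      - ((p - 1 : ℝ) : ℂ) * (((p - 1 : ℝ) : ℂ) - 1) / 2 * z ^ 2))
    (n := 3) ?_ ?_ (by positivity) ?_
  · intro y hy
    have := ((((pw_deriv p hy).sub_const 1).sub ((hasDerivAt_id y).const_mul (p : ℂ))).sub
      ((hasDerivAt_pow 2 y).const_mul ((p : ℂ) * (p - 1) / 2))).sub
      ((hasDerivAt_pow 3 y).const_mul ((p : ℂ) * (p - 1) * (p - 2) / 6))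
    refine this.congr_deriv ?_
    push_cast
    ring
  · simp [pw_zero]
  · intro y hy
    rw [norm_mul, Complex.norm_real, Real.norm_eq_abs, mul_assoc]
    exact mul_le_mul_of_nonneg_left (h y hy) (abs_nonneg _)

/-- the four steps -/
def δ : Fin 4 → ℂ := ![1 + I, -1 - I, 1 - I, -1 + I]

theorem δ_norm (k : Fin 4) : ‖δ k‖ ≤ 2 := by
  have h1 : ∀ a b : ℂ, ‖a‖ ≤ 1 → ‖b‖ ≤ 1 → ‖a + b‖ ≤ 2 := fun a b ha hb => by
    have := norm_add_le a b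
    linarith
  fin_cases k
  · exact h1 1 I (by simp) (by simp)
  · have := h1 (-1) (-I) (by simp) (by simp)
    simpa [δ, sub_eq_add_neg] using this
  · have := h1 1 (-I) (by simp) (by simp)
    simpa [δ, sub_eq_add_neg] using this
  · have := h1 (-1) I (by simp) (by simp)
    simpa [δ] using this

theorem avg4 : ∃ C : ℝ, 0 ≤ C ∧ ∀ z : ℂ, ‖z‖ ≤ 1 / 4 →
    ‖(∑ k, pw (-(3 / 2)) (δ k * z)) / 4 - 1‖ ≤ C * ‖z‖ ^ 4 := by
  obtain ⟨C, hC, h⟩ := e4 (-(3 / 2))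
  refine ⟨C * 16, by positivity, fun z hz => ?_⟩
  have hk : ∀ k, ‖δ k * z‖ ≤ 2 * ‖z‖ := fun k => by
    rw [norm_mul]
    exact mul_le_mul_of_nonneg_right (δ_norm k) (norm_nonneg _)
  have hk2 : ∀ k, ‖δ k * z‖ ≤ 1 / 2 := fun k => (hk k).trans (by linarith)
  set p : ℂ := ((-(3 / 2) : ℝ) : ℂ) with hp
  set E : Fin 4 → ℂ := fun k => pw (-(3 / 2)) (δ k * z) - 1 - p * (δ k * z)
    - p * (p - 1) / 2 * (δ k * z) ^ 2 - p * (p - 1) * (p - 2) / 6 * (δ k * z) ^ 3 with hE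
  have hEb : ∀ k, ‖E k‖ ≤ C * 16 * ‖z‖ ^ 4 := fun k => by
    refine (h _ (hk2 k)).trans ?_
    have : ‖δ k * z‖ ^ 4 ≤ (2 * ‖z‖) ^ 4 := pow_le_pow_left₀ (norm_nonneg _) (hk k) 4
    calc C * ‖δ k * z‖ ^ 4 ≤ C * (2 * ‖z‖) ^ 4 := mul_le_mul_of_nonneg_left this hC
      _ = C * 16 * ‖z‖ ^ 4 := by ring
  have hI : I ^ 2 = -1 := I_sq
  have key : (∑ k, pw (-(3 / 2)) (δ k * z)) / 4 - 1 = (∑ k, E k) / 4 := by
    have : ∀ k, pw (-(3 / 2)) (δ k * z) = E k + 1 + p * (δ k * z)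
      + p * (p - 1) / 2 * (δ k * z) ^ 2 + p * (p - 1) * (p - 2) / 6 * (δ k * z) ^ 3 := fun k => by
      simp only [hE]
      ring
    simp only [Fin.sum_univ_four, this]
    have h3 : I ^ 3 = -I := by
      rw [pow_succ, I_sq]
      ring
    simp only [δ, Matrix.cons_val_zero, Matrix.cons_val_one, Matrix.cons_val_two,
      Matrix.cons_val_three, Matrix.head_cons, Matrix.tail_cons]
    linear_combination (p * (p - 1) / 2 * z ^ 2) * hI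
  rw [key, norm_div]
  have : ‖∑ k, E k‖ ≤ 4 * (C * 16 * ‖z‖ ^ 4) := by
    refine (norm_sum_le _ _).trans ?_
    calc ∑ k, ‖E k‖ ≤ ∑ _k : Fin 4, C * 16 * ‖z‖ ^ 4 := Finset.sum_le_sum fun k _ => hEb k
      _ = 4 * (C * 16 * ‖z‖ ^ 4) := by simp
  have h4 : ‖(4 : ℂ)‖ = 4 := by simp
  rw [h4, div_le_iff₀ (by norm_num)]
  linarith

end Crest.Agent.R165.Bar304
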