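import Crest.Agent.R165.Bar1_304

/-!
# Row 165, barrier lemma, part 2 (helper304): the functions `U, V`, neighbours and mean values
-/

set_option autoImplicit false

noncomputable section

open Complex ComplexConjugate

namespace Crest.Agent.R165.Bar304

/-- `w (1 + d w²)^{-1/2}` -/
def cw (d w : ℂ) : ℂ := w * pw (-(1 / 2)) (d * w ^ 2)

theorem pw_succ (p : ℝ) {z : ℂ} (hz : ‖z‖ ≤ 1 / 2) : pw (p + 1) z = pw p z * (1 + z) := by
  unfold pw
  push_cast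
  rw [cpow_add _ _ (ne0 hz), cpow_one]

theorem cw_deriv (d : ℂ) {w : ℂ} (h : ‖d * w ^ 2‖ ≤ 1 / 2) :
    HasDerivAt (cw d) (pw (-(3 / 2)) (d * w ^ 2)) w := by
  have h1 : HasDerivAt (fun w : ℂ => d * w ^ 2) (d * (2 * w)) w := by
    have := (hasDerivAt_pow 2 w).const_mul d
    refine this.congr_deriv ?_
    push_cast
    ring
  have h2 := (pw_deriv (-(1 / 2)) h).comp w h1
  have h3 := (hasDerivAt_id w).mul h2
  have e1 : pw (-(1 / 2)) (d * w ^ 2) = pw (-(3 / 2)) (d * w ^ 2) * (1 + d * w ^ 2) := by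
    have := pw_succ (-(3 / 2)) h
    rw [← this]
    norm_num
  have e2 : pw (-(1 / 2) - 1) (d * w ^ 2) = pw (-(3 / 2)) (d * w ^ 2) := by norm_num
  have h4 : HasDerivAt (cw d) (1 * pw (-(1 / 2)) (d * w ^ 2) +
      w * (((-(1 / 2) : ℝ) : ℂ) * pw (-(1 / 2) - 1) (d * w ^ 2) * (d * (2 * w)))) w := h3
  refine h4.congr_deriv ?_
  rw [e1, e2]
  push_cast
  ring

/-- the error function -/
def HH (w : ℂ) : ℂ := (∑ k, cw (δ k) w) / 4 - w

theorem HH_deriv {w : ℂ} (h : ‖w‖ ≤ 1 / 2) :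
    HasDerivAt HH ((∑ k, pw (-(3 / 2)) (δ k * w ^ 2)) / 4 - 1) w := by
  have hk : ∀ k, ‖δ k * w ^ 2‖ ≤ 1 / 2 := fun k => by
    rw [norm_mul, norm_pow]
    have : ‖w‖ ^ 2 ≤ (1 / 2) ^ 2 := pow_le_pow_left₀ (norm_nonneg _) h 2
    calc ‖δ k‖ * ‖w‖ ^ 2 ≤ 2 * (1 / 2) ^ 2 :=
          mul_le_mul (δ_norm k) this (by positivity) (by norm_num)
      _ = 1 / 2 := by norm_num
  have h1 : HasDerivAt (fun w => ∑ k, cw (δ k) w) (∑ k, pw (-(3 / 2)) (δ k * w ^ 2)) w :=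
    HasDerivAt.fun_sum fun k _ => cw_deriv (δ k) (hk k)
  exact (h1.div_const 4).sub (hasDerivAt_id w)

theorem pw_conj (p : ℝ) {z : ℂ} (hz : ‖z‖ ≤ 1 / 2) : pw p (conj z) = conj (pw p z) := by
  unfold pw
  have h1 : (1 : ℂ) + conj z = conj (1 + z) := by simp
  have harg : (1 + z).arg ≠ Real.pi := (mem_slitPlane_iff_arg.1 (slit hz)).1
  rw [h1, conj_cpow _ _ harg]
  simp

theorem HH_im_axis {y : ℝ} (h : |y| ≤ 1 / 2) : (HH (y * I)).re = 0 := by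
  have hw : ((y : ℂ) * I) ^ 2 = ((-(y ^ 2) : ℝ) : ℂ) := by
    push_cast
    rw [mul_pow, I_sq]
    ring
  have hy : |y| ^ 2 ≤ (1 / 2) ^ 2 := pow_le_pow_left₀ (abs_nonneg _) h 2
  have hk : ∀ k, ‖δ k * ((-(y ^ 2) : ℝ) : ℂ)‖ ≤ 1 / 2 := fun k => by
    rw [norm_mul, Complex.norm_real, Real.norm_eq_abs, abs_neg, abs_pow]
    calc ‖δ k‖ * |y| ^ 2 ≤ 2 * (1 / 2) ^ 2 :=
          mul_le_mul (δ_norm k) hy (by positivity) (by norm_num)
      _ = 1 / 2 := by norm_num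
  have c1 : δ 2 * ((-(y ^ 2) : ℝ) : ℂ) = conj (δ 0 * ((-(y ^ 2) : ℝ) : ℂ)) := by
    simp [δ, sub_eq_add_neg]
  have c2 : δ 3 * ((-(y ^ 2) : ℝ) : ℂ) = conj (δ 1 * ((-(y ^ 2) : ℝ) : ℂ)) := by
    simp [δ, sub_eq_add_neg]
  have d1 := pw_conj (-(1 / 2)) (hk 0)
  have d2 := pw_conj (-(1 / 2)) (hk 1)
  unfold HH cw
  simp only [Fin.sum_univ_four]
  rw [hw, c1, c2, d1, d2]
  set A := pw (-(1 / 2)) (δ 0 * ((-(y ^ 2) : ℝ) : ℂ))
  set B := pw (-(1 / 2)) (δ 1 * ((-(y ^ 2) : ℝ) : ℂ))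
  have : ((y : ℂ) * I * A + y * I * B + y * I * conj A + y * I * conj B) / 4 - y * I
      = ((y * ((A.re + B.re) / 2 - 1) : ℝ) : ℂ) * I := by
    apply Complex.ext <;> simp <;> ring
  rw [this]
  simp

theorem HH_re : ∃ C : ℝ, 0 ≤ C ∧ ∀ w : ℂ, 0 ≤ w.re → ‖w‖ ≤ 1 / 2 →
    |(HH w).re| ≤ C * ‖w‖ ^ 8 * w.re := by
  obtain ⟨C, hC, h⟩ := avg4
  refine ⟨C, hC, fun w hw hn => ?_⟩
  have hconv : Convex ℝ (Metric.closedBall (0 : ℂ) ‖w‖) := convex_closedBall _ _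
  have him : |w.im| ≤ ‖w‖ := abs_im_le_norm w
  have h1 := hconv.norm_image_sub_le_of_norm_hasDerivWithin_le (f := HH)
    (f' := fun w => (∑ k, pw (-(3 / 2)) (δ k * w ^ 2)) / 4 - 1)
    (C := C * ‖w‖ ^ 8) (x := (w.im : ℂ) * I) (y := w) ?_ ?_ ?_ ?_
  · have e1 : w - (w.im : ℂ) * I = (w.re : ℂ) := by
      apply Complex.ext <;> simp
    rw [e1, Complex.norm_real, Real.norm_eq_abs, abs_of_nonneg hw] at h1
    have h2 := (abs_re_le_norm (HH w - HH ((w.im : ℂ) * I))).trans h1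
    rw [sub_re, HH_im_axis (him.trans hn), sub_zero] at h2
    exact h2
  · intro y hy
    have hy' : ‖y‖ ≤ ‖w‖ := by simpa using hy
    exact (HH_deriv (hy'.trans hn)).hasDerivWithinAt
  · intro y hy
    have hy' : ‖y‖ ≤ ‖w‖ := by simpa using hy
    have hy2 : ‖y ^ 2‖ ≤ 1 / 4 := by
      rw [norm_pow]
      calc ‖y‖ ^ 2 ≤ (1 / 2) ^ 2 := pow_le_pow_left₀ (norm_nonneg _) (hy'.trans hn) 2
        _ = 1 / 4 := by norm_num
    refine (h _ hy2).trans ?_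
    have : ‖y ^ 2‖ ^ 4 ≤ ‖w‖ ^ 8 := by
      rw [norm_pow, ← pow_mul]
      exact pow_le_pow_left₀ (norm_nonneg _) hy' 8
    exact mul_le_mul_of_nonneg_left this hC
  · simp [him]
  · simp

/-! ### the real functions -/

/-- modulus -/
def rr (a b : ℝ) : ℝ := √(a ^ 2 + b ^ 2)

/-- real part of `ζ^{-1/2}` -/
def U (a b : ℝ) : ℝ := √((rr a b + a) / 2) / rr a b

/-- minus the imaginary part of `ζ^{-1/2}` -/
def V (a b : ℝ) : ℝ := √((rr a b - a) / 2) / rr a b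

/-- `ζ^{-1/2}` on the closed upper half plane -/
def wz (a b : ℝ) : ℂ := ⟨U a b, -V a b⟩

theorem rr_nonneg (a b : ℝ) : 0 ≤ rr a b := Real.sqrt_nonneg _

theorem rr_sq (a b : ℝ) : rr a b ^ 2 = a ^ 2 + b ^ 2 := Real.sq_sqrt (by positivity)

theorem abs_a_le (a b : ℝ) : |a| ≤ rr a b := Real.abs_le_sqrt (by nlinarith [sq_nonneg b])

theorem abs_b_le (a b : ℝ) : |b| ≤ rr a b := Real.abs_le_sqrt (by nlinarith [sq_nonneg a])

theorem rpa (a b : ℝ) : 0 ≤ rr a b + a := by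
  have := (abs_le.1 (abs_a_le a b)).1
  linarith

theorem rma (a b : ℝ) : 0 ≤ rr a b - a := by
  have := (abs_le.1 (abs_a_le a b)).2
  linarith

theorem U_nonneg (a b : ℝ) : 0 ≤ U a b := div_nonneg (Real.sqrt_nonneg _) (rr_nonneg _ _)

theorem V_nonneg (a b : ℝ) : 0 ≤ V a b := div_nonneg (Real.sqrt_nonneg _) (rr_nonneg _ _)

theorem U_sq (a b : ℝ) : U a b ^ 2 = (rr a b + a) / 2 / rr a b ^ 2 := by
  unfold U
  rw [div_pow, Real.sq_sqrt (by linarith [rpa a b])]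

theorem V_sq (a b : ℝ) : V a b ^ 2 = (rr a b - a) / 2 / rr a b ^ 2 := by
  unfold V
  rw [div_pow, Real.sq_sqrt (by linarith [rma a b])]

theorem UV (a b : ℝ) : U a b * V a b = |b| / 2 / rr a b ^ 2 := by
  unfold U V
  rw [div_mul_div_comm, ← Real.sqrt_mul (by linarith [rpa a b])]
  have : (rr a b + a) / 2 * ((rr a b - a) / 2) = (|b| / 2) ^ 2 := by
    have := rr_sq a b
    rw [div_pow, sq_abs]
    nlinarith
  rw [this, Real.sqrt_sq (by positivity)]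
  ring_nf

theorem wz_norm_sq {a b : ℝ} (hr : 0 < rr a b) : ‖wz a b‖ ^ 2 = 1 / rr a b := by
  rw [← Complex.normSq_eq_norm_sq, Complex.normSq_apply]
  simp only [wz]
  have h1 := U_sq a b
  have h2 := V_sq a b
  have : U a b * U a b + -V a b * -V a b = U a b ^ 2 + V a b ^ 2 := by ring
  rw [this, h1, h2]
  field_simp
  ring

theorem wz_sq {a b : ℝ} (hb : 0 ≤ b) (hr : 0 < rr a b) :
    wz a b ^ 2 * ⟨a, b⟩ = 1 := by
  have h1 := U_sq a b
  have h2 := V_sq a b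
  have h3 := UV a b
  rw [abs_of_nonneg hb] at h3
  have h4 := rr_sq a b
  have hw : wz a b ^ 2 = ⟨a / rr a b ^ 2, -(b / rr a b ^ 2)⟩ := by
    rw [pow_two]
    apply Complex.ext
    · simp only [wz, mul_re]
      have : U a b * U a b - -V a b * -V a b = U a b ^ 2 - V a b ^ 2 := by ring
      rw [this, h1, h2]
      ring
    · simp only [wz, mul_im]
      have : U a b * -V a b + -V a b * U a b = -(2 * (U a b * V a b)) := by ring
      rw [this, h3]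
      ring
  rw [hw]
  have hr2 : rr a b ^ 2 ≠ 0 := by positivity
  apply Complex.ext
  · simp only [mul_re, one_re]
    field_simp
    nlinarith
  · simp only [mul_im, one_im]
    ring

theorem rr_step {a b s t : ℝ} (hs : s ^ 2 = 1) (ht : t ^ 2 = 1) :
    rr a b - 2 ≤ rr (a + s) (b + t) := by
  have key : ∀ x y : ℝ, rr x y = ‖(⟨x, y⟩ : ℂ)‖ := fun x y => by
    rw [Complex.norm_def, Complex.normSq_mk]
    unfold rr
    ring_nf
  rw [key, key]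
  have h1 : (⟨a, b⟩ : ℂ) = ⟨a + s, b + t⟩ - ⟨s, t⟩ := by
    apply Complex.ext <;> simp
  have h2 : ‖(⟨s, t⟩ : ℂ)‖ ≤ 2 := by
    rw [← key]
    unfold rr
    rw [hs, ht]
    rw [Real.sqrt_le_left (by norm_num)]
    norm_num
  have h3 := norm_sub_le (⟨a + s, b + t⟩ : ℂ) ⟨s, t⟩
  rw [← h1] at h3
  linarith

end Crest.Agent.R165.Bar304
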