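import Crest.Agent.R165.Bar2_304

/-!
# Row 165, barrier lemma, part 3 (helper304): `U - U³` is discretely superharmonic

* `nb_re` : the neighbour values are `re (cw (δ k) w)`
* `mean_err`, `var_low`
* `super` : superharmonicity of `W = U - U³` off the slit, far from the origin
-/

set_option autoImplicit false

noncomputable section

open Complex ComplexConjugate

namespace Crest.Agent.R165.Bar304

theorem sq_one_cases {s : ℝ} (hs : s ^ 2 = 1) : s = 1 ∨ s = -1 := by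
  have : (s - 1) * (s + 1) = 0 := by ring_nf; linarith
  rcases mul_eq_zero.1 this with h | h
  · left; linarith
  · right; linarith

theorem norm_st {s t : ℝ} (hs : s ^ 2 = 1) (ht : t ^ 2 = 1) : ‖(⟨s, t⟩ : ℂ)‖ ≤ 2 := by
  rw [Complex.norm_def, Complex.normSq_mk, Real.sqrt_le_left (by norm_num)]
  nlinarith

theorem pw_half_sq {z : ℂ} (hz : ‖z‖ ≤ 1 / 2) : pw (-(1 / 2)) z ^ 2 * (1 + z) = 1 := by
  unfold pw
  rw [← cpow_nat_mul]
  push_cast
  have : (2 : ℂ) * (-(1 / 2)) = -1 := by norm_num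
  rw [this, cpow_neg_one]
  exact inv_mul_cancel₀ (ne0 hz)

/-- neighbours in the closed upper half plane -/
theorem nb : ∃ R : ℝ, 4 ≤ R ∧ ∀ a b s t : ℝ, s ^ 2 = 1 → t ^ 2 = 1 → 0 ≤ b → 0 ≤ b + t →
    R ≤ rr a b → cw ⟨s, t⟩ (wz a b) = wz (a + s) (b + t) := by
  obtain ⟨C, hC, h⟩ := e1 (-(1 / 2))
  refine ⟨4 + 4 * C, by linarith, fun a b s t hs ht hb hbt hR => ?_⟩
  have hr : 0 < rr a b := by linarith
  have hr' : 0 < rr (a + s) (b + t) := by
    have := rr_step (a := a) (b := b) hs ht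
    linarith
  set w := wz a b with hw
  set w' := wz (a + s) (b + t) with hw'
  set d : ℂ := ⟨s, t⟩ with hd
  set c := cw d w with hc
  have hn : ‖w‖ ^ 2 = 1 / rr a b := wz_norm_sq hr
  have hdw : ‖d * w ^ 2‖ ≤ 2 / rr a b := by
    rw [norm_mul, norm_pow, hn]
    have := norm_st hs ht
    calc ‖d‖ * (1 / rr a b) ≤ 2 * (1 / rr a b) := by gcongr
      _ = 2 / rr a b := by ring
  have hdw2 : ‖d * w ^ 2‖ ≤ 1 / 2 := hdw.trans (by
    rw [div_le_div_iff₀ hr (by norm_num)]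
    linarith)
  have hwz : w ^ 2 * (⟨a, b⟩ : ℂ) = 1 := wz_sq hb hr
  have hwz' : w' ^ 2 * (⟨a + s, b + t⟩ : ℂ) = 1 := wz_sq hbt hr'
  have hadd : (⟨a + s, b + t⟩ : ℂ) = ⟨a, b⟩ + d := by
    apply Complex.ext <;> simp [hd]
  have hc2 : c ^ 2 * (⟨a + s, b + t⟩ : ℂ) = 1 := by
    have h1 : w ^ 2 * (⟨a + s, b + t⟩ : ℂ) = 1 + d * w ^ 2 := by
      rw [hadd, mul_add, hwz]
      ring
    have h2 : c ^ 2 * (⟨a + s, b + t⟩ : ℂ)
        = pw (-(1 / 2)) (d * w ^ 2) ^ 2 * (w ^ 2 * (⟨a + s, b + t⟩ : ℂ)) := by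
      rw [hc, cw]
      ring
    rw [h2, h1]
    exact pw_half_sq hdw2
  have hne : (⟨a + s, b + t⟩ : ℂ) ≠ 0 := by
    intro h0
    rw [h0, mul_zero] at hc2
    exact zero_ne_one hc2
  have hsq : (c - w') * (c + w') = 0 := by
    have h1 : (c ^ 2 - w' ^ 2) * (⟨a + s, b + t⟩ : ℂ) = 0 := by
      rw [sub_mul, hc2, hwz', sub_self]
    rcases mul_eq_zero.1 h1 with h2 | h2
    · rw [← h2]; ring
    · exact absurd h2 hne
  rcases mul_eq_zero.1 hsq with h1 | h1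
  · exact sub_eq_zero.1 h1
  · exfalso
    have hcw : c = -w' := eq_neg_of_add_eq_zero_left h1
    have hwpos : 0 < ‖w‖ := by
      by_contra hcon
      have : ‖w‖ = 0 := le_antisymm (not_lt.1 hcon) (norm_nonneg _)
      rw [this] at hn
      have : 0 < 1 / rr a b := by positivity
      rw [← hn] at this
      norm_num at this
    have hclose : ‖c - w‖ < ‖w‖ := by
      have e : c - w = w * (pw (-(1 / 2)) (d * w ^ 2) - 1) := by
        rw [hc, cw]; ring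
      rw [e, norm_mul]
      have h3 := h _ hdw2
      rw [pow_one] at h3
      have h4 : C * ‖d * w ^ 2‖ < 1 := by
        calc C * ‖d * w ^ 2‖ ≤ C * (2 / rr a b) := by gcongr
          _ = 2 * C / rr a b := by ring
          _ < 1 := by
            rw [div_lt_one hr]
            nlinarith
      calc ‖w‖ * ‖pw (-(1 / 2)) (d * w ^ 2) - 1‖ ≤ ‖w‖ * (C * ‖d * w ^ 2‖) := by gcongr
        _ < ‖w‖ * 1 := by gcongr
        _ = ‖w‖ := mul_one _
    have hfar : ‖w‖ ^ 2 ≤ ‖c - w‖ ^ 2 := by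
      rw [hcw, ← Complex.normSq_eq_norm_sq, ← Complex.normSq_eq_norm_sq, Complex.normSq_apply,
        Complex.normSq_apply]
      simp only [hw, hw', wz, sub_re, sub_im, neg_re, neg_im]
      have u1 := U_nonneg a b
      have u2 := U_nonneg (a + s) (b + t)
      have v1 := V_nonneg a b
      have v2 := V_nonneg (a + s) (b + t)
      nlinarith [mul_nonneg u1 u2, mul_nonneg v1 v2]
    have := (sq_le_sq₀ (norm_nonneg _) (norm_nonneg _)).1 hfar
    linarith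

theorem U_neg (a b : ℝ) : U a (-b) = U a b := by
  unfold U rr
  rw [neg_sq]

theorem V_zero {a : ℝ} (ha : 0 < a) : V a 0 = 0 := by
  unfold V rr
  rw [zero_pow (by norm_num), add_zero, Real.sqrt_sq ha.le, sub_self]
  simp

theorem cw_conj {d w : ℂ} (hw : conj w = w) (h : ‖d * w ^ 2‖ ≤ 1 / 2) :
    cw (conj d) w = conj (cw d w) := by
  unfold cw
  have : conj d * w ^ 2 = conj (d * w ^ 2) := by rw [map_mul, map_pow, hw]
  rw [this, pw_conj _ h, map_mul, hw]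

/-- the set where the barrier lives (upper half, off the slit) -/
def Off (a b : ℝ) : Prop := 1 ≤ b ∨ (b = 0 ∧ 0 < a)

/-- neighbour values as real parts -/
theorem nb_re : ∃ R : ℝ, 4 ≤ R ∧ ∀ a b : ℝ, Off a b → R ≤ rr a b → ∀ k,
    (cw (δ k) (wz a b)).re = U (a + (δ k).re) (b + (δ k).im) := by
  obtain ⟨R, hR4, h⟩ := nb
  refine ⟨R, hR4, fun a b hoff hR k => ?_⟩
  have hr : 0 < rr a b := by linarith
  have hst : (δ k).re ^ 2 = 1 ∧ (δ k).im ^ 2 = 1 := by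
    fin_cases k <;> simp [δ]
  have hb : 0 ≤ b := by
    rcases hoff with h1 | ⟨h1, _⟩
    · linarith
    · rw [h1]
  by_cases hbt : 0 ≤ b + (δ k).im
  · have := h a b _ _ hst.1 hst.2 hb hbt hR
    have e : (⟨(δ k).re, (δ k).im⟩ : ℂ) = δ k := by apply Complex.ext <;> rfl
    rw [e] at this
    rw [this]
    rfl
  · have hlt := not_le.1 hbt
    have him : (δ k).im = -1 := by
      rcases sq_one_cases hst.2 with h1 | h1
      · rw [h1] at hlt; linarith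
      · exact h1
    have hb0 : b = 0 ∧ 0 < a := by
      rcases hoff with h1 | h1
      · rw [him] at hlt; linarith
      · exact h1
    obtain ⟨hb1, ha⟩ := hb0
    subst hb1
    have hw : conj (wz a 0) = wz a 0 := by
      apply Complex.ext <;> simp [wz, V_zero ha]
    have hn : ‖wz a 0‖ ^ 2 = 1 / rr a 0 := wz_norm_sq hr
    have e : δ k = conj (⟨(δ k).re, 1⟩ : ℂ) := by
      apply Complex.ext <;> simp [him]
    have hs1 : ((δ k).re) ^ 2 = 1 := hst.1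
    set s := (δ k).re with hs
    have hsmall : ‖(⟨s, 1⟩ : ℂ) * wz a 0 ^ 2‖ ≤ 1 / 2 := by
      rw [norm_mul, norm_pow, hn]
      have := norm_st hs1 (one_pow 2)
      calc ‖(⟨s, 1⟩ : ℂ)‖ * (1 / rr a 0) ≤ 2 * (1 / rr a 0) := by gcongr
        _ ≤ 1 / 2 := by
          rw [mul_one_div, div_le_div_iff₀ hr (by norm_num)]
          linarith
    have h2 := h a 0 s 1 hs1 (one_pow 2) le_rfl (by norm_num) hR
    rw [e, cw_conj hw hsmall, h2, conj_re]
    have e3 : (conj (⟨s, 1⟩ : ℂ)).im = -1 := by simp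
    rw [e3]
    have e4 : (0 : ℝ) + -1 = -(0 + 1) := by norm_num
    rw [e4, U_neg]
    rfl

/-- sum of the four neighbour values -/
def S4 (f : ℝ → ℝ → ℝ) (a b : ℝ) : ℝ := ∑ k, f (a + (δ k).re) (b + (δ k).im)

theorem mean_err : ∃ R C : ℝ, 4 ≤ R ∧ 0 ≤ C ∧ ∀ a b : ℝ, Off a b → R ≤ rr a b →
    |S4 U a b / 4 - U a b| ≤ C * (1 / rr a b) ^ 4 * U a b := by
  obtain ⟨R, hR4, h⟩ := nb_re
  obtain ⟨C, hC, h2⟩ := HH_re
  refine ⟨R, C, hR4, hC, fun a b hoff hR => ?_⟩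
  have hr : 0 < rr a b := by linarith
  have hn : ‖wz a b‖ ^ 2 = 1 / rr a b := wz_norm_sq hr
  have hn2 : ‖wz a b‖ ≤ 1 / 2 := by
    have : ‖wz a b‖ ^ 2 ≤ (1 / 2) ^ 2 := by
      rw [hn, div_le_iff₀ hr]
      nlinarith
    exact abs_le_of_sq_le_sq' this (by norm_num) |>.2
  have h3 := h2 (wz a b) (U_nonneg a b) hn2
  have h4 : (HH (wz a b)).re = S4 U a b / 4 - U a b := by
    have : (HH (wz a b)).re = (∑ k, (cw (δ k) (wz a b)).re) / 4 - (wz a b).re := by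
      unfold HH
      rw [sub_re, ← re_sum]
      congr 1
      have : ((4 : ℝ) : ℂ) = 4 := by norm_num
      rw [← this, Complex.div_ofReal_re]
    rw [this]
    unfold S4
    simp only [h a b hoff hR]
    rfl
  rw [← h4]
  have h5 : ‖wz a b‖ ^ 8 = (1 / rr a b) ^ 4 := by
    rw [← hn, ← pow_mul]
  rw [← h5]
  exact h3

/-- lower bound for the square sum of the two opposite differences -/
theorem var_low : ∃ R : ℝ, 4 ≤ R ∧ ∀ a b : ℝ, Off a b → R ≤ rr a b →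
    (1 / 2) * (1 / rr a b) ^ 3 ≤
      ((cw (δ 0) (wz a b)).re - (cw (δ 1) (wz a b)).re) ^ 2 +
      ((cw (δ 2) (wz a b)).re - (cw (δ 3) (wz a b)).re) ^ 2 := by
  obtain ⟨C, hC, h⟩ := e2 (-(1 / 2))
  refine ⟨4 + 1000 * C + 1000 * C ^ 2, by nlinarith [sq_nonneg C], fun a b hoff hR => ?_⟩
  have hr : 0 < rr a b := by nlinarith [sq_nonneg C]
  set w := wz a b with hw
  have hn : ‖w‖ ^ 2 = 1 / rr a b := wz_norm_sq hr
  set q := 1 / rr a b with hq
  have hq0 : 0 < q := by positivity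
  have hq1 : q * (4 + 1000 * C + 1000 * C ^ 2) ≤ 1 := by
    rw [hq, one_div, inv_mul_le_iff₀ hr, mul_one]
    exact hR
  have hsm : ∀ k, ‖δ k * w ^ 2‖ ≤ 2 * q := fun k => by
    rw [norm_mul, norm_pow, hn]
    exact mul_le_mul_of_nonneg_right (δ_norm k) hq0.le
  have hsm2 : ∀ k, ‖δ k * w ^ 2‖ ≤ 1 / 2 := fun k => (hsm k).trans (by nlinarith [sq_nonneg C])
  -- error terms
  set E : Fin 4 → ℂ := fun k => w * (pw (-(1 / 2)) (δ k * w ^ 2) - 1
    - ((-(1 / 2) : ℝ) : ℂ) * (δ k * w ^ 2)) with hE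
  have hEn : ∀ k, ‖E k‖ ≤ ‖w‖ * (4 * C * q ^ 2) := fun k => by
    rw [hE, norm_mul]
    refine mul_le_mul_of_nonneg_left ?_ (norm_nonneg _)
    refine (h _ (hsm2 k)).trans ?_
    calc C * ‖δ k * w ^ 2‖ ^ 2 ≤ C * (2 * q) ^ 2 :=
          mul_le_mul_of_nonneg_left (pow_le_pow_left₀ (norm_nonneg _) (hsm k) 2) hC
      _ = 4 * C * q ^ 2 := by ring
  have hcw : ∀ k, cw (δ k) w = w - (1 / 2) * (δ k * w ^ 3) + E k := fun k => by
    simp only [hE, cw]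
    push_cast
    ring
  set X : ℂ := (1 + I) * w ^ 3 with hX
  have hd1 : cw (δ 0) w - cw (δ 1) w = -X + (E 0 - E 1) := by
    rw [hcw, hcw]
    simp only [δ, hX, Matrix.cons_val_zero, Matrix.cons_val_one]
    ring
  have hd2 : cw (δ 2) w - cw (δ 3) w = I * X + (E 2 - E 3) := by
    rw [hcw, hcw]
    have hI := I_sq
    simp only [δ, hX, Matrix.cons_val_two, Matrix.cons_val_three, Matrix.head_cons,
      Matrix.tail_cons]
    linear_combination (-(w ^ 3)) * hI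
  have r1 : (cw (δ 0) w).re - (cw (δ 1) w).re = -X.re + (E 0 - E 1).re := by
    rw [← sub_re, hd1]; simp
  have r2 : (cw (δ 2) w).re - (cw (δ 3) w).re = -X.im + (E 2 - E 3).re := by
    rw [← sub_re, hd2]; simp
  have hwn : ‖w‖ ^ 2 = q := hn
  have hb : ∀ i j, ((E i - E j).re) ^ 2 ≤ 64 * C ^ 2 * q ^ 5 := fun i j => by
    have h1 : |(E i - E j).re| ≤ ‖w‖ * (8 * C * q ^ 2) := by
      refine (abs_re_le_norm _).trans ((norm_sub_le _ _).trans ?_)
      calc ‖E i‖ + ‖E j‖ ≤ ‖w‖ * (4 * C * q ^ 2) + ‖w‖ * (4 * C * q ^ 2) := add_le_add (hEn i) (hEn j)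
        _ = ‖w‖ * (8 * C * q ^ 2) := by ring
    calc ((E i - E j).re) ^ 2 = |(E i - E j).re| ^ 2 := (sq_abs _).symm
      _ ≤ (‖w‖ * (8 * C * q ^ 2)) ^ 2 := pow_le_pow_left₀ (abs_nonneg _) h1 2
      _ = ‖w‖ ^ 2 * (64 * C ^ 2 * q ^ 4) := by ring
      _ = 64 * C ^ 2 * q ^ 5 := by rw [hwn]; ring
  have hXn : X.re ^ 2 + X.im ^ 2 = 2 * q ^ 3 := by
    have : ‖X‖ ^ 2 = 2 * q ^ 3 := by
      rw [hX, norm_mul, norm_pow, mul_pow, ← pow_mul]
      have h1 : ‖(1 + I : ℂ)‖ ^ 2 = 2 := by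
        rw [← Complex.normSq_eq_norm_sq, Complex.normSq_apply]
        simp
        norm_num
      have h2 : ‖w‖ ^ (3 * 2) = q ^ 3 := by
        rw [show 3 * 2 = 2 * 3 by norm_num, pow_mul, hwn]
      rw [h1, h2]
    rw [← this, ← Complex.normSq_eq_norm_sq, Complex.normSq_apply]
    ring
  rw [r1, r2]
  have k1 : ∀ x e : ℝ, x ^ 2 / 2 - e ^ 2 ≤ (-x + e) ^ 2 := fun x e => by
    nlinarith [sq_nonneg (x - 2 * e)]
  have k2 := k1 X.re (E 0 - E 1).re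
  have k3 := k1 X.im (E 2 - E 3).re
  have k4 := hb 0 1
  have k5 := hb 2 3
  have k6 : 128 * C ^ 2 * q ^ 5 ≤ (1 / 2) * q ^ 3 := by
    have h1 : 1000 * C ^ 2 * q ≤ 1 := by nlinarith [mul_nonneg hC hq0.le]
    have h2 : q ≤ 1 := by nlinarith [mul_nonneg hC hq0.le, mul_nonneg (sq_nonneg C) hq0.le]
    have h3 : 128 * C ^ 2 * q ≤ 1 / 2 := by nlinarith [mul_nonneg (sq_nonneg C) hq0.le]
    calc 128 * C ^ 2 * q ^ 5 = (128 * C ^ 2 * q) * (q ^ 3 * q) := by ring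
      _ ≤ (1 / 2) * (q ^ 3 * q) := by gcongr
      _ ≤ (1 / 2) * (q ^ 3 * 1) := by gcongr
      _ = (1 / 2) * q ^ 3 := by ring
  nlinarith

/-- the barrier -/
def W (a b : ℝ) : ℝ := U a b - U a b ^ 3

theorem super_alg {u U0 U1 U2 U3 q C : ℝ} (h0 : 0 ≤ U0) (h1 : 0 ≤ U1) (h2 : 0 ≤ U2) (h3 : 0 ≤ U3)
    (hu : 0 ≤ u) (hC : 0 ≤ C) (hq : 0 < q) (hqC : q * (16 + 64 * C) ≤ 1) (huq : u ^ 2 ≤ q)
    (herr : |(U0 + U1 + U2 + U3) / 4 - u| ≤ C * q ^ 4 * u)
    (hvar : (1 / 2) * q ^ 3 ≤ (U0 - U1) ^ 2 + (U2 - U3) ^ 2) :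
    (U0 - U0 ^ 3) + (U1 - U1 ^ 3) + (U2 - U2 ^ 3) + (U3 - U3 ^ 3) ≤ 4 * (u - u ^ 3) := by
  set m := (U0 + U1 + U2 + U3) / 4 with hm
  have hm0 : 0 ≤ m := by positivity
  have hq1 : q ≤ 1 / 16 := by nlinarith [mul_nonneg hC hq.le]
  have hCq : C * q ≤ 1 / 64 := by nlinarith
  have hcoef : C * q ^ 4 ≤ 1 / 2 := by
    calc C * q ^ 4 = (C * q) * q ^ 3 := by ring
      _ ≤ (1 / 64) * 1 := by
        gcongr
        exact pow_le_one₀ hq.le (by linarith)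
      _ ≤ 1 / 2 := by norm_num
  have herr2 : |m - u| ≤ u / 2 := herr.trans (by nlinarith)
  have hm1 : u / 2 ≤ m := by linarith [(abs_le.1 herr2).1]
  have hm2 : m ≤ 3 / 2 * u := by linarith [(abs_le.1 herr2).2]
  -- cubes
  have cube : ∀ x : ℝ, 0 ≤ x → m ^ 3 + 3 * m ^ 2 * (x - m) + 2 * m * (x - m) ^ 2 ≤ x ^ 3 :=
    fun x hx => by nlinarith [mul_nonneg hx (sq_nonneg (x - m))]
  have hcub := add_le_add (add_le_add (cube U0 h0) (cube U1 h1)) (add_le_add (cube U2 h2) (cube U3 h3))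
  have hvs : (1 / 4) * q ^ 3 ≤ (U0 - m) ^ 2 + (U1 - m) ^ 2 + (U2 - m) ^ 2 + (U3 - m) ^ 2 := by
    nlinarith [sq_nonneg (U0 - m + (U1 - m)), sq_nonneg (U2 - m + (U3 - m))]
  have hsum : U0 + U1 + U2 + U3 = 4 * m := by rw [hm]; ring
  have hlow : 4 * m ^ 3 + 2 * m * ((1 / 4) * q ^ 3) ≤ U0 ^ 3 + U1 ^ 3 + U2 ^ 3 + U3 ^ 3 := by
    have h5 : 2 * m * ((1 / 4) * q ^ 3) ≤
        2 * m * ((U0 - m) ^ 2 + (U1 - m) ^ 2 + (U2 - m) ^ 2 + (U3 - m) ^ 2) := by gcongr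
    have h6 : 3 * m ^ 2 * (U0 - m) + 3 * m ^ 2 * (U1 - m) + 3 * m ^ 2 * (U2 - m)
        + 3 * m ^ 2 * (U3 - m) = 3 * m ^ 2 * ((U0 + U1 + U2 + U3) - 4 * m) := by ring
    rw [hsum, sub_self, mul_zero] at h6
    nlinarith
  -- compare m - m^3 with u - u^3
  have hmm : (m - m ^ 3) - (u - u ^ 3) ≤ C * q ^ 4 * u := by
    have e : (m - m ^ 3) - (u - u ^ 3) = (m - u) * (1 - (m ^ 2 + m * u + u ^ 2)) := by ring
    have hbr : m ^ 2 + m * u + u ^ 2 ≤ 1 := by nlinarith [mul_nonneg hm0 hu]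
    have hbr0 : 0 ≤ m ^ 2 + m * u + u ^ 2 := by positivity
    rw [e]
    calc (m - u) * (1 - (m ^ 2 + m * u + u ^ 2)) ≤ |m - u| * (1 - (m ^ 2 + m * u + u ^ 2)) :=
          mul_le_mul_of_nonneg_right (le_abs_self _) (by linarith)
      _ ≤ |m - u| * 1 := mul_le_mul_of_nonneg_left (by linarith) (abs_nonneg _)
      _ ≤ C * q ^ 4 * u := by rw [mul_one]; exact herr
  have hfin : 4 * (C * q ^ 4 * u) ≤ 2 * m * ((1 / 4) * q ^ 3) := by
    have hq3 : 0 ≤ q ^ 3 := by positivity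
    calc 4 * (C * q ^ 4 * u) = 4 * (C * q) * (q ^ 3 * u) := by ring
      _ ≤ 4 * (1 / 64) * (q ^ 3 * u) := by gcongr
      _ ≤ (1 / 4) * (q ^ 3 * u) := by
        have := mul_nonneg hq3 hu
        linarith
      _ = 2 * (u / 2) * ((1 / 4) * q ^ 3) := by ring
      _ ≤ 2 * m * ((1 / 4) * q ^ 3) := by gcongr
  linarith

theorem super : ∃ R : ℝ, 4 ≤ R ∧ ∀ a b : ℝ, Off a b → R ≤ rr a b → S4 W a b ≤ 4 * W a b := by
  obtain ⟨R1, hR1, h1⟩ := nb_re
  obtain ⟨R2, C, hR2, hC, h2⟩ := mean_err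
  obtain ⟨R3, hR3, h3⟩ := var_low
  refine ⟨R1 + R2 + R3 + 16 + 64 * C, by linarith, fun a b hoff hR => ?_⟩
  have hr : 0 < rr a b := by linarith
  have k1 := h1 a b hoff (by linarith)
  have k2 := h2 a b hoff (by linarith)
  have k3 := h3 a b hoff (by linarith)
  rw [k1, k1, k1, k1] at k3
  set q := 1 / rr a b with hq
  have hq0 : 0 < q := by positivity
  have hqC : q * (16 + 64 * C) ≤ 1 := by
    rw [hq, one_div, inv_mul_le_iff₀ hr, mul_one]
    linarith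
  have huq : U a b ^ 2 ≤ q := by
    have hn : ‖wz a b‖ ^ 2 = 1 / rr a b := wz_norm_sq hr
    rw [hq, ← hn, ← Complex.normSq_eq_norm_sq, Complex.normSq_apply]
    simp only [wz]
    nlinarith [mul_self_nonneg (V a b)]
  have k4 : |(U (a + (δ 0).re) (b + (δ 0).im) + U (a + (δ 1).re) (b + (δ 1).im)
      + U (a + (δ 2).re) (b + (δ 2).im) + U (a + (δ 3).re) (b + (δ 3).im)) / 4 - U a b|
      ≤ C * q ^ 4 * U a b := by
    have : S4 U a b = U (a + (δ 0).re) (b + (δ 0).im) + U (a + (δ 1).re) (b + (δ 1).im)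
      + U (a + (δ 2).re) (b + (δ 2).im) + U (a + (δ 3).re) (b + (δ 3).im) := by
      unfold S4
      rw [Fin.sum_univ_four]
    rw [← this]
    exact k2
  have := super_alg (U_nonneg _ _) (U_nonneg _ _) (U_nonneg _ _) (U_nonneg _ _) (U_nonneg a b)
    hC hq0 hqC huq k4 k3
  unfold S4 W
  rw [Fin.sum_univ_four]
  exact this

end Crest.Agent.R165.Bar304
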