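import Crest.Agent.R165.Bar3_304

/-!
# Row 165, barrier lemma, part 4 (helper304): the barrier on the face lattice, comparison

Faces `(i,j)`; branch vertex = common corner of `(-1,-1),(0,-1),(-1,0),(0,0)`; `a = i+j+1`,
`b = i-j`; slit = `{i = j < 0}`.
-/

set_option autoImplicit false

noncomputable section

open Complex ComplexConjugate

namespace Crest.Agent.R165.Bar304

/-- distance (times `√2`) of the face `(i,j)` to the branch vertex -/
def rI (i j : ℤ) : ℝ := rr (i + j + 1) (i - j)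

/-- the barrier on faces -/
def B (i j : ℤ) : ℝ := W (i + j + 1) (i - j)

theorem rI_sq (i j : ℤ) : rI i j ^ 2 = ((i : ℝ) + j + 1) ^ 2 + ((i : ℝ) - j) ^ 2 := rr_sq _ _

theorem rI_ge_one (i j : ℤ) : 1 ≤ rI i j := by
  have h1 := rI_sq i j
  have h2 : (1 : ℤ) ≤ (i + j + 1) ^ 2 + (i - j) ^ 2 := by
    have h3 : i + j + 1 ≠ 0 ∨ i - j ≠ 0 := by omega
    rcases h3 with h3 | h3
    · have : 0 < (i + j + 1) ^ 2 := by positivity
      nlinarith [sq_nonneg (i - j)]
    · have : 0 < (i - j) ^ 2 := by positivity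
      nlinarith [sq_nonneg (i + j + 1)]
  have h4 : (1 : ℝ) ≤ ((i : ℝ) + j + 1) ^ 2 + ((i : ℝ) - j) ^ 2 := by exact_mod_cast h2
  rw [← h1] at h4
  have h5 : 0 ≤ rI i j := rr_nonneg _ _
  nlinarith

theorem W_neg (a b : ℝ) : W a (-b) = W a b := by
  unfold W
  rw [U_neg]

theorem S4_W (a b : ℝ) : S4 W a b = W (a + 1) (b + 1) + W (a - 1) (b - 1) + W (a + 1) (b - 1)
    + W (a - 1) (b + 1) := by
  unfold S4
  rw [Fin.sum_univ_four]
  simp [δ, sub_eq_add_neg]

theorem B_super : ∃ R : ℝ, 4 ≤ R ∧ ∀ i j : ℤ, ¬ (i = j ∧ i < 0) → R ≤ rI i j →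
    B (i + 1) j + B (i - 1) j + B i (j + 1) + B i (j - 1) ≤ 4 * B i j := by
  obtain ⟨R, hR, h⟩ := super
  refine ⟨R, hR, fun i j hs hr => ?_⟩
  have e1 : B (i + 1) j = W (((i : ℝ) + j + 1) + 1) (((i : ℝ) - j) + 1) := by
    unfold B; push_cast; ring_nf
  have e2 : B (i - 1) j = W (((i : ℝ) + j + 1) - 1) (((i : ℝ) - j) - 1) := by
    unfold B; push_cast; ring_nf
  have e3 : B i (j + 1) = W (((i : ℝ) + j + 1) + 1) (((i : ℝ) - j) - 1) := by
    unfold B; push_cast; ring_nf
  have e4 : B i (j - 1) = W (((i : ℝ) + j + 1) - 1) (((i : ℝ) - j) + 1) := by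
    unfold B; push_cast; ring_nf
  rw [e1, e2, e3, e4]
  unfold B
  by_cases hij : j ≤ i
  · have hoff : Off ((i : ℝ) + j + 1) ((i : ℝ) - j) := by
      rcases eq_or_lt_of_le hij with h1 | h1
      · right
        refine ⟨by rw [h1]; ring, ?_⟩
        have : 0 ≤ i := by
          by_contra hc
          exact hs ⟨h1.symm, by omega⟩
        have h2 : (0 : ℝ) ≤ i := by exact_mod_cast this
        have h3 : (0 : ℝ) ≤ j := by rw [h1]; exact h2
        linarith
      · left
        have : (1 : ℤ) ≤ i - j := by omega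
        exact_mod_cast this
    have := h _ _ hoff hr
    rw [S4_W] at this
    exact this
  · have hoff : Off ((i : ℝ) + j + 1) (-((i : ℝ) - j)) := by
      left
      have : (1 : ℤ) ≤ -(i - j) := by omega
      exact_mod_cast this
    have hr2 : R ≤ rr ((i : ℝ) + j + 1) (-((i : ℝ) - j)) := by
      have : rr ((i : ℝ) + j + 1) (-((i : ℝ) - j)) = rI i j := by
        unfold rI rr
        rw [neg_sq]
      rw [this]
      exact hr
    have := h _ _ hoff hr2
    rw [S4_W] at this
    have k : ∀ x : ℝ, W x (-((i : ℝ) - j) + 1) = W x (((i : ℝ) - j) - 1) := fun x => by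
      rw [← W_neg]; congr 1; ring
    have k2 : ∀ x : ℝ, W x (-((i : ℝ) - j) - 1) = W x (((i : ℝ) - j) + 1) := fun x => by
      rw [← W_neg]; congr 1; ring
    rw [k, k2, k2, k, W_neg] at this
    linarith

theorem U_sq_le (a b : ℝ) (hr : 0 < rr a b) : U a b ^ 2 ≤ 1 / rr a b := by
  have hn : ‖wz a b‖ ^ 2 = 1 / rr a b := wz_norm_sq hr
  rw [← hn, ← Complex.normSq_eq_norm_sq, Complex.normSq_apply]
  simp only [wz]
  nlinarith [mul_self_nonneg (V a b)]

theorem B_nonneg (i j : ℤ) : 0 ≤ B i j := by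
  have h1 := rI_ge_one i j
  have h2 := U_sq_le ((i : ℝ) + j + 1) ((i : ℝ) - j) (by unfold rI at h1; linarith)
  have h3 := U_nonneg ((i : ℝ) + j + 1) ((i : ℝ) - j)
  have h4 : 1 / rr ((i : ℝ) + j + 1) ((i : ℝ) - j) ≤ 1 := by
    rw [div_le_one (by unfold rI at h1; linarith)]
    exact h1
  unfold B W
  nlinarith

theorem B_le (i j : ℤ) : B i j ≤ 1 / √(rI i j) := by
  have h1 := rI_ge_one i j
  have hr : 0 < rI i j := by linarith
  have h2 := U_sq_le ((i : ℝ) + j + 1) ((i : ℝ) - j) hr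
  have h3 := U_nonneg ((i : ℝ) + j + 1) ((i : ℝ) - j)
  have h4 : U ((i : ℝ) + j + 1) ((i : ℝ) - j) ≤ 1 / √(rI i j) := by
    rw [one_div, ← Real.sqrt_inv]
    apply Real.le_sqrt_of_sq_le
    rw [← one_div]
    exact h2
  have h5 : 0 ≤ U ((i : ℝ) + j + 1) ((i : ℝ) - j) ^ 3 := by positivity
  unfold B W
  linarith

/-- lower bound off the slit -/
theorem B_lower (i j : ℤ) (hs : ¬ (i = j ∧ i < 0)) (hr2 : 2 ≤ rI i j) :
    1 / (4 * rI i j ^ 2) ≤ B i j := by
  have hr : 0 < rI i j := by linarith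
  set a : ℝ := (i : ℝ) + j + 1 with ha
  set b : ℝ := (i : ℝ) - j with hb
  set r := rI i j with hrdef
  have hrr : rr a b = r := rfl
  have hrsq : r ^ 2 = a ^ 2 + b ^ 2 := rI_sq i j
  have har : |a| ≤ r := abs_a_le a b
  have ha1 := (abs_le.1 har).1
  have ha2 := (abs_le.1 har).2
  have key : 1 / (2 * r) ≤ r + a := by
    by_cases hij : i = j
    · have hi : 0 ≤ i := by
        by_contra hc
        exact hs ⟨hij, by omega⟩
      have h2 : (0 : ℝ) ≤ i := by exact_mod_cast hi
      have h3 : (0 : ℝ) ≤ j := by rw [← hij]; exact h2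
      have h4 : 0 ≤ a := by rw [ha]; linarith
      calc 1 / (2 * r) ≤ 1 / 4 := by
            apply one_div_le_one_div_of_le (by norm_num)
            linarith
        _ ≤ r + a := by linarith
    · have hb1 : (1 : ℤ) ≤ (i - j) ^ 2 := by
        have : i - j ≠ 0 := by omega
        have : 0 < (i - j) ^ 2 := by positivity
        omega
      have hb2 : (1 : ℝ) ≤ b ^ 2 := by rw [hb]; exact_mod_cast hb1
      have h4 : (r + a) * (r - a) = b ^ 2 := by nlinarith
      have h5 : 0 ≤ r + a := by linarith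
      rw [div_le_iff₀ (by linarith)]
      nlinarith
  have hU2 : 1 / (4 * r ^ 3) ≤ U a b ^ 2 := by
    rw [U_sq, hrr]
    have h6 : 1 / (4 * r ^ 3) = 1 / (2 * r) / 2 / r ^ 2 := by
      field_simp
      ring
    rw [h6]
    gcongr
  have hU : 1 / (2 * r ^ 2) ≤ U a b := by
    have h7 : (1 / (2 * r ^ 2)) ^ 2 ≤ U a b ^ 2 := by
      refine le_trans ?_ hU2
      rw [div_pow, one_pow]
      apply one_div_le_one_div_of_le (by positivity)
      have : r ^ 3 ≤ r ^ 4 := pow_le_pow_right₀ (by linarith) (by norm_num)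
      nlinarith
    exact le_of_sq_le_sq h7 (U_nonneg a b)
  have hUs := U_sq_le a b (by rw [hrr]; exact hr)
  rw [hrr] at hUs
  have h8 : U a b ^ 2 ≤ 1 / 2 := hUs.trans (one_div_le_one_div_of_le (by norm_num) hr2)
  have h9 := U_nonneg a b
  have h10 : U a b / 2 ≤ B i j := by
    have : B i j = U a b - U a b ^ 3 := rfl
    rw [this]
    nlinarith
  calc 1 / (4 * r ^ 2) = (1 / (2 * r ^ 2)) / 2 := by
        field_simp
        ring
    _ ≤ U a b / 2 := by gcongr
    _ ≤ B i j := h10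

/-- maximum principle on the face lattice -/
theorem max_principle (A : Finset (ℤ × ℤ)) (F : ℤ → ℤ → ℝ)
    (hA : ∀ z ∈ A, 4 * F z.1 z.2 ≤ F (z.1 + 1) z.2 + F (z.1 - 1) z.2 + F z.1 (z.2 + 1)
      + F z.1 (z.2 - 1))
    (hF : ∀ z, z ∉ A → F z.1 z.2 ≤ 0) : ∀ i j, F i j ≤ 0 := by
  intro i j
  by_contra hcon
  have hpos := not_le.1 hcon
  have hmem : (i, j) ∈ A := by
    by_contra hn
    exact hcon (hF (i, j) hn)
  obtain ⟨z1, hz1, hmax⟩ := A.exists_max_image (fun z => F z.1 z.2) ⟨_, hmem⟩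
  set m := F z1.1 z1.2 with hm
  have hm0 : 0 < m := lt_of_lt_of_le hpos (hmax _ hmem)
  have hall : ∀ z : ℤ × ℤ, F z.1 z.2 ≤ m := fun z => by
    by_cases h : z ∈ A
    · exact hmax z h
    · exact (hF z h).trans hm0.le
  obtain ⟨z2, hz2, hmax2⟩ := (A.filter fun z => F z.1 z.2 = m).exists_max_image (fun z => z.1)
    ⟨z1, Finset.mem_filter.2 ⟨hz1, rfl⟩⟩
  obtain ⟨hz2A, hz2m⟩ := Finset.mem_filter.1 hz2
  have h1 := hA z2 hz2A
  have n1 := hall (z2.1 + 1, z2.2)
  have n2 := hall (z2.1 - 1, z2.2)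
  have n3 := hall (z2.1, z2.2 + 1)
  have n4 := hall (z2.1, z2.2 - 1)
  simp only at n1 n2 n3 n4
  have h5 : F (z2.1 + 1) z2.2 = m := by linarith
  have h6 : (z2.1 + 1, z2.2) ∈ A := by
    by_contra hn
    have := hF _ hn
    simp only at this
    linarith
  have h7 := hmax2 (z2.1 + 1, z2.2) (Finset.mem_filter.2 ⟨h6, h5⟩)
  simp only at h7
  omega

/-- the box of faces around the branch vertex -/
def InBox (R : ℤ) (i j : ℤ) : Prop := -R ≤ i ∧ i < R ∧ -R ≤ j ∧ j < R

instance (R i j : ℤ) : Decidable (InBox R i j) := by unfold InBox; infer_instance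

theorem rI_of_not_inBox {R i j : ℤ} (hR : 0 ≤ R) (h : ¬ InBox R i j) : (R : ℝ) ≤ rI i j := by
  have h1 : (R : ℤ) ^ 2 ≤ (i + j + 1) ^ 2 + (i - j) ^ 2 := by
    have h2 : R ≤ i ∨ i ≤ -R - 1 ∨ R ≤ j ∨ j ≤ -R - 1 := by
      unfold InBox at h
      omega
    have e : (i + j + 1) ^ 2 + (i - j) ^ 2 = 2 * i ^ 2 + 2 * i + 2 * j ^ 2 + 2 * j + 1 := by ring
    have n : ∀ x : ℤ, 0 ≤ x ^ 2 + x := fun x => by
      rcases le_or_gt 0 x with hx | hx
      · positivity
      · nlinarith
    have p : ∀ x : ℤ, (R ≤ x ∨ x ≤ -R - 1) → R ^ 2 ≤ x ^ 2 + x := fun x hx => by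
      rcases hx with hx | hx
      · nlinarith
      · nlinarith
    rw [e]
    rcases h2 with h2 | h2 | h2 | h2
    · have := p i (Or.inl h2); have := n j; nlinarith [sq_nonneg R]
    · have := p i (Or.inr h2); have := n j; nlinarith [sq_nonneg R]
    · have := p j (Or.inl h2); have := n i; nlinarith [sq_nonneg R]
    · have := p j (Or.inr h2); have := n i; nlinarith [sq_nonneg R]
  have h3 : (R : ℝ) ^ 2 ≤ rI i j ^ 2 := by
    rw [rI_sq]
    exact_mod_cast h1
  exact le_of_sq_le_sq h3 (rr_nonneg _ _)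

theorem rI_of_inBox {R i j : ℤ} (h : InBox R i j) : rI i j ≤ 4 * (R : ℝ) := by
  obtain ⟨h1, h2, h3, h4⟩ := h
  have hR : 1 ≤ R := by omega
  have k1 : -(2 * R) ≤ i + j + 1 := by omega
  have k2 : i + j + 1 ≤ 2 * R := by omega
  have k3 : -(2 * R) ≤ i - j := by omega
  have k4 : i - j ≤ 2 * R := by omega
  have h5 : (i + j + 1) ^ 2 + (i - j) ^ 2 ≤ (4 * R) ^ 2 := by nlinarith
  have h6 : rI i j ^ 2 ≤ (4 * (R : ℝ)) ^ 2 := by
    rw [rI_sq]
    exact_mod_cast h5
  have h7 : (0 : ℝ) ≤ 4 * R := by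
    have : (0 : ℤ) ≤ 4 * R := by omega
    exact_mod_cast this
  exact le_of_sq_le_sq h6 h7

/-- **comparison**: nonnegative, subharmonic outside a fixed box, zero on the slit -/
theorem compare : ∃ R0 : ℤ, 1 ≤ R0 ∧ ∃ C : ℝ, 1 ≤ C ∧ ∀ (R : ℤ) (v : ℤ → ℤ → ℝ) (M : ℝ),
    (∀ i j, ¬ InBox R i j → v i j = 0) →
    (∀ i, i < 0 → v i i = 0) →
    (∀ i j, InBox R i j → ¬ InBox R0 i j →
      4 * v i j ≤ v (i + 1) j + v (i - 1) j + v i (j + 1) + v i (j - 1)) →
    (∀ i j, InBox R0 i j → v i j ≤ M) → 0 ≤ M →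
    ∀ i j, v i j ≤ C * M / √(rI i j) := by
  obtain ⟨Rs, hRs, hB⟩ := B_super
  obtain ⟨N, hN⟩ := exists_nat_ge Rs
  set R0 : ℤ := N + 4 with hR0
  have hN4 : (4 : ℝ) ≤ N := hRs.trans hN
  have hR0r : (R0 : ℝ) = N + 4 := by rw [hR0]; push_cast; ring
  set ρ : ℝ := 4 * (R0 : ℝ) + 4 with hρ
  have hρ1 : 4 ≤ ρ := by rw [hρ, hR0r]; linarith
  refine ⟨R0, by omega, 4 * ρ ^ 2, by nlinarith, fun R v M hout hslit hsub hin hM => ?_⟩
  have hK : ∀ i j, InBox R i j → ¬ InBox R0 i j → v i j ≤ 4 * ρ ^ 2 * M * B i j := by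
    -- comparison function
    set A : Finset (ℤ × ℤ) := ((Finset.Ico (-R) R) ×ˢ (Finset.Ico (-R) R)).filter
      (fun z => ¬ InBox R0 z.1 z.2 ∧ ¬ (z.1 = z.2 ∧ z.1 < 0)) with hAdef
    have memA : ∀ z : ℤ × ℤ, z ∈ A ↔ (InBox R z.1 z.2 ∧ ¬ InBox R0 z.1 z.2 ∧
        ¬ (z.1 = z.2 ∧ z.1 < 0)) := fun z => by
      rw [hAdef, Finset.mem_filter, Finset.mem_product, Finset.mem_Ico, Finset.mem_Ico]
      unfold InBox
      tauto
    set F : ℤ → ℤ → ℝ := fun i j => if (i, j) ∈ A then v i j - 4 * ρ ^ 2 * M * B i j else 0 with hF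
    -- pointwise bound at neighbours
    have hnb : ∀ i j, (R0 : ℝ) - 4 ≤ rI i j → (InBox R0 i j → rI i j ≤ ρ) →
        v i j - 4 * ρ ^ 2 * M * B i j ≤ F i j := by
      intro i j hfar _
      by_cases hmem : (i, j) ∈ A
      · simp only [hF, if_pos hmem]
        exact le_rfl
      · simp only [hF, if_neg hmem]
        have hmem' := hmem
        rw [memA] at hmem'
        simp only at hmem'
        have hBn := B_nonneg i j
        have hpos : 0 ≤ 4 * ρ ^ 2 * M * B i j := by positivity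
        by_cases h1 : InBox R i j
        · by_cases h2 : i = j ∧ i < 0
          · obtain ⟨h2, h3⟩ := h2
            subst h2
            rw [hslit i h3]
            linarith
          · have h3 : InBox R0 i j := by
              by_contra hc
              exact hmem' ⟨h1, hc, h2⟩
            have h4 := hin i j h3
            have h5 : rI i j ≤ ρ := by
              have := rI_of_inBox h3
              rw [hρ]; linarith
            have h6 : 2 ≤ rI i j := by
              by_contra hc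
              have hc' := not_le.1 hc
              rw [hR0r] at hfar
              linarith
            have h7 := B_lower i j h2 h6
            have h8 : 1 / (4 * ρ ^ 2) ≤ B i j := by
              refine le_trans ?_ h7
              apply one_div_le_one_div_of_le
              · have : 0 < rI i j := by linarith
                positivity
              · have : 0 ≤ rI i j := by linarith
                gcongr
            have h9 : M ≤ 4 * ρ ^ 2 * M * B i j := by
              rw [div_le_iff₀ (by positivity)] at h8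
              nlinarith
            linarith
        · rw [hout i j h1]
          linarith
    have hAll := max_principle A F ?_ ?_
    · intro i j h1 h2
      by_cases h3 : i = j ∧ i < 0
      · obtain ⟨h3, h4⟩ := h3
        subst h3
        rw [hslit i h4]
        have := B_nonneg i i
        positivity
      · have h4 : (i, j) ∈ A := (memA _).2 ⟨h1, h2, h3⟩
        have h5 := hAll i j
        simp only [hF, if_pos h4] at h5
        linarith
    · rintro ⟨i, j⟩ hz
      have hz' := (memA _).1 hz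
      simp only at hz' ⊢
      obtain ⟨h1, h2, h3⟩ := hz'
      have hfar : (R0 : ℝ) ≤ rI i j := rI_of_not_inBox (by omega) h2
      have hs := hsub i j h1 h2
      have hb := hB i j h3 (by rw [hR0r] at hfar; linarith)
      have hFz : F i j = v i j - 4 * ρ ^ 2 * M * B i j := by simp only [hF, if_pos hz]
      have st : ∀ (i' j' : ℤ) (s t : ℝ), s ^ 2 = 1 → t ^ 2 = 1 →
          ((i' : ℝ) + j' + 1 = (i : ℝ) + j + 1 + s) → ((i' : ℝ) - j' = (i : ℝ) - j + t) →
          (R0 : ℝ) - 4 ≤ rI i' j' := by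
        intro i' j' s t hs ht e1 e2
        have := rr_step (a := (i : ℝ) + j + 1) (b := (i : ℝ) - j) hs ht
        rw [← e1, ← e2] at this
        unfold rI at hfar ⊢
        linarith
      have g1 := hnb (i + 1) j (st _ _ 1 1 (by norm_num) (by norm_num) (by push_cast; ring)
        (by push_cast; ring)) (fun h => by have := rI_of_inBox h; rw [hρ]; linarith)
      have g2 := hnb (i - 1) j (st _ _ (-1) (-1) (by norm_num) (by norm_num) (by push_cast; ring)
        (by push_cast; ring)) (fun h => by have := rI_of_inBox h; rw [hρ]; linarith)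
      have g3 := hnb i (j + 1) (st _ _ 1 (-1) (by norm_num) (by norm_num) (by push_cast; ring)
        (by push_cast; ring)) (fun h => by have := rI_of_inBox h; rw [hρ]; linarith)
      have g4 := hnb i (j - 1) (st _ _ (-1) 1 (by norm_num) (by norm_num) (by push_cast; ring)
        (by push_cast; ring)) (fun h => by have := rI_of_inBox h; rw [hρ]; linarith)
      rw [hFz]
      have hcoef : 0 ≤ 4 * ρ ^ 2 * M := by positivity
      nlinarith
    · rintro ⟨i, j⟩ hz
      simp only [hF, if_neg hz]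
      exact le_rfl
  intro i j
  have hr1 := rI_ge_one i j
  have hsq : 0 < √(rI i j) := Real.sqrt_pos.2 (by linarith)
  by_cases h1 : InBox R i j
  · by_cases h2 : InBox R0 i j
    · have h3 := hin i j h2
      refine h3.trans ?_
      rw [le_div_iff₀ hsq]
      have h4 : √(rI i j) ≤ ρ := by
        have h5 : rI i j ≤ ρ := by
          have := rI_of_inBox h2
          rw [hρ]; linarith
        calc √(rI i j) ≤ √(ρ ^ 2) := Real.sqrt_le_sqrt (by nlinarith)
          _ = ρ := Real.sqrt_sq (by linarith)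
      have h6 : √(rI i j) ≤ 4 * ρ ^ 2 := by nlinarith
      nlinarith
    · have h3 := hK i j h1 h2
      refine h3.trans ?_
      have h4 := B_le i j
      have hcoef : 0 ≤ 4 * ρ ^ 2 * M := by positivity
      calc 4 * ρ ^ 2 * M * B i j ≤ 4 * ρ ^ 2 * M * (1 / √(rI i j)) := by gcongr
        _ = 4 * ρ ^ 2 * M / √(rI i j) := by ring
  · rw [hout i j h1]
    positivity

end Crest.Agent.R165.Bar304
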