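import Crest.Agent.R165.Ev_653

/-!
# Row 165 (S0250), block G: local subalgebras and local naturality of the Gaussian convolution

`gr W` = the subalgebra of `Gr V` generated by the fields in a submodule `W`.
-/

set_option autoImplicit false

noncomputable section

namespace Crest.Agent.R165.GrLocx337

open Crest.Agent.R165.Gr0x606 Crest.Agent.R165.Evx653

variable {V : Type*} [AddCommGroup V] [Module ℝ V] {V' : Type*} [AddCommGroup V'] [Module ℝ V']

/-- the subalgebra generated by the fields in `W` -/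
def gr (W : Submodule ℝ V) : Subalgebra ℝ (Gr V) := Algebra.adjoin ℝ (fi '' (W : Set V))

theorem fi_mem_gr {W : Submodule ℝ V} {x : V} (hx : x ∈ W) : fi x ∈ gr W :=
  Algebra.subset_adjoin ⟨x, hx, rfl⟩

theorem gr_mono {W W' : Submodule ℝ V} (h : W ≤ W') : gr W ≤ gr W' :=
  Algebra.adjoin_mono (Set.image_mono h)

theorem mp_mem_gr (W : Submodule ℝ V) (a : Gr W) : mp W.subtype a ∈ gr W := by
  induction a using Gr.induction with
  | h0 r => rw [AlgHom.commutes]; exact Subalgebra.algebraMap_mem _ _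
  | h1 x a ih => rw [map_mul, mp_fi]; exact mul_mem (fi_mem_gr x.2) ih
  | h2 a b iha ihb => rw [map_add]; exact add_mem iha ihb

theorem exists_of_mem_gr {W : Submodule ℝ V} {a : Gr V} (ha : a ∈ gr W) :
    ∃ a' : Gr W, mp W.subtype a' = a := by
  have : gr W ≤ (mp W.subtype).range := by
    refine Algebra.adjoin_le ?_
    rintro _ ⟨x, hx, rfl⟩
    exact ⟨fi ⟨x, hx⟩, by simp⟩
  exact this ha

theorem mem_gr_iff {W : Submodule ℝ V} {a : Gr V} :
    a ∈ gr W ↔ ∃ a' : Gr W, mp W.subtype a' = a :=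
  ⟨exists_of_mem_gr, fun ⟨a', h⟩ => h ▸ mp_mem_gr W a'⟩

/-- induction on a local subalgebra -/
theorem gr_ind {W : Submodule ℝ V} {P : Gr V → Prop} (h0 : ∀ r : ℝ, P (algebraMap ℝ _ r))
    (h1 : ∀ x ∈ W, ∀ a ∈ gr W, P a → P (fi x * a)) (h2 : ∀ a ∈ gr W, ∀ b ∈ gr W, P a → P b → P (a + b))
    {a : Gr V} (ha : a ∈ gr W) : P a := by
  obtain ⟨a', rfl⟩ := exists_of_mem_gr ha
  induction a' using Gr.induction with
  | h0 r => rw [AlgHom.commutes]; exact h0 r
  | h1 x a ih =>
    rw [map_mul, mp_fi]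
    exact h1 _ x.2 _ (mp_mem_gr W a) (ih (mp_mem_gr W a))
  | h2 a b iha ihb =>
    rw [map_add]
    exact h2 _ (mp_mem_gr W a) _ (mp_mem_gr W b) (iha (mp_mem_gr W a)) (ihb (mp_mem_gr W b))

/-- restriction of a covariance to a submodule -/
def resCov (S : Cov V) (W : Submodule ℝ V) : Cov W where
  b := S.b.compl₁₂ W.subtype W.subtype
  alt x := S.alt x

theorem resCov_apply (S : Cov V) (W : Submodule ℝ V) (x y : W) : (resCov S W).b x y = S.b x y := rfl

theorem conv_mp_subtype (S : Cov V) (W : Submodule ℝ V) (a : Gr W) :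
    conv S (mp W.subtype a) = mp W.subtype (conv (resCov S W) a) :=
  (mp_conv W.subtype (resCov S W) S (fun _ _ => rfl) a).symm

theorem conv_mem_gr (S : Cov V) {W : Submodule ℝ V} {a : Gr V} (ha : a ∈ gr W) : conv S a ∈ gr W := by
  obtain ⟨a', rfl⟩ := exists_of_mem_gr ha
  rw [conv_mp_subtype]
  exact mp_mem_gr W _

/-- two covariances which agree on `W` have the same convolution on `gr W` -/
theorem conv_congr {S T : Cov V} {W : Submodule ℝ V} (h : ∀ x ∈ W, ∀ y ∈ W, S.b x y = T.b x y)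
    {a : Gr V} (ha : a ∈ gr W) : conv S a = conv T a := by
  obtain ⟨a', rfl⟩ := exists_of_mem_gr ha
  have : resCov S W = resCov T W := by
    apply Cov.ext
    ext x y
    exact h x x.2 y y.2
  rw [conv_mp_subtype, conv_mp_subtype, this]

/-- **local naturality** of the Gaussian convolution -/
theorem mp_conv_local (f : V →ₗ[ℝ] V') {S : Cov V} {T : Cov V'} {W : Submodule ℝ V}
    (h : ∀ x ∈ W, ∀ y ∈ W, S.b x y = T.b (f x) (f y)) {a : Gr V} (ha : a ∈ gr W) :
    mp f (conv S a) = conv T (mp f a) := by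
  obtain ⟨a', rfl⟩ := exists_of_mem_gr ha
  rw [conv_mp_subtype]
  have hcomp : ∀ b : Gr W, mp f (mp W.subtype b) = mp (f ∘ₗ W.subtype) b := by
    intro b
    induction b using Gr.induction with
    | h0 r => simp only [AlgHom.commutes]
    | h1 x a ih => simp only [map_mul, mp_fi, ih]; rfl
    | h2 a b iha ihb => simp only [map_add, iha, ihb]
  rw [hcomp, hcomp]
  exact mp_conv (f ∘ₗ W.subtype) (resCov S W) T (fun x y => h x x.2 y y.2) a'

theorem EE_mp_local (f : V →ₗ[ℝ] V') {S : Cov V} {T : Cov V'} {W : Submodule ℝ V}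
    (h : ∀ x ∈ W, ∀ y ∈ W, S.b x y = T.b (f x) (f y)) {a : Gr V} (ha : a ∈ gr W) :
    EE T (mp f a) = EE S a := by
  rw [EE_apply, EE_apply, ← mp_conv_local f h ha, ct_mp]

/-- two linear maps which agree on `W` induce the same map on `gr W` -/
theorem mp_congr {f g : V →ₗ[ℝ] V'} {W : Submodule ℝ V} (h : ∀ x ∈ W, f x = g x) {a : Gr V}
    (ha : a ∈ gr W) : mp f a = mp g a := by
  refine gr_ind (P := fun a => mp f a = mp g a) ?_ ?_ ?_ ha
  · intro r; simp only [AlgHom.commutes]
  · intro x hx a _ ih; simp only [map_mul, mp_fi, ih, h x hx]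
  · intro a _ b _ iha ihb; simp only [map_add, iha, ihb]

theorem mp_mp {V'' : Type*} [AddCommGroup V''] [Module ℝ V''] (g : V' →ₗ[ℝ] V'') (f : V →ₗ[ℝ] V')
    (a : Gr V) : mp g (mp f a) = mp (g ∘ₗ f) a := by
  induction a using Gr.induction with
  | h0 r => simp only [AlgHom.commutes]
  | h1 x a ih => simp only [map_mul, mp_fi, ih]; rfl
  | h2 a b iha ihb => simp only [map_add, iha, ihb]

theorem mp_id (a : Gr V) : mp (LinearMap.id : V →ₗ[ℝ] V) a = a := by
  induction a using Gr.induction with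
  | h0 r => simp only [AlgHom.commutes]
  | h1 x a ih => simp only [map_mul, mp_fi, ih]; rfl
  | h2 a b iha ihb => simp only [map_add, iha, ihb]

theorem mp_mem_gr_map (f : V →ₗ[ℝ] V') {W : Submodule ℝ V} {a : Gr V} (ha : a ∈ gr W) :
    mp f a ∈ gr (W.map f) := by
  refine gr_ind (P := fun a => mp f a ∈ gr (W.map f)) ?_ ?_ ?_ ha
  · intro r; rw [AlgHom.commutes]; exact Subalgebra.algebraMap_mem _ _
  · intro x hx a _ ih
    rw [map_mul, mp_fi]
    exact mul_mem (fi_mem_gr (Submodule.mem_map_of_mem hx)) ih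
  · intro a _ b _ iha ihb; rw [map_add]; exact add_mem iha ihb

/-- `mp f` is injective on `gr W` when `f` has a left inverse on `W` -/
theorem mp_left_inv {f : V →ₗ[ℝ] V'} {g : V' →ₗ[ℝ] V} {W : Submodule ℝ V} (h : ∀ x ∈ W, g (f x) = x)
    {a : Gr V} (ha : a ∈ gr W) : mp g (mp f a) = a := by
  rw [mp_mp]
  calc mp (g ∘ₗ f) a = mp LinearMap.id a := mp_congr (fun x hx => h x hx) ha
    _ = a := mp_id a

end Crest.Agent.R165.GrLocx337
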