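import Crest.Agent.R165.BgIso_432
import Crest.Agent.R165.GrLoc_337

/-!
# Row 165 (S0250): transport of fields, weights and projective norms (helper432)

* `fldS Z` : fields supported on the faces of `Z`
* `push b` : the field map of an isomorphism of backgrounds, `pull b` its inverse
* `wt_push`, `wU_push`, `pnorm_push` : equality of weights and norms
* `size_image`, `near_image`, `touch_image`
* `bil_push` : transport of the bilinear forms of range-`n` operators
-/

set_option autoImplicit false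

noncomputable section

open scoped ENNReal Classical
open Crest.Agent.R165.Gr0x606 Crest.Agent.R165.Latx683 Crest.Agent.R165.GDefx387
open Crest.Agent.R165.PNormx417 Crest.Agent.R165.GrLocx337

namespace Crest.Agent.R165.BgIsox432

/-! ### fields on a set of faces -/

section fields

variable {G : Type}

/-- fields supported on the faces of `Z` -/
def fldS (Z : Set (G × G)) : Submodule ℝ (Fld G) where
  carrier := {l | ∀ h, l h ≠ 0 → h.1 ∈ Z}
  add_mem' {a b} ha hb h hne := by
    by_contra hZ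
    apply hne
    have h1 : a h = 0 := by by_contra h0; exact hZ (ha h h0)
    have h2 : b h = 0 := by by_contra h0; exact hZ (hb h h0)
    rw [Finsupp.add_apply, h1, h2, add_zero]
  zero_mem' h hne := absurd rfl hne
  smul_mem' c a ha h hne := by
    apply ha h
    intro h0
    apply hne
    rw [Finsupp.smul_apply, h0, smul_zero]

theorem mem_fldS {Z : Set (G × G)} {l : Fld G} : l ∈ fldS Z ↔ ∀ h, l h ≠ 0 → h.1 ∈ Z := Iff.rfl

theorem fldS_mono {Z Z' : Set (G × G)} (h : Z ⊆ Z') : fldS Z ≤ fldS Z' :=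
  fun _ hl g hg => h (hl g hg)

theorem single_mem_fldS {Z : Set (G × G)} {h : HE G} (hh : h.1 ∈ Z) (c : ℝ) :
    Finsupp.single h c ∈ fldS Z := by
  intro g hg
  by_cases e : g = h
  · rw [e]; exact hh
  · exact absurd (Finsupp.single_eq_of_ne e) hg

/-- induction on the fields of `Z` -/
theorem fldS_ind {Z : Set (G × G)} {P : Fld G → Prop} (h0 : P 0)
    (h1 : ∀ h : HE G, h.1 ∈ Z → ∀ c, P (Finsupp.single h c)) (h2 : ∀ l m, P l → P m → P (l + m))
    {l : Fld G} (hl : l ∈ fldS Z) : P l := by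
  have key : ∀ S : Finset (HE G), (∀ h ∈ S, h.1 ∈ Z) → P (∑ h ∈ S, Finsupp.single h (l h)) := by
    intro S
    induction S using Finset.induction_on with
    | empty => intro _; simpa using h0
    | insert a S ha ih =>
      intro hS
      rw [Finset.sum_insert ha]
      exact h2 _ _ (h1 a (hS a (Finset.mem_insert_self a S)) _)
        (ih fun h hh => hS h (Finset.mem_insert_of_mem hh))
  have := key l.support fun h hh => hl h (Finsupp.mem_support_iff.1 hh)
  rwa [show (∑ h ∈ l.support, Finsupp.single h (l h)) = l from Finsupp.sum_single l] at this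

theorem suppL_iff {Z : Set (G × G)} {l : Fld G} [CommRing G] [CN G] :
    SuppL Z l ↔ l ∈ fldS Z := Iff.rfl

end fields

section pairing

variable {G : Type}

theorem pair_add {l m : Fld G} (f : HE G → ℝ) : pair (l + m) f = pair l f + pair m f := by
  unfold pair
  rw [Finsupp.sum_add_index']
  · intro h; simp
  · intro h a b; ring

theorem pair_single (h : HE G) (c : ℝ) (f : HE G → ℝ) : pair (Finsupp.single h c) f = c * f h := by
  unfold pair
  rw [Finsupp.sum_single_index (by simp)]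

theorem pair_zero (f : HE G → ℝ) : pair (0 : Fld G) f = 0 := by simp [pair]

theorem pair_smul (c : ℝ) (l : Fld G) (f : HE G → ℝ) : pair (c • l) f = c * pair l f := by
  unfold pair
  rw [Finsupp.sum_smul_index (by simp), Finsupp.mul_sum]
  refine Finsupp.sum_congr fun h _ => ?_
  ring

theorem pair_congr {l : Fld G} {Y : Set (G × G)} (hl : l ∈ fldS Y) {f g : HE G → ℝ}
    (h : ∀ x ∈ Y, ∀ d, f (x, d) = g (x, d)) : pair l f = pair l g := by
  unfold pair
  refine Finsupp.sum_congr fun k hk => ?_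
  rw [show f k = g k from h k.1 (hl k (Finsupp.mem_support_iff.1 hk)) k.2]

end pairing

variable {G G' G'' : Type} [CommRing G] [CN G] [CommRing G'] [CN G'] [CommRing G''] [CN G'']
variable {w : BW G} {w' : BW G'} {w'' : BW G''} {Z : Set (G × G)}

namespace BgIso

/-- the field map -/
def push (b : BgIso w w' Z) : Fld G →ₗ[ℝ] Fld G' :=
  Finsupp.linearCombination ℝ fun h : HE G => Finsupp.single (b.τ h.1, h.2) (b.s h.1)

@[simp] theorem push_single (b : BgIso w w' Z) (h : HE G) (c : ℝ) :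
    b.push (Finsupp.single h c) = Finsupp.single (b.τ h.1, h.2) (c * b.s h.1) := by
  rw [push, Finsupp.linearCombination_single, Finsupp.smul_single, smul_eq_mul]

/-- pull-back of test functions -/
def pb (b : BgIso w w' Z) (f : HE G' → ℝ) : HE G → ℝ := fun h => b.s h.1 * f (b.τ h.1, h.2)

theorem rel_pb (b : BgIso w w' Z) (f : HE G' → ℝ) (Y : Set (G × G)) : Rel b Y (b.pb f) f := by
  intro x _ d
  show f (b.τ x, d) = b.s x * (b.s x * f (b.τ x, d))
  rw [← mul_assoc, b.sq, one_mul]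

theorem pair_push (b : BgIso w w' Z) (l : Fld G) (f : HE G' → ℝ) :
    pair (b.push l) f = pair l (b.pb f) := by
  induction l using Finsupp.induction_linear with
  | zero => rw [map_zero, pair_zero, pair_zero]
  | add l m hl hm => rw [map_add, pair_add, pair_add, hl, hm]
  | single h c =>
    rw [push_single, pair_single, pair_single]
    show c * b.s h.1 * f (b.τ h.1, h.2) = c * (b.s h.1 * f (b.τ h.1, h.2))
    ring

theorem push_mem (b : BgIso w w' Z) {Y : Set (G × G)} {Y' : Set (G' × G')}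
    (h : ∀ f ∈ Y, b.τ f ∈ Y') {l : Fld G} (hl : l ∈ fldS Y) : b.push l ∈ fldS Y' := by
  refine fldS_ind (P := fun l => b.push l ∈ fldS Y') (by rw [map_zero]; exact zero_mem _) ?_ ?_ hl
  · intro k hk c
    rw [push_single]
    exact single_mem_fldS (h _ hk) _
  · intro l m hl hm
    rw [map_add]; exact add_mem hl hm

theorem push_apply (b : BgIso w w' Z) {l : Fld G} (hl : l ∈ fldS Z) {f : G × G} (hf : f ∈ Z)
    (d : Fin 4) : b.push l (b.τ f, d) = b.s f * l (f, d) := by
  refine fldS_ind (P := fun l => b.push l (b.τ f, d) = b.s f * l (f, d)) (by simp) ?_ ?_ hl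
  · rintro ⟨g, e⟩ hg c
    rw [push_single]
    by_cases h1 : f = g
    · subst h1
      by_cases h2 : d = e
      · subst h2
        rw [Finsupp.single_eq_same, Finsupp.single_eq_same]; ring
      · rw [Finsupp.single_eq_of_ne (fun h => h2 (congrArg Prod.snd h)),
          Finsupp.single_eq_of_ne (fun h => h2 (congrArg Prod.snd h)), mul_zero]
    · rw [Finsupp.single_eq_of_ne (fun h => h1 (b.injOn hf hg (congrArg Prod.fst h))),
        Finsupp.single_eq_of_ne (fun h => h1 (congrArg Prod.fst h)), mul_zero]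
  · intro l m hl hm
    rw [map_add, Finsupp.add_apply, Finsupp.add_apply, hl, hm, mul_add]

theorem mem_fldS_of_push (b : BgIso w w' Z) {l : Fld G} (hl : l ∈ fldS Z) {Y' : Set (G' × G')}
    (h : b.push l ∈ fldS Y') : l ∈ fldS (Z ∩ b.τ ⁻¹' Y') := by
  intro k hk
  refine ⟨hl k hk, h (b.τ k.1, k.2) ?_⟩
  rw [b.push_apply hl (hl k hk)]
  exact mul_ne_zero (b.s_ne _) hk

/-- the inverse chart -/
def inv (b : BgIso w w' Z) : G' × G' → G × G := Function.invFunOn b.τ Z

theorem inv_tau (b : BgIso w w' Z) {f : G × G} (hf : f ∈ Z) : b.inv (b.τ f) = f :=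
  b.injOn.leftInvOn_invFunOn hf

/-- the inverse isomorphism, on the interior -/
def symm (b : BgIso w w' Z) (Y : Set (G × G)) (hY : ∀ f ∈ Y, ball f 1 ⊆ Z) :
    BgIso w' w (b.τ '' Y) where
  τ := b.inv
  s f := b.s (b.inv f)
  sq f := b.sq _
  iso := by
    rintro _ ⟨f, hf, rfl⟩ _ ⟨g, hg, rfl⟩
    have h1 := hY f hf (mem_ball_self f 1)
    have h2 := hY g hg (mem_ball_self g 1)
    rw [b.inv_tau h1, b.inv_tau h2, b.iso f h1 g h2]
  e1 := by
    rintro _ ⟨f, hf, rfl⟩ _
    have h1 := hY f hf (mem_ball_self f 1)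
    rw [← b.tau_add1 (hY f hf), b.inv_tau h1, b.inv_tau (hY f hf (mem_ball1_add1 f))]
  e2 := by
    rintro _ ⟨f, hf, rfl⟩ _
    have h1 := hY f hf (mem_ball_self f 1)
    rw [← b.tau_add2 (hY f hf), b.inv_tau h1, b.inv_tau (hY f hf (mem_ball1_add2 f))]
  wE := by
    rintro _ ⟨f, hf, rfl⟩ _
    have h1 := hY f hf (mem_ball_self f 1)
    have h3 := hY f hf (mem_ball1_add1 f)
    have h2 := b.wE f h1 h3
    rw [← b.tau_add1 (hY f hf), b.inv_tau h1, b.inv_tau h3, h2]
    have e1 := b.sq f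
    have e2 := b.sq (f.1 + 1, f.2)
    calc yE w' (b.τ f) = (b.s f * b.s f) * (b.s (f.1 + 1, f.2) * b.s (f.1 + 1, f.2)) *
          yE w' (b.τ f) := by rw [e1, e2]; ring
      _ = _ := by ring
  wN := by
    rintro _ ⟨f, hf, rfl⟩ _
    have h1 := hY f hf (mem_ball_self f 1)
    have h3 := hY f hf (mem_ball1_add2 f)
    have h2 := b.wN f h1 h3
    rw [← b.tau_add2 (hY f hf), b.inv_tau h1, b.inv_tau h3, h2]
    have e1 := b.sq f
    have e2 := b.sq (f.1, f.2 + 1)
    calc yN w' (b.τ f) = (b.s f * b.s f) * (b.s (f.1, f.2 + 1) * b.s (f.1, f.2 + 1)) *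
          yN w' (b.τ f) := by rw [e1, e2]; ring
      _ = _ := by ring

/-- the inverse field map -/
def pull (b : BgIso w w' Z) : Fld G' →ₗ[ℝ] Fld G :=
  Finsupp.linearCombination ℝ fun h : HE G' => Finsupp.single (b.inv h.1, h.2) (b.s (b.inv h.1))

@[simp] theorem pull_single (b : BgIso w w' Z) (h : HE G') (c : ℝ) :
    b.pull (Finsupp.single h c) = Finsupp.single (b.inv h.1, h.2) (c * b.s (b.inv h.1)) := by
  rw [pull, Finsupp.linearCombination_single, Finsupp.smul_single, smul_eq_mul]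

theorem pull_push (b : BgIso w w' Z) {l : Fld G} (hl : l ∈ fldS Z) : b.pull (b.push l) = l := by
  refine fldS_ind (P := fun l => b.pull (b.push l) = l) (by simp) ?_ ?_ hl
  · intro k hk c
    rw [push_single, pull_single, b.inv_tau hk, mul_assoc, b.sq, mul_one]
  · intro l m hl hm
    rw [map_add, map_add, hl, hm]

theorem push_pull (b : BgIso w w' Z) {l : Fld G'} (hl : l ∈ fldS (b.τ '' Z)) :
    b.push (b.pull l) = l := by
  refine fldS_ind (P := fun l => b.push (b.pull l) = l) (by simp) ?_ ?_ hl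
  · rintro ⟨_, d⟩ ⟨f, hf, rfl⟩ c
    rw [pull_single]
    simp only
    rw [b.inv_tau hf, push_single]
    simp only
    rw [mul_assoc, b.sq, mul_one]
  · intro l m hl hm
    rw [map_add, map_add, hl, hm]

theorem pull_mem (b : BgIso w w' Z) {Y : Set (G × G)} (hY : Y ⊆ Z) {l : Fld G'}
    (hl : l ∈ fldS (b.τ '' Y)) : b.pull l ∈ fldS Y := by
  refine fldS_ind (P := fun l => b.pull l ∈ fldS Y) (by rw [map_zero]; exact zero_mem _) ?_ ?_ hl
  · rintro ⟨_, d⟩ ⟨f, hf, rfl⟩ c
    rw [pull_single]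
    simp only
    rw [b.inv_tau (hY hf)]
    exact single_mem_fldS hf _
  · intro l m hl hm
    rw [map_add]; exact add_mem hl hm

end BgIso

/-! ### the local test seminorm -/

omit [CommRing G] [CN G] in
theorem l2_restr (Y : Set (G × G)) (hY : Y.Finite) (φ : HE G → ℝ) :
    l2 (restr Y φ) = Real.sqrt (∑ f ∈ hY.toFinset, ∑ d, φ (f, d) ^ 2) := by
  unfold l2
  congr 1
  rw [tsum_eq_sum (s := hY.toFinset ×ˢ (Finset.univ : Finset (Fin 4)))]
  · rw [Finset.sum_product]
    refine Finset.sum_congr rfl fun f hf => Finset.sum_congr rfl fun d _ => ?_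
    have : f ∈ Y := by simpa using hf
    simp [restr, this]
  · intro h hh
    have : h.1 ∉ Y := by
      intro h1
      apply hh
      rw [Finset.mem_product]
      exact ⟨by simpa using h1, Finset.mem_univ _⟩
    simp [restr, this]

theorem l2_restr_rel [CNZ G] [CNZ G'] (b : BgIso w w' Z) {x : G × G} {R : ℕ} (hx : ball x R ⊆ Z)
    {φ : HE G → ℝ} {φ' : HE G' → ℝ} (h : Rel b (ball x R) φ φ') :
    l2 (restr (ball (b.τ x) R) φ') = l2 (restr (ball x R) φ) := by
  rw [l2_restr _ (ball_finite _ _), l2_restr _ (ball_finite _ _)]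
  congr 1
  symm
  refine Finset.sum_bij (fun f _ => b.τ f) ?_ ?_ ?_ ?_
  · intro f hf
    simp only [Set.Finite.mem_toFinset] at hf ⊢
    rw [← b.image_ball hx]
    exact ⟨f, hf, rfl⟩
  · intro f hf g hg hfg
    simp only [Set.Finite.mem_toFinset] at hf hg
    exact b.injOn (hx hf) (hx hg) hfg
  · intro g hg
    simp only [Set.Finite.mem_toFinset] at hg
    rw [← b.image_ball hx] at hg
    obtain ⟨f, hf, rfl⟩ := hg
    exact ⟨f, by simpa using hf, rfl⟩
  · intro f hf
    simp only [Set.Finite.mem_toFinset] at hf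
    refine Finset.sum_congr rfl fun d _ => ?_
    rw [h f hf d, mul_pow, sq (b.s f), b.sq, one_mul]

theorem rel_iter (b : BgIso w w' Z) {x : G × G} {R n : ℕ} (hx : ball x (R + n) ⊆ Z)
    {φ : HE G → ℝ} {φ' : HE G' → ℝ} (h : Rel b (ball x (R + n)) φ φ') :
    Rel b (ball x R) ((Aop w)^[n] φ) ((Aop w')^[n] φ') := by
  have h1 : Tr b (1 * n) ((Aop w : Module.End ℝ (HE G → ℝ)) ^ n)
      ((Aop w' : Module.End ℝ (HE G' → ℝ)) ^ n) := (tr_Aop b).pow n
  intro f hf d
  have h2 := h1 _ hx φ φ' h f (by rw [one_mul]; exact ball_of_mem hf) d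
  rw [Module.End.pow_apply, Module.End.pow_apply] at h2
  exact h2

theorem nnB_rel [CNZ G] [CNZ G'] (b : BgIso w w' Z) {x : G × G} {r : ℕ}
    (hx : ball x (s1 * r + MM) ⊆ Z) {φ : HE G → ℝ} {φ' : HE G' → ℝ}
    (h : Rel b (ball x (s1 * r + MM)) φ φ') : nnB w' r (b.τ x) φ' = nnB w r x φ := by
  unfold nnB
  refine Finset.sum_congr rfl fun n hn => ?_
  have hn' : n ≤ MM := Nat.lt_succ_iff.1 (Finset.mem_range.1 hn)
  have hsub : ball x (s1 * r + n) ⊆ ball x (s1 * r + MM) := ball_mono x (by omega)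
  rw [l2_restr_rel b ((ball_mono x (by omega)).trans hx)
    (rel_iter b (hsub.trans hx) (h.mono hsub))]

/-- extension of a test function from `Y` -/
def BgIso.ext (b : BgIso w w' Z) (Y : Set (G × G)) (f : HE G → ℝ) : HE G' → ℝ := fun h =>
  if h.1 ∈ b.τ '' Y then b.s (b.inv h.1) * f (b.inv h.1, h.2) else 0

theorem BgIso.rel_ext (b : BgIso w w' Z) {Y : Set (G × G)} (hY : Y ⊆ Z) (f : HE G → ℝ) :
    Rel b Y f (b.ext Y f) := by
  intro x hx d
  have h1 : b.τ x ∈ b.τ '' Y := ⟨x, hx, rfl⟩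
  simp only [BgIso.ext, h1, if_true]
  rw [b.inv_tau (hY hx)]

/-- **equality of the weights** -/
theorem wt_push [CNZ G] [CNZ G'] (b : BgIso w w' Z) (a : ℝ) {x : G × G} {r : ℕ}
    (hx : ball x (s1 * r + MM) ⊆ Z) {l : Fld G} (hl : l ∈ fldS (ball x (s1 * r + MM))) :
    wt w' a r (b.τ x) (b.push l) = wt w a r x l := by
  unfold wt
  congr 1
  apply le_antisymm
  · refine iSup_le fun ⟨f, hf⟩ => ?_
    have h1 : nnB w r x (b.pb f) ≤ 1 := by
      rw [← nnB_rel b hx (b.rel_pb f _)]; exact hf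
    rw [b.pair_push]
    exact le_iSup (fun f : {f : HE G → ℝ // nnB w r x f ≤ 1} => ENNReal.ofReal |pair l f.1|)
      ⟨b.pb f, h1⟩
  · refine iSup_le fun ⟨f, hf⟩ => ?_
    have h0 := b.rel_ext hx f
    have h1 : nnB w' r (b.τ x) (b.ext (ball x (s1 * r + MM)) f) ≤ 1 := by
      rw [nnB_rel b hx h0]; exact hf
    have h2 : pair l f = pair (b.push l) (b.ext (ball x (s1 * r + MM)) f) := by
      rw [b.pair_push]
      refine pair_congr hl fun y hy d => ?_
      show f (y, d) = b.s y * b.ext (ball x (s1 * r + MM)) f (b.τ y, d)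
      rw [h0 y hy d, ← mul_assoc, b.sq, one_mul]
    rw [h2]
    exact le_iSup (fun f : {f : HE G' → ℝ // nnB w' r (b.τ x) f ≤ 1} =>
      ENNReal.ofReal |pair (b.push l) f.1|) ⟨_, h1⟩

/-! ### face sets -/

theorem nbhd_mono {U : Finset (G × G)} {r r' : ℕ} (h : r ≤ r') : nbhd r U ⊆ nbhd r' U := by
  rintro f ⟨u, hu, huf⟩
  exact ⟨u, hu, huf.trans h⟩

theorem ball_subset_nbhd {U : Finset (G × G)} {r : ℕ} {x : G × G} (hx : x ∈ U) :
    ball x r ⊆ nbhd r U := fun _ hf => ⟨x, hx, hf⟩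

theorem subset_nbhd (U : Finset (G × G)) (r : ℕ) : ((U : Set (G × G))) ⊆ nbhd r U :=
  fun _ hf => ⟨_, hf, by simp⟩

theorem size_image (b : BgIso w w' Z) (r : ℕ) {U : Finset (G × G)} (hU : ∀ u ∈ U, u ∈ Z) :
    size r (U.image b.τ) = size r U := by
  have hinj : Set.InjOn b.τ (U : Set (G × G)) := fun f hf g hg h => b.injOn (hU f hf) (hU g hg) h
  unfold size
  apply le_antisymm
  · refine Finset.sup_le fun P hP => ?_
    rw [Finset.mem_filter, Finset.mem_powerset] at hP
    obtain ⟨Q, hQ, rfl⟩ := Finset.subset_image_iff.1 hP.1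
    have hQU : ∀ q ∈ Q, q ∈ U := fun q hq => by simpa using hQ hq
    rw [Finset.card_image_of_injOn (hinj.mono hQ)]
    refine Finset.le_sup (f := Finset.card) ?_
    rw [Finset.mem_filter, Finset.mem_powerset]
    refine ⟨fun q hq => hQU q hq, fun p hp q hq hpq => ?_⟩
    have := hP.2 (b.τ p) (Finset.mem_image_of_mem _ hp) (b.τ q) (Finset.mem_image_of_mem _ hq)
      (fun h => hpq (hinj (hQU p hp) (hQU q hq) h))
    rwa [b.iso p (hU p (hQU p hp)) q (hU q (hQU q hq))] at this
  · refine Finset.sup_le fun P hP => ?_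
    rw [Finset.mem_filter, Finset.mem_powerset] at hP
    rw [← Finset.card_image_of_injOn (hinj.mono (Finset.coe_subset.2 hP.1))]
    refine Finset.le_sup (f := Finset.card) ?_
    rw [Finset.mem_filter, Finset.mem_powerset]
    refine ⟨Finset.image_subset_image hP.1, ?_⟩
    intro p hp q hq hpq
    obtain ⟨p, hp', rfl⟩ := Finset.mem_image.1 hp
    obtain ⟨q, hq', rfl⟩ := Finset.mem_image.1 hq
    rw [b.iso p (hU p (hP.1 hp')) q (hU q (hP.1 hq'))]
    exact hP.2 p hp' q hq' fun h => hpq (by rw [h])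

theorem touch_image (b : BgIso w w' Z) (R : ℕ) {U U₂ : Finset (G × G)} (hU : ∀ u ∈ U, u ∈ Z)
    (hU₂ : ∀ u ∈ U₂, u ∈ Z) : touch R (U.image b.τ) (U₂.image b.τ) ↔ touch R U U₂ := by
  constructor
  · rintro ⟨u, hu, v, hv, h⟩
    obtain ⟨u, hu', rfl⟩ := Finset.mem_image.1 hu
    obtain ⟨v, hv', rfl⟩ := Finset.mem_image.1 hv
    exact ⟨u, hu', v, hv', by rwa [b.iso u (hU u hu') v (hU₂ v hv')] at h⟩
  · rintro ⟨u, hu, v, hv, h⟩
    exact ⟨b.τ u, Finset.mem_image_of_mem _ hu, b.τ v, Finset.mem_image_of_mem _ hv, by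
      rwa [b.iso u (hU u hu) v (hU₂ v hv)]⟩

theorem near_image (b : BgIso w w' Z) (r : ℕ) {f : G × G} (hf : f ∈ Z) {U : Finset (G × G)}
    (hU : ∀ u ∈ U, u ∈ Z) : Near r (b.τ f) (U.image b.τ) ↔ Near r f U := by
  constructor
  · rintro ⟨u, hu, h⟩
    obtain ⟨u, hu', rfl⟩ := Finset.mem_image.1 hu
    exact ⟨u, hu', by rwa [b.iso f hf u (hU u hu')] at h⟩
  · rintro ⟨u, hu, h⟩
    exact ⟨b.τ u, Finset.mem_image_of_mem _ hu, by rwa [b.iso f hf u (hU u hu)]⟩

/-! ### weights relative to a face set and projective norms -/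

theorem s0_le_s1 (r : ℕ) : s0 * r ≤ s1 * r + MM := by
  have : s0 * r ≤ s1 * r := Nat.mul_le_mul_right r (by decide)
  omega

theorem wU_push_le [CNZ G] [CNZ G'] (b : BgIso w w' Z) (a : ℝ) (r : ℕ) {U : Finset (G × G)}
    (hU : nbhd (s1 * r + MM) U ⊆ Z) (l : Fld G) :
    wU w' a r (U.image b.τ) (b.push l) ≤ wU w a r U l := by
  unfold wU
  refine le_iInf₂ fun x hx => ?_
  by_cases hs : SuppL (ball x (s0 * r)) l
  · rw [if_pos hs]
    refine iInf₂_le_of_le (b.τ x) (Finset.mem_image_of_mem _ hx) ?_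
    have hxZ : ball x (s1 * r + MM) ⊆ Z := (ball_subset_nbhd hx).trans hU
    have hs' : SuppL (ball (b.τ x) (s0 * r)) (b.push l) := by
      refine b.push_mem (fun f hf => ?_) hs
      rw [mem_ball, b.iso x (hxZ (mem_ball_self x _)) f (hxZ (ball_mono x (s0_le_s1 r) hf))]
      exact hf
    rw [if_pos hs', wt_push b a hxZ (fldS_mono (ball_mono x (s0_le_s1 r)) hs)]
  · rw [if_neg hs]; exact le_top

theorem wU_pull_le [CNZ G] [CNZ G'] (b : BgIso w w' Z) (a : ℝ) (r : ℕ) {U : Finset (G × G)}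
    (hU : nbhd (s1 * r + MM) U ⊆ Z) (l : Fld G') :
    wU w a r U (b.pull l) ≤ wU w' a r (U.image b.τ) l := by
  unfold wU
  refine le_iInf₂ fun x' hx' => ?_
  obtain ⟨x, hx, rfl⟩ := Finset.mem_image.1 hx'
  by_cases hs : SuppL (ball (b.τ x) (s0 * r)) l
  · rw [if_pos hs]
    refine iInf₂_le_of_le x hx ?_
    have hxZ : ball x (s1 * r + MM) ⊆ Z := (ball_subset_nbhd hx).trans hU
    have h0 : ball x (s0 * r) ⊆ Z := (ball_mono x (s0_le_s1 r)).trans hxZ
    have hl : l ∈ fldS (b.τ '' ball x (s0 * r)) := by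
      rw [b.image_ball h0]; exact hs
    have hs' : SuppL (ball x (s0 * r)) (b.pull l) := b.pull_mem h0 hl
    rw [if_pos hs', ← wt_push b a hxZ (fldS_mono (ball_mono x (s0_le_s1 r)) hs'),
      b.push_pull (fldS_mono (Set.image_mono h0) hl)]
  · rw [if_neg hs]; exact le_top

/-- **equality of the projective norms** -/
theorem pnorm_push [CNZ G] [CNZ G'] (b : BgIso w w' Z) (a : ℝ) (r : ℕ) {U : Finset (G × G)}
    (hU : nbhd (s1 * r + MM) U ⊆ Z) {K : Gr (Fld G)} (hK : K ∈ gr (fldS Z)) :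
    pnorm (wU w' a r (U.image b.τ)) (mp b.push K) = pnorm (wU w a r U) K := by
  apply le_antisymm
  · exact pnorm_mp_le b.push (wU_push_le b a r hU) K
  · have h1 : mp b.pull (mp b.push K) = K :=
      mp_left_inv (W := fldS Z) (fun l hl => b.pull_push hl) hK
    calc pnorm (wU w a r U) K = pnorm (wU w a r U) (mp b.pull (mp b.push K)) := by rw [h1]
      _ ≤ _ := pnorm_mp_le b.pull (wU_pull_le b a r hU) _

/-! ### bilinear forms of local operators -/

/-- `⟨l, T m⟩` -/
def bil (T : Module.End ℝ (HE G → ℝ)) (l m : Fld G) : ℝ := pair l (T m)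

theorem bil_push {b : BgIso w w' Z} {n : ℕ} {T : Module.End ℝ (HE G → ℝ)}
    {T' : Module.End ℝ (HE G' → ℝ)} (h : Tr b n T T') {Y : Set (G × G)}
    (hY : ∀ f ∈ Y, ball f n ⊆ Z) {l m : Fld G} (hl : l ∈ fldS Y) (hm : m ∈ fldS Z) :
    bil T' (b.push l) (b.push m) = bil T l m := by
  unfold bil
  rw [b.pair_push]
  refine pair_congr hl fun f hf d => ?_
  have hR : Rel b Z m (b.push m) := fun g hg e => b.push_apply hm hg e
  have h1 := h Z le_rfl _ _ hR f (hY f hf) d
  show b.s f * T' (b.push m) (b.τ f, d) = T m (f, d)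
  rw [h1, ← mul_assoc, b.sq, one_mul]

omit [CommRing G] [CN G] in
theorem bil_eq_formS (T : Module.End ℝ (HE G → ℝ)) [DecidableEq G] (l m : Fld G) :
    bil T l m = formS (ker T) l m := by
  have h1 : ∀ h, T m h = ∑ h' ∈ m.support, m h' * ker T h h' := by
    intro h
    have e : (m : HE G → ℝ) = ∑ h' ∈ m.support, m h' • (Pi.single h' (1 : ℝ) : HE G → ℝ) := by
      funext g
      rw [Finset.sum_apply]
      simp only [Pi.smul_apply, smul_eq_mul, Pi.single_apply, mul_ite, mul_one, mul_zero]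
      rw [Finset.sum_ite_eq]
      by_cases hg : g ∈ m.support
      · rw [if_pos hg]
      · rw [if_neg hg]; exact Finsupp.notMem_support_iff.1 hg
    conv_lhs => rw [e]
    rw [map_sum, Finset.sum_apply]
    refine Finset.sum_congr rfl fun h' _ => ?_
    rw [map_smul, Pi.smul_apply, smul_eq_mul]
    rfl
  rw [formS_apply]
  unfold bil pair
  rw [Finsupp.sum]
  refine Finset.sum_congr rfl fun h _ => ?_
  rw [h1 h, Finset.mul_sum]
  refine Finset.sum_congr rfl fun h' _ => ?_
  ring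

end Crest.Agent.R165.BgIsox432
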