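import Crest.Agent.R165.GDef_387

/-!
# Row 165 (S0250): isomorphisms of backgrounds on regions (helper432)

* `CNZ G` : every element of the coordinate group is an integer of absolute value `cn`
* `BgIso w w' Z` : the background `w` on the faces `Z` is, up to a translation-type isometric chart
  `τ` and a gauge `s`, the background `w'` on `τ '' Z`
* `Rel`, `Tr` : transport of test functions and of finite-range operators
* `slop`, `ker` are transported exactly
-/

set_option autoImplicit false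

noncomputable section

open scoped ENNReal Classical
open Crest.Agent.R165.Gr0x606 Crest.Agent.R165.Latx683 Crest.Agent.R165.GDefx387
open Crest.Agent.R165.PNormx417

namespace Crest.Agent.R165.BgIsox432

/-- every element of the coordinate group is an integer of minimal absolute value -/
class CNZ (G : Type) [CommRing G] [CN G] : Prop where
  lift : ∀ a : G, ∃ m : ℤ, m.natAbs = cn a ∧ (m : G) = a

instance : CNZ ℤ where
  lift a := ⟨a, rfl, by simp⟩

instance (M : ℕ) [NeZero M] : CNZ (ZMod M) where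
  lift a := ⟨a.valMinAbs, rfl, ZMod.coe_valMinAbs a⟩

section basic

variable {G : Type} [CommRing G] [CN G]

theorem cn_natCast (n : ℕ) : cn (n : G) ≤ n := by
  induction n with
  | zero => rw [Nat.cast_zero, CN.cn_zero]
  | succ n ih =>
    rw [Nat.cast_succ]
    refine (CN.cn_add _ _).trans ?_
    have := CN.cn_one (G := G)
    omega

theorem cn_intCast (m : ℤ) : cn (m : G) ≤ m.natAbs := by
  rcases Int.natAbs_eq m with h | h
  · rw [h, Int.cast_natCast, Int.natAbs_natCast]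
    exact cn_natCast _
  · rw [h, Int.cast_neg, Int.cast_natCast, CN.cn_neg, Int.natAbs_neg, Int.natAbs_natCast]
    exact cn_natCast _

theorem mem_ball_self (x : G × G) (r : ℕ) : x ∈ ball x r := by simp [mem_ball]

theorem ball_mono (x : G × G) {r r' : ℕ} (h : r ≤ r') : ball x r ⊆ ball x r' :=
  fun _ hf => le_trans (mem_ball.1 hf) h

theorem ball_subset_ball {x y : G × G} {r r' : ℕ} (h : fd x y + r' ≤ r) : ball y r' ⊆ ball x r :=
  fun f hf => by
    rw [mem_ball] at *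
    exact (fd_triangle x y f).trans (by omega)

theorem ball_of_mem {x y : G × G} {r n : ℕ} (h : y ∈ ball x r) : ball y n ⊆ ball x (r + n) :=
  ball_subset_ball (by rw [mem_ball] at h; omega)

theorem fd_add_int (x : G × G) (m n : ℤ) : fd x (x.1 + m, x.2 + n) ≤ max m.natAbs n.natAbs := by
  unfold fd
  have e1 : x.1 - (x.1 + (m : G)) = ((-m : ℤ) : G) := by push_cast; ring
  have e2 : x.2 - (x.2 + (n : G)) = ((-n : ℤ) : G) := by push_cast; ring
  simp only [e1, e2]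
  have h1 := cn_intCast (G := G) (-m)
  have h2 := cn_intCast (G := G) (-n)
  rw [Int.natAbs_neg] at h1 h2
  omega

theorem exists_int_of_mem_ball [CNZ G] {x g : G × G} {r : ℕ} (h : g ∈ ball x r) :
    ∃ m n : ℤ, m.natAbs ≤ r ∧ n.natAbs ≤ r ∧ g = (x.1 + m, x.2 + n) := by
  rw [mem_ball, fd] at h
  obtain ⟨m, hm, hm'⟩ := CNZ.lift (g.1 - x.1)
  obtain ⟨n, hn, hn'⟩ := CNZ.lift (g.2 - x.2)
  rw [cn_sub_comm] at hm hn
  refine ⟨m, n, by omega, by omega, ?_⟩
  rw [hm', hn']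
  ext <;> simp

end basic

variable {G G' G'' : Type} [CommRing G] [CN G] [CommRing G'] [CN G'] [CommRing G''] [CN G'']

/-- the background `w` on `Z` is the background `w'` on `τ '' Z`, up to the gauge `s` -/
structure BgIso (w : BW G) (w' : BW G') (Z : Set (G × G)) where
  /-- chart -/
  τ : G × G → G' × G'
  /-- gauge -/
  s : G × G → ℝ
  sq : ∀ f, s f * s f = 1
  iso : ∀ f ∈ Z, ∀ g ∈ Z, fd (τ f) (τ g) = fd f g
  e1 : ∀ f ∈ Z, (f.1 + 1, f.2) ∈ Z → τ (f.1 + 1, f.2) = ((τ f).1 + 1, (τ f).2)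
  e2 : ∀ f ∈ Z, (f.1, f.2 + 1) ∈ Z → τ (f.1, f.2 + 1) = ((τ f).1, (τ f).2 + 1)
  wE : ∀ f ∈ Z, (f.1 + 1, f.2) ∈ Z → yE w f = s f * s (f.1 + 1, f.2) * yE w' (τ f)
  wN : ∀ f ∈ Z, (f.1, f.2 + 1) ∈ Z → yN w f = s f * s (f.1, f.2 + 1) * yN w' (τ f)

namespace BgIso

/-- identity -/
def refl (w : BW G) (Z : Set (G × G)) : BgIso w w Z where
  τ := id
  s _ := 1
  sq _ := by norm_num
  iso _ _ _ _ := rfl
  e1 _ _ _ := rfl
  e2 _ _ _ := rfl
  wE _ _ _ := by simp
  wN _ _ _ := by simp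

variable {w : BW G} {w' : BW G'} {w'' : BW G''} {Z : Set (G × G)}

/-- restriction -/
def mono (b : BgIso w w' Z) {Y : Set (G × G)} (h : Y ⊆ Z) : BgIso w w' Y where
  τ := b.τ
  s := b.s
  sq := b.sq
  iso f hf g hg := b.iso f (h hf) g (h hg)
  e1 f hf hf' := b.e1 f (h hf) (h hf')
  e2 f hf hf' := b.e2 f (h hf) (h hf')
  wE f hf hf' := b.wE f (h hf) (h hf')
  wN f hf hf' := b.wN f (h hf) (h hf')

theorem s_ne (b : BgIso w w' Z) (f : G × G) : b.s f ≠ 0 := by
  intro h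
  have := b.sq f
  rw [h] at this
  norm_num at this

/-- composition -/
def trans (b : BgIso w w' Z) {Z' : Set (G' × G')} (b' : BgIso w' w'' Z') (h : ∀ f ∈ Z, b.τ f ∈ Z') :
    BgIso w w'' Z where
  τ f := b'.τ (b.τ f)
  s f := b.s f * b'.s (b.τ f)
  sq f := by
    have h1 := b.sq f
    have h2 := b'.sq (b.τ f)
    calc _ = (b.s f * b.s f) * (b'.s (b.τ f) * b'.s (b.τ f)) := by ring
      _ = 1 := by rw [h1, h2, one_mul]
  iso f hf g hg := by rw [b'.iso _ (h f hf) _ (h g hg), b.iso f hf g hg]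
  e1 f hf hf' := by
    have h1 := b.e1 f hf hf'
    have h2 := h _ hf'
    rw [h1] at h2
    rw [h1, b'.e1 _ (h f hf) h2]
  e2 f hf hf' := by
    have h1 := b.e2 f hf hf'
    have h2 := h _ hf'
    rw [h1] at h2
    rw [h1, b'.e2 _ (h f hf) h2]
  wE f hf hf' := by
    have h1 := b.e1 f hf hf'
    have h2 := h _ hf'
    rw [h1] at h2
    rw [b.wE f hf hf', b'.wE _ (h f hf) h2, h1]
    ring
  wN f hf hf' := by
    have h1 := b.e2 f hf hf'
    have h2 := h _ hf'
    rw [h1] at h2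
    rw [b.wN f hf hf', b'.wN _ (h f hf) h2, h1]
    ring

theorem injOn (b : BgIso w w' Z) : Set.InjOn b.τ Z := by
  intro f hf g hg h
  have h1 := b.iso f hf g hg
  rw [h, fd_self] at h1
  exact eq_of_fd h1.symm

/-- moving by an integer vector inside a ball -/
theorem tau_add (b : BgIso w w' Z) {x : G × G} {R : ℕ} (hx : ball x R ⊆ Z) (m n : ℤ)
    (hm : m.natAbs ≤ R) (hn : n.natAbs ≤ R) :
    b.τ (x.1 + m, x.2 + n) = ((b.τ x).1 + m, (b.τ x).2 + n) := by
  have hmem : ∀ m n : ℤ, m.natAbs ≤ R → n.natAbs ≤ R → ((x.1 + m, x.2 + n) : G × G) ∈ Z := by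
    intro m n hm hn
    apply hx
    rw [mem_ball]
    exact (fd_add_int x m n).trans (max_le hm hn)
  have h1 : ∀ m : ℕ, m ≤ R → b.τ (x.1 + (m : ℤ), x.2 + (0 : ℤ)) =
      ((b.τ x).1 + (m : ℤ), (b.τ x).2 + (0 : ℤ)) := by
    intro m
    induction m with
    | zero => intro _; simp
    | succ m ih =>
      intro hm
      have e := b.e1 _ (hmem (m : ℤ) 0 (by simp; omega) (by simp))
        (by
          have := hmem ((m : ℤ) + 1) 0 (by omega) (by simp)
          convert this using 2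
          push_cast; ring)
      rw [ih (by omega)] at e
      have e' : ((x.1 + ((m + 1 : ℕ) : ℤ), x.2 + ((0 : ℤ) : G)) : G × G) =
          (x.1 + ((m : ℤ) : G) + 1, x.2 + ((0 : ℤ) : G)) := by
        ext <;> simp <;> ring
      rw [e', e]
      ext <;> simp <;> ring
  have h2 : ∀ m : ℕ, m ≤ R → b.τ (x.1 + ((-(m : ℤ) : ℤ) : G), x.2 + ((0 : ℤ) : G)) =
      ((b.τ x).1 + ((-(m : ℤ) : ℤ) : G'), (b.τ x).2 + ((0 : ℤ) : G')) := by
    intro m
    induction m with
    | zero => intro _; simp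
    | succ m ih =>
      intro hm
      have e' : ((x.1 + ((-((m + 1 : ℕ) : ℤ) : ℤ) : G) + 1, x.2 + ((0 : ℤ) : G)) : G × G) =
          (x.1 + ((-(m : ℤ) : ℤ) : G), x.2 + ((0 : ℤ) : G)) := by
        ext <;> simp <;> ring
      have e := b.e1 _ (hmem (-((m + 1 : ℕ) : ℤ)) 0 (by omega) (by simp))
        (by rw [e']; exact hmem (-(m : ℤ)) 0 (by simp; omega) (by simp))
      rw [e', ih (by omega)] at e
      have e1 := congrArg Prod.fst e
      have e2 := congrArg Prod.snd e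
      simp only at e1 e2
      refine Prod.ext ?_ ?_
      · simp only
        rw [← sub_eq_iff_eq_add] at e1
        rw [← e1]; push_cast; ring
      · simp only
        exact e2.symm
  have h3 : ∀ m : ℤ, m.natAbs ≤ R → b.τ (x.1 + (m : G), x.2 + ((0 : ℤ) : G)) =
      ((b.τ x).1 + (m : G'), (b.τ x).2 + ((0 : ℤ) : G')) := by
    intro m hm
    rcases Int.natAbs_eq m with h | h
    · rw [h]; exact h1 _ hm
    · rw [h]; exact h2 _ hm
  have h4 : ∀ n : ℕ, n ≤ R → b.τ (x.1 + (m : G), x.2 + ((n : ℤ) : G)) =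
      ((b.τ x).1 + (m : G'), (b.τ x).2 + ((n : ℤ) : G')) := by
    intro n
    induction n with
    | zero => intro _; exact h3 m hm
    | succ n ih =>
      intro hn
      have e := b.e2 _ (hmem m (n : ℤ) hm (by simp; omega))
        (by
          have := hmem m ((n : ℤ) + 1) hm (by omega)
          convert this using 2
          push_cast; ring)
      rw [ih (by omega)] at e
      have e' : ((x.1 + (m : G), x.2 + (((n + 1 : ℕ) : ℤ) : G)) : G × G) =
          (x.1 + (m : G), x.2 + ((n : ℤ) : G) + 1) := by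
        ext <;> simp <;> ring
      rw [e', e]
      ext <;> simp <;> ring
  have h5 : ∀ n : ℕ, n ≤ R → b.τ (x.1 + (m : G), x.2 + ((-(n : ℤ) : ℤ) : G)) =
      ((b.τ x).1 + (m : G'), (b.τ x).2 + ((-(n : ℤ) : ℤ) : G')) := by
    intro n
    induction n with
    | zero => intro _; simpa using h3 m hm
    | succ n ih =>
      intro hn
      have e' : ((x.1 + (m : G), x.2 + ((-((n + 1 : ℕ) : ℤ) : ℤ) : G) + 1) : G × G) =
          (x.1 + (m : G), x.2 + ((-(n : ℤ) : ℤ) : G)) := by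
        ext <;> simp <;> ring
      have e := b.e2 _ (hmem m (-((n + 1 : ℕ) : ℤ)) hm (by omega))
        (by rw [e']; exact hmem m (-(n : ℤ)) hm (by simp; omega))
      rw [e', ih (by omega)] at e
      have e1 := congrArg Prod.fst e
      have e2 := congrArg Prod.snd e
      simp only at e1 e2
      refine Prod.ext ?_ ?_
      · simp only
        exact e1.symm
      · simp only
        rw [← sub_eq_iff_eq_add] at e2
        rw [← e2]; push_cast; ring
  rcases Int.natAbs_eq n with h | h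
  · rw [h]; exact h4 _ hn
  · rw [h]; exact h5 _ hn

theorem tau_sub1 (b : BgIso w w' Z) {x : G × G} (hx : ball x 1 ⊆ Z) :
    b.τ (x.1 - 1, x.2) = ((b.τ x).1 - 1, (b.τ x).2) := by
  have := b.tau_add hx (-1) 0 (by simp) (by simp)
  simpa [sub_eq_add_neg] using this

theorem tau_sub2 (b : BgIso w w' Z) {x : G × G} (hx : ball x 1 ⊆ Z) :
    b.τ (x.1, x.2 - 1) = ((b.τ x).1, (b.τ x).2 - 1) := by
  have := b.tau_add hx 0 (-1) (by simp) (by simp)
  simpa [sub_eq_add_neg] using this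

theorem tau_add1 (b : BgIso w w' Z) {x : G × G} (hx : ball x 1 ⊆ Z) :
    b.τ (x.1 + 1, x.2) = ((b.τ x).1 + 1, (b.τ x).2) := by
  have := b.tau_add hx 1 0 (by simp) (by simp)
  simpa using this

theorem tau_add2 (b : BgIso w w' Z) {x : G × G} (hx : ball x 1 ⊆ Z) :
    b.τ (x.1, x.2 + 1) = ((b.τ x).1, (b.τ x).2 + 1) := by
  have := b.tau_add hx 0 1 (by simp) (by simp)
  simpa using this

/-- balls are mapped onto balls -/
theorem image_ball [CNZ G] [CNZ G'] (b : BgIso w w' Z) {x : G × G} {R : ℕ} (hx : ball x R ⊆ Z) :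
    b.τ '' ball x R = ball (b.τ x) R := by
  apply Set.Subset.antisymm
  · rintro _ ⟨g, hg, rfl⟩
    rw [mem_ball, b.iso x (hx (mem_ball_self x R)) g (hx hg)]
    exact hg
  · intro g hg
    obtain ⟨m, n, hm, hn, rfl⟩ := exists_int_of_mem_ball hg
    refine ⟨(x.1 + m, x.2 + n), ?_, b.tau_add hx m n hm hn⟩
    rw [mem_ball]
    exact (fd_add_int x m n).trans (max_le hm hn)

end BgIso

/-! ### neighbours -/

section nbr

variable {G : Type} [CommRing G] [CN G]

theorem mem_ball1_add1 (f : G × G) : ((f.1 + 1, f.2) : G × G) ∈ ball f 1 := by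
  have := fd_add_int f 1 0
  rw [mem_ball]
  simpa using this
theorem mem_ball1_add2 (f : G × G) : ((f.1, f.2 + 1) : G × G) ∈ ball f 1 := by
  have := fd_add_int f 0 1
  rw [mem_ball]
  simpa using this
theorem mem_ball1_sub1 (f : G × G) : ((f.1 - 1, f.2) : G × G) ∈ ball f 1 := by
  have := fd_add_int f (-1) 0
  rw [mem_ball]
  simpa [sub_eq_add_neg] using this
theorem mem_ball1_sub2 (f : G × G) : ((f.1, f.2 - 1) : G × G) ∈ ball f 1 := by
  have := fd_add_int f 0 (-1)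
  rw [mem_ball]
  simpa [sub_eq_add_neg] using this

end nbr

/-! ### transport of test functions and operators -/

variable {w : BW G} {w' : BW G'} {Z : Set (G × G)}

/-- `φ'` is the transported `φ` on the faces of `Y` -/
def Rel (b : BgIso w w' Z) (Y : Set (G × G)) (φ : HE G → ℝ) (φ' : HE G' → ℝ) : Prop :=
  ∀ f ∈ Y, ∀ d, φ' (b.τ f, d) = b.s f * φ (f, d)

/-- the operator `T'` is the transported `T`, both of range `n` -/
def Tr (b : BgIso w w' Z) (n : ℕ) (T : Module.End ℝ (HE G → ℝ)) (T' : Module.End ℝ (HE G' → ℝ)) :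
    Prop :=
  ∀ (Y : Set (G × G)), Y ⊆ Z → ∀ φ φ', Rel b Y φ φ' → ∀ f, ball f n ⊆ Y → ∀ d,
    T' φ' (b.τ f, d) = b.s f * T φ (f, d)

theorem Rel.mono {b : BgIso w w' Z} {Y Y' : Set (G × G)} {φ : HE G → ℝ} {φ' : HE G' → ℝ}
    (h : Rel b Y φ φ') (hY : Y' ⊆ Y) : Rel b Y' φ φ' := fun f hf d => h f (hY hf) d

theorem Tr.mono {b : BgIso w w' Z} {n m : ℕ} {T : Module.End ℝ (HE G → ℝ)}
    {T' : Module.End ℝ (HE G' → ℝ)} (h : Tr b n T T') (hnm : n ≤ m) : Tr b m T T' :=
  fun Y hY φ φ' hR f hf d => h Y hY φ φ' hR f ((ball_mono f hnm).trans hf) d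

theorem Tr.one (b : BgIso w w' Z) : Tr b 0 1 1 :=
  fun _ _ _ _ hR f hf d => hR f (hf (mem_ball_self f 0)) d

theorem Tr.zero (b : BgIso w w' Z) : Tr b 0 0 0 := fun _ _ _ _ _ f _ d => by simp

theorem Tr.add {b : BgIso w w' Z} {n : ℕ} {T₁ T₂ : Module.End ℝ (HE G → ℝ)}
    {T₁' T₂' : Module.End ℝ (HE G' → ℝ)} (h₁ : Tr b n T₁ T₁') (h₂ : Tr b n T₂ T₂') :
    Tr b n (T₁ + T₂) (T₁' + T₂') := fun Y hY φ φ' hR f hf d => by
  rw [LinearMap.add_apply, LinearMap.add_apply, Pi.add_apply, Pi.add_apply,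
    h₁ Y hY φ φ' hR f hf d, h₂ Y hY φ φ' hR f hf d, mul_add]

theorem Tr.neg {b : BgIso w w' Z} {n : ℕ} {T₁ : Module.End ℝ (HE G → ℝ)}
    {T₁' : Module.End ℝ (HE G' → ℝ)} (h₁ : Tr b n T₁ T₁') :
    Tr b n (-T₁) (-T₁') := fun Y hY φ φ' hR f hf d => by
  rw [LinearMap.neg_apply, LinearMap.neg_apply, Pi.neg_apply, Pi.neg_apply,
    h₁ Y hY φ φ' hR f hf d, mul_neg]

theorem Tr.smul {b : BgIso w w' Z} {n : ℕ} {T₁ : Module.End ℝ (HE G → ℝ)}
    {T₁' : Module.End ℝ (HE G' → ℝ)} (h₁ : Tr b n T₁ T₁') (c : ℝ) :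
    Tr b n (c • T₁) (c • T₁') := fun Y hY φ φ' hR f hf d => by
  rw [LinearMap.smul_apply, LinearMap.smul_apply, Pi.smul_apply, Pi.smul_apply,
    h₁ Y hY φ φ' hR f hf d, smul_eq_mul, smul_eq_mul]
  ring

theorem Tr.rel {b : BgIso w w' Z} {n : ℕ} {T : Module.End ℝ (HE G → ℝ)}
    {T' : Module.End ℝ (HE G' → ℝ)} (h : Tr b n T T') {Y : Set (G × G)} (hY : Y ⊆ Z) {φ φ'}
    (hR : Rel b Y φ φ') : Rel b {f | ball f n ⊆ Y} (T φ) (T' φ') :=
  fun f hf d => h Y hY φ φ' hR f hf d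

theorem Tr.mul {b : BgIso w w' Z} {n m : ℕ} {T₁ T₂ : Module.End ℝ (HE G → ℝ)}
    {T₁' T₂' : Module.End ℝ (HE G' → ℝ)} (h₁ : Tr b n T₁ T₁') (h₂ : Tr b m T₂ T₂') :
    Tr b (n + m) (T₁ * T₂) (T₁' * T₂') := fun Y hY φ φ' hR f hf d => by
  rw [Module.End.mul_apply, Module.End.mul_apply]
  have h3 : {g | ball g m ⊆ Y} ⊆ Z := fun g hg => hY (hg (mem_ball_self g m))
  refine h₁ _ h3 _ _ (h₂.rel hY hR) f ?_ d
  intro g hg
  exact (ball_of_mem hg).trans hf

theorem Tr.pow {b : BgIso w w' Z} {n : ℕ} {T : Module.End ℝ (HE G → ℝ)}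
    {T' : Module.End ℝ (HE G' → ℝ)} (h : Tr b n T T') (k : ℕ) : Tr b (n * k) (T ^ k) (T' ^ k) := by
  induction k with
  | zero => simpa using Tr.one b
  | succ k ih =>
    rw [pow_succ, pow_succ]
    exact (ih.mul h).mono (by rw [Nat.mul_succ])

theorem Tr.sum {ι : Type*} {b : BgIso w w' Z} {n : ℕ} (S : Finset ι)
    {T : ι → Module.End ℝ (HE G → ℝ)} {T' : ι → Module.End ℝ (HE G' → ℝ)}
    (h : ∀ i ∈ S, Tr b n (T i) (T' i)) : Tr b n (∑ i ∈ S, T i) (∑ i ∈ S, T' i) := by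
  induction S using Finset.induction_on with
  | empty => simpa using (Tr.zero b).mono (Nat.zero_le n)
  | insert a S ha ih =>
    rw [Finset.sum_insert ha, Finset.sum_insert ha]
    exact (h a (Finset.mem_insert_self a S)).add
      (ih fun i hi => h i (Finset.mem_insert_of_mem hi))

theorem Tr.aeval {b : BgIso w w' Z} {n : ℕ} {T : Module.End ℝ (HE G → ℝ)}
    {T' : Module.End ℝ (HE G' → ℝ)} (h : Tr b n T T') (p : Polynomial ℝ) :
    Tr b (n * p.natDegree) (Polynomial.aeval T p) (Polynomial.aeval T' p) := by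
  rw [Polynomial.aeval_eq_sum_range, Polynomial.aeval_eq_sum_range]
  refine Tr.sum _ fun i hi => ?_
  have hi' : i ≤ p.natDegree := Nat.lt_succ_iff.1 (Finset.mem_range.1 hi)
  exact ((h.pow i).mono (Nat.mul_le_mul_left n hi')).smul _

/-- the operator `A` is transported -/
theorem tr_Aop (b : BgIso w w' Z) : Tr b 1 (Aop w) (Aop w') := by
  intro Y hY φ φ' hR f hf d
  have hZ : ball f 1 ⊆ Z := hf.trans hY
  have h0 := hR f (hf (mem_ball_self f 1))
  have hf0 : f ∈ Z := hZ (mem_ball_self f 1)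
  fin_cases d
  · show Aop w' φ' (b.τ f, 0) = b.s f * Aop w φ (f, 0)
    have h1 := hR _ (hf (mem_ball1_sub2 f)) 2
    rw [b.tau_sub2 hZ] at h1
    have e : ((f.1, f.2 - 1 + 1) : G × G) = f := by ext <;> simp
    have h2 := b.wN _ (hZ (mem_ball1_sub2 f)) (by simp only [e]; exact hf0)
    rw [b.tau_sub2 hZ] at h2
    simp only [e] at h2
    rw [Aop_S, Aop_S, h0, h0, h0, h1, h2]
    linear_combination (-(yN w' ((b.τ f).1, (b.τ f).2 - 1) * b.s (f.1, f.2 - 1) *
      φ ((f.1, f.2 - 1), 2))) * b.sq f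
  · show Aop w' φ' (b.τ f, 1) = b.s f * Aop w φ (f, 1)
    have h1 := hR _ (hf (mem_ball1_add1 f)) 3
    rw [b.tau_add1 hZ] at h1
    have h2 := b.wE _ hf0 (hZ (mem_ball1_add1 f))
    rw [Aop_E, Aop_E, h0, h0, h0, h1, h2]
    linear_combination (-(yE w' (b.τ f) * b.s (f.1 + 1, f.2) *
      φ ((f.1 + 1, f.2), 3))) * b.sq f
  · show Aop w' φ' (b.τ f, 2) = b.s f * Aop w φ (f, 2)
    have h1 := hR _ (hf (mem_ball1_add2 f)) 0
    rw [b.tau_add2 hZ] at h1
    have h2 := b.wN _ hf0 (hZ (mem_ball1_add2 f))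
    rw [Aop_N, Aop_N, h0, h0, h0, h1, h2]
    linear_combination (yN w' (b.τ f) * b.s (f.1, f.2 + 1) *
      φ ((f.1, f.2 + 1), 0)) * b.sq f
  · show Aop w' φ' (b.τ f, 3) = b.s f * Aop w φ (f, 3)
    have h1 := hR _ (hf (mem_ball1_sub1 f)) 1
    rw [b.tau_sub1 hZ] at h1
    have e : ((f.1 - 1 + 1, f.2) : G × G) = f := by ext <;> simp
    have h2 := b.wE _ (hZ (mem_ball1_sub1 f)) (by simp only [e]; exact hf0)
    rw [b.tau_sub1 hZ] at h2
    simp only [e] at h2
    rw [Aop_W, Aop_W, h0, h0, h0, h1, h2]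
    linear_combination (yE w' ((b.τ f).1 - 1, (b.τ f).2) * b.s (f.1 - 1, f.2) *
      φ ((f.1 - 1, f.2), 1)) * b.sq f

theorem tr_Qop (b : BgIso w w' Z) : Tr b 2 (Qop w) (Qop w') :=
  ((tr_Aop b).mul (tr_Aop b)).neg

/-- `A p(Q)` is transported, range `2 deg p + 1` -/
theorem tr_slop (b : BgIso w w' Z) (p : Polynomial ℝ) :
    Tr b (1 + 2 * p.natDegree) (slop w p) (slop w' p) :=
  (tr_Aop b).mul ((tr_Qop b).aeval p)

/-- kernels are transported -/
theorem Tr.ker_eq {b : BgIso w w' Z} {n : ℕ} {T : Module.End ℝ (HE G → ℝ)}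
    {T' : Module.End ℝ (HE G' → ℝ)} (h : Tr b n T T') (h₁ h₂ : HE G) (hf : ball h₁.1 n ⊆ Z)
    (hg : h₂.1 ∈ Z) :
    ker T' (b.τ h₁.1, h₁.2) (b.τ h₂.1, h₂.2) = b.s h₁.1 * b.s h₂.1 * ker T h₁ h₂ := by
  obtain ⟨f, d⟩ := h₁
  obtain ⟨g, e⟩ := h₂
  simp only at hf hg ⊢
  have hR : Rel b Z (Pi.single (g, e) 1) (b.s g • Pi.single (b.τ g, e) 1) := by
    intro f' hf' d'
    rw [Pi.smul_apply, smul_eq_mul, Pi.single_apply, Pi.single_apply]
    by_cases h1 : f' = g
    · subst h1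
      by_cases h2 : d' = e
      · subst h2; simp
      · have e1 : ((b.τ f', d') : HE G') ≠ (b.τ f', e) := fun h => h2 (congrArg Prod.snd h)
        have e2 : ((f', d') : HE G) ≠ (f', e) := fun h => h2 (congrArg Prod.snd h)
        simp [h2]
    · have e1 : ((b.τ f', d') : HE G') ≠ (b.τ g, e) :=
        fun h => h1 (b.injOn hf' hg (congrArg Prod.fst h))
      have e2 : ((f', d') : HE G) ≠ (g, e) := fun h => h1 (congrArg Prod.fst h)
      rw [if_neg e1, if_neg e2, mul_zero, mul_zero]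
  have h3 := h Z le_rfl _ _ hR f hf d
  rw [map_smul, Pi.smul_apply, smul_eq_mul] at h3
  unfold ker
  have h4 := b.sq g
  calc _ = b.s g * b.s g * T' (Pi.single (b.τ g, e) 1) (b.τ f, d) := by rw [h4, one_mul]
    _ = b.s g * (b.s g * T' (Pi.single (b.τ g, e) 1) (b.τ f, d)) := by ring
    _ = _ := by rw [h3]; ring

end Crest.Agent.R165.BgIsox432
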