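import Crest.Agent.R165.PotA_894

/-!
# R165 / PotB (helper894): discrete Sobolev inequality and interior estimates

* `sobolev_box`;
* `interior_sq` : `u z ^ 2 ≤ C / r² ∑_{Q c r} u²` for `u` harmonic on `Q c (r-1)`, `z ∈ Q c (r/4)`;
* `interior_D_sq`: `(D_i u c)² ≤ C / r⁴ ∑_{Q c r} u²`;
* `interior_sup`: `|D_{i_1} … D_{i_k} u c| ≤ C_k r^{-k} sup_{Q c r} |u|`.
-/

namespace Crest.Agent.R165.PotBx894

open Finset Crest.Agent.R165.PotAx894

/-- telescoping over an integer interval -/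
lemma sum_Ico_telescope (f : ℤ → ℝ) {a b : ℤ} (h : a ≤ b) :
    ∑ l ∈ Finset.Ico a b, (f (l + 1) - f l) = f b - f a := by
  induction b, h using Int.leInduction with
  | base => simp
  | succ b hb ih =>
    have : Finset.Ico a (b + 1) = insert b (Finset.Ico a b) := by
      ext x; simp only [Finset.mem_Ico, Finset.mem_insert]; omega
    rw [this, Finset.sum_insert (by simp), ih]; ring

lemma diff_sq_le (f : ℤ → ℝ) {A B i j : ℤ} (hi : i ∈ Finset.Icc A B) (hj : j ∈ Finset.Icc A B) :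
    (f i - f j) ^ 2 ≤ ((B - A : ℤ) : ℝ) * ∑ l ∈ Finset.Icc A B, (f (l + 1) - f l) ^ 2 := by
  wlog hij : j ≤ i generalizing i j with H
  · have := H hj hi (le_of_lt (not_le.mp hij))
    have e : (f i - f j) ^ 2 = (f j - f i) ^ 2 := by ring
    rw [e]; exact this
  rw [Finset.mem_Icc] at hi hj
  rw [← sum_Ico_telescope f hij]
  refine (sq_sum_le_card_mul_sum_sq).trans ?_
  have hc : ((Finset.Ico j i).card : ℝ) ≤ ((B - A : ℤ) : ℝ) := by
    rw [Int.card_Ico]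
    have : ((i - j).toNat : ℤ) ≤ B - A := by
      rw [Int.toNat_of_nonneg (by omega)]; omega
    exact_mod_cast this
  have hs : ∑ l ∈ Finset.Ico j i, (f (l + 1) - f l) ^ 2
      ≤ ∑ l ∈ Finset.Icc A B, (f (l + 1) - f l) ^ 2 := by
    apply Finset.sum_le_sum_of_subset_of_nonneg
    · intro x hx
      rw [Finset.mem_Ico] at hx
      rw [Finset.mem_Icc]; omega
    · intros; positivity
  have h0 : (0 : ℝ) ≤ ∑ l ∈ Finset.Ico j i, (f (l + 1) - f l) ^ 2 :=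
    Finset.sum_nonneg (fun _ _ => sq_nonneg _)
  have h1 : (0 : ℝ) ≤ ((Finset.Ico j i).card : ℝ) := Nat.cast_nonneg _
  exact mul_le_mul hc hs h0 (h1.trans hc)

/-- one dimensional Sobolev inequality on `[a - n, a + n]` -/
lemma sobolev_1d (f : ℤ → ℝ) (a : ℤ) (n : ℕ) {i : ℤ} (hi : i ∈ Finset.Icc (a - n) (a + n)) :
    f i ^ 2 ≤ 2 / (2 * (n : ℝ) + 1) * ∑ l ∈ Finset.Icc (a - n) (a + n), f l ^ 2
      + 2 * (2 * (n : ℝ) + 1) * ∑ l ∈ Finset.Icc (a - n) (a + n), (f (l + 1) - f l) ^ 2 := by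
  set I := Finset.Icc (a - n) (a + n) with hI
  have hL : (0 : ℝ) < 2 * (n : ℝ) + 1 := by positivity
  have hcard : (I.card : ℝ) = 2 * (n : ℝ) + 1 := by
    rw [hI, Int.card_Icc]
    have : (a + n + 1 - (a - n)).toNat = 2 * n + 1 := by omega
    rw [this]; push_cast; ring
  set S := ∑ l ∈ I, (f (l + 1) - f l) ^ 2 with hS
  have hS0 : 0 ≤ S := Finset.sum_nonneg (fun _ _ => sq_nonneg _)
  have h1 : ∀ j ∈ I, f i ^ 2 ≤ 2 * f j ^ 2 + 2 * ((2 * (n : ℝ) + 1) * S) := by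
    intro j hj
    have := diff_sq_le f hi hj
    have e : (((a + n) - (a - n) : ℤ) : ℝ) = 2 * (n : ℝ) := by push_cast; ring
    rw [e] at this
    nlinarith [sq_nonneg (f i - 2 * f j), sq_nonneg (f i - f j)]
  have h2 : ∑ _j ∈ I, f i ^ 2 ≤ ∑ j ∈ I, (2 * f j ^ 2 + 2 * ((2 * (n : ℝ) + 1) * S)) :=
    Finset.sum_le_sum h1
  rw [Finset.sum_const, nsmul_eq_mul, hcard, Finset.sum_add_distrib, Finset.sum_const,
    nsmul_eq_mul, hcard, ← Finset.mul_sum] at h2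
  have e : f i ^ 2 = ((2 * (n : ℝ) + 1) * f i ^ 2) / (2 * (n : ℝ) + 1) := by
    field_simp
  rw [e, div_le_iff₀ hL]
  refine h2.trans (le_of_eq ?_)
  field_simp

lemma sum_Q (c : ℤ × ℤ) (n : ℕ) (g : ℤ × ℤ → ℝ) :
    ∑ z ∈ Q c n, g z = ∑ i ∈ Finset.Icc (c.1 - n) (c.1 + n),
      ∑ k ∈ Finset.Icc (c.2 - n) (c.2 + n), g (i, k) := by
  unfold Q; rw [Finset.sum_product]

/-- **discrete Sobolev inequality** on a box (squared form). -/
theorem sobolev_box (c : ℤ × ℤ) (n : ℕ) (u : ℤ × ℤ → ℝ) {z : ℤ × ℤ} (hz : z ∈ Q c n) :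
    u z ^ 2 ≤ 4 / (2 * (n : ℝ) + 1) ^ 2 * ∑ w ∈ Q c n, u w ^ 2
      + 4 * ∑ w ∈ Q c n, (D1 u w ^ 2 + D2 u w ^ 2)
      + 4 * (2 * (n : ℝ) + 1) ^ 2 * ∑ w ∈ Q c n, D2 (D1 u) w ^ 2 := by
  obtain ⟨i, k⟩ := z
  have hz' : i ∈ Finset.Icc (c.1 - n) (c.1 + n) ∧ k ∈ Finset.Icc (c.2 - n) (c.2 + n) := by
    simpa [Q] using hz
  set L := 2 * (n : ℝ) + 1 with hL
  have hLpos : 0 < L := by positivity
  have a1 := sobolev_1d (fun i => u (i, k)) c.1 n hz'.1
  have b1 : ∀ i, u (i, k) ^ 2 ≤ 2 / L * ∑ l ∈ Finset.Icc (c.2 - n) (c.2 + n), u (i, l) ^ 2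
      + 2 * L * ∑ l ∈ Finset.Icc (c.2 - n) (c.2 + n), D2 u (i, l) ^ 2 := by
    intro i
    have := sobolev_1d (fun l => u (i, l)) c.2 n hz'.2
    have e : ∀ l, D2 u (i, l) = u (i, l + 1) - u (i, l) := by intro l; simp [D2, e2]
    simp only [e]
    exact this
  have b2 : ∀ i, D1 u (i, k) ^ 2 ≤ 2 / L * ∑ l ∈ Finset.Icc (c.2 - n) (c.2 + n), D1 u (i, l) ^ 2
      + 2 * L * ∑ l ∈ Finset.Icc (c.2 - n) (c.2 + n), D2 (D1 u) (i, l) ^ 2 := by
    intro i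
    have := sobolev_1d (fun l => D1 u (i, l)) c.2 n hz'.2
    have e : ∀ l, D2 (D1 u) (i, l) = D1 u (i, l + 1) - D1 u (i, l) := by
      intro l; simp [D2, e2]
    simp only [e]
    exact this
  have e1' : ∀ l, u (l + 1, k) - u (l, k) = D1 u (l, k) := by intro l; simp [D1, e1]
  simp only [e1'] at a1
  have c1 := Finset.sum_le_sum (fun i (_ : i ∈ Finset.Icc (c.1 - (n : ℤ)) (c.1 + n)) => b1 i)
  have c2 := Finset.sum_le_sum (fun i (_ : i ∈ Finset.Icc (c.1 - (n : ℤ)) (c.1 + n)) => b2 i)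
  rw [Finset.sum_add_distrib, ← Finset.mul_sum, ← Finset.mul_sum] at c1 c2
  rw [← sum_Q c n (fun w => u w ^ 2), ← sum_Q c n (fun w => D2 u w ^ 2)] at c1
  rw [← sum_Q c n (fun w => D1 u w ^ 2), ← sum_Q c n (fun w => D2 (D1 u) w ^ 2)] at c2
  have d1 := mul_le_mul_of_nonneg_left c1 (show 0 ≤ 2 / L by positivity)
  have d2 := mul_le_mul_of_nonneg_left c2 (show 0 ≤ 2 * L by positivity)
  rw [Finset.sum_add_distrib]
  refine a1.trans ((add_le_add d1 d2).trans (le_of_eq ?_))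
  field_simp
  ring

/-! ### interior estimates -/

lemma lap_D1 (u : ℤ × ℤ → ℝ) (z : ℤ × ℤ) : lap (D1 u) z = lap u (z + e1) - lap u z := by
  unfold lap D1
  have h1 : z + e1 - e1 = z := by abel
  have h2 : z - e1 + e1 = z := by abel
  have h3 : z + e2 + e1 = z + e1 + e2 := by abel
  have h4 : z - e2 + e1 = z + e1 - e2 := by abel
  rw [h1, h2, h3, h4]; ring

lemma lap_D2 (u : ℤ × ℤ → ℝ) (z : ℤ × ℤ) : lap (D2 u) z = lap u (z + e2) - lap u z := by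
  unfold lap D2
  have h1 : z + e2 - e2 = z := by abel
  have h2 : z - e2 + e2 = z := by abel
  have h3 : z + e1 + e2 = z + e2 + e1 := by abel
  have h4 : z - e1 + e2 = z + e2 - e1 := by abel
  rw [h1, h2, h3, h4]; ring

/-- harmonic on the box of radius `n` -/
def Harm (u : ℤ × ℤ → ℝ) (c : ℤ × ℤ) (n : ℕ) : Prop := ∀ z ∈ Q c n, lap u z = 0

lemma Harm.mono {u : ℤ × ℤ → ℝ} {c : ℤ × ℤ} {m n : ℕ} (h : Harm u c n) (hmn : m ≤ n) :
    Harm u c m := fun z hz => h z (Q_mono hmn hz)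

lemma Harm.D1 {u : ℤ × ℤ → ℝ} {c : ℤ × ℤ} {n : ℕ} (h : Harm u c (n + 1)) :
    Harm (D1 u) c n := by
  intro z hz
  rw [lap_D1, h _ (add_e1_mem hz), h _ (Q_mono (Nat.le_succ n) hz), sub_zero]

lemma Harm.D2 {u : ℤ × ℤ → ℝ} {c : ℤ × ℤ} {n : ℕ} (h : Harm u c (n + 1)) :
    Harm (D2 u) c n := by
  intro z hz
  rw [lap_D2, h _ (add_e2_mem hz), h _ (Q_mono (Nat.le_succ n) hz), sub_zero]

lemma Q_sub_Q {c z : ℤ × ℤ} {m n k : ℕ} (hz : z ∈ Q c m) (h : m + n ≤ k) : Q z n ⊆ Q c k := by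
  intro w hw
  rw [mem_Q] at *
  have hk : (m : ℤ) + n ≤ k := by exact_mod_cast h
  constructor
  · have : w.1 - c.1 = (w.1 - z.1) + (z.1 - c.1) := by ring
    rw [this]
    exact (abs_add_le _ _).trans (by linarith [hw.1, hz.1])
  · have : w.2 - c.2 = (w.2 - z.2) + (z.2 - c.2) := by ring
    rw [this]
    exact (abs_add_le _ _).trans (by linarith [hw.2, hz.2])

/-- energies of the first derivatives at half radius. -/
lemma energy_half {u : ℤ × ℤ → ℝ} {c : ℤ × ℤ} {n k : ℕ} (hk : 0 < k)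
    (h : Harm u c (n + k - 1)) :
    ∑ z ∈ Q c n, (D1 u z ^ 2 + D2 u z ^ 2) ≤ 16 / (k : ℝ) ^ 2 * ∑ z ∈ Q c (n + k), u z ^ 2 :=
  caccioppoli_harm c n k hk u h

lemma sum_Q_mono {c : ℤ × ℤ} {m n : ℕ} (h : m ≤ n) {g : ℤ × ℤ → ℝ} (hg : ∀ z, 0 ≤ g z) :
    ∑ z ∈ Q c m, g z ≤ ∑ z ∈ Q c n, g z :=
  Finset.sum_le_sum_of_subset_of_nonneg (Q_mono h) (fun z _ _ => hg z)

/-- interior estimate at scales `m < 4m`. -/
lemma interior_four {u : ℤ × ℤ → ℝ} {c : ℤ × ℤ} {m : ℕ} (hm : 0 < m)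
    (h : Harm u c (4 * m - 1)) {z : ℤ × ℤ} (hz : z ∈ Q c m) :
    u z ^ 2 ≤ 2321 / (m : ℝ) ^ 2 * ∑ w ∈ Q c (4 * m), u w ^ 2 := by
  have hm' : (1 : ℝ) ≤ m := by exact_mod_cast hm
  have hm0 : (0 : ℝ) < m := by linarith
  set S := ∑ w ∈ Q c (4 * m), u w ^ 2 with hS
  have hS0 : 0 ≤ S := Finset.sum_nonneg (fun _ _ => sq_nonneg _)
  have main := sobolev_box c m u hz
  -- first
  have f1 : ∑ w ∈ Q c m, u w ^ 2 ≤ S := sum_Q_mono (by omega) (fun _ => sq_nonneg _)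
  have f2 : ∑ w ∈ Q c (2 * m), (D1 u w ^ 2 + D2 u w ^ 2) ≤ 4 / (m : ℝ) ^ 2 * S := by
    have := energy_half (u := u) (c := c) (n := 2 * m) (k := 2 * m) (by omega)
      (h.mono (by omega))
    have e : 2 * m + 2 * m = 4 * m := by ring
    rw [e] at this
    refine this.trans (le_of_eq ?_)
    push_cast
    field_simp
    ring
  have f2' : ∑ w ∈ Q c m, (D1 u w ^ 2 + D2 u w ^ 2) ≤ 4 / (m : ℝ) ^ 2 * S :=
    (sum_Q_mono (by omega) (fun _ => by positivity)).trans f2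
  have f3 : ∑ w ∈ Q c m, D2 (D1 u) w ^ 2 ≤ 64 / (m : ℝ) ^ 4 * S := by
    have g1 : Harm (D1 u) c (m + m - 1) := by
      have : Harm u c (m + m - 1 + 1) := h.mono (by omega)
      exact this.D1
    have := energy_half (u := D1 u) (c := c) (n := m) (k := m) hm g1
    have h1 : ∑ w ∈ Q c m, D2 (D1 u) w ^ 2 ≤ ∑ w ∈ Q c m, (D1 (D1 u) w ^ 2 + D2 (D1 u) w ^ 2) :=
      Finset.sum_le_sum (fun w _ => by nlinarith [sq_nonneg (D1 (D1 u) w)])
    have h2 : ∑ w ∈ Q c (m + m), D1 u w ^ 2 ≤ ∑ w ∈ Q c (2 * m), (D1 u w ^ 2 + D2 u w ^ 2) := by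
      have e : m + m = 2 * m := by ring
      rw [e]
      exact Finset.sum_le_sum (fun w _ => by nlinarith [sq_nonneg (D2 u w)])
    calc _ ≤ _ := h1
      _ ≤ _ := this
      _ ≤ 16 / (m : ℝ) ^ 2 * (4 / (m : ℝ) ^ 2 * S) := by
          gcongr
          exact h2.trans f2
      _ = 64 / (m : ℝ) ^ 4 * S := by field_simp; ring
  have L1 : (2 * (m : ℝ)) ^ 2 ≤ (2 * (m : ℝ) + 1) ^ 2 := by gcongr; linarith
  have L2 : (2 * (m : ℝ) + 1) ^ 2 ≤ (3 * (m : ℝ)) ^ 2 := by gcongr; linarith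
  have t1 : 4 / (2 * (m : ℝ) + 1) ^ 2 * ∑ w ∈ Q c m, u w ^ 2 ≤ 1 / (m : ℝ) ^ 2 * S := by
    have : 4 / (2 * (m : ℝ) + 1) ^ 2 ≤ 1 / (m : ℝ) ^ 2 := by
      rw [div_le_div_iff₀ (by positivity) (by positivity)]; nlinarith
    exact mul_le_mul this f1 (Finset.sum_nonneg (fun _ _ => sq_nonneg _)) (by positivity)
  have t3 : 4 * (2 * (m : ℝ) + 1) ^ 2 * ∑ w ∈ Q c m, D2 (D1 u) w ^ 2
      ≤ 2304 / (m : ℝ) ^ 2 * S := by
    calc _ ≤ 4 * (3 * (m : ℝ)) ^ 2 * (64 / (m : ℝ) ^ 4 * S) := by gcongr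
      _ = 2304 / (m : ℝ) ^ 2 * S := by field_simp; ring
  calc u z ^ 2 ≤ _ := main
    _ ≤ 1 / (m : ℝ) ^ 2 * S + 4 * (4 / (m : ℝ) ^ 2 * S) + 2304 / (m : ℝ) ^ 2 * S :=
        add_le_add (add_le_add t1 (by gcongr)) t3
    _ = 2321 / (m : ℝ) ^ 2 * S := by ring

/-- **interior estimate** `u(z)² ≤ C r⁻² ‖u‖²_{L²(Q c r)}`, `z ∈ Q c (r/4)`. -/
theorem interior_sq {u : ℤ × ℤ → ℝ} {c : ℤ × ℤ} {r : ℕ} (hr : 0 < r)
    (h : Harm u c (r - 1)) {z : ℤ × ℤ} (hz : z ∈ Q c (r / 4)) :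
    u z ^ 2 ≤ 113729 / (r : ℝ) ^ 2 * ∑ w ∈ Q c r, u w ^ 2 := by
  have hr0 : (0 : ℝ) < r := by exact_mod_cast hr
  set S := ∑ w ∈ Q c r, u w ^ 2 with hS
  have hS0 : 0 ≤ S := Finset.sum_nonneg (fun _ _ => sq_nonneg _)
  by_cases h4 : r < 4
  · have h4' : (r : ℝ) ≤ 4 := by exact_mod_cast h4.le
    have h1 : u z ^ 2 ≤ S := by
      refine Finset.single_le_sum (f := fun w => u w ^ 2) (fun _ _ => sq_nonneg _)
        (Q_mono (by omega) hz)
    have h2 : (1 : ℝ) ≤ 113729 / (r : ℝ) ^ 2 := by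
      rw [le_div_iff₀ (by positivity)]; nlinarith
    calc u z ^ 2 ≤ S := h1
      _ = 1 * S := (one_mul _).symm
      _ ≤ _ := by gcongr
  · push Not at h4
    have hm : 0 < r / 4 := by omega
    have hm0 : (0 : ℝ) < ((r / 4 : ℕ) : ℝ) := by exact_mod_cast hm
    have := interior_four hm (h.mono (by omega)) hz
    have h2 : ∑ w ∈ Q c (4 * (r / 4)), u w ^ 2 ≤ S :=
      sum_Q_mono (by omega) (fun _ => sq_nonneg _)
    have h3 : (r : ℝ) ≤ 7 * ((r / 4 : ℕ) : ℝ) := by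
      have : r ≤ 7 * (r / 4) := by omega
      exact_mod_cast this
    have h4' : 2321 / ((r / 4 : ℕ) : ℝ) ^ 2 ≤ 113729 / (r : ℝ) ^ 2 := by
      rw [div_le_div_iff₀ (by positivity) (by positivity)]
      nlinarith
    calc u z ^ 2 ≤ _ := this
      _ ≤ 113729 / (r : ℝ) ^ 2 * S := by gcongr

/-- interior gradient estimate, `L²` form, at points `z ∈ Q c (r/8)`. -/
theorem interior_D_sq {u : ℤ × ℤ → ℝ} {c : ℤ × ℤ} {r : ℕ} (hr : 2 ≤ r)
    (h : Harm u c (r - 1)) {z : ℤ × ℤ} (hz : z ∈ Q c (r / 2 / 4)) :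
    D1 u z ^ 2 + D2 u z ^ 2 ≤ 147392784 / (r : ℝ) ^ 4 * ∑ w ∈ Q c r, u w ^ 2 := by
  have hr0 : (0 : ℝ) < r := by
    have : 0 < r := by omega
    exact_mod_cast this
  set S := ∑ w ∈ Q c r, u w ^ 2 with hS
  have hS0 : 0 ≤ S := Finset.sum_nonneg (fun _ _ => sq_nonneg _)
  set s := r / 2 with hs
  have hs0 : 0 < s := by omega
  have hs' : (0 : ℝ) < s := by exact_mod_cast hs0
  have hs3 : (r : ℝ) ≤ 3 * s := by
    have : r ≤ 3 * s := by omega
    exact_mod_cast this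
  have en := energy_half (u := u) (c := c) (n := s) (k := r - s) (by omega)
    (h.mono (by omega))
  have e : s + (r - s) = r := by omega
  rw [e] at en
  have h1 : Harm (D1 u) c (s - 1) := by
    have : Harm u c (s - 1 + 1) := h.mono (by omega)
    exact this.D1
  have h2 : Harm (D2 u) c (s - 1) := by
    have : Harm u c (s - 1 + 1) := h.mono (by omega)
    exact this.D2
  have i1 := interior_sq hs0 h1 hz
  have i2 := interior_sq hs0 h2 hz
  have hrs : (s : ℝ) ≤ ((r - s : ℕ) : ℝ) := by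
    have : s ≤ r - s := by omega
    exact_mod_cast this
  have hrs0 : (0 : ℝ) < ((r - s : ℕ) : ℝ) := hs'.trans_le hrs
  have hc1 : 16 / (((r - s : ℕ) : ℝ)) ^ 2 ≤ 144 / (r : ℝ) ^ 2 := by
    rw [div_le_div_iff₀ (by positivity) (by positivity)]
    nlinarith
  have hc2 : 113729 / (s : ℝ) ^ 2 ≤ 1023561 / (r : ℝ) ^ 2 := by
    rw [div_le_div_iff₀ (by positivity) (by positivity)]
    nlinarith
  have en' : ∑ z ∈ Q c s, (D1 u z ^ 2 + D2 u z ^ 2) ≤ 144 / (r : ℝ) ^ 2 * S :=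
    en.trans (mul_le_mul_of_nonneg_right hc1 hS0)
  have en0 : 0 ≤ ∑ z ∈ Q c s, (D1 u z ^ 2 + D2 u z ^ 2) :=
    Finset.sum_nonneg (fun _ _ => by positivity)
  calc D1 u z ^ 2 + D2 u z ^ 2
      ≤ 113729 / (s : ℝ) ^ 2 * ∑ w ∈ Q c s, D1 u w ^ 2
        + 113729 / (s : ℝ) ^ 2 * ∑ w ∈ Q c s, D2 u w ^ 2 := add_le_add i1 i2
    _ = 113729 / (s : ℝ) ^ 2 * ∑ w ∈ Q c s, (D1 u w ^ 2 + D2 u w ^ 2) := by
        rw [Finset.sum_add_distrib]; ring
    _ ≤ 1023561 / (r : ℝ) ^ 2 * (144 / (r : ℝ) ^ 2 * S) :=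
        mul_le_mul hc2 en' en0 (by positivity)
    _ = 147392784 / (r : ℝ) ^ 4 * S := by field_simp; ring

/-! ### sup forms, all orders -/

/-- `D i`, `i : Bool`: `D1` for `true`, `D2` for `false` -/
def DD (i : Bool) (u : ℤ × ℤ → ℝ) : ℤ × ℤ → ℝ := if i then D1 u else D2 u

/-- iterated differences along a list of directions -/
def DL : List Bool → (ℤ × ℤ → ℝ) → (ℤ × ℤ → ℝ)
  | [], u => u
  | i :: l, u => DL l (DD i u)

lemma card_Q (c : ℤ × ℤ) (n : ℕ) : ((Q c n).card : ℝ) = (2 * (n : ℝ) + 1) ^ 2 := by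
  unfold Q
  rw [Finset.card_product, Int.card_Icc, Int.card_Icc]
  have h1 : (c.1 + n + 1 - (c.1 - n)).toNat = 2 * n + 1 := by omega
  have h2 : (c.2 + n + 1 - (c.2 - n)).toNat = 2 * n + 1 := by omega
  rw [h1, h2]; push_cast; ring

lemma sum_sq_le_sup {u : ℤ × ℤ → ℝ} {c : ℤ × ℤ} {r : ℕ} (hr : 0 < r) {M : ℝ}
    (hM : ∀ z ∈ Q c r, |u z| ≤ M) : ∑ w ∈ Q c r, u w ^ 2 ≤ 9 * (r : ℝ) ^ 2 * M ^ 2 := by
  have hr1 : (1 : ℝ) ≤ r := by exact_mod_cast hr
  have h1 : ∑ w ∈ Q c r, u w ^ 2 ≤ ∑ w ∈ Q c r, M ^ 2 := by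
    apply Finset.sum_le_sum
    intro w hw
    rw [← sq_abs]
    have := hM w hw
    gcongr
  rw [Finset.sum_const, nsmul_eq_mul, card_Q] at h1
  refine h1.trans ?_
  have : (2 * (r : ℝ) + 1) ^ 2 ≤ 9 * (r : ℝ) ^ 2 := by nlinarith
  gcongr

/-- sup gradient estimate -/
theorem grad_sup {u : ℤ × ℤ → ℝ} {c : ℤ × ℤ} {r : ℕ} (hr : 0 < r) (h : Harm u c (r - 1)) {M : ℝ}
    (hM : ∀ z ∈ Q c r, |u z| ≤ M) (i : Bool) : |DD i u c| ≤ 36423 / r * M := by
  have hr0 : (0 : ℝ) < r := by exact_mod_cast hr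
  have hM0 : 0 ≤ M := (abs_nonneg _).trans (hM c (self_mem_Q c r))
  have hsq : D1 u c ^ 2 + D2 u c ^ 2 ≤ (36423 / r * M) ^ 2 := by
    by_cases h2 : 2 ≤ r
    · have h1 := interior_D_sq h2 h (self_mem_Q c _)
      have h3 := sum_sq_le_sup hr hM
      calc _ ≤ _ := h1
        _ ≤ 147392784 / (r : ℝ) ^ 4 * (9 * (r : ℝ) ^ 2 * M ^ 2) := by gcongr
        _ = 1326535056 / (r : ℝ) ^ 2 * M ^ 2 := by field_simp; ring
        _ ≤ (36423 : ℝ) ^ 2 / (r : ℝ) ^ 2 * M ^ 2 := by gcongr; norm_num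
        _ = _ := by ring
    · have h1 : r = 1 := by omega
      subst h1
      have a0 := abs_le.mp (hM c (self_mem_Q c 1))
      have a1 := abs_le.mp (hM (c + e1) (add_e1_mem (self_mem_Q c 0)))
      have a2 := abs_le.mp (hM (c + e2) (add_e2_mem (self_mem_Q c 0)))
      have b1 : |D1 u c| ≤ 2 * M := by
        unfold D1; rw [abs_le]; constructor <;> linarith [a0.1, a0.2, a1.1, a1.2]
      have b2 : |D2 u c| ≤ 2 * M := by
        unfold D2; rw [abs_le]; constructor <;> linarith [a0.1, a0.2, a2.1, a2.2]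
      have c1 : D1 u c ^ 2 ≤ (2 * M) ^ 2 := by rw [← sq_abs]; gcongr
      have c2 : D2 u c ^ 2 ≤ (2 * M) ^ 2 := by rw [← sq_abs]; gcongr
      push_cast
      nlinarith [sq_nonneg M]
  have hnn : 0 ≤ 36423 / (r : ℝ) * M := by positivity
  unfold DD
  split_ifs
  · refine abs_le_of_sq_le_sq ?_ hnn
    nlinarith [sq_nonneg (D2 u c)]
  · refine abs_le_of_sq_le_sq ?_ hnn
    nlinarith [sq_nonneg (D1 u c)]

lemma Harm.DD {u : ℤ × ℤ → ℝ} {c : ℤ × ℤ} {n : ℕ} (i : Bool) (h : Harm u c (n + 1)) :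
    Harm (DD i u) c n := by
  unfold PotBx894.DD
  split_ifs
  · exact h.D1
  · exact h.D2

lemma DL_trivial (l : List Bool) : ∀ (u : ℤ × ℤ → ℝ) (c : ℤ × ℤ) (M : ℝ),
    (∀ z ∈ Q c l.length, |u z| ≤ M) → |DL l u c| ≤ 2 ^ l.length * M := by
  induction l with
  | nil => intro u c M hM; simpa [DL] using hM c (self_mem_Q c 0)
  | cons i l ih =>
    intro u c M hM
    have : ∀ z ∈ Q c l.length, |DD i u z| ≤ 2 * M := by
      intro z hz
      have a0 := abs_le.mp (hM z (Q_mono (by simp) hz))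
      have a1 := abs_le.mp (hM (z + e1) (add_e1_mem hz))
      have a2 := abs_le.mp (hM (z + e2) (add_e2_mem hz))
      unfold DD
      split_ifs
      · unfold D1; rw [abs_le]; constructor <;> linarith [a0.1, a0.2, a1.1, a1.2]
      · unfold D2; rw [abs_le]; constructor <;> linarith [a0.1, a0.2, a2.1, a2.2]
    have := ih (DD i u) c (2 * M) this
    simp only [DL, List.length_cons]
    refine this.trans (le_of_eq ?_)
    ring

/-- **all orders**: `|D_{i_1} ⋯ D_{i_k} u (c)| ≤ C r^{-k} sup_{Q c r} |u|` for `r ≥ k`. -/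
theorem interior_sup (l : List Bool) : ∃ C : ℝ, 0 < C ∧ ∀ (u : ℤ × ℤ → ℝ) (c : ℤ × ℤ) (r : ℕ)
    (M : ℝ), 0 < r → l.length ≤ r → Harm u c (r - 1) → (∀ z ∈ Q c r, |u z| ≤ M) →
    |DL l u c| ≤ C / (r : ℝ) ^ l.length * M := by
  induction l with
  | nil =>
    refine ⟨1, one_pos, ?_⟩
    intro u c r M hr _ _ hM
    simpa [DL] using hM c (self_mem_Q c r)
  | cons i l ih =>
    obtain ⟨C, hC, H⟩ := ih
    set k := l.length with hk
    refine ⟨2 ^ (k + 1) * (2 * (k + 1 : ℝ)) ^ (k + 1) + C * 3 ^ k * 72846, by positivity, ?_⟩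
    intro u c r M hr hkr hh hM
    have hr0 : (0 : ℝ) < r := by exact_mod_cast hr
    have hM0 : 0 ≤ M := (abs_nonneg _).trans (hM c (self_mem_Q c r))
    simp only [List.length_cons] at hkr ⊢
    by_cases hs : k ≤ r / 2 ∧ 0 < r / 2
    · set s := r / 2 with hsdef
      have hs' : (0 : ℝ) < s := by exact_mod_cast hs.2
      have hs3 : (r : ℝ) ≤ 3 * s := by
        have : r ≤ 3 * s := by omega
        exact_mod_cast this
      have h2s : (r : ℝ) ≤ 2 * ((r - s : ℕ) : ℝ) := by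
        have : r ≤ 2 * (r - s) := by omega
        exact_mod_cast this
      have hrs0 : (0 : ℝ) < ((r - s : ℕ) : ℝ) := by
        have : 0 < r - s := by omega
        exact_mod_cast this
      have hh1 : Harm (DD i u) c (s - 1) := by
        have : Harm u c (s - 1 + 1) := hh.mono (by omega)
        exact this.DD i
      have hv : ∀ z ∈ Q c s, |DD i u z| ≤ 72846 / r * M := by
        intro z hz
        have hQ : Q z (r - s) ⊆ Q c r := Q_sub_Q hz (by omega)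
        have hQ' : Q z (r - s - 1) ⊆ Q c (r - 1) := Q_sub_Q hz (by omega)
        have := grad_sup (u := u) (c := z) (r := r - s) (by omega)
          (fun w hw => hh w (hQ' hw)) (fun w hw => hM w (hQ hw)) i
        refine this.trans ?_
        apply mul_le_mul_of_nonneg_right _ hM0
        rw [div_le_div_iff₀ hrs0 hr0]
        linarith
      have := H (DD i u) c s (72846 / r * M) hs.2 hs.1 hh1 hv
      simp only [DL]
      refine this.trans ?_
      have h1 : C / (s : ℝ) ^ k ≤ C * 3 ^ k / (r : ℝ) ^ k := by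
        rw [div_le_div_iff₀ (by positivity) (by positivity)]
        have : (r : ℝ) ^ k ≤ (3 * s) ^ k := by gcongr
        rw [mul_pow] at this
        calc C * (r : ℝ) ^ k ≤ C * (3 ^ k * s ^ k) := by gcongr
          _ = _ := by ring
      calc C / (s : ℝ) ^ k * (72846 / r * M) ≤ C * 3 ^ k / (r : ℝ) ^ k * (72846 / r * M) := by
            gcongr
        _ = (C * 3 ^ k * 72846) / (r : ℝ) ^ (k + 1) * M := by
            rw [pow_succ]; field_simp
        _ ≤ _ := by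
            gcongr
            have : (0 : ℝ) ≤ 2 ^ (k + 1) * (2 * (k + 1 : ℝ)) ^ (k + 1) := by positivity
            linarith
    · have hsmall : (r : ℝ) ≤ 2 * (k + 1 : ℝ) := by
        have : r ≤ 2 * (k + 1) := by
          by_contra hc
          apply hs
          constructor <;> omega
        exact_mod_cast this
      have := DL_trivial (i :: l) u c M (fun z hz => hM z (Q_mono (by simpa using hkr) hz))
      simp only [List.length_cons] at this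
      refine this.trans ?_
      apply mul_le_mul_of_nonneg_right _ hM0
      rw [le_div_iff₀ (by positivity)]
      have h1 : (r : ℝ) ^ (l.length + 1) ≤ (2 * (k + 1 : ℝ)) ^ (k + 1) := by
        rw [← hk]; gcongr
      calc (2 : ℝ) ^ (l.length + 1) * (r : ℝ) ^ (l.length + 1)
          ≤ 2 ^ (k + 1) * (2 * (k + 1 : ℝ)) ^ (k + 1) := by
            rw [← hk] at h1 ⊢
            gcongr
        _ ≤ _ := by
            have : (0 : ℝ) ≤ C * 3 ^ k * 72846 := by positivity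
            linarith

end Crest.Agent.R165.PotBx894
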