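import Crest.Agent.R165.Tr1_40
import Crest.Agent.R165.PotB_894

/-!
# Row 165 (S0250), block R, bulk regularity, part A (helper806)

* `Ap` : the critical operator of the plane on `Fld = Face → Fin 4 → ℝ` (constant weights `xc`);
* `Df e φ` : finite difference of a field, commutes with `Ap`;
* `adj_lap` : explicit adjugate, `-(2 x²) lap φ_a = Bop (Ap φ) a`;
* `energy` : `∑ |Dφ|² ≤ K ∑ |Ap φ|²` for finitely supported fields;
* `energy_box` : the same with a Lipschitz cut-off.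
-/

set_option autoImplicit false
set_option linter.unusedSimpArgs false

noncomputable section

namespace Crest.Agent.R165.Bkx806

open Finset Crest.Agent.R165.Tr1x40 Crest.Agent.R165.PotAx894 Crest.Agent.R165.PotBx894

/-- the critical operator of the plane -/
def Ap (φ : Fld) : Fld := A (fun _ _ => xc) φ

theorem Ap_S (φ : Fld) (f : Face) :
    Ap φ f 0 = φ f 1 + φ f 2 + φ f 3 + xc * φ (f - e2) 2 := by
  rw [Ap, A_S]; congr 3; ext <;> simp [e2]
theorem Ap_E (φ : Fld) (f : Face) :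
    Ap φ f 1 = -φ f 0 + φ f 2 + φ f 3 + xc * φ (f + e1) 3 := by
  rw [Ap, A_E]; congr 3; ext <;> simp [e1]
theorem Ap_N (φ : Fld) (f : Face) :
    Ap φ f 2 = -φ f 0 - φ f 1 + φ f 3 - xc * φ (f + e2) 0 := by
  rw [Ap, A_N]; congr 3; ext <;> simp [e2]
theorem Ap_W (φ : Fld) (f : Face) :
    Ap φ f 3 = -φ f 0 - φ f 1 - φ f 2 - xc * φ (f - e1) 1 := by
  rw [Ap, A_W]; congr 3; ext <;> simp [e1]

/-- finite difference of a field in direction `e` -/
def Df (e : Face) (φ : Fld) : Fld := fun f h => φ (f + e) h - φ f h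

theorem Df_apply (e : Face) (φ : Fld) (f : Face) (h : Fin 4) :
    Df e φ f h = φ (f + e) h - φ f h := rfl

theorem Ap_Df (e : Face) (φ : Fld) : Ap (Df e φ) = Df e (Ap φ) := by
  have s1 : ∀ f : Face, f - e2 + e = f + e - e2 := fun f => by abel
  have s2 : ∀ f : Face, f + e1 + e = f + e + e1 := fun f => by abel
  have s3 : ∀ f : Face, f + e2 + e = f + e + e2 := fun f => by abel
  have s4 : ∀ f : Face, f - e1 + e = f + e - e1 := fun f => by abel
  funext f h
  fin_cases h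
  · show Ap (Df e φ) f 0 = Ap φ (f + e) 0 - Ap φ f 0
    simp only [Ap_S, Df_apply, s1]; ring
  · show Ap (Df e φ) f 1 = Ap φ (f + e) 1 - Ap φ f 1
    simp only [Ap_E, Df_apply, s2]; ring
  · show Ap (Df e φ) f 2 = Ap φ (f + e) 2 - Ap φ f 2
    simp only [Ap_N, Df_apply, s3]; ring
  · show Ap (Df e φ) f 3 = Ap φ (f + e) 3 - Ap φ f 3
    simp only [Ap_W, Df_apply, s4]; ring

/-- the adjugate operator, every entry has vanishing sum of coefficients -/
def Bop (g : Fld) (f : Face) (h : Fin 4) : ℝ :=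
  match h with
  | 0 => xc * (g (f + e1) 0 - g (f - e1) 0)
      + (xc ^ 2 * g (f - e1 - e2) 1 + xc * g (f - e1) 1 + xc * g (f - e2) 1 - g f 1)
      + (-xc ^ 2 * g (f - e1 - e2) 2 + (2 - 6 * xc) * g (f - e2) 2 + 2 * xc * g f 2
          - xc ^ 2 * g (f + e1 - e2) 2)
      + (xc * g (f - e2) 3 - g f 3 + xc ^ 2 * g (f + e1 - e2) 3 + xc * g (f + e1) 3)
  | 1 => (g f 0 - xc * g (f + e2) 0 - xc * g (f + e1) 0 - xc ^ 2 * g (f + e1 + e2) 0)
      + xc * (g (f + e2) 1 - g (f - e2) 1)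
      + (xc * g (f - e2) 2 - g f 2 + xc ^ 2 * g (f + e1 - e2) 2 + xc * g (f + e1) 2)
      + (2 * xc * g f 3 - xc ^ 2 * g (f + e1 - e2) 3 + (2 - 6 * xc) * g (f + e1) 3
          - xc ^ 2 * g (f + e1 + e2) 3)
  | 2 => (xc ^ 2 * g (f - e1 + e2) 0 - 2 * xc * g f 0 + (-2 + 6 * xc) * g (f + e2) 0
          + xc ^ 2 * g (f + e1 + e2) 0)
      + (-xc * g (f - e1) 1 - xc ^ 2 * g (f - e1 + e2) 1 + g f 1 - xc * g (f + e2) 1)
      + xc * (g (f - e1) 2 - g (f + e1) 2)
      + (-g f 3 + xc * g (f + e2) 3 + xc * g (f + e1) 3 + xc ^ 2 * g (f + e1 + e2) 3)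
  | 3 => (-xc * g (f - e1) 0 - xc ^ 2 * g (f - e1 + e2) 0 + g f 0 - xc * g (f + e2) 0)
      + (xc ^ 2 * g (f - e1 - e2) 1 + (-2 + 6 * xc) * g (f - e1) 1 + xc ^ 2 * g (f - e1 + e2) 1
          - 2 * xc * g f 1)
      + (-xc ^ 2 * g (f - e1 - e2) 2 - xc * g (f - e1) 2 - xc * g (f - e2) 2 + g f 2)
      + xc * (g (f - e2) 3 - g (f + e2) 3)

/-- **explicit adjugate** -/
theorem adj_lap (φ : Fld) (f : Face) (h : Fin 4) :
    Bop (Ap φ) f h = -(2 * xc ^ 2) * lap (fun z => φ z h) f := by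
  have hx := xc_sq
  have c1 : ∀ z : Face, z - e1 + e1 = z := fun z => by abel
  have c2 : ∀ z : Face, z + e1 - e1 = z := fun z => by abel
  have c3 : ∀ z : Face, z - e2 + e2 = z := fun z => by abel
  have c4 : ∀ z : Face, z + e2 - e2 = z := fun z => by abel
  have n1 : f - e1 - e2 + e1 = f - e2 := by abel
  have n2 : f - e2 + e1 = f + e1 - e2 := by abel
  have n3 : f - e2 - e1 = f - e1 - e2 := by abel
  have n4 : f + e1 - e2 - e1 = f - e2 := by abel
  have n5 : f + e2 + e1 = f + e1 + e2 := by abel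
  have n6 : f + e1 + e2 - e1 = f + e2 := by abel
  have n7 : f - e1 + e2 + e1 = f + e2 := by abel
  have n8 : f + e2 - e1 = f - e1 + e2 := by abel
  fin_cases h
  · show Bop (Ap φ) f 0 = -(2 * xc ^ 2) * lap (fun z => φ z 0) f
    simp only [Bop, Ap_S, Ap_E, Ap_N, Ap_W, lap, c1, c2, c3, c4, n1, n2, n3, n4, n5, n6, n7, n8]
    grind
  · show Bop (Ap φ) f 1 = -(2 * xc ^ 2) * lap (fun z => φ z 1) f
    simp only [Bop, Ap_S, Ap_E, Ap_N, Ap_W, lap, c1, c2, c3, c4, n1, n2, n3, n4, n5, n6, n7, n8]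
    grind
  · show Bop (Ap φ) f 2 = -(2 * xc ^ 2) * lap (fun z => φ z 2) f
    simp only [Bop, Ap_S, Ap_E, Ap_N, Ap_W, lap, c1, c2, c3, c4, n1, n2, n3, n4, n5, n6, n7, n8]
    grind
  · show Bop (Ap φ) f 3 = -(2 * xc ^ 2) * lap (fun z => φ z 3) f
    simp only [Bop, Ap_S, Ap_E, Ap_N, Ap_W, lap, c1, c2, c3, c4, n1, n2, n3, n4, n5, n6, n7, n8]
    grind

/-! ### the adjugate as a sum of finite differences -/

/-- list of (coefficient, component, shift) -/
def Lt (h : Fin 4) : List (ℝ × Fin 4 × Face) :=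
  match h with
  | 0 => [(xc, 0, e1), (-xc, 0, -e1), (xc ^ 2, 1, -e1 - e2), (xc, 1, -e1), (xc, 1, -e2),
      (-xc ^ 2, 2, -e1 - e2), (2 - 6 * xc, 2, -e2), (-xc ^ 2, 2, e1 - e2),
      (xc, 3, -e2), (xc ^ 2, 3, e1 - e2), (xc, 3, e1)]
  | 1 => [(-xc, 0, e2), (-xc, 0, e1), (-xc ^ 2, 0, e1 + e2), (xc, 1, e2), (-xc, 1, -e2),
      (xc, 2, -e2), (xc ^ 2, 2, e1 - e2), (xc, 2, e1),
      (-xc ^ 2, 3, e1 - e2), (2 - 6 * xc, 3, e1), (-xc ^ 2, 3, e1 + e2)]
  | 2 => [(xc ^ 2, 0, -e1 + e2), (-2 + 6 * xc, 0, e2), (xc ^ 2, 0, e1 + e2),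
      (-xc, 1, -e1), (-xc ^ 2, 1, -e1 + e2), (-xc, 1, e2), (xc, 2, -e1), (-xc, 2, e1),
      (xc, 3, e2), (xc, 3, e1), (xc ^ 2, 3, e1 + e2)]
  | 3 => [(-xc, 0, -e1), (-xc ^ 2, 0, -e1 + e2), (-xc, 0, e2),
      (xc ^ 2, 1, -e1 - e2), (-2 + 6 * xc, 1, -e1), (xc ^ 2, 1, -e1 + e2),
      (-xc ^ 2, 2, -e1 - e2), (-xc, 2, -e1), (-xc, 2, -e2), (xc, 3, -e2), (-xc, 3, e2)]

/-- one term -/
def tm (g : Fld) (f : Face) (t : ℝ × Fin 4 × Face) : ℝ := t.1 * (g (f + t.2.2) t.2.1 - g f t.2.1)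

theorem Bop_eq (g : Fld) (f : Face) (h : Fin 4) : Bop g f h = ((Lt h).map (tm g f)).sum := by
  have hx := xc_sq
  have m1 : f + -e1 = f - e1 := by abel
  have m2 : f + -e2 = f - e2 := by abel
  have m3 : f + (-e1 - e2) = f - e1 - e2 := by abel
  have m4 : f + (e1 - e2) = f + e1 - e2 := by abel
  have m5 : f + (e1 + e2) = f + e1 + e2 := by abel
  have m6 : f + (-e1 + e2) = f - e1 + e2 := by abel
  fin_cases h
  · show Bop g f 0 = ((Lt 0).map (tm g f)).sum
    simp only [Bop, Lt, tm, List.map_cons, List.map_nil, List.sum_cons, List.sum_nil, m1, m2, m3,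
      m4, m5, m6]
    grind
  · show Bop g f 1 = ((Lt 1).map (tm g f)).sum
    simp only [Bop, Lt, tm, List.map_cons, List.map_nil, List.sum_cons, List.sum_nil, m1, m2, m3,
      m4, m5, m6]
    grind
  · show Bop g f 2 = ((Lt 2).map (tm g f)).sum
    simp only [Bop, Lt, tm, List.map_cons, List.map_nil, List.sum_cons, List.sum_nil, m1, m2, m3,
      m4, m5, m6]
    grind
  · show Bop g f 3 = ((Lt 3).map (tm g f)).sum
    simp only [Bop, Lt, tm, List.map_cons, List.map_nil, List.sum_cons, List.sum_nil, m1, m2, m3,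
      m4, m5, m6]
    grind

/-- the shifts that occur -/
def near : List Face := [e1, -e1, e2, -e2, -e1 - e2, e1 - e2, e1 + e2, -e1 + e2]

theorem Lt_near (h : Fin 4) : ∀ t ∈ Lt h, t.2.2 ∈ near := by
  fin_cases h
  all_goals
    intro t ht
    simp only [Lt, List.mem_cons, List.not_mem_nil, or_false] at ht
    rcases ht with h | h | h | h | h | h | h | h | h | h | h <;> simp [h, near]

theorem Lt_coef (h : Fin 4) : ((Lt h).map (fun t => |t.1|)).sum ≤ 4 := by
  have hx := xc_sq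
  have h0 := xc_pos
  have h1 := xc_lt_half
  have h2 : 2 / 5 < xc := by nlinarith
  have a1 : |xc| = xc := abs_of_pos h0
  have a2 : |xc ^ 2| = xc ^ 2 := abs_of_pos (by positivity)
  have a3 : |2 - 6 * xc| = 6 * xc - 2 := by rw [abs_sub_comm, abs_of_pos]; linarith
  have a4 : |-2 + 6 * xc| = 6 * xc - 2 := by rw [abs_of_pos] <;> linarith
  fin_cases h
  all_goals
    simp only [Lt, List.map_cons, List.map_nil, List.sum_cons, List.sum_nil, abs_neg, a1, a2, a3,
      a4]
    nlinarith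

/-! ### energy inequality -/

/-- energy of one component -/
def E1 (u : Face → ℝ) : ℝ := ∑' z, (D1 u z ^ 2 + D2 u z ^ 2)

theorem E1_nonneg (u : Face → ℝ) : 0 ≤ E1 u := tsum_nonneg fun _ => by positivity

theorem E1_summable {u : Face → ℝ} (hu : FS u) : Summable (fun z => D1 u z ^ 2 + D2 u z ^ 2) :=
  (hu.D1.sq.add hu.D2.sq).summable

/-- energy of a shift -/
def tri (u : Face → ℝ) (s : Face) : ℝ := ∑' z, (u (z + s) - u z) ^ 2

theorem tri_nonneg (u : Face → ℝ) (s : Face) : 0 ≤ tri u s := tsum_nonneg fun _ => by positivity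

theorem tri_summable {u : Face → ℝ} (hu : FS u) (s : Face) :
    Summable (fun z => (u (z + s) - u z) ^ 2) := ((hu.shift s).sub hu).sq.summable

theorem tri_neg (u : Face → ℝ) (s : Face) : tri u (-s) = tri u s := by
  unfold tri
  rw [← tsum_shift (fun z => (u (z + -s) - u z) ^ 2) s]
  congr 1; ext z
  rw [show z + s + -s = z by abel]; ring

theorem tri_add {u : Face → ℝ} (hu : FS u) (s t : Face) :
    tri u (s + t) ≤ 2 * tri u s + 2 * tri u t := by
  have e : tri u s = ∑' z, (u (z + t + s) - u (z + t)) ^ 2 :=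
    (tsum_shift (fun z => (u (z + s) - u z) ^ 2) t).symm
  have S2 : Summable (fun z => (u (z + t + s) - u (z + t)) ^ 2) :=
    (((hu.shift s).sub hu).shift t).sq.summable
  rw [e]
  unfold tri
  rw [← tsum_mul_left, ← tsum_mul_left, ← (S2.mul_left 2).tsum_add ((tri_summable hu t).mul_left 2)]
  refine (tri_summable hu (s + t)).tsum_le_tsum (fun z => ?_)
    ((S2.mul_left 2).add ((tri_summable hu t).mul_left 2))
  rw [show z + (s + t) = z + t + s by abel]
  nlinarith [sq_nonneg (u (z + t + s) - u (z + t) - (u (z + t) - u z))]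

theorem E1_eq {u : Face → ℝ} (hu : FS u) : E1 u = tri u e1 + tri u e2 := by
  unfold E1 tri
  rw [← (tri_summable hu e1).tsum_add (tri_summable hu e2)]
  rfl

theorem shift_energy {u : Face → ℝ} (hu : FS u) (s : Face) (hs : s ∈ near) :
    tri u s ≤ 2 * E1 u := by
  have h1 := tri_nonneg u e1
  have h2 := tri_nonneg u e2
  have h3 := tri_neg u e1
  have h4 := tri_neg u e2
  rw [E1_eq hu]
  simp only [near, List.mem_cons, List.not_mem_nil, or_false] at hs
  rcases hs with h | h | h | h | h | h | h | h <;> subst h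
  · linarith
  · linarith
  · linarith
  · linarith
  · have := tri_add hu (-e1) (-e2)
    rw [← sub_eq_add_neg] at this; linarith
  · have := tri_add hu e1 (-e2)
    rw [← sub_eq_add_neg] at this; linarith
  · have := tri_add hu e1 e2; linarith
  · have := tri_add hu (-e1) e2; linarith

/-- transposition of one difference and Young's inequality -/
theorem pair_le {u g : Face → ℝ} (hu : FS u) (hg : FS g) (s : Face) (hs : s ∈ near) (c : ℝ)
    {ε : ℝ} (hε : 0 < ε) :
    ∑' z, u z * (c * (g (z + s) - g z)) ≤ |c| * (ε * E1 u + 1 / (2 * ε) * ∑' z, g z ^ 2) := by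
  have hs' : -s ∈ near := by
    simp only [near, List.mem_cons, List.not_mem_nil, or_false] at hs ⊢
    rcases hs with h | h | h | h | h | h | h | h <;> subst h <;> simp [sub_eq_add_neg, add_comm]
  have e : ∑' z, u z * (c * (g (z + s) - g z)) = ∑' z, c * ((u (z + -s) - u z) * g z) := by
    have a1 : ∑' z, u z * (c * g (z + s)) = ∑' z, u (z + -s) * (c * g z) := by
      rw [← tsum_shift (fun z => u (z + -s) * (c * g z)) s]
      congr 1; ext z
      rw [show z + s + -s = z by abel]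
    have s1 : Summable (fun z => u z * (c * g (z + s))) := (hu.mul_right _).summable
    have s2 : Summable (fun z => u z * (c * g z)) := (hu.mul_right _).summable
    have s3 : Summable (fun z => u (z + -s) * (c * g z)) := ((hu.shift (-s)).mul_right _).summable
    calc ∑' z, u z * (c * (g (z + s) - g z))
        = ∑' z, (u z * (c * g (z + s)) - u z * (c * g z)) := by congr 1; ext z; ring
      _ = ∑' z, u (z + -s) * (c * g z) - ∑' z, u z * (c * g z) := by rw [s1.tsum_sub s2, a1]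
      _ = ∑' z, (u (z + -s) * (c * g z) - u z * (c * g z)) := (s3.tsum_sub s2).symm
      _ = _ := by congr 1; ext z; ring
  have hE := shift_energy hu (-s) hs'
  have S1 : Summable (fun z => c * ((u (z + -s) - u z) * g z)) :=
    ((((hu.shift (-s)).sub hu).mul_right _).mul_left _).summable
  have S2 := (tri_summable hu (-s)).mul_left (|c| * (ε / 2))
  have S3 := (hg.sq.summable).mul_left (|c| * (1 / (2 * ε)))
  have hc := abs_nonneg c
  rw [e]
  calc ∑' z, c * ((u (z + -s) - u z) * g z)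
      ≤ ∑' z, (|c| * (ε / 2) * (u (z + -s) - u z) ^ 2 + |c| * (1 / (2 * ε)) * g z ^ 2) := by
        refine S1.tsum_le_tsum (fun z => ?_) (S2.add S3)
        have y : |(u (z + -s) - u z) * g z| ≤ ε / 2 * (u (z + -s) - u z) ^ 2
            + 1 / (2 * ε) * g z ^ 2 := by
          set a := u (z + -s) - u z
          set b := g z
          have : ε / 2 * a ^ 2 + 1 / (2 * ε) * b ^ 2 = (ε * |a| - |b|) ^ 2 / (2 * ε)
              + |a| * |b| := by
            rw [← sq_abs a, ← sq_abs b]; field_simp; ring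
          rw [this, abs_mul]
          have : 0 ≤ (ε * |a| - |b|) ^ 2 / (2 * ε) := by positivity
          linarith
        calc c * ((u (z + -s) - u z) * g z) ≤ |c * ((u (z + -s) - u z) * g z)| := le_abs_self _
          _ = |c| * |(u (z + -s) - u z) * g z| := abs_mul _ _
          _ ≤ |c| * (ε / 2 * (u (z + -s) - u z) ^ 2 + 1 / (2 * ε) * g z ^ 2) := by gcongr
          _ = _ := by ring
    _ = |c| * (ε / 2) * tri u (-s) + |c| * (1 / (2 * ε)) * ∑' z, g z ^ 2 := by
        rw [S2.tsum_add S3, tsum_mul_left, tsum_mul_left]; rfl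
    _ ≤ |c| * (ε / 2) * (2 * E1 u) + |c| * (1 / (2 * ε)) * ∑' z, g z ^ 2 := by gcongr
    _ = _ := by ring

/-- finitely supported fields -/
def FSF (φ : Fld) : Prop := ∀ h, FS (fun z => φ z h)

theorem list_le {u : Face → ℝ} (hu : FS u) {g : Fld} (hg : FSF g) {G : ℝ}
    (hG : ∀ b, ∑' z, g z b ^ 2 ≤ G) {ε : ℝ} (hε : 0 < ε) (l : List (ℝ × Fin 4 × Face))
    (hl : ∀ t ∈ l, t.2.2 ∈ near) :
    Summable (fun z => u z * (l.map (tm g z)).sum) ∧
    ∑' z, u z * (l.map (tm g z)).sum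
      ≤ (l.map (fun t => |t.1|)).sum * (ε * E1 u + 1 / (2 * ε) * G) := by
  induction l with
  | nil => simp
  | cons t l ih =>
    obtain ⟨ih1, ih2⟩ := ih (fun t ht => hl t (List.mem_cons_of_mem _ ht))
    have hs := hl t List.mem_cons_self
    have p := pair_le hu (hg t.2.1) t.2.2 hs t.1 hε
    have e : ∀ z, u z * (((t :: l).map (tm g z)).sum)
        = u z * (t.1 * (g (z + t.2.2) t.2.1 - g z t.2.1)) + u z * (l.map (tm g z)).sum := by
      intro z; simp only [List.map_cons, List.sum_cons, tm]; ring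
    have s1 : Summable (fun z => u z * (t.1 * (g (z + t.2.2) t.2.1 - g z t.2.1))) :=
      (hu.mul_right _).summable
    refine ⟨by simp only [e]; exact s1.add ih1, ?_⟩
    simp only [e]
    rw [s1.tsum_add ih1]
    simp only [List.map_cons, List.sum_cons]
    have hc := abs_nonneg t.1
    have : |t.1| * (ε * E1 u + 1 / (2 * ε) * ∑' z, g z t.2.1 ^ 2)
        ≤ |t.1| * (ε * E1 u + 1 / (2 * ε) * G) := by
      have := hG t.2.1
      gcongr
    linarith

theorem Ap_FSF {φ : Fld} (hφ : FSF φ) : FSF (Ap φ) := by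
  have sm : ∀ (c : ℝ) {u : Face → ℝ}, FS u → FS (fun z => c * u z) := fun c u hu => hu.mul_left _
  have sh : ∀ (s : Face) {u : Face → ℝ}, FS u → FS (fun z => u (z - s)) := fun s u hu => by
    have := hu.shift (-s); simpa only [sub_eq_add_neg] using this
  intro h
  fin_cases h
  · show FS (fun z => Ap φ z 0)
    simp only [Ap_S]
    exact (((hφ 1).add (hφ 2)).add (hφ 3)).add (sm xc (sh e2 (hφ 2)))
  · show FS (fun z => Ap φ z 1)
    have : (fun z => Ap φ z 1)
        = fun z => (-1 : ℝ) * φ z 0 + φ z 2 + φ z 3 + xc * φ (z + e1) 3 := by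
      funext z; rw [Ap_E]; ring
    rw [this]
    exact (((sm (-1) (hφ 0)).add (hφ 2)).add (hφ 3)).add (sm xc ((hφ 3).shift e1))
  · show FS (fun z => Ap φ z 2)
    have : (fun z => Ap φ z 2)
        = fun z => (-1 : ℝ) * φ z 0 + (-1 : ℝ) * φ z 1 + φ z 3 + (-xc) * φ (z + e2) 0 := by
      funext z; rw [Ap_N]; ring
    rw [this]
    exact (((sm (-1) (hφ 0)).add (sm (-1) (hφ 1))).add (hφ 3)).add (sm (-xc) ((hφ 0).shift e2))
  · show FS (fun z => Ap φ z 3)
    have : (fun z => Ap φ z 3)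
        = fun z => (-1 : ℝ) * φ z 0 + (-1 : ℝ) * φ z 1 + (-1 : ℝ) * φ z 2
          + (-xc) * φ (z - e1) 1 := by
      funext z; rw [Ap_W]; ring
    rw [this]
    exact (((sm (-1) (hφ 0)).add (sm (-1) (hφ 1))).add (sm (-1) (hφ 2))).add
      (sm (-xc) (sh e1 (hφ 1)))

theorem nsq_summable {φ : Fld} (hφ : FSF φ) : Summable (fun z => nsq (φ z)) := by
  have : (fun z => nsq (φ z)) = fun z => φ z 0 ^ 2 + φ z 1 ^ 2 + φ z 2 ^ 2 + φ z 3 ^ 2 := by
    funext z; exact nsq_eq _
  rw [this]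
  exact ((((hφ 0).sq.add (hφ 1).sq).add (hφ 2).sq).add (hφ 3).sq).summable

theorem sq_le_nsq (p : Fin 4 → ℝ) (h : Fin 4) : p h ^ 2 ≤ nsq p :=
  Finset.single_le_sum (f := fun h => p h ^ 2) (fun _ _ => sq_nonneg _) (mem_univ h)

/-- **energy inequality** in the plane: `∑ |Dφ|² ≤ K ∑ |Ap φ|²` -/
theorem energy {φ : Fld} (hφ : FSF φ) :
    ∑ h, E1 (fun z => φ z h) ≤ 1600 * ∑' z, nsq (Ap φ z) := by
  set g := Ap φ with hg
  have hgF : FSF g := Ap_FSF hφ
  set G := ∑' z, nsq (g z) with hG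
  have hGb : ∀ b, ∑' z, g z b ^ 2 ≤ G := fun b =>
    ((hgF b).sq.summable).tsum_le_tsum (fun z => sq_le_nsq _ b) (nsq_summable hgF)
  have hG0 : 0 ≤ G := tsum_nonneg fun z => nsq_nonneg _
  have hx0 := xc_pos
  have hx1 := xc_sq
  have hx2 : 2 / 5 < xc := by nlinarith
  have key : ∀ h, 2 * xc ^ 2 * E1 (fun z => φ z h)
      ≤ 4 * (1 / 25 * E1 (fun z => φ z h) + 25 / 2 * G) := by
    intro h
    set u : Face → ℝ := fun z => φ z h with hu
    have hE := E1_nonneg u
    obtain ⟨-, hl⟩ := list_le (hφ h) hgF hGb (ε := 1 / 25) (by norm_num) (Lt h) (Lt_near h)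
    have hc := Lt_coef h
    have e1' : ∑' z, u z * ((Lt h).map (tm g z)).sum = 2 * xc ^ 2 * E1 u := by
      have : ∀ z, u z * ((Lt h).map (tm g z)).sum = -(2 * xc ^ 2) * (u z * lap u z) := by
        intro z
        rw [← Bop_eq, hg, adj_lap]; ring
      simp only [this]
      rw [tsum_mul_left, tsum_mul_lap (hφ h)]
      have e3 : ∑' z, (D1 u z * D1 u z + D2 u z * D2 u z) = E1 u := by
        unfold E1
        congr 1; funext z; ring
      rw [e3]
      ring
    rw [e1'] at hl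
    have h3 : 0 ≤ 1 / 25 * E1 u + 1 / (2 * (1 / 25)) * G := by positivity
    calc 2 * xc ^ 2 * E1 u ≤ _ := hl
      _ ≤ 4 * (1 / 25 * E1 u + 1 / (2 * (1 / 25)) * G) := by gcongr
      _ = _ := by norm_num
  have k2 : ∀ h, E1 (fun z => φ z h) ≤ 400 * G := by
    intro h
    have := key h
    have hE := E1_nonneg (fun z => φ z h)
    have h4 : (4 / 25 : ℝ) ≤ xc ^ 2 := by nlinarith
    have h5 : 2 * (4 / 25) * E1 (fun z => φ z h) ≤ 2 * xc ^ 2 * E1 (fun z => φ z h) := by gcongr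
    linarith
  calc ∑ h, E1 (fun z => φ z h) ≤ ∑ _h : Fin 4, 400 * G := sum_le_sum fun h _ => k2 h
    _ = 1600 * G := by simp; ring

end Crest.Agent.R165.Bkx806
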