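import Crest.Agent.R165.BkA_806

/-!
# Row 165 (S0250), block R, bulk regularity, part B (helper806)

* `energy_box` : `∑_{Q c n} |Dφ|² ≤ 3200 (∑_{Q c (n+1+k)} |Ap φ|² + k⁻² ∑_{Q c (n+1+k)} |φ|²)`.
* `iter` : the operators `Df e` and `Ap` applied up to four times.
-/

set_option autoImplicit false
set_option linter.unusedSimpArgs false

noncomputable section

namespace Crest.Agent.R165.Bkx806

open Finset Crest.Agent.R165.Tr1x40 Crest.Agent.R165.PotAx894 Crest.Agent.R165.PotBx894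

/-- multiplication of a field by a scalar function -/
def cutf (χ : Face → ℝ) (φ : Fld) : Fld := fun f h => χ f * φ f h

theorem Ap_cutf (χ : Face → ℝ) (φ : Fld) (f : Face) (h : Fin 4) :
    Ap (cutf χ φ) f h = χ f * Ap φ f h
      + sg h * xc * ((χ (nb f h) - χ f) * φ (nb f h) (op h)) := by
  have e : A0 (cutf χ φ f) h = χ f * A0 (φ f) h := by
    fin_cases h <;> simp [cutf, A0] <;> ring
  simp only [Ap, A, Y, e, cutf]
  ring

/-- the neighbour map as an equivalence -/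
def nbE (h : Fin 4) : Face ≃ Face where
  toFun f := nb f h
  invFun f := nb f (op h)
  left_inv f := nb_nb_op f h
  right_inv f := by
    have := nb_nb_op f (op h); rwa [op_op] at this

theorem nrm_nb (c f : Face) (h : Fin 4) : |nrm c (nb f h) - nrm c f| ≤ 1 := by
  fin_cases h
  · show |nrm c (nb f 0) - nrm c f| ≤ 1
    have := abs_nrm_e2 c (nb f 0)
    rw [show nb f 0 + e2 = f by ext <;> simp [e2]] at this
    rwa [abs_sub_comm]
  · show |nrm c (nb f 1) - nrm c f| ≤ 1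
    have := abs_nrm_e1 c f
    rwa [show f + e1 = nb f 1 by ext <;> simp [e1]] at this
  · show |nrm c (nb f 2) - nrm c f| ≤ 1
    have := abs_nrm_e2 c f
    rwa [show f + e2 = nb f 2 by ext <;> simp [e2]] at this
  · show |nrm c (nb f 3) - nrm c f| ≤ 1
    have := abs_nrm_e1 c (nb f 3)
    rw [show nb f 3 + e1 = f by ext <;> simp [e1]] at this
    rwa [abs_sub_comm]

/-- restriction of a function to a box -/
def rst (S : Finset Face) (u : Face → ℝ) (z : Face) : ℝ := if z ∈ S then u z else 0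

theorem rst_nonneg {S : Finset Face} {u : Face → ℝ} (hu : ∀ z, 0 ≤ u z) (z : Face) :
    0 ≤ rst S u z := by
  unfold rst; split_ifs
  · exact hu z
  · exact le_rfl

theorem rst_FS (S : Finset Face) (u : Face → ℝ) : FS (rst S u) :=
  FS.of_finset S (fun z hz => by unfold rst; rw [if_neg hz])

theorem rst_tsum (S : Finset Face) (u : Face → ℝ) : ∑' z, rst S u z = ∑ z ∈ S, u z := by
  rw [tsum_eq_sum (s := S) (fun z hz => by unfold rst; rw [if_neg hz])]
  exact sum_congr rfl fun z hz => by unfold rst; rw [if_pos hz]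

theorem cut_nonneg (c : Face) (n k : ℕ) (z : Face) : 0 ≤ cut c n k z := le_max_left _ _
theorem cut_le_one (c : Face) (n k : ℕ) (z : Face) : cut c n k z ≤ 1 :=
  max_le zero_le_one (min_le_left _ _)

/-- the commutator term -/
theorem comm_le (c : Face) (n k : ℕ) (φ : Fld) (z : Face) (h : Fin 4) :
    ((cut c n k (nb z h) - cut c n k z) * φ (nb z h) (op h)) ^ 2
      ≤ 1 / (k : ℝ) ^ 2 * rst (Q c (n + k)) (fun z => φ z (op h) ^ 2) (nb z h) := by
  by_cases hz : nb z h ∈ Q c (n + k)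
  · have hgz : rst (Q c (n + k)) (fun z => φ z (op h) ^ 2) (nb z h) = φ (nb z h) (op h) ^ 2 := by
      unfold rst; rw [if_pos hz]
    have lip : |cut c n k (nb z h) - cut c n k z| ≤ 1 / k := cut_lip (nrm_nb c z h)
    have lip2 : (cut c n k (nb z h) - cut c n k z) ^ 2 ≤ (1 / (k : ℝ)) ^ 2 := by
      rw [← sq_abs]; gcongr
    rw [hgz, mul_pow]
    calc (cut c n k (nb z h) - cut c n k z) ^ 2 * φ (nb z h) (op h) ^ 2
        ≤ (1 / (k : ℝ)) ^ 2 * φ (nb z h) (op h) ^ 2 := by gcongr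
      _ = _ := by ring
  · have h1 := not_mem_Q_succ hz
    have h2 := nrm_nb c z h
    rw [abs_le] at h2
    push_cast at h1
    have z1 : cut c n k (nb z h) = 0 := cut_zero (by linarith)
    have z2 : cut c n k z = 0 := cut_zero (by linarith [h2.2])
    rw [z1, z2, sub_zero, zero_mul]
    have h0 : 0 ≤ rst (Q c (n + k)) (fun z => φ z (op h) ^ 2) (nb z h) :=
      rst_nonneg (fun z => sq_nonneg _) _
    have h3 : 0 ≤ 1 / (k : ℝ) ^ 2 * rst (Q c (n + k)) (fun z => φ z (op h) ^ 2) (nb z h) := by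
      positivity
    simpa using h3

theorem cutf_row (c : Face) (n k : ℕ) (φ : Fld) (z : Face) (h : Fin 4) :
    Ap (cutf (cut c n k) φ) z h ^ 2 ≤ 2 * (cut c n k z * Ap φ z h) ^ 2
        + 1 / 2 * (1 / (k : ℝ) ^ 2 * rst (Q c (n + k)) (fun z => φ z (op h) ^ 2) (nb z h)) := by
  rw [Ap_cutf]
  have hs := sg_sq h
  have hc := comm_le c n k φ z h
  have hx0 := xc_pos
  have hx1 := xc_lt_half
  have hx2 : xc ^ 2 ≤ 1 / 4 := by nlinarith
  generalize cut c n k z * Ap φ z h = p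
  generalize (cut c n k (nb z h) - cut c n k z) * φ (nb z h) (op h) = q at hc ⊢
  generalize 1 / (k : ℝ) ^ 2 * rst (Q c (n + k)) (fun z => φ z (op h) ^ 2) (nb z h) = m at hc ⊢
  have e1' : (p + sg h * xc * q) ^ 2 ≤ 2 * p ^ 2 + 2 * (sg h ^ 2 * xc ^ 2 * q ^ 2) := by
    nlinarith [sq_nonneg (p - sg h * xc * q)]
  have e2' : sg h ^ 2 * xc ^ 2 * q ^ 2 ≤ 1 / 4 * m := by
    rw [hs, one_mul]
    have := sq_nonneg q
    calc xc ^ 2 * q ^ 2 ≤ 1 / 4 * q ^ 2 := by gcongr
      _ ≤ 1 / 4 * m := by gcongr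
  linarith

theorem cutf_nsq (c : Face) (n k : ℕ) (φ : Fld) (z : Face) :
    nsq (Ap (cutf (cut c n k) φ) z) ≤ 2 * rst (Q c (n + k)) (fun z => nsq (Ap φ z)) z
      + 1 / 2 * (1 / (k : ℝ) ^ 2 *
          ∑ h, rst (Q c (n + k)) (fun z => φ z (op h) ^ 2) (nb z h)) := by
  have s1 : nsq (Ap (cutf (cut c n k) φ) z) ≤ ∑ h, (2 * (cut c n k z * Ap φ z h) ^ 2
        + 1 / 2 * (1 / (k : ℝ) ^ 2 * rst (Q c (n + k)) (fun z => φ z (op h) ^ 2) (nb z h))) :=
    sum_le_sum fun h _ => cutf_row c n k φ z h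
  refine s1.trans ?_
  rw [sum_add_distrib, ← mul_sum, ← mul_sum, ← mul_sum]
  have s2 : ∑ h, (cut c n k z * Ap φ z h) ^ 2 = cut c n k z ^ 2 * nsq (Ap φ z) := by
    simp only [nsq, mul_sum, mul_pow]
  have s3 : cut c n k z ^ 2 * nsq (Ap φ z) ≤ rst (Q c (n + k)) (fun z => nsq (Ap φ z)) z := by
    unfold rst
    by_cases hz : z ∈ Q c (n + k)
    · rw [if_pos hz]
      have h1 : cut c n k z ^ 2 ≤ 1 := by
        nlinarith [cut_nonneg c n k z, cut_le_one c n k z]
      nlinarith [nsq_nonneg (Ap φ z)]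
    · rw [if_neg hz]
      have h1 := not_mem_Q_succ hz
      push_cast at h1
      have : cut c n k z = 0 := cut_zero (by linarith)
      rw [this]; simp
  rw [s2]
  linarith

theorem cut_FS (c : Face) (n k : ℕ) : FS (cut c n k) :=
  FS.of_finset (Q c (n + k)) (fun z hz => cut_zero (by
    have h1 := not_mem_Q_succ hz
    push_cast at h1
    linarith))

theorem nbE_apply (h : Fin 4) (z : Face) : nbE h z = nb z h := rfl

theorem tsum_comp_nb (u : Face → ℝ) (h : Fin 4) : ∑' z, u (nb z h) = ∑' z, u z := by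
  have := (nbE h).tsum_eq u
  simpa only [nbE_apply] using this

theorem summable_comp_nb {u : Face → ℝ} (hu : Summable u) (h : Fin 4) :
    Summable (fun z => u (nb z h)) := by
  have := (nbE h).summable_iff.2 hu
  exact this

theorem tsum_nb (S : Finset Face) (φ : Fld) (h : Fin 4) :
    ∑' z, rst S (fun z => φ z (op h) ^ 2) (nb z h) = ∑ z ∈ S, φ z (op h) ^ 2 := by
  rw [tsum_comp_nb, rst_tsum]

theorem nb_summable (S : Finset Face) (φ : Fld) (h : Fin 4) :
    Summable (fun z => rst S (fun z => φ z (op h) ^ 2) (nb z h)) :=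
  summable_comp_nb (rst_FS _ _).summable h

theorem tsum_nb_all (S : Finset Face) (φ : Fld) :
    ∑' z, ∑ h, rst S (fun z => φ z (op h) ^ 2) (nb z h) = ∑ z ∈ S, nsq (φ z) := by
  rw [Summable.tsum_finsetSum fun h _ => nb_summable S φ h,
    sum_congr rfl fun h _ => tsum_nb S φ h, sum_comm]
  refine sum_congr rfl fun z _ => ?_
  rw [nsq_eq, Fin.sum_univ_four]
  simp only [op_zero, op_one, op_two, op_three]
  ring

theorem abs_tsum {F a G : Face → ℝ} (hF : Summable F) (ha : Summable a) (hG : Summable G) (c : ℝ)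
    (h : ∀ z, F z ≤ 2 * a z + 1 / 2 * (c * G z)) :
    ∑' z, F z ≤ 2 * ∑' z, a z + 1 / 2 * (c * ∑' z, G z) := by
  have := hF.tsum_le_tsum h ((ha.mul_left 2).add ((hG.mul_left c).mul_left (1 / 2)))
  rwa [(ha.mul_left 2).tsum_add ((hG.mul_left c).mul_left (1 / 2)), tsum_mul_left, tsum_mul_left,
    tsum_mul_left] at this

theorem cutf_tsum (c : Face) (n k : ℕ) (φ : Fld) :
    ∑' z, nsq (Ap (cutf (cut c n k) φ) z) ≤ 2 * ∑ z ∈ Q c (n + k), nsq (Ap φ z)
      + 1 / 2 * (1 / (k : ℝ) ^ 2 * ∑ z ∈ Q c (n + k), nsq (φ z)) := by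
  have hψF : FSF (cutf (cut c n k) φ) := fun h => (cut_FS c n k).mul_right _
  have key := abs_tsum (nsq_summable (Ap_FSF hψF))
    (a := rst (Q c (n + k)) (fun z => nsq (Ap φ z))) (rst_FS _ _).summable
    (G := fun z => ∑ h, rst (Q c (n + k)) (fun z => φ z (op h) ^ 2) (nb z h))
    (summable_sum fun h _ => nb_summable _ _ h) (1 / (k : ℝ) ^ 2) (cutf_nsq c n k φ)
  rw [tsum_nb_all, rst_tsum] at key
  exact key

theorem cutf_low (c : Face) (n k : ℕ) (hk : 0 < k) (φ : Fld) :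
    ∑ z ∈ Q c n, (nsq (Df e1 φ z) + nsq (Df e2 φ z))
      ≤ ∑ h, E1 (fun z => cutf (cut c (n + 1) k) φ z h) := by
  have hψF : FSF (cutf (cut c (n + 1) k) φ) := fun h => (cut_FS c (n + 1) k).mul_right _
  have eq : ∀ z ∈ Q c n, nsq (Df e1 φ z) + nsq (Df e2 φ z)
      = ∑ h, (D1 (fun z => cutf (cut c (n + 1) k) φ z h) z ^ 2
        + D2 (fun z => cutf (cut c (n + 1) k) φ z h) z ^ 2) := by
    intro z hz
    have a0 : cut c (n + 1) k z = 1 := cut_one hk (Q_mono (by omega) hz)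
    have a1 : cut c (n + 1) k (z + e1) = 1 := cut_one hk (add_e1_mem hz)
    have a2 : cut c (n + 1) k (z + e2) = 1 := cut_one hk (add_e2_mem hz)
    simp only [nsq, ← sum_add_distrib]
    refine sum_congr rfl fun h _ => ?_
    simp only [Df_apply, D1, D2, cutf, a0, a1, a2, one_mul]
  rw [sum_congr rfl eq, sum_comm]
  refine sum_le_sum fun h _ => ?_
  exact (E1_summable (hψF h)).sum_le_tsum (Q c n) (fun z _ => by positivity)

theorem energy_box (c : Face) (n k : ℕ) (hk : 0 < k) (φ : Fld) :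
    ∑ z ∈ Q c n, (nsq (Df e1 φ z) + nsq (Df e2 φ z))
      ≤ 3200 * (∑ z ∈ Q c (n + 1 + k), nsq (Ap φ z)
        + 1 / (k : ℝ) ^ 2 * ∑ z ∈ Q c (n + 1 + k), nsq (φ z)) := by
  have hψF : FSF (cutf (cut c (n + 1) k) φ) := fun h => (cut_FS c (n + 1) k).mul_right _
  have main := energy hψF
  have low := cutf_low c n k hk φ
  have up := cutf_tsum c (n + 1) k φ
  have hP0 : 0 ≤ ∑ z ∈ Q c (n + 1 + k), nsq (φ z) := sum_nonneg fun z _ => nsq_nonneg _
  have e0 : 0 ≤ 1 / (k : ℝ) ^ 2 * ∑ z ∈ Q c (n + 1 + k), nsq (φ z) := by positivity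
  linarith

end Crest.Agent.R165.Bkx806
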