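import Crest.Agent.R165.BkB_806

/-!
# Row 165 (S0250), block R, bulk regularity, part C (helper806)

Iteration of `energy_box` for the commuting operators `Df e1`, `Df e2`, `Ap`, and sup bounds.

* `iter` : `|D^m A^j φ|_{L2(Q c ((12-2m) r))} ≤ C K r^{-(m+j)}`;
* `sup_bound` : `|D^m A^j φ| ≤ 10⁹ K r^{-(m+j+1)}` on `Q c (4 r)`, `m + j ≤ 2`.
-/

set_option autoImplicit false
set_option linter.unusedSimpArgs false

noncomputable section

namespace Crest.Agent.R165.Bkx806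

open Finset Crest.Agent.R165.Tr1x40 Crest.Agent.R165.PotAx894 Crest.Agent.R165.PotBx894

/-- squared `L2` norm on a box -/
def N2 (φ : Fld) (c : Face) (n : ℕ) : ℝ := ∑ z ∈ Q c n, nsq (φ z)

theorem N2_nonneg (φ : Fld) (c : Face) (n : ℕ) : 0 ≤ N2 φ c n := sum_nonneg fun _ _ => nsq_nonneg _

theorem N2_mono (φ : Fld) (c : Face) {m n : ℕ} (h : m ≤ n) : N2 φ c m ≤ N2 φ c n :=
  sum_le_sum_of_subset_of_nonneg (Q_mono h) fun _ _ _ => nsq_nonneg _

/-- direction -/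
def ev (b : Bool) : Face := if b then e1 else e2

/-- iterated differences -/
def Dl : List Bool → Fld → Fld
  | [], φ => φ
  | b :: l, φ => Df (ev b) (Dl l φ)

theorem Ap_Dl (l : List Bool) (φ : Fld) : Ap (Dl l φ) = Dl l (Ap φ) := by
  induction l with
  | nil => rfl
  | cons b l ih => simp only [Dl]; rw [Ap_Df, ih]

theorem Df_N2 (b : Bool) (φ : Fld) (c : Face) (n k : ℕ) (hk : 0 < k) :
    N2 (Df (ev b) φ) c n ≤ 3200 * (N2 (Ap φ) c (n + 1 + k)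
      + 1 / (k : ℝ) ^ 2 * N2 φ c (n + 1 + k)) := by
  have h := energy_box c n k hk φ
  rw [sum_add_distrib] at h
  have h1 := N2_nonneg (Df e1 φ) c n
  have h2 := N2_nonneg (Df e2 φ) c n
  unfold N2 at *
  cases b
  · simp only [ev, Bool.false_eq_true, if_false]; linarith
  · simp only [ev, if_true]; linarith

/-- hypothesis of the bulk theorems: `|A^j φ|_{L2(Q c (12 r))} ≤ K r^{-j}`, `j ≤ 4` -/
def Hyp (φ : Fld) (c : Face) (r : ℕ) (K : ℝ) : Prop :=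
  ∀ j ≤ 4, N2 (Ap^[j] φ) c (12 * r) ≤ K ^ 2 / (r : ℝ) ^ (2 * j)

theorem iter {φ : Fld} {c : Face} {r : ℕ} (hr : 0 < r) {K : ℝ} (H : Hyp φ c r K) (l : List Bool) :
    ∀ j, l.length + j ≤ 4 →
      N2 (Dl l (Ap^[j] φ)) c ((12 - 2 * l.length) * r)
        ≤ 6400 ^ l.length * (K ^ 2 / (r : ℝ) ^ (2 * (l.length + j))) := by
  have hr' : (0 : ℝ) < r := by exact_mod_cast hr
  have hr1 : (1 : ℝ) ≤ r := by exact_mod_cast hr
  induction l with
  | nil => intro j hj; simpa [Dl] using H j (by simpa using hj)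
  | cons b l ih =>
    intro j hj
    simp only [List.length_cons] at hj ⊢
    set m := l.length with hm
    have i1 := ih (j + 1) (by omega)
    have i2 := ih j (by omega)
    have s := Df_N2 b (Dl l (Ap^[j] φ)) c ((12 - 2 * (m + 1)) * r) (2 * r - 1) (by omega)
    have e : (12 - 2 * (m + 1)) * r + 1 + (2 * r - 1) = (12 - 2 * m) * r := by
      have h5 : m ≤ 3 := by omega
      have h6 : (12 - 2 * m) = (12 - 2 * (m + 1)) + 2 := by omega
      rw [h6, add_mul]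
      omega
    rw [e, Ap_Dl, ← Function.iterate_succ_apply' Ap j φ] at s
    have hk : (r : ℝ) ≤ ((2 * r - 1 : ℕ) : ℝ) := by
      have : r ≤ 2 * r - 1 := by omega
      exact_mod_cast this
    have hk2 : 1 / ((2 * r - 1 : ℕ) : ℝ) ^ 2 ≤ 1 / (r : ℝ) ^ 2 := by
      apply one_div_le_one_div_of_le (by positivity)
      gcongr
    have n0 := N2_nonneg (Dl l (Ap^[j] φ)) c ((12 - 2 * m) * r)
    have s2 : 1 / ((2 * r - 1 : ℕ) : ℝ) ^ 2 * N2 (Dl l (Ap^[j] φ)) c ((12 - 2 * m) * r)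
        ≤ 1 / (r : ℝ) ^ 2 * (6400 ^ m * (K ^ 2 / (r : ℝ) ^ (2 * (m + j)))) := by
      gcongr
    have s3 : 1 / (r : ℝ) ^ 2 * (6400 ^ m * (K ^ 2 / (r : ℝ) ^ (2 * (m + j))))
        = 6400 ^ m * (K ^ 2 / (r : ℝ) ^ (2 * (m + (j + 1)))) := by
      rw [show 2 * (m + (j + 1)) = 2 * (m + j) + 2 by ring, pow_add]
      field_simp
    rw [s3] at s2
    have e2 : 2 * (m + 1 + j) = 2 * (m + (j + 1)) := by ring
    rw [e2, pow_succ]
    show N2 (Df (ev b) (Dl l (Ap^[j] φ))) c ((12 - 2 * (m + 1)) * r) ≤ _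
    linarith

theorem comp_sum (φ : Fld) (h : Fin 4) (c : Face) (n : ℕ) :
    ∑ z ∈ Q c n, φ z h ^ 2 ≤ N2 φ c n :=
  sum_le_sum fun z _ => sq_le_nsq _ h

theorem sup_bound {φ : Fld} {c : Face} {r : ℕ} (hr : 0 < r) {K : ℝ} (hK : 0 ≤ K)
    (H : Hyp φ c r K) (l : List Bool) (j : ℕ) (hlj : l.length + j ≤ 2) {z : Face}
    (hz : z ∈ Q c (4 * r)) (h : Fin 4) :
    |Dl l (Ap^[j] φ) z h| ≤ 10 ^ 9 * (K / (r : ℝ) ^ (l.length + j + 1)) := by
  have hr' : (0 : ℝ) < r := by exact_mod_cast hr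
  have hr1 : (1 : ℝ) ≤ r := by exact_mod_cast hr
  set m := l.length with hm
  set X := K ^ 2 / (r : ℝ) ^ (2 * (m + j + 1)) with hX
  have hX0 : 0 ≤ X := by positivity
  have bd : ∀ l' : List Bool, l'.length + j ≤ 4 → N2 (Dl l' (Ap^[j] φ)) c (4 * r)
      ≤ 6400 ^ l'.length * (K ^ 2 / (r : ℝ) ^ (2 * (l'.length + j))) := by
    intro l' hl'
    refine le_trans (N2_mono _ _ ?_) (iter hr H l' j hl')
    have : 4 ≤ 12 - 2 * l'.length := by omega
    exact Nat.mul_le_mul_right r this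
  have p4 : (6400 : ℝ) ^ m ≤ 6400 ^ 2 := pow_le_pow_right₀ (by norm_num) (by omega)
  have b0 := bd l (by omega)
  have b1 := bd (true :: l) (by simp only [List.length_cons]; omega)
  have b2 := bd (false :: l) (by simp only [List.length_cons]; omega)
  have b3 := bd (false :: true :: l) (by simp only [List.length_cons]; omega)
  simp only [List.length_cons, ← hm] at b0 b1 b2 b3
  have sob := sobolev_box c (4 * r) (fun z => Dl l (Ap^[j] φ) z h) hz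
  have c0 := comp_sum (Dl l (Ap^[j] φ)) h c (4 * r)
  have c1 := comp_sum (Dl (true :: l) (Ap^[j] φ)) h c (4 * r)
  have c2 := comp_sum (Dl (false :: l) (Ap^[j] φ)) h c (4 * r)
  have c3 := comp_sum (Dl (false :: true :: l) (Ap^[j] φ)) h c (4 * r)
  have d1 : ∀ z, D1 (fun z => Dl l (Ap^[j] φ) z h) z = Dl (true :: l) (Ap^[j] φ) z h :=
    fun z => rfl
  have d2 : ∀ z, D2 (fun z => Dl l (Ap^[j] φ) z h) z = Dl (false :: l) (Ap^[j] φ) z h :=
    fun z => rfl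
  have d3 : ∀ z, D2 (D1 (fun z => Dl l (Ap^[j] φ) z h)) z
      = Dl (false :: true :: l) (Ap^[j] φ) z h := fun z => rfl
  simp only [d1, d2, d3, sum_add_distrib] at sob
  -- scalar estimates
  have y0 : K ^ 2 / (r : ℝ) ^ (2 * (m + j)) = (r : ℝ) ^ 2 * X := by
    rw [hX, show 2 * (m + j + 1) = 2 * (m + j) + 2 by ring, pow_add]; field_simp
  have y1 : K ^ 2 / (r : ℝ) ^ (2 * (m + 1 + j)) = X := by
    rw [hX, show 2 * (m + 1 + j) = 2 * (m + j + 1) by ring]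
  have y2 : K ^ 2 / (r : ℝ) ^ (2 * (m + 1 + 1 + j)) = X / (r : ℝ) ^ 2 := by
    rw [hX, show 2 * (m + 1 + 1 + j) = 2 * (m + j + 1) + 2 by ring, pow_add]; field_simp
  rw [y0] at b0
  rw [y1] at b1 b2
  rw [y2] at b3
  have q1 : 4 / (2 * ((4 * r : ℕ) : ℝ) + 1) ^ 2 * ((r : ℝ) ^ 2 * X) ≤ X := by
    push_cast
    rw [div_mul_eq_mul_div, div_le_iff₀ (by positivity)]
    nlinarith [mul_nonneg hX0 (sq_nonneg (r : ℝ)), mul_nonneg hX0 hr'.le]
  have q3 : 4 * (2 * ((4 * r : ℕ) : ℝ) + 1) ^ 2 * (X / (r : ℝ) ^ 2) ≤ 400 * X := by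
    push_cast
    rw [mul_div_assoc', div_le_iff₀ (by positivity)]
    have : (2 * (4 * (r : ℝ)) + 1) ^ 2 ≤ 100 * r ^ 2 := by nlinarith
    nlinarith
  have main : (Dl l (Ap^[j] φ) z h) ^ 2 ≤ 10 ^ 18 * X := by
    have t0 : 4 / (2 * ((4 * r : ℕ) : ℝ) + 1) ^ 2 * ∑ z ∈ Q c (4 * r), Dl l (Ap^[j] φ) z h ^ 2
        ≤ 6400 ^ m * X := by
      calc _ ≤ 4 / (2 * ((4 * r : ℕ) : ℝ) + 1) ^ 2 * (6400 ^ m * ((r : ℝ) ^ 2 * X)) := by
            gcongr; exact c0.trans b0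
        _ = 6400 ^ m * (4 / (2 * ((4 * r : ℕ) : ℝ) + 1) ^ 2 * ((r : ℝ) ^ 2 * X)) := by ring
        _ ≤ _ := by gcongr
    have t3 : 4 * (2 * ((4 * r : ℕ) : ℝ) + 1) ^ 2
          * ∑ z ∈ Q c (4 * r), Dl (false :: true :: l) (Ap^[j] φ) z h ^ 2
        ≤ 6400 ^ (m + 1 + 1) * (400 * X) := by
      calc _ ≤ 4 * (2 * ((4 * r : ℕ) : ℝ) + 1) ^ 2 * (6400 ^ (m + 1 + 1) * (X / (r : ℝ) ^ 2)) := by
            gcongr; exact c3.trans b3
        _ = 6400 ^ (m + 1 + 1) * (4 * (2 * ((4 * r : ℕ) : ℝ) + 1) ^ 2 * (X / (r : ℝ) ^ 2)) := by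
            ring
        _ ≤ _ := by gcongr
    have e1' : (6400 : ℝ) ^ (m + 1) = 6400 * 6400 ^ m := by ring
    have e2' : (6400 : ℝ) ^ (m + 1 + 1) = 6400 ^ 2 * 6400 ^ m := by ring
    rw [e1'] at b1 b2
    rw [e2'] at t3
    have p0 : (0 : ℝ) < 6400 ^ m := by positivity
    set Pm := (6400 : ℝ) ^ m with hPm
    have : (Dl l (Ap^[j] φ) z h) ^ 2
        ≤ Pm * X + 4 * (6400 * Pm * X + 6400 * Pm * X) + 6400 ^ 2 * Pm * (400 * X) := by
      have := c1.trans b1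
      have := c2.trans b2
      linarith
    have f1 : Pm * X + 4 * (6400 * Pm * X + 6400 * Pm * X) + 6400 ^ 2 * Pm * (400 * X)
        = (1 + 8 * 6400 + 6400 ^ 2 * 400) * (Pm * X) := by ring
    have f2 : Pm * X ≤ 6400 ^ 2 * X := by gcongr
    rw [f1] at this
    calc _ ≤ (1 + 8 * 6400 + 6400 ^ 2 * 400 : ℝ) * (Pm * X) := this
      _ ≤ (1 + 8 * 6400 + 6400 ^ 2 * 400 : ℝ) * (6400 ^ 2 * X) := by gcongr
      _ ≤ _ := by nlinarith
  have y : 10 ^ 18 * X = (10 ^ 9 * (K / (r : ℝ) ^ (m + j + 1))) ^ 2 := by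
    rw [hX, show 2 * (m + j + 1) = (m + j + 1) * 2 by ring, pow_mul]; ring
  rw [y] at main
  exact abs_le_of_sq_le_sq main (by positivity)

end Crest.Agent.R165.Bkx806
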