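import Crest.Agent.R165.TorusGrad_922
import Crest.Agent.R165.PotB_894

/-!
# Row 165 (S0250), block R: interior sup bounds in the plane (helper812)

* `grad_fs` : `∑ |∇φ|² ≤ KE ∑ |A φ|²` for finitely supported fields of the plane;
* `cacc` : `S(∇φ, n) ≤ 2 KE (S(Aφ, n+k+2) + k⁻² S(φ, n+k+2))`;
* `Gd`, `Gd.fx`, `Gd.fy`, `Gd.opA`, `Gd.sup` : scaled bootstrap; sup bounds on `Q y (5ρ)`.
-/

set_option autoImplicit false
set_option linter.all false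

noncomputable section

open Finset

namespace Crest.Agent.R165.Ellx812

open Crest.Agent.R165.Tr1x40 Crest.Agent.R165.Tr2x40 Crest.Agent.R165.TorusGradx922

open Crest.Agent.R165.PotAx894 (Q mem_Q Q_mono self_mem_Q FS tsum_shift tsum_mul_lap lap D1 D2
  cut cut_one cut_zero' cut_lip nrm abs_nrm_e1 abs_nrm_e2)

/-- unit vectors -/
local notation "u1" => Crest.Agent.R165.PotAx894.e1
/-- unit vectors -/
local notation "u2" => Crest.Agent.R165.PotAx894.e2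

/-- forward difference in direction 1 -/
def FX (φ : Fld) : Fld := fun f h => φ (f.1 + 1, f.2) h - φ f h
/-- forward difference in direction 2 -/
def FY (φ : Fld) : Fld := fun f h => φ (f.1, f.2 + 1) h - φ f h
/-- the plane operator -/
def AA (φ : Fld) : Fld := A (cst xc) φ

/-- component -/
def cp (φ : Fld) (h : Fin 4) : Face → ℝ := fun f => φ f h

theorem FX_cp (φ : Fld) (h : Fin 4) : cp (FX φ) h = D1 (cp φ h) := by
  funext f
  simp only [cp, FX, D1]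
  rw [show f + u1 = (f.1 + 1, f.2) from Prod.ext (by simp) (by simp)]

theorem FY_cp (φ : Fld) (h : Fin 4) : cp (FY φ) h = D2 (cp φ h) := by
  funext f
  simp only [cp, FY, D2]
  rw [show f + u2 = (f.1, f.2 + 1) from Prod.ext (by simp) (by simp)]

theorem Lap_cp (φ : Fld) (h : Fin 4) (f : Face) : Lap φ f h = -lap (cp φ h) f := by
  simp only [Lap, lap, cp]
  rw [show f + u1 = (f.1 + 1, f.2) from Prod.ext (by simp) (by simp),
    show f - u1 = (f.1 - 1, f.2) from Prod.ext (by simp) (by simp),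
    show f + u2 = (f.1, f.2 + 1) from Prod.ext (by simp) (by simp),
    show f - u2 = (f.1, f.2 - 1) from Prod.ext (by simp) (by simp)]
  ring

theorem AA_FX (φ : Fld) : AA (FX φ) = FX (AA φ) := by
  funext f h
  obtain ⟨i, j⟩ := f
  fin_cases h
  · simp only [AA, FX, A_S, A_E, A_N, A_W, cst, Fin.zero_eta, Fin.mk_one, Fin.reduceFinMk]; ring
  · simp only [AA, FX, A_S, A_E, A_N, A_W, cst, Fin.zero_eta, Fin.mk_one, Fin.reduceFinMk]; ring
  · simp only [AA, FX, A_S, A_E, A_N, A_W, cst, Fin.zero_eta, Fin.mk_one, Fin.reduceFinMk]; ring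
  · simp only [AA, FX, A_S, A_E, A_N, A_W, cst, Fin.zero_eta, Fin.mk_one, Fin.reduceFinMk]
    rw [show i + 1 - 1 = i - 1 + 1 by ring]; ring

theorem AA_FY (φ : Fld) : AA (FY φ) = FY (AA φ) := by
  funext f h
  obtain ⟨i, j⟩ := f
  fin_cases h
  · simp only [AA, FY, A_S, A_E, A_N, A_W, cst, Fin.zero_eta, Fin.mk_one, Fin.reduceFinMk]
    rw [show j + 1 - 1 = j - 1 + 1 by ring]; ring
  · simp only [AA, FY, A_S, A_E, A_N, A_W, cst, Fin.zero_eta, Fin.mk_one, Fin.reduceFinMk]; ring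
  · simp only [AA, FY, A_S, A_E, A_N, A_W, cst, Fin.zero_eta, Fin.mk_one, Fin.reduceFinMk]; ring
  · simp only [AA, FY, A_S, A_E, A_N, A_W, cst, Fin.zero_eta, Fin.mk_one, Fin.reduceFinMk]; ring

theorem AA_smul (c : ℝ) (φ : Fld) : AA (c • φ) = c • AA φ := by
  funext f h
  exact A_smul (cst xc) c φ f h

theorem FX_smul (c : ℝ) (φ : Fld) : FX (c • φ) = c • FX φ := by
  funext f h
  simp only [FX, Pi.smul_apply, smul_eq_mul]; ring

theorem FY_smul (c : ℝ) (φ : Fld) : FY (c • φ) = c • FY φ := by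
  funext f h
  simp only [FY, Pi.smul_apply, smul_eq_mul]; ring

theorem AAi_FX (j : ℕ) (φ : Fld) : AA^[j] (FX φ) = FX (AA^[j] φ) :=
  ((show Function.Commute AA FX from AA_FX).iterate_left j) φ

theorem AAi_FY (j : ℕ) (φ : Fld) : AA^[j] (FY φ) = FY (AA^[j] φ) :=
  ((show Function.Commute AA FY from AA_FY).iterate_left j) φ

theorem AAi_smul (j : ℕ) (c : ℝ) (φ : Fld) : AA^[j] (c • φ) = c • AA^[j] φ :=
  ((show Function.Commute AA (fun φ => c • φ) from AA_smul c).iterate_left j) φ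

/-! ### sums -/

/-- energy on a box -/
def S (y : Face) (n : ℕ) (φ : Fld) : ℝ := ∑ f ∈ Q y n, ∑ h, φ f h ^ 2

theorem S_nonneg (y : Face) (n : ℕ) (φ : Fld) : 0 ≤ S y n φ :=
  sum_nonneg fun f _ => sum_nonneg fun h _ => sq_nonneg _

theorem S_mono (y : Face) {m n : ℕ} (h : m ≤ n) (φ : Fld) : S y m φ ≤ S y n φ :=
  sum_le_sum_of_subset_of_nonneg (Q_mono h) fun f _ _ => sum_nonneg fun h _ => sq_nonneg _

theorem S_smul (y : Face) (n : ℕ) (c : ℝ) (φ : Fld) : S y n (c • φ) = c ^ 2 * S y n φ := by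
  unfold S
  rw [mul_sum]
  refine sum_congr rfl fun f _ => ?_
  rw [mul_sum]
  refine sum_congr rfl fun h _ => ?_
  simp only [Pi.smul_apply, smul_eq_mul]; ring

theorem S_cp (y : Face) (n : ℕ) (φ : Fld) (h : Fin 4) : ∑ f ∈ Q y n, cp φ h f ^ 2 ≤ S y n φ :=
  sum_le_sum fun f _ => single_le_sum (f := fun h => φ f h ^ 2) (fun h _ => sq_nonneg _)
    (mem_univ h)

/-! ### gradient inequality for finitely supported fields -/

/-- support in a box -/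
def Sup0 (y : Face) (n : ℕ) (φ : Fld) : Prop := ∀ f, f ∉ Q y n → ∀ h, φ f h = 0

theorem Sup0.fs {y : Face} {n : ℕ} {φ : Fld} (hφ : Sup0 y n φ) (h : Fin 4) : FS (cp φ h) :=
  FS.of_finset (Q y n) fun f hf => hφ f hf h

/-- total energy -/
def T2 (φ : Fld) : ℝ := ∑' f, ∑ h, φ f h ^ 2

/-- total gradient energy -/
def TG (φ : Fld) : ℝ := ∑ h, ∑' f, (D1 (cp φ h) f ^ 2 + D2 (cp φ h) f ^ 2)

theorem TG_nonneg (φ : Fld) : 0 ≤ TG φ :=
  sum_nonneg fun h _ => tsum_nonneg fun f => by positivity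

theorem T2_eq {y : Face} {n : ℕ} {φ : Fld} (hφ : Sup0 y n φ) : T2 φ = S y n φ :=
  tsum_eq_sum fun f hf => sum_eq_zero fun h _ => by rw [hφ f hf h]; ring

theorem nb_mem {y f : Face} {n : ℕ} {h : Fin 4} (hf : nb f h ∈ Q y n) : f ∈ Q y (n + 1) := by
  rw [mem_Q, abs_le, abs_le] at hf ⊢
  obtain ⟨i, j⟩ := f
  fin_cases h <;> simp [nb] at hf ⊢ <;> omega

theorem mem_nb {y f : Face} {n : ℕ} (h : Fin 4) (hf : f ∈ Q y n) : nb f h ∈ Q y (n + 1) := by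
  rw [mem_Q, abs_le, abs_le] at hf ⊢
  obtain ⟨i, j⟩ := f
  fin_cases h <;> simp [nb] at hf ⊢ <;> omega

/-- shifted first differences -/
theorem sum_shift_sq {g : Face → ℝ} (hg : FS g) (a b : Face) :
    ∑' f, (g (f + a + b) - g (f + b)) ^ 2 = ∑' f, (g (f + a) - g f) ^ 2 := by
  rw [← tsum_shift (fun f => (g (f + a) - g f) ^ 2) b]
  congr 1; funext f
  rw [show f + b + a = f + a + b by abel]

theorem sum_neg_sq {g : Face → ℝ} (a : Face) :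
    ∑' f, (g (f - a) - g f) ^ 2 = ∑' f, (g (f + a) - g f) ^ 2 := by
  rw [← tsum_shift (fun f => (g (f - a) - g f) ^ 2) a]
  congr 1; funext f
  rw [add_sub_cancel_right]; ring

theorem FS.sub_sq {g : Face → ℝ} (hg : FS g) (a b : Face) :
    FS (fun f => (g (f + a) - g (f + b)) ^ 2) := ((hg.shift a).sub (hg.shift b)).sq

theorem dv_sum {g : Face → ℝ} (hg : FS g) {c d : ℤ} (hc : c ∈ Icc (-1 : ℤ) 1)
    (hd : d ∈ Icc (-1 : ℤ) 1) :
    ∑' f : Face, (g (f.1 + c, f.2 + d) - g f) ^ 2 ≤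
      2 * ∑' f, (D1 g f ^ 2 + D2 g f ^ 2) := by
  have q1 : ∀ {c : ℤ}, c ∈ Icc (-1 : ℤ) 1 → ∑' f : Face, (g (f + (c, 0)) - g f) ^ 2 ≤
      ∑' f, D1 g f ^ 2 := by
    intro c hc
    rw [mem_Icc] at hc
    have : c = -1 ∨ c = 0 ∨ c = 1 := by omega
    rcases this with rfl | rfl | rfl
    · have h := sum_neg_sq (g := g) u1
      refine le_of_eq ?_
      unfold D1
      rw [← h]
      congr 1
    · have : ∑' f : Face, (g (f + (0, 0)) - g f) ^ 2 = 0 := by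
        have e : ∀ f : Face, (g (f + (0, 0)) - g f) ^ 2 = 0 := by
          intro f
          rw [show f + ((0, 0) : Face) = f from Prod.ext (by simp) (by simp)]; ring
        simp only [e, tsum_zero]
      rw [this]; exact tsum_nonneg fun f => sq_nonneg _
    · exact le_rfl
  have q2 : ∀ {c : ℤ}, c ∈ Icc (-1 : ℤ) 1 → ∑' f : Face, (g (f + (0, c)) - g f) ^ 2 ≤
      ∑' f, D2 g f ^ 2 := by
    intro c hc
    rw [mem_Icc] at hc
    have : c = -1 ∨ c = 0 ∨ c = 1 := by omega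
    rcases this with rfl | rfl | rfl
    · have h := sum_neg_sq (g := g) u2
      refine le_of_eq ?_
      unfold D2
      rw [← h]
      congr 1
    · have : ∑' f : Face, (g (f + (0, 0)) - g f) ^ 2 = 0 := by
        have e : ∀ f : Face, (g (f + (0, 0)) - g f) ^ 2 = 0 := by
          intro f
          rw [show f + ((0, 0) : Face) = f from Prod.ext (by simp) (by simp)]; ring
        simp only [e, tsum_zero]
      rw [this]; exact tsum_nonneg fun f => sq_nonneg _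
    · exact le_rfl
  have s1 : ∑' f : Face, (g (f + (c, 0) + (0, d)) - g (f + (0, d))) ^ 2 =
      ∑' f : Face, (g (f + (c, 0)) - g f) ^ 2 := sum_shift_sq hg (c, 0) (0, d)
  have hS1 : Summable fun f : Face => (g (f + (c, 0) + (0, d)) - g (f + (0, d))) ^ 2 := by
    have := (FS.sub_sq hg ((c, 0) + (0, d)) (0, d)).summable
    simpa only [add_assoc] using this
  have hS2 : Summable fun f : Face => (g (f + (0, d)) - g f) ^ 2 := by
    have := (FS.sub_sq hg (0, d) 0).summable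
    simpa only [add_zero] using this
  have hS0 : Summable fun f : Face => (g (f.1 + c, f.2 + d) - g f) ^ 2 := by
    have := (FS.sub_sq hg (c, d) 0).summable
    simp only [add_zero] at this
    exact this
  have hle : ∀ f : Face, (g (f.1 + c, f.2 + d) - g f) ^ 2 ≤
      2 * (g (f + (c, 0) + (0, d)) - g (f + (0, d))) ^ 2 + 2 * (g (f + (0, d)) - g f) ^ 2 := by
    intro f
    rw [show f + ((c, 0) : Face) + (0, d) = (f.1 + c, f.2 + d) from Prod.ext (by simp) (by simp)]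
    nlinarith [sq_nonneg ((g (f.1 + c, f.2 + d) - g (f + (0, d))) - (g (f + (0, d)) - g f))]
  have h1 := hS0.tsum_le_tsum hle ((hS1.mul_left 2).add (hS2.mul_left 2))
  rw [(hS1.mul_left 2).tsum_add (hS2.mul_left 2), tsum_mul_left, tsum_mul_left, s1] at h1
  rw [(FS.D1 hg).sq.summable.tsum_add (FS.D2 hg).sq.summable]
  have := q1 hc
  have := q2 hd
  linarith

theorem B_sum {y : Face} {n : ℕ} {φ : Fld} (hφ : Sup0 y n φ) {K : Finset Face} :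
    ∑ f ∈ K, ∑ h, B xc φ f h ^ 2 ≤ 10368 * TG φ := by
  have h1 : ∑ f ∈ K, ∑ h, B xc φ f h ^ 2 ≤ 576 * ∑ f ∈ K, Mm φ f := by
    rw [mul_sum]
    exact sum_le_sum fun f _ => sumsq_B_le φ f
  have h2 : ∑ f ∈ K, Mm φ f = ∑ p ∈ Icc (-1 : ℤ) 1 ×ˢ Icc (-1 : ℤ) 1,
      ∑ k, ∑ f ∈ K, dv φ f p.1 p.2 k ^ 2 := by
    unfold Mm
    rw [sum_comm]
    refine sum_congr rfl fun p _ => ?_
    rw [sum_comm]
  have h3 : ∑ f ∈ K, Mm φ f ≤ ∑ _p ∈ Icc (-1 : ℤ) 1 ×ˢ Icc (-1 : ℤ) 1, 2 * TG φ := by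
    rw [h2]
    refine sum_le_sum fun p hp => ?_
    rw [mem_product] at hp
    unfold TG
    rw [mul_sum]
    refine sum_le_sum fun k _ => ?_
    refine le_trans ?_ (dv_sum (hφ.fs k) hp.1 hp.2)
    have hS : Summable fun f : Face => (cp φ k (f.1 + p.1, f.2 + p.2) - cp φ k f) ^ 2 := by
      have := (FS.sub_sq (hφ.fs k) (p.1, p.2) 0).summable
      simp only [add_zero] at this
      exact this
    exact hS.sum_le_tsum K fun f _ => sq_nonneg _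
  rw [sum_const] at h3
  have hcard : (Icc (-1 : ℤ) 1 ×ˢ Icc (-1 : ℤ) 1).card = 9 := by decide
  rw [hcard, nsmul_eq_mul] at h3
  push_cast at h3
  linarith

/-- **gradient inequality** for finitely supported fields of the plane -/
theorem grad_fs {y : Face} {n : ℕ} {φ : Fld} (hφ : Sup0 y n φ) :
    TG φ ≤ KE * S y (n + 1) (AA φ) := by
  set E := TG φ with hE
  have hE0 : 0 ≤ E := TG_nonneg _
  have c0p := c0_pos
  have e0 : ∑ f ∈ Q y (n + 1), ∑ h, φ f h * Lap φ f h = E := by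
    rw [sum_comm, hE, TG]
    refine sum_congr rfl fun h _ => ?_
    have k1 : ∑' f, cp φ h f * lap (cp φ h) f = ∑ f ∈ Q y (n + 1), cp φ h f * lap (cp φ h) f :=
      tsum_eq_sum fun f hf => by
        have : cp φ h f = 0 := hφ f (fun hc => hf (Q_mono (Nat.le_succ n) hc)) h
        rw [this, zero_mul]
    have k2 := tsum_mul_lap (hφ.fs h) (cp φ h)
    have k3 : ∑ f ∈ Q y (n + 1), φ f h * Lap φ f h =
        -∑ f ∈ Q y (n + 1), cp φ h f * lap (cp φ h) f := by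
      rw [← sum_neg_distrib]
      refine sum_congr rfl fun f _ => ?_
      rw [Lap_cp, cp]; ring
    rw [k3, ← k1, k2, neg_neg]
    congr 1; funext f; ring
  have e1 : c0 * E = -∑ f ∈ Q y (n + 1), ∑ h, A (cst xc) φ f h * B xc φ f h := by
    rw [← A_antisymm (sym_cst xc) φ (B xc φ) (Q y (n + 1))
      (fun f hf h => hφ f (fun hc => hf (Q_mono (Nat.le_succ n) hc)) h)
      (fun f hf h => by rw [hφ (nb f h) (fun hc => hf (nb_mem hc)), mul_zero]), ← e0, mul_sum]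
    refine sum_congr rfl fun f _ => ?_
    rw [mul_sum]
    refine sum_congr rfl fun h _ => ?_
    rw [A_B_xc]; ring
  have e2 : (c0 * E) ^ 2 ≤ S y (n + 1) (AA φ) * (∑ f ∈ Q y (n + 1), ∑ h, B xc φ f h ^ 2) := by
    rw [e1, neg_sq]
    have p1 : ∑ f ∈ Q y (n + 1), ∑ h, A (cst xc) φ f h * B xc φ f h =
        ∑ p ∈ Q y (n + 1) ×ˢ (univ : Finset (Fin 4)), A (cst xc) φ p.1 p.2 * B xc φ p.1 p.2 := by
      rw [sum_product]
    have p2 : ∀ χ : Fld, ∑ f ∈ Q y (n + 1), ∑ h, χ f h ^ 2 =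
        ∑ p ∈ Q y (n + 1) ×ˢ (univ : Finset (Fin 4)), χ p.1 p.2 ^ 2 := by
      intro χ
      rw [sum_product]
    rw [p1, S, p2, p2]
    exact sum_mul_sq_le_sq_mul_sq _ _ _
  have e3 := B_sum hφ (K := Q y (n + 1))
  have hA0 := S_nonneg y (n + 1) (AA φ)
  have e4 : (c0 * E) ^ 2 ≤ S y (n + 1) (AA φ) * (10368 * E) :=
    e2.trans (by gcongr)
  rcases hE0.eq_or_lt with h0 | h0
  · rw [← h0]; have := KE_pos; positivity
  · have e5 : c0 ^ 2 * E ≤ 10368 * S y (n + 1) (AA φ) := by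
      have : E * (c0 ^ 2 * E) ≤ E * (10368 * S y (n + 1) (AA φ)) := by
        nlinarith
      exact le_of_mul_le_mul_left this h0
    unfold KE
    rw [div_mul_eq_mul_div, le_div_iff₀ (by positivity)]
    linarith

/-! ### Caccioppoli -/

theorem TG_ge (y : Face) (n : ℕ) {φ ψ : Fld} {m : ℕ} (hψ : Sup0 y m ψ)
    (h : ∀ f ∈ Q y (n + 1), φ f = ψ f) : S y n (FX φ) + S y n (FY φ) ≤ TG ψ := by
  have e : S y n (FX φ) + S y n (FY φ) =
      ∑ k, ∑ f ∈ Q y n, (D1 (cp ψ k) f ^ 2 + D2 (cp ψ k) f ^ 2) := by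
    unfold S
    rw [← sum_add_distrib, sum_comm]
    refine sum_congr rfl fun f hf => ?_
    rw [← sum_add_distrib]
    refine sum_congr rfl fun k _ => ?_
    have h0 := h f (Q_mono (Nat.le_succ n) hf)
    have h1 := h (f.1 + 1, f.2) (mem_nb 1 hf)
    have h2 := h (f.1, f.2 + 1) (mem_nb 2 hf)
    have e1 : D1 (cp ψ k) f = FX ψ f k := (congrFun (FX_cp ψ k) f).symm
    have e2 : D2 (cp ψ k) f = FY ψ f k := (congrFun (FY_cp ψ k) f).symm
    rw [e1, e2]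
    simp only [FX, FY, h0, h1, h2]
  rw [e, TG]
  refine sum_le_sum fun k _ => ?_
  exact ((FS.D1 (hψ.fs k)).sq.add (FS.D2 (hψ.fs k)).sq).summable.sum_le_tsum _
    fun f _ => by positivity

theorem nrm_nb (y f : Face) (h : Fin 4) : |nrm y (nb f h) - nrm y f| ≤ 1 := by
  obtain ⟨i, j⟩ := f
  fin_cases h
  · have := abs_nrm_e2 y (i, j - 1)
    rw [show ((i, j - 1) : Face) + u2 = (i, j) from Prod.ext (by simp) (by simp)] at this
    rw [abs_sub_comm]; exact this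
  · have := abs_nrm_e1 y (i, j)
    rw [show ((i, j) : Face) + u1 = (i + 1, j) from Prod.ext (by simp) (by simp)] at this
    exact this
  · have := abs_nrm_e2 y (i, j)
    rw [show ((i, j) : Face) + u2 = (i, j + 1) from Prod.ext (by simp) (by simp)] at this
    exact this
  · have := abs_nrm_e1 y (i - 1, j)
    rw [show ((i - 1, j) : Face) + u1 = (i, j) from Prod.ext (by simp) (by simp)] at this
    rw [abs_sub_comm]; exact this

/-- partner sum -/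
theorem sum_partner (y : Face) (n : ℕ) (φ : Fld) :
    ∑ f ∈ Q y n, ∑ h, φ (nb f h) (op h) ^ 2 ≤ S y (n + 1) φ := by
  have e1 : ∑ f ∈ Q y n, ∑ h, φ (nb f h) (op h) ^ 2 =
      ∑ p ∈ Q y n ×ˢ (univ : Finset (Fin 4)), φ (bar p).1 (bar p).2 ^ 2 := by
    rw [sum_product]; rfl
  have e2 : S y (n + 1) φ = ∑ p ∈ Q y (n + 1) ×ˢ (univ : Finset (Fin 4)), φ p.1 p.2 ^ 2 := by
    rw [sum_product]; rfl
  have e3 : ∑ p ∈ Q y n ×ˢ (univ : Finset (Fin 4)), φ (bar p).1 (bar p).2 ^ 2 =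
      ∑ p ∈ (Q y n ×ˢ (univ : Finset (Fin 4))).map bar.toEmbedding, φ p.1 p.2 ^ 2 :=
    (Finset.sum_map (Q y n ×ˢ (univ : Finset (Fin 4))) bar.toEmbedding
      (fun p => φ p.1 p.2 ^ 2)).symm
  rw [e1, e2, e3]
  refine sum_le_sum_of_subset_of_nonneg ?_ fun p _ _ => sq_nonneg _
  intro p hp
  rw [mem_map] at hp
  obtain ⟨q, hq, rfl⟩ := hp
  rw [mem_product] at hq ⊢
  exact ⟨mem_nb q.2 hq.1, mem_univ _⟩

/-- **Caccioppoli inequality** for the half-edge operator -/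
theorem cacc (y : Face) (n k : ℕ) (hk : 1 ≤ k) (φ : Fld) :
    S y n (FX φ) + S y n (FY φ) ≤
      2 * KE * (S y (n + k + 2) (AA φ) + (1 / (k : ℝ)) ^ 2 * S y (n + k + 3) φ) := by
  set χ := cut y (n + 1) k with hχ
  set ψ : Fld := fun f h => χ f * φ f h with hψdef
  have χ0 : ∀ f, f ∉ Q y (n + k) → χ f = 0 := fun f hf => cut_zero' (by omega) hf
  have χ1 : ∀ f ∈ Q y (n + 1), χ f = 1 := fun f hf => cut_one (by omega) hf
  have χle : ∀ f, |χ f| ≤ 1 := by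
    intro f
    rw [hχ, cut, abs_of_nonneg (le_max_left _ _)]
    exact max_le zero_le_one (min_le_left _ _)
  have hψ : Sup0 y (n + k) ψ := fun f hf h => by rw [hψdef]; simp only; rw [χ0 f hf, zero_mul]
  have h1 := TG_ge y n (φ := φ) hψ fun f hf => by
    funext h
    rw [hψdef]; simp only; rw [χ1 f hf, one_mul]
  have h2 := grad_fs hψ
  have x0 := xc_pos
  have x1 := xc_lt_half
  have h3 : S y (n + k + 1) (AA ψ) ≤
      2 * (S y (n + k + 1) (AA φ) + (1 / (k : ℝ)) ^ 2 * S y (n + k + 1 + 1) φ) := by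
    have pt : ∀ f h, AA ψ f h ^ 2 ≤
        2 * (AA φ f h ^ 2 + (1 / (k : ℝ)) ^ 2 * φ (nb f h) (op h) ^ 2) := by
      intro f h
      have e : AA ψ f h = χ f * AA φ f h + sg h * xc * ((χ (nb f h) - χ f) * φ (nb f h) (op h)) :=
        A_cut (cst xc) χ φ f h
      have a1 : (χ f * AA φ f h) ^ 2 ≤ AA φ f h ^ 2 := by
        have : χ f ^ 2 ≤ 1 := by
          rw [← sq_abs]; exact pow_le_one₀ (abs_nonneg _) (χle f)
        rw [mul_pow]
        exact mul_le_of_le_one_left (sq_nonneg _) this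
      have a2 : (sg h * xc * ((χ (nb f h) - χ f) * φ (nb f h) (op h))) ^ 2 ≤
          (1 / (k : ℝ)) ^ 2 * φ (nb f h) (op h) ^ 2 := by
        have b1 : (χ (nb f h) - χ f) ^ 2 ≤ (1 / (k : ℝ)) ^ 2 := by
          rw [← sq_abs]
          exact pow_le_pow_left₀ (abs_nonneg _) (cut_lip (nrm_nb y f h)) 2
        have b2 : (sg h * xc * ((χ (nb f h) - χ f) * φ (nb f h) (op h))) ^ 2 =
            xc ^ 2 * ((χ (nb f h) - χ f) ^ 2 * φ (nb f h) (op h) ^ 2) := by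
          rw [mul_pow, mul_pow, sg_sq, one_mul, mul_pow]
        rw [b2]
        have b3 : xc ^ 2 ≤ 1 := by nlinarith
        have b4 : (χ (nb f h) - χ f) ^ 2 * φ (nb f h) (op h) ^ 2 ≤
            (1 / (k : ℝ)) ^ 2 * φ (nb f h) (op h) ^ 2 :=
          mul_le_mul_of_nonneg_right b1 (sq_nonneg _)
        exact (mul_le_of_le_one_left (by positivity) b3).trans b4
      rw [e]
      nlinarith [sq_nonneg (χ f * AA φ f h - sg h * xc * ((χ (nb f h) - χ f) * φ (nb f h) (op h)))]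
    have s1 : S y (n + k + 1) (AA ψ) ≤ ∑ f ∈ Q y (n + k + 1), ∑ h,
        2 * (AA φ f h ^ 2 + (1 / (k : ℝ)) ^ 2 * φ (nb f h) (op h) ^ 2) :=
      sum_le_sum fun f _ => sum_le_sum fun h _ => pt f h
    have s2 : ∑ f ∈ Q y (n + k + 1), ∑ h,
        2 * (AA φ f h ^ 2 + (1 / (k : ℝ)) ^ 2 * φ (nb f h) (op h) ^ 2) =
        2 * (S y (n + k + 1) (AA φ) + (1 / (k : ℝ)) ^ 2 *
          ∑ f ∈ Q y (n + k + 1), ∑ h, φ (nb f h) (op h) ^ 2) := by
      simp only [← mul_sum, sum_add_distrib]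
      rfl
    rw [s2] at s1
    refine s1.trans ?_
    have := sum_partner y (n + k + 1) φ
    gcongr
  have hKE := KE_pos
  have h4 := S_mono y (show n + k + 1 ≤ n + k + 2 by omega) (AA φ)
  have h5 := S_mono y (show n + k + 1 + 1 ≤ n + k + 3 by omega) φ
  calc S y n (FX φ) + S y n (FY φ) ≤ TG ψ := h1
    _ ≤ KE * S y (n + k + 1) (AA ψ) := h2
    _ ≤ KE * (2 * (S y (n + k + 1) (AA φ) + (1 / (k : ℝ)) ^ 2 * S y (n + k + 1 + 1) φ)) := by
        gcongr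
    _ ≤ KE * (2 * (S y (n + k + 2) (AA φ) + (1 / (k : ℝ)) ^ 2 * S y (n + k + 3) φ)) := by
        gcongr
    _ = _ := by ring

/-! ### bootstrap -/

/-- scaled bounds: `ρ^(2j) S(A^j φ, R) ≤ B` for `j ≤ m` -/
def Gd (m R : ℕ) (B : ℝ) (ρ : ℕ) (y : Face) (φ : Fld) : Prop :=
  ∀ j ≤ m, (ρ : ℝ) ^ (2 * j) * S y R (AA^[j] φ) ≤ B

/-- the constant of one differentiation -/
def K1 : ℝ := 4 * KE

theorem Gd.mono {m m' R R' : ℕ} {B B' : ℝ} {ρ : ℕ} {y : Face} {φ : Fld} (h : Gd m R B ρ y φ)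
    (hm : m' ≤ m) (hR : R' ≤ R) (hB : B ≤ B') : Gd m' R' B' ρ y φ := fun j hj =>
  le_trans (mul_le_mul_of_nonneg_left (S_mono y hR _) (by positivity)) ((h j (hj.trans hm)).trans hB)

theorem Gd.grad {m R R' : ℕ} {B : ℝ} {ρ : ℕ} {y : Face} {φ : Fld} (h : Gd (m + 1) R B ρ y φ)
    (hρ : 1 ≤ ρ) (hR : R' + 4 * ρ ≤ R) (j : ℕ) (hj : j ≤ m) :
    (ρ : ℝ) ^ (2 * j) * ((ρ : ℝ) ^ 2 * (S y R' (FX (AA^[j] φ)) + S y R' (FY (AA^[j] φ)))) ≤
      K1 * B := by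
  have hρ0 : (0 : ℝ) < ρ := by exact_mod_cast (by omega : 0 < ρ)
  have c := cacc y R' ρ hρ (AA^[j] φ)
  have e : AA (AA^[j] φ) = AA^[j + 1] φ := (Function.iterate_succ_apply' AA j φ).symm
  rw [e] at c
  have hKE := KE_pos
  have a1 := h (j + 1) (by omega)
  have a0 := h j (by omega)
  have m1 := S_mono y (show R' + ρ + 2 ≤ R by omega) (AA^[j + 1] φ)
  have m0 := S_mono y (show R' + ρ + 3 ≤ R by omega) (AA^[j] φ)
  have p1 : (ρ : ℝ) ^ (2 * (j + 1)) = (ρ : ℝ) ^ (2 * j) * (ρ : ℝ) ^ 2 := by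
    rw [← pow_add]; congr 1
  rw [p1] at a1
  have hp : 0 < (ρ : ℝ) ^ (2 * j) := by positivity
  have hp2 : 0 < (ρ : ℝ) ^ 2 := by positivity
  have q : (ρ : ℝ) ^ 2 * (1 / (ρ : ℝ)) ^ 2 = 1 := by field_simp
  calc (ρ : ℝ) ^ (2 * j) * ((ρ : ℝ) ^ 2 * (S y R' (FX (AA^[j] φ)) + S y R' (FY (AA^[j] φ))))
      ≤ (ρ : ℝ) ^ (2 * j) * ((ρ : ℝ) ^ 2 * (2 * KE * (S y (R' + ρ + 2) (AA^[j + 1] φ) +
          (1 / (ρ : ℝ)) ^ 2 * S y (R' + ρ + 3) (AA^[j] φ)))) := by gcongr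
    _ ≤ (ρ : ℝ) ^ (2 * j) * ((ρ : ℝ) ^ 2 * (2 * KE * (S y R (AA^[j + 1] φ) +
          (1 / (ρ : ℝ)) ^ 2 * S y R (AA^[j] φ)))) := by gcongr
    _ = 2 * KE * ((ρ : ℝ) ^ (2 * j) * (ρ : ℝ) ^ 2 * S y R (AA^[j + 1] φ) +
          ((ρ : ℝ) ^ 2 * (1 / (ρ : ℝ)) ^ 2) * ((ρ : ℝ) ^ (2 * j) * S y R (AA^[j] φ))) := by ring
    _ ≤ 2 * KE * (B + B) := by rw [q, one_mul]; gcongr
    _ = K1 * B := by rw [K1]; ring

theorem Gd.fx {m R R' : ℕ} {B : ℝ} {ρ : ℕ} {y : Face} {φ : Fld} (h : Gd (m + 1) R B ρ y φ)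
    (hρ : 1 ≤ ρ) (hR : R' + 4 * ρ ≤ R) : Gd m R' (K1 * B) ρ y ((ρ : ℝ) • FX φ) := by
  intro j hj
  have g := h.grad hρ hR j hj
  rw [AAi_smul, S_smul, AAi_FX]
  have := S_nonneg y R' (FY (AA^[j] φ))
  refine le_trans ?_ g
  gcongr
  linarith

theorem Gd.fy {m R R' : ℕ} {B : ℝ} {ρ : ℕ} {y : Face} {φ : Fld} (h : Gd (m + 1) R B ρ y φ)
    (hρ : 1 ≤ ρ) (hR : R' + 4 * ρ ≤ R) : Gd m R' (K1 * B) ρ y ((ρ : ℝ) • FY φ) := by
  intro j hj
  have g := h.grad hρ hR j hj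
  rw [AAi_smul, S_smul, AAi_FY]
  have := S_nonneg y R' (FX (AA^[j] φ))
  refine le_trans ?_ g
  gcongr
  linarith

theorem Gd.opA {m R : ℕ} {B : ℝ} {ρ : ℕ} {y : Face} {φ : Fld} (h : Gd (m + 1) R B ρ y φ) :
    Gd m R B ρ y ((ρ : ℝ) • AA φ) := by
  intro j hj
  have g := h (j + 1) (by omega)
  rw [AAi_smul, S_smul, ← Function.iterate_succ_apply, ← mul_assoc]
  rwa [show (ρ : ℝ) ^ (2 * (j + 1)) = (ρ : ℝ) ^ (2 * j) * (ρ : ℝ) ^ 2 by
    rw [← pow_add]; congr 1] at g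

theorem K1_ge : 1 ≤ K1 := by
  have h1 := xc_lt_half
  have h0 := xc_pos
  have h2 : c0 ^ 2 ≤ 1 := by
    rw [c0_eq]
    have : xc ^ 2 ≤ 1 / 4 := by nlinarith
    have h3 : 0 ≤ 2 * xc ^ 2 := by positivity
    apply pow_le_one₀ h3; linarith
  have hc := c0_pos
  rw [K1, KE]
  have : (10368 : ℝ) ≤ 10368 / c0 ^ 2 := by
    rw [le_div_iff₀ (by positivity)]; linarith
  linarith

/-- **sup bound** -/
theorem Gd.sup {R : ℕ} {B : ℝ} {ρ : ℕ} {y : Face} {φ : Fld} (h : Gd 2 R B ρ y φ)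
    (hρ : 1 ≤ ρ) (hR : 13 * ρ ≤ R) {f : Face} (hf : f ∈ Q y (5 * ρ)) (k : Fin 4) :
    (ρ : ℝ) ^ 2 * φ f k ^ 2 ≤ 500 * (K1 ^ 2 * B) := by
  have hρ0 : (0 : ℝ) < ρ := by exact_mod_cast (by omega : 0 < ρ)
  have hρ1 : (1 : ℝ) ≤ ρ := by exact_mod_cast hρ
  have K1p := K1_ge
  have s := Crest.Agent.R165.PotBx894.sobolev_box y (5 * ρ) (cp φ k) hf
  have g0 := h 0 (by omega)
  simp only [Function.iterate_zero, id, mul_zero, pow_zero, one_mul] at g0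
  have hB : 0 ≤ B := (S_nonneg _ _ _).trans g0
  -- order zero
  have b0 : ∑ f ∈ Q y (5 * ρ), cp φ k f ^ 2 ≤ B :=
    (S_cp y (5 * ρ) φ k).trans ((S_mono y (by omega) φ).trans g0)
  -- order one
  have g1 := h.grad (R' := 5 * ρ) hρ (by omega) 0 (by omega)
  simp only [Function.iterate_zero, id, mul_zero, pow_zero, one_mul] at g1
  have b1 : (ρ : ℝ) ^ 2 * ∑ f ∈ Q y (5 * ρ), (D1 (cp φ k) f ^ 2 + D2 (cp φ k) f ^ 2) ≤ K1 * B := by
    refine le_trans ?_ g1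
    gcongr
    rw [sum_add_distrib]
    have t1 := S_cp y (5 * ρ) (FX φ) k
    have t2 := S_cp y (5 * ρ) (FY φ) k
    rw [FX_cp] at t1
    rw [FY_cp] at t2
    linarith
  -- order two
  have g2 := (h.fx (R' := 9 * ρ) hρ (by omega)).fy (R' := 5 * ρ) hρ (by omega) 0 (by omega)
  simp only [Function.iterate_zero, id, mul_zero, pow_zero, one_mul] at g2
  have b2 : (ρ : ℝ) ^ 4 * ∑ f ∈ Q y (5 * ρ), D2 (D1 (cp φ k)) f ^ 2 ≤ K1 * (K1 * B) := by
    refine le_trans ?_ g2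
    rw [FY_smul, smul_smul, S_smul]
    have t := S_cp y (5 * ρ) (FY (FX φ)) k
    rw [FY_cp, FX_cp] at t
    have e : ((ρ : ℝ) * ρ) ^ 2 = (ρ : ℝ) ^ 4 := by ring
    rw [e]
    gcongr
  push_cast at s
  have c1 : (ρ : ℝ) ^ 2 * (4 / (2 * (5 * (ρ : ℝ)) + 1) ^ 2 * ∑ f ∈ Q y (5 * ρ), cp φ k f ^ 2) ≤
      K1 ^ 2 * B := by
    have : (ρ : ℝ) ^ 2 * (4 / (2 * (5 * (ρ : ℝ)) + 1) ^ 2) ≤ 1 := by
      rw [← mul_div_assoc, div_le_one (by positivity)]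
      nlinarith
    calc (ρ : ℝ) ^ 2 * (4 / (2 * (5 * (ρ : ℝ)) + 1) ^ 2 * ∑ f ∈ Q y (5 * ρ), cp φ k f ^ 2)
        = (ρ : ℝ) ^ 2 * (4 / (2 * (5 * (ρ : ℝ)) + 1) ^ 2) * ∑ f ∈ Q y (5 * ρ), cp φ k f ^ 2 := by
          ring
      _ ≤ 1 * B := by
          apply mul_le_mul this b0 (sum_nonneg fun f _ => sq_nonneg _) zero_le_one
      _ ≤ K1 ^ 2 * B := by
          apply mul_le_mul_of_nonneg_right (one_le_pow₀ K1p) hB
  have c2 : (ρ : ℝ) ^ 2 * (4 * ∑ f ∈ Q y (5 * ρ), (D1 (cp φ k) f ^ 2 + D2 (cp φ k) f ^ 2)) ≤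
      4 * (K1 ^ 2 * B) := by
    have : K1 * B ≤ K1 ^ 2 * B := by
      apply mul_le_mul_of_nonneg_right _ hB
      nlinarith
    linarith
  have c3 : (ρ : ℝ) ^ 2 * (4 * (2 * (5 * (ρ : ℝ)) + 1) ^ 2 *
      ∑ f ∈ Q y (5 * ρ), D2 (D1 (cp φ k)) f ^ 2) ≤ 484 * (K1 ^ 2 * B) := by
    have e : (2 * (5 * (ρ : ℝ)) + 1) ^ 2 ≤ 121 * ρ ^ 2 := by nlinarith
    have hs : 0 ≤ ∑ f ∈ Q y (5 * ρ), D2 (D1 (cp φ k)) f ^ 2 := sum_nonneg fun f _ => sq_nonneg _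
    calc (ρ : ℝ) ^ 2 * (4 * (2 * (5 * (ρ : ℝ)) + 1) ^ 2 *
          ∑ f ∈ Q y (5 * ρ), D2 (D1 (cp φ k)) f ^ 2)
        ≤ (ρ : ℝ) ^ 2 * (4 * (121 * ρ ^ 2) * ∑ f ∈ Q y (5 * ρ), D2 (D1 (cp φ k)) f ^ 2) := by
          gcongr
      _ = 484 * ((ρ : ℝ) ^ 4 * ∑ f ∈ Q y (5 * ρ), D2 (D1 (cp φ k)) f ^ 2) := by ring
      _ ≤ 484 * (K1 * (K1 * B)) := by gcongr
      _ = _ := by ring
  have s' := mul_le_mul_of_nonneg_left s (by positivity : 0 ≤ (ρ : ℝ) ^ 2)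
  have hKB : 0 ≤ K1 ^ 2 * B := by positivity
  have s'' : (ρ : ℝ) ^ 2 * φ f k ^ 2 ≤
      (ρ : ℝ) ^ 2 * (4 / (2 * (5 * (ρ : ℝ)) + 1) ^ 2 * ∑ f ∈ Q y (5 * ρ), cp φ k f ^ 2) +
      (ρ : ℝ) ^ 2 * (4 * ∑ f ∈ Q y (5 * ρ), (D1 (cp φ k) f ^ 2 + D2 (cp φ k) f ^ 2)) +
      (ρ : ℝ) ^ 2 * (4 * (2 * (5 * (ρ : ℝ)) + 1) ^ 2 *
        ∑ f ∈ Q y (5 * ρ), D2 (D1 (cp φ k)) f ^ 2) := by
    refine s'.trans (le_of_eq ?_)
    ring
  linarith

end Crest.Agent.R165.Ellx812
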