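import Crest.Agent.R165.BkTay_812
import Crest.Agent.R165.Ell_812

/-!
# Row 165 (S0250), block R/G: `exists_bkReg` (helper812)

Bridge between the test functions `HE ℤ → ℝ` and the fields of Ell_812; the sup bounds `SB`
from the local test seminorm; `∃ C, BkReg C`.
-/

set_option autoImplicit false

noncomputable section

open Crest.Agent.R165.Gr0x606 Crest.Agent.R165.Latx683 Crest.Agent.R165.Locx901
  Crest.Agent.R165.PlaneModesx901 Crest.Agent.R165.PlaneLocx901 Crest.Agent.R165.GDefx387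
  Crest.Agent.R165.Wtx898 Crest.Agent.R165.W2x812 Crest.Agent.R165.BkTayx812
  Crest.Agent.R165.Ellx812

namespace Crest.Agent.R165.BkExx812

/-- currying -/
def cur (f : Tst) : Tr1x40.Fld := fun x d => f (x, d)

theorem cur_Dx (f : Tst) : cur (Dx f) = FX (cur f) := rfl
theorem cur_Dy (f : Tst) : cur (Dy f) = FY (cur f) := rfl

theorem cur_Apl (f : Tst) : cur (Apl f) = AA (cur f) := by
  funext x d
  have e : (xc : ℝ) = Tr1x40.xc := rfl
  fin_cases d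
  · show Apl f (x, 0) = Tr1x40.A (Tr2x40.cst Tr1x40.xc) (cur f) x 0
    rw [Apl_S, Tr1x40.A_S, e]; rfl
  · show Apl f (x, 1) = Tr1x40.A (Tr2x40.cst Tr1x40.xc) (cur f) x 1
    rw [Apl_E, Tr1x40.A_E, e]; rfl
  · show Apl f (x, 2) = Tr1x40.A (Tr2x40.cst Tr1x40.xc) (cur f) x 2
    rw [Apl_N, Tr1x40.A_N, e]; rfl
  · show Apl f (x, 3) = Tr1x40.A (Tr2x40.cst Tr1x40.xc) (cur f) x 3
    rw [Apl_W, Tr1x40.A_W, e]; rfl

theorem cur_iter (n : ℕ) (f : Tst) : cur ((Aop (wPl ℤ))^[n] f) = AA^[n] (cur f) := by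
  induction n with
  | zero => rfl
  | succ n ih => rw [Function.iterate_succ_apply', Function.iterate_succ_apply', cur_Apl, ih]

theorem ball_toFinset (y : Fc) (R : ℕ) : (ball_finite y R).toFinset = PotAx894.Q y R := by
  rw [← Finset.coe_inj, Set.Finite.coe_toFinset, ball_eq_Icc]; rfl

theorem L2on_S (y : Fc) (R : ℕ) (f : Tst) : L2on (ball y R) f ^ 2 = S y R (cur f) := by
  rw [L2on_sq (ball_finite y R), ball_toFinset, Finset.sum_product]; rfl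

theorem gd_of_nnB {y : Fc} {ρ : ℕ} {f : Tst} (hf : nnB (wPl ℤ) ρ y f ≤ 1) :
    Gd 4 (64 * ρ) 1 ρ y (cur f) := by
  intro j hj
  have h := (pow_mul_L2on_le (w := wPl ℤ) (r := ρ) (x := y) (n := j) (by unfold MM; omega) f).trans hf
  rw [← cur_iter, ← L2on_S]
  have e : (ρ : ℝ) ^ (2 * j) * L2on (ball y (64 * ρ)) ((Aop (wPl ℤ))^[j] f) ^ 2 =
      ((ρ : ℝ) ^ j * L2on (ball y (64 * ρ)) ((Aop (wPl ℤ))^[j] f)) ^ 2 := by
    rw [mul_pow, ← pow_mul, mul_comm j 2]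
  rw [e]
  exact pow_le_one₀ (mul_nonneg (by positivity) (L2on_nonneg _ _)) h

/-- the constant -/
def CB : ℝ := 23 * K1 ^ 2

theorem CB_pos : 0 < CB := by
  have := K1_ge
  unfold CB; positivity

theorem sup_of_gd {R ρ : ℕ} {B : ℝ} {y : Fc} {φ : Tr1x40.Fld} (h : Gd 2 R B ρ y φ)
    (hB : B ≤ K1 ^ 2) (hρ : 1 ≤ ρ) (hR : 13 * ρ ≤ R) {x : Fc} (hx : x ∈ ball y (5 * ρ))
    (d : Fin 4) : |φ x d| ≤ CB / ρ := by
  have hρ0 : (0 : ℝ) < ρ := by exact_mod_cast (by omega : 0 < ρ)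
  have hx' : x ∈ PotAx894.Q y (5 * ρ) := by
    rw [← ball_toFinset, Set.Finite.mem_toFinset]; exact hx
  have hs := h.sup hρ hR hx' d
  have hK := K1_ge
  rw [le_div_iff₀ hρ0]
  apply le_of_sq_le_sq _ CB_pos.le
  calc (|φ x d| * ρ) ^ 2 = (ρ : ℝ) ^ 2 * φ x d ^ 2 := by rw [mul_pow, sq_abs]; ring
    _ ≤ 500 * (K1 ^ 2 * B) := hs
    _ ≤ 500 * (K1 ^ 2 * K1 ^ 2) := by gcongr
    _ ≤ CB ^ 2 := by unfold CB; nlinarith [pow_pos (by linarith : 0 < K1) 4]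

theorem SB_of_nnB (y : Fc) (ρ : ℕ) (hρ : 1 ≤ ρ) (f : Tst) (hf : nnB (wPl ℤ) ρ y f ≤ 1) :
    SB CB ρ y (5 * ρ) f := by
  have hρ0 : (0 : ℝ) < ρ := by exact_mod_cast (by omega : 0 < ρ)
  have hK := K1_ge
  have hK2 : (1 : ℝ) ≤ K1 ^ 2 := one_le_pow₀ hK
  have hKK : K1 ≤ K1 ^ 2 := by nlinarith
  have g := gd_of_nnB hf
  -- the families
  have hx := g.fx (R' := 60 * ρ) hρ (by omega)
  have hy := g.fy (R' := 60 * ρ) hρ (by omega)
  have ha := g.opA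
  have hxx := hx.fx (R' := 56 * ρ) hρ (by omega)
  have hxy := hy.fx (R' := 56 * ρ) hρ (by omega)
  have hyy := hy.fy (R' := 56 * ρ) hρ (by omega)
  have hax := ha.fx (R' := 60 * ρ) hρ (by omega)
  have hay := ha.fy (R' := 60 * ρ) hρ (by omega)
  have haa := ha.opA
  rw [mul_one] at hx hy hxx hxy hyy hax hay
  have s1 : ∀ t : ℝ, |(ρ : ℝ) * t| ≤ CB / ρ → |t| ≤ CB / ρ ^ 2 := by
    intro t ht
    rw [abs_mul, abs_of_pos hρ0] at ht
    rw [le_div_iff₀ (by positivity)]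
    rw [le_div_iff₀ hρ0] at ht
    calc |t| * ρ ^ 2 = ρ * |t| * ρ := by ring
      _ ≤ CB := ht
  have s2 : ∀ t : ℝ, |(ρ : ℝ) * ((ρ : ℝ) * t)| ≤ CB / ρ → |t| ≤ CB / ρ ^ 3 := by
    intro t ht
    rw [abs_mul, abs_mul, abs_of_pos hρ0] at ht
    rw [le_div_iff₀ (by positivity)]
    rw [le_div_iff₀ hρ0] at ht
    calc |t| * ρ ^ 3 = ρ * (ρ * |t|) * ρ := by ring
      _ ≤ CB := ht
  refine ⟨?_, ?_, ?_, ?_, ?_, ?_, ?_, ?_, ?_, ?_⟩ <;> rintro ⟨x, d⟩ hxb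
  · exact sup_of_gd (g.mono (by omega) le_rfl le_rfl) hK2 hρ (by omega) hxb d
  · exact s1 _ (sup_of_gd (hx.mono (by omega) le_rfl le_rfl) hKK hρ (by omega) hxb d)
  · exact s1 _ (sup_of_gd (hy.mono (by omega) le_rfl le_rfl) hKK hρ (by omega) hxb d)
  · rw [FX_smul] at hxx
    exact s2 _ (sup_of_gd hxx (by rw [sq]) hρ (by omega) hxb d)
  · rw [FX_smul] at hxy
    exact s2 _ (sup_of_gd hxy (by rw [sq]) hρ (by omega) hxb d)
  · rw [FY_smul] at hyy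
    exact s2 _ (sup_of_gd hyy (by rw [sq]) hρ (by omega) hxb d)
  · have := s1 _ (sup_of_gd (ha.mono (by omega) le_rfl le_rfl) hK2 hρ (by omega) hxb d)
    rw [← cur_Apl] at this
    exact this
  · rw [FX_smul, ← cur_Apl, ← cur_Dx] at hax
    exact s2 _ (sup_of_gd hax hKK hρ (by omega) hxb d)
  · rw [FY_smul, ← cur_Apl, ← cur_Dy] at hay
    exact s2 _ (sup_of_gd hay hKK hρ (by omega) hxb d)
  · rw [AA_smul, ← cur_Apl, ← cur_Apl] at haa
    exact s2 _ (sup_of_gd haa hK2 hρ (by omega) hxb d)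

/-- **the bulk regularity input exists** -/
theorem bkReg : BkReg (50000000 * CB) := bkReg_of_SB CB_pos.le SB_of_nnB

theorem exists_bkReg : ∃ C : ℝ, 0 < C ∧ BkReg C :=
  ⟨_, by have := CB_pos; positivity, bkReg⟩

end Crest.Agent.R165.BkExx812
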