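import Crest.Agent.R165.W2_812

/-!
# Row 165 (S0250), block R/G: Taylor expansion in the plane from sup bounds (helper812)

`SB`: pointwise bounds for `f`, its differences up to order two, `A f`, `D A f`, `A² f` on a ball.
Output: the remainder `e = f - T0 y f - T1 y f` satisfies `|e| ≤ K (|z-y|+1)² M`,
`|A e| ≤ K (|z-y|+1) M`, `|A² e| ≤ M` with `M = C/ρ³` (heavy components included).
-/

set_option autoImplicit false

noncomputable section

open Crest.Agent.R165.Gr0x606 Crest.Agent.R165.Latx683 Crest.Agent.R165.Locx901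
  Crest.Agent.R165.PlaneModesx901 Crest.Agent.R165.PlaneLocx901 Crest.Agent.R165.GDefx387
  Crest.Agent.R165.Wtx898 Crest.Agent.R165.W2x812

namespace Crest.Agent.R165.BkTayx812

/-! ### differences -/

/-- forward difference in direction 1 -/
def Dx (f : Tst) : Tst := fun h => f ((h.1.1 + 1, h.1.2), h.2) - f h

/-- forward difference in direction 2 -/
def Dy (f : Tst) : Tst := fun h => f ((h.1.1, h.1.2 + 1), h.2) - f h

theorem Dx_apply (f : Tst) (x : Fc) (d : Fin 4) : Dx f (x, d) = f ((x.1 + 1, x.2), d) - f (x, d) := rfl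
theorem Dy_apply (f : Tst) (x : Fc) (d : Fin 4) : Dy f (x, d) = f ((x.1, x.2 + 1), d) - f (x, d) := rfl

theorem Apl_Dx (f : Tst) : Apl (Dx f) = Dx (Apl f) := by
  refine tst_ext ?_ ?_ ?_ ?_ <;> intro x
  · rw [Dx_apply, Apl_S, Apl_S, Apl_S]; simp only [Dx_apply]; ring
  · rw [Dx_apply, Apl_E, Apl_E, Apl_E]; simp only [Dx_apply]; ring
  · rw [Dx_apply, Apl_N, Apl_N, Apl_N]; simp only [Dx_apply]; ring
  · rw [Dx_apply, Apl_W, Apl_W, Apl_W]; simp only [Dx_apply]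
    rw [show x.1 + 1 - 1 = x.1 - 1 + 1 by ring]; ring

theorem Apl_Dy (f : Tst) : Apl (Dy f) = Dy (Apl f) := by
  refine tst_ext ?_ ?_ ?_ ?_ <;> intro x
  · rw [Dy_apply, Apl_S, Apl_S, Apl_S]; simp only [Dy_apply]
    rw [show x.2 + 1 - 1 = x.2 - 1 + 1 by ring]; ring
  · rw [Dy_apply, Apl_E, Apl_E, Apl_E]; simp only [Dy_apply]; ring
  · rw [Dy_apply, Apl_N, Apl_N, Apl_N]; simp only [Dy_apply]; ring
  · rw [Dy_apply, Apl_W, Apl_W, Apl_W]; simp only [Dy_apply]; ring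

/-! ### amplitudes -/

/-- light amplitude -/
def aA (f : Tst) (x : Fc) : ℝ := ev f (phiA x)
/-- light amplitude -/
def aB (f : Tst) (x : Fc) : ℝ := ev f (phiB x)
/-- heavy amplitude -/
def hU (f : Tst) (x : Fc) : ℝ := (1 / 4) * (f (x, 0) + r2 * f (x, 1) + f (x, 2))
/-- heavy amplitude -/
def hW (f : Tst) (x : Fc) : ℝ := (1 / 4) * (-f (x, 0) + f (x, 2) + r2 * f (x, 3))

theorem aA_eq (f : Tst) (x : Fc) : aA f x =
    (1 / 2) * (-(r2 / 2) * f (x, 0) + f (x, 1) - (r2 / 2) * f (x, 2)) := ev_phiA f x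

theorem aB_eq (f : Tst) (x : Fc) : aB f x =
    (1 / 2) * (-(r2 / 2) * f (x, 0) + (r2 / 2) * f (x, 2) - f (x, 3)) := ev_phiB f x

/-- decomposition into the light and the heavy part -/
theorem decomp (f : Tst) : f = lt (aA f) (aB f) + hv (hU f) (hW f) := by
  have h2 := r2_sq
  refine tst_ext ?_ ?_ ?_ ?_ <;> intro x
  · simp only [Pi.add_apply, lt_S, hv_S, aA_eq, aB_eq, hU, hW]; grind
  · simp only [Pi.add_apply, lt_E, hv_E, aA_eq, hU]; grind
  · simp only [Pi.add_apply, lt_N, hv_N, aA_eq, aB_eq, hU, hW]; grind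
  · simp only [Pi.add_apply, lt_W, hv_W, aB_eq, hW]; grind

/-- heavy rows of the operator, first amplitude -/
theorem hU_Apl (f : Tst) (x : Fc) : hU (Apl f) x = 2 * r2 * hW f x +
    xc / 4 * (-Dy f ((x.1, x.2 - 1), 2) + r2 * Dx f (x, 3) - Dy f (x, 0)) := by
  have h2 := r2_sq
  simp only [hU, hW, Apl_S, Apl_E, Apl_N, Dx_apply, Dy_apply, xc_eq, sub_add_cancel]
  grind

/-- heavy rows of the operator, second amplitude -/
theorem hW_Apl (f : Tst) (x : Fc) : hW (Apl f) x = -(2 * r2 * hU f x) +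
    xc / 4 * (Dy f ((x.1, x.2 - 1), 2) - Dy f (x, 0) + r2 * Dx f ((x.1 - 1, x.2), 1)) := by
  have h2 := r2_sq
  simp only [hU, hW, Apl_S, Apl_N, Apl_W, Dx_apply, Dy_apply, xc_eq, sub_add_cancel]
  grind

/-! ### pointwise bounds -/

/-- sup bound on a ball -/
def Sup (y : Fc) (R : ℕ) (f : Tst) (B : ℝ) : Prop := ∀ h : HE ℤ, h.1 ∈ ball y R → |f h| ≤ B

theorem Sup.at {y : Fc} {R : ℕ} {f : Tst} {B : ℝ} (h : Sup y R f B) {x : Fc} (hx : fd y x ≤ R)
    (d : Fin 4) : |f (x, d)| ≤ B := h (x, d) hx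

theorem Sup.mono {y : Fc} {R R' : ℕ} {f : Tst} {B : ℝ} (h : Sup y R f B) (hR : R' ≤ R) :
    Sup y R' f B := fun e he => h e (le_trans he hR)

/-- the pointwise bounds which feed the Taylor expansion -/
structure SB (C ρ : ℝ) (y : Fc) (R : ℕ) (f : Tst) : Prop where
  f0 : Sup y R f (C / ρ)
  fx : Sup y R (Dx f) (C / ρ ^ 2)
  fy : Sup y R (Dy f) (C / ρ ^ 2)
  fxx : Sup y R (Dx (Dx f)) (C / ρ ^ 3)
  fxy : Sup y R (Dx (Dy f)) (C / ρ ^ 3)
  fyy : Sup y R (Dy (Dy f)) (C / ρ ^ 3)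
  g0 : Sup y R (Apl f) (C / ρ ^ 2)
  gx : Sup y R (Dx (Apl f)) (C / ρ ^ 3)
  gy : Sup y R (Dy (Apl f)) (C / ρ ^ 3)
  k0 : Sup y R (Apl (Apl f)) (C / ρ ^ 3)

theorem Dy_Dx (f : Tst) : Dy (Dx f) = Dx (Dy f) := by
  funext h; obtain ⟨x, d⟩ := h
  simp only [Dx_apply, Dy_apply]; ring

theorem lip1 (g : ℤ → ℝ) (a : ℤ) (n : ℕ) (L : ℝ)
    (h : ∀ k : ℤ, (k - a).natAbs ≤ n → |g (k + 1) - g k| ≤ L) :
    ∀ m : ℕ, m ≤ n → |g (a + m) - g a| ≤ m * L ∧ |g (a - m) - g a| ≤ m * L := by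
  intro m
  induction m with
  | zero => intro _; simp
  | succ m ih =>
    intro hm
    obtain ⟨h1, h2⟩ := ih (by omega)
    constructor
    · have h3 := h (a + m) (by omega)
      have e : g (a + (m + 1 : ℕ)) - g a = (g (a + m + 1) - g (a + m)) + (g (a + m) - g a) := by
        push_cast; rw [add_assoc]; ring
      rw [e]
      refine (abs_add_le _ _).trans ?_
      push_cast; linarith
    · have h3 := h (a - (m + 1 : ℕ)) (by omega)
      have e : g (a - (m + 1 : ℕ)) - g a =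
          -(g (a - (m + 1 : ℕ) + 1) - g (a - (m + 1 : ℕ))) + (g (a - m) - g a) := by
        rw [show a - ((m + 1 : ℕ) : ℤ) + 1 = a - m by push_cast; ring]; ring
      rw [e]
      refine (abs_add_le _ _).trans ?_
      rw [abs_neg]
      push_cast at h3 ⊢; linarith

theorem lip1' (g : ℤ → ℝ) (a : ℤ) (n : ℕ) {L : ℝ} (hL : 0 ≤ L)
    (h : ∀ k : ℤ, (k - a).natAbs ≤ n → |g (k + 1) - g k| ≤ L) (k : ℤ) (hk : (k - a).natAbs ≤ n) :
    |g k - g a| ≤ n * L := by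
  have h1 := lip1 g a n L h (k - a).natAbs hk
  have h2 : ((k - a).natAbs : ℝ) * L ≤ n * L :=
    mul_le_mul_of_nonneg_right (by exact_mod_cast hk) hL
  rcases le_total 0 (k - a) with h3 | h3
  · have e : a + ((k - a).natAbs : ℤ) = k := by omega
    rw [e] at h1
    exact h1.1.trans h2
  · have e : a - ((k - a).natAbs : ℤ) = k := by omega
    rw [e] at h1
    exact h1.2.trans h2

/-- Lipschitz bound on a ball -/
theorem lip2 (g : Fc → ℝ) (y : Fc) (n : ℕ) {L : ℝ} (hL : 0 ≤ L)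
    (hx : ∀ z, fd y z ≤ n → |g (z.1 + 1, z.2) - g z| ≤ L)
    (hy : ∀ z, fd y z ≤ n → |g (z.1, z.2 + 1) - g z| ≤ L) (z : Fc) (hz : fd y z ≤ n) :
    |g z - g y| ≤ 2 * n * L := by
  rw [fd_int] at hz
  have h1 := lip1' (fun k => g (k, z.2)) y.1 n hL (fun k hk => by
    refine hx (k, z.2) ?_
    rw [fd_int]; simp only; omega) z.1 (by omega)
  have h2 := lip1' (fun k => g (y.1, k)) y.2 n hL (fun k hk => by
    refine hy (y.1, k) ?_
    rw [fd_int]; simp only [sub_self, Int.natAbs_zero]; omega) z.2 (by omega)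
  have e : g z - g y = (g (z.1, z.2) - g (y.1, z.2)) + (g (y.1, z.2) - g (y.1, y.2)) := by ring
  rw [e]
  refine (abs_add_le _ _).trans ?_
  linarith

/-- second order Taylor bound from vanishing value and central differences -/
theorem taylor2 (a : Fc → ℝ) (y : Fc) (n : ℕ) {M : ℝ} (hM : 0 ≤ M) (hn : 1 ≤ n) (h0 : a y = 0)
    (h1 : a (y.1 + 1, y.2) - a (y.1 - 1, y.2) = 0) (h2 : a (y.1, y.2 + 1) - a (y.1, y.2 - 1) = 0)
    (hxx : ∀ z, fd y z ≤ n → |a (z.1 + 1 + 1, z.2) - 2 * a (z.1 + 1, z.2) + a z| ≤ M)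
    (hxy : ∀ z, fd y z ≤ n → |a (z.1 + 1, z.2 + 1) - a (z.1 + 1, z.2) - a (z.1, z.2 + 1) + a z| ≤ M)
    (hyy : ∀ z, fd y z ≤ n → |a (z.1, z.2 + 1 + 1) - 2 * a (z.1, z.2 + 1) + a z| ≤ M) (z : Fc)
    (hz : fd y z ≤ n) :
    |a (z.1 + 1, z.2) - a z| ≤ (2 * n + 1) * M ∧ |a (z.1, z.2 + 1) - a z| ≤ (2 * n + 1) * M ∧
      |a z| ≤ 2 * n * ((2 * n + 1) * M) := by
  have e1 : fd y (y.1 - 1, y.2) ≤ n := by rw [fd_int]; simp; omega
  have e2 : fd y (y.1, y.2 - 1) ≤ n := by rw [fd_int]; simp; omega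
  have key : ∀ z, fd y z ≤ n → |a (z.1 + 1, z.2) - a z| ≤ (2 * n + 1) * M ∧
      |a (z.1, z.2 + 1) - a z| ≤ (2 * n + 1) * M := by
    intro z hz
    constructor
    · have q1 := lip2 (fun z => a (z.1 + 1, z.2) - a z) y n hM (fun z hz => by
        refine (le_of_eq (congrArg abs ?_)).trans (hxx z hz); ring) (fun z hz => by
        refine (le_of_eq (congrArg abs ?_)).trans (hxy z hz); ring) z hz
      have q2 := hxx _ e1
      simp only [sub_add_cancel] at q2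
      have q3 : |a (y.1 + 1, y.2) - a y| ≤ M := by
        have e : a (y.1 + 1, y.2) - a y =
            (1 / 2) * (a (y.1 + 1, y.2) - 2 * a (y.1, y.2) + a (y.1 - 1, y.2)) := by
          have : a (y.1, y.2) = 0 := h0
          rw [this]
          linear_combination (1 / 2) * h1
        rw [e, abs_mul, abs_of_pos (by norm_num : (0 : ℝ) < 1 / 2)]
        linarith
      have e : a (z.1 + 1, z.2) - a z =
          (a (z.1 + 1, z.2) - a z - (a (y.1 + 1, y.2) - a y)) + (a (y.1 + 1, y.2) - a y) := by ring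
      rw [e]
      refine (abs_add_le _ _).trans ?_
      linarith
    · have q1 := lip2 (fun z => a (z.1, z.2 + 1) - a z) y n hM (fun z hz => by
        refine (le_of_eq (congrArg abs ?_)).trans (hxy z hz); ring) (fun z hz => by
        refine (le_of_eq (congrArg abs ?_)).trans (hyy z hz); ring) z hz
      have q2 := hyy _ e2
      simp only [sub_add_cancel] at q2
      have q3 : |a (y.1, y.2 + 1) - a y| ≤ M := by
        have e : a (y.1, y.2 + 1) - a y =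
            (1 / 2) * (a (y.1, y.2 + 1) - 2 * a (y.1, y.2) + a (y.1, y.2 - 1)) := by
          have : a (y.1, y.2) = 0 := h0
          rw [this]
          linear_combination (1 / 2) * h2
        rw [e, abs_mul, abs_of_pos (by norm_num : (0 : ℝ) < 1 / 2)]
        linarith
      have e : a (z.1, z.2 + 1) - a z =
          (a (z.1, z.2 + 1) - a z - (a (y.1, y.2 + 1) - a y)) + (a (y.1, y.2 + 1) - a y) := by ring
      rw [e]
      refine (abs_add_le _ _).trans ?_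
      linarith
  refine ⟨(key z hz).1, (key z hz).2, ?_⟩
  have q := lip2 a y n (by positivity : 0 ≤ (2 * n + 1) * M) (fun z hz => (key z hz).1)
    (fun z hz => (key z hz).2) z hz
  rwa [h0, sub_zero] at q

/-! ### the heavy part of a field -/

theorem r2_ge : 1 ≤ r2 := by
  have h := r2_sq
  have h1 := r2_pos
  nlinarith

theorem hU_le {f : Tst} {x : Fc} {B : ℝ} (h : ∀ d, |f (x, d)| ≤ B) : |hU f x| ≤ B := by
  have h2 := r2_le
  have h0 := h 0
  have h1 := h 1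
  have h3 := h 2
  have hB : 0 ≤ B := (abs_nonneg _).trans h0
  rw [hU, abs_mul, abs_of_pos (by norm_num : (0 : ℝ) < 1 / 4)]
  have e1 : |r2 * f (x, 1)| ≤ 2 * B := by
    rw [abs_mul, abs_of_pos r2_pos]
    exact mul_le_mul h2 h1 (abs_nonneg _) (by norm_num)
  have e2 : |f (x, 0) + r2 * f (x, 1) + f (x, 2)| ≤ 4 * B := by
    refine (abs_add_le _ _).trans ?_
    have := abs_add_le (f (x, 0)) (r2 * f (x, 1))
    linarith
  linarith

theorem hW_le {f : Tst} {x : Fc} {B : ℝ} (h : ∀ d, |f (x, d)| ≤ B) : |hW f x| ≤ B := by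
  have h2 := r2_le
  have h0 := h 0
  have h1 := h 3
  have h3 := h 2
  have hB : 0 ≤ B := (abs_nonneg _).trans h0
  rw [hW, abs_mul, abs_of_pos (by norm_num : (0 : ℝ) < 1 / 4)]
  have e1 : |r2 * f (x, 3)| ≤ 2 * B := by
    rw [abs_mul, abs_of_pos r2_pos]
    exact mul_le_mul h2 h1 (abs_nonneg _) (by norm_num)
  have e2 : |-f (x, 0) + f (x, 2) + r2 * f (x, 3)| ≤ 4 * B := by
    refine (abs_add_le _ _).trans ?_
    have := abs_add_le (-f (x, 0)) (f (x, 2))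
    rw [abs_neg] at this
    linarith
  linarith

theorem aA_le {f : Tst} {x : Fc} {B : ℝ} (h : ∀ d, |f (x, d)| ≤ B) : |aA f x| ≤ 2 * B := by
  have h2 := r2_le
  have h0 := h 0
  have h1 := h 1
  have h3 := h 2
  have hr := r2_pos
  have hB : 0 ≤ B := (abs_nonneg _).trans h0
  rw [aA_eq, abs_mul, abs_of_pos (by norm_num : (0 : ℝ) < 1 / 2)]
  have e1 : |-(r2 / 2) * f (x, 0)| ≤ 1 * B := by
    rw [abs_mul, abs_neg, abs_of_pos (by linarith : (0 : ℝ) < r2 / 2)]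
    exact mul_le_mul (by linarith) h0 (abs_nonneg _) (by norm_num)
  have e3 : |(r2 / 2) * f (x, 2)| ≤ 1 * B := by
    rw [abs_mul, abs_of_pos (by linarith : (0 : ℝ) < r2 / 2)]
    exact mul_le_mul (by linarith) h3 (abs_nonneg _) (by norm_num)
  have e2 : |-(r2 / 2) * f (x, 0) + f (x, 1) - (r2 / 2) * f (x, 2)| ≤ 3 * B := by
    refine (abs_sub _ _).trans ?_
    have := abs_add_le (-(r2 / 2) * f (x, 0)) (f (x, 1))
    linarith
  linarith

theorem aB_le {f : Tst} {x : Fc} {B : ℝ} (h : ∀ d, |f (x, d)| ≤ B) : |aB f x| ≤ 2 * B := by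
  have h2 := r2_le
  have h0 := h 0
  have h1 := h 3
  have h3 := h 2
  have hr := r2_pos
  have hB : 0 ≤ B := (abs_nonneg _).trans h0
  rw [aB_eq, abs_mul, abs_of_pos (by norm_num : (0 : ℝ) < 1 / 2)]
  have e1 : |-(r2 / 2) * f (x, 0)| ≤ 1 * B := by
    rw [abs_mul, abs_neg, abs_of_pos (by linarith : (0 : ℝ) < r2 / 2)]
    exact mul_le_mul (by linarith) h0 (abs_nonneg _) (by norm_num)
  have e3 : |(r2 / 2) * f (x, 2)| ≤ 1 * B := by
    rw [abs_mul, abs_of_pos (by linarith : (0 : ℝ) < r2 / 2)]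
    exact mul_le_mul (by linarith) h3 (abs_nonneg _) (by norm_num)
  have e2 : |-(r2 / 2) * f (x, 0) + (r2 / 2) * f (x, 2) - f (x, 3)| ≤ 3 * B := by
    refine (abs_sub _ _).trans ?_
    have := abs_add_le (-(r2 / 2) * f (x, 0)) ((r2 / 2) * f (x, 2))
    linarith
  linarith

/-- the heavy part is controlled by the heavy part of `A f` and the differences of `f` -/
theorem heavy_le {f : Tst} {x : Fc} {B B' : ℝ} (h1 : |hU (Apl f) x| ≤ B) (h2 : |hW (Apl f) x| ≤ B)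
    (hx : ∀ w, fd x w ≤ 1 → ∀ d, |Dx f (w, d)| ≤ B')
    (hy : ∀ w, fd x w ≤ 1 → ∀ d, |Dy f (w, d)| ≤ B') :
    |hU f x| ≤ B + B' ∧ |hW f x| ≤ B + B' := by
  have hB : 0 ≤ B := (abs_nonneg _).trans h1
  have hr := r2_le
  have hr1 := r2_ge
  have hx0 := xc_pos
  have hx1 := xc_le
  have e0 : fd x x ≤ 1 := by rw [fd_self]; norm_num
  have e1 : fd x (x.1, x.2 - 1) ≤ 1 := by rw [fd_int]; simp
  have e2 : fd x (x.1 - 1, x.2) ≤ 1 := by rw [fd_int]; simp
  have hB' : 0 ≤ B' := (abs_nonneg _).trans (hx x e0 0)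
  have hU' := hU_Apl f x
  have hW' := hW_Apl f x
  have b1 : |xc / 4 * (-Dy f ((x.1, x.2 - 1), 2) + r2 * Dx f (x, 3) - Dy f (x, 0))| ≤ B' := by
    rw [abs_mul, abs_of_pos (by linarith : (0 : ℝ) < xc / 4)]
    have c1 := hy _ e1 2
    have c2 := hx _ e0 3
    have c3 := hy _ e0 0
    have c4 : |r2 * Dx f (x, 3)| ≤ 2 * B' := by
      rw [abs_mul, abs_of_pos r2_pos]
      exact mul_le_mul hr c2 (abs_nonneg _) (by norm_num)
    have c5 : |-Dy f ((x.1, x.2 - 1), 2) + r2 * Dx f (x, 3) - Dy f (x, 0)| ≤ 4 * B' := by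
      refine (abs_sub _ _).trans ?_
      have := abs_add_le (-Dy f ((x.1, x.2 - 1), 2)) (r2 * Dx f (x, 3))
      rw [abs_neg] at this
      linarith
    have := mul_le_mul (by linarith : xc / 4 ≤ 1 / 4) c5 (abs_nonneg _) (by norm_num)
    linarith
  have b2 : |xc / 4 * (Dy f ((x.1, x.2 - 1), 2) - Dy f (x, 0) + r2 * Dx f ((x.1 - 1, x.2), 1))| ≤
      B' := by
    rw [abs_mul, abs_of_pos (by linarith : (0 : ℝ) < xc / 4)]
    have c1 := hy _ e1 2
    have c2 := hx _ e2 1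
    have c3 := hy _ e0 0
    have c4 : |r2 * Dx f ((x.1 - 1, x.2), 1)| ≤ 2 * B' := by
      rw [abs_mul, abs_of_pos r2_pos]
      exact mul_le_mul hr c2 (abs_nonneg _) (by norm_num)
    have c5 : |Dy f ((x.1, x.2 - 1), 2) - Dy f (x, 0) + r2 * Dx f ((x.1 - 1, x.2), 1)| ≤
        4 * B' := by
      refine (abs_add_le _ _).trans ?_
      have := abs_sub (Dy f ((x.1, x.2 - 1), 2)) (Dy f (x, 0))
      linarith
    have := mul_le_mul (by linarith : xc / 4 ≤ 1 / 4) c5 (abs_nonneg _) (by norm_num)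
    linarith
  constructor
  · have e : 2 * r2 * hU f x =
        xc / 4 * (Dy f ((x.1, x.2 - 1), 2) - Dy f (x, 0) + r2 * Dx f ((x.1 - 1, x.2), 1)) -
          hW (Apl f) x := by rw [hW']; ring
    have e' : |2 * r2 * hU f x| ≤ B + B' := by
      rw [e]; refine (abs_sub _ _).trans ?_; linarith
    rw [abs_mul, abs_of_pos (by linarith : (0 : ℝ) < 2 * r2)] at e'
    have := mul_le_mul_of_nonneg_right (by linarith : (1 : ℝ) ≤ 2 * r2) (abs_nonneg (hU f x))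
    linarith
  · have e : 2 * r2 * hW f x = hU (Apl f) x -
        xc / 4 * (-Dy f ((x.1, x.2 - 1), 2) + r2 * Dx f (x, 3) - Dy f (x, 0)) := by
      rw [hU']; ring
    have e' : |2 * r2 * hW f x| ≤ B + B' := by
      rw [e]; refine (abs_sub _ _).trans ?_; linarith
    rw [abs_mul, abs_of_pos (by linarith : (0 : ℝ) < 2 * r2)] at e'
    have := mul_le_mul_of_nonneg_right (by linarith : (1 : ℝ) ≤ 2 * r2) (abs_nonneg (hW f x))
    linarith

/-! ### the remainder -/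

/-- the remainder after the constant and the linear part at `y` -/
def rem (y : Fc) (f : Tst) : Tst := f - T0 y f - T1 y f

theorem aA_sub (f g : Tst) (x : Fc) : aA (f - g) x = aA f x - aA g x := by
  simp only [aA_eq, Pi.sub_apply]; ring
theorem aB_sub (f g : Tst) (x : Fc) : aB (f - g) x = aB f x - aB g x := by
  simp only [aB_eq, Pi.sub_apply]; ring
theorem hU_sub (f g : Tst) (x : Fc) : hU (f - g) x = hU f x - hU g x := by
  simp only [hU, Pi.sub_apply]; ring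
theorem hW_sub (f g : Tst) (x : Fc) : hW (f - g) x = hW f x - hW g x := by
  simp only [hW, Pi.sub_apply]; ring
theorem hU_smul (c : ℝ) (f : Tst) (x : Fc) : hU (c • f) x = c * hU f x := by
  simp only [hU, Pi.smul_apply, smul_eq_mul]; ring
theorem hW_smul (c : ℝ) (f : Tst) (x : Fc) : hW (c • f) x = c * hW f x := by
  simp only [hW, Pi.smul_apply, smul_eq_mul]; ring
theorem hU_m0 (a b : ℝ) (x : Fc) : hU (m0 a b) x = 0 := by
  have h2 := r2_sq
  simp only [hU, m0, lt_S, lt_E, lt_N]; ring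
theorem hW_m0 (a b : ℝ) (x : Fc) : hW (m0 a b) x = 0 := by
  have h2 := r2_sq
  simp only [hW, m0, lt_S, lt_N, lt_W]; ring

theorem Dx_sub (f g : Tst) : Dx (f - g) = Dx f - Dx g := by
  funext h; simp only [Dx, Pi.sub_apply]; ring
theorem Dy_sub (f g : Tst) : Dy (f - g) = Dy f - Dy g := by
  funext h; simp only [Dy, Pi.sub_apply]; ring
theorem Dx_m0 (a b : ℝ) : Dx (m0 a b) = 0 := by
  refine tst_ext ?_ ?_ ?_ ?_ <;> intro x <;> simp [Dx_apply, m0, lt]
theorem Dy_m0 (a b : ℝ) : Dy (m0 a b) = 0 := by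
  refine tst_ext ?_ ?_ ?_ ?_ <;> intro x <;> simp [Dy_apply, m0, lt]
theorem Dx_m1 (y : Fc) (u v s t : ℝ) : Dx (m1 y u v s t) = m0 (u + s) (v + t) := by
  refine tst_ext ?_ ?_ ?_ ?_ <;> intro x <;>
    simp only [Dx_apply, m1, m0, lt_S, lt_E, lt_N, lt_W, hv_S, hv_E, hv_N, hv_W, Pi.add_apply,
      Pi.smul_apply, smul_eq_mul] <;> push_cast <;> ring
theorem Dy_m1 (y : Fc) (u v s t : ℝ) : Dy (m1 y u v s t) = m0 (t - v) (u - s) := by
  refine tst_ext ?_ ?_ ?_ ?_ <;> intro x <;>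
    simp only [Dy_apply, m1, m0, lt_S, lt_E, lt_N, lt_W, hv_S, hv_E, hv_N, hv_W, Pi.add_apply,
      Pi.smul_apply, smul_eq_mul] <;> push_cast <;> ring

theorem aA_rem (y : Fc) (f : Tst) (x : Fc) : aA (rem y f) x = aA f x - aA f y -
    ((1 / 2) * (aA f (y.1 + 1, y.2) - aA f (y.1 - 1, y.2)) * (x.1 - y.1 : ℤ) +
      (1 / 2) * (aA f (y.1, y.2 + 1) - aA f (y.1, y.2 - 1)) * (x.2 - y.2 : ℤ)) := by
  rw [rem, aA_sub, aA_sub]
  have e0 : aA (T0 y f) x = aA f y := ev_phiA_m0 _ _ _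
  have e1 : aA (T1 y f) x = _ := ev_phiA_m1 _ _ _ _ _ _
  rw [e0, e1]
  simp only [qU, qV, qS, qT, map_smul, map_add, map_sub, ev_D1, ev_D2, smul_eq_mul, aA]
  ring

theorem aB_rem (y : Fc) (f : Tst) (x : Fc) : aB (rem y f) x = aB f x - aB f y -
    ((1 / 2) * (aB f (y.1 + 1, y.2) - aB f (y.1 - 1, y.2)) * (x.1 - y.1 : ℤ) +
      (1 / 2) * (aB f (y.1, y.2 + 1) - aB f (y.1, y.2 - 1)) * (x.2 - y.2 : ℤ)) := by
  rw [rem, aB_sub, aB_sub]
  have e0 : aB (T0 y f) x = aB f y := ev_phiB_m0 _ _ _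
  have e1 : aB (T1 y f) x = _ := ev_phiB_m1 _ _ _ _ _ _
  rw [e0, e1]
  simp only [qU, qV, qS, qT, map_smul, map_add, map_sub, ev_D1, ev_D2, smul_eq_mul, aB]
  ring

/-- the operator on the remainder -/
theorem Apl_rem (y : Fc) (f : Tst) :
    Apl (rem y f) = Apl f - -xc • m0 (ev f (qT y)) (ev f (qS y)) := by
  rw [rem, map_sub, map_sub, T0, T1, Apl_m0, Apl_m1, sub_zero]

theorem Apl_Apl_rem (y : Fc) (f : Tst) : Apl (Apl (rem y f)) = Apl (Apl f) := by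
  rw [Apl_rem, map_sub, map_smul, Apl_m0, smul_zero, sub_zero]

theorem hU_Apl_rem (y : Fc) (f : Tst) (x : Fc) : hU (Apl (rem y f)) x = hU (Apl f) x := by
  rw [Apl_rem, hU_sub, hU_smul, hU_m0, mul_zero, sub_zero]

theorem hW_Apl_rem (y : Fc) (f : Tst) (x : Fc) : hW (Apl (rem y f)) x = hW (Apl f) x := by
  rw [Apl_rem, hW_sub, hW_smul, hW_m0, mul_zero, sub_zero]

theorem hU_Dx_rem (y : Fc) (f : Tst) (x : Fc) : hU (Dx (rem y f)) x = hU (Dx f) x := by
  rw [rem, T0, T1, Dx_sub, Dx_sub, Dx_m0, Dx_m1, hU_sub, hU_sub, hU_m0]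
  simp [hU]
theorem hW_Dx_rem (y : Fc) (f : Tst) (x : Fc) : hW (Dx (rem y f)) x = hW (Dx f) x := by
  rw [rem, T0, T1, Dx_sub, Dx_sub, Dx_m0, Dx_m1, hW_sub, hW_sub, hW_m0]
  simp [hW]
theorem hU_Dy_rem (y : Fc) (f : Tst) (x : Fc) : hU (Dy (rem y f)) x = hU (Dy f) x := by
  rw [rem, T0, T1, Dy_sub, Dy_sub, Dy_m0, Dy_m1, hU_sub, hU_sub, hU_m0]
  simp [hU]
theorem hW_Dy_rem (y : Fc) (f : Tst) (x : Fc) : hW (Dy (rem y f)) x = hW (Dy f) x := by
  rw [rem, T0, T1, Dy_sub, Dy_sub, Dy_m0, Dy_m1, hW_sub, hW_sub, hW_m0]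
  simp [hW]

theorem Dx_Apl_rem (y : Fc) (f : Tst) : Dx (Apl (rem y f)) = Dx (Apl f) := by
  rw [Apl_rem, Dx_sub, show Dx (-xc • m0 (ev f (qT y)) (ev f (qS y))) = 0 by
    funext h
    have := congrFun (Dx_m0 (ev f (qT y)) (ev f (qS y))) h
    simp only [Dx, Pi.zero_apply, Pi.smul_apply, smul_eq_mul] at this ⊢
    linear_combination (-xc) * this, sub_zero]

theorem Dy_Apl_rem (y : Fc) (f : Tst) : Dy (Apl (rem y f)) = Dy (Apl f) := by
  rw [Apl_rem, Dy_sub, show Dy (-xc • m0 (ev f (qT y)) (ev f (qS y))) = 0 by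
    funext h
    have := congrFun (Dy_m0 (ev f (qT y)) (ev f (qS y))) h
    simp only [Dy, Pi.zero_apply, Pi.smul_apply, smul_eq_mul] at this ⊢
    linear_combination (-xc) * this, sub_zero]

section bounds

variable {C ρ : ℝ} {y : Fc} {R : ℕ} {f : Tst}

/-- heavy amplitudes of `A f` -/
theorem SB.heavyA (h : SB C ρ y R f) {w : Fc} (hw : fd y w + 1 ≤ R) :
    |hU (Apl f) w| ≤ 2 * (C / ρ ^ 3) ∧ |hW (Apl f) w| ≤ 2 * (C / ρ ^ 3) := by
  have hin : ∀ v, fd w v ≤ 1 → fd y v ≤ R := fun v hv => by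
    have := fd_triangle y w v; omega
  have hww : fd w w ≤ 1 := by rw [fd_self]; norm_num
  have e := heavy_le (f := Apl f) (x := w) (B := C / ρ ^ 3) (B' := C / ρ ^ 3)
    (hU_le fun d => h.k0.at (hin w hww) d) (hW_le fun d => h.k0.at (hin w hww) d)
    (fun v hv d => h.gx.at (hin v hv) d) (fun v hv d => h.gy.at (hin v hv) d)
  constructor <;> linarith [e.1, e.2]

/-- heavy amplitudes of `Dx f` -/
theorem SB.heavyX (h : SB C ρ y R f) {w : Fc} (hw : fd y w + 1 ≤ R) :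
    |hU (Dx f) w| ≤ 2 * (C / ρ ^ 3) ∧ |hW (Dx f) w| ≤ 2 * (C / ρ ^ 3) := by
  have hin : ∀ v, fd w v ≤ 1 → fd y v ≤ R := fun v hv => by
    have := fd_triangle y w v; omega
  have hww : fd w w ≤ 1 := by rw [fd_self]; norm_num
  have e := heavy_le (f := Dx f) (x := w) (B := C / ρ ^ 3) (B' := C / ρ ^ 3)
    (by rw [Apl_Dx]; exact hU_le fun d => h.gx.at (hin w hww) d)
    (by rw [Apl_Dx]; exact hW_le fun d => h.gx.at (hin w hww) d)
    (fun v hv d => h.fxx.at (hin v hv) d) (fun v hv d => by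
      rw [Dy_Dx]; exact h.fxy.at (hin v hv) d)
  constructor <;> linarith [e.1, e.2]

/-- heavy amplitudes of `Dy f` -/
theorem SB.heavyY (h : SB C ρ y R f) {w : Fc} (hw : fd y w + 1 ≤ R) :
    |hU (Dy f) w| ≤ 2 * (C / ρ ^ 3) ∧ |hW (Dy f) w| ≤ 2 * (C / ρ ^ 3) := by
  have hin : ∀ v, fd w v ≤ 1 → fd y v ≤ R := fun v hv => by
    have := fd_triangle y w v; omega
  have hww : fd w w ≤ 1 := by rw [fd_self]; norm_num
  have e := heavy_le (f := Dy f) (x := w) (B := C / ρ ^ 3) (B' := C / ρ ^ 3)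
    (by rw [Apl_Dy]; exact hU_le fun d => h.gy.at (hin w hww) d)
    (by rw [Apl_Dy]; exact hW_le fun d => h.gy.at (hin w hww) d)
    (fun v hv d => h.fxy.at (hin v hv) d) (fun v hv d => h.fyy.at (hin v hv) d)
  constructor <;> linarith [e.1, e.2]

/-- Taylor bounds for the light amplitude of the remainder -/
theorem SB.lightA (h : SB C ρ y R f) (hM : 0 ≤ C / ρ ^ 3) {n : ℕ} (hn : 1 ≤ n) (hnR : n ≤ R)
    {z : Fc} (hz : fd y z ≤ n) :
    |aA (rem y f) (z.1 + 1, z.2) - aA (rem y f) z| ≤ (2 * n + 1) * (2 * (C / ρ ^ 3)) ∧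
    |aA (rem y f) (z.1, z.2 + 1) - aA (rem y f) z| ≤ (2 * n + 1) * (2 * (C / ρ ^ 3)) ∧
      |aA (rem y f) z| ≤ 2 * n * ((2 * n + 1) * (2 * (C / ρ ^ 3))) := by
  refine taylor2 (aA (rem y f)) y n (by linarith) hn ?_ ?_ ?_ ?_ ?_ ?_ z hz
  · rw [aA_rem]; push_cast; ring
  · rw [aA_rem, aA_rem]; push_cast; ring
  · rw [aA_rem, aA_rem]; push_cast; ring
  · intro z hz
    refine le_trans (le_of_eq ?_) (aA_le (f := Dx (Dx f)) (x := z) fun d => h.fxx.at (hz.trans hnR) d)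
    rw [aA_rem, aA_rem, aA_rem]
    simp only [aA_eq (Dx (Dx f)), Dx_apply, aA_eq f]
    push_cast; congr 1; ring
  · intro z hz
    refine le_trans (le_of_eq ?_) (aA_le (f := Dx (Dy f)) (x := z) fun d => h.fxy.at (hz.trans hnR) d)
    rw [aA_rem, aA_rem, aA_rem, aA_rem]
    simp only [aA_eq (Dx (Dy f)), Dx_apply, Dy_apply, aA_eq f]
    push_cast; congr 1; ring
  · intro z hz
    refine le_trans (le_of_eq ?_) (aA_le (f := Dy (Dy f)) (x := z) fun d => h.fyy.at (hz.trans hnR) d)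
    rw [aA_rem, aA_rem, aA_rem]
    simp only [aA_eq (Dy (Dy f)), Dy_apply, aA_eq f]
    push_cast; congr 1; ring

/-- Taylor bounds for the light amplitude of the remainder -/
theorem SB.lightB (h : SB C ρ y R f) (hM : 0 ≤ C / ρ ^ 3) {n : ℕ} (hn : 1 ≤ n) (hnR : n ≤ R)
    {z : Fc} (hz : fd y z ≤ n) :
    |aB (rem y f) (z.1 + 1, z.2) - aB (rem y f) z| ≤ (2 * n + 1) * (2 * (C / ρ ^ 3)) ∧
    |aB (rem y f) (z.1, z.2 + 1) - aB (rem y f) z| ≤ (2 * n + 1) * (2 * (C / ρ ^ 3)) ∧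
      |aB (rem y f) z| ≤ 2 * n * ((2 * n + 1) * (2 * (C / ρ ^ 3))) := by
  refine taylor2 (aB (rem y f)) y n (by linarith) hn ?_ ?_ ?_ ?_ ?_ ?_ z hz
  · rw [aB_rem]; push_cast; ring
  · rw [aB_rem, aB_rem]; push_cast; ring
  · rw [aB_rem, aB_rem]; push_cast; ring
  · intro z hz
    refine le_trans (le_of_eq ?_) (aB_le (f := Dx (Dx f)) (x := z) fun d => h.fxx.at (hz.trans hnR) d)
    rw [aB_rem, aB_rem, aB_rem]
    simp only [aB_eq (Dx (Dx f)), Dx_apply, aB_eq f]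
    push_cast; congr 1; ring
  · intro z hz
    refine le_trans (le_of_eq ?_) (aB_le (f := Dx (Dy f)) (x := z) fun d => h.fxy.at (hz.trans hnR) d)
    rw [aB_rem, aB_rem, aB_rem, aB_rem]
    simp only [aB_eq (Dx (Dy f)), Dx_apply, Dy_apply, aB_eq f]
    push_cast; congr 1; ring
  · intro z hz
    refine le_trans (le_of_eq ?_) (aB_le (f := Dy (Dy f)) (x := z) fun d => h.fyy.at (hz.trans hnR) d)
    rw [aB_rem, aB_rem, aB_rem]
    simp only [aB_eq (Dy (Dy f)), Dy_apply, aB_eq f]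
    push_cast; congr 1; ring

theorem aA_Dx (f : Tst) (x : Fc) : aA (Dx f) x = aA f (x.1 + 1, x.2) - aA f x := by
  simp only [aA_eq, Dx_apply]; ring
theorem aB_Dx (f : Tst) (x : Fc) : aB (Dx f) x = aB f (x.1 + 1, x.2) - aB f x := by
  simp only [aB_eq, Dx_apply]; ring
theorem aA_Dy (f : Tst) (x : Fc) : aA (Dy f) x = aA f (x.1, x.2 + 1) - aA f x := by
  simp only [aA_eq, Dy_apply]; ring
theorem aB_Dy (f : Tst) (x : Fc) : aB (Dy f) x = aB f (x.1, x.2 + 1) - aB f x := by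
  simp only [aB_eq, Dy_apply]; ring

theorem abs_le_of_amp {g : Tst} {x : Fc} {L H : ℝ} (h1 : |aA g x| ≤ L) (h2 : |aB g x| ≤ L)
    (h3 : |hU g x| ≤ H) (h4 : |hW g x| ≤ H) (d : Fin 4) : |g (x, d)| ≤ 2 * L + 2 * H := by
  rw [decomp g, Pi.add_apply]
  exact (abs_add_le _ _).trans (add_le_add (abs_lt_le h1 h2 d) (abs_hv_le h3 h4 d))

/-- differences of the remainder -/
theorem SB.diff (h : SB C ρ y R f) (hM : 0 ≤ C / ρ ^ 3) {n : ℕ} (hn : 1 ≤ n) (hnR : n + 1 ≤ R)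
    {z : Fc} (hz : fd y z ≤ n) (d : Fin 4) :
    |Dx (rem y f) (z, d)| ≤ (8 * n + 8) * (C / ρ ^ 3) ∧
      |Dy (rem y f) (z, d)| ≤ (8 * n + 8) * (C / ρ ^ 3) := by
  obtain ⟨a1, a2, -⟩ := h.lightA hM hn (by omega) hz
  obtain ⟨b1, b2, -⟩ := h.lightB hM hn (by omega) hz
  constructor
  · have := abs_le_of_amp (g := Dx (rem y f)) (x := z)
      (L := (2 * n + 1) * (2 * (C / ρ ^ 3))) (H := 2 * (C / ρ ^ 3)) (by rw [aA_Dx]; exact a1)
      (by rw [aB_Dx]; exact b1) (by rw [hU_Dx_rem]; exact (h.heavyX (by omega)).1)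
      (by rw [hW_Dx_rem]; exact (h.heavyX (by omega)).2) d
    refine this.trans (le_of_eq ?_); ring
  · have := abs_le_of_amp (g := Dy (rem y f)) (x := z)
      (L := (2 * n + 1) * (2 * (C / ρ ^ 3))) (H := 2 * (C / ρ ^ 3)) (by rw [aA_Dy]; exact a2)
      (by rw [aB_Dy]; exact b2) (by rw [hU_Dy_rem]; exact (h.heavyY (by omega)).1)
      (by rw [hW_Dy_rem]; exact (h.heavyY (by omega)).2) d
    refine this.trans (le_of_eq ?_); ring

/-- **order zero**: the remainder is quadratic -/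
theorem SB.rem0 (h : SB C ρ y R f) (hM : 0 ≤ C / ρ ^ 3) {n : ℕ} (hn : 1 ≤ n) (hnR : n + 2 ≤ R)
    {z : Fc} (hz : fd y z ≤ n) (d : Fin 4) :
    |rem y f (z, d)| ≤ 36 * (n + 1) ^ 2 * (C / ρ ^ 3) := by
  obtain ⟨-, -, a3⟩ := h.lightA hM hn (by omega) hz
  obtain ⟨-, -, b3⟩ := h.lightB hM hn (by omega) hz
  have hin : ∀ v, fd z v ≤ 1 → fd y v ≤ n + 1 := fun v hv => by
    have := fd_triangle y z v; omega
  have hA := h.heavyA (w := z) (by omega)
  have hh := heavy_le (f := rem y f) (x := z) (B := 2 * (C / ρ ^ 3))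
    (B' := (8 * ((n + 1 : ℕ) : ℝ) + 8) * (C / ρ ^ 3)) (by rw [hU_Apl_rem]; exact hA.1)
    (by rw [hW_Apl_rem]; exact hA.2)
    (fun v hv d => (h.diff hM (n := n + 1) (by omega) (by omega) (hin v hv) d).1)
    (fun v hv d => (h.diff hM (n := n + 1) (by omega) (by omega) (hin v hv) d).2)
  refine (abs_le_of_amp a3 b3 hh.1 hh.2 d).trans ?_
  have hn0 : (0 : ℝ) ≤ n := Nat.cast_nonneg _
  have e : 36 * ((n : ℝ) + 1) ^ 2 * (C / ρ ^ 3) - (2 * (2 * n * ((2 * n + 1) * (2 * (C / ρ ^ 3)))) +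
      2 * (2 * (C / ρ ^ 3) + (8 * ((n + 1 : ℕ) : ℝ) + 8) * (C / ρ ^ 3))) =
      (20 * (n : ℝ) ^ 2 + 48 * n) * (C / ρ ^ 3) := by push_cast; ring
  have : 0 ≤ (20 * (n : ℝ) ^ 2 + 48 * n) * (C / ρ ^ 3) := by positivity
  linarith

/-- sup bound for `A` -/
theorem Apl_le {g : Tst} {x : Fc} {B : ℝ} (h : ∀ w, fd x w ≤ 1 → ∀ d, |g (w, d)| ≤ B)
    (d : Fin 4) : |Apl g (x, d)| ≤ 4 * B := by
  have hx0 := xc_pos
  have hx1 := xc_le
  have e0 : fd x x ≤ 1 := by rw [fd_self]; norm_num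
  have e1 : fd x (x.1, x.2 - 1) ≤ 1 := by rw [fd_int]; simp
  have e2 : fd x (x.1 - 1, x.2) ≤ 1 := by rw [fd_int]; simp
  have e3 : fd x (x.1, x.2 + 1) ≤ 1 := by rw [fd_int]; simp
  have e4 : fd x (x.1 + 1, x.2) ≤ 1 := by rw [fd_int]; simp
  have hB : 0 ≤ B := (abs_nonneg _).trans (h x e0 0)
  have c0 := h x e0 0
  have c1 := h x e0 1
  have c2 := h x e0 2
  have c3 := h x e0 3
  have m : ∀ w, fd x w ≤ 1 → ∀ d, |xc * g (w, d)| ≤ B := by
    intro w hw d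
    rw [abs_mul, abs_of_pos hx0]
    have := mul_le_mul hx1 (h w hw d) (abs_nonneg _) (by norm_num)
    linarith
  have m1 := m _ e1 2
  have m2 := m _ e4 3
  have m3 := m _ e3 0
  have m4 := m _ e2 1
  fin_cases d
  · show |Apl g (x, 0)| ≤ _
    rw [Apl_S]
    have t1 := abs_add_le (g (x, 1) + g (x, 2) + g (x, 3)) (xc * g ((x.1, x.2 - 1), 2))
    have t2 := abs_add_le (g (x, 1) + g (x, 2)) (g (x, 3))
    have t3 := abs_add_le (g (x, 1)) (g (x, 2))
    linarith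
  · show |Apl g (x, 1)| ≤ _
    rw [Apl_E]
    have t1 := abs_add_le (-g (x, 0) + g (x, 2) + g (x, 3)) (xc * g ((x.1 + 1, x.2), 3))
    have t2 := abs_add_le (-g (x, 0) + g (x, 2)) (g (x, 3))
    have t3 := abs_add_le (-g (x, 0)) (g (x, 2))
    rw [abs_neg] at t3
    linarith
  · show |Apl g (x, 2)| ≤ _
    rw [Apl_N]
    have t1 := abs_sub (-g (x, 0) - g (x, 1) + g (x, 3)) (xc * g ((x.1, x.2 + 1), 0))
    have t2 := abs_add_le (-g (x, 0) - g (x, 1)) (g (x, 3))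
    have t3 := abs_sub (-g (x, 0)) (g (x, 1))
    rw [abs_neg] at t3
    linarith
  · show |Apl g (x, 3)| ≤ _
    rw [Apl_W]
    have t1 := abs_sub (-g (x, 0) - g (x, 1) - g (x, 2)) (xc * g ((x.1 - 1, x.2), 1))
    have t2 := abs_sub (-g (x, 0) - g (x, 1)) (g (x, 2))
    have t3 := abs_sub (-g (x, 0)) (g (x, 1))
    rw [abs_neg] at t3
    linarith

/-- **order one**: `A` of the remainder is linear -/
theorem SB.rem1 (h : SB C ρ y R f) (hM : 0 ≤ C / ρ ^ 3) {n : ℕ} (hn : 1 ≤ n) (hnR : n + 2 ≤ R)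
    {z : Fc} (hz : fd y z ≤ n) (d : Fin 4) :
    |Apl (rem y f) (z, d)| ≤ (2 * n + 576) * (C / ρ ^ 3) := by
  have h1 := Apl_le (g := rem y f) (x := y) (fun w hw d => h.rem0 hM le_rfl (by omega) hw d) d
  have h2 := lip2 (fun w => Apl (rem y f) (w, d)) y n hM (fun w hw => by
    have := h.gx.at (x := w) (by omega) d
    rw [← Dx_Apl_rem, Dx_apply] at this
    exact this) (fun w hw => by
    have := h.gy.at (x := w) (by omega) d
    rw [← Dy_Apl_rem, Dy_apply] at this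
    exact this) z hz
  have e : Apl (rem y f) (z, d) = (Apl (rem y f) (z, d) - Apl (rem y f) (y, d)) +
      Apl (rem y f) (y, d) := by ring
  rw [e]
  refine (abs_add_le _ _).trans ?_
  push_cast at h1
  nlinarith

/-- **order two** -/
theorem SB.rem2 (h : SB C ρ y R f) {z : Fc} (hz : fd y z ≤ R) (d : Fin 4) :
    |Apl (Apl (rem y f)) (z, d)| ≤ C / ρ ^ 3 := by
  rw [Apl_Apl_rem]; exact h.k0.at hz d

/-- amplitudes -/
theorem SB.amp (h : SB C ρ y R f) : |ev f (phiA y)| ≤ 2 * C / ρ ∧ |ev f (phiB y)| ≤ 2 * C / ρ := by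
  have h0 : fd y y ≤ R := by rw [fd_self]; exact Nat.zero_le _
  have e : 2 * (C / ρ) = 2 * C / ρ := by ring
  exact ⟨e ▸ aA_le fun d => h.f0.at h0 d, e ▸ aB_le fun d => h.f0.at h0 d⟩

/-- slopes -/
theorem SB.slope (h : SB C ρ y R f) (hR : 1 ≤ R) : |ev f (qU y)| ≤ 2 * C / ρ ^ 2 ∧
    |ev f (qV y)| ≤ 2 * C / ρ ^ 2 ∧ |ev f (qS y)| ≤ 2 * C / ρ ^ 2 ∧
      |ev f (qT y)| ≤ 2 * C / ρ ^ 2 := by
  have h0 : fd y y ≤ R := by rw [fd_self]; exact Nat.zero_le _
  have h1 : fd y (y.1, y.2 - 1) ≤ R := by rw [fd_int]; simp; omega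
  have h2 : fd y (y.1 - 1, y.2) ≤ R := by rw [fd_int]; simp; omega
  have e : 2 * C / ρ ^ 2 = 2 * (C / ρ ^ 2) := by ring
  have kx : ∀ Φ : Fc → Fld ℤ, (∀ g : Tst, ∀ x B, (∀ d, |g (x, d)| ≤ B) → |ev g (Φ x)| ≤ 2 * B) →
      (∀ x, ev (Dx f) (Φ x) = ev f (Φ (x.1 + 1, x.2)) - ev f (Φ x)) →
      |ev f (D1 Φ y)| ≤ 2 * (C / ρ ^ 2) := by
    intro Φ hΦ hD
    have a1 := hΦ (Dx f) y _ fun d => h.fx.at h0 d
    have a2 := hΦ (Dx f) (y.1 - 1, y.2) _ fun d => h.fx.at h2 d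
    rw [hD] at a1 a2
    simp only [sub_add_cancel] at a2
    have e1 : ev f (D1 Φ y) = (1 / 2) * (ev f (Φ (y.1 + 1, y.2)) - ev f (Φ y)) +
        (1 / 2) * (ev f (Φ (y.1, y.2)) - ev f (Φ (y.1 - 1, y.2))) := by
      rw [ev_D1]; ring
    rw [e1]
    refine (abs_add_le _ _).trans ?_
    rw [abs_mul, abs_mul, abs_of_pos (by norm_num : (0 : ℝ) < 1 / 2)]
    linarith
  have ky : ∀ Φ : Fc → Fld ℤ, (∀ g : Tst, ∀ x B, (∀ d, |g (x, d)| ≤ B) → |ev g (Φ x)| ≤ 2 * B) →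
      (∀ x, ev (Dy f) (Φ x) = ev f (Φ (x.1, x.2 + 1)) - ev f (Φ x)) →
      |ev f (D2 Φ y)| ≤ 2 * (C / ρ ^ 2) := by
    intro Φ hΦ hD
    have a1 := hΦ (Dy f) y _ fun d => h.fy.at h0 d
    have a2 := hΦ (Dy f) (y.1, y.2 - 1) _ fun d => h.fy.at h1 d
    rw [hD] at a1 a2
    simp only [sub_add_cancel] at a2
    have e1 : ev f (D2 Φ y) = (1 / 2) * (ev f (Φ (y.1, y.2 + 1)) - ev f (Φ y)) +
        (1 / 2) * (ev f (Φ (y.1, y.2)) - ev f (Φ (y.1, y.2 - 1))) := by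
      rw [ev_D2]; ring
    rw [e1]
    refine (abs_add_le _ _).trans ?_
    rw [abs_mul, abs_mul, abs_of_pos (by norm_num : (0 : ℝ) < 1 / 2)]
    linarith
  have A1 := kx phiA (fun g x B hg => aA_le hg) (fun x => aA_Dx f x)
  have A2 := ky phiA (fun g x B hg => aA_le hg) (fun x => aA_Dy f x)
  have B1 := kx phiB (fun g x B hg => aB_le hg) (fun x => aB_Dx f x)
  have B2 := ky phiB (fun g x B hg => aB_le hg) (fun x => aB_Dy f x)
  have half : ∀ p q : ℝ, |p| ≤ 2 * (C / ρ ^ 2) → |q| ≤ 2 * (C / ρ ^ 2) →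
      |(1 / 2) * (p + q)| ≤ 2 * (C / ρ ^ 2) ∧ |(1 / 2) * (p - q)| ≤ 2 * (C / ρ ^ 2) := by
    intro p q hp hq
    rw [abs_mul, abs_mul, abs_of_pos (by norm_num : (0 : ℝ) < 1 / 2)]
    have t1 := abs_add_le p q
    have t2 := abs_sub p q
    constructor <;> linarith
  rw [e]
  simp only [qU, qV, qS, qT, map_smul, map_add, map_sub, smul_eq_mul]
  exact ⟨(half _ _ A1 B2).1, (half _ _ B1 A2).2, (half _ _ A1 B2).2, (half _ _ B1 A2).1⟩

end bounds

/-! ### conclusion -/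

/-- **`BkReg` from sup bounds** on the ball of radius `5ρ` -/
theorem bkReg_of_SB {C : ℝ} (hC : 0 ≤ C)
    (h : ∀ (y : Fc) (ρ : ℕ), 1 ≤ ρ → ∀ f : Tst, nnB (wPl ℤ) ρ y f ≤ 1 → SB C ρ y (5 * ρ) f) :
    BkReg (50000000 * C) where
  amp y ρ hρ f hf := by
    obtain ⟨h1, h2⟩ := (h y ρ hρ f hf).amp
    have hρ0 : (0 : ℝ) < ρ := by exact_mod_cast (by omega : 0 < ρ)
    have : 2 * C / (ρ : ℝ) ≤ 50000000 * C / ρ := by
      apply div_le_div_of_nonneg_right _ hρ0.le; linarith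
    exact ⟨h1.trans this, h2.trans this⟩
  slope y ρ hρ f hf := by
    obtain ⟨h1, h2, h3, h4⟩ := (h y ρ hρ f hf).slope (by omega)
    have hρ0 : (0 : ℝ) < ρ := by exact_mod_cast (by omega : 0 < ρ)
    have : 2 * C / (ρ : ℝ) ^ 2 ≤ 50000000 * C / (ρ : ℝ) ^ 2 := by
      apply div_le_div_of_nonneg_right _ (by positivity); linarith
    exact ⟨h1.trans this, h2.trans this, h3.trans this, h4.trans this⟩
  taylor y r ρ hr hρ f hf n hn := by
    have hs := h y ρ (by omega) f hf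
    have hρ0 : (0 : ℝ) < ρ := by exact_mod_cast (by omega : 0 < ρ)
    have hr1 : (1 : ℝ) ≤ r := by exact_mod_cast hr
    have hM : 0 ≤ C / (ρ : ℝ) ^ 3 := by positivity
    have hR : 65 * r + 2 ≤ 5 * ρ := by omega
    have e : C * ((r : ℝ) / ρ) ^ 3 = r ^ 3 * (C / ρ ^ 3) := by ring
    have e0 : ((65 * r : ℕ) : ℝ) = 65 * r := by push_cast; ring
    have hcard : (2 * (2 * (65 * (r : ℝ)) + 1)) ≤ 262 * r := by linarith
    show (r : ℝ) ^ n * L2on (ball y (65 * r)) ((Apl)^[n] (rem y f)) ≤ _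
    have hr3 : 0 ≤ (r : ℝ) ^ 3 * (C / ρ ^ 3) := by positivity
    have e5 : 50000000 * C * ((r : ℝ) / ρ) ^ 3 = 50000000 * (r ^ 3 * (C / ρ ^ 3)) := by
      rw [← e]; ring
    rw [e5]
    interval_cases n
    · rw [pow_zero, one_mul, Function.iterate_zero, id]
      refine (L2on_le_sup y (65 * r) _ (B := 36 * (66 * r) ^ 2 * (C / ρ ^ 3)) (by positivity)
        fun v hv => ?_).trans ?_
      · refine (hs.rem0 hM (n := 65 * r) (by omega) hR hv v.2).trans ?_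
        rw [e0]
        have : (65 * (r : ℝ) + 1) ^ 2 ≤ (66 * r) ^ 2 := by
          apply pow_le_pow_left₀ (by positivity); linarith
        gcongr
      · rw [e0]
        calc 2 * (2 * (65 * (r : ℝ)) + 1) * (36 * (66 * r) ^ 2 * (C / ρ ^ 3))
            ≤ 262 * r * (36 * (66 * r) ^ 2 * (C / ρ ^ 3)) :=
              mul_le_mul_of_nonneg_right hcard (by positivity)
          _ = 41085792 * (r ^ 3 * (C / ρ ^ 3)) := by ring
          _ ≤ _ := by linarith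
    · rw [pow_one, Function.iterate_one]
      have hb : L2on (ball y (65 * r)) (Apl (rem y f)) ≤ 262 * r * ((706 * r) * (C / ρ ^ 3)) := by
        refine (L2on_le_sup y (65 * r) _ (B := (706 * r) * (C / ρ ^ 3)) (by positivity)
          fun v hv => ?_).trans ?_
        · refine (hs.rem1 hM (n := 65 * r) (by omega) hR hv v.2).trans ?_
          rw [e0]
          apply mul_le_mul_of_nonneg_right _ hM
          linarith
        · rw [e0]
          exact mul_le_mul_of_nonneg_right hcard (by positivity)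
      calc (r : ℝ) * L2on (ball y (65 * r)) (Apl (rem y f))
          ≤ r * (262 * r * ((706 * r) * (C / ρ ^ 3))) :=
            mul_le_mul_of_nonneg_left hb (by positivity)
        _ = 184972 * (r ^ 3 * (C / ρ ^ 3)) := by ring
        _ ≤ _ := by linarith
    · have e2 : (Apl)^[2] (rem y f) = Apl (Apl (rem y f)) := rfl
      rw [e2]
      have hb : L2on (ball y (65 * r)) (Apl (Apl (rem y f))) ≤ 262 * r * (C / ρ ^ 3) := by
        refine (L2on_le_sup y (65 * r) _ (B := C / ρ ^ 3) hM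
          fun v hv => ?_).trans ?_
        · exact hs.rem2 (le_trans hv (by omega)) v.2
        · rw [e0]
          exact mul_le_mul_of_nonneg_right hcard hM
      calc (r : ℝ) ^ 2 * L2on (ball y (65 * r)) (Apl (Apl (rem y f)))
          ≤ r ^ 2 * (262 * r * (C / ρ ^ 3)) := mul_le_mul_of_nonneg_left hb (by positivity)
        _ = 262 * (r ^ 3 * (C / ρ ^ 3)) := by ring
        _ ≤ _ := by linarith

end Crest.Agent.R165.BkTayx812
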