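import Crest.Agent.R165.BkC_806
import Crest.Agent.R165.BkTay_812

/-!
# Row 165 (S0250), block R: the bulk regularity input `BkReg` (helper806)

Bridge from the sup bounds of `BkC_806` (fields `Face → Fin 4 → ℝ`) to helper812's hypothesis `SB`
(fields `HE ℤ → ℝ`), and the final theorem

* `exists_BkReg : ∃ C, W2x812.BkReg C`.
-/

set_option autoImplicit false
set_option linter.unusedSimpArgs false

noncomputable section

namespace Crest.Agent.R165.BkFinx806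

open Crest.Agent.R165.Latx683 Crest.Agent.R165.PlaneModesx901 Crest.Agent.R165.GDefx387
  Crest.Agent.R165.Wtx898 Crest.Agent.R165.W2x812 Crest.Agent.R165.BkTayx812
open Crest.Agent.R165.Bkx806 (Ap Df Dl ev Ap_S Ap_E Ap_N Ap_W sup_bound N2 Hyp)
open Crest.Agent.R165.PotAx894 (e1 e2 Q mem_Q)

/-- curried form of a test function -/
def cr (f : Tst) : Crest.Agent.R165.Tr1x40.Fld := fun z h => f (z, h)

theorem cr_apply (f : Tst) (z : Fc) (h : Fin 4) : cr f z h = f (z, h) := rfl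

theorem xc_eq' : Crest.Agent.R165.Tr1x40.xc = Crest.Agent.R165.Latx683.xc := rfl

theorem sub_e2 (z : Fc) : z - e2 = (z.1, z.2 - 1) := by ext <;> simp [e2]
theorem sub_e1 (z : Fc) : z - e1 = (z.1 - 1, z.2) := by ext <;> simp [e1]
theorem add_e2 (z : Fc) : z + e2 = (z.1, z.2 + 1) := by ext <;> simp [e2]
theorem add_e1 (z : Fc) : z + e1 = (z.1 + 1, z.2) := by ext <;> simp [e1]

theorem cr_Apl (f : Tst) : cr (Apl f) = Ap (cr f) := by
  funext z h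
  fin_cases h
  · show Apl f (z, 0) = Ap (cr f) z 0
    rw [Apl_S, Ap_S, sub_e2]; rfl
  · show Apl f (z, 1) = Ap (cr f) z 1
    rw [Apl_E, Ap_E, add_e1]; rfl
  · show Apl f (z, 2) = Ap (cr f) z 2
    rw [Apl_N, Ap_N, add_e2]; rfl
  · show Apl f (z, 3) = Ap (cr f) z 3
    rw [Apl_W, Ap_W, sub_e1]; rfl

theorem cr_Dx (f : Tst) : cr (Dx f) = Df (ev true) (cr f) := by
  funext z h
  show Dx f (z, h) = cr f (z + e1) h - cr f z h
  rw [Dx_apply, add_e1]; rfl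

theorem cr_Dy (f : Tst) : cr (Dy f) = Df (ev false) (cr f) := by
  funext z h
  show Dy f (z, h) = cr f (z + e2) h - cr f z h
  rw [Dy_apply, add_e2]; rfl

theorem cr_iter (f : Tst) (j : ℕ) : cr ((Aop (wPl ℤ))^[j] f) = Ap^[j] (cr f) := by
  induction j with
  | zero => rfl
  | succ j ih =>
    rw [Function.iterate_succ_apply', Function.iterate_succ_apply', ← ih]
    exact cr_Apl _

theorem mem_ball_Q (y : Fc) (n : ℕ) (z : Fc) : z ∈ ball y n ↔ z ∈ Q y n := by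
  rw [mem_ball, fd_int, mem_Q, Int.abs_eq_natAbs, Int.abs_eq_natAbs]
  omega

theorem N2_eq (f : Tst) (y : Fc) (n : ℕ) : N2 (cr f) y n = L2on (ball y n) f ^ 2 := by
  rw [L2on_sq (ball_finite y n)]
  have e : (ball_finite y n).toFinset = Q y n := by
    ext z
    rw [Set.Finite.mem_toFinset]
    exact mem_ball_Q y n z
  rw [e, Finset.sum_product]
  rfl

theorem hyp_of_nnB (y : Fc) (ρ : ℕ) (hρ : 1 ≤ ρ) (f : Tst) (hf : nnB (wPl ℤ) ρ y f ≤ 1) :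
    Hyp (cr f) y (2 * ρ) 16 := by
  intro j hj
  have hρ0 : (0 : ℝ) < ρ := by exact_mod_cast hρ
  have h1 := pow_mul_L2on_le (w := wPl ℤ) (r := ρ) (x := y) (show j ≤ MM by unfold MM; omega) f
  have h2 : (ρ : ℝ) ^ j * L2on (ball y (s1 * ρ)) ((Aop (wPl ℤ))^[j] f) ≤ 1 := h1.trans hf
  have h3 : L2on (ball y (12 * (2 * ρ))) ((Aop (wPl ℤ))^[j] f)
      ≤ L2on (ball y (s1 * ρ)) ((Aop (wPl ℤ))^[j] f) := by
    refine L2on_mono (fun z hz => ?_) (ball_finite _ _) _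
    rw [mem_ball] at hz ⊢
    refine le_trans hz ?_
    unfold s1; omega
  have h4 := L2on_nonneg (ball y (12 * (2 * ρ))) ((Aop (wPl ℤ))^[j] f)
  have h5 : (ρ : ℝ) ^ j * L2on (ball y (12 * (2 * ρ))) ((Aop (wPl ℤ))^[j] f) ≤ 1 := by
    refine le_trans ?_ h2
    gcongr
  rw [← cr_iter, N2_eq, le_div_iff₀ (by positivity)]
  set L := L2on (ball y (12 * (2 * ρ))) ((Aop (wPl ℤ))^[j] f) with hL
  have e : L ^ 2 * ((2 * ρ : ℕ) : ℝ) ^ (2 * j) = 4 ^ j * ((ρ : ℝ) ^ j * L) ^ 2 := by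
    push_cast
    have h2j : (2 : ℝ) ^ (2 * j) = 4 ^ j := by rw [pow_mul]; norm_num
    rw [mul_pow, h2j, pow_mul' (ρ : ℝ) 2 j]
    ring
  rw [e]
  have h6 : ((ρ : ℝ) ^ j * L) ^ 2 ≤ 1 := by
    have : 0 ≤ (ρ : ℝ) ^ j * L := by positivity
    nlinarith
  have h7 : (4 : ℝ) ^ j ≤ 4 ^ 4 := pow_le_pow_right₀ (by norm_num) hj
  nlinarith [pow_pos (show (0 : ℝ) < 4 by norm_num) j]

theorem sup_of (y : Fc) (ρ : ℕ) (hρ : 1 ≤ ρ) (f : Tst) (hf : nnB (wPl ℤ) ρ y f ≤ 1)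
    (l : List Bool) (j : ℕ) (hlj : l.length + j ≤ 2) (g : Tst)
    (hg : cr g = Dl l (Ap^[j] (cr f))) :
    Sup y (5 * ρ) g (16 * 10 ^ 9 / (ρ : ℝ) ^ (l.length + j + 1)) := by
  intro h hh
  have hρ0 : (0 : ℝ) < ρ := by exact_mod_cast hρ
  have hz : h.1 ∈ Q y (4 * (2 * ρ)) := by
    rw [← mem_ball_Q, mem_ball]
    rw [mem_ball] at hh
    omega
  have key := sup_bound (by omega) (by norm_num) (hyp_of_nnB y ρ hρ f hf) l j hlj hz h.2
  rw [← hg, cr_apply] at key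
  refine key.trans ?_
  have e : (16 : ℝ) * 10 ^ 9 / (ρ : ℝ) ^ (l.length + j + 1)
      = 10 ^ 9 * (16 / (ρ : ℝ) ^ (l.length + j + 1)) := by ring
  rw [e]
  have : (ρ : ℝ) ≤ ((2 * ρ : ℕ) : ℝ) := by push_cast; linarith
  gcongr

theorem SB_of (y : Fc) (ρ : ℕ) (hρ : 1 ≤ ρ) (f : Tst) (hf : nnB (wPl ℤ) ρ y f ≤ 1) :
    SB (16 * 10 ^ 9) ρ y (5 * ρ) f where
  f0 := by
    have := sup_of y ρ hρ f hf [] 0 (by simp) f rfl
    simpa using this
  fx := sup_of y ρ hρ f hf [true] 0 (by simp) _ (cr_Dx f)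
  fy := sup_of y ρ hρ f hf [false] 0 (by simp) _ (cr_Dy f)
  fxx := sup_of y ρ hρ f hf [true, true] 0 (by simp) _ (by rw [cr_Dx, cr_Dx]; rfl)
  fxy := sup_of y ρ hρ f hf [true, false] 0 (by simp) _ (by rw [cr_Dx, cr_Dy]; rfl)
  fyy := sup_of y ρ hρ f hf [false, false] 0 (by simp) _ (by rw [cr_Dy, cr_Dy]; rfl)
  g0 := sup_of y ρ hρ f hf [] 1 (by simp) _ (cr_Apl f)
  gx := sup_of y ρ hρ f hf [true] 1 (by simp) _ (by rw [cr_Dx, cr_Apl]; rfl)
  gy := sup_of y ρ hρ f hf [false] 1 (by simp) _ (by rw [cr_Dy, cr_Apl]; rfl)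
  k0 := sup_of y ρ hρ f hf [] 2 (by simp) _ (by rw [cr_Apl, cr_Apl]; rfl)

/-- **the bulk regularity input of block G** -/
theorem bkReg : BkReg (50000000 * (16 * 10 ^ 9)) :=
  bkReg_of_SB (by norm_num) SB_of

theorem exists_BkReg : ∃ C, BkReg C := ⟨_, bkReg⟩

end Crest.Agent.R165.BkFinx806
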