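import Crest.Agent.R165.BgIso_432

/-!
# Row 165 (S0250): the ray gauge on boxes (helper432)

On a box `[a,b] × [c,d]` of faces (more generally on any set of faces lying on one side of the
ray) the insertions `x` which are not interior vertices of the box are pure gauge, for ANY weights.

* `boxF a b c d` : the box of faces
* `Away a b c d x` : the vertex `x` is not an interior vertex of the box
* `gsgn`, `rayGauge` : the explicit gauge
* `rayIso` : `wX w X` and `wX w (X restricted to the interior points)` are isomorphic on the box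
-/

set_option autoImplicit false

noncomputable section

open scoped Classical
open Crest.ProbabilityR.IsingModel
open Crest.Agent.R165.Gr0x606 Crest.Agent.R165.Latx683 Crest.Agent.R165.GDefx387

namespace Crest.Agent.R165.BgIsox432

/-- the box of faces `[a,b] × [c,d]` -/
def boxF (a b c d : ℤ) : Set (ℤ × ℤ) := {f | a ≤ f.1 ∧ f.1 ≤ b ∧ c ≤ f.2 ∧ f.2 ≤ d}

/-- the vertex `x` is not an interior vertex of the box: one of the four faces around it is
missing and the box lies on one side -/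
def Away (a b c d : ℤ) (x : ℤ × ℤ) : Prop :=
  b ≤ x.1 - 1 ∨ x.1 ≤ a ∨ d ≤ x.2 - 1 ∨ x.2 ≤ c

/-- gauge sign of one insertion for a box starting at the column `a` -/
def gsgn (a : ℤ) (x f : ℤ × ℤ) : ℝ := if x.1 ≤ a ∧ x.2 ≤ f.2 then -1 else 1

theorem gsgn_sq (a : ℤ) (x f : ℤ × ℤ) : gsgn a x f * gsgn a x f = 1 := by
  unfold gsgn; split_ifs <;> norm_num

/-- sign of one insertion on the bond `(z, j)` -/
def ray1 (x z : ℤ × ℤ) (j : Fin 2) : ℝ := if j = 0 ∧ x.2 = z.2 ∧ x.1 ≤ z.1 then -1 else 1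

theorem ray_eq {n : ℕ} (X : Fin n → ℤ × ℤ) (z : ℤ × ℤ) (j : Fin 2) :
    ray X z j = ∏ i, ray1 (X i) z j := rfl

theorem ray1_one (x z : ℤ × ℤ) : ray1 x z 1 = 1 := by simp [ray1]

/-- one insertion away from the box is pure gauge: horizontal bonds -/
theorem ray1_gauge {a b c d : ℤ} {x : ℤ × ℤ} (hx : Away a b c d x) {f : ℤ × ℤ}
    (hf : f ∈ boxF a b c d) (hf' : (f.1, f.2 + 1) ∈ boxF a b c d) :
    ray1 x (f.1, f.2 + 1) 0 = gsgn a x f * gsgn a x (f.1, f.2 + 1) := by
  obtain ⟨h1, h2, h3, h4⟩ := hf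
  obtain ⟨h5, h6, h7, h8⟩ := hf'
  simp only [ray1, gsgn, Away, true_and] at *
  split_ifs <;> first | (exfalso; omega) | norm_num

/-- one insertion away from the box is pure gauge: vertical bonds -/
theorem gsgn_e1 (a : ℤ) (x f : ℤ × ℤ) : gsgn a x (f.1 + 1, f.2) = gsgn a x f := rfl

/-- the gauge of a family of insertions restricted to the indices with `p` -/
def rayGauge {n : ℕ} (a : ℤ) (X : Fin n → ℤ × ℤ) (p : Fin n → Prop) (f : ℤ × ℤ) : ℝ :=
  ∏ i, if p i then gsgn a (X i) f else 1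

theorem rayGauge_sq {n : ℕ} (a : ℤ) (X : Fin n → ℤ × ℤ) (p : Fin n → Prop) (f : ℤ × ℤ) :
    rayGauge a X p f * rayGauge a X p f = 1 := by
  unfold rayGauge
  rw [← Finset.prod_mul_distrib]
  refine Finset.prod_eq_one fun i _ => ?_
  split_ifs
  · exact gsgn_sq _ _ _
  · norm_num

/-- **the ray gauge**: two families of insertions which agree (up to order) except for vertices away
from the box give isomorphic backgrounds on the box, for any weights -/
def rayIso {n m : ℕ} (w : BW ℤ) {a b c d : ℤ} (X : Fin n → ℤ × ℤ) (Y : Fin m → ℤ × ℤ)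
    (p : Fin n → Prop) (q : Fin m → Prop) (hX : ∀ i, p i → Away a b c d (X i))
    (hY : ∀ i, q i → Away a b c d (Y i))
    (heq : ∀ z j, (∏ i, if p i then (1 : ℝ) else ray1 (X i) z j) =
      ∏ i, if q i then (1 : ℝ) else ray1 (Y i) z j) :
    BgIso (wX w X) (wX w Y) (boxF a b c d) where
  τ := id
  s f := rayGauge a X p f * rayGauge a Y q f
  sq f := by
    have h1 := rayGauge_sq a X p f
    have h2 := rayGauge_sq a Y q f
    calc _ = (rayGauge a X p f * rayGauge a X p f) * (rayGauge a Y q f * rayGauge a Y q f) := by ring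
      _ = 1 := by rw [h1, h2, one_mul]
  iso _ _ _ _ := rfl
  e1 _ _ _ := rfl
  e2 _ _ _ := rfl
  wE f _ _ := by
    have h1 := rayGauge_sq a X p f
    have h2 := rayGauge_sq a Y q f
    have e1 : rayGauge a X p (f.1 + 1, f.2) = rayGauge a X p f := rfl
    have e2 : rayGauge a Y q (f.1 + 1, f.2) = rayGauge a Y q f := rfl
    have e3 : ∀ {k : ℕ} (W : Fin k → ℤ × ℤ), ray W (f.1 + 1, f.2) 1 = 1 := fun W => by
      rw [ray_eq]; exact Finset.prod_eq_one fun i _ => ray1_one _ _
    rw [e1, e2]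
    simp only [yE, wX, id_eq]
    rw [e3, e3]
    calc 1 * w (f.1 + 1, f.2) 1 = ((rayGauge a X p f * rayGauge a X p f) *
          (rayGauge a Y q f * rayGauge a Y q f)) * (1 * w (f.1 + 1, f.2) 1) := by
            rw [h1, h2]; ring
      _ = _ := by ring
  wN f hf hf' := by
    have key : ∀ {k : ℕ} (W : Fin k → ℤ × ℤ) (r : Fin k → Prop)
        (_ : ∀ i, r i → Away a b c d (W i)), ray W (f.1, f.2 + 1) 0 =
        rayGauge a W r f * rayGauge a W r (f.1, f.2 + 1) *
          ∏ i, if r i then (1 : ℝ) else ray1 (W i) (f.1, f.2 + 1) 0 := by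
      intro k W r hW
      rw [ray_eq, rayGauge, rayGauge, ← Finset.prod_mul_distrib, ← Finset.prod_mul_distrib]
      refine Finset.prod_congr rfl fun i _ => ?_
      by_cases hr : r i
      · simp only [hr, if_true, mul_one]
        exact ray1_gauge (hW i hr) hf hf'
      · simp only [hr, if_false, one_mul]
    have h2 := rayGauge_sq a Y q f
    have h3 := rayGauge_sq a Y q (f.1, f.2 + 1)
    simp only [yN, wX, id_eq]
    rw [key X p hX, key Y q hY, heq]
    set P := ∏ i, if q i then (1 : ℝ) else ray1 (Y i) (f.1, f.2 + 1) 0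
    calc _ = rayGauge a X p f * rayGauge a X p (f.1, f.2 + 1) * P * w (f.1, f.2 + 1) 0 := by ring
      _ = (rayGauge a Y q f * rayGauge a Y q f) *
          (rayGauge a Y q (f.1, f.2 + 1) * rayGauge a Y q (f.1, f.2 + 1)) *
          (rayGauge a X p f * rayGauge a X p (f.1, f.2 + 1) * P * w (f.1, f.2 + 1) 0) := by
            rw [h2, h3]; ring
      _ = _ := by ring

/-- no insertion inside the box: `wX w X` is gauge equivalent to `w` -/
def rayIso0 {n : ℕ} (w : BW ℤ) {a b c d : ℤ} (X : Fin n → ℤ × ℤ)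
    (hX : ∀ i, Away a b c d (X i)) : BgIso (wX w X) w (boxF a b c d) :=
  (rayIso w X (fun i : Fin 0 => i.elim0) (fun _ => True) (fun _ => True) (fun i _ => hX i)
    (fun i => i.elim0) (by intro z j; simp)).trans
    (Z' := Set.univ)
    { τ := id
      s := fun _ => 1
      sq := fun _ => by norm_num
      iso := fun _ _ _ _ => rfl
      e1 := fun _ _ _ => rfl
      e2 := fun _ _ _ => rfl
      wE := fun f _ _ => by simp [yE, wX, ray]
      wN := fun f _ _ => by simp [yN, wX, ray] } (fun _ _ => Set.mem_univ _)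

/-- exactly one insertion `X k` may be inside the box: `wX w X` is gauge equivalent to
`wX w ![X k]` -/
def rayIso1 {n : ℕ} (w : BW ℤ) {a b c d : ℤ} (X : Fin n → ℤ × ℤ) (k : Fin n)
    (hX : ∀ i, i ≠ k → Away a b c d (X i)) :
    BgIso (wX w X) (wX w ![X k]) (boxF a b c d) :=
  rayIso w X ![X k] (fun i => i ≠ k) (fun _ => False) (fun i hi => hX i hi)
    (fun _ h => h.elim) (by
      intro z j
      rw [Finset.prod_eq_single k]
      · simp
      · intro i _ hi; simp [hi]
      · intro h; exact absurd (Finset.mem_univ k) h)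

/-- translation of the background with one insertion in the plane -/
def brTrans (x : ℤ × ℤ) (Z : Set (ℤ × ℤ)) :
    BgIso (wX (wPl ℤ) ![x]) (wX (wPl ℤ) ![(0, 0)]) Z where
  τ f := (f.1 - x.1, f.2 - x.2)
  s _ := 1
  sq _ := by norm_num
  iso f _ g _ := by
    unfold fd
    simp
  e1 f _ _ := by ext <;> simp; ring
  e2 f _ _ := by ext <;> simp; ring
  wE f _ _ := by
    simp only [yE, wX, wPl, ray_eq]
    simp [ray1]
  wN f _ _ := by
    simp only [yN, wX, wPl, ray_eq, Fin.prod_univ_one]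
    have : ray1 (![x] 0) (f.1, f.2 + 1) 0 = ray1 (![(0, 0)] 0) (f.1 - x.1, f.2 - x.2 + 1) 0 := by
      simp only [ray1, Matrix.cons_val_zero, true_and]
      have e1 : (x.2 = f.2 + 1 ∧ x.1 ≤ f.1) ↔ ((0 : ℤ) = f.2 - x.2 + 1 ∧ 0 ≤ f.1 - x.1) := by
        constructor <;> intro h <;> constructor <;> omega
      simp only [e1]
    rw [this]; ring

/-! ### domains -/

/-- the background agrees with the plane on the bonds between neighbouring faces of `Z` -/
def CritOn (w : BW ℤ) (Z : Set (ℤ × ℤ)) : Prop :=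
  (∀ f ∈ Z, (f.1 + 1, f.2) ∈ Z → yE w f = xc) ∧ (∀ f ∈ Z, (f.1, f.2 + 1) ∈ Z → yN w f = xc)

/-- identity chart between two backgrounds with the same weights -/
def sameIso {w w' : BW ℤ} {Z : Set (ℤ × ℤ)}
    (hE : ∀ f ∈ Z, (f.1 + 1, f.2) ∈ Z → yE w f = yE w' f)
    (hN : ∀ f ∈ Z, (f.1, f.2 + 1) ∈ Z → yN w f = yN w' f) : BgIso w w' Z where
  τ := id
  s _ := 1
  sq _ := by norm_num
  iso _ _ _ _ := rfl
  e1 _ _ _ := rfl
  e2 _ _ _ := rfl
  wE f hf hf' := by rw [hE f hf hf']; simp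
  wN f hf hf' := by rw [hN f hf hf']; simp

/-- critical region -/
def critIso {w : BW ℤ} {Z : Set (ℤ × ℤ)} (h : CritOn w Z) : BgIso w (wPl ℤ) Z :=
  sameIso (fun f hf hf' => h.1 f hf hf') (fun f hf hf' => h.2 f hf hf')

/-- plane-like in the sense of `GDef_387` -/
def BgIso.toPlane {G : Type} [CommRing G] [CN G] {w : BW G} {Z : Set (G × G)}
    (b : BgIso w (wPl ℤ) Z) : PlaneLike w Z where
  τ := b.τ
  s := b.s
  sq := b.sq
  iso := b.iso
  e1 := b.e1
  e2 := b.e2
  wE f hf hf' := b.wE f hf hf'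
  wN f hf hf' := b.wN f hf hf'

/-- and conversely -/
def ofPlane {G : Type} [CommRing G] [CN G] {w : BW G} {Z : Set (G × G)}
    (b : PlaneLike w Z) : BgIso w (wPl ℤ) Z where
  τ := b.τ
  s := b.s
  sq := b.sq
  iso := b.iso
  e1 := b.e1
  e2 := b.e2
  wE f hf hf' := b.wE f hf hf'
  wN f hf hf' := b.wN f hf hf'

/-- the vertices of the face `f` -/
def cornersIn (T : Set (ℤ × ℤ)) (f : ℤ × ℤ) : Prop :=
  f ∈ T ∧ (f.1 + 1, f.2) ∈ T ∧ (f.1, f.2 + 1) ∈ T ∧ (f.1 + 1, f.2 + 1) ∈ T

/-- faces all of whose corners are in `T`: the domain background is critical there (free and plus) -/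
theorem critOn_dom {T : Set (ℤ × ℤ)} {Z : Set (ℤ × ℤ)} (hZ : ∀ f ∈ Z, cornersIn T f) (fr : Bool) :
    CritOn (wDom T fr) Z := by
  constructor
  · intro f hf _
    obtain ⟨-, h2, -, h4⟩ := hZ f hf
    unfold yE wDom
    have e : ((f.1 + 1, f.2) : ℤ × ℤ) + unitVec 1 = (f.1 + 1, f.2 + 1) := by simp [unitVec]
    rw [e]
    cases fr <;> simp [h2, h4]
  · intro f hf _
    obtain ⟨-, -, h3, h4⟩ := hZ f hf
    unfold yN wDom
    have e : ((f.1, f.2 + 1) : ℤ × ℤ) + unitVec 0 = (f.1 + 1, f.2 + 1) := by simp [unitVec]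
    rw [e]
    cases fr <;> simp [h3, h4]

/-- two domains which agree at the corners of the faces of `Z` -/
def domIso {T T' : Set (ℤ × ℤ)} {Z : Set (ℤ × ℤ)}
    (hZ : ∀ f ∈ Z, ∀ v ∈ ({f, (f.1 + 1, f.2), (f.1, f.2 + 1), (f.1 + 1, f.2 + 1)} : Set (ℤ × ℤ)),
      (v ∈ T ↔ v ∈ T')) (fr : Bool) : BgIso (wDom T fr) (wDom T' fr) Z :=
  sameIso
    (fun f hf _ => by
      have h2 := hZ f hf (f.1 + 1, f.2) (by simp)
      have h4 := hZ f hf (f.1 + 1, f.2 + 1) (by simp)
      unfold yE wDom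
      have e : ((f.1 + 1, f.2) : ℤ × ℤ) + unitVec 1 = (f.1 + 1, f.2 + 1) := by simp [unitVec]
      rw [e]
      simp only [h2, h4])
    (fun f hf _ => by
      have h2 := hZ f hf (f.1, f.2 + 1) (by simp)
      have h4 := hZ f hf (f.1 + 1, f.2 + 1) (by simp)
      unfold yN wDom
      have e : ((f.1, f.2 + 1) : ℤ × ℤ) + unitVec 0 = (f.1 + 1, f.2 + 1) := by simp [unitVec]
      rw [e]
      simp only [h2, h4])

end Crest.Agent.R165.BgIsox432
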