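import Mathlib

/-!
Row 165 (S0250), block U2: the potential kernel of `ℤ²` by a one-dimensional formula in the
characteristic coordinates `k = m + n`, `l = m - n`:
`pk0 k l = (1/2π) ∫_0^{π/2} (1 - cos (k u) ρ(u)^|l|) / sin u du`, `ρ(u) = cos u / (1 + sin u)`.
This file: definition, boundedness of the integrand, `Δ pk = δ_0`, values on the diagonal.
-/

set_option autoImplicit false

namespace Crest.Agent.R165.Pkx583

open Real MeasureTheory Set intervalIntegral

/-- `rho u = cos u / (1 + sin u)`. -/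
noncomputable def rho (u : ℝ) : ℝ := Real.cos u / (1 + Real.sin u)

/-- the integrand -/
noncomputable def kf (k l : ℤ) (u : ℝ) : ℝ :=
  (1 - Real.cos (k * u) * rho u ^ l.natAbs) / Real.sin u

/-- potential kernel in characteristic coordinates -/
noncomputable def pk0 (k l : ℤ) : ℝ := (1 / (2 * π)) * ∫ u in (0:ℝ)..(π/2), kf k l u

/-- potential kernel of `ℤ²` (with `Δ` = sum over the 4 neighbours minus 4 times the value) -/
noncomputable def pk (z : ℤ × ℤ) : ℝ := pk0 (z.1 + z.2) (z.1 - z.2)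

theorem measurable_kf (k l : ℤ) : Measurable (kf k l) := by
  unfold kf rho
  fun_prop

section basics

variable {u : ℝ}

theorem rho_nonneg (h0 : 0 ≤ u) (h1 : u ≤ π/2) : 0 ≤ rho u := by
  unfold rho
  have hs : 0 ≤ Real.sin u := Real.sin_nonneg_of_nonneg_of_le_pi h0 (by linarith [Real.pi_pos])
  have hc : 0 ≤ Real.cos u := Real.cos_nonneg_of_neg_pi_div_two_le_of_le (by linarith [Real.pi_pos]) h1
  positivity

theorem rho_le_one (h0 : 0 ≤ u) (h1 : u ≤ π/2) : rho u ≤ 1 := by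
  unfold rho
  have hs : 0 ≤ Real.sin u := Real.sin_nonneg_of_nonneg_of_le_pi h0 (by linarith [Real.pi_pos])
  rw [div_le_one (by linarith)]
  linarith [Real.cos_le_one u]

theorem sin_ge (h0 : 0 ≤ u) (h1 : u ≤ π/2) : (2/π) * u ≤ Real.sin u :=
  Real.mul_le_sin h0 h1

theorem sin_pos' (h0 : 0 < u) (h1 : u ≤ π/2) : 0 < Real.sin u :=
  Real.sin_pos_of_pos_of_lt_pi h0 (by linarith [Real.pi_pos])

theorem abs_one_sub_cos_le (x : ℝ) : |1 - Real.cos x| ≤ |x| := by
  have h : 1 - Real.cos x = 2 * Real.sin (x/2) ^ 2 := by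
    have := Real.cos_sq (x/2)
    have h2 := Real.sin_sq_add_cos_sq (x/2)
    rw [show 2 * (x/2) = x by ring] at this
    nlinarith
  rw [h, abs_of_nonneg (by positivity)]
  have h1 : |Real.sin (x/2)| ≤ |x/2| := Real.abs_sin_le_abs
  have h2 : |Real.sin (x/2)| ≤ 1 := Real.abs_sin_le_one _
  have h3 : Real.sin (x/2) ^ 2 = |Real.sin (x/2)| * |Real.sin (x/2)| := by
    rw [← sq, sq_abs]
  rw [h3]
  rw [abs_div, abs_two] at h1
  nlinarith [abs_nonneg (Real.sin (x/2)), abs_nonneg x]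

theorem one_sub_rho_le (h0 : 0 ≤ u) (h1 : u ≤ π/2) : 1 - rho u ≤ 2 * u := by
  have hs : 0 ≤ Real.sin u := Real.sin_nonneg_of_nonneg_of_le_pi h0 (by linarith [Real.pi_pos])
  have hc := abs_one_sub_cos_le u
  rw [abs_of_nonneg (by linarith [Real.cos_le_one u]), abs_of_nonneg h0] at hc
  have hs2 : Real.sin u ≤ u := Real.sin_le h0
  unfold rho
  have : 1 - Real.cos u / (1 + Real.sin u) = (1 + Real.sin u - Real.cos u) / (1 + Real.sin u) := by
    field_simp
  rw [this, div_le_iff₀ (by linarith)]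
  nlinarith

theorem one_sub_rho_pow_le (h0 : 0 ≤ u) (h1 : u ≤ π/2) (n : ℕ) :
    1 - rho u ^ n ≤ 2 * n * u := by
  have hr0 := rho_nonneg h0 h1
  have hr1 := rho_le_one h0 h1
  have hb : 1 + (n:ℝ) * (rho u - 1) ≤ (1 + (rho u - 1)) ^ n :=
    one_add_mul_le_pow (by linarith) n
  rw [show 1 + (rho u - 1) = rho u by ring] at hb
  have := one_sub_rho_le h0 h1
  have hn : (0:ℝ) ≤ n := Nat.cast_nonneg n
  nlinarith

theorem abs_kf_le (k l : ℤ) (h0 : 0 < u) (h1 : u ≤ π/2) :
    |kf k l u| ≤ 2 * (|(k:ℝ)| + 2 * l.natAbs) := by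
  have hs : 0 < Real.sin u := sin_pos' h0 h1
  have hr0 := rho_nonneg h0.le h1
  have hr1 := rho_le_one h0.le h1
  have hp1 : rho u ^ l.natAbs ≤ 1 := pow_le_one₀ hr0 hr1
  have hp0 : 0 ≤ rho u ^ l.natAbs := pow_nonneg hr0 _
  have hA : |1 - Real.cos (k*u) * rho u ^ l.natAbs| ≤ (|(k:ℝ)| + 2 * l.natAbs) * u := by
    have h2 := one_sub_rho_pow_le h0.le h1 l.natAbs
    have h3 := abs_one_sub_cos_le (k*u)
    rw [abs_mul, abs_of_pos h0] at h3
    have h4 : 1 - Real.cos (k*u) * rho u ^ l.natAbs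
        = (1 - Real.cos (k*u)) * rho u ^ l.natAbs + (1 - rho u ^ l.natAbs) := by ring
    rw [h4]
    refine (abs_add_le _ _).trans ?_
    rw [abs_mul, abs_of_nonneg hp0, abs_of_nonneg (by linarith : 0 ≤ 1 - rho u ^ l.natAbs)]
    have : |1 - Real.cos (k*u)| * rho u ^ l.natAbs ≤ |1 - Real.cos (k*u)| * 1 :=
      mul_le_mul_of_nonneg_left hp1 (abs_nonneg _)
    nlinarith
  unfold kf
  rw [abs_div, abs_of_pos hs, div_le_iff₀ hs]
  have hs2 := sin_ge h0.le h1
  have hpi : π ≤ 4 := Real.pi_le_four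
  have h5 : u ≤ 2 * Real.sin u := by
    have : (1/2) * u ≤ (2/π) * u := by
      apply mul_le_mul_of_nonneg_right _ h0.le
      rw [div_le_div_iff₀ (by norm_num) Real.pi_pos]
      linarith
    linarith
  have h6 : 0 ≤ |(k:ℝ)| + 2 * l.natAbs := by positivity
  calc |1 - Real.cos (k*u) * rho u ^ l.natAbs| ≤ (|(k:ℝ)| + 2 * l.natAbs) * u := hA
    _ ≤ (|(k:ℝ)| + 2 * l.natAbs) * (2 * Real.sin u) := mul_le_mul_of_nonneg_left h5 h6
    _ = _ := by ring

end basics

theorem intervalIntegrable_kf (k l : ℤ) : IntervalIntegrable (kf k l) volume 0 (π/2) := by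
  rw [intervalIntegrable_iff_integrableOn_Ioc_of_le (by positivity)]
  refine Measure.integrableOn_of_bounded (M := 2 * (|(k:ℝ)| + 2 * l.natAbs)) ?_
    (measurable_kf k l).aestronglyMeasurable ?_
  · rw [Real.volume_Ioc]; exact ENNReal.ofReal_ne_top
  · refine (ae_restrict_iff' measurableSet_Ioc).2 (Filter.Eventually.of_forall fun u hu => ?_)
    rw [Real.norm_eq_abs]
    exact abs_kf_le k l hu.1 hu.2

theorem kf_neg_left (k l : ℤ) : kf (-k) l = kf k l := by
  funext u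
  unfold kf
  have : Real.cos (((-k : ℤ) : ℝ) * u) = Real.cos (k * u) := by
    push_cast
    rw [neg_mul, Real.cos_neg]
  rw [this]

theorem kf_neg_right (k l : ℤ) : kf k (-l) = kf k l := by
  funext u
  unfold kf
  rw [Int.natAbs_neg]

theorem pk0_neg_left (k l : ℤ) : pk0 (-k) l = pk0 k l := by
  unfold pk0; rw [kf_neg_left]

theorem pk0_neg_right (k l : ℤ) : pk0 k (-l) = pk0 k l := by
  unfold pk0; rw [kf_neg_right]

/-- pointwise identity off the axis `l = 0`. -/
theorem kf_sum_pos (k : ℤ) (n : ℕ) (u : ℝ) (hu : 1 + Real.sin u ≠ 0) :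
    kf (k+1) ((n:ℤ)+2) u + kf (k+1) n u + kf (k-1) ((n:ℤ)+2) u + kf (k-1) n u
      = 4 * kf k ((n:ℤ)+1) u := by
  unfold kf
  have e1 : ((n:ℤ)+2).natAbs = n + 2 := by omega
  have e2 : ((n:ℤ)+1).natAbs = n + 1 := by omega
  have e3 : ((n:ℤ)).natAbs = n := by omega
  rw [e1, e2, e3]
  have c1 : Real.cos (((k+1 : ℤ) : ℝ) * u) = Real.cos (k*u) * Real.cos u - Real.sin (k*u) * Real.sin u := by
    rw [← Real.cos_add]; congr 1; push_cast; ring
  have c2 : Real.cos (((k-1 : ℤ) : ℝ) * u) = Real.cos (k*u) * Real.cos u + Real.sin (k*u) * Real.sin u := by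
    rw [← Real.cos_sub]; congr 1; push_cast; ring
  rw [c1, c2]
  have hr : Real.cos u * (rho u ^ 2 + 1) = 2 * rho u := by
    unfold rho
    have h2 := Real.sin_sq_add_cos_sq u
    field_simp
    linear_combination (Real.cos u) * h2
  have key : (Real.cos (k*u) * Real.cos u) * (rho u ^ (n+2) + rho u ^ n) * 2
      = 4 * (Real.cos (k*u) * rho u ^ (n+1)) := by
    have : Real.cos u * (rho u ^ (n+2) + rho u ^ n) = 2 * rho u ^ (n+1) := by
      calc Real.cos u * (rho u ^ (n+2) + rho u ^ n) = (Real.cos u * (rho u ^ 2 + 1)) * rho u ^ n := by ring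
        _ = 2 * rho u ^ (n+1) := by rw [hr]; ring
    calc (Real.cos (k*u) * Real.cos u) * (rho u ^ (n+2) + rho u ^ n) * 2
        = 2 * Real.cos (k*u) * (Real.cos u * (rho u ^ (n+2) + rho u ^ n)) := by ring
      _ = _ := by rw [this]; ring
  rw [← add_div, ← add_div, ← add_div, mul_div_assoc']
  congr 1
  linear_combination (-1 : ℝ) * key

/-- pointwise identity on the axis `l = 0`. -/
theorem kf_sum_zero (k : ℤ) (u : ℝ) (hs : 0 < Real.sin u) :
    kf (k+1) 1 u + kf (k+1) (-1) u + kf (k-1) 1 u + kf (k-1) (-1) u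
      = 4 * kf k 0 u + 4 * Real.cos (k*u) := by
  rw [kf_neg_right, kf_neg_right]
  unfold kf
  have e2 : (1:ℤ).natAbs = 1 := rfl
  have e3 : ((0:ℤ)).natAbs = 0 := rfl
  rw [e2, e3]
  have c1 : Real.cos (((k+1 : ℤ) : ℝ) * u) = Real.cos (k*u) * Real.cos u - Real.sin (k*u) * Real.sin u := by
    rw [← Real.cos_add]; congr 1; push_cast; ring
  have c2 : Real.cos (((k-1 : ℤ) : ℝ) * u) = Real.cos (k*u) * Real.cos u + Real.sin (k*u) * Real.sin u := by
    rw [← Real.cos_sub]; congr 1; push_cast; ring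
  rw [c1, c2]
  have hr : Real.cos u * rho u = 1 - Real.sin u := by
    unfold rho
    have h2 := Real.sin_sq_add_cos_sq u
    have : 1 + Real.sin u ≠ 0 := by positivity
    field_simp
    nlinarith
  field_simp
  linear_combination (-4 * Real.cos (k*u)) * hr

theorem integral_cos_even (j : ℤ) (hj : j ≠ 0) :
    ∫ u in (0:ℝ)..(π/2), Real.cos (((2*j : ℤ) : ℝ) * u) = 0 := by
  have h2j : (((2*j : ℤ)) : ℝ) ≠ 0 := by
    have : (2*j : ℤ) ≠ 0 := by omega
    exact_mod_cast this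
  rw [intervalIntegral.integral_comp_mul_left (f := Real.cos) h2j, integral_cos]
  have : (((2*j : ℤ)) : ℝ) * (π/2) = j * π := by push_cast; ring
  rw [this, Real.sin_int_mul_pi]
  simp

theorem pk0_lap_zero (k : ℤ) (hk : Even k) :
    pk0 (k+1) 1 + pk0 (k+1) (-1) + pk0 (k-1) 1 + pk0 (k-1) (-1) - 4 * pk0 k 0
      = if k = 0 then 1 else 0 := by
  have hint : ∀ k l : ℤ, IntervalIntegrable (kf k l) volume 0 (π/2) := intervalIntegrable_kf
  have hcos : IntervalIntegrable (fun u : ℝ => Real.cos (k*u)) volume 0 (π/2) :=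
    (by fun_prop : Continuous fun u : ℝ => Real.cos (k*u)).intervalIntegrable _ _
  have h1 : (∫ u in (0:ℝ)..(π/2), kf (k+1) 1 u) + (∫ u in (0:ℝ)..(π/2), kf (k+1) (-1) u)
      + (∫ u in (0:ℝ)..(π/2), kf (k-1) 1 u) + (∫ u in (0:ℝ)..(π/2), kf (k-1) (-1) u)
      = 4 * (∫ u in (0:ℝ)..(π/2), kf k 0 u) + 4 * ∫ u in (0:ℝ)..(π/2), Real.cos (k*u) := by
    rw [← intervalIntegral.integral_add (hint _ _) (hint _ _),
      ← intervalIntegral.integral_add ((hint _ _).add (hint _ _)) (hint _ _),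
      ← intervalIntegral.integral_add (((hint _ _).add (hint _ _)).add (hint _ _)) (hint _ _),
      ← intervalIntegral.integral_const_mul, ← intervalIntegral.integral_const_mul,
      ← intervalIntegral.integral_add ((hint _ _).const_mul 4) (hcos.const_mul 4)]
    apply intervalIntegral.integral_congr_ae
    refine Filter.Eventually.of_forall fun u hu => ?_
    rw [uIoc_of_le (by positivity)] at hu
    exact kf_sum_zero k u (sin_pos' hu.1 hu.2)
  obtain ⟨j, hj⟩ := hk
  have hj' : k = 2*j := by omega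
  unfold pk0
  by_cases hk0 : k = 0
  · have hc : ∫ u in (0:ℝ)..(π/2), Real.cos (k*u) = π/2 := by
      rw [hk0]; simp
    rw [hc] at h1
    rw [if_pos hk0]
    have : (1 / (2*π)) * (4 * (π/2)) = 1 := by field_simp; norm_num
    linear_combination (1/(2*π)) * h1 + this
  · have hc : ∫ u in (0:ℝ)..(π/2), Real.cos (k*u) = 0 := by
      have := integral_cos_even j (by omega)
      rwa [← hj'] at this
    rw [hc] at h1
    rw [if_neg hk0]
    linear_combination (1/(2*π)) * h1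

theorem pk0_lap_pos (k : ℤ) (n : ℕ) :
    pk0 (k+1) ((n:ℤ)+2) + pk0 (k+1) n + pk0 (k-1) ((n:ℤ)+2) + pk0 (k-1) n
      = 4 * pk0 k ((n:ℤ)+1) := by
  have hint : ∀ k l : ℤ, IntervalIntegrable (kf k l) volume 0 (π/2) := intervalIntegrable_kf
  have h1 : (∫ u in (0:ℝ)..(π/2), kf (k+1) ((n:ℤ)+2) u) + (∫ u in (0:ℝ)..(π/2), kf (k+1) n u)
      + (∫ u in (0:ℝ)..(π/2), kf (k-1) ((n:ℤ)+2) u) + (∫ u in (0:ℝ)..(π/2), kf (k-1) n u)
      = 4 * (∫ u in (0:ℝ)..(π/2), kf k ((n:ℤ)+1) u) := by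
    rw [← intervalIntegral.integral_add (hint _ _) (hint _ _),
      ← intervalIntegral.integral_add ((hint _ _).add (hint _ _)) (hint _ _),
      ← intervalIntegral.integral_add (((hint _ _).add (hint _ _)).add (hint _ _)) (hint _ _),
      ← intervalIntegral.integral_const_mul]
    apply intervalIntegral.integral_congr_ae
    refine Filter.Eventually.of_forall fun u hu => ?_
    rw [uIoc_of_le (by positivity)] at hu
    exact kf_sum_pos k n u (by linarith [sin_pos' hu.1 hu.2] : (1 + Real.sin u) ≠ 0)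
  unfold pk0
  linear_combination (1/(2*π)) * h1

/-- `Δ pk0 = δ` in characteristic coordinates. -/
theorem pk0_lap (k l : ℤ) (hkl : Even (k + l)) :
    pk0 (k+1) (l+1) + pk0 (k+1) (l-1) + pk0 (k-1) (l+1) + pk0 (k-1) (l-1) - 4 * pk0 k l
      = if k = 0 ∧ l = 0 then 1 else 0 := by
  rcases lt_trichotomy l 0 with h | h | h
  · obtain ⟨n, hn⟩ : ∃ n : ℕ, l = -((n:ℤ)+1) := ⟨(-l-1).toNat, by omega⟩
    rw [if_neg (by omega)]
    have := pk0_lap_pos k n
    rw [hn, show -((n:ℤ)+1) + 1 = -(n:ℤ) by ring, show -((n:ℤ)+1) - 1 = -((n:ℤ)+2) by ring,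
      pk0_neg_right, pk0_neg_right, pk0_neg_right, pk0_neg_right, pk0_neg_right]
    linarith
  · subst h
    have := pk0_lap_zero k (by simpa using hkl)
    simp only [zero_add, zero_sub, and_true]
    exact this
  · obtain ⟨n, hn⟩ : ∃ n : ℕ, l = (n:ℤ)+1 := ⟨(l-1).toNat, by omega⟩
    rw [if_neg (by omega)]
    have := pk0_lap_pos k n
    rw [hn, show (n:ℤ)+1 + 1 = (n:ℤ)+2 by ring, show (n:ℤ)+1 - 1 = (n:ℤ) by ring]
    linarith

/-- The potential kernel: `Δ pk = δ_0`. -/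
theorem pk_lap (m n : ℤ) :
    pk (m+1, n) + pk (m-1, n) + pk (m, n+1) + pk (m, n-1) - 4 * pk (m, n)
      = if m = 0 ∧ n = 0 then 1 else 0 := by
  have h := pk0_lap (m+n) (m-n) ⟨m, by ring⟩
  unfold pk
  simp only
  rw [show m + 1 + n = (m+n)+1 by ring, show m + 1 - n = (m-n)+1 by ring,
    show m - 1 + n = (m+n)-1 by ring, show m - 1 - n = (m-n)-1 by ring,
    show m + (n+1) = (m+n)+1 by ring, show m - (n+1) = (m-n)-1 by ring,
    show m + (n-1) = (m+n)-1 by ring, show m - (n-1) = (m-n)+1 by ring]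
  have e : (m + n = 0 ∧ m - n = 0) ↔ (m = 0 ∧ n = 0) := by omega
  rw [if_congr e rfl rfl] at h
  linarith

theorem pk_zero : pk (0, 0) = 0 := by
  unfold pk pk0 kf
  simp

/-- values on the diagonal: increments. -/
theorem pk_diag_step (n : ℕ) : pk ((n:ℤ)+1, (n:ℤ)+1) - pk ((n:ℤ), (n:ℤ)) = 1 / (π * (2*n+1)) := by
  unfold pk pk0
  simp only [sub_self]
  rw [← mul_sub, ← intervalIntegral.integral_sub (intervalIntegrable_kf _ _) (intervalIntegrable_kf _ _)]
  have : ∫ u in (0:ℝ)..(π/2), (kf ((n:ℤ)+1+((n:ℤ)+1)) 0 u - kf ((n:ℤ)+(n:ℤ)) 0 u)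
      = ∫ u in (0:ℝ)..(π/2), 2 * Real.sin ((2*n+1) * u) := by
    apply intervalIntegral.integral_congr_ae
    refine Filter.Eventually.of_forall fun u hu => ?_
    rw [uIoc_of_le (by positivity)] at hu
    have hs := sin_pos' hu.1 hu.2
    unfold kf
    simp only [Int.natAbs_zero, pow_zero, mul_one]
    have c1 : Real.cos ((((n:ℤ)+1+((n:ℤ)+1) : ℤ) : ℝ) * u)
        = Real.cos ((2*n+1)*u) * Real.cos u - Real.sin ((2*n+1)*u) * Real.sin u := by
      rw [← Real.cos_add]; congr 1; push_cast; ring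
    have c2 : Real.cos ((((n:ℤ)+(n:ℤ) : ℤ) : ℝ) * u)
        = Real.cos ((2*n+1)*u) * Real.cos u + Real.sin ((2*n+1)*u) * Real.sin u := by
      rw [← Real.cos_sub]; congr 1; push_cast; ring
    rw [c1, c2]
    field_simp
    ring
  rw [this, intervalIntegral.integral_const_mul]
  have hne : ((2:ℝ)*n+1) ≠ 0 := by positivity
  rw [intervalIntegral.integral_comp_mul_left (f := Real.sin) hne, integral_sin]
  have h3 : Real.cos ((2*(n:ℝ)+1) * (π/2)) = 0 := by
    rw [Real.cos_eq_zero_iff]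
    exact ⟨n, by push_cast; ring⟩
  rw [h3, mul_zero, Real.cos_zero]
  have hp := Real.pi_ne_zero
  simp only [smul_eq_mul]
  field_simp
  ring

end Crest.Agent.R165.Pkx583
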