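import Mathlib
import Crest.Agent.R165.PkA_583

/-!
Row 165, block U2: symmetry `pk0 k l = pk0 l k` (`k + l` even), i.e. the full square symmetry of the
potential kernel, through the double integral
`∫∫ (1 - cos ku cos lv)/(1 - cos u cos v)`.
-/

set_option autoImplicit false

namespace Crest.Agent.R165.Pkx583

open Real MeasureTheory Set intervalIntegral

/-- `∫_0^π cos(n v)/(1 - c cos v) dv` -/
noncomputable def JJ (c : ℝ) (n : ℕ) : ℝ := ∫ v in (0:ℝ)..π, Real.cos (n*v) / (1 - c * Real.cos v)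

section inner

variable {c r : ℝ}

theorem den_pos (hc0 : 0 ≤ c) (hc1 : c < 1) (v : ℝ) : 0 < 1 - c * Real.cos v := by
  nlinarith [Real.cos_le_one v]

theorem cont_JJ (hc0 : 0 ≤ c) (hc1 : c < 1) (n : ℕ) :
    Continuous fun v : ℝ => Real.cos (n*v) / (1 - c * Real.cos v) := by
  refine Continuous.div (by fun_prop) (by fun_prop) fun v => (den_pos hc0 hc1 v).ne'

theorem JJ_rec (hc0 : 0 ≤ c) (hc1 : c < 1) (n : ℕ) :
    c * (JJ c (n+2) + JJ c n) = 2 * JJ c (n+1) := by
  have hi := fun n => (cont_JJ hc0 hc1 n).intervalIntegrable (μ := volume) 0 π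
  have h0 : ∫ v in (0:ℝ)..π, Real.cos (((n+1 : ℕ):ℝ) * v) = 0 := by
    have hne : ((n+1 : ℕ):ℝ) ≠ 0 := by positivity
    rw [intervalIntegral.integral_comp_mul_left (f := Real.cos) hne, integral_cos,
      Real.sin_nat_mul_pi]
    simp
  have hic : IntervalIntegrable (fun v : ℝ => 2 * Real.cos (((n+1 : ℕ):ℝ) * v)) volume 0 π :=
    (by fun_prop : Continuous fun v : ℝ => 2 * Real.cos (((n+1 : ℕ):ℝ) * v)).intervalIntegrable _ _
  have key : c * (JJ c (n+2) + JJ c n) + (∫ v in (0:ℝ)..π, 2 * Real.cos (((n+1 : ℕ):ℝ) * v)) = 2 * JJ c (n+1) := by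
    unfold JJ
    rw [← intervalIntegral.integral_add (hi _) (hi _), ← intervalIntegral.integral_const_mul,
      ← intervalIntegral.integral_const_mul (r := (2:ℝ)) (f := fun v => Real.cos (((n+1 : ℕ):ℝ) * v) / (1 - c * Real.cos v)),
      ← intervalIntegral.integral_add (((hi _).add (hi _)).const_mul c) hic]
    apply intervalIntegral.integral_congr
    intro v _
    have hd := (den_pos hc0 hc1 v).ne'
    have c1 : Real.cos (((n+2 : ℕ):ℝ)*v) = Real.cos (((n+1 : ℕ):ℝ) * v) * Real.cos v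
        - Real.sin (((n+1 : ℕ):ℝ) * v) * Real.sin v := by
      rw [← Real.cos_add]; congr 1; push_cast; ring
    have c2 : Real.cos ((n:ℝ)*v) = Real.cos (((n+1 : ℕ):ℝ) * v) * Real.cos v
        + Real.sin (((n+1 : ℕ):ℝ) * v) * Real.sin v := by
      rw [← Real.cos_sub]; congr 1; push_cast; ring
    simp only []
    rw [c1, c2]
    field_simp
    ring
  rw [intervalIntegral.integral_const_mul, h0, mul_zero, add_zero] at key
  exact key

theorem JJ_one (hc0 : 0 ≤ c) (hc1 : c < 1) : c * JJ c 1 = JJ c 0 - π := by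
  have hi := fun n => (cont_JJ hc0 hc1 n).intervalIntegrable (μ := volume) 0 π
  have : ∫ v in (0:ℝ)..π, (1:ℝ) = π := by simp
  have key : c * JJ c 1 + (∫ v in (0:ℝ)..π, (1:ℝ)) = JJ c 0 := by
    unfold JJ
    rw [← intervalIntegral.integral_const_mul, ← intervalIntegral.integral_add ((hi _).const_mul c) (by simp)]
    apply intervalIntegral.integral_congr
    intro v _
    have hd := (den_pos hc0 hc1 v).ne'
    simp only [Nat.cast_one, one_mul, Nat.cast_zero, zero_mul, Real.cos_zero]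
    field_simp
    ring
  rw [this] at key
  linarith

theorem abs_JJ_le (hc0 : 0 ≤ c) (hc1 : c < 1) (n : ℕ) : |JJ c n| ≤ JJ c 0 := by
  unfold JJ
  have := intervalIntegral.norm_integral_le_of_norm_le (μ := volume) (a := 0) (b := π)
    (f := fun v : ℝ => Real.cos (n*v) / (1 - c * Real.cos v))
    (g := fun v : ℝ => Real.cos ((0:ℕ)*v) / (1 - c * Real.cos v)) Real.pi_pos.le
    (Filter.Eventually.of_forall fun v _ => ?_) ((cont_JJ hc0 hc1 0).intervalIntegrable 0 π)
  · simpa [Real.norm_eq_abs] using this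
  · simp only [Real.norm_eq_abs, Nat.cast_zero, zero_mul, Real.cos_zero]
    rw [abs_div, abs_of_pos (den_pos hc0 hc1 v)]
    exact div_le_div_of_nonneg_right (Real.abs_cos_le_one _) (den_pos hc0 hc1 v).le

theorem JJ_eq (hc0 : 0 ≤ c) (hc1 : c < 1) (hr0 : 0 < r) (hr1 : r < 1)
    (hcr : c * (r^2 + 1) = 2 * r) (n : ℕ) : JJ c (n+1) = r * JJ c n := by
  have hcpos : 0 < c := by
    rcases hc0.lt_or_eq with h | h
    · exact h
    · exfalso; rw [← h] at hcr; linarith
  -- K n = J(n+1) - r J n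
  have hK : ∀ n, JJ c (n+1) - r * JJ c n = r * (JJ c (n+2) - r * JJ c (n+1)) := by
    intro n
    have h := JJ_rec hc0 hc1 n
    have h2 : 2 * r * (JJ c (n+2) + JJ c n) = 2 * (r^2+1) * JJ c (n+1) := by
      calc 2 * r * (JJ c (n+2) + JJ c n) = (c * (r^2+1)) * (JJ c (n+2) + JJ c n) := by rw [hcr]
        _ = (r^2+1) * (c * (JJ c (n+2) + JJ c n)) := by ring
        _ = _ := by rw [h]; ring
    linarith
  have hKm : ∀ m n, JJ c (n+1) - r * JJ c n = r^m * (JJ c (n+m+1) - r * JJ c (n+m)) := by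
    intro m
    induction m with
    | zero => intro n; simp
    | succ m ih =>
      intro n
      rw [ih n, hK (n+m)]
      ring_nf
  have hb : ∀ m, |JJ c (n+1) - r * JJ c n| ≤ r^m * (2 * JJ c 0) := by
    intro m
    rw [hKm m n, abs_mul, abs_of_nonneg (pow_nonneg hr0.le m)]
    apply mul_le_mul_of_nonneg_left _ (pow_nonneg hr0.le m)
    have h1 := abs_JJ_le hc0 hc1 (n+m+1)
    have h2 := abs_JJ_le hc0 hc1 (n+m)
    have h3 := abs_sub (JJ c (n+m+1)) (r * JJ c (n+m))
    rw [abs_mul, abs_of_pos hr0] at h3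
    nlinarith [abs_nonneg (JJ c (n+m))]
  have hlim : Filter.Tendsto (fun m : ℕ => r^m * (2 * JJ c 0)) Filter.atTop (nhds (0 * (2 * JJ c 0))) :=
    (tendsto_pow_atTop_nhds_zero_of_lt_one hr0.le hr1).mul_const _
  rw [zero_mul] at hlim
  have h0 : |JJ c (n+1) - r * JJ c n| ≤ 0 := ge_of_tendsto' hlim hb
  have := abs_nonpos_iff.1 h0
  linarith

theorem JJ_eq_pow (hc0 : 0 ≤ c) (hc1 : c < 1) (hr0 : 0 < r) (hr1 : r < 1)
    (hcr : c * (r^2 + 1) = 2 * r) (n : ℕ) : JJ c n = r ^ n * JJ c 0 := by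
  induction n with
  | zero => simp
  | succ n ih => rw [JJ_eq hc0 hc1 hr0 hr1 hcr n, ih]; ring

theorem JJ_zero (hc0 : 0 ≤ c) (hc1 : c < 1) (hr0 : 0 < r) (hr1 : r < 1)
    (hcr : c * (r^2 + 1) = 2 * r) : (1 - c * r) * JJ c 0 = π := by
  have h1 := JJ_one hc0 hc1
  have h2 := JJ_eq hc0 hc1 hr0 hr1 hcr 0
  simp only [zero_add] at h2
  rw [h2] at h1
  linarith

end inner

theorem JJ_cos {u : ℝ} (h0 : 0 < u) (h1 : u < π/2) (n : ℕ) :
    JJ (Real.cos u) n = π * rho u ^ n / Real.sin u := by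
  have hs : 0 < Real.sin u := sin_pos' h0 h1.le
  have hc : 0 < Real.cos u := Real.cos_pos_of_mem_Ioo ⟨by linarith [Real.pi_pos], h1⟩
  have hc1 : Real.cos u < 1 := by
    have := Real.sin_sq_add_cos_sq u
    nlinarith
  have hr0 : 0 < rho u := by unfold rho; positivity
  have hr1 : rho u < 1 := by
    unfold rho; rw [div_lt_one (by positivity)]; linarith
  have hcr : Real.cos u * (rho u ^2 + 1) = 2 * rho u := by
    unfold rho
    have h2 := Real.sin_sq_add_cos_sq u
    have : 1 + Real.sin u ≠ 0 := by positivity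
    field_simp
    linear_combination h2
  have hz := JJ_zero hc.le hc1 hr0 hr1 hcr
  have hcr2 : 1 - Real.cos u * rho u = Real.sin u := by
    unfold rho
    have h2 := Real.sin_sq_add_cos_sq u
    have : 1 + Real.sin u ≠ 0 := by positivity
    field_simp
    linear_combination - h2
  rw [hcr2] at hz
  rw [JJ_eq_pow hc.le hc1 hr0 hr1 hcr n]
  field_simp
  linear_combination hz

/-- the symmetric double integrand -/
noncomputable def FF (k l : ℤ) (u v : ℝ) : ℝ :=
  (1 - Real.cos (k*u) * Real.cos (l*v)) / (1 - Real.cos u * Real.cos v)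

theorem FF_swap (k l : ℤ) (u v : ℝ) : FF k l u v = FF l k v u := by
  unfold FF
  congr 1 <;> ring

theorem cos_cos_eq (a b : ℝ) :
    1 - Real.cos (a+b) * Real.cos (a-b) = Real.sin a ^ 2 + Real.sin b ^ 2 := by
  rw [Real.cos_add, Real.cos_sub]
  have h1 := Real.sin_sq_add_cos_sq a
  have h2 := Real.sin_sq_add_cos_sq b
  have e : (Real.cos a * Real.cos b - Real.sin a * Real.sin b) * (Real.cos a * Real.cos b + Real.sin a * Real.sin b)
     = Real.cos a ^2 * Real.cos b ^2 - Real.sin a ^2 * Real.sin b^2 := by ring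
  rw [e]
  have h3 : Real.cos a ^2 = 1 - Real.sin a ^2 := by linarith
  have h4 : Real.cos b ^2 = 1 - Real.sin b ^2 := by linarith
  rw [h3, h4]; ring

theorem abs_sin_int_mul_le (m : ℤ) (a : ℝ) : |Real.sin (m*a)| ≤ |(m:ℝ)| * |Real.sin a| := by
  have hn : ∀ n : ℕ, |Real.sin (n*a)| ≤ n * |Real.sin a| := by
    intro n
    induction n with
    | zero => simp
    | succ n ih =>
      have : Real.sin (((n+1 : ℕ):ℝ)*a) = Real.sin (n*a) * Real.cos a + Real.cos (n*a) * Real.sin a := by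
        rw [← Real.sin_add]; congr 1; push_cast; ring
      rw [this]
      refine (abs_add_le _ _).trans ?_
      rw [abs_mul, abs_mul]
      have h1 := Real.abs_cos_le_one a
      have h2 := Real.abs_cos_le_one (n*a)
      push_cast
      nlinarith [abs_nonneg (Real.sin (n*a)), abs_nonneg (Real.sin a)]
  rcases le_total 0 m with h | h
  · obtain ⟨n, rfl⟩ := Int.eq_ofNat_of_zero_le h
    have := hn n
    simpa using this
  · obtain ⟨n, hn'⟩ := Int.eq_ofNat_of_zero_le (neg_nonneg.2 h)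
    have hm : m = -(n:ℤ) := by omega
    subst hm
    have := hn n
    push_cast
    rw [neg_mul, Real.sin_neg, abs_neg, abs_neg]
    simpa using this

theorem abs_FF_le (m n : ℤ) (u v : ℝ) :
    |FF (m+n) (m-n) u v| ≤ 2 * ((m:ℝ)^2 + (n:ℝ)^2) := by
  set a := (u+v)/2 with ha
  set b := (u-v)/2 with hb
  have hu : u = a + b := by rw [ha, hb]; ring
  have hv : v = a - b := by rw [ha, hb]; ring
  have hD : 1 - Real.cos u * Real.cos v = Real.sin a ^2 + Real.sin b^2 := by
    rw [hu, hv]; exact cos_cos_eq a b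
  have hN : 1 - Real.cos (((m+n : ℤ):ℝ)*u) * Real.cos (((m-n : ℤ):ℝ)*v)
      = Real.sin (m*a+n*b) ^2 + Real.sin (n*a + m*b)^2 := by
    rw [← cos_cos_eq]
    congr 2
    · congr 1; rw [hu]; push_cast; ring
    · congr 1; rw [hv]; push_cast; ring
  have h1 : |Real.sin (m*a+n*b)| ≤ |(m:ℝ)| * |Real.sin a| + |(n:ℝ)| * |Real.sin b| := by
    rw [Real.sin_add]
    refine (abs_add_le _ _).trans ?_
    rw [abs_mul, abs_mul]
    have e1 := abs_sin_int_mul_le m a
    have e2 := abs_sin_int_mul_le n b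
    have e3 := Real.abs_cos_le_one (n*b)
    have e4 := Real.abs_cos_le_one (m*a)
    nlinarith [abs_nonneg (Real.sin (m*a)), abs_nonneg (Real.sin (n*b)), abs_nonneg (Real.cos (n*b)),
      abs_nonneg (Real.cos (m*a))]
  have h2 : |Real.sin (n*a+m*b)| ≤ |(n:ℝ)| * |Real.sin a| + |(m:ℝ)| * |Real.sin b| := by
    rw [Real.sin_add]
    refine (abs_add_le _ _).trans ?_
    rw [abs_mul, abs_mul]
    have e1 := abs_sin_int_mul_le n a
    have e2 := abs_sin_int_mul_le m b
    have e3 := Real.abs_cos_le_one (m*b)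
    have e4 := Real.abs_cos_le_one (n*a)
    nlinarith [abs_nonneg (Real.sin (n*a)), abs_nonneg (Real.sin (m*b)), abs_nonneg (Real.cos (m*b)),
      abs_nonneg (Real.cos (n*a))]
  unfold FF
  rw [hN, hD]
  set A := |Real.sin a|
  set B := |Real.sin b|
  have hA : Real.sin a ^2 = A^2 := (sq_abs _).symm
  have hB : Real.sin b ^2 = B^2 := (sq_abs _).symm
  have hM : (m:ℝ)^2 = |(m:ℝ)|^2 := (sq_abs _).symm
  have hN' : (n:ℝ)^2 = |(n:ℝ)|^2 := (sq_abs _).symm
  have hA0 : 0 ≤ A := abs_nonneg _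
  have hB0 : 0 ≤ B := abs_nonneg _
  rw [hA, hB, hM, hN']
  have hm0 : 0 ≤ |(m:ℝ)| := abs_nonneg _
  have hn0 : 0 ≤ |(n:ℝ)| := abs_nonneg _
  have s1 : Real.sin (m*a+n*b)^2 ≤ (|(m:ℝ)| * A + |(n:ℝ)| * B)^2 := by
    rw [← sq_abs (Real.sin (m*a+n*b))]
    exact pow_le_pow_left₀ (abs_nonneg _) h1 2
  have s2 : Real.sin (n*a+m*b)^2 ≤ (|(n:ℝ)| * A + |(m:ℝ)| * B)^2 := by
    rw [← sq_abs (Real.sin (n*a+m*b))]
    exact pow_le_pow_left₀ (abs_nonneg _) h2 2
  rw [abs_div, abs_of_nonneg (by positivity : 0 ≤ Real.sin (m*a+n*b)^2 + Real.sin (n*a+m*b)^2),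
    abs_of_nonneg (by positivity : 0 ≤ A^2 + B^2)]
  apply div_le_of_le_mul₀ (by positivity) (by positivity)
  nlinarith [sq_nonneg (|(m:ℝ)| * A - |(n:ℝ)| * B), sq_nonneg (|(n:ℝ)| * A - |(m:ℝ)| * B),
    sq_nonneg (|(m:ℝ)| * B), sq_nonneg (|(n:ℝ)| * A), sq_nonneg (|(m:ℝ)| * A), sq_nonneg (|(n:ℝ)| * B)]

theorem measurable_FF (k l : ℤ) : Measurable (Function.uncurry (FF k l)) := by
  have : Function.uncurry (FF k l) = fun p : ℝ × ℝ =>
      (1 - Real.cos (k*p.1) * Real.cos (l*p.2)) / (1 - Real.cos p.1 * Real.cos p.2) := by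
    funext p; rfl
  rw [this]
  fun_prop

/-- inner integral of `FF`. -/
noncomputable def II (k l : ℤ) (u : ℝ) : ℝ := ∫ v in (0:ℝ)..π, FF k l u v

theorem II_eq (k l : ℤ) {u : ℝ} (h0 : 0 < u) (h1 : u < π/2) : II k l u = π * kf k l u := by
  have hs : 0 < Real.sin u := sin_pos' h0 h1.le
  have hc : 0 < Real.cos u := Real.cos_pos_of_mem_Ioo ⟨by linarith [Real.pi_pos], h1⟩
  have hc1 : Real.cos u < 1 := by
    have := Real.sin_sq_add_cos_sq u
    nlinarith
  have j0 := JJ_cos h0 h1 0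
  have jl := JJ_cos h0 h1 l.natAbs
  have hi := fun n => (cont_JJ hc.le hc1 n).intervalIntegrable (μ := volume) 0 π
  have : II k l u = JJ (Real.cos u) 0 - Real.cos (k*u) * JJ (Real.cos u) l.natAbs := by
    unfold II JJ
    rw [← intervalIntegral.integral_const_mul, ← intervalIntegral.integral_sub (hi _) ((hi _).const_mul _)]
    apply intervalIntegral.integral_congr
    intro v _
    have hl : Real.cos (l*v) = Real.cos ((l.natAbs:ℝ) * v) := by
      rcases Int.natAbs_eq l with h | h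
      · conv_lhs => rw [h]
        simp
      · conv_lhs => rw [h]
        push_cast
        rw [neg_mul, Real.cos_neg]
        simp
    simp only [FF]
    rw [hl]
    simp only [Nat.cast_zero, zero_mul, Real.cos_zero]
    ring
  rw [this, j0, jl]
  unfold kf
  ring

theorem II_refl (m n : ℤ) (u : ℝ) : II (m+n) (m-n) (π - u) = II (m+n) (m-n) u := by
  unfold II
  have h := intervalIntegral.integral_comp_sub_left (a := 0) (b := π) (fun v => FF (m+n) (m-n) (π - u) v) π
  rw [sub_self, sub_zero] at h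
  rw [← h]
  apply intervalIntegral.integral_congr
  intro v _
  simp only [FF]
  have e1 : Real.cos (((m+n : ℤ):ℝ) * (π - u)) * Real.cos (((m-n : ℤ):ℝ) * (π - v))
      = Real.cos (((m+n : ℤ):ℝ) * u) * Real.cos (((m-n : ℤ):ℝ) * v) := by
    rw [mul_sub, mul_sub, Real.cos_sub, Real.cos_sub, Real.sin_int_mul_pi, Real.sin_int_mul_pi,
      zero_mul, zero_mul, add_zero, add_zero]
    have h1 : Real.cos (((m+n : ℤ):ℝ) * π) * Real.cos (((m-n : ℤ):ℝ) * π) = 1 := by
      rw [Real.cos_int_mul_pi, Real.cos_int_mul_pi, ← zpow_add₀ (by norm_num : (-1:ℝ) ≠ 0)]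
      rw [show m + n + (m - n) = 2 * m by ring, zpow_mul]
      norm_num
    linear_combination (Real.cos (((m+n : ℤ):ℝ) * u) * Real.cos (((m-n : ℤ):ℝ) * v)) * h1
  have e2 : Real.cos (π - u) * Real.cos (π - v) = Real.cos u * Real.cos v := by
    rw [Real.cos_pi_sub, Real.cos_pi_sub]; ring
  rw [e1, e2]

theorem intII_eq (m n : ℤ) : ∫ u in (0:ℝ)..π, II (m+n) (m-n) u = 4 * π^2 * pk0 (m+n) (m-n) := by
  have hII : ∫ u in (0:ℝ)..(π/2), II (m+n) (m-n) u = π * ∫ u in (0:ℝ)..(π/2), kf (m+n) (m-n) u := by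
    rw [← intervalIntegral.integral_const_mul]
    apply intervalIntegral.integral_congr_ae
    have : ∀ᵐ u : ℝ ∂volume, u ≠ π/2 := by
      simp [ae_iff, measure_singleton]
    filter_upwards [this] with u hu1 hu
    rw [uIoc_of_le (by positivity)] at hu
    exact II_eq _ _ hu.1 (lt_of_le_of_ne hu.2 hu1)
  have hint1 : IntervalIntegrable (II (m+n) (m-n)) volume 0 (π/2) := by
    have h1 : IntervalIntegrable (fun u => π * kf (m+n) (m-n) u) volume 0 (π/2) :=
      (intervalIntegrable_kf _ _).const_mul π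
    refine h1.congr_ae ?_
    have : ∀ᵐ u : ℝ ∂volume, u ≠ π/2 := by
      simp [ae_iff, measure_singleton]
    rw [uIoc_of_le (by positivity)]
    refine (ae_restrict_iff' measurableSet_Ioc).2 ?_
    filter_upwards [this] with u hu1 hu
    exact (II_eq _ _ hu.1 (lt_of_le_of_ne hu.2 hu1)).symm
  have hrefl : ∫ u in (π/2)..π, II (m+n) (m-n) u = ∫ u in (0:ℝ)..(π/2), II (m+n) (m-n) u := by
    have h := intervalIntegral.integral_comp_sub_left (a := 0) (b := π/2) (fun u => II (m+n) (m-n) u) π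
    rw [sub_zero, show π - π/2 = π/2 by ring] at h
    rw [← h]
    apply intervalIntegral.integral_congr
    intro u _
    exact II_refl m n u
  have hint2 : IntervalIntegrable (II (m+n) (m-n)) volume (π/2) π := by
    have h := hint1.comp_sub_left π
    rw [sub_zero, show π - π/2 = π/2 by ring] at h
    have e : (fun u => II (m+n) (m-n) (π - u)) = II (m+n) (m-n) := by
      funext u; exact II_refl m n u
    rw [e] at h
    exact h.symm
  rw [← intervalIntegral.integral_add_adjacent_intervals hint1 hint2, hrefl, hII]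
  unfold pk0
  have := Real.pi_ne_zero
  field_simp
  ring

theorem pk0_swap' (m n : ℤ) : pk0 (m+n) (m-n) = pk0 (m-n) (m+n) := by
  have h1 := intII_eq m n
  have h2 := intII_eq m (-n)
  rw [show m + -n = m - n by ring, show m - -n = m + n by ring] at h2
  have hsw : ∫ u in (0:ℝ)..π, II (m+n) (m-n) u = ∫ u in (0:ℝ)..π, II (m-n) (m+n) u := by
    unfold II
    rw [intervalIntegral_intervalIntegral_swap]
    · apply intervalIntegral.integral_congr
      intro v _
      apply intervalIntegral.integral_congr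
      intro u _
      exact FF_swap _ _ _ _
    · refine Measure.integrableOn_of_bounded (M := 2 * ((m:ℝ)^2 + (n:ℝ)^2)) ?_
        (measurable_FF _ _).aestronglyMeasurable ?_
      · rw [Measure.volume_eq_prod, Measure.prod_prod]
        simp only [uIoc_of_le Real.pi_pos.le, Real.volume_Ioc]
        exact ENNReal.mul_ne_top ENNReal.ofReal_ne_top ENNReal.ofReal_ne_top
      · refine Filter.Eventually.of_forall fun p => ?_
        rw [Real.norm_eq_abs]
        exact abs_FF_le m n p.1 p.2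
  rw [h1, h2] at hsw
  have hp : (4 * π^2 : ℝ) ≠ 0 := by positivity
  exact mul_left_cancel₀ hp hsw

theorem pk0_swap (k l : ℤ) (h : Even (k + l)) : pk0 k l = pk0 l k := by
  obtain ⟨m, hm⟩ := h
  have h1 : k = m + (k - m) := by ring
  have h2 : l = m - (k - m) := by omega
  rw [h2]
  nth_rw 1 [h1]
  nth_rw 4 [h1]
  exact pk0_swap' m (k - m)

end Crest.Agent.R165.Pkx583
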