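import Mathlib
import Crest.Agent.R165.PkB_583

/-!
Row 165, block U2: gradient asymptotics of the potential kernel:
`|pk (z + e) - pk z - ⟨z,e⟩/(2π|z|²)| ≤ C/|z|²` for unit steps `e`.
-/

set_option autoImplicit false

namespace Crest.Agent.R165.Pkx583

open Real MeasureTheory Set intervalIntegral

noncomputable def AA (n : ℕ) (k : ℤ) : ℝ := ∫ u in (0:ℝ)..(π/2), rho u ^ n * Real.cos (k*u)
noncomputable def BB (n : ℕ) (k : ℤ) : ℝ := ∫ u in (0:ℝ)..(π/2), rho u ^ n * Real.sin (k*u)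

theorem intervalIntegrable_rho_mul (n : ℕ) {g : ℝ → ℝ} (hg : Continuous g) (hb : ∀ u, |g u| ≤ 1) :
    IntervalIntegrable (fun u => rho u ^ n * g u) volume 0 (π/2) := by
  rw [intervalIntegrable_iff_integrableOn_Ioc_of_le (by positivity)]
  refine Measure.integrableOn_of_bounded (M := 1) ?_ ?_ ?_
  · rw [Real.volume_Ioc]; exact ENNReal.ofReal_ne_top
  · have hr : Measurable rho := by unfold rho; fun_prop
    exact ((hr.pow_const n).mul hg.measurable).aestronglyMeasurable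
  · refine (ae_restrict_iff' measurableSet_Ioc).2 (Filter.Eventually.of_forall fun u hu => ?_)
    rw [Real.norm_eq_abs, abs_mul]
    have h1 := rho_nonneg hu.1.le hu.2
    have h2 := rho_le_one hu.1.le hu.2
    have h3 : |rho u ^ n| ≤ 1 := by
      rw [abs_of_nonneg (pow_nonneg h1 n)]; exact pow_le_one₀ h1 h2
    calc |rho u ^ n| * |g u| ≤ 1 * 1 := mul_le_mul h3 (hb u) (abs_nonneg _) zero_le_one
      _ = 1 := one_mul 1

theorem intervalIntegrable_A (n : ℕ) (k : ℤ) :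
    IntervalIntegrable (fun u => rho u ^ n * Real.cos (k*u)) volume 0 (π/2) :=
  intervalIntegrable_rho_mul n (by fun_prop) fun _ => Real.abs_cos_le_one _

theorem intervalIntegrable_B (n : ℕ) (k : ℤ) :
    IntervalIntegrable (fun u => rho u ^ n * Real.sin (k*u)) volume 0 (π/2) :=
  intervalIntegrable_rho_mul n (by fun_prop) fun _ => Real.abs_sin_le_one _

/-- the exact gradient formula -/
theorem pk0_step (k : ℤ) (n : ℕ) :
    pk0 (k+1) ((n:ℤ)+1) - pk0 k n = (1/(2*π)) * (AA n k + BB (n+1) k) := by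
  unfold pk0 AA BB
  rw [← mul_sub, ← intervalIntegral.integral_sub (intervalIntegrable_kf _ _) (intervalIntegrable_kf _ _),
    ← intervalIntegral.integral_add (intervalIntegrable_A _ _) (intervalIntegrable_B _ _)]
  congr 1
  apply intervalIntegral.integral_congr_ae
  refine Filter.Eventually.of_forall fun u hu => ?_
  rw [uIoc_of_le (by positivity)] at hu
  have hs := sin_pos' hu.1 hu.2
  unfold kf
  have e2 : ((n:ℤ)+1).natAbs = n + 1 := by omega
  have e3 : ((n:ℤ)).natAbs = n := by omega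
  rw [e2, e3]
  have c1 : Real.cos (((k+1 : ℤ) : ℝ) * u) = Real.cos (k*u) * Real.cos u - Real.sin (k*u) * Real.sin u := by
    rw [← Real.cos_add]; congr 1; push_cast; ring
  rw [c1]
  have hr : Real.cos u * rho u = 1 - Real.sin u := by
    unfold rho
    have h2 := Real.sin_sq_add_cos_sq u
    have : 1 + Real.sin u ≠ 0 := by positivity
    field_simp
    nlinarith
  field_simp
  linear_combination (-Real.cos (k*u) * rho u ^ n) * hr

/-! ### exponential comparison -/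

theorem rho_le_exp {u : ℝ} (h0 : 0 ≤ u) (h1 : u ≤ π/2) : rho u ≤ Real.exp (-(u/π)) := by
  have hs := sin_ge h0 h1
  have hpi := Real.pi_pos
  have hx0 : 0 ≤ u/π := by positivity
  have hx1 : u/π ≤ 1/2 := by
    rw [div_le_iff₀ hpi]; linarith
  have he : Real.exp (u/π) ≤ 1 / (1 - u/π) := Real.exp_bound_div_one_sub_of_interval hx0 (by linarith)
  have he2 : Real.exp (u/π) ≤ 1 + 2*(u/π) := by
    refine he.trans ?_
    rw [div_le_iff₀ (by linarith)]
    nlinarith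
  have h3 : Real.exp (u/π) ≤ 1 + Real.sin u := by
    have : 2 / π * u = 2 * (u/π) := by ring
    linarith
  have h4 : rho u ≤ 1 / (1 + Real.sin u) := by
    unfold rho
    have : 0 < 1 + Real.sin u := lt_of_lt_of_le (Real.exp_pos _) h3
    exact div_le_div_of_nonneg_right (Real.cos_le_one u) this.le
  refine h4.trans ?_
  rw [Real.exp_neg, ← one_div]
  exact one_div_le_one_div_of_le (Real.exp_pos _) h3

theorem abs_exp_sub_rho_le {u : ℝ} (h0 : 0 ≤ u) (h1 : u ≤ π/2) :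
    |rho u - Real.exp (-u)| ≤ 4 * u^2 := by
  have hpi := Real.pi_pos
  have hs : 0 ≤ Real.sin u := Real.sin_nonneg_of_nonneg_of_le_pi h0 (by linarith)
  have hsu : Real.sin u ≤ u := Real.sin_le h0
  have hc : 1 - u^2/2 ≤ Real.cos u := Real.one_sub_sq_div_two_le_cos
  have hc1 := Real.cos_le_one u
  -- u - sin u ≤ u^2 / 2 ... from sin u ≥ u - u^3/4 for u ≤ 1 and trivially for u ≥ 1
  have hsl : u - u^2 ≤ Real.sin u := by
    rcases le_total u 1 with hu | hu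
    · rcases h0.lt_or_eq with hp | hp
      · have := Real.sin_gt_sub_cube hp
        nlinarith [mul_nonneg h0 h0, mul_nonneg (mul_nonneg h0 h0) h0]
      · rw [← hp]; simp
    · nlinarith
  have e1 : |rho u - (1 - u)| ≤ (5/2) * u^2 := by
    unfold rho
    have hpos : 0 < 1 + Real.sin u := by linarith
    have : Real.cos u / (1 + Real.sin u) - (1 - u)
        = ((Real.cos u - 1) + (u - Real.sin u) + u * Real.sin u) / (1 + Real.sin u) := by
      field_simp; ring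
    rw [this, abs_div, abs_of_pos hpos, div_le_iff₀ hpos]
    have h5 : |(Real.cos u - 1) + (u - Real.sin u) + u * Real.sin u| ≤ (5/2) * u^2 := by
      rw [abs_le]
      constructor <;> nlinarith
    calc _ ≤ (5/2) * u^2 := h5
      _ ≤ (5/2) * u^2 * (1 + Real.sin u) := by nlinarith [sq_nonneg u]
  have e2 : |Real.exp (-u) - (1 - u)| ≤ (3/2) * u^2 := by
    have h6 : 1 - u ≤ Real.exp (-u) := by linarith [Real.add_one_le_exp (-u)]
    rw [abs_of_nonneg (by linarith)]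
    rcases le_total u 1 with hu | hu
    · have := Real.abs_exp_sub_one_sub_id_le (x := -u) (by rw [abs_neg, abs_of_nonneg h0]; exact hu)
      have h7 := le_abs_self (Real.exp (-u) - 1 - -u)
      nlinarith
    · have : Real.exp (-u) ≤ 1 := Real.exp_le_one_iff.2 (by linarith)
      nlinarith
  calc |rho u - Real.exp (-u)| = |(rho u - (1-u)) - (Real.exp (-u) - (1-u))| := by ring_nf
    _ ≤ |rho u - (1-u)| + |Real.exp (-u) - (1-u)| := abs_sub _ _
    _ ≤ (5/2) * u^2 + (3/2) * u^2 := add_le_add e1 e2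
    _ = _ := by ring

theorem abs_pow_sub_pow_le {a b M : ℝ} (ha : 0 ≤ a) (hb : 0 ≤ b) (haM : a ≤ M) (hbM : b ≤ M) (n : ℕ) :
    |a^(n+1) - b^(n+1)| ≤ (n+1) * M^n * |a - b| := by
  induction n with
  | zero => simp
  | succ n ih =>
    have hM : 0 ≤ M := ha.trans haM
    have h1 : a^(n+1+1) - b^(n+1+1) = a * (a^(n+1) - b^(n+1)) + (a - b) * b^(n+1) := by ring
    rw [h1]
    refine (abs_add_le _ _).trans ?_
    rw [abs_mul, abs_mul, abs_of_nonneg ha, abs_of_nonneg (pow_nonneg hb (n+1))]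
    have h2 : b^(n+1) ≤ M^(n+1) := pow_le_pow_left₀ hb hbM _
    have h3 : a * |a^(n+1) - b^(n+1)| ≤ M * ((n+1) * M^n * |a-b|) :=
      mul_le_mul haM ih (abs_nonneg _) hM
    have h4 : |a-b| * b^(n+1) ≤ |a-b| * M^(n+1) := mul_le_mul_of_nonneg_left h2 (abs_nonneg _)
    calc a * |a^(n+1) - b^(n+1)| + |a-b| * b^(n+1) ≤ M * ((n+1) * M^n * |a-b|) + |a-b| * M^(n+1) :=
          add_le_add h3 h4
      _ = _ := by push_cast; ring

theorem abs_rho_pow_sub_exp_le {u : ℝ} (h0 : 0 ≤ u) (h1 : u ≤ π/2) (n : ℕ) :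
    |rho u ^ (n+1) - Real.exp (-((n+1)*u))| ≤ 8 * (n+1) * (u^2 * Real.exp (-((n+1)/π*u))) := by
  have hpi := Real.pi_pos
  have hr0 := rho_nonneg h0 h1
  have hr := rho_le_exp h0 h1
  have he : Real.exp (-u) ≤ Real.exp (-(u/π)) := by
    apply Real.exp_le_exp.2
    have : u/π ≤ u := div_le_self h0 (by linarith [Real.pi_gt_three])
    linarith
  have hp := abs_pow_sub_pow_le hr0 (Real.exp_pos (-u)).le hr he n
  have e1 : Real.exp (-u) ^ (n+1) = Real.exp (-((n+1)*u)) := by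
    rw [← Real.exp_nat_mul]; congr 1; push_cast; ring
  rw [e1] at hp
  have e2 : Real.exp (-(u/π)) ^ n = Real.exp (u/π) * Real.exp (-((n+1)/π*u)) := by
    rw [← Real.exp_nat_mul, ← Real.exp_add]; congr 1; field_simp; ring
  rw [e2] at hp
  have e3 : Real.exp (u/π) ≤ 2 := by
    have hx0 : 0 ≤ u/π := by positivity
    have hx1 : u/π ≤ 1/2 := by rw [div_le_iff₀ hpi]; linarith
    have he : Real.exp (u/π) ≤ 1 / (1 - u/π) := Real.exp_bound_div_one_sub_of_interval hx0 (by linarith)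
    refine he.trans ?_
    rw [div_le_iff₀ (by linarith)]
    linarith
  have h4 := abs_exp_sub_rho_le h0 h1
  have hE := Real.exp_pos (-((n+1)/π*u))
  calc |rho u ^ (n+1) - Real.exp (-((n+1)*u))|
      ≤ (n+1) * (Real.exp (u/π) * Real.exp (-((n+1)/π*u))) * |rho u - Real.exp (-u)| := hp
    _ ≤ (n+1) * (2 * Real.exp (-((n+1)/π*u))) * (4 * u^2) := by
        apply mul_le_mul _ h4 (abs_nonneg _) (by positivity)
        apply mul_le_mul_of_nonneg_left _ (by positivity)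
        exact mul_le_mul_of_nonneg_right e3 hE.le
    _ = _ := by ring

theorem integral_sq_exp_le {c T : ℝ} (hc : 0 < c) (hT : 0 ≤ T) :
    ∫ u in (0:ℝ)..T, u^2 * Real.exp (-(c*u)) ≤ 2/c^3 := by
  have hd : ∀ u ∈ uIcc (0:ℝ) T, HasDerivAt (fun u : ℝ => -((u^2/c + 2*u/c^2 + 2/c^3) * Real.exp (-(c*u))))
      (u^2 * Real.exp (-(c*u))) u := by
    intro u _
    have h1 : HasDerivAt (fun u : ℝ => Real.exp (-(c*u))) (Real.exp (-(c*u)) * (-(c*1))) u :=
      (((hasDerivAt_id u).const_mul c).neg).exp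
    have h2 : HasDerivAt (fun u : ℝ => u^2/c + 2*u/c^2 + 2/c^3) (2*u/c + 2/c^2) u := by
      have a1 := (hasDerivAt_pow 2 u).div_const c
      have a2 := ((hasDerivAt_id u).const_mul 2).div_const (c^2)
      have := (a1.add a2).add_const (2/c^3)
      refine this.congr_deriv ?_
      simp
    have := (h2.mul h1).neg
    refine this.congr_deriv ?_
    field_simp
    ring
  have hi : IntervalIntegrable (fun u : ℝ => u^2 * Real.exp (-(c*u))) volume 0 T :=
    (by fun_prop : Continuous fun u : ℝ => u^2 * Real.exp (-(c*u))).intervalIntegrable _ _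
  rw [intervalIntegral.integral_eq_sub_of_hasDerivAt hd hi]
  simp only [mul_zero, neg_zero, Real.exp_zero, mul_one]
  have : 0 ≤ (T^2/c + 2*T/c^2 + 2/c^3) * Real.exp (-(c*T)) := by positivity
  have h0 : ((0:ℝ)^2/c + 0/c^2 + 2/c^3) = 2/c^3 := by simp
  rw [h0]
  linarith

theorem abs_A_sub_le (n : ℕ) {g : ℝ → ℝ} (hg : Continuous g) (hb : ∀ u, |g u| ≤ 1) :
    |(∫ u in (0:ℝ)..(π/2), rho u ^ (n+1) * g u) - ∫ u in (0:ℝ)..(π/2), Real.exp (-((n+1)*u)) * g u|
      ≤ 16 * π^3 / (n+1)^2 := by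
  have hi2 : IntervalIntegrable (fun u : ℝ => Real.exp (-(((n:ℝ)+1)*u)) * g u) volume 0 (π/2) :=
    (by fun_prop : Continuous fun u : ℝ => Real.exp (-(((n:ℝ)+1)*u)) * g u).intervalIntegrable _ _
  rw [← intervalIntegral.integral_sub (intervalIntegrable_rho_mul (n+1) hg hb) hi2]
  have hpi := Real.pi_pos
  have hn : (0:ℝ) < (n:ℝ)+1 := by positivity
  have hbd : ∀ᵐ u : ℝ ∂volume, u ∈ Set.Ioc (0:ℝ) (π/2) →
      ‖rho u ^ (n+1) * g u - Real.exp (-(((n:ℝ)+1)*u)) * g u‖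
        ≤ 8 * (n+1) * (u^2 * Real.exp (-(((n:ℝ)+1)/π*u))) := by
    refine Filter.Eventually.of_forall fun u hu => ?_
    rw [← sub_mul, Real.norm_eq_abs, abs_mul]
    have h1 := abs_rho_pow_sub_exp_le hu.1.le hu.2 n
    calc |rho u ^ (n+1) - Real.exp (-(((n:ℝ)+1)*u))| * |g u|
        ≤ |rho u ^ (n+1) - Real.exp (-(((n:ℝ)+1)*u))| * 1 :=
          mul_le_mul_of_nonneg_left (hb u) (abs_nonneg _)
      _ ≤ _ := by rw [mul_one]; exact h1
  have hci : IntervalIntegrable (fun u : ℝ => 8 * ((n:ℝ)+1) * (u^2 * Real.exp (-(((n:ℝ)+1)/π*u)))) volume 0 (π/2) :=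
    (by fun_prop : Continuous fun u : ℝ => 8 * ((n:ℝ)+1) * (u^2 * Real.exp (-(((n:ℝ)+1)/π*u)))).intervalIntegrable _ _
  have h := intervalIntegral.norm_integral_le_of_norm_le (by positivity) hbd hci
  rw [Real.norm_eq_abs] at h
  refine h.trans ?_
  rw [intervalIntegral.integral_const_mul]
  have hc : 0 < ((n:ℝ)+1)/π := by positivity
  have := integral_sq_exp_le hc (by positivity : (0:ℝ) ≤ π/2)
  calc 8 * ((n:ℝ)+1) * ∫ u in (0:ℝ)..(π/2), u^2 * Real.exp (-(((n:ℝ)+1)/π*u))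
      ≤ 8 * ((n:ℝ)+1) * (2 / (((n:ℝ)+1)/π)^3) := mul_le_mul_of_nonneg_left this (by positivity)
    _ = _ := by field_simp; ring

theorem exp_neg_le {x : ℝ} (hx : 0 < x) : Real.exp (-x) ≤ 1/x := by
  rw [Real.exp_neg, ← one_div]
  exact one_div_le_one_div_of_le hx (by linarith [Real.add_one_le_exp x])

theorem abs_lin_le (a b : ℝ) (hab : 0 < a^2 + b^2) (ha : 0 < a) (s c : ℝ) (hs : |s| ≤ 1) (hc : |c| ≤ 1) :
    |(b * s - a * c) / (a^2+b^2)| ≤ 2 / a := by
  rw [abs_div, abs_of_pos hab, div_le_div_iff₀ hab ha]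
  have h1 : |b * s - a * c| ≤ |b| + a := by
    refine (abs_sub _ _).trans ?_
    rw [abs_mul, abs_mul, abs_of_pos ha]
    nlinarith [abs_nonneg b]
  have hb2 : b^2 = |b|^2 := (sq_abs b).symm
  rw [hb2]
  have := abs_nonneg b
  nlinarith [sq_nonneg (a - |b|)]

theorem integral_exp_cos (a b : ℝ) (ha : 0 < a) :
    |(∫ u in (0:ℝ)..(π/2), Real.exp (-(a*u)) * Real.cos (b*u)) - a/(a^2+b^2)| ≤ 2/a^2 := by
  have hab : 0 < a^2 + b^2 := by positivity
  have hd : ∀ u ∈ uIcc (0:ℝ) (π/2), HasDerivAt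
      (fun u : ℝ => Real.exp (-(a*u)) * ((b * Real.sin (b*u) - a * Real.cos (b*u)) / (a^2+b^2)))
      (Real.exp (-(a*u)) * Real.cos (b*u)) u := by
    intro u _
    have h1 : HasDerivAt (fun u : ℝ => Real.exp (-(a*u))) (Real.exp (-(a*u)) * (-(a*1))) u :=
      (((hasDerivAt_id u).const_mul a).neg).exp
    have h2 : HasDerivAt (fun u : ℝ => Real.sin (b*u)) (Real.cos (b*u) * (b*1)) u :=
      ((hasDerivAt_id u).const_mul b).sin
    have h3 : HasDerivAt (fun u : ℝ => Real.cos (b*u)) (-Real.sin (b*u) * (b*1)) u :=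
      ((hasDerivAt_id u).const_mul b).cos
    have := h1.mul (((h2.const_mul b).sub (h3.const_mul a)).div_const (a^2+b^2))
    refine this.congr_deriv ?_
    simp only [Pi.sub_apply]
    field_simp
    ring
  have hi : IntervalIntegrable (fun u : ℝ => Real.exp (-(a*u)) * Real.cos (b*u)) volume 0 (π/2) :=
    (by fun_prop : Continuous fun u : ℝ => Real.exp (-(a*u)) * Real.cos (b*u)).intervalIntegrable _ _
  rw [intervalIntegral.integral_eq_sub_of_hasDerivAt hd hi]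
  simp only [mul_zero, neg_zero, Real.exp_zero, Real.sin_zero, Real.cos_zero, one_mul, mul_one, zero_sub]
  have e : Real.exp (-(a*(π/2))) * ((b * Real.sin (b*(π/2)) - a * Real.cos (b*(π/2))) / (a^2+b^2))
      - (-a)/(a^2+b^2) - a/(a^2+b^2)
      = Real.exp (-(a*(π/2))) * ((b * Real.sin (b*(π/2)) - a * Real.cos (b*(π/2))) / (a^2+b^2)) := by ring
  rw [e, abs_mul, abs_of_pos (Real.exp_pos _)]
  have h5 := abs_lin_le a b hab ha _ _ (Real.abs_sin_le_one (b*(π/2))) (Real.abs_cos_le_one (b*(π/2)))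
  have h6 := exp_neg_le (x := a*(π/2)) (by positivity)
  have h7 : 1/(a*(π/2)) ≤ 1/a := by
    apply one_div_le_one_div_of_le ha
    nlinarith [Real.pi_gt_three]
  calc Real.exp (-(a*(π/2))) * |(b * Real.sin (b*(π/2)) - a * Real.cos (b*(π/2))) / (a^2+b^2)|
      ≤ (1/a) * (2/a) := mul_le_mul (h6.trans h7) h5 (abs_nonneg _) (by positivity)
    _ = 2/a^2 := by ring

theorem integral_exp_sin (a b : ℝ) (ha : 0 < a) :
    |(∫ u in (0:ℝ)..(π/2), Real.exp (-(a*u)) * Real.sin (b*u)) - b/(a^2+b^2)| ≤ 2/a^2 := by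
  have hab : 0 < a^2 + b^2 := by positivity
  have hd : ∀ u ∈ uIcc (0:ℝ) (π/2), HasDerivAt
      (fun u : ℝ => Real.exp (-(a*u)) * ((-b * Real.cos (b*u) - a * Real.sin (b*u)) / (a^2+b^2)))
      (Real.exp (-(a*u)) * Real.sin (b*u)) u := by
    intro u _
    have h1 : HasDerivAt (fun u : ℝ => Real.exp (-(a*u))) (Real.exp (-(a*u)) * (-(a*1))) u :=
      (((hasDerivAt_id u).const_mul a).neg).exp
    have h2 : HasDerivAt (fun u : ℝ => Real.sin (b*u)) (Real.cos (b*u) * (b*1)) u :=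
      ((hasDerivAt_id u).const_mul b).sin
    have h3 : HasDerivAt (fun u : ℝ => Real.cos (b*u)) (-Real.sin (b*u) * (b*1)) u :=
      ((hasDerivAt_id u).const_mul b).cos
    have := h1.mul (((h3.const_mul (-b)).sub (h2.const_mul a)).div_const (a^2+b^2))
    refine this.congr_deriv ?_
    simp only [Pi.sub_apply]
    field_simp
    ring
  have hi : IntervalIntegrable (fun u : ℝ => Real.exp (-(a*u)) * Real.sin (b*u)) volume 0 (π/2) :=
    (by fun_prop : Continuous fun u : ℝ => Real.exp (-(a*u)) * Real.sin (b*u)).intervalIntegrable _ _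
  rw [intervalIntegral.integral_eq_sub_of_hasDerivAt hd hi]
  simp only [mul_zero, neg_zero, Real.exp_zero, Real.sin_zero, Real.cos_zero, one_mul, mul_one, sub_zero]
  have e : Real.exp (-(a*(π/2))) * ((-b * Real.cos (b*(π/2)) - a * Real.sin (b*(π/2))) / (a^2+b^2))
      - (-b)/(a^2+b^2) - b/(a^2+b^2)
      = Real.exp (-(a*(π/2))) * ((-b * Real.cos (b*(π/2)) - a * Real.sin (b*(π/2))) / (a^2+b^2)) := by ring
  rw [e, abs_mul, abs_of_pos (Real.exp_pos _)]
  have h5 := abs_lin_le a (-b) (by simpa using hab) ha _ _ (Real.abs_cos_le_one (b*(π/2))) (Real.abs_sin_le_one (b*(π/2)))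
  rw [neg_sq] at h5
  have h6 := exp_neg_le (x := a*(π/2)) (by positivity)
  have h7 : 1/(a*(π/2)) ≤ 1/a := by
    apply one_div_le_one_div_of_le ha
    nlinarith [Real.pi_gt_three]
  calc Real.exp (-(a*(π/2))) * |(-b * Real.cos (b*(π/2)) - a * Real.sin (b*(π/2))) / (a^2+b^2)|
      ≤ (1/a) * (2/a) := mul_le_mul (h6.trans h7) h5 (abs_nonneg _) (by positivity)
    _ = 2/a^2 := by ring

/-- asymptotics of `AA`, `BB` -/
theorem AA_asymp (n : ℕ) (k : ℤ) :
    |AA (n+1) k - ((n:ℝ)+1)/(((n:ℝ)+1)^2 + (k:ℝ)^2)| ≤ (16*π^3+2)/((n:ℝ)+1)^2 := by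
  have h1 := abs_A_sub_le n (g := fun u => Real.cos (k*u)) (by fun_prop) (fun u => Real.abs_cos_le_one _)
  have h2 := integral_exp_cos ((n:ℝ)+1) k (by positivity)
  unfold AA
  calc _ ≤ _ := abs_sub_le _ (∫ u in (0:ℝ)..(π/2), Real.exp (-(((n:ℝ)+1)*u)) * Real.cos (k*u)) _
    _ ≤ 16 * π^3 / (n+1)^2 + 2/((n:ℝ)+1)^2 := add_le_add h1 h2
    _ = _ := by ring

theorem BB_asymp (n : ℕ) (k : ℤ) :
    |BB (n+1) k - (k:ℝ)/(((n:ℝ)+1)^2 + (k:ℝ)^2)| ≤ (16*π^3+2)/((n:ℝ)+1)^2 := by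
  have h1 := abs_A_sub_le n (g := fun u => Real.sin (k*u)) (by fun_prop) (fun u => Real.abs_sin_le_one _)
  have h2 := integral_exp_sin ((n:ℝ)+1) k (by positivity)
  unfold BB
  calc _ ≤ _ := abs_sub_le _ (∫ u in (0:ℝ)..(π/2), Real.exp (-(((n:ℝ)+1)*u)) * Real.sin (k*u)) _
    _ ≤ 16 * π^3 / (n+1)^2 + 2/((n:ℝ)+1)^2 := add_le_add h1 h2
    _ = _ := by ring

/-- step `(k,l) → (k+1,l+1)` for `l = n+1 ≥ 1`, any `k`. -/
theorem pk0_step_asymp (n : ℕ) (k : ℤ) :
    |pk0 (k+1) ((n:ℤ)+1+1) - pk0 k ((n:ℤ)+1) - (1/(2*π)) * (((k:ℝ) + (n+1))/((k:ℝ)^2 + ((n:ℝ)+1)^2))|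
      ≤ 200/((n:ℝ)+1)^2 := by
  have h := pk0_step k (n+1)
  rw [show (((n+1 : ℕ) : ℤ)) = (n:ℤ) + 1 by push_cast; ring] at h
  have hA := AA_asymp n k
  have hB := BB_asymp (n+1) k
  push_cast at hB
  have hn : (0:ℝ) < (n:ℝ)+1 := by positivity
  set N : ℝ := (n:ℝ)+1 with hN
  have hN1 : 1 ≤ N := by rw [hN]; linarith [(Nat.cast_nonneg n : (0:ℝ) ≤ n)]
  have hBd : |(k:ℝ)/((N+1)^2 + (k:ℝ)^2) - (k:ℝ)/(N^2+(k:ℝ)^2)| ≤ 2/N^2 := by
    have e1 : (k:ℝ)/((N+1)^2 + (k:ℝ)^2) - (k:ℝ)/(N^2+(k:ℝ)^2)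
        = -((k:ℝ) * (2*N+1)) / (((N+1)^2 + (k:ℝ)^2) * (N^2+(k:ℝ)^2)) := by
      field_simp; ring
    rw [e1, abs_div, abs_neg, abs_mul, abs_of_pos (by positivity : (0:ℝ) < 2*N+1),
      abs_of_pos (by positivity : (0:ℝ) < ((N+1)^2 + (k:ℝ)^2) * (N^2+(k:ℝ)^2)),
      div_le_div_iff₀ (by positivity) (by positivity)]
    have hk2 : (k:ℝ)^2 = |(k:ℝ)|^2 := (sq_abs _).symm
    rw [hk2]
    have hk0 : 0 ≤ |(k:ℝ)| := abs_nonneg _
    set K := |(k:ℝ)|
    have h1 : 2 * (K * N) ≤ N^2 + K^2 := by nlinarith [sq_nonneg (K - N)]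
    have h2 : (2*N+1) * N ≤ 3 * ((N+1)^2 + K^2) := by nlinarith [sq_nonneg K]
    have h3 : 0 ≤ K * N := by positivity
    have h4 : 0 ≤ (2*N+1) * N := by positivity
    calc K * (2*N+1) * N^2 = (K * N) * ((2*N+1) * N) := by ring
      _ ≤ ((N^2+K^2)/2) * (3 * ((N+1)^2 + K^2)) := by
          apply mul_le_mul (by linarith) h2 h4 (by positivity)
      _ ≤ 2 * (((N+1)^2+K^2) * (N^2+K^2)) := by
          have : 0 ≤ (N^2+K^2) * ((N+1)^2+K^2) := by positivity
          nlinarith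
  have hB2 : |BB (n+1+1) k - (k:ℝ)/(N^2+(k:ℝ)^2)| ≤ (16*π^3+4)/N^2 := by
    have hB' : |BB (n+1+1) k - (k:ℝ)/((N+1)^2 + (k:ℝ)^2)| ≤ (16*π^3+2)/N^2 := by
      refine hB.trans ?_
      apply div_le_div_of_nonneg_left (by positivity) (by positivity)
      nlinarith
    calc _ ≤ _ := abs_sub_le _ ((k:ℝ)/((N+1)^2 + (k:ℝ)^2)) _
      _ ≤ (16*π^3+2)/N^2 + 2/N^2 := add_le_add hB' hBd
      _ = _ := by ring
  rw [h, ← mul_sub, abs_mul, abs_of_pos (by positivity : (0:ℝ) < 1/(2*π))]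
  have e2 : AA (n+1) k + BB (n+1+1) k - ((k:ℝ) + N)/((k:ℝ)^2 + N^2)
      = (AA (n+1) k - N/(N^2+(k:ℝ)^2)) + (BB (n+1+1) k - (k:ℝ)/(N^2+(k:ℝ)^2)) := by
    have : (k:ℝ)^2 + N^2 = N^2 + (k:ℝ)^2 := by ring
    rw [this, add_div]; ring
  rw [e2]
  have h5 : |(AA (n+1) k - N/(N^2+(k:ℝ)^2)) + (BB (n+1+1) k - (k:ℝ)/(N^2+(k:ℝ)^2))|
      ≤ (32*π^3+6)/N^2 := by
    refine (abs_add_le _ _).trans ?_
    calc _ ≤ (16*π^3+2)/N^2 + (16*π^3+4)/N^2 := add_le_add hA hB2
      _ = _ := by ring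
  have hpi3 := Real.pi_gt_three
  have hpi4 : π < 3.15 := Real.pi_lt_d2
  have h6 : 1/(2*π) * (32*π^3+6) ≤ 200 := by
    rw [one_div, inv_mul_le_iff₀ (by positivity)]
    nlinarith [sq_nonneg π]
  calc 1/(2*π) * |(AA (n+1) k - N/(N^2+(k:ℝ)^2)) + (BB (n+1+1) k - (k:ℝ)/(N^2+(k:ℝ)^2))|
      ≤ 1/(2*π) * ((32*π^3+6)/N^2) := mul_le_mul_of_nonneg_left h5 (by positivity)
    _ = (1/(2*π) * (32*π^3+6))/N^2 := by ring
    _ ≤ 200/N^2 := div_le_div_of_nonneg_right h6 (by positivity)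

end Crest.Agent.R165.Pkx583
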