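import Mathlib
import Crest.Agent.R165.PkA_583
import Crest.Agent.R165.PkC_583

/-!
Row 165 (S0250), block U4 (helper644): explicit functions of the plane with one branch vertex.

`P k n = (2/π) ∫_0^{π/2} (2 sin u)^{-1/2} cos ((k + 1/2) u - π/4) ρ(u)^n du`,
`ρ(u) = cos u / (1 + sin u)`, in the characteristic coordinates `k = x + y`, `n = |x - y|`.
It is the harmonic measure of the tip of the slit `{(j, j) : j ≤ 0}` in `ℤ²`.

This file: Cauchy-Riemann relations `cr1`, `cr2` between `P k n` and `P (-k) n`, the values on the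
diagonal (`diag_rec`, `P_neg`, `P_zero`).
-/

set_option autoImplicit false

namespace Crest.Agent.R165.Br0x644

open Real MeasureTheory Set intervalIntegral
open Crest.Agent.R165.Pkx583 (rho rho_nonneg rho_le_one sin_ge sin_pos')

/-- the amplitude `(2 sin u)^{-1/2}` -/
noncomputable def amp (u : ℝ) : ℝ := 1 / √(2 * Real.sin u)

theorem amp_nonneg (u : ℝ) : 0 ≤ amp u := by unfold amp; positivity

theorem le_two_sin {u : ℝ} (h0 : 0 ≤ u) (h1 : u ≤ π/2) : u ≤ 2 * Real.sin u := by
  have hs := sin_ge h0 h1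
  have hpi : π ≤ 4 := Real.pi_le_four
  have : (1/2) * u ≤ (2/π) * u := by
    apply mul_le_mul_of_nonneg_right _ h0
    rw [div_le_div_iff₀ (by norm_num) Real.pi_pos]
    linarith
  linarith

theorem amp_le {u : ℝ} (h0 : 0 < u) (h1 : u ≤ π/2) : amp u ≤ 1 / √u := by
  unfold amp
  exact one_div_le_one_div_of_le (Real.sqrt_pos.2 h0) (Real.sqrt_le_sqrt (le_two_sin h0.le h1))

theorem one_div_sqrt {u : ℝ} (h0 : 0 < u) : 1 / √u = u ^ (-(1/2) : ℝ) := by
  rw [Real.sqrt_eq_rpow, Real.rpow_neg h0.le, one_div]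

theorem measurable_rho : Measurable rho := by unfold rho; fun_prop

theorem measurable_amp : Measurable amp := by unfold amp; fun_prop

theorem ii_sqrt (a b : ℝ) : IntervalIntegrable (fun u : ℝ => u ^ (-(1/2) : ℝ)) volume a b :=
  intervalIntegral.intervalIntegrable_rpow' (by norm_num)

/-- basic integrability: measurable, bounded by a constant times `u^{-1/2}` -/
theorem ii_of_le {f : ℝ → ℝ} {C : ℝ} (hf : Measurable f)
    (hb : ∀ u, 0 < u → u ≤ π/2 → |f u| ≤ C * u ^ (-(1/2) : ℝ)) :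
    IntervalIntegrable f volume 0 (π/2) := by
  have hg : IntervalIntegrable (fun u : ℝ => C * u ^ (-(1/2) : ℝ)) volume 0 (π/2) :=
    (ii_sqrt 0 (π/2)).const_mul C
  refine hg.mono_fun' hf.aestronglyMeasurable ?_
  rw [uIoc_of_le (by positivity)]
  refine (ae_restrict_iff' measurableSet_Ioc).2 (Filter.Eventually.of_forall fun u hu => ?_)
  show ‖f u‖ ≤ _
  rw [Real.norm_eq_abs]
  exact hb u hu.1 hu.2

theorem rho_pow_le (n : ℕ) {u : ℝ} (h0 : 0 ≤ u) (h1 : u ≤ π/2) : |rho u ^ n| ≤ 1 := by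
  rw [abs_of_nonneg (pow_nonneg (rho_nonneg h0 h1) n)]
  exact pow_le_one₀ (rho_nonneg h0 h1) (rho_le_one h0 h1)

theorem ii_amp (n : ℕ) {g : ℝ → ℝ} (hg : Measurable g) (hb : ∀ u, |g u| ≤ 1) :
    IntervalIntegrable (fun u => amp u * (rho u ^ n * g u)) volume 0 (π/2) := by
  refine ii_of_le (C := 1) (measurable_amp.mul ((measurable_rho.pow_const n).mul hg)) ?_
  intro u h0 h1
  rw [abs_mul, abs_mul, abs_of_nonneg (amp_nonneg u), one_mul, ← one_div_sqrt h0]
  have h2 := rho_pow_le n h0.le h1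
  have h3 := amp_le h0 h1
  calc amp u * (|rho u ^ n| * |g u|) ≤ amp u * (1 * 1) :=
        mul_le_mul_of_nonneg_left (mul_le_mul h2 (hb u) (abs_nonneg _) zero_le_one) (amp_nonneg u)
    _ ≤ 1 / √u := by rw [mul_one, mul_one]; exact h3

/-- the phase -/
noncomputable def ph (k : ℤ) (u : ℝ) : ℝ := Real.cos ((k + 1/2) * u - π/4)

theorem measurable_ph (k : ℤ) : Measurable (ph k) := by unfold ph; fun_prop

theorem abs_ph_le (k : ℤ) (u : ℝ) : |ph k u| ≤ 1 := Real.abs_cos_le_one _

/-- the harmonic measure of the tip, in characteristic coordinates `k = x + y`, `n = |x - y|` -/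
noncomputable def P (k : ℤ) (n : ℕ) : ℝ :=
  (2/π) * ∫ u in (0:ℝ)..(π/2), amp u * (rho u ^ n * ph k u)

theorem ii_P (k : ℤ) (n : ℕ) :
    IntervalIntegrable (fun u => amp u * (rho u ^ n * ph k u)) volume 0 (π/2) :=
  ii_amp n (measurable_ph k) (abs_ph_le k)

/-! ### half angles -/

theorem rho_half {u : ℝ} (h0 : 0 ≤ u) (h1 : u ≤ π/2) :
    rho u * (Real.cos (u/2) + Real.sin (u/2)) = Real.cos (u/2) - Real.sin (u/2) := by
  have hpi := Real.pi_pos
  have hs : Real.sin u = 2 * Real.sin (u/2) * Real.cos (u/2) := by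
    rw [← Real.sin_two_mul]; congr 1; ring
  have hc : Real.cos u = Real.cos (u/2) ^ 2 - Real.sin (u/2) ^ 2 := by
    have := Real.cos_two_mul' (u/2)
    rw [← this]; congr 1; ring
  have h2 := Real.sin_sq_add_cos_sq (u/2)
  have hs0 : 0 ≤ Real.sin u := Real.sin_nonneg_of_nonneg_of_le_pi h0 (by linarith)
  have hne : 1 + Real.sin u ≠ 0 := by linarith
  unfold rho
  rw [div_mul_eq_mul_div, div_eq_iff hne, hs, hc]
  linear_combination (Real.cos (u/2) - Real.sin (u/2)) * h2

theorem half_pos {u : ℝ} (h0 : 0 ≤ u) (h1 : u ≤ π/2) :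
    0 < Real.cos (u/2) + Real.sin (u/2) := by
  have hpi := Real.pi_pos
  have h2 : 0 < Real.cos (u/2) := Real.cos_pos_of_mem_Ioo ⟨by linarith, by linarith⟩
  have h3 : 0 ≤ Real.sin (u/2) := Real.sin_nonneg_of_nonneg_of_le_pi (by linarith) (by linarith)
  linarith

/-- `cos ((a + 1/2) u - π/4)` in terms of half angles -/
theorem ph_plus (k : ℤ) (u : ℝ) : ph (k+1) u =
    (√2/2) * ((Real.cos ((k+1)*u) * Real.cos (u/2) - Real.sin ((k+1)*u) * Real.sin (u/2))
      + (Real.sin ((k+1)*u) * Real.cos (u/2) + Real.cos ((k+1)*u) * Real.sin (u/2))) := by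
  unfold ph
  rw [← Real.cos_add, ← Real.sin_add, Real.cos_sub, Real.cos_pi_div_four, Real.sin_pi_div_four]
  have : (((k+1 : ℤ) : ℝ) + 1/2) * u = (k+1)*u + u/2 := by push_cast; ring
  rw [this]; ring

theorem ph_minus (k : ℤ) (u : ℝ) : ph k u =
    (√2/2) * ((Real.cos ((k+1)*u) * Real.cos (u/2) + Real.sin ((k+1)*u) * Real.sin (u/2))
      + (Real.sin ((k+1)*u) * Real.cos (u/2) - Real.cos ((k+1)*u) * Real.sin (u/2))) := by
  unfold ph
  rw [← Real.cos_sub, ← Real.sin_sub, Real.cos_sub ((k + 1/2)*u), Real.cos_pi_div_four,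
    Real.sin_pi_div_four]
  have : ((k : ℝ) + 1/2) * u = (k+1)*u - u/2 := by ring
  rw [this]; ring

theorem ph_neg2 (k : ℤ) (u : ℝ) : ph (-k-2) u =
    (√2/2) * ((Real.cos ((k+1)*u) * Real.cos (u/2) - Real.sin ((k+1)*u) * Real.sin (u/2))
      - (Real.sin ((k+1)*u) * Real.cos (u/2) + Real.cos ((k+1)*u) * Real.sin (u/2))) := by
  unfold ph
  rw [← Real.cos_add, ← Real.sin_add, ← Real.cos_neg]
  have : -((((-k-2 : ℤ) : ℝ) + 1/2) * u - π/4) = ((k+1)*u + u/2) + π/4 := by push_cast; ring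
  rw [this, Real.cos_add ((k+1)*u + u/2), Real.cos_pi_div_four, Real.sin_pi_div_four]; ring

theorem ph_neg1 (k : ℤ) (u : ℝ) : ph (-k-1) u =
    (√2/2) * ((Real.cos ((k+1)*u) * Real.cos (u/2) + Real.sin ((k+1)*u) * Real.sin (u/2))
      - (Real.sin ((k+1)*u) * Real.cos (u/2) - Real.cos ((k+1)*u) * Real.sin (u/2))) := by
  unfold ph
  rw [← Real.cos_sub, ← Real.sin_sub, ← Real.cos_neg]
  have : -((((-k-1 : ℤ) : ℝ) + 1/2) * u - π/4) = ((k+1)*u - u/2) + π/4 := by push_cast; ring
  rw [this, Real.cos_add ((k+1)*u - u/2), Real.cos_pi_div_four, Real.sin_pi_div_four]; ring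

theorem cr1_pt (k : ℤ) {u : ℝ} (h0 : 0 ≤ u) (h1 : u ≤ π/2) :
    rho u * ph (k+1) u - ph k u = ph (-k-2) u - rho u * ph (-k-1) u := by
  have hr := rho_half h0 h1
  rw [ph_plus, ph_minus, ph_neg2, ph_neg1]
  linear_combination (√2 * Real.cos ((k+1)*u)) * hr

theorem cr2_pt (k : ℤ) {u : ℝ} (h0 : 0 ≤ u) (h1 : u ≤ π/2) :
    ph (k+1) u - rho u * ph k u = ph (-k-1) u - rho u * ph (-k-2) u := by
  have hr := rho_half h0 h1
  rw [ph_plus, ph_minus, ph_neg2, ph_neg1]
  linear_combination (-√2 * Real.sin ((k+1)*u)) * hr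

/-- first Cauchy-Riemann relation -/
theorem cr1 (k : ℤ) (n : ℕ) : P (k+1) (n+1) - P k n = P (-k-2) n - P (-k-1) (n+1) := by
  unfold P
  rw [← mul_sub, ← mul_sub, ← intervalIntegral.integral_sub (ii_P _ _) (ii_P _ _),
    ← intervalIntegral.integral_sub (ii_P _ _) (ii_P _ _)]
  congr 1
  apply intervalIntegral.integral_congr
  intro u hu
  rw [uIcc_of_le (by positivity)] at hu
  have h := cr1_pt k hu.1 hu.2
  simp only []
  rw [pow_succ]
  linear_combination (amp u * rho u ^ n) * h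

/-- second Cauchy-Riemann relation -/
theorem cr2 (k : ℤ) (n : ℕ) : P (k+1) n - P k (n+1) = P (-k-1) n - P (-k-2) (n+1) := by
  unfold P
  rw [← mul_sub, ← mul_sub, ← intervalIntegral.integral_sub (ii_P _ _) (ii_P _ _),
    ← intervalIntegral.integral_sub (ii_P _ _) (ii_P _ _)]
  congr 1
  apply intervalIntegral.integral_congr
  intro u hu
  rw [uIcc_of_le (by positivity)] at hu
  have h := cr2_pt k hu.1 hu.2
  simp only []
  rw [pow_succ]
  linear_combination (amp u * rho u ^ n) * h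

/-! ### the diagonal -/

theorem diag_rec (k : ℤ) : 2 * k * P (2*k) 0 = (2*k - 1) * P (2*(k-1)) 0 := by
  have hpi := Real.pi_pos
  set q : ℝ := 2 * k - 1/2 with hq
  set f : ℝ → ℝ := fun u => √(2 * Real.sin u) * Real.sin (q * u + π/4) with hf
  set f' : ℝ → ℝ := fun u => 2 * k * (amp u * (rho u ^ 0 * ph (2*k) u))
    - (2*k - 1) * (amp u * (rho u ^ 0 * ph (2*(k-1)) u)) with hf'
  have hcont : ContinuousOn f (Icc 0 (π/2)) := by
    apply Continuous.continuousOn
    simp only [hf]; fun_prop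
  have hderiv : ∀ u ∈ Ioo (0:ℝ) (π/2), HasDerivAt f (f' u) u := by
    intro u hu
    have hs : 0 < Real.sin u := sin_pos' hu.1 hu.2.le
    have hs2 : 2 * Real.sin u ≠ 0 := by positivity
    have h1 : HasDerivAt (fun u => √(2 * Real.sin u)) (2 * Real.cos u / (2 * √(2 * Real.sin u))) u :=
      ((Real.hasDerivAt_sin u).const_mul 2).sqrt hs2
    have h2 : HasDerivAt (fun u : ℝ => Real.sin (q * u + π/4)) (Real.cos (q * u + π/4) * (q * 1)) u :=
      (((hasDerivAt_id u).const_mul q).add_const (π/4)).sin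
    have h3 := h1.mul h2
    refine h3.congr_deriv ?_
    simp only [hf', pow_zero, one_mul, amp, ph]
    have hsq : √(2 * Real.sin u) * √(2 * Real.sin u) = 2 * Real.sin u :=
      Real.mul_self_sqrt (by positivity)
    have hsne : √(2 * Real.sin u) ≠ 0 := by positivity
    have e1 : Real.cos (((2*k : ℤ) + 1/2) * u - π/4) = Real.sin (q * u + π/4) * Real.cos u
        + Real.cos (q * u + π/4) * Real.sin u := by
      rw [← Real.sin_add, ← Real.sin_pi_div_two_sub, ← Real.sin_pi_sub]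
      congr 1
      rw [hq]; push_cast; ring
    have e2 : Real.cos (((2*(k-1) : ℤ) + 1/2) * u - π/4) = Real.sin (q * u + π/4) * Real.cos u
        - Real.cos (q * u + π/4) * Real.sin u := by
      rw [← Real.sin_sub, ← Real.sin_pi_div_two_sub, ← Real.sin_pi_sub]
      congr 1
      rw [hq]; push_cast; ring
    rw [e1, e2]
    generalize Real.sin (q * u + π/4) = A
    generalize Real.cos (q * u + π/4) = B
    have e3 : √(2 * Real.sin u) = 2 * Real.sin u / √(2 * Real.sin u) := by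
      rw [eq_div_iff hsne]; exact hsq
    rw [mul_one, hq]
    have e4 : 2 * Real.cos u / (2 * √(2 * Real.sin u)) = Real.cos u * (1 / √(2 * Real.sin u)) := by
      field_simp
    rw [e4]
    have e5 : √(2 * Real.sin u) * (B * (2 * (k:ℝ) - 1/2))
        = 2 * Real.sin u * (1 / √(2 * Real.sin u)) * (B * (2 * (k:ℝ) - 1/2)) := by
      rw [mul_one_div, ← e3]
    rw [e5]
    ring
  have hint : IntervalIntegrable f' volume 0 (π/2) :=
    ((ii_P _ _).const_mul _).sub ((ii_P _ _).const_mul _)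
  have hft := intervalIntegral.integral_eq_sub_of_hasDerivAt_of_le (by positivity) hcont hderiv hint
  have hend : f (π/2) - f 0 = 0 := by
    simp only [hf, mul_zero, Real.sin_zero, Real.sqrt_zero, zero_mul, sub_zero]
    have : q * (π/2) + π/4 = (k:ℝ) * π := by rw [hq]; ring
    rw [this, Real.sin_int_mul_pi, mul_zero]
  rw [hend] at hft
  simp only [hf'] at hft
  rw [intervalIntegral.integral_sub ((ii_P _ _).const_mul _) ((ii_P _ _).const_mul _),
    intervalIntegral.integral_const_mul, intervalIntegral.integral_const_mul] at hft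
  unfold P
  linear_combination (2/π) * hft

theorem P_neg (k : ℤ) (hk : k < 0) : P (2*k) 0 = 0 := by
  have key : ∀ m : ℕ, P (2*(-(m:ℤ)-1)) 0 = 0 := by
    intro m
    induction m with
    | zero =>
      have h := diag_rec 0
      norm_num at h ⊢
      linarith
    | succ m ih =>
      have h := diag_rec (-(m:ℤ)-1)
      rw [ih, mul_zero] at h
      have h2 : ((2 * ((-(m:ℤ)-1 : ℤ) : ℝ) - 1)) ≠ 0 := by
        push_cast
        have : (0:ℝ) ≤ m := Nat.cast_nonneg m
        intro h; linarith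
      have h3 := (mul_eq_zero.1 h.symm).resolve_left h2
      have e : 2 * (-(((m+1 : ℕ)) : ℤ) - 1) = 2 * (-(m:ℤ) - 1 - 1) := by push_cast; ring
      rw [e]; exact h3
  obtain ⟨m, rfl⟩ : ∃ m : ℕ, k = -(m:ℤ) - 1 := ⟨(-k-1).toNat, by omega⟩
  exact key m

theorem P_zero : P 0 0 = 1 := by
  have hpi := Real.pi_pos
  set f : ℝ → ℝ := fun u => -Real.arcsin (Real.cos (u/2) - Real.sin (u/2)) with hf
  have hcont : ContinuousOn f (Icc 0 (π/2)) := by
    apply Continuous.continuousOn
    simp only [hf]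
    exact (Real.continuous_arcsin.comp (by fun_prop)).neg
  have hderiv : ∀ u ∈ Ioo (0:ℝ) (π/2), HasDerivAt f (amp u * (rho u ^ 0 * ph 0 u)) u := by
    intro u hu
    have hs : 0 < Real.sin u := sin_pos' hu.1 hu.2.le
    have h2 := Real.sin_sq_add_cos_sq (u/2)
    have hsu : Real.sin u = 2 * Real.sin (u/2) * Real.cos (u/2) := by
      rw [← Real.sin_two_mul]; congr 1; ring
    have hv : 1 - (Real.cos (u/2) - Real.sin (u/2))^2 = Real.sin u := by
      rw [hsu]; linear_combination -h2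
    have hv1 : Real.cos (u/2) - Real.sin (u/2) ≠ 1 := by
      intro h; rw [h] at hv; norm_num at hv; linarith
    have hv2 : Real.cos (u/2) - Real.sin (u/2) ≠ -1 := by
      intro h; rw [h] at hv; norm_num at hv; linarith
    have d1 : HasDerivAt (fun u : ℝ => Real.cos (u/2) - Real.sin (u/2))
        (-Real.sin (u/2) * (1/2) - Real.cos (u/2) * (1/2)) u := by
      have d0 : HasDerivAt (fun u : ℝ => u/2) (1/2) u := (hasDerivAt_id u).div_const 2
      exact d0.cos.sub d0.sin
    have d2 := (Real.hasDerivAt_arcsin hv2 hv1).comp u d1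
    have d3 := d2.neg
    refine d3.congr_deriv ?_
    rw [hv]
    have e1 : ph 0 u = (√2/2) * (Real.cos (u/2) + Real.sin (u/2)) := by
      unfold ph
      have : (((0:ℤ):ℝ) + 1/2) * u - π/4 = u/2 - π/4 := by push_cast; ring
      rw [this, Real.cos_sub, Real.cos_pi_div_four, Real.sin_pi_div_four]; ring
    rw [e1, pow_zero, one_mul]
    unfold amp
    rw [Real.sqrt_mul (by norm_num : (0:ℝ) ≤ 2)]
    have hs3 : √(Real.sin u) ≠ 0 := (Real.sqrt_pos.2 hs).ne'
    have hs4 : √(2:ℝ) ≠ 0 := by positivity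
    field_simp
    ring
  have hft := intervalIntegral.integral_eq_sub_of_hasDerivAt_of_le (by positivity) hcont hderiv
    (ii_P 0 0)
  unfold P
  rw [hft]
  simp only [hf]
  have e1 : Real.cos (π/2/2) - Real.sin (π/2/2) = 0 := by
    rw [show π/2/2 = π/4 by ring, Real.cos_pi_div_four, Real.sin_pi_div_four]; ring
  rw [e1, Real.arcsin_zero]
  simp only [zero_div, Real.cos_zero, Real.sin_zero, sub_zero, Real.arcsin_one]
  field_simp
  ring

end Crest.Agent.R165.Br0x644
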