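import Mathlib

/-!
# Row 165 (S0250), block J/G: Grassmann algebra, derivations, Gaussian convolution

Everything on `ExteriorAlgebra ℝ V` through Mathlib's `CliffordAlgebra.contractLeft` and
`CliffordAlgebra.changeForm`.
-/

set_option autoImplicit false

noncomputable section

namespace Crest.Agent.R165.Gr0x606

open CliffordAlgebra

variable {V : Type*} [AddCommGroup V] [Module ℝ V]

/-- the Grassmann algebra of the fields `V` -/
abbrev Gr (V : Type*) [AddCommGroup V] [Module ℝ V] : Type _ := ExteriorAlgebra ℝ V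

/-- the elementary field -/
def fi (x : V) : Gr V := ExteriorAlgebra.ι ℝ x

/-- derivation (contraction) by a linear form -/
def dd (l : Module.Dual ℝ V) : Gr V →ₗ[ℝ] Gr V :=
  CliffordAlgebra.contractLeft (Q := (0 : QuadraticForm ℝ V)) l

/-- the grade involution -/
def inv' : Gr V →ₐ[ℝ] Gr V := CliffordAlgebra.involute

@[simp] theorem inv'_fi (x : V) : inv' (fi x) = -fi x := CliffordAlgebra.involute_ι x

@[simp] theorem inv'_inv' (a : Gr V) : inv' (inv' a) = a :=
  CliffordAlgebra.involute_involute a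

theorem fi_add (x y : V) : fi (x + y) = fi x + fi y := map_add _ _ _
theorem fi_smul (c : ℝ) (x : V) : fi (c • x) = c • fi x := map_smul _ _ _
@[simp] theorem fi_zero : fi (0 : V) = 0 := map_zero _

theorem fi_mul_self (x : V) : fi x * fi x = 0 := ExteriorAlgebra.ι_sq_zero x

theorem fi_anti (x y : V) : fi x * fi y = -(fi y * fi x) := by
  have := ExteriorAlgebra.ι_add_mul_swap (R := ℝ) x y
  exact eq_neg_of_add_eq_zero_left this

theorem dd_fi_mul (l : Module.Dual ℝ V) (x : V) (a : Gr V) :
    dd l (fi x * a) = l x • a - fi x * dd l a :=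
  CliffordAlgebra.contractLeft_ι_mul l x a

@[simp] theorem dd_fi (l : Module.Dual ℝ V) (x : V) : dd l (fi x) = algebraMap ℝ _ (l x) :=
  CliffordAlgebra.contractLeft_ι _ l x

@[simp] theorem dd_algebraMap (l : Module.Dual ℝ V) (r : ℝ) :
    dd l (algebraMap ℝ (Gr V) r) = 0 := CliffordAlgebra.contractLeft_algebraMap _ l r

@[simp] theorem dd_one (l : Module.Dual ℝ V) : dd l (1 : Gr V) = 0 :=
  CliffordAlgebra.contractLeft_one _ l

theorem dd_dd_self (l : Module.Dual ℝ V) (a : Gr V) : dd l (dd l a) = 0 :=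
  CliffordAlgebra.contractLeft_contractLeft l a

theorem dd_dd_anti (l m : Module.Dual ℝ V) (a : Gr V) : dd l (dd m a) = -dd m (dd l a) :=
  CliffordAlgebra.contractLeft_comm l m a

theorem dd_add_left (l m : Module.Dual ℝ V) (a : Gr V) : dd (l + m) a = dd l a + dd m a := by
  simp [dd]

theorem dd_smul_left (c : ℝ) (l : Module.Dual ℝ V) (a : Gr V) : dd (c • l) a = c • dd l a := by
  simp [dd]

@[simp] theorem dd_zero_left (a : Gr V) : dd (0 : Module.Dual ℝ V) a = 0 := by simp [dd]

theorem dd_neg_left (l : Module.Dual ℝ V) (a : Gr V) : dd (-l) a = -dd l a := by simp [dd]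

/-- induction on the Grassmann algebra -/
theorem Gr.induction {P : Gr V → Prop} (h0 : ∀ r : ℝ, P (algebraMap ℝ _ r))
    (h1 : ∀ x a, P a → P (fi x * a)) (h2 : ∀ a b, P a → P b → P (a + b)) (a : Gr V) : P a :=
  CliffordAlgebra.left_induction (Q := (0 : QuadraticForm ℝ V)) h0 h2 (fun a x h => h1 x a h) a

/-- graded Leibniz rule -/
theorem dd_mul (l : Module.Dual ℝ V) (a b : Gr V) :
    dd l (a * b) = dd l a * b + inv' a * dd l b := by
  induction a using Gr.induction with
  | h0 r => 
    rw [dd_algebraMap, zero_mul, zero_add, AlgHom.commutes, ← Algebra.smul_def, ← Algebra.smul_def,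
      map_smul]
  | h1 x a ih =>
    rw [mul_assoc, dd_fi_mul, ih, dd_fi_mul, map_mul, inv'_fi]
    noncomm_ring
  | h2 a a' iha iha' => 
    rw [add_mul, map_add, iha, iha', map_add, map_add]
    noncomm_ring


/-- graded commutation with a generator -/
theorem fi_mul_comm (x : V) (a : Gr V) : fi x * a = inv' a * fi x := by
  induction a using Gr.induction with
  | h0 r => rw [AlgHom.commutes, Algebra.commutes]
  | h1 y a ih =>
    rw [← mul_assoc, fi_anti, map_mul, inv'_fi, mul_assoc (-fi y), ← ih]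
    noncomm_ring
  | h2 a b iha ihb => rw [mul_add, iha, ihb, map_add, add_mul]

/-- even elements -/
def IsEv (a : Gr V) : Prop := inv' a = a

/-- odd elements -/
def IsOd (a : Gr V) : Prop := inv' a = -a

theorem IsEv.comm {a : Gr V} (ha : IsEv a) (b : Gr V) : a * b = b * a := by
  induction b using Gr.induction with
  | h0 r => rw [Algebra.commutes]
  | h1 x b ih =>
    have h : a * fi x = fi x * a := by rw [fi_mul_comm, ha]
    rw [← mul_assoc, h, mul_assoc, ih, mul_assoc]
  | h2 b c hb hc => rw [mul_add, hb, hc, add_mul]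

theorem IsEv.mul {a b : Gr V} (ha : IsEv a) (hb : IsEv b) : IsEv (a * b) := by
  rw [IsEv, map_mul, ha, hb]
theorem IsEv.add {a b : Gr V} (ha : IsEv a) (hb : IsEv b) : IsEv (a + b) := by
  rw [IsEv, map_add, ha, hb]
theorem IsEv.sub {a b : Gr V} (ha : IsEv a) (hb : IsEv b) : IsEv (a - b) := by
  rw [IsEv, map_sub, ha, hb]
theorem IsEv.neg {a : Gr V} (ha : IsEv a) : IsEv (-a) := by
  rw [IsEv, map_neg, ha]
theorem IsEv.smul {a : Gr V} (ha : IsEv a) (c : ℝ) : IsEv (c • a) := by
  rw [IsEv, map_smul, ha]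
theorem isEv_one : IsEv (1 : Gr V) := map_one _
theorem isEv_zero : IsEv (0 : Gr V) := map_zero _
theorem isEv_algebraMap (r : ℝ) : IsEv (algebraMap ℝ (Gr V) r) := AlgHom.commutes _ _
theorem isEv_fi_fi (x y : V) : IsEv (fi x * fi y) := by
  rw [IsEv, map_mul, inv'_fi, inv'_fi, neg_mul_neg]
theorem IsEv.pow {a : Gr V} (ha : IsEv a) (n : ℕ) : IsEv (a ^ n) := by
  rw [IsEv, map_pow, ha]
theorem IsEv.sum {ι : Type*} {s : Finset ι} {f : ι → Gr V} (h : ∀ i ∈ s, IsEv (f i)) :
    IsEv (∑ i ∈ s, f i) := by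
  rw [IsEv, map_sum]
  exact Finset.sum_congr rfl h

theorem isOd_fi (x : V) : IsOd (fi x) := inv'_fi x
theorem IsOd.mul {a b : Gr V} (ha : IsOd a) (hb : IsOd b) : IsEv (a * b) := by
  rw [IsEv, map_mul, ha, hb, neg_mul_neg]
theorem IsEv.mul_od {a b : Gr V} (ha : IsEv a) (hb : IsOd b) : IsOd (a * b) := by
  rw [IsOd, map_mul, ha, hb, mul_neg]
theorem IsOd.mul_ev {a b : Gr V} (ha : IsOd a) (hb : IsEv b) : IsOd (a * b) := by
  rw [IsOd, map_mul, ha, hb, neg_mul]

theorem dd_inv' (l : Module.Dual ℝ V) (a : Gr V) : dd l (inv' a) = -inv' (dd l a) := by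
  induction a using Gr.induction with
  | h0 r => rw [AlgHom.commutes, dd_algebraMap, map_zero, neg_zero]
  | h1 x a ih =>
    rw [map_mul, inv'_fi, neg_mul, map_neg, dd_fi_mul, ih, dd_fi_mul, map_sub, map_smul, map_mul,
      inv'_fi]
    noncomm_ring
  | h2 a b iha ihb => rw [map_add, map_add, iha, ihb, map_add, map_add, neg_add]

theorem IsEv.dd {a : Gr V} (ha : IsEv a) (l : Module.Dual ℝ V) : IsOd (dd l a) := by
  have := dd_inv' l a
  rw [ha] at this
  rw [IsOd]; rw [this, neg_neg]
  exact this ▸ rfl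

theorem IsOd.dd {a : Gr V} (ha : IsOd a) (l : Module.Dual ℝ V) : IsEv (dd l a) := by
  have := dd_inv' l a
  rw [ha, map_neg] at this
  exact (neg_injective this).symm

/-! ### constant term -/

/-- the constant term -/
def ct : Gr V →ₐ[ℝ] ℝ := ExteriorAlgebra.algebraMapInv

@[simp] theorem ct_algebraMap (r : ℝ) : ct (algebraMap ℝ (Gr V) r) = r := by
  simp [ct]

@[simp] theorem ct_fi (x : V) : ct (fi x) = 0 := by
  simp [ct, fi, ExteriorAlgebra.algebraMapInv]

/-! ### covariances and Gaussian convolution -/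

/-- a covariance: an alternating bilinear form -/
structure Cov (V : Type*) [AddCommGroup V] [Module ℝ V] where
  /-- the form -/
  b : LinearMap.BilinForm ℝ V
  /-- alternating -/
  alt : ∀ x, b x x = 0

theorem Cov.skew (S : Cov V) (x y : V) : S.b x y = -S.b y x := by
  have h := S.alt (x + y)
  simp only [map_add, LinearMap.add_apply, S.alt, zero_add, add_zero] at h
  linarith

/-- sum of covariances -/
instance : Add (Cov V) := ⟨fun S T => ⟨S.b + T.b, fun x => by simp [S.alt, T.alt]⟩⟩
instance : Zero (Cov V) := ⟨⟨0, fun _ => rfl⟩⟩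
instance : Neg (Cov V) := ⟨fun S => ⟨-S.b, fun x => by simp [S.alt]⟩⟩
@[simp] theorem Cov.neg_b (S : Cov V) : (-S).b = -S.b := rfl
@[simp] theorem Cov.add_b (S T : Cov V) : (S + T).b = S.b + T.b := rfl
@[simp] theorem Cov.zero_b : (0 : Cov V).b = 0 := rfl

@[ext] theorem Cov.ext {S T : Cov V} (h : S.b = T.b) : S = T := by
  cases S; cases T; congr

instance : AddCommMonoid (Cov V) where
  add_assoc a b c := Cov.ext (add_assoc _ _ _)
  zero_add a := Cov.ext (zero_add _)
  add_zero a := Cov.ext (add_zero _)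
  add_comm a b := Cov.ext (add_comm _ _)
  nsmul := nsmulRec

theorem Cov.form_proof (S : Cov V) :
    (-S.b).toQuadraticMap = (0 : QuadraticForm ℝ V) - (0 : QuadraticForm ℝ V) := by
  ext x
  simp [S.alt]

/-- Gaussian convolution `F ↦ E_S[F(· + ζ)]` -/
def conv (S : Cov V) : Gr V →ₗ[ℝ] Gr V := CliffordAlgebra.changeForm S.form_proof

theorem conv_fi_mul (S : Cov V) (x : V) (a : Gr V) :
    conv S (fi x * a) = fi x * conv S a + dd (S.b x) (conv S a) := by
  have h := CliffordAlgebra.changeForm_ι_mul S.form_proof x a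
  refine h.trans ?_
  rw [LinearMap.neg_apply, map_neg, LinearMap.neg_apply, sub_neg_eq_add]
  rfl

@[simp] theorem conv_algebraMap (S : Cov V) (r : ℝ) :
    conv S (algebraMap ℝ _ r) = algebraMap ℝ _ r := CliffordAlgebra.changeForm_algebraMap _ r

@[simp] theorem conv_one (S : Cov V) : conv S 1 = 1 := CliffordAlgebra.changeForm_one _

@[simp] theorem conv_fi (S : Cov V) (x : V) : conv S (fi x) = fi x :=
  CliffordAlgebra.changeForm_ι _ x

theorem conv_dd (S : Cov V) (l : Module.Dual ℝ V) (a : Gr V) :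
    conv S (dd l a) = dd l (conv S a) := CliffordAlgebra.changeForm_contractLeft _ l a

/-- semigroup property -/
theorem conv_conv (S T : Cov V) (a : Gr V) : conv S (conv T a) = conv (S + T) a := by
  induction a using Gr.induction with
  | h0 r => simp
  | h1 x a ih =>
    rw [conv_fi_mul, map_add, conv_fi_mul, conv_fi_mul, ih, conv_dd, ih, Cov.add_b,
      LinearMap.add_apply, dd_add_left]
    abel
  | h2 a b iha ihb => simp only [map_add, iha, ihb]

@[simp] theorem conv_zero (a : Gr V) : conv (0 : Cov V) a = a := by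
  induction a using Gr.induction with
  | h0 r => simp
  | h1 x a ih => rw [conv_fi_mul, ih]; simp
  | h2 a b iha ihb => simp only [map_add, iha, ihb]

theorem conv_inv' (S : Cov V) (a : Gr V) : conv S (inv' a) = inv' (conv S a) := by
  induction a using Gr.induction with
  | h0 r => simp
  | h1 x a ih =>
    rw [map_mul, inv'_fi, neg_mul, map_neg, conv_fi_mul, ih, conv_fi_mul, map_add, map_mul,
      inv'_fi, dd_inv']
    noncomm_ring
  | h2 a b iha ihb => simp only [map_add, iha, ihb]

theorem IsEv.conv {a : Gr V} (ha : IsEv a) (S : Cov V) : IsEv (conv S a) := by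
  rw [IsEv, ← conv_inv', ha]

/-- Gaussian expectation -/
def EE (S : Cov V) : Gr V →ₗ[ℝ] ℝ := ct.toLinearMap ∘ₗ conv S

theorem EE_apply (S : Cov V) (a : Gr V) : EE S a = ct (conv S a) := rfl

@[simp] theorem EE_one (S : Cov V) : EE S 1 = 1 := by simp [EE_apply]
@[simp] theorem EE_algebraMap (S : Cov V) (r : ℝ) : EE S (algebraMap ℝ _ r) = r := by
  simp [EE_apply]

/-- Schwinger-Dyson (integration by parts) -/
theorem EE_fi_mul (S : Cov V) (x : V) (a : Gr V) : EE S (fi x * a) = EE S (dd (S.b x) a) := by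
  rw [EE_apply, conv_fi_mul, map_add, map_mul, ct_fi, zero_mul, zero_add, EE_apply, conv_dd]

theorem EE_fi_fi (S : Cov V) (x y : V) : EE S (fi x * fi y) = S.b x y := by
  rw [EE_fi_mul, dd_fi, EE_algebraMap]

theorem EE_conv (S T : Cov V) (a : Gr V) : EE S (conv T a) = EE (S + T) a := by
  rw [EE_apply, EE_apply, conv_conv]

/-- uniqueness of the Gaussian expectation -/
theorem EE_unique (S : Cov V) (f : Gr V →ₗ[ℝ] ℝ) (h1 : ∀ x a, f (fi x * a) = f (dd (S.b x) a))
    (a : Gr V) : f a = f 1 * EE S a := by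
  have key : ∀ a : Gr V, f (conv (-S) a) = f 1 * ct a := by
    intro a
    induction a using Gr.induction with
    | h0 r =>
      rw [conv_algebraMap, ct_algebraMap, Algebra.algebraMap_eq_smul_one, map_smul, smul_eq_mul,
        mul_comm]
    | h1 x a _ =>
      rw [conv_fi_mul, map_add, h1, Cov.neg_b, LinearMap.neg_apply, dd_neg_left, map_neg, map_mul,
        ct_fi]
      ring
    | h2 a b iha ihb => rw [map_add, map_add, iha, ihb, map_add]; ring
  have h2 : conv (-S) (conv S a) = a := by
    rw [conv_conv]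
    have : -S + S = 0 := Cov.ext (neg_add_cancel S.b)
    rw [this, conv_zero]
  have := key (conv S a)
  rwa [h2] at this


/-! ### functoriality -/

variable {W : Type*} [AddCommGroup W] [Module ℝ W]

/-- the algebra map induced by a linear map of fields -/
def mp (f : V →ₗ[ℝ] W) : Gr V →ₐ[ℝ] Gr W := ExteriorAlgebra.map f

@[simp] theorem mp_fi (f : V →ₗ[ℝ] W) (x : V) : mp f (fi x) = fi (f x) :=
  ExteriorAlgebra.map_apply_ι f x

theorem mp_dd (f : V →ₗ[ℝ] W) (l : Module.Dual ℝ W) (a : Gr V) :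
    mp f (dd (l ∘ₗ f) a) = dd l (mp f a) := by
  induction a using Gr.induction with
  | h0 r => simp
  | h1 x a ih =>
    rw [dd_fi_mul, map_sub, map_mul, map_smul, ih, mp_fi, map_mul, mp_fi, dd_fi_mul]
    rfl
  | h2 a b iha ihb => simp only [map_add, iha, ihb]

theorem mp_inv' (f : V →ₗ[ℝ] W) (a : Gr V) : mp f (inv' a) = inv' (mp f a) := by
  induction a using Gr.induction with
  | h0 r => simp
  | h1 x a ih => simp only [map_mul, inv'_fi, map_neg, mp_fi, ih]
  | h2 a b iha ihb => simp only [map_add, iha, ihb]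

theorem ct_mp (f : V →ₗ[ℝ] W) (a : Gr V) : ct (mp f a) = ct a := by
  induction a using Gr.induction with
  | h0 r => simp
  | h1 x a ih => simp only [map_mul, mp_fi, ct_fi, zero_mul]
  | h2 a b iha ihb => simp only [map_add, iha, ihb]

/-- naturality of the Gaussian convolution -/
theorem mp_conv (f : V →ₗ[ℝ] W) (S : Cov V) (T : Cov W)
    (h : ∀ x y, S.b x y = T.b (f x) (f y)) (a : Gr V) :
    mp f (conv S a) = conv T (mp f a) := by
  induction a using Gr.induction with
  | h0 r => simp
  | h1 x a ih =>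
    have hx : S.b x = (T.b (f x)) ∘ₗ f := by
      ext y; exact h x y
    rw [conv_fi_mul, map_add, map_mul, mp_fi, hx, mp_dd, ih, map_mul, mp_fi, conv_fi_mul]
  | h2 a b iha ihb => simp only [map_add, iha, ihb]

theorem EE_mp (f : V →ₗ[ℝ] W) (S : Cov V) (T : Cov W)
    (h : ∀ x y, S.b x y = T.b (f x) (f y)) (a : Gr V) :
    EE T (mp f a) = EE S a := by
  rw [EE_apply, ← mp_conv f S T h, ct_mp, EE_apply]

/-! ### factorisation -/

/-- `dd` of a product with an element killed by the derivation -/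
theorem dd_mul_of_dd_eq_zero (l : Module.Dual ℝ V) (a b : Gr V) (h : dd l a = 0) :
    dd l (a * b) = inv' a * dd l b := by rw [dd_mul, h, zero_mul, zero_add]

/-- left induction on the subalgebra generated by a set of fields -/
theorem adjoin_ind {U : Set V} {P : Gr V → Prop} (h0 : ∀ r : ℝ, P (algebraMap ℝ _ r))
    (h1 : ∀ x ∈ U, ∀ a, P a → P (fi x * a)) (h2 : ∀ a b, P a → P b → P (a + b))
    {a : Gr V} (ha : a ∈ Algebra.adjoin ℝ (fi '' U)) : P a := by
  -- pass to the stronger predicate: all scalar multiples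
  have hspan : a ∈ Submodule.span ℝ (Submonoid.closure (fi '' U) : Set (Gr V)) := by
    rw [← Algebra.adjoin_eq_span]; exact ha
  have key : ∀ m ∈ Submonoid.closure (fi '' U : Set (Gr V)), ∀ c : ℝ, P (c • m) := by
    intro m hm
    induction hm using Submonoid.closure_induction_left with
    | one => intro c; rw [← Algebra.algebraMap_eq_smul_one]; exact h0 c
    | mul_left x hx y _ ih =>
      intro c
      obtain ⟨u, hu, rfl⟩ := hx
      rw [← mul_smul_comm]
      exact h1 u hu _ (ih c)
  have key2 : ∀ c : ℝ, P (c • a) := by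
    clear ha
    induction hspan using Submodule.span_induction with
    | mem x hx => exact key x hx
    | zero => intro c; rw [smul_zero]; simpa using h0 0
    | add x y _ _ hx hy => intro c; rw [smul_add]; exact h2 _ _ (hx c) (hy c)
    | smul d x _ hx => intro c; rw [smul_smul]; exact hx _
  simpa using key2 1

/-- exact factorisation of the Gaussian convolution: `a` is in the algebra
generated by the fields `x ∈ U`, and the covariance between `U` and the fields of `b` vanishes,
expressed by `dd (S x) b = 0` for `x ∈ U`. -/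
theorem conv_mul (S : Cov V) (U : Set V) (a b : Gr V)
    (ha : a ∈ Algebra.adjoin ℝ (fi '' U)) (hb : ∀ x ∈ U, dd (S.b x) b = 0) :
    conv S (a * b) = conv S a * conv S b := by
  refine adjoin_ind (P := fun a => conv S (a * b) = conv S a * conv S b) ?_ ?_ ?_ ha
  · intro r; rw [← Algebra.smul_def, map_smul, conv_algebraMap, Algebra.smul_def]
  · intro x hxU y ih
    have : dd (S.b x) (conv S b) = 0 := by rw [← conv_dd, hb x hxU, map_zero]
    rw [mul_assoc, conv_fi_mul, ih, conv_fi_mul, add_mul, mul_assoc, dd_mul, this, mul_zero,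
      add_zero]
  · intro x y hx hy; rw [add_mul, map_add, hx, hy, map_add, add_mul]

/-- a derivation kills the algebra generated by the fields it kills -/
theorem dd_eq_zero_of_mem {U : Set V} (l : Module.Dual ℝ V) (hl : ∀ x ∈ U, l x = 0) {a : Gr V}
    (ha : a ∈ Algebra.adjoin ℝ (fi '' U)) : dd l a = 0 := by
  refine adjoin_ind (P := fun a => dd l a = 0) ?_ ?_ ?_ ha
  · intro r; simp
  · intro x hx a h; rw [dd_fi_mul, h, hl x hx]; simp
  · intro a b h h'; rw [map_add, h, h', add_zero]

/-! ### exponentials of quadratic forms and reweighting -/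

/-- `E` is an exponential of `Q` -/
structure IsExp (Q E : Gr V) : Prop where
  ev : IsEv E
  dd_eq : ∀ l, dd l E = dd l Q * E

/-- **Gaussian reweighting**: if `E = exp Q`, `dd l Q = fi (Y l)`, then
`E_{S₀}[E F] = E_{S₀}[E] E_S[F]` where `S` satisfies the resolvent identity. -/
theorem reweight (S0 S : Cov V) (Q E : Gr V) (hE : IsExp Q E) (Y : Module.Dual ℝ V → V)
    (hY : ∀ l, dd l Q = fi (Y l))
    (hres : ∀ z : V, ∃ x : V, z = x - Y (S0.b x) ∧ S.b z = S0.b x) (F : Gr V) :
    EE S0 (E * F) = EE S0 E * EE S F := by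
  let f : Gr V →ₗ[ℝ] ℝ := (EE S0).comp (LinearMap.mulLeft ℝ E)
  have hf : ∀ a, f a = EE S0 (E * a) := fun a => rfl
  have h1 : ∀ z a, f (fi z * a) = f (dd (S.b z) a) := by
    intro z a
    obtain ⟨x, hz, hS⟩ := hres z
    have e1 : EE S0 (E * (fi x * a)) = EE S0 (E * (fi (Y (S0.b x)) * a)) +
        EE S0 (E * dd (S0.b x) a) := by
      rw [← mul_assoc, hE.ev.comm, mul_assoc, EE_fi_mul, dd_mul, hE.ev, hE.dd_eq, hY, map_add,
        mul_assoc, ← mul_assoc (fi (Y (S0.b x))), ← hE.ev.comm, mul_assoc]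
    rw [hf, hf, hS]
    have : fi z = fi x - fi (Y (S0.b x)) := by rw [hz]; exact map_sub _ _ _
    rw [this, sub_mul, mul_sub, map_sub, e1]
    ring
  have := EE_unique S f h1 F
  rw [hf, hf, mul_one] at this
  exact this

theorem IsExp.one : IsExp (0 : Gr V) 1 := ⟨isEv_one, fun l => by simp⟩

theorem IsExp.mul {Q Q' E E' : Gr V} (h : IsExp Q E) (h' : IsExp Q' E') :
    IsExp (Q + Q') (E * E') := by
  refine ⟨h.ev.mul h'.ev, fun l => ?_⟩
  rw [dd_mul, h.dd_eq, h'.dd_eq, h.ev, map_add, add_mul, mul_assoc, ← mul_assoc E,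
    h.ev.comm (dd l Q'), mul_assoc]

/-- `1 + y φ_p φ_q` is the exponential of `y φ_p φ_q` -/
theorem IsExp.bil (y : ℝ) (p q : V) : IsExp (y • (fi p * fi q)) (1 + y • (fi p * fi q)) := by
  refine ⟨isEv_one.add ((isEv_fi_fi p q).smul y), fun l => ?_⟩
  have h1 : fi p * (fi p * fi q) = 0 := by rw [← mul_assoc, fi_mul_self, zero_mul]
  have h2 : fi q * (fi p * fi q) = 0 := by
    rw [fi_anti p q, mul_neg, ← mul_assoc, fi_mul_self, zero_mul, neg_zero]
  have h3 : dd l (fi p * fi q) = l p • fi q - l q • fi p := by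
    rw [dd_fi_mul, dd_fi, ← Algebra.commutes, ← Algebra.smul_def]
  rw [map_add, dd_one, zero_add, map_smul, h3, mul_add, mul_one, mul_smul_comm, smul_mul_assoc,
    sub_mul, smul_mul_assoc, smul_mul_assoc, h1, h2]
  simp

end Crest.Agent.R165.Gr0x606
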