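import Crest.Prelude.Def_PerturbedIsing
import Crest.Agent.R165.Gr0_606

/-!
# Row 165 (S0250): the half-edge lattice, backgrounds, covariances (helper683)

Definitions shared by all blocks.  `G = ℤ`: plane and domains; `G = ZMod M`: torus.
* faces `G × G` (lower left corner), half-edges `HE G = (G × G) × Fin 4`, `0,1,2,3 = S,E,N,W`
* primal bond `(z, j) = {z, z + unitVec j}`, signed weight `w z j`
* `hp z j, hq z j`: the two half-edges of the dual edge crossing the bond `(z, j)`
* `Aop w`: the antisymmetric operator of the half-edge action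
* `wDom T free`: background of a domain; `ray X`: signs of the spin insertions
* `IsCov w S`: `S = - A⁻¹` (columns tending to zero)
* `covS`: the Grassmann covariance of `S`; `bb z j` the bilinear `φ_{hp} φ_{hq}`
-/

set_option autoImplicit false

noncomputable section

open Filter Topology
open Crest.ProbabilityR.IsingModel
open Crest.Agent.R165.Gr0x606

namespace Crest.Agent.R165.Latx683

/-- critical weight `tan (π/8)` -/
def xc : ℝ := Real.sqrt 2 - 1

/-- half-edges over the group `G` -/
abbrev HE (G : Type) : Type := (G × G) × Fin 4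

/-- signed weights of the primal bonds `(z, j) = {z, z + unitVec j}` -/
abbrev BW (G : Type) : Type := G × G → Fin 2 → ℝ

section lattice

variable {G : Type} [CommRing G]

/-- first half-edge of the dual edge crossing the bond `(z, j)` -/
def hp (z : G × G) (j : Fin 2) : HE G := if j = 0 then (z, 0) else ((z.1 - 1, z.2), 1)

/-- second half-edge of the dual edge crossing the bond `(z, j)` -/
def hq (z : G × G) (j : Fin 2) : HE G := if j = 0 then ((z.1, z.2 - 1), 2) else (z, 3)

@[simp] theorem hp_zero (z : G × G) : hp z 0 = (z, 0) := rfl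
@[simp] theorem hq_zero (z : G × G) : hq z 0 = ((z.1, z.2 - 1), 2) := rfl
@[simp] theorem hp_one (z : G × G) : hp z 1 = ((z.1 - 1, z.2), 1) := rfl
@[simp] theorem hq_one (z : G × G) : hq z 1 = (z, 3) := rfl

/-- weight of the vertical bond between the faces `f` and `f + e₁` -/
def yE (w : BW G) (f : G × G) : ℝ := w (f.1 + 1, f.2) 1

/-- weight of the horizontal bond between the faces `f` and `f + e₂` -/
def yN (w : BW G) (f : G × G) : ℝ := w (f.1, f.2 + 1) 0

/-- the rows of the half-edge action -/
def Arow (w : BW G) (φ : HE G → ℝ) (f : G × G) : Fin 4 → ℝ :=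
  ![φ (f, 1) + φ (f, 2) + φ (f, 3) + yN w (f.1, f.2 - 1) * φ ((f.1, f.2 - 1), 2),
    -φ (f, 0) + φ (f, 2) + φ (f, 3) + yE w f * φ ((f.1 + 1, f.2), 3),
    -φ (f, 0) - φ (f, 1) + φ (f, 3) - yN w f * φ ((f.1, f.2 + 1), 0),
    -φ (f, 0) - φ (f, 1) - φ (f, 2) - yE w (f.1 - 1, f.2) * φ ((f.1 - 1, f.2), 1)]

/-- the operator `A` of the background `w` -/
def Aop (w : BW G) : (HE G → ℝ) →ₗ[ℝ] (HE G → ℝ) where
  toFun φ h := Arow w φ h.1 h.2
  map_add' φ ψ := by
    funext h
    obtain ⟨f, d⟩ := h
    fin_cases d <;> simp [Arow] <;> ring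
  map_smul' c φ := by
    funext h
    obtain ⟨f, d⟩ := h
    fin_cases d <;> simp [Arow] <;> ring

theorem Aop_apply (w : BW G) (φ : HE G → ℝ) (h : HE G) : Aop w φ h = Arow w φ h.1 h.2 := rfl

@[simp] theorem Aop_S (w : BW G) (φ : HE G → ℝ) (f : G × G) : Aop w φ (f, 0) =
    φ (f, 1) + φ (f, 2) + φ (f, 3) + yN w (f.1, f.2 - 1) * φ ((f.1, f.2 - 1), 2) := rfl
@[simp] theorem Aop_E (w : BW G) (φ : HE G → ℝ) (f : G × G) : Aop w φ (f, 1) =
    -φ (f, 0) + φ (f, 2) + φ (f, 3) + yE w f * φ ((f.1 + 1, f.2), 3) := rfl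
@[simp] theorem Aop_N (w : BW G) (φ : HE G → ℝ) (f : G × G) : Aop w φ (f, 2) =
    -φ (f, 0) - φ (f, 1) + φ (f, 3) - yN w f * φ ((f.1, f.2 + 1), 0) := rfl
@[simp] theorem Aop_W (w : BW G) (φ : HE G → ℝ) (f : G × G) : Aop w φ (f, 3) =
    -φ (f, 0) - φ (f, 1) - φ (f, 2) - yE w (f.1 - 1, f.2) * φ ((f.1 - 1, f.2), 1) := rfl

/-- the matrix of `A` -/
def Amat [DecidableEq G] (w : BW G) (h h' : HE G) : ℝ := Aop w (Pi.single h' 1) h

/-- `S` is the covariance of the background `w`: antisymmetric, columns tending to zero,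
`A S = -1` -/
structure IsCov [DecidableEq G] (w : BW G) (S : HE G → HE G → ℝ) : Prop where
  skew : ∀ h h', S h h' = -S h' h
  zero : ∀ h', Tendsto (fun h => S h h') cofinite (𝓝 0)
  inv : ∀ g h', Aop w (fun h => S h h') g = -(Pi.single h' 1 : HE G → ℝ) g

end lattice

/-! ### fields and covariances in the Grassmann algebra -/

/-- the space of fields -/
abbrev Fld (G : Type) : Type := HE G →₀ ℝ

/-- the elementary field of a half-edge -/
def ph {G : Type} (h : HE G) : Gr (Fld G) := fi (Finsupp.single h 1)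

/-- the bilinear of a bond -/
def bb {G : Type} [CommRing G] (z : G × G) (j : Fin 2) : Gr (Fld G) := ph (hp z j) * ph (hq z j)

/-- the bilinear form of a kernel -/
def formS {G : Type} (S : HE G → HE G → ℝ) : LinearMap.BilinForm ℝ (Fld G) :=
  Finsupp.lsum ℝ fun h => LinearMap.smulRight (LinearMap.id : ℝ →ₗ[ℝ] ℝ)
    (Finsupp.lsum ℝ fun h' => (LinearMap.smulRight (LinearMap.id : ℝ →ₗ[ℝ] ℝ) (S h h')))

theorem formS_apply {G : Type} (S : HE G → HE G → ℝ) (x y : Fld G) :
    formS S x y = ∑ h ∈ x.support, ∑ h' ∈ y.support, x h * y h' * S h h' := by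
  rw [formS, Finsupp.lsum_apply, Finsupp.sum, LinearMap.sum_apply]
  refine Finset.sum_congr rfl fun h _ => ?_
  rw [LinearMap.smulRight_apply, LinearMap.id_apply, LinearMap.smul_apply, Finsupp.lsum_apply,
    Finsupp.sum, smul_eq_mul, Finset.mul_sum]
  refine Finset.sum_congr rfl fun h' _ => ?_
  rw [LinearMap.smulRight_apply, LinearMap.id_apply, smul_eq_mul]
  ring

theorem formS_single {G : Type} (S : HE G → HE G → ℝ) (h h' : HE G) :
    formS S (Finsupp.single h 1) (Finsupp.single h' 1) = S h h' := by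
  rw [formS, Finsupp.lsum_apply, Finsupp.sum_single_index (by simp), LinearMap.smulRight_apply,
    LinearMap.id_apply, one_smul, Finsupp.lsum_apply, Finsupp.sum_single_index (by simp),
    LinearMap.smulRight_apply, LinearMap.id_apply, smul_eq_mul, one_mul]

/-- the Grassmann covariance of an antisymmetric kernel -/
def covS {G : Type} (S : HE G → HE G → ℝ) (hS : ∀ h h', S h h' = -S h' h) : Cov (Fld G) where
  b := formS S
  alt x := by
    have key : formS S x x = -formS S x x := by
      calc formS S x x = ∑ h ∈ x.support, ∑ h' ∈ x.support, x h * x h' * S h h' := formS_apply S x x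
        _ = ∑ h ∈ x.support, ∑ h' ∈ x.support, x h' * x h * S h' h := Finset.sum_comm
        _ = -∑ h ∈ x.support, ∑ h' ∈ x.support, x h * x h' * S h h' := by
          rw [← Finset.sum_neg_distrib]
          refine Finset.sum_congr rfl fun h _ => ?_
          rw [← Finset.sum_neg_distrib]
          refine Finset.sum_congr rfl fun h' _ => ?_
          rw [hS h' h]; ring
        _ = -formS S x x := by rw [formS_apply]
    linarith

theorem EE_ph_ph {G : Type} (S : HE G → HE G → ℝ) (hS : ∀ h h', S h h' = -S h' h) (h h' : HE G) :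
    EE (covS S hS) (ph h * ph h') = S h h' := by
  rw [ph, ph, EE_fi_fi]
  exact formS_single S h h'

/-! ### domain backgrounds -/

/-- background weights of the site set `T`: `plus` (`free = false`): critical on every bond with
an endpoint in `T`, zero outside; `free = true`: critical on the bonds inside `T`, one outside -/
def wDom (T : Set (ℤ × ℤ)) (free : Bool) : BW ℤ := by
  classical exact fun z j =>
    if free then (if z ∈ T ∧ z + unitVec j ∈ T then xc else 1)
    else (if z ∈ T ∨ z + unitVec j ∈ T then xc else 0)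

/-- plane background -/
def wPl (G : Type) : BW G := fun _ _ => xc

/-- signs of the insertions: `-1` on the horizontal bonds of the rays `x + (k, 0)`, `k ≥ 0` -/
def ray {n : ℕ} (X : Fin n → ℤ × ℤ) : BW ℤ := fun z j =>
  ∏ i, if j = 0 ∧ (X i).2 = z.2 ∧ (X i).1 ≤ z.1 then -1 else 1

/-- background with insertions -/
def wX {n : ℕ} (w : BW ℤ) (X : Fin n → ℤ × ℤ) : BW ℤ := fun z j => ray X z j * w z j

/-- the sign `±1` of a bond in a configuration -/
def eps (s : ℤ × ℤ → Bool) (z : ℤ × ℤ) (j : Fin 2) : ℝ := spinSign (s z) * spinSign (s (z + unitVec j))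

end Crest.Agent.R165.Latx683
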