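import Mathlib
import Crest.Agent.R165.Br0_644
import Crest.Agent.R165.Lat_683

/-!
Row 165 (S0250), block U4 (helper644): explicit solutions of the half-edge system in the plane with one
branch vertex `(0,0)` (gauge: ray to the right, `Latx683.ray`).

* `Pz x y` : harmonic measure of the tip of the slit `{(j,j) : j ≤ 0}`
* `fieldOf u w` : half-edge field from the south-west corner values `u` and north-east corner values `w`
* `Psi0` : the admissible mode (`~ |z|^{-1/2}`), `A Psi0 = 0`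
* `PsiS` : source at the branch: `A PsiS = - l_S`, `l_S = S_{(0,0)} - y N_{(0,-1)}`
* `PsiN` : source at the opposite corner of the face `(0,0)`: `A PsiN = - l_N`,
  `l_N = N_{(0,0)} + y S_{(0,1)}`; decay `|z|^{-3/2}`
-/

set_option autoImplicit false

namespace Crest.Agent.R165.Br1x644

open Real
open Crest.Agent.R165.Br0x644
open Crest.Agent.R165.Latx683

noncomputable section

/-- harmonic measure of the tip -/
def Pz (x y : ℤ) : ℝ := P (x + y) (x - y).natAbs

theorem Pz_symm (x y : ℤ) : Pz x y = Pz y x := by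
  unfold Pz
  rw [add_comm y x, show (y - x).natAbs = (x - y).natAbs by omega]

theorem Pz_neg (x : ℤ) (hx : x < 0) : Pz x x = 0 := by
  unfold Pz
  rw [sub_self, Int.natAbs_zero, ← two_mul]
  exact P_neg x hx

theorem Pz_zero : Pz 0 0 = 1 := by
  unfold Pz
  simpa using P_zero

/-- first Cauchy-Riemann relation, on and below the diagonal -/
theorem Pz_cr1 (x y : ℤ) (h : y ≤ x) :
    Pz (x+1) y - Pz x y = Pz (-x-1) (-y-1) - Pz (-x-1) (-y) := by
  have h1 := cr1 (x+y) (x-y).toNat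
  unfold Pz
  rw [show x + 1 + y = x + y + 1 by ring, show (x+1-y).natAbs = (x-y).toNat + 1 by omega,
    show (x-y).natAbs = (x-y).toNat by omega, show -x-1+(-y-1) = -(x+y)-2 by ring,
    show (-x-1-(-y-1)).natAbs = (x-y).toNat by omega, show -x-1+-y = -(x+y)-1 by ring,
    show (-x-1- -y).natAbs = (x-y).toNat + 1 by omega]
  exact h1

/-- second Cauchy-Riemann relation, below the diagonal -/
theorem Pz_cr2 (x y : ℤ) (h : y + 1 ≤ x) :
    Pz x (y+1) - Pz x y = Pz (-x) (-y-1) - Pz (-x-1) (-y-1) := by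
  have h1 := cr2 (x+y) (x-y-1).toNat
  unfold Pz
  rw [show x + (y+1) = x + y + 1 by ring, show (x-(y+1)).natAbs = (x-y-1).toNat by omega,
    show (x-y).natAbs = (x-y-1).toNat + 1 by omega, show -x+(-y-1) = -(x+y)-1 by ring,
    show (-x-(-y-1)).natAbs = (x-y-1).toNat by omega, show -x-1+(-y-1) = -(x+y)-2 by ring,
    show (-x-1-(-y-1)).natAbs = (x-y-1).toNat + 1 by omega]
  exact h1

/-- half-edge field from corner values: `u` = south-west corner, `w` = north-east corner -/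
def fieldOf (u w : ℤ → ℤ → ℝ) : HE ℤ → ℝ := fun h =>
  let x := h.1.1
  let y := h.1.2
  let se : ℝ := (u (x+1) y - w x y) / √2
  let nw : ℝ := -(u x y + w (x-1) y) / √2
  match h.2 with
  | 0 => (u x y + se) / 2
  | 1 => (w x y - se) / 2
  | 2 => (nw - w x y) / 2
  | 3 => (u x y - nw) / 2

theorem fieldOf_S (u w : ℤ → ℤ → ℝ) (x y : ℤ) :
    fieldOf u w ((x, y), 0) = (u x y + (u (x+1) y - w x y) / √2) / 2 := rfl
theorem fieldOf_E (u w : ℤ → ℤ → ℝ) (x y : ℤ) :
    fieldOf u w ((x, y), 1) = (w x y - (u (x+1) y - w x y) / √2) / 2 := rfl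
theorem fieldOf_N (u w : ℤ → ℤ → ℝ) (x y : ℤ) :
    fieldOf u w ((x, y), 2) = (-(u x y + w (x-1) y) / √2 - w x y) / 2 := rfl
theorem fieldOf_W (u w : ℤ → ℤ → ℝ) (x y : ℤ) :
    fieldOf u w ((x, y), 3) = (u x y - -(u x y + w (x-1) y) / √2) / 2 := rfl

/-- defect of the first vertical relation at the bond between `(x,y)` and `(x,y+1)` with sign `s` -/
def d1 (u w : ℤ → ℤ → ℝ) (s : ℝ) (x y : ℤ) : ℝ := u x y + w (x-1) y - s * u x (y+1) - w x y
/-- defect of the second vertical relation -/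
def d2 (u w : ℤ → ℤ → ℝ) (s : ℝ) (x y : ℤ) : ℝ :=
  u (x+1) (y+1) - w x (y+1) - u x (y+1) + s * w x y

theorem two_inv : (√2 : ℝ)⁻¹ = √2 / 2 := by
  have h : √2 * √2 = 2 := Real.mul_self_sqrt (by norm_num)
  have h0 : (√2 : ℝ) ≠ 0 := by positivity
  field_simp
  linarith

theorem rowE (bw : BW ℤ) (u w : ℤ → ℤ → ℝ) (x y : ℤ) (h : yE bw (x, y) = xc) :
    Aop bw (fieldOf u w) ((x, y), 1) = 0 := by
  have h2 : √2 * √2 = (2:ℝ) := Real.mul_self_sqrt (by norm_num)
  rw [Aop_E, h, fieldOf_S, fieldOf_N, fieldOf_W, fieldOf_W]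
  simp only [div_eq_mul_inv, two_inv, add_sub_cancel_right, xc]
  linear_combination (u (x+1) y / 4 + w x y / 4) * h2

theorem rowW (bw : BW ℤ) (u w : ℤ → ℤ → ℝ) (x y : ℤ) (h : yE bw (x - 1, y) = xc) :
    Aop bw (fieldOf u w) ((x, y), 3) = 0 := by
  have h2 : √2 * √2 = (2:ℝ) := Real.mul_self_sqrt (by norm_num)
  rw [Aop_W, h, fieldOf_S, fieldOf_E, fieldOf_N, fieldOf_E]
  simp only [div_eq_mul_inv, two_inv, sub_add_cancel, xc]
  linear_combination (u x y / 4 - w (x-1) y / 4) * h2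

theorem rowS (bw : BW ℤ) (u w : ℤ → ℤ → ℝ) (x y : ℤ) (s : ℝ) (hs : s * s = 1)
    (h : yN bw (x, y) = s * xc) :
    Aop bw (fieldOf u w) ((x, y+1), 0) =
      -(√2/4) * (d2 u w s x y + s * xc * d1 u w s x y) := by
  have h2 : √2 * √2 = (2:ℝ) := Real.mul_self_sqrt (by norm_num)
  rw [Aop_S]
  simp only [add_sub_cancel_right]
  rw [h, fieldOf_E, fieldOf_N, fieldOf_W, fieldOf_N]
  simp only [div_eq_mul_inv, two_inv, xc, d1, d2]
  linear_combination (-(s * w x y) / 4 - u x (y+1) * (s*s)/4) * h2 +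
    (u x (y+1) * √2/4 - u x (y+1)/2) * hs

theorem rowN (bw : BW ℤ) (u w : ℤ → ℤ → ℝ) (x y : ℤ) (s : ℝ) (hs : s * s = 1)
    (h : yN bw (x, y) = s * xc) :
    Aop bw (fieldOf u w) ((x, y), 2) =
      (√2/4) * (d1 u w s x y - s * xc * d2 u w s x y) := by
  have h2 : √2 * √2 = (2:ℝ) := Real.mul_self_sqrt (by norm_num)
  rw [Aop_N]
  simp only []
  rw [h, fieldOf_S, fieldOf_E, fieldOf_W, fieldOf_S]
  simp only [div_eq_mul_inv, two_inv, xc, d1, d2]
  linear_combination (-(s * u x (y+1)) / 4 + w x y * (s*s)/4) * h2 +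
    (-w x y * √2/4 + w x y/2) * hs

/-- north corner pairing at a face where the vertical relations hold -/
theorem pairN (u w : ℤ → ℤ → ℝ) (x y : ℤ) (s : ℝ) (hs : s * s = 1) (e1 : d1 u w s x y = 0)
    (e2 : d2 u w s x y = 0) :
    fieldOf u w ((x, y), 2) + s * xc * fieldOf u w ((x, y+1), 0) = - w x y := by
  have h2 : √2 * √2 = (2:ℝ) := Real.mul_self_sqrt (by norm_num)
  rw [fieldOf_N, fieldOf_S]
  unfold d1 at e1
  unfold d2 at e2
  simp only [div_eq_mul_inv, two_inv, xc]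
  linear_combination (-(√2)/4) * e1 + (s*(√2-1)*√2/4) * e2 + (s * u x (y+1) / 4 - w x y * (s*s)/4) * h2 +
    (w x y * √2/4 - w x y/2) * hs

/-- south corner pairing at a face where the vertical relations hold -/
theorem pairS (u w : ℤ → ℤ → ℝ) (x y : ℤ) (s : ℝ) (hs : s * s = 1) (e1 : d1 u w s x y = 0)
    (e2 : d2 u w s x y = 0) :
    fieldOf u w ((x, y+1), 0) - s * xc * fieldOf u w ((x, y), 2) = u x (y+1) := by
  have h2 : √2 * √2 = (2:ℝ) := Real.mul_self_sqrt (by norm_num)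
  rw [fieldOf_N, fieldOf_S]
  unfold d1 at e1
  unfold d2 at e2
  simp only [div_eq_mul_inv, two_inv, xc]
  linear_combination (s*(√2-1)*√2/4) * e1 + (√2/4) * e2 + (s * w x y / 4 + u x (y+1) * (s*s)/4) * h2 +
    (-u x (y+1) * √2/4 + u x (y+1)/2) * hs

end

end Crest.Agent.R165.Br1x644
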