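import Mathlib
import Crest.Agent.R165.Br1_644

/-!
Row 165 (S0250), block U4 (helper644): gluing of the explicit functions across the diagonal and the cut,
and the equations `A Psi0 = 0`, `A PsiS = - l_S`, `A PsiN = - l_N` in the plane background with one branch
vertex `(0,0)`.
-/

set_option autoImplicit false

namespace Crest.Agent.R165.Br1x644

open Real
open Crest.Agent.R165.Br0x644
open Crest.Agent.R165.Latx683

noncomputable section

def sA (x y : ℤ) : ℝ := if y ≤ x ∧ y < 0 then -1 else 1
def sB (x y : ℤ) : ℝ := if 0 ≤ y ∧ y ≤ x then 1 else -1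
def sC (x y : ℤ) : ℝ := if 0 ≤ y ∧ y < x then 1 else -1
/-- sign of the horizontal bond between the faces `(x, y)` and `(x, y+1)` -/
def sg (x y : ℤ) : ℝ := if y = -1 ∧ 0 ≤ x then -1 else 1

theorem sg_sq (x y : ℤ) : sg x y * sg x y = 1 := by unfold sg; split_ifs <;> norm_num

theorem glueI (p q : ℤ → ℤ → ℝ) (hp : ∀ x y, p x y = p y x) (hq : ∀ x y, q x y = q y x)
    (h1 : ∀ x y, y ≤ x → p (x+1) y - p x y = q x y - q x (y-1))
    (h2 : ∀ x y, y + 1 ≤ x → p x (y+1) - p x y = q (x-1) y - q x y)
    (hp0 : ∀ k, k < 0 → p k k = 0) (hq0 : ∀ k, 0 < k → q k k = 0) (x y : ℤ) :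
    d1 (fun x y => sA x y * p x y) (fun x y => sB x y * q x y) (sg x y) x y
      = (if x = 0 ∧ y = 0 then -2 * q 0 0 else 0) ∧
    d2 (fun x y => sA x y * p x y) (fun x y => sB x y * q x y) (sg x y) x y
      = (if x = 0 ∧ y = 0 then 2 * q 0 0 else 0) := by
  rcases lt_trichotomy x y with hxy | hxy | hxy
  · have a1 := h1 y x hxy.le
    have a2 := h2 (y+1) x (by omega)
    rw [add_sub_cancel_right] at a2
    have b1 := hp x y
    have b2 := hp x (y+1)
    have b3 := hp (x+1) (y+1)
    have b4 := hq x y
    have b5 := hq (x-1) y
    have b6 := hq x (y+1)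
    simp only [d1, d2, sA, sB, sg]
    constructor
    · split_ifs <;> first | (exfalso; omega) | linarith
    · split_ifs <;> first | (exfalso; omega) | linarith
  · subst hxy
    have a1 := h1 x x le_rfl
    have a2 := h2 (x+1) x (by omega)
    rw [add_sub_cancel_right] at a2
    have b1 := hp x (x+1)
    have b2 := hq (x-1) x
    have b3 := hq x (x+1)
    rcases lt_trichotomy x 0 with h0 | h0 | h0
    · have c1 := hp0 x h0
      rcases eq_or_lt_of_le (show x + 1 ≤ 0 by omega) with h3 | h3
      · have hx : x = -1 := by omega
        subst hx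
        norm_num at a1 a2 b1 b2 b3 c1
        simp only [d1, d2, sA, sB, sg]
        norm_num
        constructor <;> linarith
      · have c2 := hp0 (x+1) h3
        simp only [d1, d2, sA, sB, sg]
        constructor
        · split_ifs <;> first | (exfalso; omega) | linarith
        · split_ifs <;> first | (exfalso; omega) | linarith
    · subst h0
      norm_num at a1 a2 b1 b2 b3
      simp only [d1, d2, sA, sB, sg]
      norm_num
      constructor <;> linarith
    · have c1 := hq0 x h0
      simp only [d1, d2, sA, sB, sg]
      constructor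
      · split_ifs <;> first | (exfalso; omega) | linarith
      · split_ifs <;> first | (exfalso; omega) | linarith
  · have a1 := h1 x (y+1) (by omega)
    have a2 := h2 x y (by omega)
    rw [add_sub_cancel_right] at a1
    simp only [d1, d2, sA, sB, sg]
    constructor
    · split_ifs <;> first | (exfalso; omega) | linarith
    · split_ifs <;> first | (exfalso; omega) | linarith

theorem glueII (p q : ℤ → ℤ → ℝ) (hp : ∀ x y, p x y = p y x) (hq : ∀ x y, q x y = q y x)
    (h1 : ∀ x y, y ≤ x → p (x+1) y - p x y = q x y - q x (y-1))
    (h2 : ∀ x y, y + 1 ≤ x → p x (y+1) - p x y = q (x-1) y - q x y)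
    (hp0 : ∀ k, 0 < k → p k k = 0) (hq0 : ∀ k, k < 0 → q k k = 0) (x y : ℤ) :
    d1 (fun x y => sC x y * p x y) (fun x y => sA x y * q x y) (sg x y) x y
      = (if x = 0 ∧ y = -1 then -2 * p 0 0 else 0) ∧
    d2 (fun x y => sC x y * p x y) (fun x y => sA x y * q x y) (sg x y) x y
      = (if x = 0 ∧ y = -1 then 2 * p 0 0 else 0) := by
  rcases lt_trichotomy x y with hxy | hxy | hxy
  · have a1 := h1 y x hxy.le
    have a2 := h2 (y+1) x (by omega)
    rw [add_sub_cancel_right] at a2
    have b1 := hp x y
    have b2 := hp x (y+1)
    have b3 := hp (x+1) (y+1)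
    have b4 := hq x y
    have b5 := hq (x-1) y
    have b6 := hq x (y+1)
    simp only [d1, d2, sA, sC, sg]
    constructor
    · split_ifs <;> first | (exfalso; omega) | linarith
    · split_ifs <;> first | (exfalso; omega) | linarith
  · subst hxy
    have a1 := h1 x x le_rfl
    have a2 := h2 (x+1) x (by omega)
    rw [add_sub_cancel_right] at a2
    have b1 := hp x (x+1)
    have b2 := hq (x-1) x
    have b3 := hq x (x+1)
    rcases lt_trichotomy x 0 with h0 | h0 | h0
    · have c1 := hq0 x h0
      simp only [d1, d2, sA, sC, sg]
      constructor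
      · split_ifs <;> first | (exfalso; omega) | linarith
      · split_ifs <;> first | (exfalso; omega) | linarith
    · subst h0
      have c1 := hp0 1 one_pos
      norm_num at a1 a2 b1 b2 b3
      simp only [d1, d2, sA, sC, sg]
      norm_num
      constructor <;> linarith
    · have c1 := hp0 x h0
      have c2 := hp0 (x+1) (by omega)
      simp only [d1, d2, sA, sC, sg]
      constructor
      · split_ifs <;> first | (exfalso; omega) | linarith
      · split_ifs <;> first | (exfalso; omega) | linarith
  · have a1 := h1 x (y+1) (by omega)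
    have a2 := h2 x y (by omega)
    rw [add_sub_cancel_right] at a1
    rcases eq_or_lt_of_le (show y + 1 ≤ x by omega) with h3 | h3
    · -- `(x, y+1)` on the diagonal
      subst h3
      rcases lt_trichotomy y (-1) with h0 | h0 | h0
      · simp only [d1, d2, sA, sC, sg]
        constructor
        · split_ifs <;> first | (exfalso; omega) | linarith
        · split_ifs <;> first | (exfalso; omega) | linarith
      · subst h0
        norm_num at a1 a2
        simp only [d1, d2, sA, sC, sg]
        norm_num
        constructor <;> linarith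
      · have c1 := hp0 (y+1) (by omega)
        simp only [d1, d2, sA, sC, sg]
        constructor
        · split_ifs <;> first | (exfalso; omega) | linarith
        · split_ifs <;> first | (exfalso; omega) | linarith
    · simp only [d1, d2, sA, sC, sg]
      constructor
      · split_ifs <;> first | (exfalso; omega) | linarith
      · split_ifs <;> first | (exfalso; omega) | linarith

end

end Crest.Agent.R165.Br1x644
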