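import Mathlib
import Crest.Agent.R165.Br2_644

/-!
Row 165 (S0250), block U4 (helper644): the explicit fields `Psi0`, `PsiS`, `PsiN` in the plane background
`wB` with one branch vertex `(0,0)`, and their equations.
-/

set_option autoImplicit false

namespace Crest.Agent.R165.Br1x644

open Real
open Crest.Agent.R165.Br0x644
open Crest.Agent.R165.Latx683

noncomputable section

/-- critical plane with one branch vertex at the origin -/
def wB : BW ℤ := wX (wPl ℤ) ![(0, 0)]

theorem yE_wB (x y : ℤ) : yE wB (x, y) = xc := by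
  simp [yE, wB, wX, ray, wPl]

theorem yN_wB (x y : ℤ) : yN wB (x, y) = sg x y * xc := by
  simp only [yN, wB, wX, ray, wPl, sg, Finset.univ_unique, Fin.default_eq_zero, Fin.isValue,
    Matrix.cons_val_fin_one, true_and, Finset.prod_const, Finset.card_singleton, pow_one]
  congr 1
  by_cases h : y = -1 ∧ 0 ≤ x
  · rw [if_pos h, if_pos (by omega)]
  · rw [if_neg h, if_neg (by omega)]

/-- equation of `fieldOf u w` from the defects -/
theorem Aop_fieldOf (u w : ℤ → ℤ → ℝ) (x0 y0 : ℤ) (e1 e2 : ℝ)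
    (h : ∀ x y, d1 u w (sg x y) x y = (if x = x0 ∧ y = y0 then e1 else 0) ∧
      d2 u w (sg x y) x y = (if x = x0 ∧ y = y0 then e2 else 0)) (g : HE ℤ) :
    Aop wB (fieldOf u w) g =
      if g = ((x0, y0), 2) then (√2/4) * (e1 - sg x0 y0 * xc * e2)
      else if g = ((x0, y0+1), 0) then -(√2/4) * (e2 + sg x0 y0 * xc * e1) else 0 := by
  obtain ⟨⟨x, y⟩, d⟩ := g
  fin_cases d
  · have h1 := h x (y-1)
    have h2 := rowS wB u w x (y-1) (sg x (y-1)) (sg_sq _ _) (yN_wB x (y-1))
    rw [sub_add_cancel] at h2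
    simp only [Fin.zero_eta, Fin.isValue, Prod.mk.injEq, Fin.reduceEq, and_false, if_false, and_true]
    rw [h2, h1.1, h1.2]
    by_cases hc : x = x0 ∧ y = y0 + 1
    · rw [if_pos hc, if_pos (by omega), if_pos (by omega)]
      obtain ⟨rfl, rfl⟩ := hc
      rw [add_sub_cancel_right]
    · rw [if_neg hc, if_neg (by omega), if_neg (by omega)]; ring
  · have h2 := rowE wB u w x y (yE_wB x y)
    simp only [Fin.mk_one, Fin.isValue, Prod.mk.injEq, Fin.reduceEq, and_false, if_false]
    exact h2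
  · have h1 := h x y
    have h2 := rowN wB u w x y (sg x y) (sg_sq _ _) (yN_wB x y)
    simp only [Fin.reduceFinMk, Fin.isValue, Prod.mk.injEq, and_true, Fin.reduceEq, and_false, if_false]
    rw [h2, h1.1, h1.2]
    by_cases hc : x = x0 ∧ y = y0
    · rw [if_pos hc, if_pos hc, if_pos hc]
      obtain ⟨rfl, rfl⟩ := hc
      rfl
    · rw [if_neg hc, if_neg hc, if_neg hc]; ring
  · have h2 := rowW wB u w x y (yE_wB (x-1) y)
    simp only [Fin.reduceFinMk, Fin.isValue, Prod.mk.injEq, Fin.reduceEq, and_false, if_false]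
    exact h2

theorem c1 : (√2/2) * (1 + xc) = 1 := by
  have h2 : √2 * √2 = (2:ℝ) := Real.mul_self_sqrt (by norm_num)
  unfold xc; linear_combination (1/2) * h2

theorem c2 : (√2/2) * (1 - xc) = xc := by
  have h2 : √2 * √2 = (2:ℝ) := Real.mul_self_sqrt (by norm_num)
  unfold xc; linear_combination (-1/2) * h2

/-! ### the three fields -/

/-- admissible mode -/
def Psi0 : HE ℤ → ℝ :=
  fieldOf (fun x y => sA x y * Pz x y) (fun x y => sB x y * Pz (-x-1) (-y-1))

/-- source at the branch vertex (south-west corner of the face `(0,0)`) -/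
def PsiS : HE ℤ → ℝ :=
  fieldOf (fun x y => sC x y * Pz (-x) (-y)) (fun x y => sA x y * (-Pz x y))

/-- source at the north-east corner of the face `(0,0)` -/
def PsiN : HE ℤ → ℝ :=
  fieldOf (fun x y => sA x y * (Pz (x-1) (y-1) - Pz x y))
    (fun x y => sB x y * (Pz (-x) (-y) - Pz (-x-1) (-y-1)))

theorem cr1' (x y : ℤ) (h : y ≤ x) :
    Pz (x+1) y - Pz x y = Pz (-x-1) (-y-1) - Pz (-x-1) (-y) := Pz_cr1 x y h

theorem rel0 (x y : ℤ) :
    d1 (fun x y => sA x y * Pz x y) (fun x y => sB x y * Pz (-x-1) (-y-1)) (sg x y) x y = 0 ∧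
    d2 (fun x y => sA x y * Pz x y) (fun x y => sB x y * Pz (-x-1) (-y-1)) (sg x y) x y = 0 := by
  have h := glueI Pz (fun x y => Pz (-x-1) (-y-1)) Pz_symm (fun x y => Pz_symm _ _) ?_ ?_
    (fun k hk => Pz_neg k hk) (fun k hk => Pz_neg _ (by omega)) x y
  · have h0 : Pz (-0-1) (-0-1) = 0 := Pz_neg _ (by omega)
    simp only [h0] at h
    refine ⟨h.1.trans ?_, h.2.trans ?_⟩ <;> split_ifs <;> ring
  · intro x y hxy
    have := Pz_cr1 x y hxy
    rw [show -(y-1)-1 = -y by ring]
    exact this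
  · intro x y hxy
    have := Pz_cr2 x y hxy
    rw [show -(x-1)-1 = -x by ring]
    exact this

theorem relS (x y : ℤ) :
    d1 (fun x y => sC x y * Pz (-x) (-y)) (fun x y => sA x y * (-Pz x y)) (sg x y) x y
      = (if x = 0 ∧ y = -1 then -2 else 0) ∧
    d2 (fun x y => sC x y * Pz (-x) (-y)) (fun x y => sA x y * (-Pz x y)) (sg x y) x y
      = (if x = 0 ∧ y = -1 then 2 else 0) := by
  have h := glueII (fun x y => Pz (-x) (-y)) (fun x y => -Pz x y) (fun x y => Pz_symm _ _)
    (fun x y => by rw [Pz_symm]) ?_ ?_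
    (fun k hk => Pz_neg _ (by omega)) (fun k hk => by rw [Pz_neg k hk, neg_zero]) x y
  · have h0 : Pz (-0) (-0) = 1 := by rw [neg_zero]; exact Pz_zero
    simp only [h0, mul_one] at h
    exact h
  · intro x y hxy
    -- cr2 at (x, y-1), reflected
    have h2 := Pz_cr2 (-y+0) (-x-1) (by omega)
    rw [show -(x+1) = -x-1 by ring]
    have e1 := Pz_cr2 x (y-1) (by omega)
    rw [sub_add_cancel, show -(y-1)-1 = -y by ring] at e1
    linarith
  · intro x y hxy
    have e1 := Pz_cr1 (x-1) y (by omega)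
    rw [sub_add_cancel, show -(x-1)-1 = -x by ring] at e1
    rw [show -(y+1) = -y-1 by ring]
    linarith

theorem relN (x y : ℤ) :
    d1 (fun x y => sA x y * (Pz (x-1) (y-1) - Pz x y))
      (fun x y => sB x y * (Pz (-x) (-y) - Pz (-x-1) (-y-1))) (sg x y) x y
      = (if x = 0 ∧ y = 0 then -2 else 0) ∧
    d2 (fun x y => sA x y * (Pz (x-1) (y-1) - Pz x y))
      (fun x y => sB x y * (Pz (-x) (-y) - Pz (-x-1) (-y-1))) (sg x y) x y
      = (if x = 0 ∧ y = 0 then 2 else 0) := by
  have h := glueI (fun x y => Pz (x-1) (y-1) - Pz x y)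
    (fun x y => Pz (-x) (-y) - Pz (-x-1) (-y-1))
    (fun x y => by rw [Pz_symm, Pz_symm x y])
    (fun x y => by rw [Pz_symm, Pz_symm (-x-1)]) ?_ ?_
    (fun k hk => by rw [Pz_neg _ hk, Pz_neg _ (by omega), sub_zero])
    (fun k hk => by rw [Pz_neg _ (by omega), Pz_neg _ (by omega), sub_zero]) x y
  · have h0 : Pz (-0) (-0) - Pz (-0-1) (-0-1) = 1 := by
      rw [neg_zero, Pz_zero, Pz_neg _ (by omega), sub_zero]
    simp only [h0, mul_one] at h
    exact h
  · intro x y hxy
    have e1 := Pz_cr1 x y hxy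
    have e2 := Pz_cr1 (x-1) (y-1) (by omega)
    rw [sub_add_cancel, show -(x-1)-1 = -x by ring, show -(y-1)-1 = -y by ring,
      show -(y-1) = -y+1 by ring] at e2
    rw [add_sub_cancel_right, show -(y-1) = -y+1 by ring, show -y+1-1 = -y by ring]
    linarith
  · intro x y hxy
    have e1 := Pz_cr2 x y hxy
    have e2 := Pz_cr2 (x-1) (y-1) (by omega)
    rw [sub_add_cancel, show -(x-1)-1 = -x by ring, show -(y-1)-1 = -y by ring] at e2
    rw [add_sub_cancel_right, show -(x-1) -1 = -x by ring]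
    linarith

theorem Aop_Psi0 (g : HE ℤ) : Aop wB Psi0 g = 0 := by
  have h := Aop_fieldOf _ _ 0 0 0 0 (fun x y => by
    have h := rel0 x y
    refine ⟨h.1.trans ?_, h.2.trans ?_⟩ <;> split_ifs <;> rfl) g
  rw [Psi0, h]
  split_ifs <;> ring

/-- source vector of `PsiS` : `S_{(0,0)} - y N_{(0,-1)}` with `y = -x_c` in this gauge -/
theorem Aop_PsiS (g : HE ℤ) : Aop wB PsiS g =
    if g = ((0, -1), 2) then -xc else if g = ((0, 0), 0) then -1 else 0 := by
  have hs : sg 0 (-1) = -1 := by unfold sg; norm_num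
  have h := Aop_fieldOf _ _ 0 (-1) (-2) 2 (fun x y => relS x y) g
  rw [PsiS, h, hs]
  have h1 := c1
  have h2 := c2
  norm_num only
  split_ifs <;> linarith

/-- source vector of `PsiN` : `N_{(0,0)} + y S_{(0,1)}` with `y = x_c` in this gauge -/
theorem Aop_PsiN (g : HE ℤ) : Aop wB PsiN g =
    if g = ((0, 0), 2) then -1 else if g = ((0, 1), 0) then -xc else 0 := by
  have hs : sg 0 0 = 1 := by unfold sg; norm_num
  have h := Aop_fieldOf _ _ 0 0 (-2) 2 (fun x y => relN x y) g
  rw [PsiN, h, hs]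
  have h1 := c1
  have h2 := c2
  simp only [zero_add]
  split_ifs <;> linarith

/-- value of `PsiS` on the opposite corner: `PsiS (N_{(0,0)}) + x_c PsiS (S_{(0,1)}) = 1` -/
theorem PsiS_lN : PsiS ((0, 0), 2) + xc * PsiS ((0, 1), 0) = 1 := by
  have hs : sg 0 0 = 1 := by unfold sg; norm_num
  have h := relS 0 0
  rw [if_neg (by omega), if_neg (by omega)] at h
  have h2 := pairN _ _ 0 0 (sg 0 0) (sg_sq _ _) h.1 h.2
  rw [hs, one_mul, zero_add] at h2
  rw [PsiS, h2, Pz_zero]
  simp [sA]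

/-- value of `PsiN` on the corner at the branch -/
theorem PsiN_lS : PsiN ((0, 0), 0) + xc * PsiN ((0, -1), 2) = -1 := by
  have hs : sg 0 (-1) = -1 := by unfold sg; norm_num
  have h := relN 0 (-1)
  rw [if_neg (by omega), if_neg (by omega)] at h
  have h2 := pairS _ _ 0 (-1) (sg 0 (-1)) (sg_sq _ _) h.1 h.2
  rw [hs, neg_add_cancel] at h2
  have h3 : Pz (0-1) (0-1) = 0 := Pz_neg _ (by omega)
  have e : sA 0 0 = 1 := by unfold sA; norm_num
  simp only [h3, Pz_zero, e] at h2
  rw [PsiN]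
  linarith

/-- value of `Psi0` on the corner at the branch is one -/
theorem Psi0_lS : Psi0 ((0, 0), 0) + xc * Psi0 ((0, -1), 2) = 1 := by
  have hs : sg 0 (-1) = -1 := by unfold sg; norm_num
  have h := rel0 0 (-1)
  have h2 := pairS _ _ 0 (-1) (sg 0 (-1)) (sg_sq _ _) h.1 h.2
  rw [hs, neg_add_cancel] at h2
  have e : sA 0 0 = 1 := by unfold sA; norm_num
  simp only [Pz_zero, e] at h2
  rw [Psi0]
  linarith

/-- value of `Psi0` on the opposite corner is zero -/
theorem Psi0_lN : Psi0 ((0, 0), 2) + xc * Psi0 ((0, 1), 0) = 0 := by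
  have hs : sg 0 0 = 1 := by unfold sg; norm_num
  have h := rel0 0 0
  have h2 := pairN _ _ 0 0 (sg 0 0) (sg_sq _ _) h.1 h.2
  rw [hs, one_mul, zero_add] at h2
  have h3 : Pz (-0-1) (-0-1) = 0 := Pz_neg _ (by omega)
  rw [Psi0, h2, h3]
  ring

end

end Crest.Agent.R165.Br1x644
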