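import Mathlib
import Crest.Agent.R165.Br0_644

/-!
Row 165 (S0250), block U4 (helper644): the bound `|P k n| ≤ C / √(|k| + n + 1)`.
-/

set_option autoImplicit false

namespace Crest.Agent.R165.Br0x644

open Real MeasureTheory Set intervalIntegral
open Crest.Agent.R165.Pkx583 (rho rho_nonneg rho_le_one sin_ge sin_pos' rho_le_exp)

/-- `∫_0^{π/2} u^{-1/2} e^{-cu} du ≤ √(π/c)` -/
theorem int_exp_le {c : ℝ} (hc : 0 < c) :
    ∫ u in (0:ℝ)..(π/2), u ^ (-(1/2) : ℝ) * Real.exp (-(c*u)) ≤ √π / √c := by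
  have h := Real.integral_rpow_mul_exp_neg_mul_Ioi (a := 1/2) (r := c) (by norm_num) hc
  have e : ((1:ℝ)/2 - 1) = -(1/2) := by norm_num
  rw [e, Real.Gamma_one_half_eq] at h
  have hi : IntegrableOn (fun u : ℝ => u ^ (-(1/2) : ℝ) * Real.exp (-(c*u))) (Ioi 0) := by
    have := Real.GammaIntegral_convergent (s := 1/2) (by norm_num)
    have h2 := integrableOn_rpow_mul_exp_neg_mul_rpow (p := 1) (s := -(1/2)) (b := c) (by norm_num)
      one_pos hc
    refine h2.congr_fun (fun u _ => ?_) measurableSet_Ioi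
    simp only [Real.rpow_one]
    rw [neg_mul]
  rw [intervalIntegral.integral_of_le (by positivity)]
  calc ∫ u in Ioc (0:ℝ) (π/2), u ^ (-(1/2) : ℝ) * Real.exp (-(c*u))
      ≤ ∫ u in Ioi (0:ℝ), u ^ (-(1/2) : ℝ) * Real.exp (-(c*u)) := by
        apply setIntegral_mono_set hi
        · refine (ae_restrict_iff' measurableSet_Ioi).2 (Filter.Eventually.of_forall fun u hu => ?_)
          have : (0:ℝ) < u := hu
          show (0:ℝ) ≤ _
          positivity
        · exact Ioc_subset_Ioi_self.eventuallyLE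
    _ = √π / √c := by
        rw [h, ← Real.sqrt_eq_rpow, Real.sqrt_div zero_le_one, Real.sqrt_one]
        ring

theorem abs_P_le_of_bound {k : ℤ} {n : ℕ} {g : ℝ → ℝ}
    (hg : IntervalIntegrable g volume 0 (π/2))
    (h : ∀ u, 0 < u → u ≤ π/2 → |amp u * (rho u ^ n * ph k u)| ≤ g u) :
    |P k n| ≤ (2/π) * ∫ u in (0:ℝ)..(π/2), g u := by
  have hpi := Real.pi_pos
  unfold P
  rw [abs_mul, abs_of_pos (by positivity : (0:ℝ) < 2/π)]
  apply mul_le_mul_of_nonneg_left _ (by positivity)
  have hbd : ∀ᵐ u : ℝ ∂volume, u ∈ Set.Ioc (0:ℝ) (π/2) → ‖amp u * (rho u ^ n * ph k u)‖ ≤ g u := by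
    refine Filter.Eventually.of_forall fun u hu => ?_
    rw [Real.norm_eq_abs]
    exact h u hu.1 hu.2
  have := intervalIntegral.norm_integral_le_of_norm_le (by positivity) hbd hg
  rwa [Real.norm_eq_abs] at this

theorem abs_integrand_le (k : ℤ) (n : ℕ) {u : ℝ} (h0 : 0 < u) (h1 : u ≤ π/2) :
    |amp u * (rho u ^ n * ph k u)| ≤ u ^ (-(1/2) : ℝ) * Real.exp (-((n/π)*u)) := by
  have hpi := Real.pi_pos
  rw [abs_mul, abs_mul, abs_of_nonneg (amp_nonneg u), ← one_div_sqrt h0]
  have hr := rho_nonneg h0.le h1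
  have h2 : |rho u ^ n| ≤ Real.exp (-((n/π)*u)) := by
    rw [abs_of_nonneg (pow_nonneg hr n)]
    have := pow_le_pow_left₀ hr (rho_le_exp h0.le h1) n
    rw [← Real.exp_nat_mul] at this
    refine this.trans (le_of_eq ?_)
    congr 1; ring
  calc amp u * (|rho u ^ n| * |ph k u|) ≤ amp u * (Real.exp (-((n/π)*u)) * 1) :=
        mul_le_mul_of_nonneg_left (mul_le_mul h2 (abs_ph_le k u) (abs_nonneg _) (Real.exp_pos _).le)
          (amp_nonneg u)
    _ ≤ _ := by
        rw [mul_one]
        exact mul_le_mul_of_nonneg_right (amp_le h0 h1) (Real.exp_pos _).le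

theorem P_bound_n (k : ℤ) (n : ℕ) (hn : 0 < n) : |P k n| ≤ 2 / √n := by
  have hpi := Real.pi_pos
  have hc : (0:ℝ) < n/π := by positivity
  have hi : IntervalIntegrable (fun u : ℝ => u ^ (-(1/2) : ℝ) * Real.exp (-((n/π)*u))) volume 0 (π/2) :=
    (ii_sqrt 0 (π/2)).mul_continuousOn (by fun_prop)
  have h := abs_P_le_of_bound hi (fun u h0 h1 => abs_integrand_le k n h0 h1)
  have h2 := int_exp_le hc
  refine h.trans ?_
  calc (2/π) * ∫ u in (0:ℝ)..(π/2), u ^ (-(1/2) : ℝ) * Real.exp (-((n/π)*u))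
      ≤ (2/π) * (√π / √(n/π)) := mul_le_mul_of_nonneg_left h2 (by positivity)
    _ = 2 / √n := by
        rw [Real.sqrt_div (by positivity)]
        have h3 : √π * √π = π := Real.mul_self_sqrt hpi.le
        have h4 : √(n:ℝ) ≠ 0 := by positivity
        have h5 : √π ≠ 0 := by positivity
        field_simp
        linear_combination h3

theorem P_bound_const (k : ℤ) (n : ℕ) : |P k n| ≤ 2 := by
  have hpi := Real.pi_pos
  have h := abs_P_le_of_bound (k := k) (n := n) (ii_sqrt 0 (π/2)) (fun u h0 h1 => by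
    refine (abs_integrand_le k n h0 h1).trans ?_
    have : Real.exp (-((n/π)*u)) ≤ 1 := Real.exp_le_one_iff.2 (by
      have : 0 ≤ (n/π)*u := by positivity
      linarith)
    calc u ^ (-(1/2) : ℝ) * Real.exp (-((n/π)*u)) ≤ u ^ (-(1/2) : ℝ) * 1 :=
          mul_le_mul_of_nonneg_left this (by positivity)
      _ = _ := mul_one _)
  refine h.trans ?_
  rw [integral_rpow (Or.inl (by norm_num))]
  rw [Real.zero_rpow (by norm_num)]
  have e : (-(1/2:ℝ) + 1) = 1/2 := by norm_num
  rw [e, ← Real.sqrt_eq_rpow]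
  have h2 : √(π/2) ≤ π/2 := by
    rw [Real.sqrt_le_left (by positivity)]
    have := Real.pi_gt_three
    nlinarith
  have h3 : √(π/2) * √(π/2) = π/2 := Real.mul_self_sqrt (by positivity)
  have h4 : 0 ≤ √(π/2) := Real.sqrt_nonneg _
  rw [sub_zero]
  calc (2/π) * (√(π/2) / (1/2)) ≤ (2/π) * ((π/2) / (1/2)) := by gcongr
    _ = 2 := by field_simp

/-! ### integration by parts -/

/-- derivative of `rho` -/
theorem hasDerivAt_rho {u : ℝ} (h0 : 0 < u) (h1 : u ≤ π/2) :
    HasDerivAt rho (-(1 / (1 + Real.sin u))) u := by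
  have hs : 0 < Real.sin u := sin_pos' h0 h1
  have hne : 1 + Real.sin u ≠ 0 := by positivity
  have h := (Real.hasDerivAt_cos u).div ((Real.hasDerivAt_sin u).const_add 1) hne
  refine h.congr_deriv ?_
  have h2 := Real.sin_sq_add_cos_sq u
  field_simp
  linear_combination -h2

theorem hasDerivAt_amp {u : ℝ} (h0 : 0 < u) (h1 : u ≤ π/2) :
    HasDerivAt amp (-(Real.cos u / (2 * Real.sin u * √(2 * Real.sin u)))) u := by
  have hs : 0 < Real.sin u := sin_pos' h0 h1
  have hs2 : 2 * Real.sin u ≠ 0 := by positivity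
  have h2 : HasDerivAt (fun u => √(2 * Real.sin u)) (2 * Real.cos u / (2 * √(2 * Real.sin u))) u :=
    ((Real.hasDerivAt_sin u).const_mul 2).sqrt hs2
  have hsq : √(2 * Real.sin u) * √(2 * Real.sin u) = 2 * Real.sin u :=
    Real.mul_self_sqrt (by positivity)
  have hsne : √(2 * Real.sin u) ≠ 0 := by positivity
  have h3 := (hasDerivAt_const u (1:ℝ)).div h2 hsne
  refine h3.congr_deriv ?_
  rw [sq, hsq]
  field_simp
  ring

/-- monotone amplitude against an oscillation -/
theorem osc_bound {F F' : ℝ → ℝ} {a b q β : ℝ} (hab : a ≤ b) (hq : q ≠ 0)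
    (hF : ∀ u ∈ Icc a b, HasDerivAt F (F' u) u) (hc : ContinuousOn F' (Icc a b))
    (hneg : ∀ u ∈ Icc a b, F' u ≤ 0) (hpos : ∀ u ∈ Icc a b, 0 ≤ F u) :
    |∫ u in a..b, F u * Real.cos (q*u - β)| ≤ 2 * F a / |q| := by
  have hq' : 0 < |q| := abs_pos.2 hq
  have hF'i : IntervalIntegrable F' volume a b := by
    apply ContinuousOn.intervalIntegrable
    rwa [uIcc_of_le hab]
  have hv : ∀ u ∈ uIcc a b, HasDerivAt (fun u : ℝ => Real.sin (q*u - β) / q) (Real.cos (q*u-β)) u := by
    intro u _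
    have := ((((hasDerivAt_id u).const_mul q).sub_const β).sin).div_const q
    refine this.congr_deriv ?_
    field_simp
    simp
  have hu : ∀ u ∈ uIcc a b, HasDerivAt F (F' u) u := by rwa [uIcc_of_le hab]
  have hcos : IntervalIntegrable (fun u : ℝ => Real.cos (q*u-β)) volume a b :=
    (by fun_prop : Continuous fun u : ℝ => Real.cos (q*u-β)).intervalIntegrable _ _
  have hibp := intervalIntegral.integral_mul_deriv_eq_deriv_mul hu hv hF'i hcos
  have hft := intervalIntegral.integral_eq_sub_of_hasDerivAt hu hF'i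
  have hrem : |∫ u in a..b, F' u * (Real.sin (q*u-β) / q)| ≤ (F a - F b) / |q| := by
    have hbd : ∀ᵐ u : ℝ ∂volume, u ∈ Set.Ioc a b →
        ‖F' u * (Real.sin (q*u-β) / q)‖ ≤ -F' u / |q| := by
      refine Filter.Eventually.of_forall fun u hu => ?_
      have h1 := hneg u ⟨hu.1.le, hu.2⟩
      rw [Real.norm_eq_abs, abs_mul, abs_div, abs_of_nonpos h1, mul_div_assoc']
      have : |Real.sin (q*u-β)| ≤ 1 := Real.abs_sin_le_one _
      gcongr
      nlinarith
    have hg : IntervalIntegrable (fun u => -F' u / |q|) volume a b := hF'i.neg.div_const _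
    have h := intervalIntegral.norm_integral_le_of_norm_le hab hbd hg
    rw [Real.norm_eq_abs, intervalIntegral.integral_div, intervalIntegral.integral_neg, hft] at h
    refine h.trans (le_of_eq ?_)
    ring
  rw [hibp]
  have hFa := hpos a ⟨le_rfl, hab⟩
  have hFb := hpos b ⟨hab, le_rfl⟩
  have ha : |F a * (Real.sin (q*a-β)/q)| ≤ F a / |q| := by
    rw [abs_mul, abs_div, abs_of_nonneg hFa, mul_div_assoc']
    have : |Real.sin (q*a-β)| ≤ 1 := Real.abs_sin_le_one _
    gcongr
    nlinarith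
  have hb : |F b * (Real.sin (q*b-β)/q)| ≤ F b / |q| := by
    rw [abs_mul, abs_div, abs_of_nonneg hFb, mul_div_assoc']
    have : |Real.sin (q*b-β)| ≤ 1 := Real.abs_sin_le_one _
    gcongr
    nlinarith
  calc |F b * (Real.sin (q*b-β)/q) - F a * (Real.sin (q*a-β)/q)
        - ∫ u in a..b, F' u * (Real.sin (q*u-β) / q)|
      ≤ |F b * (Real.sin (q*b-β)/q) - F a * (Real.sin (q*a-β)/q)|
        + |∫ u in a..b, F' u * (Real.sin (q*u-β) / q)| := abs_sub _ _
    _ ≤ (|F b * (Real.sin (q*b-β)/q)| + |F a * (Real.sin (q*a-β)/q)|) + (F a - F b) / |q| :=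
        add_le_add (abs_sub _ _) hrem
    _ ≤ (F b / |q| + F a / |q|) + (F a - F b) / |q| := by gcongr
    _ = 2 * F a / |q| := by ring

theorem P_bound_k (k : ℤ) (n : ℕ) : |P k n| ≤ 3 / √|(k:ℝ) + 1/2| := by
  have hpi := Real.pi_pos
  set q : ℝ := (k:ℝ) + 1/2 with hq
  have hq2 : 1/2 ≤ |q| := by
    rcases le_or_gt 0 k with hk | hk
    · have : (0:ℝ) ≤ k := by exact_mod_cast hk
      rw [abs_of_nonneg (by rw [hq]; linarith)]
      rw [hq]; linarith
    · have : (k:ℝ) ≤ -1 := by exact_mod_cast (show k ≤ -1 by omega)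
      rw [abs_of_neg (by rw [hq]; linarith)]
      rw [hq]; linarith
  have hqne : q ≠ 0 := by
    intro h; rw [h, abs_zero] at hq2; norm_num at hq2
  set δ : ℝ := 1 / (2 * |q|) with hδ
  have hδ0 : 0 < δ := by positivity
  have hδ1 : δ ≤ 1 := by
    rw [hδ, div_le_one (by positivity)]; linarith
  have hδ2 : δ ≤ π/2 := by have := Real.pi_gt_three; linarith
  -- the amplitude
  set F : ℝ → ℝ := fun u => amp u * rho u ^ n with hF
  set F' : ℝ → ℝ := fun u => -(Real.cos u / (2 * Real.sin u * √(2 * Real.sin u))) * rho u ^ n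
    + amp u * (n * rho u ^ (n-1) * -(1 / (1 + Real.sin u))) with hF'
  have hder : ∀ u ∈ Icc δ (π/2), HasDerivAt F (F' u) u := by
    intro u hu
    have h0 : 0 < u := lt_of_lt_of_le hδ0 hu.1
    exact (hasDerivAt_amp h0 hu.2).mul ((hasDerivAt_rho h0 hu.2).pow n)
  have hspos : ∀ u ∈ Icc δ (π/2), 0 < Real.sin u := fun u hu =>
    sin_pos' (lt_of_lt_of_le hδ0 hu.1) hu.2
  have hcont : ContinuousOn F' (Icc δ (π/2)) := by
    have c1 : ContinuousOn (fun u => Real.cos u / (2 * Real.sin u * √(2 * Real.sin u))) (Icc δ (π/2)) := by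
      apply ContinuousOn.div (by fun_prop) (by fun_prop)
      intro u hu
      have := hspos u hu
      positivity
    have c2 : ContinuousOn rho (Icc δ (π/2)) := by
      unfold rho
      apply ContinuousOn.div (by fun_prop) (by fun_prop)
      intro u hu
      have := hspos u hu
      positivity
    have c3 : ContinuousOn amp (Icc δ (π/2)) := by
      unfold amp
      apply ContinuousOn.div (by fun_prop) (by fun_prop)
      intro u hu
      have := hspos u hu
      positivity
    have c4 : ContinuousOn (fun u => -(1 / (1 + Real.sin u))) (Icc δ (π/2)) := by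
      apply ContinuousOn.neg
      apply ContinuousOn.div (by fun_prop) (by fun_prop)
      intro u hu
      have := hspos u hu
      positivity
    exact (c1.neg.mul (c2.pow n)).add (c3.mul ((continuousOn_const.mul (c2.pow (n-1))).mul c4))
  have hneg : ∀ u ∈ Icc δ (π/2), F' u ≤ 0 := by
    intro u hu
    have h0 : 0 < u := lt_of_lt_of_le hδ0 hu.1
    have hs := hspos u hu
    have hr := rho_nonneg h0.le hu.2
    have hcs : 0 ≤ Real.cos u := Real.cos_nonneg_of_neg_pi_div_two_le_of_le (by linarith) hu.2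
    have ha := amp_nonneg u
    have e1 : 0 ≤ (Real.cos u / (2 * Real.sin u * √(2 * Real.sin u))) * rho u ^ n := by positivity
    have e2 : 0 ≤ amp u * (n * rho u ^ (n-1) * (1 / (1 + Real.sin u))) := by positivity
    simp only [hF']
    linarith
  have hposF : ∀ u ∈ Icc δ (π/2), 0 ≤ F u := by
    intro u hu
    have h0 : 0 < u := lt_of_lt_of_le hδ0 hu.1
    have hr := rho_nonneg h0.le hu.2
    have ha := amp_nonneg u
    simp only [hF]
    positivity
  have hosc := osc_bound (β := π/4) hδ2 hqne hder hcont hneg hposF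
  -- split
  have hi1 : IntervalIntegrable (fun u => amp u * (rho u ^ n * ph k u)) volume 0 δ :=
    (ii_P k n).mono_set (by
      rw [uIcc_of_le hδ0.le, uIcc_of_le (by positivity)]
      exact Icc_subset_Icc_right hδ2)
  have hi2 : IntervalIntegrable (fun u => amp u * (rho u ^ n * ph k u)) volume δ (π/2) :=
    (ii_P k n).mono_set (by
      rw [uIcc_of_le hδ2, uIcc_of_le (by positivity)]
      exact Icc_subset_Icc_left hδ0.le)
  have hsplit := intervalIntegral.integral_add_adjacent_intervals hi1 hi2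
  have hfirst : |∫ u in (0:ℝ)..δ, amp u * (rho u ^ n * ph k u)| ≤ 2 * √δ := by
    have hbd : ∀ᵐ u : ℝ ∂volume, u ∈ Set.Ioc (0:ℝ) δ →
        ‖amp u * (rho u ^ n * ph k u)‖ ≤ u ^ (-(1/2) : ℝ) := by
      refine Filter.Eventually.of_forall fun u hu => ?_
      rw [Real.norm_eq_abs]
      refine (abs_integrand_le k n hu.1 (hu.2.trans hδ2)).trans ?_
      have h0 : 0 < u := hu.1
      have : Real.exp (-((n/π)*u)) ≤ 1 := Real.exp_le_one_iff.2 (by
        have : 0 ≤ (n/π)*u := by positivity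
        linarith)
      calc u ^ (-(1/2) : ℝ) * Real.exp (-((n/π)*u)) ≤ u ^ (-(1/2) : ℝ) * 1 :=
            mul_le_mul_of_nonneg_left this (by positivity)
        _ = _ := mul_one _
    have h := intervalIntegral.norm_integral_le_of_norm_le hδ0.le hbd (ii_sqrt 0 δ)
    rw [Real.norm_eq_abs, integral_rpow (Or.inl (by norm_num)), Real.zero_rpow (by norm_num)] at h
    have e : (-(1/2:ℝ) + 1) = 1/2 := by norm_num
    rw [e, ← Real.sqrt_eq_rpow] at h
    refine h.trans (le_of_eq ?_)
    ring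
  have hsecond : |∫ u in δ..(π/2), amp u * (rho u ^ n * ph k u)| ≤ 2 * (1/√δ) / |q| := by
    have e : ∫ u in δ..(π/2), amp u * (rho u ^ n * ph k u)
        = ∫ u in δ..(π/2), F u * Real.cos (q*u - π/4) := by
      apply intervalIntegral.integral_congr
      intro u _
      simp only [hF, ph, hq]
      ring
    rw [e]
    refine hosc.trans ?_
    have hFδ : F δ ≤ 1/√δ := by
      have h1 := rho_pow_le n hδ0.le hδ2
      rw [abs_of_nonneg (pow_nonneg (rho_nonneg hδ0.le hδ2) n)] at h1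
      calc F δ ≤ amp δ * 1 := mul_le_mul_of_nonneg_left h1 (amp_nonneg δ)
        _ ≤ 1/√δ := by rw [mul_one]; exact amp_le hδ0 hδ2
    gcongr
  have hA : √(2*|q|) = 1/√δ := by
    rw [hδ, Real.sqrt_div zero_le_one, Real.sqrt_one, one_div_one_div]
  have hB : √(2*|q|) * √(2*|q|) = 2*|q| := Real.mul_self_sqrt (by positivity)
  have hC : √(2*|q|) = √2 * √|q| := Real.sqrt_mul (by norm_num) _
  have hD : √δ = 1 / √(2*|q|) := by rw [hA, one_div_one_div]
  unfold P
  rw [← hsplit, abs_mul, abs_of_pos (by positivity : (0:ℝ) < 2/π)]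
  have hsum : |(∫ u in (0:ℝ)..δ, amp u * (rho u ^ n * ph k u))
      + ∫ u in δ..(π/2), amp u * (rho u ^ n * ph k u)| ≤ 2 * √δ + 2 * (1/√δ) / |q| :=
    (abs_add_le _ _).trans (add_le_add hfirst hsecond)
  have hq0 : 0 < √|q| := by positivity
  have hqq : √|q| * √|q| = |q| := Real.mul_self_sqrt (abs_nonneg q)
  have h22 : √2 * √2 = (2:ℝ) := Real.mul_self_sqrt (by norm_num)
  have h20 : (0:ℝ) < √2 := by positivity
  have e1 : 2 * √δ + 2 * (1/√δ) / |q| = 3 * √2 / √|q| := by
    rw [← hA, hD, hC]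
    have g1 : 2 * (1/(√2*√|q|)) = √2/√|q| := by
      rw [mul_one_div, div_eq_div_iff (by positivity) hq0.ne']
      linear_combination (-√|q|) * h22
    have g2 : 2 * (√2*√|q|) / |q| = 2 * √2 / √|q| := by
      rw [div_eq_div_iff (by positivity) hq0.ne']
      linear_combination (2 * √2) * hqq
    rw [g1, g2]; ring
  have h3 : √2 ≤ 3/2 := by
    rw [Real.sqrt_le_left (by norm_num)]; norm_num
  rw [e1] at hsum
  calc (2/π) * |(∫ u in (0:ℝ)..δ, amp u * (rho u ^ n * ph k u))
      + ∫ u in δ..(π/2), amp u * (rho u ^ n * ph k u)| ≤ (2/π) * (3 * √2 / √|q|) :=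
        mul_le_mul_of_nonneg_left hsum (by positivity)
    _ ≤ (2/π) * (3 * (3/2) / √|q|) := by gcongr
    _ = (9/π) / √|q| := by ring
    _ ≤ 3 / √|q| := by
        have : 9/π ≤ 3 := by
          rw [div_le_iff₀ hpi]; have := Real.pi_gt_three; linarith
        gcongr

/-- **(BrB1)** -/
theorem P_bound (k : ℤ) (n : ℕ) : |P k n| ≤ 8 / √(|(k:ℝ)| + n + 1) := by
  set M : ℝ := |(k:ℝ)| + n + 1 with hM
  have hn0 : (0:ℝ) ≤ n := Nat.cast_nonneg n
  have hk0 := abs_nonneg (k:ℝ)
  have hM1 : 1 ≤ M := by rw [hM]; linarith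
  have hsM : 0 < √M := by positivity
  have hsM2 : √M * √M = M := Real.mul_self_sqrt (by linarith)
  have hkq : |(k:ℝ)| ≤ |(k:ℝ) + 1/2| + 1/2 := by
    have := abs_sub ((k:ℝ) + 1/2) (1/2)
    rw [add_sub_cancel_right] at this
    refine this.trans ?_
    rw [abs_of_pos (by norm_num : (0:ℝ) < 1/2)]
  rcases le_or_gt M 4 with h4 | h4
  · refine (P_bound_const k n).trans ?_
    rw [le_div_iff₀ hsM]
    have : √M ≤ 2 := by
      rw [Real.sqrt_le_left (by norm_num)]; linarith
    linarith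
  · rcases le_or_gt (M/4) |(k:ℝ) + 1/2| with hq | hq
    · refine (P_bound_k k n).trans ?_
      have h5 : √M / 2 ≤ √|(k:ℝ) + 1/2| := by
        apply Real.le_sqrt_of_sq_le
        nlinarith
      rw [div_le_div_iff₀ (by nlinarith) hsM]
      nlinarith
    · have h6 : 3*M/8 ≤ n := by
        have : |(k:ℝ)| < M/4 + 1/2 := by linarith
        rw [hM] at this ⊢
        linarith
      have hn : 0 < n := by
        have : (0:ℝ) < n := by linarith
        exact_mod_cast this
      refine (P_bound_n k n hn).trans ?_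
      have h7 : √M / 2 ≤ √(n:ℝ) := by
        apply Real.le_sqrt_of_sq_le
        nlinarith
      rw [div_le_div_iff₀ (by nlinarith) hsM]
      nlinarith

end Crest.Agent.R165.Br0x644
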