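import Mathlib

/-!
# Row 165, block R: the Campanato assembly (helper891)

Abstract passage from EXACT solutions (`A e = 0` on a box) plus a local solver to functions with
`ρ^n |A^n f| ≤ 1`, `n ≤ 2`.  `N j` = `l²` seminorm on the box of radius `ρ / 2^j`, `q = 2^{-1/2}`,
`α = p/2` (`p = 2` at a boundary, `p = 1` at a branch point).
-/

set_option autoImplicit false

noncomputable section

namespace Crest.Agent.R165.Campx891

open Finset

/-- `q = 2^{-1/2}` -/
def q : ℝ := Real.sqrt (1 / 2)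

theorem q_pos : 0 < q := Real.sqrt_pos.2 (by norm_num)

theorem q_sq : q ^ 2 = 1 / 2 := Real.sq_sqrt (by norm_num)

theorem q_lt : q < 3 / 4 := by
  have h := q_sq
  nlinarith [q_pos]

theorem q_le_one : q ≤ 1 := by linarith [q_lt]

/-- telescoping decomposition bound: the general step -/
theorem tele {V : Type*} [AddCommGroup V] [Module ℝ V] (A : V →ₗ[ℝ] V) (N : ℕ → Seminorm ℝ V)
    (anti : ∀ j, N (j + 1) ≤ N j) (J : ℕ) (F : ℕ → ℝ) (f : V) (w : ℕ → V)
    (hw : ∀ j ≤ J, N j (A (w j) - A f) = 0)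
    (M : Seminorm ℝ V)
    (hE : ∀ j ≤ J, ∀ e : V, N j (A e) = 0 → M e ≤ F j * N j e)
    (hF : ∀ j, 0 ≤ F j) :
    M (f - w J) ≤ F 0 * (N 0 f + N 0 (w 0)) +
      ∑ j ∈ range J, F (j + 1) * (N j (w j) + N (j + 1) (w (j + 1))) := by
  have h0 : M (f - w 0) ≤ F 0 * (N 0 f + N 0 (w 0)) := by
    have h1 : N 0 (A (f - w 0)) = 0 := by
      rw [map_sub, ← map_neg_eq_map (N 0), neg_sub]; exact hw 0 (Nat.zero_le _)
    refine (hE 0 (Nat.zero_le _) _ h1).trans ?_
    exact mul_le_mul_of_nonneg_left (map_sub_le_add (N 0) _ _) (hF 0)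
  have key : ∀ k ≤ J, M (f - w k) ≤ F 0 * (N 0 f + N 0 (w 0)) +
      ∑ j ∈ range k, F (j + 1) * (N j (w j) + N (j + 1) (w (j + 1))) := by
    intro k
    induction k with
    | zero => intro _; simpa using h0
    | succ k ih =>
      intro hk
      have hk' : k ≤ J := (Nat.le_succ k).trans hk
      have e1 : f - w (k + 1) = (f - w k) + (w k - w (k + 1)) := by abel
      have hex : N (k + 1) (A (w k - w (k + 1))) = 0 := by
        have h2 : A (w k - w (k + 1)) = (A (w k) - A f) - (A (w (k + 1)) - A f) := by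
          rw [map_sub]; abel
        refine le_antisymm ?_ (apply_nonneg _ _)
        rw [h2]
        refine (map_sub_le_add (N (k + 1)) _ _).trans ?_
        have h3 : N (k + 1) (A (w k) - A f) ≤ 0 := (anti k _).trans (hw k hk').le
        have h4 := (hw (k + 1) hk).le
        linarith
      have h5 := hE (k + 1) hk _ hex
      have h6 : N (k + 1) (w k - w (k + 1)) ≤ N k (w k) + N (k + 1) (w (k + 1)) := by
        refine (map_sub_le_add (N (k + 1)) _ _).trans ?_
        have := anti k (w k)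
        linarith
      rw [e1, sum_range_succ]
      have h7 := mul_le_mul_of_nonneg_left h6 (hF (k + 1))
      have h8 := map_add_le_add M (f - w k) (w k - w (k + 1))
      have h9 := ih hk'
      linarith
  exact key J le_rfl

/-- scales: `s j = ρ / 2^j = ρ q^(2j)` -/
theorem geom_le (k : ℕ) : ∑ j ∈ range k, q ^ j ≤ 4 := by
  have h1 : q ≠ 1 := by linarith [q_lt]
  have h := geom_sum_eq h1 k
  rw [h]
  have h2 : (q ^ k - 1) / (q - 1) = (1 - q ^ k) / (1 - q) := by
    rw [← neg_sub, ← neg_sub (1 : ℝ) q, neg_div_neg_eq]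
  rw [h2, div_le_iff₀ (by linarith [q_lt])]
  have h3 : 0 ≤ q ^ k := pow_nonneg q_pos.le k
  linarith [q_lt]


/-- telescoping, version with a one-dimensional mode `u` -/
theorem tele2 {V : Type*} [AddCommGroup V] [Module ℝ V] (A : V →ₗ[ℝ] V) (N : ℕ → Seminorm ℝ V)
    (anti : ∀ j, N (j + 1) ≤ N j) (J : ℕ) (F : ℕ → ℝ) (f : V) (w : ℕ → V)
    (hw : ∀ j ≤ J, N j (A (w j) - A f) = 0)
    (M : Seminorm ℝ V) (u : V)
    (hE : ∀ j ≤ J, ∀ e : V, N j (A e) = 0 → ∃ κ : ℝ, M (e - κ • u) ≤ F j * N j e)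
    (hF : ∀ j, 0 ≤ F j) :
    ∃ κ : ℝ, M (f - w J - κ • u) ≤ F 0 * (N 0 f + N 0 (w 0)) +
      ∑ j ∈ range J, F (j + 1) * (N j (w j) + N (j + 1) (w (j + 1))) := by
  have h0 : ∃ κ : ℝ, M (f - w 0 - κ • u) ≤ F 0 * (N 0 f + N 0 (w 0)) := by
    have h1 : N 0 (A (f - w 0)) = 0 := by
      rw [map_sub, ← map_neg_eq_map (N 0), neg_sub]; exact hw 0 (Nat.zero_le _)
    obtain ⟨κ, hκ⟩ := hE 0 (Nat.zero_le _) _ h1
    refine ⟨κ, hκ.trans ?_⟩
    exact mul_le_mul_of_nonneg_left (map_sub_le_add (N 0) _ _) (hF 0)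
  have key : ∀ k ≤ J, ∃ κ : ℝ, M (f - w k - κ • u) ≤ F 0 * (N 0 f + N 0 (w 0)) +
      ∑ j ∈ range k, F (j + 1) * (N j (w j) + N (j + 1) (w (j + 1))) := by
    intro k
    induction k with
    | zero => intro _; simpa using h0
    | succ k ih =>
      intro hk
      have hk' : k ≤ J := (Nat.le_succ k).trans hk
      have hex : N (k + 1) (A (w k - w (k + 1))) = 0 := by
        have h2 : A (w k - w (k + 1)) = (A (w k) - A f) - (A (w (k + 1)) - A f) := by
          rw [map_sub]; abel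
        refine le_antisymm ?_ (apply_nonneg _ _)
        rw [h2]
        refine (map_sub_le_add (N (k + 1)) _ _).trans ?_
        have h3 : N (k + 1) (A (w k) - A f) ≤ 0 := (anti k _).trans (hw k hk').le
        have h4 := (hw (k + 1) hk).le
        linarith
      obtain ⟨κ', h5⟩ := hE (k + 1) hk _ hex
      have h6 : N (k + 1) (w k - w (k + 1)) ≤ N k (w k) + N (k + 1) (w (k + 1)) := by
        refine (map_sub_le_add (N (k + 1)) _ _).trans ?_
        have := anti k (w k)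
        linarith
      obtain ⟨κ, h9⟩ := ih hk'
      refine ⟨κ + κ', ?_⟩
      have e1 : f - w (k + 1) - (κ + κ') • u =
          (f - w k - κ • u) + (w k - w (k + 1) - κ' • u) := by rw [add_smul]; abel
      rw [e1, sum_range_succ]
      have h7 := mul_le_mul_of_nonneg_left h6 (hF (k + 1))
      have h8 := map_add_le_add M (f - w k - κ • u) (w k - w (k + 1) - κ' • u)
      linarith
  exact key J le_rfl

/-- the hypotheses of the assembly at one box -/
structure Hyp {V : Type*} [AddCommGroup V] [Module ℝ V] (A : V →ₗ[ℝ] V) (N : ℕ → Seminorm ℝ V)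
    (u : V) (p J : ℕ) (ρ C1 Cs η : ℝ) : Prop where
  hp : 1 ≤ p
  hp2 : p ≤ 2
  hρ : 0 < ρ
  hC1 : 0 ≤ C1
  hCs : 0 ≤ Cs
  hη : 0 ≤ η
  hηJ : η ≤ q ^ (3 * J)
  anti : ∀ j, N (j + 1) ≤ N j
  /-- local solver -/
  ls : ∀ j ≤ J, ∀ g : V, ∃ w : V, N j (A w - g) = 0 ∧ N j w ≤ Cs * (ρ * q ^ (2 * j)) * N j g
  /-- growth of exact solutions -/
  ex1 : ∀ j i, j ≤ i → i ≤ J → ∀ e : V, N j (A e) = 0 →
    N i e ≤ (C1 * q ^ (p * (i - j)) + η) * N j e
  /-- one mode -/
  ex2 : ∀ j ≤ J, ∀ e : V, N j (A e) = 0 →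
    ∃ κ : ℝ, N J (e - κ • u) ≤ (C1 * q ^ ((p + 2) * (J - j)) + η) * N j e

variable {V : Type*} [AddCommGroup V] [Module ℝ V] {A : V →ₗ[ℝ] V} {N : ℕ → Seminorm ℝ V}
  {u : V} {p J : ℕ} {ρ C1 Cs η : ℝ}

theorem anti_of (h : ∀ j, N (j + 1) ≤ N j) (j i : ℕ) (hji : j ≤ i) (v : V) : N i v ≤ N j v := by
  induction i, hji using Nat.le_induction with
  | base => exact le_rfl
  | succ k _ ih => exact (h k v).trans ih

theorem q_pow_le {a b : ℕ} (h : a ≤ b) : q ^ b ≤ q ^ a :=
  pow_le_pow_of_le_one q_pos.le q_le_one h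

theorem inv_q3 : 1 ≤ 3 * q ^ 3 := by
  have h := q_sq
  have h1 : (2 / 3 : ℝ) < q := by
    by_contra hc
    push Not at hc
    nlinarith [q_pos]
  have : q ^ 3 = q * (1 / 2) := by rw [← h]; ring
  rw [this]; linarith

/-- constant of the first level -/
def K1 (C1 Cs : ℝ) : ℝ := (C1 + 1) * (1 + Cs) + (C1 + 1) * (3 * (2 * Cs)) * 4 + Cs

theorem K1_nonneg {C1 Cs : ℝ} (h1 : 0 ≤ C1) (h2 : 0 ≤ Cs) : 0 ≤ K1 C1 Cs := by
  unfold K1; positivity

/-- first level: decay of `g` when `ρ |g| ≤ 1`, `ρ² |A g| ≤ 1` -/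
theorem level1 (H : Hyp A N u p J ρ C1 Cs η) (g : V) (hg : N 0 g ≤ 1 / ρ)
    (hAg : N 0 (A g) ≤ 1 / ρ ^ 2) (i : ℕ) (hi : i ≤ J) : N i g ≤ K1 C1 Cs * q ^ i / ρ := by
  have hρ := H.hρ
  choose! w hw1 hw2 using fun j (hj : j ≤ J) => H.ls j hj (A g)
  have hwb : ∀ j ≤ i, N j (w j) ≤ Cs * q ^ (2 * j) / ρ := by
    intro j hj
    refine (hw2 j (hj.trans hi)).trans ?_
    have h1 : N j (A g) ≤ 1 / ρ ^ 2 := (anti_of H.anti 0 j (Nat.zero_le _) _).trans hAg
    have h2 : 0 ≤ Cs * (ρ * q ^ (2 * j)) := by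
      have := H.hCs; have := q_pos; positivity
    refine (mul_le_mul_of_nonneg_left h1 h2).trans (le_of_eq ?_)
    field_simp
  set F : ℕ → ℝ := fun j => C1 * q ^ (p * (i - j)) + η with hFdef
  have hF : ∀ j, 0 ≤ F j := fun j => by
    have := H.hC1; have := H.hη; have := q_pos; positivity
  have hFb : ∀ j ≤ i, F j ≤ (C1 + 1) * q ^ (i - j) := by
    intro j hj
    have h1 : q ^ (p * (i - j)) ≤ q ^ (i - j) := q_pow_le (Nat.le_mul_of_pos_left _ H.hp)
    have h2 : η ≤ q ^ (i - j) := H.hηJ.trans (q_pow_le (by omega))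
    have h3 := mul_le_mul_of_nonneg_left h1 H.hC1
    simp only [hFdef]; linarith
  have ht := tele A N H.anti i F g w (fun j hj => hw1 j (hj.trans hi)) (N i)
    (fun j hj e he => H.ex1 j i hj hi e he) hF
  have hC1 := H.hC1
  have hCs := H.hCs
  have hqi : 0 ≤ q ^ i := pow_nonneg q_pos.le i
  -- zeroth term
  have t0 : F 0 * (N 0 g + N 0 (w 0)) ≤ (C1 + 1) * (1 + Cs) * (q ^ i / ρ) := by
    have h1 : N 0 g + N 0 (w 0) ≤ (1 + Cs) / ρ := by
      have := hwb 0 (Nat.zero_le _)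
      simp only [mul_zero, pow_zero, mul_one] at this
      calc N 0 g + N 0 (w 0) ≤ 1 / ρ + Cs / ρ := add_le_add hg this
        _ = (1 + Cs) / ρ := by ring
    have h2 := hFb 0 (Nat.zero_le _)
    simp only [Nat.sub_zero] at h2
    have h3 : 0 ≤ N 0 g + N 0 (w 0) := by positivity
    calc F 0 * (N 0 g + N 0 (w 0)) ≤ ((C1 + 1) * q ^ i) * ((1 + Cs) / ρ) :=
          mul_le_mul h2 h1 h3 (by positivity)
      _ = (C1 + 1) * (1 + Cs) * (q ^ i / ρ) := by ring
  have tj : ∀ j ∈ range i, F (j + 1) * (N j (w j) + N (j + 1) (w (j + 1))) ≤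
      (C1 + 1) * (3 * (2 * Cs)) * (q ^ i / ρ) * q ^ j := by
    intro j hj
    have hji : j + 1 ≤ i := mem_range.1 hj
    obtain ⟨m, hm⟩ := Nat.exists_eq_add_of_le hji
    have h1 := hFb (j + 1) hji
    have hsub : i - (j + 1) = m := by omega
    rw [hsub] at h1
    have h2 := hwb j (by omega)
    have h3 := hwb (j + 1) hji
    have h4 : Cs * q ^ (2 * (j + 1)) / ρ ≤ Cs * q ^ (2 * j) / ρ := by
      gcongr ?_ / ρ
      exact mul_le_mul_of_nonneg_left (q_pow_le (by omega)) hCs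
    have h5 : N j (w j) + N (j + 1) (w (j + 1)) ≤ 2 * Cs * q ^ (2 * j) / ρ := by
      calc _ ≤ Cs * q ^ (2 * j) / ρ + Cs * q ^ (2 * j) / ρ := add_le_add h2 (h3.trans h4)
        _ = _ := by ring
    have h6 : 0 ≤ N j (w j) + N (j + 1) (w (j + 1)) := by positivity
    have hq := q_pos
    calc F (j + 1) * (N j (w j) + N (j + 1) (w (j + 1)))
        ≤ ((C1 + 1) * q ^ m) * (2 * Cs * q ^ (2 * j) / ρ) := mul_le_mul h1 h5 h6 (by positivity)
      _ ≤ ((C1 + 1) * q ^ m) * (2 * Cs * q ^ (2 * j) / ρ) * (3 * q ^ 3) :=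
          le_mul_of_one_le_right (by positivity) inv_q3
      _ = (C1 + 1) * (3 * (2 * Cs)) * (q ^ (m + 2 * j + 3) / ρ) := by ring
      _ ≤ (C1 + 1) * (3 * (2 * Cs)) * (q ^ (i + j) / ρ) := by
          have : q ^ (m + 2 * j + 3) ≤ q ^ (i + j) := q_pow_le (by omega)
          gcongr
      _ = (C1 + 1) * (3 * (2 * Cs)) * (q ^ i / ρ) * q ^ j := by ring
  have tsum : ∑ j ∈ range i, F (j + 1) * (N j (w j) + N (j + 1) (w (j + 1))) ≤
      (C1 + 1) * (3 * (2 * Cs)) * 4 * (q ^ i / ρ) := by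
    refine (sum_le_sum tj).trans ?_
    rw [← mul_sum]
    have h1 := geom_le i
    have h2 : 0 ≤ (C1 + 1) * (3 * (2 * Cs)) * (q ^ i / ρ) := by positivity
    calc _ ≤ (C1 + 1) * (3 * (2 * Cs)) * (q ^ i / ρ) * 4 := mul_le_mul_of_nonneg_left h1 h2
      _ = _ := by ring
  have tw : N i (w i) ≤ Cs * (q ^ i / ρ) := by
    refine (hwb i le_rfl).trans ?_
    rw [mul_div_assoc]
    have : q ^ (2 * i) ≤ q ^ i := q_pow_le (by omega)
    gcongr
  have e1 : g = (g - w i) + w i := by abel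
  calc N i g = N i ((g - w i) + w i) := by rw [← e1]
    _ ≤ N i (g - w i) + N i (w i) := map_add_le_add _ _ _
    _ ≤ ((C1 + 1) * (1 + Cs) * (q ^ i / ρ) + (C1 + 1) * (3 * (2 * Cs)) * 4 * (q ^ i / ρ)) +
        Cs * (q ^ i / ρ) := by linarith
    _ = K1 C1 Cs * q ^ i / ρ := by unfold K1; ring

/-- constant of the second level -/
def K2 (C1 Cs : ℝ) : ℝ :=
  (C1 + 1) * (1 + Cs * K1 C1 Cs) + 8 * (3 * C1 + 1) * (2 * Cs * K1 C1 Cs) + Cs * K1 C1 Cs

/-- second level -/
theorem level2 (H : Hyp A N u p J ρ C1 Cs η) (f : V) (h0 : N 0 f ≤ 1)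
    (h1 : N 0 (A f) ≤ 1 / ρ) (h2 : N 0 (A (A f)) ≤ 1 / ρ ^ 2) :
    N J f ≤ K2 C1 Cs * q ^ (p * J) ∧
    ∃ κ : ℝ, N J (f - κ • u) ≤ K2 C1 Cs * q ^ ((p + 1) * J) := by
  have hρ := H.hρ
  have hC1 := H.hC1
  have hCs := H.hCs
  have hq := q_pos
  have hp := H.hp
  have hp2 := H.hp2
  have hK1 := K1_nonneg hC1 hCs
  have hb : ∀ j ≤ J, N j (A f) ≤ K1 C1 Cs * q ^ j / ρ := fun j hj => level1 H (A f) h1 h2 j hj
  choose! w hw1 hw2 using fun j (hj : j ≤ J) => H.ls j hj (A f)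
  set B : ℝ := Cs * K1 C1 Cs with hB
  have hBn : 0 ≤ B := by positivity
  have hwb : ∀ j ≤ J, N j (w j) ≤ B * q ^ (3 * j) := by
    intro j hj
    refine (hw2 j hj).trans ?_
    have h3 : 0 ≤ Cs * (ρ * q ^ (2 * j)) := by positivity
    refine (mul_le_mul_of_nonneg_left (hb j hj) h3).trans (le_of_eq ?_)
    field_simp
    rw [hB]; ring
  have hw0 : N 0 (w 0) ≤ B := by simpa using hwb 0 (Nat.zero_le _)
  -- common bound of the increments
  have hinc : ∀ j, j + 1 ≤ J → N j (w j) + N (j + 1) (w (j + 1)) ≤ 2 * B * q ^ (3 * j) := by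
    intro j hj
    have h3 := hwb j (by omega)
    have h4 := hwb (j + 1) hj
    have h5 : B * q ^ (3 * (j + 1)) ≤ B * q ^ (3 * j) :=
      mul_le_mul_of_nonneg_left (q_pow_le (by omega)) hBn
    linarith
  have hincn : ∀ j, 0 ≤ N j (w j) + N (j + 1) (w (j + 1)) := fun j => by positivity
  -- general summation lemma
  have main : ∀ (P m : ℕ), m = p ∧ P = p ∨ m = p + 2 ∧ P = p + 1 →
      (C1 * q ^ (m * J) + η) * (N 0 f + N 0 (w 0)) +
        ∑ j ∈ range J, (C1 * q ^ (m * (J - (j + 1))) + η) * (N j (w j) + N (j + 1) (w (j + 1))) +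
        N J (w J) ≤ K2 C1 Cs * q ^ (P * J) := by
    intro P m hPm
    have hP3 : P ≤ 3 := by omega
    have hPm' : P ≤ m := by omega
    have hηP : η ≤ q ^ (P * J) := H.hηJ.trans (q_pow_le (Nat.mul_le_mul_right J hP3))
    have t0 : (C1 * q ^ (m * J) + η) * (N 0 f + N 0 (w 0)) ≤
        (C1 + 1) * (1 + B) * q ^ (P * J) := by
      have a1 : C1 * q ^ (m * J) + η ≤ (C1 + 1) * q ^ (P * J) := by
        have := mul_le_mul_of_nonneg_left (q_pow_le (Nat.mul_le_mul_right J hPm')) hC1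
        linarith
      have a2 : N 0 f + N 0 (w 0) ≤ 1 + B := add_le_add h0 hw0
      calc _ ≤ ((C1 + 1) * q ^ (P * J)) * (1 + B) :=
            mul_le_mul a1 a2 (by positivity) (by positivity)
        _ = _ := by ring
    have tj : ∀ j ∈ range J,
        (C1 * q ^ (m * (J - (j + 1))) + η) * (N j (w j) + N (j + 1) (w (j + 1))) ≤
        (2 * B * q ^ (P * J)) * ((3 * C1) * (q ^ j + q ^ (J - 1 - j)) + q ^ j) := by
      intro j hj
      have hjJ : j + 1 ≤ J := mem_range.1 hj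
      obtain ⟨k, hk⟩ := Nat.exists_eq_add_of_le hjJ
      have hs1 : J - (j + 1) = k := by omega
      have hs2 : J - 1 - j = k := by omega
      rw [hs1, hs2]
      have a1 := hinc j hjJ
      have a3 : 0 ≤ C1 * q ^ (m * k) + η := by have := H.hη; positivity
      have b1 : q ^ (3 * J) * q ^ (3 * j) ≤ q ^ (P * J) * q ^ j := by
        have c1 : q ^ (3 * J) ≤ q ^ (P * J) := q_pow_le (Nat.mul_le_mul_right J hP3)
        have c2 : q ^ (3 * j) ≤ q ^ j := q_pow_le (by omega)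
        exact mul_le_mul c1 c2 (by positivity) (by positivity)
      have b2 : q ^ (m * k) * q ^ (3 * j) ≤ 3 * (q ^ (P * J) * (q ^ j + q ^ k)) := by
        have d1 : q ^ (m * k) * q ^ (3 * j) ≤ (q ^ (m * k) * q ^ (3 * j)) * (3 * q ^ 3) :=
          le_mul_of_one_le_right (by positivity) inv_q3
        have d2 : (q ^ (m * k) * q ^ (3 * j)) * (3 * q ^ 3) = 3 * q ^ (m * k + 3 * j + 3) := by
          ring
        have d3 : q ^ (m * k + 3 * j + 3) ≤ q ^ (P * J) * (q ^ j + q ^ k) := by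
          rcases hPm with ⟨hm, hP⟩ | ⟨hm, hP⟩
          · have : q ^ (m * k + 3 * j + 3) ≤ q ^ (P * J + j) := by
              apply q_pow_le
              subst hm; rw [hP, hk]
              interval_cases m <;> omega
            rw [pow_add q (P * J) j] at this
            have e : 0 ≤ q ^ (P * J) * q ^ k := by positivity
            linarith [mul_add (q ^ (P * J)) (q ^ j) (q ^ k)]
          · have : q ^ (m * k + 3 * j + 3) ≤ q ^ (P * J + k) := by
              apply q_pow_le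
              rw [hP, hm, hk]
              interval_cases p <;> omega
            rw [pow_add q (P * J) k] at this
            have e : 0 ≤ q ^ (P * J) * q ^ j := by positivity
            linarith [mul_add (q ^ (P * J)) (q ^ j) (q ^ k)]
        calc _ ≤ _ := d1
          _ = _ := d2
          _ ≤ _ := by linarith
      have b3 : η * q ^ (3 * j) ≤ q ^ (P * J) * q ^ j :=
        (mul_le_mul_of_nonneg_right H.hηJ (by positivity)).trans b1
      calc (C1 * q ^ (m * k) + η) * (N j (w j) + N (j + 1) (w (j + 1)))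
          ≤ (C1 * q ^ (m * k) + η) * (2 * B * q ^ (3 * j)) := mul_le_mul_of_nonneg_left a1 a3
        _ = 2 * B * (C1 * (q ^ (m * k) * q ^ (3 * j)) + η * q ^ (3 * j)) := by ring
        _ ≤ 2 * B * (C1 * (3 * (q ^ (P * J) * (q ^ j + q ^ k))) + q ^ (P * J) * q ^ j) := by
            have := mul_le_mul_of_nonneg_left b2 hC1
            gcongr
        _ = _ := by ring
    have g1 := geom_le J
    have g2 : ∑ j ∈ range J, q ^ (J - 1 - j) ≤ 4 := by
      rw [Finset.sum_range_reflect (fun j => q ^ j) J]; exact g1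
    have tsum : ∑ j ∈ range J,
        (C1 * q ^ (m * (J - (j + 1))) + η) * (N j (w j) + N (j + 1) (w (j + 1))) ≤
        (2 * B * q ^ (P * J)) * (8 * (3 * C1 + 1)) := by
      refine (sum_le_sum tj).trans ?_
      rw [← mul_sum]
      have : ∑ j ∈ range J, ((3 * C1) * (q ^ j + q ^ (J - 1 - j)) + q ^ j) =
          (3 * C1) * (∑ j ∈ range J, q ^ j + ∑ j ∈ range J, q ^ (J - 1 - j)) +
            ∑ j ∈ range J, q ^ j := by
        rw [sum_add_distrib, ← mul_sum, sum_add_distrib]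
      rw [this]
      refine mul_le_mul_of_nonneg_left ?_ (by positivity)
      have := mul_le_mul_of_nonneg_left (add_le_add g1 g2) (by positivity : 0 ≤ 3 * C1)
      linarith
    have tw : N J (w J) ≤ B * q ^ (P * J) :=
      (hwb J le_rfl).trans (mul_le_mul_of_nonneg_left (q_pow_le (Nat.mul_le_mul_right J hP3)) hBn)
    calc _ ≤ (C1 + 1) * (1 + B) * q ^ (P * J) + (2 * B * q ^ (P * J)) * (8 * (3 * C1 + 1)) +
          B * q ^ (P * J) := by linarith
      _ = K2 C1 Cs * q ^ (P * J) := by unfold K2; rw [hB]; ring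
  constructor
  · set F : ℕ → ℝ := fun j => C1 * q ^ (p * (J - j)) + η with hFdef
    have hF : ∀ j, 0 ≤ F j := fun j => by have := H.hη; positivity
    have ht := tele A N H.anti J F f w hw1 (N J)
      (fun j hj e he => H.ex1 j J hj le_rfl e he) hF
    have hm := main p p (Or.inl ⟨rfl, rfl⟩)
    have e1 : f = (f - w J) + w J := by abel
    have hF0 : F 0 = C1 * q ^ (p * J) + η := by simp [hFdef]
    rw [hF0] at ht
    calc N J f = N J ((f - w J) + w J) := by rw [← e1]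
      _ ≤ N J (f - w J) + N J (w J) := map_add_le_add _ _ _
      _ ≤ _ := by linarith
  · set F : ℕ → ℝ := fun j => C1 * q ^ ((p + 2) * (J - j)) + η with hFdef
    have hF : ∀ j, 0 ≤ F j := fun j => by have := H.hη; positivity
    obtain ⟨κ, ht⟩ := tele2 A N H.anti J F f w hw1 (N J) u
      (fun j hj e he => H.ex2 j hj e he) hF
    have hm := main (p + 1) (p + 2) (Or.inr ⟨rfl, rfl⟩)
    refine ⟨κ, ?_⟩
    have e1 : f - κ • u = (f - w J - κ • u) + w J := by abel
    have hF0 : F 0 = C1 * q ^ ((p + 2) * J) + η := by simp [hFdef]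
    rw [hF0] at ht
    calc N J (f - κ • u) = N J ((f - w J - κ • u) + w J) := by rw [← e1]
      _ ≤ N J (f - w J - κ • u) + N J (w J) := map_add_le_add _ _ _
      _ ≤ _ := by linarith

end Crest.Agent.R165.Campx891
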