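import Crest.Agent.R165.Tr1_40
import Crest.Agent.R165.Camp_891

/-!
# Row 165 (S0250), block R: interface (helper891)

* boxes `bx x r`, `l²` seminorms `NB x r`, the operator `AL w` as a linear map
* local background classes `PlaneOn`, `BranchOn`, `PlusFlat`
* amplitude `amp`, boundary mode `modeB`, branch mode `modeBr`
* leaves as `Prop`s: `GapU`, `EXb`, `EXbr`
* local solver from the gap (`ls_of_gap`), gauge covariance
* regularity theorems `regB`, `regBr` from the leaves (through `Camp_891`)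
-/

set_option autoImplicit false
set_option linter.unusedSimpArgs false
set_option linter.unusedVariables false
set_option linter.unusedTactic false
set_option linter.unreachableTactic false

noncomputable section

namespace Crest.Agent.R165.RIfx891

open Finset Crest.Agent.R165.Tr1x40 Crest.Agent.R165.Campx891

/-! ### boxes -/

/-- faces at sup distance `≤ r` of `x` -/
def bx (x : Face) (r : ℝ) : Finset Face :=
  Icc (x.1 - ⌊r⌋) (x.1 + ⌊r⌋) ×ˢ Icc (x.2 - ⌊r⌋) (x.2 + ⌊r⌋)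

theorem mem_bx {x f : Face} {r : ℝ} :
    f ∈ bx x r ↔ |f.1 - x.1| ≤ ⌊r⌋ ∧ |f.2 - x.2| ≤ ⌊r⌋ := by
  unfold bx
  rw [mem_product, mem_Icc, mem_Icc, abs_le, abs_le]
  constructor
  · rintro ⟨⟨h1, h2⟩, h3, h4⟩
    exact ⟨⟨by linarith, by linarith⟩, ⟨by linarith, by linarith⟩⟩
  · rintro ⟨⟨h1, h2⟩, h3, h4⟩
    exact ⟨⟨by linarith, by linarith⟩, ⟨by linarith, by linarith⟩⟩

theorem mem_bx_real {x f : Face} {r : ℝ} :
    f ∈ bx x r ↔ |(f.1 : ℝ) - x.1| ≤ r ∧ |(f.2 : ℝ) - x.2| ≤ r := by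
  rw [mem_bx, Int.le_floor, Int.le_floor]
  push_cast
  exact Iff.rfl

theorem bx_mono (x : Face) {r r' : ℝ} (h : r ≤ r') : bx x r ⊆ bx x r' := by
  intro f hf
  rw [mem_bx_real] at hf ⊢
  exact ⟨hf.1.trans h, hf.2.trans h⟩

theorem nb_dist (f : Face) (h : Fin 4) (x : Face) :
    |((nb f h).1 : ℝ) - x.1| ≤ |(f.1 : ℝ) - x.1| + 1 ∧
    |((nb f h).2 : ℝ) - x.2| ≤ |(f.2 : ℝ) - x.2| + 1 := by
  have key : ∀ a b : ℝ, |a + b| ≤ |a| + |b| := abs_add_le
  fin_cases h
  · have := key ((f.2 : ℝ) - x.2) (-1)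
    simp only [nb, Fin.zero_eta, Int.cast_sub, Int.cast_one, abs_neg, abs_one] at this ⊢
    exact ⟨by linarith, by
      have e : (f.2 : ℝ) - 1 - x.2 = (f.2 : ℝ) - x.2 + -1 := by ring
      rw [e]; exact this⟩
  · have := key ((f.1 : ℝ) - x.1) 1
    simp only [nb, Fin.mk_one, Int.cast_add, Int.cast_one, abs_one] at this ⊢
    exact ⟨by
      have e : (f.1 : ℝ) + 1 - x.1 = (f.1 : ℝ) - x.1 + 1 := by ring
      rw [e]; exact this, by linarith⟩
  · have := key ((f.2 : ℝ) - x.2) 1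
    simp only [nb, Fin.reduceFinMk, Int.cast_add, Int.cast_one, abs_one] at this ⊢
    exact ⟨by linarith, by
      have e : (f.2 : ℝ) + 1 - x.2 = (f.2 : ℝ) - x.2 + 1 := by ring
      rw [e]; exact this⟩
  · have := key ((f.1 : ℝ) - x.1) (-1)
    simp only [nb, Fin.reduceFinMk, Int.cast_sub, Int.cast_one, abs_neg, abs_one] at this ⊢
    exact ⟨by
      have e : (f.1 : ℝ) - 1 - x.1 = (f.1 : ℝ) - x.1 + -1 := by ring
      rw [e]; exact this, by linarith⟩

theorem nb_mem_bx {x f : Face} {r : ℝ} (hf : f ∈ bx x r) (h : Fin 4) : nb f h ∈ bx x (r + 1) := by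
  rw [mem_bx_real] at hf ⊢
  have := nb_dist f h x
  exact ⟨by linarith, by linarith⟩

/-! ### seminorms -/

/-- restriction to a finite set of faces -/
def rest (K : Finset Face) : Fld →ₗ[ℝ] EuclideanSpace ℝ (K × Fin 4) where
  toFun φ := WithLp.toLp 2 fun g => φ g.1 g.2
  map_add' φ ψ := by ext g; simp
  map_smul' c φ := by ext g; simp

/-- the `l²` seminorm on a finite set of faces -/
def N2 (K : Finset Face) : Seminorm ℝ Fld := (normSeminorm ℝ _).comp (rest K)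

theorem N2_sq (K : Finset Face) (φ : Fld) : N2 K φ ^ 2 = ∑ f ∈ K, nsq (φ f) := by
  have h1 : N2 K φ = ‖rest K φ‖ := rfl
  rw [h1, EuclideanSpace.norm_sq_eq]
  have h2 : ∑ g : K × Fin 4, ‖(rest K φ).ofLp g‖ ^ 2 = ∑ g : K × Fin 4, φ g.1 g.2 ^ 2 :=
    sum_congr rfl fun g _ => by
      have : (rest K φ).ofLp g = φ g.1 g.2 := rfl
      rw [this, Real.norm_eq_abs, sq_abs]
  rw [h2, Fintype.sum_prod_type]
  rw [← sum_coe_sort K (fun f => nsq (φ f))]
  rfl

theorem N2_eq (K : Finset Face) (φ : Fld) : N2 K φ = Real.sqrt (∑ f ∈ K, nsq (φ f)) := by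
  rw [← N2_sq, Real.sqrt_sq (apply_nonneg _ _)]

theorem N2_mono {K K' : Finset Face} (h : K ⊆ K') : N2 K ≤ N2 K' := by
  intro φ
  rw [N2_eq, N2_eq]
  exact Real.sqrt_le_sqrt (sum_le_sum_of_subset_of_nonneg h fun f _ _ => nsq_nonneg _)

theorem N2_congr {K : Finset Face} {φ ψ : Fld} (h : ∀ f ∈ K, φ f = ψ f) : N2 K φ = N2 K ψ := by
  rw [N2_eq, N2_eq]
  congr 1
  exact sum_congr rfl fun f hf => by rw [h f hf]

theorem nsq_eq_zero {p : Fin 4 → ℝ} : nsq p = 0 ↔ p = 0 := by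
  constructor
  · intro h
    funext k
    have := (sum_eq_zero_iff_of_nonneg (fun k _ => sq_nonneg (p k))).1 h k (mem_univ _)
    simpa using this
  · rintro rfl; simp [nsq]

theorem N2_eq_zero {K : Finset Face} {φ : Fld} : N2 K φ = 0 ↔ ∀ f ∈ K, φ f = 0 := by
  rw [N2_eq, Real.sqrt_eq_zero (sum_nonneg fun f _ => nsq_nonneg _),
    sum_eq_zero_iff_of_nonneg fun f _ => nsq_nonneg _]
  exact forall₂_congr fun f _ => nsq_eq_zero

/-- `l²` seminorm on the box `bx x r` -/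
def NB (x : Face) (r : ℝ) : Seminorm ℝ Fld := N2 (bx x r)

theorem NB_sq (x : Face) (r : ℝ) (φ : Fld) : NB x r φ ^ 2 = ∑ f ∈ bx x r, nsq (φ f) := N2_sq _ _

theorem NB_mono (x : Face) {r r' : ℝ} (h : r ≤ r') : NB x r ≤ NB x r' := N2_mono (bx_mono x h)

theorem NB_eq_zero {x : Face} {r : ℝ} {φ : Fld} : NB x r φ = 0 ↔ ∀ f ∈ bx x r, φ f = 0 :=
  N2_eq_zero

/-! ### the operator -/

theorem A0_add (p p' : Fin 4 → ℝ) (h : Fin 4) : A0 (p + p') h = A0 p h + A0 p' h := by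
  fin_cases h <;> simp [A0] <;> ring

theorem A0_smul (c : ℝ) (p : Fin 4 → ℝ) (h : Fin 4) : A0 (c • p) h = c * A0 p h := by
  fin_cases h <;> simp [A0] <;> ring

/-- the half-edge operator as a linear map -/
def AL (w : Fld) : Fld →ₗ[ℝ] Fld where
  toFun φ := A w φ
  map_add' φ ψ := by
    funext f h
    simp only [A, Y, Pi.add_apply, A0_add]
    ring
  map_smul' c φ := by
    funext f h
    simp only [A, Y, Pi.smul_apply, A0_smul, smul_eq_mul, RingHom.id_apply]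
    ring

@[simp] theorem AL_apply (w φ : Fld) : AL w φ = A w φ := rfl

/-- support in a finite set of faces -/
def Supp (K : Finset Face) (φ : Fld) : Prop := ∀ f, f ∉ K → φ f = 0

theorem Supp.mono {K K' : Finset Face} (h : K ⊆ K') {φ : Fld} (hφ : Supp K φ) : Supp K' φ :=
  fun f hf => hφ f fun hc => hf (h hc)

theorem nb_involutive (f : Face) (h : Fin 4) : nb (nb f h) (op h) = f := nb_nb_op f h

theorem supp_A {w φ : Fld} {x : Face} {r : ℝ} (hφ : Supp (bx x r) φ) :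
    Supp (bx x (r + 1)) (A w φ) := by
  intro f hf
  have h1 : f ∉ bx x r := fun hc => hf (bx_mono x (by linarith) hc)
  have h2 : ∀ h, nb f h ∉ bx x r := fun h hc => hf (by
    have := nb_mem_bx hc (op h)
    rwa [nb_nb_op] at this)
  funext h
  have e1 : φ f = 0 := hφ f h1
  have e2 : φ (nb f h) = 0 := hφ _ (h2 h)
  simp only [A, Y, e1, e2, Pi.zero_apply, mul_zero, add_zero]
  fin_cases h <;> simp [A0]

theorem A0_antisymm (p p' : Fin 4 → ℝ) : ∑ h, A0 p h * p' h = -∑ h, p h * A0 p' h := by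
  simp only [Fin.sum_univ_four, A0]
  ring

/-- antisymmetry: `ψ` supported in `K`, `K'` contains `K` and its neighbours -/
theorem A_antisymm {w : Fld} (hw : Sym w) (φ ψ : Fld) (K K' : Finset Face) (hK : K ⊆ K')
    (hψ : Supp K ψ) (hnb : ∀ f ∈ K, ∀ h, nb f h ∈ K') :
    ∑ f ∈ K, ∑ h, A w φ f h * ψ f h = -∑ f ∈ K', ∑ h, φ f h * A w ψ f h := by
  have e1 : ∑ f ∈ K, ∑ h, A w φ f h * ψ f h = ∑ f ∈ K', ∑ h, A w φ f h * ψ f h := by
    refine sum_subset hK fun f _ hf => ?_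
    rw [hψ f hf]; simp
  rw [e1]
  have key := sum_bar K' (fun f h => Y w φ f h * ψ f h)
    (fun f hf h => by
      have : ψ f = 0 := hψ f fun hc => hf (hK hc)
      simp [this])
    (fun f hf h => by
      have : ψ (nb f h) = 0 := hψ _ fun hc => hf (by
        have := hnb _ hc (op h)
        rwa [nb_nb_op] at this)
      simp [this])
  have e2 : ∀ f h, Y w φ (nb f h) (op h) * ψ (nb f h) (op h) = -(φ f h * Y w ψ f h) := by
    intro f h
    simp only [Y, nb_nb_op, op_op, sg_op, hw f h]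
    ring
  have e3 : ∑ f ∈ K', ∑ h, Y w φ f h * ψ f h = -∑ f ∈ K', ∑ h, φ f h * Y w ψ f h := by
    rw [← key, ← sum_neg_distrib]
    refine sum_congr rfl fun f _ => ?_
    rw [← sum_neg_distrib]
    exact sum_congr rfl fun h _ => e2 f h
  have e4 : ∑ f ∈ K', ∑ h, A0 (φ f) h * ψ f h = -∑ f ∈ K', ∑ h, φ f h * A0 (ψ f) h := by
    rw [← sum_neg_distrib]
    exact sum_congr rfl fun f _ => A0_antisymm _ _
  have e5 : ∀ (a b : Fld), ∑ f ∈ K', ∑ h, A w a f h * b f h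
      = ∑ f ∈ K', ∑ h, A0 (a f) h * b f h + ∑ f ∈ K', ∑ h, Y w a f h * b f h := by
    intro a b
    rw [← sum_add_distrib]
    refine sum_congr rfl fun f _ => ?_
    rw [← sum_add_distrib]
    exact sum_congr rfl fun h _ => by simp only [A]; ring
  have e6 : ∑ f ∈ K', ∑ h, φ f h * A w ψ f h
      = ∑ f ∈ K', ∑ h, φ f h * A0 (ψ f) h + ∑ f ∈ K', ∑ h, φ f h * Y w ψ f h := by
    rw [← sum_add_distrib]
    refine sum_congr rfl fun f _ => ?_
    rw [← sum_add_distrib]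
    exact sum_congr rfl fun h _ => by simp only [A]; ring
  rw [e5, e3, e4, e6]
  ring

/-! ### gap and local solver -/

/-- gap for fields supported in the box -/
def GapOn (w : Fld) (x : Face) (r C : ℝ) : Prop :=
  ∀ φ, Supp (bx x r) φ → NB x r φ ≤ C * r * NB x (r + 1) (A w φ)

/-- extension by zero -/
def ext (K : Finset Face) : ((K × Fin 4) → ℝ) →ₗ[ℝ] Fld where
  toFun v f h := if hf : f ∈ K then v (⟨f, hf⟩, h) else 0
  map_add' v v' := by
    funext f h
    by_cases hf : f ∈ K <;> simp [hf]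
  map_smul' c v := by
    funext f h
    by_cases hf : f ∈ K <;> simp [hf]

theorem ext_apply_mem {K : Finset Face} (v : (K × Fin 4) → ℝ) {f : Face} (hf : f ∈ K) (h : Fin 4) :
    ext K v f h = v (⟨f, hf⟩, h) := by
  simp [ext, hf]

theorem supp_ext (K : Finset Face) (v : (K × Fin 4) → ℝ) : Supp K (ext K v) := by
  intro f hf
  funext h
  simp [ext, hf]

/-- restriction, as plain functions -/
def res (K : Finset Face) : Fld →ₗ[ℝ] ((K × Fin 4) → ℝ) where
  toFun φ g := φ g.1 g.2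
  map_add' φ ψ := rfl
  map_smul' c φ := rfl

theorem inner_le (K : Finset Face) (φ ψ : Fld) :
    |∑ f ∈ K, ∑ h, φ f h * ψ f h| ≤ N2 K φ * N2 K ψ := by
  rw [N2_eq, N2_eq]; exact sum_mul_le K φ ψ

/-- **local solver** from the gap -/
theorem ls_of_gap {w : Fld} (hw : Sym w) {x : Face} {r C : ℝ} (hr : 0 ≤ r) (hC : 0 ≤ C)
    (hg : GapOn w x r C) (g : Fld) :
    ∃ φ : Fld, Supp (bx x (r + 1)) φ ∧ (∀ f ∈ bx x r, A w φ f = g f) ∧
      NB x (r + 1) φ ≤ C * r * NB x r g := by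
  set K := bx x r with hK
  have hsub : K ⊆ bx x (r + 1) := bx_mono x (by linarith)
  -- the quadratic form
  have quad : ∀ v : (K × Fin 4) → ℝ,
      ∑ f ∈ K, ∑ h, A w (A w (ext K v)) f h * ext K v f h = -(NB x (r + 1) (A w (ext K v))) ^ 2 := by
    intro v
    rw [A_antisymm hw (A w (ext K v)) (ext K v) K (bx x (r + 1)) hsub (supp_ext K v)
      (fun f hf h => nb_mem_bx hf h), NB_sq]
    congr 1
    refine sum_congr rfl fun f _ => ?_
    rw [nsq]
    exact sum_congr rfl fun h _ => by ring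
  let T : ((K × Fin 4) → ℝ) →ₗ[ℝ] ((K × Fin 4) → ℝ) := res K ∘ₗ AL w ∘ₗ AL w ∘ₗ ext K
  have hinj : Function.Injective T := by
    rw [← LinearMap.ker_eq_bot, LinearMap.ker_eq_bot']
    intro v hv
    have h1 : ∑ f ∈ K, ∑ h, A w (A w (ext K v)) f h * ext K v f h = 0 := by
      refine sum_eq_zero fun f hf => sum_eq_zero fun h _ => ?_
      have : A w (A w (ext K v)) f h = 0 := congrFun hv (⟨f, hf⟩, h)
      rw [this, zero_mul]
    rw [quad v, neg_eq_zero, sq_eq_zero_iff] at h1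
    have h2 := hg (ext K v) (supp_ext K v)
    rw [h1, mul_zero] at h2
    have h3 : NB x r (ext K v) = 0 := le_antisymm h2 (apply_nonneg _ _)
    rw [NB_eq_zero] at h3
    funext g
    have h4 := congrFun (h3 g.1.1 g.1.2) g.2
    rwa [ext_apply_mem v g.1.2 g.2] at h4
  obtain ⟨v, hv⟩ := (LinearMap.injective_iff_surjective.1 hinj) (res K g)
  refine ⟨A w (ext K v), supp_A (supp_ext K v), ?_, ?_⟩
  · intro f hf
    funext h
    exact congrFun hv (⟨f, hf⟩, h)
  · have h1 : (NB x (r + 1) (A w (ext K v))) ^ 2 ≤ NB x r g * NB x r (ext K v) := by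
      have h2 : (NB x (r + 1) (A w (ext K v))) ^ 2 = -∑ f ∈ K, ∑ h, g f h * ext K v f h := by
        rw [← neg_eq_iff_eq_neg, ← quad v]
        refine sum_congr rfl fun f hf => sum_congr rfl fun h _ => ?_
        have : A w (A w (ext K v)) f h = g f h := congrFun hv (⟨f, hf⟩, h)
        rw [this]
      rw [h2]
      have h3 := (abs_le.1 (inner_le K g (ext K v))).1
      have h4 : NB x r g * NB x r (ext K v) = N2 K g * N2 K (ext K v) := rfl
      linarith
    have h5 := hg (ext K v) (supp_ext K v)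
    set a := NB x (r + 1) (A w (ext K v)) with ha
    have ha0 : 0 ≤ a := apply_nonneg _ _
    have hb0 : 0 ≤ NB x r g := apply_nonneg _ _
    have h6 : a * a ≤ (C * r * NB x r g) * a := by
      have := mul_le_mul_of_nonneg_left h5 hb0
      nlinarith
    rcases eq_or_lt_of_le ha0 with h | h
    · rw [← h]; positivity
    · exact le_of_mul_le_mul_right h6 h

/-! ### gauge covariance -/

/-- a gauge: signs on faces -/
def Gauge (s : Face → ℝ) : Prop := ∀ f, s f ^ 2 = 1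

/-- multiplication by the gauge -/
def gm (s : Face → ℝ) : Fld →ₗ[ℝ] Fld where
  toFun φ f h := s f * φ f h
  map_add' φ ψ := by funext f h; simp only [Pi.add_apply]; ring
  map_smul' c φ := by funext f h; simp only [Pi.smul_apply, smul_eq_mul, RingHom.id_apply]; ring

theorem gm_apply (s : Face → ℝ) (φ : Fld) (f : Face) (h : Fin 4) : gm s φ f h = s f * φ f h := rfl

theorem nsq_gm {s : Face → ℝ} (hs : Gauge s) (φ : Fld) (f : Face) : nsq (gm s φ f) = nsq (φ f) := by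
  unfold nsq
  refine sum_congr rfl fun h _ => ?_
  rw [gm_apply, mul_pow, hs f, one_mul]

theorem N2_gm {s : Face → ℝ} (hs : Gauge s) (K : Finset Face) (φ : Fld) :
    N2 K (gm s φ) = N2 K φ := by
  rw [N2_eq, N2_eq]
  congr 1
  exact sum_congr rfl fun f _ => nsq_gm hs φ f

theorem NB_gm {s : Face → ℝ} (hs : Gauge s) (x : Face) (r : ℝ) (φ : Fld) :
    NB x r (gm s φ) = NB x r φ := N2_gm hs _ _

theorem gm_gm {s : Face → ℝ} (hs : Gauge s) (φ : Fld) : gm s (gm s φ) = φ := by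
  funext f h
  rw [gm_apply, gm_apply, ← mul_assoc, ← pow_two, hs f, one_mul]

/-- gauge covariance of `A` at one face -/
theorem A_gm {w w' : Fld} {s : Face → ℝ} (hs : Gauge s) {f : Face}
    (hw : ∀ h, w f h = s f * s (nb f h) * w' f h) (φ : Fld) :
    A w (gm s φ) f = fun h => s f * A w' φ f h := by
  funext h
  have e0 : A0 (gm s φ f) h = s f * A0 (φ f) h := by
    have : gm s φ f = s f • φ f := by funext k; rfl
    rw [this, A0_smul]
  have e1 : Y w (gm s φ) f h = s f * Y w' φ f h := by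
    simp only [Y, gm_apply, hw h]
    have := hs (nb f h)
    linear_combination (s f * sg h * w' f h * φ (nb f h) (op h)) * this
  simp only [A]
  rw [e0, e1]; ring

/-! ### background classes on a box -/

/-- all half-edge weights of the box are `± x_c` or `0` -/
def IsPlusOn (w : Fld) (x : Face) (r : ℝ) : Prop :=
  ∀ f ∈ bx x r, ∀ h, w f h ^ 2 = xc ^ 2 ∨ w f h = 0

/-- plane background up to a gauge -/
structure PlaneOn (w : Fld) (s : Face → ℝ) (x : Face) (r : ℝ) : Prop where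
  sym : Sym w
  gauge : Gauge s
  eq : ∀ f ∈ bx x r, ∀ h, w f h = s f * s (nb f h) * xc

/-- sign of the horizontal cut from the vertex `v` (lower left corner of the face `v`) to `+∞` -/
def rayw (v : Face) : Fld := fun f h =>
  if (h = 0 ∧ f.2 = v.2 ∧ v.1 ≤ f.1) ∨ (h = 2 ∧ f.2 + 1 = v.2 ∧ v.1 ≤ f.1) then -1 else 1

/-- one branch vertex `v`, up to a gauge -/
structure BranchOn (w : Fld) (s : Face → ℝ) (v : Face) (r : ℝ) : Prop where
  sym : Sym w
  gauge : Gauge s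
  eq : ∀ f ∈ bx v r, ∀ h, w f h = s f * s (nb f h) * rayw v f h * xc

/-- scalar product with the normal -/
def dotn (n : ℂ) (x f : Face) : ℝ := n.re * ((f.1 : ℝ) - x.1) + n.im * ((f.2 : ℝ) - x.2)

/-- plus boundary, `ε`-flat with outward normal `n`; arbitrary inside the strip -/
structure PlusFlat (w : Fld) (s : Face → ℝ) (x : Face) (r : ℝ) (n : ℂ) (ε : ℝ) : Prop where
  sym : Sym w
  gauge : Gauge s
  plus : IsPlusOn w x r
  inside : ∀ f ∈ bx x r, dotn n x f ≤ -(ε * r) → ∀ h, w f h = s f * s (nb f h) * xc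
  outside : ∀ f ∈ bx x r, ε * r ≤ dotn n x f → ∀ h, w f h = 0

theorem PlaneOn.mono {w : Fld} {s : Face → ℝ} {x : Face} {r r' : ℝ} (h : r' ≤ r)
    (H : PlaneOn w s x r) : PlaneOn w s x r' :=
  ⟨H.sym, H.gauge, fun f hf => H.eq f (bx_mono x h hf)⟩

theorem BranchOn.mono {w : Fld} {s : Face → ℝ} {x : Face} {r r' : ℝ} (h : r' ≤ r)
    (H : BranchOn w s x r) : BranchOn w s x r' :=
  ⟨H.sym, H.gauge, fun f hf => H.eq f (bx_mono x h hf)⟩

theorem PlusFlat.mono {w : Fld} {s : Face → ℝ} {x : Face} {r r' ε ε' : ℝ} {n : ℂ} (h : r' ≤ r)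
    (h' : ε * r ≤ ε' * r') (H : PlusFlat w s x r n ε) : PlusFlat w s x r' n ε' :=
  ⟨H.sym, H.gauge, fun f hf => H.plus f (bx_mono x h hf),
    fun f hf hd => H.inside f (bx_mono x h hf) (by linarith),
    fun f hf hd => H.outside f (bx_mono x h hf) (by linarith)⟩

theorem rayw_sq (v f : Face) (h : Fin 4) : rayw v f h ^ 2 = 1 := by
  unfold rayw; split_ifs <;> norm_num

theorem sq_of {s : Face → ℝ} (hs : Gauge s) (f g : Face) (a : ℝ) :
    (s f * s g * a) ^ 2 = a ^ 2 := by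
  rw [mul_pow, mul_pow, hs f, hs g]; ring

theorem PlaneOn.plus {w : Fld} {s : Face → ℝ} {x : Face} {r : ℝ} (H : PlaneOn w s x r) :
    IsPlusOn w x r := fun f hf h => Or.inl (by rw [H.eq f hf h, sq_of H.gauge])

theorem BranchOn.plus {w : Fld} {s : Face → ℝ} {v : Face} {r : ℝ} (H : BranchOn w s v r) :
    IsPlusOn w v r := fun f hf h => Or.inl (by
      rw [H.eq f hf h, mul_assoc, sq_of H.gauge, mul_pow, rayw_sq, one_mul])

/-! ### amplitude and modes -/

/-- complex amplitude of the light part: `(P_l p)_h = Re (c e^{-3 i θ_h / 2})`, `|P_l p|² = 2|c|²` -/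
def amp (p : Fin 4 → ℝ) : ℂ := ⟨Pl p 1, -Pl p 3⟩

/-- the light vector of amplitude `c` -/
def lv (c : ℂ) (h : Fin 4) : ℝ :=
  match h with
  | 0 => -(c.re + c.im) / Real.sqrt 2
  | 1 => c.re
  | 2 => (c.im - c.re) / Real.sqrt 2
  | 3 => -c.im

theorem lv_amp (p : Fin 4 → ℝ) (h : Fin 4) : lv (amp p) h = Pl p h := by
  have h2 := sq2
  have e : ∀ a : ℝ, a / Real.sqrt 2 = a * Real.sqrt 2 / 2 := div_sq2
  fin_cases h <;> simp only [lv, amp, Pl, inv_2sq2, e, Fin.zero_eta, Fin.mk_one, Fin.reduceFinMk,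
    neg_neg] <;> first | rfl | ring_nf | skip
  all_goals try (rw [show Real.sqrt 2 ^ 2 = 2 from Real.sq_sqrt (by norm_num)]; ring)

theorem nsq_lv (c : ℂ) : nsq (lv c) = 2 * Complex.normSq c := by
  have h2 := sq2
  simp only [nsq_eq, lv, div_sq2, Complex.normSq_apply]
  linear_combination (((c.re + c.im) ^ 2 + (c.im - c.re) ^ 2) / 4) * h2

theorem lt_eq_amp (p : Fin 4 → ℝ) : lt p = 2 * Complex.normSq (amp p) := by
  rw [← nsq_lv, lt_eq_nsq]
  unfold nsq
  exact sum_congr rfl fun h _ => by rw [lv_amp]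

/-- boundary mode: the light vector of amplitude `c` (`c² = n̄`) on the inner half plane -/
def modeB (s : Face → ℝ) (x : Face) (n c : ℂ) : Fld := fun f h =>
  if dotn n x f ≤ 0 then s f * lv c h else 0

/-- face as a complex number relative to the vertex `v`: centre of the face -/
def zf (v f : Face) : ℂ := ⟨(f.1 : ℝ) - v.1 + 1 / 2, (f.2 : ℝ) - v.2 + 1 / 2⟩

/-- branch mode: amplitude `(-z)^{-1/2} = i z^{-1/2}` (`z^{-1/2} = r^{-1/2} e^{-iθ/2}`, `0 ≤ θ < 2π`),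
cut along the positive real axis; its square is `-1/z` -/
def modeBr (s : Face → ℝ) (v : Face) : Fld := fun f h =>
  s f * lv ((-zf v f) ^ (-(1 / 2) : ℂ)) h

/-! ### the leaves -/

/-- growth of exact solutions -/
def Ex1On (w : Fld) (x : Face) (r t M : ℝ) : Prop :=
  ∀ e : Fld, (∀ f ∈ bx x r, A w e f = 0) → NB x t e ≤ M * NB x r e

/-- one mode -/
def Ex2On (w : Fld) (x : Face) (r t : ℝ) (u : Fld) (M : ℝ) : Prop :=
  ∀ e : Fld, (∀ f ∈ bx x r, A w e f = 0) → ∃ κ : ℝ, NB x t (e - κ • u) ≤ M * NB x r e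

/-- LEAF (helper54): universal gap for plus backgrounds -/
def GapU (C : ℝ) : Prop :=
  ∀ (w : Fld) (x : Face) (r : ℝ), 1 ≤ r → Sym w → IsPlusOn w x r → GapOn w x r C

/-- LEAF EX, plus boundary -/
def EXb (C : ℝ) : Prop :=
  ∀ (m : ℕ) (η : ℝ), 0 < η → ∃ r0 ε0 : ℝ, 0 < ε0 ∧
    ∀ (w : Fld) (s : Face → ℝ) (x : Face) (r : ℝ) (n c : ℂ), r0 ≤ r → ‖n‖ = 1 →
      c ^ 2 = (starRingEnd ℂ) n → PlusFlat w s x r n ε0 →
      Ex1On w x r (r * q ^ (2 * m)) (C * q ^ (2 * m) + η) ∧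
      Ex2On w x r (r * q ^ (2 * m)) (modeB s x n c) (C * q ^ (4 * m) + η)

/-- LEAF EX, branch vertex -/
def EXbr (C : ℝ) : Prop :=
  ∀ (m : ℕ) (η : ℝ), 0 < η → ∃ r0 : ℝ,
    ∀ (w : Fld) (s : Face → ℝ) (v : Face) (r : ℝ), r0 ≤ r → BranchOn w s v r →
      Ex1On w v r (r * q ^ (2 * m)) (C * q ^ m + η) ∧
      Ex2On w v r (r * q ^ (2 * m)) (modeBr s v) (C * q ^ (3 * m) + η)

/-! ### the assembly -/

/-- hypotheses of `Camp_891` from the leaves at one box -/
theorem hyp_of {w : Fld} (hw : Sym w) {x : Face} {ρ : ℝ} {u : Fld} {p J : ℕ} {C1 Cs η : ℝ}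
    (hp : 1 ≤ p) (hp2 : p ≤ 2) (hρ : 0 < ρ) (hC1 : 0 ≤ C1) (hCs : 0 ≤ Cs) (hη : 0 ≤ η)
    (hηJ : η ≤ q ^ (3 * J))
    (hgap : ∀ j ≤ J, GapOn w x (ρ * q ^ (2 * j)) Cs)
    (h1 : ∀ j i, j ≤ i → i ≤ J →
      Ex1On w x (ρ * q ^ (2 * j)) (ρ * q ^ (2 * i)) (C1 * q ^ (p * (i - j)) + η))
    (h2 : ∀ j ≤ J,
      Ex2On w x (ρ * q ^ (2 * j)) (ρ * q ^ (2 * J)) u (C1 * q ^ ((p + 2) * (J - j)) + η)) :
    Hyp (AL w) (fun j => NB x (ρ * q ^ (2 * j))) u p J ρ C1 Cs η where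
  hp := hp
  hp2 := hp2
  hρ := hρ
  hC1 := hC1
  hCs := hCs
  hη := hη
  hηJ := hηJ
  anti j := NB_mono x (mul_le_mul_of_nonneg_left (q_pow_le (by omega)) hρ.le)
  ls j hj g := by
    have hr : 0 ≤ ρ * q ^ (2 * j) := by have := q_pos; positivity
    obtain ⟨φ, -, ha, hb⟩ := ls_of_gap hw hr hCs (hgap j hj) g
    refine ⟨φ, ?_, ?_⟩
    · rw [NB_eq_zero]
      intro f hf
      rw [AL_apply, Pi.sub_apply, ha f hf, sub_self]
    · exact (NB_mono x (by linarith) φ).trans hb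
  ex1 j i hji hi e he := by
    rw [NB_eq_zero] at he
    exact h1 j i hji hi e he
  ex2 j hj e he := by
    rw [NB_eq_zero] at he
    exact h2 j hj e he

/-- **Reg1/Reg2 at a plus boundary** from the leaves `GapU`, `EXb` -/
theorem regB {C Cs : ℝ} (hC : 0 ≤ C) (hCs : 0 ≤ Cs) (hG : GapU Cs) (hE : EXb C) :
    ∀ J : ℕ, ∃ r0 ε0 : ℝ, 0 < ε0 ∧
    ∀ (w : Fld) (s : Face → ℝ) (x : Face) (ρ : ℝ) (n c : ℂ), r0 ≤ ρ → ‖n‖ = 1 →
      c ^ 2 = (starRingEnd ℂ) n → PlusFlat w s x ρ n ε0 →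
      ∀ f : Fld, NB x ρ f ≤ 1 → NB x ρ (A w f) ≤ 1 / ρ → NB x ρ (A w (A w f)) ≤ 1 / ρ ^ 2 →
        NB x (ρ * q ^ (2 * J)) f ≤ K2 C Cs * q ^ (2 * J) ∧
        ∃ κ : ℝ, NB x (ρ * q ^ (2 * J)) (f - κ • modeB s x n c) ≤ K2 C Cs * q ^ (3 * J) := by
  intro J
  have hq := q_pos
  choose r0 ε0 hε0 hEX using fun m : ℕ => hE m (q ^ (3 * J)) (by positivity)
  -- uniform thresholds over m ≤ J
  obtain ⟨R, hR⟩ : ∃ R, ∀ m ≤ J, r0 m ≤ R := by
    refine ⟨(range (J + 1)).sup' (nonempty_range_iff.2 (by omega)) r0, fun m hm => ?_⟩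
    exact le_sup' r0 (mem_range.2 (by omega))
  obtain ⟨E, hE0, hE⟩ : ∃ E, 0 < E ∧ ∀ m ≤ J, E ≤ ε0 m := by
    refine ⟨(range (J + 1)).inf' (nonempty_range_iff.2 (by omega)) ε0, ?_, fun m hm => ?_⟩
    · rw [lt_inf'_iff]; exact fun m _ => hε0 m
    · exact inf'_le ε0 (mem_range.2 (by omega))
  refine ⟨max 1 (max 1 R / q ^ (2 * J)), E * q ^ (2 * J), by positivity, ?_⟩
  intro w s x ρ n c hρ hn hc H f h0 h1 h2
  have hρ1 : max 1 R / q ^ (2 * J) ≤ ρ := (le_max_right _ _).trans hρ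
  have hρ2 : max 1 R ≤ ρ * q ^ (2 * J) := by rwa [div_le_iff₀ (by positivity)] at hρ1
  have hρ3 : (1 : ℝ) ≤ ρ := (le_max_left _ _).trans hρ
  have hρ0 : 0 < ρ := by linarith
  have hsc : ∀ j ≤ J, max 1 R ≤ ρ * q ^ (2 * j) := fun j hj =>
    hρ2.trans (mul_le_mul_of_nonneg_left (q_pow_le (by omega)) hρ0.le)
  have hle : ∀ j : ℕ, ρ * q ^ (2 * j) ≤ ρ := fun j =>
    mul_le_of_le_one_right hρ0.le (pow_le_one₀ hq.le q_le_one)
  have hcl : ∀ j ≤ J, ∀ m ≤ J, PlusFlat w s x (ρ * q ^ (2 * j)) n (ε0 m) := by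
    intro j hj m hm
    refine H.mono (hle j) ?_
    have e1 : q ^ (2 * J) ≤ q ^ (2 * j) := q_pow_le (by omega)
    have e2 := hE m hm
    calc E * q ^ (2 * J) * ρ ≤ ε0 m * q ^ (2 * j) * ρ := by gcongr; exact (hε0 m).le
      _ = ε0 m * (ρ * q ^ (2 * j)) := by ring
  have key : Hyp (AL w) (fun j => NB x (ρ * q ^ (2 * j))) (modeB s x n c) 2 J ρ C Cs
      (q ^ (3 * J)) := by
    refine hyp_of H.sym (by norm_num) le_rfl hρ0 hC hCs (by positivity) le_rfl ?_ ?_ ?_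
    · intro j hj
      exact hG w x _ ((le_max_left _ _).trans (hsc j hj)) H.sym
        (fun g hg => H.plus g (bx_mono x (hle j) hg))
    · intro j i hji hi
      have := (hEX (i - j) w s x (ρ * q ^ (2 * j)) n c
        ((hR _ (by omega)).trans ((le_max_right _ _).trans (hsc j (by omega)))) hn hc
        (hcl j (by omega) _ (by omega))).1
      have e1 : ρ * q ^ (2 * j) * q ^ (2 * (i - j)) = ρ * q ^ (2 * i) := by
        rw [mul_assoc, ← pow_add]; congr 2; omega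
      rwa [e1] at this
    · intro j hj
      have := (hEX (J - j) w s x (ρ * q ^ (2 * j)) n c
        ((hR _ (by omega)).trans ((le_max_right _ _).trans (hsc j (by omega)))) hn hc
        (hcl j (by omega) _ (by omega))).2
      have e1 : ρ * q ^ (2 * j) * q ^ (2 * (J - j)) = ρ * q ^ (2 * J) := by
        rw [mul_assoc, ← pow_add]; congr 2; omega
      rwa [e1] at this
  have a0 : (fun j => NB x (ρ * q ^ (2 * j))) 0 f ≤ 1 := by simpa using h0
  have a1 : (fun j => NB x (ρ * q ^ (2 * j))) 0 (AL w f) ≤ 1 / ρ := by simpa using h1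
  have a2 : (fun j => NB x (ρ * q ^ (2 * j))) 0 (AL w (AL w f)) ≤ 1 / ρ ^ 2 := by simpa using h2
  exact level2 key f a0 a1 a2

/-- **Reg1/Reg2 at a branch vertex** from the leaves `GapU`, `EXbr` -/
theorem regBr {C Cs : ℝ} (hC : 0 ≤ C) (hCs : 0 ≤ Cs) (hG : GapU Cs) (hE : EXbr C) :
    ∀ J : ℕ, ∃ r0 : ℝ,
    ∀ (w : Fld) (s : Face → ℝ) (v : Face) (ρ : ℝ), r0 ≤ ρ → BranchOn w s v ρ →
      ∀ f : Fld, NB v ρ f ≤ 1 → NB v ρ (A w f) ≤ 1 / ρ → NB v ρ (A w (A w f)) ≤ 1 / ρ ^ 2 →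
        NB v (ρ * q ^ (2 * J)) f ≤ K2 C Cs * q ^ J ∧
        ∃ κ : ℝ, NB v (ρ * q ^ (2 * J)) (f - κ • modeBr s v) ≤ K2 C Cs * q ^ (2 * J) := by
  intro J
  have hq := q_pos
  choose r0 hEX using fun m : ℕ => hE m (q ^ (3 * J)) (by positivity)
  obtain ⟨R, hR⟩ : ∃ R, ∀ m ≤ J, r0 m ≤ R := by
    refine ⟨(range (J + 1)).sup' (nonempty_range_iff.2 (by omega)) r0, fun m hm => ?_⟩
    exact le_sup' r0 (mem_range.2 (by omega))
  refine ⟨max 1 (max 1 R / q ^ (2 * J)), ?_⟩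
  intro w s x ρ hρ H f h0 h1 h2
  have hρ1 : max 1 R / q ^ (2 * J) ≤ ρ := (le_max_right _ _).trans hρ
  have hρ2 : max 1 R ≤ ρ * q ^ (2 * J) := by rwa [div_le_iff₀ (by positivity)] at hρ1
  have hρ3 : (1 : ℝ) ≤ ρ := (le_max_left _ _).trans hρ
  have hρ0 : 0 < ρ := by linarith
  have hsc : ∀ j ≤ J, max 1 R ≤ ρ * q ^ (2 * j) := fun j hj =>
    hρ2.trans (mul_le_mul_of_nonneg_left (q_pow_le (by omega)) hρ0.le)
  have hle : ∀ j : ℕ, ρ * q ^ (2 * j) ≤ ρ := fun j =>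
    mul_le_of_le_one_right hρ0.le (pow_le_one₀ hq.le q_le_one)
  have key : Hyp (AL w) (fun j => NB x (ρ * q ^ (2 * j))) (modeBr s x) 1 J ρ C Cs
      (q ^ (3 * J)) := by
    refine hyp_of H.sym le_rfl (by norm_num) hρ0 hC hCs (by positivity) le_rfl ?_ ?_ ?_
    · intro j hj
      exact hG w x _ ((le_max_left _ _).trans (hsc j hj)) H.sym
        (fun g hg => H.plus g (bx_mono x (hle j) hg))
    · intro j i hji hi
      have := (hEX (i - j) w s x (ρ * q ^ (2 * j))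
        ((hR _ (by omega)).trans ((le_max_right _ _).trans (hsc j (by omega))))
        (H.mono (hle j))).1
      have e1 : ρ * q ^ (2 * j) * q ^ (2 * (i - j)) = ρ * q ^ (2 * i) := by
        rw [mul_assoc, ← pow_add]; congr 2; omega
      rw [e1] at this
      rwa [one_mul]
    · intro j hj
      have := (hEX (J - j) w s x (ρ * q ^ (2 * j))
        ((hR _ (by omega)).trans ((le_max_right _ _).trans (hsc j (by omega))))
        (H.mono (hle j))).2
      have e1 : ρ * q ^ (2 * j) * q ^ (2 * (J - j)) = ρ * q ^ (2 * J) := by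
        rw [mul_assoc, ← pow_add]; congr 2; omega
      rwa [e1] at this
  have a0 : (fun j => NB x (ρ * q ^ (2 * j))) 0 f ≤ 1 := by simpa using h0
  have a1 : (fun j => NB x (ρ * q ^ (2 * j))) 0 (AL w f) ≤ 1 / ρ := by simpa using h1
  have a2 : (fun j => NB x (ρ * q ^ (2 * j))) 0 (AL w (AL w f)) ≤ 1 / ρ ^ 2 := by simpa using h2
  have := level2 key f a0 a1 a2
  simpa only [one_mul] using this

/-! ### n-width form (for the wt inequalities) -/

/-- If every `f` of the unit ball of `P` is within `δ` (for the seminorm `M`) of a multiple of `u`,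
then `u` can be replaced by an element of the unit ball, with bounded coefficients. -/
theorem nwidth {V : Type*} [AddCommGroup V] [Module ℝ V] (P M : Seminorm ℝ V) (u : V) (δ B : ℝ)
    (hδ : 0 ≤ δ) (hB : ∀ f, P f ≤ 1 → M f ≤ B)
    (h : ∀ f, P f ≤ 1 → ∃ κ : ℝ, M (f - κ • u) ≤ δ) :
    ∃ g, P g ≤ 1 ∧ ∀ f, P f ≤ 1 → ∃ κ : ℝ, |κ| ≤ 2 ∧ M (f - κ • g) ≤ 3 * δ := by
  by_cases hu : M u = 0
  · refine ⟨0, by simp, fun f hf => ⟨0, by simp, ?_⟩⟩
    obtain ⟨κ, hκ⟩ := h f hf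
    have h1 : M f ≤ M (f - κ • u) + M (κ • u) := by
      have := map_add_le_add M (f - κ • u) (κ • u)
      simpa using this
    have h2 : M (κ • u) = 0 := by rw [map_smul_eq_mul, hu, mul_zero]
    simp only [smul_zero, sub_zero]
    linarith
  · have hu' : 0 < M u := lt_of_le_of_ne (apply_nonneg _ _) (Ne.symm hu)
    set S : Set ℝ := {κ | 0 ≤ κ ∧ ∃ f, P f ≤ 1 ∧ M (f - κ • u) ≤ δ} with hS
    have hSne : S.Nonempty := ⟨0, le_rfl, 0, by simp, by simpa using hδ⟩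
    have hSb : BddAbove S := by
      refine ⟨(B + δ) / M u, ?_⟩
      rintro κ ⟨hκ0, f, hf, hfκ⟩
      rw [le_div_iff₀ hu']
      have h1 : M (κ • u) ≤ M f + M (f - κ • u) := by
        have := map_sub_le_add M f (f - κ • u)
        simpa using this
      rw [map_smul_eq_mul, Real.norm_eq_abs, abs_of_nonneg hκ0] at h1
      have := hB f hf
      linarith
    have hpos : ∀ f, P f ≤ 1 → ∃ κ : ℝ, M (f - κ • u) ≤ δ ∧ |κ| ∈ S := by
      intro f hf
      obtain ⟨κ, hκ⟩ := h f hf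
      refine ⟨κ, hκ, abs_nonneg _, ?_⟩
      rcases le_total 0 κ with h0 | h0
      · exact ⟨f, hf, by rwa [abs_of_nonneg h0]⟩
      · refine ⟨-f, by rwa [map_neg_eq_map], ?_⟩
        rw [abs_of_nonpos h0]
        have : -f - (-κ) • u = -(f - κ • u) := by rw [neg_smul]; abel
        rwa [this, map_neg_eq_map]
    rcases eq_or_lt_of_le (le_csSup hSb hSne.some_mem |>.trans' hSne.some_mem.1) with h0 | h0
    · -- all coefficients vanish
      refine ⟨0, by simp, fun f hf => ⟨0, by simp, ?_⟩⟩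
      obtain ⟨κ, hκ, hκS⟩ := hpos f hf
      have h1 : |κ| ≤ 0 := (le_csSup hSb hκS).trans h0.symm.le
      have h2 : κ = 0 := abs_eq_zero.1 (le_antisymm h1 (abs_nonneg _))
      rw [h2] at hκ
      simp only [zero_smul, sub_zero, smul_zero] at hκ ⊢
      linarith
    · obtain ⟨κ0, hκ0, hlt⟩ := exists_lt_of_lt_csSup hSne (half_lt_self h0)
      obtain ⟨hκ0n, g, hg, hgκ⟩ := hκ0
      have hκ0p : 0 < κ0 := by linarith
      refine ⟨g, hg, fun f hf => ?_⟩
      obtain ⟨κ, hκ, hκS⟩ := hpos f hf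
      have hb : |κ / κ0| ≤ 2 := by
        rw [abs_div, abs_of_pos hκ0p, div_le_iff₀ hκ0p]
        have := le_csSup hSb hκS
        linarith
      refine ⟨κ / κ0, hb, ?_⟩
      have e1 : f - (κ / κ0) • g = (f - κ • u) - (κ / κ0) • (g - κ0 • u) := by
        rw [smul_sub, smul_smul, div_mul_cancel₀ _ hκ0p.ne']; abel
      rw [e1]
      refine (map_sub_le_add M _ _).trans ?_
      rw [map_smul_eq_mul, Real.norm_eq_abs]
      have h3 : |κ / κ0| * M (g - κ0 • u) ≤ 2 * δ :=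
        mul_le_mul hb hgκ (apply_nonneg _ _) (by norm_num)
      linarith

end Crest.Agent.R165.RIfx891
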