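import Mathlib
import Crest.Agent.R165.Br3_644
import Crest.Agent.R165.Br4_644
import Crest.Agent.R165.RIface_891

/-!
Row 165 (S0250), block U4 (helper644): scaling limits of the explicit fields `PsiS`, `PsiN`, `Psi0`.

* `zt z = -I (-z)^{-1/2}` : the branch of `z^{-1/2}` cut along the positive real axis
* `BrA` : the asymptotics of `Pz` (leaf of helper375)
* `lim_PsiS`, `lim_PsiN` : `a^{-1/2} PsiS → lv (- kp ζ(z))`, `a^{-3/2} PsiN → lv (kp (1-I)/2 ζ(z)/z)`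
  off the diagonal and off the ray
-/

set_option autoImplicit false

noncomputable section

namespace Crest.Agent.R165.Br5x644

open Real Filter Topology
open Crest.Agent.R165.Br1x644 (Pz Pz_symm fieldOf sA sB sC PsiS PsiN Psi0)
open Crest.Agent.R165.Tr1x40
open Crest.Agent.R165.RIfx891

def kap : ℝ := 2 ^ (1/4 : ℝ) / √π
/-- `kp = kap cos (π/8)`, `kp ^ 2 = 1 / (2 π x_c)` -/
def kp : ℝ := kap * Real.cos (π/8)

/-- lattice point as a complex number -/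
def zz (x y : ℤ) : ℂ := ⟨(x:ℝ), (y:ℝ)⟩

/-- asymptotics of `Pz` (helper375), in the form `cos, sin` of `π/8` -/
structure BrA : Prop where
  a1 : ∃ C : ℝ, ∀ x y : ℤ, y < x →
    |Pz x y - kap * ((⟨Real.cos (π/8), Real.sin (π/8)⟩ : ℂ) * zz x y ^ (-(1/2) : ℂ)).re|
      ≤ C / ((x:ℝ) - y) ^ (3/2 : ℝ)
  a2 : ∃ C : ℝ, ∀ x y : ℤ, y < x →
    |(Pz (x-1) (y-1) - Pz x y)
        - kap / √2 * ((⟨Real.sin (π/8), Real.cos (π/8)⟩ : ℂ) * zz x y ^ (-(3/2) : ℂ)).re|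
      ≤ C / ((x:ℝ) - y) ^ (5/2 : ℝ)
  a3 : ∃ C : ℝ, ∀ x y : ℤ, y < x →
    |Pz (-x) (-y) - kap * ((⟨Real.sin (π/8), -Real.cos (π/8)⟩ : ℂ) * zz x y ^ (-(1/2) : ℂ)).re|
      ≤ C / ((x:ℝ) - y) ^ (3/2 : ℝ)
  a4 : ∃ C : ℝ, ∀ x y : ℤ, y < x →
    |(Pz (-x) (-y) - Pz (-x-1) (-y-1))
        - kap / √2 * ((⟨Real.cos (π/8), -Real.sin (π/8)⟩ : ℂ) * zz x y ^ (-(3/2) : ℂ)).re|
      ≤ C / ((x:ℝ) - y) ^ (5/2 : ℝ)

/-! ### trigonometry -/

theorem sin_eq : Real.sin (π/8) = xc * Real.cos (π/8) := by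
  have h1 : Real.sin (π/4) = 2 * Real.sin (π/8) * Real.cos (π/8) := by
    rw [← Real.sin_two_mul]; congr 1; ring
  have h2 : Real.cos (π/4) = 2 * Real.cos (π/8) ^ 2 - 1 := by
    rw [← Real.cos_two_mul]; congr 1; ring
  rw [Real.sin_pi_div_four] at h1
  rw [Real.cos_pi_div_four] at h2
  have hc : 0 < Real.cos (π/8) := Real.cos_pos_of_mem_Ioo ⟨by linarith [Real.pi_pos], by linarith [Real.pi_pos]⟩
  have h3 := sq2
  have : Real.sin (π/8) * (2 * Real.cos (π/8)) = (xc * Real.cos (π/8)) * (2 * Real.cos (π/8)) := by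
    unfold xc
    have : 2 * Real.cos (π/8) ^ 2 = 1 + √2/2 := by linarith
    calc Real.sin (π/8) * (2 * Real.cos (π/8)) = √2/2 := by linarith
      _ = (√2 - 1) * (1 + √2/2) := by linear_combination (-1/2) * h3
      _ = (√2 - 1) * (2 * Real.cos (π/8) ^ 2) := by rw [this]
      _ = _ := by ring
  exact mul_right_cancel₀ (by positivity) this

theorem cos_sq_pi8 : Real.cos (π/8) ^ 2 = (2 + √2)/4 := by
  have h2 : Real.cos (π/4) = 2 * Real.cos (π/8) ^ 2 - 1 := by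
    rw [← Real.cos_two_mul]; congr 1; ring
  rw [Real.cos_pi_div_four] at h2
  linarith

theorem kp_sq : 2 * π * xc * kp ^ 2 = 1 := by
  have hpi := Real.pi_pos
  have h3 := sq2
  unfold kp kap
  rw [mul_pow, cos_sq_pi8, div_pow, Real.sq_sqrt hpi.le, ← Real.rpow_natCast, ← Real.rpow_mul (by norm_num)]
  have : (2:ℝ) ^ (1/4 * ((2:ℕ):ℝ)) = √2 := by
    rw [Real.sqrt_eq_rpow]; norm_num
  rw [this]
  unfold xc
  field_simp
  linear_combination (2 + 2*√2) * h3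

/-! ### scaling -/

theorem cpow_scale {a : ℝ} (ha : 0 < a) {z : ℂ} (hz : z ≠ 0) (s : ℂ) :
    ((a:ℂ) * z) ^ s = (a:ℂ) ^ s * z ^ s := by
  have ha' : (a:ℂ) ≠ 0 := by exact_mod_cast ha.ne'
  rw [Complex.cpow_def_of_ne_zero (mul_ne_zero ha' hz), Complex.cpow_def_of_ne_zero ha',
    Complex.cpow_def_of_ne_zero hz, ← Complex.exp_add, Complex.log_ofReal_mul ha hz,
    Complex.ofReal_log ha.le]
  congr 1; ring

variable {ι : Type*} {l : Filter ι} {a : ι → ℝ} {X Y : ι → ℤ} {p q : ℝ}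

theorem slit_of_lt {z : ℂ} (h : z.im < z.re) : z ∈ Complex.slitPlane := by
  rw [Complex.mem_slitPlane_iff]
  rcases lt_or_ge 0 z.re with h0 | h0
  · exact Or.inl h0
  · exact Or.inr (by linarith : z.im < 0).ne

/-- scaling limit of a function with known asymptotics below the diagonal -/
theorem scaled_limit (T : ℤ → ℤ → ℝ) (κ : ℝ) (e : ℂ) (s : ℝ) (hs' : 0 ≤ s)
    (hT : ∃ C : ℝ, ∀ x y : ℤ, y < x →
      |T x y - κ * (e * zz x y ^ (-(s:ℂ))).re| ≤ C / ((x:ℝ) - y) ^ (s + 1))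
    (ha : Tendsto a l (𝓝[>] 0)) (hX : Tendsto (fun k => a k * (X k : ℝ)) l (𝓝 p))
    (hY : Tendsto (fun k => a k * (Y k : ℝ)) l (𝓝 q)) (hpq : q < p) :
    Tendsto (fun k => a k ^ (-s) * T (X k) (Y k)) l
      (𝓝 (κ * (e * (⟨p, q⟩ : ℂ) ^ (-(s:ℂ))).re)) := by
  obtain ⟨C, hC⟩ := hT
  have ha0 : Tendsto a l (𝓝 0) := tendsto_nhds_of_tendsto_nhdsWithin ha
  have hapos : ∀ᶠ k in l, 0 < a k := (tendsto_nhdsWithin_iff.1 ha).2
  have hD : Tendsto (fun k => a k * (X k : ℝ) - a k * (Y k : ℝ)) l (𝓝 (p - q)) := hX.sub hY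
  have hDpos : ∀ᶠ k in l, (p-q)/2 < a k * (X k : ℝ) - a k * (Y k : ℝ) :=
    hD.eventually_const_lt (by linarith)
  -- the main term
  have hz : Tendsto (fun k => (⟨a k * (X k : ℝ), a k * (Y k : ℝ)⟩ : ℂ)) l (𝓝 ⟨p, q⟩) := by
    have h1 : Tendsto (fun k => ((a k * (X k : ℝ) : ℝ) : ℂ) + ((a k * (Y k : ℝ) : ℝ) : ℂ) * Complex.I) l
        (𝓝 ((p:ℂ) + (q:ℂ) * Complex.I)) :=
      (Complex.continuous_ofReal.tendsto _ |>.comp hX).add
        (((Complex.continuous_ofReal.tendsto _).comp hY).mul_const _)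
    have e1 : ∀ u v : ℝ, (⟨u, v⟩ : ℂ) = (u:ℂ) + (v:ℂ) * Complex.I := fun u v => Complex.mk_eq_add_mul_I u v
    simp only [e1]
    exact h1
  have hmain : Tendsto (fun k => κ * (e * (⟨a k * (X k : ℝ), a k * (Y k : ℝ)⟩ : ℂ) ^ (-(s:ℂ))).re) l
      (𝓝 (κ * (e * (⟨p, q⟩ : ℂ) ^ (-(s:ℂ))).re)) := by
    have hc : ContinuousAt (fun z : ℂ => κ * (e * z ^ (-(s:ℂ))).re) ⟨p, q⟩ := by
      have h1 : ContinuousAt (fun z : ℂ => z ^ (-(s:ℂ))) ⟨p, q⟩ :=
        continuousAt_cpow_const (slit_of_lt (by simpa using hpq))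
      exact continuousAt_const.mul (Complex.continuous_re.continuousAt.comp (continuousAt_const.mul h1))
    exact hc.tendsto.comp hz
  -- the error
  have herr : Tendsto (fun k => |C| * (a k / ((p-q)/2) ^ (s+1))) l (𝓝 0) := by
    have := (ha0.div_const (((p-q)/2) ^ (s+1))).const_mul |C|
    simpa using this
  refine hmain.congr_dist ?_
  refine squeeze_zero' (Eventually.of_forall fun _ => dist_nonneg) ?_ herr
  have hs : 0 ≤ s + 1 := by linarith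
  filter_upwards [hapos, hDpos] with k hk hd
  have hxy : Y k < X k := by
    have : 0 < a k * ((X k : ℝ) - (Y k : ℝ)) := by
      have : 0 < (p-q)/2 := by linarith
      rw [mul_sub]; linarith
    have := pos_of_mul_pos_right this hk.le
    have : (Y k : ℝ) < X k := by linarith
    exact_mod_cast this
  have hne : zz (X k) (Y k) ≠ 0 := by
    intro h
    have h1 := congrArg Complex.re h
    have h2 := congrArg Complex.im h
    simp only [zz, Complex.zero_re, Complex.zero_im] at h1 h2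
    have : (Y k : ℝ) < X k := by exact_mod_cast hxy
    linarith
  have e1 : (⟨a k * (X k : ℝ), a k * (Y k : ℝ)⟩ : ℂ) = (a k : ℂ) * zz (X k) (Y k) := by
    apply Complex.ext <;> simp [zz]
  have e2 : (a k : ℂ) ^ (-(s:ℂ)) = ((a k ^ (-s) : ℝ) : ℂ) := by
    rw [Complex.ofReal_cpow hk.le]; push_cast; rfl
  rw [e1, cpow_scale hk hne, e2, Real.dist_eq]
  have e3 : (e * (((a k ^ (-s) : ℝ) : ℂ) * zz (X k) (Y k) ^ (-(s:ℂ)))).re
      = a k ^ (-s) * (e * zz (X k) (Y k) ^ (-(s:ℂ))).re := by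
    rw [← Complex.re_ofReal_mul]; congr 1; ring
  rw [e3]
  have hap : 0 < a k ^ (-s) := Real.rpow_pos_of_pos hk _
  have e4 : κ * (a k ^ (-s) * (e * zz (X k) (Y k) ^ (-(s:ℂ))).re) - a k ^ (-s) * T (X k) (Y k)
      = -(a k ^ (-s) * (T (X k) (Y k) - κ * (e * zz (X k) (Y k) ^ (-(s:ℂ))).re)) := by ring
  rw [e4, abs_neg, abs_mul, abs_of_pos hap]
  have h5 := hC (X k) (Y k) hxy
  have hd' : (p-q)/2 / a k ≤ (X k : ℝ) - Y k := by
    rw [div_le_iff₀ hk]; linarith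
  have hpq0 : 0 < (p-q)/2 := by linarith
  have h6 : ((p-q)/2 / a k) ^ (s+1) ≤ ((X k : ℝ) - Y k) ^ (s+1) :=
    Real.rpow_le_rpow (by positivity) hd' hs
  have h7 : C / ((X k : ℝ) - Y k) ^ (s+1) ≤ |C| / ((p-q)/2 / a k) ^ (s+1) := by
    have : 0 < ((p-q)/2 / a k) ^ (s+1) := by positivity
    exact div_le_div₀ (abs_nonneg _) (le_abs_self C) this h6
  calc a k ^ (-s) * |T (X k) (Y k) - κ * (e * zz (X k) (Y k) ^ (-(s:ℂ))).re|
      ≤ a k ^ (-s) * (|C| / ((p-q)/2 / a k) ^ (s+1)) :=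
        mul_le_mul_of_nonneg_left (h5.trans h7) hap.le
    _ = |C| * (a k / ((p-q)/2) ^ (s+1)) := by
        rw [Real.div_rpow hpq0.le hk.le]
        have : a k ^ (s+1) = a k ^ s * a k := by
          rw [Real.rpow_add hk, Real.rpow_one]
        rw [this, Real.rpow_neg hk.le]
        have h8 : a k ^ s ≠ 0 := (Real.rpow_pos_of_pos hk _).ne'
        field_simp

end Crest.Agent.R165.Br5x644
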