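import Mathlib
import Crest.Agent.R165.Br5_644

/-!
Row 165 (S0250), block U4 (helper644): pointwise scaling limits of `PsiS`, `PsiN`, `Psi0`.
-/

set_option autoImplicit false

noncomputable section

namespace Crest.Agent.R165.Br5x644

open Real Filter Topology
open Crest.Agent.R165.Br1x644 (Pz Pz_symm fieldOf sA sB sC PsiS PsiN Psi0)
open Crest.Agent.R165.Tr1x40
open Crest.Agent.R165.RIfx891

/-- the branch of `z^{-1/2}` with the cut along the positive real axis, `= z^{-1/2}` above the cut -/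
def zt (z : ℂ) : ℂ := -Complex.I * (-z) ^ (-(1/2) : ℂ)

theorem zt_pos {z : ℂ} (h : 0 < z.im) : z ^ (-(1/2) : ℂ) = zt z := by
  have hz : z ≠ 0 := by rintro rfl; simp at h
  have hl : Complex.log (-z) = Complex.log z - π * Complex.I := by
    rw [Complex.log, Complex.log, norm_neg, Complex.arg_neg_eq_arg_sub_pi_of_im_pos h]
    push_cast; ring
  unfold zt
  rw [Complex.cpow_def_of_ne_zero hz, Complex.cpow_def_of_ne_zero (neg_ne_zero.2 hz), hl]
  have e : (Complex.log z - π * Complex.I) * -(1/2 : ℂ) = Complex.log z * -(1/2) + π/2 * Complex.I := by ring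
  rw [e, Complex.exp_add, Complex.exp_pi_div_two_mul_I]
  ring_nf
  rw [Complex.I_sq]; ring

theorem zt_neg {z : ℂ} (h : z.im < 0) : z ^ (-(1/2) : ℂ) = -zt z := by
  have hz : z ≠ 0 := by rintro rfl; simp at h
  have hl : Complex.log (-z) = Complex.log z + π * Complex.I := by
    rw [Complex.log, Complex.log, norm_neg, Complex.arg_neg_eq_arg_add_pi_of_im_neg h]
    push_cast; ring
  unfold zt
  rw [Complex.cpow_def_of_ne_zero hz, Complex.cpow_def_of_ne_zero (neg_ne_zero.2 hz), hl]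
  have e : (Complex.log z + π * Complex.I) * -(1/2 : ℂ) = Complex.log z * -(1/2) + -(π/2 * Complex.I) := by ring
  rw [e, Complex.exp_add, Complex.exp_neg, Complex.exp_pi_div_two_mul_I, Complex.inv_I]
  ring_nf
  rw [Complex.I_sq]; ring

theorem cpow_three_half {z : ℂ} (hz : z ≠ 0) : z ^ (-(3/2) : ℂ) = z ^ (-(1/2) : ℂ) / z := by
  rw [show (-(3/2) : ℂ) = -(1/2) - 1 by norm_num, Complex.cpow_sub _ _ hz, Complex.cpow_one]

variable {ι : Type*} {l : Filter ι} {a : ι → ℝ} {X Y : ι → ℤ} {p q : ℝ}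

/-- families of lattice points converging to `(p, q)` -/
structure Cv (l : Filter ι) (a : ι → ℝ) (X Y : ι → ℤ) (p q : ℝ) : Prop where
  ha : Tendsto a l (𝓝[>] 0)
  hX : Tendsto (fun k => a k * (X k : ℝ)) l (𝓝 p)
  hY : Tendsto (fun k => a k * (Y k : ℝ)) l (𝓝 q)

theorem Cv.ha0 (h : Cv l a X Y p q) : Tendsto a l (𝓝 0) := tendsto_nhds_of_tendsto_nhdsWithin h.ha
theorem Cv.pos (h : Cv l a X Y p q) : ∀ᶠ k in l, 0 < a k := (tendsto_nhdsWithin_iff.1 h.ha).2

theorem Cv.shift (h : Cv l a X Y p q) (c d : ℤ) :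
    Cv l a (fun k => X k + c) (fun k => Y k + d) p q := by
  have h0 := h.ha0
  refine ⟨h.ha, ?_, ?_⟩
  · have := h.hX.add (h0.mul_const (c:ℝ))
    rw [zero_mul, add_zero] at this
    refine this.congr fun k => ?_
    push_cast; ring
  · have := h.hY.add (h0.mul_const (d:ℝ))
    rw [zero_mul, add_zero] at this
    refine this.congr fun k => ?_
    push_cast; ring

theorem Cv.neg (h : Cv l a X Y p q) :
    Cv l a (fun k => -X k) (fun k => -Y k) (-p) (-q) := by
  refine ⟨h.ha, ?_, ?_⟩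
  · refine h.hX.neg.congr fun k => ?_
    push_cast; ring
  · refine h.hY.neg.congr fun k => ?_
    push_cast; ring

theorem Cv.lt (h : Cv l a X Y p q) (hpq : p < q) (c : ℤ) : ∀ᶠ k in l, X k + c < Y k := by
  have h1 : Tendsto (fun k => a k * (Y k : ℝ) - a k * (X k : ℝ) - a k * c) l (𝓝 (q - p - 0 * c)) :=
    (h.hY.sub h.hX).sub (h.ha0.mul_const _)
  rw [zero_mul, sub_zero] at h1
  filter_upwards [h.pos, h1.eventually_const_lt (show 0 < q - p by linarith)] with k hk h2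
  have : 0 < a k * ((Y k : ℝ) - X k - c) := by rw [mul_sub, mul_sub]; exact h2
  have := pos_of_mul_pos_right this hk.le
  have : ((X k + c : ℤ) : ℝ) < Y k := by push_cast; linarith
  exact_mod_cast this

theorem Cv.lt' (h : Cv l a X Y p q) (hpq : q < p) (c : ℤ) : ∀ᶠ k in l, Y k + c < X k := by
  have h' : Cv l a Y X q p := ⟨h.ha, h.hY, h.hX⟩
  exact h'.lt hpq c

theorem Cv.ypos (h : Cv l a X Y p q) (hq : 0 < q) : ∀ᶠ k in l, 0 < Y k := by
  have h' : Cv l a (fun _ => 0) Y 0 q := ⟨h.ha, by simpa using tendsto_const_nhds, h.hY⟩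
  filter_upwards [h'.lt hq 0] with k hk
  simpa using hk

theorem Cv.yneg (h : Cv l a X Y p q) (hq : q < 0) : ∀ᶠ k in l, Y k < 0 := by
  have h' : Cv l a (fun _ => 0) Y 0 q := ⟨h.ha, by simpa using tendsto_const_nhds, h.hY⟩
  filter_upwards [h'.lt' hq 0] with k hk
  simpa using hk

/-- off the diagonal and off the ray -/
def Gen (p q : ℝ) : Prop := p < q ∨ (q < p ∧ q < 0) ∨ (q < p ∧ 0 < q)

variable (B : BrA)

theorem negz (p q : ℝ) : -(⟨p, q⟩ : ℂ) = ⟨-p, -q⟩ := by apply Complex.ext <;> simp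

theorem cast_half : (-((1/2 : ℝ) : ℂ)) = (-(1/2) : ℂ) := by push_cast; rfl
theorem cast_three_half : (-((3/2 : ℝ) : ℂ)) = (-(3/2) : ℂ) := by push_cast; rfl

include B in
/-- `Pz x y` -/
theorem lim_P_below (h : Cv l a X Y p q) (hpq : q < p) :
    Tendsto (fun k => a k ^ (-(1/2) : ℝ) * Pz (X k) (Y k)) l
      (𝓝 (kap * ((⟨Real.cos (π/8), Real.sin (π/8)⟩ : ℂ) * (⟨p, q⟩ : ℂ) ^ (-(1/2) : ℂ)).re)) := by
  have := scaled_limit Pz kap ⟨Real.cos (π/8), Real.sin (π/8)⟩ (1/2) (by norm_num) (by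
    obtain ⟨C, hC⟩ := B.a1
    refine ⟨C, fun x y hxy => ?_⟩
    rw [cast_half]
    have := hC x y hxy
    norm_num at this ⊢
    exact this) h.ha h.hX h.hY hpq
  rwa [cast_half] at this

include B in
/-- `Pz (-x) (-y)` -/
theorem lim_Q_below (h : Cv l a X Y p q) (hpq : q < p) :
    Tendsto (fun k => a k ^ (-(1/2) : ℝ) * Pz (-X k) (-Y k)) l
      (𝓝 (kap * ((⟨Real.sin (π/8), -Real.cos (π/8)⟩ : ℂ) * (⟨p, q⟩ : ℂ) ^ (-(1/2) : ℂ)).re)) := by
  have := scaled_limit (fun x y => Pz (-x) (-y)) kap ⟨Real.sin (π/8), -Real.cos (π/8)⟩ (1/2) (by norm_num) (by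
    obtain ⟨C, hC⟩ := B.a3
    refine ⟨C, fun x y hxy => ?_⟩
    rw [cast_half]
    have := hC x y hxy
    norm_num at this ⊢
    exact this) h.ha h.hX h.hY hpq
  rwa [cast_half] at this

include B in
theorem lim_dP_below (h : Cv l a X Y p q) (hpq : q < p) :
    Tendsto (fun k => a k ^ (-(3/2) : ℝ) * (Pz (X k - 1) (Y k - 1) - Pz (X k) (Y k))) l
      (𝓝 (kap/√2 * ((⟨Real.sin (π/8), Real.cos (π/8)⟩ : ℂ) * (⟨p, q⟩ : ℂ) ^ (-(3/2) : ℂ)).re)) := by
  have := scaled_limit (fun x y => Pz (x-1) (y-1) - Pz x y) (kap/√2) ⟨Real.sin (π/8), Real.cos (π/8)⟩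
    (3/2) (by norm_num) (by
    obtain ⟨C, hC⟩ := B.a2
    refine ⟨C, fun x y hxy => ?_⟩
    rw [cast_three_half]
    have := hC x y hxy
    norm_num at this ⊢
    exact this) h.ha h.hX h.hY hpq
  rwa [cast_three_half] at this

include B in
theorem lim_dQ_below (h : Cv l a X Y p q) (hpq : q < p) :
    Tendsto (fun k => a k ^ (-(3/2) : ℝ) * (Pz (-X k) (-Y k) - Pz (-X k - 1) (-Y k - 1))) l
      (𝓝 (kap/√2 * ((⟨Real.cos (π/8), -Real.sin (π/8)⟩ : ℂ) * (⟨p, q⟩ : ℂ) ^ (-(3/2) : ℂ)).re)) := by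
  have := scaled_limit (fun x y => Pz (-x) (-y) - Pz (-x-1) (-y-1)) (kap/√2)
    ⟨Real.cos (π/8), -Real.sin (π/8)⟩ (3/2) (by norm_num) (by
    obtain ⟨C, hC⟩ := B.a4
    refine ⟨C, fun x y hxy => ?_⟩
    rw [cast_three_half]
    have := hC x y hxy
    norm_num at this ⊢
    exact this) h.ha h.hX h.hY hpq
  rwa [cast_three_half] at this

theorem re1 (c s : ℝ) (η : ℂ) :
    ((⟨s, -c⟩ : ℂ) * (-Complex.I * η)).re = -((⟨c, s⟩ : ℂ) * η).re := by
  simp [Complex.mul_re, Complex.mul_im]; ring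

theorem re2 (c s : ℝ) (η : ℂ) :
    ((⟨c, s⟩ : ℂ) * (-Complex.I * η)).re = ((⟨s, -c⟩ : ℂ) * η).re := by
  simp [Complex.mul_re, Complex.mul_im]

theorem re_neg' (e η : ℂ) : (e * -η).re = -(e * η).re := by
  rw [mul_neg, Complex.neg_re]

include B in
/-- the south-west values of `PsiS` -/
theorem lim_uS (h : Cv l a X Y p q) (hg : Gen p q) :
    Tendsto (fun k => a k ^ (-(1/2) : ℝ) * (sC (X k) (Y k) * Pz (-X k) (-Y k))) l
      (𝓝 (kap * ((⟨Real.sin (π/8), -Real.cos (π/8)⟩ : ℂ) * zt ⟨p, q⟩).re)) := by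
  rcases hg with hpq | ⟨hpq, hq⟩ | ⟨hpq, hq⟩
  · have h1 := (lim_P_below B h.neg (by linarith)).neg
    rw [zt, negz p q, re1, mul_neg]
    refine h1.congr' ?_
    filter_upwards [h.lt hpq 0] with k hk
    have : sC (X k) (Y k) = -1 := by unfold sC; rw [if_neg (by omega)]
    rw [this]; ring
  · have h1 := (lim_Q_below B h hpq).neg
    rw [zt_neg (z := ⟨p, q⟩) hq, re_neg', mul_neg, neg_neg] at h1
    refine h1.congr' ?_
    filter_upwards [h.yneg hq] with k hk
    have : sC (X k) (Y k) = -1 := by unfold sC; rw [if_neg (by omega)]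
    rw [this]; ring
  · have h1 := lim_Q_below B h hpq
    rw [zt_pos (z := ⟨p, q⟩) hq] at h1
    refine h1.congr' ?_
    filter_upwards [h.ypos hq, h.lt' hpq 0] with k hk hk2
    have : sC (X k) (Y k) = 1 := by unfold sC; rw [if_pos (by omega)]
    rw [this]; ring

include B in
/-- the north-east values of `PsiS` -/
theorem lim_wS (h : Cv l a X Y p q) (hg : Gen p q) :
    Tendsto (fun k => a k ^ (-(1/2) : ℝ) * (sA (X k) (Y k) * (-Pz (X k) (Y k)))) l
      (𝓝 (-(kap * ((⟨Real.cos (π/8), Real.sin (π/8)⟩ : ℂ) * zt ⟨p, q⟩).re))) := by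
  rcases hg with hpq | ⟨hpq, hq⟩ | ⟨hpq, hq⟩
  · have h1 := (lim_Q_below B h.neg (by linarith)).neg
    rw [zt, negz p q, re2]
    refine h1.congr' ?_
    filter_upwards [h.lt hpq 0] with k hk
    have : sA (X k) (Y k) = 1 := by unfold sA; rw [if_neg (by omega)]
    rw [this, neg_neg, neg_neg]; ring
  · have h1 := lim_P_below B h hpq
    rw [zt_neg (z := ⟨p, q⟩) hq, re_neg', mul_neg] at h1
    refine h1.congr' ?_
    filter_upwards [h.yneg hq, h.lt' hpq 0] with k hk hk2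
    have : sA (X k) (Y k) = -1 := by unfold sA; rw [if_pos (by omega)]
    rw [this]; ring
  · have h1 := (lim_P_below B h hpq).neg
    rw [zt_pos (z := ⟨p, q⟩) hq] at h1
    refine h1.congr' ?_
    filter_upwards [h.ypos hq, h.lt' hpq 0] with k hk hk2
    have : sA (X k) (Y k) = 1 := by unfold sA; rw [if_neg (by omega)]
    rw [this]; ring

theorem ne_of_gen {p q : ℝ} (hg : Gen p q) : (⟨p, q⟩ : ℂ) ≠ 0 := by
  intro h
  have h1 : p = 0 := congrArg Complex.re h
  have h2 : q = 0 := congrArg Complex.im h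
  subst h1; subst h2
  rcases hg with h | h | h
  · exact lt_irrefl _ h
  · exact lt_irrefl _ h.1
  · exact lt_irrefl _ h.1

include B in
/-- the south-west values of `PsiN` -/
theorem lim_uN (h : Cv l a X Y p q) (hg : Gen p q) :
    Tendsto (fun k => a k ^ (-(3/2) : ℝ) * (sA (X k) (Y k) * (Pz (X k - 1) (Y k - 1) - Pz (X k) (Y k)))) l
      (𝓝 (kap/√2 * ((⟨Real.sin (π/8), Real.cos (π/8)⟩ : ℂ) * (zt ⟨p, q⟩ / ⟨p, q⟩)).re)) := by
  have hz := ne_of_gen hg
  rcases hg with hpq | ⟨hpq, hq⟩ | ⟨hpq, hq⟩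
  · have h1 := (lim_dQ_below B h.neg (by linarith)).neg
    rw [← negz, cpow_three_half (neg_ne_zero.2 hz), ← mul_neg] at h1
    have e : zt ⟨p, q⟩ / ⟨p, q⟩ = Complex.I * ((-(⟨p, q⟩ : ℂ)) ^ (-(1/2) : ℂ) / -⟨p, q⟩) := by
      unfold zt; rw [div_neg]; ring
    rw [e]
    generalize ((-(⟨p, q⟩ : ℂ)) ^ (-(1/2) : ℂ) / -⟨p, q⟩) = η at h1 ⊢
    have e2 : ((⟨Real.sin (π/8), Real.cos (π/8)⟩ : ℂ) * (Complex.I * η)).re
        = -((⟨Real.cos (π/8), -Real.sin (π/8)⟩ : ℂ) * η).re := by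
      simp [Complex.mul_re, Complex.mul_im]; ring
    rw [e2]
    refine h1.congr' ?_
    filter_upwards [h.lt hpq 0] with k hk
    have : sA (X k) (Y k) = 1 := by unfold sA; rw [if_neg (by omega)]
    rw [this, neg_neg, neg_neg]; ring
  · have h1 := (lim_dP_below B h hpq).neg
    rw [cpow_three_half hz, zt_neg (z := ⟨p, q⟩) hq, neg_div, re_neg', mul_neg, neg_neg] at h1
    refine h1.congr' ?_
    filter_upwards [h.yneg hq, h.lt' hpq 0] with k hk hk2
    have : sA (X k) (Y k) = -1 := by unfold sA; rw [if_pos (by omega)]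
    rw [this]; ring
  · have h1 := lim_dP_below B h hpq
    rw [cpow_three_half hz, zt_pos (z := ⟨p, q⟩) hq] at h1
    refine h1.congr' ?_
    filter_upwards [h.ypos hq, h.lt' hpq 0] with k hk hk2
    have : sA (X k) (Y k) = 1 := by unfold sA; rw [if_neg (by omega)]
    rw [this]; ring

include B in
/-- the north-east values of `PsiN` -/
theorem lim_wN (h : Cv l a X Y p q) (hg : Gen p q) :
    Tendsto (fun k => a k ^ (-(3/2) : ℝ) *
        (sB (X k) (Y k) * (Pz (-X k) (-Y k) - Pz (-X k - 1) (-Y k - 1)))) l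
      (𝓝 (kap/√2 * ((⟨Real.cos (π/8), -Real.sin (π/8)⟩ : ℂ) * (zt ⟨p, q⟩ / ⟨p, q⟩)).re)) := by
  have hz := ne_of_gen hg
  rcases hg with hpq | ⟨hpq, hq⟩ | ⟨hpq, hq⟩
  · have h1 := lim_dP_below B h.neg (by linarith)
    rw [← negz, cpow_three_half (neg_ne_zero.2 hz)] at h1
    have e : zt ⟨p, q⟩ / ⟨p, q⟩ = Complex.I * ((-(⟨p, q⟩ : ℂ)) ^ (-(1/2) : ℂ) / -⟨p, q⟩) := by
      unfold zt; rw [div_neg]; ring
    rw [e]
    generalize ((-(⟨p, q⟩ : ℂ)) ^ (-(1/2) : ℂ) / -⟨p, q⟩) = η at h1 ⊢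
    have e2 : ((⟨Real.cos (π/8), -Real.sin (π/8)⟩ : ℂ) * (Complex.I * η)).re
        = ((⟨Real.sin (π/8), Real.cos (π/8)⟩ : ℂ) * η).re * 1 + 0 := by
      simp [Complex.mul_re, Complex.mul_im]; ring
    rw [e2, mul_one, add_zero]
    refine h1.congr' ?_
    filter_upwards [h.lt hpq 0] with k hk
    have : sB (X k) (Y k) = -1 := by unfold sB; rw [if_neg (by omega)]
    rw [this]; ring
  · have h1 := (lim_dQ_below B h hpq).neg
    rw [cpow_three_half hz, zt_neg (z := ⟨p, q⟩) hq, neg_div, re_neg', mul_neg, neg_neg] at h1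
    refine h1.congr' ?_
    filter_upwards [h.yneg hq] with k hk
    have : sB (X k) (Y k) = -1 := by unfold sB; rw [if_neg (by omega)]
    rw [this]; ring
  · have h1 := lim_dQ_below B h hpq
    rw [cpow_three_half hz, zt_pos (z := ⟨p, q⟩) hq] at h1
    refine h1.congr' ?_
    filter_upwards [h.ypos hq, h.lt' hpq 0] with k hk hk2
    have : sB (X k) (Y k) = 1 := by unfold sB; rw [if_pos (by omega)]
    rw [this]; ring

/-! ### half-edge fields -/

/-- limit of a half-edge field from the limits of its corner values -/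
theorem lim_fieldOf (u w : ℤ → ℤ → ℝ) (s : ℝ) (c : ℂ)
    (h : Cv l a X Y p q)
    (hu : ∀ X' Y' : ι → ℤ, Cv l a X' Y' p q →
      Tendsto (fun k => a k ^ (-s) * u (X' k) (Y' k)) l (𝓝 (-(xc * c.re + c.im))))
    (hw : ∀ X' Y' : ι → ℤ, Cv l a X' Y' p q →
      Tendsto (fun k => a k ^ (-s) * w (X' k) (Y' k)) l (𝓝 (c.re - xc * c.im))) (d : Fin 4) :
    Tendsto (fun k => a k ^ (-s) * fieldOf u w ((X k, Y k), d)) l (𝓝 (lv c d)) := by
  have h2 := sq2
  have hs2 : √2 ≠ 0 := sq2_pos.ne'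
  have u0 := hu X Y h
  have u1 := hu _ _ (h.shift 1 0)
  have w0 := hw X Y h
  have w1 := hw _ _ (h.shift (-1) 0)
  simp only [add_zero] at u1 w1
  have hse := (u1.sub w0).div_const √2
  have hnw := ((u0.add w1).neg).div_const √2
  have key : ∀ r : ℝ, r / √2 = r * √2 / 2 := div_sq2
  fin_cases d
  · have := (u0.add hse).div_const 2
    refine (this.congr fun k => ?_).trans (le_of_eq ?_)
    · show _ = a k ^ (-s) * ((u (X k) (Y k) + (u (X k + 1) (Y k) - w (X k) (Y k)) / √2) / 2)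
      ring
    · congr 1
      show _ = -(c.re + c.im) / √2
      rw [key, key]
      unfold xc
      linear_combination (-(c.re)/4 + c.im/4) * h2
  · have := (w0.sub hse).div_const 2
    refine (this.congr fun k => ?_).trans (le_of_eq ?_)
    · show _ = a k ^ (-s) * ((w (X k) (Y k) - (u (X k + 1) (Y k) - w (X k) (Y k)) / √2) / 2)
      ring
    · congr 1
      show _ = c.re
      rw [key]
      unfold xc
      linear_combination (c.re/4 - c.im/4) * h2
  · have := (hnw.sub w0).div_const 2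
    refine (this.congr fun k => ?_).trans (le_of_eq ?_)
    · show _ = a k ^ (-s) * ((-(u (X k) (Y k) + w (X k - 1) (Y k)) / √2 - w (X k) (Y k)) / 2)
      rw [show X k + -1 = X k - 1 by ring]
      ring
    · congr 1
      show _ = (c.im - c.re) / √2
      rw [key, key]
      unfold xc
      linear_combination (c.re/4 + c.im/4) * h2
  · have := (u0.sub hnw).div_const 2
    refine (this.congr fun k => ?_).trans (le_of_eq ?_)
    · show _ = a k ^ (-s) * ((u (X k) (Y k) - -(u (X k) (Y k) + w (X k - 1) (Y k)) / √2) / 2)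
      rw [show X k + -1 = X k - 1 by ring]
      ring
    · congr 1
      show _ = -c.im
      rw [key]
      unfold xc
      linear_combination (-(c.re)/4 - c.im/4) * h2

include B in
/-- **scaling limit of `PsiS`** -/
theorem lim_PsiS (h : Cv l a X Y p q) (hg : Gen p q) (d : Fin 4) :
    Tendsto (fun k => a k ^ (-(1/2) : ℝ) * PsiS ((X k, Y k), d)) l
      (𝓝 (lv (-(kp : ℂ) * zt ⟨p, q⟩) d)) := by
  have hs := sin_eq
  have hk : kp = kap * Real.cos (π/8) := rfl
  refine lim_fieldOf _ _ (1/2) _ h (fun X' Y' h' => ?_) (fun X' Y' h' => ?_) d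
  · refine (lim_uS B h' hg).trans (le_of_eq ?_)
    congr 1
    generalize zt ⟨p, q⟩ = η
    simp only [Complex.mul_re, Complex.mul_im, Complex.neg_re, Complex.neg_im, Complex.ofReal_re,
      Complex.ofReal_im, hs, hk]
    ring
  · refine (lim_wS B h' hg).trans (le_of_eq ?_)
    congr 1
    generalize zt ⟨p, q⟩ = η
    simp only [Complex.mul_re, Complex.mul_im, Complex.neg_re, Complex.neg_im, Complex.ofReal_re,
      Complex.ofReal_im, hs, hk]
    ring

include B in
/-- **scaling limit of `PsiN`** -/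
theorem lim_PsiN (h : Cv l a X Y p q) (hg : Gen p q) (d : Fin 4) :
    Tendsto (fun k => a k ^ (-(3/2) : ℝ) * PsiN ((X k, Y k), d)) l
      (𝓝 (lv ((kp : ℂ) * ((1 - Complex.I)/2) * (zt ⟨p, q⟩ / ⟨p, q⟩)) d)) := by
  have hs := sin_eq
  have hk : kp = kap * Real.cos (π/8) := rfl
  have h2 := sq2
  have key : ∀ r : ℝ, r / √2 = r * √2 / 2 := div_sq2
  refine lim_fieldOf _ _ (3/2) _ h (fun X' Y' h' => ?_) (fun X' Y' h' => ?_) d
  · refine (lim_uN B h' hg).trans (le_of_eq ?_)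
    congr 1
    generalize zt ⟨p, q⟩ / ⟨p, q⟩ = η
    simp only [Complex.mul_re, Complex.mul_im, Complex.ofReal_re, Complex.sub_re, Complex.sub_im,
      Complex.ofReal_im, hs, hk, Complex.div_ofNat_re, Complex.div_ofNat_im, Complex.one_re,
      Complex.one_im, Complex.I_re, Complex.I_im, key]
    unfold xc
    linear_combination (kap * Real.cos (π/8) * (η.re)/2) * h2
  · refine (lim_wN B h' hg).trans (le_of_eq ?_)
    congr 1
    generalize zt ⟨p, q⟩ / ⟨p, q⟩ = η
    simp only [Complex.mul_re, Complex.mul_im, Complex.ofReal_re, Complex.sub_re, Complex.sub_im,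
      Complex.ofReal_im, hs, hk, Complex.div_ofNat_re, Complex.div_ofNat_im, Complex.one_re,
      Complex.one_im, Complex.I_re, Complex.I_im, key]
    unfold xc
    linear_combination (kap * Real.cos (π/8) * (η.im)/2) * h2

end Crest.Agent.R165.Br5x644
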