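import Crest.Agent.R165.Br0_644

/-!
# Row 165, block U4 (leaf BrB2 of helper644; typed by helper304)

`|P k n - P (k-2) n| ≤ C / (|k| + n + 1)^{3/2}` for `k + n` even, from (BrB1)
`|P k n| ≤ C / √(|k| + n + 1)`.
-/

set_option autoImplicit false

noncomputable section

namespace Crest.Agent.R165.BrBx304

open Real MeasureTheory Set intervalIntegral
open Crest.Agent.R165.Pkx583 (rho rho_nonneg rho_le_one sin_ge sin_pos' rho_le_exp)
open Crest.Agent.R165.Br0x644

/-! ### moments of `ρ^m` -/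

theorem rho_pow_exp (m : ℕ) {u : ℝ} (h0 : 0 ≤ u) (h1 : u ≤ π/2) :
    rho u ^ m ≤ 2 * Real.exp (-(((m:ℝ) + 1) / π) * u) := by
  have hpi := Real.pi_pos
  have h2 : rho u ^ m ≤ Real.exp (-(u/π)) ^ m :=
    pow_le_pow_left₀ (rho_nonneg h0 h1) (rho_le_exp h0 h1) m
  have h3 : Real.exp (-(u/π)) ^ m = Real.exp (u/π) * Real.exp (-(((m:ℝ) + 1) / π) * u) := by
    rw [← Real.exp_nat_mul, ← Real.exp_add]
    congr 1
    field_simp
    ring
  have h4 : Real.exp (u/π) ≤ 2 := by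
    have h5 : u/π ≤ 1/2 := by
      rw [div_le_div_iff₀ hpi (by norm_num)]; linarith
    have h6 : Real.exp (1/2) ≤ 2 := by
      have h7 := Real.exp_one_lt_d9
      have h8 : Real.exp (1/2) * Real.exp (1/2) = Real.exp 1 := by
        rw [← Real.exp_add]; norm_num
      have h9 := Real.exp_pos (1/2)
      nlinarith
    exact (Real.exp_le_exp.2 h5).trans h6
  rw [h3] at h2
  exact h2.trans (mul_le_mul_of_nonneg_right h4 (Real.exp_pos _).le)

/-- the constant of the moment bound -/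
def K (s : ℝ) : ℝ := 2 * (π ^ s * Real.Gamma s)

theorem K_nonneg {s : ℝ} (hs : 0 < s) : 0 ≤ K s := by
  unfold K
  have := Real.Gamma_pos_of_pos hs
  have := Real.pi_pos
  positivity

theorem integrableOn_exp {s b : ℝ} (hs : 0 < s) (hb : 0 < b) :
    IntegrableOn (fun u : ℝ => u ^ (s - 1) * Real.exp (-b * u)) (Ioi 0) := by
  have h := integrableOn_rpow_mul_exp_neg_mul_rpow (p := 1) (s := s - 1) (b := b)
    (by linarith) one_pos hb
  simpa using h

theorem abs_int_le {f : ℝ → ℝ} {C s : ℝ} (m : ℕ) (hC : 0 ≤ C) (hs : 0 < s)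
    (hf : ∀ u, 0 < u → u ≤ π/2 → |f u| ≤ C * (u ^ (s - 1) * rho u ^ m)) :
    |∫ u in (0:ℝ)..(π/2), f u| ≤ C * K s / ((m:ℝ) + 1) ^ s := by
  have hpi := Real.pi_pos
  set b : ℝ := ((m:ℝ) + 1) / π with hb
  have hb0 : 0 < b := by positivity
  have hI := integrableOn_exp hs hb0
  have h1 : |∫ u in (0:ℝ)..(π/2), f u| ≤
      ∫ u in (0:ℝ)..(π/2), (2 * C) * (u ^ (s - 1) * Real.exp (-b * u)) := by
    rw [← Real.norm_eq_abs]
    refine intervalIntegral.norm_integral_le_of_norm_le (by positivity) ?_ ?_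
    · refine Filter.Eventually.of_forall fun u hu => ?_
      rw [Real.norm_eq_abs]
      refine (hf u hu.1 hu.2).trans ?_
      have h2 := rho_pow_exp m hu.1.le hu.2
      have h3 : 0 ≤ u ^ (s - 1) := Real.rpow_nonneg hu.1.le _
      calc C * (u ^ (s - 1) * rho u ^ m) ≤ C * (u ^ (s - 1) * (2 * Real.exp (-b * u))) := by
            gcongr
        _ = (2 * C) * (u ^ (s - 1) * Real.exp (-b * u)) := by ring
    · rw [intervalIntegrable_iff_integrableOn_Ioc_of_le (by positivity)]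
      exact (hI.mono_set Ioc_subset_Ioi_self).const_mul (2 * C)
  have h2 : ∫ u in (0:ℝ)..(π/2), (2 * C) * (u ^ (s - 1) * Real.exp (-b * u)) ≤
      (2 * C) * ((1 / b) ^ s * Real.Gamma s) := by
    rw [intervalIntegral.integral_const_mul]
    refine mul_le_mul_of_nonneg_left ?_ (by positivity)
    rw [intervalIntegral.integral_of_le (by positivity)]
    have h3 : ∫ t in Ioi (0:ℝ), t ^ (s - 1) * Real.exp (-b * t) = (1 / b) ^ s * Real.Gamma s := by
      have := Real.integral_rpow_mul_exp_neg_mul_Ioi hs hb0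
      simpa [neg_mul] using this
    rw [← h3]
    refine setIntegral_mono_set hI ?_ (Filter.Eventually.of_forall Ioc_subset_Ioi_self)
    refine (ae_restrict_iff' measurableSet_Ioi).2 (Filter.Eventually.of_forall fun t ht => ?_)
    have ht' : (0:ℝ) < t := ht
    have := Real.rpow_nonneg ht'.le (s - 1)
    show (0:ℝ) ≤ t ^ (s - 1) * Real.exp (-b * t)
    positivity
  refine (h1.trans h2).trans (le_of_eq ?_)
  have h4 : (1 / b) ^ s = π ^ s / ((m:ℝ) + 1) ^ s := by
    rw [hb, one_div_div, Real.div_rpow hpi.le (by positivity)]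
  rw [h4]; unfold K; ring

/-! ### derivatives -/

/-- `√(2 sin u)` -/
def sq (u : ℝ) : ℝ := √(2 * Real.sin u)

theorem sq_nonneg' (u : ℝ) : 0 ≤ sq u := Real.sqrt_nonneg _

theorem two_sin_pos {u : ℝ} (h0 : 0 < u) (h1 : u ≤ π/2) : 0 < 2 * Real.sin u := by
  have := sin_pos' h0 h1; linarith

theorem amp_mul {u : ℝ} (h0 : 0 < u) (h1 : u ≤ π/2) : amp u * (2 * Real.sin u) = sq u := by
  have h := two_sin_pos h0 h1
  have hs : 0 < √(2 * Real.sin u) := Real.sqrt_pos.2 h
  unfold amp sq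
  rw [one_div, inv_mul_eq_div, div_eq_iff hs.ne']
  exact (Real.mul_self_sqrt h.le).symm

theorem sq_le {u : ℝ} (h0 : 0 ≤ u) : sq u ≤ √2 * u ^ ((1:ℝ)/2) := by
  unfold sq
  rw [← Real.sqrt_eq_rpow, ← Real.sqrt_mul (by norm_num)]
  apply Real.sqrt_le_sqrt
  have := Real.sin_le h0
  linarith

theorem hasDerivAt_sq {u : ℝ} (h0 : 0 < u) (h1 : u ≤ π/2) :
    HasDerivAt sq (amp u * Real.cos u) u := by
  have h := two_sin_pos h0 h1
  have h2 : HasDerivAt (fun v => 2 * Real.sin v) (2 * Real.cos u) u :=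
    (Real.hasDerivAt_sin u).const_mul 2
  have h3 := h2.sqrt h.ne'
  have h4 : 2 * Real.cos u / (2 * √(2 * Real.sin u)) = amp u * Real.cos u := by
    unfold amp
    have hs : 0 < √(2 * Real.sin u) := Real.sqrt_pos.2 h
    field_simp
  rw [h4] at h3
  exact h3

theorem one_add_sin_pos {u : ℝ} (h0 : 0 ≤ u) (h1 : u ≤ π/2) : 1 ≤ 1 + Real.sin u := by
  have := Real.sin_nonneg_of_nonneg_of_le_pi h0 (by linarith [Real.pi_pos])
  linarith

theorem hasDerivAt_rho {u : ℝ} (h0 : 0 ≤ u) (h1 : u ≤ π/2) :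
    HasDerivAt rho (-(1 / (1 + Real.sin u))) u := by
  have h := one_add_sin_pos h0 h1
  have hne : 1 + Real.sin u ≠ 0 := by linarith
  have h2 := (Real.hasDerivAt_cos u).div ((Real.hasDerivAt_sin u).const_add 1) hne
  have h3 : (-Real.sin u * (1 + Real.sin u) - Real.cos u * Real.cos u) / (1 + Real.sin u) ^ 2
      = -(1 / (1 + Real.sin u)) := by
    have h4 := Real.sin_sq_add_cos_sq u
    field_simp
    linear_combination -h4
  rw [h3] at h2
  exact h2

theorem continuousOn_rho : ContinuousOn rho (Icc 0 (π/2)) := fun u hu =>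
  (hasDerivAt_rho hu.1 hu.2).continuousAt.continuousWithinAt

theorem continuous_sq : Continuous sq := by unfold sq; fun_prop

theorem measurable_sq : Measurable sq := continuous_sq.measurable

/-- `g n = √(2 sin u) ρ^n` -/
def g (n : ℕ) (u : ℝ) : ℝ := sq u * rho u ^ n

/-- its derivative -/
def g' (n : ℕ) (u : ℝ) : ℝ :=
  amp u * (rho u ^ n * Real.cos u) - n * (sq u * rho u ^ (n - 1) / (1 + Real.sin u))

theorem hasDerivAt_g (n : ℕ) {u : ℝ} (h0 : 0 < u) (h1 : u ≤ π/2) :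
    HasDerivAt (g n) (g' n u) u := by
  have h2 := (hasDerivAt_sq h0 h1).mul ((hasDerivAt_rho h0.le h1).pow n)
  refine h2.congr_deriv ?_
  unfold g'
  simp only [Pi.pow_apply]
  ring

theorem continuousOn_g (n : ℕ) : ContinuousOn (g n) (Icc 0 (π/2)) :=
  continuous_sq.continuousOn.mul (continuousOn_rho.pow n)

/-- `h m = √(2 sin u) ρ^m / (1 + sin u)` -/
def h (m : ℕ) (u : ℝ) : ℝ := sq u * rho u ^ m / (1 + Real.sin u)

/-- its derivative -/
def h' (m : ℕ) (u : ℝ) : ℝ :=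
  amp u * (rho u ^ m * Real.cos u) / (1 + Real.sin u)
    - m * (sq u * rho u ^ (m - 1) / (1 + Real.sin u) ^ 2)
    - sq u * rho u ^ m * Real.cos u / (1 + Real.sin u) ^ 2

theorem hasDerivAt_h (m : ℕ) {u : ℝ} (h0 : 0 < u) (h1 : u ≤ π/2) :
    HasDerivAt (h m) (h' m u) u := by
  have hp := one_add_sin_pos h0.le h1
  have hne : 1 + Real.sin u ≠ 0 := by linarith
  have h2 := (hasDerivAt_g m h0 h1).div ((Real.hasDerivAt_sin u).const_add 1) hne
  refine h2.congr_deriv ?_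
  unfold g' h' g
  field_simp

theorem continuousOn_h (m : ℕ) : ContinuousOn (h m) (Icc 0 (π/2)) := by
  refine (continuousOn_g m).div (by fun_prop) ?_
  intro u hu
  have := one_add_sin_pos hu.1 hu.2
  linarith

theorem measurable_g' (n : ℕ) : Measurable (g' n) := by
  unfold g'
  refine (measurable_amp.mul ((measurable_rho.pow_const n).mul (by fun_prop))).sub ?_
  exact ((measurable_sq.mul (measurable_rho.pow_const _)).div (by fun_prop)).const_mul _

theorem measurable_h' (m : ℕ) : Measurable (h' m) := by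
  unfold h'
  refine (((measurable_amp.mul ((measurable_rho.pow_const m).mul (by fun_prop))).div
    (by fun_prop)).sub ?_).sub ?_
  · exact ((measurable_sq.mul (measurable_rho.pow_const _)).div (by fun_prop)).const_mul _
  · exact ((measurable_sq.mul (measurable_rho.pow_const _)).mul (by fun_prop)).div (by fun_prop)

theorem abs_div_le {x y : ℝ} (hy : 1 ≤ y) : |x / y| ≤ |x| := by
  rw [abs_div, abs_of_pos (by linarith : 0 < y)]
  exact div_le_self (abs_nonneg _) hy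

theorem abs_amp_mul_le (m : ℕ) {u : ℝ} (h0 : 0 < u) (h1 : u ≤ π/2) :
    |amp u * (rho u ^ m * Real.cos u)| ≤ 1 * (u ^ ((1:ℝ)/2 - 1) * rho u ^ m) := by
  have hr := pow_nonneg (rho_nonneg h0.le h1) m
  rw [abs_mul, abs_mul, abs_of_nonneg (amp_nonneg u), abs_of_nonneg hr, one_mul]
  have h2 := amp_le h0 h1
  rw [one_div_sqrt h0] at h2
  have h3 : ((1:ℝ)/2 - 1) = (-(1/2) : ℝ) := by norm_num
  rw [h3]
  have h4 : 0 ≤ u ^ (-(1/2) : ℝ) := Real.rpow_nonneg h0.le _
  calc amp u * (rho u ^ m * |Real.cos u|) ≤ u ^ (-(1/2) : ℝ) * (rho u ^ m * 1) := by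
        gcongr
        exact Real.abs_cos_le_one u
    _ = _ := by ring

theorem abs_sq_mul_le (m : ℕ) {u : ℝ} (h0 : 0 < u) (h1 : u ≤ π/2) :
    |sq u * rho u ^ m| ≤ √2 * (u ^ ((3:ℝ)/2 - 1) * rho u ^ m) := by
  have hr := pow_nonneg (rho_nonneg h0.le h1) m
  rw [abs_mul, abs_of_nonneg (sq_nonneg' u), abs_of_nonneg hr]
  have h2 := sq_le h0.le
  have h3 : ((3:ℝ)/2 - 1) = (1:ℝ)/2 := by norm_num
  rw [h3]
  calc sq u * rho u ^ m ≤ (√2 * u ^ ((1:ℝ)/2)) * rho u ^ m := by gcongr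
    _ = _ := by ring

theorem abs_h'_le (m : ℕ) {u : ℝ} (h0 : 0 < u) (h1 : u ≤ π/2) :
    |h' m u| ≤ 1 * (u ^ ((1:ℝ)/2 - 1) * rho u ^ m)
      + m * (√2 * (u ^ ((3:ℝ)/2 - 1) * rho u ^ (m - 1)))
      + √2 * (u ^ ((3:ℝ)/2 - 1) * rho u ^ m) := by
  have hp := one_add_sin_pos h0.le h1
  have hp2 : 1 ≤ (1 + Real.sin u) ^ 2 := one_le_pow₀ hp
  have a1 : |amp u * (rho u ^ m * Real.cos u) / (1 + Real.sin u)| ≤
      1 * (u ^ ((1:ℝ)/2 - 1) * rho u ^ m) := (abs_div_le hp).trans (abs_amp_mul_le m h0 h1)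
  have a2 : |(m:ℝ) * (sq u * rho u ^ (m - 1) / (1 + Real.sin u) ^ 2)| ≤
      m * (√2 * (u ^ ((3:ℝ)/2 - 1) * rho u ^ (m - 1))) := by
    rw [abs_mul, abs_of_nonneg (Nat.cast_nonneg m)]
    exact mul_le_mul_of_nonneg_left ((abs_div_le hp2).trans (abs_sq_mul_le (m-1) h0 h1))
      (Nat.cast_nonneg m)
  have a3 : |sq u * rho u ^ m * Real.cos u / (1 + Real.sin u) ^ 2| ≤
      √2 * (u ^ ((3:ℝ)/2 - 1) * rho u ^ m) := by
    refine (abs_div_le hp2).trans ?_
    rw [abs_mul]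
    calc |sq u * rho u ^ m| * |Real.cos u| ≤ |sq u * rho u ^ m| * 1 := by
          gcongr
          exact Real.abs_cos_le_one u
      _ ≤ _ := by rw [mul_one]; exact abs_sq_mul_le m h0 h1
  unfold h'
  refine (abs_sub _ _).trans ?_
  refine add_le_add ((abs_sub _ _).trans (add_le_add a1 a2)) a3

theorem rpow_half_le (m : ℕ) {u : ℝ} (h0 : 0 < u) (h1 : u ≤ π/2) :
    u ^ ((3:ℝ)/2 - 1) * rho u ^ m ≤ 2 * (u ^ ((1:ℝ)/2 - 1) * rho u ^ m) := by
  have hr := pow_nonneg (rho_nonneg h0.le h1) m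
  have h2 : u ^ ((3:ℝ)/2 - 1) = u * u ^ ((1:ℝ)/2 - 1) := by
    rw [show ((3:ℝ)/2 - 1) = 1 + ((1:ℝ)/2 - 1) by norm_num, Real.rpow_add h0, Real.rpow_one]
  have h3 : 0 ≤ u ^ ((1:ℝ)/2 - 1) := Real.rpow_nonneg h0.le _
  have h4 : u ≤ 2 := by linarith [Real.pi_le_four]
  rw [h2]
  calc u * u ^ ((1:ℝ)/2 - 1) * rho u ^ m ≤ 2 * u ^ ((1:ℝ)/2 - 1) * rho u ^ m := by gcongr
    _ = _ := by ring

theorem u_pow_le {u : ℝ} (h0 : 0 < u) (h1 : u ≤ π/2) (n : ℕ) :
    u ^ ((1:ℝ)/2 - 1) * rho u ^ n ≤ u ^ (-(1/2) : ℝ) := by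
  have h2 := rho_pow_le n h0.le h1
  rw [abs_of_nonneg (pow_nonneg (rho_nonneg h0.le h1) n)] at h2
  rw [show ((1:ℝ)/2 - 1) = -(1/2) by norm_num]
  have h3 : 0 ≤ u ^ (-(1/2) : ℝ) := Real.rpow_nonneg h0.le _
  calc u ^ (-(1/2) : ℝ) * rho u ^ n ≤ u ^ (-(1/2) : ℝ) * 1 := by gcongr
    _ = _ := mul_one _

theorem ii_h' (m : ℕ) : IntervalIntegrable (h' m) volume 0 (π/2) := by
  refine ii_of_le (C := 1 + m * (√2 * 2) + √2 * 2) (measurable_h' m) ?_
  intro u h0 h1
  refine (abs_h'_le m h0 h1).trans ?_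
  have e1 := u_pow_le h0 h1 m
  have e2 := (rpow_half_le (m-1) h0 h1).trans
    (mul_le_mul_of_nonneg_left (u_pow_le h0 h1 (m-1)) (by norm_num))
  have e3 := (rpow_half_le m h0 h1).trans
    (mul_le_mul_of_nonneg_left (u_pow_le h0 h1 m) (by norm_num))
  have hs : 0 ≤ √2 := Real.sqrt_nonneg 2
  have hm : (0:ℝ) ≤ m := Nat.cast_nonneg m
  calc _ ≤ 1 * u ^ (-(1/2) : ℝ) + m * (√2 * (2 * u ^ (-(1/2) : ℝ))) +
        √2 * (2 * u ^ (-(1/2) : ℝ)) := by gcongr
    _ = _ := by ring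

theorem abs_g'_le (n : ℕ) {u : ℝ} (h0 : 0 < u) (h1 : u ≤ π/2) :
    |g' n u| ≤ 1 * (u ^ ((1:ℝ)/2 - 1) * rho u ^ n)
      + n * (√2 * (u ^ ((3:ℝ)/2 - 1) * rho u ^ (n - 1))) := by
  have hp := one_add_sin_pos h0.le h1
  have a2 : |(n:ℝ) * (sq u * rho u ^ (n - 1) / (1 + Real.sin u))| ≤
      n * (√2 * (u ^ ((3:ℝ)/2 - 1) * rho u ^ (n - 1))) := by
    rw [abs_mul, abs_of_nonneg (Nat.cast_nonneg n)]
    exact mul_le_mul_of_nonneg_left ((abs_div_le hp).trans (abs_sq_mul_le (n-1) h0 h1))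
      (Nat.cast_nonneg n)
  unfold g'
  exact (abs_sub _ _).trans (add_le_add (abs_amp_mul_le n h0 h1) a2)

theorem ii_g' (n : ℕ) : IntervalIntegrable (g' n) volume 0 (π/2) := by
  refine ii_of_le (C := 1 + n * (√2 * 2)) (measurable_g' n) ?_
  intro u h0 h1
  refine (abs_g'_le n h0 h1).trans ?_
  have e1 := u_pow_le h0 h1 n
  have e2 := (rpow_half_le (n-1) h0 h1).trans
    (mul_le_mul_of_nonneg_left (u_pow_le h0 h1 (n-1)) (by norm_num))
  have hs : 0 ≤ √2 := Real.sqrt_nonneg 2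
  have hm : (0:ℝ) ≤ n := Nat.cast_nonneg n
  calc _ ≤ 1 * u ^ (-(1/2) : ℝ) + n * (√2 * (2 * u ^ (-(1/2) : ℝ))) := by gcongr
    _ = _ := by ring

/-! ### integration by parts -/

/-- `κ = k - 1/2` -/
def kap (k : ℤ) : ℝ := (k:ℝ) - 1/2

theorem kap_ge (k : ℤ) : (|(k:ℝ)| + 1) / 4 ≤ |kap k| := by
  unfold kap
  rcases le_or_gt k 0 with h | h
  · have h' : (k:ℝ) ≤ 0 := by exact_mod_cast h
    rw [abs_of_nonpos h', abs_of_nonpos (by linarith)]
    linarith
  · have h' : (1:ℝ) ≤ k := by exact_mod_cast h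
    rw [abs_of_nonneg (by linarith), abs_of_nonneg (by linarith)]
    linarith

theorem kap_ne (k : ℤ) : kap k ≠ 0 := by
  intro hc
  have h1 := kap_ge k
  rw [hc, abs_zero] at h1
  have := abs_nonneg (k:ℝ)
  linarith

theorem diff_eq (k : ℤ) (n : ℕ) : P k n - P (k - 2) n =
    -(2/π) * ∫ u in (0:ℝ)..(π/2), g n u * Real.sin (kap k * u - π/4) := by
  unfold P
  rw [← mul_sub, ← intervalIntegral.integral_sub (ii_P k n) (ii_P (k-2) n), neg_mul, ← mul_neg,
    ← intervalIntegral.integral_neg]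
  congr 1
  refine intervalIntegral.integral_congr_ae ?_
  refine Filter.Eventually.of_forall fun u hu => ?_
  rw [uIoc_of_le (by positivity)] at hu
  have h1 : ph k u - ph (k-2) u = -(2 * Real.sin u) * Real.sin (kap k * u - π/4) := by
    unfold ph kap
    have e1 : ((k:ℝ) + 1/2) * u - π/4 = (((k:ℝ) - 1/2) * u - π/4) + u := by ring
    have e2 : (((k - 2 : ℤ):ℝ) + 1/2) * u - π/4 = (((k:ℝ) - 1/2) * u - π/4) - u := by
      push_cast; ring
    rw [e1, e2]
    generalize ((k:ℝ) - 1/2) * u - π/4 = θ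
    rw [Real.cos_add, Real.cos_sub]; ring
  have h2 := amp_mul hu.1 hu.2
  calc amp u * (rho u ^ n * ph k u) - amp u * (rho u ^ n * ph (k - 2) u)
      = amp u * rho u ^ n * (ph k u - ph (k-2) u) := by ring
    _ = -((amp u * (2 * Real.sin u)) * rho u ^ n * Real.sin (kap k * u - π/4)) := by rw [h1]; ring
    _ = _ := by rw [h2]; rfl

theorem cos_mul_cos (k : ℤ) (u : ℝ) :
    Real.cos u * Real.cos (kap k * u - π/4) = (ph k u + ph (k-2) u) / 2 := by
  unfold ph kap
  have e1 : ((k:ℝ) + 1/2) * u - π/4 = (((k:ℝ) - 1/2) * u - π/4) + u := by ring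
  have e2 : (((k - 2 : ℤ):ℝ) + 1/2) * u - π/4 = (((k:ℝ) - 1/2) * u - π/4) - u := by
    push_cast; ring
  rw [e1, e2]
  generalize ((k:ℝ) - 1/2) * u - π/4 = θ
  rw [Real.cos_add, Real.cos_sub]; ring

theorem rho_end : rho (π/2) = 0 := by unfold rho; simp

/-- first integration by parts -/
theorem parts1 (k : ℤ) (n : ℕ) (hkn : Even (k + n)) :
    ∫ u in (0:ℝ)..(π/2), g n u * Real.sin (kap k * u - π/4) =
      (1 / kap k) * ∫ u in (0:ℝ)..(π/2), g' n u * Real.cos (kap k * u - π/4) := by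
  have hk := kap_ne k
  have hpi : (0:ℝ) < π/2 := by positivity
  have hv : ∀ u : ℝ, HasDerivAt (fun u => -(1 / kap k) * Real.cos (kap k * u - π/4))
      (Real.sin (kap k * u - π/4)) u := by
    intro u
    have h1 : HasDerivAt (fun u => kap k * u - π/4) (kap k) u := by
      simpa using ((hasDerivAt_id u).const_mul (kap k)).sub_const (π/4)
    have h2 := (h1.cos).const_mul (-(1 / kap k))
    refine h2.congr_deriv ?_
    field_simp
  have h := integral_mul_deriv_eq_deriv_mul_of_hasDeriv_right (a := 0) (b := π/2)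
    (u := g n) (u' := g' n) (v := fun u => -(1 / kap k) * Real.cos (kap k * u - π/4))
    (v' := fun u => Real.sin (kap k * u - π/4))
    (by rw [uIcc_of_le hpi.le]; exact continuousOn_g n) (by fun_prop)
    (by
      intro u hu
      rw [min_eq_left hpi.le, max_eq_right hpi.le] at hu
      exact (hasDerivAt_g n hu.1 hu.2.le).hasDerivWithinAt)
    (fun u _ => (hv u).hasDerivWithinAt) (ii_g' n)
    (Continuous.intervalIntegrable (by fun_prop) _ _)
  rw [h]
  have e0 : g n 0 = 0 := by unfold g sq; simp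
  have e1 : g n (π/2) * (-(1 / kap k) * Real.cos (kap k * (π/2) - π/4)) = 0 := by
    rcases Nat.eq_zero_or_pos n with hn | hn
    · subst hn
      obtain ⟨m, hm⟩ := hkn
      have hk2 : (k:ℝ) = 2 * m := by
        have : k = 2 * m := by simp at hm; omega
        rw [this]; push_cast; ring
      have : Real.cos (kap k * (π/2) - π/4) = 0 := by
        rw [Real.cos_eq_zero_iff]
        refine ⟨m - 1, ?_⟩
        unfold kap
        rw [hk2]; push_cast; ring
      rw [this]; ring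
    · unfold g
      rw [rho_end, zero_pow hn.ne']; ring
  rw [e1, e0, zero_mul, sub_zero, zero_sub]
  have h2 : ∀ u, g' n u * (-(1 / kap k) * Real.cos (kap k * u - π/4)) =
      -((1 / kap k) * (g' n u * Real.cos (kap k * u - π/4))) := fun u => by ring
  simp_rw [h2]
  rw [intervalIntegral.integral_neg, neg_neg, intervalIntegral.integral_const_mul]

/-- the derivative integral splits -/
theorem g'_split (k : ℤ) (n : ℕ) :
    ∫ u in (0:ℝ)..(π/2), g' n u * Real.cos (kap k * u - π/4) =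
      (π/4) * (P k n + P (k-2) n) -
      n * ∫ u in (0:ℝ)..(π/2), h (n-1) u * Real.cos (kap k * u - π/4) := by
  have e1 : ∀ u, g' n u * Real.cos (kap k * u - π/4) =
      (1/2) * (amp u * (rho u ^ n * ph k u) + amp u * (rho u ^ n * ph (k-2) u)) -
      n * (h (n-1) u * Real.cos (kap k * u - π/4)) := by
    intro u
    have h1 := cos_mul_cos k u
    unfold g' h
    linear_combination (amp u * rho u ^ n) * h1
  have ih : IntervalIntegrable (fun u => h (n-1) u * Real.cos (kap k * u - π/4)) volume 0 (π/2) := by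
    apply ContinuousOn.intervalIntegrable
    rw [uIcc_of_le (by positivity)]
    exact (continuousOn_h (n-1)).mul (by fun_prop)
  simp_rw [e1]
  rw [intervalIntegral.integral_sub
    (((ii_P k n).add (ii_P (k-2) n)).const_mul (1/2)) (ih.const_mul n),
    intervalIntegral.integral_const_mul, intervalIntegral.integral_const_mul,
    intervalIntegral.integral_add (ii_P k n) (ii_P (k-2) n)]
  unfold P
  have hpi := Real.pi_pos
  field_simp
  ring

/-- second integration by parts, with absolute values -/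
theorem parts2 (k : ℤ) (m : ℕ) :
    |∫ u in (0:ℝ)..(π/2), h m u * Real.cos (kap k * u - π/4)| ≤
      (1 / |kap k|) * (|h m (π/2)| + ∫ u in (0:ℝ)..(π/2), |h' m u|) := by
  have hk := kap_ne k
  have hpi : (0:ℝ) < π/2 := by positivity
  have hv : ∀ u : ℝ, HasDerivAt (fun u => (1 / kap k) * Real.sin (kap k * u - π/4))
      (Real.cos (kap k * u - π/4)) u := by
    intro u
    have h1 : HasDerivAt (fun u => kap k * u - π/4) (kap k) u := by
      simpa using ((hasDerivAt_id u).const_mul (kap k)).sub_const (π/4)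
    have h2 := (h1.sin).const_mul (1 / kap k)
    refine h2.congr_deriv ?_
    field_simp
  have hh := integral_mul_deriv_eq_deriv_mul_of_hasDeriv_right (a := 0) (b := π/2)
    (u := h m) (u' := h' m) (v := fun u => (1 / kap k) * Real.sin (kap k * u - π/4))
    (v' := fun u => Real.cos (kap k * u - π/4))
    (by rw [uIcc_of_le hpi.le]; exact continuousOn_h m) (by fun_prop)
    (by
      intro u hu
      rw [min_eq_left hpi.le, max_eq_right hpi.le] at hu
      exact (hasDerivAt_h m hu.1 hu.2.le).hasDerivWithinAt)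
    (fun u _ => (hv u).hasDerivWithinAt) (ii_h' m)
    (Continuous.intervalIntegrable (by fun_prop) _ _)
  rw [hh]
  have e0 : h m 0 = 0 := by unfold h sq; simp
  rw [e0, zero_mul, sub_zero]
  have hk' : 0 < |kap k| := abs_pos.2 hk
  refine (abs_sub _ _).trans ?_
  rw [mul_add]
  refine add_le_add ?_ ?_
  · rw [abs_mul, abs_mul, abs_div, abs_one]
    have := Real.abs_sin_le_one (kap k * (π/2) - π/4)
    calc |h m (π/2)| * (1 / |kap k| * |Real.sin (kap k * (π/2) - π/4)|)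
        ≤ |h m (π/2)| * (1 / |kap k| * 1) := by gcongr
      _ = _ := by ring
  · have h3 : |∫ u in (0:ℝ)..(π/2), h' m u * ((1 / kap k) * Real.sin (kap k * u - π/4))| ≤
        ∫ u in (0:ℝ)..(π/2), (1 / |kap k|) * |h' m u| := by
      rw [← Real.norm_eq_abs]
      refine intervalIntegral.norm_integral_le_of_norm_le hpi.le ?_ ?_
      · refine Filter.Eventually.of_forall fun u _ => ?_
        rw [Real.norm_eq_abs, abs_mul, abs_mul, abs_div, abs_one]
        have := Real.abs_sin_le_one (kap k * u - π/4)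
        calc |h' m u| * (1 / |kap k| * |Real.sin (kap k * u - π/4)|)
            ≤ |h' m u| * (1 / |kap k| * 1) := by gcongr
          _ = _ := by ring
      · exact (ii_h' m).abs.const_mul _
    rw [intervalIntegral.integral_const_mul] at h3
    exact h3

/-- `|h m (π/2)| ≤ 1` and `0` for `m ≥ 1` -/
theorem h_end (m : ℕ) : |h m (π/2)| ≤ 2 / √((m:ℝ) + 1) := by
  unfold h sq
  rw [rho_end, Real.sin_pi_div_two]
  rcases Nat.eq_zero_or_pos m with hm | hm
  · subst hm
    have : √(2:ℝ) ≤ 2 := by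
      rw [Real.sqrt_le_left (by norm_num)]; norm_num
    have h0 : 0 ≤ √(2:ℝ) := Real.sqrt_nonneg _
    norm_num
    rw [abs_of_nonneg (by positivity)]
    linarith
  · rw [zero_pow hm.ne', mul_zero, zero_div, abs_zero]
    positivity

theorem int_h'_le : ∃ C : ℝ, 0 ≤ C ∧ ∀ m : ℕ,
    ∫ u in (0:ℝ)..(π/2), |h' m u| ≤ C / √((m:ℝ) + 1) := by
  have K1 := K_nonneg (s := 1/2) (by norm_num)
  have K3 := K_nonneg (s := 3/2) (by norm_num)
  have hs2 : 0 ≤ √(2:ℝ) := Real.sqrt_nonneg _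
  refine ⟨K (1/2) + 4 * (√2 * K (3/2)) + √2 * K (3/2), by positivity, fun m => ?_⟩
  -- three moments
  have b1 := abs_int_le (f := fun u => u ^ ((1:ℝ)/2 - 1) * rho u ^ m) (C := 1) (s := 1/2) m
    zero_le_one (by norm_num) (fun u h0 h1 => by
      have h2 := pow_nonneg (rho_nonneg h0.le h1) m
      have h3 := Real.rpow_nonneg h0.le ((1:ℝ)/2 - 1)
      rw [abs_of_nonneg (mul_nonneg h3 h2), one_mul])
  have b2 : ∀ m : ℕ, |∫ u in (0:ℝ)..(π/2), √2 * (u ^ ((3:ℝ)/2 - 1) * rho u ^ m)| ≤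
      √2 * K (3/2) / ((m:ℝ) + 1) ^ ((3:ℝ)/2) := fun m =>
    abs_int_le (f := fun u => √2 * (u ^ ((3:ℝ)/2 - 1) * rho u ^ m)) (C := √2) (s := 3/2) m
      hs2 (by norm_num) (fun u h0 h1 => by
        have h2 := pow_nonneg (rho_nonneg h0.le h1) m
        have h3 := Real.rpow_nonneg h0.le ((3:ℝ)/2 - 1)
        rw [abs_of_nonneg (mul_nonneg hs2 (mul_nonneg h3 h2))])
  have i1 : ∀ m : ℕ, IntervalIntegrable (fun u => u ^ ((1:ℝ)/2 - 1) * rho u ^ m) volume 0 (π/2) := by
    intro m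
    refine ii_of_le (C := 1) ((by fun_prop : Measurable fun u : ℝ => u ^ ((1:ℝ)/2 - 1)).mul
      (measurable_rho.pow_const m)) ?_
    intro u h0 h1
    have h2 := pow_nonneg (rho_nonneg h0.le h1) m
    have h3 := Real.rpow_nonneg h0.le ((1:ℝ)/2 - 1)
    rw [abs_of_nonneg (mul_nonneg h3 h2), one_mul]
    exact u_pow_le h0 h1 m
  have i2 : ∀ m : ℕ, IntervalIntegrable (fun u => √2 * (u ^ ((3:ℝ)/2 - 1) * rho u ^ m))
      volume 0 (π/2) := by
    intro m
    refine ii_of_le (C := √2 * 2) (((by fun_prop : Measurable fun u : ℝ => u ^ ((3:ℝ)/2 - 1)).mul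
      (measurable_rho.pow_const m)).const_mul _) ?_
    intro u h0 h1
    have h2 := pow_nonneg (rho_nonneg h0.le h1) m
    have h3 := Real.rpow_nonneg h0.le ((3:ℝ)/2 - 1)
    rw [abs_of_nonneg (mul_nonneg hs2 (mul_nonneg h3 h2)), mul_assoc]
    refine mul_le_mul_of_nonneg_left ?_ hs2
    exact (rpow_half_le m h0 h1).trans
      (mul_le_mul_of_nonneg_left (u_pow_le h0 h1 m) (by norm_num))
  have h1 : ∫ u in (0:ℝ)..(π/2), |h' m u| ≤
      ∫ u in (0:ℝ)..(π/2), (u ^ ((1:ℝ)/2 - 1) * rho u ^ m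
      + m * (√2 * (u ^ ((3:ℝ)/2 - 1) * rho u ^ (m - 1)))
      + √2 * (u ^ ((3:ℝ)/2 - 1) * rho u ^ m)) := by
    have hpi : (0:ℝ) ≤ π/2 := by positivity
    refine intervalIntegral.integral_mono_on_of_le_Ioo hpi (ii_h' m).abs
      (((i1 m).add ((i2 (m-1)).const_mul m)).add (i2 m)) ?_
    intro u hu
    have := abs_h'_le m hu.1 hu.2.le
    rw [one_mul] at this
    exact this
  rw [intervalIntegral.integral_add ((i1 m).add ((i2 (m-1)).const_mul m)) (i2 m),
    intervalIntegral.integral_add (i1 m) ((i2 (m-1)).const_mul m),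
    intervalIntegral.integral_const_mul (m:ℝ)] at h1
  have c1 := (le_abs_self _).trans b1
  have c2 := (le_abs_self _).trans (b2 (m-1))
  have c3 := (le_abs_self _).trans (b2 m)
  have hm1 : (1:ℝ) ≤ (m:ℝ) + 1 := by
    have : (0:ℝ) ≤ m := Nat.cast_nonneg m
    linarith
  have hsq : ((m:ℝ) + 1) ^ ((1:ℝ)/2) = √((m:ℝ) + 1) := (Real.sqrt_eq_rpow _).symm
  have h32 : ((m:ℝ) + 1) ^ ((3:ℝ)/2) = ((m:ℝ) + 1) * √((m:ℝ) + 1) := by
    rw [show (3:ℝ)/2 = 1 + 1/2 by norm_num, Real.rpow_add (by linarith), Real.rpow_one, hsq]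
  have hspos : 0 < √((m:ℝ) + 1) := Real.sqrt_pos.2 (by linarith)
  rw [hsq, one_mul] at c1
  have d3 : √2 * K (3/2) / ((m:ℝ) + 1) ^ ((3:ℝ)/2) ≤ √2 * K (3/2) / √((m:ℝ) + 1) := by
    rw [h32]
    apply div_le_div_of_nonneg_left (by positivity) hspos
    nlinarith
  have d2 : (m:ℝ) * (√2 * K (3/2) / (((m-1 : ℕ):ℝ) + 1) ^ ((3:ℝ)/2)) ≤
      4 * (√2 * K (3/2)) / √((m:ℝ) + 1) := by
    rcases Nat.eq_zero_or_pos m with hm | hm
    · subst hm
      simp only [Nat.cast_zero, zero_mul]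
      positivity
    · have e1 : (((m-1 : ℕ):ℝ) + 1) = m := by
        rw [Nat.cast_sub hm]; push_cast; ring
      rw [e1]
      have hm0 : (1:ℝ) ≤ m := by exact_mod_cast hm
      have e2 : (m:ℝ) ^ ((3:ℝ)/2) = m * √m := by
        rw [show (3:ℝ)/2 = 1 + 1/2 by norm_num, Real.rpow_add (by linarith), Real.rpow_one,
          ← Real.sqrt_eq_rpow]
      rw [e2]
      have hsm : 0 < √(m:ℝ) := Real.sqrt_pos.2 (by linarith)
      have e3 : (m:ℝ) * (√2 * K (3/2) / (m * √m)) = √2 * K (3/2) / √m := by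
        field_simp
      rw [e3]
      have e4 : √((m:ℝ) + 1) ≤ 4 * √m := by
        rw [Real.sqrt_le_left (by positivity), mul_pow, Real.sq_sqrt (by linarith)]
        linarith
      rw [div_le_div_iff₀ hsm hspos]
      have : 0 ≤ √2 * K (3/2) := by positivity
      nlinarith
  have c2' := mul_le_mul_of_nonneg_left c2 (Nat.cast_nonneg (α := ℝ) m)
  calc _ ≤ _ := h1
    _ ≤ K (1/2) / √((m:ℝ) + 1) + 4 * (√2 * K (3/2)) / √((m:ℝ) + 1) +
        √2 * K (3/2) / √((m:ℝ) + 1) :=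
        add_le_add (add_le_add c1 (c2'.trans d2)) (c3.trans d3)
    _ = _ := by ring

theorem two_rpow : (2:ℝ) ^ ((3:ℝ)/2) ≤ 3 := by
  have h1 : (2:ℝ) ^ ((3:ℝ)/2) = 2 * √2 := by
    rw [show (3:ℝ)/2 = 1 + 1/2 by norm_num, Real.rpow_add (by norm_num), Real.rpow_one,
      ← Real.sqrt_eq_rpow]
  rw [h1]
  have h2 : √(2:ℝ) ≤ 3/2 := by
    rw [Real.sqrt_le_left (by norm_num)]; norm_num
  linarith

theorem inv_rpow_le {x S : ℝ} (hx : 0 < x) (hS : 0 < S) (h : S ≤ 2 * x) :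
    1 / x ^ ((3:ℝ)/2) ≤ 3 / S ^ ((3:ℝ)/2) := by
  have h1 : S ^ ((3:ℝ)/2) ≤ 3 * x ^ ((3:ℝ)/2) := by
    calc S ^ ((3:ℝ)/2) ≤ (2 * x) ^ ((3:ℝ)/2) := Real.rpow_le_rpow hS.le h (by norm_num)
      _ = 2 ^ ((3:ℝ)/2) * x ^ ((3:ℝ)/2) := Real.mul_rpow (by norm_num) hx.le
      _ ≤ 3 * x ^ ((3:ℝ)/2) := by
          have := Real.rpow_nonneg hx.le ((3:ℝ)/2)
          exact mul_le_mul_of_nonneg_right two_rpow this
  have h2 : 0 < x ^ ((3:ℝ)/2) := Real.rpow_pos_of_pos hx _
  have h3 : 0 < S ^ ((3:ℝ)/2) := Real.rpow_pos_of_pos hS _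
  rw [div_le_div_iff₀ h2 h3]
  linarith

set_option maxHeartbeats 1000000 in
/-- **(BrB2)** from (BrB1) -/
theorem BrB2_of (hB1 : ∃ C : ℝ, ∀ (k : ℤ) (n : ℕ), |P k n| ≤ C / √(|(k:ℝ)| + n + 1)) :
    ∃ C : ℝ, 0 ≤ C ∧ ∀ (k : ℤ) (n : ℕ), Even (k + n) →
      |P k n - P (k - 2) n| ≤ C / ((|(k:ℝ)| + n + 1) ^ ((3:ℝ)/2)) := by
  obtain ⟨C1, hC1⟩ := hB1
  obtain ⟨C2, hC2, hh⟩ := int_h'_le
  have hC10 : 0 ≤ C1 := by
    have h1 := hC1 0 0
    have h2 : √(|((0:ℤ):ℝ)| + ((0:ℕ):ℝ) + 1) = 1 := by simp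
    rw [h2, div_one] at h1
    exact (abs_nonneg _).trans h1
  have hK3 := K_nonneg (s := 3/2) (by norm_num)
  have hs2 : 0 ≤ √(2:ℝ) := Real.sqrt_nonneg _
  have hpi := Real.pi_pos
  set CA : ℝ := (2/π) * (√2 * K (3/2)) with hCA
  set CB : ℝ := (2/π) * 4 * ((π/4) * (3 * C1) + 4 * (2 + C2)) with hCB
  have hCA0 : 0 ≤ CA := by positivity
  have hCB0 : 0 ≤ CB := by positivity
  refine ⟨(CA + CB) * 3, by positivity, fun k n hkn => ?_⟩
  have hkabs : 0 ≤ |(k:ℝ)| := abs_nonneg _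
  have hn0 : (0:ℝ) ≤ n := Nat.cast_nonneg n
  set S : ℝ := |(k:ℝ)| + n + 1 with hS
  have hS0 : 0 < S := by positivity
  -- reduction to a bound with `x ≥ S / 2`
  suffices hsuf : ∃ x : ℝ, 0 < x ∧ S ≤ 2 * x ∧ |P k n - P (k-2) n| ≤ (CA + CB) * (1 / x ^ ((3:ℝ)/2)) by
    obtain ⟨x, hx, hSx, hb⟩ := hsuf
    refine hb.trans ?_
    rw [mul_div_assoc]
    exact mul_le_mul_of_nonneg_left (inv_rpow_le hx hS0 hSx) (by positivity)
  rw [diff_eq]
  have h2pi : 0 < 2/π := by positivity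
  rcases le_or_gt |(k:ℝ)| (n:ℝ) with hcase | hcase
  · refine ⟨(n:ℝ) + 1, by positivity, by rw [hS]; linarith, ?_⟩
    have h1 := abs_int_le (f := fun u => g n u * Real.sin (kap k * u - π/4)) (C := √2) (s := 3/2) n
      hs2 (by norm_num) (fun u h0 h1 => by
        rw [abs_mul]
        have h2 := abs_sq_mul_le n h0 h1
        have h3 := Real.abs_sin_le_one (kap k * u - π/4)
        calc |g n u| * |Real.sin (kap k * u - π/4)| ≤ |g n u| * 1 := by gcongr
          _ = |sq u * rho u ^ n| := by rw [mul_one]; rfl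
          _ ≤ _ := h2)
    rw [neg_mul, abs_neg, abs_mul, abs_of_pos h2pi]
    calc (2/π) * |∫ u in (0:ℝ)..(π/2), g n u * Real.sin (kap k * u - π/4)|
        ≤ (2/π) * (√2 * K (3/2) / ((n:ℝ) + 1) ^ ((3:ℝ)/2)) :=
          mul_le_mul_of_nonneg_left h1 h2pi.le
      _ = CA * (1 / ((n:ℝ) + 1) ^ ((3:ℝ)/2)) := by rw [hCA]; ring
      _ ≤ (CA + CB) * (1 / ((n:ℝ) + 1) ^ ((3:ℝ)/2)) := by
          apply mul_le_mul_of_nonneg_right (by linarith)
          have := Real.rpow_nonneg (by positivity : (0:ℝ) ≤ (n:ℝ) + 1) ((3:ℝ)/2)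
          positivity
  · set q : ℝ := |(k:ℝ)| + 1 with hq
    have hq0 : 0 < q := by positivity
    refine ⟨q, hq0, by rw [hS, hq]; linarith, ?_⟩
    have hκ := kap_ge k
    have hκ0 : 0 < |kap k| := abs_pos.2 (kap_ne k)
    have hκ' : 1 / |kap k| ≤ 4 / q := by
      rw [div_le_div_iff₀ hκ0 hq0]; linarith
    have hsq : 0 < √q := Real.sqrt_pos.2 hq0
    have hsqq : √q * √q = q := Real.mul_self_sqrt hq0.le
    -- P k n
    have p1 : |P k n| ≤ C1 / √q := by
      refine (hC1 k n).trans ?_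
      apply div_le_div_of_nonneg_left hC10 hsq
      apply Real.sqrt_le_sqrt
      rw [hq]; linarith
    have p2 : |P (k-2) n| ≤ 2 * C1 / √q := by
      refine (hC1 (k-2) n).trans ?_
      have hS' : q / 4 ≤ |((k-2 : ℤ):ℝ)| + n + 1 := by
        push_cast
        have t1 : |(k:ℝ)| ≤ |(k:ℝ) - 2| + 2 := by
          have := abs_add_le ((k:ℝ) - 2) 2
          rw [sub_add_cancel] at this
          simpa using this
        have t2 := abs_nonneg ((k:ℝ) - 2)
        rw [hq]; linarith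
      have hpos : 0 < |((k-2 : ℤ):ℝ)| + n + 1 := by positivity
      have h3 : √q / 2 ≤ √(|((k-2 : ℤ):ℝ)| + n + 1) := by
        have h4 : √(q/4) = √q / 2 := by
          rw [Real.sqrt_div hq0.le, show (4:ℝ) = 2^2 by norm_num, Real.sqrt_sq (by norm_num)]
        rw [← h4]
        exact Real.sqrt_le_sqrt hS'
      rw [div_le_div_iff₀ (Real.sqrt_pos.2 hpos) hsq]
      nlinarith
    -- the second term
    have p3 : (n:ℝ) * |∫ u in (0:ℝ)..(π/2), h (n-1) u * Real.cos (kap k * u - π/4)| ≤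
        4 * (2 + C2) / √q := by
      rcases Nat.eq_zero_or_pos n with hn | hn
      · subst hn
        rw [Nat.cast_zero, zero_mul]
        positivity
      · have h3 := parts2 k (n-1)
        have h4 := h_end (n-1)
        have h5 := hh (n-1)
        have e1 : (((n-1 : ℕ):ℝ) + 1) = n := by
          rw [Nat.cast_sub hn]; push_cast; ring
        rw [e1] at h4 h5
        have hn1 : (1:ℝ) ≤ n := by exact_mod_cast hn
        have hsn : 0 < √(n:ℝ) := Real.sqrt_pos.2 (by linarith)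
        have hsnn : √(n:ℝ) * √(n:ℝ) = n := Real.mul_self_sqrt (by linarith)
        have h6 : √(n:ℝ) ≤ √q := Real.sqrt_le_sqrt (by rw [hq]; linarith)
        calc (n:ℝ) * |∫ u in (0:ℝ)..(π/2), h (n-1) u * Real.cos (kap k * u - π/4)|
            ≤ n * ((4 / q) * (2 / √n + C2 / √n)) := by
              refine mul_le_mul_of_nonneg_left (h3.trans ?_) hn0
              apply mul_le_mul hκ' (add_le_add h4 h5)
              · have : 0 ≤ ∫ u in (0:ℝ)..(π/2), |h' (n-1) u| :=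
                  intervalIntegral.integral_nonneg (by positivity) (fun _ _ => abs_nonneg _)
                positivity
              · positivity
          _ = 4 * (2 + C2) * (√n / q) := by
              have : (n:ℝ) = √n * √n := hsnn.symm
              field_simp
              nlinarith
          _ ≤ 4 * (2 + C2) * (1 / √q) := by
              apply mul_le_mul_of_nonneg_left _ (by positivity)
              rw [div_le_div_iff₀ hq0 hsq, one_mul]
              nlinarith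
          _ = 4 * (2 + C2) / √q := by ring
    have h32 : q ^ ((3:ℝ)/2) = q * √q := by
      rw [show (3:ℝ)/2 = 1 + 1/2 by norm_num, Real.rpow_add hq0, Real.rpow_one,
        ← Real.sqrt_eq_rpow]
    rw [parts1 k n hkn, g'_split]
    rw [neg_mul, abs_neg, abs_mul, abs_of_pos h2pi, abs_mul, abs_div, abs_one]
    have p4 : |(π/4) * (P k n + P (k-2) n) -
        n * ∫ u in (0:ℝ)..(π/2), h (n-1) u * Real.cos (kap k * u - π/4)| ≤
        ((π/4) * (3 * C1) + 4 * (2 + C2)) / √q := by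
      refine (abs_sub _ _).trans ?_
      rw [abs_mul, abs_mul, abs_of_pos (by positivity : 0 < π/4), abs_of_nonneg hn0]
      have t1 := abs_add_le (P k n) (P (k-2) n)
      have t2 : |P k n + P (k-2) n| ≤ 3 * C1 / √q := by
        calc _ ≤ C1 / √q + 2 * C1 / √q := t1.trans (add_le_add p1 p2)
          _ = _ := by ring
      calc _ ≤ (π/4) * (3 * C1 / √q) + 4 * (2 + C2) / √q :=
            add_le_add (mul_le_mul_of_nonneg_left t2 (by positivity)) p3
        _ = _ := by ring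
    calc (2/π) * ((1 / |kap k|) * |(π/4) * (P k n + P (k-2) n) -
        n * ∫ u in (0:ℝ)..(π/2), h (n-1) u * Real.cos (kap k * u - π/4)|)
        ≤ (2/π) * ((4 / q) * (((π/4) * (3 * C1) + 4 * (2 + C2)) / √q)) := by
          apply mul_le_mul_of_nonneg_left _ h2pi.le
          exact mul_le_mul hκ' p4 (abs_nonneg _) (div_nonneg (by norm_num) hq0.le)
      _ = CB * (1 / q ^ ((3:ℝ)/2)) := by
          rw [h32, hCB]
          field_simp
      _ ≤ (CA + CB) * (1 / q ^ ((3:ℝ)/2)) := by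
          apply mul_le_mul_of_nonneg_right (by linarith)
          rw [h32]; positivity

end Crest.Agent.R165.BrBx304
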