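import Mathlib
import Crest.Agent.R165.Br6_644
import Crest.Agent.R165.BrB2_304

/-!
Row 165 (S0250), block U4 (helper644): decay of the explicit fields,
`|PsiS (f, d)|, |Psi0 (f, d)| ≤ C (|x| + |y| + 1)^{-1/2}`, `|PsiN (f, d)| ≤ C (|x| + |y| + 1)^{-3/2}`.
-/

set_option autoImplicit false

noncomputable section

namespace Crest.Agent.R165.Br5x644

open Real
open Crest.Agent.R165.Br0x644 (P P_bound)
open Crest.Agent.R165.Br1x644 (Pz Pz_symm fieldOf sA sB sC PsiS PsiN Psi0 Pz_neg Pz_zero)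

/-- size of a face -/
def sz (x y : ℤ) : ℝ := |(x:ℝ)| + |(y:ℝ)| + 1

theorem sz_pos (x y : ℤ) : 0 < sz x y := by unfold sz; positivity

theorem one_le_sz (x y : ℤ) : 1 ≤ sz x y := by
  unfold sz
  have := abs_nonneg (x:ℝ)
  have := abs_nonneg (y:ℝ)
  linarith

theorem sz_neg (x y : ℤ) : sz (-x) (-y) = sz x y := by
  unfold sz; push_cast; rw [abs_neg, abs_neg]

theorem sz_shift (x y c : ℤ) (hc : |c| ≤ 1) : sz x y ≤ 2 * sz (x + c) y := by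
  have h1 : |(x:ℝ)| ≤ |((x + c : ℤ) : ℝ)| + 1 := by
    have : (x:ℝ) = ((x + c : ℤ) : ℝ) - (c:ℝ) := by push_cast; ring
    have h2 : |(c:ℝ)| ≤ 1 := by exact_mod_cast hc
    calc |(x:ℝ)| = |((x + c : ℤ) : ℝ) - (c:ℝ)| := by rw [← this]
      _ ≤ |((x + c : ℤ) : ℝ)| + |(c:ℝ)| := abs_sub _ _
      _ ≤ _ := by linarith
  unfold sz
  have := abs_nonneg ((x + c : ℤ) : ℝ)
  have := abs_nonneg (y:ℝ)
  linarith

theorem sz_shift2 (x y c : ℤ) (hc : |c| ≤ 1) : sz x y ≤ 3 * sz (x + c) (y + c) := by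
  have h2 : |(c:ℝ)| ≤ 1 := by exact_mod_cast hc
  have h1 : |(x:ℝ)| ≤ |((x + c : ℤ) : ℝ)| + 1 := by
    have : (x:ℝ) = ((x + c : ℤ) : ℝ) - (c:ℝ) := by push_cast; ring
    calc |(x:ℝ)| = |((x + c : ℤ) : ℝ) - (c:ℝ)| := by rw [← this]
      _ ≤ |((x + c : ℤ) : ℝ)| + |(c:ℝ)| := abs_sub _ _
      _ ≤ _ := by linarith
  have h3 : |(y:ℝ)| ≤ |((y + c : ℤ) : ℝ)| + 1 := by
    have : (y:ℝ) = ((y + c : ℤ) : ℝ) - (c:ℝ) := by push_cast; ring
    calc |(y:ℝ)| = |((y + c : ℤ) : ℝ) - (c:ℝ)| := by rw [← this]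
      _ ≤ |((y + c : ℤ) : ℝ)| + |(c:ℝ)| := abs_sub _ _
      _ ≤ _ := by linarith
  unfold sz
  have := abs_nonneg ((x + c : ℤ) : ℝ)
  have := abs_nonneg ((y + c : ℤ) : ℝ)
  linarith

/-- `|x + y| + |x - y| ≥ |x| + |y|` -/
theorem kn_ge (x y : ℤ) : sz x y ≤ |((x + y : ℤ) : ℝ)| + ((x - y).natAbs : ℝ) + 1 := by
  have h : ((x - y).natAbs : ℝ) = |((x - y : ℤ) : ℝ)| := by
    rw [← Int.cast_abs, Int.abs_eq_natAbs]; simp
  rw [h]
  unfold sz
  push_cast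
  have h1 : |(x:ℝ)| + |(y:ℝ)| ≤ |(x:ℝ) + y| + |(x:ℝ) - y| := by
    rcases abs_cases (x:ℝ) with ⟨a, _⟩ | ⟨a, _⟩ <;> rcases abs_cases (y:ℝ) with ⟨b, _⟩ | ⟨b, _⟩ <;>
      rcases abs_cases ((x:ℝ) + y) with ⟨c, _⟩ | ⟨c, _⟩ <;>
      rcases abs_cases ((x:ℝ) - y) with ⟨d, _⟩ | ⟨d, _⟩ <;> rw [a, b, c, d] <;> linarith
  linarith

theorem Pz_bound (x y : ℤ) : |Pz x y| ≤ 8 / sz x y ^ (1/2 : ℝ) := by
  have h := P_bound (x + y) (x - y).natAbs
  rw [← Real.sqrt_eq_rpow]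
  refine h.trans ?_
  exact div_le_div_of_nonneg_left (by norm_num) (Real.sqrt_pos.2 (sz_pos x y))
    (Real.sqrt_le_sqrt (kn_ge x y))

theorem dPz_bound : ∃ C : ℝ, 0 ≤ C ∧ ∀ x y : ℤ,
    |Pz x y - Pz (x-1) (y-1)| ≤ C / sz x y ^ (3/2 : ℝ) := by
  obtain ⟨C, hC, h⟩ := Crest.Agent.R165.BrBx304.BrB2_of ⟨8, P_bound⟩
  refine ⟨C, hC, fun x y => ?_⟩
  have h1 := h (x+y) (x-y).natAbs (by
    rw [Int.natCast_natAbs, Int.even_add, even_abs, Int.even_add, Int.even_sub])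
  unfold Pz
  rw [show x - 1 + (y - 1) = x + y - 2 by ring, show (x - 1 - (y - 1)).natAbs = (x-y).natAbs by omega]
  refine h1.trans ?_
  exact div_le_div_of_nonneg_left hC (Real.rpow_pos_of_pos (sz_pos x y) _)
    (Real.rpow_le_rpow (sz_pos x y).le (kn_ge x y) (by norm_num))

theorem abs_sA (x y : ℤ) : |sA x y| = 1 := by unfold sA; split_ifs <;> norm_num
theorem abs_sB (x y : ℤ) : |sB x y| = 1 := by unfold sB; split_ifs <;> norm_num
theorem abs_sC (x y : ℤ) : |sC x y| = 1 := by unfold sC; split_ifs <;> norm_num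

/-- decay of a half-edge field from the decay of its corner values -/
theorem fieldOf_bound {u w : ℤ → ℤ → ℝ} {C s : ℝ} (hC : 0 ≤ C) (hs : 0 ≤ s)
    (hu : ∀ x y, |u x y| ≤ C / sz x y ^ s) (hw : ∀ x y, |w x y| ≤ C / sz x y ^ s) (x y : ℤ) (d : Fin 4) :
    |fieldOf u w ((x, y), d)| ≤ (2 * 2 ^ s * C) / sz x y ^ s := by
  have hsh : ∀ c : ℤ, |c| ≤ 1 → C / sz (x + c) y ^ s ≤ (2 ^ s * C) / sz x y ^ s := by
    intro c hc
    have h1 := sz_shift x y c hc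
    have h2 : sz x y ^ s ≤ 2 ^ s * sz (x+c) y ^ s := by
      rw [← Real.mul_rpow (by norm_num) (sz_pos _ _).le]
      exact Real.rpow_le_rpow (sz_pos x y).le h1 hs
    rw [div_le_div_iff₀ (Real.rpow_pos_of_pos (sz_pos _ _) _) (Real.rpow_pos_of_pos (sz_pos _ _) _)]
    nlinarith
  have h0 : C / sz x y ^ s ≤ (2 ^ s * C) / sz x y ^ s := by
    have := hsh 0 (by norm_num)
    rwa [add_zero] at this
  have hu0 := (hu x y).trans h0
  have hw0 := (hw x y).trans h0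
  have hu1 := (hu (x+1) y).trans (hsh 1 (by norm_num))
  have hw1 : |w (x-1) y| ≤ (2 ^ s * C) / sz x y ^ s := by
    have := (hw (x + -1) y).trans (hsh (-1) (by norm_num))
    rwa [← sub_eq_add_neg] at this
  set M := (2 ^ s * C) / sz x y ^ s with hM
  have hM' : (2 * 2 ^ s * C) / sz x y ^ s = 2 * M := by rw [hM]; ring
  rw [hM']
  have hM0 : 0 ≤ M := (abs_nonneg _).trans hu0
  have h1s : 1 ≤ √(2:ℝ) := by rw [Real.one_le_sqrt]; norm_num
  have hdiv : ∀ r : ℝ, |r| ≤ 2 * M → |r / √2| ≤ 2 * M := by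
    intro r hr
    rw [abs_div, abs_of_pos (by positivity : (0:ℝ) < √2)]
    calc |r| / √2 ≤ |r| / 1 := div_le_div_of_nonneg_left (abs_nonneg _) one_pos h1s
      _ ≤ 2 * M := by rw [div_one]; exact hr
  have hse : |(u (x+1) y - w x y) / √2| ≤ 2 * M := hdiv _ ((abs_sub _ _).trans (by linarith))
  have hnw : |-(u x y + w (x-1) y) / √2| ≤ 2 * M := hdiv _ (by
    rw [abs_neg]; exact (abs_add_le _ _).trans (by linarith))
  have hfin : ∀ r : ℝ, |r| ≤ 4 * M → |r / 2| ≤ 2 * M := by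
    intro r hr
    rw [abs_div, abs_two]; linarith
  fin_cases d
  · exact hfin _ ((abs_add_le _ _).trans (by linarith))
  · exact hfin _ ((abs_sub _ _).trans (by linarith))
  · exact hfin _ ((abs_sub _ _).trans (by linarith))
  · exact hfin _ ((abs_sub _ _).trans (by linarith))

theorem PsiS_bound : ∃ C : ℝ, 0 ≤ C ∧ ∀ (x y : ℤ) (d : Fin 4),
    |PsiS ((x, y), d)| ≤ C / sz x y ^ (1/2 : ℝ) := by
  refine ⟨2 * 2 ^ (1/2:ℝ) * 8, by positivity, fun x y d => ?_⟩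
  refine fieldOf_bound (by norm_num) (by norm_num) (fun x y => ?_) (fun x y => ?_) x y d
  · rw [abs_mul, abs_sC, one_mul]
    have := Pz_bound (-x) (-y)
    rwa [sz_neg] at this
  · rw [abs_mul, abs_sA, one_mul, abs_neg]
    exact Pz_bound x y

theorem PsiN_bound : ∃ C : ℝ, 0 ≤ C ∧ ∀ (x y : ℤ) (d : Fin 4),
    |PsiN ((x, y), d)| ≤ C / sz x y ^ (3/2 : ℝ) := by
  obtain ⟨C, hC, h⟩ := dPz_bound
  refine ⟨2 * 2 ^ (3/2:ℝ) * C, by positivity, fun x y d => ?_⟩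
  refine fieldOf_bound hC (by norm_num) (fun x y => ?_) (fun x y => ?_) x y d
  · rw [abs_mul, abs_sA, one_mul, abs_sub_comm]
    exact h x y
  · rw [abs_mul, abs_sB, one_mul]
    have := h (-x) (-y)
    rwa [sz_neg] at this

end Crest.Agent.R165.Br5x644
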