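import Mathlib
import Crest.Agent.R165.Br7_644

/-!
Row 165 (S0250), block U4 (helper644): the reflected pair `PsiS2`, `PsiN2` (for the step `(1,-1)`).

Reflection of the faces `(x, y) → (x, -1-y)`, `(S, E, N, W) → (N, E, S, -W)`; it maps the background `wB`
to itself and `A` to `-A`.
-/

set_option autoImplicit false

noncomputable section

namespace Crest.Agent.R165.Br5x644

open Real Filter Topology
open Crest.Agent.R165.Br1x644 (Pz Pz_symm fieldOf sA sB sC PsiS PsiN Psi0 wB yE_wB yN_wB Aop_PsiS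
  Aop_PsiN PsiS_lN PsiN_lS)
open Crest.Agent.R165.RIfx891 (lv)
open Crest.Agent.R165.Latx683 (HE Aop yE yN xc Aop_S Aop_E Aop_N Aop_W)

/-- reflection of fields -/
def Rf (φ : HE ℤ → ℝ) : HE ℤ → ℝ := fun h =>
  match h.2 with
  | 0 => φ ((h.1.1, -1 - h.1.2), 2)
  | 1 => φ ((h.1.1, -1 - h.1.2), 1)
  | 2 => φ ((h.1.1, -1 - h.1.2), 0)
  | 3 => -φ ((h.1.1, -1 - h.1.2), 3)

theorem Rf_S (φ : HE ℤ → ℝ) (x y : ℤ) : Rf φ ((x, y), 0) = φ ((x, -1 - y), 2) := rfl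
theorem Rf_E (φ : HE ℤ → ℝ) (x y : ℤ) : Rf φ ((x, y), 1) = φ ((x, -1 - y), 1) := rfl
theorem Rf_N (φ : HE ℤ → ℝ) (x y : ℤ) : Rf φ ((x, y), 2) = φ ((x, -1 - y), 0) := rfl
theorem Rf_W (φ : HE ℤ → ℝ) (x y : ℤ) : Rf φ ((x, y), 3) = -φ ((x, -1 - y), 3) := rfl

theorem sg_refl (x y : ℤ) : Br1x644.sg x (-2 - y) = Br1x644.sg x y := by
  unfold Br1x644.sg
  by_cases h : y = -1 ∧ 0 ≤ x
  · rw [if_pos h, if_pos (by omega)]
  · rw [if_neg h, if_neg (by omega)]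

theorem Aop_Rf (φ : HE ℤ → ℝ) (g : HE ℤ) : Aop wB (Rf φ) g = -Rf (Aop wB φ) g := by
  obtain ⟨⟨x, y⟩, d⟩ := g
  fin_cases d
  · show Aop wB (Rf φ) ((x, y), 0) = -Rf (Aop wB φ) ((x, y), 0)
    rw [Rf_S, Aop_S, Aop_N]
    simp only [yN_wB, Rf_E, Rf_N, Rf_W]
    rw [show (-1 - y : ℤ) = -2 - (y - 1) by ring, sg_refl, show (-2 - (y - 1) + 1 : ℤ) = -1 - (y - 1) by ring]
    ring
  · show Aop wB (Rf φ) ((x, y), 1) = -Rf (Aop wB φ) ((x, y), 1)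
    rw [Rf_E, Aop_E, Aop_E]
    simp only [yE_wB, Rf_S, Rf_N, Rf_W]
    ring
  · show Aop wB (Rf φ) ((x, y), 2) = -Rf (Aop wB φ) ((x, y), 2)
    rw [Rf_N, Aop_N, Aop_S]
    simp only [yN_wB, Rf_E, Rf_S, Rf_W]
    rw [show (-1 - y - 1 : ℤ) = -2 - y by ring, sg_refl, show (-1 - (y + 1) : ℤ) = -2 - y by ring]
    ring
  · show Aop wB (Rf φ) ((x, y), 3) = -Rf (Aop wB φ) ((x, y), 3)
    rw [Rf_W, Aop_W, Aop_W]
    simp only [yE_wB, Rf_S, Rf_N, Rf_E]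
    ring

/-- source at the branch vertex, north-west corner of the face `(0,-1)` -/
def PsiS2 : HE ℤ → ℝ := fun h => -Rf PsiS h

/-- source at the south-east corner of the face `(0,-1)` -/
def PsiN2 : HE ℤ → ℝ := fun h => -Rf PsiN h

theorem Aop_neg (φ : HE ℤ → ℝ) (g : HE ℤ) : Aop wB (fun h => -φ h) g = -Aop wB φ g := by
  have := map_neg (Aop wB) φ
  exact congrFun this g

theorem Aop_PsiS2 (g : HE ℤ) : Aop wB PsiS2 g =
    if g = ((0, 0), 0) then -xc else if g = ((0, -1), 2) then -1 else 0 := by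
  have e0 : Aop wB PsiS2 g = Rf (Aop wB PsiS) g := by
    show Aop wB (fun h => -Rf PsiS h) g = _
    rw [Aop_neg, Aop_Rf, neg_neg]
  rw [e0]
  obtain ⟨⟨x, y⟩, d⟩ := g
  fin_cases d
  · show Rf (Aop wB PsiS) ((x, y), 0) = _
    rw [Rf_S, Aop_PsiS]
    simp only [Prod.mk.injEq, Fin.isValue, Fin.reduceEq, and_false, if_false, and_true, Fin.zero_eta]
    by_cases h : x = 0 ∧ y = 0
    · rw [if_pos (by omega), if_pos h]
    · rw [if_neg (by omega), if_neg h]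
  · show Rf (Aop wB PsiS) ((x, y), 1) = _
    rw [Rf_E, Aop_PsiS]
    simp
  · show Rf (Aop wB PsiS) ((x, y), 2) = _
    rw [Rf_N, Aop_PsiS]
    simp only [Prod.mk.injEq, Fin.isValue, Fin.reduceEq, and_false, if_false, and_true, Fin.reduceFinMk]
    by_cases h : x = 0 ∧ y = -1
    · rw [if_pos (by omega), if_pos h]
    · rw [if_neg (by omega), if_neg h]
  · show Rf (Aop wB PsiS) ((x, y), 3) = _
    rw [Rf_W, Aop_PsiS]
    simp

theorem Aop_PsiN2 (g : HE ℤ) : Aop wB PsiN2 g =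
    if g = ((0, -1), 0) then -1 else if g = ((0, -2), 2) then -xc else 0 := by
  have e0 : Aop wB PsiN2 g = Rf (Aop wB PsiN) g := by
    show Aop wB (fun h => -Rf PsiN h) g = _
    rw [Aop_neg, Aop_Rf, neg_neg]
  rw [e0]
  obtain ⟨⟨x, y⟩, d⟩ := g
  fin_cases d
  · show Rf (Aop wB PsiN) ((x, y), 0) = _
    rw [Rf_S, Aop_PsiN]
    simp only [Prod.mk.injEq, Fin.isValue, Fin.reduceEq, and_false, if_false, and_true, Fin.zero_eta]
    by_cases h : x = 0 ∧ y = -1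
    · rw [if_pos (by omega), if_pos h]
    · rw [if_neg (by omega), if_neg h]
  · show Rf (Aop wB PsiN) ((x, y), 1) = _
    rw [Rf_E, Aop_PsiN]
    simp
  · show Rf (Aop wB PsiN) ((x, y), 2) = _
    rw [Rf_N, Aop_PsiN]
    simp only [Prod.mk.injEq, Fin.isValue, Fin.reduceEq, and_false, if_false, and_true, Fin.reduceFinMk]
    by_cases h : x = 0 ∧ y = -2
    · rw [if_pos (by omega), if_pos h]
    · rw [if_neg (by omega), if_neg h]
  · show Rf (Aop wB PsiN) ((x, y), 3) = _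
    rw [Rf_W, Aop_PsiN]
    simp

/-- value of `PsiS2` on the opposite corner: `PsiS2 (S_{(0,-1)}) + x_c PsiS2 (N_{(0,-2)}) = -1` -/
theorem PsiS2_lN2 : PsiS2 ((0, -1), 0) + xc * PsiS2 ((0, -2), 2) = -1 := by
  have h := PsiS_lN
  have e1 : PsiS2 ((0, -1), 0) = -PsiS ((0, 0), 2) := rfl
  have e2 : PsiS2 ((0, -2), 2) = -PsiS ((0, 1), 0) := rfl
  rw [e1, e2]; linarith

/-- value of `PsiN2` on the corner at the branch -/
theorem PsiN2_lS2 : PsiN2 ((0, -1), 2) + xc * PsiN2 ((0, 0), 0) = 1 := by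
  have h := PsiN_lS
  have e1 : PsiN2 ((0, -1), 2) = -PsiN ((0, 0), 0) := rfl
  have e2 : PsiN2 ((0, 0), 0) = -PsiN ((0, -1), 2) := rfl
  rw [e1, e2]; linarith

/-! ### limits and bounds -/

/-- the reflection of a light vector -/
theorem lv_conj (c : ℂ) : lv ((starRingEnd ℂ) c) 0 = lv c 2 ∧ lv ((starRingEnd ℂ) c) 1 = lv c 1 ∧
    lv ((starRingEnd ℂ) c) 2 = lv c 0 ∧ lv ((starRingEnd ℂ) c) 3 = -lv c 3 := by
  refine ⟨?_, ?_, ?_, ?_⟩ <;> simp [lv] <;> ring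

theorem lv_neg (c : ℂ) (d : Fin 4) : lv (-c) d = -lv c d := by
  fin_cases d <;> simp [lv] <;> ring

variable {ι : Type*} {l : Filter ι} {a : ι → ℝ} {X Y : ι → ℤ} {p q : ℝ}

theorem Cv.refl (h : Cv l a X Y p q) : Cv l a X (fun k => -1 - Y k) p (-q) := by
  refine ⟨h.ha, h.hX, ?_⟩
  have := (h.ha0.mul_const (-1:ℝ)).sub h.hY
  rw [zero_mul, zero_sub] at this
  refine this.congr fun k => ?_
  push_cast; ring

/-- off both diagonals and off the ray -/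
def Gen2 (p q : ℝ) : Prop := Gen p q ∧ Gen p (-q)

theorem zt_conj {p q : ℝ} (hg : Gen p q) :
    (starRingEnd ℂ) (zt ⟨p, -q⟩) = -zt ⟨p, q⟩ := by
  have e : -(⟨p, -q⟩ : ℂ) = (starRingEnd ℂ) (-⟨p, q⟩) := by
    apply Complex.ext <;> simp
  have harg : (-(⟨p, q⟩ : ℂ)).arg ≠ π := by
    intro h
    rw [Complex.arg_eq_pi_iff] at h
    simp only [Complex.neg_re, Complex.neg_im] at h
    rcases hg with h1 | h1 | h1
    · linarith [h.1, h.2]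
    · linarith [h.1, h.2, h1.2]
    · linarith [h.1, h.2, h1.2]
  have h2 : (starRingEnd ℂ) (-(1/2) : ℂ) = -(1/2) := by
    rw [map_neg, map_div₀, map_one, map_ofNat]
  unfold zt
  rw [e, map_mul, map_neg, Complex.conj_I, Complex.conj_cpow _ _ harg, h2, Complex.conj_conj]
  ring

theorem lim_refl {Φ : HE ℤ → ℝ} {s : ℝ} {c c' : ℂ} (hc : (starRingEnd ℂ) c = -c')
    (hΦ : ∀ d, Tendsto (fun k => a k ^ (-s) * Φ ((X k, -1 - Y k), d)) l (𝓝 (lv c d))) (d : Fin 4) :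
    Tendsto (fun k => a k ^ (-s) * -Rf Φ ((X k, Y k), d)) l (𝓝 (lv c' d)) := by
  have hc' : c' = -(starRingEnd ℂ) c := by rw [hc, neg_neg]
  obtain ⟨e0, e1, e2, e3⟩ := lv_conj c
  fin_cases d
  · show Tendsto (fun k => a k ^ (-s) * -Rf Φ ((X k, Y k), 0)) l (𝓝 (lv c' 0))
    rw [hc', lv_neg, e0]
    refine (hΦ 2).neg.congr fun k => ?_
    rw [Rf_S]; ring
  · show Tendsto (fun k => a k ^ (-s) * -Rf Φ ((X k, Y k), 1)) l (𝓝 (lv c' 1))
    rw [hc', lv_neg, e1]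
    refine (hΦ 1).neg.congr fun k => ?_
    rw [Rf_E]; ring
  · show Tendsto (fun k => a k ^ (-s) * -Rf Φ ((X k, Y k), 2)) l (𝓝 (lv c' 2))
    rw [hc', lv_neg, e2]
    refine (hΦ 0).neg.congr fun k => ?_
    rw [Rf_N]; ring
  · show Tendsto (fun k => a k ^ (-s) * -Rf Φ ((X k, Y k), 3)) l (𝓝 (lv c' 3))
    rw [hc', lv_neg, e3, neg_neg]
    refine (hΦ 3).congr fun k => ?_
    rw [Rf_W]; ring

/-- **scaling limit of `PsiS2`** -/
theorem lim_PsiS2 (B : BrA) (h : Cv l a X Y p q) (hg : Gen2 p q) (d : Fin 4) :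
    Tendsto (fun k => a k ^ (-(1/2) : ℝ) * PsiS2 ((X k, Y k), d)) l
      (𝓝 (lv (-(kp : ℂ) * zt ⟨p, q⟩) d)) := by
  have hc : (starRingEnd ℂ) (-(kp : ℂ) * zt ⟨p, -q⟩) = -(-(kp : ℂ) * zt ⟨p, q⟩) := by
    rw [map_mul, map_neg, Complex.conj_ofReal, zt_conj hg.1]
    ring
  exact lim_refl (Φ := PsiS) (s := 1/2) hc (fun d => lim_PsiS B h.refl hg.2 d) d

/-- **scaling limit of `PsiN2`** -/
theorem lim_PsiN2 (B : BrA) (h : Cv l a X Y p q) (hg : Gen2 p q) (d : Fin 4) :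
    Tendsto (fun k => a k ^ (-(3/2) : ℝ) * PsiN2 ((X k, Y k), d)) l
      (𝓝 (lv ((kp : ℂ) * ((1 + Complex.I)/2) * (zt ⟨p, q⟩ / ⟨p, q⟩)) d)) := by
  have e : (starRingEnd ℂ) (⟨p, -q⟩ : ℂ) = ⟨p, q⟩ := by apply Complex.ext <;> simp
  have e2 : (starRingEnd ℂ) ((1 - Complex.I)/2) = (1 + Complex.I)/2 := by
    rw [map_div₀, map_sub, map_one, Complex.conj_I, map_ofNat, sub_neg_eq_add]
  have hc : (starRingEnd ℂ) ((kp : ℂ) * ((1 - Complex.I)/2) * (zt ⟨p, -q⟩ / ⟨p, -q⟩))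
      = -((kp : ℂ) * ((1 + Complex.I)/2) * (zt ⟨p, q⟩ / ⟨p, q⟩)) := by
    rw [map_mul, map_mul, map_div₀ _ (zt _), Complex.conj_ofReal, zt_conj hg.1, e, e2]
    ring
  exact lim_refl (Φ := PsiN) (s := 3/2) hc (fun d => lim_PsiN B h.refl hg.2 d) d

theorem sz_refl (x y : ℤ) : sz x y ≤ 2 * sz x (-1 - y) := by
  unfold sz
  have h1 : |(y:ℝ)| ≤ |((-1 - y : ℤ) : ℝ)| + 1 := by
    push_cast
    have : (y:ℝ) = -(-1 - (y:ℝ)) - 1 := by ring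
    calc |(y:ℝ)| = |-(-1 - (y:ℝ)) - 1| := by rw [← this]
      _ ≤ |-(-1 - (y:ℝ))| + |(1:ℝ)| := abs_sub _ _
      _ = _ := by rw [abs_neg, abs_one]
  have := abs_nonneg (x:ℝ)
  have := abs_nonneg ((-1 - y : ℤ) : ℝ)
  linarith

theorem refl_bound {Φ : HE ℤ → ℝ} {C s : ℝ} (hC : 0 ≤ C) (hs : 0 ≤ s)
    (h : ∀ (x y : ℤ) (d : Fin 4), |Φ ((x, y), d)| ≤ C / sz x y ^ s) (x y : ℤ) (d : Fin 4) :
    |-Rf Φ ((x, y), d)| ≤ (2 ^ s * C) / sz x y ^ s := by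
  have key : C / sz x (-1 - y) ^ s ≤ (2 ^ s * C) / sz x y ^ s := by
    have h2 : sz x y ^ s ≤ 2 ^ s * sz x (-1-y) ^ s := by
      rw [← Real.mul_rpow (by norm_num) (sz_pos _ _).le]
      exact Real.rpow_le_rpow (sz_pos x y).le (sz_refl x y) hs
    rw [div_le_div_iff₀ (Real.rpow_pos_of_pos (sz_pos _ _) _) (Real.rpow_pos_of_pos (sz_pos _ _) _)]
    nlinarith
  rw [abs_neg]
  fin_cases d
  · exact (h x (-1-y) 2).trans key
  · exact (h x (-1-y) 1).trans key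
  · exact (h x (-1-y) 0).trans key
  · show |-Φ ((x, -1-y), 3)| ≤ _
    rw [abs_neg]
    exact (h x (-1-y) 3).trans key

theorem PsiS2_bound : ∃ C : ℝ, 0 ≤ C ∧ ∀ (x y : ℤ) (d : Fin 4),
    |PsiS2 ((x, y), d)| ≤ C / sz x y ^ (1/2 : ℝ) := by
  obtain ⟨C, hC, h⟩ := PsiS_bound
  exact ⟨2 ^ (1/2:ℝ) * C, by positivity, fun x y d => refl_bound hC (by norm_num) h x y d⟩

theorem PsiN2_bound : ∃ C : ℝ, 0 ≤ C ∧ ∀ (x y : ℤ) (d : Fin 4),
    |PsiN2 ((x, y), d)| ≤ C / sz x y ^ (3/2 : ℝ) := by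
  obtain ⟨C, hC, h⟩ := PsiN_bound
  exact ⟨2 ^ (3/2:ℝ) * C, by positivity, fun x y d => refl_bound hC (by norm_num) h x y d⟩

end Crest.Agent.R165.Br5x644
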