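import Mathlib
import Crest.Agent.R165.Br1_644
import Crest.Agent.R165.PkC_583
import Crest.Agent.R086.Ext1

/-!
Row 165 (S0250), block U4 (helper375): leaf BrA of helper644.

Leading asymptotics of the explicit functions `Pz x y = P (x+y) |x-y|` of the plane with one
branch vertex, and of their diagonal differences, off the diagonal.
-/

set_option autoImplicit false

open MeasureTheory Set Filter Topology

namespace Crest.Agent.R165.BrAx375

open Crest.Agent.R165.Pkx583 (rho rho_nonneg rho_le_one sin_ge sin_pos' rho_le_exp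
  abs_rho_pow_sub_exp_le)
open Crest.Agent.R165.Br0x644 (amp amp_le amp_nonneg le_two_sin measurable_amp measurable_rho P ph
  measurable_ph abs_ph_le one_div_sqrt)
open Crest.Agent.R165.Br1x644 (Pz)

noncomputable section

/-! ### amplitudes -/

theorem two_sin_le {u : ℝ} (h0 : 0 ≤ u) : 2 * Real.sin u ≤ 2 * u := by
  have := Real.sin_le h0
  linarith

theorem sub_two_sin_le {u : ℝ} (h0 : 0 ≤ u) (h1 : u ≤ Real.pi / 2) :
    2 * u - 2 * Real.sin u ≤ 2 * u ^ 2 := by
  have hs : 0 ≤ Real.sin u := Real.sin_nonneg_of_nonneg_of_le_pi h0 (by linarith [Real.pi_pos])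
  rcases le_total u 1 with hu | hu
  · rcases h0.lt_or_eq with hp | hp
    · have := Real.sin_gt_sub_cube hp
      nlinarith [mul_nonneg h0 h0, mul_nonneg (mul_nonneg h0 h0) h0]
    · rw [← hp]; simp
  · nlinarith

theorem rpow_half_mul {u : ℝ} (h0 : 0 < u) : u ^ (3 / 2 : ℝ) = u * √u := by
  rw [Real.sqrt_eq_rpow, show (3 / 2 : ℝ) = 1 + 1 / 2 by norm_num, Real.rpow_add h0, Real.rpow_one]

theorem sqrt_diff {u : ℝ} (h0 : 0 < u) (h1 : u ≤ Real.pi / 2) :
    0 ≤ √(2 * u) - √(2 * Real.sin u) ∧ √(2 * u) - √(2 * Real.sin u) ≤ 2 * (u * √u) := by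
  have a1 := two_sin_le h0.le
  have a2 := sub_two_sin_le h0.le h1
  have a3 := le_two_sin h0.le h1
  have b1 : √(2 * Real.sin u) ≤ √(2 * u) := Real.sqrt_le_sqrt a1
  refine ⟨by linarith, ?_⟩
  have c1 : √u ≤ √(2 * Real.sin u) := Real.sqrt_le_sqrt a3
  have c2 : √u ≤ √(2 * u) := Real.sqrt_le_sqrt (by linarith)
  have c0 : 0 < √u := Real.sqrt_pos.2 h0
  have e1 : √(2 * u) * √(2 * u) = 2 * u := Real.mul_self_sqrt (by linarith)
  have e2 : √(2 * Real.sin u) * √(2 * Real.sin u) = 2 * Real.sin u :=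
    Real.mul_self_sqrt (by linarith)
  have e3 : √u * √u = u := Real.mul_self_sqrt h0.le
  -- (A - B) (A + B) ≤ 2 u², A + B ≥ √u
  have h : (√(2 * u) - √(2 * Real.sin u)) * √u ≤ 2 * u ^ 2 := by
    have : (√(2 * u) - √(2 * Real.sin u)) * √u ≤
        (√(2 * u) - √(2 * Real.sin u)) * (√(2 * u) + √(2 * Real.sin u)) := by
      apply mul_le_mul_of_nonneg_left _ (by linarith)
      linarith
    nlinarith
  have h2 : 2 * (u * √u) * √u = 2 * u ^ 2 := by
    rw [mul_assoc, mul_assoc, e3]; ring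
  exact le_of_mul_le_mul_right (h.trans h2.ge) c0

theorem sqrt_amp_sub {u : ℝ} (h0 : 0 < u) (h1 : u ≤ Real.pi / 2) :
    |√(2 * Real.sin u) - √2 * u ^ ((3 / 2 : ℝ) - 1)| ≤ 2 * u ^ (3 / 2 : ℝ) := by
  have e : √2 * u ^ ((3 / 2 : ℝ) - 1) = √(2 * u) := by
    rw [Real.sqrt_mul (by norm_num), show (3 / 2 : ℝ) - 1 = 1 / 2 by norm_num, ← Real.sqrt_eq_rpow]
  rw [e, rpow_half_mul h0, abs_sub_comm, abs_of_nonneg (sqrt_diff h0 h1).1]
  exact (sqrt_diff h0 h1).2

theorem amp_sub {u : ℝ} (h0 : 0 < u) (h1 : u ≤ Real.pi / 2) :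
    |amp u - (1 / √2) * u ^ ((1 / 2 : ℝ) - 1)| ≤ 2 * u ^ (1 / 2 : ℝ) := by
  have hs : 0 < Real.sin u := sin_pos' h0 h1
  have hA : 0 < √(2 * u) := Real.sqrt_pos.2 (by linarith)
  have hB : 0 < √(2 * Real.sin u) := Real.sqrt_pos.2 (by linarith)
  have hU : 0 < √u := Real.sqrt_pos.2 h0
  have e : (1 / √2) * u ^ ((1 / 2 : ℝ) - 1) = 1 / √(2 * u) := by
    rw [Real.sqrt_mul (by norm_num), show (1 / 2 : ℝ) - 1 = -(1/2) by norm_num, ← one_div_sqrt h0]
    field_simp
  rw [e, ← Real.sqrt_eq_rpow]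
  unfold amp
  have e2 : 1 / √(2 * Real.sin u) - 1 / √(2 * u) =
      (√(2 * u) - √(2 * Real.sin u)) / (√(2 * Real.sin u) * √(2 * u)) := by
    field_simp
  rw [e2, abs_div, abs_of_nonneg (sqrt_diff h0 h1).1, abs_of_pos (by positivity),
    div_le_iff₀ (by positivity)]
  have c1 : √u ≤ √(2 * Real.sin u) := Real.sqrt_le_sqrt (le_two_sin h0.le h1)
  have c2 : √u ≤ √(2 * u) := Real.sqrt_le_sqrt (by linarith)
  have e3 : √u * √u = u := Real.mul_self_sqrt h0.le
  calc √(2 * u) - √(2 * Real.sin u) ≤ 2 * (u * √u) := (sqrt_diff h0 h1).2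
    _ = 2 * √u * (√u * √u) := by rw [e3]; ring
    _ ≤ 2 * √u * (√(2 * Real.sin u) * √(2 * u)) := by
        apply mul_le_mul_of_nonneg_left _ (by positivity)
        exact mul_le_mul c1 c2 hU.le hB.le

/-! ### the real Laplace integrals -/

theorem ii_gamma {s r : ℝ} (hs : 0 < s) (hr : 0 < r) :
    IntegrableOn (fun u : ℝ => u ^ (s - 1) * Real.exp (-(r * u))) (Ioi 0) := by
  have h := integrableOn_rpow_mul_exp_neg_mul_rpow (p := 1) (s := s - 1) (b := r)
    (by linarith) one_pos hr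
  refine h.congr_fun (fun u _ => ?_) measurableSet_Ioi
  simp only [Real.rpow_one, neg_mul]

theorem int_gamma {s r : ℝ} (hs : 0 < s) (hr : 0 < r) :
    ∫ u in Ioi (0:ℝ), u ^ (s - 1) * Real.exp (-(r * u)) = (1 / r) ^ s * Real.Gamma s :=
  Real.integral_rpow_mul_exp_neg_mul_Ioi hs hr

/-- the majorant -/
def maj (s c C : ℝ) (m : ℕ) (u : ℝ) : ℝ :=
  C * (u ^ ((s + 1) - 1) * Real.exp (-((m : ℝ) / Real.pi * u)))
  + 8 * c * m * (u ^ ((s + 2) - 1) * Real.exp (-((m : ℝ) / Real.pi * u)))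
  + c * (u ^ ((s + 1) - 1) * Real.exp (-((m : ℝ) * u)))

theorem ii_maj {s c C : ℝ} (hs : 0 < s) {m : ℕ} (hm : 0 < m) :
    IntegrableOn (maj s c C m) (Ioi 0) := by
  have hm' : (0 : ℝ) < m := by exact_mod_cast hm
  have hpi := Real.pi_pos
  unfold maj
  exact (((ii_gamma (s := s + 1) (r := (m:ℝ) / Real.pi) (by linarith) (by positivity)).const_mul C).add
    ((ii_gamma (s := s + 2) (r := (m:ℝ) / Real.pi) (by linarith) (by positivity)).const_mul (8 * c * m))).add
    ((ii_gamma (s := s + 1) (r := (m:ℝ)) (by linarith) hm').const_mul c)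

/-- the constant of the main estimate -/
def KK (s c C : ℝ) : ℝ :=
  C * (Real.pi ^ (s + 1) * Real.Gamma (s + 1)) + 8 * c * (Real.pi ^ (s + 2) * Real.Gamma (s + 2))
    + c * Real.Gamma (s + 1)

theorem int_maj {s c C : ℝ} (hs : 0 < s) {m : ℕ} (hm : 0 < m) :
    ∫ u in Ioi (0:ℝ), maj s c C m u = KK s c C / (m : ℝ) ^ (s + 1) := by
  have hm' : (0 : ℝ) < m := by exact_mod_cast hm
  have hpi := Real.pi_pos
  have i1 := (ii_gamma (s := s + 1) (r := (m:ℝ) / Real.pi) (by linarith) (by positivity)).const_mul C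
  have i2 := (ii_gamma (s := s + 2) (r := (m:ℝ) / Real.pi) (by linarith) (by positivity)).const_mul
    (8 * c * m)
  have i3 := (ii_gamma (s := s + 1) (r := (m:ℝ)) (by linarith) hm').const_mul c
  unfold maj
  have j12 : Integrable (fun u : ℝ => C * (u ^ ((s + 1) - 1) * Real.exp (-((m : ℝ) / Real.pi * u)))
      + 8 * c * m * (u ^ ((s + 2) - 1) * Real.exp (-((m : ℝ) / Real.pi * u))))
      (volume.restrict (Ioi 0)) := i1.add i2
  rw [integral_add j12 i3, integral_add i1 i2, integral_const_mul, integral_const_mul,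
    integral_const_mul, int_gamma (by linarith) (by positivity), int_gamma (by linarith) (by positivity),
    int_gamma (by linarith) hm']
  have e1 : (1 / ((m:ℝ) / Real.pi)) ^ (s + 1) = Real.pi ^ (s + 1) / (m:ℝ) ^ (s + 1) := by
    rw [one_div_div, Real.div_rpow hpi.le hm'.le]
  have e2 : (1 / ((m:ℝ) / Real.pi)) ^ (s + 2) = Real.pi ^ (s + 2) / ((m:ℝ) * (m:ℝ) ^ (s + 1)) := by
    rw [one_div_div, Real.div_rpow hpi.le hm'.le, show s + 2 = 1 + (s + 1) by ring,
      Real.rpow_add hm', Real.rpow_one]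
  have e3 : (1 / (m:ℝ)) ^ (s + 1) = 1 / (m:ℝ) ^ (s + 1) := by
    rw [Real.div_rpow (by norm_num) hm'.le, Real.one_rpow]
  rw [e1, e2, e3]
  have hp : 0 < (m:ℝ) ^ (s + 1) := Real.rpow_pos_of_pos hm' _
  unfold KK
  field_simp

/-- **the comparison**: `F ρ^m` on `(0, π/2)` against `c u^{s-1} e^{-m u}` on `(0, ∞)` -/
theorem compare {s c C : ℝ} (hs : 0 < s) (hc : 0 ≤ c) (hC : 0 ≤ C) {F : ℝ → ℝ} (hF : Measurable F)
    (hFc : ∀ u, 0 < u → u ≤ Real.pi / 2 → |F u - c * u ^ (s - 1)| ≤ C * u ^ s)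
    {m : ℕ} (hm : 0 < m) {g : ℝ → ℝ} (hg : Measurable g) (hb : ∀ u, |g u| ≤ 1) :
    |(∫ u in (0:ℝ)..(Real.pi / 2), F u * (rho u ^ m * g u)) -
      c * ∫ u in Ioi (0:ℝ), u ^ (s - 1) * Real.exp (-((m : ℝ) * u)) * g u|
      ≤ KK s c C / (m : ℝ) ^ (s + 1) := by
  have hm' : (0 : ℝ) < m := by exact_mod_cast hm
  have hpi := Real.pi_pos
  obtain ⟨n, rfl⟩ : ∃ n, m = n + 1 := ⟨m - 1, by omega⟩
  -- the two functions on `Ioi 0`
  set A : ℝ → ℝ := (Ioc (0:ℝ) (Real.pi / 2)).indicator (fun u => F u * (rho u ^ (n+1) * g u)) with hA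
  set B : ℝ → ℝ := fun u => c * (u ^ (s - 1) * Real.exp (-(((n+1 : ℕ) : ℝ) * u)) * g u) with hB
  have hBi : IntegrableOn B (Ioi 0) := by
    have h1 : IntegrableOn (fun u : ℝ => (u ^ (s - 1) * Real.exp (-(((n+1:ℕ) : ℝ) * u))) * g u)
        (Ioi 0) :=
      (ii_gamma hs hm').mul_bdd (c := 1) hg.aestronglyMeasurable
        (Filter.Eventually.of_forall fun u => by rw [Real.norm_eq_abs]; exact hb u)
    exact h1.const_mul c
  have hAm : Measurable A :=
    (hF.mul ((measurable_rho.pow_const _).mul hg)).indicator measurableSet_Ioc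
  have hpt : ∀ u ∈ Ioi (0:ℝ), |A u - B u| ≤ maj s c C (n+1) u := by
    intro u hu
    have hu0 : 0 < u := hu
    have t1 : u ^ ((s + 1) - 1) = u ^ s := by rw [add_sub_cancel_right]
    have t2 : u ^ ((s + 2) - 1) = u ^ (s - 1) * u ^ 2 := by
      rw [show (s + 2) - 1 = (s - 1) + (2:ℕ) by push_cast; ring, Real.rpow_add_natCast hu0.ne']
    have p1 : 0 ≤ u ^ (s - 1) := Real.rpow_nonneg hu0.le _
    have p2 : 0 ≤ u ^ s := Real.rpow_nonneg hu0.le _
    have x1 := Real.exp_pos (-(((n+1:ℕ) : ℝ) / Real.pi * u))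
    have x2 := Real.exp_pos (-(((n+1:ℕ) : ℝ) * u))
    unfold maj
    rw [t1, t2]
    by_cases hup : u ≤ Real.pi / 2
    · have hmem : u ∈ Ioc (0:ℝ) (Real.pi / 2) := ⟨hu0, hup⟩
      have eA : A u = F u * (rho u ^ (n+1) * g u) := by
        rw [hA, indicator_of_mem hmem]
      have r0 := rho_nonneg hu0.le hup
      have r1 : rho u ^ (n+1) ≤ Real.exp (-(((n+1:ℕ) : ℝ) / Real.pi * u)) := by
        have := pow_le_pow_left₀ r0 (rho_le_exp hu0.le hup) (n+1)
        refine this.trans (le_of_eq ?_)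
        rw [← Real.exp_nat_mul]
        congr 1
        push_cast
        ring
      have r2 := abs_rho_pow_sub_exp_le hu0.le hup n
      have r2' : |rho u ^ (n+1) - Real.exp (-(((n+1:ℕ) : ℝ) * u))| ≤
          8 * ((n+1:ℕ) : ℝ) * (u ^ 2 * Real.exp (-(((n+1:ℕ) : ℝ) / Real.pi * u))) := by
        push_cast
        exact r2
      have hd : A u - B u = (F u - c * u ^ (s-1)) * rho u ^ (n+1) * g u
          + c * u ^ (s-1) * (rho u ^ (n+1) - Real.exp (-(((n+1:ℕ) : ℝ) * u))) * g u := by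
        rw [eA, hB]; ring
      have y1 : |(F u - c * u ^ (s-1)) * rho u ^ (n+1) * g u| ≤
          C * (u ^ s * Real.exp (-(((n+1:ℕ) : ℝ) / Real.pi * u))) := by
        rw [abs_mul, abs_mul, abs_of_nonneg (pow_nonneg r0 (n+1))]
        calc |F u - c * u ^ (s-1)| * rho u ^ (n+1) * |g u|
            ≤ (C * u ^ s) * Real.exp (-(((n+1:ℕ) : ℝ) / Real.pi * u)) * 1 := by
              apply mul_le_mul _ (hb u) (abs_nonneg _) (by positivity)
              exact mul_le_mul (hFc u hu0 hup) r1 (pow_nonneg r0 _) (by positivity)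
          _ = _ := by ring
      have y2 : |c * u ^ (s-1) * (rho u ^ (n+1) - Real.exp (-(((n+1:ℕ) : ℝ) * u))) * g u| ≤
          8 * c * ((n+1:ℕ) : ℝ) *
            (u ^ (s-1) * u ^ 2 * Real.exp (-(((n+1:ℕ) : ℝ) / Real.pi * u))) := by
        rw [abs_mul, abs_mul, abs_of_nonneg (mul_nonneg hc p1)]
        calc c * u ^ (s-1) * |rho u ^ (n+1) - Real.exp (-(((n+1:ℕ) : ℝ) * u))| * |g u|
            ≤ c * u ^ (s-1) * (8 * ((n+1:ℕ) : ℝ) *
                (u ^ 2 * Real.exp (-(((n+1:ℕ) : ℝ) / Real.pi * u)))) * 1 := by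
              apply mul_le_mul _ (hb u) (abs_nonneg _) (by positivity)
              exact mul_le_mul_of_nonneg_left r2' (mul_nonneg hc p1)
          _ = _ := by ring
      have y3 : 0 ≤ c * (u ^ s * Real.exp (-(((n+1:ℕ) : ℝ) * u))) := by positivity
      rw [hd]
      refine (abs_add_le _ _).trans ?_
      linarith
    · have hnm : u ∉ Ioc (0:ℝ) (Real.pi / 2) := fun h => hup h.2
      have eA : A u = 0 := by rw [hA, indicator_of_notMem hnm]
      have h1u : 1 ≤ u := by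
        have := Real.pi_gt_three
        push Not at hup
        linarith
      have z1 : u ^ (s-1) ≤ u ^ s := Real.rpow_le_rpow_of_exponent_le h1u (by linarith)
      rw [eA, zero_sub, abs_neg, hB]
      simp only
      rw [abs_mul, abs_mul, abs_of_nonneg hc, abs_of_nonneg (mul_nonneg p1 x2.le)]
      have z2 : c * (u ^ (s-1) * Real.exp (-(((n+1:ℕ) : ℝ) * u)) * |g u|) ≤
          c * (u ^ s * Real.exp (-(((n+1:ℕ) : ℝ) * u))) := by
        apply mul_le_mul_of_nonneg_left _ hc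
        calc u ^ (s-1) * Real.exp (-(((n+1:ℕ) : ℝ) * u)) * |g u|
            ≤ u ^ s * Real.exp (-(((n+1:ℕ) : ℝ) * u)) * 1 := by
              apply mul_le_mul _ (hb u) (abs_nonneg _) (by positivity)
              exact mul_le_mul_of_nonneg_right z1 x2.le
          _ = _ := mul_one _
      have z3 : 0 ≤ C * (u ^ s * Real.exp (-(((n+1:ℕ) : ℝ) / Real.pi * u))) := by positivity
      have z4 : 0 ≤ 8 * c * ((n+1:ℕ) : ℝ) *
          (u ^ (s-1) * u ^ 2 * Real.exp (-(((n+1:ℕ) : ℝ) / Real.pi * u))) := by positivity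
      linarith
  have hAB : IntegrableOn (fun u => A u - B u) (Ioi 0) := by
    refine Integrable.mono' (ii_maj (c := c) (C := C) hs hm)
      ((hAm.aestronglyMeasurable).sub hBi.aestronglyMeasurable) ?_
    filter_upwards [ae_restrict_mem measurableSet_Ioi] with u hu
    rw [Real.norm_eq_abs]
    exact hpt u hu
  have hAi : IntegrableOn A (Ioi 0) := by
    have := hAB.add hBi
    refine this.congr_fun (fun u _ => ?_) measurableSet_Ioi
    simp
  have eA : (∫ u in (0:ℝ)..(Real.pi / 2), F u * (rho u ^ (n+1) * g u)) = ∫ u in Ioi (0:ℝ), A u := by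
    rw [intervalIntegral.integral_of_le (by positivity), hA, setIntegral_indicator measurableSet_Ioc]
    congr 2
    ext u
    simp only [mem_Ioc, mem_inter_iff, mem_Ioi]
    tauto
  have eB : c * (∫ u in Ioi (0:ℝ), u ^ (s - 1) * Real.exp (-(((n+1:ℕ) : ℝ) * u)) * g u) =
      ∫ u in Ioi (0:ℝ), B u := by
    rw [hB, integral_const_mul]
  rw [eA, eB, ← integral_sub hAi hBi, ← int_maj hs hm]
  refine (norm_integral_le_integral_norm (f := fun u => A u - B u)
    (μ := volume.restrict (Ioi (0:ℝ)))).trans ?_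
  refine setIntegral_mono_on hAB.norm (ii_maj hs hm) measurableSet_Ioi fun u hu => ?_
  rw [Real.norm_eq_abs]
  exact hpt u hu

end

end Crest.Agent.R165.BrAx375
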