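import Mathlib
import Crest.Agent.R165.BrA_375

/-!
Row 165 (S0250), block U4 (helper375): leaf BrA of helper644, part 2: the complex closed forms and the
four asymptotic formulas.
-/

set_option autoImplicit false

open MeasureTheory Set Filter Topology

namespace Crest.Agent.R165.BrAx375

open Crest.Agent.R165.Pkx583 (rho rho_nonneg rho_le_one sin_ge sin_pos')
open Crest.Agent.R165.Br0x644 (amp amp_le amp_nonneg le_two_sin measurable_amp measurable_rho P ph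
  measurable_ph abs_ph_le one_div_sqrt)
open Crest.Agent.R165.Br1x644 (Pz)

noncomputable section

/-- the complex Laplace integral -/
theorem lapC {s b m : ℝ} (hs : 0 < s) (hm : 0 < m) :
    ∫ u in Ioi (0:ℝ), ((u ^ (s - 1) * Real.exp (-(m * u)) : ℝ) : ℂ) *
      Complex.exp (Complex.I * ((b * u - Real.pi / 4 : ℝ) : ℂ)) =
      Complex.exp (-(Complex.I * (Real.pi / 4 : ℝ))) * ((m - b * Complex.I : ℂ) ^ (-(s : ℂ)) * Real.Gamma s) := by
  have hre : 0 < (m - b * Complex.I : ℂ).re := by simpa using hm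
  have h0 : (m - b * Complex.I : ℂ) ≠ 0 := by
    intro h; rw [h] at hre; simp at hre
  have h1 := Crest.Agent.R086.Ext.Jc_zero (a := (s : ℂ)) (w := (m - b * Complex.I : ℂ))
    (by simpa using hs) hre
  have h2 : (m - b * Complex.I : ℂ) ^ (-(s : ℂ)) * Real.Gamma s =
      Crest.Agent.R086.Ext.Jc (s : ℂ) 0 (m - b * Complex.I : ℂ) := by
    rw [← Complex.Gamma_ofReal, ← h1, ← mul_assoc, ← Complex.cpow_add _ _ h0, neg_add_cancel,
      Complex.cpow_zero, one_mul]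
  rw [h2]
  unfold Crest.Agent.R086.Ext.Jc
  rw [← integral_const_mul]
  refine setIntegral_congr_fun measurableSet_Ioi fun u hu => ?_
  have hu' : (0:ℝ) < u := hu
  simp only [Crest.Agent.R086.Ext.jc, Complex.cpow_zero, mul_one]
  rw [Complex.ofReal_mul, Complex.ofReal_cpow hu'.le, Complex.ofReal_exp]
  have e : Complex.exp (-(Complex.I * (Real.pi / 4 : ℝ))) *
      Complex.exp (-((m - b * Complex.I : ℂ) * u)) =
      Complex.exp ((-(m * u) : ℝ) : ℂ) * Complex.exp (Complex.I * ((b * u - Real.pi / 4 : ℝ) : ℂ)) := by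
    rw [← Complex.exp_add, ← Complex.exp_add]
    congr 1
    push_cast
    ring
  have e2 : (((s - 1 : ℝ)) : ℂ) = (s : ℂ) - 1 := by push_cast; ring
  rw [e2]
  linear_combination (-((u:ℂ) ^ ((s:ℂ) - 1))) * e

theorem ii_lapC {s b m : ℝ} (hs : 0 < s) (hm : 0 < m) :
    IntegrableOn (fun u : ℝ => ((u ^ (s - 1) * Real.exp (-(m * u)) : ℝ) : ℂ) *
      Complex.exp (Complex.I * ((b * u - Real.pi / 4 : ℝ) : ℂ))) (Ioi 0) := by
  refine Integrable.mul_bdd (c := 1) (ii_gamma hs hm).ofReal ?_ ?_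
  · exact (by fun_prop : Measurable (fun u : ℝ =>
      Complex.exp (Complex.I * ((b * u - Real.pi / 4 : ℝ) : ℂ)))).aestronglyMeasurable
  · refine Filter.Eventually.of_forall fun u => ?_
    rw [mul_comm, Complex.norm_exp_ofReal_mul_I]

theorem lap_cos {s b m : ℝ} (hs : 0 < s) (hm : 0 < m) :
    ∫ u in Ioi (0:ℝ), u ^ (s - 1) * Real.exp (-(m * u)) * Real.cos (b * u - Real.pi / 4) =
      Real.Gamma s * (Complex.exp (-(Complex.I * (Real.pi / 4 : ℝ))) *
        (m - b * Complex.I : ℂ) ^ (-(s : ℂ))).re := by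
  have h := congrArg Complex.re (lapC (b := b) hs hm)
  have h2 := Complex.reCLM.integral_comp_comm (ii_lapC (b := b) hs hm)
  rw [Complex.reCLM_apply, h] at h2
  rw [show Real.Gamma s * (Complex.exp (-(Complex.I * (Real.pi / 4 : ℝ))) *
        (m - b * Complex.I : ℂ) ^ (-(s : ℂ))).re = (Complex.exp (-(Complex.I * (Real.pi / 4 : ℝ))) *
        ((m - b * Complex.I : ℂ) ^ (-(s : ℂ)) * Real.Gamma s)).re by
      rw [← mul_assoc, Complex.re_mul_ofReal, mul_comm], ← h2]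
  refine setIntegral_congr_fun measurableSet_Ioi fun u _ => ?_
  simp only [Complex.reCLM_apply, Complex.re_ofReal_mul]
  rw [mul_comm Complex.I, Complex.exp_ofReal_mul_I_re]

theorem lap_sin {s b m : ℝ} (hs : 0 < s) (hm : 0 < m) :
    ∫ u in Ioi (0:ℝ), u ^ (s - 1) * Real.exp (-(m * u)) * Real.sin (b * u - Real.pi / 4) =
      Real.Gamma s * (Complex.exp (-(Complex.I * (Real.pi / 4 : ℝ))) *
        (m - b * Complex.I : ℂ) ^ (-(s : ℂ))).im := by
  have h := congrArg Complex.im (lapC (b := b) hs hm)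
  have h2 := Complex.imCLM.integral_comp_comm (ii_lapC (b := b) hs hm)
  rw [Complex.imCLM_apply, h] at h2
  rw [show Real.Gamma s * (Complex.exp (-(Complex.I * (Real.pi / 4 : ℝ))) *
        (m - b * Complex.I : ℂ) ^ (-(s : ℂ))).im = (Complex.exp (-(Complex.I * (Real.pi / 4 : ℝ))) *
        ((m - b * Complex.I : ℂ) ^ (-(s : ℂ)) * Real.Gamma s)).im by
      rw [← mul_assoc, Complex.im_mul_ofReal, mul_comm], ← h2]
  refine setIntegral_congr_fun measurableSet_Ioi fun u _ => ?_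
  simp only [Complex.imCLM_apply, Complex.im_ofReal_mul]
  rw [mul_comm Complex.I, Complex.exp_ofReal_mul_I_im]

/-- shift of the frequency by a bounded amount -/
theorem cpow_shift {s m b k : ℝ} (hs : 0 < s) (hm : 0 < m) :
    ‖(m - b * Complex.I : ℂ) ^ (-(s : ℂ)) - (m - k * Complex.I : ℂ) ^ (-(s : ℂ))‖ ≤
      s * |b - k| / m ^ (s + 1) := by
  have hconv : Convex ℝ {w : ℂ | m ≤ w.re} := convex_halfSpace_re_ge m
  have hd : ∀ w ∈ {w : ℂ | m ≤ w.re}, HasDerivWithinAt (fun w : ℂ => w ^ (-(s:ℂ)))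
      (-(s:ℂ) * w ^ (-(s:ℂ) - 1)) {w : ℂ | m ≤ w.re} w := by
    intro w hw
    have hw' : 0 < w.re := lt_of_lt_of_le hm hw
    have h1 : HasDerivAt (fun w : ℂ => w ^ (-(s:ℂ))) (-(s:ℂ) * w ^ (-(s:ℂ) - 1) * 1) w :=
      (hasDerivAt_id w).cpow_const (Or.inl hw')
    rw [mul_one] at h1
    exact h1.hasDerivWithinAt
  have hb : ∀ w ∈ {w : ℂ | m ≤ w.re}, ‖-(s:ℂ) * w ^ (-(s:ℂ) - 1)‖ ≤ s / m ^ (s + 1) := by
    intro w hw
    have hw' : 0 < w.re := lt_of_lt_of_le hm hw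
    have hn : m ≤ ‖w‖ := le_trans hw (Complex.re_le_norm w)
    have hw0 : w ≠ 0 := by rintro rfl; simp at hw'
    have e1 : ‖w ^ (-(s:ℂ) - 1)‖ = ‖w‖ ^ (-(s + 1)) := by
      rw [show (-(s:ℂ) - 1) = ((-(s+1) : ℝ) : ℂ) by push_cast; ring,
        Complex.norm_cpow_real]
    rw [norm_mul, norm_neg, Complex.norm_real, Real.norm_eq_abs, abs_of_pos hs, e1, div_eq_mul_inv,
      ← Real.rpow_neg hm.le]
    exact mul_le_mul_of_nonneg_left (Real.rpow_le_rpow_of_nonpos hm hn (by linarith)) hs.le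
  have h := hconv.norm_image_sub_le_of_norm_hasDerivWithin_le hd hb
    (x := (m - k * Complex.I : ℂ)) (y := (m - b * Complex.I : ℂ)) (by simp) (by simp)
  refine h.trans (le_of_eq ?_)
  have : ‖(m - b * Complex.I : ℂ) - (m - k * Complex.I : ℂ)‖ = |b - k| := by
    rw [show (m - b * Complex.I : ℂ) - (m - k * Complex.I : ℂ) = ((k - b : ℝ) : ℂ) * Complex.I by
      push_cast; ring, norm_mul, Complex.norm_I, mul_one, Complex.norm_real, Real.norm_eq_abs,
      abs_sub_comm]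
  rw [this]
  ring

theorem norm_e4 : ‖Complex.exp (-(Complex.I * (Real.pi / 4 : ℝ)))‖ = 1 := by
  rw [show -(Complex.I * (Real.pi / 4 : ℝ)) = ((-(Real.pi/4) : ℝ) : ℂ) * Complex.I by
    push_cast; ring, Complex.norm_exp_ofReal_mul_I]

theorem two_div_pi_mul {t : ℝ} : (2 / Real.pi) * ((1 / √2) * (√Real.pi * t)) = √(2 / Real.pi) * t := by
  have h2 : (0:ℝ) < √2 := by positivity
  have hp : (0:ℝ) < √Real.pi := Real.sqrt_pos.2 Real.pi_pos
  have e1 : √2 * √2 = 2 := Real.mul_self_sqrt (by norm_num)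
  have e2 : √Real.pi * √Real.pi = Real.pi := Real.mul_self_sqrt Real.pi_pos.le
  rw [Real.sqrt_div (by norm_num)]
  have : (2 / Real.pi) * ((1 / √2) * (√Real.pi * t)) =
      (√2 * √2) / (√Real.pi * √Real.pi) * ((1 / √2) * (√Real.pi * t)) := by rw [e1, e2]
  rw [this]
  field_simp

/-- **(A)** asymptotics of `P k m` -/
theorem P_asymp : ∃ C : ℝ, 0 ≤ C ∧ ∀ (k : ℤ) (m : ℕ), 0 < m →
    |P k m - √(2 / Real.pi) * (Complex.exp (-(Complex.I * (Real.pi / 4 : ℝ))) *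
      ((m : ℝ) - (k : ℝ) * Complex.I : ℂ) ^ (-((1/2 : ℝ) : ℂ))).re| ≤ C / (m : ℝ) ^ (3/2 : ℝ) := by
  refine ⟨2 / Real.pi * KK (1/2) (1/√2) 2 + √(2 / Real.pi) * (1/4), ?_, ?_⟩
  · have : 0 ≤ KK (1/2) (1/√2) 2 := by
      unfold KK
      have g1 : 0 < Real.Gamma (1/2 + 1) := Real.Gamma_pos_of_pos (by norm_num)
      have g2 : 0 < Real.Gamma (1/2 + 2) := Real.Gamma_pos_of_pos (by norm_num)
      have := Real.pi_pos
      positivity
    have := Real.pi_pos
    positivity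
  · intro k m hm
    have hm' : (0:ℝ) < m := by exact_mod_cast hm
    have hpi := Real.pi_pos
    have h1 := compare (s := 1/2) (c := 1/√2) (C := 2) (by norm_num) (by positivity) (by norm_num)
      measurable_amp (fun u h0 h1 => amp_sub h0 h1) hm (measurable_ph k) (abs_ph_le k)
    have h2 := lap_cos (s := 1/2) (b := (k:ℝ) + 1/2) (m := (m:ℝ)) (by norm_num) hm'
    have h2' : (∫ u in Ioi (0:ℝ), u ^ ((1/2:ℝ) - 1) * Real.exp (-((m : ℝ) * u)) * ph k u) =
        √Real.pi * (Complex.exp (-(Complex.I * (Real.pi / 4 : ℝ))) *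
        (((m:ℝ):ℂ) - (((k:ℝ) + 1/2 : ℝ) : ℂ) * Complex.I : ℂ) ^ (-((1/2 : ℝ) : ℂ))).re := by
      rw [← Real.Gamma_one_half_eq, ← h2]
      rfl
    rw [h2'] at h1
    have h3 := cpow_shift (s := 1/2) (m := (m:ℝ)) (b := (k:ℝ) + 1/2) (k := (k:ℝ)) (by norm_num) hm'
    set E := Complex.exp (-(Complex.I * (Real.pi / 4 : ℝ))) with hE
    set W1 := (((m:ℝ):ℂ) - (((k:ℝ) + 1/2 : ℝ) : ℂ) * Complex.I : ℂ) ^ (-((1/2 : ℝ) : ℂ)) with hW1
    set W2 := (((m:ℝ):ℂ) - ((k:ℝ) : ℂ) * Complex.I : ℂ) ^ (-((1/2 : ℝ) : ℂ)) with hW2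
    have h4 : |(E * W1).re - (E * W2).re| ≤ 1 / 4 / (m:ℝ) ^ (3/2:ℝ) := by
      rw [← Complex.sub_re, ← mul_sub]
      refine (Complex.abs_re_le_norm _).trans ?_
      rw [norm_mul, hE, norm_e4, one_mul]
      refine h3.trans (le_of_eq ?_)
      rw [show (k:ℝ) + 1/2 - k = 1/2 by ring, show (1/2:ℝ) + 1 = 3/2 by norm_num]
      norm_num
    unfold P
    have h5 : (2 / Real.pi * ∫ u in (0:ℝ)..(Real.pi / 2), amp u * (rho u ^ m * ph k u)) -
        √(2 / Real.pi) * (E * W2).re =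
        2 / Real.pi * ((∫ u in (0:ℝ)..(Real.pi / 2), amp u * (rho u ^ m * ph k u)) -
          1 / √2 * (√Real.pi * (E * W1).re)) + √(2 / Real.pi) * ((E * W1).re - (E * W2).re) := by
      rw [mul_sub (2 / Real.pi), two_div_pi_mul]
      ring
    have e32 : (1/2:ℝ) + 1 = 3/2 := by norm_num
    rw [e32] at h1
    rw [h5]
    refine (abs_add_le _ _).trans ?_
    rw [abs_mul, abs_mul, abs_of_pos (show 0 < 2 / Real.pi by positivity),
      abs_of_nonneg (Real.sqrt_nonneg _)]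
    have a1 := mul_le_mul_of_nonneg_left h1 (show 0 ≤ 2 / Real.pi by positivity)
    have a2 := mul_le_mul_of_nonneg_left h4 (Real.sqrt_nonneg (2 / Real.pi))
    refine (add_le_add a1 a2).trans (le_of_eq ?_)
    ring

theorem amp_mul_sin {u : ℝ} (h0 : 0 < u) (h1 : u ≤ Real.pi / 2) :
    amp u * (2 * Real.sin u) = √(2 * Real.sin u) := by
  have hs : 0 < Real.sin u := sin_pos' h0 h1
  have hB : 0 < √(2 * Real.sin u) := Real.sqrt_pos.2 (by linarith)
  have e2 : √(2 * Real.sin u) * √(2 * Real.sin u) = 2 * Real.sin u :=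
    Real.mul_self_sqrt (by linarith)
  unfold amp
  rw [div_mul_eq_mul_div, one_mul, div_eq_iff hB.ne', e2]

/-- the difference along the diagonal -/
theorem P_diff (k : ℤ) (m : ℕ) :
    P (k - 2) m - P k m = (2 / Real.pi) * ∫ u in (0:ℝ)..(Real.pi / 2),
      √(2 * Real.sin u) * (rho u ^ m * Real.sin (((k:ℝ) - 1/2) * u - Real.pi / 4)) := by
  unfold P
  rw [← mul_sub, ← intervalIntegral.integral_sub (Br0x644.ii_P (k-2) m) (Br0x644.ii_P k m)]
  congr 1
  refine intervalIntegral.integral_congr_ae ?_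
  rw [uIoc_of_le (by positivity)]
  refine Filter.Eventually.of_forall fun u hu => ?_
  have e := amp_mul_sin hu.1 hu.2
  have e2 : ph (k-2) u - ph k u = 2 * Real.sin u * Real.sin (((k:ℝ) - 1/2) * u - Real.pi / 4) := by
    unfold ph
    push_cast
    have t1 : ((k:ℝ) - 2 + 1/2) * u - Real.pi / 4 = (((k:ℝ) - 1/2) * u - Real.pi / 4) - u := by ring
    have t2 : ((k:ℝ) + 1/2) * u - Real.pi / 4 = (((k:ℝ) - 1/2) * u - Real.pi / 4) + u := by ring
    rw [t1, t2, Real.cos_sub, Real.cos_add]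
    ring
  calc amp u * (rho u ^ m * ph (k-2) u) - amp u * (rho u ^ m * ph k u)
      = amp u * rho u ^ m * (ph (k-2) u - ph k u) := by ring
    _ = (amp u * (2 * Real.sin u)) * (rho u ^ m * Real.sin (((k:ℝ) - 1/2) * u - Real.pi / 4)) := by
        rw [e2]; ring
    _ = _ := by rw [e]

theorem two_div_pi_mul' {t : ℝ} :
    (2 / Real.pi) * (√2 * ((√Real.pi / 2) * t)) = √(2 / Real.pi) * t := by
  have h2 : (0:ℝ) < √2 := by positivity
  have hp : (0:ℝ) < √Real.pi := Real.sqrt_pos.2 Real.pi_pos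
  have e2 : √Real.pi * √Real.pi = Real.pi := Real.mul_self_sqrt Real.pi_pos.le
  rw [Real.sqrt_div (by norm_num)]
  have : (2 / Real.pi) * (√2 * ((√Real.pi / 2) * t)) =
      2 / (√Real.pi * √Real.pi) * (√2 * ((√Real.pi / 2) * t)) := by rw [e2]
  rw [this]
  field_simp

theorem Gamma_three_half : Real.Gamma (3/2) = √Real.pi / 2 := by
  rw [show (3/2:ℝ) = 1/2 + 1 by norm_num, Real.Gamma_add_one (by norm_num), Real.Gamma_one_half_eq]
  ring

/-- **(B)** asymptotics of the diagonal difference -/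
theorem P_diff_asymp : ∃ C : ℝ, 0 ≤ C ∧ ∀ (k : ℤ) (m : ℕ), 0 < m →
    |P (k-2) m - P k m - √(2 / Real.pi) * (Complex.exp (-(Complex.I * (Real.pi / 4 : ℝ))) *
      ((m : ℝ) - (k : ℝ) * Complex.I : ℂ) ^ (-((3/2 : ℝ) : ℂ))).im| ≤ C / (m : ℝ) ^ (5/2 : ℝ) := by
  refine ⟨2 / Real.pi * KK (3/2) (√2) 2 + √(2 / Real.pi) * (3/4), ?_, ?_⟩
  · have : 0 ≤ KK (3/2) (√2) 2 := by
      unfold KK
      have g1 : 0 < Real.Gamma (3/2 + 1) := Real.Gamma_pos_of_pos (by norm_num)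
      have g2 : 0 < Real.Gamma (3/2 + 2) := Real.Gamma_pos_of_pos (by norm_num)
      have := Real.pi_pos
      positivity
    have := Real.pi_pos
    positivity
  · intro k m hm
    have hm' : (0:ℝ) < m := by exact_mod_cast hm
    have hpi := Real.pi_pos
    have hmeas : Measurable (fun u : ℝ => Real.sin (((k:ℝ) - 1/2) * u - Real.pi / 4)) := by fun_prop
    have h1 := compare (s := 3/2) (c := √2) (C := 2) (F := fun u => √(2 * Real.sin u)) (by norm_num)
      (by positivity) (by norm_num)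
      (by fun_prop) (fun u h0 h1 => sqrt_amp_sub h0 h1) hm hmeas (fun u => Real.abs_sin_le_one _)
    have h2 := lap_sin (s := 3/2) (b := (k:ℝ) - 1/2) (m := (m:ℝ)) (by norm_num) hm'
    rw [h2, Gamma_three_half] at h1
    have h3 := cpow_shift (s := 3/2) (m := (m:ℝ)) (b := (k:ℝ) - 1/2) (k := (k:ℝ)) (by norm_num) hm'
    set E := Complex.exp (-(Complex.I * (Real.pi / 4 : ℝ))) with hE
    set W1 := (((m:ℝ):ℂ) - (((k:ℝ) - 1/2 : ℝ) : ℂ) * Complex.I : ℂ) ^ (-((3/2 : ℝ) : ℂ)) with hW1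
    set W2 := (((m:ℝ):ℂ) - ((k:ℝ) : ℂ) * Complex.I : ℂ) ^ (-((3/2 : ℝ) : ℂ)) with hW2
    have h4 : |(E * W1).im - (E * W2).im| ≤ 3 / 4 / (m:ℝ) ^ (5/2:ℝ) := by
      rw [← Complex.sub_im, ← mul_sub]
      refine (Complex.abs_im_le_norm _).trans ?_
      rw [norm_mul, hE, norm_e4, one_mul]
      refine h3.trans (le_of_eq ?_)
      rw [show (k:ℝ) - 1/2 - k = -(1/2) by ring, show (3/2:ℝ) + 1 = 5/2 by norm_num]
      norm_num
    rw [P_diff]
    set J := ∫ u in (0:ℝ)..(Real.pi / 2),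
      √(2 * Real.sin u) * (rho u ^ m * Real.sin (((k:ℝ) - 1/2) * u - Real.pi / 4)) with hJ
    have h5 : (2 / Real.pi * J) - √(2 / Real.pi) * (E * W2).im =
        2 / Real.pi * (J - √2 * (√Real.pi / 2 * (E * W1).im)) +
          √(2 / Real.pi) * ((E * W1).im - (E * W2).im) := by
      rw [mul_sub (2 / Real.pi), two_div_pi_mul']
      ring
    have e32 : (3/2:ℝ) + 1 = 5/2 := by norm_num
    rw [e32] at h1
    rw [h5]
    refine (abs_add_le _ _).trans ?_
    rw [abs_mul, abs_mul, abs_of_pos (show 0 < 2 / Real.pi by positivity),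
      abs_of_nonneg (Real.sqrt_nonneg _)]
    have a1 := mul_le_mul_of_nonneg_left h1 (show 0 ≤ 2 / Real.pi by positivity)
    have a2 := mul_le_mul_of_nonneg_left h4 (Real.sqrt_nonneg (2 / Real.pi))
    refine (add_le_add a1 a2).trans (le_of_eq ?_)
    ring

/-! ### the rotation by `π/4` -/

/-- `((1+i) z)^(-s) = 2^(-s/2) e^{-iπs/4} z^(-s)` when `Re ((1+i) z) > 0`. -/
theorem rot {z w : ℂ} (hw : 0 < w.re) (hz : w = (1 + Complex.I) * z) (s : ℝ) :
    w ^ (-(s:ℂ)) = ((2:ℝ) ^ (-(s/2)) : ℝ) * Complex.exp (-(Complex.I * (Real.pi * s / 4 : ℝ))) *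
      z ^ (-(s:ℂ)) := by
  have hw0 : w ≠ 0 := by rintro rfl; simp at hw
  have hz0 : z ≠ 0 := by rintro rfl; simp at hz; exact hw0 hz
  have hpi := Real.pi_pos
  have harg := Complex.abs_arg_lt_pi_div_two_iff.2 (Or.inl hw)
  have hlog : Complex.log z = Complex.log w - ((Real.log 2 / 2 : ℝ) : ℂ) -
      Complex.I * ((Real.pi / 4 : ℝ) : ℂ) := by
    have h1 : Complex.exp (Complex.log w - ((Real.log 2 / 2 : ℝ) : ℂ) -
      Complex.I * ((Real.pi / 4 : ℝ) : ℂ)) = z := by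
      rw [Complex.exp_sub, Complex.exp_sub, Complex.exp_log hw0]
      have e1 : Complex.exp ((Real.log 2 / 2 : ℝ) : ℂ) * Complex.exp (Complex.I * ((Real.pi / 4 : ℝ) : ℂ)) =
          1 + Complex.I := by
        have a1 : Real.exp (Real.log 2 / 2) = √2 := by
          rw [Real.exp_half, Real.exp_log (by norm_num)]
        rw [← Complex.ofReal_exp, a1, mul_comm Complex.I, Complex.exp_mul_I, ← Complex.ofReal_cos,
          ← Complex.ofReal_sin, Real.cos_pi_div_four, Real.sin_pi_div_four]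
        have a2 : (√2 : ℝ) * √2 = 2 := Real.mul_self_sqrt (by norm_num)
        have a3 : ((√2 : ℝ) : ℂ) * ((√2 : ℝ) : ℂ) = 2 := by
          rw [← Complex.ofReal_mul, a2]; norm_num
        push_cast
        linear_combination (1/2 + Complex.I / 2) * a3
      rw [div_div, e1, hz]
      have : (1 + Complex.I) ≠ 0 := by
        intro h; have := congrArg Complex.re h; simp at this
      field_simp
    have h2 := Complex.log_exp (x := Complex.log w - ((Real.log 2 / 2 : ℝ) : ℂ) -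
      Complex.I * ((Real.pi / 4 : ℝ) : ℂ)) ?_ ?_
    · rw [h1] at h2; exact h2
    · simp only [Complex.sub_im, Complex.log_im, Complex.ofReal_im, Complex.mul_im, Complex.I_re,
        Complex.I_im, Complex.ofReal_re]
      have := (abs_lt.1 harg).1
      linarith
    · simp only [Complex.sub_im, Complex.log_im, Complex.ofReal_im, Complex.mul_im, Complex.I_re,
        Complex.I_im, Complex.ofReal_re]
      have := (abs_lt.1 harg).2
      linarith
  rw [Complex.cpow_def_of_ne_zero hw0, Complex.cpow_def_of_ne_zero hz0, hlog,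
    Real.rpow_def_of_pos (by norm_num), Complex.ofReal_exp, ← Complex.exp_add, ← Complex.exp_add]
  congr 1
  push_cast
  ring

theorem rot_conj {z w : ℂ} (hw : 0 < w.re) (hz : w = (1 + Complex.I) * z) (s : ℝ) :
    (starRingEnd ℂ w) ^ (-(s:ℂ)) = starRingEnd ℂ (((2:ℝ) ^ (-(s/2)) : ℝ) *
      Complex.exp (-(Complex.I * (Real.pi * s / 4 : ℝ))) * z ^ (-(s:ℂ))) := by
  have harg := Complex.abs_arg_lt_pi_div_two_iff.2 (Or.inl hw)
  have h : w.arg ≠ Real.pi := by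
    have := (abs_lt.1 harg).2
    linarith [Real.pi_pos]
  rw [← rot hw hz s, Complex.conj_cpow w _ h]
  simp

/-- the constant `2^{1/4}/√π` -/
def kap : ℝ := (2:ℝ) ^ (1/4 : ℝ) / √Real.pi

theorem kap_one : √(2 / Real.pi) * (2:ℝ) ^ (-((1/2:ℝ)/2)) = kap := by
  have hp : (0:ℝ) < √Real.pi := Real.sqrt_pos.2 Real.pi_pos
  unfold kap
  rw [Real.sqrt_div (by norm_num), Real.sqrt_eq_rpow 2, div_mul_eq_mul_div,
    ← Real.rpow_add (by norm_num)]
  norm_num

theorem kap_two : √(2 / Real.pi) * (2:ℝ) ^ (-((3/2:ℝ)/2)) = kap / √2 := by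
  have hp : (0:ℝ) < √Real.pi := Real.sqrt_pos.2 Real.pi_pos
  unfold kap
  rw [Real.sqrt_div (by norm_num), Real.sqrt_eq_rpow 2, div_mul_eq_mul_div,
    ← Real.rpow_add (by norm_num)]
  have e : (2:ℝ) ^ (1/2 + -((3/2:ℝ)/2)) = (2:ℝ) ^ (1/4:ℝ) / (2:ℝ) ^ (1/2:ℝ) := by
    rw [← Real.rpow_sub (by norm_num)]
    norm_num
  rw [e]
  ring

/-- the point of the plane -/
def zz (x y : ℤ) : ℂ := ((x : ℝ) : ℂ) + ((y : ℝ) : ℂ) * Complex.I

theorem w_eq (x y : ℤ) : (((x - y : ℝ) : ℂ) + ((x + y : ℝ) : ℂ) * Complex.I) =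
    (1 + Complex.I) * zz x y := by
  unfold zz
  push_cast
  linear_combination (-((y:ℂ))) * Complex.I_mul_I

theorem exp_conj_re (t : ℝ) (v : ℂ) (r : ℝ) :
    (Complex.exp (-(Complex.I * (Real.pi / 4 : ℝ))) *
      starRingEnd ℂ ((r : ℂ) * Complex.exp (-(Complex.I * (t : ℂ))) * v)).re =
    r * (Complex.exp (Complex.I * ((Real.pi / 4 - t : ℝ) : ℂ)) * v).re := by
  have : (Complex.exp (-(Complex.I * (Real.pi / 4 : ℝ))) *
      starRingEnd ℂ ((r : ℂ) * Complex.exp (-(Complex.I * (t : ℂ))) * v)) =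
      starRingEnd ℂ ((r : ℂ) * (Complex.exp (Complex.I * ((Real.pi / 4 - t : ℝ) : ℂ)) * v)) := by
    rw [map_mul, map_mul, map_mul, map_mul, ← Complex.exp_conj, ← Complex.exp_conj,
      Complex.conj_ofReal]
    have e : Complex.exp (-(Complex.I * (Real.pi / 4 : ℝ))) *
        Complex.exp (starRingEnd ℂ (-(Complex.I * (t : ℂ)))) =
        Complex.exp (starRingEnd ℂ (Complex.I * ((Real.pi / 4 - t : ℝ) : ℂ))) := by
      rw [← Complex.exp_add]
      congr 1
      simp only [map_neg, map_mul, Complex.conj_I, Complex.conj_ofReal]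
      push_cast
      ring
    rw [← e]
    ring
  rw [this, Complex.conj_re, Complex.re_ofReal_mul]

theorem exp_conj_im (t : ℝ) (v : ℂ) (r : ℝ) :
    (Complex.exp (-(Complex.I * (Real.pi / 4 : ℝ))) *
      starRingEnd ℂ ((r : ℂ) * Complex.exp (-(Complex.I * (t : ℂ))) * v)).im =
    r * (Complex.exp (Complex.I * ((3 * Real.pi / 4 - t : ℝ) : ℂ)) * v).re := by
  have : (Complex.exp (-(Complex.I * (Real.pi / 4 : ℝ))) *
      starRingEnd ℂ ((r : ℂ) * Complex.exp (-(Complex.I * (t : ℂ))) * v)) =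
      starRingEnd ℂ ((r : ℂ) * (Complex.exp (Complex.I * ((Real.pi / 4 - t : ℝ) : ℂ)) * v)) := by
    rw [map_mul, map_mul, map_mul, map_mul, ← Complex.exp_conj, ← Complex.exp_conj,
      Complex.conj_ofReal]
    have e : Complex.exp (-(Complex.I * (Real.pi / 4 : ℝ))) *
        Complex.exp (starRingEnd ℂ (-(Complex.I * (t : ℂ)))) =
        Complex.exp (starRingEnd ℂ (Complex.I * ((Real.pi / 4 - t : ℝ) : ℂ))) := by
      rw [← Complex.exp_add]
      congr 1
      simp only [map_neg, map_mul, Complex.conj_I, Complex.conj_ofReal]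
      push_cast
      ring
    rw [← e]
    ring
  have e2 : Complex.exp (Complex.I * ((3 * Real.pi / 4 - t : ℝ) : ℂ)) =
      Complex.I * Complex.exp (Complex.I * ((Real.pi / 4 - t : ℝ) : ℂ)) := by
    rw [show Complex.I * ((3 * Real.pi / 4 - t : ℝ) : ℂ) =
      ((Real.pi / 2 : ℝ) : ℂ) * Complex.I + Complex.I * ((Real.pi / 4 - t : ℝ) : ℂ) by
        push_cast; ring, Complex.exp_add, Complex.exp_ofReal_mul_I]
    simp
  rw [this, Complex.conj_im, Complex.im_ofReal_mul, e2, mul_assoc, Complex.I_mul_re]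
  ring

theorem exp_re (t : ℝ) (v : ℂ) (r : ℝ) :
    (Complex.exp (-(Complex.I * (Real.pi / 4 : ℝ))) *
      ((r : ℂ) * Complex.exp (-(Complex.I * (t : ℂ))) * v)).re =
    r * (Complex.exp (-(Complex.I * ((Real.pi / 4 + t : ℝ) : ℂ))) * v).re := by
  have : (Complex.exp (-(Complex.I * (Real.pi / 4 : ℝ))) *
      ((r : ℂ) * Complex.exp (-(Complex.I * (t : ℂ))) * v)) =
      ((r : ℂ) * (Complex.exp (-(Complex.I * ((Real.pi / 4 + t : ℝ) : ℂ))) * v)) := by
    have e : Complex.exp (-(Complex.I * (Real.pi / 4 : ℝ))) *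
        Complex.exp (-(Complex.I * (t : ℂ))) =
        Complex.exp (-(Complex.I * ((Real.pi / 4 + t : ℝ) : ℂ))) := by
      rw [← Complex.exp_add]
      congr 1
      push_cast
      ring
    rw [← e]
    ring
  rw [this, Complex.re_ofReal_mul]

theorem exp_im (t : ℝ) (v : ℂ) (r : ℝ) :
    (Complex.exp (-(Complex.I * (Real.pi / 4 : ℝ))) *
      ((r : ℂ) * Complex.exp (-(Complex.I * (t : ℂ))) * v)).im =
    - (r * (Complex.exp (-(Complex.I * ((t - Real.pi / 4 : ℝ) : ℂ))) * v).re) := by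
  have : (Complex.exp (-(Complex.I * (Real.pi / 4 : ℝ))) *
      ((r : ℂ) * Complex.exp (-(Complex.I * (t : ℂ))) * v)) =
      ((r : ℂ) * (Complex.exp (-(Complex.I * ((Real.pi / 4 + t : ℝ) : ℂ))) * v)) := by
    have e : Complex.exp (-(Complex.I * (Real.pi / 4 : ℝ))) *
        Complex.exp (-(Complex.I * (t : ℂ))) =
        Complex.exp (-(Complex.I * ((Real.pi / 4 + t : ℝ) : ℂ))) := by
      rw [← Complex.exp_add]
      congr 1
      push_cast
      ring
    rw [← e]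
    ring
  have e2 : Complex.exp (-(Complex.I * ((t - Real.pi / 4 : ℝ) : ℂ))) =
      Complex.I * Complex.exp (-(Complex.I * ((Real.pi / 4 + t : ℝ) : ℂ))) := by
    rw [show -(Complex.I * ((t - Real.pi / 4 : ℝ) : ℂ)) =
      ((Real.pi / 2 : ℝ) : ℂ) * Complex.I + -(Complex.I * ((Real.pi / 4 + t : ℝ) : ℂ)) by
        push_cast; ring, Complex.exp_add, Complex.exp_ofReal_mul_I]
    simp
  rw [this, Complex.im_ofReal_mul, e2, mul_assoc, Complex.I_mul_re]
  ring

section main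

variable {x y : ℤ}

theorem w_re (h : y < x) : 0 < (((x - y : ℝ) : ℂ) + ((x + y : ℝ) : ℂ) * Complex.I).re := by
  have : (y : ℝ) < x := by exact_mod_cast h
  simp only [Complex.add_re, Complex.ofReal_re, Complex.mul_re, Complex.ofReal_im, Complex.I_re,
    Complex.I_im]
  linarith

theorem cast_m (h : y < x) : (((x - y).natAbs : ℕ) : ℝ) = (x:ℝ) - y := by
  have h1 : (((x - y).natAbs : ℕ) : ℤ) = x - y := by omega
  have h2 : (((x - y).natAbs : ℤ) : ℝ) = ((x - y : ℤ) : ℝ) := by rw [h1]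
  push_cast at h2
  simpa using h2

theorem conj_w (x y : ℤ) : (starRingEnd ℂ) (((x - y : ℝ) : ℂ) + ((x + y : ℝ) : ℂ) * Complex.I) =
    (((x - y : ℝ)) : ℂ) - (((x + y : ℤ) : ℝ) : ℂ) * Complex.I := by
  simp only [map_add, map_mul, Complex.conj_ofReal, Complex.conj_I]
  push_cast
  ring

theorem neg_w (x y : ℤ) : (((x - y : ℝ)) : ℂ) - (((-x + -y : ℤ) : ℝ) : ℂ) * Complex.I =
    (((x - y : ℝ) : ℂ) + ((x + y : ℝ) : ℂ) * Complex.I) := by
  push_cast
  ring

end main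

/-- **BrA.1** -/
theorem Pz_asymp1 : ∃ C : ℝ, 0 ≤ C ∧ ∀ x y : ℤ, y < x →
    |Pz x y - kap * (Complex.exp (Complex.I * ((Real.pi / 8 : ℝ) : ℂ)) *
      zz x y ^ (-((1/2 : ℝ) : ℂ))).re| ≤ C / ((x:ℝ) - y) ^ (3/2 : ℝ) := by
  obtain ⟨C, hC, H⟩ := P_asymp
  refine ⟨C, hC, fun x y h => ?_⟩
  have h1 := H (x + y) (x - y).natAbs (by omega)
  rw [cast_m h] at h1
  rw [← conj_w, rot_conj (w_re h) (w_eq x y), exp_conj_re, ← mul_assoc, kap_one] at h1
  unfold Pz
  rw [show Real.pi / 4 - Real.pi * (1/2) / 4 = Real.pi / 8 by ring] at h1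
  exact h1

/-- **BrA.2** -/
theorem Pz_asymp2 : ∃ C : ℝ, 0 ≤ C ∧ ∀ x y : ℤ, y < x →
    |Pz (x-1) (y-1) - Pz x y - kap / √2 * (Complex.exp (Complex.I * ((3 * Real.pi / 8 : ℝ) : ℂ)) *
      zz x y ^ (-((3/2 : ℝ) : ℂ))).re| ≤ C / ((x:ℝ) - y) ^ (5/2 : ℝ) := by
  obtain ⟨C, hC, H⟩ := P_diff_asymp
  refine ⟨C, hC, fun x y h => ?_⟩
  have h1 := H (x + y) (x - y).natAbs (by omega)
  rw [cast_m h] at h1
  rw [← conj_w, rot_conj (w_re h) (w_eq x y), exp_conj_im, ← mul_assoc, kap_two] at h1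
  unfold Pz
  rw [show 3 * Real.pi / 4 - Real.pi * (3/2) / 4 = 3 * Real.pi / 8 by ring] at h1
  rw [show x - 1 + (y - 1) = x + y - 2 by ring, show x - 1 - (y - 1) = x - y by ring]
  exact h1

/-- **BrA.3** -/
theorem Pz_asymp3 : ∃ C : ℝ, 0 ≤ C ∧ ∀ x y : ℤ, y < x →
    |Pz (-x) (-y) - kap * (Complex.exp (-(Complex.I * ((3 * Real.pi / 8 : ℝ) : ℂ))) *
      zz x y ^ (-((1/2 : ℝ) : ℂ))).re| ≤ C / ((x:ℝ) - y) ^ (3/2 : ℝ) := by
  obtain ⟨C, hC, H⟩ := P_asymp
  refine ⟨C, hC, fun x y h => ?_⟩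
  have h1 := H (-x + -y) (x - y).natAbs (by omega)
  rw [cast_m h] at h1
  rw [neg_w, rot (w_re h) (w_eq x y), exp_re, ← mul_assoc, kap_one] at h1
  unfold Pz
  rw [show Real.pi / 4 + Real.pi * (1/2) / 4 = 3 * Real.pi / 8 by ring] at h1
  rw [show (-x - -y).natAbs = (x - y).natAbs by omega]
  exact h1

/-- **BrA.4** -/
theorem Pz_asymp4 : ∃ C : ℝ, 0 ≤ C ∧ ∀ x y : ℤ, y < x →
    |Pz (-x) (-y) - Pz (-x-1) (-y-1) -
      kap / √2 * (Complex.exp (-(Complex.I * ((Real.pi / 8 : ℝ) : ℂ))) *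
      zz x y ^ (-((3/2 : ℝ) : ℂ))).re| ≤ C / ((x:ℝ) - y) ^ (5/2 : ℝ) := by
  obtain ⟨C, hC, H⟩ := P_diff_asymp
  refine ⟨C, hC, fun x y h => ?_⟩
  have h1 := H (-x + -y) (x - y).natAbs (by omega)
  rw [cast_m h] at h1
  rw [neg_w, rot (w_re h) (w_eq x y), exp_im, mul_neg, ← mul_assoc, kap_two] at h1
  unfold Pz
  rw [show Real.pi * (3/2) / 4 - Real.pi / 4 = Real.pi / 8 by ring] at h1
  rw [show (-x - -y).natAbs = (x - y).natAbs by omega, show (-x - 1 + (-y-1)) = -x + -y - 2 by ring,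
    show (-x - 1 - (-y-1)).natAbs = (x - y).natAbs by omega]
  rw [← abs_neg] at h1
  refine le_trans (le_of_eq ?_) h1
  congr 1
  ring

theorem half_cast : (-((1/2 : ℝ) : ℂ)) = (-1/2 : ℂ) := by push_cast; ring

theorem threehalf_cast : (-((3/2 : ℝ) : ℂ)) = (-3/2 : ℂ) := by push_cast; ring

/-- the four asymptotic formulas with one constant, in the notation of the leaf -/
theorem BrA : ∃ C : ℝ, 0 ≤ C ∧ ∀ x y : ℤ, y < x →
    |Pz x y - kap * (Complex.exp (Complex.I * Real.pi / 8) * zz x y ^ (-1/2 : ℂ)).re| ≤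
      C / ((x:ℝ) - y) ^ (3/2 : ℝ) ∧
    |Pz (x-1) (y-1) - Pz x y -
      kap / √2 * (Complex.exp (3 * Real.pi * Complex.I / 8) * zz x y ^ (-3/2 : ℂ)).re| ≤
      C / ((x:ℝ) - y) ^ (5/2 : ℝ) ∧
    |Pz (-x) (-y) - kap * (Complex.exp (-3 * Real.pi * Complex.I / 8) * zz x y ^ (-1/2 : ℂ)).re| ≤
      C / ((x:ℝ) - y) ^ (3/2 : ℝ) ∧
    |Pz (-x) (-y) - Pz (-x-1) (-y-1) -
      kap / √2 * (Complex.exp (-(Real.pi * Complex.I) / 8) * zz x y ^ (-3/2 : ℂ)).re| ≤
      C / ((x:ℝ) - y) ^ (5/2 : ℝ) := by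
  obtain ⟨C1, hC1, H1⟩ := Pz_asymp1
  obtain ⟨C2, hC2, H2⟩ := Pz_asymp2
  obtain ⟨C3, hC3, H3⟩ := Pz_asymp3
  obtain ⟨C4, hC4, H4⟩ := Pz_asymp4
  refine ⟨C1 + C2 + C3 + C4, by positivity, fun x y h => ?_⟩
  have hxy : (0:ℝ) < (x:ℝ) - y := by
    have : (y : ℝ) < x := by exact_mod_cast h
    linarith
  have p1 : 0 < ((x:ℝ) - y) ^ (3/2 : ℝ) := Real.rpow_pos_of_pos hxy _
  have p2 : 0 < ((x:ℝ) - y) ^ (5/2 : ℝ) := Real.rpow_pos_of_pos hxy _
  have h1 := H1 x y h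
  have h2 := H2 x y h
  have h3 := H3 x y h
  have h4 := H4 x y h
  rw [half_cast] at h1 h3
  rw [threehalf_cast] at h2 h4
  refine ⟨?_, ?_, ?_, ?_⟩
  · rw [show Complex.I * Real.pi / 8 = Complex.I * ((Real.pi / 8 : ℝ) : ℂ) by push_cast; ring]
    exact h1.trans (div_le_div_of_nonneg_right (by linarith) p1.le)
  · rw [show 3 * Real.pi * Complex.I / 8 = Complex.I * ((3 * Real.pi / 8 : ℝ) : ℂ) by
      push_cast; ring]
    exact h2.trans (div_le_div_of_nonneg_right (by linarith) p2.le)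
  · rw [show -3 * Real.pi * Complex.I / 8 = -(Complex.I * ((3 * Real.pi / 8 : ℝ) : ℂ)) by
      push_cast; ring]
    exact h3.trans (div_le_div_of_nonneg_right (by linarith) p1.le)
  · rw [show -(Real.pi * Complex.I) / 8 = -(Complex.I * ((Real.pi / 8 : ℝ) : ℂ)) by
      push_cast; ring]
    exact h4.trans (div_le_div_of_nonneg_right (by linarith) p2.le)

end

end Crest.Agent.R165.BrAx375
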