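import Mathlib
import Crest.Agent.R165.BrA2_375
import Crest.Agent.R165.Br5_644

/-!
Row 165 (S0250), block U4 (helper375): leaf BrA of helper644 in the literal form of `Br5x644.BrA`.
-/

set_option autoImplicit false

namespace Crest.Agent.R165.BrAx375

open Crest.Agent.R165.Br1x644 (Pz)

theorem zz_eq (x y : ℤ) : Br5x644.zz x y = zz x y := by
  unfold Br5x644.zz zz
  apply Complex.ext <;> simp

theorem kap_eq : Br5x644.kap = kap := rfl

theorem cos_3 : Real.cos (3 * Real.pi / 8) = Real.sin (Real.pi / 8) := by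
  rw [← Real.cos_pi_div_two_sub]; congr 1; ring

theorem sin_3 : Real.sin (3 * Real.pi / 8) = Real.cos (Real.pi / 8) := by
  rw [← Real.sin_pi_div_two_sub]; congr 1; ring

theorem e1 : Complex.exp (Complex.I * ((Real.pi / 8 : ℝ) : ℂ)) =
    ⟨Real.cos (Real.pi/8), Real.sin (Real.pi/8)⟩ := by
  rw [mul_comm, Complex.exp_ofReal_mul_I]
  apply Complex.ext <;> simp

theorem e2 : Complex.exp (Complex.I * ((3 * Real.pi / 8 : ℝ) : ℂ)) =
    ⟨Real.sin (Real.pi/8), Real.cos (Real.pi/8)⟩ := by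
  rw [mul_comm, Complex.exp_ofReal_mul_I, cos_3, sin_3]
  apply Complex.ext <;> simp

theorem e3 : Complex.exp (-(Complex.I * ((3 * Real.pi / 8 : ℝ) : ℂ))) =
    ⟨Real.sin (Real.pi/8), -Real.cos (Real.pi/8)⟩ := by
  rw [show -(Complex.I * ((3 * Real.pi / 8 : ℝ) : ℂ)) = ((-(3 * Real.pi / 8) : ℝ) : ℂ) * Complex.I by
    push_cast; ring, Complex.exp_ofReal_mul_I, Real.cos_neg, Real.sin_neg, cos_3, sin_3]
  apply Complex.ext <;> simp

theorem e4 : Complex.exp (-(Complex.I * ((Real.pi / 8 : ℝ) : ℂ))) =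
    ⟨Real.cos (Real.pi/8), -Real.sin (Real.pi/8)⟩ := by
  rw [show -(Complex.I * ((Real.pi / 8 : ℝ) : ℂ)) = ((-(Real.pi / 8) : ℝ) : ℂ) * Complex.I by
    push_cast; ring, Complex.exp_ofReal_mul_I, Real.cos_neg, Real.sin_neg]
  apply Complex.ext <;> simp

theorem hc1 : (-((1/2 : ℝ) : ℂ)) = (-(1/2) : ℂ) := by push_cast; ring

theorem hc3 : (-((3/2 : ℝ) : ℂ)) = (-(3/2) : ℂ) := by push_cast; ring

/-- **leaf BrA** in the form of helper644 -/
theorem brA : Br5x644.BrA := by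
  refine ⟨?_, ?_, ?_, ?_⟩
  · obtain ⟨C, _, H⟩ := Pz_asymp1
    refine ⟨C, fun x y h => ?_⟩
    have := H x y h
    rw [e1, hc1] at this
    rw [zz_eq, kap_eq]
    exact this
  · obtain ⟨C, _, H⟩ := Pz_asymp2
    refine ⟨C, fun x y h => ?_⟩
    have := H x y h
    rw [e2, hc3] at this
    rw [zz_eq, kap_eq]
    exact this
  · obtain ⟨C, _, H⟩ := Pz_asymp3
    refine ⟨C, fun x y h => ?_⟩
    have := H x y h
    rw [e3, hc1] at this
    rw [zz_eq, kap_eq]
    exact this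
  · obtain ⟨C, _, H⟩ := Pz_asymp4
    refine ⟨C, fun x y h => ?_⟩
    have := H x y h
    rw [e4, hc3] at this
    rw [zz_eq, kap_eq]
    exact this

end Crest.Agent.R165.BrAx375
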