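import Mathlib

/-!
# Row 165 (S0250), block R, leaf R-a (helper891, note 878): the exact identity (T+)

Faces `Face = ℤ × ℤ`, half-edges of a face indexed by `Fin 4` in the order `S, E, N, W`.
A background is a weight function `w : Face → Fin 4 → ℝ` (signed weight `y_e = s_e x_e` of the
dual edge through the half-edge `(f, h)`), symmetric under `bar` (`Sym w`).

* `A0`, `A w`: rows of the half-edge operator exactly as in TEXT J3 (note 824);
* `pt`: pointwise identity at one face, arbitrary weights;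
* `Tplus` / `Tloc`: the summed identities (T+), with and without a cut-off;
* `trace_le`: `|P_h φ|² + |φ|²_bd ≤ C |φ| |A φ|`.
-/

set_option autoImplicit false

noncomputable section

namespace Crest.Agent.R165.Tr1x40

open Finset

/-- faces -/
abbrev Face := ℤ × ℤ

/-- fields on half-edges -/
abbrev Fld := Face → Fin 4 → ℝ

/-- the critical weight `x_c = √2 - 1` -/
def xc : ℝ := Real.sqrt 2 - 1

theorem sq2 : Real.sqrt 2 * Real.sqrt 2 = 2 := Real.mul_self_sqrt (by norm_num)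

theorem sq2_pos : 0 < Real.sqrt 2 := Real.sqrt_pos.2 (by norm_num)

theorem one_lt_sq2 : 1 < Real.sqrt 2 := by
  rw [show (1 : ℝ) = Real.sqrt 1 by simp]
  exact Real.sqrt_lt_sqrt (by norm_num) (by norm_num)

theorem sq2_lt : Real.sqrt 2 < 3 / 2 := by
  rw [Real.sqrt_lt' (by norm_num)]; norm_num

theorem xc_pos : 0 < xc := by unfold xc; linarith [one_lt_sq2]

theorem xc_lt_half : xc < 1 / 2 := by unfold xc; linarith [sq2_lt]

theorem xc_lt_one : xc < 1 := by linarith [xc_lt_half]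

/-- `x² + 2x = 1` -/
theorem xc_sq : xc ^ 2 = 1 - 2 * xc := by unfold xc; nlinarith [sq2]

theorem xc_sq' : xc ^ 2 = 3 - 2 * Real.sqrt 2 := by unfold xc; nlinarith [sq2]

/-- neighbouring face across the half-edge `h` -/
def nb (f : Face) (h : Fin 4) : Face :=
  match h with
  | 0 => (f.1, f.2 - 1)
  | 1 => (f.1 + 1, f.2)
  | 2 => (f.1, f.2 + 1)
  | 3 => (f.1 - 1, f.2)

/-- opposite direction -/
def op (h : Fin 4) : Fin 4 :=
  match h with
  | 0 => 2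
  | 1 => 3
  | 2 => 0
  | 3 => 1

@[simp] theorem nb_zero (f : Face) : nb f 0 = (f.1, f.2 - 1) := rfl
@[simp] theorem nb_one (f : Face) : nb f 1 = (f.1 + 1, f.2) := rfl
@[simp] theorem nb_two (f : Face) : nb f 2 = (f.1, f.2 + 1) := rfl
@[simp] theorem nb_three (f : Face) : nb f 3 = (f.1 - 1, f.2) := rfl
@[simp] theorem op_zero : op 0 = 2 := rfl
@[simp] theorem op_one : op 1 = 3 := rfl
@[simp] theorem op_two : op 2 = 0 := rfl
@[simp] theorem op_three : op 3 = 1 := rfl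

@[simp] theorem op_op (h : Fin 4) : op (op h) = h := by fin_cases h <;> rfl

@[simp] theorem nb_nb_op (f : Face) (h : Fin 4) : nb (nb f h) (op h) = f := by
  fin_cases h <;> simp [nb, op]

/-- the partner half-edge, an involution of `Face × Fin 4` -/
def bar : Face × Fin 4 ≃ Face × Fin 4 where
  toFun g := (nb g.1 g.2, op g.2)
  invFun g := (nb g.1 g.2, op g.2)
  left_inv g := by simp
  right_inv g := by simp

theorem bar_apply (f : Face) (h : Fin 4) : bar (f, h) = (nb f h, op h) := rfl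

/-- sign of the edge entry in the row of the half-edge `h`: `+` for `S, E`, `-` for `N, W` -/
def sg (h : Fin 4) : ℝ :=
  match h with
  | 0 => 1
  | 1 => 1
  | 2 => -1
  | 3 => -1

@[simp] theorem sg_zero : sg 0 = 1 := rfl
@[simp] theorem sg_one : sg 1 = 1 := rfl
@[simp] theorem sg_two : sg 2 = -1 := rfl
@[simp] theorem sg_three : sg 3 = -1 := rfl

@[simp] theorem sg_sq (h : Fin 4) : sg h ^ 2 = 1 := by fin_cases h <;> simp [sg]
@[simp] theorem sg_op (h : Fin 4) : sg (op h) = -sg h := by fin_cases h <;> simp [sg, op]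

/-- intra-face part of a row -/
def A0 (p : Fin 4 → ℝ) (h : Fin 4) : ℝ :=
  match h with
  | 0 => p 1 + p 2 + p 3
  | 1 => -p 0 + p 2 + p 3
  | 2 => -p 0 - p 1 + p 3
  | 3 => -p 0 - p 1 - p 2

@[simp] theorem A0_zero (p : Fin 4 → ℝ) : A0 p 0 = p 1 + p 2 + p 3 := rfl
@[simp] theorem A0_one (p : Fin 4 → ℝ) : A0 p 1 = -p 0 + p 2 + p 3 := rfl
@[simp] theorem A0_two (p : Fin 4 → ℝ) : A0 p 2 = -p 0 - p 1 + p 3 := rfl
@[simp] theorem A0_three (p : Fin 4 → ℝ) : A0 p 3 = -p 0 - p 1 - p 2 := rfl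

/-- edge part of a row -/
def Y (w : Fld) (φ : Fld) (f : Face) (h : Fin 4) : ℝ := sg h * w f h * φ (nb f h) (op h)

/-- the half-edge operator, rows as in TEXT J3 -/
def A (w : Fld) (φ : Fld) (f : Face) (h : Fin 4) : ℝ := A0 (φ f) h + Y w φ f h

theorem A_S (w φ : Fld) (f : Face) :
    A w φ f 0 = φ f 1 + φ f 2 + φ f 3 + w f 0 * φ (f.1, f.2 - 1) 2 := by simp [A, Y]
theorem A_E (w φ : Fld) (f : Face) :
    A w φ f 1 = -φ f 0 + φ f 2 + φ f 3 + w f 1 * φ (f.1 + 1, f.2) 3 := by simp [A, Y]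
theorem A_N (w φ : Fld) (f : Face) :
    A w φ f 2 = -φ f 0 - φ f 1 + φ f 3 - w f 2 * φ (f.1, f.2 + 1) 0 := by simp [A, Y]; ring
theorem A_W (w φ : Fld) (f : Face) :
    A w φ f 3 = -φ f 0 - φ f 1 - φ f 2 - w f 3 * φ (f.1 - 1, f.2) 1 := by simp [A, Y]; ring

/-- symmetric weights (one signed weight per dual edge) -/
def Sym (w : Fld) : Prop := ∀ f h, w (nb f h) (op h) = w f h

/-- the weights given by `yE f` (dual edge `f, f + e₁`) and `yN f` (dual edge `f, f + e₂`) -/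
def ofEN (yE yN : Face → ℝ) : Fld := fun f h =>
  match h with
  | 0 => yN (f.1, f.2 - 1)
  | 1 => yE f
  | 2 => yN f
  | 3 => yE (f.1 - 1, f.2)

theorem sym_ofEN (yE yN : Face → ℝ) : Sym (ofEN yE yN) := by
  intro f h; fin_cases h <;> simp [ofEN, nb, op]

/-- `|p|²` -/
def nsq (p : Fin 4 → ℝ) : ℝ := ∑ h, p h ^ 2

theorem nsq_nonneg (p : Fin 4 → ℝ) : 0 ≤ nsq p := sum_nonneg fun _ _ => sq_nonneg _

theorem nsq_eq (p : Fin 4 → ℝ) : nsq p = p 0 ^ 2 + p 1 ^ 2 + p 2 ^ 2 + p 3 ^ 2 := by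
  simp [nsq, Fin.sum_univ_four]

/-- the signed four cycle -/
def cyc (p : Fin 4 → ℝ) : ℝ := p 0 * p 1 + p 1 * p 2 + p 2 * p 3 - p 3 * p 0

/-- `|P_h p|²`, squared norm of the heavy part -/
def hv (p : Fin 4 → ℝ) : ℝ := nsq p / 2 + cyc p / Real.sqrt 2

/-- `|P_l p|²`, squared norm of the light part -/
def lt (p : Fin 4 → ℝ) : ℝ := nsq p / 2 - cyc p / Real.sqrt 2

/-- heavy projection -/
def Ph (p : Fin 4 → ℝ) (h : Fin 4) : ℝ :=
  match h with
  | 0 => p 0 / 2 + (p 1 - p 3) / (2 * Real.sqrt 2)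
  | 1 => p 1 / 2 + (p 0 + p 2) / (2 * Real.sqrt 2)
  | 2 => p 2 / 2 + (p 1 + p 3) / (2 * Real.sqrt 2)
  | 3 => p 3 / 2 + (p 2 - p 0) / (2 * Real.sqrt 2)

/-- light projection -/
def Pl (p : Fin 4 → ℝ) (h : Fin 4) : ℝ :=
  match h with
  | 0 => p 0 / 2 - (p 1 - p 3) / (2 * Real.sqrt 2)
  | 1 => p 1 / 2 - (p 0 + p 2) / (2 * Real.sqrt 2)
  | 2 => p 2 / 2 - (p 1 + p 3) / (2 * Real.sqrt 2)
  | 3 => p 3 / 2 - (p 2 - p 0) / (2 * Real.sqrt 2)

theorem inv_sq2 : 1 / Real.sqrt 2 = Real.sqrt 2 / 2 := by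
  rw [div_eq_div_iff (ne_of_gt sq2_pos) (by norm_num)]; linarith [sq2]

theorem inv_2sq2 (a : ℝ) : a / (2 * Real.sqrt 2) = a * Real.sqrt 2 / 4 := by
  rw [div_eq_div_iff (by positivity) (by norm_num)]; linear_combination (-2 * a) * sq2

theorem div_sq2 (a : ℝ) : a / Real.sqrt 2 = a * Real.sqrt 2 / 2 := by
  rw [div_eq_div_iff (ne_of_gt sq2_pos) (by norm_num)]; linear_combination (-a) * sq2

theorem Ph_add_Pl (p : Fin 4 → ℝ) (h : Fin 4) : Ph p h + Pl p h = p h := by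
  fin_cases h <;> simp [Ph, Pl]

theorem hv_eq_nsq (p : Fin 4 → ℝ) : hv p = nsq (Ph p) := by
  have h2 := sq2
  simp only [hv, nsq_eq, cyc, Ph, div_sq2, inv_2sq2]
  linear_combination (-(1/16) * ((p 1 - p 3)^2 + (p 0 + p 2)^2 + (p 1 + p 3)^2 + (p 2 - p 0)^2)) * h2

theorem lt_eq_nsq (p : Fin 4 → ℝ) : lt p = nsq (Pl p) := by
  have h2 := sq2
  simp only [lt, nsq_eq, cyc, Pl, div_sq2, inv_2sq2]
  linear_combination (-(1/16) * ((p 1 - p 3)^2 + (p 0 + p 2)^2 + (p 1 + p 3)^2 + (p 2 - p 0)^2)) * h2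

theorem hv_nonneg (p : Fin 4 → ℝ) : 0 ≤ hv p := by rw [hv_eq_nsq]; exact nsq_nonneg _

theorem lt_nonneg (p : Fin 4 → ℝ) : 0 ≤ lt p := by rw [lt_eq_nsq]; exact nsq_nonneg _

theorem hv_add_lt (p : Fin 4 → ℝ) : hv p + lt p = nsq p := by simp [hv, lt]

theorem hv_le (p : Fin 4 → ℝ) : hv p ≤ nsq p := by linarith [lt_nonneg p, hv_add_lt p]

theorem lt_le (p : Fin 4 → ℝ) : lt p ≤ nsq p := by linarith [hv_nonneg p, hv_add_lt p]

/-- `|A0 p|² = x²|P_l p|² + x⁻²|P_h p|²`, with `x² = 3 - 2√2`, `x⁻² = 3 + 2√2` -/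
theorem nsq_A0 (p : Fin 4 → ℝ) :
    nsq (A0 p) = (3 - 2 * Real.sqrt 2) * lt p + (3 + 2 * Real.sqrt 2) * hv p := by
  have h2 := sq2
  simp only [hv, lt, nsq_eq, cyc, A0, div_sq2]
  linear_combination (-2 * (p 0 * p 1 + p 1 * p 2 + p 2 * p 3 - p 3 * p 0)) * h2

theorem nsq_A0' (p : Fin 4 → ℝ) :
    nsq (A0 p) = xc ^ 2 * nsq p + 4 * Real.sqrt 2 * hv p := by
  rw [nsq_A0, xc_sq', ← hv_add_lt]; ring

/-- `|A0 p|² ≤ x⁻² |p|² = (3 + 2√2)|p|²` -/
theorem nsq_A0_le (p : Fin 4 → ℝ) : nsq (A0 p) ≤ (3 + 2 * Real.sqrt 2) * nsq p := by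
  rw [nsq_A0, ← hv_add_lt]
  nlinarith [lt_nonneg p, sq2_pos]

theorem nsq_A0_ge (p : Fin 4 → ℝ) : xc ^ 2 * nsq p ≤ nsq (A0 p) := by
  rw [nsq_A0']; nlinarith [hv_nonneg p, sq2_pos]

/-- `∑_h w_h² φ_{h̄}²` at a face -/
theorem nsq_Y (w φ : Fld) (f : Face) :
    nsq (Y w φ f) = ∑ h, w f h ^ 2 * φ (nb f h) (op h) ^ 2 := by
  unfold nsq Y
  refine sum_congr rfl fun h _ => ?_
  rw [mul_pow, mul_pow, sg_sq, one_mul]

/-- **pointwise identity** at a face, arbitrary weights, arbitrary field -/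
theorem pt (w φ : Fld) (f : Face) :
    4 * Real.sqrt 2 * hv (φ f) + ∑ h, (xc ^ 2 - w f h ^ 2) * φ f h ^ 2
        + ∑ h, w f h ^ 2 * (φ f h ^ 2 - φ (nb f h) (op h) ^ 2)
      = 2 * ∑ h, A0 (φ f) h * A w φ f h - nsq (A w φ f) := by
  have e1 : nsq (A w φ f) = nsq (A0 (φ f)) + 2 * ∑ h, A0 (φ f) h * Y w φ f h + nsq (Y w φ f) := by
    simp only [nsq, A, mul_sum, ← sum_add_distrib]
    exact sum_congr rfl fun h _ => by ring
  have e2 : ∑ h, A0 (φ f) h * A w φ f h = nsq (A0 (φ f)) + ∑ h, A0 (φ f) h * Y w φ f h := by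
    simp only [nsq, A, ← sum_add_distrib]
    exact sum_congr rfl fun h _ => by ring
  have e3 := nsq_A0' (φ f)
  have e4 := nsq_Y w φ f
  have e5 : ∑ h, (xc ^ 2 - w f h ^ 2) * φ f h ^ 2
        + ∑ h, w f h ^ 2 * (φ f h ^ 2 - φ (nb f h) (op h) ^ 2)
      = xc ^ 2 * nsq (φ f) - ∑ h, w f h ^ 2 * φ (nb f h) (op h) ^ 2 := by
    simp only [nsq, mul_sum, ← sum_add_distrib, ← sum_sub_distrib]
    exact sum_congr rfl fun h _ => by ring
  rw [add_assoc, e5, e2, e1, e3, e4]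
  ring

/-! ### summation over faces -/

/-- reindexing by `bar` for finitely supported functions -/
theorem sum_bar (K : Finset Face) (F : Face → Fin 4 → ℝ)
    (h1 : ∀ f, f ∉ K → ∀ h, F f h = 0) (h2 : ∀ f, f ∉ K → ∀ h, F (nb f h) (op h) = 0) :
    ∑ f ∈ K, ∑ h, F (nb f h) (op h) = ∑ f ∈ K, ∑ h, F f h := by
  classical
  rw [← sum_product', ← sum_product']
  have a1 : ∑ g ∈ K ×ˢ (univ : Finset (Fin 4)), F (nb g.1 g.2) (op g.2)
      = ∑ᶠ g : Face × Fin 4, F (bar g).1 (bar g).2 := by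
    symm
    apply finsum_eq_sum_of_support_subset
    intro g hg
    simp only [coe_product, coe_univ, Set.mem_prod, mem_coe, Set.mem_univ, and_true]
    by_contra hc
    exact hg (h2 g.1 hc g.2)
  have a2 : ∑ g ∈ K ×ˢ (univ : Finset (Fin 4)), F g.1 g.2 = ∑ᶠ g : Face × Fin 4, F g.1 g.2 := by
    symm
    apply finsum_eq_sum_of_support_subset
    intro g hg
    simp only [coe_product, coe_univ, Set.mem_prod, mem_coe, Set.mem_univ, and_true]
    by_contra hc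
    exact hg (h1 g.1 hc g.2)
  rw [a1, a2]
  exact finsum_comp_equiv (f := fun g : Face × Fin 4 => F g.1 g.2) bar

/-- **(T+), localised with a cut-off** `c` (think `c = χ²`), arbitrary weights and field; `K` is
any finite set outside of which `c` and its neighbours vanish. -/
theorem Tloc (w φ : Fld) (hw : Sym w) (c : Face → ℝ) (K : Finset Face)
    (h1 : ∀ f, f ∉ K → c f = 0) (h2 : ∀ f, f ∉ K → ∀ h, c (nb f h) = 0) :
    ∑ f ∈ K, c f * (4 * Real.sqrt 2 * hv (φ f) + ∑ h, (xc ^ 2 - w f h ^ 2) * φ f h ^ 2)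
      = ∑ f ∈ K, c f * (2 * ∑ h, A0 (φ f) h * A w φ f h - nsq (A w φ f))
        + ∑ f ∈ K, ∑ h, (c (nb f h) - c f) * (w f h ^ 2 * φ f h ^ 2) := by
  have key : ∑ f ∈ K, ∑ h, c f * (w f h ^ 2 * φ (nb f h) (op h) ^ 2)
      = ∑ f ∈ K, ∑ h, c (nb f h) * (w f h ^ 2 * φ f h ^ 2) := by
    have := sum_bar K (fun f h => c (nb f h) * (w f h ^ 2 * φ f h ^ 2))
      (fun f hf h => by rw [h2 f hf h, zero_mul])
      (fun f hf h => by rw [nb_nb_op, h1 f hf, zero_mul])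
    rw [← this]
    refine sum_congr rfl fun f _ => sum_congr rfl fun h _ => ?_
    rw [nb_nb_op, hw f h]
  have key2 : ∀ f ∈ K, c f * (4 * Real.sqrt 2 * hv (φ f) + ∑ h, (xc ^ 2 - w f h ^ 2) * φ f h ^ 2)
      = c f * (2 * ∑ h, A0 (φ f) h * A w φ f h - nsq (A w φ f))
        + (∑ h, c f * (w f h ^ 2 * φ (nb f h) (op h) ^ 2) - ∑ h, c f * (w f h ^ 2 * φ f h ^ 2)) := by
    intro f _
    rw [← pt w φ f]
    have : ∑ h, w f h ^ 2 * (φ f h ^ 2 - φ (nb f h) (op h) ^ 2)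
        = ∑ h, w f h ^ 2 * φ f h ^ 2 - ∑ h, w f h ^ 2 * φ (nb f h) (op h) ^ 2 := by
      rw [← sum_sub_distrib]; exact sum_congr rfl fun h _ => by ring
    rw [this, ← mul_sum, ← mul_sum]
    ring
  rw [sum_congr rfl key2, sum_add_distrib, sum_sub_distrib, key]
  congr 1
  rw [← sum_sub_distrib]
  refine sum_congr rfl fun f _ => ?_
  rw [← sum_sub_distrib]
  exact sum_congr rfl fun h _ => by ring

/-- **(T+)**, arbitrary weights: `φ` and `A w φ` vanish off `K`. -/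
theorem Tplus (w φ : Fld) (hw : Sym w) (K : Finset Face)
    (h1 : ∀ f, f ∉ K → ∀ h, φ f h = 0)
    (h2 : ∀ f, f ∉ K → ∀ h, w f h * φ (nb f h) (op h) = 0) :
    ∑ f ∈ K, (4 * Real.sqrt 2 * hv (φ f) + ∑ h, (xc ^ 2 - w f h ^ 2) * φ f h ^ 2)
      = 2 * ∑ f ∈ K, ∑ h, A0 (φ f) h * A w φ f h - ∑ f ∈ K, nsq (A w φ f) := by
  have key : ∑ f ∈ K, ∑ h, w f h ^ 2 * φ (nb f h) (op h) ^ 2
      = ∑ f ∈ K, ∑ h, w f h ^ 2 * φ f h ^ 2 := by
    have := sum_bar K (fun f h => w f h ^ 2 * φ f h ^ 2)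
      (fun f hf h => by rw [h1 f hf h]; ring)
      (fun f hf h => by
        rw [hw f h, ← mul_pow, h2 f hf h]; ring)
    rw [← this]
    refine sum_congr rfl fun f _ => sum_congr rfl fun h _ => ?_
    rw [hw f h]
  have key2 : ∀ f ∈ K, (4 * Real.sqrt 2 * hv (φ f) + ∑ h, (xc ^ 2 - w f h ^ 2) * φ f h ^ 2)
      = (2 * ∑ h, A0 (φ f) h * A w φ f h - nsq (A w φ f))
        + (∑ h, (w f h ^ 2 * φ (nb f h) (op h) ^ 2) - ∑ h, (w f h ^ 2 * φ f h ^ 2)) := by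
    intro f _
    rw [← pt w φ f]
    have : ∑ h, w f h ^ 2 * (φ f h ^ 2 - φ (nb f h) (op h) ^ 2)
        = ∑ h, w f h ^ 2 * φ f h ^ 2 - ∑ h, w f h ^ 2 * φ (nb f h) (op h) ^ 2 := by
      rw [← sum_sub_distrib]; exact sum_congr rfl fun h _ => by ring
    rw [this]
    ring
  rw [sum_congr rfl key2, sum_add_distrib, sum_sub_distrib, sum_sub_distrib, key, mul_sum]
  ring

/-- weights of a plus background: every half-edge has `|w| = x_c` or `w = 0` -/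
def IsPlus (w : Fld) : Prop := ∀ f h, w f h ^ 2 = xc ^ 2 ∨ w f h = 0

/-- `|φ|²_bd` at a face: half-edges with weight `0` -/
def bd (w φ : Fld) (f : Face) : ℝ := ∑ h, if w f h = 0 then φ f h ^ 2 else 0

theorem bd_nonneg (w φ : Fld) (f : Face) : 0 ≤ bd w φ f :=
  sum_nonneg fun h _ => by split_ifs <;> positivity

theorem bd_le (w φ : Fld) (f : Face) : bd w φ f ≤ nsq (φ f) :=
  sum_le_sum fun h _ => by split_ifs <;> [exact le_refl _; positivity]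

theorem bd_eq {w : Fld} (hw : IsPlus w) (φ : Fld) (f : Face) :
    ∑ h, (xc ^ 2 - w f h ^ 2) * φ f h ^ 2 = xc ^ 2 * bd w φ f := by
  unfold bd
  rw [mul_sum]
  refine sum_congr rfl fun h _ => ?_
  have hx := xc_pos
  rcases hw f h with h0 | h0
  · rw [h0]
    have : w f h ≠ 0 := by
      intro hh; rw [hh] at h0; nlinarith
    simp [this]
  · simp [h0]

theorem sum_mul_le (K : Finset Face) (φ ψ : Fld) :
    |∑ f ∈ K, ∑ h, φ f h * ψ f h| ≤
      Real.sqrt (∑ f ∈ K, nsq (φ f)) * Real.sqrt (∑ f ∈ K, nsq (ψ f)) := by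
  classical
  unfold nsq
  rw [← sum_product', ← sum_product', ← sum_product', abs_le]
  constructor
  · have := Real.sum_mul_le_sqrt_mul_sqrt (K ×ˢ (univ : Finset (Fin 4)))
      (fun g => -φ g.1 g.2) (fun g => ψ g.1 g.2)
    simp only [neg_mul, sum_neg_distrib, neg_sq] at this
    linarith
  · exact Real.sum_mul_le_sqrt_mul_sqrt (K ×ˢ (univ : Finset (Fin 4)))
      (fun g => φ g.1 g.2) (fun g => ψ g.1 g.2)

theorem three_lt : Real.sqrt (3 + 2 * Real.sqrt 2) = 1 + Real.sqrt 2 := by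
  rw [Real.sqrt_eq_iff_mul_self_eq (by positivity) (by positivity)]
  nlinarith [sq2]

/-- **TRACE**: `4√2 |P_h φ|² + x² |φ|²_bd + |Aφ|² ≤ 2 (1 + √2) |φ| |A φ|` (the sharp form) -/
theorem trace_sharp {w : Fld} (hs : Sym w) (hp : IsPlus w) (φ : Fld) (K : Finset Face)
    (h1 : ∀ f, f ∉ K → ∀ h, φ f h = 0)
    (h2 : ∀ f, f ∉ K → ∀ h, w f h * φ (nb f h) (op h) = 0) :
    4 * Real.sqrt 2 * ∑ f ∈ K, hv (φ f) + xc ^ 2 * ∑ f ∈ K, bd w φ f + ∑ f ∈ K, nsq (A w φ f)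
      ≤ 2 * (1 + Real.sqrt 2) *
        (Real.sqrt (∑ f ∈ K, nsq (φ f)) * Real.sqrt (∑ f ∈ K, nsq (A w φ f))) := by
  have hT := Tplus w φ hs K h1 h2
  have e : ∑ f ∈ K, (4 * Real.sqrt 2 * hv (φ f) + ∑ h, (xc ^ 2 - w f h ^ 2) * φ f h ^ 2)
      = 4 * Real.sqrt 2 * ∑ f ∈ K, hv (φ f) + xc ^ 2 * ∑ f ∈ K, bd w φ f := by
    rw [sum_add_distrib, mul_sum, mul_sum]
    congr 1
    exact sum_congr rfl fun f _ => bd_eq hp φ f
  rw [e] at hT
  have hA := (abs_le.1 (sum_mul_le K (fun f h => A0 (φ f) h) (A w φ))).2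
  have hA0 : Real.sqrt (∑ f ∈ K, nsq (fun h => A0 (φ f) h))
      ≤ (1 + Real.sqrt 2) * Real.sqrt (∑ f ∈ K, nsq (φ f)) := by
    rw [← three_lt, ← Real.sqrt_mul (by positivity), mul_sum]
    apply Real.sqrt_le_sqrt
    exact sum_le_sum fun f _ => nsq_A0_le (φ f)
  have hB : Real.sqrt (∑ f ∈ K, nsq (fun h => A0 (φ f) h)) * Real.sqrt (∑ f ∈ K, nsq (A w φ f))
      ≤ (1 + Real.sqrt 2) * (Real.sqrt (∑ f ∈ K, nsq (φ f)) *
        Real.sqrt (∑ f ∈ K, nsq (A w φ f))) := by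
    rw [← mul_assoc]
    exact mul_le_mul_of_nonneg_right hA0 (Real.sqrt_nonneg _)
  linarith

/-- **TRACE**: `|P_h φ|² + |φ|²_bd ≤ 30 |φ| |A φ|` -/
theorem trace_le {w : Fld} (hs : Sym w) (hp : IsPlus w) (φ : Fld) (K : Finset Face)
    (h1 : ∀ f, f ∉ K → ∀ h, φ f h = 0)
    (h2 : ∀ f, f ∉ K → ∀ h, w f h * φ (nb f h) (op h) = 0) :
    ∑ f ∈ K, hv (φ f) + ∑ f ∈ K, bd w φ f ≤
      30 * (Real.sqrt (∑ f ∈ K, nsq (φ f)) * Real.sqrt (∑ f ∈ K, nsq (A w φ f))) := by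
  have h := trace_sharp hs hp φ K h1 h2
  have p1 : 0 ≤ ∑ f ∈ K, hv (φ f) := sum_nonneg fun f _ => hv_nonneg _
  have p2 : 0 ≤ ∑ f ∈ K, bd w φ f := sum_nonneg fun f _ => bd_nonneg _ _ _
  have p3 : 0 ≤ ∑ f ∈ K, nsq (A w φ f) := sum_nonneg fun f _ => nsq_nonneg _
  have p4 : 0 ≤ Real.sqrt (∑ f ∈ K, nsq (φ f)) * Real.sqrt (∑ f ∈ K, nsq (A w φ f)) := by
    positivity
  set P := Real.sqrt (∑ f ∈ K, nsq (φ f)) * Real.sqrt (∑ f ∈ K, nsq (A w φ f))
  have hx : (1 : ℝ) / 6 ≤ xc ^ 2 := by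
    rw [xc_sq']
    have : Real.sqrt 2 ≤ 17 / 12 := by
      rw [Real.sqrt_le_left (by norm_num)]; norm_num
    linarith
  have h14 : Real.sqrt 2 ≤ 17 / 12 := by
    rw [Real.sqrt_le_left (by norm_num)]; norm_num
  have h1s := one_lt_sq2
  have q1 : (1 : ℝ) / 6 * (∑ f ∈ K, hv (φ f) + ∑ f ∈ K, bd w φ f)
      ≤ 4 * Real.sqrt 2 * ∑ f ∈ K, hv (φ f) + xc ^ 2 * ∑ f ∈ K, bd w φ f := by
    nlinarith
  have q2 : 2 * (1 + Real.sqrt 2) * P ≤ 29 / 6 * P := by nlinarith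
  nlinarith

/-- uniqueness: `A w φ = 0` with `φ` finitely supported forces the heavy part and the boundary
values to vanish -/
theorem hv_eq_zero_of_A {w : Fld} (hs : Sym w) (hp : IsPlus w) (φ : Fld) (K : Finset Face)
    (h1 : ∀ f, f ∉ K → ∀ h, φ f h = 0)
    (h2 : ∀ f, f ∉ K → ∀ h, w f h * φ (nb f h) (op h) = 0)
    (h0 : ∀ f ∈ K, ∀ h, A w φ f h = 0) :
    (∀ f, hv (φ f) = 0) ∧ ∀ f, bd w φ f = 0 := by
  have h := trace_le hs hp φ K h1 h2
  have z : ∑ f ∈ K, nsq (A w φ f) = 0 :=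
    sum_eq_zero fun f hf => by
      rw [nsq_eq]; simp only [h0 f hf]; ring
  rw [z, Real.sqrt_zero, mul_zero, mul_zero] at h
  have p1 : 0 ≤ ∑ f ∈ K, hv (φ f) := sum_nonneg fun f _ => hv_nonneg _
  have p2 : 0 ≤ ∑ f ∈ K, bd w φ f := sum_nonneg fun f _ => bd_nonneg _ _ _
  have z1 : ∑ f ∈ K, hv (φ f) = 0 := by linarith
  have z2 : ∑ f ∈ K, bd w φ f = 0 := by linarith
  rw [sum_eq_zero_iff_of_nonneg fun f _ => hv_nonneg _] at z1
  rw [sum_eq_zero_iff_of_nonneg fun f _ => bd_nonneg _ _ _] at z2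
  constructor
  · intro f
    by_cases hf : f ∈ K
    · exact z1 f hf
    · have : φ f = 0 := funext fun h => h1 f hf h
      rw [this]; simp [hv, nsq, cyc]
  · intro f
    by_cases hf : f ∈ K
    · exact z2 f hf
    · simp [bd, h1 f hf]

end Crest.Agent.R165.Tr1x40
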