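import Crest.Agent.R165.PotB_894
import Crest.Agent.R165.Tr1_40

/-!
# R165 / LimA (helper894): interior estimates for exact solutions in a plane-gauge box

`ψ` solves the critical plane equation on `Q f 1` ⇒ each component is 5-point harmonic at `f`
(`lap_comp`), the heavy part is a first difference (`Ph_eq`), the light part of the row equation
is the discrete `∂̄` relation (`dbar_rel`).  Consequences: `interior_list`, `ph_bound`.
-/

set_option autoImplicit false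

namespace Crest.Agent.R165.LimAx894

open Finset Crest.Agent.R165.PotAx894 Crest.Agent.R165.PotBx894 Crest.Agent.R165.Tr1x40

private theorem core0 (G : ℤ → ℤ → Fin 4 → ℝ) (x : ℝ) (hx : x ^ 2 + 2 * x - 1 = 0)
    (R0 : ∀ a b : ℤ, |a| ≤ 1 → |b| ≤ 1 → G a b 1 + G a b 2 + G a b 3 + x * G a (b - 1) 2 = 0)
    (R1 : ∀ a b : ℤ, |a| ≤ 1 → |b| ≤ 1 → -G a b 0 + G a b 2 + G a b 3 + x * G (a + 1) b 3 = 0)
    (R2 : ∀ a b : ℤ, |a| ≤ 1 → |b| ≤ 1 → -G a b 0 - G a b 1 + G a b 3 - x * G a (b + 1) 0 = 0)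
    (R3 : ∀ a b : ℤ, |a| ≤ 1 → |b| ≤ 1 → -G a b 0 - G a b 1 - G a b 2 - x * G (a - 1) b 1 = 0) :
    (2 - 4 * x) * (G 1 0 0 + G (-1) 0 0 + G 0 1 0 + G 0 (-1) 0 - 4 * G 0 0 0) = 0 := by
  have r0mz : G (-1) 0 1 + G (-1) 0 2 + G (-1) 0 3 + x * G (-1) (-1) 2 = 0 :=
    R0 (-1) 0 (by norm_num) (by norm_num)
  have r0pz : G 1 0 1 + G 1 0 2 + G 1 0 3 + x * G 1 (-1) 2 = 0 :=
    R0 1 0 (by norm_num) (by norm_num)
  have r1mm : -G (-1) (-1) 0 + G (-1) (-1) 2 + G (-1) (-1) 3 + x * G 0 (-1) 3 = 0 :=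
    R1 (-1) (-1) (by norm_num) (by norm_num)
  have r1mz : -G (-1) 0 0 + G (-1) 0 2 + G (-1) 0 3 + x * G 0 0 3 = 0 :=
    R1 (-1) 0 (by norm_num) (by norm_num)
  have r1zm : -G 0 (-1) 0 + G 0 (-1) 2 + G 0 (-1) 3 + x * G 1 (-1) 3 = 0 :=
    R1 0 (-1) (by norm_num) (by norm_num)
  have r1zz : -G 0 0 0 + G 0 0 2 + G 0 0 3 + x * G 1 0 3 = 0 :=
    R1 0 0 (by norm_num) (by norm_num)
  have r2mm : -G (-1) (-1) 0 - G (-1) (-1) 1 + G (-1) (-1) 3 - x * G (-1) 0 0 = 0 :=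
    R2 (-1) (-1) (by norm_num) (by norm_num)
  have r2pm : -G 1 (-1) 0 - G 1 (-1) 1 + G 1 (-1) 3 - x * G 1 0 0 = 0 :=
    R2 1 (-1) (by norm_num) (by norm_num)
  have r2zm : -G 0 (-1) 0 - G 0 (-1) 1 + G 0 (-1) 3 - x * G 0 0 0 = 0 :=
    R2 0 (-1) (by norm_num) (by norm_num)
  have r2zz : -G 0 0 0 - G 0 0 1 + G 0 0 3 - x * G 0 1 0 = 0 :=
    R2 0 0 (by norm_num) (by norm_num)
  have r3pm : -G 1 (-1) 0 - G 1 (-1) 1 - G 1 (-1) 2 - x * G 0 (-1) 1 = 0 :=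
    R3 1 (-1) (by norm_num) (by norm_num)
  have r3pz : -G 1 0 0 - G 1 0 1 - G 1 0 2 - x * G 0 0 1 = 0 :=
    R3 1 0 (by norm_num) (by norm_num)
  have r3zm : -G 0 (-1) 0 - G 0 (-1) 1 - G 0 (-1) 2 - x * G (-1) (-1) 1 = 0 :=
    R3 0 (-1) (by norm_num) (by norm_num)
  have r3zz : -G 0 0 0 - G 0 0 1 - G 0 0 2 - x * G (-1) 0 1 = 0 :=
    R3 0 0 (by norm_num) (by norm_num)
  linear_combination - (0 + -1 * x) * r0mz - (0 + 1 * x) * r0pz - (0 + 1 * x) * r1mz - (0 + 1 * x) * r1zm - (1 + -2 * x) * r1mm - (-1 + 0 * x) * r1zz - (0 + 2 * x) * r2zz - (2 + -6 * x) * r2zm - (-1 + 2 * x) * r2mm - (-1 + 2 * x) * r2pm - (0 + 1 * x) * r3pz - (0 + 1 * x) * r3zm - (1 + -2 * x) * r3pm - (-1 + 0 * x) * r3zz + ((-1) * G (-1) (-1) 2 + (1) * G 1 (-1) 2 + (1) * G 0 0 3 + (1) * G 1 (-1) 3 + (-2) * G 0 (-1) 3 + (-2) * G 0 1 0 + (6) * G 0 0 0 + (-2) * G (-1) 0 0 + (-2) * G 1 0 0 + (-1) * G 0 0 1 + (-1)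 * G (-1) (-1) 1 + (2) * G 0 (-1) 1) * hx

private theorem core1 (G : ℤ → ℤ → Fin 4 → ℝ) (x : ℝ) (hx : x ^ 2 + 2 * x - 1 = 0)
    (R0 : ∀ a b : ℤ, |a| ≤ 1 → |b| ≤ 1 → G a b 1 + G a b 2 + G a b 3 + x * G a (b - 1) 2 = 0)
    (R1 : ∀ a b : ℤ, |a| ≤ 1 → |b| ≤ 1 → -G a b 0 + G a b 2 + G a b 3 + x * G (a + 1) b 3 = 0)
    (R2 : ∀ a b : ℤ, |a| ≤ 1 → |b| ≤ 1 → -G a b 0 - G a b 1 + G a b 3 - x * G a (b + 1) 0 = 0)
    (R3 : ∀ a b : ℤ, |a| ≤ 1 → |b| ≤ 1 → -G a b 0 - G a b 1 - G a b 2 - x * G (a - 1) b 1 = 0) :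
    (2 - 4 * x) * (G 1 0 1 + G (-1) 0 1 + G 0 1 1 + G 0 (-1) 1 - 4 * G 0 0 1) = 0 := by
  have r0pp : G 1 1 1 + G 1 1 2 + G 1 1 3 + x * G 1 0 2 = 0 :=
    R0 1 1 (by norm_num) (by norm_num)
  have r0pz : G 1 0 1 + G 1 0 2 + G 1 0 3 + x * G 1 (-1) 2 = 0 :=
    R0 1 0 (by norm_num) (by norm_num)
  have r0zp : G 0 1 1 + G 0 1 2 + G 0 1 3 + x * G 0 0 2 = 0 :=
    R0 0 1 (by norm_num) (by norm_num)
  have r0zz : G 0 0 1 + G 0 0 2 + G 0 0 3 + x * G 0 (-1) 2 = 0 :=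
    R0 0 0 (by norm_num) (by norm_num)
  have r1zm : -G 0 (-1) 0 + G 0 (-1) 2 + G 0 (-1) 3 + x * G 1 (-1) 3 = 0 :=
    R1 0 (-1) (by norm_num) (by norm_num)
  have r1zp : -G 0 1 0 + G 0 1 2 + G 0 1 3 + x * G 1 1 3 = 0 :=
    R1 0 1 (by norm_num) (by norm_num)
  have r2pm : -G 1 (-1) 0 - G 1 (-1) 1 + G 1 (-1) 3 - x * G 1 0 0 = 0 :=
    R2 1 (-1) (by norm_num) (by norm_num)
  have r2pz : -G 1 0 0 - G 1 0 1 + G 1 0 3 - x * G 1 1 0 = 0 :=
    R2 1 0 (by norm_num) (by norm_num)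
  have r2zm : -G 0 (-1) 0 - G 0 (-1) 1 + G 0 (-1) 3 - x * G 0 0 0 = 0 :=
    R2 0 (-1) (by norm_num) (by norm_num)
  have r2zz : -G 0 0 0 - G 0 0 1 + G 0 0 3 - x * G 0 1 0 = 0 :=
    R2 0 0 (by norm_num) (by norm_num)
  have r3pm : -G 1 (-1) 0 - G 1 (-1) 1 - G 1 (-1) 2 - x * G 0 (-1) 1 = 0 :=
    R3 1 (-1) (by norm_num) (by norm_num)
  have r3pp : -G 1 1 0 - G 1 1 1 - G 1 1 2 - x * G 0 1 1 = 0 :=
    R3 1 1 (by norm_num) (by norm_num)
  have r3pz : -G 1 0 0 - G 1 0 1 - G 1 0 2 - x * G 0 0 1 = 0 :=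
    R3 1 0 (by norm_num) (by norm_num)
  have r3zz : -G 0 0 0 - G 0 0 1 - G 0 0 2 - x * G (-1) 0 1 = 0 :=
    R3 0 0 (by norm_num) (by norm_num)
  linear_combination - (0 + -1 * x) * r0zp - (0 + -1 * x) * r0pz - (-1 + 2 * x) * r0pp - (1 + 0 * x) * r0zz - (0 + -1 * x) * r1zm - (0 + 1 * x) * r1zp - (0 + 1 * x) * r2pz - (0 + 1 * x) * r2zm - (1 + -2 * x) * r2pm - (-1 + 0 * x) * r2zz - (0 + 2 * x) * r3zz - (2 + -6 * x) * r3pz - (-1 + 2 * x) * r3pp - (-1 + 2 * x) * r3pm + ((-1) * G 0 0 2 + (-1) * G 1 (-1) 2 + (2) * G 1 0 2 + (-1) * G 1 (-1) 3 + (1) * G 1 1 3 + (-1) * G 1 1 0 + (-1) * G 0 0 0 + (2) * G 1 0 0 + (-2) * G (-1) 0 1 + (6) * G 0 0 1 + (-2) * G 0 1 1 + (-2) * G 0 (-1) 1) * hx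

private theorem core2 (G : ℤ → ℤ → Fin 4 → ℝ) (x : ℝ) (hx : x ^ 2 + 2 * x - 1 = 0)
    (R0 : ∀ a b : ℤ, |a| ≤ 1 → |b| ≤ 1 → G a b 1 + G a b 2 + G a b 3 + x * G a (b - 1) 2 = 0)
    (R1 : ∀ a b : ℤ, |a| ≤ 1 → |b| ≤ 1 → -G a b 0 + G a b 2 + G a b 3 + x * G (a + 1) b 3 = 0)
    (R2 : ∀ a b : ℤ, |a| ≤ 1 → |b| ≤ 1 → -G a b 0 - G a b 1 + G a b 3 - x * G a (b + 1) 0 = 0)
    (R3 : ∀ a b : ℤ, |a| ≤ 1 → |b| ≤ 1 → -G a b 0 - G a b 1 - G a b 2 - x * G (a - 1) b 1 = 0) :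
    (2 - 4 * x) * (G 1 0 2 + G (-1) 0 2 + G 0 1 2 + G 0 (-1) 2 - 4 * G 0 0 2) = 0 := by
  have r0mp : G (-1) 1 1 + G (-1) 1 2 + G (-1) 1 3 + x * G (-1) 0 2 = 0 :=
    R0 (-1) 1 (by norm_num) (by norm_num)
  have r0pp : G 1 1 1 + G 1 1 2 + G 1 1 3 + x * G 1 0 2 = 0 :=
    R0 1 1 (by norm_num) (by norm_num)
  have r0zp : G 0 1 1 + G 0 1 2 + G 0 1 3 + x * G 0 0 2 = 0 :=
    R0 0 1 (by norm_num) (by norm_num)
  have r0zz : G 0 0 1 + G 0 0 2 + G 0 0 3 + x * G 0 (-1) 2 = 0 :=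
    R0 0 0 (by norm_num) (by norm_num)
  have r1mp : -G (-1) 1 0 + G (-1) 1 2 + G (-1) 1 3 + x * G 0 1 3 = 0 :=
    R1 (-1) 1 (by norm_num) (by norm_num)
  have r1mz : -G (-1) 0 0 + G (-1) 0 2 + G (-1) 0 3 + x * G 0 0 3 = 0 :=
    R1 (-1) 0 (by norm_num) (by norm_num)
  have r1zp : -G 0 1 0 + G 0 1 2 + G 0 1 3 + x * G 1 1 3 = 0 :=
    R1 0 1 (by norm_num) (by norm_num)
  have r1zz : -G 0 0 0 + G 0 0 2 + G 0 0 3 + x * G 1 0 3 = 0 :=
    R1 0 0 (by norm_num) (by norm_num)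
  have r2mz : -G (-1) 0 0 - G (-1) 0 1 + G (-1) 0 3 - x * G (-1) 1 0 = 0 :=
    R2 (-1) 0 (by norm_num) (by norm_num)
  have r2pz : -G 1 0 0 - G 1 0 1 + G 1 0 3 - x * G 1 1 0 = 0 :=
    R2 1 0 (by norm_num) (by norm_num)
  have r3pp : -G 1 1 0 - G 1 1 1 - G 1 1 2 - x * G 0 1 1 = 0 :=
    R3 1 1 (by norm_num) (by norm_num)
  have r3pz : -G 1 0 0 - G 1 0 1 - G 1 0 2 - x * G 0 0 1 = 0 :=
    R3 1 0 (by norm_num) (by norm_num)
  have r3zp : -G 0 1 0 - G 0 1 1 - G 0 1 2 - x * G (-1) 1 1 = 0 :=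
    R3 0 1 (by norm_num) (by norm_num)
  have r3zz : -G 0 0 0 - G 0 0 1 - G 0 0 2 - x * G (-1) 0 1 = 0 :=
    R3 0 0 (by norm_num) (by norm_num)
  linear_combination - (0 + -2 * x) * r0zz - (-2 + 6 * x) * r0zp - (1 + -2 * x) * r0mp - (1 + -2 * x) * r0pp - (0 + -1 * x) * r1mz - (0 + -1 * x) * r1zp - (-1 + 2 * x) * r1mp - (1 + 0 * x) * r1zz - (0 + -1 * x) * r2pz - (0 + 1 * x) * r2mz - (0 + 1 * x) * r3zp - (0 + 1 * x) * r3pz - (1 + -2 * x) * r3pp - (-1 + 0 * x) * r3zz + ((-2) * G 0 (-1) 2 + (6) * G 0 0 2 + (-2) * G (-1) 0 2 + (-2) * G 1 0 2 + (-1) * G 0 0 3 + (-1) * G 1 1 3 + (2) * G 0 1 3 + (1) * G 1 1 0 + (-1) * G (-1) 1 0 + (-1) * G (-1) 1 1 + (-1) * G 0 0 1 + (2) * G 0 1 1) * hx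

private theorem core3 (G : ℤ → ℤ → Fin 4 → ℝ) (x : ℝ) (hx : x ^ 2 + 2 * x - 1 = 0)
    (R0 : ∀ a b : ℤ, |a| ≤ 1 → |b| ≤ 1 → G a b 1 + G a b 2 + G a b 3 + x * G a (b - 1) 2 = 0)
    (R1 : ∀ a b : ℤ, |a| ≤ 1 → |b| ≤ 1 → -G a b 0 + G a b 2 + G a b 3 + x * G (a + 1) b 3 = 0)
    (R2 : ∀ a b : ℤ, |a| ≤ 1 → |b| ≤ 1 → -G a b 0 - G a b 1 + G a b 3 - x * G a (b + 1) 0 = 0)
    (R3 : ∀ a b : ℤ, |a| ≤ 1 → |b| ≤ 1 → -G a b 0 - G a b 1 - G a b 2 - x * G (a - 1) b 1 = 0) :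
    (2 - 4 * x) * (G 1 0 3 + G (-1) 0 3 + G 0 1 3 + G 0 (-1) 3 - 4 * G 0 0 3) = 0 := by
  have r0mp : G (-1) 1 1 + G (-1) 1 2 + G (-1) 1 3 + x * G (-1) 0 2 = 0 :=
    R0 (-1) 1 (by norm_num) (by norm_num)
  have r0mz : G (-1) 0 1 + G (-1) 0 2 + G (-1) 0 3 + x * G (-1) (-1) 2 = 0 :=
    R0 (-1) 0 (by norm_num) (by norm_num)
  have r0zp : G 0 1 1 + G 0 1 2 + G 0 1 3 + x * G 0 0 2 = 0 :=
    R0 0 1 (by norm_num) (by norm_num)
  have r0zz : G 0 0 1 + G 0 0 2 + G 0 0 3 + x * G 0 (-1) 2 = 0 :=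
    R0 0 0 (by norm_num) (by norm_num)
  have r1mm : -G (-1) (-1) 0 + G (-1) (-1) 2 + G (-1) (-1) 3 + x * G 0 (-1) 3 = 0 :=
    R1 (-1) (-1) (by norm_num) (by norm_num)
  have r1mp : -G (-1) 1 0 + G (-1) 1 2 + G (-1) 1 3 + x * G 0 1 3 = 0 :=
    R1 (-1) 1 (by norm_num) (by norm_num)
  have r1mz : -G (-1) 0 0 + G (-1) 0 2 + G (-1) 0 3 + x * G 0 0 3 = 0 :=
    R1 (-1) 0 (by norm_num) (by norm_num)
  have r1zz : -G 0 0 0 + G 0 0 2 + G 0 0 3 + x * G 1 0 3 = 0 :=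
    R1 0 0 (by norm_num) (by norm_num)
  have r2mm : -G (-1) (-1) 0 - G (-1) (-1) 1 + G (-1) (-1) 3 - x * G (-1) 0 0 = 0 :=
    R2 (-1) (-1) (by norm_num) (by norm_num)
  have r2mz : -G (-1) 0 0 - G (-1) 0 1 + G (-1) 0 3 - x * G (-1) 1 0 = 0 :=
    R2 (-1) 0 (by norm_num) (by norm_num)
  have r2zm : -G 0 (-1) 0 - G 0 (-1) 1 + G 0 (-1) 3 - x * G 0 0 0 = 0 :=
    R2 0 (-1) (by norm_num) (by norm_num)
  have r2zz : -G 0 0 0 - G 0 0 1 + G 0 0 3 - x * G 0 1 0 = 0 :=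
    R2 0 0 (by norm_num) (by norm_num)
  have r3zm : -G 0 (-1) 0 - G 0 (-1) 1 - G 0 (-1) 2 - x * G (-1) (-1) 1 = 0 :=
    R3 0 (-1) (by norm_num) (by norm_num)
  have r3zp : -G 0 1 0 - G 0 1 1 - G 0 1 2 - x * G (-1) 1 1 = 0 :=
    R3 0 1 (by norm_num) (by norm_num)
  linear_combination - (0 + -1 * x) * r0mz - (0 + -1 * x) * r0zp - (-1 + 2 * x) * r0mp - (1 + 0 * x) * r0zz - (0 + -2 * x) * r1zz - (-2 + 6 * x) * r1mz - (1 + -2 * x) * r1mp - (1 + -2 * x) * r1mm - (0 + -1 * x) * r2mz - (0 + -1 * x) * r2zm - (-1 + 2 * x) * r2mm - (1 + 0 * x) * r2zz - (0 + -1 * x) * r3zp - (0 + 1 * x) * r3zm + ((-1) * G (-1) (-1) 2 + (-1) * G 0 0 2 + (2) * G (-1) 0 2 + (-2) * G 1 0 3 + (6) * G 0 0 3 + (-2) * G 0 1 3 + (-2) * G 0 (-1) 3 + (1) * G (-1) 1 0 + (1) * G 0 0 0 + (-2) * G (-1) 0 0 + (1) * G (-1) 1 1 + (-1) * G (-1) (-1) 1) * hx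

/-- each component of an exact solution (critical plane weights on the `3 × 3` block) is harmonic -/
theorem lap_comp {φ : Fld} {f : Face} (h : ∀ g ∈ Q f 1, ∀ k, A (fun _ _ => xc) φ g k = 0)
    (a : Fin 4) : lap (fun g => φ g a) f = 0 := by
  obtain ⟨i, j⟩ := f
  have hx : xc ^ 2 + 2 * xc - 1 = 0 := by linarith [xc_sq]
  have hmem : ∀ a b : ℤ, |a| ≤ 1 → |b| ≤ 1 → (i + a, j + b) ∈ Q (i, j) 1 := by
    intro a b ha hb
    rw [mem_Q]; simp only [add_sub_cancel_left, Nat.cast_one]; exact ⟨ha, hb⟩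
  set G : ℤ → ℤ → Fin 4 → ℝ := fun a b k => φ (i + a, j + b) k with hG
  have R0 : ∀ a b : ℤ, |a| ≤ 1 → |b| ≤ 1 → G a b 1 + G a b 2 + G a b 3 + xc * G a (b - 1) 2 = 0 := by
    intro a b ha hb
    have := h _ (hmem a b ha hb) 0
    rw [A_S] at this
    have e : j + (b - 1) = j + b - 1 := by ring
    simp only [hG, e]; exact this
  have R1 : ∀ a b : ℤ, |a| ≤ 1 → |b| ≤ 1 → -G a b 0 + G a b 2 + G a b 3 + xc * G (a + 1) b 3 = 0 := by
    intro a b ha hb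
    have := h _ (hmem a b ha hb) 1
    rw [A_E] at this
    have e : i + (a + 1) = i + a + 1 := by ring
    simp only [hG, e]; exact this
  have R2 : ∀ a b : ℤ, |a| ≤ 1 → |b| ≤ 1 → -G a b 0 - G a b 1 + G a b 3 - xc * G a (b + 1) 0 = 0 := by
    intro a b ha hb
    have := h _ (hmem a b ha hb) 2
    rw [A_N] at this
    have e : j + (b + 1) = j + b + 1 := by ring
    simp only [hG, e]; exact this
  have R3 : ∀ a b : ℤ, |a| ≤ 1 → |b| ≤ 1 → -G a b 0 - G a b 1 - G a b 2 - xc * G (a - 1) b 1 = 0 := by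
    intro a b ha hb
    have := h _ (hmem a b ha hb) 3
    rw [A_W] at this
    have e : i + (a - 1) = i + a - 1 := by ring
    simp only [hG, e]; exact this
  have hx1 : (2 - 4 * xc) ≠ 0 := by
    have := xc_lt_half
    intro h0; linarith
  have conv : lap (fun g => φ g a) (i, j)
      = G 1 0 a + G (-1) 0 a + G 0 1 a + G 0 (-1) a - 4 * G 0 0 a := by
    simp only [lap, e1, e2, Prod.mk_add_mk, Prod.neg_mk, hG, sub_eq_add_neg, add_zero, neg_zero]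
  rw [conv]
  fin_cases a
  · exact (mul_eq_zero.mp (core0 G xc hx R0 R1 R2 R3)).resolve_left hx1
  · exact (mul_eq_zero.mp (core1 G xc hx R0 R1 R2 R3)).resolve_left hx1
  · exact (mul_eq_zero.mp (core2 G xc hx R0 R1 R2 R3)).resolve_left hx1
  · exact (mul_eq_zero.mp (core3 G xc hx R0 R1 R2 R3)).resolve_left hx1

/-! ### gauge -/

/-- gauge transformation of a field -/
def gau (s : Face → ℝ) (φ : Fld) : Fld := fun f h => s f * φ f h

theorem A_gau {w φ : Fld} {s : Face → ℝ} {f : Face} (hs : s f ^ 2 = 1)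
    (hw : ∀ h, w f h = s f * s (nb f h) * xc) (h : Fin 4) :
    A (fun _ _ => xc) (gau s φ) f h = s f * A w φ f h := by
  have h0 := hw 0
  have h1 := hw 1
  have h2 := hw 2
  have h3 := hw 3
  simp only [nb_zero, nb_one, nb_two, nb_three] at h0 h1 h2 h3
  fin_cases h
  · show A _ _ f 0 = s f * A w φ f 0
    rw [A_S, A_S, h0]; unfold gau
    linear_combination (-(s (f.1, f.2 - 1) * xc * φ (f.1, f.2 - 1) 2)) * hs
  · show A _ _ f 1 = s f * A w φ f 1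
    rw [A_E, A_E, h1]; unfold gau
    linear_combination (-(s (f.1 + 1, f.2) * xc * φ (f.1 + 1, f.2) 3)) * hs
  · show A _ _ f 2 = s f * A w φ f 2
    rw [A_N, A_N, h2]; unfold gau
    linear_combination ((s (f.1, f.2 + 1) * xc * φ (f.1, f.2 + 1) 0)) * hs
  · show A _ _ f 3 = s f * A w φ f 3
    rw [A_W, A_W, h3]; unfold gau
    linear_combination ((s (f.1 - 1, f.2) * xc * φ (f.1 - 1, f.2) 1)) * hs

theorem nsq_gau {φ : Fld} {s : Face → ℝ} {f : Face} (hs : s f ^ 2 = 1) :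
    nsq (gau s φ f) = nsq (φ f) := by
  unfold nsq gau
  refine sum_congr rfl fun h _ => ?_
  rw [mul_pow, hs, one_mul]

/-! ### heavy part and the discrete `∂̄` relation -/

/-- `κ = x_c / (2√2)` -/
noncomputable def kap : ℝ := xc / (2 * Real.sqrt 2)

theorem kap_eq : kap = xc * Real.sqrt 2 / 4 := by
  unfold kap; rw [inv_2sq2]

theorem kap_nonneg : 0 ≤ kap := by unfold kap; have := xc_pos; have := sq2_pos; positivity

theorem kap_le : kap ≤ 1 := by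
  rw [kap_eq]; nlinarith [xc_lt_half, sq2_lt, xc_pos, sq2_pos]

theorem sub_e1_eq (f : Face) : f - e1 = (f.1 - 1, f.2) := by
  ext <;> simp
theorem sub_e2_eq (f : Face) : f - e2 = (f.1, f.2 - 1) := by
  ext <;> simp
theorem add_e1_eq (f : Face) : f + e1 = (f.1 + 1, f.2) := by
  ext <;> simp
theorem add_e2_eq (f : Face) : f + e2 = (f.1, f.2 + 1) := by
  ext <;> simp

theorem D1_eq (u : Face → ℝ) (f : Face) : D1 u f = u (f.1 + 1, f.2) - u f := by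
  unfold D1; rw [add_e1_eq]
theorem D2_eq (u : Face → ℝ) (f : Face) : D2 u f = u (f.1, f.2 + 1) - u f := by
  unfold D2; rw [add_e2_eq]
theorem D1_sub (u : Face → ℝ) (f : Face) : D1 u (f - e1) = u f - u (f.1 - 1, f.2) := by
  unfold D1; rw [sub_add_cancel, sub_e1_eq]
theorem D2_sub (u : Face → ℝ) (f : Face) : D2 u (f - e2) = u f - u (f.1, f.2 - 1) := by
  unfold D2; rw [sub_add_cancel, sub_e2_eq]

section heavy

variable {φ : Fld} {f : Face} (h : ∀ k, A (fun _ _ => xc) φ f k = 0)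

include h

theorem Ph_S : Ph (φ f) 0 = - kap * D2 (fun g => φ g 0) f := by
  have h2 := h 2
  rw [A_N] at h2
  simp only [Ph, D2_eq, kap_eq, inv_2sq2]
  have hs := sq2
  have hx : xc = Real.sqrt 2 - 1 := rfl
  rw [hx] at h2 ⊢
  linear_combination (-Real.sqrt 2 / 4) * h2 + (-(φ f 0) / 4) * hs

theorem Ph_E : Ph (φ f) 1 = kap * D1 (fun g => φ g 1) (f - e1) := by
  have h2 := h 3
  rw [A_W] at h2
  simp only [Ph, D1_sub, kap_eq, inv_2sq2]
  have hs := sq2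
  have hx : xc = Real.sqrt 2 - 1 := rfl
  rw [hx] at h2 ⊢
  linear_combination (-Real.sqrt 2 / 4) * h2 + (-(φ f 1) / 4) * hs

theorem Ph_N : Ph (φ f) 2 = kap * D2 (fun g => φ g 2) (f - e2) := by
  have h2 := h 0
  rw [A_S] at h2
  simp only [Ph, D2_sub, kap_eq, inv_2sq2]
  have hs := sq2
  have hx : xc = Real.sqrt 2 - 1 := rfl
  rw [hx] at h2 ⊢
  linear_combination (Real.sqrt 2 / 4) * h2 + (-(φ f 2) / 4) * hs

theorem Ph_W : Ph (φ f) 3 = - kap * D1 (fun g => φ g 3) f := by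
  have h2 := h 1
  rw [A_E] at h2
  simp only [Ph, D1_eq, kap_eq, inv_2sq2]
  have hs := sq2
  have hx : xc = Real.sqrt 2 - 1 := rfl
  rw [hx] at h2 ⊢
  linear_combination (Real.sqrt 2 / 4) * h2 + (-(φ f 3) / 4) * hs

/-- first exact `∂̄` relation -/
theorem dbar1 : Real.sqrt 2 * D1 (fun g => φ g 3) f
    + (D2 (fun g => φ g 2) (f - e2) + D2 (fun g => φ g 0) f) = 0 := by
  have h0 := h 0
  have h1 := h 1
  have h2 := h 2
  rw [A_S] at h0
  rw [A_E] at h1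
  rw [A_N] at h2
  have key : xc * (Real.sqrt 2 * D1 (fun g => φ g 3) f
    + (D2 (fun g => φ g 2) (f - e2) + D2 (fun g => φ g 0) f)) = 0 := by
    simp only [D1_eq, D2_sub]
    simp only [D2_eq]
    have hs := sq2
    have hx : xc = Real.sqrt 2 - 1 := rfl
    rw [hx] at h0 h1 h2 ⊢
    linear_combination Real.sqrt 2 * h1 - h0 - h2 - (φ f 3) * hs
  exact (mul_eq_zero.mp key).resolve_left (ne_of_gt xc_pos)

/-- second exact `∂̄` relation -/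
theorem dbar2 : - (Real.sqrt 2 * D1 (fun g => φ g 1) (f - e1))
    + (D2 (fun g => φ g 2) (f - e2) - D2 (fun g => φ g 0) f) = 0 := by
  have h0 := h 0
  have h2 := h 2
  have h3 := h 3
  rw [A_S] at h0
  rw [A_N] at h2
  rw [A_W] at h3
  have key : xc * (- (Real.sqrt 2 * D1 (fun g => φ g 1) (f - e1))
    + (D2 (fun g => φ g 2) (f - e2) - D2 (fun g => φ g 0) f)) = 0 := by
    simp only [D1_sub, D2_sub]
    simp only [D2_eq]
    have hs := sq2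
    have hx : xc = Real.sqrt 2 - 1 := rfl
    rw [hx] at h0 h2 h3 ⊢
    linear_combination - Real.sqrt 2 * h3 + h2 - h0 - (φ f 1) * hs
  exact (mul_eq_zero.mp key).resolve_left (ne_of_gt xc_pos)

end heavy

/-! ### light amplitude -/

/-- real part of the light amplitude `c`: `p_d = Re (c e^{-3iθ_d/2}) + heavy` -/
noncomputable def cr (p : Fin 4 → ℝ) : ℝ := (p 1 - (p 0 + p 2) / Real.sqrt 2) / 2
/-- imaginary part of the light amplitude -/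
noncomputable def ci (p : Fin 4 → ℝ) : ℝ := (- p 3 + (p 2 - p 0) / Real.sqrt 2) / 2

/-- the light part in terms of the amplitude -/
theorem Pl_eq (p : Fin 4 → ℝ) : Pl p 0 = - (cr p + ci p) / Real.sqrt 2 ∧ Pl p 1 = cr p ∧
    Pl p 2 = (- cr p + ci p) / Real.sqrt 2 ∧ Pl p 3 = - ci p := by
  have hs := sq2
  refine ⟨?_, ?_, ?_, ?_⟩
  · simp only [Pl, cr, ci, div_sq2, inv_2sq2]
    linear_combination (- (p 0) / 4) * hs
  · simp only [Pl, cr, div_sq2, inv_2sq2]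
    ring
  · simp only [Pl, cr, ci, div_sq2, inv_2sq2]
    linear_combination (- (p 2) / 4) * hs
  · simp only [Pl, ci, div_sq2, inv_2sq2]
    ring

/-- `|P_l p|² = 2|c|²` -/
theorem lt_eq_amp (p : Fin 4 → ℝ) : lt p = 2 * (cr p ^ 2 + ci p ^ 2) := by
  have hs := sq2
  simp only [lt, nsq_eq, cyc, cr, ci, div_sq2]
  linear_combination (-((p 0 + p 2) ^ 2 + (p 2 - p 0) ^ 2) / 8) * hs

theorem cr_add_Ph (p : Fin 4 → ℝ) : p 1 = cr p + Ph p 1 := by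
  have := Ph_add_Pl p 1; rw [(Pl_eq p).2.1] at this; linarith
theorem ci_add_Ph (p : Fin 4 → ℝ) : p 3 = - ci p + Ph p 3 := by
  have := Ph_add_Pl p 3; rw [(Pl_eq p).2.2.2] at this; linarith

theorem cr_SN (p : Fin 4 → ℝ) : Real.sqrt 2 * cr p = - p 0 - p 2 + Ph p 0 + Ph p 2 := by
  have hs := sq2
  simp only [Ph, cr, div_sq2, inv_2sq2]
  linear_combination (-(p 0 + p 2) / 4) * hs
theorem ci_SN (p : Fin 4 → ℝ) : Real.sqrt 2 * ci p = p 2 - p 0 - Ph p 2 + Ph p 0 := by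
  have hs := sq2
  simp only [Ph, ci, div_sq2, inv_2sq2]
  linear_combination ((p 2 - p 0) / 4) * hs

theorem D2_D2_sub (u : Face → ℝ) (f : Face) : D2 (D2 u) (f - e2) = D2 u f - D2 u (f - e2) := by
  show D2 u (f - e2 + e2) - D2 u (f - e2) = _
  rw [sub_add_cancel]
theorem D1_D1_sub (u : Face → ℝ) (f : Face) : D1 (D1 u) (f - e1) = D1 u f - D1 u (f - e1) := by
  show D1 u (f - e1 + e1) - D1 u (f - e1) = _
  rw [sub_add_cancel]

theorem self_Q1 (f : Face) : f ∈ Q f 1 := self_mem_Q f 1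
theorem e1_Q1 (f : Face) : f + e1 ∈ Q f 1 := add_e1_mem (self_mem_Q f 0)
theorem e2_Q1 (f : Face) : f + e2 ∈ Q f 1 := add_e2_mem (self_mem_Q f 0)

/-- first Cauchy–Riemann equation up to second differences (exact identity). -/
theorem CR1 {φ : Fld} {f : Face} (h : ∀ g ∈ Q f 1, ∀ k, A (fun _ _ => xc) φ g k = 0) :
    Real.sqrt 2 * (D1 (fun g => ci (φ g)) f + D2 (fun g => cr (φ g)) f)
      = - kap * Real.sqrt 2 * D1 (D1 (fun g => φ g 3)) f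
        + kap * (D2 (D2 (fun g => φ g 2)) (f - e2) - D2 (D2 (fun g => φ g 0)) f)
        - D2 (D2 (fun g => φ g 2)) (f - e2) := by
  have a3 := Ph_W (h f (self_Q1 f))
  have b3 := Ph_W (h _ (e1_Q1 f))
  have a0 := Ph_S (h f (self_Q1 f))
  have b0 := Ph_S (h _ (e2_Q1 f))
  have a2 := Ph_N (h f (self_Q1 f))
  have b2 := Ph_N (h _ (e2_Q1 f))
  rw [add_sub_cancel_right] at b2
  have hd := dbar1 (h f (self_Q1 f))
  have c3 := ci_add_Ph (φ f)
  have d3 := ci_add_Ph (φ (f + e1))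
  have c0 := cr_SN (φ f)
  have d0 := cr_SN (φ (f + e2))
  rw [D2_D2_sub]
  simp only [D1, D2] at *
  linear_combination (Real.sqrt 2) * (d3 - c3) + (d0 - c0) + Real.sqrt 2 * (b3 - a3)
    + (b0 - a0) + (b2 - a2) - hd

/-- second Cauchy–Riemann equation up to second differences (exact identity). -/
theorem CR2 {φ : Fld} {f : Face} (h : ∀ g ∈ Q f 1, ∀ k, A (fun _ _ => xc) φ g k = 0) :
    Real.sqrt 2 * (D1 (fun g => cr (φ g)) f - D2 (fun g => ci (φ g)) f)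
      = Real.sqrt 2 * (1 - kap) * D1 (D1 (fun g => φ g 1)) (f - e1)
        + kap * (D2 (D2 (fun g => φ g 2)) (f - e2) + D2 (D2 (fun g => φ g 0)) f)
        - D2 (D2 (fun g => φ g 2)) (f - e2) := by
  have a1 := Ph_E (h f (self_Q1 f))
  have b1 := Ph_E (h _ (e1_Q1 f))
  rw [add_sub_cancel_right] at b1
  have a0 := Ph_S (h f (self_Q1 f))
  have b0 := Ph_S (h _ (e2_Q1 f))
  have a2 := Ph_N (h f (self_Q1 f))
  have b2 := Ph_N (h _ (e2_Q1 f))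
  rw [add_sub_cancel_right] at b2
  have hd := dbar2 (h f (self_Q1 f))
  have c1 := cr_add_Ph (φ f)
  have d1 := cr_add_Ph (φ (f + e1))
  have c0 := ci_SN (φ f)
  have d0 := ci_SN (φ (f + e2))
  rw [D2_D2_sub, D1_D1_sub]
  simp only [D1, D2] at *
  linear_combination (-Real.sqrt 2) * (d1 - c1) - (d0 - c0) - Real.sqrt 2 * (b1 - a1)
    - (b0 - a0) + (b2 - a2) - hd

/-! ### pointwise estimates -/

/-- exact on the box of radius `r` (critical plane weights) -/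
def Exact (φ : Fld) (c : Face) (r : ℕ) : Prop := ∀ g ∈ Q c r, ∀ k, A (fun _ _ => xc) φ g k = 0

theorem Exact.harm {φ : Fld} {c : Face} {r : ℕ} (h : Exact φ c r) (hr : 0 < r) (a : Fin 4) :
    Harm (fun g => φ g a) c (r - 1) := by
  intro z hz
  apply lap_comp
  intro g hg
  exact h g (Q_sub_Q hz (by omega) hg)

/-- squared `l²` norm on the box -/
noncomputable def S2 (φ : Fld) (c : Face) (r : ℕ) : ℝ := ∑ f ∈ Q c r, nsq (φ f)

theorem S2_nonneg (φ : Fld) (c : Face) (r : ℕ) : 0 ≤ S2 φ c r :=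
  Finset.sum_nonneg fun _ _ => nsq_nonneg _

theorem comp_le_S2 (φ : Fld) (c : Face) (r : ℕ) (a : Fin 4) :
    ∑ f ∈ Q c r, φ f a ^ 2 ≤ S2 φ c r := by
  apply Finset.sum_le_sum
  intro f _
  exact Finset.single_le_sum (f := fun a => φ f a ^ 2) (fun _ _ => sq_nonneg _) (Finset.mem_univ a)

/-- sup bound for the components -/
theorem comp_sup {φ : Fld} {c : Face} {r : ℕ} (hr : 0 < r) (h : Exact φ c r) (a : Fin 4)
    {z : Face} (hz : z ∈ Q c (r / 4)) : |φ z a| ≤ 338 / r * Real.sqrt (S2 φ c r) := by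
  have hr0 : (0 : ℝ) < r := by exact_mod_cast hr
  have h1 := interior_sq hr (h.harm hr a) hz
  have h2 := comp_le_S2 φ c r a
  apply abs_le_of_sq_le_sq _ (by positivity)
  rw [mul_pow, Real.sq_sqrt (S2_nonneg φ c r)]
  calc φ z a ^ 2 ≤ 113729 / (r : ℝ) ^ 2 * ∑ w ∈ Q c r, φ w a ^ 2 := h1
    _ ≤ 113729 / (r : ℝ) ^ 2 * S2 φ c r := by gcongr
    _ ≤ (338 / (r : ℝ)) ^ 2 * S2 φ c r := by
        apply mul_le_mul_of_nonneg_right _ (S2_nonneg φ c r)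
        rw [div_pow]; gcongr; norm_num

/-- **all differences of an exact solution**: `|D_l φ_a (z)| ≤ C_l r^{-1-|l|} ‖φ‖_{l²(Q c r)}` for
`z ∈ Q c (r/8)`. -/
theorem interior_list (l : List Bool) : ∃ C : ℝ, 0 < C ∧ ∀ (φ : Fld) (c : Face) (r : ℕ),
    8 * (l.length + 1) ≤ r → Exact φ c r → ∀ z ∈ Q c (r / 8), ∀ a : Fin 4,
    |DL l (fun g => φ g a) z| ≤ C / (r : ℝ) ^ (l.length + 1) * Real.sqrt (S2 φ c r) := by
  obtain ⟨C, hC, H⟩ := interior_sup l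
  refine ⟨C * 16 ^ l.length * 338, by positivity, ?_⟩
  intro φ c r hr hex z hz a
  have hr0 : 0 < r := by omega
  have hr0' : (0 : ℝ) < r := by exact_mod_cast hr0
  set s := r / 8 with hs
  have hs0 : l.length + 1 ≤ s := by omega
  have hs0' : (0 : ℝ) < s := by
    have : 0 < s := by omega
    exact_mod_cast this
  have hrs : (r : ℝ) ≤ 16 * s := by
    have : r ≤ 16 * s := by omega
    exact_mod_cast this
  have hsub : Q z s ⊆ Q c (r / 4) := Q_sub_Q hz (by omega)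
  have hsub' : Q z (s - 1) ⊆ Q c (r - 1) := Q_sub_Q hz (by omega)
  have hharm : Harm (fun g => φ g a) z (s - 1) := fun w hw => hex.harm hr0 a w (hsub' hw)
  have := H (fun g => φ g a) z s (338 / r * Real.sqrt (S2 φ c r)) (by omega) (by omega) hharm
    (fun w hw => comp_sup hr0 hex a (hsub hw))
  refine this.trans ?_
  have h1 : C / (s : ℝ) ^ l.length ≤ C * 16 ^ l.length / (r : ℝ) ^ l.length := by
    rw [div_le_div_iff₀ (by positivity) (by positivity)]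
    have : (r : ℝ) ^ l.length ≤ (16 * s) ^ l.length := by gcongr
    rw [mul_pow] at this
    calc C * (r : ℝ) ^ l.length ≤ C * (16 ^ l.length * s ^ l.length) := by gcongr
      _ = _ := by ring
  calc C / (s : ℝ) ^ l.length * (338 / r * Real.sqrt (S2 φ c r))
      ≤ C * 16 ^ l.length / (r : ℝ) ^ l.length * (338 / r * Real.sqrt (S2 φ c r)) := by gcongr
    _ = _ := by rw [pow_succ]; field_simp

/-- first differences -/
theorem interior_D : ∃ C : ℝ, 0 < C ∧ ∀ (φ : Fld) (c : Face) (r : ℕ), 16 ≤ r → Exact φ c r →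
    ∀ z ∈ Q c (r / 8), ∀ a : Fin 4, |D1 (fun g => φ g a) z| ≤ C / (r : ℝ) ^ 2 * Real.sqrt (S2 φ c r) ∧
      |D2 (fun g => φ g a) z| ≤ C / (r : ℝ) ^ 2 * Real.sqrt (S2 φ c r) := by
  obtain ⟨C1, hC1, H1⟩ := interior_list [true]
  obtain ⟨C2, hC2, H2⟩ := interior_list [false]
  refine ⟨C1 + C2, by positivity, ?_⟩
  intro φ c r hr hex z hz a
  have hr0 : (0 : ℝ) < r := by
    have : 0 < r := by omega
    exact_mod_cast this
  have h1 := H1 φ c r hr hex z hz a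
  have h2 := H2 φ c r hr hex z hz a
  simp only [DL, DD, if_true, List.length_singleton] at h1 h2
  constructor
  · refine h1.trans ?_
    gcongr
    linarith
  · refine h2.trans ?_
    gcongr
    linarith

/-- second differences -/
theorem interior_DD : ∃ C : ℝ, 0 < C ∧ ∀ (φ : Fld) (c : Face) (r : ℕ), 24 ≤ r → Exact φ c r →
    ∀ z ∈ Q c (r / 8), ∀ (a : Fin 4) (i j : Bool),
      |DD j (DD i (fun g => φ g a)) z| ≤ C / (r : ℝ) ^ 3 * Real.sqrt (S2 φ c r) := by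
  obtain ⟨C1, hC1, H1⟩ := interior_list [true, true]
  obtain ⟨C2, hC2, H2⟩ := interior_list [true, false]
  obtain ⟨C3, hC3, H3⟩ := interior_list [false, true]
  obtain ⟨C4, hC4, H4⟩ := interior_list [false, false]
  refine ⟨C1 + C2 + C3 + C4, by positivity, ?_⟩
  intro φ c r hr hex z hz a i j
  have hr0 : (0 : ℝ) < r := by
    have : 0 < r := by omega
    exact_mod_cast this
  have h1 := H1 φ c r hr hex z hz a
  have h2 := H2 φ c r hr hex z hz a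
  have h3 := H3 φ c r hr hex z hz a
  have h4 := H4 φ c r hr hex z hz a
  simp only [DL, List.length_cons, List.length_nil, zero_add, Nat.reduceAdd] at h1 h2 h3 h4
  cases i <;> cases j
  · exact h4.trans (by gcongr; linarith)
  · exact h3.trans (by gcongr; linarith)
  · exact h2.trans (by gcongr; linarith)
  · exact h1.trans (by gcongr; linarith)

/-- the heavy part is one order smaller -/
theorem heavy_bound : ∃ C : ℝ, 0 < C ∧ ∀ (φ : Fld) (c : Face) (r : ℕ), 16 ≤ r → Exact φ c r →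
    ∀ z ∈ Q c (r / 16), ∀ a : Fin 4, |Ph (φ z) a| ≤ C / (r : ℝ) ^ 2 * Real.sqrt (S2 φ c r) := by
  obtain ⟨C, hC, H⟩ := interior_D
  refine ⟨C, hC, ?_⟩
  intro φ c r hr hex z hz a
  have hk0 := kap_nonneg
  have hk1 := kap_le
  have hz8 : z ∈ Q c (r / 8) := Q_mono (by omega) hz
  have hz1 : z - e1 ∈ Q c (r / 8) := Q_mono (by omega) (sub_e1_mem hz)
  have hz2 : z - e2 ∈ Q c (r / 8) := Q_mono (by omega) (sub_e2_mem hz)
  have hrow : ∀ k, A (fun _ _ => xc) φ z k = 0 := hex z (Q_mono (by omega) hz)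
  have hb : 0 ≤ C / (r : ℝ) ^ 2 * Real.sqrt (S2 φ c r) := by positivity
  have aux : ∀ x : ℝ, |x| ≤ C / (r : ℝ) ^ 2 * Real.sqrt (S2 φ c r) →
      |kap * x| ≤ C / (r : ℝ) ^ 2 * Real.sqrt (S2 φ c r) := by
    intro x hx
    rw [abs_mul, abs_of_nonneg hk0]
    nlinarith [abs_nonneg x]
  fin_cases a
  · show |Ph (φ z) 0| ≤ _
    rw [Ph_S hrow, neg_mul, abs_neg]
    exact aux _ (H φ c r hr hex z hz8 0).2
  · show |Ph (φ z) 1| ≤ _
    rw [Ph_E hrow]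
    exact aux _ (H φ c r hr hex _ hz1 1).1
  · show |Ph (φ z) 2| ≤ _
    rw [Ph_N hrow]
    exact aux _ (H φ c r hr hex _ hz2 2).2
  · show |Ph (φ z) 3| ≤ _
    rw [Ph_W hrow, neg_mul, abs_neg]
    exact aux _ (H φ c r hr hex z hz8 3).1

/-- the light amplitude is discrete holomorphic up to `O(r⁻³)` -/
theorem CR_bound : ∃ C : ℝ, 0 < C ∧ ∀ (φ : Fld) (c : Face) (r : ℕ), 24 ≤ r → Exact φ c r →
    ∀ z ∈ Q c (r / 16),
      |D1 (fun g => cr (φ g)) z - D2 (fun g => ci (φ g)) z| ≤ C / (r : ℝ) ^ 3 * Real.sqrt (S2 φ c r) ∧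
      |D1 (fun g => ci (φ g)) z + D2 (fun g => cr (φ g)) z|
        ≤ C / (r : ℝ) ^ 3 * Real.sqrt (S2 φ c r) := by
  obtain ⟨C, hC, H⟩ := interior_DD
  refine ⟨5 * C, by positivity, ?_⟩
  intro φ c r hr hex z hz
  have hk0 := kap_nonneg
  have hk1 := kap_le
  have hz8 : z ∈ Q c (r / 8) := Q_mono (by omega) hz
  have hz1 : z - e1 ∈ Q c (r / 8) := Q_mono (by omega) (sub_e1_mem hz)
  have hz2 : z - e2 ∈ Q c (r / 8) := Q_mono (by omega) (sub_e2_mem hz)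
  have hrow : ∀ g ∈ Q z 1, ∀ k, A (fun _ _ => xc) φ g k = 0 :=
    fun g hg => hex g (Q_sub_Q hz (by omega) hg)
  set B := C / (r : ℝ) ^ 3 * Real.sqrt (S2 φ c r) with hB
  have hB0 : 0 ≤ B := by rw [hB]; positivity
  have h5 : 5 * C / (r : ℝ) ^ 3 * Real.sqrt (S2 φ c r) = 5 * B := by rw [hB]; ring
  rw [h5]
  have t1 := abs_le.mp (H φ c r hr hex _ hz8 3 true true)
  have t2 := abs_le.mp (H φ c r hr hex _ hz2 2 false false)
  have t3 := abs_le.mp (H φ c r hr hex _ hz8 0 false false)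
  have t4 := abs_le.mp (H φ c r hr hex _ hz1 1 true true)
  simp only [DD, if_true, Bool.false_eq_true, if_false] at t1 t2 t3 t4
  have c1 := CR1 hrow
  have c2 := CR2 hrow
  have hs1 := one_lt_sq2
  have hs2 := sq2_lt
  set X1 := D1 (D1 fun g => φ g 3) z
  set X2 := D2 (D2 fun g => φ g 2) (z - e2)
  set X3 := D2 (D2 fun g => φ g 0) z
  set X4 := D1 (D1 fun g => φ g 1) (z - e1)
  have a1 : |X1| ≤ B := abs_le.mpr t1
  have a2 : |X2| ≤ B := abs_le.mpr t2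
  have a3 : |X3| ≤ B := abs_le.mpr t3
  have a4 : |X4| ≤ B := abs_le.mpr t4
  have m : ∀ (k x : ℝ), 0 ≤ k → |x| ≤ B → |k * x| ≤ k * B := by
    intro k x hk hx
    rw [abs_mul, abs_of_nonneg hk]
    exact mul_le_mul_of_nonneg_left hx hk
  have div2 : ∀ Y : ℝ, |Real.sqrt 2 * Y| ≤ 5 * B → |Y| ≤ 5 * B := by
    intro Y hY
    rw [abs_mul, abs_of_pos sq2_pos] at hY
    nlinarith [abs_nonneg Y]
  constructor
  · apply div2
    rw [c2]
    have b4 := abs_le.mp (m (Real.sqrt 2 * (1 - kap)) X4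
      (mul_nonneg sq2_pos.le (by linarith)) a4)
    have b2 := abs_le.mp (m kap X2 hk0 a2)
    have b3 := abs_le.mp (m kap X3 hk0 a3)
    have b2' := abs_le.mp a2
    have k4 : Real.sqrt 2 * (1 - kap) * B ≤ 3 / 2 * B := by
      apply mul_le_mul_of_nonneg_right _ hB0
      nlinarith
    have k2 : kap * B ≤ 1 * B := mul_le_mul_of_nonneg_right hk1 hB0
    rw [abs_le]
    constructor
    · linarith [b4.1, b2.1, b3.1, b2'.2]
    · linarith [b4.2, b2.2, b3.2, b2'.1]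
  · apply div2
    rw [c1]
    have b1 := abs_le.mp (m (kap * Real.sqrt 2) X1 (mul_nonneg hk0 sq2_pos.le) a1)
    have b2 := abs_le.mp (m kap X2 hk0 a2)
    have b3 := abs_le.mp (m kap X3 hk0 a3)
    have b2' := abs_le.mp a2
    have k4 : kap * Real.sqrt 2 * B ≤ 3 / 2 * B := by
      apply mul_le_mul_of_nonneg_right _ hB0
      nlinarith
    have k2 : kap * B ≤ 1 * B := mul_le_mul_of_nonneg_right hk1 hB0
    rw [abs_le]
    constructor
    · linarith [b1.2, b2.1, b3.2, b2'.2]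
    · linarith [b1.1, b2.2, b3.1, b2'.1]

/-! ### differences of the light amplitude -/

theorem D1_cr (φ : Fld) (z : Face) : D1 (fun g => cr (φ g)) z
    = cr (fun a => D1 (fun g => φ g a) z) := by unfold D1 cr; ring
theorem D2_cr (φ : Fld) (z : Face) : D2 (fun g => cr (φ g)) z
    = cr (fun a => D2 (fun g => φ g a) z) := by unfold D2 cr; ring
theorem D1_ci (φ : Fld) (z : Face) : D1 (fun g => ci (φ g)) z
    = ci (fun a => D1 (fun g => φ g a) z) := by unfold D1 ci; ring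
theorem D2_ci (φ : Fld) (z : Face) : D2 (fun g => ci (φ g)) z
    = ci (fun a => D2 (fun g => φ g a) z) := by unfold D2 ci; ring

theorem DD_cr (i : Bool) (φ : Fld) : DD i (fun g => cr (φ g))
    = fun z => cr (fun a => DD i (fun g => φ g a) z) := by
  funext z; cases i
  · exact D2_cr φ z
  · exact D1_cr φ z
theorem DD_ci (i : Bool) (φ : Fld) : DD i (fun g => ci (φ g))
    = fun z => ci (fun a => DD i (fun g => φ g a) z) := by
  funext z; cases i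
  · exact D2_ci φ z
  · exact D1_ci φ z

theorem DL_cr (l : List Bool) : ∀ φ : Fld, DL l (fun g => cr (φ g))
    = fun z => cr (fun a => DL l (fun g => φ g a) z) := by
  induction l with
  | nil => intro φ; rfl
  | cons i l ih =>
    intro φ
    show DL l (DD i (fun g => cr (φ g))) = _
    rw [DD_cr]
    exact ih (fun g a => DD i (fun g => φ g a) g)
theorem DL_ci (l : List Bool) : ∀ φ : Fld, DL l (fun g => ci (φ g))
    = fun z => ci (fun a => DL l (fun g => φ g a) z) := by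
  induction l with
  | nil => intro φ; rfl
  | cons i l ih =>
    intro φ
    show DL l (DD i (fun g => ci (φ g))) = _
    rw [DD_ci]
    exact ih (fun g a => DD i (fun g => φ g a) g)

theorem abs_cr_le {p : Fin 4 → ℝ} {B : ℝ} (h : ∀ a, |p a| ≤ B) : |cr p| ≤ 2 * B := by
  have h0 := abs_le.mp (h 0)
  have h1 := abs_le.mp (h 1)
  have h2 := abs_le.mp (h 2)
  have hB : 0 ≤ B := (abs_nonneg _).trans (h 0)
  have e : cr p = p 1 / 2 - (p 0 + p 2) * Real.sqrt 2 / 4 := by unfold cr; rw [div_sq2]; ring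
  rw [e]
  have hq := sq2_pos
  have hq2 := sq2_lt
  have k1 : |(p 0 + p 2) * Real.sqrt 2| ≤ 3 * B := by
    rw [abs_mul, abs_of_pos hq]
    have : |p 0 + p 2| ≤ 2 * B := abs_le.mpr ⟨by linarith, by linarith⟩
    nlinarith [abs_nonneg (p 0 + p 2)]
  have k2 := abs_le.mp k1
  exact abs_le.mpr ⟨by linarith [k2.1, k2.2], by linarith [k2.1, k2.2]⟩

theorem abs_ci_le {p : Fin 4 → ℝ} {B : ℝ} (h : ∀ a, |p a| ≤ B) : |ci p| ≤ 2 * B := by
  have h0 := abs_le.mp (h 0)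
  have h1 := abs_le.mp (h 3)
  have h2 := abs_le.mp (h 2)
  have hB : 0 ≤ B := (abs_nonneg _).trans (h 0)
  have e : ci p = - p 3 / 2 + (p 2 - p 0) * Real.sqrt 2 / 4 := by unfold ci; rw [div_sq2]; ring
  rw [e]
  have hq := sq2_pos
  have hq2 := sq2_lt
  have k1 : |(p 2 - p 0) * Real.sqrt 2| ≤ 3 * B := by
    rw [abs_mul, abs_of_pos hq]
    have : |p 2 - p 0| ≤ 2 * B := abs_le.mpr ⟨by linarith, by linarith⟩
    nlinarith [abs_nonneg (p 2 - p 0)]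
  have k2 := abs_le.mp k1
  exact abs_le.mpr ⟨by linarith [k2.1, k2.2], by linarith [k2.1, k2.2]⟩

/-- **all differences of the light amplitude** -/
theorem amp_list (l : List Bool) : ∃ C : ℝ, 0 < C ∧ ∀ (φ : Fld) (c : Face) (r : ℕ),
    8 * (l.length + 1) ≤ r → Exact φ c r → ∀ z ∈ Q c (r / 8),
    |DL l (fun g => cr (φ g)) z| ≤ C / (r : ℝ) ^ (l.length + 1) * Real.sqrt (S2 φ c r) ∧
    |DL l (fun g => ci (φ g)) z| ≤ C / (r : ℝ) ^ (l.length + 1) * Real.sqrt (S2 φ c r) := by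
  obtain ⟨C, hC, H⟩ := interior_list l
  refine ⟨2 * C, by positivity, ?_⟩
  intro φ c r hr hex z hz
  have h := H φ c r hr hex z hz
  rw [DL_cr, DL_ci]
  have e : 2 * C / (r : ℝ) ^ (l.length + 1) * Real.sqrt (S2 φ c r)
      = 2 * (C / (r : ℝ) ^ (l.length + 1) * Real.sqrt (S2 φ c r)) := by ring
  rw [e]
  exact ⟨abs_cr_le h, abs_ci_le h⟩

/-! ### gauge form -/

/-- exactness in a gauge: `w f h = s f * s (nb f h) * xc` on the box -/
theorem exact_gau {w φ : Fld} {s : Face → ℝ} {c : Face} {r : ℕ} (hs : ∀ f ∈ Q c r, s f ^ 2 = 1)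
    (hw : ∀ f ∈ Q c r, ∀ h, w f h = s f * s (nb f h) * xc)
    (hA : ∀ f ∈ Q c r, ∀ h, A w φ f h = 0) : Exact (gau s φ) c r := by
  intro f hf h
  rw [A_gau (hs f hf) (hw f hf), hA f hf h, mul_zero]

theorem S2_gau {φ : Fld} {s : Face → ℝ} {c : Face} {r : ℕ} (hs : ∀ f ∈ Q c r, s f ^ 2 = 1) :
    S2 (gau s φ) c r = S2 φ c r :=
  Finset.sum_congr rfl fun f hf => nsq_gau (hs f hf)

end Crest.Agent.R165.LimAx894
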