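import Crest.Agent.R165.ClReg_117
import Crest.Agent.R165.LimA_894

/-!
# Row 165 (S0250), block R: growth of exact solutions in a plane box

`grow_plane` : in a `PlaneOn` box exact solutions satisfy `NB x t e ≤ C (t/r) NB x r e` for all
`1 ≤ t ≤ r ≤ ρ`, `C = 4056` absolute.  With `ClReg_117.reg1` this gives the bulk Reg1 on all scales.
-/

set_option autoImplicit false
set_option linter.unusedVariables false

noncomputable section

namespace Crest.Agent.R165.ClPlx117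

open Finset Crest.Agent.R165.Tr1x40 Crest.Agent.R165.Campx891 Crest.Agent.R165.RIfx891
  Crest.Agent.R165.ClRegx117 Crest.Agent.R165.LimAx894 Crest.Agent.R165.PotAx894

theorem bx_eq_Q (x : Face) {r : ℝ} (hr : 0 ≤ r) : bx x r = Q x ⌊r⌋₊ := by
  have e : ((⌊r⌋₊ : ℕ) : ℤ) = ⌊r⌋ := Int.natCast_floor_eq_floor hr
  unfold bx Q
  rw [e]

theorem NB_sq_S2 (x : Face) {r : ℝ} (hr : 0 ≤ r) (φ : Fld) : NB x r φ ^ 2 = S2 φ x ⌊r⌋₊ := by
  rw [NB_sq, S2, bx_eq_Q x hr]

theorem card_bx (x : Face) {t : ℝ} (ht : 1 ≤ t) : ((bx x t).card : ℝ) ≤ (3 * t) ^ 2 := by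
  have h0 : (0 : ℤ) ≤ ⌊t⌋ := Int.floor_nonneg.2 (by linarith)
  have h1 : ∀ a : ℤ, ((Icc (a - ⌊t⌋) (a + ⌊t⌋)).card : ℝ) ≤ 3 * t := by
    intro a
    rw [Int.card_Icc]
    have e : a + ⌊t⌋ + 1 - (a - ⌊t⌋) = 2 * ⌊t⌋ + 1 := by ring
    rw [e]
    have h2 : (((2 * ⌊t⌋ + 1).toNat : ℕ) : ℝ) = 2 * (⌊t⌋ : ℝ) + 1 := by
      have : (((2 * ⌊t⌋ + 1).toNat : ℕ) : ℤ) = 2 * ⌊t⌋ + 1 := Int.toNat_of_nonneg (by linarith)
      exact_mod_cast this
    rw [h2]
    have := Int.floor_le t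
    linarith
  unfold bx
  rw [card_product, Nat.cast_mul, pow_two]
  exact mul_le_mul (h1 _) (h1 _) (Nat.cast_nonneg _) (by linarith)

/-- **growth in the bulk** -/
theorem grow_plane {w : Fld} {s : Face → ℝ} {x : Face} {R ρ : ℝ} (hR : 1 ≤ R)
    (H : PlaneOn w s x ρ) : GrowOn w x R ρ 4056 := by
  intro t r hRt htr hrρ e he
  have ht1 : 1 ≤ t := hR.trans hRt
  have hr0 : 0 < r := by linarith
  have hN : 0 ≤ NB x r e := apply_nonneg _ _
  by_cases hc : 8 * t ≤ r
  · have hr8 : 8 ≤ r := by linarith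
    set n : ℕ := ⌊r⌋₊ with hn
    have hn1 : (n : ℝ) ≤ r := Nat.floor_le hr0.le
    have hn2 : r < n + 1 := Nat.lt_floor_add_one r
    have hn0 : 0 < n := Nat.floor_pos.2 (by linarith)
    have hn0' : (0 : ℝ) < n := by exact_mod_cast hn0
    have hnr : r ≤ 2 * n := by linarith
    have hsub : bx x r ⊆ bx x ρ := bx_mono x hrρ
    have hex : Exact (gau s e) x n := by
      refine exact_gau (w := w) (fun f _ => H.gauge f) (fun f hf h => ?_) (fun f hf h => ?_)
      · exact H.eq f (hsub (by rwa [bx_eq_Q x hr0.le])) h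
      · have := he f (by rwa [bx_eq_Q x hr0.le])
        rw [this]; rfl
    have hS : S2 (gau s e) x n = NB x r e ^ 2 := by
      rw [S2_gau (fun f _ => H.gauge f), NB_sq_S2 x hr0.le]
    have hin : ∀ f ∈ bx x t, f ∈ Q x (n / 4) := by
      intro f hf
      rw [bx_eq_Q x (by linarith)] at hf
      refine Q_mono ?_ hf
      rw [Nat.le_div_iff_mul_le (by norm_num)]
      have h1 : ((⌊t⌋₊ : ℕ) : ℝ) ≤ t := Nat.floor_le (by linarith)
      have h2 : ((⌊t⌋₊ * 4 : ℕ) : ℝ) ≤ n := by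
        push_cast
        linarith
      exact_mod_cast h2
    have hpt : ∀ f ∈ bx x t, nsq (e f) ≤ 4 * (676 / r * NB x r e) ^ 2 := by
      intro f hf
      have h1 : nsq (e f) = nsq (gau s e f) := (nsq_gau (H.gauge f)).symm
      rw [h1, nsq]
      have h2 : ∀ a : Fin 4, gau s e f a ^ 2 ≤ (676 / r * NB x r e) ^ 2 := by
        intro a
        have h3 := comp_sup hn0 hex a (hin f hf)
        rw [hS, Real.sqrt_sq hN] at h3
        have h4 : 338 / (n : ℝ) * NB x r e ≤ 676 / r * NB x r e := by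
          refine mul_le_mul_of_nonneg_right ?_ hN
          rw [div_le_div_iff₀ hn0' hr0]
          linarith
        rw [← sq_abs (gau s e f a)]
        exact pow_le_pow_left₀ (abs_nonneg _) (h3.trans h4) 2
      calc ∑ a, gau s e f a ^ 2 ≤ ∑ _a : Fin 4, (676 / r * NB x r e) ^ 2 :=
            sum_le_sum fun a _ => h2 a
        _ = 4 * (676 / r * NB x r e) ^ 2 := by simp
    have hsq : NB x t e ^ 2 ≤ (4056 * (t / r) * NB x r e) ^ 2 := by
      rw [NB_sq]
      calc ∑ f ∈ bx x t, nsq (e f) ≤ ∑ _f ∈ bx x t, 4 * (676 / r * NB x r e) ^ 2 :=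
            sum_le_sum hpt
        _ = (bx x t).card * (4 * (676 / r * NB x r e) ^ 2) := by rw [sum_const, nsmul_eq_mul]
        _ ≤ (3 * t) ^ 2 * (4 * (676 / r * NB x r e) ^ 2) :=
            mul_le_mul_of_nonneg_right (card_bx x ht1) (by positivity)
        _ = (4056 * (t / r) * NB x r e) ^ 2 := by ring
    exact le_of_sq_le_sq hsq (by positivity)
  · push Not at hc
    have h1 : NB x t e ≤ NB x r e := NB_mono x htr e
    refine h1.trans (le_mul_of_one_le_left hN ?_)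
    have h2 : 1 / 8 ≤ t / r := by rw [div_le_div_iff₀ (by norm_num) hr0]; linarith
    linarith

end Crest.Agent.R165.ClPlx117
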