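import Crest.Agent.R165.BridgeRB_386
import Crest.Agent.R165.ClPl_117

/-!
# Row 165: `RB` at the centre of a plane box, unconditional (helper386)
-/

set_option autoImplicit false

noncomputable section

open Crest.Agent.R165.Latx683 Crest.Agent.R165.GDefx387
  Crest.Agent.R165.Bridgex386 Crest.Agent.R165.BridgeRegx386 Crest.Agent.R165.BridgeRBx386

namespace Crest.Agent.R165.BridgeRBx386

open Crest.Agent.R165.RIfx891 Crest.Agent.R165.Campx891

/-- growth of exact solutions in plane boxes -/
theorem growPl : GrowPl 4056 := fun _ _ _ _ H => ClPlx117.grow_plane le_rfl H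

/-- the absolute constant of the bulk regularity -/
def CRB : ℝ := 2 * K2 4056 110000000000

/-- **bulk regularity on every coordinate ring, unconditional**: `RB` at the centre of a plane box -/
theorem rb_plane {G : Type} [CommRing G] [CN G] [CNL G] {w : BW G} {s : Face → ℝ} {X : Face}
    {R0 : ℕ} (hI : Inj G R0) (hP : PlaneOn (wl w) s X R0) (Λ : ℕ) :
    RegGx893.RB w (pf X) CRB Λ 1 R0 := rb_of_plane (by norm_num) growPl hI hP Λ

end Crest.Agent.R165.BridgeRBx386
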