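import Crest.Agent.R165.RIface_891

/-!
# Row 165 (S0250), block R, fifth geometry (cluster): Reg1 from the growth of exact solutions

Version of `Camp_891` / `RIface_891.regB` WITHOUT a mode: if exact solutions grow like
`NB x t e ≤ C1 (t/r) NB x r e` for `R ≤ t ≤ r ≤ ρ` and the gap holds on the boxes of radius
between `R` and `ρ`, then every `f` with `ρ^n |A^n f|_ρ ≤ 1`, `n ≤ 2`, satisfies
`NB x s f ≤ C0 s / ρ` for all `R ≤ s ≤ ρ`, with `C0 = 2 K2 C1 Cs` absolute.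
-/

set_option autoImplicit false
set_option linter.unusedVariables false

noncomputable section

namespace Crest.Agent.R165.ClRegx117

open Finset Crest.Agent.R165.Tr1x40 Crest.Agent.R165.Campx891 Crest.Agent.R165.RIfx891

/-- hypotheses of the assembly without a mode -/
structure Hyp1 {V : Type*} [AddCommGroup V] [Module ℝ V] (A : V →ₗ[ℝ] V) (N : ℕ → Seminorm ℝ V)
    (p J : ℕ) (ρ C1 Cs η : ℝ) : Prop where
  hp : 1 ≤ p
  hp2 : p ≤ 2
  hρ : 0 < ρ
  hC1 : 0 ≤ C1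
  hCs : 0 ≤ Cs
  hη : 0 ≤ η
  hηJ : η ≤ q ^ (3 * J)
  anti : ∀ j, N (j + 1) ≤ N j
  ls : ∀ j ≤ J, ∀ g : V, ∃ w : V, N j (A w - g) = 0 ∧ N j w ≤ Cs * (ρ * q ^ (2 * j)) * N j g
  ex1 : ∀ j i, j ≤ i → i ≤ J → ∀ e : V, N j (A e) = 0 →
    N i e ≤ (C1 * q ^ (p * (i - j)) + η) * N j e

section Abstract

variable {V : Type*} [AddCommGroup V] [Module ℝ V] {A : V →ₗ[ℝ] V} {N : ℕ → Seminorm ℝ V}
  {p J : ℕ} {ρ C1 Cs η : ℝ}

/-- first level -/
theorem level1' (H : Hyp1 A N p J ρ C1 Cs η) (g : V) (hg : N 0 g ≤ 1 / ρ)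
    (hAg : N 0 (A g) ≤ 1 / ρ ^ 2) (i : ℕ) (hi : i ≤ J) : N i g ≤ K1 C1 Cs * q ^ i / ρ := by
  have hρ := H.hρ
  choose! w hw1 hw2 using fun j (hj : j ≤ J) => H.ls j hj (A g)
  have hwb : ∀ j ≤ i, N j (w j) ≤ Cs * q ^ (2 * j) / ρ := by
    intro j hj
    refine (hw2 j (hj.trans hi)).trans ?_
    have h1 : N j (A g) ≤ 1 / ρ ^ 2 := (anti_of H.anti 0 j (Nat.zero_le _) _).trans hAg
    have h2 : 0 ≤ Cs * (ρ * q ^ (2 * j)) := by
      have := H.hCs; have := q_pos; positivity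
    refine (mul_le_mul_of_nonneg_left h1 h2).trans (le_of_eq ?_)
    field_simp
  set F : ℕ → ℝ := fun j => C1 * q ^ (p * (i - j)) + η with hFdef
  have hF : ∀ j, 0 ≤ F j := fun j => by
    have := H.hC1; have := H.hη; have := q_pos; positivity
  have hFb : ∀ j ≤ i, F j ≤ (C1 + 1) * q ^ (i - j) := by
    intro j hj
    have h1 : q ^ (p * (i - j)) ≤ q ^ (i - j) := q_pow_le (Nat.le_mul_of_pos_left _ H.hp)
    have h2 : η ≤ q ^ (i - j) := H.hηJ.trans (q_pow_le (by omega))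
    have h3 := mul_le_mul_of_nonneg_left h1 H.hC1
    simp only [hFdef]; linarith
  have ht := tele A N H.anti i F g w (fun j hj => hw1 j (hj.trans hi)) (N i)
    (fun j hj e he => H.ex1 j i hj hi e he) hF
  have hC1 := H.hC1
  have hCs := H.hCs
  have hqi : 0 ≤ q ^ i := pow_nonneg q_pos.le i
  have t0 : F 0 * (N 0 g + N 0 (w 0)) ≤ (C1 + 1) * (1 + Cs) * (q ^ i / ρ) := by
    have h1 : N 0 g + N 0 (w 0) ≤ (1 + Cs) / ρ := by
      have := hwb 0 (Nat.zero_le _)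
      simp only [mul_zero, pow_zero, mul_one] at this
      calc N 0 g + N 0 (w 0) ≤ 1 / ρ + Cs / ρ := add_le_add hg this
        _ = (1 + Cs) / ρ := by ring
    have h2 := hFb 0 (Nat.zero_le _)
    simp only [Nat.sub_zero] at h2
    have h3 : 0 ≤ N 0 g + N 0 (w 0) := by positivity
    calc F 0 * (N 0 g + N 0 (w 0)) ≤ ((C1 + 1) * q ^ i) * ((1 + Cs) / ρ) :=
          mul_le_mul h2 h1 h3 (by positivity)
      _ = (C1 + 1) * (1 + Cs) * (q ^ i / ρ) := by ring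
  have tj : ∀ j ∈ range i, F (j + 1) * (N j (w j) + N (j + 1) (w (j + 1))) ≤
      (C1 + 1) * (3 * (2 * Cs)) * (q ^ i / ρ) * q ^ j := by
    intro j hj
    have hji : j + 1 ≤ i := mem_range.1 hj
    obtain ⟨m, hm⟩ := Nat.exists_eq_add_of_le hji
    have h1 := hFb (j + 1) hji
    have hsub : i - (j + 1) = m := by omega
    rw [hsub] at h1
    have h2 := hwb j (by omega)
    have h3 := hwb (j + 1) hji
    have h4 : Cs * q ^ (2 * (j + 1)) / ρ ≤ Cs * q ^ (2 * j) / ρ := by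
      gcongr ?_ / ρ
      exact mul_le_mul_of_nonneg_left (q_pow_le (by omega)) hCs
    have h5 : N j (w j) + N (j + 1) (w (j + 1)) ≤ 2 * Cs * q ^ (2 * j) / ρ := by
      calc _ ≤ Cs * q ^ (2 * j) / ρ + Cs * q ^ (2 * j) / ρ := add_le_add h2 (h3.trans h4)
        _ = _ := by ring
    have h6 : 0 ≤ N j (w j) + N (j + 1) (w (j + 1)) := by positivity
    have hq := q_pos
    calc F (j + 1) * (N j (w j) + N (j + 1) (w (j + 1)))
        ≤ ((C1 + 1) * q ^ m) * (2 * Cs * q ^ (2 * j) / ρ) := mul_le_mul h1 h5 h6 (by positivity)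
      _ ≤ ((C1 + 1) * q ^ m) * (2 * Cs * q ^ (2 * j) / ρ) * (3 * q ^ 3) :=
          le_mul_of_one_le_right (by positivity) inv_q3
      _ = (C1 + 1) * (3 * (2 * Cs)) * (q ^ (m + 2 * j + 3) / ρ) := by ring
      _ ≤ (C1 + 1) * (3 * (2 * Cs)) * (q ^ (i + j) / ρ) := by
          have : q ^ (m + 2 * j + 3) ≤ q ^ (i + j) := q_pow_le (by omega)
          gcongr
      _ = (C1 + 1) * (3 * (2 * Cs)) * (q ^ i / ρ) * q ^ j := by ring
  have tsum : ∑ j ∈ range i, F (j + 1) * (N j (w j) + N (j + 1) (w (j + 1))) ≤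
      (C1 + 1) * (3 * (2 * Cs)) * 4 * (q ^ i / ρ) := by
    refine (sum_le_sum tj).trans ?_
    rw [← mul_sum]
    have h1 := geom_le i
    have h2 : 0 ≤ (C1 + 1) * (3 * (2 * Cs)) * (q ^ i / ρ) := by positivity
    calc _ ≤ (C1 + 1) * (3 * (2 * Cs)) * (q ^ i / ρ) * 4 := mul_le_mul_of_nonneg_left h1 h2
      _ = _ := by ring
  have tw : N i (w i) ≤ Cs * (q ^ i / ρ) := by
    refine (hwb i le_rfl).trans ?_
    rw [mul_div_assoc]
    have : q ^ (2 * i) ≤ q ^ i := q_pow_le (by omega)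
    gcongr
  have e1 : g = (g - w i) + w i := by abel
  calc N i g = N i ((g - w i) + w i) := by rw [← e1]
    _ ≤ N i (g - w i) + N i (w i) := map_add_le_add _ _ _
    _ ≤ ((C1 + 1) * (1 + Cs) * (q ^ i / ρ) + (C1 + 1) * (3 * (2 * Cs)) * 4 * (q ^ i / ρ)) +
        Cs * (q ^ i / ρ) := by linarith
    _ = K1 C1 Cs * q ^ i / ρ := by unfold K1; ring

/-- second level, growth only -/
theorem level2' (H : Hyp1 A N p J ρ C1 Cs η) (f : V) (h0 : N 0 f ≤ 1)
    (h1 : N 0 (A f) ≤ 1 / ρ) (h2 : N 0 (A (A f)) ≤ 1 / ρ ^ 2) :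
    N J f ≤ K2 C1 Cs * q ^ (p * J) := by
  have hρ := H.hρ
  have hC1 := H.hC1
  have hCs := H.hCs
  have hq := q_pos
  have hp := H.hp
  have hp2 := H.hp2
  have hK1 := K1_nonneg hC1 hCs
  have hb : ∀ j ≤ J, N j (A f) ≤ K1 C1 Cs * q ^ j / ρ := fun j hj => level1' H (A f) h1 h2 j hj
  choose! w hw1 hw2 using fun j (hj : j ≤ J) => H.ls j hj (A f)
  set B : ℝ := Cs * K1 C1 Cs with hB
  have hBn : 0 ≤ B := by positivity
  have hwb : ∀ j ≤ J, N j (w j) ≤ B * q ^ (3 * j) := by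
    intro j hj
    refine (hw2 j hj).trans ?_
    have h3 : 0 ≤ Cs * (ρ * q ^ (2 * j)) := by positivity
    refine (mul_le_mul_of_nonneg_left (hb j hj) h3).trans (le_of_eq ?_)
    field_simp
    rw [hB]; ring
  have hw0 : N 0 (w 0) ≤ B := by simpa using hwb 0 (Nat.zero_le _)
  have hinc : ∀ j, j + 1 ≤ J → N j (w j) + N (j + 1) (w (j + 1)) ≤ 2 * B * q ^ (3 * j) := by
    intro j hj
    have h3 := hwb j (by omega)
    have h4 := hwb (j + 1) hj
    have h5 : B * q ^ (3 * (j + 1)) ≤ B * q ^ (3 * j) :=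
      mul_le_mul_of_nonneg_left (q_pow_le (by omega)) hBn
    linarith
  have hincn : ∀ j, 0 ≤ N j (w j) + N (j + 1) (w (j + 1)) := fun j => by positivity
  have hηP : η ≤ q ^ (p * J) := H.hηJ.trans (q_pow_le (Nat.mul_le_mul_right J (by omega)))
  have t0 : (C1 * q ^ (p * J) + η) * (N 0 f + N 0 (w 0)) ≤
      (C1 + 1) * (1 + B) * q ^ (p * J) := by
    have a1 : C1 * q ^ (p * J) + η ≤ (C1 + 1) * q ^ (p * J) := by linarith
    have a2 : N 0 f + N 0 (w 0) ≤ 1 + B := add_le_add h0 hw0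
    calc _ ≤ ((C1 + 1) * q ^ (p * J)) * (1 + B) :=
          mul_le_mul a1 a2 (by positivity) (by positivity)
      _ = _ := by ring
  have tj : ∀ j ∈ range J,
      (C1 * q ^ (p * (J - (j + 1))) + η) * (N j (w j) + N (j + 1) (w (j + 1))) ≤
      (2 * B * q ^ (p * J)) * ((3 * C1) * (q ^ j + q ^ (J - 1 - j)) + q ^ j) := by
    intro j hj
    have hjJ : j + 1 ≤ J := mem_range.1 hj
    obtain ⟨k, hk⟩ := Nat.exists_eq_add_of_le hjJ
    have hs1 : J - (j + 1) = k := by omega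
    have hs2 : J - 1 - j = k := by omega
    rw [hs1, hs2]
    have a1 := hinc j hjJ
    have a3 : 0 ≤ C1 * q ^ (p * k) + η := by have := H.hη; positivity
    have b1 : q ^ (3 * J) * q ^ (3 * j) ≤ q ^ (p * J) * q ^ j := by
      have c1 : q ^ (3 * J) ≤ q ^ (p * J) := q_pow_le (Nat.mul_le_mul_right J (by omega))
      have c2 : q ^ (3 * j) ≤ q ^ j := q_pow_le (by omega)
      exact mul_le_mul c1 c2 (by positivity) (by positivity)
    have b2 : q ^ (p * k) * q ^ (3 * j) ≤ 3 * (q ^ (p * J) * (q ^ j + q ^ k)) := by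
      have d1 : q ^ (p * k) * q ^ (3 * j) ≤ (q ^ (p * k) * q ^ (3 * j)) * (3 * q ^ 3) :=
        le_mul_of_one_le_right (by positivity) inv_q3
      have d2 : (q ^ (p * k) * q ^ (3 * j)) * (3 * q ^ 3) = 3 * q ^ (p * k + 3 * j + 3) := by
        ring
      have d3 : q ^ (p * k + 3 * j + 3) ≤ q ^ (p * J) * (q ^ j + q ^ k) := by
        have : q ^ (p * k + 3 * j + 3) ≤ q ^ (p * J + j) := by
          apply q_pow_le
          rw [hk]
          interval_cases p <;> omega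
        rw [pow_add q (p * J) j] at this
        have e : 0 ≤ q ^ (p * J) * q ^ k := by positivity
        linarith [mul_add (q ^ (p * J)) (q ^ j) (q ^ k)]
      calc _ ≤ _ := d1
        _ = _ := d2
        _ ≤ _ := by linarith
    have b3 : η * q ^ (3 * j) ≤ q ^ (p * J) * q ^ j :=
      (mul_le_mul_of_nonneg_right H.hηJ (by positivity)).trans b1
    calc (C1 * q ^ (p * k) + η) * (N j (w j) + N (j + 1) (w (j + 1)))
        ≤ (C1 * q ^ (p * k) + η) * (2 * B * q ^ (3 * j)) := mul_le_mul_of_nonneg_left a1 a3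
      _ = 2 * B * (C1 * (q ^ (p * k) * q ^ (3 * j)) + η * q ^ (3 * j)) := by ring
      _ ≤ 2 * B * (C1 * (3 * (q ^ (p * J) * (q ^ j + q ^ k))) + q ^ (p * J) * q ^ j) := by
          have := mul_le_mul_of_nonneg_left b2 hC1
          gcongr
      _ = _ := by ring
  have g1 := geom_le J
  have g2 : ∑ j ∈ range J, q ^ (J - 1 - j) ≤ 4 := by
    rw [Finset.sum_range_reflect (fun j => q ^ j) J]; exact g1
  have tsum : ∑ j ∈ range J,
      (C1 * q ^ (p * (J - (j + 1))) + η) * (N j (w j) + N (j + 1) (w (j + 1))) ≤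
      (2 * B * q ^ (p * J)) * (8 * (3 * C1 + 1)) := by
    refine (sum_le_sum tj).trans ?_
    rw [← mul_sum]
    have : ∑ j ∈ range J, ((3 * C1) * (q ^ j + q ^ (J - 1 - j)) + q ^ j) =
        (3 * C1) * (∑ j ∈ range J, q ^ j + ∑ j ∈ range J, q ^ (J - 1 - j)) +
          ∑ j ∈ range J, q ^ j := by
      rw [sum_add_distrib, ← mul_sum, sum_add_distrib]
    rw [this]
    refine mul_le_mul_of_nonneg_left ?_ (by positivity)
    have := mul_le_mul_of_nonneg_left (add_le_add g1 g2) (by positivity : 0 ≤ 3 * C1)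
    linarith
  have tw : N J (w J) ≤ B * q ^ (p * J) :=
    (hwb J le_rfl).trans (mul_le_mul_of_nonneg_left
      (q_pow_le (Nat.mul_le_mul_right J (by omega))) hBn)
  set F : ℕ → ℝ := fun j => C1 * q ^ (p * (J - j)) + η with hFdef
  have hF : ∀ j, 0 ≤ F j := fun j => by have := H.hη; positivity
  have ht := tele A N H.anti J F f w hw1 (N J)
    (fun j hj e he => H.ex1 j J hj le_rfl e he) hF
  have e1 : f = (f - w J) + w J := by abel
  have hF0 : F 0 = C1 * q ^ (p * J) + η := by simp [hFdef]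
  rw [hF0] at ht
  calc N J f = N J ((f - w J) + w J) := by rw [← e1]
    _ ≤ N J (f - w J) + N J (w J) := map_add_le_add _ _ _
    _ ≤ (C1 + 1) * (1 + B) * q ^ (p * J) + (2 * B * q ^ (p * J)) * (8 * (3 * C1 + 1)) +
          B * q ^ (p * J) := by linarith
    _ = K2 C1 Cs * q ^ (p * J) := by unfold K2; rw [hB]; ring

end Abstract

theorem K2_nonneg {C1 Cs : ℝ} (h1 : 0 ≤ C1) (h2 : 0 ≤ Cs) : 0 ≤ K2 C1 Cs := by
  have := K1_nonneg h1 h2
  unfold K2; positivity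

/-- growth of exact solutions between the scales `R` and `ρ`, exponent one -/
def GrowOn (w : Fld) (x : Face) (R ρ C1 : ℝ) : Prop :=
  ∀ t r : ℝ, R ≤ t → t ≤ r → r ≤ ρ → ∀ e : Fld, (∀ f ∈ bx x r, A w e f = 0) →
    NB x t e ≤ C1 * (t / r) * NB x r e

/-- **Reg1 without a mode**: gap + growth on the scales `[R, ρ]` give `NB x s f ≤ C0 s / ρ` on
`[R, ρ]`, `C0 = 2 K2 C1 Cs`. -/
theorem reg1 {w : Fld} (hw : Sym w) {x : Face} {R ρ C1 Cs : ℝ} (hR : 0 < R)
    (hC1 : 0 ≤ C1) (hCs : 0 ≤ Cs)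
    (hgap : ∀ r, R ≤ r → r ≤ ρ → GapOn w x r Cs) (hex : GrowOn w x R ρ C1)
    {s : ℝ} (hs : R ≤ s) (hsρ : s ≤ ρ) {f : Fld} (h0 : NB x ρ f ≤ 1)
    (h1 : NB x ρ (A w f) ≤ 1 / ρ) (h2 : NB x ρ (A w (A w f)) ≤ 1 / ρ ^ 2) :
    NB x s f ≤ 2 * K2 C1 Cs * (s / ρ) := by
  have hs0 : 0 < s := hR.trans_le hs
  have hρ0 : 0 < ρ := hs0.trans_le hsρ
  have hq := q_pos
  have hq2 : ∀ j : ℕ, q ^ (2 * j) = (1 / 2 : ℝ) ^ j := fun j => by rw [pow_mul, q_sq]
  -- choose the dyadic scale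
  obtain ⟨J, hJ1, hJ2⟩ : ∃ J : ℕ, s ≤ ρ * q ^ (2 * J) ∧ ρ * q ^ (2 * J) ≤ 2 * s := by
    obtain ⟨J, hJ, hJ'⟩ := exists_nat_pow_near (x := ρ / s) (y := (2 : ℝ))
      (by rw [le_div_iff₀ hs0]; linarith) (by norm_num)
    refine ⟨J, ?_, ?_⟩
    · rw [hq2, one_div, inv_pow, ← div_eq_mul_inv, le_div_iff₀ (by positivity)]
      rw [le_div_iff₀ hs0] at hJ
      linarith
    · rw [hq2, one_div, inv_pow, ← div_eq_mul_inv, div_le_iff₀ (by positivity)]
      rw [div_lt_iff₀ hs0, pow_succ] at hJ'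
      nlinarith
  have hle : ∀ j : ℕ, ρ * q ^ (2 * j) ≤ ρ := fun j =>
    mul_le_of_le_one_right hρ0.le (pow_le_one₀ hq.le q_le_one)
  have hge : ∀ j ≤ J, R ≤ ρ * q ^ (2 * j) := fun j hj =>
    (hs.trans hJ1).trans (mul_le_mul_of_nonneg_left (q_pow_le (by omega)) hρ0.le)
  have key : Hyp1 (AL w) (fun j => NB x (ρ * q ^ (2 * j))) 2 J ρ C1 Cs 0 := by
    refine ⟨by norm_num, le_rfl, hρ0, hC1, hCs, le_rfl, by positivity, ?_, ?_, ?_⟩
    · intro j
      exact NB_mono x (mul_le_mul_of_nonneg_left (q_pow_le (by omega)) hρ0.le)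
    · intro j hj g
      have hr : 0 ≤ ρ * q ^ (2 * j) := by positivity
      obtain ⟨φ, -, ha, hb⟩ := ls_of_gap hw hr hCs (hgap _ (hge j hj) (hle j)) g
      refine ⟨φ, ?_, ?_⟩
      · rw [NB_eq_zero]
        intro f hf
        rw [AL_apply, Pi.sub_apply, ha f hf, sub_self]
      · exact (NB_mono x (by linarith) φ).trans hb
    · intro j i hji hi e he
      rw [NB_eq_zero] at he
      have h3 := hex (ρ * q ^ (2 * i)) (ρ * q ^ (2 * j)) (hge i hi)
        (mul_le_mul_of_nonneg_left (q_pow_le (by omega)) hρ0.le) (hle j) e he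
      have e1 : ρ * q ^ (2 * i) / (ρ * q ^ (2 * j)) = q ^ (2 * (i - j)) := by
        rw [mul_div_mul_left _ _ hρ0.ne', div_eq_iff (by positivity), ← pow_add]
        congr 1; omega
      rw [e1] at h3
      simpa using h3
  have h3 := level2' key f (by simpa using h0) (by simpa using h1) (by simpa using h2)
  have hK := K2_nonneg hC1 hCs
  calc NB x s f ≤ NB x (ρ * q ^ (2 * J)) f := NB_mono x hJ1 f
    _ ≤ K2 C1 Cs * q ^ (2 * J) := h3
    _ ≤ K2 C1 Cs * (2 * (s / ρ)) := by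
        refine mul_le_mul_of_nonneg_left ?_ hK
        rw [← mul_div_assoc, le_div_iff₀ hρ0]; linarith
    _ = _ := by ring

/-- rescaling: a bound for the unit ball of the scale `d` gives a bound for every `f` -/
theorem resc {w : Fld} {z : Face} {d c s M : ℝ} (hc : 0 < c)
    (hreg : ∀ g : Fld, NB z d g ≤ 1 → NB z d (A w g) ≤ 1 / d → NB z d (A w (A w g)) ≤ 1 / d ^ 2 →
      NB z s g ≤ M)
    (f : Fld) (c0 : NB z d f ≤ c) (c1 : NB z d (A w f) ≤ c / d)
    (c2 : NB z d (A w (A w f)) ≤ c / d ^ 2) : NB z s f ≤ c * M := by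
  have l1 : ∀ g : Fld, A w (c⁻¹ • g) = c⁻¹ • A w g := fun g => (AL w).map_smul c⁻¹ g
  have hs := hreg (c⁻¹ • f)
    (by
      rw [map_smul_eq_mul, Real.norm_eq_abs, abs_of_pos (inv_pos.2 hc), inv_mul_le_iff₀ hc]
      simpa using c0)
    (by
      rw [l1, map_smul_eq_mul, Real.norm_eq_abs, abs_of_pos (inv_pos.2 hc), inv_mul_le_iff₀ hc]
      rwa [mul_one_div])
    (by
      rw [l1, l1, map_smul_eq_mul, Real.norm_eq_abs, abs_of_pos (inv_pos.2 hc),
        inv_mul_le_iff₀ hc]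
      rwa [mul_one_div])
  rwa [map_smul_eq_mul, Real.norm_eq_abs, abs_of_pos (inv_pos.2 hc), inv_mul_le_iff₀ hc] at hs

/-- sup distance of two faces, real -/
def fdr (x z : Face) : ℝ := max |(z.1 : ℝ) - x.1| |(z.2 : ℝ) - x.2|

theorem bx_subset {x z : Face} {s r : ℝ} (h : fdr x z + s ≤ r) : bx z s ⊆ bx x r := by
  intro f hf
  rw [mem_bx_real] at hf ⊢
  have h1 : |(z.1 : ℝ) - x.1| ≤ fdr x z := le_max_left _ _
  have h2 : |(z.2 : ℝ) - x.2| ≤ fdr x z := le_max_right _ _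
  constructor
  · have := abs_add_le ((f.1 : ℝ) - z.1) ((z.1 : ℝ) - x.1)
    rw [sub_add_sub_cancel] at this
    linarith [hf.1]
  · have := abs_add_le ((f.2 : ℝ) - z.2) ((z.2 : ℝ) - x.2)
    rw [sub_add_sub_cancel] at this
    linarith [hf.2]

/-- constant of the off-centre statement -/
def K3 (C1 C1' Cs : ℝ) : ℝ := 6 * (K2 C1 Cs + 1) * (2 * K2 C1' Cs + 1)

theorem K3_pos {C1 C1' Cs : ℝ} (h1 : 0 ≤ C1) (h1' : 0 ≤ C1') (h2 : 0 ≤ Cs) :
    0 < K3 C1 C1' Cs := by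
  have := K2_nonneg h1 h2
  have := K2_nonneg h1' h2
  unfold K3; positivity

/-- **Reg1 for every centre** `z` (cluster inside `bx x R`): growth of exact solutions at the centre
`x` on the scales `[R, ρ]`, and at `z` on the scales `[s, fdr x z / 2]` (only needed if
`2 s ≤ fdr x z`), gap on all boxes inside. Conclusion `NB z s f ≤ K3 s / ρ` for `R ≤ 3 s`. -/
theorem reg1_off {w : Fld} (hw : Sym w) {x z : Face} {R ρ C1 C1' Cs s : ℝ} (hR : 0 < R)
    (hC1 : 0 ≤ C1) (hC1' : 0 ≤ C1') (hCs : 0 ≤ Cs)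
    (hgap : ∀ r, R ≤ r → r ≤ ρ → GapOn w x r Cs) (hex : GrowOn w x R ρ C1)
    (hgap' : ∀ r, s ≤ r → 2 * r ≤ fdr x z → GapOn w z r Cs)
    (hex' : 2 * s ≤ fdr x z → GrowOn w z s (fdr x z / 2) C1')
    (hs0 : 0 < s) (hs : R ≤ 3 * s) (hsρ : 3 * s ≤ ρ) (hzρ : 3 * fdr x z ≤ 2 * ρ)
    {f : Fld} (h0 : NB x ρ f ≤ 1)
    (h1 : NB x ρ (A w f) ≤ 1 / ρ) (h2 : NB x ρ (A w (A w f)) ≤ 1 / ρ ^ 2) :
    NB z s f ≤ K3 C1 C1' Cs * (s / ρ) := by
  have hρ0 : 0 < ρ := by linarith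
  have hK := K2_nonneg hC1 hCs
  have hK' := K2_nonneg hC1' hCs
  by_cases hD : fdr x z ≤ 2 * s
  · have e1 : NB z s f ≤ NB x (3 * s) f := N2_mono (bx_subset (by linarith)) f
    have e2 := reg1 hw hR hC1 hCs hgap hex hs hsρ h0 h1 h2
    refine (e1.trans e2).trans ?_
    have e3 : 2 * K2 C1 Cs * (3 * s / ρ) = (6 * K2 C1 Cs) * (s / ρ) := by ring
    rw [e3]
    refine mul_le_mul_of_nonneg_right ?_ (by positivity)
    unfold K3
    nlinarith [mul_nonneg hK hK']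
  · push Not at hD
    set d : ℝ := fdr x z / 2 with hd
    have hd0 : 0 < d := by linarith
    have hsd : s ≤ d := by linarith
    have hsub : bx z d ⊆ bx x (3 * d) := bx_subset (by linarith)
    have h3ρ : 3 * d ≤ ρ := by linarith
    have e2 := reg1 hw hR hC1 hCs hgap hex (s := 3 * d) (by linarith) h3ρ h0 h1 h2
    set c : ℝ := 6 * (K2 C1 Cs + 1) * (d / ρ) with hc
    have hc0 : 0 < c := by positivity
    have m : ∀ g : Fld, NB z d g ≤ NB x (3 * d) g := fun g => N2_mono hsub g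
    have m' : ∀ g : Fld, NB x (3 * d) g ≤ NB x ρ g := fun g => NB_mono x h3ρ g
    have hc6 : 6 * (d / ρ) ≤ c := by
      rw [hc]
      refine mul_le_mul_of_nonneg_right ?_ (by positivity)
      linarith
    have c0 : NB z d f ≤ c := by
      refine ((m f).trans e2).trans ?_
      rw [hc, show 2 * K2 C1 Cs * (3 * d / ρ) = (6 * K2 C1 Cs) * (d / ρ) by ring]
      refine mul_le_mul_of_nonneg_right ?_ (by positivity)
      linarith
    have c1 : NB z d (A w f) ≤ c / d := by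
      refine (((m _).trans (m' _)).trans h1).trans ?_
      rw [le_div_iff₀ hd0]
      have : 1 / ρ * d = d / ρ := by ring
      rw [this]
      have : 0 ≤ d / ρ := by positivity
      linarith
    have c2 : NB z d (A w (A w f)) ≤ c / d ^ 2 := by
      refine (((m _).trans (m' _)).trans h2).trans ?_
      rw [le_div_iff₀ (by positivity)]
      have e3 : 1 / ρ ^ 2 * d ^ 2 = (d / ρ) * (d / ρ) := by ring
      rw [e3]
      have e4 : d / ρ ≤ 1 := by rw [div_le_one hρ0]; linarith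
      have e5 : 0 ≤ d / ρ := by positivity
      nlinarith
    have hreg : ∀ g : Fld, NB z d g ≤ 1 → NB z d (A w g) ≤ 1 / d →
        NB z d (A w (A w g)) ≤ 1 / d ^ 2 → NB z s g ≤ 2 * K2 C1' Cs * (s / d) := by
      intro g g0 g1 g2
      exact reg1 hw hs0 hC1' hCs (fun r hr1 hr2 => hgap' r hr1 (by linarith))
        (hex' (by linarith)) le_rfl hsd g0 g1 g2
    refine (resc hc0 hreg f c0 c1 c2).trans ?_
    have e6 : c * (2 * K2 C1' Cs * (s / d)) =
        (6 * (K2 C1 Cs + 1) * (2 * K2 C1' Cs)) * (s / ρ) := by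
      rw [hc]; field_simp
    rw [e6]
    refine mul_le_mul_of_nonneg_right ?_ (by positivity)
    unfold K3
    nlinarith [mul_nonneg hK hK']

end Crest.Agent.R165.ClRegx117
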