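import Mathlib

/-!
# Row 165, block G/R: the one-mode (n-width) lemma (helper386)

`B` = inner product of the ball `B_r` (positive semidefinite form), `F` = functions which are
admissible at the new scale, `q` = the higher order part of the old local norm.  From the `L²`
statement "every `f ∈ F` is `κ u` up to `ε` in `L²(B_r)`" (with ANY `u`, not smooth, not a
solution) we get a mode `v` which is ITSELF admissible, and a functional `Φ = t ⟨v, ·⟩_B`, such that
`f - Φ(f) v` is small in the full local norm: this is the form needed for the weights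
(`(1 - P) l = l - l(v) Φ`).
-/

set_option autoImplicit false

namespace Crest.Agent.R165.NWidthx386

variable {E : Type*} [AddCommGroup E] [Module ℝ E]

/-- the `L²` seminorm of a positive semidefinite form -/
noncomputable def nB (B : LinearMap.BilinForm ℝ E) (f : E) : ℝ := Real.sqrt (B f f)

structure PSD (B : LinearMap.BilinForm ℝ E) : Prop where
  symm : ∀ x y, B x y = B y x
  pos : ∀ x, 0 ≤ B x x

variable {B : LinearMap.BilinForm ℝ E}

theorem nB_nonneg (B : LinearMap.BilinForm ℝ E) (f : E) : 0 ≤ nB B f := Real.sqrt_nonneg _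

theorem nB_sq (h : PSD B) (f : E) : nB B f ^ 2 = B f f := Real.sq_sqrt (h.pos f)

theorem PSD.cs (h : PSD B) (x y : E) : (B x y) ^ 2 ≤ B x x * B y y := by
  have key : ∀ t : ℝ, 0 ≤ B x x + 2 * t * B x y + t ^ 2 * B y y := by
    intro t
    have := h.pos (x + t • y)
    simp only [map_add, map_smul, LinearMap.add_apply, LinearMap.smul_apply, smul_eq_mul] at this
    rw [h.symm y x] at this
    nlinarith
  by_cases hy : B y y = 0
  · have h1 := key (-(B x x + 1) / (2 * B x y))
    by_cases hxy : B x y = 0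
    · rw [hxy, hy]; simp
    · exfalso
      rw [hy] at h1
      have : 2 * (-(B x x + 1) / (2 * B x y)) * B x y = -(B x x + 1) := by
        field_simp
      rw [this] at h1
      linarith
  · have hy' : 0 < B y y := lt_of_le_of_ne (h.pos y) (Ne.symm hy)
    have h1 := key (-(B x y) / B y y)
    have e1 : B x x + 2 * (-(B x y) / B y y) * B x y + (-(B x y) / B y y) ^ 2 * B y y =
        B x x - (B x y) ^ 2 / B y y := by
      field_simp; ring
    rw [e1] at h1
    have h2 : (B x y) ^ 2 / B y y ≤ B x x := by linarith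
    rwa [div_le_iff₀ hy'] at h2

theorem PSD.abs_le (h : PSD B) (x y : E) : |B x y| ≤ nB B x * nB B y := by
  apply abs_le_of_sq_le_sq
  · rw [mul_pow, nB_sq h, nB_sq h]; exact h.cs x y
  · exact mul_nonneg (nB_nonneg _ _) (nB_nonneg _ _)

theorem PSD.add_le (h : PSD B) (x y : E) : nB B (x + y) ≤ nB B x + nB B y := by
  apply le_of_sq_le_sq _ (add_nonneg (nB_nonneg _ _) (nB_nonneg _ _))
  rw [nB_sq h]
  have h1 := (le_abs_self _).trans (h.abs_le x y)
  simp only [map_add, LinearMap.add_apply]
  rw [h.symm y x, add_sq, nB_sq h, nB_sq h]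
  linarith

theorem PSD.smul_eq (h : PSD B) (c : ℝ) (x : E) : nB B (c • x) = |c| * nB B x := by
  have e : B (c • x) (c • x) = c ^ 2 * B x x := by
    simp only [map_smul, LinearMap.smul_apply, smul_eq_mul]
    ring
  rw [nB, e, Real.sqrt_mul (sq_nonneg c), Real.sqrt_sq_eq_abs, nB]

theorem PSD.neg_eq (h : PSD B) (x : E) : nB B (-x) = nB B x := by
  have := h.smul_eq (-1) x
  rwa [neg_one_smul, abs_neg, abs_one, one_mul] at this

theorem PSD.sub_le (h : PSD B) (x y : E) : nB B (x - y) ≤ nB B x + nB B y := by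
  rw [sub_eq_add_neg, ← h.neg_eq y]; exact h.add_le _ _

/-- the orthogonal projection is the best approximation -/
theorem PSD.proj_le (h : PSD B) (f v : E) (hv : B v v ≠ 0) (c : ℝ) :
    nB B (f - (B v f / B v v) • v) ≤ nB B (f - c • v) := by
  apply Real.sqrt_le_sqrt
  have hv' : 0 < B v v := lt_of_le_of_ne (h.pos v) (Ne.symm hv)
  simp only [map_sub, map_smul, LinearMap.sub_apply, LinearMap.smul_apply, smul_eq_mul]
  rw [h.symm f v]
  have e3 : B f f - B v f / B v v * B v f - B v f / B v v * (B v f - B v f / B v v * B v v) =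
      B f f - (B v f) ^ 2 / B v v := by
    field_simp; ring
  have e4 : B f f - c * B v f - c * (B v f - c * B v v) =
      B f f - (B v f) ^ 2 / B v v + B v v * (c - B v f / B v v) ^ 2 := by
    field_simp; ring
  rw [e3, e4]
  have : 0 ≤ B v v * (c - B v f / B v v) ^ 2 := by positivity
  linarith

/-- **one-mode lemma** -/
theorem nwidth (h : PSD B) (F : Set E) (q : Seminorm ℝ E) (u : E) {ε α : ℝ} (hε : 0 < ε)
    (hbd : ∀ f ∈ F, nB B f ≤ α) (hκ : ∀ f ∈ F, ∃ κ : ℝ, nB B (f - κ • u) ≤ ε)
    (hq : ∀ f ∈ F, q f ≤ ε) :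
    ∃ v : E, ∃ t : ℝ, (v ∈ F ∨ v = 0) ∧ ∀ f ∈ F, |t * B v f| ≤ 2 ∧
      nB B (f - (t * B v f) • v) ≤ 6 * ε ∧ q (f - (t * B v f) • v) ≤ 3 * ε := by
  by_cases hsm : ∀ f ∈ F, nB B f ≤ 4 * ε
  · refine ⟨0, 0, Or.inr rfl, fun f hf => ?_⟩
    have e : f - (0 * B 0 f) • (0 : E) = f := by rw [smul_zero, sub_zero]
    rw [e, zero_mul, abs_zero]
    refine ⟨by norm_num, ?_, ?_⟩
    · linarith [hsm f hf]
    · linarith [hq f hf]
  · push Not at hsm
    obtain ⟨f0, hf0, hf0'⟩ := hsm
    -- the supremum
    set S : Set ℝ := (nB B) '' F with hS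
    have hSne : S.Nonempty := ⟨_, f0, hf0, rfl⟩
    have hSbd : BddAbove S := ⟨α, by rintro _ ⟨f, hf, rfl⟩; exact hbd f hf⟩
    set m : ℝ := sSup S with hm
    have hm0 : 4 * ε < m := lt_of_lt_of_le hf0' (le_csSup hSbd ⟨f0, hf0, rfl⟩)
    have hm1 : m / 2 < m := by linarith
    obtain ⟨_, ⟨v, hv, rfl⟩, hv2⟩ := exists_lt_of_lt_csSup hSne hm1
    have hvε : 2 * ε < nB B v := by linarith
    have hvpos : 0 < nB B v := by linarith
    have hvv : B v v ≠ 0 := by
      intro h0
      have := nB_sq h v
      rw [h0] at this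
      have := pow_pos hvpos 2
      linarith
    obtain ⟨κv, hκv⟩ := hκ v hv
    have hle : ∀ f ∈ F, nB B f ≤ m := fun f hf => le_csSup hSbd ⟨f, hf, rfl⟩
    -- size of the mode part of `v`
    have hκu : nB B v / 2 ≤ nB B (κv • u) := by
      have h1 : nB B v ≤ nB B (v - κv • u) + nB B (κv • u) := by
        have := h.add_le (v - κv • u) (κv • u)
        rwa [sub_add_cancel] at this
      linarith
    have hκv0 : κv ≠ 0 := by
      intro h0
      rw [h0, h.smul_eq, abs_zero, zero_mul] at hκu
      linarith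
    have hu0 : 0 < nB B u := by
      rcases (nB_nonneg B u).lt_or_eq with h0 | h0
      · exact h0
      · exfalso
        rw [h.smul_eq, ← h0, mul_zero] at hκu
        linarith
    refine ⟨v, 1 / B v v, Or.inl hv, fun f hf => ?_⟩
    have e : (1 / B v v) * B v f = B v f / B v v := by ring
    rw [e]
    have hΦ : |B v f / B v v| ≤ 2 := by
      rw [abs_div, abs_of_nonneg (h.pos v), div_le_iff₀ (lt_of_le_of_ne (h.pos v) (Ne.symm hvv))]
      have h1 := h.abs_le v f
      have h2 := hle f hf
      have h3 : m < 2 * nB B v := by linarith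
      rw [← nB_sq h v]
      nlinarith [nB_nonneg B f]
    refine ⟨hΦ, ?_, ?_⟩
    · obtain ⟨κ, hκ'⟩ := hκ f hf
      refine (h.proj_le f v hvv (κ / κv)).trans ?_
      have e2 : f - (κ / κv) • v = (f - κ • u) - (κ / κv) • (v - κv • u) := by
        rw [smul_sub, smul_smul, div_mul_cancel₀ _ hκv0]
        abel
      rw [e2]
      refine (h.sub_le _ _).trans ?_
      rw [h.smul_eq]
      have hc : |κ / κv| ≤ 5 := by
        have h1 : nB B (κ • u) ≤ nB B f + ε := by
          have := h.sub_le f (f - κ • u)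
          rw [sub_sub_cancel] at this
          linarith
        have h2 := hle f hf
        rw [h.smul_eq] at h1 hκu
        rw [abs_div, div_le_iff₀ (abs_pos.2 hκv0)]
        have h3 : |κ| * nB B u ≤ 5 / 4 * m := by linarith
        have h4 : m / 4 ≤ |κv| * nB B u := by linarith
        have h5 : |κ| * nB B u ≤ (5 * |κv|) * nB B u := by linarith
        exact le_of_mul_le_mul_right h5 hu0
      have := mul_le_mul hc hκv (nB_nonneg _ _) (by norm_num)
      linarith
    · have h1 := hq f hf
      have h2 := hq v hv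
      refine (map_sub_le_add q _ _).trans ?_
      rw [map_smul_eq_mul, Real.norm_eq_abs]
      have := mul_le_mul hΦ h2 (apply_nonneg q v) (by norm_num)
      linarith

end Crest.Agent.R165.NWidthx386
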