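import Crest.Agent.R165.GDef_387
import Crest.Agent.R165.NWidth_386

/-!
# Row 165, block G (W3),(W4): rank-one weight inequalities from `L²` regularity (helper386)

`rankOne` : if all functions of local norm `≤ 1` at the new scale are `κ u` up to `ε` in `L²` of the
old ball (`u` arbitrary) and their old higher order terms are `≤ ε`, then there is a rank-one
projection-type operator `P` on fields with `WLe ... P (2 (α + ε) ...)` and
`WLe ... (1 - P) (9 ε ...)`.
-/

set_option autoImplicit false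
set_option linter.unusedSectionVars false

noncomputable section

open scoped ENNReal
open Crest.Agent.R165.Gr0x606 Crest.Agent.R165.Latx683 Crest.Agent.R165.GDefx387
  Crest.Agent.R165.NWidthx386

namespace Crest.Agent.R165.RankOnex386

variable {G : Type} [CommRing G] [CN G]

/-! ### the `L²` form of a finite region -/

open Classical in
/-- half-edges of the faces of a finite set -/
def hs (Z : Set (G × G)) (hZ : Z.Finite) : Finset (HE G) := hZ.toFinset ×ˢ (Finset.univ : Finset (Fin 4))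

theorem mem_hs {Z : Set (G × G)} {hZ : Z.Finite} {h : HE G} : h ∈ hs Z hZ ↔ h.1 ∈ Z := by
  classical
  simp [hs]

/-- the `L²` form on a finite set of half-edges -/
def frm (S : Finset (HE G)) : LinearMap.BilinForm ℝ (HE G → ℝ) :=
  LinearMap.mk₂ ℝ (fun f g => ∑ h ∈ S, f h * g h)
    (fun f f' g => by simp only [Pi.add_apply, add_mul, Finset.sum_add_distrib])
    (fun c f g => by simp only [Pi.smul_apply, smul_eq_mul, mul_assoc, Finset.mul_sum])
    (fun f g g' => by simp only [Pi.add_apply, mul_add, Finset.sum_add_distrib])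
    (fun c f g => by
      simp only [Pi.smul_apply, smul_eq_mul, Finset.mul_sum]
      exact Finset.sum_congr rfl fun h _ => by ring)

@[simp] theorem frm_apply (S : Finset (HE G)) (f g : HE G → ℝ) : frm S f g = ∑ h ∈ S, f h * g h := rfl

theorem frm_psd (S : Finset (HE G)) : PSD (frm S) where
  symm f g := by
    rw [frm_apply, frm_apply]
    exact Finset.sum_congr rfl fun h _ => mul_comm _ _
  pos f := by
    rw [frm_apply]
    exact Finset.sum_nonneg fun h _ => mul_self_nonneg _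

theorem l2_restr (Z : Set (G × G)) (hZ : Z.Finite) (f : HE G → ℝ) :
    l2 (restr Z f) = nB (frm (hs Z hZ)) f := by
  classical
  rw [l2, nB]
  congr 1
  rw [tsum_eq_sum (s := hs Z hZ), frm_apply]
  · refine Finset.sum_congr rfl fun h hh => ?_
    rw [restr, if_pos (mem_hs.1 hh), sq]
  · intro h hh
    rw [restr, if_neg (fun h' => hh (mem_hs.2 h'))]
    norm_num

theorem nB_frm_mono {S S' : Finset (HE G)} (h : S ⊆ S') (f : HE G → ℝ) :
    nB (frm S) f ≤ nB (frm S') f := by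
  apply Real.sqrt_le_sqrt
  rw [frm_apply, frm_apply]
  exact Finset.sum_le_sum_of_subset_of_nonneg h fun _ _ _ => mul_self_nonneg _

theorem hs_mono {Z Z' : Set (G × G)} {hZ : Z.Finite} {hZ' : Z'.Finite} (h : Z ⊆ Z') :
    hs Z hZ ⊆ hs Z' hZ' := fun _ hx => mem_hs.2 (h (mem_hs.1 hx))

theorem l2_restr_nonneg (Z : Set (G × G)) (f : HE G → ℝ) : 0 ≤ l2 (restr Z f) := Real.sqrt_nonneg _

/-- iterates of `A` as a linear map -/
def Ait (w : BW G) (n : ℕ) : (HE G → ℝ) →ₗ[ℝ] (HE G → ℝ) := (Aop w) ^ n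

theorem Ait_apply (w : BW G) (n : ℕ) (f : HE G → ℝ) : Ait w n f = (Aop w)^[n] f :=
  Module.End.pow_apply _ _ _

/-- the local norm of a general region -/
def pN (w : BW G) (r : ℕ) (Z : Set (G × G)) (f : HE G → ℝ) : ℝ :=
  ∑ n ∈ Finset.range (MM + 1), (r : ℝ) ^ n * l2 (restr Z ((Aop w)^[n] f))

theorem nnB_eq (w : BW G) (r : ℕ) (x : G × G) (f : HE G → ℝ) :
    nnB w r x f = pN w r (ball x (s1 * r)) f := rfl

/-- the higher order part of the local norm -/
def qN (w : BW G) (r : ℕ) (Z : Set (G × G)) (f : HE G → ℝ) : ℝ :=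
  ∑ n ∈ Finset.range MM, (r : ℝ) ^ (n + 1) * l2 (restr Z ((Aop w)^[n + 1] f))

theorem pN_eq (w : BW G) (r : ℕ) (Z : Set (G × G)) (f : HE G → ℝ) :
    pN w r Z f = l2 (restr Z f) + qN w r Z f := by
  rw [pN, Finset.sum_range_succ', qN, add_comm]
  simp

theorem pN_nonneg (w : BW G) (r : ℕ) (Z : Set (G × G)) (f : HE G → ℝ) : 0 ≤ pN w r Z f :=
  Finset.sum_nonneg fun _ _ => mul_nonneg (by positivity) (l2_restr_nonneg _ _)

theorem pN_mono (w : BW G) (r : ℕ) {Z Z' : Set (G × G)} (hZ : Z.Finite) (hZ' : Z'.Finite)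
    (h : Z ⊆ Z') (f : HE G → ℝ) : pN w r Z f ≤ pN w r Z' f := by
  refine Finset.sum_le_sum fun n _ => mul_le_mul_of_nonneg_left ?_ (by positivity)
  rw [l2_restr Z hZ, l2_restr Z' hZ']
  exact nB_frm_mono (hs_mono h) _

theorem pN_smul (w : BW G) (r : ℕ) {Z : Set (G × G)} (hZ : Z.Finite) (c : ℝ) (f : HE G → ℝ) :
    pN w r Z (c • f) = |c| * pN w r Z f := by
  unfold pN
  rw [Finset.mul_sum]
  refine Finset.sum_congr rfl fun n _ => ?_
  rw [l2_restr Z hZ, l2_restr Z hZ, ← Ait_apply, ← Ait_apply, map_smul,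
    (frm_psd _).smul_eq]
  ring

theorem pN_add_le (w : BW G) (r : ℕ) {Z : Set (G × G)} (hZ : Z.Finite) (f g : HE G → ℝ) :
    pN w r Z (f + g) ≤ pN w r Z f + pN w r Z g := by
  unfold pN
  rw [← Finset.sum_add_distrib]
  refine Finset.sum_le_sum fun n _ => ?_
  rw [l2_restr Z hZ, l2_restr Z hZ, l2_restr Z hZ, ← Ait_apply, ← Ait_apply, ← Ait_apply, map_add,
    ← mul_add]
  exact mul_le_mul_of_nonneg_left ((frm_psd _).add_le _ _) (by positivity)

/-- the higher order part as a seminorm -/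
def qS (w : BW G) (r : ℕ) (Z : Set (G × G)) (hZ : Z.Finite) : Seminorm ℝ (HE G → ℝ) :=
  Seminorm.of (qN w r Z)
    (fun f g => by
      unfold qN
      rw [← Finset.sum_add_distrib]
      refine Finset.sum_le_sum fun n _ => ?_
      rw [l2_restr Z hZ, l2_restr Z hZ, l2_restr Z hZ, ← Ait_apply, ← Ait_apply, ← Ait_apply,
        map_add, ← mul_add]
      exact mul_le_mul_of_nonneg_left ((frm_psd _).add_le _ _) (by positivity))
    (fun c f => by
      unfold qN
      rw [Finset.mul_sum]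
      refine Finset.sum_congr rfl fun n _ => ?_
      rw [l2_restr Z hZ, l2_restr Z hZ, ← Ait_apply, ← Ait_apply, map_smul,
        (frm_psd _).smul_eq, Real.norm_eq_abs]
      ring)

theorem qS_apply (w : BW G) (r : ℕ) (Z : Set (G × G)) (hZ : Z.Finite) (f : HE G → ℝ) :
    qS w r Z hZ f = qN w r Z f := rfl

/-! ### pairing -/

theorem pair_eq (l : Fld G) (f : HE G → ℝ) : pair l f = l.sum fun h c => c * f h := rfl

theorem pair_smul_right (l : Fld G) (c : ℝ) (f : HE G → ℝ) : pair l (c • f) = c * pair l f := by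
  rw [pair_eq, pair_eq, Finsupp.mul_sum]
  refine Finsupp.sum_congr fun h _ => ?_
  rw [Pi.smul_apply, smul_eq_mul]; ring

theorem pair_sub_right (l : Fld G) (f g : HE G → ℝ) : pair l (f - g) = pair l f - pair l g := by
  rw [pair_eq, pair_eq, pair_eq, Finsupp.sum, Finsupp.sum, Finsupp.sum, ← Finset.sum_sub_distrib]
  refine Finset.sum_congr rfl fun h _ => ?_
  rw [Pi.sub_apply]; ring

theorem pair_add_left (l l' : Fld G) (f : HE G → ℝ) : pair (l + l') f = pair l f + pair l' f := by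
  rw [pair_eq, pair_eq, pair_eq]
  exact Finsupp.sum_add_index' (fun h => by ring) (fun h c c' => by ring)

theorem pair_smul_left (c : ℝ) (l : Fld G) (f : HE G → ℝ) : pair (c • l) f = c * pair l f := by
  rw [pair_eq, pair_eq, Finsupp.sum_smul_index' (fun h => by ring), Finsupp.mul_sum]
  refine Finsupp.sum_congr fun h _ => ?_
  rw [smul_eq_mul]; ring

/-- pairing as a linear form in the field -/
def pairL (f : HE G → ℝ) : Fld G →ₗ[ℝ] ℝ where
  toFun l := pair l f
  map_add' l l' := pair_add_left l l' f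
  map_smul' c l := pair_smul_left c l f

@[simp] theorem pairL_apply (f : HE G → ℝ) (l : Fld G) : pairL f l = pair l f := rfl

theorem pair_sub_left (l l' : Fld G) (f : HE G → ℝ) : pair (l - l') f = pair l f - pair l' f := by
  rw [← pairL_apply, map_sub, pairL_apply, pairL_apply]

theorem pair_sum_left {ι : Type*} (s : Finset ι) (l : ι → Fld G) (f : HE G → ℝ) :
    pair (∑ i ∈ s, l i) f = ∑ i ∈ s, pair (l i) f := by
  rw [← pairL_apply, map_sum]
  rfl

theorem pair_single (h : HE G) (c : ℝ) (f : HE G → ℝ) : pair (Finsupp.single h c) f = c * f h := by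
  rw [pair_eq, Finsupp.sum_single_index (by ring)]

/-- the field `Σ_{h ∈ S} v_h φ_h` -/
def fieldOf (S : Finset (HE G)) (v : HE G → ℝ) : Fld G := ∑ h ∈ S, Finsupp.single h (v h)

theorem pair_fieldOf (S : Finset (HE G)) (v f : HE G → ℝ) : pair (fieldOf S v) f = frm S v f := by
  rw [fieldOf, pair_sum_left, frm_apply]
  exact Finset.sum_congr rfl fun h _ => pair_single _ _ _

theorem suppL_fieldOf {Z : Set (G × G)} (hZ : Z.Finite) (v : HE G → ℝ) :
    SuppL Z (fieldOf (hs Z hZ) v) := by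
  classical
  intro h hh
  rw [fieldOf, Finsupp.finsetSum_apply] at hh
  obtain ⟨i, hi, hi'⟩ := Finset.exists_ne_zero_of_sum_ne_zero hh
  rw [Finsupp.single_apply] at hi'
  split_ifs at hi' with he
  · rw [← he]; exact mem_hs.1 hi
  · exact absurd rfl hi'

theorem suppL_smul {Z : Set (G × G)} {l : Fld G} (h : SuppL Z l) (c : ℝ) : SuppL Z (c • l) := by
  intro x hx
  apply h x
  intro h0
  rw [Finsupp.smul_apply, h0, smul_zero] at hx
  exact hx rfl

theorem suppL_sub {Z : Set (G × G)} {l l' : Fld G} (h : SuppL Z l) (h' : SuppL Z l') :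
    SuppL Z (l - l') := by
  intro x hx
  by_cases h0 : l x = 0
  · apply h' x
    intro h1
    rw [Finsupp.sub_apply, h0, h1, sub_zero] at hx
    exact hx rfl
  · exact h x h0

theorem suppL_mono {Z Z' : Set (G × G)} {l : Fld G} (h : SuppL Z l) (hZ : Z ⊆ Z') : SuppL Z' l :=
  fun x hx => hZ (h x hx)

/-! ### comparison of weights -/

theorem ofReal_pair_le (w : BW G) (r : ℕ) (x : G × G) (l : Fld G) (g : HE G → ℝ) {K : ℝ}
    (hK : 0 < K) (hg : nnB w r x g ≤ K) :
    ENNReal.ofReal |pair l g| ≤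
      ENNReal.ofReal K * ⨆ f : {f : HE G → ℝ // nnB w r x f ≤ 1}, ENNReal.ofReal |pair l f.1| := by
  have h1 : nnB w r x (K⁻¹ • g) ≤ 1 := by
    rw [nnB_eq, pN_smul w r (ball_finite x _), abs_of_pos (inv_pos.2 hK), ← nnB_eq]
    rw [inv_mul_le_iff₀ hK, mul_one]
    exact hg
  have h2 : pair l g = K * pair l (K⁻¹ • g) := by
    rw [pair_smul_right, ← mul_assoc, mul_inv_cancel₀ hK.ne', one_mul]
  rw [h2, abs_mul, abs_of_pos hK, ENNReal.ofReal_mul hK.le]
  gcongr
  exact le_iSup (fun f : {f : HE G → ℝ // nnB w r x f ≤ 1} => ENNReal.ofReal |pair l f.1|)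
    ⟨K⁻¹ • g, h1⟩

/-- **comparison of weights by duality** -/
theorem wt_le (w w' : BW G) {a a' : ℝ} (ha : 0 < a) (ha' : 0 ≤ a') {r r' : ℕ} (hr : 0 < r)
    (x x' : G × G) {K : ℝ} (hK : 0 < K) (l l' : Fld G) (T : (HE G → ℝ) → (HE G → ℝ))
    (h : ∀ f, nnB w' r' x' f ≤ 1 → |pair l' f| = |pair l (T f)| ∧ nnB w r x (T f) ≤ K) :
    wt w' a' r' x' l' ≤
      ENNReal.ofReal (K * (a' * Real.sqrt r' / (a * Real.sqrt r))) * wt w a r x l := by
  have hr' : (0 : ℝ) < a * Real.sqrt r := mul_pos ha (Real.sqrt_pos.2 (by exact_mod_cast hr))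
  have ha'' : (0 : ℝ) ≤ a' * Real.sqrt r' := mul_nonneg ha' (Real.sqrt_nonneg _)
  rw [wt, wt]
  have h1 : (⨆ f : {f : HE G → ℝ // nnB w' r' x' f ≤ 1}, ENNReal.ofReal |pair l' f.1|) ≤
      ENNReal.ofReal K *
        ⨆ f : {f : HE G → ℝ // nnB w r x f ≤ 1}, ENNReal.ofReal |pair l f.1| := by
    refine iSup_le fun f => ?_
    rw [(h f.1 f.2).1]
    exact ofReal_pair_le w r x l _ hK (h f.1 f.2).2
  refine (mul_le_mul_of_nonneg_left h1 zero_le).trans (le_of_eq ?_)
  rw [← mul_assoc, ← mul_assoc, ← ENNReal.ofReal_mul ha'',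
    ← ENNReal.ofReal_mul (by positivity)]
  congr 2
  field_simp

/-! ### the rank-one operator -/

/-- `P l = ⟨l, v⟩ t 1_B v` -/
def Pone (S : Finset (HE G)) (v : HE G → ℝ) (t : ℝ) : Fld G →ₗ[ℝ] Fld G :=
  (pairL v).smulRight (t • fieldOf S v)

theorem Pone_apply (S : Finset (HE G)) (v : HE G → ℝ) (t : ℝ) (l : Fld G) :
    Pone S v t l = pair l v • (t • fieldOf S v) := rfl

theorem pair_Pone (S : Finset (HE G)) (v : HE G → ℝ) (t : ℝ) (l : Fld G) (f : HE G → ℝ) :
    pair (Pone S v t l) f = pair l ((t * frm S v f) • v) := by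
  rw [Pone_apply, pair_smul_left, pair_smul_left, pair_fieldOf, pair_smul_right]
  ring

theorem pair_sub_Pone (S : Finset (HE G)) (v : HE G → ℝ) (t : ℝ) (l : Fld G) (f : HE G → ℝ) :
    pair (l - Pone S v t l) f = pair l (f - (t * frm S v f) • v) := by
  rw [pair_sub_left, pair_Pone, pair_sub_right]

theorem range_smulRight_le {V W : Type*} [AddCommGroup V] [Module ℝ V] [AddCommGroup W] [Module ℝ W]
    (φ : V →ₗ[ℝ] ℝ) (y : W) : LinearMap.range (φ.smulRight y) ≤ Submodule.span ℝ {y} := by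
  rintro _ ⟨x, rfl⟩
  rw [LinearMap.smulRight_apply]
  exact Submodule.smul_mem _ _ (Submodule.mem_span_singleton_self y)

theorem finite_range_Pone (S : Finset (HE G)) (v : HE G → ℝ) (t : ℝ) :
    FiniteDimensional ℝ (LinearMap.range (Pone S v t)) :=
  Submodule.finiteDimensional_of_le (range_smulRight_le _ _)

theorem finrank_range_Pone (S : Finset (HE G)) (v : HE G → ℝ) (t : ℝ) :
    Module.finrank ℝ (LinearMap.range (Pone S v t)) ≤ 1 := by
  refine (Submodule.finrank_mono (range_smulRight_le _ _)).trans ?_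
  exact (finrank_span_le_card ({t • fieldOf S v} : Set (Fld G))).trans (by simp)

/-- **rank-one weight inequalities.**  `Z` = region of the old ball, `Z'` = region of the new
ball. -/
theorem rankOne (w : BW G) {r r' : ℕ} (hr : 0 < r) {Z Z' : Set (G × G)} (hZ : Z.Finite)
    (hZ' : Z'.Finite) (u : HE G → ℝ) {α ε : ℝ} (hε : 0 < ε) (hα : 0 ≤ α)
    (hbd : ∀ f, pN w r' Z' f ≤ 1 → l2 (restr Z f) ≤ α)
    (hκ : ∀ f, pN w r' Z' f ≤ 1 → ∃ κ : ℝ, l2 (restr Z (f - κ • u)) ≤ ε)
    (hq : ∀ f, pN w r' Z' f ≤ 1 → qN w r Z f ≤ ε) :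
    ∃ P : Fld G →ₗ[ℝ] Fld G, FiniteDimensional ℝ (LinearMap.range P) ∧
      Module.finrank ℝ (LinearMap.range P) ≤ 1 ∧ (∀ l, SuppL Z (P l)) ∧
      ∀ (a a' : ℝ), 0 < a → 0 ≤ a' → ∀ x x' : G × G, ball x (s1 * r) ⊆ Z →
        Z' ⊆ ball x' (s1 * r') → Z ⊆ ball x' (s0 * r') → ball x (s0 * r) ⊆ ball x' (s0 * r') →
        WLe w a a' r r' x x' P
          (ENNReal.ofReal (2 * (α + ε) * (a' * Real.sqrt r' / (a * Real.sqrt r)))) ∧
        WLe w a a' r r' x x' (LinearMap.id - P)
          (ENNReal.ofReal (9 * ε * (a' * Real.sqrt r' / (a * Real.sqrt r)))) := by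
  obtain ⟨v, t, hv, hvt⟩ := nwidth (frm_psd (hs Z hZ)) {f | pN w r' Z' f ≤ 1} (qS w r Z hZ) u hε
    (α := α) (fun f hf => by rw [← l2_restr]; exact hbd f hf)
    (fun f hf => by
      obtain ⟨κ, hκ'⟩ := hκ f hf
      exact ⟨κ, by rw [← l2_restr]; exact hκ'⟩)
    (fun f hf => hq f hf)
  have hv1 : l2 (restr Z v) ≤ α ∧ qN w r Z v ≤ ε := by
    rcases hv with hv | hv
    · exact ⟨hbd v hv, hq v hv⟩
    · subst hv
      refine ⟨?_, ?_⟩
      · rw [l2_restr Z hZ, nB]; simpa using hα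
      · rw [← qS_apply w r Z hZ, map_zero]; exact hε.le
  refine ⟨Pone (hs Z hZ) v t, finite_range_Pone _ _ _, finrank_range_Pone _ _ _,
    fun l => suppL_smul (suppL_smul (suppL_fieldOf hZ v) _) _, ?_⟩
  intro a a' ha ha' x x' h1 h2 h3 h4
  have hF : ∀ f, nnB w r' x' f ≤ 1 → pN w r' Z' f ≤ 1 := fun f hf =>
    (pN_mono w r' hZ' (ball_finite _ _) h2 f).trans (by rw [nnB_eq] at hf; exact hf)
  have hle : ∀ g : HE G → ℝ, nnB w r x g ≤ l2 (restr Z g) + qN w r Z g := fun g => by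
    rw [nnB_eq, ← pN_eq]; exact pN_mono w r (ball_finite _ _) hZ h1 g
  constructor
  · intro l _
    refine ⟨suppL_mono (suppL_smul (suppL_smul (suppL_fieldOf hZ v) _) _) h3, ?_⟩
    refine wt_le w w ha ha' hr x x' (K := 2 * (α + ε)) (by positivity) l _
      (fun f => (t * frm (hs Z hZ) v f) • v) fun f hf => ⟨by rw [pair_Pone], ?_⟩
    rw [nnB_eq, pN_smul w r (ball_finite _ _), ← nnB_eq]
    have h5 := (hvt f (hF f hf)).1
    have h6 := (hle v).trans (add_le_add hv1.1 hv1.2)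
    exact mul_le_mul h5 h6 (pN_nonneg _ _ _ _) (by norm_num)
  · intro l hl
    refine ⟨suppL_sub (suppL_mono hl h4)
      (suppL_mono (suppL_smul (suppL_smul (suppL_fieldOf hZ v) _) _) h3), ?_⟩
    refine wt_le w w ha ha' hr x x' (K := 9 * ε) (by positivity) l _
      (fun f => f - (t * frm (hs Z hZ) v f) • v) fun f hf => ⟨?_, ?_⟩
    · rw [LinearMap.sub_apply, LinearMap.id_apply, pair_sub_Pone]
    · refine (hle _).trans ?_
      obtain ⟨-, h5, h6⟩ := hvt f (hF f hf)
      rw [← l2_restr] at h5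
      rw [qS_apply] at h6
      linarith

end Crest.Agent.R165.RankOnex386
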