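import Crest.Agent.R165.Wt_898
import Crest.Agent.R165.RankOne_386

/-!
# Row 165 (S0250), block G2: from centred regularity to the weight inequalities (helper893)

* `U3 w y R f`     : `f` is admissible on the ball `B(y,R)` (three derivatives)
* `Reg1`, `Reg2`   : regularity at one centre, between two radii
* `RB`, `RD`, `RX` : bulk-like, boundary-like, branch-like centres, all ratios up to `Λ`
* `Reg1.comp`      : off-centre composition
* `W1_bulk`, `W1_bd`, `W1_br` : (W1) for every face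
* `W3`, `W4`       : rank-one inequalities at a boundary / branch centre
-/

set_option autoImplicit false
set_option linter.unusedSectionVars false

noncomputable section

open scoped ENNReal
open Crest.Agent.R165.Gr0x606 Crest.Agent.R165.Latx683 Crest.Agent.R165.PNormx417
  Crest.Agent.R165.GDefx387 Crest.Agent.R165.Wtx898

namespace Crest.Agent.R165.RegGx893

variable {G : Type} [CommRing G] [CN G]

/-! ### admissible functions and regularity at one centre -/

/-- `f` is admissible on the ball `B(y,R)` -/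
def U3 (w : BW G) (y : G × G) (R : ℕ) (f : HE G → ℝ) : Prop :=
  L2on (ball y R) f ≤ 1 ∧ (R : ℝ) * L2on (ball y R) (Aop w f) ≤ 1 ∧
    (R : ℝ) ^ 2 * L2on (ball y R) (Aop w (Aop w f)) ≤ 1

/-- growth of admissible functions -/
def Reg1 (w : BW G) (y : G × G) (r R : ℕ) (c : ℝ) : Prop :=
  ∀ f, U3 w y R f → L2on (ball y r) f ≤ c

/-- one mode -/
def Reg2 (w : BW G) (y : G × G) (r R : ℕ) (u : HE G → ℝ) (c : ℝ) : Prop :=
  ∀ f, U3 w y R f → ∃ κ : ℝ, L2on (ball y r) (f - κ • u) ≤ c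

variable {w : BW G}

theorem Aop_smul (c : ℝ) (f : HE G → ℝ) : Aop w (c • f) = c • Aop w f := map_smul _ _ _

theorem U3.zero (w : BW G) (y : G × G) (R : ℕ) : U3 w y R 0 := by
  have h : ∀ Z : Set (G × G), Z.Finite → L2on Z (0 : HE G → ℝ) = 0 := fun Z hZ => by
    have := L2on_smul hZ 0 (0 : HE G → ℝ)
    simpa using this
  have h1 := h _ (ball_finite y R)
  refine ⟨?_, ?_, ?_⟩ <;> simp [h1]

theorem Reg1.nonneg {y : G × G} {r R : ℕ} {c : ℝ} (h : Reg1 w y r R c) : 0 ≤ c :=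
  (L2on_nonneg _ _).trans (h 0 (U3.zero w y R))

theorem Reg1.mono {y : G × G} {r R : ℕ} {c c' : ℝ} (h : Reg1 w y r R c) (hc : c ≤ c') :
    Reg1 w y r R c' := fun f hf => (h f hf).trans hc

theorem Reg1.mono_r {y : G × G} {r r' R : ℕ} {c : ℝ} (h : Reg1 w y r R c) (hr : r' ≤ r) :
    Reg1 w y r' R c := fun f hf =>
  (L2on_mono (ball_mono y hr) (ball_finite _ _) f).trans (h f hf)

theorem Reg2.mono {y : G × G} {r R : ℕ} {u : HE G → ℝ} {c c' : ℝ} (h : Reg2 w y r R u c)
    (hc : c ≤ c') : Reg2 w y r R u c' := fun f hf => by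
  obtain ⟨κ, hκ⟩ := h f hf
  exact ⟨κ, hκ.trans hc⟩

/-- homogeneous form of the hypothesis -/
theorem Reg1.of_le {y : G × G} {r R : ℕ} {c : ℝ} (h : Reg1 w y r R c) {m : ℝ} (hm : 0 < m)
    (f : HE G → ℝ) (h0 : L2on (ball y R) f ≤ m) (h1 : (R : ℝ) * L2on (ball y R) (Aop w f) ≤ m)
    (h2 : (R : ℝ) ^ 2 * L2on (ball y R) (Aop w (Aop w f)) ≤ m) : L2on (ball y r) f ≤ m * c := by
  have hfin := ball_finite y R
  have key := h (m⁻¹ • f) (by
    have e : ∀ g : HE G → ℝ, L2on (ball y R) (m⁻¹ • g) = m⁻¹ * L2on (ball y R) g := fun g => by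
      rw [L2on_smul hfin, abs_of_pos (inv_pos.2 hm)]
    refine ⟨?_, ?_, ?_⟩
    · rw [e, inv_mul_le_iff₀ hm, mul_one]; exact h0
    · rw [Aop_smul, e, mul_left_comm, inv_mul_le_iff₀ hm, mul_one]; exact h1
    · rw [Aop_smul, Aop_smul, e, mul_left_comm, inv_mul_le_iff₀ hm, mul_one]; exact h2)
  rw [L2on_smul (ball_finite y r), abs_of_pos (inv_pos.2 hm), inv_mul_le_iff₀ hm] at key
  exact key

theorem Reg2.of_le {y : G × G} {r R : ℕ} {u : HE G → ℝ} {c : ℝ} (h : Reg2 w y r R u c) {m : ℝ}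
    (hm : 0 < m) (f : HE G → ℝ) (h0 : L2on (ball y R) f ≤ m)
    (h1 : (R : ℝ) * L2on (ball y R) (Aop w f) ≤ m)
    (h2 : (R : ℝ) ^ 2 * L2on (ball y R) (Aop w (Aop w f)) ≤ m) :
    ∃ κ : ℝ, L2on (ball y r) (f - κ • u) ≤ m * c := by
  have hfin := ball_finite y R
  obtain ⟨κ, key⟩ := h (m⁻¹ • f) (by
    have e : ∀ g : HE G → ℝ, L2on (ball y R) (m⁻¹ • g) = m⁻¹ * L2on (ball y R) g := fun g => by
      rw [L2on_smul hfin, abs_of_pos (inv_pos.2 hm)]
    refine ⟨?_, ?_, ?_⟩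
    · rw [e, inv_mul_le_iff₀ hm, mul_one]; exact h0
    · rw [Aop_smul, e, mul_left_comm, inv_mul_le_iff₀ hm, mul_one]; exact h1
    · rw [Aop_smul, Aop_smul, e, mul_left_comm, inv_mul_le_iff₀ hm, mul_one]; exact h2)
  refine ⟨m * κ, ?_⟩
  have e : m⁻¹ • f - κ • u = m⁻¹ • (f - (m * κ) • u) := by
    rw [smul_sub, smul_smul, ← mul_assoc, inv_mul_cancel₀ hm.ne', one_mul]
  rw [e, L2on_smul (ball_finite y r), abs_of_pos (inv_pos.2 hm), inv_mul_le_iff₀ hm] at key
  exact key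

/-! ### the local seminorm gives admissible functions -/

/-- derivatives of a function of the unit ball of `pN` (region `Z'`, scale `r'`) on a smaller
ball `B(y,R) ⊆ Z'` with `R ≤ b r'` -/
theorem pow_mul_le_of_pN {r' : ℕ} {Z' : Set (G × G)} (hZ' : Z'.Finite) {y : G × G} {R : ℕ}
    (hB : ball y R ⊆ Z') {b : ℝ} (hb : 1 ≤ b) (hR : (R : ℝ) ≤ b * r') {f : HE G → ℝ}
    (hf : RankOnex386.pN w r' Z' f ≤ 1) {n : ℕ} (hn : n ≤ MM) {N : ℕ} (hN : n ≤ N) :
    (R : ℝ) ^ n * L2on (ball y R) ((Aop w)^[n] f) ≤ b ^ N := by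
  have h1 : (r' : ℝ) ^ n * L2on Z' ((Aop w)^[n] f) ≤ RankOnex386.pN w r' Z' f :=
    Finset.single_le_sum (f := fun n => (r' : ℝ) ^ n * l2 (restr Z' ((Aop w)^[n] f)))
      (fun n _ => mul_nonneg (by positivity) (L2on_nonneg _ _)) (Finset.mem_range.2 (by omega))
  have hb0 : (0 : ℝ) ≤ b := by linarith
  calc (R : ℝ) ^ n * L2on (ball y R) ((Aop w)^[n] f)
      ≤ (b * r') ^ n * L2on Z' ((Aop w)^[n] f) := by
        refine mul_le_mul (pow_le_pow_left₀ (by positivity) hR n) (L2on_mono hB hZ' _)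
          (L2on_nonneg _ _) (by positivity)
    _ = b ^ n * ((r' : ℝ) ^ n * L2on Z' ((Aop w)^[n] f)) := by rw [mul_pow]; ring
    _ ≤ b ^ n * 1 := by
        refine mul_le_mul_of_nonneg_left (h1.trans hf) (by positivity)
    _ ≤ b ^ N := by rw [mul_one]; exact pow_le_pow_right₀ hb hN

theorem Reg1.of_pN {y : G × G} {r R : ℕ} {c : ℝ} (h : Reg1 w y r R c) {r' : ℕ}
    {Z' : Set (G × G)} (hZ' : Z'.Finite) (hB : ball y R ⊆ Z') {b : ℝ} (hb : 1 ≤ b)
    (hR : (R : ℝ) ≤ b * r') {f : HE G → ℝ} (hf : RankOnex386.pN w r' Z' f ≤ 1) :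
    L2on (ball y r) f ≤ b ^ 2 * c := by
  refine h.of_le (by positivity) f ?_ ?_ ?_
  · have := pow_mul_le_of_pN hZ' hB hb hR hf (Nat.zero_le MM) (N := 2) (by norm_num)
    simpa using this
  · have := pow_mul_le_of_pN hZ' hB hb hR hf (n := 1) (by unfold MM; norm_num) (N := 2)
      (by norm_num)
    simpa using this
  · have := pow_mul_le_of_pN hZ' hB hb hR hf (n := 2) (by unfold MM; norm_num) (N := 2)
      (by norm_num)
    simpa using this

theorem Reg2.of_pN {y : G × G} {r R : ℕ} {u : HE G → ℝ} {c : ℝ} (h : Reg2 w y r R u c) {r' : ℕ}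
    {Z' : Set (G × G)} (hZ' : Z'.Finite) (hB : ball y R ⊆ Z') {b : ℝ} (hb : 1 ≤ b)
    (hR : (R : ℝ) ≤ b * r') {f : HE G → ℝ} (hf : RankOnex386.pN w r' Z' f ≤ 1) :
    ∃ κ : ℝ, L2on (ball y r) (f - κ • u) ≤ b ^ 2 * c := by
  refine h.of_le (by positivity) f ?_ ?_ ?_
  · have := pow_mul_le_of_pN hZ' hB hb hR hf (Nat.zero_le MM) (N := 2) (by norm_num)
    simpa using this
  · have := pow_mul_le_of_pN hZ' hB hb hR hf (n := 1) (by unfold MM; norm_num) (N := 2)
      (by norm_num)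
    simpa using this
  · have := pow_mul_le_of_pN hZ' hB hb hR hf (n := 2) (by unfold MM; norm_num) (N := 2)
      (by norm_num)
    simpa using this

/-- Reg1 for the first derivative -/
theorem Reg1.of_pN_deriv {y : G × G} {r R : ℕ} {c : ℝ} (h : Reg1 w y r R c) {r' : ℕ}
    {Z' : Set (G × G)} (hZ' : Z'.Finite) (hB : ball y R ⊆ Z') {b : ℝ} (hb : 1 ≤ b)
    (hR0 : 0 < R) (hR : (R : ℝ) ≤ b * r') {f : HE G → ℝ} (hf : RankOnex386.pN w r' Z' f ≤ 1) :
    L2on (ball y r) (Aop w f) ≤ b ^ 3 / R * c := by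
  have hR0' : (0 : ℝ) < R := by exact_mod_cast hR0
  refine h.of_le (by positivity) _ ?_ ?_ ?_
  · have := pow_mul_le_of_pN hZ' hB hb hR hf (n := 1) (by unfold MM; norm_num) (N := 3)
      (by norm_num)
    rw [le_div_iff₀ hR0', mul_comm]; simpa using this
  · have := pow_mul_le_of_pN hZ' hB hb hR hf (n := 2) (by unfold MM; norm_num) (N := 3)
      (by norm_num)
    rw [le_div_iff₀ hR0']
    have e : (R : ℝ) * L2on (ball y R) (Aop w (Aop w f)) * R =
      (R : ℝ) ^ 2 * L2on (ball y R) ((Aop w)^[2] f) := by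
      rw [Function.iterate_succ_apply', Function.iterate_one]; ring
    rw [e]; exact this
  · have := pow_mul_le_of_pN hZ' hB hb hR hf (n := 3) (by unfold MM; norm_num) (N := 3)
      le_rfl
    rw [le_div_iff₀ hR0']
    have e : (R : ℝ) ^ 2 * L2on (ball y R) (Aop w (Aop w (Aop w f))) * R =
      (R : ℝ) ^ 3 * L2on (ball y R) ((Aop w)^[3] f) := by
      rw [Function.iterate_succ_apply', Function.iterate_succ_apply', Function.iterate_one]; ring
    rw [e]; exact this

/-! ### off-centre composition -/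

/-- composition of regularity at the centre `y` (between `r₁` and `R₁`) with regularity at `x`
(between `r₂` and `R₂`), `B(x,R₂) ⊆ B(y,r₁)` -/
theorem Reg1.comp {x y : G × G} {r1 R1 r2 R2 : ℕ} {c1 c2 m : ℝ} (h1 : Reg1 w y r1 R1 c1)
    (h2 : Reg1 w x r2 R2 c2) (hx : fd y x + R2 ≤ r1) (hr : r1 ≤ R1) (hR1 : 0 < R1)
    (hm0 : 0 < m) (hm : c1 ≤ m) (hm' : (R2 : ℝ) / R1 ≤ m) (f : HE G → ℝ) (hf : U3 w y R1 f) :
    L2on (ball x r2) f ≤ m * c2 := by
  have hR1' : (0 : ℝ) < R1 := by exact_mod_cast hR1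
  have hs1 : ball x R2 ⊆ ball y r1 := ball_subset_ball hx
  have hs2 : ball x R2 ⊆ ball y R1 := hs1.trans (ball_mono y hr)
  have hR2 : (R2 : ℝ) ≤ R1 := by exact_mod_cast (le_trans (Nat.le_add_left _ _) hx).trans hr
  have hq : (R2 : ℝ) / R1 ≤ 1 := by rw [div_le_one hR1']; exact hR2
  refine h2.of_le hm0 f ((L2on_mono hs1 (ball_finite _ _) f).trans ((h1 f hf).trans hm)) ?_ ?_
  · calc (R2 : ℝ) * L2on (ball x R2) (Aop w f)
        ≤ (R2 : ℝ) * L2on (ball y R1) (Aop w f) :=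
          mul_le_mul_of_nonneg_left (L2on_mono hs2 (ball_finite _ _) _) (by positivity)
      _ = (R2 : ℝ) / R1 * ((R1 : ℝ) * L2on (ball y R1) (Aop w f)) := by field_simp
      _ ≤ (R2 : ℝ) / R1 * 1 := mul_le_mul_of_nonneg_left hf.2.1 (by positivity)
      _ ≤ m := by rw [mul_one]; exact hm'
  · calc (R2 : ℝ) ^ 2 * L2on (ball x R2) (Aop w (Aop w f))
        ≤ (R2 : ℝ) ^ 2 * L2on (ball y R1) (Aop w (Aop w f)) :=
          mul_le_mul_of_nonneg_left (L2on_mono hs2 (ball_finite _ _) _) (by positivity)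
      _ = ((R2 : ℝ) / R1) * ((R2 : ℝ) / R1) *
          ((R1 : ℝ) ^ 2 * L2on (ball y R1) (Aop w (Aop w f))) := by field_simp
      _ ≤ ((R2 : ℝ) / R1) * ((R2 : ℝ) / R1) * 1 :=
          mul_le_mul_of_nonneg_left hf.2.2 (by positivity)
      _ ≤ 1 * ((R2 : ℝ) / R1) := by
          rw [mul_one]
          exact mul_le_mul_of_nonneg_right hq (by positivity)
      _ ≤ m := by rw [one_mul]; exact hm'

/-- the same with a function of the unit ball of `pN` -/
theorem Reg1.comp_pN {x y : G × G} {r1 R1 r2 R2 : ℕ} {c1 c2 m : ℝ} (h1 : Reg1 w y r1 R1 c1)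
    (h2 : Reg1 w x r2 R2 c2) (hx : fd y x + R2 ≤ r1) (hr : r1 ≤ R1) (hR1 : 0 < R1)
    (hm0 : 0 < m) (hm : c1 ≤ m) (hm' : (R2 : ℝ) / R1 ≤ m) {r' : ℕ} {Z' : Set (G × G)}
    (hZ' : Z'.Finite) (hB : ball y R1 ⊆ Z') {b : ℝ} (hb : 1 ≤ b) (hR : (R1 : ℝ) ≤ b * r')
    {f : HE G → ℝ} (hf : RankOnex386.pN w r' Z' f ≤ 1) :
    L2on (ball x r2) f ≤ b ^ 2 * (m * c2) := by
  have h : Reg1 w y R1 R1 1 := fun f hf => hf.1
  -- regularity of `x` seen from `y` as an abstract `Reg1`
  have hb0 : (0 : ℝ) < b ^ 2 := by positivity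
  set g := (b ^ 2)⁻¹ • f with hg
  have e : ∀ k : HE G → ℝ, L2on (ball y R1) ((b ^ 2)⁻¹ • k) = (b ^ 2)⁻¹ * L2on (ball y R1) k :=
    fun k => by rw [L2on_smul (ball_finite _ _), abs_of_pos (inv_pos.2 hb0)]
  have hU : U3 w y R1 g := by
    refine ⟨?_, ?_, ?_⟩
    · have := pow_mul_le_of_pN hZ' hB hb hR hf (Nat.zero_le MM) (N := 2) (by norm_num)
      rw [hg, e, inv_mul_le_iff₀ hb0, mul_one]
      simpa using this
    · have := pow_mul_le_of_pN hZ' hB hb hR hf (n := 1) (by unfold MM; norm_num) (N := 2)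
        (by norm_num)
      rw [hg, Aop_smul, e, mul_left_comm, inv_mul_le_iff₀ hb0, mul_one]
      simpa using this
    · have := pow_mul_le_of_pN hZ' hB hb hR hf (n := 2) (by unfold MM; norm_num) (N := 2)
        (by norm_num)
      rw [hg, Aop_smul, Aop_smul, e, mul_left_comm, inv_mul_le_iff₀ hb0, mul_one]
      simpa using this
  have key := h1.comp h2 hx hr hR1 hm0 hm hm' g hU
  rw [hg, L2on_smul (ball_finite _ _), abs_of_pos (inv_pos.2 hb0), inv_mul_le_iff₀ hb0] at key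
  exact key

/-! ### classes of centres -/

/-- bulk-like centre: all ratios up to `Λ`, radii between `r₀` and `R₀` -/
def RB (w : BW G) (x : G × G) (C : ℝ) (Λ r0 R0 : ℕ) : Prop :=
  ∀ r R : ℕ, r0 ≤ r → r ≤ R → R ≤ Λ * r → R ≤ R0 → Reg1 w x r R (C * ((r : ℝ) / R))

/-- boundary-like centre -/
def RD (w : BW G) (y : G × G) (C : ℝ) (Λ r0 R0 : ℕ) : Prop :=
  ∀ r R : ℕ, r0 ≤ r → r ≤ R → R ≤ Λ * r → R ≤ R0 → Reg1 w y r R (C * ((r : ℝ) / R)) ∧
    ∃ u : HE G → ℝ, Reg2 w y r R u (C * ((r : ℝ) / R * Real.sqrt ((r : ℝ) / R)))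

/-- branch-like centre -/
def RX (w : BW G) (y : G × G) (C : ℝ) (Λ r0 R0 : ℕ) : Prop :=
  ∀ r R : ℕ, r0 ≤ r → r ≤ R → R ≤ Λ * r → R ≤ R0 →
    Reg1 w y r R (C * Real.sqrt ((r : ℝ) / R)) ∧
    ∃ u : HE G → ℝ, Reg2 w y r R u (C * ((r : ℝ) / R))

theorem RD.rb {y : G × G} {C : ℝ} {Λ r0 R0 : ℕ} (h : RD w y C Λ r0 R0) : RB w y C Λ r0 R0 :=
  fun r R h1 h2 h3 h4 => (h r R h1 h2 h3 h4).1

theorem RB.mono {y : G × G} {C C' : ℝ} {Λ Λ' r0 r0' R0 R0' : ℕ} (h : RB w y C Λ r0 R0)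
    (hC : C ≤ C') (hΛ : Λ' ≤ Λ) (hr : r0 ≤ r0') (hR : R0' ≤ R0) : RB w y C' Λ' r0' R0' :=
  fun r R h1 h2 h3 h4 => (h r R (hr.trans h1) h2 (h3.trans (Nat.mul_le_mul_right _ hΛ))
    (h4.trans hR)).mono (mul_le_mul_of_nonneg_right hC (by positivity))

theorem RD.mono {y : G × G} {C C' : ℝ} {Λ Λ' r0 r0' R0 R0' : ℕ} (h : RD w y C Λ r0 R0)
    (hC : C ≤ C') (hΛ : Λ' ≤ Λ) (hr : r0 ≤ r0') (hR : R0' ≤ R0) : RD w y C' Λ' r0' R0' := by
  intro r R h1 h2 h3 h4
  obtain ⟨h5, u, h6⟩ := h r R (hr.trans h1) h2 (h3.trans (Nat.mul_le_mul_right _ hΛ)) (h4.trans hR)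
  exact ⟨h5.mono (mul_le_mul_of_nonneg_right hC (by positivity)), u,
    h6.mono (mul_le_mul_of_nonneg_right hC (by positivity))⟩

theorem RX.mono {y : G × G} {C C' : ℝ} {Λ Λ' r0 r0' R0 R0' : ℕ} (h : RX w y C Λ r0 R0)
    (hC : C ≤ C') (hΛ : Λ' ≤ Λ) (hr : r0 ≤ r0') (hR : R0' ≤ R0) : RX w y C' Λ' r0' R0' := by
  intro r R h1 h2 h3 h4
  obtain ⟨h5, u, h6⟩ := h r R (hr.trans h1) h2 (h3.trans (Nat.mul_le_mul_right _ hΛ)) (h4.trans hR)
  exact ⟨h5.mono (mul_le_mul_of_nonneg_right hC (by positivity)), u,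
    h6.mono (mul_le_mul_of_nonneg_right hC (by positivity))⟩

/-! ### (W1) -/

theorem pN_of_nnB {r' : ℕ} {x : G × G} {f : HE G → ℝ} (hf : nnB w r' x f ≤ 1) :
    RankOnex386.pN w r' (ball x (s1 * r')) f ≤ 1 := hf

/-- algebra of the prefactor -/
theorem pref {a a' : ℝ} {r r' : ℕ} (hr : 0 < r) (hr' : 0 < r') (c : ℝ) :
    a' * Real.sqrt r' / (a * Real.sqrt r) * (c * ((r : ℝ) / r')) =
      a' / a * (c * Real.sqrt ((r : ℝ) / r')) := by
  have h1 : (0 : ℝ) < r := by exact_mod_cast hr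
  have h2 : (0 : ℝ) < r' := by exact_mod_cast hr'
  have h3 : Real.sqrt ((r : ℝ) / r') = Real.sqrt r / Real.sqrt r' := Real.sqrt_div h1.le _
  have h4 : (r : ℝ) = Real.sqrt r * Real.sqrt r := (Real.mul_self_sqrt h1.le).symm
  have h5 : (r' : ℝ) = Real.sqrt r' * Real.sqrt r' := (Real.mul_self_sqrt h2.le).symm
  have h6 : 0 < Real.sqrt (r : ℝ) := Real.sqrt_pos.2 h1
  have h7 : 0 < Real.sqrt (r' : ℝ) := Real.sqrt_pos.2 h2
  rw [h3]
  have e1 : (r : ℝ) / r' = (Real.sqrt r * Real.sqrt r) / (Real.sqrt r' * Real.sqrt r') := by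
    rw [← h4, ← h5]
  rw [e1]
  field_simp

theorem pref_sqrt {a a' : ℝ} {r r' : ℕ} (hr : 0 < r) (hr' : 0 < r') (c : ℝ) :
    a' * Real.sqrt r' / (a * Real.sqrt r) * (c * Real.sqrt ((r : ℝ) / r')) = a' / a * c := by
  have h1 : (0 : ℝ) < r := by exact_mod_cast hr
  have h2 : (0 : ℝ) < r' := by exact_mod_cast hr'
  have h3 : Real.sqrt ((r : ℝ) / r') = Real.sqrt r / Real.sqrt r' := Real.sqrt_div h1.le _
  have h6 : 0 < Real.sqrt (r : ℝ) := Real.sqrt_pos.2 h1
  have h7 : 0 < Real.sqrt (r' : ℝ) := Real.sqrt_pos.2 h2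
  rw [h3]
  field_simp

/-- the constant of (W1) -/
def K1 (C : ℝ) : ℝ := 70000 * C ^ 2

/-- the bound at a bulk-like face -/
theorem reg_bulk {x : G × G} {C : ℝ} {Λ r0 R0 r r' : ℕ} (hC : 1 ≤ C) (H : RB w x C Λ r0 R0)
    (hr0 : r0 ≤ r) (h8 : 8 * r ≤ r') (hΛ : r' ≤ Λ * r) (hR : 8 * r' ≤ R0)
    (hr : 0 < r) {f : HE G → ℝ} (hf : nnB w r' x f ≤ 1) :
    L2on (ball x (s1 * r)) f ≤ 32768 * C * ((r : ℝ) / r') := by
  have hr1 : (0 : ℝ) < r := by exact_mod_cast hr
  have hr1' : (0 : ℝ) < r' := by exact_mod_cast (show 0 < r' by omega)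
  have h := (H (s1 * r) (8 * r') (by unfold s1; omega) (by unfold s1; omega)
    (by unfold s1; nlinarith) hR).of_pN (r' := r') (b := 64) (ball_finite x (s1 * r'))
    (ball_mono x (by unfold s1; omega)) (by norm_num) (by push_cast; linarith) (pN_of_nnB hf)
  refine h.trans (le_of_eq ?_)
  unfold s1
  push_cast
  field_simp
  norm_num

/-- **(W1)** at a bulk-like face -/
theorem W1_bulk {x : G × G} {C : ℝ} {Λ r0 R0 r r' : ℕ} (hC : 1 ≤ C) (H : RB w x C Λ r0 R0)
    (hr0 : r0 ≤ r) (h8 : 8 * r ≤ r') (hΛ : r' ≤ Λ * r) (hR : 8 * r' ≤ R0)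
    (hr : 0 < r) {a a' : ℝ} (ha : 0 < a) (ha' : 0 ≤ a') :
    WLe w a a' r r' x x LinearMap.id
      (ENNReal.ofReal (a' / a * (K1 C * Real.sqrt ((r : ℝ) / r')))) := by
  have hr1 : (0 : ℝ) < r := by exact_mod_cast hr
  have hr1' : (0 : ℝ) < r' := by exact_mod_cast (show 0 < r' by omega)
  have h := WLe_id_of_reg1 (w := w) (a := a) (a' := a') (r := r) (r' := r') (x := x) (x' := x) ha hr
    ha' (by omega) (ball_mono x (Nat.mul_le_mul_left _ (by omega)))
    (ball_mono x (Nat.mul_le_mul_left _ (by omega)))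
    (fun f hf => reg_bulk hC H hr0 h8 hΛ hR hr hf)
  refine WLe.mono h (ENNReal.ofReal_le_ofReal ?_)
  have e : 32768 * C * ((r : ℝ) / r') + (r : ℝ) / r' = (32768 * C + 1) * ((r : ℝ) / r') := by ring
  rw [e, pref hr (by omega)]
  refine mul_le_mul_of_nonneg_left (mul_le_mul_of_nonneg_right ?_ (Real.sqrt_nonneg _))
    (by positivity)
  unfold K1
  nlinarith

/-- the bound near a centre `y` with bulk rate (boundary, cluster) -/
theorem reg_bd {x y : G × G} {C : ℝ} {Λ r0 R0 Rx r r' : ℕ} (hC : 1 ≤ C) (Hy : RB w y C Λ r0 R0)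
    (Hx : RB w x C Λ r0 Rx) (hRx : fd y x / 2 ≤ Rx)
    (hr0 : r0 ≤ r) (h8 : 10 * r ≤ r') (hΛ : r' ≤ Λ * r) (hR : 32 * r' ≤ R0)
    (hr : 0 < r) {f : HE G → ℝ} (hf : nnB w r' x f ≤ 1) :
    L2on (ball x (s1 * r)) f ≤ 65536 * C ^ 2 * ((r : ℝ) / r') := by
  have hr1 : (0 : ℝ) < r := by exact_mod_cast hr
  have hr1' : (0 : ℝ) < r' := by exact_mod_cast (show 0 < r' by omega)
  have hCC : C ≤ C ^ 2 := by nlinarith
  set d := fd y x with hd
  have hdx : fd x y = d := fd_comm x y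
  rcases le_or_gt d (256 * r) with h1 | h1
  · -- close to the centre
    have hB : ball y (32 * r') ⊆ ball x (s1 * r') :=
      ball_subset_ball (by rw [hdx]; unfold s1; omega)
    have hB2 : ball x (s1 * r) ⊆ ball y (320 * r) :=
      ball_subset_ball (by rw [← hd]; unfold s1; omega)
    have h := (Hy (320 * r) (32 * r') (by omega) (by omega) (by nlinarith) hR).of_pN (r' := r')
      (b := 64) (ball_finite x (s1 * r')) hB (by norm_num) (by push_cast; linarith) (pN_of_nnB hf)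
    refine (L2on_mono hB2 (ball_finite _ _) f).trans (h.trans ?_)
    have e : (64 : ℝ) ^ 2 * (C * (((320 * r : ℕ) : ℝ) / ((32 * r' : ℕ) : ℝ))) =
        40960 * C * ((r : ℝ) / r') := by
      push_cast; field_simp; norm_num
    rw [e]
    refine mul_le_mul_of_nonneg_right ?_ (by positivity)
    nlinarith
  · rcases le_or_gt d (16 * r') with h2 | h2
    · -- intermediate distances: composition
      have hB : ball y (32 * r') ⊆ ball x (s1 * r') :=
        ball_subset_ball (by rw [hdx]; unfold s1; omega)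
      have hd0 : (0 : ℝ) < d := by exact_mod_cast (show 0 < d by omega)
      have hd2 : (d : ℝ) / 4 ≤ ((d / 2 : ℕ) : ℝ) := by
        have : d ≤ 4 * (d / 2) := by omega
        have h3 : (d : ℝ) ≤ 4 * ((d / 2 : ℕ) : ℝ) := by exact_mod_cast this
        linarith
      have hd3 : ((d / 2 : ℕ) : ℝ) ≤ (d : ℝ) / 2 := by
        have : 2 * (d / 2) ≤ d := by omega
        have h3 : 2 * ((d / 2 : ℕ) : ℝ) ≤ (d : ℝ) := by exact_mod_cast this
        linarith
      have c1 := Hy (2 * d) (32 * r') (by omega) (by omega) (by nlinarith) hR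
      have c2 := Hx (s1 * r) (d / 2) (by unfold s1; omega) (by unfold s1; omega)
        (by unfold s1; nlinarith [Nat.div_le_self d 2, show d / 2 ≤ 8 * r' by omega]) hRx
      have h := c1.comp_pN (m := C * ((d : ℝ) / (16 * r'))) c2 (by rw [← hd]; omega) (by omega)
        (by omega) (by positivity)
        (le_of_eq (by push_cast; field_simp; ring)) (by
          push_cast
          rw [div_le_iff₀ (by positivity)]
          have : C * ((d : ℝ) / (16 * r')) * (32 * r') = 2 * C * d := by field_simp; ring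
          rw [this]
          nlinarith) (r' := r') (b := 64)
        (ball_finite x (s1 * r')) hB (by norm_num) (by push_cast; linarith) (pN_of_nnB hf)
      refine h.trans ?_
      have e1 : ((s1 * r : ℕ) : ℝ) / ((d / 2 : ℕ) : ℝ) ≤ 256 * r / d := by
        unfold s1
        push_cast
        rw [div_le_div_iff₀ (by linarith [div_pos hd0 (by norm_num : (0:ℝ) < 4)]) hd0]
        nlinarith
      calc (64 : ℝ) ^ 2 * (C * ((d : ℝ) / (16 * r')) * (C * (((s1 * r : ℕ) : ℝ) / ((d / 2 : ℕ) : ℝ))))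
          ≤ (64 : ℝ) ^ 2 * (C * ((d : ℝ) / (16 * r')) * (C * (256 * r / d))) := by gcongr
        _ = 65536 * C ^ 2 * ((r : ℝ) / r') := by field_simp; norm_num
    · -- far away: bulk
      have h := reg_bulk hC (Hx.mono le_rfl le_rfl le_rfl hRx) hr0 (by omega) hΛ (by omega) hr hf
      refine h.trans (mul_le_mul_of_nonneg_right ?_ (by positivity))
      nlinarith

/-- **(W1)** near a boundary or a cluster, every face -/
theorem W1_bd {x y : G × G} {C : ℝ} {Λ r0 R0 Rx r r' : ℕ} (hC : 1 ≤ C) (Hy : RB w y C Λ r0 R0)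
    (Hx : RB w x C Λ r0 Rx) (hRx : fd y x / 2 ≤ Rx)
    (hr0 : r0 ≤ r) (h8 : 10 * r ≤ r') (hΛ : r' ≤ Λ * r) (hR : 32 * r' ≤ R0)
    (hr : 0 < r) {a a' : ℝ} (ha : 0 < a) (ha' : 0 ≤ a') :
    WLe w a a' r r' x x LinearMap.id
      (ENNReal.ofReal (a' / a * (K1 C * Real.sqrt ((r : ℝ) / r')))) := by
  have hr1 : (0 : ℝ) < r := by exact_mod_cast hr
  have hr1' : (0 : ℝ) < r' := by exact_mod_cast (show 0 < r' by omega)
  have h := WLe_id_of_reg1 (w := w) (a := a) (a' := a') (r := r) (r' := r') (x := x) (x' := x) ha hr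
    ha' (by omega) (ball_mono x (Nat.mul_le_mul_left _ (by omega)))
    (ball_mono x (Nat.mul_le_mul_left _ (by omega)))
    (fun f hf => reg_bd hC Hy Hx hRx hr0 h8 hΛ hR hr hf)
  refine WLe.mono h (ENNReal.ofReal_le_ofReal ?_)
  have e : 65536 * C ^ 2 * ((r : ℝ) / r') + (r : ℝ) / r' =
      (65536 * C ^ 2 + 1) * ((r : ℝ) / r') := by ring
  rw [e, pref hr (by omega)]
  refine mul_le_mul_of_nonneg_left (mul_le_mul_of_nonneg_right ?_ (Real.sqrt_nonneg _))
    (by positivity)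
  unfold K1
  nlinarith

/-- the bound near a branch centre `y` -/
theorem reg_br {x y : G × G} {C : ℝ} {Λ r0 R0 Rx r r' : ℕ} (hC : 1 ≤ C) (Hy : RX w y C Λ r0 R0)
    (Hx : RB w x C Λ r0 Rx) (hRx : fd y x / 2 ≤ Rx)
    (hr0 : r0 ≤ r) (h8 : 10 * r ≤ r') (hΛ : r' ≤ Λ * r) (hR : 32 * r' ≤ R0)
    (hr : 0 < r) {f : HE G → ℝ} (hf : nnB w r' x f ≤ 1) :
    L2on (ball x (s1 * r)) f ≤ 32768 * C * ((r : ℝ) / r') +
      300000 * C ^ 2 * (Real.sqrt ((r : ℝ) / r') * Real.sqrt ((r : ℝ) / (r + fd y x))) := by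
  have hr1 : (0 : ℝ) < r := by exact_mod_cast hr
  have hr1' : (0 : ℝ) < r' := by exact_mod_cast (show 0 < r' by omega)
  have hCC : C ≤ C ^ 2 := by nlinarith
  set d := fd y x with hd
  have hdx : fd x y = d := fd_comm x y
  have hrr : 0 ≤ Real.sqrt ((r : ℝ) / r') := Real.sqrt_nonneg _
  have e3 : (0 : ℝ) ≤ 32768 * C * ((r : ℝ) / r') := by positivity
  have e3' : (0 : ℝ) ≤ 300000 * C ^ 2 *
    (Real.sqrt ((r : ℝ) / r') * Real.sqrt ((r : ℝ) / (r + d))) := by positivity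
  rcases le_or_gt d (256 * r) with h1 | h1
  · have hB : ball y (32 * r') ⊆ ball x (s1 * r') :=
      ball_subset_ball (by rw [hdx]; unfold s1; omega)
    have hB2 : ball x (s1 * r) ⊆ ball y (320 * r) :=
      ball_subset_ball (by rw [← hd]; unfold s1; omega)
    have h := (Hy (320 * r) (32 * r') (by omega) (by omega) (by nlinarith) hR).1.of_pN (r' := r')
      (b := 64) (ball_finite x (s1 * r')) hB (by norm_num) (by push_cast; linarith) (pN_of_nnB hf)
    refine (L2on_mono hB2 (ball_finite _ _) f).trans (h.trans ?_)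
    have e : Real.sqrt (((320 * r : ℕ) : ℝ) / ((32 * r' : ℕ) : ℝ)) ≤
        4 * Real.sqrt ((r : ℝ) / r') := by
      have : ((320 * r : ℕ) : ℝ) / ((32 * r' : ℕ) : ℝ) ≤ 4 ^ 2 * ((r : ℝ) / r') := by
        push_cast
        have : (320 * (r : ℝ)) / (32 * r') = 10 * ((r : ℝ) / r') := by field_simp; norm_num
        rw [this]
        exact mul_le_mul_of_nonneg_right (by norm_num) (by positivity)
      calc Real.sqrt (((320 * r : ℕ) : ℝ) / ((32 * r' : ℕ) : ℝ))
          ≤ Real.sqrt (4 ^ 2 * ((r : ℝ) / r')) := Real.sqrt_le_sqrt this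
        _ = 4 * Real.sqrt ((r : ℝ) / r') := by
            rw [Real.sqrt_mul (by norm_num), Real.sqrt_sq (by norm_num)]
    have e2 : (1 : ℝ) / 17 ≤ Real.sqrt ((r : ℝ) / (r + d)) := by
      apply Real.le_sqrt_of_sq_le
      rw [le_div_iff₀ (by positivity)]
      have : (d : ℝ) ≤ 256 * r := by exact_mod_cast h1
      nlinarith
    have e4 : 64 ^ 2 * (C * Real.sqrt (((320 * r : ℕ) : ℝ) / ((32 * r' : ℕ) : ℝ))) ≤
        16384 * C * Real.sqrt ((r : ℝ) / r') := by nlinarith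
    have h6 : Real.sqrt ((r : ℝ) / r') * (1 / 17) ≤
        Real.sqrt ((r : ℝ) / r') * Real.sqrt ((r : ℝ) / (r + d)) :=
      mul_le_mul_of_nonneg_left e2 hrr
    have h7 : 300000 * C ^ 2 * (Real.sqrt ((r : ℝ) / r') * (1 / 17)) ≤
        300000 * C ^ 2 * (Real.sqrt ((r : ℝ) / r') * Real.sqrt ((r : ℝ) / (r + d))) :=
      mul_le_mul_of_nonneg_left h6 (by positivity)
    have h8 : 16384 * C * Real.sqrt ((r : ℝ) / r') ≤ 16384 * C ^ 2 * Real.sqrt ((r : ℝ) / r') :=
      mul_le_mul_of_nonneg_right (by linarith) hrr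
    have h9 : 0 ≤ C ^ 2 * Real.sqrt ((r : ℝ) / r') := by positivity
    linarith
  · rcases le_or_gt d (16 * r') with h2 | h2
    · have hB : ball y (32 * r') ⊆ ball x (s1 * r') :=
        ball_subset_ball (by rw [hdx]; unfold s1; omega)
      have hd0 : (0 : ℝ) < d := by exact_mod_cast (show 0 < d by omega)
      have hd16 : (d : ℝ) ≤ 16 * r' := by exact_mod_cast h2
      have hd256 : 256 * (r : ℝ) ≤ d := by exact_mod_cast h1.le
      have hd2 : (d : ℝ) / 4 ≤ ((d / 2 : ℕ) : ℝ) := by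
        have : d ≤ 4 * (d / 2) := by omega
        have h3 : (d : ℝ) ≤ 4 * ((d / 2 : ℕ) : ℝ) := by exact_mod_cast this
        linarith
      have hd3 : ((d / 2 : ℕ) : ℝ) ≤ (d : ℝ) / 2 := by
        have : 2 * (d / 2) ≤ d := by omega
        have h3 : 2 * ((d / 2 : ℕ) : ℝ) ≤ (d : ℝ) := by exact_mod_cast this
        linarith
      have c1 := (Hy (2 * d) (32 * r') (by omega) (by omega) (by nlinarith) hR).1
      have c2 := Hx (s1 * r) (d / 2) (by unfold s1; omega) (by unfold s1; omega)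
        (by unfold s1; nlinarith [Nat.div_le_self d 2, show d / 2 ≤ 8 * r' by omega]) hRx
      set t : ℝ := (d : ℝ) / (16 * r') with ht
      have ht0 : 0 < t := by positivity
      have ht1 : t ≤ 1 := by rw [ht, div_le_one (by positivity)]; exact hd16
      have hst : t ≤ Real.sqrt t := by
        apply Real.le_sqrt_of_sq_le
        nlinarith
      have h := c1.comp_pN (m := C * Real.sqrt t) c2 (by rw [← hd]; omega) (by omega)
        (by omega) (mul_pos (by linarith) (Real.sqrt_pos.2 ht0))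
        (le_of_eq (by
          congr 2
          rw [ht]
          push_cast; field_simp; norm_num)) (by
          have h3 : ((d / 2 : ℕ) : ℝ) / ((32 * r' : ℕ) : ℝ) ≤ t := by
            rw [ht]
            push_cast
            rw [div_le_div_iff₀ (by positivity) (by positivity)]
            nlinarith
          have h4 : Real.sqrt t ≤ C * Real.sqrt t := le_mul_of_one_le_left (Real.sqrt_nonneg _) hC
          linarith) (r' := r') (b := 64)
        (ball_finite x (s1 * r')) hB (by norm_num) (by push_cast; linarith) (pN_of_nnB hf)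
      refine h.trans ?_
      have e1 : ((s1 * r : ℕ) : ℝ) / ((d / 2 : ℕ) : ℝ) ≤ 256 * r / d := by
        unfold s1
        push_cast
        rw [div_le_div_iff₀ (by linarith [div_pos hd0 (by norm_num : (0:ℝ) < 4)]) hd0]
        nlinarith
      -- `(r/d) √(d/(16 r')) = (1/4) √(r/r') √(r/d)`
      have e5 : (r : ℝ) / d * Real.sqrt t =
          1 / 4 * (Real.sqrt ((r : ℝ) / r') * Real.sqrt ((r : ℝ) / d)) := by
        have h3 : (r : ℝ) / d = Real.sqrt ((r : ℝ) / d) * Real.sqrt ((r : ℝ) / d) :=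
          (Real.mul_self_sqrt (by positivity)).symm
        have h4 : Real.sqrt ((r : ℝ) / d) * Real.sqrt t = 1 / 4 * Real.sqrt ((r : ℝ) / r') := by
          rw [← Real.sqrt_mul (by positivity)]
          have : (r : ℝ) / d * t = (1 / 4) ^ 2 * ((r : ℝ) / r') := by
            rw [ht]; field_simp; norm_num
          rw [this, Real.sqrt_mul (by norm_num), Real.sqrt_sq (by norm_num)]
        calc (r : ℝ) / d * Real.sqrt t
            = Real.sqrt ((r : ℝ) / d) * (Real.sqrt ((r : ℝ) / d) * Real.sqrt t) := by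
              rw [← mul_assoc, ← h3]
          _ = _ := by rw [h4]; ring
      have e6 : Real.sqrt ((r : ℝ) / d) ≤ 11 / 10 * Real.sqrt ((r : ℝ) / (r + d)) := by
        calc Real.sqrt ((r : ℝ) / d) ≤ Real.sqrt ((11 / 10) ^ 2 * ((r : ℝ) / (r + d))) := by
              apply Real.sqrt_le_sqrt
              rw [← mul_div_assoc, div_le_div_iff₀ hd0 (by positivity)]
              nlinarith
          _ = _ := by rw [Real.sqrt_mul (by norm_num), Real.sqrt_sq (by norm_num)]
      have e7 : Real.sqrt ((r : ℝ) / r') * Real.sqrt ((r : ℝ) / d) ≤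
          11 / 10 * (Real.sqrt ((r : ℝ) / r') * Real.sqrt ((r : ℝ) / (r + d))) := by
        calc _ ≤ Real.sqrt ((r : ℝ) / r') * (11 / 10 * Real.sqrt ((r : ℝ) / (r + d))) :=
              mul_le_mul_of_nonneg_left e6 hrr
          _ = _ := by ring
      have e8 : 0 ≤ Real.sqrt ((r : ℝ) / r') * Real.sqrt ((r : ℝ) / (r + d)) := by positivity
      calc (64 : ℝ) ^ 2 * (C * Real.sqrt t * (C * (((s1 * r : ℕ) : ℝ) / ((d / 2 : ℕ) : ℝ))))
          ≤ (64 : ℝ) ^ 2 * (C * Real.sqrt t * (C * (256 * r / d))) := by gcongr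
        _ = 1048576 * C ^ 2 * ((r : ℝ) / d * Real.sqrt t) := by ring
        _ = 262144 * C ^ 2 * (Real.sqrt ((r : ℝ) / r') * Real.sqrt ((r : ℝ) / d)) := by
            rw [e5]; ring
        _ ≤ 262144 * C ^ 2 *
            (11 / 10 * (Real.sqrt ((r : ℝ) / r') * Real.sqrt ((r : ℝ) / (r + d)))) := by gcongr
        _ ≤ 300000 * C ^ 2 * (Real.sqrt ((r : ℝ) / r') * Real.sqrt ((r : ℝ) / (r + d))) := by
            have : 0 ≤ C ^ 2 * (Real.sqrt ((r : ℝ) / r') * Real.sqrt ((r : ℝ) / (r + d))) := by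
              positivity
            linarith
        _ ≤ _ := by linarith
    · have h := reg_bulk hC (Hx.mono le_rfl le_rfl le_rfl hRx) hr0 (by omega) hΛ (by omega) hr hf
      linarith

/-- the constant of (W1) near a branch point -/
def K2 (C : ℝ) : ℝ := 300000 * C ^ 2

/-- **(W1)** near a branch centre, every face -/
theorem W1_br {x y : G × G} {C : ℝ} {Λ r0 R0 Rx r r' : ℕ} (hC : 1 ≤ C) (Hy : RX w y C Λ r0 R0)
    (Hx : RB w x C Λ r0 Rx) (hRx : fd y x / 2 ≤ Rx)
    (hr0 : r0 ≤ r) (h8 : 10 * r ≤ r') (hΛ : r' ≤ Λ * r) (hR : 32 * r' ≤ R0)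
    (hr : 0 < r) {a a' : ℝ} (ha : 0 < a) (ha' : 0 ≤ a') :
    WLe w a a' r r' x x LinearMap.id
      (ENNReal.ofReal (a' / a * (K2 C * (Real.sqrt ((r : ℝ) / r') +
        Real.sqrt ((r : ℝ) / (r + fd y x)))))) := by
  have hr1 : (0 : ℝ) < r := by exact_mod_cast hr
  have hr1' : (0 : ℝ) < r' := by exact_mod_cast (show 0 < r' by omega)
  have h := WLe_id_of_reg1 (w := w) (a := a) (a' := a') (r := r) (r' := r') (x := x) (x' := x) ha hr
    ha' (by omega) (ball_mono x (Nat.mul_le_mul_left _ (by omega)))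
    (ball_mono x (Nat.mul_le_mul_left _ (by omega)))
    (fun f hf => reg_br hC Hy Hx hRx hr0 h8 hΛ hR hr hf)
  refine WLe.mono h (ENNReal.ofReal_le_ofReal ?_)
  set s := Real.sqrt ((r : ℝ) / (r + fd y x)) with hs
  have e : 32768 * C * ((r : ℝ) / r') + 300000 * C ^ 2 * (Real.sqrt ((r : ℝ) / r') * s) +
      (r : ℝ) / r' = (32768 * C + 1) * ((r : ℝ) / r') +
      (300000 * C ^ 2 * s) * Real.sqrt ((r : ℝ) / r') := by ring
  rw [e, mul_add, pref hr (by omega), pref_sqrt hr (by omega), ← mul_add]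
  refine mul_le_mul_of_nonneg_left ?_ (by positivity)
  have h1 : (32768 * C + 1) * Real.sqrt ((r : ℝ) / r') ≤ K2 C * Real.sqrt ((r : ℝ) / r') := by
    refine mul_le_mul_of_nonneg_right ?_ (Real.sqrt_nonneg _)
    unfold K2; nlinarith
  unfold K2 at h1 ⊢
  linarith

/-! ### rank-one inequalities -/

/-- the constant of the rank-one inequalities -/
def K3 (C : ℝ) : ℝ := 73800 * C

theorem term_le {r r' : ℕ} {Z Z' : Set (G × G)} (hZ' : Z'.Finite) (hZZ : Z ⊆ Z') (hr' : 0 < r')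
    {f : HE G → ℝ} (hf : RankOnex386.pN w r' Z' f ≤ 1) {n : ℕ} (hn : n ≤ MM) :
    (r : ℝ) ^ n * L2on Z ((Aop w)^[n] f) ≤ ((r : ℝ) / r') ^ n := by
  have hr0 : (0 : ℝ) < r' := by exact_mod_cast hr'
  have h1 : (r' : ℝ) ^ n * L2on Z' ((Aop w)^[n] f) ≤ RankOnex386.pN w r' Z' f :=
    Finset.single_le_sum (f := fun n => (r' : ℝ) ^ n * l2 (restr Z' ((Aop w)^[n] f)))
      (fun n _ => mul_nonneg (by positivity) (L2on_nonneg _ _)) (Finset.mem_range.2 (by omega))
  calc (r : ℝ) ^ n * L2on Z ((Aop w)^[n] f)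
      ≤ (r : ℝ) ^ n * L2on Z' ((Aop w)^[n] f) :=
        mul_le_mul_of_nonneg_left (L2on_mono hZZ hZ' _) (by positivity)
    _ = ((r : ℝ) / r') ^ n * ((r' : ℝ) ^ n * L2on Z' ((Aop w)^[n] f)) := by
        rw [div_pow]; field_simp
    _ ≤ ((r : ℝ) / r') ^ n * 1 := mul_le_mul_of_nonneg_left (h1.trans hf) (by positivity)
    _ = _ := mul_one _

/-- the higher derivatives, crude -/
theorem qN_le {r r' : ℕ} {Z Z' : Set (G × G)} (hZ' : Z'.Finite) (hZZ : Z ⊆ Z') (hr' : 0 < r')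
    (hrr : r ≤ r') {f : HE G → ℝ} (hf : RankOnex386.pN w r' Z' f ≤ 1) :
    RankOnex386.qN w r Z f ≤ r * L2on Z (Aop w f) + 5 * ((r : ℝ) / r') ^ 2 := by
  have hr0 : (0 : ℝ) < r' := by exact_mod_cast hr'
  have hq0 : (0 : ℝ) ≤ (r : ℝ) / r' := by positivity
  have hq1 : (r : ℝ) / r' ≤ 1 := by rw [div_le_one hr0]; exact_mod_cast hrr
  have key : ∀ n, 2 ≤ n → n ≤ MM → (r : ℝ) ^ n * L2on Z ((Aop w)^[n] f) ≤ ((r : ℝ) / r') ^ 2 :=
    fun n h2 hn => (term_le hZ' hZZ hr' hf hn).trans (pow_le_pow_of_le_one hq0 hq1 h2)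
  have e : RankOnex386.qN w r Z f = (r : ℝ) ^ 1 * L2on Z ((Aop w)^[1] f) +
      (r : ℝ) ^ 2 * L2on Z ((Aop w)^[2] f) + (r : ℝ) ^ 3 * L2on Z ((Aop w)^[3] f) +
      (r : ℝ) ^ 4 * L2on Z ((Aop w)^[4] f) + (r : ℝ) ^ 5 * L2on Z ((Aop w)^[5] f) +
      (r : ℝ) ^ 6 * L2on Z ((Aop w)^[6] f) := by
    unfold RankOnex386.qN MM
    simp only [Finset.sum_range_succ, Finset.sum_range_zero, zero_add]
    rfl
  have h2 := key 2 (by norm_num) (by unfold MM; norm_num)
  have h3 := key 3 (by norm_num) (by unfold MM; norm_num)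
  have h4 := key 4 (by norm_num) (by unfold MM; norm_num)
  have h5 := key 5 (by norm_num) (by unfold MM; norm_num)
  have h6 := key 6 (by norm_num) (by unfold MM; norm_num)
  rw [e, pow_one, Function.iterate_one]
  linarith

/-- **(W3)**: rank-one inequalities at a boundary centre, for all faces at distance `≤ D r` -/
theorem W3 {y : G × G} {C : ℝ} {Λ r0 R0 r r' D : ℕ} (hC : 1 ≤ C) (H : RD w y C Λ r0 R0)
    (hr0 : r0 ≤ r) (hD : (D + 64) * r ≤ 4 * r') (hΛ : r' ≤ Λ * r) (hR : 32 * r' ≤ R0)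
    (hr : 0 < r) :
    ∃ P : Fld G →ₗ[ℝ] Fld G, FiniteDimensional ℝ (LinearMap.range P) ∧
      Module.finrank ℝ (LinearMap.range P) ≤ 1 ∧ (∀ l, SuppL (ball y ((D + 64) * r)) (P l)) ∧
      ∀ (a a' : ℝ), 0 < a → 0 ≤ a' → ∀ x x' : G × G, fd y x ≤ D * r → fd y x' ≤ D * r →
        WLe w a a' r r' x x' P
          (ENNReal.ofReal (a' / a * (K3 C * (D + 64) * Real.sqrt ((r : ℝ) / r')))) ∧
        WLe w a a' r r' x x' (LinearMap.id - P)
          (ENNReal.ofReal (a' / a * (K3 C * (D + 64) ^ 2 * ((r : ℝ) / r')))) := by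
  have hr' : 0 < r' := by
    rcases Nat.eq_zero_or_pos r' with h | h
    · subst h
      have : 0 < (D + 64) * r := by positivity
      omega
    · exact h
  have hr1 : (0 : ℝ) < r := by exact_mod_cast hr
  have hr1' : (0 : ℝ) < r' := by exact_mod_cast hr'
  have hrr : r ≤ r' := by nlinarith
  set r1 := (D + 64) * r with hr1def
  set R1 := 32 * r' with hR1def
  have hr1R1 : r1 ≤ R1 := by omega
  set t : ℝ := (r1 : ℝ) / R1 with ht
  have hR1pos : (0 : ℝ) < R1 := by rw [hR1def]; push_cast; positivity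
  have hr1pos : (0 : ℝ) < r1 := by rw [hr1def]; push_cast; positivity
  have ht0 : 0 < t := by positivity
  have ht1 : t ≤ 1 := by rw [ht, div_le_one hR1pos]; exact_mod_cast hr1R1
  have htq : (r : ℝ) / r' ≤ t := by
    rw [ht, hR1def, hr1def]
    push_cast
    rw [div_le_div_iff₀ hr1' (by positivity)]
    have : (0 : ℝ) ≤ (D : ℝ) * r * r' := by positivity
    nlinarith
  have hst : t ≤ Real.sqrt t := by
    apply Real.le_sqrt_of_sq_le
    nlinarith
  have htt : t * t ≤ t * Real.sqrt t := mul_le_mul_of_nonneg_left hst ht0.le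
  have hst1 : Real.sqrt t ≤ 1 := by rw [Real.sqrt_le_one]; exact ht1
  obtain ⟨hR1', u, hR2'⟩ := H r1 R1 (by nlinarith) hr1R1 (by rw [hR1def, hr1def]; nlinarith)
    (by omega)
  have hZZ : ball y r1 ⊆ ball y R1 := ball_mono y hr1R1
  have hfin : (ball y R1).Finite := ball_finite y R1
  have hε : 0 < 8200 * C * (t * Real.sqrt t) := by
    have := Real.sqrt_pos.2 ht0
    positivity
  obtain ⟨P, hP1, hP2, hP3, hP4⟩ := RankOnex386.rankOne w (r := r) (r' := r') hr
    (ball_finite y r1) hfin u (α := 4096 * C * t) (ε := 8200 * C * (t * Real.sqrt t)) hε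
    (by positivity)
    (fun f hf => by
      have h := hR1'.of_pN (r' := r') (b := 64) hfin le_rfl (by norm_num)
        (by rw [hR1def]; push_cast; linarith) hf
      refine h.trans (le_of_eq ?_)
      rw [ht]; ring)
    (fun f hf => by
      obtain ⟨κ, h⟩ := hR2'.of_pN (r' := r') (b := 64) hfin le_rfl (by norm_num)
        (by rw [hR1def]; push_cast; linarith) hf
      refine ⟨κ, h.trans ?_⟩
      have h1 : 0 ≤ C * (t * Real.sqrt t) := by positivity
      have e : (64 : ℝ) ^ 2 * (C * ((r1 : ℝ) / R1 * Real.sqrt ((r1 : ℝ) / R1))) =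
          4096 * (C * (t * Real.sqrt t)) := by rw [ht]; ring
      rw [e]
      linarith)
    (fun f hf => by
      have h := hR1'.of_pN_deriv (r' := r') (b := 64) hfin le_rfl (by norm_num)
        (by omega) (by rw [hR1def]; push_cast; linarith) hf
      refine (qN_le hfin hZZ hr' hrr hf).trans ?_
      have e : (r : ℝ) * ((64 : ℝ) ^ 3 / R1 * (C * ((r1 : ℝ) / R1))) =
          8192 * C * ((r : ℝ) / r' * t) := by
        rw [ht, hR1def]; push_cast; field_simp; norm_num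
      have h1 : (r : ℝ) * L2on (ball y r1) (Aop w f) ≤ 8192 * C * ((r : ℝ) / r' * t) := by
        rw [← e]; exact mul_le_mul_of_nonneg_left h hr1.le
      have h2 : (r : ℝ) / r' * t ≤ t * t := mul_le_mul_of_nonneg_right htq ht0.le
      have h3 : ((r : ℝ) / r') ^ 2 ≤ t * t := by
        rw [pow_two]; exact mul_le_mul htq htq (by positivity) ht0.le
      have h4 : 8192 * C * ((r : ℝ) / r' * t) ≤ 8192 * C * (t * t) := by gcongr
      have h5 : 8192 * C * (t * t) ≤ 8192 * C * (t * Real.sqrt t) := by gcongr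
      have h6 : t * t ≤ C * (t * Real.sqrt t) := by
        calc t * t ≤ 1 * (t * Real.sqrt t) := by rw [one_mul]; exact htt
          _ ≤ C * (t * Real.sqrt t) := mul_le_mul_of_nonneg_right hC (by positivity)
      have h7 : 0 ≤ C * (t * Real.sqrt t) := by positivity
      linarith)
  refine ⟨P, hP1, hP2, hP3, fun a a' ha ha' x x' hx hx' => ?_⟩
  have hDr : D * r + 64 * r ≤ 4 * r' := by rw [← add_mul]; exact hD
  obtain ⟨hA, hB⟩ := hP4 a a' ha ha' x x'
    (ball_subset_ball (by rw [hr1def, add_mul]; unfold s1; omega))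
    (ball_subset_ball (by rw [fd_comm, hR1def]; unfold s1; omega))
    (ball_subset_ball (by rw [fd_comm, hr1def, add_mul]; unfold s0; omega))
    (ball_subset_ball (by
      have h1 : fd x' x ≤ D * r + D * r := by
        have h2 := fd_triangle x' y x
        have h3 := fd_comm x' y
        omega
      unfold s0
      omega))
  have hsq : Real.sqrt t = Real.sqrt ((D + 64 : ℝ) / 32) * Real.sqrt ((r : ℝ) / r') := by
    rw [← Real.sqrt_mul (by positivity)]
    congr 1
    rw [ht, hr1def, hR1def]; push_cast; field_simp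
  have hte : t = (D + 64 : ℝ) / 32 * ((r : ℝ) / r') := by
    rw [ht, hr1def, hR1def]; push_cast; field_simp
  have hD1 : (1 : ℝ) ≤ (D + 64 : ℝ) / 32 := by
    rw [le_div_iff₀ (by norm_num)]
    have : (0 : ℝ) ≤ D := by positivity
    linarith
  have hsD : Real.sqrt ((D + 64 : ℝ) / 32) ≤ (D + 64 : ℝ) / 32 := by
    rw [Real.sqrt_le_left (by positivity)]
    nlinarith
  have hpos : 0 ≤ a' * Real.sqrt r' / (a * Real.sqrt r) := by positivity
  constructor
  · refine WLe.mono hA (ENNReal.ofReal_le_ofReal ?_)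
    calc 2 * (4096 * C * t + 8200 * C * (t * Real.sqrt t)) *
          (a' * Real.sqrt r' / (a * Real.sqrt r))
        ≤ 2 * (4096 * C * t + 8200 * C * (t * 1)) * (a' * Real.sqrt r' / (a * Real.sqrt r)) := by
          gcongr
      _ = a' * Real.sqrt r' / (a * Real.sqrt r) *
          ((24592 * C * ((D + 64) / 32)) * ((r : ℝ) / r')) := by rw [hte]; ring
      _ = a' / a * ((24592 * C * ((D + 64) / 32)) * Real.sqrt ((r : ℝ) / r')) := pref hr hr' _
      _ ≤ _ := by
          refine mul_le_mul_of_nonneg_left (mul_le_mul_of_nonneg_right ?_ (Real.sqrt_nonneg _))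
            (by positivity)
          unfold K3
          have : 0 ≤ C * ((D : ℝ) + 64) := by positivity
          linarith
  · refine WLe.mono hB (ENNReal.ofReal_le_ofReal ?_)
    have h1 : t * Real.sqrt t ≤ ((D + 64 : ℝ) / 32) ^ 2 * ((r : ℝ) / r' * Real.sqrt ((r : ℝ) / r')) := by
      calc t * Real.sqrt t = ((D + 64 : ℝ) / 32 * ((r : ℝ) / r')) *
            (Real.sqrt ((D + 64 : ℝ) / 32) * Real.sqrt ((r : ℝ) / r')) := by rw [← hsq, ← hte]
        _ ≤ ((D + 64 : ℝ) / 32 * ((r : ℝ) / r')) *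
            ((D + 64 : ℝ) / 32 * Real.sqrt ((r : ℝ) / r')) := by gcongr
        _ = _ := by ring
    calc 9 * (8200 * C * (t * Real.sqrt t)) * (a' * Real.sqrt r' / (a * Real.sqrt r))
        ≤ 9 * (8200 * C * (((D + 64 : ℝ) / 32) ^ 2 *
          ((r : ℝ) / r' * Real.sqrt ((r : ℝ) / r')))) * (a' * Real.sqrt r' / (a * Real.sqrt r)) := by
          gcongr
      _ = a' * Real.sqrt r' / (a * Real.sqrt r) *
          ((73800 * C * ((D + 64 : ℝ) / 32) ^ 2 * ((r : ℝ) / r')) * Real.sqrt ((r : ℝ) / r')) := by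
          ring
      _ = a' / a * (73800 * C * ((D + 64 : ℝ) / 32) ^ 2 * ((r : ℝ) / r')) := pref_sqrt hr hr' _
      _ ≤ _ := by
          refine mul_le_mul_of_nonneg_left (mul_le_mul_of_nonneg_right ?_ (by positivity))
            (by positivity)
          unfold K3
          have : ((D + 64 : ℝ) / 32) ^ 2 ≤ (D + 64 : ℝ) ^ 2 := by
            apply pow_le_pow_left₀ (by positivity)
            rw [div_le_iff₀ (by norm_num)]
            have : (0 : ℝ) ≤ D := by positivity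
            linarith
          gcongr

/-- **(W4)**: rank-one inequalities at a branch centre, for all faces at distance `≤ D r` -/
theorem W4 {y : G × G} {C : ℝ} {Λ r0 R0 r r' D : ℕ} (hC : 1 ≤ C) (H : RX w y C Λ r0 R0)
    (hr0 : r0 ≤ r) (hD : (D + 64) * r ≤ 4 * r') (hΛ : r' ≤ Λ * r) (hR : 32 * r' ≤ R0)
    (hr : 0 < r) :
    ∃ P : Fld G →ₗ[ℝ] Fld G, FiniteDimensional ℝ (LinearMap.range P) ∧
      Module.finrank ℝ (LinearMap.range P) ≤ 1 ∧ (∀ l, SuppL (ball y ((D + 64) * r)) (P l)) ∧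
      ∀ (a a' : ℝ), 0 < a → 0 ≤ a' → ∀ x x' : G × G, fd y x ≤ D * r → fd y x' ≤ D * r →
        WLe w a a' r r' x x' P
          (ENNReal.ofReal (a' / a * (K3 C * (D + 64)))) ∧
        WLe w a a' r r' x x' (LinearMap.id - P)
          (ENNReal.ofReal (a' / a * (K3 C * (D + 64) * Real.sqrt ((r : ℝ) / r')))) := by
  have hr' : 0 < r' := by
    rcases Nat.eq_zero_or_pos r' with h | h
    · subst h
      have : 0 < (D + 64) * r := by positivity
      omega
    · exact h
  have hr1 : (0 : ℝ) < r := by exact_mod_cast hr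
  have hr1' : (0 : ℝ) < r' := by exact_mod_cast hr'
  have hrr : r ≤ r' := by nlinarith
  set r1 := (D + 64) * r with hr1def
  set R1 := 32 * r' with hR1def
  have hr1R1 : r1 ≤ R1 := by omega
  set t : ℝ := (r1 : ℝ) / R1 with ht
  have hR1pos : (0 : ℝ) < R1 := by rw [hR1def]; push_cast; positivity
  have hr1pos : (0 : ℝ) < r1 := by rw [hr1def]; push_cast; positivity
  have ht0 : 0 < t := by positivity
  have ht1 : t ≤ 1 := by rw [ht, div_le_one hR1pos]; exact_mod_cast hr1R1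
  have htq : (r : ℝ) / r' ≤ t := by
    rw [ht, hR1def, hr1def]
    push_cast
    rw [div_le_div_iff₀ hr1' (by positivity)]
    have : (0 : ℝ) ≤ (D : ℝ) * r * r' := by positivity
    nlinarith
  have hst : t ≤ Real.sqrt t := by
    apply Real.le_sqrt_of_sq_le
    nlinarith
  obtain ⟨hR1', u, hR2'⟩ := H r1 R1 (by nlinarith) hr1R1 (by rw [hR1def, hr1def]; nlinarith)
    (by omega)
  have hZZ : ball y r1 ⊆ ball y R1 := ball_mono y hr1R1
  have hfin : (ball y R1).Finite := ball_finite y R1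
  obtain ⟨P, hP1, hP2, hP3, hP4⟩ := RankOnex386.rankOne w (r := r) (r' := r') hr
    (ball_finite y r1) hfin u (α := 4096 * C * Real.sqrt t) (ε := 4102 * C * t) (by positivity)
    (by positivity)
    (fun f hf => by
      have h := hR1'.of_pN (r' := r') (b := 64) hfin le_rfl (by norm_num)
        (by rw [hR1def]; push_cast; linarith) hf
      refine h.trans (le_of_eq ?_)
      rw [ht]; ring)
    (fun f hf => by
      obtain ⟨κ, h⟩ := hR2'.of_pN (r' := r') (b := 64) hfin le_rfl (by norm_num)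
        (by rw [hR1def]; push_cast; linarith) hf
      refine ⟨κ, h.trans ?_⟩
      have h1 : 0 ≤ C * t := by positivity
      have e : (64 : ℝ) ^ 2 * (C * ((r1 : ℝ) / R1)) = 4096 * (C * t) := by rw [ht]; ring
      rw [e]
      linarith)
    (fun f hf => by
      refine (qN_le hfin hZZ hr' hrr hf).trans ?_
      have h1 := term_le (w := w) (r := r) hfin hZZ hr' hf (n := 1) (by unfold MM; norm_num)
      rw [pow_one, pow_one, Function.iterate_one] at h1
      have hq1 : (r : ℝ) / r' ≤ 1 := htq.trans ht1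
      have hq0 : (0 : ℝ) ≤ (r : ℝ) / r' := by positivity
      have h3 : ((r : ℝ) / r') ^ 2 ≤ t := by
        rw [pow_two]
        calc (r : ℝ) / r' * ((r : ℝ) / r') ≤ t * 1 := mul_le_mul htq hq1 hq0 ht0.le
          _ = t := mul_one _
      have h4 : t ≤ C * t := le_mul_of_one_le_left ht0.le hC
      linarith)
  refine ⟨P, hP1, hP2, hP3, fun a a' ha ha' x x' hx hx' => ?_⟩
  have hDr : D * r + 64 * r ≤ 4 * r' := by rw [← add_mul]; exact hD
  obtain ⟨hA, hB⟩ := hP4 a a' ha ha' x x'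
    (ball_subset_ball (by rw [hr1def, add_mul]; unfold s1; omega))
    (ball_subset_ball (by rw [fd_comm, hR1def]; unfold s1; omega))
    (ball_subset_ball (by rw [fd_comm, hr1def, add_mul]; unfold s0; omega))
    (ball_subset_ball (by
      have h1 : fd x' x ≤ D * r + D * r := by
        have h2 := fd_triangle x' y x
        have h3 := fd_comm x' y
        omega
      unfold s0
      omega))
  have hsq : Real.sqrt t = Real.sqrt ((D + 64 : ℝ) / 32) * Real.sqrt ((r : ℝ) / r') := by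
    rw [← Real.sqrt_mul (by positivity)]
    congr 1
    rw [ht, hr1def, hR1def]; push_cast; field_simp
  have hte : t = (D + 64 : ℝ) / 32 * ((r : ℝ) / r') := by
    rw [ht, hr1def, hR1def]; push_cast; field_simp
  have hD1 : (1 : ℝ) ≤ (D + 64 : ℝ) / 32 := by
    rw [le_div_iff₀ (by norm_num)]
    have : (0 : ℝ) ≤ D := by positivity
    linarith
  have hsD : Real.sqrt ((D + 64 : ℝ) / 32) ≤ (D + 64 : ℝ) / 32 := by
    rw [Real.sqrt_le_left (by positivity)]
    nlinarith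
  have hpos : 0 ≤ a' * Real.sqrt r' / (a * Real.sqrt r) := by positivity
  constructor
  · refine WLe.mono hA (ENNReal.ofReal_le_ofReal ?_)
    calc 2 * (4096 * C * Real.sqrt t + 4102 * C * t) * (a' * Real.sqrt r' / (a * Real.sqrt r))
        ≤ 2 * (4096 * C * Real.sqrt t + 4102 * C * Real.sqrt t) *
          (a' * Real.sqrt r' / (a * Real.sqrt r)) := by gcongr
      _ = a' * Real.sqrt r' / (a * Real.sqrt r) *
          ((16396 * C * Real.sqrt ((D + 64 : ℝ) / 32)) * Real.sqrt ((r : ℝ) / r')) := by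
          rw [hsq]; ring
      _ = a' / a * (16396 * C * Real.sqrt ((D + 64 : ℝ) / 32)) := pref_sqrt hr hr' _
      _ ≤ a' / a * (16396 * C * ((D + 64 : ℝ) / 32)) := by gcongr
      _ ≤ _ := by
          refine mul_le_mul_of_nonneg_left ?_ (by positivity)
          unfold K3
          have : 0 ≤ C * ((D : ℝ) + 64) := by positivity
          linarith
  · refine WLe.mono hB (ENNReal.ofReal_le_ofReal ?_)
    calc 9 * (4102 * C * t) * (a' * Real.sqrt r' / (a * Real.sqrt r))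
        = a' * Real.sqrt r' / (a * Real.sqrt r) *
          ((36918 * C * ((D + 64) / 32)) * ((r : ℝ) / r')) := by rw [hte]; ring
      _ = a' / a * ((36918 * C * ((D + 64) / 32)) * Real.sqrt ((r : ℝ) / r')) := pref hr hr' _
      _ ≤ _ := by
          refine mul_le_mul_of_nonneg_left (mul_le_mul_of_nonneg_right ?_ (Real.sqrt_nonneg _))
            (by positivity)
          unfold K3
          have : 0 ≤ C * ((D : ℝ) + 64) := by positivity
          linarith

end Crest.Agent.R165.RegGx893
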