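import Mathlib
import Crest.Agent.R165.Tr1_40
import Crest.Agent.R165.PotB_894

/-!
# Interior estimates for exact solutions in a plane gauge box (row 165, block R, LIM-a; helper811)

`w = xc` on a box and `A w φ = 0` there.
* `adj_*` : adjugate identities `-2 x² Δ φ_a = ∑ adj_ab (A φ)_b`;
* `harm`  : every component is 5-point harmonic;
* `sup_est`, `D_est`, `DD_est` : interior estimates;
* `heavy_eq`, `heavy_est` : the heavy part is a first difference;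
* `cr1`, `cr2` : discrete Cauchy-Riemann equations of the light amplitude `E - i W`.
-/

set_option autoImplicit false

noncomputable section

namespace Crest.Agent.R165.Intx811

open Finset Crest.Agent.R165.Tr1x40 Crest.Agent.R165.PotAx894 Crest.Agent.R165.PotBx894

/-- constant critical weight -/
def wc : Fld := fun _ _ => xc

section adj

variable (x : ℝ) (S E N W : ℤ → ℤ → ℝ)

/-- row `S` with constant weight `x` -/
def rS (i j : ℤ) : ℝ := E i j + N i j + W i j + x * N i (j-1)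
/-- row `E` -/
def rE (i j : ℤ) : ℝ := -S i j + N i j + W i j + x * W (i+1) j
/-- row `N` -/
def rN (i j : ℤ) : ℝ := -S i j - E i j + W i j - x * S i (j+1)
/-- row `W` -/
def rW (i j : ℤ) : ℝ := -S i j - E i j - N i j - x * E (i-1) j

variable {x}

theorem adj_S (hx : x ^ 2 + 2 * x - 1 = 0) (i j : ℤ) :
    -2 * x ^ 2 * (S (i+1) j + S (i-1) j + S i (j+1) + S i (j-1) - 4 * S i j)
    = (-1*x)*rS x E N W (i-1) j
      + (1*x)*rS x E N W (i+1) j
      + (1*x)*rE x S N W (i-1) j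
      + (1*x)*rE x S N W i (j-1)
      + (-1)*rE x S N W i j
      + (1 + -2*x)*rE x S N W (i-1) (j-1)
      + (2 + -6*x)*rN x S E W i (j-1)
      + (2*x)*rN x S E W i j
      + (-1 + 2*x)*rN x S E W (i-1) (j-1)
      + (-1 + 2*x)*rN x S E W (i+1) (j-1)
      + (1*x)*rW x S E N (i+1) j
      + (1*x)*rW x S E N i (j-1)
      + (-1)*rW x S E N i j
      + (1 + -2*x)*rW x S E N (i+1) (j-1) := by
  simp only [rS, rE, rN, rW, add_sub_cancel_right, sub_add_cancel]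
  linear_combination (-1) * ((2)*S i (j-1) + (-2)*S i j + (-1)*E (i-1) (j-1) + (2)*E i (j-1) + (-1)*E i j + (-1)*N (i-1) (j-1) + (1)*N (i+1) (j-1) + (-2)*W i (j-1) + (1)*W i j + (1)*W (i+1) (j-1))*hx

theorem adj_E (hx : x ^ 2 + 2 * x - 1 = 0) (i j : ℤ) :
    -2 * x ^ 2 * (E (i+1) j + E (i-1) j + E i (j+1) + E i (j-1) - 4 * E i j)
    = (1)*rS x E N W i j
      + (-1*x)*rS x E N W i (j+1)
      + (-1*x)*rS x E N W (i+1) j
      + (-1 + 2*x)*rS x E N W (i+1) (j+1)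
      + (-1*x)*rE x S N W i (j-1)
      + (1*x)*rE x S N W i (j+1)
      + (1*x)*rN x S E W (i+1) j
      + (1*x)*rN x S E W i (j-1)
      + (-1)*rN x S E W i j
      + (1 + -2*x)*rN x S E W (i+1) (j-1)
      + (2 + -6*x)*rW x S E N (i+1) j
      + (-1 + 2*x)*rW x S E N (i+1) (j+1)
      + (2*x)*rW x S E N i j
      + (-1 + 2*x)*rW x S E N (i+1) (j-1) := by
  simp only [rS, rE, rN, rW, add_sub_cancel_right, sub_add_cancel]
  linear_combination (-1) * ((-1)*S i j + (2)*S (i+1) j + (-1)*S (i+1) (j+1) + (-2)*E i j + (2)*E (i+1) j + (-1)*N i j + (-1)*N (i+1) (j-1) + (2)*N (i+1) j + (-1)*W (i+1) (j-1) + (1)*W (i+1) (j+1))*hx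

theorem adj_N (hx : x ^ 2 + 2 * x - 1 = 0) (i j : ℤ) :
    -2 * x ^ 2 * (N (i+1) j + N (i-1) j + N i (j+1) + N i (j-1) - 4 * N i j)
    = (-2 + 6*x)*rS x E N W i (j+1)
      + (1 + -2*x)*rS x E N W (i-1) (j+1)
      + (-2*x)*rS x E N W i j
      + (1 + -2*x)*rS x E N W (i+1) (j+1)
      + (-1*x)*rE x S N W (i-1) j
      + (-1*x)*rE x S N W i (j+1)
      + (1)*rE x S N W i j
      + (-1 + 2*x)*rE x S N W (i-1) (j+1)
      + (-1*x)*rN x S E W (i+1) j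
      + (1*x)*rN x S E W (i-1) j
      + (1*x)*rW x S E N i (j+1)
      + (1*x)*rW x S E N (i+1) j
      + (-1)*rW x S E N i j
      + (1 + -2*x)*rW x S E N (i+1) (j+1) := by
  simp only [rS, rE, rN, rW, add_sub_cancel_right, sub_add_cancel]
  linear_combination (-1) * ((-1)*S (i-1) (j+1) + (1)*S (i+1) (j+1) + (-1)*E (i-1) (j+1) + (-1)*E i j + (2)*E i (j+1) + (-2)*N i j + (2)*N i (j+1) + (-1)*W i j + (2)*W i (j+1) + (-1)*W (i+1) (j+1))*hx

theorem adj_W (hx : x ^ 2 + 2 * x - 1 = 0) (i j : ℤ) :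
    -2 * x ^ 2 * (W (i+1) j + W (i-1) j + W i (j+1) + W i (j-1) - 4 * W i j)
    = (-1*x)*rS x E N W (i-1) j
      + (-1*x)*rS x E N W i (j+1)
      + (1)*rS x E N W i j
      + (-1 + 2*x)*rS x E N W (i-1) (j+1)
      + (-2 + 6*x)*rE x S N W (i-1) j
      + (1 + -2*x)*rE x S N W (i-1) (j+1)
      + (1 + -2*x)*rE x S N W (i-1) (j-1)
      + (-2*x)*rE x S N W i j
      + (1)*rN x S E W i j
      + (-1*x)*rN x S E W (i-1) j
      + (-1*x)*rN x S E W i (j-1)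
      + (-1 + 2*x)*rN x S E W (i-1) (j-1)
      + (-1*x)*rW x S E N i (j+1)
      + (1*x)*rW x S E N i (j-1) := by
  simp only [rS, rE, rN, rW, add_sub_cancel_right, sub_add_cancel]
  linear_combination (-1) * ((-2)*S (i-1) j + (1)*S (i-1) (j+1) + (1)*S i j + (-1)*E (i-1) (j-1) + (1)*E (i-1) (j+1) + (-1)*N (i-1) (j-1) + (2)*N (i-1) j + (-1)*N i j + (2)*W (i-1) j + (-2)*W i j)*hx


end adj

theorem xc_rel : xc ^ 2 + 2 * xc - 1 = 0 := by have := xc_sq; linarith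

/-- the component functions -/
def cmp (φ : Fld) (a : Fin 4) (i j : ℤ) : ℝ := φ (i, j) a

theorem A_rS {w φ : Fld} {i j : ℤ} (h : w (i, j) 0 = xc) :
    A w φ (i, j) 0 = rS xc (cmp φ 1) (cmp φ 2) (cmp φ 3) i j := by
  rw [A_S, h]; rfl

theorem A_rE {w φ : Fld} {i j : ℤ} (h : w (i, j) 1 = xc) :
    A w φ (i, j) 1 = rE xc (cmp φ 0) (cmp φ 2) (cmp φ 3) i j := by
  rw [A_E, h]; rfl

theorem A_rN {w φ : Fld} {i j : ℤ} (h : w (i, j) 2 = xc) :
    A w φ (i, j) 2 = rN xc (cmp φ 0) (cmp φ 1) (cmp φ 3) i j := by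
  rw [A_N, h]; rfl

theorem A_rW {w φ : Fld} {i j : ℤ} (h : w (i, j) 3 = xc) :
    A w φ (i, j) 3 = rW xc (cmp φ 0) (cmp φ 1) (cmp φ 2) i j := by
  rw [A_W, h]; rfl

theorem lap_cmp (φ : Fld) (a : Fin 4) (i j : ℤ) :
    lap (fun f => φ f a) (i, j) = cmp φ a (i+1) j + cmp φ a (i-1) j + cmp φ a i (j+1)
      + cmp φ a i (j-1) - 4 * cmp φ a i j := by
  simp [lap, cmp, e1, e2]

/-- every component of an exact solution is 5-point harmonic -/
theorem harm {w φ : Fld} {c : ℤ × ℤ} {r : ℕ} (hw : ∀ f ∈ Q c (r+1), ∀ h, w f h = xc)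
    (he : ∀ f ∈ Q c (r+1), ∀ h, A w φ f h = 0) (a : Fin 4) : Harm (fun f => φ f a) c r := by
  rintro ⟨i, j⟩ hz
  rw [mem_Q] at hz
  obtain ⟨h1, h2⟩ := hz
  simp only at h1 h2
  have mem : ∀ s t : ℤ, |s| ≤ 1 → |t| ≤ 1 → (i + s, j + t) ∈ Q c (r+1) := by
    intro s t hs ht
    rw [mem_Q]
    simp only [abs_le] at h1 h2 hs ht ⊢
    push_cast
    refine ⟨⟨?_, ?_⟩, ?_, ?_⟩ <;> linarith [h1.1, h1.2, h2.1, h2.2, hs.1, hs.2, ht.1, ht.2]
  have hS : ∀ s t : ℤ, |s| ≤ 1 → |t| ≤ 1 →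
      rS xc (cmp φ 1) (cmp φ 2) (cmp φ 3) (i+s) (j+t) = 0 := fun s t hs ht => by
    rw [← A_rS (w := w) (hw _ (mem s t hs ht) 0)]; exact he _ (mem s t hs ht) 0
  have hE : ∀ s t : ℤ, |s| ≤ 1 → |t| ≤ 1 →
      rE xc (cmp φ 0) (cmp φ 2) (cmp φ 3) (i+s) (j+t) = 0 := fun s t hs ht => by
    rw [← A_rE (w := w) (hw _ (mem s t hs ht) 1)]; exact he _ (mem s t hs ht) 1
  have hN : ∀ s t : ℤ, |s| ≤ 1 → |t| ≤ 1 →
      rN xc (cmp φ 0) (cmp φ 1) (cmp φ 3) (i+s) (j+t) = 0 := fun s t hs ht => by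
    rw [← A_rN (w := w) (hw _ (mem s t hs ht) 2)]; exact he _ (mem s t hs ht) 2
  have hW : ∀ s t : ℤ, |s| ≤ 1 → |t| ≤ 1 →
      rW xc (cmp φ 0) (cmp φ 1) (cmp φ 2) (i+s) (j+t) = 0 := fun s t hs ht => by
    rw [← A_rW (w := w) (hw _ (mem s t hs ht) 3)]; exact he _ (mem s t hs ht) 3
  have i1 : |(1:ℤ)| ≤ 1 := by norm_num
  have i0 : |(0:ℤ)| ≤ 1 := by norm_num
  have im : |(-1:ℤ)| ≤ 1 := by norm_num
  have a00 := And.intro (And.intro (hS 0 0 i0 i0) (hE 0 0 i0 i0)) (And.intro (hN 0 0 i0 i0) (hW 0 0 i0 i0))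
  have a10 := And.intro (And.intro (hS 1 0 i1 i0) (hE 1 0 i1 i0)) (And.intro (hN 1 0 i1 i0) (hW 1 0 i1 i0))
  have am0 := And.intro (And.intro (hS (-1) 0 im i0) (hE (-1) 0 im i0)) (And.intro (hN (-1) 0 im i0) (hW (-1) 0 im i0))
  have a01 := And.intro (And.intro (hS 0 1 i0 i1) (hE 0 1 i0 i1)) (And.intro (hN 0 1 i0 i1) (hW 0 1 i0 i1))
  have a0m := And.intro (And.intro (hS 0 (-1) i0 im) (hE 0 (-1) i0 im)) (And.intro (hN 0 (-1) i0 im) (hW 0 (-1) i0 im))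
  have a11 := And.intro (And.intro (hS 1 1 i1 i1) (hE 1 1 i1 i1)) (And.intro (hN 1 1 i1 i1) (hW 1 1 i1 i1))
  have a1m := And.intro (And.intro (hS 1 (-1) i1 im) (hE 1 (-1) i1 im)) (And.intro (hN 1 (-1) i1 im) (hW 1 (-1) i1 im))
  have am1 := And.intro (And.intro (hS (-1) 1 im i1) (hE (-1) 1 im i1)) (And.intro (hN (-1) 1 im i1) (hW (-1) 1 im i1))
  have amm := And.intro (And.intro (hS (-1) (-1) im im) (hE (-1) (-1) im im)) (And.intro (hN (-1) (-1) im im) (hW (-1) (-1) im im))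
  simp only [add_zero, ← sub_eq_add_neg] at a00 a10 am0 a01 a0m a11 a1m am1 amm
  obtain ⟨⟨b1, b2⟩, b3, b4⟩ := a00
  obtain ⟨⟨c1, c2⟩, c3, c4⟩ := a10
  obtain ⟨⟨d1, d2⟩, d3, d4⟩ := am0
  obtain ⟨⟨f1, f2⟩, f3, f4⟩ := a01
  obtain ⟨⟨g1, g2⟩, g3, g4⟩ := a0m
  obtain ⟨⟨k1, k2⟩, k3, k4⟩ := a11
  obtain ⟨⟨l1, l2⟩, l3, l4⟩ := a1m
  obtain ⟨⟨m1, m2⟩, m3, m4⟩ := am1
  obtain ⟨⟨n1, n2⟩, n3, n4⟩ := amm
  have hx := xc_pos
  have fin : ∀ L : ℝ, -2 * xc ^ 2 * L = 0 → L = 0 := by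
    intro L hL
    have : -2 * xc ^ 2 ≠ 0 := by
      have : 0 < xc ^ 2 := by positivity
      linarith
    exact (mul_eq_zero.1 hL).resolve_left this
  rw [lap_cmp]
  apply fin
  fin_cases a
  · refine (adj_S (x := xc) (cmp φ 0) (cmp φ 1) (cmp φ 2) (cmp φ 3) xc_rel i j).trans ?_
    simp only [*, mul_zero, add_zero]
  · refine (adj_E (x := xc) (cmp φ 0) (cmp φ 1) (cmp φ 2) (cmp φ 3) xc_rel i j).trans ?_
    simp only [*, mul_zero, add_zero]
  · refine (adj_N (x := xc) (cmp φ 0) (cmp φ 1) (cmp φ 2) (cmp φ 3) xc_rel i j).trans ?_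
    simp only [*, mul_zero, add_zero]
  · refine (adj_W (x := xc) (cmp φ 0) (cmp φ 1) (cmp φ 2) (cmp φ 3) xc_rel i j).trans ?_
    simp only [*, mul_zero, add_zero]

/-- squared `l²` mass on a box -/
def mass (φ : Fld) (c : ℤ × ℤ) (r : ℕ) : ℝ := ∑ f ∈ Q c r, nsq (φ f)

theorem mass_nonneg (φ : Fld) (c : ℤ × ℤ) (r : ℕ) : 0 ≤ mass φ c r :=
  sum_nonneg fun _ _ => nsq_nonneg _

theorem comp_le_mass (φ : Fld) (c : ℤ × ℤ) (r : ℕ) (a : Fin 4) :
    ∑ f ∈ Q c r, φ f a ^ 2 ≤ mass φ c r := by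
  apply sum_le_sum
  intro f _
  exact single_le_sum (f := fun b => φ f b ^ 2) (fun _ _ => sq_nonneg _) (mem_univ a)

/-- sup bound, `z ∈ Q c (r/4)`. -/
theorem sup_est {φ : Fld} {c : ℤ × ℤ} {r : ℕ} (hr : 0 < r) {a : Fin 4}
    (h : Harm (fun f => φ f a) c (r - 1)) {z : ℤ × ℤ} (hz : z ∈ Q c (r / 4)) :
    φ z a ^ 2 ≤ 113729 / (r : ℝ) ^ 2 * mass φ c r :=
  (interior_sq hr h hz).trans
    (mul_le_mul_of_nonneg_left (comp_le_mass φ c r a) (by positivity))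

/-- gradient bound, `z ∈ Q c (r/2/4)`. -/
theorem D_est {φ : Fld} {c : ℤ × ℤ} {r : ℕ} (hr : 2 ≤ r) {a : Fin 4}
    (h : Harm (fun f => φ f a) c (r - 1)) {z : ℤ × ℤ} (hz : z ∈ Q c (r / 2 / 4)) :
    D1 (fun f => φ f a) z ^ 2 + D2 (fun f => φ f a) z ^ 2
      ≤ 147392784 / (r : ℝ) ^ 4 * mass φ c r :=
  (interior_D_sq hr h hz).trans
    (mul_le_mul_of_nonneg_left (comp_le_mass φ c r a) (by positivity))

/-- all orders, pointwise at the centre -/
theorem pt_est (l : List Bool) : ∃ C : ℝ, 0 < C ∧ ∀ (φ : Fld) (c : ℤ × ℤ) (r : ℕ) (a : Fin 4),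
    4 * (l.length + 1) ≤ r → Harm (fun f => φ f a) c (r - 1) →
    |DL l (fun f => φ f a) c| ≤ C / (r : ℝ) ^ (l.length + 1) * Real.sqrt (mass φ c r) := by
  obtain ⟨C, hC, H⟩ := interior_sup l
  refine ⟨C * 8 ^ l.length * 338, by positivity, ?_⟩
  intro φ c r a hr h
  have hr0 : 0 < r := by omega
  have hr0' : (0:ℝ) < r := by exact_mod_cast hr0
  have hs0 : 0 < r / 4 := by omega
  have hs0' : (0:ℝ) < ((r / 4 : ℕ) : ℝ) := by exact_mod_cast hs0
  have hM : ∀ z ∈ Q c (r/4), |φ z a| ≤ 338 / r * Real.sqrt (mass φ c r) := by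
    intro z hz
    have h1 := sup_est hr0 h hz
    have h2 : (338 / (r:ℝ) * Real.sqrt (mass φ c r)) ^ 2 = 114244 / (r:ℝ)^2 * mass φ c r := by
      rw [mul_pow, Real.sq_sqrt (mass_nonneg φ c r), div_pow]; norm_num
    have h3 : φ z a ^ 2 ≤ (338 / (r:ℝ) * Real.sqrt (mass φ c r)) ^ 2 := by
      rw [h2]
      refine h1.trans (mul_le_mul_of_nonneg_right ?_ (mass_nonneg φ c r))
      gcongr
      norm_num
    exact abs_le_of_sq_le_sq h3 (by positivity) |> fun h => h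
  have h4 := H (fun f => φ f a) c (r/4) _ hs0 (by omega) (h.mono (by omega)) hM
  refine h4.trans ?_
  have h5 : C / ((r / 4 : ℕ) : ℝ) ^ l.length ≤ C * 8 ^ l.length / (r:ℝ) ^ l.length := by
    rw [div_le_div_iff₀ (by positivity) (by positivity)]
    have h6 : (r : ℝ) ≤ 8 * ((r / 4 : ℕ) : ℝ) := by
      have : r ≤ 8 * (r / 4) := by omega
      exact_mod_cast this
    have h7 : (r : ℝ) ^ l.length ≤ (8 * ((r / 4 : ℕ) : ℝ)) ^ l.length :=
      pow_le_pow_left₀ hr0'.le h6 _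
    rw [mul_pow] at h7
    calc C * (r : ℝ) ^ l.length ≤ C * (8 ^ l.length * ((r / 4 : ℕ) : ℝ) ^ l.length) :=
          mul_le_mul_of_nonneg_left h7 hC.le
      _ = C * 8 ^ l.length * ((r / 4 : ℕ) : ℝ) ^ l.length := by ring
  calc C / ((r / 4 : ℕ) : ℝ) ^ l.length * (338 / r * Real.sqrt (mass φ c r))
      ≤ C * 8 ^ l.length / (r:ℝ) ^ l.length * (338 / r * Real.sqrt (mass φ c r)) :=
        mul_le_mul_of_nonneg_right h5 (by positivity)
    _ = C * 8 ^ l.length * 338 / (r : ℝ) ^ (l.length + 1) * Real.sqrt (mass φ c r) := by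
        rw [pow_succ]; field_simp

section rel

variable {w φ : Fld} {f : Face}

theorem add_e1_eq (f : Face) : f + e1 = (f.1 + 1, f.2) := by ext <;> simp [e1]
theorem add_e2_eq (f : Face) : f + e2 = (f.1, f.2 + 1) := by ext <;> simp [e2]
theorem sub_e1_eq (f : Face) : f - e1 = (f.1 - 1, f.2) := by ext <;> simp [e1]
theorem sub_e2_eq (f : Face) : f - e2 = (f.1, f.2 - 1) := by ext <;> simp [e2]

theorem mk_e1_eq (f : Face) : ((f.1 - 1, f.2) : Face) + e1 = f := by ext <;> simp [e1]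
theorem mk_e2_eq (f : Face) : ((f.1, f.2 - 1) : Face) + e2 = f := by ext <;> simp [e2]

theorem xc_sqrt : xc * Real.sqrt 2 = 2 - Real.sqrt 2 := by
  have hx : xc = Real.sqrt 2 - 1 := rfl
  have hs := sq2
  rw [hx]; nlinarith

/-- first Cauchy-Riemann row -/
theorem cr1 (hw : ∀ h, w f h = xc) (he : ∀ h, A w φ f h = 0) :
    D1 (fun g => φ g 3) f
      + Real.sqrt 2 / 2 * (D2 (fun g => φ g 2) (f - e2) + D2 (fun g => φ g 0) f) = 0 := by
  have h0 := he 0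
  have h1 := he 1
  have h2 := he 2
  rw [A_S, hw] at h0
  rw [A_E, hw] at h1
  rw [A_N, hw] at h2
  simp only [D1, D2, add_e1_eq, sub_e2_eq, add_e2_eq, sub_add_cancel, Prod.mk.eta]
  have hx : xc = Real.sqrt 2 - 1 := rfl
  have hx0 := xc_pos
  have hxx := xc_sqrt
  apply mul_left_cancel₀ hx0.ne'
  rw [mul_zero]
  linear_combination h1 - Real.sqrt 2 / 2 * h0 - Real.sqrt 2 / 2 * h2 - φ f 3 * hx
    + (φ f 2 - φ f 0) / 2 * hxx

/-- second Cauchy-Riemann row -/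
theorem cr2 (hw : ∀ h, w f h = xc) (he : ∀ h, A w φ f h = 0) :
    D1 (fun g => φ g 1) (f - e1)
      - Real.sqrt 2 / 2 * (D2 (fun g => φ g 2) (f - e2) - D2 (fun g => φ g 0) f) = 0 := by
  have h0 := he 0
  have h3 := he 3
  have h2 := he 2
  rw [A_S, hw] at h0
  rw [A_W, hw] at h3
  rw [A_N, hw] at h2
  simp only [D1, D2, sub_e2_eq, sub_e1_eq, mk_e1_eq, add_e2_eq, sub_add_cancel, Prod.mk.eta]
  have hx : xc = Real.sqrt 2 - 1 := rfl
  have hx0 := xc_pos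
  have hxx := xc_sqrt
  apply mul_left_cancel₀ hx0.ne'
  rw [mul_zero]
  linear_combination h3 + Real.sqrt 2 / 2 * h0 - Real.sqrt 2 / 2 * h2 + φ f 1 * hx
    - (φ f 2 + φ f 0) / 2 * hxx

/-- the four first differences entering the rows -/
def dif (φ : Fld) (f : Face) : Fin 4 → ℝ :=
  ![-(D2 (fun g => φ g 2) (f - e2)), D1 (fun g => φ g 3) f, -(D2 (fun g => φ g 0) f),
    D1 (fun g => φ g 1) (f - e1)]

/-- `A(0)` at zero momentum -/
def Az (p : Fin 4 → ℝ) : Fin 4 → ℝ :=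
  ![p 1 + Real.sqrt 2 * p 2 + p 3, -p 0 + p 2 + Real.sqrt 2 * p 3,
    -(Real.sqrt 2 * p 0) - p 1 + p 3, -p 0 - Real.sqrt 2 * p 1 - p 2]

/-- rows = `A(0)` + first differences -/
theorem A_dif (hw : ∀ h, w f h = xc) (h : Fin 4) :
    A w φ f h = Az (φ f) h + xc * dif φ f h := by
  have hx : xc = Real.sqrt 2 - 1 := rfl
  fin_cases h
  · show A w φ f 0 = _
    rw [A_S, hw]
    simp only [Az, dif, D2, sub_e2_eq, mk_e2_eq]
    simp only [Fin.zero_eta, Matrix.cons_val_zero]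
    linear_combination φ f 2 * hx
  · show A w φ f 1 = _
    rw [A_E, hw]
    simp only [Az, dif, D1, add_e1_eq]
    simp only [Fin.mk_one, Matrix.cons_val_one, Matrix.cons_val_zero]
    linear_combination φ f 3 * hx
  · show A w φ f 2 = _
    rw [A_N, hw]
    simp only [Az, dif, D2, add_e2_eq, Fin.reduceFinMk, Matrix.cons_val]
    linear_combination -φ f 0 * hx
  · show A w φ f 3 = _
    rw [A_W, hw]
    simp only [Az, dif, D1, sub_e1_eq, mk_e1_eq, Fin.reduceFinMk, Matrix.cons_val]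
    linear_combination -φ f 1 * hx

theorem Az_Az (p : Fin 4 → ℝ) (h : Fin 4) : Az (Az p) h = -8 * Ph p h := by
  have h2 := sq2
  fin_cases h
  · simp only [Fin.zero_eta, Az, Ph, Matrix.cons_val_zero, Matrix.cons_val, inv_2sq2]
    linear_combination (-(p 0) + 0 * p 1) * h2
  · simp only [Fin.mk_one, Az, Ph, Matrix.cons_val_one, Matrix.cons_val_zero, Matrix.cons_val, inv_2sq2]
    linear_combination (-(p 1)) * h2
  · simp only [Fin.reduceFinMk, Az, Ph, Matrix.cons_val, inv_2sq2]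
    linear_combination (-(p 2)) * h2
  · simp only [Fin.reduceFinMk, Az, Ph, Matrix.cons_val, inv_2sq2]
    linear_combination (-(p 3)) * h2

theorem Az_neg (p : Fin 4 → ℝ) (c : ℝ) (h : Fin 4) : Az (fun k => c * p k) h = c * Az p h := by
  fin_cases h <;> simp [Az] <;> ring

/-- the heavy part of an exact solution is a first difference -/
theorem heavy_eq (hw : ∀ h, w f h = xc) (he : ∀ h, A w φ f h = 0) (h : Fin 4) :
    Ph (φ f) h = xc / 8 * Az (dif φ f) h := by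
  have h1 : Az (φ f) = fun k => -xc * dif φ f k := by
    ext k
    have := A_dif (φ := φ) hw k
    rw [he k] at this
    linarith
  have h2 := Az_Az (φ f) h
  rw [h1, Az_neg] at h2
  linarith

theorem nsq_Az_le (p : Fin 4 → ℝ) : nsq (Az p) ≤ 8 * nsq p := by
  have h2 := sq2
  have e : 8 * nsq p - nsq (Az p) = 8 * nsq (Pl p) := by
    rw [← lt_eq_nsq]
    simp only [lt, nsq_eq, cyc, div_sq2, Az, Matrix.cons_val_zero, Matrix.cons_val_one,
      Matrix.cons_val]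
    linear_combination (-(p 0 ^ 2 + p 1 ^ 2 + p 2 ^ 2 + p 3 ^ 2)) * h2
  have := nsq_nonneg (Pl p)
  linarith

/-- `|P_h φ_f|² ≤ x²/8 |dif|²` -/
theorem heavy_est (hw : ∀ h, w f h = xc) (he : ∀ h, A w φ f h = 0) :
    hv (φ f) ≤ xc ^ 2 / 8 * nsq (dif φ f) := by
  rw [hv_eq_nsq]
  have e : nsq (Ph (φ f)) = xc ^ 2 / 64 * nsq (Az (dif φ f)) := by
    simp only [nsq_eq, heavy_eq hw he]
    ring
  rw [e]
  have h1 := nsq_Az_le (dif φ f)
  have : 0 ≤ xc ^ 2 / 64 := by positivity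
  calc xc ^ 2 / 64 * nsq (Az (dif φ f)) ≤ xc ^ 2 / 64 * (8 * nsq (dif φ f)) :=
        mul_le_mul_of_nonneg_left h1 this
    _ = xc ^ 2 / 8 * nsq (dif φ f) := by ring

end rel

end Crest.Agent.R165.Intx811
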