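import Crest.Agent.R165.Tr1_40

/-!
# Row 165 (S0250), block R, leaf R-a, part 2

* `C2`: conservation law from the antisymmetry of `A0`, antisymmetry of `A`;
* `A_cut`: commutator with a cut-off; `A_gauge`: gauge transformations;
* `B x`: the adjugate of the plane operator with constant weight `x`, an antisymmetric operator
  of range one with `B (A φ) = x (1 - x²) (-Δ φ) + (x² + 2x - 1)² φ`  (`B_A`), so
  `B (A φ) = c0 (-Δ φ)` at `x = x_c`;
* `grad_le`: `|∇φ|² ≤ C |A φ|²` for finitely supported fields of the plane.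
-/

set_option autoImplicit false
set_option linter.unusedSimpArgs false

noncomputable section

namespace Crest.Agent.R165.Tr2x40

open Finset Crest.Agent.R165.Tr1x40

/-! ### antisymmetry, second conservation law -/

/-- `⟨p, A0 q⟩ = - ⟨A0 p, q⟩` -/
theorem A0_antisymm (p q : Fin 4 → ℝ) : ∑ h, p h * A0 q h = -∑ h, A0 p h * q h := by
  simp only [Fin.sum_univ_four, A0_zero, A0_one, A0_two, A0_three]; ring

theorem A0_self (p : Fin 4 → ℝ) : ∑ h, p h * A0 p h = 0 := by
  simp only [Fin.sum_univ_four, A0_zero, A0_one, A0_two, A0_three]; ring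

/-- **(C2)** `∑_h φ_h (Y φ)_h = ⟨φ, A φ⟩` at every face -/
theorem C2 (w φ : Fld) (f : Face) : ∑ h, φ f h * Y w φ f h = ∑ h, φ f h * A w φ f h := by
  have : ∑ h, φ f h * A w φ f h = ∑ h, φ f h * A0 (φ f) h + ∑ h, φ f h * Y w φ f h := by
    rw [← sum_add_distrib]; exact sum_congr rfl fun h _ => by simp only [A]; ring
  rw [this, A0_self, zero_add]

/-- the same written with the flux `J'(f → nb f h) = sg h * w f h * φ f h * φ (nb f h) (op h)`,
which is antisymmetric: `J' (bar) = - J'` -/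
def J' (w φ : Fld) (f : Face) (h : Fin 4) : ℝ := sg h * w f h * (φ f h * φ (nb f h) (op h))

theorem J'_bar {w : Fld} (hw : Sym w) (φ : Fld) (f : Face) (h : Fin 4) :
    J' w φ (nb f h) (op h) = -J' w φ f h := by
  simp only [J', nb_nb_op, op_op, sg_op, hw f h]; ring

theorem C2' (w φ : Fld) (f : Face) : ∑ h, J' w φ f h = ∑ h, φ f h * A w φ f h := by
  rw [← C2]; exact sum_congr rfl fun h _ => by simp only [J', Y]; ring

/-- antisymmetry of `A` -/
theorem A_antisymm {w : Fld} (hw : Sym w) (φ ψ : Fld) (K : Finset Face)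
    (h1 : ∀ f, f ∉ K → ∀ h, φ f h = 0)
    (h2 : ∀ f, f ∉ K → ∀ h, w f h * φ (nb f h) (op h) = 0) :
    ∑ f ∈ K, ∑ h, φ f h * A w ψ f h = -∑ f ∈ K, ∑ h, A w φ f h * ψ f h := by
  have key : ∑ f ∈ K, ∑ h, sg h * w f h * φ f h * ψ (nb f h) (op h)
      = -∑ f ∈ K, ∑ h, sg h * w f h * φ (nb f h) (op h) * ψ f h := by
    have := sum_bar K (fun f h => sg h * w f h * φ (nb f h) (op h) * ψ f h)
      (fun f hf h => by
        have := h2 f hf h
        linear_combination (sg h * ψ f h) * this)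
      (fun f hf h => by
        rw [nb_nb_op, op_op, h1 f hf]; ring)
    rw [← this, ← sum_neg_distrib]
    refine sum_congr rfl fun f _ => ?_
    rw [← sum_neg_distrib]
    refine sum_congr rfl fun h _ => ?_
    rw [nb_nb_op, op_op, sg_op, hw f h]; ring
  have e1 : ∀ f, ∑ h, φ f h * A w ψ f h
      = ∑ h, φ f h * A0 (ψ f) h + ∑ h, sg h * w f h * φ f h * ψ (nb f h) (op h) := by
    intro f
    rw [← sum_add_distrib]; exact sum_congr rfl fun h _ => by simp only [A, Y]; ring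
  have e2 : ∀ f, ∑ h, A w φ f h * ψ f h
      = ∑ h, A0 (φ f) h * ψ f h + ∑ h, sg h * w f h * φ (nb f h) (op h) * ψ f h := by
    intro f
    rw [← sum_add_distrib]; exact sum_congr rfl fun h _ => by simp only [A, Y]; ring
  rw [sum_congr rfl fun f _ => e1 f, sum_congr rfl fun f _ => e2 f, sum_add_distrib,
    sum_add_distrib, key, sum_congr rfl fun f _ => A0_antisymm (φ f) (ψ f), sum_neg_distrib]
  ring

/-! ### linearity, cut-offs, gauge -/

theorem A0_add (p q : Fin 4 → ℝ) (h : Fin 4) : A0 (fun k => p k + q k) h = A0 p h + A0 q h := by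
  fin_cases h <;> simp [A0] <;> ring

theorem A0_smul (c : ℝ) (p : Fin 4 → ℝ) (h : Fin 4) : A0 (fun k => c * p k) h = c * A0 p h := by
  fin_cases h <;> simp [A0] <;> ring

theorem A_add (w φ ψ : Fld) (f : Face) (h : Fin 4) :
    A w (fun f h => φ f h + ψ f h) f h = A w φ f h + A w ψ f h := by
  simp only [A, Y, A0_add]; ring

theorem A_smul (w : Fld) (c : ℝ) (φ : Fld) (f : Face) (h : Fin 4) :
    A w (fun f h => c * φ f h) f h = c * A w φ f h := by
  simp only [A, Y, A0_smul]; ring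

/-- commutator with a cut-off -/
theorem A_cut (w : Fld) (c : Face → ℝ) (φ : Fld) (f : Face) (h : Fin 4) :
    A w (fun f h => c f * φ f h) f h
      = c f * A w φ f h + sg h * w f h * ((c (nb f h) - c f) * φ (nb f h) (op h)) := by
  simp only [A, Y, A0_smul]; ring

/-- gauge transformation of weights -/
def gw (g : Face → ℝ) (w : Fld) : Fld := fun f h => g f * w f h * g (nb f h)

theorem sym_gw (g : Face → ℝ) {w : Fld} (hw : Sym w) : Sym (gw g w) := by
  intro f h; simp only [gw, nb_nb_op, hw f h]; ring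

/-- gauge covariance of `A` (only `g (nb f h) ^ 2 = 1` at the given face is needed) -/
theorem A_gauge (g : Face → ℝ) (w φ : Fld) (f : Face) (h : Fin 4)
    (hg : g (nb f h) ^ 2 = 1) :
    A (gw g w) (fun f h => g f * φ f h) f h = g f * A w φ f h := by
  simp only [A, Y, A0_smul, gw]
  linear_combination (sg h * g f * w f h * φ (nb f h) (op h)) * hg

/-- changing the weights locally -/
theorem A_congr {w w' : Fld} (φ : Fld) (f : Face) (h : Fin 4) (hw : w f h = w' f h) :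
    A w φ f h = A w' φ f h := by simp only [A, Y, hw]

theorem A_congr_field (w : Fld) {φ φ' : Fld} (f : Face) (h : Fin 4)
    (h0 : φ f = φ' f) (h1 : φ (nb f h) (op h) = φ' (nb f h) (op h)) :
    A w φ f h = A w φ' f h := by simp only [A, Y, h0, h1]

/-! ### the adjugate -/

/-- constant weights -/
def cst (x : ℝ) : Fld := fun _ _ => x

theorem sym_cst (x : ℝ) : Sym (cst x) := fun _ _ => rfl

/-- the adjugate of the plane operator with constant weight `x` -/
def B (x : ℝ) (ψ : Fld) (f : Face) (h : Fin 4) : ℝ :=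
  match h with
  | 0 => x * (ψ (f.1 + 1, f.2) 0 - ψ (f.1 - 1, f.2) 0)
      + (x * ψ (f.1 - 1, f.2) 1 + x * ψ (f.1, f.2 - 1) 1 + x ^ 2 * ψ (f.1 - 1, f.2 - 1) 1
          - ψ f 1)
      + ((1 - x ^ 2) * ψ f 2 - (x + x ^ 3) * ψ (f.1, f.2 - 1) 2
          - x ^ 2 * ψ (f.1 - 1, f.2 - 1) 2 - x ^ 2 * ψ (f.1 + 1, f.2 - 1) 2)
      + (x * ψ (f.1 + 1, f.2) 3 + x * ψ (f.1, f.2 - 1) 3 + x ^ 2 * ψ (f.1 + 1, f.2 - 1) 3
          - ψ f 3)
  | 1 => (ψ f 0 - x * ψ (f.1, f.2 + 1) 0 - x * ψ (f.1 + 1, f.2) 0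
          - x ^ 2 * ψ (f.1 + 1, f.2 + 1) 0)
      + x * (ψ (f.1, f.2 + 1) 1 - ψ (f.1, f.2 - 1) 1)
      + (x * ψ (f.1 + 1, f.2) 2 + x * ψ (f.1, f.2 - 1) 2 + x ^ 2 * ψ (f.1 + 1, f.2 - 1) 2
          - ψ f 2)
      + ((1 - x ^ 2) * ψ f 3 - (x + x ^ 3) * ψ (f.1 + 1, f.2) 3
          - x ^ 2 * ψ (f.1 + 1, f.2 + 1) 3 - x ^ 2 * ψ (f.1 + 1, f.2 - 1) 3)
  | 2 => ((x ^ 2 - 1) * ψ f 0 + (x + x ^ 3) * ψ (f.1, f.2 + 1) 0
          + x ^ 2 * ψ (f.1 - 1, f.2 + 1) 0 + x ^ 2 * ψ (f.1 + 1, f.2 + 1) 0)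
      + (ψ f 1 - x * ψ (f.1 - 1, f.2) 1 - x * ψ (f.1, f.2 + 1) 1
          - x ^ 2 * ψ (f.1 - 1, f.2 + 1) 1)
      + x * (ψ (f.1 - 1, f.2) 2 - ψ (f.1 + 1, f.2) 2)
      + (x * ψ (f.1, f.2 + 1) 3 + x * ψ (f.1 + 1, f.2) 3 + x ^ 2 * ψ (f.1 + 1, f.2 + 1) 3
          - ψ f 3)
  | 3 => (ψ f 0 - x * ψ (f.1 - 1, f.2) 0 - x * ψ (f.1, f.2 + 1) 0
          - x ^ 2 * ψ (f.1 - 1, f.2 + 1) 0)
      + ((x ^ 2 - 1) * ψ f 1 + (x + x ^ 3) * ψ (f.1 - 1, f.2) 1
          + x ^ 2 * ψ (f.1 - 1, f.2 + 1) 1 + x ^ 2 * ψ (f.1 - 1, f.2 - 1) 1)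
      + (ψ f 2 - x * ψ (f.1 - 1, f.2) 2 - x * ψ (f.1, f.2 - 1) 2
          - x ^ 2 * ψ (f.1 - 1, f.2 - 1) 2)
      + x * (ψ (f.1, f.2 - 1) 3 - ψ (f.1, f.2 + 1) 3)

/-- `- Δ φ`, componentwise: `4 φ f h - ∑ φ (f ± e) h` -/
def Lap (φ : Fld) (f : Face) (h : Fin 4) : ℝ :=
  4 * φ f h - (φ (f.1 + 1, f.2) h + φ (f.1 - 1, f.2) h + φ (f.1, f.2 + 1) h
    + φ (f.1, f.2 - 1) h)

/-- **adjugate identity** for arbitrary constant weight `x` -/
theorem B_A (x : ℝ) (φ : Fld) (f : Face) (h : Fin 4) :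
    B x (A (cst x) φ) f h = x * (1 - x ^ 2) * Lap φ f h + (x ^ 2 + 2 * x - 1) ^ 2 * φ f h := by
  obtain ⟨i, j⟩ := f
  fin_cases h
  · simp only [B, Lap, A_S, A_E, A_N, A_W, cst, add_sub_cancel_right, sub_add_cancel,
      Fin.zero_eta, Fin.mk_one, Fin.reduceFinMk]
    ring
  · simp only [B, Lap, A_S, A_E, A_N, A_W, cst, add_sub_cancel_right, sub_add_cancel,
      Fin.zero_eta, Fin.mk_one, Fin.reduceFinMk]
    ring
  · simp only [B, Lap, A_S, A_E, A_N, A_W, cst, add_sub_cancel_right, sub_add_cancel,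
      Fin.zero_eta, Fin.mk_one, Fin.reduceFinMk]
    ring
  · simp only [B, Lap, A_S, A_E, A_N, A_W, cst, add_sub_cancel_right, sub_add_cancel,
      Fin.zero_eta, Fin.mk_one, Fin.reduceFinMk]
    ring

/-- the other order: `A (B ψ) = x (1 - x²) (-Δ ψ) + (x² + 2x - 1)² ψ` -/
theorem A_B (x : ℝ) (ψ : Fld) (f : Face) (h : Fin 4) :
    A (cst x) (B x ψ) f h = x * (1 - x ^ 2) * Lap ψ f h + (x ^ 2 + 2 * x - 1) ^ 2 * ψ f h := by
  obtain ⟨i, j⟩ := f
  fin_cases h
  · simp only [B, Lap, A_S, A_E, A_N, A_W, cst, add_sub_cancel_right, sub_add_cancel,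
      Fin.zero_eta, Fin.mk_one, Fin.reduceFinMk]
    ring
  · simp only [B, Lap, A_S, A_E, A_N, A_W, cst, add_sub_cancel_right, sub_add_cancel,
      Fin.zero_eta, Fin.mk_one, Fin.reduceFinMk]
    ring
  · simp only [B, Lap, A_S, A_E, A_N, A_W, cst, add_sub_cancel_right, sub_add_cancel,
      Fin.zero_eta, Fin.mk_one, Fin.reduceFinMk]
    ring
  · simp only [B, Lap, A_S, A_E, A_N, A_W, cst, add_sub_cancel_right, sub_add_cancel,
      Fin.zero_eta, Fin.mk_one, Fin.reduceFinMk]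
    ring

/-- `c0 = x (1 - x²) = 2 x²` at criticality -/
def c0 : ℝ := xc * (1 - xc ^ 2)

theorem c0_eq : c0 = 2 * xc ^ 2 := by unfold c0; linear_combination (-xc) * xc_sq

theorem c0_pos : 0 < c0 := by rw [c0_eq]; have := xc_pos; positivity

/-- **adjugate identity at criticality** -/
theorem B_A_xc (φ : Fld) (f : Face) (h : Fin 4) :
    B xc (A (cst xc) φ) f h = c0 * Lap φ f h := by
  rw [B_A, c0]
  linear_combination ((xc ^ 2 + 2 * xc - 1) * φ f h) * xc_sq

theorem A_B_xc (φ : Fld) (f : Face) (h : Fin 4) :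
    A (cst xc) (B xc φ) f h = c0 * Lap φ f h := by
  rw [A_B, c0]
  linear_combination ((xc ^ 2 + 2 * xc - 1) * φ f h) * xc_sq

/-- `B` has range one (sup norm) -/
theorem B_congr (x : ℝ) {ψ ψ' : Fld} (f : Face)
    (hψ : ∀ a b : ℤ, |a| ≤ 1 → |b| ≤ 1 → ψ (f.1 + a, f.2 + b) = ψ' (f.1 + a, f.2 + b)) (h : Fin 4) :
    B x ψ f h = B x ψ' f h := by
  have h00 : ψ f = ψ' f := by simpa using hψ 0 0 (by norm_num) (by norm_num)
  have h10 : ψ (f.1 + 1, f.2) = ψ' (f.1 + 1, f.2) := by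
    simpa [sub_eq_add_neg] using hψ 1 0 (by norm_num) (by norm_num)
  have hm0 : ψ (f.1 - 1, f.2) = ψ' (f.1 - 1, f.2) := by
    simpa [sub_eq_add_neg] using hψ (-1) 0 (by norm_num) (by norm_num)
  have h01 : ψ (f.1, f.2 + 1) = ψ' (f.1, f.2 + 1) := by
    simpa [sub_eq_add_neg] using hψ 0 1 (by norm_num) (by norm_num)
  have h0m : ψ (f.1, f.2 - 1) = ψ' (f.1, f.2 - 1) := by
    simpa [sub_eq_add_neg] using hψ 0 (-1) (by norm_num) (by norm_num)
  have h11 : ψ (f.1 + 1, f.2 + 1) = ψ' (f.1 + 1, f.2 + 1) := by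
    simpa [sub_eq_add_neg] using hψ 1 1 (by norm_num) (by norm_num)
  have h1m : ψ (f.1 + 1, f.2 - 1) = ψ' (f.1 + 1, f.2 - 1) := by
    simpa [sub_eq_add_neg] using hψ 1 (-1) (by norm_num) (by norm_num)
  have hm1 : ψ (f.1 - 1, f.2 + 1) = ψ' (f.1 - 1, f.2 + 1) := by
    simpa [sub_eq_add_neg] using hψ (-1) 1 (by norm_num) (by norm_num)
  have hmm : ψ (f.1 - 1, f.2 - 1) = ψ' (f.1 - 1, f.2 - 1) := by
    simpa [sub_eq_add_neg] using hψ (-1) (-1) (by norm_num) (by norm_num)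
  fin_cases h <;> simp only [B, h00, h10, hm0, h01, h0m, h11, h1m, hm1, hmm]

theorem B_add (x : ℝ) (φ ψ : Fld) (f : Face) (h : Fin 4) :
    B x (fun f h => φ f h + ψ f h) f h = B x φ f h + B x ψ f h := by
  fin_cases h <;> simp only [B] <;> ring

theorem B_smul (x c : ℝ) (φ : Fld) (f : Face) (h : Fin 4) :
    B x (fun f h => c * φ f h) f h = c * B x φ f h := by
  fin_cases h <;> simp only [B] <;> ring

/-- `B` kills constants at criticality -/
theorem B_const (p : Fin 4 → ℝ) (f : Face) (h : Fin 4) : B xc (fun _ => p) f h = 0 := by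
  have hx := xc_sq
  fin_cases h <;> simp only [B]
  · linear_combination (p 1 + p 3 - (1 + xc) * p 2) * hx
  · linear_combination (-p 0 + p 2 - (1 + xc) * p 3) * hx
  · linear_combination (-p 1 + p 3 + (1 + xc) * p 0) * hx
  · linear_combination (-p 0 - p 2 + (1 + xc) * p 1) * hx

/-- signed Laplacian of a background: `4 φ f h - ∑_k (w f k / x) φ (nb f k) h` -/
def LapW (w φ : Fld) (f : Face) (h : Fin 4) : ℝ :=
  4 * φ f h - ∑ k, w f k / xc * φ (nb f k) h

/-- **adjugate identity, local, in a gauge**: near `f` the weights are `x g g`, `g = ±1`. -/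
theorem B_A_gauge (w φ : Fld) (g : Face → ℝ) (f : Face)
    (hg : ∀ f', g f' ^ 2 = 1)
    (hw : ∀ a b : ℤ, |a| ≤ 1 → |b| ≤ 1 → ∀ h, w (f.1 + a, f.2 + b) h
      = xc * (g (f.1 + a, f.2 + b) * g (nb (f.1 + a, f.2 + b) h))) (h : Fin 4) :
    g f * B xc (fun f' h' => g f' * A w φ f' h') f h = c0 * LapW w φ f h := by
  have e : B xc (fun f' h' => g f' * A w φ f' h') f h
      = B xc (A (cst xc) (fun f' h' => g f' * φ f' h')) f h := by
    apply B_congr
    intro a b ha hb
    funext k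
    have h1 := hw a b ha hb k
    have h2 := hg (f.1 + a, f.2 + b)
    simp only [A, Y, A0_smul, h1, cst]
    linear_combination (sg k * xc * g (nb (f.1 + a, f.2 + b) k)
      * φ (nb (f.1 + a, f.2 + b) k) (op k)) * h2
  rw [e, B_A_xc]
  have hx := ne_of_gt xc_pos
  have w0 : ∀ k, w f k / xc = g f * g (nb f k) := by
    intro k
    have := hw 0 0 (by norm_num) (by norm_num) k
    simp only [add_zero] at this
    rw [show ((f.1, f.2) : Face) = f from rfl] at this
    rw [this]; field_simp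
  have hf := hg f
  simp only [LapW, Lap, w0, Fin.sum_univ_four, nb_zero, nb_one, nb_two, nb_three]
  linear_combination (4 * c0 * φ f h) * hf

/-! ### local gauges -/

/-- potential for signs on a quadrant: `s(i,j;E)`, `s(i,j;N)` are `±1` with trivial holonomy at
the plaquettes `i < m, j < n` -/
theorem exists_gauge_nat (sE sN : ℕ → ℕ → ℝ) (m n : ℕ)
    (hE : ∀ i j, sE i j ^ 2 = 1) (hN : ∀ i j, sN i j ^ 2 = 1)
    (hol : ∀ i j, i < m → j < n → sE i j * sN (i + 1) j * sE i (j + 1) * sN i j = 1) :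
    ∃ g : ℕ → ℕ → ℝ, (∀ i j, g i j ^ 2 = 1) ∧
      (∀ i j, i < m → j ≤ n → sE i j = g i j * g (i + 1) j) ∧
      (∀ i j, i ≤ m → j < n → sN i j = g i j * g i (j + 1)) := by
  classical
  let g : ℕ → ℕ → ℝ := fun i j => (∏ k ∈ range i, sE k 0) * ∏ l ∈ range j, sN i l
  have g2 : ∀ i j, g i j ^ 2 = 1 := by
    intro i j
    simp only [g, mul_pow, ← prod_pow]
    rw [prod_eq_one fun k _ => hE k 0, prod_eq_one fun l _ => hN i l, one_mul]
  have gN : ∀ i j, sN i j = g i j * g i (j + 1) := by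
    intro i j
    have e : g i (j + 1) = g i j * sN i j := by simp only [g, prod_range_succ]; ring
    rw [e, ← mul_assoc, ← pow_two, g2, one_mul]
  refine ⟨g, g2, ?_, fun i j _ _ => gN i j⟩
  intro i j hi
  induction j with
  | zero =>
    intro _
    have e : g (i + 1) 0 = g i 0 * sE i 0 := by
      simp only [g, prod_range_succ, prod_range_zero]; ring
    rw [e, ← mul_assoc, ← pow_two, g2, one_mul]
  | succ j ih =>
    intro hj
    have h0 := ih (by omega)
    have h1 := hol i j hi (by omega)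
    rw [h0, gN (i + 1) j, gN i j] at h1
    have a1 := g2 i j
    have a2 := g2 (i + 1) j
    have a3 := g2 i (j + 1)
    have a4 := g2 (i + 1) (j + 1)
    have h2 : sE i (j + 1) * (g (i + 1) (j + 1) * g i (j + 1)) = 1 := by
      calc sE i (j + 1) * (g (i + 1) (j + 1) * g i (j + 1))
          = (g i j ^ 2) * (g (i + 1) j ^ 2) * (sE i (j + 1) *
              (g (i + 1) (j + 1) * g i (j + 1))) := by rw [a1, a2]; ring
        _ = g i j * g (i + 1) j * (g (i + 1) j * g (i + 1) (j + 1)) * sE i (j + 1)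
              * (g i j * g i (j + 1)) := by ring
        _ = 1 := h1
    calc sE i (j + 1) = sE i (j + 1) * (g (i + 1) (j + 1) ^ 2 * g i (j + 1) ^ 2) := by
          rw [a3, a4]; ring
      _ = (sE i (j + 1) * (g (i + 1) (j + 1) * g i (j + 1)))
            * (g i (j + 1) * g (i + 1) (j + 1)) := by ring
      _ = g i (j + 1) * g (i + 1) (j + 1) := by rw [h2, one_mul]

/-- holonomy of the weights around the primal vertex at the upper right corner of the face `f` -/
def hol (w : Fld) (f : Face) : ℝ := w f 1 * w (nb f 1) 2 * w (nb f 2) 1 * w f 2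

/-- **local gauge**: on the box of faces `[a, a+m] × [b, b+n]`, if `w² = x²` on every dual edge and
all interior vertices have holonomy `x⁴`, then `w = x g g` on all dual edges inside the box. -/
theorem exists_gauge (w : Fld) (hs : Sym w) (x : ℝ) (hx : x ≠ 0) (a b : ℤ) (m n : ℕ)
    (h2 : ∀ i j : ℤ, a ≤ i → i ≤ a + m → b ≤ j → j ≤ b + n → ∀ h, w (i, j) h ^ 2 = x ^ 2)
    (hh : ∀ i j : ℤ, a ≤ i → i < a + m → b ≤ j → j < b + n → hol w (i, j) = x ^ 4) :
    ∃ g : Face → ℝ, (∀ f, g f ^ 2 = 1) ∧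
      ∀ f : Face, a ≤ f.1 → f.1 ≤ a + m → b ≤ f.2 → f.2 ≤ b + n → ∀ h,
        a ≤ (nb f h).1 → (nb f h).1 ≤ a + m → b ≤ (nb f h).2 → (nb f h).2 ≤ b + n →
        w f h = x * (g f * g (nb f h)) := by
  classical
  let sE : ℕ → ℕ → ℝ := fun i j => if i ≤ m ∧ j ≤ n then w (a + i, b + j) 1 / x else 1
  let sN : ℕ → ℕ → ℝ := fun i j => if i ≤ m ∧ j ≤ n then w (a + i, b + j) 2 / x else 1
  have hE : ∀ i j, sE i j ^ 2 = 1 := by
    intro i j
    simp only [sE]
    split_ifs with hc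
    · rw [div_pow, h2 _ _ (by omega) (by omega) (by omega) (by omega)]
      exact div_self (pow_ne_zero 2 hx)
    · norm_num
  have hN : ∀ i j, sN i j ^ 2 = 1 := by
    intro i j
    simp only [sN]
    split_ifs with hc
    · rw [div_pow, h2 _ _ (by omega) (by omega) (by omega) (by omega)]
      exact div_self (pow_ne_zero 2 hx)
    · norm_num
  have hl : ∀ i j, i < m → j < n → sE i j * sN (i + 1) j * sE i (j + 1) * sN i j = 1 := by
    intro i j hi hj
    have h4 := hh (a + i) (b + j) (by omega) (by omega) (by omega) (by omega)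
    simp only [hol, nb_one, nb_two] at h4
    simp only [sE, sN]
    rw [if_pos (by omega), if_pos (by omega), if_pos (by omega), if_pos (by omega)]
    push_cast
    rw [← add_assoc, ← add_assoc]
    field_simp
    linear_combination h4
  obtain ⟨g, g2, gE, gN⟩ := exists_gauge_nat sE sN m n hE hN hl
  refine ⟨fun f => g (f.1 - a).toNat (f.2 - b).toNat, fun f => g2 _ _, ?_⟩
  -- the two basic directions
  have kE : ∀ i j : ℤ, a ≤ i → i + 1 ≤ a + m → b ≤ j → j ≤ b + n →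
      w (i, j) 1 = x * (g (i - a).toNat (j - b).toNat * g (i + 1 - a).toNat (j - b).toNat) := by
    intro i j hi hi' hj hj'
    obtain ⟨p, hp⟩ := Int.le.dest hi
    obtain ⟨q, hq⟩ := Int.le.dest hj
    subst hp; subst hq
    have t1 : (a + (p : ℤ) - a).toNat = p := by omega
    have t2 : (b + (q : ℤ) - b).toNat = q := by omega
    have t3 : (a + (p : ℤ) + 1 - a).toNat = p + 1 := by omega
    have h5 := gE p q (by omega) (by omega)
    simp only [sE] at h5
    rw [if_pos (by omega)] at h5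
    rw [t1, t2, t3, ← h5]; field_simp
  have kN : ∀ i j : ℤ, a ≤ i → i ≤ a + m → b ≤ j → j + 1 ≤ b + n →
      w (i, j) 2 = x * (g (i - a).toNat (j - b).toNat * g (i - a).toNat (j + 1 - b).toNat) := by
    intro i j hi hi' hj hj'
    obtain ⟨p, hp⟩ := Int.le.dest hi
    obtain ⟨q, hq⟩ := Int.le.dest hj
    subst hp; subst hq
    have t1 : (a + (p : ℤ) - a).toNat = p := by omega
    have t2 : (b + (q : ℤ) - b).toNat = q := by omega
    have t3 : (b + (q : ℤ) + 1 - b).toNat = q + 1 := by omega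
    have h5 := gN p q (by omega) (by omega)
    simp only [sN] at h5
    rw [if_pos (by omega)] at h5
    rw [t1, t2, t3, ← h5]; field_simp
  rintro ⟨i, j⟩ h1 h1' h3 h3' h
  fin_cases h
  · intro _ _ q1 q2
    simp only [Fin.zero_eta, nb_zero] at *
    have e1 := hs (i, j - 1) 2
    simp only [nb_two, op_two, sub_add_cancel] at e1
    have e2 := kN i (j - 1) h1 h1' q1 (by omega)
    rw [e1, e2]
    simp only [sub_add_cancel]
    ring
  · intro q1 q2 _ _
    simp only [Fin.mk_one, nb_one] at *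
    exact kE i j h1 q2 h3 h3'
  · intro _ _ q1 q2
    simp only [Fin.reduceFinMk, nb_two] at *
    exact kN i j h1 h1' h3 q2
  · intro q1 q2 _ _
    simp only [Fin.reduceFinMk, nb_three] at *
    have e1 := hs (i - 1, j) 1
    simp only [nb_one, op_one, sub_add_cancel] at e1
    have e2 := kE (i - 1) j q1 (by omega) h3 h3'
    rw [e1, e2]
    simp only [sub_add_cancel]
    ring

end Crest.Agent.R165.Tr2x40
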