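import Mathlib
import Crest.Agent.R165.Tr2_40
import Crest.Agent.R165.Int_811

/-!
# No concentration for exact solutions on a box (row 165, block R; helper811)

From the square trick (54) for finitely supported fields to exact solutions on a box: cut-off
with `PotAx894.cut`.  `SQ C` is the square-trick inequality in the language of `Tr1_40`.
-/

set_option autoImplicit false

noncomputable section

namespace Crest.Agent.R165.NcCutx811

open Finset Crest.Agent.R165.Tr1x40 Crest.Agent.R165.Tr2x40 Crest.Agent.R165.PotAx894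
  Crest.Agent.R165.PotBx894 Crest.Agent.R165.Intx811

/-- `kap E κ`: the `1/|z|` potential of the counting measure of `E` is at most `κ` everywhere. -/
def kap (E : Finset Face) (κ : ℝ) : Prop :=
  ∀ v : Face, ∑ f ∈ E, 1 / (1 + |(f.1 : ℝ) - v.1| + |(f.2 : ℝ) - v.2|) ≤ κ

/-- the square-trick inequality -/
def SQ (C : ℝ) : Prop :=
  ∀ (w φ : Fld) (K : Finset Face), Sym w → IsPlus w → (∀ f, f ∉ K → ∀ h, φ f h = 0) →
    (∀ f, f ∉ K → ∀ h, w f h * φ (nb f h) (op h) = 0) →
    ∀ (E : Finset Face) (κ t : ℝ), 0 < t → kap E κ →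
      ∑ f ∈ E, nsq (φ f) ≤ C * (1 + κ) * (t * ∑ f ∈ K, nsq (A w φ f) + t⁻¹ * ∑ f ∈ K, nsq (φ f))

theorem nrm_nb (c : ℤ × ℤ) (f : Face) (h : Fin 4) : |nrm c (nb f h) - nrm c f| ≤ 1 := by
  fin_cases h
  · have := abs_nrm_e2 c (f - e2)
    rw [sub_add_cancel, abs_sub_comm, sub_e2_eq] at this
    exact this
  · have := abs_nrm_e1 c f
    rw [add_e1_eq] at this
    exact this
  · have := abs_nrm_e2 c f
    rw [add_e2_eq] at this
    exact this
  · have := abs_nrm_e1 c (f - e1)
    rw [sub_add_cancel, abs_sub_comm, sub_e1_eq] at this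
    exact this

/-- weights killed across the boundary of the box -/
def wcut (c : ℤ × ℤ) (R : ℕ) (w : Fld) : Fld := fun f h =>
  if f ∈ Q c R ∧ nb f h ∈ Q c R then w f h else 0

theorem sym_wcut (c : ℤ × ℤ) (R : ℕ) {w : Fld} (hw : Sym w) : Sym (wcut c R w) := by
  intro f h
  unfold wcut
  rw [nb_nb_op, hw f h]
  by_cases h1 : f ∈ Q c R <;> by_cases h2 : nb f h ∈ Q c R <;> simp [h1, h2]

theorem isPlus_wcut (c : ℤ × ℤ) (R : ℕ) {w : Fld}
    (hp : ∀ f ∈ Q c R, ∀ h, w f h ^ 2 = xc ^ 2 ∨ w f h = 0) : IsPlus (wcut c R w) := by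
  intro f h
  unfold wcut
  split_ifs with hh
  · exact hp f hh.1 h
  · right; rfl

theorem cut_nonneg (c : ℤ × ℤ) (n k : ℕ) (z : ℤ × ℤ) : 0 ≤ cut c n k z := le_max_left _ _

theorem cut_pos_lt {c : ℤ × ℤ} {n k : ℕ} {z : ℤ × ℤ} (h : cut c n k z ≠ 0) :
    nrm c z < n + k := by
  by_contra hc
  push Not at hc
  exact h (cut_zero hc)

/-- the commutator formula for the cut field -/
theorem A_wcut {c : ℤ × ℤ} {n k R : ℕ} (hR : n + k ≤ R) (w e : Fld) (f : Face) (h : Fin 4) :
    A (wcut c R w) (fun g b => cut c n k g * e g b) f h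
      = cut c n k f * A w e f h
        + sg h * w f h * ((cut c n k (nb f h) - cut c n k f) * e (nb f h) (op h)) := by
  have hRr : ((n : ℝ) + k) ≤ R := by exact_mod_cast hR
  have out : ∀ g, g ∉ Q c R → cut c n k g = 0 := by
    intro g hg
    apply cut_zero
    have := not_mem_Q_succ hg
    linarith
  have near : ∀ g b, g ∉ Q c R → cut c n k (nb g b) = 0 := by
    intro g b hg
    apply cut_zero
    have h1 := not_mem_Q_succ hg
    have h2 := (abs_le.1 (nrm_nb c g b)).1
    linarith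
  simp only [A, Y, A0_smul]
  unfold wcut
  by_cases h1 : f ∈ Q c R
  · by_cases h2 : nb f h ∈ Q c R
    · rw [if_pos ⟨h1, h2⟩]; ring
    · rw [if_neg (fun hh => h2 hh.2), out _ h2]
      have := near (nb f h) (op h) h2
      rw [nb_nb_op] at this
      rw [this]; ring
  · rw [if_neg (fun hh => h1 hh.1), out _ h1, near f h h1]; ring

/-- sum over neighbours inside the box -/
theorem sum_nb_le (c : ℤ × ℤ) (R : ℕ) (e : Fld) :
    ∑ f ∈ Q c R, ∑ h, (if nb f h ∈ Q c R then e (nb f h) (op h) ^ 2 else 0) ≤ mass e c R := by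
  have key := sum_bar (Q c R)
    (fun f h => if f ∈ Q c R ∧ nb f h ∈ Q c R then e f h ^ 2 else 0)
    (fun f hf h => by rw [if_neg (fun hh => hf hh.1)])
    (fun f hf h => by rw [nb_nb_op, if_neg (fun hh => hf hh.2)])
  have e1 : ∑ f ∈ Q c R, ∑ h, (if nb f h ∈ Q c R then e (nb f h) (op h) ^ 2 else 0)
      = ∑ f ∈ Q c R, ∑ h, (if nb f h ∈ Q c R ∧ nb (nb f h) (op h) ∈ Q c R
          then e (nb f h) (op h) ^ 2 else 0) := by
    refine sum_congr rfl fun f hf => sum_congr rfl fun h _ => ?_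
    rw [nb_nb_op]
    simp [hf]
  rw [e1, key]
  refine sum_le_sum fun f _ => sum_le_sum fun h _ => ?_
  split_ifs
  · exact le_refl _
  · positivity

/-- **NC** for exact solutions: mass of a subset of the inner box. -/
theorem nc_cut {C : ℝ} (hC : 0 ≤ C) (hSQ : SQ C) {w e : Fld} (hw : Sym w) {c : ℤ × ℤ} {n k R : ℕ}
    (hk : 0 < k) (hR : n + k ≤ R) (hp : ∀ f ∈ Q c R, ∀ h, w f h ^ 2 = xc ^ 2 ∨ w f h = 0)
    (he : ∀ f ∈ Q c R, ∀ h, A w e f h = 0) {E : Finset Face} (hE : E ⊆ Q c n) {κ : ℝ}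
    (hκ : kap E κ) :
    ∑ f ∈ E, nsq (e f) ≤ 2 * C * (1 + κ) / k * mass e c R := by
  have hk' : (0:ℝ) < k := by exact_mod_cast hk
  have hRr : ((n : ℝ) + k) ≤ R := by exact_mod_cast hR
  have hκ0 : 0 ≤ κ := by
    refine le_trans ?_ (hκ (0, 0))
    exact sum_nonneg fun f _ => by positivity
  set χ := cut c n k with hχ
  set φ : Fld := fun g b => χ g * e g b with hφ
  have out : ∀ g, g ∉ Q c R → χ g = 0 := by
    intro g hg
    apply cut_zero
    have := not_mem_Q_succ hg
    linarith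
  have near : ∀ g b, g ∉ Q c R → χ (nb g b) = 0 := by
    intro g b hg
    apply cut_zero
    have h1 := not_mem_Q_succ hg
    have h2 := (abs_le.1 (nrm_nb c g b)).1
    linarith
  have h1 := hSQ (wcut c R w) φ (Q c R) (sym_wcut c R hw) (isPlus_wcut c R hp)
    (fun f hf h => by simp only [hφ]; rw [out f hf, zero_mul])
    (fun f hf h => by simp only [hφ]; rw [near f h hf]; ring)
    E κ k hk' hκ
  have h2 : ∑ f ∈ E, nsq (φ f) = ∑ f ∈ E, nsq (e f) := by
    refine sum_congr rfl fun f hf => ?_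
    simp only [nsq, hφ]
    rw [hχ, cut_one hk (hE hf)]
    simp
  rw [h2] at h1
  have hcut1 : ∀ g, χ g ^ 2 ≤ 1 := by
    intro g
    have a0 : 0 ≤ χ g := cut_nonneg c n k g
    have a1 : χ g ≤ 1 := by
      rw [hχ]; unfold cut
      exact max_le (by norm_num) (min_le_left _ _)
    nlinarith
  have h3 : ∑ f ∈ Q c R, nsq (φ f) ≤ mass e c R := by
    refine sum_le_sum fun f _ => ?_
    simp only [nsq, hφ]
    refine sum_le_sum fun b _ => ?_
    rw [mul_pow]
    have := hcut1 f
    have h0 : 0 ≤ e f b ^ 2 := sq_nonneg _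
    nlinarith
  have hx1 : xc ^ 2 ≤ 1 := by
    have := xc_pos; have := xc_lt_one; nlinarith
  have h4 : ∑ f ∈ Q c R, nsq (A (wcut c R w) φ f) ≤ 1 / (k:ℝ) ^ 2 * mass e c R := by
    refine le_trans ?_ (mul_le_mul_of_nonneg_left (sum_nb_le c R e) (by positivity))
    rw [mul_sum]
    refine sum_le_sum fun f hf => ?_
    simp only [nsq]
    rw [mul_sum]
    refine sum_le_sum fun h _ => ?_
    rw [A_wcut hR w e f h, he f hf h, mul_zero, zero_add]
    by_cases hnb : nb f h ∈ Q c R
    · rw [if_pos hnb]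
      have a1 := cut_lip (c := c) (n := n) (k := k) (nrm_nb c f h)
      have a2 : (cut c n k (nb f h) - cut c n k f) ^ 2 ≤ (1 / (k:ℝ)) ^ 2 := by
        rw [← sq_abs]
        exact pow_le_pow_left₀ (abs_nonneg _) a1 2
      have a3 : w f h ^ 2 ≤ 1 := by
        rcases hp f hf h with h5 | h5
        · rw [h5]; exact hx1
        · rw [h5]; norm_num
      have a4 : (sg h * w f h * ((cut c n k (nb f h) - cut c n k f) * e (nb f h) (op h))) ^ 2
          = w f h ^ 2 * ((cut c n k (nb f h) - cut c n k f) ^ 2 * e (nb f h) (op h) ^ 2) := by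
        have := sg_sq h
        linear_combination (w f h ^ 2 * ((cut c n k (nb f h) - cut c n k f) ^ 2
          * e (nb f h) (op h) ^ 2)) * this
      rw [a4]
      have a5 : (cut c n k (nb f h) - cut c n k f) ^ 2 * e (nb f h) (op h) ^ 2
          ≤ (1 / (k:ℝ)) ^ 2 * e (nb f h) (op h) ^ 2 :=
        mul_le_mul_of_nonneg_right a2 (sq_nonneg _)
      have a6 : 0 ≤ (cut c n k (nb f h) - cut c n k f) ^ 2 * e (nb f h) (op h) ^ 2 := by positivity
      calc w f h ^ 2 * ((cut c n k (nb f h) - cut c n k f) ^ 2 * e (nb f h) (op h) ^ 2)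
          ≤ 1 * ((cut c n k (nb f h) - cut c n k f) ^ 2 * e (nb f h) (op h) ^ 2) :=
            mul_le_mul_of_nonneg_right a3 a6
        _ ≤ 1 / (k:ℝ) ^ 2 * e (nb f h) (op h) ^ 2 := by
            rw [one_mul, ← one_div_pow]; exact a5
    · have z1 : cut c n k (nb f h) = 0 := out _ hnb
      have z2 : cut c n k f = 0 := by
        have := near (nb f h) (op h) hnb
        rw [nb_nb_op] at this; exact this
      rw [z1, z2, if_neg hnb]; simp
  have hm := mass_nonneg e c R
  have h5 : (k:ℝ) * ∑ f ∈ Q c R, nsq (A (wcut c R w) φ f) + (k:ℝ)⁻¹ * ∑ f ∈ Q c R, nsq (φ f)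
      ≤ 2 / k * mass e c R := by
    have b1 := mul_le_mul_of_nonneg_left h4 hk'.le
    have b2 := mul_le_mul_of_nonneg_left h3 (inv_nonneg.2 hk'.le)
    have b3 : (k:ℝ) * (1 / (k:ℝ) ^ 2 * mass e c R) = 1 / k * mass e c R := by
      field_simp
    rw [b3] at b1
    rw [← one_div] at b2
    calc _ ≤ 1 / k * mass e c R + 1 / k * mass e c R := by
            rw [← one_div]; exact add_le_add b1 b2
      _ = 2 / k * mass e c R := by ring
  calc ∑ f ∈ E, nsq (e f) ≤ _ := h1
    _ ≤ C * (1 + κ) * (2 / k * mass e c R) :=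
        mul_le_mul_of_nonneg_left h5 (by positivity)
    _ = 2 * C * (1 + κ) / k * mass e c R := by ring

end Crest.Agent.R165.NcCutx811
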