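import Mathlib
import Crest.Agent.R165.PkC_583

/-!
Row 165, block U2: full gradient asymptotics of the potential kernel in all directions, symmetries, and the
bound `|pk (z+e) - pk z| ≤ C/(1+|z|)`.
Main statements: `pk_neg_fst`, `pk_neg_snd`, `pk_comm`, `pk_dx`, `pk_dy`, `pk_dx_le`, `pk_dy_le`.
-/

set_option autoImplicit false

namespace Crest.Agent.R165.Pkx583

open Real MeasureTheory Set intervalIntegral

/-! ### symmetries -/

theorem pk_neg_fst (m n : ℤ) : pk (-m, n) = pk (m, n) := by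
  unfold pk
  simp only
  rw [show -m - n = -(m+n) by ring, pk0_neg_right, pk0_swap _ _ ⟨n, by ring⟩,
    ← pk0_neg_right (m+n) (-m+n)]
  congr 1; ring

theorem pk_comm (m n : ℤ) : pk (m, n) = pk (n, m) := by
  unfold pk
  simp only
  rw [show n + m = m + n by ring, ← pk0_neg_right (m+n) (m-n)]
  congr 1; ring

theorem pk_neg_snd (m n : ℤ) : pk (m, -n) = pk (m, n) := by
  rw [pk_comm, pk_neg_fst, pk_comm]

theorem pk_neg (m n : ℤ) : pk (-m, -n) = pk (m, n) := by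
  rw [pk_neg_fst, pk_neg_snd]

/-! ### the gradient -/

/-- gradient in characteristic coordinates -/
noncomputable def gg (k l : ℤ) : ℝ := pk0 (k+1) (l+1) - pk0 k l

theorem gg_swap (k l : ℤ) (h : Even (k+l)) : gg k l = gg l k := by
  unfold gg
  rw [pk0_swap k l h, pk0_swap (k+1) (l+1) (by
    obtain ⟨r, hr⟩ := h
    exact ⟨r+1, by omega⟩)]

theorem gg_neg (k l : ℤ) : gg k l = - gg (-k-1) (-l-1) := by
  unfold gg
  rw [show -k - 1 + 1 = -k by ring, show -l-1+1 = -l by ring, pk0_neg_left, pk0_neg_right,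
    show -k - 1 = -(k+1) by ring, show -l - 1 = -(l+1) by ring, pk0_neg_left, pk0_neg_right]
  ring

theorem abs_AA_le (n : ℕ) (k : ℤ) : |AA n k| ≤ π/2 := by
  unfold AA
  have := intervalIntegral.norm_integral_le_of_norm_le_const (a := 0) (b := π/2) (C := 1)
    (f := fun u => rho u ^ n * Real.cos (k*u)) ?_
  · have hpi : (0:ℝ) < π/2 := by positivity
    rw [Real.norm_eq_abs, one_mul, sub_zero, abs_of_pos hpi] at this
    exact this
  · intro u hu
    rw [uIoc_of_le (by positivity)] at hu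
    have h1 := rho_nonneg hu.1.le hu.2
    have h2 := rho_le_one hu.1.le hu.2
    rw [Real.norm_eq_abs, abs_mul, abs_of_nonneg (pow_nonneg h1 n)]
    calc rho u ^ n * |Real.cos (k*u)| ≤ 1 * 1 :=
          mul_le_mul (pow_le_one₀ h1 h2) (Real.abs_cos_le_one _) (abs_nonneg _) zero_le_one
      _ = 1 := one_mul 1

theorem abs_BB_le (n : ℕ) (k : ℤ) : |BB n k| ≤ π/2 := by
  unfold BB
  have := intervalIntegral.norm_integral_le_of_norm_le_const (a := 0) (b := π/2) (C := 1)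
    (f := fun u => rho u ^ n * Real.sin (k*u)) ?_
  · have hpi : (0:ℝ) < π/2 := by positivity
    rw [Real.norm_eq_abs, one_mul, sub_zero, abs_of_pos hpi] at this
    exact this
  · intro u hu
    rw [uIoc_of_le (by positivity)] at hu
    have h1 := rho_nonneg hu.1.le hu.2
    have h2 := rho_le_one hu.1.le hu.2
    rw [Real.norm_eq_abs, abs_mul, abs_of_nonneg (pow_nonneg h1 n)]
    calc rho u ^ n * |Real.sin (k*u)| ≤ 1 * 1 :=
          mul_le_mul (pow_le_one₀ h1 h2) (Real.abs_sin_le_one _) (abs_nonneg _) zero_le_one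
      _ = 1 := one_mul 1

theorem abs_gg_le_half_nonneg (k : ℤ) (n : ℕ) : |gg k n| ≤ 1/2 := by
  unfold gg
  rw [pk0_step k n, abs_mul, abs_of_pos (by positivity : (0:ℝ) < 1/(2*π))]
  have h : |AA n k + BB (n+1) k| ≤ π := by
    refine (abs_add_le _ _).trans ?_
    have := abs_AA_le n k
    have := abs_BB_le (n+1) k
    linarith
  calc 1/(2*π) * |AA n k + BB (n+1) k| ≤ 1/(2*π) * π := mul_le_mul_of_nonneg_left h (by positivity)
    _ = 1/2 := by field_simp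

theorem abs_gg_le_half (k l : ℤ) : |gg k l| ≤ 1/2 := by
  rcases le_or_gt 0 l with h | h
  · obtain ⟨n, rfl⟩ := Int.eq_ofNat_of_zero_le h
    exact abs_gg_le_half_nonneg k n
  · obtain ⟨n, hn⟩ := Int.eq_ofNat_of_zero_le (by omega : 0 ≤ -l-1)
    rw [gg_neg, abs_neg, hn]
    exact abs_gg_le_half_nonneg _ n

/-- leading term -/
noncomputable def lead (k l : ℤ) : ℝ := (1/(2*π)) * (((k:ℝ) + l)/((k:ℝ)^2 + (l:ℝ)^2))

theorem gg_asymp_up (k l : ℤ) (hl : 1 ≤ l) (hk : |k| ≤ l + 2) :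
    |gg k l - lead k l| ≤ 2000/((k:ℝ)^2 + (l:ℝ)^2) := by
  obtain ⟨n, hn⟩ := Int.eq_ofNat_of_zero_le (by omega : 0 ≤ l-1)
  have hl' : l = (n:ℤ)+1 := by omega
  have h := pk0_step_asymp n k
  have hlr : (l:ℝ) = (n:ℝ)+1 := by rw [hl']; push_cast; ring
  unfold gg lead
  rw [hlr, hl']
  refine h.trans ?_
  have hn0 : (0:ℝ) ≤ n := Nat.cast_nonneg n
  have hk' : |(k:ℝ)| ≤ (n:ℝ)+3 := by
    have : ((|k| : ℤ) : ℝ) ≤ ((l+2 : ℤ) : ℝ) := by exact_mod_cast hk
    rw [hl'] at this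
    push_cast at this
    linarith
  have hk2 : (k:ℝ)^2 ≤ ((n:ℝ)+3)^2 := by
    rw [← sq_abs]
    exact pow_le_pow_left₀ (abs_nonneg _) hk' 2
  rw [div_le_div_iff₀ (by positivity) (by positivity)]
  nlinarith

theorem abs_lead_sub (k l : ℤ) (hl : l ≤ -2) (hk : |k| ≤ -l) :
    |-(lead (-k-1) (-l-1)) - lead k l| ≤ 10/((k:ℝ)^2 + (l:ℝ)^2) := by
  set K : ℝ := (k:ℝ)
  set L : ℝ := (l:ℝ)
  have hL : L ≤ -2 := by
    have : ((l:ℤ):ℝ) ≤ ((-2 : ℤ):ℝ) := by exact_mod_cast hl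
    simpa using this
  have hKL : |K| ≤ -L := by
    have : ((|k| : ℤ) : ℝ) ≤ ((-l : ℤ) : ℝ) := by exact_mod_cast hk
    simpa using this
  have hK1 := (abs_le.1 hKL).1
  have hK2 := (abs_le.1 hKL).2
  set S : ℝ := K^2 + L^2
  have hS : 0 < S := by nlinarith [sq_nonneg K]
  have hS' : S ≤ 8 * ((K+1)^2 + (L+1)^2) := by nlinarith [sq_nonneg (K+1)]
  have hD : 0 < (K+1)^2 + (L+1)^2 := by nlinarith
  have e : -(lead (-k-1) (-l-1)) - lead k l
      = (1/(2*π)) * ((-4*K*L - 2*(K+L)) / (((K+1)^2 + (L+1)^2) * S)) := by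
    unfold lead
    push_cast
    have hD1 : ((-K-1)^2 + (-L-1)^2) = ((K+1)^2 + (L+1)^2) := by ring
    have hD' : (-K-1)^2 + (-L-1)^2 ≠ 0 := by rw [hD1]; exact hD.ne'
    have hS2 : K^2 + L^2 ≠ 0 := hS.ne'
    have hD2 : (K+1)^2 + (L+1)^2 ≠ 0 := hD.ne'
    rw [hD1]
    have hp := Real.pi_ne_zero
    show -(1/(2*π) * ((-K-1 + (-L-1)) / ((K+1)^2 + (L+1)^2))) - 1/(2*π) * ((K+L)/(K^2+L^2))
      = (1/(2*π)) * ((-4*K*L - 2*(K+L)) / (((K+1)^2 + (L+1)^2) * (K^2+L^2)))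
    field_simp
    ring
  rw [e, abs_mul, abs_of_pos (by positivity : (0:ℝ) < 1/(2*π)), abs_div,
    abs_of_pos (by positivity : 0 < ((K+1)^2 + (L+1)^2) * S)]
  have hnum : |-4*K*L - 2*(K+L)| ≤ 6 * S := by
    rw [abs_le]
    constructor <;> nlinarith [sq_nonneg (K+L), sq_nonneg (K-L), sq_nonneg K]
  have h1 : |-4*K*L - 2*(K+L)| / (((K+1)^2 + (L+1)^2) * S) ≤ 48/S := by
    rw [div_le_div_iff₀ (by positivity) hS]
    nlinarith [mul_nonneg hS.le hS.le, mul_nonneg hS.le hD.le]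
  have h2 : 1/(2*π) ≤ 1/6 := by
    apply one_div_le_one_div_of_le (by norm_num)
    linarith [Real.pi_gt_three]
  calc 1/(2*π) * (|-4*K*L - 2*(K+L)| / (((K+1)^2 + (L+1)^2) * S)) ≤ (1/6) * (48/S) :=
        mul_le_mul h2 h1 (by positivity) (by norm_num)
    _ ≤ 10/S := by
        rw [← mul_div_assoc]
        exact div_le_div_of_nonneg_right (by norm_num) hS.le

theorem gg_asymp_l (k l : ℤ) (hl : l ≠ 0) (hk : |k| ≤ |l|) :
    |gg k l - lead k l| ≤ 20000/((k:ℝ)^2 + (l:ℝ)^2) := by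
  rcases lt_trichotomy l 0 with h | h | h
  · rw [abs_of_neg h] at hk
    rcases eq_or_ne l (-1) with h1 | h1
    · -- l = -1, |k| ≤ 1
      have hk1 : -1 ≤ k := by have := (abs_le.1 hk).1; omega
      have hk2 : k ≤ 1 := by have := (abs_le.1 hk).2; omega
      have hg := abs_gg_le_half k l
      have hkr1 : (-1:ℝ) ≤ k := by exact_mod_cast hk1
      have hkr2 : (k:ℝ) ≤ 1 := by exact_mod_cast hk2
      have hle : |lead k l| ≤ 2 := by
        unfold lead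
        rw [abs_mul, abs_of_pos (by positivity : (0:ℝ) < 1/(2*π)), abs_div, h1]
        push_cast
        have hS : (0:ℝ) < (k:ℝ)^2 + (-1)^2 := by positivity
        rw [abs_of_pos hS]
        have e1 : |(k:ℝ) + -1| ≤ 2 := by rw [abs_le]; constructor <;> linarith
        have e2 : |(k:ℝ) + -1| / ((k:ℝ)^2 + (-1)^2) ≤ 2 := by
          rw [div_le_iff₀ hS]
          nlinarith [sq_nonneg (k:ℝ)]
        have h2 : 1/(2*π) ≤ 1 := by
          rw [div_le_one (by positivity)]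
          linarith [Real.pi_gt_three]
        calc 1/(2*π) * (|(k:ℝ) + -1| / ((k:ℝ)^2 + (-1)^2)) ≤ 1 * 2 :=
              mul_le_mul h2 e2 (by positivity) (by norm_num)
          _ = 2 := by norm_num
      have hS2 : (k:ℝ)^2 + (l:ℝ)^2 ≤ 2 := by
        rw [h1]; push_cast; nlinarith
      have hSp : 0 < (k:ℝ)^2 + (l:ℝ)^2 := by
        rw [h1]; push_cast; positivity
      have h3 : |gg k l - lead k l| ≤ 3 := by
        refine (abs_sub _ _).trans ?_
        linarith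
      refine h3.trans ?_
      rw [le_div_iff₀ hSp]
      linarith
    · have hl2 : l ≤ -2 := by omega
      have hup := gg_asymp_up (-k-1) (-l-1) (by omega) (by
        have h1 := abs_le.1 hk
        rw [abs_le]; constructor <;> omega)
      have hlead := abs_lead_sub k l hl2 hk
      have hL : (l:ℝ) ≤ -2 := by
        have : ((l:ℤ):ℝ) ≤ ((-2 : ℤ):ℝ) := by exact_mod_cast hl2
        simpa using this
      have hKL : |(k:ℝ)| ≤ -(l:ℝ) := by
        have : ((|k| : ℤ) : ℝ) ≤ ((-l : ℤ) : ℝ) := by exact_mod_cast hk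
        simpa using this
      have hK1 := (abs_le.1 hKL).1
      have hK2 := (abs_le.1 hKL).2
      have hS : 0 < (k:ℝ)^2 + (l:ℝ)^2 := by nlinarith [sq_nonneg (k:ℝ)]
      have hS' : (k:ℝ)^2 + (l:ℝ)^2 ≤ 8 * (((k:ℝ)+1)^2 + ((l:ℝ)+1)^2) := by nlinarith [sq_nonneg ((k:ℝ)+1)]
      have hD : 0 < ((k:ℝ)+1)^2 + ((l:ℝ)+1)^2 := by nlinarith
      have hup' : |gg (-k-1) (-l-1) - lead (-k-1) (-l-1)| ≤ 16000/((k:ℝ)^2 + (l:ℝ)^2) := by
        refine hup.trans ?_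
        push_cast
        rw [show (-(k:ℝ)-1)^2 + (-(l:ℝ)-1)^2 = ((k:ℝ)+1)^2 + ((l:ℝ)+1)^2 by ring,
          div_le_div_iff₀ hD hS]
        linarith
      rw [gg_neg]
      have e : -gg (-k-1) (-l-1) - lead k l
          = -(gg (-k-1) (-l-1) - lead (-k-1) (-l-1)) + (-(lead (-k-1) (-l-1)) - lead k l) := by ring
      rw [e]
      refine (abs_add_le _ _).trans ?_
      rw [abs_neg]
      calc _ ≤ 16000/((k:ℝ)^2 + (l:ℝ)^2) + 10/((k:ℝ)^2 + (l:ℝ)^2) := add_le_add hup' hlead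
        _ = 16010/((k:ℝ)^2 + (l:ℝ)^2) := by ring
        _ ≤ _ := div_le_div_of_nonneg_right (by norm_num) hS.le
  · exact absurd h hl
  · rw [abs_of_pos h] at hk
    have := gg_asymp_up k l (by omega) (by omega)
    refine this.trans ?_
    exact div_le_div_of_nonneg_right (by norm_num) (by positivity)

theorem lead_swap (k l : ℤ) : lead k l = lead l k := by
  unfold lead
  rw [add_comm (k:ℝ) l, add_comm ((k:ℝ)^2)]

/-- **gradient asymptotics** in characteristic coordinates -/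
theorem gg_asymp (k l : ℤ) (hpar : Even (k+l)) (h0 : ¬ (k = 0 ∧ l = 0)) :
    |gg k l - lead k l| ≤ 20000/((k:ℝ)^2 + (l:ℝ)^2) := by
  rcases le_total |k| |l| with h | h
  · apply gg_asymp_l k l _ h
    rintro rfl
    simp only [abs_zero] at h
    exact h0 ⟨abs_nonpos_iff.1 h, rfl⟩
  · rw [gg_swap k l hpar, lead_swap, add_comm ((k:ℝ)^2)]
    apply gg_asymp_l l k _ h
    rintro rfl
    simp only [abs_zero] at h
    exact h0 ⟨rfl, abs_nonpos_iff.1 h⟩

theorem pk_dx_eq (m n : ℤ) : pk (m+1, n) - pk (m, n) = gg (m+n) (m-n) := by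
  unfold pk gg
  simp only
  congr 2 <;> ring

/-- horizontal gradient asymptotics -/
theorem pk_dx (m n : ℤ) (h0 : ¬ (m = 0 ∧ n = 0)) :
    |pk (m+1, n) - pk (m, n) - (1/(2*π)) * ((m:ℝ)/((m:ℝ)^2 + (n:ℝ)^2))| ≤ 10000/((m:ℝ)^2 + (n:ℝ)^2) := by
  have h := gg_asymp (m+n) (m-n) ⟨m, by ring⟩ (by omega)
  rw [pk_dx_eq]
  have e1 : (((m+n : ℤ):ℝ)^2 + ((m-n : ℤ):ℝ)^2) = 2 * ((m:ℝ)^2 + (n:ℝ)^2) := by push_cast; ring
  have e2 : lead (m+n) (m-n) = (1/(2*π)) * ((m:ℝ)/((m:ℝ)^2 + (n:ℝ)^2)) := by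
    unfold lead
    rw [e1]
    have : (((m+n : ℤ):ℝ) + ((m-n : ℤ):ℝ)) = 2 * m := by push_cast; ring
    rw [this, mul_div_mul_left _ _ (by norm_num : (2:ℝ) ≠ 0)]
  rw [e1, e2] at h
  refine h.trans (le_of_eq ?_)
  rw [show (20000:ℝ) = 2 * 10000 by norm_num, mul_div_mul_left _ _ (by norm_num : (2:ℝ) ≠ 0)]

/-- vertical gradient asymptotics -/
theorem pk_dy (m n : ℤ) (h0 : ¬ (m = 0 ∧ n = 0)) :
    |pk (m, n+1) - pk (m, n) - (1/(2*π)) * ((n:ℝ)/((m:ℝ)^2 + (n:ℝ)^2))| ≤ 10000/((m:ℝ)^2 + (n:ℝ)^2) := by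
  rw [pk_comm m (n+1), pk_comm m n, add_comm ((m:ℝ)^2)]
  exact pk_dx n m (by tauto)

theorem abs_pk_dx_le_half (m n : ℤ) : |pk (m+1, n) - pk (m, n)| ≤ 1/2 := by
  rw [pk_dx_eq]; exact abs_gg_le_half _ _

/-- gradient bound `|pk (z+e₁) - pk z| ≤ C / (1 + |m| + |n|)` -/
theorem pk_dx_le (m n : ℤ) : |pk (m+1, n) - pk (m, n)| ≤ 50000 / (1 + |(m:ℝ)| + |(n:ℝ)|) := by
  by_cases h0 : m = 0 ∧ n = 0
  · obtain ⟨rfl, rfl⟩ := h0
    have := abs_pk_dx_le_half 0 0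
    refine this.trans ?_
    norm_num
  · have h := pk_dx m n h0
    have hS : 1 ≤ (m:ℝ)^2 + (n:ℝ)^2 := by
      have : 1 ≤ m^2 + n^2 := by
        rcases not_and_or.1 h0 with h1 | h1
        · have : 1 ≤ m^2 := by
            have := sq_nonneg m
            rcases lt_or_gt_of_ne h1 with h2 | h2 <;> nlinarith
          nlinarith [sq_nonneg n]
        · have : 1 ≤ n^2 := by
            rcases lt_or_gt_of_ne h1 with h2 | h2 <;> nlinarith
          nlinarith [sq_nonneg m]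
      exact_mod_cast this
    set M : ℝ := |(m:ℝ)| with hM
    set N : ℝ := |(n:ℝ)| with hN
    have hM0 : 0 ≤ M := abs_nonneg _
    have hN0 : 0 ≤ N := abs_nonneg _
    have hMs : (m:ℝ)^2 = M^2 := (sq_abs _).symm
    have hNs : (n:ℝ)^2 = N^2 := (sq_abs _).symm
    have hSp : 0 < (m:ℝ)^2 + (n:ℝ)^2 := by linarith
    have h3 : (1 + M + N) ≤ 3 * ((m:ℝ)^2 + (n:ℝ)^2) := by
      rw [hMs, hNs] at hS ⊢
      nlinarith [sq_nonneg (M-1), sq_nonneg (N-1), sq_nonneg (M-1/2), sq_nonneg (N-1/2)]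
    have h4 : 10000/((m:ℝ)^2 + (n:ℝ)^2) ≤ 30000 / (1 + M + N) := by
      rw [div_le_div_iff₀ hSp (by positivity)]
      linarith
    have h5 : |(1/(2*π)) * ((m:ℝ)/((m:ℝ)^2 + (n:ℝ)^2))| ≤ 3 / (1+M+N) := by
      rw [abs_mul, abs_of_pos (by positivity : (0:ℝ) < 1/(2*π)), abs_div, abs_of_pos hSp, ← hM]
      have e1 : M/((m:ℝ)^2 + (n:ℝ)^2) ≤ 3/(1+M+N) := by
        rw [div_le_div_iff₀ hSp (by positivity), hMs, hNs]
        rw [hMs, hNs] at hS
        nlinarith [sq_nonneg (M-N), mul_nonneg hM0 hN0]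
      have h2 : 1/(2*π) ≤ 1 := by
        rw [div_le_one (by positivity)]
        linarith [Real.pi_gt_three]
      calc 1/(2*π) * (M/((m:ℝ)^2 + (n:ℝ)^2)) ≤ 1 * (3/(1+M+N)) :=
            mul_le_mul h2 e1 (by positivity) (by norm_num)
        _ = _ := one_mul _
    have h6 : |pk (m+1, n) - pk (m, n)| ≤ 30000/(1+M+N) + 3/(1+M+N) := by
      have := abs_add_le (pk (m+1, n) - pk (m, n) - (1/(2*π)) * ((m:ℝ)/((m:ℝ)^2 + (n:ℝ)^2)))
        ((1/(2*π)) * ((m:ℝ)/((m:ℝ)^2 + (n:ℝ)^2)))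
      rw [sub_add_cancel] at this
      exact this.trans (add_le_add (h.trans h4) h5)
    refine h6.trans ?_
    rw [← add_div]
    exact div_le_div_of_nonneg_right (by norm_num) (by positivity)

theorem pk_dy_le (m n : ℤ) : |pk (m, n+1) - pk (m, n)| ≤ 50000 / (1 + |(m:ℝ)| + |(n:ℝ)|) := by
  rw [pk_comm m (n+1), pk_comm m n]
  refine (pk_dx_le n m).trans (le_of_eq ?_)
  congr 1; ring

end Crest.Agent.R165.Pkx583
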