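import Mathlib
import Crest.Agent.R165.Tr1_40
import Crest.Agent.R165.PkD_583

/-!
Row 165 (helper54): THE SQUARE TRICK, part 1 (types of `Tr1_40`).  Pointwise algebra: per-face
inequality, one-form of squares `om`, its divergence and curl; ℓ¹ bounds.
-/

set_option autoImplicit false

noncomputable section

namespace Crest.Agent.R165.Sqx54

open Crest.Agent.R165.Tr1x40 Finset

theorem s2_gt : 1.41 < Real.sqrt 2 := by
  rw [show (1.41:ℝ) = Real.sqrt (1.41^2) by rw [Real.sqrt_sq (by norm_num)]]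
  exact Real.sqrt_lt_sqrt (by norm_num) (by norm_num)
theorem s2_lt : Real.sqrt 2 < 1.42 := by
  rw [show (1.42:ℝ) = Real.sqrt (1.42^2) by rw [Real.sqrt_sq (by norm_num)]]
  exact Real.sqrt_lt_sqrt (by norm_num) (by norm_num)

/-- Pure algebra behind the per-face inequality. -/
theorem face_alg (s S E N W gE gN h1 h2 P Q D1 D2 : ℝ) (hs : s * s = 2) (hs0 : 1.41 < s)
    (hs1 : s < 1.42) (H1 : h1 = E + (s / 2) * (S + N)) (H2 : h2 = W + (s / 2) * (N - S))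
    (HP : P = (s + 1) * ((-S + N + W) - gE)) (HQ : Q = (s + 1) * ((-S - E + W) - gN))
    (hD1 : |E ^ 2 - P ^ 2| ≤ D1) (hD2 : |N ^ 2 - Q ^ 2| ≤ D2) :
    S ^ 2 + E ^ 2 + N ^ 2 + W ^ 2
      ≤ 8 * (D1 + D2) + 8000 * (h1 ^ 2 + h2 ^ 2 + gE ^ 2 + gN ^ 2) := by
  obtain ⟨T, hT⟩ : ∃ T, T = h1 ^ 2 + h2 ^ 2 + gE ^ 2 + gN ^ 2 := ⟨_, rfl⟩
  rw [← hT]
  have q1 := sq_nonneg h1
  have q2 := sq_nonneg h2
  have q3 := sq_nonneg gE
  have q4 := sq_nonneg gN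
  obtain ⟨r3, hr3⟩ : ∃ r, r = W + P := ⟨_, rfl⟩
  obtain ⟨r4, hr4⟩ : ∃ r, r = S + (s / 2) * (E + P) := ⟨_, rfl⟩
  obtain ⟨r1, hr1⟩ : ∃ r, r = N - (s / 2) * (P - E) := ⟨_, rfl⟩
  obtain ⟨r2, hr2⟩ : ∃ r, r = Q + (s / 2) * (E + P) := ⟨_, rfl⟩
  have e3 : r3 = (s + 2) * h2 - (s + 1) * gE := by
    rw [hr3, H2, HP]; linear_combination (-(1/2) * (N - S)) * hs
  have e4 : r4 = (s / 2) * (h1 - h2 + r3) := by
    rw [hr4, hr3, H1, H2]; linear_combination (-(1/2) * S) * hs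
  have e1 : r1 = (s / 2) * (h1 + h2 - r3) := by
    rw [hr1, hr3, H1, H2]; linear_combination (-(1/2) * N) * hs
  have e2 : r2 = -((s + 1) * h1) + (s + 1) * h2 - (s + 1) * gN + r4 := by
    rw [hr2, hr4, HQ, H1, H2]; linear_combination S * hs
  have hs2 : (s + 1) ^ 2 ≤ 5.9 := by nlinarith
  have hs3 : (s + 2) ^ 2 ≤ 12 := by nlinarith
  have tri : ∀ a b c : ℝ, (a + b + c) ^ 2 ≤ 3 * (a ^ 2 + b ^ 2 + c ^ 2) := fun a b c => by
    linarith [sq_nonneg (a - b), sq_nonneg (a - c), sq_nonneg (b - c)]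
  have two : ∀ a b : ℝ, (a + b) ^ 2 ≤ 2 * (a ^ 2 + b ^ 2) := fun a b => by
    linarith [sq_nonneg (a - b)]
  have b3 : r3 ^ 2 ≤ 24 * T := by
    have k := two ((s + 2) * h2) (-((s + 1) * gE))
    have k1 : ((s + 2) * h2) ^ 2 ≤ 12 * h2 ^ 2 := by
      rw [mul_pow]; exact mul_le_mul_of_nonneg_right hs3 q2
    have k2 : ((s + 1) * gE) ^ 2 ≤ 5.9 * gE ^ 2 := by
      rw [mul_pow]; exact mul_le_mul_of_nonneg_right hs2 q3
    have k3 : r3 ^ 2 = ((s + 2) * h2 + (-((s + 1) * gE))) ^ 2 := by rw [e3]; ring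
    rw [neg_sq] at k
    rw [k3]; linarith
  have b4 : r4 ^ 2 ≤ 38 * T := by
    have : r4 ^ 2 = (1/2) * (h1 + (-h2) + r3) ^ 2 := by
      rw [e4]; linear_combination ((1/4) * (h1 - h2 + r3)^2) * hs
    have k := tri h1 (-h2) r3
    rw [neg_sq] at k
    linarith
  have b1 : r1 ^ 2 ≤ 38 * T := by
    have : r1 ^ 2 = (1/2) * (h1 + h2 + (-r3)) ^ 2 := by
      rw [e1]; linear_combination ((1/4) * (h1 + h2 - r3)^2) * hs
    have k := tri h1 h2 (-r3)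
    rw [neg_sq] at k
    linarith
  have b2 : r2 ^ 2 ≤ 200 * T := by
    have k1 : ((s + 1) * h1) ^ 2 ≤ 5.9 * h1 ^ 2 := by
      rw [mul_pow]; exact mul_le_mul_of_nonneg_right hs2 q1
    have k2 : ((s + 1) * h2) ^ 2 ≤ 5.9 * h2 ^ 2 := by
      rw [mul_pow]; exact mul_le_mul_of_nonneg_right hs2 q2
    have k3 : ((s + 1) * gN) ^ 2 ≤ 5.9 * gN ^ 2 := by
      rw [mul_pow]; exact mul_le_mul_of_nonneg_right hs2 q4
    have k := tri (-((s + 1) * h1)) ((s + 1) * h2) (-((s + 1) * gN))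
    have k' := two (-((s + 1) * h1) + (s + 1) * h2 + -((s + 1) * gN)) r4
    rw [neg_sq, neg_sq] at k
    have : r2 = -((s + 1) * h1) + (s + 1) * h2 + -((s + 1) * gN) + r4 := by rw [e2]; ring
    rw [this]; linarith
  -- the light part
  obtain ⟨m, hm⟩ : ∃ m, m = E ^ 2 + P ^ 2 := ⟨_, rfl⟩
  have hm0 : 0 ≤ m := by rw [hm]; positivity
  have hEP : N ^ 2 - Q ^ 2 = -(2 * E * P) + s * (r1 * (P - E)) + s * (r2 * (E + P)) + r1 ^ 2 - r2 ^ 2 := by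
    have a1 : N = (s / 2) * (P - E) + r1 := by rw [hr1]; ring
    have a2 : Q = -((s / 2) * (E + P)) + r2 := by rw [hr2]; ring
    rw [a1, a2]; linear_combination (-(E * P)) * hs
  have amgm : ∀ u r : ℝ, |s * (r * u)| ≤ u ^ 2 / 8 + 4 * r ^ 2 := by
    intro u r
    have k1 : (u + 4 * s * r) ^ 2 / 8 = u ^ 2 / 8 + 4 * r ^ 2 + s * (r * u) := by
      linear_combination (2 * r ^ 2) * hs
    have k2 : (u - 4 * s * r) ^ 2 / 8 = u ^ 2 / 8 + 4 * r ^ 2 - s * (r * u) := by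
      linear_combination (2 * r ^ 2) * hs
    have k3 := sq_nonneg (u + 4 * s * r)
    have k4 := sq_nonneg (u - 4 * s * r)
    rw [abs_le]; constructor <;> linarith
  have c1 : |s * (r1 * (P - E))| ≤ (P - E) ^ 2 / 8 + 4 * r1 ^ 2 := amgm _ _
  have c2 : |s * (r2 * (E + P))| ≤ (E + P) ^ 2 / 8 + 4 * r2 ^ 2 := amgm _ _
  have c3 : |2 * E * P| ≤ D2 + m / 4 + 5 * r1 ^ 2 + 5 * r2 ^ 2 := by
    rw [abs_le] at c1 c2 hD2 ⊢
    have : (P - E) ^ 2 + (E + P) ^ 2 = 2 * m := by rw [hm]; ring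
    have z1 := sq_nonneg r1
    have z2 := sq_nonneg r2
    constructor <;> linarith [c1.1, c1.2, c2.1, c2.2, hD2.1, hD2.2]
  have c4 : m ≤ |E ^ 2 - P ^ 2| + |2 * E * P| := by
    have h : m ^ 2 ≤ (|E ^ 2 - P ^ 2| + |2 * E * P|) ^ 2 := by
      have u1 := sq_abs (E ^ 2 - P ^ 2)
      have u2 := sq_abs (2 * E * P)
      have u3 := mul_nonneg (abs_nonneg (E ^ 2 - P ^ 2)) (abs_nonneg (2 * E * P))
      have u4 : m ^ 2 = (E ^ 2 - P ^ 2) ^ 2 + (2 * E * P) ^ 2 := by rw [hm]; ring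
      have u5 : (|E ^ 2 - P ^ 2| + |2 * E * P|) ^ 2 = |E ^ 2 - P ^ 2| ^ 2 + |2 * E * P| ^ 2
        + 2 * (|E ^ 2 - P ^ 2| * |2 * E * P|) := by ring
      linarith
    exact (sq_le_sq₀ hm0 (by positivity)).1 h
  have c5 : m ≤ 2 * (D1 + D2) + 7 * (r1 ^ 2 + r2 ^ 2) := by
    have z1 := sq_nonneg r1
    have z2 := sq_nonneg r2
    have d1 := (abs_nonneg _).trans hD1
    have d2 := (abs_nonneg _).trans hD2
    linarith
  have fS : S ^ 2 ≤ (E + P) ^ 2 + 2 * r4 ^ 2 := by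
    have a4 : S = -((s / 2) * (E + P)) + r4 := by rw [hr4]; ring
    have k := two (-((s / 2) * (E + P))) r4
    have k2 : (-((s / 2) * (E + P))) ^ 2 = (E + P) ^ 2 / 2 := by
      linear_combination ((E + P) ^ 2 / 4) * hs
    rw [← a4] at k
    linarith
  have fN : N ^ 2 ≤ (P - E) ^ 2 + 2 * r1 ^ 2 := by
    have a1 : N = (s / 2) * (P - E) + r1 := by rw [hr1]; ring
    have k := two ((s / 2) * (P - E)) r1
    have k2 : ((s / 2) * (P - E)) ^ 2 = (P - E) ^ 2 / 2 := by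
      linear_combination ((P - E) ^ 2 / 4) * hs
    rw [← a1] at k
    linarith
  have fW : W ^ 2 ≤ 2 * P ^ 2 + 2 * r3 ^ 2 := by
    have a3 : W = -P + r3 := by rw [hr3]; ring
    have k := two (-P) r3
    rw [← a3, neg_sq] at k
    linarith
  have z0 := sq_nonneg E
  have : (P - E) ^ 2 + (E + P) ^ 2 = 2 * m := by rw [hm]; ring
  have hEm : E ^ 2 + 2 * P ^ 2 ≤ 2 * m := by rw [hm]; linarith
  linarith


theorem xc2_lo : (0.15:ℝ) ≤ xc ^ 2 := by rw [xc_sq']; linarith [s2_lt]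
theorem xc2_hi : xc ^ 2 ≤ (0.18:ℝ) := by rw [xc_sq']; linarith [s2_gt]

/-- the one-form of squares -/
def om (w φ : Fld) (f : Face) (h : Fin 4) : ℝ :=
  (1 - w f h ^ 2) * (φ f h ^ 2 - φ (nb f h) (op h) ^ 2)

theorem om_bar {w : Fld} (hw : Sym w) (φ : Fld) (f : Face) (h : Fin 4) :
    om w φ (nb f h) (op h) = - om w φ f h := by
  unfold om; rw [nb_nb_op, op_op, hw f h]; ring

theorem D_bound {y a r u v : ℝ} (hy : y ^ 2 = xc ^ 2 ∨ y = 0) (hr : r = a + y * v ∨ r = a - y * v) :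
    |u ^ 2 - ((Real.sqrt 2 + 1) * (a - r)) ^ 2|
      ≤ 2 * |(1 - y ^ 2) * (u ^ 2 - v ^ 2)| + (if y = 0 then u ^ 2 else 0) := by
  rcases eq_or_ne y 0 with h0 | h0
  · have : a - r = 0 := by rcases hr with hr | hr <;> rw [hr, h0] <;> ring
    rw [this, if_pos h0]
    have e : u ^ 2 - ((Real.sqrt 2 + 1) * 0) ^ 2 = u ^ 2 := by ring
    rw [e, abs_of_nonneg (sq_nonneg u)]
    have := abs_nonneg ((1 - y ^ 2) * (u ^ 2 - v ^ 2))
    linarith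
  · have hy2 : y ^ 2 = xc ^ 2 := hy.resolve_right h0
    have h4 : (0:ℝ) ≤ 1 - xc ^ 2 := by linarith [xc2_hi]
    have hi : (Real.sqrt 2 + 1) ^ 2 * xc ^ 2 = 1 := by
      rw [xc_sq']; linear_combination (-1 - 2 * Real.sqrt 2) * sq2
    have hv : ((Real.sqrt 2 + 1) * (a - r)) ^ 2 = v ^ 2 := by
      rcases hr with hr | hr <;> rw [hr]
      · have : ((Real.sqrt 2 + 1) * (a - (a + y * v))) ^ 2
            = ((Real.sqrt 2 + 1) ^ 2 * y ^ 2) * v ^ 2 := by ring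
        rw [this, hy2, hi]; ring
      · have : ((Real.sqrt 2 + 1) * (a - (a - y * v))) ^ 2
            = ((Real.sqrt 2 + 1) ^ 2 * y ^ 2) * v ^ 2 := by ring
        rw [this, hy2, hi]; ring
    rw [hv, if_neg h0, hy2, abs_mul, abs_of_nonneg h4]
    have := abs_nonneg (u ^ 2 - v ^ 2)
    nlinarith [xc2_hi]

/-- **the per-face inequality** -/
theorem face {w : Fld} (hp : IsPlus w) (φ : Fld) (f : Face) :
    nsq (φ f) ≤ 16 * (|om w φ f 1| + |om w φ f 2|) + 8 * bd w φ f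
      + 8000 * (2 * hv (φ f) + nsq (A w φ f)) := by
  have k1 := D_bound (u := φ f 1) (a := A0 (φ f) 1) (r := A w φ f 1) (v := φ (f.1+1, f.2) 3)
    (hp f 1) (Or.inl (by rw [A_E]; simp))
  have k2 := D_bound (u := φ f 2) (a := A0 (φ f) 2) (r := A w φ f 2) (v := φ (f.1, f.2+1) 0)
    (hp f 2) (Or.inr (by rw [A_N]; simp))
  have k := face_alg (Real.sqrt 2) (φ f 0) (φ f 1) (φ f 2) (φ f 3) (A w φ f 1) (A w φ f 2)
    _ _ _ _ _ _ sq2 s2_gt s2_lt rfl rfl rfl rfl k1 k2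
  have hg : A w φ f 1 ^ 2 + A w φ f 2 ^ 2 ≤ nsq (A w φ f) := by
    rw [nsq_eq]; nlinarith [sq_nonneg (A w φ f 0), sq_nonneg (A w φ f 3)]
  have hb : (if w f 1 = 0 then φ f 1 ^ 2 else 0) + (if w f 2 = 0 then φ f 2 ^ 2 else 0)
      ≤ bd w φ f := by
    unfold bd
    rw [Fin.sum_univ_four]
    have z1 : 0 ≤ (if w f 0 = 0 then φ f 0 ^ 2 else 0) := by positivity
    have z2 : 0 ≤ (if w f 3 = 0 then φ f 3 ^ 2 else 0) := by positivity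
    linarith
  have hh : (φ f 1 + Real.sqrt 2 / 2 * (φ f 0 + φ f 2)) ^ 2
      + (φ f 3 + Real.sqrt 2 / 2 * (φ f 2 - φ f 0)) ^ 2 = 2 * hv (φ f) := by
    simp only [hv, nsq_eq, cyc, div_sq2]
    linear_combination ((1/2) * (φ f 0 ^ 2 + φ f 2 ^ 2)) * sq2
  rw [nsq_eq]
  have e1 : om w φ f 1 = (1 - w f 1 ^ 2) * (φ f 1 ^ 2 - φ (f.1 + 1, f.2) 3 ^ 2) := rfl
  have e2 : om w φ f 2 = (1 - w f 2 ^ 2) * (φ f 2 ^ 2 - φ (f.1, f.2 + 1) 0 ^ 2) := rfl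
  rw [e1, e2]
  linarith

/-- curl of `om` at the primal vertex `f + (1,1)` -/
def cl (w φ : Fld) (f : Face) : ℝ :=
  om w φ f 1 + om w φ (f.1+1, f.2) 2 - om w φ (f.1, f.2+1) 1 - om w φ f 2

theorem prod_le (t : ℝ) (ht : 0 < t) (c d : ℝ) : |d ^ 2 + 2 * (c * d)| ≤ (1 + t) * d ^ 2 + c ^ 2 / t := by
  have h : 0 ≤ (c - t * d) ^ 2 / t := by positivity
  have h' : 0 ≤ (c + t * d) ^ 2 / t := by positivity
  have e : (c - t * d) ^ 2 / t = c ^ 2 / t - 2 * (c * d) + t * d ^ 2 := by field_simp; ring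
  have e' : (c + t * d) ^ 2 / t = c ^ 2 / t + 2 * (c * d) + t * d ^ 2 := by field_simp; ring
  rw [abs_le]; constructor
  · nlinarith [sq_nonneg d]
  · nlinarith [sq_nonneg d]

theorem w_sq_le {w : Fld} (hp : IsPlus w) (f : Face) (h : Fin 4) : w f h ^ 2 ≤ 1 := by
  rcases hp f h with h0 | h0
  · rw [h0]; linarith [xc2_hi]
  · rw [h0]; norm_num

theorem sq_add_mul_le {y p q : ℝ} (hy : y ^ 2 ≤ 1) : (p + y * q) ^ 2 ≤ 2 * (p ^ 2 + q ^ 2) := by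
  nlinarith [sq_nonneg (p - y * q), mul_le_mul_of_nonneg_right hy (sq_nonneg q)]

theorem sq_sub_mul_le {y p q : ℝ} (hy : y ^ 2 ≤ 1) : (p - y * q) ^ 2 ≤ 2 * (p ^ 2 + q ^ 2) := by
  nlinarith [sq_nonneg (p + y * q), mul_le_mul_of_nonneg_right hy (sq_nonneg q)]

/-- curl bound -/
theorem cl_le {w : Fld} (hs : Sym w) (hp : IsPlus w) (φ : Fld) (f : Face) {t : ℝ} (ht : 0 < t) :
    |cl w φ f| ≤ 2 * (1 + t) * (nsq (A w φ f) + nsq (A w φ (f.1+1, f.2))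
        + nsq (A w φ (f.1, f.2+1)) + nsq (A w φ (f.1+1, f.2+1)))
      + (4 / t) * (nsq (φ f) + nsq (φ (f.1+1, f.2)) + nsq (φ (f.1, f.2+1))
        + nsq (φ (f.1+1, f.2+1))) := by
  have a1 := A_E w φ f
  have a2 := A_N w φ f
  have a3 := A_N w φ (f.1+1, f.2)
  have a4 := A_W w φ (f.1+1, f.2)
  have a5 := A_S w φ (f.1+1, f.2+1)
  have a6 := A_W w φ (f.1+1, f.2+1)
  have a7 := A_S w φ (f.1, f.2+1)
  have a8 := A_E w φ (f.1, f.2+1)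
  have s1 : w (f.1+1, f.2) 3 = w f 1 := hs f 1
  have s2 : w (f.1, f.2+1) 0 = w f 2 := hs f 2
  have s3 : w (f.1+1, f.2+1) 0 = w (f.1+1, f.2) 2 := hs (f.1+1, f.2) 2
  have s4 : w (f.1+1, f.2+1) 3 = w (f.1, f.2+1) 1 := hs (f.1, f.2+1) 1
  simp only [add_sub_cancel_right, s1, s2, s3, s4] at a1 a2 a3 a4 a5 a6 a7 a8
  have y1 := w_sq_le hp f 1
  have y2 := w_sq_le hp f 2
  have y3 := w_sq_le hp (f.1+1, f.2) 2
  have y4 := w_sq_le hp (f.1, f.2+1) 1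
  have e : cl w φ f =
      -((A w φ f 1 - A w φ f 2) ^ 2 + 2 * ((-(φ f 1 + w f 1 * φ (f.1+1, f.2) 3)) * (A w φ f 1 - A w φ f 2)))
      + ((A w φ (f.1+1, f.2) 2 - A w φ (f.1+1, f.2) 3) ^ 2
        + 2 * ((-(φ (f.1+1, f.2) 3 + w f 1 * φ f 1)) * (A w φ (f.1+1, f.2) 2 - A w φ (f.1+1, f.2) 3)))
      + -((-(A w φ (f.1+1, f.2+1) 0 + A w φ (f.1+1, f.2+1) 3)) ^ 2
        + 2 * ((φ (f.1+1, f.2+1) 3 - w (f.1, f.2+1) 1 * φ (f.1, f.2+1) 1)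
          * (-(A w φ (f.1+1, f.2+1) 0 + A w φ (f.1+1, f.2+1) 3))))
      + ((A w φ (f.1, f.2+1) 0 - A w φ (f.1, f.2+1) 1) ^ 2
        + 2 * ((-(φ (f.1, f.2+1) 1 - w (f.1, f.2+1) 1 * φ (f.1+1, f.2+1) 3))
          * (A w φ (f.1, f.2+1) 0 - A w φ (f.1, f.2+1) 1))) := by
    rw [a1, a2, a3, a4, a5, a6, a7, a8]
    simp only [cl, om, nb_one, nb_two, op_one, op_two]
    ring
  have b1 := prod_le t ht (-(φ f 1 + w f 1 * φ (f.1+1, f.2) 3)) (A w φ f 1 - A w φ f 2)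
  have b2 := prod_le t ht (-(φ (f.1+1, f.2) 3 + w f 1 * φ f 1))
    (A w φ (f.1+1, f.2) 2 - A w φ (f.1+1, f.2) 3)
  have b3 := prod_le t ht (φ (f.1+1, f.2+1) 3 - w (f.1, f.2+1) 1 * φ (f.1, f.2+1) 1)
    (-(A w φ (f.1+1, f.2+1) 0 + A w φ (f.1+1, f.2+1) 3))
  have b4 := prod_le t ht (-(φ (f.1, f.2+1) 1 - w (f.1, f.2+1) 1 * φ (f.1+1, f.2+1) 3))
    (A w φ (f.1, f.2+1) 0 - A w φ (f.1, f.2+1) 1)
  have d1 : (A w φ f 1 - A w φ f 2) ^ 2 ≤ 2 * nsq (A w φ f) := by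
    rw [nsq_eq]
    linarith [sq_nonneg (A w φ f 1 + A w φ f 2), sq_nonneg (A w φ f 0), sq_nonneg (A w φ f 3)]
  have d2 : (A w φ (f.1+1, f.2) 2 - A w φ (f.1+1, f.2) 3) ^ 2 ≤ 2 * nsq (A w φ (f.1+1, f.2)) := by
    rw [nsq_eq]
    linarith [sq_nonneg (A w φ (f.1+1, f.2) 2 + A w φ (f.1+1, f.2) 3),
      sq_nonneg (A w φ (f.1+1, f.2) 0), sq_nonneg (A w φ (f.1+1, f.2) 1)]
  have d3 : (-(A w φ (f.1+1, f.2+1) 0 + A w φ (f.1+1, f.2+1) 3)) ^ 2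
      ≤ 2 * nsq (A w φ (f.1+1, f.2+1)) := by
    rw [nsq_eq]
    linarith [sq_nonneg (A w φ (f.1+1, f.2+1) 0 - A w φ (f.1+1, f.2+1) 3),
      sq_nonneg (A w φ (f.1+1, f.2+1) 1), sq_nonneg (A w φ (f.1+1, f.2+1) 2)]
  have d4 : (A w φ (f.1, f.2+1) 0 - A w φ (f.1, f.2+1) 1) ^ 2 ≤ 2 * nsq (A w φ (f.1, f.2+1)) := by
    rw [nsq_eq]
    linarith [sq_nonneg (A w φ (f.1, f.2+1) 0 + A w φ (f.1, f.2+1) 1),
      sq_nonneg (A w φ (f.1, f.2+1) 2), sq_nonneg (A w φ (f.1, f.2+1) 3)]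
  have c1 : (-(φ f 1 + w f 1 * φ (f.1+1, f.2) 3)) ^ 2 ≤ 2 * (φ f 1 ^ 2 + φ (f.1+1, f.2) 3 ^ 2) := by
    rw [neg_sq]; exact sq_add_mul_le y1
  have c2 : (-(φ (f.1+1, f.2) 3 + w f 1 * φ f 1)) ^ 2 ≤ 2 * (φ (f.1+1, f.2) 3 ^ 2 + φ f 1 ^ 2) := by
    rw [neg_sq]; exact sq_add_mul_le y1
  have c3 : (φ (f.1+1, f.2+1) 3 - w (f.1, f.2+1) 1 * φ (f.1, f.2+1) 1) ^ 2
      ≤ 2 * (φ (f.1+1, f.2+1) 3 ^ 2 + φ (f.1, f.2+1) 1 ^ 2) := sq_sub_mul_le y4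
  have c4 : (-(φ (f.1, f.2+1) 1 - w (f.1, f.2+1) 1 * φ (f.1+1, f.2+1) 3)) ^ 2
      ≤ 2 * (φ (f.1, f.2+1) 1 ^ 2 + φ (f.1+1, f.2+1) 3 ^ 2) := by
    rw [neg_sq]; exact sq_sub_mul_le y4
  have n1 : φ f 1 ^ 2 ≤ nsq (φ f) := by
    rw [nsq_eq]; linarith [sq_nonneg (φ f 0), sq_nonneg (φ f 2), sq_nonneg (φ f 3)]
  have n2 : φ (f.1+1, f.2) 3 ^ 2 ≤ nsq (φ (f.1+1, f.2)) := by
    rw [nsq_eq]
    linarith [sq_nonneg (φ (f.1+1, f.2) 0), sq_nonneg (φ (f.1+1, f.2) 1), sq_nonneg (φ (f.1+1, f.2) 2)]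
  have n3 : φ (f.1+1, f.2+1) 3 ^ 2 ≤ nsq (φ (f.1+1, f.2+1)) := by
    rw [nsq_eq]
    linarith [sq_nonneg (φ (f.1+1, f.2+1) 0), sq_nonneg (φ (f.1+1, f.2+1) 1),
      sq_nonneg (φ (f.1+1, f.2+1) 2)]
  have n4 : φ (f.1, f.2+1) 1 ^ 2 ≤ nsq (φ (f.1, f.2+1)) := by
    rw [nsq_eq]
    linarith [sq_nonneg (φ (f.1, f.2+1) 0), sq_nonneg (φ (f.1, f.2+1) 2), sq_nonneg (φ (f.1, f.2+1) 3)]
  rw [e]
  clear e a1 a2 a3 a4 a5 a6 a7 a8 s1 s2 s3 s4 y1 y2 y3 y4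
  set G1 := nsq (A w φ f)
  set G2 := nsq (A w φ (f.1+1, f.2))
  set G3 := nsq (A w φ (f.1, f.2+1))
  set G4 := nsq (A w φ (f.1+1, f.2+1))
  set Q1 := nsq (φ f)
  set Q2 := nsq (φ (f.1+1, f.2))
  set Q3 := nsq (φ (f.1, f.2+1))
  set Q4 := nsq (φ (f.1+1, f.2+1))
  have ht' : 0 < 1 / t := by positivity
  generalize (A w φ f 1 - A w φ f 2) = D1 at *
  generalize (A w φ (f.1+1, f.2) 2 - A w φ (f.1+1, f.2) 3) = D2 at *
  generalize (-(A w φ (f.1+1, f.2+1) 0 + A w φ (f.1+1, f.2+1) 3)) = D3 at *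
  generalize (A w φ (f.1, f.2+1) 0 - A w φ (f.1, f.2+1) 1) = D4 at *
  generalize (-(φ f 1 + w f 1 * φ (f.1+1, f.2) 3)) = C1 at *
  generalize (-(φ (f.1+1, f.2) 3 + w f 1 * φ f 1)) = C2 at *
  generalize (φ (f.1+1, f.2+1) 3 - w (f.1, f.2+1) 1 * φ (f.1, f.2+1) 1) = C3 at *
  generalize (-(φ (f.1, f.2+1) 1 - w (f.1, f.2+1) 1 * φ (f.1+1, f.2+1) 3)) = C4 at *
  have tri : |-(D1 ^ 2 + 2 * (C1 * D1)) + (D2 ^ 2 + 2 * (C2 * D2)) + -(D3 ^ 2 + 2 * (C3 * D3))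
      + (D4 ^ 2 + 2 * (C4 * D4))| ≤ |D1 ^ 2 + 2 * (C1 * D1)| + |D2 ^ 2 + 2 * (C2 * D2)|
        + |D3 ^ 2 + 2 * (C3 * D3)| + |D4 ^ 2 + 2 * (C4 * D4)| := by
    refine (abs_add_le _ _).trans (add_le_add ?_ le_rfl)
    refine (abs_add_le _ _).trans (add_le_add ?_ (abs_neg _).le)
    refine (abs_add_le _ _).trans (add_le_add (abs_neg _).le le_rfl)
  refine tri.trans ?_
  have hsum : (1 + t) * (D1 ^ 2 + D2 ^ 2 + D3 ^ 2 + D4 ^ 2) ≤ (1 + t) * (2 * G1 + 2 * G2 + 2 * G4 + 2 * G3) :=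
    mul_le_mul_of_nonneg_left (by linarith) (by linarith)
  have csum : (1 / t) * (C1 ^ 2 + C2 ^ 2 + C3 ^ 2 + C4 ^ 2) ≤ (1 / t) * (4 * (Q1 + Q2 + Q3 + Q4)) :=
    mul_le_mul_of_nonneg_left (by linarith) ht'.le
  have r1 : C1 ^ 2 / t = (1 / t) * C1 ^ 2 := by ring
  have r2 : C2 ^ 2 / t = (1 / t) * C2 ^ 2 := by ring
  have r3 : C3 ^ 2 / t = (1 / t) * C3 ^ 2 := by ring
  have r4 : C4 ^ 2 / t = (1 / t) * C4 ^ 2 := by ring
  rw [r1] at b1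
  rw [r2] at b2
  rw [r3] at b3
  rw [r4] at b4
  have r5 : (4 / t) * (Q1 + Q2 + Q3 + Q4) = (1 / t) * (4 * (Q1 + Q2 + Q3 + Q4)) := by ring
  rw [r5]
  linarith

/-- divergence of `om` -/
def dv (w φ : Fld) (f : Face) : ℝ := ∑ h, om w φ f h

/-- mass of the partners across the zero edges -/
def bd' (w φ : Fld) (f : Face) : ℝ := ∑ h, if w f h = 0 then φ (nb f h) (op h) ^ 2 else 0

theorem bd'_nonneg (w φ : Fld) (f : Face) : 0 ≤ bd' w φ f :=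
  sum_nonneg fun h _ => by split_ifs <;> positivity

/-- divergence bound -/
theorem dv_le {w : Fld} (hp : IsPlus w) (φ : Fld) (f : Face) {t : ℝ} (ht : 0 < t) :
    |dv w φ f| ≤ 5 * (1 + t) * nsq (A w φ f) + (30 / t) * nsq (φ f)
      + 30 * hv (φ f) + 2 * bd w φ f + bd' w φ f := by
  have hx := xc_sq'
  have hpt := pt w φ f
  rw [bd_eq hp φ f] at hpt
  have k : ∀ h, om w φ f h = (2 * Real.sqrt 2 + 2) * (w f h ^ 2 * (φ f h ^ 2 - φ (nb f h) (op h) ^ 2))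
      + ((if w f h = 0 then φ f h ^ 2 else 0) - (if w f h = 0 then φ (nb f h) (op h) ^ 2 else 0)) := by
    intro h
    rcases eq_or_ne (w f h) 0 with h0 | h0
    · simp [om, h0]
    · have h1 : w f h ^ 2 = xc ^ 2 := (hp f h).resolve_right h0
      rw [if_neg h0, if_neg h0]
      unfold om
      rw [h1, hx]
      linear_combination (4 * (φ f h ^ 2 - φ (nb f h) (op h) ^ 2)) * sq2
  have e : dv w φ f = (2 * Real.sqrt 2 + 2) * (∑ h, w f h ^ 2 * (φ f h ^ 2 - φ (nb f h) (op h) ^ 2))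
      + (bd w φ f - bd' w φ f) := by
    unfold dv bd bd'
    rw [mul_sum, ← sum_sub_distrib, ← sum_add_distrib]
    exact sum_congr rfl fun h _ => k h
  have hAA : |2 * ∑ h, A0 (φ f) h * A w φ f h| ≤ t * nsq (A w φ f) + nsq (A0 (φ f)) / t := by
    have h : 0 ≤ nsq (fun h => A0 (φ f) h - t * A w φ f h) / t := div_nonneg (nsq_nonneg _) ht.le
    have h' : 0 ≤ nsq (fun h => A0 (φ f) h + t * A w φ f h) / t := div_nonneg (nsq_nonneg _) ht.le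
    have e1 : nsq (fun h => A0 (φ f) h - t * A w φ f h) / t
        = nsq (A0 (φ f)) / t - 2 * ∑ h, A0 (φ f) h * A w φ f h + t * nsq (A w φ f) := by
      simp only [nsq, Fin.sum_univ_four]
      field_simp
      ring
    have e2 : nsq (fun h => A0 (φ f) h + t * A w φ f h) / t
        = nsq (A0 (φ f)) / t + 2 * ∑ h, A0 (φ f) h * A w φ f h + t * nsq (A w φ f) := by
      simp only [nsq, Fin.sum_univ_four]
      field_simp
      ring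
    rw [abs_le]; constructor <;> linarith
  have hA0 : nsq (A0 (φ f)) / t ≤ (6 / t) * nsq (φ f) := by
    have : nsq (A0 (φ f)) ≤ 6 * nsq (φ f) := by
      refine (nsq_A0_le _).trans ?_
      nlinarith [nsq_nonneg (φ f), s2_lt]
    calc nsq (A0 (φ f)) / t ≤ (6 * nsq (φ f)) / t := div_le_div_of_nonneg_right this ht.le
      _ = _ := by ring
  set Z := ∑ h, w f h ^ 2 * (φ f h ^ 2 - φ (nb f h) (op h) ^ 2)
  have hvn := hv_nonneg (φ f)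
  have hbn := bd_nonneg w φ f
  have hbn' := bd'_nonneg w φ f
  have hgn := nsq_nonneg (A w φ f)
  have hZ : |Z| ≤ (1 + t) * nsq (A w φ f) + (6 / t) * nsq (φ f) + 6 * hv (φ f) + 0.18 * bd w φ f := by
    have hb1 : xc ^ 2 * bd w φ f ≤ 0.18 * bd w φ f := mul_le_mul_of_nonneg_right xc2_hi hbn
    have hb2 : 0 ≤ xc ^ 2 * bd w φ f := by positivity
    have hh1 : 4 * Real.sqrt 2 * hv (φ f) ≤ 6 * hv (φ f) := by
      apply mul_le_mul_of_nonneg_right _ hvn; linarith [s2_lt]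
    have hh2 : 0 ≤ 4 * Real.sqrt 2 * hv (φ f) := by positivity
    rw [abs_le] at hAA ⊢
    constructor <;> linarith [hAA.1, hAA.2]
  rw [e]
  have hc : |(2 * Real.sqrt 2 + 2) * Z| ≤ 5 * |Z| := by
    rw [abs_mul, abs_of_nonneg (by positivity)]
    exact mul_le_mul_of_nonneg_right (by linarith [s2_lt]) (abs_nonneg _)
  have h5 : |bd w φ f - bd' w φ f| ≤ bd w φ f + bd' w φ f := by
    rw [abs_le]; constructor <;> linarith
  have := abs_add_le ((2 * Real.sqrt 2 + 2) * Z) (bd w φ f - bd' w φ f)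
  have e6 : (30 / t) * nsq (φ f) = 5 * ((6 / t) * nsq (φ f)) := by ring
  rw [e6]
  linarith

end Crest.Agent.R165.Sqx54
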