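import Mathlib
import Crest.Agent.R165.Sq1_54

/-!
Row 165 (helper54): THE SQUARE TRICK, part 2.  Hodge decomposition of a finitely supported one-form
on `ℤ²` with the potential kernel `pk` of helper583 and the resulting ℓ¹ bound.
-/

set_option autoImplicit false

noncomputable section

namespace Crest.Agent.R165.Sqx54

open Crest.Agent.R165.Tr1x40 Crest.Agent.R165.Pkx583 Finset

/-- finite support -/
def FS (u : Face → ℝ) : Prop := ∃ I : Finset Face, ∀ f, f ∉ I → u f = 0

theorem FS.summable {u : Face → ℝ} (h : FS u) : Summable u := by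
  obtain ⟨I, hI⟩ := h
  exact summable_of_ne_finset_zero hI

theorem FS.mul {u : Face → ℝ} (h : FS u) (c : Face → ℝ) : FS (fun f => c f * u f) := by
  obtain ⟨I, hI⟩ := h
  exact ⟨I, fun f hf => by simp [hI f hf]⟩

theorem FS.add {u v : Face → ℝ} (hu : FS u) (hv : FS v) : FS (fun f => u f + v f) := by
  classical
  obtain ⟨I, hI⟩ := hu
  obtain ⟨J, hJ⟩ := hv
  refine ⟨I ∪ J, fun f hf => ?_⟩
  simp only [mem_union, not_or] at hf
  simp [hI f hf.1, hJ f hf.2]

theorem FS.neg {u : Face → ℝ} (hu : FS u) : FS (fun f => - u f) := by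
  obtain ⟨I, hI⟩ := hu
  exact ⟨I, fun f hf => by simp [hI f hf]⟩

theorem FS.sub {u v : Face → ℝ} (hu : FS u) (hv : FS v) : FS (fun f => u f - v f) := by
  simpa [sub_eq_add_neg] using hu.add hv.neg

theorem FS.abs {u : Face → ℝ} (hu : FS u) : FS (fun f => |u f|) := by
  obtain ⟨I, hI⟩ := hu
  exact ⟨I, fun f hf => by simp [hI f hf]⟩

theorem FS.shift {u : Face → ℝ} (hu : FS u) (v : Face) : FS (fun f => u (f + v)) := by
  classical
  obtain ⟨I, hI⟩ := hu
  refine ⟨I.image (fun g => g - v), fun f hf => hI _ fun h => hf ?_⟩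
  exact mem_image.2 ⟨f + v, h, by simp⟩

theorem tsum_sh (u : Face → ℝ) (v : Face) : ∑' f, u (f + v) = ∑' f, u f :=
  (Equiv.addRight v).tsum_eq u

theorem tsum_mul_sh (c u : Face → ℝ) (v : Face) :
    ∑' f, c f * u (f + v) = ∑' f, c (f - v) * u f := by
  rw [← tsum_sh (fun f => c (f - v) * u f) v]
  simp

/-- unit vectors -/
abbrev e1 : Face := (1, 0)
/-- unit vectors -/
abbrev e2 : Face := (0, 1)

theorem pk_lap' (z : Face) :
    pk (z + e1) + pk (z - e1) + pk (z + e2) + pk (z - e2) - 4 * pk z = if z = 0 then 1 else 0 := by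
  obtain ⟨m, n⟩ := z
  have h := pk_lap m n
  simp only [Prod.mk_add_mk, Prod.mk_sub_mk, add_zero, sub_zero, Prod.mk_eq_zero]
  exact h

/-- `u = G * Δ u` -/
theorem green_rep {u : Face → ℝ} (hu : FS u) (f : Face) :
    ∑' z, pk (f - z) * (u (z + e1) + u (z - e1) + u (z + e2) + u (z - e2) - 4 * u z) = u f := by
  have s1 := ((hu.shift e1).mul (fun z => pk (f - z))).summable
  have s2 := ((hu.shift (-e1)).mul (fun z => pk (f - z))).summable
  have s3 := ((hu.shift e2).mul (fun z => pk (f - z))).summable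
  have s4 := ((hu.shift (-e2)).mul (fun z => pk (f - z))).summable
  have s5 := (hu.mul (fun z => pk (f - z))).summable
  have t1 := ((hu).mul (fun z => pk (f - (z - e1)))).summable
  have t2 := ((hu).mul (fun z => pk (f - (z - -e1)))).summable
  have t3 := ((hu).mul (fun z => pk (f - (z - e2)))).summable
  have t4 := ((hu).mul (fun z => pk (f - (z - -e2)))).summable
  have e : ∀ z, pk (f - z) * (u (z + e1) + u (z - e1) + u (z + e2) + u (z - e2) - 4 * u z)
      = pk (f - z) * u (z + e1) + pk (f - z) * u (z + -e1) + pk (f - z) * u (z + e2)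
        + pk (f - z) * u (z + -e2) - 4 * (pk (f - z) * u z) := by
    intro z; rw [← sub_eq_add_neg, ← sub_eq_add_neg]; ring
  rw [tsum_congr e, Summable.tsum_sub (((s1.add s2).add s3).add s4) (s5.mul_left 4),
    Summable.tsum_add ((s1.add s2).add s3) s4, Summable.tsum_add (s1.add s2) s3,
    Summable.tsum_add s1 s2, tsum_mul_sh (fun z => pk (f - z)) u e1,
    tsum_mul_sh (fun z => pk (f - z)) u (-e1), tsum_mul_sh (fun z => pk (f - z)) u e2,
    tsum_mul_sh (fun z => pk (f - z)) u (-e2), tsum_mul_left,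
    ← Summable.tsum_add t1 t2, ← Summable.tsum_add (t1.add t2) t3,
    ← Summable.tsum_add ((t1.add t2).add t3) t4, ← tsum_mul_left,
    ← Summable.tsum_sub (((t1.add t2).add t3).add t4) (s5.mul_left 4)]
  rw [tsum_eq_single f]
  · have h := pk_lap' (f - f)
    rw [if_pos (sub_self f)] at h
    have e1' : f - (f - e1) = f - f + e1 := by abel
    have e2' : f - (f - -e1) = f - f - e1 := by abel
    have e3' : f - (f - e2) = f - f + e2 := by abel
    have e4' : f - (f - -e2) = f - f - e2 := by abel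
    rw [e1', e2', e3', e4']
    linear_combination (u f) * h
  · intro z hz
    have h := pk_lap' (f - z)
    rw [if_neg (sub_ne_zero.2 hz.symm)] at h
    have e1' : f - (z - e1) = f - z + e1 := by abel
    have e2' : f - (z - -e1) = f - z - e1 := by abel
    have e3' : f - (z - e2) = f - z + e2 := by abel
    have e4' : f - (z - -e2) = f - z - e2 := by abel
    rw [e1', e2', e3', e4']
    linear_combination (u z) * h

/-- divergence -/
def dvg (a b : Face → ℝ) (f : Face) : ℝ := a f - a (f - e1) + b f - b (f - e2)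
/-- curl -/
def crl (a b : Face → ℝ) (f : Face) : ℝ := a f + b (f + e1) - a (f + e2) - b f

theorem FS.dvg {a b : Face → ℝ} (ha : FS a) (hb : FS b) : FS (dvg a b) := by
  unfold Sqx54.dvg
  have h1 := ha.shift (-e1)
  have h2 := hb.shift (-e2)
  simp only [← sub_eq_add_neg] at h1 h2
  exact ((ha.sub h1).add hb).sub h2

theorem FS.crl {a b : Face → ℝ} (ha : FS a) (hb : FS b) : FS (crl a b) := by
  unfold Sqx54.crl
  exact ((ha.add (hb.shift e1)).sub (ha.shift e2)).sub hb

theorem hodge1 {a b : Face → ℝ} (ha : FS a) (hb : FS b) (f : Face) :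
    a f = ∑' z, (pk (f - z + e1) - pk (f - z)) * dvg a b z
      - ∑' z, (pk (f - z) - pk (f - z - e2)) * crl a b z := by
  have hd := ha.dvg hb
  have hc := ha.crl hb
  have s1 := ((hd.shift e1).mul (fun z => pk (f - z))).summable
  have s2 := (hd.mul (fun z => pk (f - z))).summable
  have s3 := (hc.mul (fun z => pk (f - z))).summable
  have s4 := ((hc.shift (-e2)).mul (fun z => pk (f - z))).summable
  rw [← green_rep ha f]
  have e : ∀ z, pk (f - z) * (a (z + e1) + a (z - e1) + a (z + e2) + a (z - e2) - 4 * a z)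
      = (pk (f - z) * dvg a b (z + e1) - pk (f - z) * dvg a b z)
        - (pk (f - z) * crl a b z - pk (f - z) * crl a b (z + -e2)) := by
    intro z
    unfold dvg crl
    have h1 : z + e1 - e1 = z := by abel
    have h2 : z + -e2 + e1 = z + e1 - e2 := by abel
    have h3 : z + -e2 + e2 = z := by abel
    have h4 : z + -e2 = z - e2 := by abel
    rw [h1, h2, h3, h4]; ring
  rw [tsum_congr e, Summable.tsum_sub (s1.sub s2) (s3.sub s4), Summable.tsum_sub s1 s2,
    Summable.tsum_sub s3 s4, tsum_mul_sh (fun z => pk (f - z)) (dvg a b) e1,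
    tsum_mul_sh (fun z => pk (f - z)) (crl a b) (-e2)]
  have t1 := (hd.mul (fun z => pk (f - (z - e1)))).summable
  have t4 := (hc.mul (fun z => pk (f - (z - -e2)))).summable
  rw [← Summable.tsum_sub t1 s2, ← Summable.tsum_sub s3 t4]
  congr 1
  · refine tsum_congr fun z => ?_
    have : f - (z - e1) = f - z + e1 := by abel
    rw [this]; ring
  · refine tsum_congr fun z => ?_
    have : f - (z - -e2) = f - z - e2 := by abel
    rw [this]; ring

theorem hodge2 {a b : Face → ℝ} (ha : FS a) (hb : FS b) (f : Face) :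
    b f = ∑' z, (pk (f - z + e2) - pk (f - z)) * dvg a b z
      + ∑' z, (pk (f - z) - pk (f - z - e1)) * crl a b z := by
  have hd := ha.dvg hb
  have hc := ha.crl hb
  have s1 := ((hd.shift e2).mul (fun z => pk (f - z))).summable
  have s2 := (hd.mul (fun z => pk (f - z))).summable
  have s3 := (hc.mul (fun z => pk (f - z))).summable
  have s4 := ((hc.shift (-e1)).mul (fun z => pk (f - z))).summable
  rw [← green_rep hb f]
  have e : ∀ z, pk (f - z) * (b (z + e1) + b (z - e1) + b (z + e2) + b (z - e2) - 4 * b z)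
      = (pk (f - z) * dvg a b (z + e2) - pk (f - z) * dvg a b z)
        + (pk (f - z) * crl a b z - pk (f - z) * crl a b (z + -e1)) := by
    intro z
    unfold dvg crl
    have h1 : z + e2 - e2 = z := by abel
    have h2 : z + -e1 + e2 = z + e2 - e1 := by abel
    have h3 : z + -e1 + e1 = z := by abel
    have h4 : z + -e1 = z - e1 := by abel
    rw [h1, h2, h3, h4]; ring
  rw [tsum_congr e, Summable.tsum_add (s1.sub s2) (s3.sub s4), Summable.tsum_sub s1 s2,
    Summable.tsum_sub s3 s4, tsum_mul_sh (fun z => pk (f - z)) (dvg a b) e2,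
    tsum_mul_sh (fun z => pk (f - z)) (crl a b) (-e1)]
  have t1 := (hd.mul (fun z => pk (f - (z - e2)))).summable
  have t4 := (hc.mul (fun z => pk (f - (z - -e1)))).summable
  rw [← Summable.tsum_sub t1 s2, ← Summable.tsum_sub s3 t4]
  congr 1
  · refine tsum_congr fun z => ?_
    have : f - (z - e2) = f - z + e2 := by abel
    rw [this]; ring
  · refine tsum_congr fun z => ?_
    have : f - (z - -e1) = f - z - e1 := by abel
    rw [this]; ring

/-- `1 / (1 + |z₁| + |z₂|)` -/
def wt (z : Face) : ℝ := 1 / (1 + |(z.1 : ℝ)| + |(z.2 : ℝ)|)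

theorem wt_nonneg (z : Face) : 0 ≤ wt z := by unfold wt; positivity

theorem grad1 (z : Face) : |pk (z + e1) - pk z| ≤ 100000 * wt z := by
  obtain ⟨m, n⟩ := z
  have h := pk_dx_le m n
  simp only [Prod.mk_add_mk, add_zero, wt]
  have : 0 ≤ 1 / (1 + |(m : ℝ)| + |(n : ℝ)|) := by positivity
  calc _ ≤ _ := h
    _ = 50000 * (1 / (1 + |(m : ℝ)| + |(n : ℝ)|)) := by ring
    _ ≤ _ := by linarith

theorem grad2 (z : Face) : |pk (z + e2) - pk z| ≤ 100000 * wt z := by
  obtain ⟨m, n⟩ := z
  have h := pk_dy_le m n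
  simp only [Prod.mk_add_mk, add_zero, wt]
  have : 0 ≤ 1 / (1 + |(m : ℝ)| + |(n : ℝ)|) := by positivity
  calc _ ≤ _ := h
    _ = 50000 * (1 / (1 + |(m : ℝ)| + |(n : ℝ)|)) := by ring
    _ ≤ _ := by linarith

theorem grad3 (z : Face) : |pk z - pk (z - e1)| ≤ 100000 * wt z := by
  obtain ⟨m, n⟩ := z
  have h := pk_dx_le (m - 1) n
  rw [sub_add_cancel] at h
  simp only [Prod.mk_sub_mk, sub_zero, wt]
  refine h.trans ?_
  have h2 : |(m : ℝ)| ≤ |((m - 1 : ℤ) : ℝ)| + 1 := by
    push_cast
    calc |(m:ℝ)| = |((m:ℝ) - 1) + 1| := by ring_nf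
      _ ≤ |(m:ℝ) - 1| + |(1:ℝ)| := abs_add_le _ _
      _ = _ := by norm_num
  rw [mul_one_div, div_le_div_iff₀ (by positivity) (by positivity)]
  have := abs_nonneg ((m - 1 : ℤ) : ℝ)
  have := abs_nonneg (n : ℝ)
  linarith

theorem grad4 (z : Face) : |pk z - pk (z - e2)| ≤ 100000 * wt z := by
  obtain ⟨m, n⟩ := z
  have h := pk_dy_le m (n - 1)
  rw [sub_add_cancel] at h
  simp only [Prod.mk_sub_mk, sub_zero, wt]
  refine h.trans ?_
  have h2 : |(n : ℝ)| ≤ |((n - 1 : ℤ) : ℝ)| + 1 := by
    push_cast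
    calc |(n:ℝ)| = |((n:ℝ) - 1) + 1| := by ring_nf
      _ ≤ |(n:ℝ) - 1| + |(1:ℝ)| := abs_add_le _ _
      _ = _ := by norm_num
  rw [mul_one_div, div_le_div_iff₀ (by positivity) (by positivity)]
  have := abs_nonneg ((n - 1 : ℤ) : ℝ)
  have := abs_nonneg (m : ℝ)
  linarith

theorem tsum_bound {u : Face → ℝ} (hu : FS u) (c : Face → ℝ) (f : Face)
    (hc : ∀ z, |c z| ≤ 100000 * wt (f - z)) :
    |∑' z, c z * u z| ≤ ∑' z, 100000 * wt (f - z) * |u z| := by
  have s := (hu.mul c)
  have h1 : |∑' z, c z * u z| ≤ ∑' z, |c z * u z| := by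
    have := norm_tsum_le_tsum_norm (f := fun z => c z * u z) (by simpa using s.abs.summable)
    simpa using this
  refine h1.trans (Summable.tsum_le_tsum (fun z => ?_) s.abs.summable
    (hu.abs.mul _).summable)
  rw [abs_mul]
  exact mul_le_mul_of_nonneg_right (hc z) (abs_nonneg _)

/-- **ℓ¹ bound** for a finitely supported one-form on `ℤ²` from its divergence and curl. -/
theorem l1_bound {a b : Face → ℝ} (ha : FS a) (hb : FS b) (E : Finset Face) (κ : ℝ)
    (hκ : ∀ z, ∑ f ∈ E, wt (f - z) ≤ κ) :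
    ∑ f ∈ E, (|a f| + |b f|) ≤ 200000 * κ * (∑' z, |dvg a b z| + ∑' z, |crl a b z|) := by
  have hd := ha.dvg hb
  have hc := ha.crl hb
  have key : ∀ f, |a f| + |b f| ≤ 200000 * (∑' z, wt (f - z) * (|dvg a b z| + |crl a b z|)) := by
    intro f
    have s1 := (hd.abs.mul (fun z => 100000 * wt (f - z))).summable
    have s2 := (hc.abs.mul (fun z => 100000 * wt (f - z))).summable
    have b1 := tsum_bound hd (fun z => pk (f - z + e1) - pk (f - z)) f (fun z => grad1 _)
    have b2 := tsum_bound hc (fun z => pk (f - z) - pk (f - z - e2)) f (fun z => grad4 _)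
    have b3 := tsum_bound hd (fun z => pk (f - z + e2) - pk (f - z)) f (fun z => grad2 _)
    have b4 := tsum_bound hc (fun z => pk (f - z) - pk (f - z - e1)) f (fun z => grad3 _)
    have e : 200000 * (∑' z, wt (f - z) * (|dvg a b z| + |crl a b z|))
        = 2 * (∑' z, 100000 * wt (f - z) * |dvg a b z| + ∑' z, 100000 * wt (f - z) * |crl a b z|) := by
      rw [← Summable.tsum_add s1 s2, ← tsum_mul_left, ← tsum_mul_left]
      exact tsum_congr fun z => by ring
    rw [e]
    have h1 := hodge1 ha hb f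
    have h2 := hodge2 ha hb f
    have k1 : |a f| ≤ |∑' z, (pk (f - z + e1) - pk (f - z)) * dvg a b z|
        + |∑' z, (pk (f - z) - pk (f - z - e2)) * crl a b z| := by
      conv_lhs => rw [h1]
      exact abs_sub _ _
    have k2 : |b f| ≤ |∑' z, (pk (f - z + e2) - pk (f - z)) * dvg a b z|
        + |∑' z, (pk (f - z) - pk (f - z - e1)) * crl a b z| := by
      conv_lhs => rw [h2]
      exact abs_add_le _ _
    linarith
  have hsum : FS (fun z => |dvg a b z| + |crl a b z|) := hd.abs.add hc.abs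
  calc ∑ f ∈ E, (|a f| + |b f|)
      ≤ ∑ f ∈ E, 200000 * (∑' z, wt (f - z) * (|dvg a b z| + |crl a b z|)) :=
        sum_le_sum fun f _ => key f
    _ = 200000 * ∑' z, ∑ f ∈ E, wt (f - z) * (|dvg a b z| + |crl a b z|) := by
        rw [← mul_sum, Summable.tsum_finsetSum (fun f _ => (hsum.mul _).summable)]
    _ = 200000 * ∑' z, (∑ f ∈ E, wt (f - z)) * (|dvg a b z| + |crl a b z|) := by
        congr 1
        exact tsum_congr fun z => by rw [sum_mul]
    _ ≤ 200000 * ∑' z, κ * (|dvg a b z| + |crl a b z|) := by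
        apply mul_le_mul_of_nonneg_left _ (by norm_num)
        refine Summable.tsum_le_tsum (fun z => ?_) (hsum.mul _).summable (hsum.mul _).summable
        exact mul_le_mul_of_nonneg_right (hκ z) (by positivity)
    _ = 200000 * κ * (∑' z, |dvg a b z| + ∑' z, |crl a b z|) := by
        rw [tsum_mul_left, Summable.tsum_add hd.abs.summable hc.abs.summable]; ring

end Crest.Agent.R165.Sqx54
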