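import Mathlib
import Crest.Agent.R165.Sq2_54

/-!
Row 165 (helper54): THE SQUARE TRICK, part 3: the theorems (SQ), (GAP).

For every plus background `w` (`Sym w`, `IsPlus w`: weights `0` or `± x_c`, arbitrary signs and
arbitrary shape), every finitely supported field `φ` and every finite set `E` of faces with
`∑_{f ∈ E} 1 / (1 + |f - z|₁) ≤ κ` for all `z`:
`∑_{f ∈ E} |φ_f|² ≤ C (1 + κ) |φ|₂ |A φ|₂`.
-/

set_option autoImplicit false

noncomputable section

namespace Crest.Agent.R165.Sqx54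

open Crest.Agent.R165.Tr1x40 Crest.Agent.R165.Pkx583 Finset

/-- one layer of neighbours -/
def thick (I : Finset Face) : Finset Face := by
  classical exact I ∪ univ.biUnion fun h : Fin 4 => I.image fun f => nb f h

theorem not_thick {I : Finset Face} {f : Face} (h : f ∉ thick I) : f ∉ I ∧ ∀ k, nb f k ∉ I := by
  classical
  unfold thick at h
  simp only [mem_union, mem_biUnion, mem_univ, true_and, mem_image, not_or, not_exists, not_and] at h
  refine ⟨h.1, fun k hk => ?_⟩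
  exact h.2 (op k) (nb f k) hk (nb_nb_op f k)

theorem subset_thick (I : Finset Face) : I ⊆ thick I := by
  classical
  intro f hf
  unfold thick
  exact mem_union_left _ hf

/-- `φ` vanishes off `I` -/
def Supp (I : Finset Face) (φ : Fld) : Prop := ∀ f, f ∉ I → ∀ h, φ f h = 0

section

variable {I : Finset Face} {w φ : Fld}

theorem Supp.A (hφ : Supp I φ) (w : Fld) : Supp (thick I) (A w φ) := by
  intro f hf h
  obtain ⟨h0, h1⟩ := not_thick hf
  have hz : φ f = 0 := funext fun k => hφ f h0 k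
  have hn : ∀ k, φ (nb f k) (op k) = 0 := fun k => hφ _ (h1 k) _
  unfold Tr1x40.A Y
  rw [hn h, hz]
  fin_cases h <;> simp [A0]

theorem Supp.om (hφ : Supp I φ) (w : Fld) (h : Fin 4) : FS (fun f => om w φ f h) := by
  refine ⟨thick I, fun f hf => ?_⟩
  obtain ⟨h0, h1⟩ := not_thick hf
  simp [Sqx54.om, hφ f h0 h, hφ _ (h1 h) (op h)]

theorem Supp.nsq (hφ : Supp I φ) : FS (fun f => nsq (φ f)) := by
  refine ⟨I, fun f hf => ?_⟩
  simp [Tr1x40.nsq, hφ f hf]

theorem Supp.tsum_nsq (hφ : Supp I φ) {K : Finset Face} (hK : I ⊆ K) :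
    ∑' f, Tr1x40.nsq (φ f) = ∑ f ∈ K, Tr1x40.nsq (φ f) := by
  refine tsum_eq_sum fun f hf => ?_
  simp [Tr1x40.nsq, hφ f (fun h => hf (hK h))]

theorem FS_bd (hφ : Supp I φ) (w : Fld) : FS (fun f => bd w φ f) := by
  refine ⟨I, fun f hf => ?_⟩
  simp [bd, hφ f hf]

theorem FS_bd' (hφ : Supp I φ) (w : Fld) : FS (fun f => bd' w φ f) := by
  refine ⟨thick I, fun f hf => ?_⟩
  obtain ⟨h0, h1⟩ := not_thick hf
  unfold bd'
  refine sum_eq_zero fun h _ => ?_
  simp [hφ _ (h1 h) (op h)]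

theorem FS_hv (hφ : Supp I φ) : FS (fun f => hv (φ f)) := by
  refine ⟨I, fun f hf => ?_⟩
  have : φ f = 0 := funext fun k => hφ f hf k
  simp [this, hv, Tr1x40.nsq, cyc]

theorem trace_tsum (hs : Sym w) (hp : IsPlus w) (hφ : Supp I φ) :
    ∑' f, hv (φ f) + ∑' f, bd w φ f ≤
      30 * (Real.sqrt (∑' f, nsq (φ f)) * Real.sqrt (∑' f, nsq (A w φ f))) := by
  have h := trace_le hs hp φ (thick I) (fun f hf => hφ f (not_thick hf).1)
    (fun f hf h => by rw [hφ _ ((not_thick hf).2 h)]; simp)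
  have e1 : ∑' f, hv (φ f) = ∑ f ∈ thick I, hv (φ f) := tsum_eq_sum fun f hf => by
    have : φ f = 0 := funext fun k => hφ f (not_thick hf).1 k
    simp [this, hv, Tr1x40.nsq, cyc]
  have e2 : ∑' f, bd w φ f = ∑ f ∈ thick I, bd w φ f := tsum_eq_sum fun f hf => by
    simp [bd, hφ f (not_thick hf).1]
  rw [e1, e2, hφ.tsum_nsq (subset_thick I), (hφ.A w).tsum_nsq (le_refl _)]
  exact h

theorem tsum_bd' (hs : Sym w) (hφ : Supp I φ) : ∑' f, bd' w φ f = ∑' f, bd w φ f := by
  have e1 : ∑' f, bd' w φ f = ∑ f ∈ thick I, bd' w φ f := tsum_eq_sum fun f hf => by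
    obtain ⟨h0, h1⟩ := not_thick hf
    unfold bd'
    exact sum_eq_zero fun h _ => by simp [hφ _ (h1 h) (op h)]
  have e2 : ∑' f, bd w φ f = ∑ f ∈ thick I, bd w φ f := tsum_eq_sum fun f hf => by
    simp [bd, hφ f (not_thick hf).1]
  rw [e1, e2]
  have := sum_bar (thick I) (fun f h => if w f h = 0 then φ f h ^ 2 else 0)
    (fun f hf h => by simp [hφ f (not_thick hf).1 h])
    (fun f hf h => by simp [hφ _ ((not_thick hf).2 h) (op h)])
  unfold bd' bd
  rw [← this]
  refine sum_congr rfl fun f _ => sum_congr rfl fun h _ => ?_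
  rw [hs f h]

theorem nsq_add_le (p q : Fin 4 → ℝ) : nsq (fun h => p h + q h) ≤ 2 * nsq p + 2 * nsq q := by
  simp only [nsq_eq]
  nlinarith [sq_nonneg (p 0 - q 0), sq_nonneg (p 1 - q 1), sq_nonneg (p 2 - q 2),
    sq_nonneg (p 3 - q 3)]

/-- `|A φ|² ≤ 13 |φ|²` -/
theorem A_bound (hs : Sym w) (hp : IsPlus w) (hφ : Supp I φ) :
    ∑' f, nsq (A w φ f) ≤ 13 * ∑' f, nsq (φ f) := by
  rw [(hφ.A w).tsum_nsq (le_refl _), hφ.tsum_nsq (subset_thick I)]
  have h1 : ∀ f, nsq (A w φ f) ≤ 12 * nsq (φ f) + 0.36 * ∑ h, φ (nb f h) (op h) ^ 2 := by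
    intro f
    have e : A w φ f = fun h => A0 (φ f) h + Y w φ f h := rfl
    rw [e]
    refine (nsq_add_le _ _).trans ?_
    have a1 : nsq (A0 (φ f)) ≤ 6 * nsq (φ f) := by
      refine (nsq_A0_le _).trans ?_
      nlinarith [nsq_nonneg (φ f), s2_lt]
    have a2 : nsq (Y w φ f) ≤ 0.18 * ∑ h, φ (nb f h) (op h) ^ 2 := by
      rw [nsq_Y, mul_sum]
      refine sum_le_sum fun h _ => mul_le_mul_of_nonneg_right ?_ (sq_nonneg _)
      rcases hp f h with h0 | h0
      · rw [h0]; exact xc2_hi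
      · rw [h0]; norm_num
    have a1' : nsq (fun h => A0 (φ f) h) ≤ 6 * nsq (φ f) := a1
    have a2' : nsq (fun h => Y w φ f h) ≤ 0.18 * ∑ h, φ (nb f h) (op h) ^ 2 := a2
    linarith
  have h2 := sum_bar (thick I) (fun f h => φ f h ^ 2)
    (fun f hf h => by simp [hφ f (not_thick hf).1 h])
    (fun f hf h => by simp [hφ _ ((not_thick hf).2 h) (op h)])
  have h3 : ∑ f ∈ thick I, ∑ h, φ f h ^ 2 = ∑ f ∈ thick I, nsq (φ f) := rfl
  calc ∑ f ∈ thick I, nsq (A w φ f)
      ≤ ∑ f ∈ thick I, (12 * nsq (φ f) + 0.36 * ∑ h, φ (nb f h) (op h) ^ 2) :=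
        sum_le_sum fun f _ => h1 f
    _ = 12 * ∑ f ∈ thick I, nsq (φ f) + 0.36 * ∑ f ∈ thick I, nsq (φ f) := by
        rw [sum_add_distrib, ← mul_sum, ← mul_sum, h2, h3]
    _ ≤ 13 * ∑ f ∈ thick I, nsq (φ f) := by
        have : 0 ≤ ∑ f ∈ thick I, nsq (φ f) := sum_nonneg fun f _ => nsq_nonneg _
        linarith

theorem opt {X a b P R : ℝ} (ha : 0 ≤ a) (hb : 0 ≤ b) (hP : 0 ≤ P) (hR : 0 ≤ R)
    (h : ∀ t : ℝ, 0 < t → X ≤ a * (t * P) + b * (R / t)) :
    X ≤ (a + b) * (Real.sqrt R * Real.sqrt P) := by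
  rcases hP.eq_or_lt with hP0 | hP0
  · -- P = 0
    rw [← hP0]
    simp only [Real.sqrt_zero, mul_zero]
    by_contra hc
    push_neg at hc
    have hbR : 0 < b * R := by
      rcases (mul_nonneg hb hR).eq_or_lt with h0 | h0
      · have := h 1 one_pos
        rw [← hP0] at this
        have e : a * (1 * 0) + b * (R / 1) = b * R := by ring
        rw [e, ← h0] at this
        linarith
      · exact h0
    have := h (2 * (b * R) / X) (by positivity)
    rw [← hP0] at this
    have e : a * (2 * (b * R) / X * 0) + b * (R / (2 * (b * R) / X)) = X / 2 := by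
      have hb0 : b ≠ 0 := by rintro rfl; simp at hbR
      have hR0 : R ≠ 0 := by rintro rfl; simp at hbR
      field_simp
      ring
    rw [e] at this
    linarith
  · rcases hR.eq_or_lt with hR0 | hR0
    · rw [← hR0]
      simp only [Real.sqrt_zero, zero_mul, mul_zero]
      by_contra hc
      push_neg at hc
      have haP : 0 < a * P := by
        rcases (mul_nonneg ha hP).eq_or_lt with h0 | h0
        · have := h 1 one_pos
          rw [← hR0] at this
          have e : a * (1 * P) + b * (0 / 1) = a * P := by ring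
          rw [e, ← h0] at this
          linarith
        · exact h0
      have := h (X / (2 * (a * P))) (by positivity)
      rw [← hR0] at this
      have e : a * (X / (2 * (a * P)) * P) + b * (0 / (X / (2 * (a * P)))) = X / 2 := by
        have ha0 : a ≠ 0 := by rintro rfl; simp at haP
        field_simp
        ring
      rw [e] at this
      linarith
    · have sP := Real.sqrt_pos.2 hP0
      have sR := Real.sqrt_pos.2 hR0
      have := h (Real.sqrt R / Real.sqrt P) (by positivity)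
      have e : a * (Real.sqrt R / Real.sqrt P * P) + b * (R / (Real.sqrt R / Real.sqrt P))
          = (a + b) * (Real.sqrt R * Real.sqrt P) := by
        have h1 : Real.sqrt P * Real.sqrt P = P := Real.mul_self_sqrt hP
        have h2 : Real.sqrt R * Real.sqrt R = R := Real.mul_self_sqrt hR
        have e1 : Real.sqrt R / Real.sqrt P * P = Real.sqrt R * Real.sqrt P := by
          field_simp
          rw [sq, h1]
        have e2 : R / (Real.sqrt R / Real.sqrt P) = Real.sqrt R * Real.sqrt P := by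
          field_simp
          rw [sq, h2]
        rw [e1, e2]; ring
      rwa [e] at this

theorem shift_nsq (φ : Fld) (a b : ℤ) :
    ∑' f : Face, nsq (φ (f.1 + a, f.2 + b)) = ∑' f, nsq (φ f) :=
  tsum_sh (fun f => nsq (φ f)) (a, b)

/-- `ℓ¹` bound of the curl -/
theorem cl_l1 (hs : Sym w) (hp : IsPlus w) (hφ : Supp I φ) {t : ℝ} (ht : 0 < t) :
    ∑' f, |cl w φ f| ≤ 8 * (1 + t) * (∑' f, nsq (A w φ f)) + (16 / t) * ∑' f, nsq (φ f) := by
  have hA := hφ.A w
  have g0 := hA.nsq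
  have q0 := hφ.nsq
  have sg : ∀ a b : ℤ, Summable (fun f : Face => nsq (A w φ (f.1 + a, f.2 + b))) := fun a b =>
    (g0.shift (a, b)).summable
  have sq : ∀ a b : ℤ, Summable (fun f : Face => nsq (φ (f.1 + a, f.2 + b))) := fun a b =>
    (q0.shift (a, b)).summable
  have hcl : FS (fun f => cl w φ f) := by
    have o1 := hφ.om w 1
    have o2 := hφ.om w 2
    have h1 := o2.shift (1, 0)
    have h2 := o1.shift (0, 1)
    have := ((o1.add h1).sub h2).sub o2
    have e : (fun f : Face => om w φ f 1 + om w φ (f + (1, 0)) 2 - om w φ (f + (0, 1)) 1 - om w φ f 2)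
        = fun f => cl w φ f := by
      funext f
      unfold cl
      have e1 : f + (1, 0) = (f.1 + 1, f.2) := by ext <;> simp
      have e2 : f + (0, 1) = (f.1, f.2 + 1) := by ext <;> simp
      rw [e1, e2]
    rwa [e] at this
  have a00 := sg 0 0
  have a10 := sg 1 0
  have a01 := sg 0 1
  have a11 := sg 1 1
  have b00 := sq 0 0
  have b10 := sq 1 0
  have b01 := sq 0 1
  have b11 := sq 1 1
  have k : ∀ f, |cl w φ f| ≤ 2 * (1 + t) * (nsq (A w φ (f.1+0, f.2+0)) + nsq (A w φ (f.1+1, f.2+0))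
        + nsq (A w φ (f.1+0, f.2+1)) + nsq (A w φ (f.1+1, f.2+1)))
      + (4 / t) * (nsq (φ (f.1+0, f.2+0)) + nsq (φ (f.1+1, f.2+0)) + nsq (φ (f.1+0, f.2+1))
        + nsq (φ (f.1+1, f.2+1))) := by
    intro f
    have := cl_le hs hp φ f ht
    simpa using this
  have e1 : ∑' f : Face, (nsq (A w φ (f.1+0, f.2+0)) + nsq (A w φ (f.1+1, f.2+0))
        + nsq (A w φ (f.1+0, f.2+1)) + nsq (A w φ (f.1+1, f.2+1))) = 4 * ∑' f, nsq (A w φ f) := by
    rw [Summable.tsum_add ((a00.add a10).add a01) a11, Summable.tsum_add (a00.add a10) a01,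
      Summable.tsum_add a00 a10, shift_nsq, shift_nsq, shift_nsq, shift_nsq]
    ring
  have e2 : ∑' f : Face, (nsq (φ (f.1+0, f.2+0)) + nsq (φ (f.1+1, f.2+0))
        + nsq (φ (f.1+0, f.2+1)) + nsq (φ (f.1+1, f.2+1))) = 4 * ∑' f, nsq (φ f) := by
    rw [Summable.tsum_add ((b00.add b10).add b01) b11, Summable.tsum_add (b00.add b10) b01,
      Summable.tsum_add b00 b10, shift_nsq, shift_nsq, shift_nsq, shift_nsq]
    ring
  have sA := ((a00.add a10).add a01).add a11
  have sB := ((b00.add b10).add b01).add b11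
  calc ∑' f, |cl w φ f| ≤ _ := Summable.tsum_le_tsum k hcl.abs.summable
        ((sA.mul_left (2 * (1 + t))).add (sB.mul_left (4 / t)))
    _ = _ := by
        rw [Summable.tsum_add (sA.mul_left _) (sB.mul_left _), tsum_mul_left, tsum_mul_left, e1, e2]
        ring

theorem dv_FS (hφ : Supp I φ) (w : Fld) : FS (fun f => dv w φ f) := by
  have := (((hφ.om w 0).add (hφ.om w 1)).add (hφ.om w 2)).add (hφ.om w 3)
  have e : (fun f => om w φ f 0 + om w φ f 1 + om w φ f 2 + om w φ f 3) = fun f => dv w φ f := by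
    funext f; simp [dv, Fin.sum_univ_four]
  rwa [e] at this

/-- `ℓ¹` bound of the divergence -/
theorem dv_l1 (hs : Sym w) (hp : IsPlus w) (hφ : Supp I φ) {t : ℝ} (ht : 0 < t) :
    ∑' f, |dv w φ f| ≤ 5 * (1 + t) * (∑' f, nsq (A w φ f)) + (30 / t) * (∑' f, nsq (φ f))
      + 30 * (∑' f, hv (φ f) + ∑' f, bd w φ f) := by
  have sA := (hφ.A w).nsq.summable
  have sQ := hφ.nsq.summable
  have sH := (FS_hv hφ).summable
  have sB := (FS_bd hφ w).summable
  have sB' := (FS_bd' hφ w).summable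
  have h0 : 0 ≤ ∑' f, bd w φ f := tsum_nonneg fun f => bd_nonneg _ _ _
  have h := Summable.tsum_le_tsum (fun f => dv_le hp φ f ht) (dv_FS hφ w).abs.summable
    (((((sA.mul_left (5 * (1 + t))).add (sQ.mul_left (30 / t))).add (sH.mul_left 30)).add
      (sB.mul_left 2)).add sB')
  rw [Summable.tsum_add ((((sA.mul_left (5 * (1 + t))).add (sQ.mul_left (30 / t))).add
      (sH.mul_left 30)).add (sB.mul_left 2)) sB',
    Summable.tsum_add (((sA.mul_left (5 * (1 + t))).add (sQ.mul_left (30 / t))).add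
      (sH.mul_left 30)) (sB.mul_left 2),
    Summable.tsum_add ((sA.mul_left (5 * (1 + t))).add (sQ.mul_left (30 / t))) (sH.mul_left 30),
    Summable.tsum_add (sA.mul_left (5 * (1 + t))) (sQ.mul_left (30 / t)),
    tsum_mul_left, tsum_mul_left, tsum_mul_left, tsum_mul_left, tsum_bd' hs hφ] at h
  linarith

/-- **(SQ), parametrised form** -/
theorem sq_t (hs : Sym w) (hp : IsPlus w) (hφ : Supp I φ) (E : Finset Face) (κ : ℝ)
    (hκ : ∀ z, ∑ f ∈ E, wt (f - z) ≤ κ) {t : ℝ} (ht : 0 < t) :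
    ∑ f ∈ E, nsq (φ f) ≤ 3000000000 * (1 + κ) * (t * (∑' f, nsq (A w φ f)) + (∑' f, nsq (φ f)) / t) := by
  set G := ∑' f, nsq (A w φ f) with hG
  set Q := ∑' f, nsq (φ f) with hQ
  have hG0 : 0 ≤ G := tsum_nonneg fun f => nsq_nonneg _
  have hQ0 : 0 ≤ Q := tsum_nonneg fun f => nsq_nonneg _
  have hκ0 : 0 ≤ κ := (sum_nonneg fun f _ => wt_nonneg _).trans (hκ 0)
  set R := t * G + Q / t with hR
  have hR0 : 0 ≤ R := by positivity
  have hQt : 0 ≤ Q / t := by positivity
  have htG : 0 ≤ t * G := by positivity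
  have hGQ : G ≤ 13 * Q := A_bound hs hp hφ
  have hGR : G ≤ 13 * R := by
    rcases le_total 1 t with h1 | h1
    · have : G ≤ t * G := by nlinarith
      rw [hR]; linarith
    · have : Q ≤ Q / t := by rw [le_div_iff₀ ht]; nlinarith
      rw [hR]; linarith
  have hsq : Real.sqrt Q * Real.sqrt G ≤ R / 2 := by
    have h1 : 0 ≤ (Real.sqrt Q - t * Real.sqrt G) ^ 2 / t := by positivity
    have e : (Real.sqrt Q - t * Real.sqrt G) ^ 2 / t
        = (Real.sqrt Q * Real.sqrt Q) / t - 2 * (Real.sqrt Q * Real.sqrt G)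
          + t * (Real.sqrt G * Real.sqrt G) := by
      field_simp; ring
    rw [Real.mul_self_sqrt hQ0, Real.mul_self_sqrt hG0] at e
    rw [hR]; linarith
  have hT := trace_tsum hs hp hφ
  rw [← hG, ← hQ] at hT
  have hH0 : 0 ≤ ∑' f, hv (φ f) := tsum_nonneg fun f => hv_nonneg _
  have hB0 : 0 ≤ ∑' f, bd w φ f := tsum_nonneg fun f => bd_nonneg _ _ _
  have hT' : ∑' f, hv (φ f) + ∑' f, bd w φ f ≤ 15 * R := by linarith
  have hcl := cl_l1 hs hp hφ ht
  have hdv := dv_l1 hs hp hφ ht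
  rw [← hG, ← hQ] at hcl hdv
  have e16 : (16 / t) * Q = 16 * (Q / t) := by ring
  have e30 : (30 / t) * Q = 30 * (Q / t) := by ring
  rw [e16] at hcl
  rw [e30] at hdv
  have hcl' : ∑' f, |cl w φ f| ≤ 120 * R := by
    refine hcl.trans ?_
    have : 8 * (1 + t) * G = 8 * G + 8 * (t * G) := by ring
    rw [this, hR] at *
    linarith
  have hdv' : ∑' f, |dv w φ f| ≤ 550 * R := by
    refine hdv.trans ?_
    have : 5 * (1 + t) * G = 5 * G + 5 * (t * G) := by ring
    rw [this]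
    have : t * G ≤ R := by rw [hR]; linarith
    have : Q / t ≤ R := by rw [hR]; linarith
    linarith
  -- the one-form
  have hcrl : ∀ f, crl (fun f => om w φ f 1) (fun f => om w φ f 2) f = cl w φ f := by
    intro f
    unfold crl cl
    have e1 : f + e1 = (f.1 + 1, f.2) := by ext <;> simp
    have e2 : f + e2 = (f.1, f.2 + 1) := by ext <;> simp
    rw [e1, e2]
  have hdvg : ∀ f, dvg (fun f => om w φ f 1) (fun f => om w φ f 2) f = dv w φ f := by
    intro f
    unfold dvg dv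
    rw [Fin.sum_univ_four]
    have e1 : f - e1 = nb f 3 := by ext <;> simp
    have e2 : f - e2 = nb f 0 := by ext <;> simp
    rw [e1, e2]
    have h3 : om w φ (nb f 3) 1 = - om w φ f 3 := om_bar hs φ f 3
    have h0 : om w φ (nb f 0) 2 = - om w φ f 0 := om_bar hs φ f 0
    show om w φ f 1 - om w φ (nb f 3) 1 + om w φ f 2 - om w φ (nb f 0) 2 = _
    rw [h3, h0]; ring
  have hl := l1_bound (hφ.om w 1) (hφ.om w 2) E κ hκ
  simp only [hcrl, hdvg] at hl
  have hl' : ∑ f ∈ E, (|om w φ f 1| + |om w φ f 2|) ≤ 200000 * κ * (670 * R) := by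
    refine hl.trans (mul_le_mul_of_nonneg_left (by linarith) (by positivity))
  -- per-face inequality
  have hbE : ∑ f ∈ E, bd w φ f ≤ ∑' f, bd w φ f :=
    (FS_bd hφ w).summable.sum_le_tsum E fun f _ => bd_nonneg _ _ _
  have hhE : ∑ f ∈ E, hv (φ f) ≤ ∑' f, hv (φ f) :=
    (FS_hv hφ).summable.sum_le_tsum E fun f _ => hv_nonneg _
  have hgE : ∑ f ∈ E, nsq (A w φ f) ≤ G :=
    (hφ.A w).nsq.summable.sum_le_tsum E fun f _ => nsq_nonneg _
  have hsum : ∑ f ∈ E, nsq (φ f) ≤ 16 * ∑ f ∈ E, (|om w φ f 1| + |om w φ f 2|)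
      + 8 * ∑ f ∈ E, bd w φ f + 8000 * (2 * ∑ f ∈ E, hv (φ f) + ∑ f ∈ E, nsq (A w φ f)) := by
    calc ∑ f ∈ E, nsq (φ f) ≤ ∑ f ∈ E, (16 * (|om w φ f 1| + |om w φ f 2|) + 8 * bd w φ f
          + 8000 * (2 * hv (φ f) + nsq (A w φ f))) := sum_le_sum fun f _ => face hp φ f
      _ = _ := by
        simp only [mul_sum, sum_add_distrib, mul_add]
  have hκR : 0 ≤ κ * R := by positivity
  have e3 : 200000 * κ * (670 * R) = 134000000 * (κ * R) := by ring
  rw [e3] at hl'
  have e4 : 3000000000 * (1 + κ) * R = 3000000000 * R + 3000000000 * (κ * R) := by ring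
  rw [e4]
  linarith

/-- **THEOREM (SQ)**: `∑_{f ∈ E} |φ_f|² ≤ C (1 + κ(E)) |φ|₂ |A φ|₂` for every plus background. -/
theorem sq_main (hs : Sym w) (hp : IsPlus w) (hφ : Supp I φ) (E : Finset Face) (κ : ℝ)
    (hκ : ∀ z, ∑ f ∈ E, wt (f - z) ≤ κ) :
    ∑ f ∈ E, nsq (φ f) ≤ 6000000000 * (1 + κ) *
      (Real.sqrt (∑' f, nsq (φ f)) * Real.sqrt (∑' f, nsq (A w φ f))) := by
  have hκ0 : 0 ≤ κ := (sum_nonneg fun f _ => wt_nonneg _).trans (hκ 0)
  have := opt (X := ∑ f ∈ E, nsq (φ f)) (a := 3000000000 * (1 + κ)) (b := 3000000000 * (1 + κ))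
    (P := ∑' f, nsq (A w φ f)) (R := ∑' f, nsq (φ f)) (by positivity) (by positivity)
    (tsum_nonneg fun f => nsq_nonneg _) (tsum_nonneg fun f => nsq_nonneg _)
    (fun t ht => by
      have := sq_t hs hp hφ E κ hκ ht
      calc _ ≤ _ := this
        _ = _ := by ring)
  calc _ ≤ _ := this
    _ = _ := by ring

end

end Crest.Agent.R165.Sqx54
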