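import Mathlib

/-!
# Row 165 (S0250): bounds for `κ(E) = sup_w Σ_{f ∈ E} 1 / (1 + |f - w|₁)` (helper470)

Used by the square trick (helper54, note 966).

* `kap_le_count`  : layer-cake bound by the numbers of points of `E` in the boxes around `w`
* `kap_box`  (K1) : `E` in a box of half side `r`: `κ(E) ≤ 8 (1 + r)`
* `kap_layer` (K2): `#(E ∩ box(w,s)) ≤ M min(s², H s)` and `E` in a box of half side `R`:
  `κ(E) ≤ 3 M H (1 + log (1 + R / H))`
* `kap_lines₁`, `kap_lines₂` (K3): at most `H` points of `E` on every vertical (horizontal) line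
* `kap_union`, `kap_biUnion`, `kap_mono`: subadditivity and monotonicity
-/

set_option autoImplicit false

noncomputable section

open Finset

namespace Crest.Agent.R165.SqKx470

/-- sup distance as a natural number -/
def dN (w f : ℤ × ℤ) : ℕ := max (f.1 - w.1).natAbs (f.2 - w.2).natAbs

/-- the kernel sum -/
def kapS (E : Finset (ℤ × ℤ)) (w : ℤ × ℤ) : ℝ :=
  ∑ f ∈ E, 1 / (1 + |((f.1 : ℝ) - (w.1 : ℝ))| + |((f.2 : ℝ) - (w.2 : ℝ))|)

theorem abs_sub_cast (a b : ℤ) : |((a : ℝ) - (b : ℝ))| = ((a - b).natAbs : ℝ) := by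
  rw [← Int.cast_sub, ← Int.cast_abs, Int.abs_eq_natAbs, Int.cast_natCast]

theorem term_le (w f : ℤ × ℤ) :
    1 / (1 + |((f.1 : ℝ) - (w.1 : ℝ))| + |((f.2 : ℝ) - (w.2 : ℝ))|) ≤ 1 / ((dN w f : ℝ) + 1) := by
  rw [abs_sub_cast, abs_sub_cast]
  apply one_div_le_one_div_of_le (by positivity)
  have : (dN w f : ℝ) ≤ ((f.1 - w.1).natAbs : ℝ) + ((f.2 - w.2).natAbs : ℝ) := by
    unfold dN
    rw [Nat.cast_max]
    exact max_le (by linarith [Nat.cast_nonneg (α := ℝ) (f.2 - w.2).natAbs])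
      (by linarith [Nat.cast_nonneg (α := ℝ) (f.1 - w.1).natAbs])
  linarith

theorem tele (d m : ℕ) : (1 : ℝ) / (d + 1) ≤
    (∑ k ∈ range m, if d ≤ k then 1 / (((k : ℝ) + 1) * (k + 2)) else 0) + 1 / (m + 1) := by
  induction m with
  | zero =>
    simp only [range_zero, sum_empty, zero_add, Nat.cast_zero]
    apply one_div_le_one_div_of_le (by norm_num)
    have : (0 : ℝ) ≤ d := Nat.cast_nonneg _
    linarith
  | succ m ih =>
    rw [sum_range_succ]
    split_ifs with h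
    · have e : (1 : ℝ) / (m + 1) = 1 / (((m : ℝ) + 1) * (m + 2)) + 1 / ((m + 1 : ℕ) + 1) := by
        push_cast
        field_simp
        ring
      linarith
    · rw [not_le] at h
      rw [sum_eq_zero]
      · rw [zero_add, zero_add]
        apply one_div_le_one_div_of_le (by positivity)
        have : ((m + 1 : ℕ) : ℝ) ≤ d := by exact_mod_cast h
        linarith
      · intro k hk
        rw [mem_range] at hk
        rw [if_neg (by omega)]

/-- **layer cake** -/
theorem kap_le_count (E : Finset (ℤ × ℤ)) (w : ℤ × ℤ) (m : ℕ) :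
    kapS E w ≤ (∑ k ∈ range m, ((E.filter fun f => dN w f ≤ k).card : ℝ) *
      (1 / (((k : ℝ) + 1) * (k + 2)))) + (E.card : ℝ) / (m + 1) := by
  calc kapS E w ≤ ∑ f ∈ E, ((∑ k ∈ range m, if dN w f ≤ k then
        1 / (((k : ℝ) + 1) * (k + 2)) else 0) + 1 / ((m : ℝ) + 1)) :=
        sum_le_sum fun f _ => (term_le w f).trans (tele (dN w f) m)
    _ = _ := by
        rw [sum_add_distrib, sum_comm, sum_const, nsmul_eq_mul]
        congr 1
        · refine sum_congr rfl fun k _ => ?_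
          rw [← sum_filter, sum_const, nsmul_eq_mul]
        · ring

theorem kap_mono {E E' : Finset (ℤ × ℤ)} (h : E ⊆ E') (w : ℤ × ℤ) : kapS E w ≤ kapS E' w :=
  sum_le_sum_of_subset_of_nonneg h fun _ _ _ => by positivity

theorem kap_union (E E' : Finset (ℤ × ℤ)) (w : ℤ × ℤ) :
    kapS (E ∪ E') w ≤ kapS E w + kapS E' w := by
  have h : kapS (E ∪ E') w + ∑ f ∈ E ∩ E',
      1 / (1 + |((f.1 : ℝ) - (w.1 : ℝ))| + |((f.2 : ℝ) - (w.2 : ℝ))|) = kapS E w + kapS E' w :=
    sum_union_inter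
  have : 0 ≤ ∑ f ∈ E ∩ E', 1 / (1 + |((f.1 : ℝ) - (w.1 : ℝ))| + |((f.2 : ℝ) - (w.2 : ℝ))|) :=
    sum_nonneg fun _ _ => by positivity
  linarith

theorem kap_biUnion {I : Type*} (s : Finset I) (E : I → Finset (ℤ × ℤ)) (w : ℤ × ℤ) :
    kapS (s.biUnion E) w ≤ ∑ i ∈ s, kapS (E i) w := by
  classical
  induction s using Finset.induction_on with
  | empty => simp [kapS]
  | insert a s ha ih =>
    rw [biUnion_insert, sum_insert ha]
    exact (kap_union _ _ w).trans (by linarith)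

/-! ### boxes -/

/-- the sup-norm box of half side `k` -/
def bx (w : ℤ × ℤ) (k : ℕ) : Finset (ℤ × ℤ) :=
  Icc (w.1 - k) (w.1 + k) ×ˢ Icc (w.2 - k) (w.2 + k)

theorem mem_bx {w f : ℤ × ℤ} {k : ℕ} : f ∈ bx w k ↔ dN w f ≤ k := by
  unfold bx dN
  rw [mem_product, mem_Icc, mem_Icc, max_le_iff]
  constructor
  · rintro ⟨⟨h1, h2⟩, h3, h4⟩
    constructor <;> omega
  · rintro ⟨h1, h2⟩
    refine ⟨⟨?_, ?_⟩, ?_, ?_⟩ <;> omega

theorem card_bx (w : ℤ × ℤ) (k : ℕ) : (bx w k).card = (2 * k + 1) ^ 2 := by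
  unfold bx
  rw [card_product, Int.card_Icc, Int.card_Icc]
  have h1 : (w.1 + k + 1 - (w.1 - k)).toNat = 2 * k + 1 := by omega
  have h2 : (w.2 + k + 1 - (w.2 - k)).toNat = 2 * k + 1 := by omega
  rw [h1, h2]
  ring

theorem card_filter_le (E : Finset (ℤ × ℤ)) (w : ℤ × ℤ) (k : ℕ) :
    (E.filter fun f => dN w f ≤ k).card ≤ (2 * k + 1) ^ 2 := by
  rw [← card_bx w k]
  exact card_le_card fun f hf => mem_bx.2 (mem_filter.1 hf).2

/-- (K1), natural number form -/
theorem kap_bx {E : Finset (ℤ × ℤ)} {c : ℤ × ℤ} {m : ℕ} (hE : E ⊆ bx c m) (w : ℤ × ℤ) :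
    kapS E w ≤ 8 * m + 4 := by
  have h1 := kap_le_count E w m
  have h2 : (∑ k ∈ range m, ((E.filter fun f => dN w f ≤ k).card : ℝ) *
      (1 / (((k : ℝ) + 1) * (k + 2)))) ≤ ∑ _k ∈ range m, (4 : ℝ) := by
    refine sum_le_sum fun k _ => ?_
    have h : ((E.filter fun f => dN w f ≤ k).card : ℝ) ≤ (2 * k + 1) ^ 2 := by
      exact_mod_cast card_filter_le E w k
    rw [mul_one_div, div_le_iff₀ (by positivity)]
    have : (0 : ℝ) ≤ k := Nat.cast_nonneg _
    nlinarith
  have h3 : (E.card : ℝ) / (m + 1) ≤ 4 * m + 4 := by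
    have h : (E.card : ℝ) ≤ (2 * m + 1) ^ 2 := by
      have := card_le_card hE
      rw [card_bx] at this
      exact_mod_cast this
    rw [div_le_iff₀ (by positivity)]
    have : (0 : ℝ) ≤ m := Nat.cast_nonneg _
    nlinarith
  rw [sum_const, card_range, nsmul_eq_mul] at h2
  linarith

theorem subset_bx_of_abs_le {E : Finset (ℤ × ℤ)} {c : ℤ × ℤ} {r : ℝ}
    (hE : ∀ f ∈ E, |((f.1 : ℝ) - (c.1 : ℝ))| ≤ r ∧ |((f.2 : ℝ) - (c.2 : ℝ))| ≤ r) :
    E ⊆ bx c ⌊r⌋₊ := by
  intro f hf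
  rw [mem_bx]
  obtain ⟨h1, h2⟩ := hE f hf
  rw [abs_sub_cast] at h1 h2
  exact max_le (Nat.le_floor h1) (Nat.le_floor h2)

/-- **(K1)** -/
theorem kap_box {E : Finset (ℤ × ℤ)} {c : ℤ × ℤ} {r : ℝ} (hr : 0 ≤ r)
    (hE : ∀ f ∈ E, |((f.1 : ℝ) - (c.1 : ℝ))| ≤ r ∧ |((f.2 : ℝ) - (c.2 : ℝ))| ≤ r) (w : ℤ × ℤ) :
    kapS E w ≤ 8 * (1 + r) := by
  have h := kap_bx (subset_bx_of_abs_le hE) w
  have h2 := Nat.floor_le hr
  linarith

/-! ### layers -/

theorem sum_inv_le_log {h r : ℕ} (hh : 1 ≤ h) (hr : h ≤ r) :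
    ∑ k ∈ Ico h r, (1 : ℝ) / (k + 1) ≤ Real.log (r / h) := by
  induction r, hr using Nat.le_induction with
  | base =>
    have : (h : ℝ) ≠ 0 := by positivity
    simp [this]
  | succ r hr ih =>
    rw [sum_Ico_succ_top hr]
    have h0 : (0 : ℝ) < h := by exact_mod_cast hh
    have hr0 : (0 : ℝ) < r := by exact_mod_cast (lt_of_lt_of_le hh hr)
    have e : Real.log (((r + 1 : ℕ) : ℝ) / h) = Real.log (r / h) + Real.log ((r + 1) / r) := by
      rw [← Real.log_mul (by positivity) (by positivity)]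
      congr 1
      push_cast
      field_simp
    have e2 : (1 : ℝ) / (r + 1) ≤ Real.log ((r + 1) / r) := by
      have h3 := Real.add_one_le_exp (-(1 / ((r : ℝ) + 1)))
      have h4 : -(1 / ((r : ℝ) + 1)) + 1 = (r : ℝ) / (r + 1) := by field_simp; ring
      rw [h4] at h3
      have h5 := Real.log_le_log (by positivity) h3
      rw [Real.log_exp] at h5
      have h6 : Real.log ((r : ℝ) / (r + 1)) = -Real.log ((r + 1) / r) := by
        rw [← Real.log_inv, inv_div]
      linarith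
    rw [e]
    linarith

/-- **(K2)**, natural number form of the radius -/
theorem kap_layer_nat {E : Finset (ℤ × ℤ)} {M H : ℝ} (hM : 0 ≤ M) (hH : 1 ≤ H) {m : ℕ}
    (hm : 1 ≤ m) (hcard : (E.card : ℝ) ≤ M * (H * m)) (w : ℤ × ℤ)
    (hE : ∀ s : ℕ, 1 ≤ s → ((E.filter fun f => dN w f ≤ s).card : ℝ) ≤
      M * min ((s : ℝ) ^ 2) (H * s)) :
    kapS E w ≤ M * H * (3 + Real.log (1 + m / H)) := by
  set h : ℕ := min ⌊H⌋₊ m with hh
  have hH1 : 1 ≤ ⌊H⌋₊ := Nat.le_floor (by simpa using hH)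
  have h1 : 1 ≤ h := le_min hH1 hm
  have hm' : h ≤ m := min_le_right _ _
  have hHf : (h : ℝ) ≤ H := (Nat.cast_le.2 (min_le_left _ _)).trans (Nat.floor_le (by linarith))
  have hH0 : 0 < H := by linarith
  have hm0 : (0 : ℝ) < m := by exact_mod_cast hm
  -- bounds for the counts
  have cnt : ∀ k : ℕ, ((E.filter fun f => dN w f ≤ k).card : ℝ) ≤
      M * min (((k : ℝ) + 1) ^ 2) (H * (k + 1)) := by
    intro k
    have hsub : (E.filter fun f => dN w f ≤ k).card ≤ (E.filter fun f => dN w f ≤ k + 1).card :=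
      card_le_card fun f hf => by
        rw [mem_filter] at hf ⊢
        exact ⟨hf.1, by omega⟩
    have h2 := hE (k + 1) (by omega)
    push_cast at h2
    exact (Nat.cast_le.2 hsub).trans h2
  have base := kap_le_count E w m
  have split : (∑ k ∈ range m, ((E.filter fun f => dN w f ≤ k).card : ℝ) *
      (1 / (((k : ℝ) + 1) * (k + 2)))) =
      (∑ k ∈ range h, ((E.filter fun f => dN w f ≤ k).card : ℝ) *
      (1 / (((k : ℝ) + 1) * (k + 2)))) + ∑ k ∈ Ico h m, ((E.filter fun f => dN w f ≤ k).card : ℝ) *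
      (1 / (((k : ℝ) + 1) * (k + 2))) := (sum_range_add_sum_Ico _ hm').symm
  have pA : (∑ k ∈ range h, ((E.filter fun f => dN w f ≤ k).card : ℝ) *
      (1 / (((k : ℝ) + 1) * (k + 2)))) ≤ M * H := by
    calc _ ≤ ∑ _k ∈ range h, M := by
          refine sum_le_sum fun k _ => ?_
          have h2 := (cnt k).trans (mul_le_mul_of_nonneg_left (min_le_left _ _) hM)
          rw [mul_one_div, div_le_iff₀ (by positivity)]
          refine h2.trans (mul_le_mul_of_nonneg_left ?_ hM)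
          have : (0 : ℝ) ≤ k := Nat.cast_nonneg _
          nlinarith
      _ = h * M := by rw [sum_const, card_range, nsmul_eq_mul]
      _ ≤ M * H := by nlinarith
  have pB : (∑ k ∈ Ico h m, ((E.filter fun f => dN w f ≤ k).card : ℝ) *
      (1 / (((k : ℝ) + 1) * (k + 2)))) ≤ M * H * (1 + Real.log (1 + m / H)) := by
    calc _ ≤ ∑ k ∈ Ico h m, M * H * (1 / ((k : ℝ) + 1)) := by
          refine sum_le_sum fun k _ => ?_
          have h2 := (cnt k).trans (mul_le_mul_of_nonneg_left (min_le_right _ _) hM)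
          have h3 : ((E.filter fun f => dN w f ≤ k).card : ℝ) * (1 / (((k : ℝ) + 1) * (k + 2))) ≤
              M * (H * (k + 1)) * (1 / (((k : ℝ) + 1) * (k + 2))) :=
            mul_le_mul_of_nonneg_right h2 (by positivity)
          refine h3.trans ?_
          have h4 : M * (H * ((k : ℝ) + 1)) * (1 / (((k : ℝ) + 1) * (k + 2))) =
              M * H * (1 / ((k : ℝ) + 2)) := by
            field_simp
          rw [h4]
          refine mul_le_mul_of_nonneg_left ?_ (by positivity)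
          apply one_div_le_one_div_of_le (by positivity)
          linarith
      _ = M * H * ∑ k ∈ Ico h m, (1 : ℝ) / (k + 1) := by rw [mul_sum]
      _ ≤ M * H * Real.log (m / h) :=
          mul_le_mul_of_nonneg_left (sum_inv_le_log h1 hm') (by positivity)
      _ ≤ M * H * (1 + Real.log (1 + m / H)) := by
          refine mul_le_mul_of_nonneg_left ?_ (by positivity)
          have hh0 : (0 : ℝ) < h := by exact_mod_cast h1
          have hlog2 : Real.log 2 ≤ 1 := by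
            have := Real.log_two_lt_d9
            linarith
          rcases le_total ⌊H⌋₊ m with hc | hc
          · have hh2 : h = ⌊H⌋₊ := min_eq_left hc
            have hlow : H / 2 ≤ (h : ℝ) := by
              rw [hh2]
              have := Nat.lt_floor_add_one H
              have h7 : (1 : ℝ) ≤ (⌊H⌋₊ : ℝ) := by exact_mod_cast hH1
              linarith
            have h8 : (m : ℝ) / h ≤ 2 * (1 + m / H) := by
              rw [div_le_iff₀ hh0]
              have e : 2 * (1 + (m : ℝ) / H) * h = 2 * h + 2 * h / H * m := by ring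
              rw [e]
              have h9 : 1 ≤ 2 * (h : ℝ) / H := by rw [le_div_iff₀ hH0]; linarith
              nlinarith
            have h10 := Real.log_le_log (by positivity) h8
            rw [Real.log_mul (by norm_num) (by positivity)] at h10
            linarith
          · have hh2 : h = m := min_eq_right hc
            rw [hh2, div_self hm0.ne', Real.log_one]
            have : 0 ≤ Real.log (1 + (m : ℝ) / H) := Real.log_nonneg (by
              have : 0 ≤ (m : ℝ) / H := by positivity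
              linarith)
            linarith
  have pC : (E.card : ℝ) / (m + 1) ≤ M * H := by
    rw [div_le_iff₀ (by positivity)]
    have : 0 ≤ M * H := by positivity
    nlinarith
  rw [split] at base
  nlinarith

/-- **(K2)** layers: `#(E ∩ box(v,s)) ≤ M min(s², H s)` for all `v` and `s ≥ 1`, `E` in a box of
half side `R` -/
theorem kap_layer {E : Finset (ℤ × ℤ)} {M H R : ℝ} (hM : 0 ≤ M) (hH : 1 ≤ H) (hR : 0 ≤ R)
    {c : ℤ × ℤ}
    (hc : ∀ f ∈ E, |((f.1 : ℝ) - (c.1 : ℝ))| ≤ R ∧ |((f.2 : ℝ) - (c.2 : ℝ))| ≤ R)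
    (hE : ∀ (v : ℤ × ℤ) (s : ℕ), 1 ≤ s → ((E.filter fun f => dN v f ≤ s).card : ℝ) ≤
      M * min ((s : ℝ) ^ 2) (H * s)) (w : ℤ × ℤ) :
    kapS E w ≤ 4 * M * H * (1 + Real.log (1 + R / H)) := by
  set m : ℕ := ⌊R⌋₊ + 1 with hm
  have hcard : (E.card : ℝ) ≤ M * (H * m) := by
    have h1 := hE c m (by omega)
    have h2 : E.filter (fun f => dN c f ≤ m) = E := by
      rw [filter_eq_self]
      intro f hf
      have := mem_bx.1 (subset_bx_of_abs_le hc hf)
      omega
    rw [h2] at h1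
    exact h1.trans (mul_le_mul_of_nonneg_left (min_le_right _ _) hM)
  have h3 := kap_layer_nat hM hH (by omega : 1 ≤ m) hcard w (hE w)
  refine h3.trans ?_
  have hH0 : 0 < H := by linarith
  have hmR : (m : ℝ) ≤ R + 1 := by
    rw [hm]
    push_cast
    linarith [Nat.floor_le hR]
  have h4 : 1 + (m : ℝ) / H ≤ 2 * (1 + R / H) := by
    have h5 : (m : ℝ) / H ≤ (R + 1) / H := by gcongr
    have h6 : (R + 1) / H = R / H + 1 / H := by ring
    have h7 : 1 / H ≤ 1 := by rw [div_le_one hH0]; exact hH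
    have h8 : 0 ≤ R / H := by positivity
    linarith
  have h9 := Real.log_le_log (by positivity) h4
  rw [Real.log_mul (by norm_num) (by positivity)] at h9
  have hlog2 : Real.log 2 ≤ 1 := by
    have := Real.log_two_lt_d9
    linarith
  have h10 : 0 ≤ Real.log (1 + R / H) := Real.log_nonneg (by
    have : 0 ≤ R / H := by positivity
    linarith)
  have h11 : 0 ≤ M * H := by positivity
  have h12 : 3 + Real.log (1 + (m : ℝ) / H) ≤ 4 * (1 + Real.log (1 + R / H)) := by linarith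
  calc M * H * (3 + Real.log (1 + (m : ℝ) / H)) ≤ M * H * (4 * (1 + Real.log (1 + R / H))) :=
        mul_le_mul_of_nonneg_left h12 h11
    _ = _ := by ring

/-! ### few points on every line -/

theorem card_lines₁ {E : Finset (ℤ × ℤ)} {H : ℝ}
    (hE : ∀ i : ℤ, ((E.filter fun f => f.1 = i).card : ℝ) ≤ H) (v : ℤ × ℤ) (s : ℕ) :
    ((E.filter fun f => dN v f ≤ s).card : ℝ) ≤ (2 * s + 1) * H := by
  have h1 : (E.filter fun f => dN v f ≤ s) ⊆
      (Icc (v.1 - s) (v.1 + s)).biUnion fun i => E.filter fun f => f.1 = i := by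
    intro f hf
    rw [mem_filter] at hf
    have h2 : (f.1 - v.1).natAbs ≤ s := (le_max_left _ _).trans hf.2
    rw [mem_biUnion]
    exact ⟨f.1, by rw [mem_Icc]; omega, mem_filter.2 ⟨hf.1, rfl⟩⟩
  have h2 := (card_le_card h1).trans card_biUnion_le
  have h3 : (((E.filter fun f => dN v f ≤ s).card : ℕ) : ℝ) ≤
      ∑ i ∈ Icc (v.1 - s) (v.1 + s), ((E.filter fun f => f.1 = i).card : ℝ) := by
    exact_mod_cast h2
  refine h3.trans ((sum_le_sum fun i _ => hE i).trans (le_of_eq ?_))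
  rw [sum_const, Int.card_Icc, nsmul_eq_mul]
  have : (v.1 + s + 1 - (v.1 - s)).toNat = 2 * s + 1 := by omega
  rw [this]
  push_cast
  ring

theorem card_lines₂ {E : Finset (ℤ × ℤ)} {H : ℝ}
    (hE : ∀ i : ℤ, ((E.filter fun f => f.2 = i).card : ℝ) ≤ H) (v : ℤ × ℤ) (s : ℕ) :
    ((E.filter fun f => dN v f ≤ s).card : ℝ) ≤ (2 * s + 1) * H := by
  have h1 : (E.filter fun f => dN v f ≤ s) ⊆
      (Icc (v.2 - s) (v.2 + s)).biUnion fun i => E.filter fun f => f.2 = i := by
    intro f hf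
    rw [mem_filter] at hf
    have h2 : (f.2 - v.2).natAbs ≤ s := (le_max_right _ _).trans hf.2
    rw [mem_biUnion]
    exact ⟨f.2, by rw [mem_Icc]; omega, mem_filter.2 ⟨hf.1, rfl⟩⟩
  have h2 := (card_le_card h1).trans card_biUnion_le
  have h3 : (((E.filter fun f => dN v f ≤ s).card : ℕ) : ℝ) ≤
      ∑ i ∈ Icc (v.2 - s) (v.2 + s), ((E.filter fun f => f.2 = i).card : ℝ) := by
    exact_mod_cast h2
  refine h3.trans ((sum_le_sum fun i _ => hE i).trans (le_of_eq ?_))
  rw [sum_const, Int.card_Icc, nsmul_eq_mul]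
  have : (v.2 + s + 1 - (v.2 - s)).toNat = 2 * s + 1 := by omega
  rw [this]
  push_cast
  ring

theorem min_of_lines {E : Finset (ℤ × ℤ)} {H : ℝ} (v : ℤ × ℤ) (s : ℕ) (hs : 1 ≤ s)
    (hH : 0 ≤ H) (h : ((E.filter fun f => dN v f ≤ s).card : ℝ) ≤ (2 * s + 1) * H) :
    ((E.filter fun f => dN v f ≤ s).card : ℝ) ≤ 9 * min ((s : ℝ) ^ 2) (H * s) := by
  have hs' : (1 : ℝ) ≤ s := by exact_mod_cast hs
  have h2 : ((E.filter fun f => dN v f ≤ s).card : ℝ) ≤ (2 * s + 1) ^ 2 := by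
    exact_mod_cast card_filter_le E v s
  rcases le_total ((s : ℝ) ^ 2) (H * s) with h3 | h3
  · rw [min_eq_left h3]
    nlinarith
  · rw [min_eq_right h3]
    nlinarith

/-- **(K3)** at most `H` points on every vertical line -/
theorem kap_lines₁ {E : Finset (ℤ × ℤ)} {H R : ℝ} (hH : 1 ≤ H) (hR : 0 ≤ R) {c : ℤ × ℤ}
    (hc : ∀ f ∈ E, |((f.1 : ℝ) - (c.1 : ℝ))| ≤ R ∧ |((f.2 : ℝ) - (c.2 : ℝ))| ≤ R)
    (hE : ∀ i : ℤ, ((E.filter fun f => f.1 = i).card : ℝ) ≤ H) (w : ℤ × ℤ) :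
    kapS E w ≤ 36 * H * (1 + Real.log (1 + R / H)) := by
  have h := kap_layer (M := 9) (by norm_num) hH hR hc (fun v s hs =>
    min_of_lines v s hs (by linarith) (card_lines₁ hE v s)) w
  linarith

/-- **(K3)** at most `H` points on every horizontal line -/
theorem kap_lines₂ {E : Finset (ℤ × ℤ)} {H R : ℝ} (hH : 1 ≤ H) (hR : 0 ≤ R) {c : ℤ × ℤ}
    (hc : ∀ f ∈ E, |((f.1 : ℝ) - (c.1 : ℝ))| ≤ R ∧ |((f.2 : ℝ) - (c.2 : ℝ))| ≤ R)
    (hE : ∀ i : ℤ, ((E.filter fun f => f.2 = i).card : ℝ) ≤ H) (w : ℤ × ℤ) :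
    kapS E w ≤ 36 * H * (1 + Real.log (1 + R / H)) := by
  have h := kap_layer (M := 9) (by norm_num) hH hR hc (fun v s hs =>
    min_of_lines v s hs (by linarith) (card_lines₂ hE v s)) w
  linarith

/-- thin layers: width `H = δ R` -/
theorem layer_delta {δ R : ℝ} (hδ : 0 < δ) (hR : 0 < R) :
    (δ * R) * (1 + Real.log (1 + R / (δ * R))) = R * (δ * (1 + Real.log (1 + 1 / δ))) := by
  have : R / (δ * R) = 1 / δ := by field_simp
  rw [this]
  ring

/-- `δ (1 + log (1 + 1/δ)) ≤ 4 √δ` for `0 < δ ≤ 1` -/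
theorem delta_log_le {δ : ℝ} (hδ : 0 < δ) (h1 : δ ≤ 1) :
    δ * (1 + Real.log (1 + 1 / δ)) ≤ 4 * Real.sqrt δ := by
  have hs : 0 < Real.sqrt δ := Real.sqrt_pos.2 hδ
  have hs1 : Real.sqrt δ ≤ 1 := Real.sqrt_le_one.2 h1
  have hsq : Real.sqrt δ * Real.sqrt δ = δ := Real.mul_self_sqrt hδ.le
  -- `log (1 + 1/δ) ≤ log (2/δ) = log 2 + 2 log (1/√δ) ≤ 1 + 2 (1/√δ - 1)`
  have h2 : 1 + 1 / δ ≤ 2 * (1 / Real.sqrt δ * (1 / Real.sqrt δ)) := by
    have e : 1 / Real.sqrt δ * (1 / Real.sqrt δ) = 1 / δ := by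
      rw [one_div_mul_one_div, hsq]
    rw [e]
    have : 1 ≤ 1 / δ := by rw [le_div_iff₀ hδ]; linarith
    linarith
  have h3 := Real.log_le_log (by positivity) h2
  rw [Real.log_mul (by norm_num) (by positivity), Real.log_mul (by positivity) (by positivity)] at h3
  have h4 := Real.log_le_sub_one_of_pos (x := 1 / Real.sqrt δ) (by positivity)
  have h5 := Real.log_two_lt_d9
  have h6 : 1 + Real.log (1 + 1 / δ) ≤ 2 * (1 / Real.sqrt δ) := by linarith
  have h7 : δ * (2 * (1 / Real.sqrt δ)) = 2 * Real.sqrt δ := by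
    field_simp
    rw [Real.sq_sqrt hδ.le]
  nlinarith [mul_le_mul_of_nonneg_left h6 hδ.le]

end Crest.Agent.R165.SqKx470
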