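import Mathlib
import Crest.Agent.R165.Sq3_54
import Crest.Agent.R165.SqK_470
import Crest.Agent.R165.RIface_891
import Crest.Agent.R165.NcCut_811

/-!
Row 165 (helper54): THE SQUARE TRICK, part 4: the instances used by the other blocks.

* `sq811 : NcCutx811.SQ 3000000000`
* `gapU : RIfx891.GapU 110000000000`
* `nc_gen`, `nc_pt`: no concentration for arbitrary fields on a box
-/

set_option autoImplicit false

noncomputable section

namespace Crest.Agent.R165.Sqx54

open Crest.Agent.R165.Tr1x40 Crest.Agent.R165.Pkx583 Finset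

theorem wt_of_kap {E : Finset Face} {κ : ℝ} (h : NcCutx811.kap E κ) (z : Face) :
    ∑ f ∈ E, wt (f - z) ≤ κ := by
  refine le_trans (le_of_eq (sum_congr rfl fun f _ => ?_)) (h z)
  unfold wt
  simp only [Prod.fst_sub, Prod.snd_sub, Int.cast_sub]

theorem kap_of_kapS {E : Finset Face} {κ : ℝ} (h : ∀ z, SqKx470.kapS E z ≤ κ) :
    NcCutx811.kap E κ := fun z => h z

/-- the box has `κ ≤ 8 (1 + r)` -/
theorem kap_bx (x : Face) {r : ℝ} (hr : 0 ≤ r) : NcCutx811.kap (RIfx891.bx x r) (8 * (1 + r)) :=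
  kap_of_kapS fun z => SqKx470.kap_box (c := x) hr (fun f hf => RIfx891.mem_bx_real.1 hf) z

/-- a single face has `κ ≤ 1` -/
theorem kap_single (f : Face) : NcCutx811.kap {f} 1 := by
  intro z
  rw [sum_singleton, div_le_one (by positivity)]
  have h1 := abs_nonneg ((f.1 : ℝ) - z.1)
  have h2 := abs_nonneg ((f.2 : ℝ) - z.2)
  linarith

theorem kap_nonneg {E : Finset Face} {κ : ℝ} (h : NcCutx811.kap E κ) : 0 ≤ κ :=
  (sum_nonneg fun f _ => by positivity).trans (h (0, 0))

/-- **(SQ)** in the form of helper811 -/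
theorem sq811 : NcCutx811.SQ 3000000000 := by
  intro w φ K hs hp h0 h1 E κ t ht hκ
  have hφ : Supp K φ := h0
  have := sq_t hs hp hφ E κ (wt_of_kap hκ) ht
  have e1 : ∑' f, nsq (A w φ f) = ∑ f ∈ K, nsq (A w φ f) := by
    refine tsum_eq_sum fun f hf => ?_
    have e : A w φ f = 0 := by
      funext h
      have a : φ f = 0 := funext fun k => h0 f hf k
      have b := h1 f hf h
      unfold A Y
      rw [a, mul_assoc, b]
      fin_cases h <;> simp [A0]
    rw [e]
    simp [nsq]
  have e2 : ∑' f, nsq (φ f) = ∑ f ∈ K, nsq (φ f) := hφ.tsum_nsq (le_refl _)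
  rw [e1, e2] at this
  have e3 : (∑ f ∈ K, nsq (φ f)) / t = t⁻¹ * ∑ f ∈ K, nsq (φ f) := by rw [div_eq_inv_mul]
  rwa [e3] at this

/-! ### the gap -/

/-- weights killed off the half-edges touching the box -/
def wres (x : Face) (r : ℝ) (w : Fld) : Fld := fun f h =>
  if f ∈ RIfx891.bx x r ∨ nb f h ∈ RIfx891.bx x r then w f h else 0

theorem sym_wres (x : Face) (r : ℝ) {w : Fld} (hw : Sym w) : Sym (wres x r w) := by
  intro f h
  unfold wres
  rw [nb_nb_op, hw f h]
  by_cases h1 : f ∈ RIfx891.bx x r <;> by_cases h2 : nb f h ∈ RIfx891.bx x r <;> simp [h1, h2]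

theorem isPlus_wres {x : Face} {r : ℝ} {w : Fld} (hw : Sym w) (hp : RIfx891.IsPlusOn w x r) :
    IsPlus (wres x r w) := by
  intro f h
  unfold wres
  split_ifs with hh
  · rcases hh with hh | hh
    · exact hp f hh h
    · have := hp _ hh (op h)
      rwa [hw f h] at this
  · right; rfl

theorem A_wres {x : Face} {r : ℝ} (w : Fld) {φ : Fld} (hφ : RIfx891.Supp (RIfx891.bx x r) φ) :
    A (wres x r w) φ = A w φ := by
  funext f h
  unfold A Y wres
  split_ifs with hh
  · rfl
  · have : φ (nb f h) = 0 := hφ _ fun hc => hh (Or.inr hc)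
    rw [this]; simp

theorem tsum_NB {x : Face} {r : ℝ} {φ : Fld} (hφ : RIfx891.Supp (RIfx891.bx x r) φ) :
    ∑' f, nsq (φ f) = RIfx891.NB x r φ ^ 2 := by
  rw [RIfx891.NB_sq]
  refine tsum_eq_sum fun f hf => ?_
  rw [hφ f hf]; simp [nsq]

/-- **(GAP)**: the universal gap, leaf `GapU` of helper891 -/
theorem gapU : RIfx891.GapU 110000000000 := by
  intro w x r hr hs hp φ hφ
  have hS : Supp (RIfx891.bx x r) φ := fun f hf h => by rw [hφ f hf]; rfl
  have hκ := kap_bx x (r := r) (by linarith)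
  have hNn : 0 ≤ RIfx891.NB x r φ := apply_nonneg _ _
  have hMn : 0 ≤ RIfx891.NB x (r + 1) (A w φ) := apply_nonneg _ _
  have h := sq_main (sym_wres x r hs) (isPlus_wres hs hp) hS (RIfx891.bx x r) _ (wt_of_kap hκ)
  have hA : RIfx891.Supp (RIfx891.bx x (r + 1)) (A w φ) := RIfx891.supp_A hφ
  have t1 := tsum_NB hφ
  have t2 := tsum_NB hA
  rw [A_wres w hφ, t1, t2, ← RIfx891.NB_sq] at h
  generalize RIfx891.NB x (r + 1) (A w φ) = M at *
  generalize RIfx891.NB x r φ = N at *
  have hN0 : 0 ≤ N := hNn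
  have hM0 : 0 ≤ M := hMn
  rw [Real.sqrt_sq hN0, Real.sqrt_sq hM0] at h
  rcases hN0.eq_or_lt with h0 | h0
  · rw [← h0]; positivity
  · have h1 : N * N ≤ (110000000000 * r * M) * N := by
      have h2 : N * M * (6000000000 * (1 + 8 * (1 + r))) ≤ N * M * (110000000000 * r) :=
        mul_le_mul_of_nonneg_left (by linarith) (by positivity)
      calc N * N = N ^ 2 := by ring
        _ ≤ _ := h
        _ = N * M * (6000000000 * (1 + 8 * (1 + r))) := by ring
        _ ≤ N * M * (110000000000 * r) := h2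
        _ = _ := by ring
    exact le_of_mul_le_mul_right h1 h0

/-! ### no concentration for arbitrary fields on a box -/

open Crest.Agent.R165.PotAx894 Crest.Agent.R165.PotBx894 Crest.Agent.R165.Intx811
  Crest.Agent.R165.NcCutx811

theorem opt2 {S a C : ℝ} (hS : 0 ≤ S) (ha : 0 ≤ a) (hC : 0 ≤ C) {X : ℝ}
    (h : ∀ t : ℝ, 0 < t → X ≤ C * (t * a ^ 2 + t⁻¹ * S ^ 2)) : X ≤ 2 * C * (S * a) := by
  have := opt (X := X) (a := C) (b := C) (P := a ^ 2) (R := S ^ 2) hC hC (sq_nonneg _)
    (sq_nonneg _) (fun t ht => by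
      have := h t ht
      rw [← div_eq_inv_mul] at this
      linarith)
  rw [Real.sqrt_sq hS, Real.sqrt_sq ha] at this
  linarith

theorem sqrt_mass_add {α : Type*} (s : Finset α) (p q : α → ℝ) :
    Real.sqrt (∑ i ∈ s, (p i + q i) ^ 2) ≤ Real.sqrt (∑ i ∈ s, p i ^ 2)
      + Real.sqrt (∑ i ∈ s, q i ^ 2) := by
  have h := norm_add_le (WithLp.toLp 2 (fun i : s => p i)) (WithLp.toLp 2 (fun i : s => q i))
  rw [EuclideanSpace.norm_eq, EuclideanSpace.norm_eq, EuclideanSpace.norm_eq] at h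
  simp only [PiLp.add_apply, Real.norm_eq_abs, sq_abs] at h
  rw [← sum_coe_sort s, ← sum_coe_sort s (fun i => p i ^ 2), ← sum_coe_sort s (fun i => q i ^ 2)]
  exact h

/-- **(NC)** for an arbitrary field on a box: mass of a subset of the inner box -/
theorem nc_gen {w e : Fld} (hw : Sym w) {c : ℤ × ℤ} {n k R : ℕ}
    (hk : 0 < k) (hR : n + k ≤ R) (hp : ∀ f ∈ Q c R, ∀ h, w f h ^ 2 = xc ^ 2 ∨ w f h = 0)
    {E : Finset Face} (hE : E ⊆ Q c n) {κ : ℝ} (hκ : kap E κ) :
    ∑ f ∈ E, nsq (e f) ≤ 6000000000 * (1 + κ) * (Real.sqrt (mass e c R) *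
      (Real.sqrt (mass (A w e) c R) + Real.sqrt (mass e c R) / k)) := by
  have hk' : (0:ℝ) < k := by exact_mod_cast hk
  have hRr : ((n : ℝ) + k) ≤ R := by exact_mod_cast hR
  have hκ0 : 0 ≤ κ := kap_nonneg hκ
  set χ := cut c n k with hχ
  set φ : Fld := fun g b => χ g * e g b with hφ
  have out : ∀ g, g ∉ Q c R → χ g = 0 := by
    intro g hg
    apply cut_zero
    have := not_mem_Q_succ hg
    linarith
  have near : ∀ g b, g ∉ Q c R → χ (nb g b) = 0 := by
    intro g b hg
    apply cut_zero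
    have h1 := not_mem_Q_succ hg
    have h2 := (abs_le.1 (nrm_nb c g b)).1
    linarith
  have hcut1 : ∀ g, χ g ^ 2 ≤ 1 := by
    intro g
    have a0 : 0 ≤ χ g := cut_nonneg c n k g
    have a1 : χ g ≤ 1 := by
      rw [hχ]; unfold cut
      exact max_le (by norm_num) (min_le_left _ _)
    nlinarith
  have hx1 : xc ^ 2 ≤ 1 := by
    have := xc_pos; have := xc_lt_one; nlinarith
  -- the two masses
  have h3 : ∑ f ∈ Q c R, nsq (φ f) ≤ mass e c R := by
    refine sum_le_sum fun f _ => ?_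
    simp only [nsq, hφ]
    refine sum_le_sum fun b _ => ?_
    rw [mul_pow]
    have := hcut1 f
    have h0 : 0 ≤ e f b ^ 2 := sq_nonneg _
    nlinarith
  have h4 : Real.sqrt (∑ f ∈ Q c R, nsq (A (wcut c R w) φ f))
      ≤ Real.sqrt (mass (A w e) c R) + Real.sqrt (mass e c R) / k := by
    have e1 : ∑ f ∈ Q c R, nsq (A (wcut c R w) φ f)
        = ∑ g ∈ Q c R ×ˢ (univ : Finset (Fin 4)), (χ g.1 * A w e g.1 g.2
          + sg g.2 * w g.1 g.2 * ((χ (nb g.1 g.2) - χ g.1) * e (nb g.1 g.2) (op g.2))) ^ 2 := by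
      rw [sum_product]
      refine sum_congr rfl fun f hf => ?_
      simp only [nsq]
      refine sum_congr rfl fun h _ => ?_
      rw [A_wcut hR w e f h]
    rw [e1]
    refine (sqrt_mass_add _ _ _).trans (add_le_add ?_ ?_)
    · refine Real.sqrt_le_sqrt ?_
      rw [sum_product]
      unfold mass
      refine sum_le_sum fun f _ => ?_
      unfold nsq
      refine sum_le_sum fun h _ => ?_
      simp only
      rw [mul_pow]
      have := hcut1 f
      have h0 : 0 ≤ A w e f h ^ 2 := sq_nonneg _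
      nlinarith
    · rw [div_eq_mul_inv, mul_comm, ← Real.sqrt_sq (inv_nonneg.2 hk'.le), ← Real.sqrt_mul (sq_nonneg _)]
      refine Real.sqrt_le_sqrt ?_
      refine le_trans ?_ (mul_le_mul_of_nonneg_left (sum_nb_le c R e) (sq_nonneg _))
      rw [sum_product, mul_sum]
      refine sum_le_sum fun f hf => ?_
      rw [mul_sum]
      refine sum_le_sum fun h _ => ?_
      simp only
      by_cases hnb : nb f h ∈ Q c R
      · rw [if_pos hnb]
        have a1 := cut_lip (c := c) (n := n) (k := k) (nrm_nb c f h)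
        have a2 : (cut c n k (nb f h) - cut c n k f) ^ 2 ≤ (1 / (k:ℝ)) ^ 2 := by
          rw [← sq_abs]
          exact pow_le_pow_left₀ (abs_nonneg _) a1 2
        have a3 : w f h ^ 2 ≤ 1 := by
          rcases hp f hf h with h5 | h5
          · rw [h5]; exact hx1
          · rw [h5]; norm_num
        have a4 : (sg h * w f h * ((cut c n k (nb f h) - cut c n k f) * e (nb f h) (op h))) ^ 2
            = w f h ^ 2 * ((cut c n k (nb f h) - cut c n k f) ^ 2 * e (nb f h) (op h) ^ 2) := by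
          have := sg_sq h
          linear_combination (w f h ^ 2 * ((cut c n k (nb f h) - cut c n k f) ^ 2
            * e (nb f h) (op h) ^ 2)) * this
        rw [hχ, a4]
        have a5 : (cut c n k (nb f h) - cut c n k f) ^ 2 * e (nb f h) (op h) ^ 2
            ≤ (1 / (k:ℝ)) ^ 2 * e (nb f h) (op h) ^ 2 :=
          mul_le_mul_of_nonneg_right a2 (sq_nonneg _)
        have a6 : 0 ≤ (cut c n k (nb f h) - cut c n k f) ^ 2 * e (nb f h) (op h) ^ 2 := by positivity
        calc w f h ^ 2 * ((cut c n k (nb f h) - cut c n k f) ^ 2 * e (nb f h) (op h) ^ 2)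
            ≤ 1 * ((cut c n k (nb f h) - cut c n k f) ^ 2 * e (nb f h) (op h) ^ 2) :=
              mul_le_mul_of_nonneg_right a3 a6
          _ ≤ ((k:ℝ)⁻¹) ^ 2 * e (nb f h) (op h) ^ 2 := by
              rw [one_mul, ← one_div]; exact a5
      · have z1 : χ (nb f h) = 0 := out _ hnb
        have z2 : χ f = 0 := by
          have := near (nb f h) (op h) hnb
          rw [nb_nb_op] at this; exact this
        rw [z1, z2, if_neg hnb]; simp
  have key : ∀ t : ℝ, 0 < t → ∑ f ∈ E, nsq (e f) ≤ 3000000000 * (1 + κ) *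
      (t * (Real.sqrt (mass (A w e) c R) + Real.sqrt (mass e c R) / k) ^ 2
        + t⁻¹ * Real.sqrt (mass e c R) ^ 2) := by
    intro t ht
    have h1 := sq811 (wcut c R w) φ (Q c R) (sym_wcut c R hw) (isPlus_wcut c R hp)
      (fun f hf h => by simp only [hφ]; rw [out f hf, zero_mul])
      (fun f hf h => by simp only [hφ]; rw [near f h hf]; ring)
      E κ t ht hκ
    have h2 : ∑ f ∈ E, nsq (φ f) = ∑ f ∈ E, nsq (e f) := by
      refine sum_congr rfl fun f hf => ?_
      simp only [nsq, hφ]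
      rw [hχ, cut_one hk (hE hf)]
      simp
    rw [h2] at h1
    refine h1.trans (mul_le_mul_of_nonneg_left ?_ (by positivity))
    refine add_le_add (mul_le_mul_of_nonneg_left ?_ ht.le)
      (mul_le_mul_of_nonneg_left ?_ (inv_nonneg.2 ht.le))
    · have h5 : 0 ≤ ∑ f ∈ Q c R, nsq (A (wcut c R w) φ f) := sum_nonneg fun f _ => nsq_nonneg _
      rw [← Real.sq_sqrt h5]
      exact pow_le_pow_left₀ (Real.sqrt_nonneg _) h4 2
    · rw [Real.sq_sqrt (mass_nonneg e c R)]
      exact h3
  have := opt2 (Real.sqrt_nonneg (mass e c R))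
    (a := Real.sqrt (mass (A w e) c R) + Real.sqrt (mass e c R) / k)
    (C := 3000000000 * (1 + κ)) (by positivity) (by positivity) key
  linarith

/-- **pointwise bound** for an arbitrary field on a box -/
theorem nc_pt {w e : Fld} (hw : Sym w) {c : ℤ × ℤ} {n k R : ℕ}
    (hk : 0 < k) (hR : n + k ≤ R) (hp : ∀ f ∈ Q c R, ∀ h, w f h ^ 2 = xc ^ 2 ∨ w f h = 0)
    {f : Face} (hf : f ∈ Q c n) :
    nsq (e f) ≤ 12000000000 * (Real.sqrt (mass e c R) *
      (Real.sqrt (mass (A w e) c R) + Real.sqrt (mass e c R) / k)) := by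
  have := nc_gen (e := e) hw hk hR hp (E := {f}) (singleton_subset_iff.2 hf) (kap_single f)
  rw [sum_singleton] at this
  linarith

end Crest.Agent.R165.Sqx54
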