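import Crest.Agent.R165.BridgeReg_386
import Crest.Agent.R165.RegG_893
import Crest.Agent.R165.ClReg_117
import Crest.Agent.R165.Sq4_54

/-!
# Row 165: the classes `RB` of `RegG_893` from growth of exact solutions (helper386)

* `rb_of_grow`  : gap + growth on a box of block R give `RB` on every coordinate ring
* `GrowPl`      : growth of exact solutions in plane boxes (leaf)
* `rb_of_plane` : `RB` at the centre of a plane box
-/

set_option autoImplicit false
set_option linter.unusedSectionVars false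

noncomputable section

open scoped ENNReal
open Crest.Agent.R165.Gr0x606 Crest.Agent.R165.Latx683 Crest.Agent.R165.GDefx387
  Crest.Agent.R165.NWidthx386 Crest.Agent.R165.RankOnex386 Crest.Agent.R165.Bridgex386
  Crest.Agent.R165.BridgeRegx386

namespace Crest.Agent.R165.BridgeRBx386

open Crest.Agent.R165.RIfx891 Crest.Agent.R165.Campx891 Crest.Agent.R165.ClRegx117

theorem ub_of_U3 {G : Type} [CommRing G] [CN G] {w : BW G} {g : G × G} {R : ℕ} {f : HE G → ℝ}
    (h : RegGx893.U3 w g R f) : UB w g R f := h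

/-- **RB from gap and growth** on the radii between `r0` and `R0` -/
theorem rb_of_grow {G : Type} [CommRing G] [CN G] [CNL G] {w : BW G} {X : Face} {r0 R0 : ℕ}
    (hr0 : 1 ≤ r0) {C1 Cs : ℝ} (hC1 : 0 ≤ C1) (hCs : 0 ≤ Cs) (hI : Inj G R0)
    (hgap : ∀ r : ℝ, r0 ≤ r → r ≤ R0 → GapOn (wl w) X r Cs) (hex : GrowOn (wl w) X r0 R0 C1)
    (Λ : ℕ) : RegGx893.RB w (pf X) (2 * K2 C1 Cs) Λ r0 R0 := by
  intro r R h1 h2 _ h4 f hf
  have hr0' : (0 : ℝ) < r0 := by exact_mod_cast hr0
  have h1' : (r0 : ℝ) ≤ r := by exact_mod_cast h1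
  have h2' : (r : ℝ) ≤ R := by exact_mod_cast h2
  have h4' : (R : ℝ) ≤ R0 := by exact_mod_cast h4
  have hIR : Inj G R := hI.mono h4
  obtain ⟨a0, a1, a2⟩ := ub_lift (by omega) hIR (ub_of_U3 hf)
  have hex' : GrowOn (wl w) X r0 R C1 := fun t ρ b1 b2 b3 => hex t ρ b1 b2 (b3.trans h4')
  have key := reg1 (sym_wl w) hr0' hC1 hCs (fun ρ b1 b2 => hgap ρ b1 (b2.trans h4')) hex' h1' h2'
    a0 a1 a2
  exact (l2_le_NB X r f).trans key

/-- LEAF: growth of exact solutions in plane boxes, absolute constant -/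
def GrowPl (C1 : ℝ) : Prop :=
  ∀ (w : FR) (s : Face → ℝ) (x : Face) (ρ : ℝ), PlaneOn w s x ρ → GrowOn w x 1 ρ C1

/-- **RB at the centre of a plane box**, every coordinate ring -/
theorem rb_of_plane {C1 : ℝ} (hC1 : 0 ≤ C1) (hG : GrowPl C1) {G : Type} [CommRing G] [CN G]
    [CNL G] {w : BW G} {s : Face → ℝ} {X : Face} {R0 : ℕ} (hI : Inj G R0)
    (hP : PlaneOn (wl w) s X R0) (Λ : ℕ) :
    RegGx893.RB w (pf X) (2 * K2 C1 110000000000) Λ 1 R0 := by
  refine rb_of_grow le_rfl hC1 (by norm_num) hI ?_ ?_ Λ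
  · intro r h1 h2
    have h1' : (1 : ℝ) ≤ r := by simpa using h1
    exact Sqx54.gapU (wl w) X r h1' (sym_wl w) fun f hf => hP.plus f (bx_mono X h2 hf)
  · have := hG (wl w) s X R0 hP
    simpa using this

end Crest.Agent.R165.BridgeRBx386
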