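import Crest.Agent.R165.Bridge_386

/-!
# Row 165: regularity on the objects of block G from `regB`, `regBr` (helper386)

`regB_G`, `regBr_G` : one fixed ratio `2^J`; `regB_ratio`, `regBr_ratio` : every ratio `≤ Λ`, with
the powers `r/R`, `(r/R)^{3/2}` (plus boundary) and `(r/R)^{1/2}`, `r/R` (branch vertex), for every
coordinate ring `G` in which the box of radius `R` is embedded (`Inj G R`).
-/

set_option autoImplicit false
set_option linter.unusedSectionVars false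

noncomputable section

open scoped ENNReal
open Crest.Agent.R165.Gr0x606 Crest.Agent.R165.Latx683 Crest.Agent.R165.GDefx387
  Crest.Agent.R165.NWidthx386 Crest.Agent.R165.RankOnex386 Crest.Agent.R165.Bridgex386
  Crest.Agent.R165.RIfx891 Crest.Agent.R165.Campx891

namespace Crest.Agent.R165.BridgeRegx386

/-- local norm on the ball `ball g R` -/
def lb {G : Type} [CommRing G] [CN G] (g : G × G) (R : ℕ) (f : HE G → ℝ) : ℝ :=
  l2 (restr (ball g R) f)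

theorem lb_nonneg {G : Type} [CommRing G] [CN G] (g : G × G) (R : ℕ) (f : HE G → ℝ) :
    0 ≤ lb g R f := l2_restr_nonneg _ _

theorem K2_nonneg {C Cs : ℝ} (hC : 0 ≤ C) (hCs : 0 ≤ Cs) : 0 ≤ K2 C Cs := by
  have := K1_nonneg hC hCs
  unfold K2; positivity

/-- unit ball of level 2 (`f`, `A f`, `A² f`) at scale `R` around `g` -/
def UB {G : Type} [CommRing G] [CN G] (w : BW G) (g : G × G) (R : ℕ) (f : HE G → ℝ) : Prop :=
  lb g R f ≤ 1 ∧ R * lb g R (Aop w f) ≤ 1 ∧ (R : ℝ) ^ 2 * lb g R (Aop w (Aop w f)) ≤ 1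

section one
variable {G : Type} [CommRing G] [CN G] [CNL G]

/-- the unit ball upstairs -/
theorem ub_lift {w : BW G} {X : Face} {R : ℕ} (hR : 1 ≤ R) (hI : Inj G R) {f : HE G → ℝ}
    (h : UB w (pf X) R f) :
    NB X (R : ℝ) (lift f) ≤ 1 ∧ NB X (R : ℝ) (Tr1x40.A (wl w) (lift f)) ≤ 1 / (R : ℝ) ∧
      NB X (R : ℝ) (Tr1x40.A (wl w) (Tr1x40.A (wl w) (lift f))) ≤ 1 / (R : ℝ) ^ 2 := by
  have hR0 : (0 : ℝ) < R := by exact_mod_cast hR
  obtain ⟨h0, h1, h2⟩ := h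
  refine ⟨(NB_le_l2 X hI f).trans h0, ?_, ?_⟩
  · rw [A_lift, le_div_iff₀ hR0, mul_comm]
    exact (mul_le_mul_of_nonneg_left (NB_le_l2 X hI _) hR0.le).trans h1
  · rw [A_lift, A_lift, le_div_iff₀ (by positivity), mul_comm]
    exact (mul_le_mul_of_nonneg_left (NB_le_l2 X hI _) (by positivity)).trans h2

theorem le_scale {R r J : ℕ} (h : r * 2 ^ J ≤ R) : (r : ℝ) ≤ (R : ℝ) * q ^ (2 * J) := by
  rw [pow_mul, q_sq, one_div, inv_pow, ← div_eq_mul_inv, le_div_iff₀ (by positivity)]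
  exact_mod_cast h

end one

/-- **regularity at a plus boundary, ratio `2^J`, on any coordinate ring** -/
theorem regB_G {C Cs : ℝ} (hC : 0 ≤ C) (hCs : 0 ≤ Cs) (hG : GapU Cs) (hE : EXb C) (J : ℕ) :
    ∃ r0 ε0 : ℝ, 0 < ε0 ∧ ∀ (G : Type) [CommRing G] [CN G] [CNL G] (w : BW G) (s : Face → ℝ)
      (X : Face) (R r : ℕ) (n c : ℂ), r0 ≤ R → 1 ≤ R → Inj G R → r * 2 ^ J ≤ R → ‖n‖ = 1 →
      c ^ 2 = (starRingEnd ℂ) n → PlusFlat (wl w) s X R n ε0 → ∀ f : HE G → ℝ,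
      UB w (pf X) R f →
      lb (pf X) r f ≤ K2 C Cs * q ^ (2 * J) ∧
      ∃ κ : ℝ, lb (pf X) r (f - κ • desc X (modeB s X n c)) ≤ K2 C Cs * q ^ (3 * J) := by
  obtain ⟨r0, ε0, hε0, H⟩ := regB hC hCs hG hE J
  refine ⟨r0, ε0, hε0, ?_⟩
  intro G _ _ _ w s X R r n c hr0 hR hI hrR hn hc hP f hf
  obtain ⟨h0, h1, h2⟩ := ub_lift hR hI hf
  obtain ⟨a, κ, b⟩ := H (wl w) s X R n c hr0 hn hc hP (lift f) h0 h1 h2
  have hsc := le_scale hrR
  refine ⟨((l2_le_NB X r f).trans (NB_mono X hsc _)).trans a, κ, ?_⟩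
  have hr : r ≤ R := (Nat.le_mul_of_pos_right r (by positivity)).trans hrR
  refine (l2_le_NB X r _).trans ?_
  rw [NB_lift_sub_desc X (hI.mono hr)]
  exact (NB_mono X hsc _).trans b

/-- **regularity at a branch vertex, ratio `2^J`, on any coordinate ring** -/
theorem regBr_G {C Cs : ℝ} (hC : 0 ≤ C) (hCs : 0 ≤ Cs) (hG : GapU Cs) (hE : EXbr C) (J : ℕ) :
    ∃ r0 : ℝ, ∀ (G : Type) [CommRing G] [CN G] [CNL G] (w : BW G) (s : Face → ℝ)
      (X : Face) (R r : ℕ), r0 ≤ R → 1 ≤ R → Inj G R → r * 2 ^ J ≤ R →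
      BranchOn (wl w) s X R → ∀ f : HE G → ℝ,
      UB w (pf X) R f →
      lb (pf X) r f ≤ K2 C Cs * q ^ J ∧
      ∃ κ : ℝ, lb (pf X) r (f - κ • desc X (modeBr s X)) ≤ K2 C Cs * q ^ (2 * J) := by
  obtain ⟨r0, H⟩ := regBr hC hCs hG hE J
  refine ⟨r0, ?_⟩
  intro G _ _ _ w s X R r hr0 hR hI hrR hP f hf
  obtain ⟨h0, h1, h2⟩ := ub_lift hR hI hf
  obtain ⟨a, κ, b⟩ := H (wl w) s X R hr0 hP (lift f) h0 h1 h2
  have hsc := le_scale hrR
  refine ⟨((l2_le_NB X r f).trans (NB_mono X hsc _)).trans a, κ, ?_⟩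
  have hr : r ≤ R := (Nat.le_mul_of_pos_right r (by positivity)).trans hrR
  refine (l2_le_NB X r _).trans ?_
  rw [NB_lift_sub_desc X (hI.mono hr)]
  exact (NB_mono X hsc _).trans b

/-! ### every ratio -/

/-- `q ^ (2 J) ≤ 2 r / R` for `J = log₂ (R / r)` -/
theorem q_log {R r : ℕ} (hr : 1 ≤ r) : q ^ (2 * Nat.log 2 (R / r)) ≤ 2 * ((r : ℝ) / R) ∨ R = 0 := by
  rcases Nat.eq_zero_or_pos R with h | h
  · exact Or.inr h
  · left
    have h1 : R / r < 2 ^ (Nat.log 2 (R / r) + 1) := Nat.lt_pow_succ_log_self (by norm_num) _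
    have h2 : R < 2 ^ (Nat.log 2 (R / r) + 1) * r := (Nat.div_lt_iff_lt_mul hr).1 h1
    have h3 : (R : ℝ) < 2 ^ (Nat.log 2 (R / r) + 1) * r := by exact_mod_cast h2
    have hR : (0 : ℝ) < R := by exact_mod_cast h
    rw [pow_mul, q_sq, one_div, inv_pow, ← mul_div_assoc, le_div_iff₀ hR, inv_mul_le_iff₀ (by positivity)]
    rw [pow_succ] at h3
    nlinarith

theorem log_mul_le {R r : ℕ} (hr : 1 ≤ r) (h : r ≤ R) : r * 2 ^ Nat.log 2 (R / r) ≤ R := by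
  have h1 : 1 ≤ R / r := (Nat.le_div_iff_mul_le hr).2 (by simpa using h)
  have h2 : 2 ^ Nat.log 2 (R / r) ≤ R / r := Nat.pow_log_le_self 2 (by omega)
  calc r * 2 ^ Nat.log 2 (R / r) ≤ r * (R / r) := Nat.mul_le_mul_left _ h2
    _ ≤ R := Nat.mul_div_le R r

theorem log_le {R r Λ : ℕ} (h : R ≤ Λ * r) :
    Nat.log 2 (R / r) ≤ Nat.log 2 Λ := by
  apply Nat.log_mono_right
  exact Nat.div_le_of_le_mul (by rwa [mul_comm])

/-- powers of the ratio -/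
theorem q_pow1 {R r : ℕ} (hr : 1 ≤ r) (h : r ≤ R) :
    q ^ (Nat.log 2 (R / r)) ≤ 2 * Real.sqrt ((r : ℝ) / R) := by
  have hR : (0 : ℝ) < R := by exact_mod_cast (lt_of_lt_of_le hr h)
  have h1 := (q_log (R := R) hr).resolve_right (by omega)
  have h2 : q ^ (Nat.log 2 (R / r)) ≤ Real.sqrt (2 * ((r : ℝ) / R)) := by
    apply Real.le_sqrt_of_sq_le
    rw [← pow_mul, mul_comm]
    exact h1
  refine h2.trans ?_
  rw [Real.sqrt_mul (by norm_num)]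
  have h3 : Real.sqrt 2 ≤ 2 := by
    rw [Real.sqrt_le_left (by norm_num)]; norm_num
  exact mul_le_mul_of_nonneg_right h3 (Real.sqrt_nonneg _)

theorem q_pow2 {R r : ℕ} (hr : 1 ≤ r) (h : r ≤ R) :
    q ^ (2 * Nat.log 2 (R / r)) ≤ 2 * ((r : ℝ) / R) :=
  (q_log (R := R) hr).resolve_right (by omega)

theorem q_pow3 {R r : ℕ} (hr : 1 ≤ r) (h : r ≤ R) :
    q ^ (3 * Nat.log 2 (R / r)) ≤ 4 * ((r : ℝ) / R * Real.sqrt ((r : ℝ) / R)) := by
  have h1 := q_pow1 hr h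
  have h2 := q_pow2 hr h
  have hq := q_pos
  calc q ^ (3 * Nat.log 2 (R / r)) = q ^ (2 * Nat.log 2 (R / r)) * q ^ (Nat.log 2 (R / r)) := by
        rw [← pow_add]; congr 1; ring
    _ ≤ (2 * ((r : ℝ) / R)) * (2 * Real.sqrt ((r : ℝ) / R)) := by gcongr
    _ = _ := by ring

/-- **RD**: regularity at a plus boundary, every ratio `≤ Λ` -/
theorem regB_ratio {C Cs : ℝ} (hC : 0 ≤ C) (hCs : 0 ≤ Cs) (hG : GapU Cs) (hE : EXb C) (Λ : ℕ) :
    ∃ r0 ε0 : ℝ, 0 < ε0 ∧ ∀ (G : Type) [CommRing G] [CN G] [CNL G] (w : BW G) (s : Face → ℝ)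
      (X : Face) (R r : ℕ) (n c : ℂ), r0 ≤ R → 1 ≤ r → r ≤ R → R ≤ Λ * r → Inj G R → ‖n‖ = 1 →
      c ^ 2 = (starRingEnd ℂ) n → PlusFlat (wl w) s X R n ε0 → ∀ f : HE G → ℝ,
      UB w (pf X) R f →
      lb (pf X) r f ≤ 2 * K2 C Cs * ((r : ℝ) / R) ∧
      ∃ κ : ℝ, lb (pf X) r (f - κ • desc X (modeB s X n c)) ≤
        4 * K2 C Cs * ((r : ℝ) / R * Real.sqrt ((r : ℝ) / R)) := by
  choose r0 ε0 hε0 H using regB_G hC hCs hG hE
  have hK := K2_nonneg hC hCs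
  refine ⟨(Finset.range (Nat.log 2 Λ + 1)).sup' (Finset.nonempty_range_iff.2 (by omega)) r0,
    (Finset.range (Nat.log 2 Λ + 1)).inf' (Finset.nonempty_range_iff.2 (by omega)) ε0, ?_, ?_⟩
  · rw [Finset.lt_inf'_iff]; exact fun m _ => hε0 m
  intro G _ _ _ w s X R r n c hr0 hr hrR hΛ hI hn hc hP f hf
  set J := Nat.log 2 (R / r) with hJ
  have hJm : J ∈ Finset.range (Nat.log 2 Λ + 1) :=
    Finset.mem_range.2 (Nat.lt_succ_of_le (log_le hΛ))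
  have hP' : PlusFlat (wl w) s X R n (ε0 J) :=
    hP.mono le_rfl (mul_le_mul_of_nonneg_right (Finset.inf'_le ε0 hJm) (Nat.cast_nonneg R))
  obtain ⟨a, κ, b⟩ := H J G w s X R r n c ((Finset.le_sup' r0 hJm).trans hr0) (hr.trans hrR) hI
    (log_mul_le hr hrR) hn hc hP' f hf
  refine ⟨a.trans ?_, κ, b.trans ?_⟩
  · have := mul_le_mul_of_nonneg_left (q_pow2 hr hrR) hK
    rw [← hJ] at this; linarith
  · have := mul_le_mul_of_nonneg_left (q_pow3 hr hrR) hK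
    rw [← hJ] at this; linarith

/-- **RX**: regularity at a branch vertex, every ratio `≤ Λ` -/
theorem regBr_ratio {C Cs : ℝ} (hC : 0 ≤ C) (hCs : 0 ≤ Cs) (hG : GapU Cs) (hE : EXbr C) (Λ : ℕ) :
    ∃ r0 : ℝ, ∀ (G : Type) [CommRing G] [CN G] [CNL G] (w : BW G) (s : Face → ℝ)
      (X : Face) (R r : ℕ), r0 ≤ R → 1 ≤ r → r ≤ R → R ≤ Λ * r → Inj G R →
      BranchOn (wl w) s X R → ∀ f : HE G → ℝ,
      UB w (pf X) R f →
      lb (pf X) r f ≤ 2 * K2 C Cs * Real.sqrt ((r : ℝ) / R) ∧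
      ∃ κ : ℝ, lb (pf X) r (f - κ • desc X (modeBr s X)) ≤ 2 * K2 C Cs * ((r : ℝ) / R) := by
  choose r0 H using regBr_G hC hCs hG hE
  have hK := K2_nonneg hC hCs
  refine ⟨(Finset.range (Nat.log 2 Λ + 1)).sup' (Finset.nonempty_range_iff.2 (by omega)) r0, ?_⟩
  intro G _ _ _ w s X R r hr0 hr hrR hΛ hI hP f hf
  set J := Nat.log 2 (R / r) with hJ
  have hJm : J ∈ Finset.range (Nat.log 2 Λ + 1) :=
    Finset.mem_range.2 (Nat.lt_succ_of_le (log_le hΛ))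
  obtain ⟨a, κ, b⟩ := H J G w s X R r ((Finset.le_sup' r0 hJm).trans hr0) (hr.trans hrR) hI
    (log_mul_le hr hrR) hP f hf
  refine ⟨a.trans ?_, κ, b.trans ?_⟩
  · have := mul_le_mul_of_nonneg_left (q_pow1 hr hrR) hK
    rw [← hJ] at this; linarith
  · have := mul_le_mul_of_nonneg_left (q_pow2 hr hrR) hK
    rw [← hJ] at this; linarith

end Crest.Agent.R165.BridgeRegx386
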