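import Crest.Agent.R165.RIface_891
import Crest.Agent.R165.RankOne_386

/-!
# Row 165: bridge between block R (`RIface_891`, faces `ℤ × ℤ`, `Tr1_40`) and block G
(`GDef_387`, any coordinate ring `G` = `ℤ` or `ZMod M`) (helper386)

* `CNL G` : integer representatives of minimal size; `Inj G R` : integers of size `≤ R` are their
  own representatives
* `pf : Face → G × G`, `lift f : Tr1x40.Fld`, `wl w` : lifted weights, `A_lift`
* `l2_le_NB`, `NB_le_l2` : comparison of the local `L²` norms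
* `desc X m` : the function on `HE G` which is `m` near `X`
-/

set_option autoImplicit false
set_option linter.unusedSectionVars false

noncomputable section

open scoped ENNReal
open Crest.Agent.R165.Gr0x606 Crest.Agent.R165.Latx683 Crest.Agent.R165.GDefx387
  Crest.Agent.R165.NWidthx386 Crest.Agent.R165.RankOnex386

namespace Crest.Agent.R165.Bridgex386

/-- fields of block R -/
abbrev FR := Crest.Agent.R165.Tr1x40.Fld
/-- faces of block R -/
abbrev Face := Crest.Agent.R165.Tr1x40.Face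

/-! ### integer representatives -/

/-- integer representatives of minimal size -/
class CNL (G : Type) [CommRing G] [CN G] where
  /-- representative -/
  lf : G → ℤ
  lf_cast : ∀ a : G, ((lf a : ℤ) : G) = a
  lf_abs : ∀ a : G, (lf a).natAbs = cn a
  cn_cast_le : ∀ z : ℤ, cn ((z : ℤ) : G) ≤ z.natAbs

export CNL (lf)

/-- integers of size `≤ R` are their own representatives -/
def Inj (G : Type) [CommRing G] [CN G] [CNL G] (R : ℕ) : Prop :=
  ∀ z : ℤ, z.natAbs ≤ R → lf ((z : ℤ) : G) = z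

instance : CNL ℤ where
  lf a := a
  lf_cast a := Int.cast_id
  lf_abs _ := rfl
  cn_cast_le z := by rw [Int.cast_id]; exact le_rfl

theorem inj_int (R : ℕ) : Inj ℤ R := fun z _ => by
  change ((z : ℤ) : ℤ) = z
  exact Int.cast_id

instance instCNLZMod (M : ℕ) [NeZero M] : CNL (ZMod M) where
  lf a := a.valMinAbs
  lf_cast a := ZMod.coe_valMinAbs a
  lf_abs a := rfl
  cn_cast_le z :=
    ZMod.natAbs_min_of_le_div_two M _ z (ZMod.coe_valMinAbs _) (ZMod.natAbs_valMinAbs_le _)

theorem inj_zmod (M : ℕ) [NeZero M] {R : ℕ} (h : 2 * R < M) : Inj (ZMod M) R := by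
  intro z hz
  change ((z : ℤ) : ZMod M).valMinAbs = z
  rw [ZMod.valMinAbs_spec]
  refine ⟨rfl, ?_, ?_⟩ <;> omega

theorem Inj.mono {G : Type} [CommRing G] [CN G] [CNL G] {R R' : ℕ} (h : R' ≤ R) (H : Inj G R) :
    Inj G R' := fun z hz => H z (hz.trans h)

variable {G : Type} [CommRing G] [CN G]

/-- projection of faces -/
def pf (P : Face) : G × G := ((P.1 : G), (P.2 : G))

/-- lift of a function -/
def lift (f : HE G → ℝ) : FR := fun P i => f (pf P, i)

theorem lift_apply (f : HE G → ℝ) (P : Face) (i : Fin 4) : lift f P i = f (pf P, i) := rfl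

/-- lifted weights -/
def wl (w : BW G) : FR :=
  Crest.Agent.R165.Tr1x40.ofEN (fun P => yE w (pf P)) (fun P => yN w (pf P))

theorem sym_wl (w : BW G) : Crest.Agent.R165.Tr1x40.Sym (wl w) :=
  Crest.Agent.R165.Tr1x40.sym_ofEN _ _

theorem A_lift (w : BW G) (f : HE G → ℝ) :
    Crest.Agent.R165.Tr1x40.A (wl w) (lift f) = lift (Aop w f) := by
  funext P i
  have h1 : ((P.1 + 1 : ℤ) : G) = (P.1 : G) + 1 := by push_cast; rfl
  have h2 : ((P.1 - 1 : ℤ) : G) = (P.1 : G) - 1 := by push_cast; rfl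
  have h3 : ((P.2 + 1 : ℤ) : G) = (P.2 : G) + 1 := by push_cast; rfl
  have h4 : ((P.2 - 1 : ℤ) : G) = (P.2 : G) - 1 := by push_cast; rfl
  fin_cases i
  · change Tr1x40.A (wl w) (lift f) P 0 = lift (Aop w f) P 0
    rw [Tr1x40.A_S]
    simp only [lift_apply, wl, Tr1x40.ofEN, pf, h4, Aop_S]
  · change Tr1x40.A (wl w) (lift f) P 1 = lift (Aop w f) P 1
    rw [Tr1x40.A_E]
    simp only [lift_apply, wl, Tr1x40.ofEN, pf, h1, Aop_E]
  · change Tr1x40.A (wl w) (lift f) P 2 = lift (Aop w f) P 2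
    rw [Tr1x40.A_N]
    simp only [lift_apply, wl, Tr1x40.ofEN, pf, h3, Aop_N]
  · change Tr1x40.A (wl w) (lift f) P 3 = lift (Aop w f) P 3
    rw [Tr1x40.A_W]
    simp only [lift_apply, wl, Tr1x40.ofEN, pf, h2, Aop_W]

theorem lift_smul (c : ℝ) (f : HE G → ℝ) : lift (c • f) = c • lift f := rfl
theorem lift_sub (f g : HE G → ℝ) : lift (f - g) = lift f - lift g := rfl
theorem lift_add (f g : HE G → ℝ) : lift (f + g) = lift f + lift g := rfl

variable [CNL G]

omit [CommRing G] [CN G] [CNL G] in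
theorem natAbs_le_of {z : ℤ} {R : ℕ} (h : |z| ≤ R) : z.natAbs ≤ R := by
  rw [Int.abs_eq_natAbs] at h
  exact_mod_cast h

theorem fd_pf_le {X P : Face} {R : ℕ} (h : |P.1 - X.1| ≤ R ∧ |P.2 - X.2| ≤ R) :
    fd (pf X : G × G) (pf P) ≤ R := by
  unfold fd pf
  have e1 : ((X.1 : G) - (P.1 : G)) = ((X.1 - P.1 : ℤ) : G) := by push_cast; rfl
  have e2 : ((X.2 : G) - (P.2 : G)) = ((X.2 - P.2 : ℤ) : G) := by push_cast; rfl
  simp only [e1, e2]
  have h1 := CNL.cn_cast_le (G := G) (X.1 - P.1)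
  have h2 := CNL.cn_cast_le (G := G) (X.2 - P.2)
  have h3 : (X.1 - P.1).natAbs ≤ R := natAbs_le_of (by rw [abs_sub_comm]; exact h.1)
  have h4 : (X.2 - P.2).natAbs ≤ R := natAbs_le_of (by rw [abs_sub_comm]; exact h.2)
  exact max_le (h1.trans h3) (h2.trans h4)

/-- the lift of a face near `X` -/
def up (X : Face) (g : G × G) : Face := (X.1 + lf (g.1 - (X.1 : G)), X.2 + lf (g.2 - (X.2 : G)))

theorem pf_up (X : Face) (g : G × G) : pf (up X g) = g := by
  unfold pf up
  ext
  · simp only [Int.cast_add, CNL.lf_cast]; ring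
  · simp only [Int.cast_add, CNL.lf_cast]; ring

theorem up_mem {X : Face} {g : G × G} {R : ℕ} (h : g ∈ ball (pf X) R) :
    |(up X g).1 - X.1| ≤ R ∧ |(up X g).2 - X.2| ≤ R := by
  rw [mem_ball, fd_comm] at h
  unfold fd pf at h
  have h1 : cn (g.1 - (X.1 : G)) ≤ R := (le_max_left _ _).trans h
  have h2 : cn (g.2 - (X.2 : G)) ≤ R := (le_max_right _ _).trans h
  rw [← CNL.lf_abs] at h1 h2
  unfold up
  constructor
  · rw [add_sub_cancel_left, Int.abs_eq_natAbs]; exact_mod_cast h1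
  · rw [add_sub_cancel_left, Int.abs_eq_natAbs]; exact_mod_cast h2

theorem up_pf {X P : Face} {R : ℕ} (hI : Inj G R) (h : |P.1 - X.1| ≤ R ∧ |P.2 - X.2| ≤ R) :
    up X (pf P : G × G) = P := by
  unfold up pf
  have e1 : ((P.1 : G) - (X.1 : G)) = ((P.1 - X.1 : ℤ) : G) := by push_cast; rfl
  have e2 : ((P.2 : G) - (X.2 : G)) = ((P.2 - X.2 : ℤ) : G) := by push_cast; rfl
  simp only [e1, e2]
  rw [hI _ (natAbs_le_of h.1), hI _ (natAbs_le_of h.2)]
  ext <;> simp

open Crest.Agent.R165.RIfx891 in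
theorem mem_bx_nat {X P : Face} {R : ℕ} :
    P ∈ bx X (R : ℝ) ↔ |P.1 - X.1| ≤ R ∧ |P.2 - X.2| ≤ R := by
  rw [mem_bx, Int.floor_natCast]

/-- squares of the local norms -/
theorem l2_sq (Z : Set (G × G)) (hZ : Z.Finite) (f : HE G → ℝ) :
    l2 (restr Z f) ^ 2 = ∑ g ∈ hZ.toFinset, ∑ i, f (g, i) ^ 2 := by
  rw [l2_restr Z hZ, nB_sq (frm_psd _), frm_apply, hs, Finset.sum_product]
  exact Finset.sum_congr rfl fun g _ => Finset.sum_congr rfl fun i _ => (sq _).symm

open Crest.Agent.R165.RIfx891 in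
/-- the local norm on `G` is bounded by the norm of the lift -/
theorem l2_le_NB (X : Face) (R : ℕ) (f : HE G → ℝ) :
    l2 (restr (ball (pf X) R) f) ≤ NB X (R : ℝ) (lift f) := by
  apply le_of_sq_le_sq _ (apply_nonneg _ _)
  rw [l2_sq _ (ball_finite _ _), NB_sq]
  have h1 : ∑ g ∈ (ball_finite (pf X : G × G) R).toFinset, ∑ i, f (g, i) ^ 2 =
      ∑ P ∈ (ball_finite (pf X : G × G) R).toFinset.image (up X), Tr1x40.nsq (lift f P) := by
    rw [Finset.sum_image]
    · refine Finset.sum_congr rfl fun g _ => ?_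
      unfold Tr1x40.nsq
      refine Finset.sum_congr rfl fun i _ => ?_
      rw [lift_apply, pf_up]
    · intro g _ g' _ h
      have := congrArg (pf (G := G)) h
      rwa [pf_up, pf_up] at this
  rw [h1]
  apply Finset.sum_le_sum_of_subset_of_nonneg
  · intro P hP
    obtain ⟨g, hg, rfl⟩ := Finset.mem_image.1 hP
    rw [mem_bx_nat]
    exact up_mem ((Set.Finite.mem_toFinset _).1 hg)
  · intro P _ _
    exact Tr1x40.nsq_nonneg _

open Crest.Agent.R165.RIfx891 in
/-- the norm of the lift is bounded by the local norm when the box is embedded -/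
theorem NB_le_l2 (X : Face) {R : ℕ} (hI : Inj G R) (f : HE G → ℝ) :
    NB X (R : ℝ) (lift f) ≤ l2 (restr (ball (pf X) R) f) := by
  classical
  apply le_of_sq_le_sq _ (l2_restr_nonneg _ _)
  rw [l2_sq _ (ball_finite _ _), NB_sq]
  have h1 : ∑ P ∈ bx X (R : ℝ), Tr1x40.nsq (lift f P) =
      ∑ g ∈ (bx X (R : ℝ)).image (pf (G := G)), ∑ i, f (g, i) ^ 2 := by
    rw [Finset.sum_image]
    · rfl
    · intro P hP P' hP' h
      have h1 := up_pf hI (mem_bx_nat.1 hP)
      have h2 := up_pf hI (mem_bx_nat.1 hP')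
      rw [← h1, ← h2, h]
  rw [h1]
  apply Finset.sum_le_sum_of_subset_of_nonneg
  · intro g hg
    obtain ⟨P, hP, rfl⟩ := Finset.mem_image.1 hg
    rw [Set.Finite.mem_toFinset, mem_ball]
    exact fd_pf_le (mem_bx_nat.1 hP)
  · intro g _ _
    positivity

/-- the function on `HE G` which is `m` near `X` -/
def desc (X : Face) (m : FR) : HE G → ℝ := fun h => m (up X h.1) h.2

open Crest.Agent.R165.RIfx891 in
theorem NB_lift_sub_desc (X : Face) {R : ℕ} (hI : Inj G R) (m : FR) (f : HE G → ℝ) (κ : ℝ) :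
    NB X (R : ℝ) (lift (f - κ • desc X m)) = NB X (R : ℝ) (lift f - κ • m) := by
  apply N2_congr
  intro P hP
  funext i
  have h := up_pf hI (mem_bx_nat.1 hP)
  change f (pf P, i) - κ * m (up X (pf P)) i = f (pf P, i) - κ * m P i
  rw [h]

end Crest.Agent.R165.Bridgex386
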