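import Mathlib

/-!
# Row 165, block G: packing numbers of finite sets (helper915)

Metric combinatorics of the block free `K`-representation: `pack d r U` is the maximal number of
points of `U` with pairwise distance `> r`, for an arbitrary `ℕ`-valued pseudo-distance `d`.
-/

namespace Crest.Agent.R165.Packx915

open Finset
open scoped Classical

variable {X : Type*}

/-- `d` is a pseudo-distance with values in `ℕ`. -/
structure PD (d : X → X → ℕ) : Prop where
  self : ∀ x, d x x = 0
  symm : ∀ x y, d x y = d y x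
  tri : ∀ x y z, d x z ≤ d x y + d y z

/-- `S` is `r`-separated. -/
def Sep (d : X → X → ℕ) (r : ℕ) (S : Finset X) : Prop :=
  ∀ x ∈ S, ∀ y ∈ S, x ≠ y → r < d x y

/-- The packing number. -/
noncomputable def pack (d : X → X → ℕ) (r : ℕ) (U : Finset X) : ℕ :=
  (U.powerset.filter (Sep d r)).sup Finset.card

variable {d : X → X → ℕ} {r r' R : ℕ} {U W S : Finset X}

theorem Sep.mono (h : Sep d r S) (hW : W ⊆ S) : Sep d r W :=
  fun x hx y hy hne => h x (hW hx) y (hW hy) hne

theorem Sep.anti (h : Sep d r' S) (hr : r ≤ r') : Sep d r S :=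
  fun x hx y hy hne => lt_of_le_of_lt hr (h x hx y hy hne)

theorem sep_empty : Sep d r ∅ := fun x hx => absurd hx (Finset.notMem_empty x)

theorem sep_singleton (x : X) : Sep d r {x} := by
  intro a ha b hb hne
  rw [Finset.mem_singleton] at ha hb
  exact absurd (ha.trans hb.symm) hne

theorem card_le_pack (hS : S ⊆ U) (h : Sep d r S) : S.card ≤ pack d r U :=
  Finset.le_sup (f := Finset.card) (Finset.mem_filter.2 ⟨Finset.mem_powerset.2 hS, h⟩)

theorem exists_pack (d : X → X → ℕ) (r : ℕ) (U : Finset X) :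
    ∃ S ⊆ U, Sep d r S ∧ S.card = pack d r U := by
  have hne : (U.powerset.filter (Sep d r)).Nonempty :=
    ⟨∅, Finset.mem_filter.2 ⟨Finset.mem_powerset.2 (Finset.empty_subset _), sep_empty⟩⟩
  obtain ⟨S, hS, hcard⟩ := Finset.exists_mem_eq_sup _ hne (Finset.card : Finset X → ℕ)
  rw [Finset.mem_filter, Finset.mem_powerset] at hS
  exact ⟨S, hS.1, hS.2, hcard.symm⟩

theorem pack_le_iff {n : ℕ} : pack d r U ≤ n ↔ ∀ S ⊆ U, Sep d r S → S.card ≤ n := by
  constructor
  · intro h S hS hs
    exact (card_le_pack hS hs).trans h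
  · intro h
    obtain ⟨S, hS, hs, hc⟩ := exists_pack d r U
    rw [← hc]
    exact h S hS hs

theorem pack_le_card : pack d r U ≤ U.card :=
  pack_le_iff.2 fun _ hS _ => Finset.card_le_card hS

theorem pack_mono (h : U ⊆ W) : pack d r U ≤ pack d r W :=
  pack_le_iff.2 fun _ hS hs => card_le_pack (hS.trans h) hs

theorem pack_anti (h : r ≤ r') : pack d r' U ≤ pack d r U :=
  pack_le_iff.2 fun _ hS hs => card_le_pack hS (hs.anti h)

@[simp] theorem pack_empty : pack d r ∅ = 0 := by
  have := pack_le_card (d := d) (r := r) (U := ∅)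
  simpa using this

theorem pack_pos (h : U.Nonempty) : 1 ≤ pack d r U := by
  obtain ⟨x, hx⟩ := h
  have := card_le_pack (d := d) (r := r) (Finset.singleton_subset_iff.2 hx) (sep_singleton x)
  simpa using this

theorem pack_eq_zero : pack d r U = 0 ↔ U = ∅ := by
  constructor
  · intro h
    by_contra hne
    have := pack_pos (d := d) (r := r) (Finset.nonempty_iff_ne_empty.2 hne)
    omega
  · rintro rfl
    exact pack_empty

@[simp] theorem pack_singleton (x : X) : pack d r {x} = 1 := by
  apply le_antisymm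
  · have := pack_le_card (d := d) (r := r) (U := {x})
    simpa using this
  · exact pack_pos (Finset.singleton_nonempty x)

theorem pack_union_le : pack d r (U ∪ W) ≤ pack d r U + pack d r W := by
  refine pack_le_iff.2 fun S hS hs => ?_
  have h1 : S = (S ∩ U) ∪ (S ∩ W) := by
    rw [← Finset.inter_union_distrib_left]
    exact (Finset.inter_eq_left.2 hS).symm
  calc S.card = ((S ∩ U) ∪ (S ∩ W)).card := by rw [← h1]
    _ ≤ (S ∩ U).card + (S ∩ W).card := Finset.card_union_le _ _
    _ ≤ pack d r U + pack d r W :=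
      add_le_add (card_le_pack Finset.inter_subset_right (hs.mono Finset.inter_subset_left))
        (card_le_pack Finset.inter_subset_right (hs.mono Finset.inter_subset_left))

theorem pack_biUnion_le {ι : Type*} (T : Finset ι) (f : ι → Finset X) :
    pack d r (T.biUnion f) ≤ ∑ i ∈ T, pack d r (f i) := by
  induction T using Finset.induction_on with
  | empty => simp
  | insert a T ha ih =>
    rw [Finset.biUnion_insert, Finset.sum_insert ha]
    exact pack_union_le.trans (add_le_add le_rfl ih)

/-- sets with packing number `≤ 1` are exactly the sets of diameter `≤ r` -/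
theorem pack_le_one_iff (hd : PD d) :
    pack d r U ≤ 1 ↔ ∀ x ∈ U, ∀ y ∈ U, d x y ≤ r := by
  constructor
  · intro h x hx y hy
    by_contra hlt
    rw [not_le] at hlt
    have hne : x ≠ y := by
      rintro rfl
      rw [hd.self] at hlt
      omega
    have hs : Sep d r {x, y} := by
      intro a ha b hb hab
      simp only [Finset.mem_insert, Finset.mem_singleton] at ha hb
      rcases ha with rfl | rfl <;> rcases hb with rfl | rfl
      · exact absurd rfl hab
      · exact hlt
      · rw [hd.symm]; exact hlt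
      · exact absurd rfl hab
    have hsub : ({x, y} : Finset X) ⊆ U := by
      intro a ha
      simp only [Finset.mem_insert, Finset.mem_singleton] at ha
      rcases ha with rfl | rfl <;> assumption
    have := card_le_pack hsub hs
    rw [Finset.card_pair hne] at this
    omega
  · intro h
    refine pack_le_iff.2 fun S hS hs => ?_
    refine Finset.card_le_one.2 fun x hx y hy => ?_
    by_contra hne
    have h1 := hs x hx y hy hne
    have h2 := h x (hS hx) y (hS hy)
    omega

/-! ### connectedness -/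

/-- `U` is connected at range `R`: no proper cut without an edge of length `≤ R`. -/
def Conn (d : X → X → ℕ) (R : ℕ) (U : Finset X) : Prop :=
  ∀ A ⊆ U, A.Nonempty → A ≠ U → ∃ a ∈ A, ∃ b ∈ U, b ∉ A ∧ d a b ≤ R

theorem Conn.mono (h : Conn d R U) {R' : ℕ} (hR : R ≤ R') : Conn d R' U := by
  intro A hA hne hneU
  obtain ⟨a, ha, b, hb, hbA, hab⟩ := h A hA hne hneU
  exact ⟨a, ha, b, hb, hbA, hab.trans hR⟩

theorem conn_singleton (x : X) : Conn d R {x} := by
  intro A hA hne hneU
  exfalso
  apply hneU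
  obtain ⟨a, ha⟩ := hne
  have hax := Finset.mem_singleton.1 (hA ha)
  subst hax
  exact le_antisymm hA (Finset.singleton_subset_iff.2 ha)

/-- sets of diameter `≤ R` are connected at range `R` -/
theorem conn_of_diam (h : ∀ x ∈ U, ∀ y ∈ U, d x y ≤ R) : Conn d R U := by
  intro A hA hne hneU
  obtain ⟨a, ha⟩ := hne
  have : ∃ b ∈ U, b ∉ A := by
    by_contra hcon
    push Not at hcon
    exact hneU (le_antisymm hA hcon)
  obtain ⟨b, hb, hbA⟩ := this
  exact ⟨a, ha, b, hb, hbA, h a (hA ha) b hb⟩

/-- union of a connected family of connected sets -/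
theorem conn_biUnion {ι : Type*} (T : Finset ι) (f : ι → Finset X)
    (hf : ∀ i ∈ T, Conn d R (f i))
    (hT : ∀ J ⊆ T, J.Nonempty → J ≠ T →
      ∃ i ∈ J, ∃ j ∈ T, j ∉ J ∧ ∃ a ∈ f i, ∃ b ∈ f j, d a b ≤ R) :
    Conn d R (T.biUnion f) := by
  intro A hA hne hneU
  by_cases hmix : ∃ i ∈ T, (f i ∩ A).Nonempty ∧ ¬ f i ⊆ A
  · obtain ⟨i, hi, hn1, hn2⟩ := hmix
    have hneq : f i ∩ A ≠ f i := by
      intro he
      exact hn2 (Finset.inter_eq_left.1 he)
    obtain ⟨a, ha, b, hb, hbA, hab⟩ := hf i hi _ Finset.inter_subset_left hn1 hneq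
    rw [Finset.mem_inter] at ha
    refine ⟨a, ha.2, b, Finset.mem_biUnion.2 ⟨i, hi, hb⟩, ?_, hab⟩
    intro hbA'
    exact hbA (Finset.mem_inter.2 ⟨hb, hbA'⟩)
  · push Not at hmix
    -- every `f i` is inside `A` or disjoint from `A`
    set J := T.filter fun i => f i ⊆ A ∧ (f i).Nonempty with hJ
    set E := T.filter fun i => ¬ (f i).Nonempty with hE
    have hJne : J.Nonempty := by
      obtain ⟨a, ha⟩ := hne
      obtain ⟨i, hi, hai⟩ := Finset.mem_biUnion.1 (hA ha)
      exact ⟨i, Finset.mem_filter.2 ⟨hi, hmix i hi ⟨a, Finset.mem_inter.2 ⟨hai, ha⟩⟩, ⟨a, hai⟩⟩⟩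
    have hJT : J ≠ T := by
      intro he
      apply hneU
      refine le_antisymm hA ?_
      intro x hx
      obtain ⟨i, hi, hxi⟩ := Finset.mem_biUnion.1 hx
      rw [← he] at hi
      exact (Finset.mem_filter.1 hi).2.1 hxi
    obtain ⟨i, hi, j, hj, hjJ, a, ha, b, hb, hab⟩ := hT J (Finset.filter_subset _ _) hJne hJT
    have hiJ := (Finset.mem_filter.1 hi).2.1
    refine ⟨a, hiJ ha, b, Finset.mem_biUnion.2 ⟨j, hj, hb⟩, ?_, hab⟩
    intro hbA
    apply hjJ
    exact Finset.mem_filter.2 ⟨hj, hmix j hj ⟨b, Finset.mem_inter.2 ⟨hb, hbA⟩⟩, ⟨b, hb⟩⟩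

/-- intermediate value property of the distance on a connected set -/
theorem Conn.exists_level (hd : PD d) (h : Conn d R U) {p q : X} (hp : p ∈ U) (hq : q ∈ U)
    {t : ℕ} (ht : 0 < t) (hpq : t ≤ d p q) :
    ∃ x ∈ U, t ≤ d p x ∧ d p x < t + R := by
  set A := U.filter fun x => d p x < t with hA
  have hpA : p ∈ A := Finset.mem_filter.2 ⟨hp, by rw [hd.self]; exact ht⟩
  have hneU : A ≠ U := by
    intro he
    rw [← he] at hq
    have := (Finset.mem_filter.1 hq).2
    omega
  obtain ⟨a, ha, b, hb, hbA, hab⟩ := h A (Finset.filter_subset _ _) ⟨p, hpA⟩ hneU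
  have h1 := (Finset.mem_filter.1 ha).2
  have h2 : t ≤ d p b := by
    by_contra hlt
    rw [not_le] at hlt
    exact hbA (Finset.mem_filter.2 ⟨hb, hlt⟩)
  have h3 := hd.tri p a b
  exact ⟨b, hb, h2, by omega⟩

/-- GROWTH LEMMA: a set connected at range `R` with at least two `r'`-separated points has
`m` times more `r`-separated points. -/
theorem pack_growth (hd : PD d) (hU : Conn d R U) {m ρ : ℕ}
    (hm : (m - 1) * (R + r + 1) + R ≤ ρ) (hρ : 2 * ρ + r ≤ r') (h2 : 2 ≤ pack d r' U) :
    m * pack d r' U ≤ pack d r U := by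
  obtain ⟨S, hSU, hS, hcard⟩ := exists_pack d r' U
  -- the points
  have key : ∀ p : X, ∀ a : ℕ, p ∈ S → a < m →
      ∃ x ∈ U, a * (R + r + 1) ≤ d p x ∧ d p x ≤ a * (R + r + 1) + R ∧ d p x ≤ ρ := by
    intro p a hp ha
    have hle : a * (R + r + 1) ≤ (m - 1) * (R + r + 1) := Nat.mul_le_mul_right _ (by omega)
    rcases Nat.eq_zero_or_pos a with rfl | hapos
    · exact ⟨p, hSU hp, by simp, by rw [hd.self]; omega, by rw [hd.self]; omega⟩
    · have hex : ∃ q ∈ S, q ≠ p := by
        have : 1 < S.card := by omega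
        obtain ⟨q, hq, hqp⟩ := Finset.exists_mem_ne this p
        exact ⟨q, hq, hqp⟩
      obtain ⟨q, hq, hqp⟩ := hex
      have hpq : r' < d p q := hS p hp q hq (Ne.symm hqp)
      obtain ⟨x, hx, h1, h2⟩ := hU.exists_level hd (hSU hp) (hSU hq)
        (t := a * (R + r + 1)) (Nat.mul_pos hapos (by omega)) (by omega)
      exact ⟨x, hx, h1, by omega, by omega⟩
  choose f hf using key
  -- injection from `S × range m`
  let g : X × ℕ → X := fun pa =>
    if h : pa.1 ∈ S ∧ pa.2 < m then f pa.1 pa.2 h.1 h.2 else pa.1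
  have hg : ∀ pa ∈ S ×ˢ Finset.range m, g pa ∈ U ∧ pa.2 * (R + r + 1) ≤ d pa.1 (g pa) ∧
      d pa.1 (g pa) ≤ pa.2 * (R + r + 1) + R ∧ d pa.1 (g pa) ≤ ρ := by
    intro pa hpa
    rw [Finset.mem_product, Finset.mem_range] at hpa
    have hgp : g pa = f pa.1 pa.2 hpa.1 hpa.2 := dif_pos hpa
    rw [hgp]
    exact hf pa.1 pa.2 hpa.1 hpa.2
  have hsep : ∀ pa ∈ S ×ˢ Finset.range m, ∀ qb ∈ S ×ˢ Finset.range m, pa ≠ qb →
      r < d (g pa) (g qb) := by
    -- first the case of ordered levels
    have hord : ∀ p : X, ∀ a b : ℕ, (p, a) ∈ S ×ˢ Finset.range m → (p, b) ∈ S ×ˢ Finset.range m →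
        a < b → r < d (g (p, a)) (g (p, b)) := by
      intro p a b hpa hpb hab
      obtain ⟨-, -, h2, -⟩ := hg _ hpa
      obtain ⟨-, h1, -, -⟩ := hg _ hpb
      have h3 := hd.tri p (g (p, a)) (g (p, b))
      have h4 : (a + 1) * (R + r + 1) ≤ b * (R + r + 1) := Nat.mul_le_mul_right _ hab
      have h5 : (a + 1) * (R + r + 1) = a * (R + r + 1) + (R + r + 1) := by ring
      simp only at h1 h2
      omega
    rintro ⟨p, a⟩ hpa ⟨q, b⟩ hqb hne
    by_cases hpq : p = q
    · subst hpq
      have hab : a ≠ b := fun he => hne (by rw [he])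
      rcases lt_or_gt_of_ne hab with hlt | hlt
      · exact hord p a b hpa hqb hlt
      · rw [hd.symm]
        exact hord p b a hqb hpa hlt
    · have hp := (Finset.mem_product.1 hpa).1
      have hq := (Finset.mem_product.1 hqb).1
      have h1 := hS p hp q hq hpq
      obtain ⟨-, -, -, h2⟩ := hg _ hpa
      obtain ⟨-, -, -, h3⟩ := hg _ hqb
      have h4 := hd.tri p (g (p, a)) q
      have h5 := hd.tri (g (p, a)) (g (q, b)) q
      have h6 := hd.symm (g (q, b)) q
      simp only at h2 h3
      omega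
  have hinj : Set.InjOn g ((S ×ˢ Finset.range m : Finset (X × ℕ)) : Set (X × ℕ)) := by
    intro pa hpa qb hqb he
    by_contra hne
    have := hsep pa hpa qb hqb hne
    rw [he, hd.self] at this
    omega
  have himg : Sep d r ((S ×ˢ Finset.range m).image g) := by
    intro x hx y hy hxy
    obtain ⟨pa, hpa, rfl⟩ := Finset.mem_image.1 hx
    obtain ⟨qb, hqb, rfl⟩ := Finset.mem_image.1 hy
    exact hsep pa hpa qb hqb (fun he => hxy (by rw [he]))
  have hsub : (S ×ˢ Finset.range m).image g ⊆ U := by
    intro x hx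
    obtain ⟨pa, hpa, rfl⟩ := Finset.mem_image.1 hx
    exact (hg pa hpa).1
  have hfin := card_le_pack hsub himg
  rw [Finset.card_image_of_injOn hinj, Finset.card_product, Finset.card_range, hcard] at hfin
  rw [mul_comm]
  exact hfin

/-- LARGE SETS ARE GAINING: if `U` is connected at range `R`, `pack` at the larger scale is
strictly smaller as soon as `U` is not small, and is at most `max 1 (pack/m)`. -/
theorem pack_lt (hd : PD d) (hU : Conn d R U) {ρ : ℕ}
    (hm : 2 * R + r + 1 ≤ ρ) (hρ : 2 * ρ + r ≤ r') (h2 : 2 ≤ pack d r U) :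
    pack d r' U + 1 ≤ pack d r U := by
  by_cases h1 : pack d r' U ≤ 1
  · omega
  · have := pack_growth (m := 2) hd hU (by omega) hρ (by omega)
    omega

/-- 417's form: only `R + 2 r ≤ r'` is needed.  If `U` is connected at range `R` and not small
(`2 ≤ pack r U`), the packing number strictly drops from scale `r` to scale `r'`. -/
theorem pack_drop (hd : PD d) (hU : Conn d R U) (hR : R + 2 * r ≤ r')
    (h2 : 2 ≤ pack d r U) : pack d r' U + 1 ≤ pack d r U := by
  have hle : pack d r' U ≤ pack d r U := pack_anti (by omega)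
  by_contra hcon
  have heq : pack d r' U = pack d r U := by omega
  obtain ⟨S, hSU, hS, hcard⟩ := exists_pack d r' U
  -- every point of `U` is within `r` of a point of `S`
  have hcov : ∀ x ∈ U, ∃ p ∈ S, d p x ≤ r := by
    intro x hx
    by_contra hno
    push Not at hno
    have hxS : x ∉ S := by
      intro hxS
      have := hno x hxS
      rw [hd.self] at this
      omega
    have hs : Sep d r (insert x S) := by
      intro a ha b hb hab
      rw [Finset.mem_insert] at ha hb
      rcases ha with rfl | ha <;> rcases hb with rfl | hb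
      · exact absurd rfl hab
      · rw [hd.symm]; exact hno b hb
      · exact hno a ha
      · exact lt_of_le_of_lt (by omega) (hS a ha b hb hab)
    have := card_le_pack (Finset.insert_subset hx hSU) hs
    rw [Finset.card_insert_of_notMem hxS] at this
    omega
  -- choose one point of `S` and look at the points of `U` close to it
  have hSc : 1 < S.card := by omega
  obtain ⟨p, hp⟩ : S.Nonempty := Finset.card_pos.1 (by omega)
  obtain ⟨q, hq, hqp⟩ := Finset.exists_mem_ne hSc p
  set A := U.filter fun x => d p x ≤ r with hA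
  have hpA : p ∈ A := Finset.mem_filter.2 ⟨hSU hp, by rw [hd.self]; omega⟩
  have hneU : A ≠ U := by
    intro he
    have hqU := hSU hq
    rw [← he] at hqU
    have h1 := (Finset.mem_filter.1 hqU).2
    have h2 := hS p hp q hq (Ne.symm hqp)
    omega
  obtain ⟨a, ha, b, hb, hbA, hab⟩ := hU A (Finset.filter_subset _ _) ⟨p, hpA⟩ hneU
  have h1 := (Finset.mem_filter.1 ha).2
  obtain ⟨p', hp', hp'b⟩ := hcov b hb
  have hne : p ≠ p' := by
    rintro rfl
    exact hbA (Finset.mem_filter.2 ⟨hb, hp'b⟩)
  have h2 := hS p hp p' hp' hne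
  have h3 := hd.tri p a p'
  have h4 := hd.tri a b p'
  have h5 := hd.symm b p'
  omega

end Crest.Agent.R165.Packx915
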