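import Mathlib
import Crest.Agent.R165.Pack_915

/-!
# Row 165 (S0250): the sup metric of the faces `G × G`, `G = ℤ` or `ZMod N` (helper723)

* `IntSurj G`   : every element of `G` is an integer (`ℤ`, `ZMod N`)
* `nrmG`, `dG`  : distance to zero on `G`, sup distance on `G × G`; `pd_dG : PD dG`
* `nrmG_int`, `nrmG_zmod`, `dG_pr_eq`, `dG_pr_le`, `exists_lift` : comparison of plane and torus
* `boxG f s`    : the ball of radius `s` as a finset, `mem_boxG`, `card_boxG_le`
* `exists_cover`: `B(f, s)` is covered by `(2 (s / r) + 3)^2` balls of radius `r`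
* `sum_near_le` : the reblocking inequality for sums over sets near a face
-/

set_option autoImplicit false

open Finset
open Crest.Agent.R165.Packx915

namespace Crest.Agent.R165.MetGx723

/-- every element is an integer -/
class IntSurj (G : Type*) [CommRing G] : Prop where
  surj : Function.Surjective (Int.cast : ℤ → G)

instance : IntSurj ℤ := ⟨fun n => ⟨n, by simp⟩⟩

instance (N : ℕ) : IntSurj (ZMod N) := ⟨ZMod.intCast_surjective⟩

section gen

variable {G : Type*} [CommRing G]

/-- distance to zero: the least absolute value of an integer representative -/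
noncomputable def nrmG (x : G) : ℕ := sInf {m : ℕ | ∃ n : ℤ, n.natAbs = m ∧ (n : G) = x}

theorem nrmG_le (n : ℤ) : nrmG (n : G) ≤ n.natAbs := Nat.sInf_le ⟨n, rfl, rfl⟩

theorem exists_rep [IntSurj G] (x : G) : ∃ n : ℤ, n.natAbs = nrmG x ∧ (n : G) = x := by
  have hne : {m : ℕ | ∃ n : ℤ, n.natAbs = m ∧ (n : G) = x}.Nonempty := by
    obtain ⟨n, hn⟩ := IntSurj.surj x
    exact ⟨n.natAbs, n, rfl, hn⟩
  exact Nat.sInf_mem hne

theorem nrmG_zero : nrmG (0 : G) = 0 := by
  have := nrmG_le (G := G) 0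
  simpa using this

theorem nrmG_eq_zero [IntSurj G] {x : G} : nrmG x = 0 ↔ x = 0 := by
  constructor
  · intro h
    obtain ⟨n, hn, hx⟩ := exists_rep x
    rw [h, Int.natAbs_eq_zero] at hn
    rw [← hx, hn, Int.cast_zero]
  · rintro rfl
    exact nrmG_zero

theorem nrmG_neg [IntSurj G] (x : G) : nrmG (-x) = nrmG x := by
  have key : ∀ y : G, nrmG (-y) ≤ nrmG y := by
    intro y
    obtain ⟨n, hn, hy⟩ := exists_rep y
    have := nrmG_le (G := G) (-n)
    rw [Int.natAbs_neg, hn, Int.cast_neg, hy] at this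
    exact this
  refine le_antisymm (key x) ?_
  have := key (-x)
  rwa [neg_neg] at this

theorem nrmG_add_le [IntSurj G] (x y : G) : nrmG (x + y) ≤ nrmG x + nrmG y := by
  obtain ⟨n, hn, hx⟩ := exists_rep x
  obtain ⟨k, hk, hy⟩ := exists_rep y
  have := nrmG_le (G := G) (n + k)
  rw [Int.cast_add, hx, hy] at this
  exact this.trans ((Int.natAbs_add_le n k).trans (by rw [hn, hk]))

/-- sup distance of two faces -/
noncomputable def dG (f g : G × G) : ℕ := max (nrmG (f.1 - g.1)) (nrmG (f.2 - g.2))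

theorem dG_self (x : G × G) : dG x x = 0 := by simp [dG, nrmG_zero]

theorem dG_comm [IntSurj G] (x y : G × G) : dG x y = dG y x := by
  unfold dG
  rw [← nrmG_neg (x.1 - y.1), ← nrmG_neg (x.2 - y.2), neg_sub, neg_sub]

theorem dG_tri [IntSurj G] (x y z : G × G) : dG x z ≤ dG x y + dG y z := by
  unfold dG
  have h1 := nrmG_add_le (x.1 - y.1) (y.1 - z.1)
  have h2 := nrmG_add_le (x.2 - y.2) (y.2 - z.2)
  rw [sub_add_sub_cancel] at h1 h2
  refine max_le ?_ ?_
  · exact h1.trans (Nat.add_le_add (le_max_left _ _) (le_max_left _ _))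
  · exact h2.trans (Nat.add_le_add (le_max_right _ _) (le_max_right _ _))

/-- the sup distance is a pseudo-distance -/
theorem pd_dG [IntSurj G] : PD (dG : G × G → G × G → ℕ) := ⟨dG_self, dG_comm, dG_tri⟩

theorem dG_eq_zero [IntSurj G] {f g : G × G} : dG f g = 0 ↔ f = g := by
  constructor
  · intro h
    unfold dG at h
    have h1 : nrmG (f.1 - g.1) = 0 := by
      have := le_max_left (nrmG (f.1 - g.1)) (nrmG (f.2 - g.2)); omega
    have h2 : nrmG (f.2 - g.2) = 0 := by
      have := le_max_right (nrmG (f.1 - g.1)) (nrmG (f.2 - g.2)); omega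
    rw [nrmG_eq_zero, sub_eq_zero] at h1 h2
    exact Prod.ext h1 h2
  · rintro rfl
    exact dG_self f

theorem dG_add_right (f g t : G × G) : dG (f + t) (g + t) = dG f g := by
  unfold dG
  simp

theorem dG_add_left (f g t : G × G) : dG (t + f) (t + g) = dG f g := by
  unfold dG
  simp

/-- rotation by a right angle -/
theorem dG_rot [IntSurj G] (f g : G × G) : dG (-f.2, f.1) (-g.2, g.1) = dG f g := by
  unfold dG
  have h : -f.2 - -g.2 = -(f.2 - g.2) := by ring
  simp only [h, nrmG_neg]
  exact max_comm _ _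

/-- reflection in the first axis -/
theorem dG_refl [IntSurj G] (f g : G × G) : dG (f.1, -f.2) (g.1, -g.2) = dG f g := by
  unfold dG
  have h : -f.2 - -g.2 = -(f.2 - g.2) := by ring
  simp only [h, nrmG_neg]

theorem dG_int_le (f : G × G) (a b : ℤ) {s : ℕ} (ha : a.natAbs ≤ s) (hb : b.natAbs ≤ s) :
    dG (f + ((a : G), (b : G))) f ≤ s := by
  unfold dG
  simp only [Prod.fst_add, Prod.snd_add, add_sub_cancel_left]
  exact max_le ((nrmG_le a).trans ha) ((nrmG_le b).trans hb)

/-- faces at distance at most `s`, as integer displacements -/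
theorem exists_disp [IntSurj G] {f g : G × G} {s : ℕ} (h : dG g f ≤ s) :
    ∃ a b : ℤ, a.natAbs ≤ s ∧ b.natAbs ≤ s ∧ g = f + ((a : G), (b : G)) := by
  obtain ⟨a, ha, ha'⟩ := exists_rep (g.1 - f.1)
  obtain ⟨b, hb, hb'⟩ := exists_rep (g.2 - f.2)
  unfold dG at h
  refine ⟨a, b, ?_, ?_, ?_⟩
  · rw [ha]; exact (le_max_left _ _).trans h
  · rw [hb]; exact (le_max_right _ _).trans h
  · rw [ha', hb']
    ext <;> simp

/-- the ball of radius `s` (as a finset) -/
noncomputable def boxG [DecidableEq G] (f : G × G) (s : ℕ) : Finset (G × G) :=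
  (Finset.Icc (-(s : ℤ)) s ×ˢ Finset.Icc (-(s : ℤ)) s).image fun p => f + ((p.1 : G), (p.2 : G))

theorem mem_boxG [DecidableEq G] [IntSurj G] {f g : G × G} {s : ℕ} :
    g ∈ boxG f s ↔ dG g f ≤ s := by
  unfold boxG
  rw [Finset.mem_image]
  constructor
  · rintro ⟨⟨a, b⟩, hab, rfl⟩
    rw [Finset.mem_product, Finset.mem_Icc, Finset.mem_Icc] at hab
    have h1 := hab.1
    have h2 := hab.2
    exact dG_int_le f a b (by simp only at h1; omega) (by simp only at h2; omega)
  · intro h
    obtain ⟨a, b, ha, hb, rfl⟩ := exists_disp h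
    refine ⟨(a, b), ?_, rfl⟩
    rw [Finset.mem_product, Finset.mem_Icc, Finset.mem_Icc]
    constructor <;> constructor <;> simp only <;> omega

theorem card_boxG_le [DecidableEq G] (f : G × G) (s : ℕ) : (boxG f s).card ≤ (2 * s + 1) ^ 2 := by
  unfold boxG
  refine Finset.card_image_le.trans ?_
  rw [Finset.card_product, Int.card_Icc]
  have : ((s : ℤ) + 1 - -(s : ℤ)).toNat = 2 * s + 1 := by omega
  rw [this, sq]

/-- balls are finite -/
theorem finite_ball [IntSurj G] (f : G × G) (s : ℕ) : {g : G × G | dG g f ≤ s}.Finite := by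
  classical
  refine (boxG f s).finite_toSet.subset fun g hg => ?_
  exact Finset.mem_coe.2 (mem_boxG.2 hg)

/-- **cover**: a ball of radius `s` is covered by `(2 (s / r) + 3)^2` balls of radius `r` -/
theorem exists_cover [IntSurj G] (f : G × G) {r : ℕ} (hr : 0 < r) (s : ℕ) :
    ∃ C : Finset (G × G), C.card ≤ (2 * (s / r) + 3) ^ 2 ∧
      ∀ g, dG g f ≤ s → ∃ c ∈ C, dG g c ≤ r := by
  classical
  set n : ℕ := s / r + 1 with hn
  refine ⟨(Finset.Icc (-(n : ℤ)) n ×ˢ Finset.Icc (-(n : ℤ)) n).image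
    fun p => f + (((r * p.1 : ℤ) : G), ((r * p.2 : ℤ) : G)), ?_, ?_⟩
  · refine Finset.card_image_le.trans ?_
    rw [Finset.card_product, Int.card_Icc]
    have : ((n : ℤ) + 1 - -(n : ℤ)).toNat = 2 * n + 1 := by omega
    rw [this, sq]
    have h3 : 2 * n + 1 = 2 * (s / r) + 3 := by omega
    rw [h3]
  · intro g hg
    obtain ⟨a, b, ha, hb, rfl⟩ := exists_disp hg
    have hr' : (0 : ℤ) < r := by exact_mod_cast hr
    have key : ∀ c : ℤ, c.natAbs ≤ s → c / r ∈ Finset.Icc (-(n : ℤ)) n ∧
        (c - r * (c / r)).natAbs ≤ r := by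
      intro c hc
      have h1 := Int.emod_nonneg c hr'.ne'
      have h2 := Int.emod_lt_of_pos c hr'
      have h3 := Int.mul_ediv_add_emod c r
      have h4 : s < r * n := by
        rw [hn]
        exact Nat.lt_mul_div_succ s hr
      have h4' : (s : ℤ) < r * n := by exact_mod_cast h4
      constructor
      · rw [Finset.mem_Icc]
        constructor
        · by_contra h
          push Not at h
          have h5 : c / r + 1 ≤ -(n : ℤ) := by omega
          have h6 : (r : ℤ) * (c / r + 1) ≤ r * (-(n : ℤ)) := mul_le_mul_of_nonneg_left h5 hr'.le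
          have h7 : -(s : ℤ) ≤ c := by omega
          nlinarith
        · by_contra h
          push Not at h
          have h5 : (n : ℤ) + 1 ≤ c / r := by omega
          have h6 : (r : ℤ) * ((n : ℤ) + 1) ≤ r * (c / r) := mul_le_mul_of_nonneg_left h5 hr'.le
          have h7 : c ≤ (s : ℤ) := by omega
          nlinarith
      · omega
    obtain ⟨ha1, ha2⟩ := key a ha
    obtain ⟨hb1, hb2⟩ := key b hb
    refine ⟨f + (((r * (a / r) : ℤ) : G), ((r * (b / r) : ℤ) : G)),
      Finset.mem_image.2 ⟨(a / r, b / r), Finset.mem_product.2 ⟨ha1, hb1⟩, rfl⟩, ?_⟩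
    unfold dG
    refine max_le ?_ ?_
    · have := nrmG_le (G := G) (a - r * (a / r))
      simp only [Prod.fst_add, add_sub_add_left_eq_sub]
      rw [← Int.cast_sub]
      exact this.trans ha2
    · have := nrmG_le (G := G) (b - r * (b / r))
      simp only [Prod.snd_add, add_sub_add_left_eq_sub]
      rw [← Int.cast_sub]
      exact this.trans hb2

end gen

/-! ### Plane and torus -/

section torus

theorem nrmG_int (n : ℤ) : nrmG n = n.natAbs := by
  obtain ⟨k, hk, h⟩ := exists_rep n
  rw [← hk]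
  congr 1

theorem dG_int (f g : ℤ × ℤ) : dG f g = max (f.1 - g.1).natAbs (f.2 - g.2).natAbs := by
  unfold dG
  rw [nrmG_int, nrmG_int]

/-- integers of absolute value at most `N / 2` are shortest representatives -/
theorem nrmG_zmod {N : ℕ} {n : ℤ} (h : 2 * n.natAbs ≤ N) : nrmG (n : ZMod N) = n.natAbs := by
  refine le_antisymm (nrmG_le n) ?_
  obtain ⟨k, hk, hkn⟩ := exists_rep (n : ZMod N)
  rw [← hk]
  by_contra hcon
  push Not at hcon
  have h1 : (N : ℤ) ∣ n - k := by
    have := (ZMod.intCast_eq_intCast_iff_dvd_sub k n N).1 hkn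
    exact this
  obtain ⟨c, hc⟩ := h1
  have h2 : (n - k).natAbs < N := by omega
  have h3 : (n - k).natAbs = N * c.natAbs := by rw [hc, Int.natAbs_mul, Int.natAbs_natCast]
  rcases Nat.eq_zero_or_pos c.natAbs with h0 | h0
  · rw [h0, mul_zero] at h3
    omega
  · have : N * 1 ≤ N * c.natAbs := Nat.mul_le_mul_left N h0
    omega

/-- the projection of the plane on the torus -/
def pr (N : ℕ) (f : ℤ × ℤ) : ZMod N × ZMod N := ((f.1 : ZMod N), (f.2 : ZMod N))

theorem pr_add (N : ℕ) (f g : ℤ × ℤ) : pr N (f + g) = pr N f + pr N g := by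
  simp [pr]

theorem pr_sub (N : ℕ) (f g : ℤ × ℤ) : pr N (f - g) = pr N f - pr N g := by
  simp [pr]

theorem dG_pr_le (N : ℕ) (f g : ℤ × ℤ) : dG (pr N f) (pr N g) ≤ dG f g := by
  rw [dG_int]
  unfold dG pr
  simp only
  rw [← Int.cast_sub, ← Int.cast_sub]
  exact max_le_max (nrmG_le _) (nrmG_le _)

theorem dG_pr_eq {N : ℕ} {f g : ℤ × ℤ} (h : 2 * dG f g ≤ N) : dG (pr N f) (pr N g) = dG f g := by
  rw [dG_int] at h ⊢
  unfold dG pr
  simp only
  rw [← Int.cast_sub, ← Int.cast_sub, nrmG_zmod, nrmG_zmod]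
  · have := le_max_right (f.1 - g.1).natAbs (f.2 - g.2).natAbs; omega
  · have := le_max_left (f.1 - g.1).natAbs (f.2 - g.2).natAbs; omega

/-- the torus distance agrees with the plane distance below the threshold `N - diam` -/
theorem dG_pr_le_iff {N : ℕ} {f g : ℤ × ℤ} {t : ℕ} (h : dG f g + t < N) :
    dG (pr N f) (pr N g) ≤ t ↔ dG f g ≤ t := by
  refine ⟨fun h1 => ?_, fun h1 => (dG_pr_le N f g).trans h1⟩
  rw [dG_int] at h ⊢
  unfold dG pr at h1
  simp only at h1
  rw [← Int.cast_sub, ← Int.cast_sub] at h1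
  have key : ∀ a : ℤ, a.natAbs + t < N → nrmG (a : ZMod N) ≤ t → a.natAbs ≤ t := by
    intro a ha hat
    obtain ⟨k, hk, hka⟩ := exists_rep (a : ZMod N)
    have h2 : (N : ℤ) ∣ a - k := (ZMod.intCast_eq_intCast_iff_dvd_sub k a N).1 hka
    obtain ⟨c, hc⟩ := h2
    have h3 : (a - k).natAbs < N := by omega
    have h4 : (a - k).natAbs = N * c.natAbs := by rw [hc, Int.natAbs_mul, Int.natAbs_natCast]
    rcases Nat.eq_zero_or_pos c.natAbs with h0 | h0
    · rw [h0, mul_zero] at h4
      omega
    · have : N * 1 ≤ N * c.natAbs := Nat.mul_le_mul_left N h0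
      omega
  have ha := le_max_left (f.1 - g.1).natAbs (f.2 - g.2).natAbs
  have hb := le_max_right (f.1 - g.1).natAbs (f.2 - g.2).natAbs
  exact max_le (key _ (by omega) ((le_max_left _ _).trans h1))
    (key _ (by omega) ((le_max_right _ _).trans h1))

theorem pr_surjective (N : ℕ) : Function.Surjective (pr N) := by
  rintro ⟨x, y⟩
  obtain ⟨a, ha⟩ := ZMod.intCast_surjective x
  obtain ⟨b, hb⟩ := ZMod.intCast_surjective y
  exact ⟨(a, b), by simp [pr, ha, hb]⟩

/-- torus faces near the image of a plane face lift to nearby plane faces -/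
theorem exists_lift {N : ℕ} (f : ℤ × ℤ) {g : ZMod N × ZMod N} {s : ℕ} (h : dG g (pr N f) ≤ s) :
    ∃ g' : ℤ × ℤ, pr N g' = g ∧ dG g' f ≤ s := by
  obtain ⟨a, b, ha, hb, rfl⟩ := exists_disp h
  refine ⟨f + (a, b), by simp [pr], ?_⟩
  have := dG_int_le f a b ha hb
  simpa using this

/-- the projection is injective on sets of diameter less than `N` -/
theorem pr_inj {N : ℕ} {f g : ℤ × ℤ} (h : dG f g < N) (hfg : pr N f = pr N g) : f = g := by
  have h1 : dG (pr N f) (pr N g) ≤ 0 := by rw [hfg, dG_self]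
  have h2 := (dG_pr_le_iff (t := 0) (by omega)).1 h1
  exact dG_eq_zero.1 (by omega)

end torus

/-! ### Sums over sets near a face -/

section sums

open ENNReal

variable {X : Type*} {d : X → X → ℕ}

/-- the set `U` comes within distance `r` of `f` -/
def Nr (d : X → X → ℕ) (r : ℕ) (f : X) (U : Finset X) : Prop := ∃ x ∈ U, d x f ≤ r

theorem Nr.mono {r s : ℕ} {f : X} {U W : Finset X} (h : Nr d r f U) (hU : U ⊆ W) (hr : r ≤ s) :
    Nr d s f W := by
  obtain ⟨x, hx, hxf⟩ := h
  exact ⟨x, hU hx, hxf.trans hr⟩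

open Classical in
/-- sum of a weight over the sets near `f` -/
noncomputable def sNear (d : X → X → ℕ) (r : ℕ) (a : Finset X → ℝ≥0∞) (f : X) : ℝ≥0∞ :=
  ∑' U : Finset X, if Nr d r f U then a U else 0

open Classical in
/-- **reblocking of sums**: if the sets near `f` at scale `s` on which `a` does not vanish are
near one of the points of `C` at scale `r`, the sum is at most the sum over `C`. -/
theorem sNear_le_sum {r s : ℕ} {a : Finset X → ℝ≥0∞} {f : X} (C : Finset X)
    (h : ∀ U, a U ≠ 0 → Nr d s f U → ∃ c ∈ C, Nr d r c U) :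
    sNear d s a f ≤ ∑ c ∈ C, sNear d r a c := by
  unfold sNear
  rw [← Summable.tsum_finsetSum (fun _ _ => ENNReal.summable)]
  refine ENNReal.tsum_le_tsum fun U => ?_
  by_cases hU : Nr d s f U
  · rw [if_pos hU]
    by_cases ha : a U = 0
    · rw [ha]; exact zero_le
    · obtain ⟨c, hc, hcU⟩ := h U ha hU
      calc a U = if Nr d r c U then a U else 0 := by rw [if_pos hcU]
        _ ≤ ∑ c ∈ C, if Nr d r c U then a U else 0 :=
          Finset.single_le_sum (f := fun c => if Nr d r c U then a U else 0)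
            (fun _ _ => zero_le) hc
  · rw [if_neg hU]; exact zero_le

/-- the uniform norm of a weight on sets -/
noncomputable def NN (d : X → X → ℕ) (r : ℕ) (a : Finset X → ℝ≥0∞) : ℝ≥0∞ :=
  ⨆ f, sNear d r a f

theorem sNear_le_NN (r : ℕ) (a : Finset X → ℝ≥0∞) (f : X) : sNear d r a f ≤ NN d r a :=
  le_iSup (fun f => sNear d r a f) f

theorem sNear_mono {r : ℕ} {a b : Finset X → ℝ≥0∞} (h : ∀ U, a U ≤ b U) (f : X) :
    sNear d r a f ≤ sNear d r b f := by
  unfold sNear
  refine ENNReal.tsum_le_tsum fun U => ?_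
  split_ifs
  · exact h U
  · exact le_rfl

theorem NN_mono {r : ℕ} {a b : Finset X → ℝ≥0∞} (h : ∀ U, a U ≤ b U) : NN d r a ≤ NN d r b :=
  iSup_mono fun f => sNear_mono h f

/-- every set near `f` is bounded by the norm -/
theorem le_NN {r : ℕ} {a : Finset X → ℝ≥0∞} {f : X} {U : Finset X} (h : Nr d r f U) :
    a U ≤ NN d r a := by
  classical
  refine le_trans ?_ (sNear_le_NN r a f)
  unfold sNear
  refine le_trans ?_ (ENNReal.le_tsum U)
  rw [if_pos h]

end sums

end Crest.Agent.R165.MetGx723
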