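import Crest.Agent.R165.Pack_915

/-!
# Row 165, block G: the norm `N_k` of polymer activities and its linear step (helper915)

* `near d r f U` : `U` has a point at distance `≤ r` from `f`
* `bs d r Γ a f = ∑_{U near f} Γ ^ |U|_r * a U`, `NN d r Γ a = sup_f bs d r Γ a f`
* `NN_step` : the linear step from scale `r` to scale `r'` (finitely many classes of polymers, each
  with its own gain factor, covering number and source)
* `Cov` : covering hypotheses; `Cov.of_defect` : nets near a defect set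
-/

set_option autoImplicit false

namespace Crest.Agent.R165.NSumx915

open Finset
open scoped ENNReal
open Crest.Agent.R165.Packx915

variable {X : Type*} {d : X → X → ℕ} {r r' R : ℕ} {Γ : ℝ≥0∞}

/-- `U` has a point at distance `≤ r` from `f` -/
def near (d : X → X → ℕ) (r : ℕ) (f : X) (U : Finset X) : Prop := ∃ u ∈ U, d f u ≤ r

theorem near_of_mem (hd : PD d) {f : X} {U : Finset X} (h : f ∈ U) : near d r f U :=
  ⟨f, h, by rw [hd.self]; omega⟩

theorem near.nonempty {f : X} {U : Finset X} (h : near d r f U) : U.Nonempty :=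
  let ⟨u, hu, _⟩ := h; ⟨u, hu⟩

theorem near.mono {f : X} {U W : Finset X} (h : near d r f U) (hUW : U ⊆ W) (hr : r ≤ r') :
    near d r' f W :=
  let ⟨u, hu, hd⟩ := h; ⟨u, hUW hu, hd.trans hr⟩

/-- sum over the polymers near `f` -/
noncomputable def bs (d : X → X → ℕ) (r : ℕ) (Γ : ℝ≥0∞) (a : Finset X → ℝ≥0∞) (f : X) : ℝ≥0∞ :=
  ∑' U : Finset X, Set.indicator {U | near d r f U} (fun U => Γ ^ pack d r U * a U) U

/-- the norm of a family of activities -/
noncomputable def NN (d : X → X → ℕ) (r : ℕ) (Γ : ℝ≥0∞) (a : Finset X → ℝ≥0∞) : ℝ≥0∞ :=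
  ⨆ f, bs d r Γ a f

theorem bs_le_NN (a : Finset X → ℝ≥0∞) (f : X) : bs d r Γ a f ≤ NN d r Γ a :=
  le_iSup (fun f => bs d r Γ a f) f

theorem bs_mono {a b : Finset X → ℝ≥0∞} (h : ∀ U, a U ≤ b U) (f : X) :
    bs d r Γ a f ≤ bs d r Γ b f :=
  ENNReal.tsum_le_tsum fun U => Set.indicator_le_indicator (mul_le_mul_right (h U) _)

theorem NN_mono {a b : Finset X → ℝ≥0∞} (h : ∀ U, a U ≤ b U) : NN d r Γ a ≤ NN d r Γ b :=
  iSup_mono fun f => bs_mono h f

theorem bs_add (a b : Finset X → ℝ≥0∞) (f : X) :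
    bs d r Γ (fun U => a U + b U) f = bs d r Γ a f + bs d r Γ b f := by
  rw [bs, bs, bs, ← ENNReal.tsum_add]
  refine tsum_congr fun U => ?_
  by_cases h : near d r f U
  · simp only [Set.indicator_of_mem (show U ∈ {U | near d r f U} from h), mul_add]
  · simp only [Set.indicator_of_notMem (show U ∉ {U | near d r f U} from h), add_zero]

theorem NN_add_le (a b : Finset X → ℝ≥0∞) :
    NN d r Γ (fun U => a U + b U) ≤ NN d r Γ a + NN d r Γ b :=
  iSup_le fun f => by
    rw [bs_add]
    exact add_le_add (bs_le_NN a f) (bs_le_NN b f)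

theorem bs_smul (c : ℝ≥0∞) (a : Finset X → ℝ≥0∞) (f : X) :
    bs d r Γ (fun U => c * a U) f = c * bs d r Γ a f := by
  rw [bs, bs, ← ENNReal.tsum_mul_left]
  refine tsum_congr fun U => ?_
  by_cases h : near d r f U
  · rw [Set.indicator_of_mem (by exact h), Set.indicator_of_mem (by exact h), mul_left_comm]
  · rw [Set.indicator_of_notMem (by exact h), Set.indicator_of_notMem (by exact h), mul_zero]

theorem NN_smul_le (c : ℝ≥0∞) (a : Finset X → ℝ≥0∞) :
    NN d r Γ (fun U => c * a U) ≤ c * NN d r Γ a :=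
  iSup_le fun f => by
    rw [bs_smul]
    exact mul_le_mul_right (bs_le_NN a f) c

theorem NN_zero : NN d r Γ (fun _ => 0) = 0 := by
  refine le_antisymm (iSup_le fun f => ?_) zero_le
  rw [bs]
  simp

/-- a single activity is bounded by the norm -/
theorem le_NN (hd : PD d) (a : Finset X → ℝ≥0∞) {U : Finset X} (hU : U.Nonempty) :
    Γ ^ pack d r U * a U ≤ NN d r Γ a := by
  obtain ⟨f, hf⟩ := hU
  refine le_trans ?_ (bs_le_NN a f)
  have h := ENNReal.le_tsum (f := fun U : Finset X =>
    Set.indicator {U | near d r f U} (fun U => Γ ^ pack d r U * a U) U) U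
  rw [Set.indicator_of_mem (by exact near_of_mem hd hf)] at h
  exact h

/-- covering a sum over polymers by sums near the points of a net -/
theorem cover_sum {P : Finset X → Prop} (w : Finset X → ℝ≥0∞) (net : Finset X)
    (hnet : ∀ U, P U → ∃ g ∈ net, near d r g U) :
    (∑' U : Finset X, Set.indicator {U | P U} w U) ≤
      ∑ g ∈ net, ∑' U : Finset X, Set.indicator {U | near d r g U} w U := by
  rw [← Summable.tsum_finsetSum fun _ _ => ENNReal.summable]
  refine ENNReal.tsum_le_tsum fun U => ?_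
  by_cases h : P U
  · obtain ⟨g, hg, hgU⟩ := hnet U h
    refine le_trans ?_ (Finset.single_le_sum (f := fun g => Set.indicator {U | near d r g U} w U)
      (fun _ _ => zero_le) hg)
    rw [Set.indicator_of_mem (show U ∈ {U | near d r g U} from hgU),
      Set.indicator_of_mem (show U ∈ {U | P U} from h)]
  · rw [Set.indicator_of_notMem (by exact h)]
    exact zero_le

/-- LINEAR STEP.  The polymers are divided into finitely many classes `cls τ`; on each class the
new weighted activity is bounded by `q τ` times the old weighted activity `src τ`, and the polymers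
of the class near `f` at the new scale are near one of at most `n τ` points at the old scale. -/
theorem NN_step {ι : Type*} (T : Finset ι) (cls : ι → Finset X → Prop)
    (a' : Finset X → ℝ≥0∞) (src : ι → Finset X → ℝ≥0∞) (q : ι → ℝ≥0∞) (n : ι → ℕ)
    (hcov : ∀ U, a' U ≠ 0 → ∃ τ ∈ T, cls τ U)
    (hq : ∀ τ ∈ T, ∀ U, cls τ U → a' U ≠ 0 →
      Γ ^ pack d r' U * a' U ≤ q τ * (Γ ^ pack d r U * src τ U))
    (hn : ∀ τ ∈ T, ∀ f, ∃ net : Finset X, net.card ≤ n τ ∧
      ∀ U, cls τ U → a' U ≠ 0 → near d r' f U → ∃ g ∈ net, near d r g U) :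
    NN d r' Γ a' ≤ ∑ τ ∈ T, q τ * (n τ * NN d r Γ (src τ)) := by
  refine iSup_le fun f => ?_
  have h1 : bs d r' Γ a' f ≤
      ∑ τ ∈ T, ∑' U : Finset X, Set.indicator {U | cls τ U ∧ a' U ≠ 0 ∧ near d r' f U}
        (fun U => q τ * (Γ ^ pack d r U * src τ U)) U := by
    rw [bs, ← Summable.tsum_finsetSum fun _ _ => ENNReal.summable]
    refine ENNReal.tsum_le_tsum fun U => ?_
    by_cases h : near d r' f U
    · rw [Set.indicator_of_mem (by exact h)]
      by_cases h0 : a' U = 0
      · rw [h0, mul_zero]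
        exact zero_le
      · obtain ⟨τ, hτ, hc⟩ := hcov U h0
        refine le_trans (hq τ hτ U hc h0) ?_
        refine le_trans ?_ (Finset.single_le_sum
          (f := fun τ => Set.indicator {U | cls τ U ∧ a' U ≠ 0 ∧ near d r' f U}
            (fun U => q τ * (Γ ^ pack d r U * src τ U)) U) (fun _ _ => zero_le) hτ)
        rw [Set.indicator_of_mem (by exact ⟨hc, h0, h⟩)]
    · rw [Set.indicator_of_notMem (by exact h)]
      exact zero_le
  refine h1.trans (Finset.sum_le_sum fun τ hτ => ?_)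
  obtain ⟨net, hcard, hnet⟩ := hn τ hτ f
  have h2 := cover_sum (d := d) (r := r) (P := fun U => cls τ U ∧ a' U ≠ 0 ∧ near d r' f U)
    (fun U => q τ * (Γ ^ pack d r U * src τ U)) net
    (fun U hU => hnet U hU.1 hU.2.1 hU.2.2)
  refine h2.trans ?_
  have h3 : ∀ g ∈ net, (∑' U : Finset X, Set.indicator {U | near d r g U}
      (fun U => q τ * (Γ ^ pack d r U * src τ U)) U) ≤ q τ * NN d r Γ (src τ) := by
    intro g _
    have : (∑' U : Finset X, Set.indicator {U | near d r g U}
        (fun U => q τ * (Γ ^ pack d r U * src τ U)) U) = q τ * bs d r Γ (src τ) g := by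
      rw [bs, ← ENNReal.tsum_mul_left]
      refine tsum_congr fun U => ?_
      by_cases h : near d r g U
      · rw [Set.indicator_of_mem (by exact h), Set.indicator_of_mem (by exact h)]
      · rw [Set.indicator_of_notMem (by exact h), Set.indicator_of_notMem (by exact h), mul_zero]
    rw [this]
    exact mul_le_mul_right (bs_le_NN _ g) _
  refine (Finset.sum_le_sum h3).trans ?_
  rw [Finset.sum_const, nsmul_eq_mul]
  calc (net.card : ℝ≥0∞) * (q τ * NN d r Γ (src τ))
      ≤ (n τ : ℝ≥0∞) * (q τ * NN d r Γ (src τ)) :=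
        mul_le_mul_left (Nat.cast_le.2 hcard) _
    _ = q τ * ((n τ : ℝ≥0∞) * NN d r Γ (src τ)) := by ring

/-! ### coverings -/

/-- every ball of radius `R` is covered by at most `n` balls of radius `r` -/
def Cov (d : X → X → ℕ) (R r n : ℕ) : Prop :=
  ∀ f, ∃ net : Finset X, net.card ≤ n ∧ ∀ u, d f u ≤ R → ∃ g ∈ net, d g u ≤ r

theorem Cov.mono {R R' r n n' : ℕ} (h : Cov d R r n) (hR : R' ≤ R) (hr : r ≤ r') (hn : n ≤ n') :
    Cov d R' r' n' := by
  intro f
  obtain ⟨net, hc, hnet⟩ := h f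
  exact ⟨net, hc.trans hn, fun u hu =>
    let ⟨g, hg, hgu⟩ := hnet u (hu.trans hR); ⟨g, hg, hgu.trans hr⟩⟩

/-- net for all polymers -/
theorem Cov.net {n : ℕ} (h : Cov d r' r n) (f : X) : ∃ net : Finset X, net.card ≤ n ∧
    ∀ U, near d r' f U → ∃ g ∈ net, near d r g U := by
  obtain ⟨net, hc, hnet⟩ := h f
  refine ⟨net, hc, fun U ⟨u, hu, hfu⟩ => ?_⟩
  obtain ⟨g, hg, hgu⟩ := hnet u hfu
  exact ⟨g, hg, u, hu, hgu⟩

/-- two-step coverings compose -/
theorem Cov.trans {R₁ R₂ R₃ n m : ℕ} (h1 : Cov d R₁ R₂ n) (h2 : Cov d R₂ R₃ m) :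
    Cov d R₁ R₃ (n * m) := by
  classical
  intro f
  obtain ⟨net, hc, hnet⟩ := h1 f
  choose g hg hgn using h2
  refine ⟨net.biUnion g, ?_, fun u hu => ?_⟩
  · refine (Finset.card_biUnion_le).trans ?_
    refine (Finset.sum_le_card_nsmul _ _ m fun x _ => hg x).trans ?_
    rw [smul_eq_mul]
    exact Nat.mul_le_mul_right _ hc
  · obtain ⟨x, hx, hxu⟩ := hnet u hu
    obtain ⟨y, hy, hyu⟩ := hgn x u hxu
    exact ⟨y, Finset.mem_biUnion.2 ⟨x, hx, hy⟩, hyu⟩

/-- a defect set `A` has at most `N` points pairwise `> r` apart in every ball of radius `R` -/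
def DCount (d : X → X → ℕ) (A : Set X) (R r N : ℕ) : Prop :=
  ∀ f, ∀ S : Finset X, (∀ x ∈ S, x ∈ A ∧ d f x ≤ R) → Sep d r S → S.card ≤ N

theorem DCount.mono {A B : Set X} {R R' r r' N N' : ℕ} (h : DCount d A R r N) (hA : B ⊆ A)
    (hR : R' ≤ R) (hr : r ≤ r') (hN : N ≤ N') : DCount d B R' r' N' :=
  fun f S hS hs => (h f S (fun x hx => ⟨hA (hS x hx).1, (hS x hx).2.trans hR⟩) (hs.anti hr)).trans hN

theorem dcount_singleton (x : X) (R r : ℕ) : DCount d {x} R r 1 := by
  intro f S hS _
  refine Finset.card_le_one.2 fun a ha b hb => ?_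
  rw [(hS a ha).1, (hS b hb).1]

theorem dcount_finset (A : Finset X) (R r : ℕ) : DCount d (A : Set X) R r A.card := by
  intro f S hS _
  exact Finset.card_le_card fun a ha => (hS a ha).1

theorem DCount.union {A B : Set X} {R r N M : ℕ} (hA : DCount d A R r N) (hB : DCount d B R r M) :
    DCount d (A ∪ B) R r (N + M) := by
  classical
  intro f S hS hs
  have h1 := hA f (S.filter (· ∈ A)) (fun x hx =>
    ⟨(Finset.mem_filter.1 hx).2, (hS x (Finset.mem_filter.1 hx).1).2⟩)
    (hs.mono (Finset.filter_subset _ _))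
  have h2 := hB f (S.filter (¬ · ∈ A)) (fun x hx =>
    ⟨((hS x (Finset.mem_filter.1 hx).1).1).resolve_left (Finset.mem_filter.1 hx).2,
      (hS x (Finset.mem_filter.1 hx).1).2⟩)
    (hs.mono (Finset.filter_subset _ _))
  have h3 := Finset.card_filter_add_card_filter_not (s := S) (p := (· ∈ A))
  omega

/-- maximal separated subset of the defect set in a ball -/
theorem DCount.exists_net (hd : PD d) {A : Set X} {R N : ℕ} (h : DCount d A R r N) (f : X) :
    ∃ S : Finset X, S.card ≤ N ∧ (∀ x ∈ S, x ∈ A ∧ d f x ≤ R) ∧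
      ∀ x ∈ A, d f x ≤ R → ∃ g ∈ S, d g x ≤ r := by
  classical
  -- take a separated set of maximal cardinality
  have hex : ∃ S : Finset X, ((∀ x ∈ S, x ∈ A ∧ d f x ≤ R) ∧ Sep d r S) ∧
      ∀ S' : Finset X, ((∀ x ∈ S', x ∈ A ∧ d f x ≤ R) ∧ Sep d r S') → S'.card ≤ S.card := by
    by_contra hcon
    push Not at hcon
    have key : ∀ m : ℕ, ∃ S : Finset X, ((∀ x ∈ S, x ∈ A ∧ d f x ≤ R) ∧ Sep d r S) ∧
        m ≤ S.card := by
      intro m
      induction m with
      | zero => exact ⟨∅, ⟨fun x hx => absurd hx (Finset.notMem_empty x), sep_empty⟩, Nat.zero_le _⟩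
      | succ m ih =>
        obtain ⟨S, hS, hm⟩ := ih
        obtain ⟨S', hS', hlt⟩ := hcon S hS
        exact ⟨S', hS', by omega⟩
    obtain ⟨S, hS, hm⟩ := key (N + 1)
    have := h f S hS.1 hS.2
    omega
  obtain ⟨S, hS, hmax⟩ := hex
  refine ⟨S, h f S hS.1 hS.2, hS.1, fun x hxA hxR => ?_⟩
  by_contra hno
  push Not at hno
  have hxS : x ∉ S := by
    intro hxS
    have := hno x hxS
    rw [hd.self] at this
    omega
  have hs : Packx915.Sep d r (insert x S) := by
    intro a ha b hb hab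
    rw [Finset.mem_insert] at ha hb
    rcases ha with rfl | ha <;> rcases hb with rfl | hb
    · exact absurd rfl hab
    · rw [hd.symm]; exact hno b hb
    · exact hno a ha
    · exact hS.2 a ha b hb hab
  have := hmax (insert x S) ⟨fun y hy => by
    rw [Finset.mem_insert] at hy
    rcases hy with rfl | hy
    · exact ⟨hxA, hxR⟩
    · exact hS.1 y hy, hs⟩
  rw [Finset.card_insert_of_notMem hxS] at this
  omega

/-- NET NEAR A DEFECT SET.  Polymers near `f` (scale `R'`) all of whose points are within `m` of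
the defect set `A` are near (scale `r`) one of at most `N * D` points, if every ball of radius
`R' + m` contains at most `N` pairwise `r`-separated points of `A` and every ball of radius
`m + r` is covered by `D` balls of radius `r`. -/
theorem DCount.net (hd : PD d) {A : Set X} {R' m N D : ℕ} (h : DCount d A (R' + m) r N)
    (hD : Cov d (m + r) r D) (f : X) : ∃ net : Finset X, net.card ≤ N * D ∧
      ∀ U : Finset X, (∀ u ∈ U, ∃ x ∈ A, d u x ≤ m) → near d R' f U → ∃ g ∈ net, near d r g U := by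
  classical
  obtain ⟨S, hS, _, hnet⟩ := h.exists_net hd f
  choose g hg hgn using hD
  refine ⟨S.biUnion g, ?_, fun U hU hUf => ?_⟩
  · refine (Finset.card_biUnion_le).trans ?_
    refine (Finset.sum_le_card_nsmul _ _ D fun x _ => hg x).trans ?_
    rw [smul_eq_mul]
    exact Nat.mul_le_mul_right _ hS
  · obtain ⟨u, hu, hfu⟩ := hUf
    obtain ⟨x, hxA, hux⟩ := hU u hu
    have h1 := hd.tri f u x
    obtain ⟨y, hy, hyx⟩ := hnet x hxA (by omega)
    have h2 := hd.tri y x u
    have h3 := hd.symm x u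
    obtain ⟨z, hz, hzu⟩ := hgn y u (by omega)
    exact ⟨z, Finset.mem_biUnion.2 ⟨y, hy, hz⟩, u, hu, hzu⟩

/-- small polymers: it is enough that ONE point is close to the defect -/
theorem small_close (hd : PD d) {A : Set X} {U : Finset X} {m : ℕ} (hU : pack d r U ≤ 1)
    (h : ∃ u ∈ U, ∃ x ∈ A, d u x ≤ m) : ∀ u ∈ U, ∃ x ∈ A, d u x ≤ r + m := by
  obtain ⟨u, hu, x, hx, hux⟩ := h
  intro v hv
  refine ⟨x, hx, ?_⟩
  have h1 := (pack_le_one_iff hd).1 hU v hv u hu
  have h2 := hd.tri v u x
  omega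

end Crest.Agent.R165.NSumx915
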