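import Crest.Agent.R165.GDef_387
import Crest.Agent.R165.NSum_915
import Crest.Agent.R165.MetG_723

/-!
# Row 165, block G: bridge between `GDef_387` and `Pack_915`, `NSum_915`, `MetG_723` (helper915)

* `GoodG G` : `G = ℤ` or `ZMod M`, the size function `cn` is the distance to zero `nrmG`
* `fd_eq_dG`, `pd_fd`, `cov_fd`, `size_eq_pack`, `Near_iff`, `NK_eq_NN`
-/

set_option autoImplicit false

open scoped ENNReal
open Crest.Agent.R165.Gr0x606 Crest.Agent.R165.Latx683 Crest.Agent.R165.PNormx417
open Crest.Agent.R165.GDefx387 Crest.Agent.R165.Packx915 Crest.Agent.R165.NSumx915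
open Crest.Agent.R165.MetGx723 (IntSurj nrmG dG)

namespace Crest.Agent.R165.Bridgex915

/-- the coordinate groups of the construction: `ℤ` and `ZMod M` -/
class GoodG (G : Type) [CommRing G] [CN G] : Prop extends IntSurj G where
  cn_eq : ∀ a : G, cn a = nrmG a

instance : GoodG ℤ where
  cn_eq a := by
    rw [MetGx723.nrmG_int]
    rfl

instance (M : ℕ) [NeZero M] : GoodG (ZMod M) where
  cn_eq a := by
    have h1 : (a.valMinAbs : ZMod M) = a := ZMod.coe_valMinAbs a
    apply le_antisymm
    · obtain ⟨n, hn, ha⟩ := MetGx723.exists_rep a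
      rw [← hn]
      exact ZMod.natAbs_min_of_le_div_two M a.valMinAbs n (by rw [h1, ha])
        (ZMod.natAbs_valMinAbs_le a)
    · have := MetGx723.nrmG_le (G := ZMod M) a.valMinAbs
      rwa [h1] at this

section gen

variable {G : Type} [CommRing G] [CN G]

theorem pd_fd : PD (fd : G × G → G × G → ℕ) := ⟨fd_self, fd_comm, fd_triangle⟩

theorem fd_eq_dG [GoodG G] : (fd : G × G → G × G → ℕ) = dG := by
  funext f g
  unfold fd dG
  rw [GoodG.cn_eq, GoodG.cn_eq]

theorem size_eq_pack (r : ℕ) (U : Finset (G × G)) : size r U = pack fd r U := by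
  classical
  unfold size pack
  congr 1
  ext P
  simp only [Finset.mem_filter, Packx915.Sep]

theorem Near_iff (r : ℕ) (f : G × G) (U : Finset (G × G)) : Near r f U ↔ near fd r f U := Iff.rfl

/-- coverings of balls by smaller balls -/
theorem cov_fd [GoodG G] {r : ℕ} (hr : 0 < r) (s : ℕ) :
    Cov (fd : G × G → G × G → ℕ) s r ((2 * (s / r) + 3) ^ 2) := by
  intro f
  obtain ⟨C, hC, hcov⟩ := MetGx723.exists_cover f hr s
  refine ⟨C, hC, fun u hu => ?_⟩
  rw [fd_eq_dG, MetGx723.dG_comm] at hu
  obtain ⟨g, hg, hgu⟩ := hcov u hu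
  refine ⟨g, hg, ?_⟩
  rw [fd_eq_dG, MetGx723.dG_comm]
  exact hgu

/-- the activities of a family with property `p`, as a function of the polymer -/
noncomputable def act (w : BW G) (a : ℝ) (r : ℕ) (p : Finset (G × G) → Prop)
    (K : Finset (G × G) → Gr (Fld G)) : Finset (G × G) → ℝ≥0∞ :=
  Set.indicator {U | p U} fun U => pnorm (wU w a r U) (K U)

theorem act_of {w : BW G} {a : ℝ} {r : ℕ} {p : Finset (G × G) → Prop}
    {K : Finset (G × G) → Gr (Fld G)} {U : Finset (G × G)} (h : p U) :
    act w a r p K U = pnorm (wU w a r U) (K U) := Set.indicator_of_mem (by exact h) _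

theorem act_not {w : BW G} {a : ℝ} {r : ℕ} {p : Finset (G × G) → Prop}
    {K : Finset (G × G) → Gr (Fld G)} {U : Finset (G × G)} (h : ¬ p U) :
    act w a r p K U = 0 := Set.indicator_of_notMem (by exact h) _

theorem act_le {w : BW G} {a : ℝ} {r : ℕ} {p : Finset (G × G) → Prop}
    {K : Finset (G × G) → Gr (Fld G)} (U : Finset (G × G)) :
    act w a r p K U ≤ pnorm (wU w a r U) (K U) := by
  by_cases h : p U
  · rw [act_of h]
  · rw [act_not h]
    exact zero_le

/-- 387's norm is the norm `NN` of the activities -/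
theorem NK_eq_NN (w : BW G) (a : ℝ) (r : ℕ) (Γ : ℝ≥0∞) (p : Finset (G × G) → Prop)
    (K : Finset (G × G) → Gr (Fld G)) :
    NK w a r Γ p K = NN fd r Γ (act w a r p K) := by
  classical
  unfold NK NN bs
  refine iSup_congr fun f => tsum_congr fun U => ?_
  by_cases h1 : Near r f U
  · rw [Set.indicator_of_mem (show U ∈ {U | near fd r f U} from h1)]
    by_cases h2 : p U
    · rw [if_pos ⟨h1, h2⟩, act_of h2, size_eq_pack]
    · rw [if_neg (fun h => h2 h.2), act_not h2, mul_zero]
  · rw [Set.indicator_of_notMem (show U ∉ {U | near fd r f U} from h1),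
      if_neg (fun h => h1 h.1)]

end gen

end Crest.Agent.R165.Bridgex915
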