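import Crest.Agent.R165.Comp2_889

/-!
# Row 165 (S0250): norms of `H` and `A` of a flow at the new scale, weight `3 Γ` (helper915)

* `bulk_HA` : from `Str`, `StepOK` : both norms are at most `CF` times the norm of the activities
-/

set_option autoImplicit false
set_option linter.unusedSectionVars false

open scoped ENNReal

namespace Crest.Agent.R165.BulkHAx915

open Crest.Agent.R165.Gr0x606 Crest.Agent.R165.Gr1x606 Crest.Agent.R165.GeOpsx337
  Crest.Agent.R165.ExpGx337 Crest.Agent.R165.KFlowx337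
open Crest.Agent.R165.Latx683 Crest.Agent.R165.PNormx417
open Crest.Agent.R165.GDefx387 Crest.Agent.R165.Packx915 Crest.Agent.R165.NSumx915
open Crest.Agent.R165.Bridgex915 Crest.Agent.R165.NKDefx915 Crest.Agent.R165.DefRecx915
open Crest.Agent.R165.Compx889

variable {G : Type} [CommRing G] [CN G] [DecidableEq G] [GoodG G]
variable {D : Sys (G × G) (Fld G)} {w : BW G} {a : ℕ → ℝ} {r R : ℕ → ℕ} {Γ : ℝ≥0∞}
  {ac em : ℕ → Finset (G × G) → Prop} {K : ℕ} {κ₀ CF : ℝ≥0∞}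

theorem NK_allP_eq (w : BW G) (a : ℝ) (r : ℕ) (Γ : ℝ≥0∞) (F : Finset (G × G) → Ge (Fld G)) :
    NK w a r Γ allP (fun U => ((F U : Ge (Fld G)) : Gr (Fld G))) =
      NN fd r Γ (fun U => pG (wU w a r U) (F U)) := by
  rw [NK_eq_NN]
  congr 1
  funext U
  rw [act_of (p := allP) trivial]
  rfl

/-- **norms of `H` and `A`** -/
theorem bulk_HA (S : Str D r R Γ ac em K) {k : ℕ} (hk : k < K) {a a' : ℝ}
    (h : StepOK D w Γ k a a' (r k) (r (k + 1)) (ac k) (em k) κ₀ CF) :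
    NN fd (r (k + 1)) (3 * Γ) (fun U => pG (wU w a' (r (k + 1)) U) (D.H k U)) ≤
        CF * NK w a (r k) Γ allP (fun U => ((D.K k U : Ge (Fld G)) : Gr (Fld G))) ∧
      NN fd (r (k + 1)) (3 * Γ) (fun U => pG (wU w a' (r (k + 1)) U) (D.A k U)) ≤
        CF * NK w a (r k) Γ allP (fun U => ((D.K k U : Ge (Fld G)) : Gr (Fld G))) := by
  obtain ⟨κ, _, A, m, N, q, qL, qT, CX, H, hX, hκ, hF⟩ := h
  have hH := NK_H_le (Γ' := 3 * Γ) (c := 3) D k H (S.r_pos k) (S.r_mono k) S.Γ1 le_rfl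
    (S.hac k hk) (S.ne k hk)
  have hA := NK_A_le (Γ' := 3 * Γ) (c := 3) D k H (S.r_pos k) (S.r_mono k) S.Γ1
    (le_mul_of_one_le_left' (by norm_num)) le_rfl (S.hac k hk) (S.ne k hk) S.vac (S.ext k hk) hX
  rw [NK_allP_eq] at hH hA
  have e1 : cF (r k) (r (k + 1)) qL qT CX = (qL + 3 * qT + 2 * (3 * CX)) * nn2 (r k) (r (k + 1)) :=
    rfl
  constructor
  · refine hH.trans ?_
    rw [← mul_assoc]
    refine mul_le_mul_left (le_trans ?_ hF) _
    rw [e1]
    exact mul_le_mul_left le_self_add _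
  · refine hA.trans ?_
    rw [← mul_assoc]
    refine mul_le_mul_left (le_trans ?_ hF) _
    rw [e1]

end Crest.Agent.R165.BulkHAx915
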