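import Mathlib

/-!
# Row 165, block G: polynomial functional calculus on a real pre-Hilbert space

Everything on an arbitrary real vector space `V` with a positive definite symmetric form `P.ip` (for instance
`V = ι →₀ ℝ`, `ι` infinite), for operators `Q : V →ₗ V` symmetric for `ip`. No completeness, no locality.

Key lemma `poly_nonneg`: if `a |v|² ≤ ⟨Q v, v⟩ ≤ b |v|²` for all `v` and the polynomial `p` is nonnegative on
`[a, b]`, then `⟨p(Q) v, v⟩ ≥ 0` (compression of `Q` to the Krylov space of `v`).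
-/

set_option autoImplicit false

noncomputable section

namespace Crest.Agent.R165.FRDAbsx439

open Polynomial Finset Module

/-! ### symmetric operators on inner product spaces -/

section inner

variable {E : Type*} [NormedAddCommGroup E] [InnerProductSpace ℝ E]

theorem pow_symm (Q : E →ₗ[ℝ] E) (hQ : ∀ x y, inner ℝ (Q x) y = inner ℝ x (Q y)) (n : ℕ) :
    ∀ x y : E, inner ℝ ((Q ^ n) x) y = inner ℝ x ((Q ^ n) y) := by
  induction n with
  | zero => intro x y; simp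
  | succ n ih =>
    intro x y
    have h1 : (Q ^ (n + 1)) x = (Q ^ n) (Q x) := by rw [pow_succ, Module.End.mul_apply]
    have h2 : (Q ^ (n + 1)) y = Q ((Q ^ n) y) := by rw [pow_succ', Module.End.mul_apply]
    rw [h1, h2, ih, hQ]

theorem aeval_apply_sum {V : Type*} [AddCommGroup V] [Module ℝ V] (Q : V →ₗ[ℝ] V) (p : ℝ[X]) {n : ℕ}
    (hn : p.natDegree ≤ n) (x : V) :
    aeval Q p x = ∑ k ∈ range (n + 1), p.coeff k • (Q ^ k) x := by
  rw [aeval_eq_sum_range' (lt_of_le_of_lt hn (Nat.lt_succ_self n)), LinearMap.sum_apply]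
  rfl

theorem aeval_symm (Q : E →ₗ[ℝ] E) (hQ : ∀ x y, inner ℝ (Q x) y = inner ℝ x (Q y)) (p : ℝ[X]) (x y : E) :
    inner ℝ (aeval Q p x) y = inner ℝ x (aeval Q p y) := by
  rw [aeval_apply_sum Q p le_rfl, aeval_apply_sum Q p le_rfl, sum_inner, inner_sum]
  apply Finset.sum_congr rfl
  intro k _
  rw [inner_smul_left, inner_smul_right, pow_symm Q hQ]
  simp

/-- finite-dimensional case -/
theorem poly_nonneg_fd {F : Type*} [NormedAddCommGroup F] [InnerProductSpace ℝ F]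
    [FiniteDimensional ℝ F] (Q : F →ₗ[ℝ] F) (hQ : ∀ x y, inner ℝ (Q x) y = inner ℝ x (Q y)) (a b : ℝ)
    (ha : ∀ x, a * inner ℝ x x ≤ inner ℝ (Q x) x) (hb : ∀ x, inner ℝ (Q x) x ≤ b * inner ℝ x x)
    (p : ℝ[X]) (hp : ∀ t, a ≤ t → t ≤ b → 0 ≤ p.eval t) (v : F) :
    0 ≤ inner ℝ (aeval Q p v) v := by
  have hs : Q.IsSymmetric := hQ
  let e := hs.eigenvectorBasis rfl
  have he : ∀ i, Q (e i) = (hs.eigenvalues rfl i : ℝ) • e i := fun i =>
    hs.apply_eigenvectorBasis rfl i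
  have hee : ∀ i, inner ℝ (e i) (e i) = (1 : ℝ) := fun i => by
    have := (orthonormal_iff_ite.mp e.orthonormal) i i
    rwa [if_pos rfl] at this
  have hmem : ∀ i, a ≤ hs.eigenvalues rfl i ∧ hs.eigenvalues rfl i ≤ b := by
    intro i
    have h1 := ha (e i)
    have h2 := hb (e i)
    rw [he, inner_smul_left, hee] at h1 h2
    simp only [conj_trivial, mul_one] at h1 h2
    exact ⟨h1, h2⟩
  have hpow : ∀ i (n : ℕ), (Q ^ n) (e i) = (hs.eigenvalues rfl i) ^ n • e i := by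
    intro i n
    induction n with
    | zero => simp
    | succ n ih =>
      rw [pow_succ, Module.End.mul_apply, he, map_smul, ih, smul_smul, pow_succ, mul_comm]
  have hpe : ∀ i, aeval Q p (e i) = (p.eval (hs.eigenvalues rfl i)) • e i := by
    intro i
    rw [aeval_apply_sum Q p le_rfl, eval_eq_sum_range, Finset.sum_smul]
    apply Finset.sum_congr rfl
    intro k _
    rw [hpow, smul_smul]
  rw [← e.sum_inner_mul_inner]
  apply Finset.sum_nonneg
  intro i _
  rw [aeval_symm Q hQ, hpe, inner_smul_right, real_inner_comm]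
  have := hp _ (hmem i).1 (hmem i).2
  nlinarith [mul_self_nonneg (inner ℝ (e i) v)]

/-- general case: compress to the Krylov space -/
theorem poly_nonneg_inner (Q : E →ₗ[ℝ] E) (hQ : ∀ x y, inner ℝ (Q x) y = inner ℝ x (Q y)) (a b : ℝ)
    (ha : ∀ x, a * inner ℝ x x ≤ inner ℝ (Q x) x) (hb : ∀ x, inner ℝ (Q x) x ≤ b * inner ℝ x x)
    (p : ℝ[X]) (hp : ∀ t, a ≤ t → t ≤ b → 0 ≤ p.eval t) (v : E) :
    0 ≤ inner ℝ (aeval Q p v) v := by
  let n := p.natDegree
  let K : Submodule ℝ E := Submodule.span ℝ (Set.range fun k : Fin (n + 1) => (Q ^ (k : ℕ)) v)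
  have hfd : FiniteDimensional ℝ K := FiniteDimensional.span_of_finite ℝ (Set.finite_range _)
  have hmemK : ∀ k ≤ n, (Q ^ k) v ∈ K := fun k hk =>
    Submodule.subset_span ⟨⟨k, Nat.lt_succ_of_le hk⟩, rfl⟩
  have hv : v ∈ K := by simpa using hmemK 0 (Nat.zero_le _)
  let Qn : K →ₗ[ℝ] K := K.orthogonalProjectionOnto.toLinearMap ∘ₗ Q ∘ₗ K.subtype
  have hin : ∀ x y : K, inner ℝ (Qn x) y = inner ℝ (Q (x : E)) (y : E) := by
    intro x y
    show inner ℝ (K.orthogonalProjectionOnto (Q (x : E))) y = _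
    rw [Submodule.inner_orthogonalProjectionOnto_eq_of_mem_right]
  have hQn : ∀ x y : K, inner ℝ (Qn x) y = inner ℝ x (Qn y) := by
    intro x y
    rw [hin, hQ, real_inner_comm, real_inner_comm (Qn y) x, hin]
  have hpowK : ∀ k ≤ n, (((Qn ^ k) ⟨v, hv⟩ : K) : E) = (Q ^ k) v := by
    intro k
    induction k with
    | zero => intro _; simp
    | succ k ih =>
      intro hk
      have h1 : (Qn ^ (k + 1)) ⟨v, hv⟩ = Qn ((Qn ^ k) ⟨v, hv⟩) := by
        rw [pow_succ', Module.End.mul_apply]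
      have h2 : (Q ^ (k + 1)) v = Q ((Q ^ k) v) := by rw [pow_succ', Module.End.mul_apply]
      rw [h1]
      show ((K.orthogonalProjectionOnto (Q (((Qn ^ k) ⟨v, hv⟩ : K) : E)) : K) : E) = _
      rw [ih (by omega), ← h2]
      exact (Submodule.orthogonalProjectionOnto_mem_subspace_eq_self (K := K) ⟨_, hmemK (k + 1) hk⟩ ▸ rfl)
  have hval : ((aeval Qn p (⟨v, hv⟩ : K) : K) : E) = aeval Q p v := by
    rw [aeval_apply_sum Qn p (le_refl n), aeval_apply_sum Q p (le_refl n), Submodule.coe_sum]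
    apply Finset.sum_congr rfl
    intro k hk
    rw [Submodule.coe_smul, hpowK k (Nat.lt_succ_iff.mp (Finset.mem_range.mp hk))]
  have := poly_nonneg_fd Qn hQn a b
    (fun x => by rw [hin]; exact ha _) (fun x => by rw [hin]; exact hb _) p hp ⟨v, hv⟩
  rw [Submodule.coe_inner, hval] at this
  exact this

end inner

/-! ### explicit forms -/

/-- a positive definite symmetric form -/
structure Pre (V : Type*) [AddCommGroup V] [Module ℝ V] where
  /-- the form -/
  ip : LinearMap.BilinForm ℝ V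
  symm : ∀ x y, ip x y = ip y x
  pos : ∀ x, x ≠ 0 → 0 < ip x x

section pre

variable {V : Type*} [AddCommGroup V] [Module ℝ V] (P : Pre V)

theorem Pre.nonneg (x : V) : 0 ≤ P.ip x x := by
  by_cases h : x = 0
  · subst h; simp
  · exact (P.pos x h).le

/-- `Q` is symmetric for `ip` -/
def Sy (P : Pre V) (Q : V →ₗ[ℝ] V) : Prop := ∀ x y, P.ip (Q x) y = P.ip x (Q y)

/-- `a ≤ Q ≤ b` in the sense of forms -/
def Btw (P : Pre V) (Q : V →ₗ[ℝ] V) (a b : ℝ) : Prop :=
  ∀ x, a * P.ip x x ≤ P.ip (Q x) x ∧ P.ip (Q x) x ≤ b * P.ip x x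

theorem Sy.pow {P : Pre V} {Q : V →ₗ[ℝ] V} (hQ : Sy P Q) (n : ℕ) : Sy P (Q ^ n) := by
  induction n with
  | zero => intro x y; simp
  | succ n ih =>
    intro x y
    have h1 : (Q ^ (n + 1)) x = (Q ^ n) (Q x) := by rw [pow_succ, Module.End.mul_apply]
    have h2 : (Q ^ (n + 1)) y = Q ((Q ^ n) y) := by rw [pow_succ', Module.End.mul_apply]
    rw [h1, h2, ih, hQ]

theorem Sy.aeval {P : Pre V} {Q : V →ₗ[ℝ] V} (hQ : Sy P Q) (p : ℝ[X]) :
    Sy P (Polynomial.aeval Q p) := by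
  intro x y
  rw [aeval_apply_sum Q p le_rfl, aeval_apply_sum Q p le_rfl, map_sum, map_sum,
    LinearMap.sum_apply]
  apply Finset.sum_congr rfl
  intro k _
  rw [map_smul, map_smul, LinearMap.smul_apply, hQ.pow]

/-- **Positivity of polynomials.** -/
theorem poly_nonneg {P : Pre V} {Q : V →ₗ[ℝ] V} (hQ : Sy P Q) {a b : ℝ} (hab : Btw P Q a b)
    (p : ℝ[X]) (hp : ∀ t, a ≤ t → t ≤ b → 0 ≤ p.eval t) (v : V) :
    0 ≤ P.ip v (Polynomial.aeval Q p v) := by
  let c : InnerProductSpace.Core ℝ V :=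
    { inner := fun x y => P.ip x y
      conj_inner_symm := fun x y => by simp [P.symm x y]
      re_inner_nonneg := fun x => by simpa using P.nonneg x
      add_left := fun x y z => by simp
      smul_left := fun x y r => by simp
      definite := fun x hx => by
        by_contra hne
        exact (P.pos x hne).ne' hx }
  let : NormedAddCommGroup V := c.toNormedAddCommGroup
  let : InnerProductSpace ℝ V := InnerProductSpace.ofCore c.toCore
  have hin : ∀ x y : V, inner ℝ x y = P.ip x y := fun x y => rfl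
  have := poly_nonneg_inner Q (fun x y => by rw [hin, hin]; exact hQ x y) a b
    (fun x => by rw [hin, hin]; exact (hab x).1) (fun x => by rw [hin, hin]; exact (hab x).2) p hp v
  rw [hin, P.symm] at this
  exact this

theorem poly_mono {P : Pre V} {Q : V →ₗ[ℝ] V} (hQ : Sy P Q) {a b : ℝ} (hab : Btw P Q a b)
    (p q : ℝ[X]) (hpq : ∀ t, a ≤ t → t ≤ b → p.eval t ≤ q.eval t) (v : V) :
    P.ip v (Polynomial.aeval Q p v) ≤ P.ip v (Polynomial.aeval Q q v) := by
  have := poly_nonneg hQ hab (q - p) (fun t h1 h2 => by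
    rw [eval_sub]; exact sub_nonneg.mpr (hpq t h1 h2)) v
  rw [map_sub, LinearMap.sub_apply, map_sub] at this
  linarith

/-- Cauchy-Schwarz for a positive semidefinite form -/
theorem form_cs (B : LinearMap.BilinForm ℝ V) (hs : ∀ x y, B x y = B y x) (hp : ∀ x, 0 ≤ B x x)
    (x y : V) : (B x y) ^ 2 ≤ B x x * B y y := by
  have key : ∀ t : ℝ, 0 ≤ B x x * (t * t) + (2 * B x y) * t + B y y := by
    intro t
    have h := hp (t • x + y)
    simp only [map_add, map_smul, LinearMap.add_apply, LinearMap.smul_apply, smul_eq_mul] at h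
    rw [hs y x] at h
    linarith
  have h := discrim_le_zero key
  unfold discrim at h
  nlinarith

theorem form_abs_le (B : LinearMap.BilinForm ℝ V) (hs : ∀ x y, B x y = B y x) (hp : ∀ x, 0 ≤ B x x)
    (x y : V) : |B x y| ≤ √(B x x) * √(B y y) := by
  rw [← Real.sqrt_mul (hp x)]
  exact Real.abs_le_sqrt (form_cs B hs hp x y)

/-- the form `⟨x, p(Q) y⟩` -/
def BP (P : Pre V) (Q : V →ₗ[ℝ] V) (p : ℝ[X]) : LinearMap.BilinForm ℝ V :=
  P.ip.compl₁₂ LinearMap.id (Polynomial.aeval Q p)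

theorem BP_apply (Q : V →ₗ[ℝ] V) (p : ℝ[X]) (x y : V) :
    BP P Q p x y = P.ip x (Polynomial.aeval Q p y) := rfl

theorem BP_symm {P : Pre V} {Q : V →ₗ[ℝ] V} (hQ : Sy P Q) (p : ℝ[X]) (x y : V) :
    BP P Q p x y = BP P Q p y x := by
  rw [BP_apply, BP_apply, ← hQ.aeval p, P.symm]

theorem BP_nonneg {P : Pre V} {Q : V →ₗ[ℝ] V} (hQ : Sy P Q) {a b : ℝ} (hab : Btw P Q a b)
    (p : ℝ[X]) (hp : ∀ t, a ≤ t → t ≤ b → 0 ≤ p.eval t) (x : V) : 0 ≤ BP P Q p x x :=
  poly_nonneg hQ hab p hp x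

theorem BP_mono {P : Pre V} {Q : V →ₗ[ℝ] V} (hQ : Sy P Q) {a b : ℝ} (hab : Btw P Q a b)
    (p q : ℝ[X]) (hpq : ∀ t, a ≤ t → t ≤ b → p.eval t ≤ q.eval t) (x : V) :
    BP P Q p x x ≤ BP P Q q x x := poly_mono hQ hab p q hpq x

theorem BP_add (Q : V →ₗ[ℝ] V) (p q : ℝ[X]) (x y : V) :
    BP P Q (p + q) x y = BP P Q p x y + BP P Q q x y := by
  rw [BP_apply, map_add, LinearMap.add_apply, map_add]; rfl

theorem BP_smul (Q : V →ₗ[ℝ] V) (c : ℝ) (p : ℝ[X]) (x y : V) :
    BP P Q (C c * p) x y = c * BP P Q p x y := by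
  rw [BP_apply, map_mul, aeval_C, Module.End.mul_apply, Module.algebraMap_end_apply, map_smul,
    smul_eq_mul]
  rfl

theorem BP_one (Q : V →ₗ[ℝ] V) (x y : V) : BP P Q 1 x y = P.ip x y := by
  rw [BP_apply, map_one]; rfl

theorem BP_sum {ι : Type*} (Q : V →ₗ[ℝ] V) (s : Finset ι) (p : ι → ℝ[X]) (x y : V) :
    BP P Q (∑ j ∈ s, p j) x y = ∑ j ∈ s, BP P Q (p j) x y := by
  rw [BP_apply, map_sum, LinearMap.sum_apply, map_sum]; rfl

theorem BP_aeval_right (Q : V →ₗ[ℝ] V) (p q : ℝ[X]) (x y : V) :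
    BP P Q p x (Polynomial.aeval Q q y) = BP P Q (p * q) x y := by
  rw [BP_apply, BP_apply, map_mul, Module.End.mul_apply]

theorem BP_aeval_left {P : Pre V} {Q : V →ₗ[ℝ] V} (hQ : Sy P Q) (p q : ℝ[X]) (x y : V) :
    BP P Q p (Polynomial.aeval Q q x) y = BP P Q (q * p) x y := by
  rw [BP_apply, BP_apply, hQ.aeval, map_mul, Module.End.mul_apply]

theorem BP_abs_le {P : Pre V} {Q : V →ₗ[ℝ] V} (hQ : Sy P Q) {a b : ℝ} (hab : Btw P Q a b)
    (p : ℝ[X]) (hp : ∀ t, a ≤ t → t ≤ b → 0 ≤ p.eval t) (x y : V) :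
    |BP P Q p x y| ≤ √(BP P Q p x x) * √(BP P Q p y y) :=
  form_abs_le _ (BP_symm hQ p) (BP_nonneg hQ hab p hp) x y

/-! ### antisymmetric operators -/

/-- `A` is antisymmetric for `ip` -/
def Asy (P : Pre V) (A : V →ₗ[ℝ] V) : Prop := ∀ x y, P.ip (A x) y = -P.ip x (A y)

/-- `Q = -A²` -/
def QA (A : V →ₗ[ℝ] V) : V →ₗ[ℝ] V := -(A * A)

theorem QA_apply (A : V →ₗ[ℝ] V) (x : V) : QA A x = -A (A x) := rfl

theorem Asy.sy {P : Pre V} {A : V →ₗ[ℝ] V} (hA : Asy P A) : Sy P (QA A) := by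
  intro x y
  rw [QA_apply, QA_apply, map_neg, map_neg, LinearMap.neg_apply, hA, hA, neg_neg]

theorem Asy.ip_QA {P : Pre V} {A : V →ₗ[ℝ] V} (hA : Asy P A) (x y : V) :
    P.ip x (QA A y) = P.ip (A x) (A y) := by
  rw [QA_apply, map_neg, hA x (A y)]

/-- `m² |x|² ≤ |A x|² ≤ Λ |x|²` -/
def ABtw (P : Pre V) (A : V →ₗ[ℝ] V) (a b : ℝ) : Prop :=
  ∀ x, a * P.ip x x ≤ P.ip (A x) (A x) ∧ P.ip (A x) (A x) ≤ b * P.ip x x

theorem ABtw.btw {P : Pre V} {A : V →ₗ[ℝ] V} (hA : Asy P A) {a b : ℝ} (h : ABtw P A a b) :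
    Btw P (QA A) a b := by
  intro x
  rw [hA.sy x x, hA.ip_QA]
  exact h x

theorem A_comm_QA (A : V →ₗ[ℝ] V) : Commute A (QA A) := by
  unfold QA
  simp [Commute, SemiconjBy, mul_assoc]

theorem A_aeval (A : V →ₗ[ℝ] V) (p : ℝ[X]) (x : V) :
    A (Polynomial.aeval (QA A) p x) = Polynomial.aeval (QA A) p (A x) := by
  rw [aeval_apply_sum (QA A) p le_rfl, aeval_apply_sum (QA A) p le_rfl, map_sum]
  apply Finset.sum_congr rfl
  intro k _
  rw [map_smul]
  congr 1
  have := ((A_comm_QA A).pow_right k).eq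
  exact congrArg (fun f => f x) this

/-- `A` on both sides multiplies the polynomial by `X` -/
theorem BP_A_A {P : Pre V} {A : V →ₗ[ℝ] V} (hA : Asy P A) (p : ℝ[X]) (x y : V) :
    BP P (QA A) p (A x) (A y) = BP P (QA A) (X * p) x y := by
  rw [BP_apply, BP_apply, map_mul, aeval_X, Module.End.mul_apply, hA.ip_QA, A_aeval]

theorem BP_pow {P : Pre V} {A : V →ₗ[ℝ] V} (hA : Asy P A) (n : ℕ) (x : V) :
    BP P (QA A) (X ^ n) x x = P.ip ((A ^ n) x) ((A ^ n) x) := by
  induction n generalizing x with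
  | zero => rw [pow_zero, BP_one]; simp
  | succ n ih =>
    rw [pow_succ', ← BP_A_A hA, ih]
    have : (A ^ (n + 1)) x = (A ^ n) (A x) := by rw [pow_succ, Module.End.mul_apply]
    rw [this]

/-- the polynomial `(1 + a X) ^ M` -/
def opl (a : ℝ) (M : ℕ) : ℝ[X] := (1 + C a * X) ^ M

theorem opl_eval (a : ℝ) (M : ℕ) (t : ℝ) : (opl a M).eval t = (1 + a * t) ^ M := by
  unfold opl; simp

/-- binomial expansion of the dual norm -/
theorem BP_opl {P : Pre V} {A : V →ₗ[ℝ] V} (hA : Asy P A) (a : ℝ) (M : ℕ) (x : V) :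
    BP P (QA A) (opl a M) x x =
      ∑ n ∈ range (M + 1), (M.choose n : ℝ) * a ^ n * P.ip ((A ^ n) x) ((A ^ n) x) := by
  have h : opl a M = ∑ n ∈ range (M + 1), C ((M.choose n : ℝ) * a ^ n) * X ^ n := by
    unfold opl
    rw [add_comm, add_pow]
    apply Finset.sum_congr rfl
    intro n _
    rw [one_pow, mul_one, mul_pow, C_mul, C_pow]
    simp only [map_natCast]
    ring
  rw [h, BP_sum]
  apply Finset.sum_congr rfl
  intro n _
  rw [BP_smul, BP_pow hA]

end pre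

end Crest.Agent.R165.FRDAbsx439
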