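import Mathlib

/-!
# Row 165, block G: finite range decomposition, scalar part

For `Λ > 0` and natural numbers `M`, `K` we construct real polynomials `w j` and `r J` such that on `[0, Λ]`
`w j ≥ 0`, `w j t * (1 + 4 ^ j t) ^ M ≤ C 4 ^ j`, `t * ∑ j < J, w j t = 1 - r J t`,
`0 ≤ r J t ≤ 1`, `r J t * (1 + 4 ^ J t) ^ M ≤ C`, and `K * (2 * deg (w j) + 1) ≤ 2 ^ j` unless `w j = 0`.
They are built from the Fejer kernel, a polynomial in `x = 1 - 2 t / Λ = cos θ`.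
-/

namespace Crest.Agent.R165.FRDScalarx439

open Polynomial Finset

noncomputable section

/-- the affine substitution `x = 1 - 2 t / Λ` -/
def xx (L : ℝ) : ℝ[X] := 1 - C (2 / L) * X

/-- Chebyshev polynomials in the variable `x = 1 - 2 t / Λ` -/
def TT (L : ℝ) (n : ℕ) : ℝ[X] := (Chebyshev.T ℝ (n : ℤ)).comp (xx L)

/-- Dirichlet kernel `1 + 2 ∑_{j=1}^k cos (j θ)` -/
def DD (L : ℝ) (k : ℕ) : ℝ[X] := 1 + 2 * ∑ j ∈ range k, TT L (j + 1)

/-- Fejer kernel times `n ^ 2` -/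
def GG (L : ℝ) (n : ℕ) : ℝ[X] := ∑ k ∈ range n, DD L k

def ee (L : ℝ) (k : ℕ) : ℝ[X] := 2 * ∑ j ∈ range k, C (2 / L) * GG L (j + 1)

def EE (L : ℝ) (n : ℕ) : ℝ[X] := ∑ k ∈ range n, ee L k

theorem TT_zero (L : ℝ) : TT L 0 = 1 := by simp [TT]

theorem TT_one (L : ℝ) : TT L 1 = xx L := by simp [TT]

theorem TT_add_two (L : ℝ) (n : ℕ) : TT L (n + 2) = 2 * xx L * TT L (n + 1) - TT L n := by
  unfold TT
  have h := Chebyshev.T_add_two ℝ (n : ℤ)
  have h2 : ((n + 2 : ℕ) : ℤ) = (n : ℤ) + 2 := by push_cast; ring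
  have h1 : ((n + 1 : ℕ) : ℤ) = (n : ℤ) + 1 := by push_cast; ring
  rw [h2, h1, h]
  simp [sub_comp, mul_comp]

theorem DD_succ (L : ℝ) (k : ℕ) : DD L (k + 1) = DD L k + 2 * TT L (k + 1) := by
  unfold DD
  rw [sum_range_succ]; ring

theorem one_sub_xx_mul_DD (L : ℝ) (k : ℕ) : (1 - xx L) * DD L k = TT L k - TT L (k + 1) := by
  induction k with
  | zero => simp [DD, TT_zero, TT_one]
  | succ k ih =>
    rw [DD_succ, mul_add, ih, TT_add_two]; ring

theorem one_sub_xx_mul_GG (L : ℝ) (n : ℕ) : (1 - xx L) * GG L n = 1 - TT L n := by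
  unfold GG
  rw [mul_sum]
  simp_rw [one_sub_xx_mul_DD]
  rw [Finset.sum_range_sub', TT_zero]

theorem one_sub_xx (L : ℝ) : 1 - xx L = C (2 / L) * X := by
  unfold xx; ring

theorem X_mul_CGG (L : ℝ) (n : ℕ) : X * (C (2 / L) * GG L n) = 1 - TT L n := by
  rw [← one_sub_xx_mul_GG, one_sub_xx]; ring

theorem X_mul_ee (L : ℝ) (k : ℕ) : X * ee L k = C (2 * (k : ℝ) + 1) - DD L k := by
  induction k with
  | zero => simp [ee, DD]
  | succ k ih =>
    have h1 : ee L (k + 1) = ee L k + 2 * (C (2 / L) * GG L (k + 1)) := by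
      unfold ee; rw [sum_range_succ]; ring
    have h2 : X * (2 * (C (2 / L) * GG L (k + 1))) = 2 * (1 - TT L (k + 1)) := by
      rw [← X_mul_CGG]; ring
    rw [h1, mul_add, ih, h2, DD_succ]
    have h3 : (C (2 * ((k + 1 : ℕ) : ℝ) + 1) : ℝ[X]) = C (2 * (k : ℝ) + 1) + 2 := by
      have : (2 : ℝ[X]) = C 2 := (map_ofNat C 2).symm
      rw [this, ← C_add]; congr 1; push_cast; ring
    rw [h3]; ring

theorem X_mul_EE (L : ℝ) (n : ℕ) : X * EE L n = C ((n : ℝ) ^ 2) - GG L n := by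
  induction n with
  | zero => simp [EE, GG]
  | succ k ih =>
    have h1 : EE L (k + 1) = EE L k + ee L k := by
      unfold EE; rw [sum_range_succ]
    have h2 : GG L (k + 1) = GG L k + DD L k := by
      unfold GG; rw [sum_range_succ]
    rw [h1, h2, mul_add, ih, X_mul_ee]
    have h3 : (C (((k + 1 : ℕ) : ℝ) ^ 2) : ℝ[X]) = C ((k : ℝ) ^ 2) + C (2 * (k : ℝ) + 1) := by
      rw [← C_add]; congr 1; push_cast; ring
    rw [h3]; ring

/-! ### values on `[0, Λ]` -/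

theorem eval_xx (L t : ℝ) : (xx L).eval t = 1 - 2 / L * t := by
  simp [xx]

theorem eval_xx_mem {L t : ℝ} (hL : 0 < L) (h0 : 0 ≤ t) (h1 : t ≤ L) :
    -1 ≤ (xx L).eval t ∧ (xx L).eval t ≤ 1 := by
  rw [eval_xx]
  have h2 : t / L ≤ 1 := by rw [div_le_one hL]; exact h1
  have h3 : 0 ≤ t / L := div_nonneg h0 hL.le
  have h4 : 2 / L * t = 2 * (t / L) := by ring
  constructor <;> linarith

theorem eval_TT_abs {L t : ℝ} (hL : 0 < L) (h0 : 0 ≤ t) (h1 : t ≤ L) (n : ℕ) :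
    |(TT L n).eval t| ≤ 1 := by
  obtain ⟨ha, hb⟩ := eval_xx_mem hL h0 h1
  unfold TT
  rw [eval_comp]
  have h : (xx L).eval t = Real.cos (Real.arccos ((xx L).eval t)) := (Real.cos_arccos ha hb).symm
  rw [h, Chebyshev.T_real_cos]
  exact Real.abs_cos_le_one _

theorem eval_TT_le {L t : ℝ} (hL : 0 < L) (h0 : 0 ≤ t) (h1 : t ≤ L) (n : ℕ) :
    (TT L n).eval t ≤ 1 := (abs_le.mp (eval_TT_abs hL h0 h1 n)).2

theorem le_eval_TT {L t : ℝ} (hL : 0 < L) (h0 : 0 ≤ t) (h1 : t ≤ L) (n : ℕ) :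
    -1 ≤ (TT L n).eval t := (abs_le.mp (eval_TT_abs hL h0 h1 n)).1

theorem eval_DD_le {L t : ℝ} (hL : 0 < L) (h0 : 0 ≤ t) (h1 : t ≤ L) (k : ℕ) :
    (DD L k).eval t ≤ 2 * k + 1 := by
  induction k with
  | zero => simp [DD]
  | succ k ih =>
    rw [DD_succ, eval_add]
    have := eval_TT_le hL h0 h1 (k + 1)
    simp only [eval_mul, eval_ofNat]
    push_cast
    linarith

theorem eval_GG_le {L t : ℝ} (hL : 0 < L) (h0 : 0 ≤ t) (h1 : t ≤ L) (n : ℕ) :
    (GG L n).eval t ≤ (n : ℝ) ^ 2 := by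
  induction n with
  | zero => simp [GG]
  | succ k ih =>
    have h2 : GG L (k + 1) = GG L k + DD L k := by
      unfold GG; rw [sum_range_succ]
    rw [h2, eval_add]
    have := eval_DD_le hL h0 h1 k
    push_cast
    nlinarith

theorem eval_GG_mul {L : ℝ} (t : ℝ) (n : ℕ) :
    2 / L * t * (GG L n).eval t = 1 - (TT L n).eval t := by
  have h := congrArg (fun p => eval t p) (X_mul_CGG L n)
  simp only [eval_mul, eval_X, eval_C, eval_sub, eval_one] at h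
  rw [← h]; ring

theorem eval_GG_nonneg {L t : ℝ} (hL : 0 < L) (h0 : 0 ≤ t) (h1 : t ≤ L) (n : ℕ) :
    0 ≤ (GG L n).eval t := by
  rcases h0.eq_or_lt with h | h
  · -- `t = 0`
    have h3 := congrArg (fun p => eval t p) (X_mul_EE L n)
    simp only [eval_mul, eval_X, eval_C, eval_sub, ← h, zero_mul] at h3
    rw [← h]
    have : eval 0 (GG L n) = (n : ℝ) ^ 2 := by linarith
    rw [this]; positivity
  · have h3 := eval_GG_mul (L := L) t n
    have h4 := eval_TT_le hL h0 h1 n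
    have h5 : 0 < 2 / L * t := by positivity
    by_contra hneg
    push Not at hneg
    have := mul_neg_of_pos_of_neg h5 hneg
    linarith

theorem t_mul_eval_GG_le {L t : ℝ} (hL : 0 < L) (h0 : 0 ≤ t) (h1 : t ≤ L) (n : ℕ) :
    t * (GG L n).eval t ≤ L := by
  have h3 := eval_GG_mul (L := L) t n
  have h4 := le_eval_TT hL h0 h1 n
  have h5 : 2 / L * (t * (GG L n).eval t) ≤ 2 := by
    have : 2 / L * (t * (GG L n).eval t) = 2 / L * t * (GG L n).eval t := by ring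
    rw [this]; linarith
  have h6 : 2 / L * (t * (GG L n).eval t) = 2 * (t * (GG L n).eval t) / L := by ring
  rw [h6, div_le_iff₀ hL] at h5
  linarith

theorem eval_ee_nonneg {L t : ℝ} (hL : 0 < L) (h0 : 0 ≤ t) (h1 : t ≤ L) (k : ℕ) :
    0 ≤ (ee L k).eval t := by
  unfold ee
  rw [eval_mul, eval_finsetSum]
  apply mul_nonneg (by simp)
  apply sum_nonneg
  intro j _
  rw [eval_mul, eval_C]
  exact mul_nonneg (by positivity) (eval_GG_nonneg hL h0 h1 _)

theorem eval_EE_nonneg {L t : ℝ} (hL : 0 < L) (h0 : 0 ≤ t) (h1 : t ≤ L) (n : ℕ) :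
    0 ≤ (EE L n).eval t := by
  unfold EE
  rw [eval_finsetSum]
  exact sum_nonneg fun k _ => eval_ee_nonneg hL h0 h1 k

theorem eval_ee_le {L t : ℝ} (hL : 0 < L) (h0 : 0 ≤ t) (h1 : t ≤ L) (k : ℕ) :
    (ee L k).eval t ≤ 4 / L * (k : ℝ) ^ 3 := by
  unfold ee
  rw [eval_mul, eval_finsetSum]
  have h : ∑ j ∈ range k, eval t (C (2 / L) * GG L (j + 1)) ≤ ∑ j ∈ range k, 2 / L * (k : ℝ) ^ 2 := by
    apply sum_le_sum
    intro j hj
    rw [eval_mul, eval_C]
    apply mul_le_mul_of_nonneg_left _ (by positivity)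
    refine (eval_GG_le hL h0 h1 _).trans ?_
    have : ((j + 1 : ℕ) : ℝ) ≤ k := by
      exact_mod_cast Nat.succ_le_of_lt (mem_range.mp hj)
    gcongr
  rw [sum_const, card_range, nsmul_eq_mul] at h
  simp only [eval_ofNat]
  calc 2 * ∑ j ∈ range k, eval t (C (2 / L) * GG L (j + 1)) ≤ 2 * (k * (2 / L * (k : ℝ) ^ 2)) := by
        linarith
    _ = 4 / L * (k : ℝ) ^ 3 := by ring

theorem eval_EE_le {L t : ℝ} (hL : 0 < L) (h0 : 0 ≤ t) (h1 : t ≤ L) (n : ℕ) :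
    (EE L n).eval t ≤ 4 / L * (n : ℝ) ^ 4 := by
  unfold EE
  rw [eval_finsetSum]
  have h : ∑ j ∈ range n, eval t (ee L j) ≤ ∑ j ∈ range n, 4 / L * (n : ℝ) ^ 3 := by
    apply sum_le_sum
    intro j hj
    refine (eval_ee_le hL h0 h1 _).trans ?_
    have : (j : ℝ) ≤ n := by
      exact_mod_cast (mem_range.mp hj).le
    gcongr
  rw [sum_const, card_range, nsmul_eq_mul] at h
  refine h.trans (le_of_eq ?_)
  ring

/-! ### degrees -/

theorem natDegree_xx_le (L : ℝ) : (xx L).natDegree ≤ 1 := by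
  unfold xx
  refine (natDegree_sub_le _ _).trans ?_
  simp only [natDegree_one]
  refine max_le (by norm_num) ((natDegree_C_mul_le _ _).trans natDegree_X_le)

theorem natDegree_TT_le (L : ℝ) (n : ℕ) : (TT L n).natDegree ≤ n := by
  unfold TT
  refine natDegree_comp_le.trans ?_
  rw [Chebyshev.natDegree_T]
  simp only [Int.natAbs_natCast]
  calc n * (xx L).natDegree ≤ n * 1 := Nat.mul_le_mul_left _ (natDegree_xx_le L)
    _ = n := by ring

theorem natDegree_DD_le (L : ℝ) (k : ℕ) : (DD L k).natDegree ≤ k := by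
  induction k with
  | zero => simp [DD]
  | succ k ih =>
    rw [DD_succ]
    refine (natDegree_add_le _ _).trans (max_le (ih.trans (Nat.le_succ _)) ?_)
    have : (2 : ℝ[X]) = C 2 := (map_ofNat C 2).symm
    rw [this]
    exact (natDegree_C_mul_le _ _).trans (natDegree_TT_le _ _)

theorem natDegree_GG_le (L : ℝ) (n : ℕ) : (GG L n).natDegree ≤ n - 1 := by
  unfold GG
  apply natDegree_sum_le_of_forall_le
  intro k hk
  exact (natDegree_DD_le L k).trans (by have := mem_range.mp hk; omega)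

theorem natDegree_ee_le (L : ℝ) (k : ℕ) : (ee L k).natDegree ≤ k - 1 := by
  unfold ee
  have : (2 : ℝ[X]) = C 2 := (map_ofNat C 2).symm
  rw [this]
  refine (natDegree_C_mul_le _ _).trans ?_
  apply natDegree_sum_le_of_forall_le
  intro j hj
  refine (natDegree_C_mul_le _ _).trans ((natDegree_GG_le L _).trans ?_)
  have := mem_range.mp hj; omega

theorem natDegree_EE_le (L : ℝ) (n : ℕ) : (EE L n).natDegree ≤ n - 2 := by
  unfold EE
  apply natDegree_sum_le_of_forall_le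
  intro k hk
  exact (natDegree_ee_le L k).trans (by have := mem_range.mp hk; omega)

/-! ### the normalised Fejer kernel and its powers -/

/-- the normalised Fejer kernel, `F_N(0) = 1` -/
def FF (L : ℝ) (N : ℕ) : ℝ[X] := C (1 / (N : ℝ) ^ 2) * GG L N

/-- `(1 - F_N ^ M) / t` -/
def qq (L : ℝ) (M N : ℕ) : ℝ[X] := C (1 / (N : ℝ) ^ 2) * EE L N * ∑ i ∈ range M, FF L N ^ i

theorem natDegree_FF_le (L : ℝ) (N : ℕ) : (FF L N).natDegree ≤ N - 1 :=
  (natDegree_C_mul_le _ _).trans (natDegree_GG_le L N)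

theorem eval_FF_nonneg {L t : ℝ} (hL : 0 < L) (h0 : 0 ≤ t) (h1 : t ≤ L) (N : ℕ) :
    0 ≤ (FF L N).eval t := by
  unfold FF
  rw [eval_mul, eval_C]
  exact mul_nonneg (by positivity) (eval_GG_nonneg hL h0 h1 _)

theorem eval_FF_le {L t : ℝ} (hL : 0 < L) (h0 : 0 ≤ t) (h1 : t ≤ L) (N : ℕ) :
    (FF L N).eval t ≤ 1 := by
  unfold FF
  rw [eval_mul, eval_C]
  rcases Nat.eq_zero_or_pos N with h | h
  · subst h; simp
  · have h3 := eval_GG_le hL h0 h1 N
    have h4 : (0 : ℝ) < (N : ℝ) ^ 2 := by positivity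
    rw [one_div, inv_mul_le_iff₀ h4]
    linarith

theorem t_mul_eval_FF_le {L t : ℝ} (hL : 0 < L) (h0 : 0 ≤ t) (h1 : t ≤ L) (N : ℕ) :
    t * (FF L N).eval t ≤ L / (N : ℝ) ^ 2 := by
  unfold FF
  rw [eval_mul, eval_C]
  have h3 := t_mul_eval_GG_le hL h0 h1 N
  calc t * (1 / (N : ℝ) ^ 2 * (GG L N).eval t) = (t * (GG L N).eval t) * (1 / (N : ℝ) ^ 2) := by ring
    _ ≤ L * (1 / (N : ℝ) ^ 2) := by gcongr
    _ = L / (N : ℝ) ^ 2 := by ring

theorem X_mul_CEE {L : ℝ} {N : ℕ} (hN : N ≠ 0) : X * (C (1 / (N : ℝ) ^ 2) * EE L N) = 1 - FF L N := by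
  have h := X_mul_EE L N
  have h4 : ((N : ℝ) ^ 2) ≠ 0 := by positivity
  calc X * (C (1 / (N : ℝ) ^ 2) * EE L N) = C (1 / (N : ℝ) ^ 2) * (X * EE L N) := by ring
    _ = C (1 / (N : ℝ) ^ 2) * (C ((N : ℝ) ^ 2) - GG L N) := by rw [h]
    _ = C (1 / (N : ℝ) ^ 2) * C ((N : ℝ) ^ 2) - FF L N := by rw [mul_sub]; rfl
    _ = 1 - FF L N := by
      rw [← C_mul, one_div, inv_mul_cancel₀ h4, C_1]

theorem X_mul_qq {L : ℝ} {N : ℕ} (hN : N ≠ 0) (M : ℕ) : X * qq L M N = 1 - FF L N ^ M := by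
  unfold qq
  have h : (∑ i ∈ range M, FF L N ^ i) * (FF L N - 1) = FF L N ^ M - 1 := geom_sum_mul _ _
  calc X * (C (1 / (N : ℝ) ^ 2) * EE L N * ∑ i ∈ range M, FF L N ^ i)
      = (X * (C (1 / (N : ℝ) ^ 2) * EE L N)) * ∑ i ∈ range M, FF L N ^ i := by ring
    _ = (1 - FF L N) * ∑ i ∈ range M, FF L N ^ i := by rw [X_mul_CEE hN]
    _ = -((∑ i ∈ range M, FF L N ^ i) * (FF L N - 1)) := by ring
    _ = 1 - FF L N ^ M := by rw [h]; ring

theorem EE_one (L : ℝ) : EE L 1 = 0 := by simp [EE, ee]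

theorem qq_one (L : ℝ) (M : ℕ) : qq L M 1 = 0 := by simp [qq, EE_one]

theorem natDegree_qq_le (L : ℝ) (M N : ℕ) (hN : 2 ≤ N) (hM : 1 ≤ M) :
    (qq L M N).natDegree + 1 ≤ M * (N - 1) := by
  unfold qq
  have h1 : (∑ i ∈ range M, FF L N ^ i).natDegree ≤ (M - 1) * (N - 1) := by
    apply natDegree_sum_le_of_forall_le
    intro i hi
    refine natDegree_pow_le.trans ?_
    exact Nat.mul_le_mul (by have := mem_range.mp hi; omega) (natDegree_FF_le L N)
  have h2 : (C (1 / (N : ℝ) ^ 2) * EE L N).natDegree ≤ N - 2 :=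
    (natDegree_C_mul_le _ _).trans (natDegree_EE_le L N)
  have h3 := (natDegree_mul_le (p := C (1 / (N : ℝ) ^ 2) * EE L N)
    (q := ∑ i ∈ range M, FF L N ^ i))
  obtain ⟨m, rfl⟩ : ∃ m, M = m + 1 := ⟨M - 1, by omega⟩
  obtain ⟨n, rfl⟩ : ∃ n, N = n + 2 := ⟨N - 2, by omega⟩
  simp only [Nat.add_sub_cancel] at h1 h2
  have h4 : n + 2 - 1 = n + 1 := by omega
  rw [h4] at h1 ⊢
  nlinarith

theorem eval_qq_nonneg {L t : ℝ} (hL : 0 < L) (h0 : 0 ≤ t) (h1 : t ≤ L) (M N : ℕ) :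
    0 ≤ (qq L M N).eval t := by
  unfold qq
  rw [eval_mul, eval_mul, eval_C, eval_finsetSum]
  refine mul_nonneg (mul_nonneg (by positivity) (eval_EE_nonneg hL h0 h1 _)) ?_
  refine sum_nonneg fun i _ => ?_
  rw [eval_pow]
  exact pow_nonneg (eval_FF_nonneg hL h0 h1 _) _

theorem eval_qq_le {L t : ℝ} (hL : 0 < L) (h0 : 0 ≤ t) (h1 : t ≤ L) (M N : ℕ) :
    (qq L M N).eval t ≤ 4 / L * (N : ℝ) ^ 2 * M := by
  unfold qq
  rw [eval_mul, eval_mul, eval_C, eval_finsetSum]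
  have h2 : ∑ i ∈ range M, eval t (FF L N ^ i) ≤ M := by
    calc ∑ i ∈ range M, eval t (FF L N ^ i) ≤ ∑ i ∈ range M, (1 : ℝ) := by
          apply sum_le_sum
          intro i _
          rw [eval_pow]
          exact pow_le_one₀ (eval_FF_nonneg hL h0 h1 _) (eval_FF_le hL h0 h1 _)
      _ = M := by simp
  have h2' : 0 ≤ ∑ i ∈ range M, eval t (FF L N ^ i) := by
    refine sum_nonneg fun i _ => ?_
    rw [eval_pow]
    exact pow_nonneg (eval_FF_nonneg hL h0 h1 _) _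
  have h3 : 1 / (N : ℝ) ^ 2 * eval t (EE L N) ≤ 4 / L * (N : ℝ) ^ 2 := by
    rcases Nat.eq_zero_or_pos N with h | h
    · subst h; simp
    · have h3 := eval_EE_le hL h0 h1 N
      have h4 : (0 : ℝ) < (N : ℝ) ^ 2 := by positivity
      rw [one_div, inv_mul_le_iff₀ h4]
      refine h3.trans (le_of_eq (by ring))
  have h4 : 0 ≤ 4 / L * (N : ℝ) ^ 2 := by positivity
  exact mul_le_mul h3 h2 h2' h4

end

end Crest.Agent.R165.FRDScalarx439
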