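import Mathlib
import Crest.Agent.R165.FRDScalar_439

/-!
# Row 165, block G: finite range decomposition of `1 / t` into polynomials

`FRD Λ M K` is the data of polynomials `w j`, `r J` and a constant `C` with all the bounds used in the
renormalisation group; `frd` constructs it for every `Λ > 0`.
-/

namespace Crest.Agent.R165.FRDPolyx439

open Polynomial Finset Crest.Agent.R165.FRDScalarx439

noncomputable section

/-- Finite range decomposition of `1 / t` on `(0, Λ]`. `M` is the power of decay, `K` the factor in the range: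
`K * (2 * natDegree (w j) + 1) ≤ 2 ^ j` when `w j ≠ 0`. -/
structure FRD (Λ : ℝ) (M K : ℕ) where
  /-- the slices -/
  w : ℕ → ℝ[X]
  /-- the remainders: `t * ∑ j < J, w j = 1 - r J` -/
  r : ℕ → ℝ[X]
  /-- the constant -/
  C : ℝ
  C_pos : 0 < C
  r_zero : r 0 = 1
  X_mul_w : ∀ j, X * w j = r j - r (j + 1)
  deg_w : ∀ j, w j ≠ 0 → K * (2 * (w j).natDegree + 1) ≤ 2 ^ j
  deg_r : ∀ j, K * (2 * (r j).natDegree) ≤ 2 ^ j
  w_nonneg : ∀ j t, 0 ≤ t → t ≤ Λ → 0 ≤ (w j).eval t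
  w_le : ∀ j t, 0 ≤ t → t ≤ Λ → (w j).eval t * (1 + 4 ^ j * t) ^ M ≤ C * 4 ^ j
  r_nonneg : ∀ j t, 0 ≤ t → t ≤ Λ → 0 ≤ (r j).eval t
  r_le_one : ∀ j t, 0 ≤ t → t ≤ Λ → (r j).eval t ≤ 1
  r_le : ∀ j t, 0 ≤ t → t ≤ Λ → (r j).eval t * (1 + 4 ^ j * t) ^ M ≤ C

namespace FRD

variable {Λ : ℝ} {M K : ℕ} (D : FRD Λ M K)

theorem X_mul_sum (J : ℕ) : X * ∑ j ∈ range J, D.w j = 1 - D.r J := by
  rw [mul_sum]
  simp_rw [D.X_mul_w]
  rw [Finset.sum_range_sub', D.r_zero]

theorem r_antitone {t : ℝ} (h0 : 0 ≤ t) (h1 : t ≤ Λ) {i j : ℕ} (hij : i ≤ j) :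
    (D.r j).eval t ≤ (D.r i).eval t := by
  induction hij with
  | refl => exact le_rfl
  | step _ ih =>
    refine le_trans ?_ ih
    rename_i m _
    have h := congrArg (fun p => eval t p) (D.X_mul_w m)
    simp only [eval_mul, eval_X, eval_sub] at h
    have h2 := mul_nonneg h0 (D.w_nonneg m t h0 h1)
    rw [h] at h2
    exact sub_nonneg.mp h2

theorem r_tendsto (hM : 1 ≤ M) {t : ℝ} (h0 : 0 < t) (h1 : t ≤ Λ) :
    Filter.Tendsto (fun J => (D.r J).eval t) Filter.atTop (nhds 0) := by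
  have hb : ∀ J, (D.r J).eval t ≤ D.C / t * (1 / 4) ^ J := by
    intro J
    have h2 := D.r_le J t h0.le h1
    have h3 : (4 : ℝ) ^ J * t ≤ (1 + 4 ^ J * t) ^ M := by
      have h4 : (1 : ℝ) ≤ 1 + 4 ^ J * t := by
        have : (0 : ℝ) ≤ 4 ^ J * t := by positivity
        linarith
      calc (4 : ℝ) ^ J * t ≤ (1 + 4 ^ J * t) ^ 1 := by linarith
        _ ≤ (1 + 4 ^ J * t) ^ M := pow_le_pow_right₀ h4 hM
    have h5 := D.r_nonneg J t h0.le h1
    have h6 : (D.r J).eval t * (4 ^ J * t) ≤ D.C := (mul_le_mul_of_nonneg_left h3 h5).trans h2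
    have h7 : (0 : ℝ) < 4 ^ J * t := by positivity
    rw [← le_div_iff₀ h7] at h6
    refine h6.trans (le_of_eq ?_)
    have h8 : (4 : ℝ) ^ J ≠ 0 := by positivity
    rw [one_div, inv_pow]
    field_simp
  refine squeeze_zero (fun J => D.r_nonneg J t h0.le h1) hb ?_
  have h := (tendsto_pow_atTop_nhds_zero_of_lt_one (r := (1 / 4 : ℝ)) (by norm_num)
    (by norm_num)).const_mul (D.C / t)
  simpa using h

theorem hasSum (hM : 1 ≤ M) {t : ℝ} (h0 : 0 < t) (h1 : t ≤ Λ) :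
    HasSum (fun j => (D.w j).eval t) (1 / t) := by
  rw [hasSum_iff_tendsto_nat_of_nonneg (fun j => D.w_nonneg j t h0.le h1)]
  have h : ∀ J, ∑ j ∈ range J, (D.w j).eval t = (1 - (D.r J).eval t) / t := by
    intro J
    have h2 := congrArg (fun p => eval t p) (D.X_mul_sum J)
    simp only [eval_mul, eval_X, eval_sub, eval_one, eval_finsetSum] at h2
    rw [← h2]; field_simp
  simp_rw [h]
  have h3 := ((D.r_tendsto hM h0 h1).const_sub 1).div_const t
  simpa using h3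

theorem w_le' {t : ℝ} (h0 : 0 ≤ t) (h1 : t ≤ Λ) (j : ℕ) : (D.w j).eval t ≤ D.C * 4 ^ j := by
  have h2 := D.w_le j t h0 h1
  have h3 := D.w_nonneg j t h0 h1
  have h4 : (1 : ℝ) ≤ (1 + 4 ^ j * t) ^ M := by
    apply one_le_pow₀
    have : (0 : ℝ) ≤ 4 ^ j * t := by positivity
    linarith
  nlinarith

end FRD

/-! ### Construction -/

/-- the sequence of Fejer orders -/
def NN (m j : ℕ) : ℕ := 2 ^ (j - m)

theorem NN_ne_zero (m j : ℕ) : NN m j ≠ 0 := by unfold NN; positivity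

/-- remainders -/
def rho (L : ℝ) (M m J : ℕ) : ℝ[X] := ∏ i ∈ range J, FF L (NN m i) ^ M

/-- slices -/
def ww (L : ℝ) (M m j : ℕ) : ℝ[X] := rho L M m j * qq L M (NN m j)

theorem X_mul_ww (L : ℝ) (M m j : ℕ) : X * ww L M m j = rho L M m j - rho L M m (j + 1) := by
  have h : rho L M m (j + 1) = rho L M m j * FF L (NN m j) ^ M := by
    unfold rho; rw [prod_range_succ]
  rw [h]
  unfold ww
  have h2 := X_mul_qq (L := L) (NN_ne_zero m j) M
  calc X * (rho L M m j * qq L M (NN m j)) = rho L M m j * (X * qq L M (NN m j)) := by ring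
    _ = rho L M m j - rho L M m j * FF L (NN m j) ^ M := by rw [h2]; ring

theorem ww_eq_zero (L : ℝ) (M m j : ℕ) (h : j ≤ m) : ww L M m j = 0 := by
  unfold ww NN
  rw [Nat.sub_eq_zero_of_le h, pow_zero, qq_one, mul_zero]

theorem natDegree_rho_le (L : ℝ) (M m J : ℕ) :
    (rho L M m J).natDegree ≤ M * (2 ^ (J - m) - 1) := by
  induction J with
  | zero => simp [rho]
  | succ J ih =>
    have h : rho L M m (J + 1) = rho L M m J * FF L (NN m J) ^ M := by
      unfold rho; rw [prod_range_succ]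
    rw [h]
    refine natDegree_mul_le.trans ?_
    have h2 : (FF L (NN m J) ^ M).natDegree ≤ M * (2 ^ (J - m) - 1) := by
      refine natDegree_pow_le.trans ?_
      exact Nat.mul_le_mul_left _ (natDegree_FF_le L _)
    rcases le_or_gt m J with hmJ | hmJ
    · have e : J + 1 - m = (J - m) + 1 := by omega
      rw [e, pow_succ]
      have h3 : 1 ≤ 2 ^ (J - m) := Nat.one_le_two_pow
      have h4 : M * (2 ^ (J - m) - 1) + M * (2 ^ (J - m) - 1) ≤ M * (2 ^ (J - m) * 2 - 1) := by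
        rw [← Nat.mul_add]
        apply Nat.mul_le_mul_left; omega
      omega
    · have e : J + 1 - m = 0 := by omega
      have e' : J - m = 0 := by omega
      rw [e'] at ih h2
      rw [e]
      simp only [pow_zero, Nat.sub_self, Nat.mul_zero, Nat.le_zero] at ih h2 ⊢
      omega

theorem natDegree_ww_le (L : ℝ) (M m j : ℕ) (hM : 1 ≤ M) (hj : m < j) :
    (ww L M m j).natDegree + 1 ≤ M * 2 ^ (j + 1 - m) := by
  unfold ww
  have h1 := natDegree_mul_le (p := rho L M m j) (q := qq L M (NN m j))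
  have h2 := natDegree_rho_le L M m j
  have h3 : 2 ≤ NN m j := by
    unfold NN
    calc 2 = 2 ^ 1 := by norm_num
      _ ≤ 2 ^ (j - m) := Nat.pow_le_pow_right (by norm_num) (by omega)
  have h4 := natDegree_qq_le L M (NN m j) h3 hM
  have h5 : M * (2 ^ (j - m) - 1) ≤ M * 2 ^ (j - m) := Nat.mul_le_mul_left _ (Nat.sub_le _ _)
  have h6 : M * (NN m j - 1) ≤ M * 2 ^ (j - m) := Nat.mul_le_mul_left _ (Nat.sub_le _ _)
  have e : j + 1 - m = (j - m) + 1 := by omega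
  rw [e, pow_succ]
  have h7 : M * (2 ^ (j - m) * 2) = M * 2 ^ (j - m) + M * 2 ^ (j - m) := by ring
  omega

theorem eval_rho_nonneg {L t : ℝ} (hL : 0 < L) (h0 : 0 ≤ t) (h1 : t ≤ L) (M m J : ℕ) :
    0 ≤ (rho L M m J).eval t := by
  unfold rho
  rw [eval_prod]
  refine prod_nonneg fun i _ => ?_
  rw [eval_pow]
  exact pow_nonneg (eval_FF_nonneg hL h0 h1 _) _

theorem eval_rho_le_one {L t : ℝ} (hL : 0 < L) (h0 : 0 ≤ t) (h1 : t ≤ L) (M m J : ℕ) :
    (rho L M m J).eval t ≤ 1 := by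
  unfold rho
  rw [eval_prod]
  refine prod_le_one (fun i _ => ?_) (fun i _ => ?_)
  · rw [eval_pow]; exact pow_nonneg (eval_FF_nonneg hL h0 h1 _) _
  · rw [eval_pow]; exact pow_le_one₀ (eval_FF_nonneg hL h0 h1 _) (eval_FF_le hL h0 h1 _)

theorem eval_rho_le {L t : ℝ} (hL : 0 < L) (h0 : 0 ≤ t) (h1 : t ≤ L) (M m J : ℕ) :
    (rho L M m J).eval t * (1 + 4 ^ J * t) ^ M ≤ (1 + L * 4 ^ (m + 1)) ^ M := by
  rcases le_or_gt J m with hJ | hJ
  · have h2 : (1 + 4 ^ J * t) ^ M ≤ (1 + L * 4 ^ (m + 1)) ^ M := by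
      have h3 : (4 : ℝ) ^ J ≤ 4 ^ (m + 1) := pow_le_pow_right₀ (by norm_num) (by omega)
      have h4 : (4 : ℝ) ^ J * t ≤ 4 ^ (m + 1) * L := mul_le_mul h3 h1 h0 (by positivity)
      apply pow_le_pow_left₀ (by positivity)
      linarith
    have h5 : (0 : ℝ) ≤ (1 + 4 ^ J * t) ^ M := by positivity
    calc (rho L M m J).eval t * (1 + 4 ^ J * t) ^ M ≤ 1 * (1 + 4 ^ J * t) ^ M :=
          mul_le_mul_of_nonneg_right (eval_rho_le_one hL h0 h1 M m J) h5
      _ ≤ _ := by rw [one_mul]; exact h2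
  · obtain ⟨i, rfl⟩ : ∃ i, J = i + 1 := ⟨J - 1, by omega⟩
    have h : rho L M m (i + 1) = rho L M m i * FF L (NN m i) ^ M := by
      unfold rho; rw [prod_range_succ]
    rw [h, eval_mul, eval_pow]
    have h2 : (FF L (NN m i)).eval t * (1 + 4 ^ (i + 1) * t) ≤ 1 + L * 4 ^ (m + 1) := by
      have h3 := eval_FF_le hL h0 h1 (NN m i)
      have h4 := t_mul_eval_FF_le hL h0 h1 (NN m i)
      have h5 : L / (NN m i : ℝ) ^ 2 * 4 ^ (i + 1) = L * 4 ^ (m + 1) := by
        unfold NN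
        push_cast
        have e : (4 : ℝ) ^ (i + 1) = 4 ^ (m + 1) * ((2 : ℝ) ^ (i - m)) ^ 2 := by
          rw [← pow_mul, show (4 : ℝ) = 2 ^ 2 by norm_num, ← pow_mul, ← pow_mul, ← pow_add]
          congr 1; omega
        rw [e]
        have : ((2 : ℝ) ^ (i - m)) ^ 2 ≠ 0 := by positivity
        field_simp
      calc (FF L (NN m i)).eval t * (1 + 4 ^ (i + 1) * t)
          = (FF L (NN m i)).eval t + t * (FF L (NN m i)).eval t * 4 ^ (i + 1) := by ring
        _ ≤ 1 + L / (NN m i : ℝ) ^ 2 * 4 ^ (i + 1) := by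
            have : t * (FF L (NN m i)).eval t * 4 ^ (i + 1) ≤ L / (NN m i : ℝ) ^ 2 * 4 ^ (i + 1) :=
              mul_le_mul_of_nonneg_right h4 (by positivity)
            linarith
        _ = _ := by rw [h5]
    have h6 : (0 : ℝ) ≤ (FF L (NN m i)).eval t * (1 + 4 ^ (i + 1) * t) :=
      mul_nonneg (eval_FF_nonneg hL h0 h1 _) (by positivity)
    calc (rho L M m i).eval t * (FF L (NN m i)).eval t ^ M * (1 + 4 ^ (i + 1) * t) ^ M
        = (rho L M m i).eval t * ((FF L (NN m i)).eval t * (1 + 4 ^ (i + 1) * t)) ^ M := by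
          rw [mul_pow]; ring
      _ ≤ 1 * ((FF L (NN m i)).eval t * (1 + 4 ^ (i + 1) * t)) ^ M :=
          mul_le_mul_of_nonneg_right (eval_rho_le_one hL h0 h1 M m i) (pow_nonneg h6 _)
      _ ≤ (1 + L * 4 ^ (m + 1)) ^ M := by
          rw [one_mul]; exact pow_le_pow_left₀ h6 h2 _

theorem eval_ww_nonneg {L t : ℝ} (hL : 0 < L) (h0 : 0 ≤ t) (h1 : t ≤ L) (M m j : ℕ) :
    0 ≤ (ww L M m j).eval t := by
  unfold ww
  rw [eval_mul]
  exact mul_nonneg (eval_rho_nonneg hL h0 h1 _ _ _) (eval_qq_nonneg hL h0 h1 _ _)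

theorem eval_ww_le {L t : ℝ} (hL : 0 < L) (h0 : 0 ≤ t) (h1 : t ≤ L) (M m j : ℕ) :
    (ww L M m j).eval t * (1 + 4 ^ j * t) ^ M ≤ (1 + L * 4 ^ (m + 1)) ^ M * (4 / L * M) * 4 ^ j := by
  unfold ww
  rw [eval_mul]
  have h2 := eval_rho_le hL h0 h1 M m j
  have h3 := eval_qq_le hL h0 h1 M (NN m j)
  have h4 := eval_rho_nonneg hL h0 h1 M m j
  have h5 := eval_qq_nonneg hL h0 h1 M (NN m j)
  have h6 : (0 : ℝ) ≤ (1 + 4 ^ j * t) ^ M := by positivity
  have h7 : (4 / L * (NN m j : ℝ) ^ 2 * M) ≤ 4 / L * M * 4 ^ j := by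
    have : ((NN m j : ℝ)) ^ 2 ≤ 4 ^ j := by
      unfold NN
      push_cast
      rw [← pow_mul, show (4 : ℝ) = 2 ^ 2 by norm_num, ← pow_mul]
      exact pow_le_pow_right₀ (by norm_num) (by omega)
    calc (4 / L * (NN m j : ℝ) ^ 2 * M) = 4 / L * M * (NN m j : ℝ) ^ 2 := by ring
      _ ≤ 4 / L * M * 4 ^ j := mul_le_mul_of_nonneg_left this (by positivity)
  calc (rho L M m j).eval t * (qq L M (NN m j)).eval t * (1 + 4 ^ j * t) ^ M
      = ((rho L M m j).eval t * (1 + 4 ^ j * t) ^ M) * (qq L M (NN m j)).eval t := by ring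
    _ ≤ (1 + L * 4 ^ (m + 1)) ^ M * (4 / L * M * 4 ^ j) :=
        mul_le_mul h2 (h3.trans h7) h5 (by positivity)
    _ = _ := by ring

/-- Existence of the finite range decomposition. -/
def frd (Λ : ℝ) (hΛ : 0 < Λ) (M K : ℕ) (hM : 1 ≤ M) : FRD Λ M K where
  w := ww Λ M (4 * K * M)
  r := rho Λ M (4 * K * M)
  C := (1 + Λ * 4 ^ (4 * K * M + 1)) ^ M * (4 / Λ * M + 1)
  C_pos := by positivity
  r_zero := by simp [rho]
  X_mul_w := fun j => X_mul_ww Λ M _ j
  deg_w := by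
    intro j hj
    have hmj : 4 * K * M < j := by
      by_contra h
      exact hj (ww_eq_zero _ _ _ _ (not_lt.mp h))
    have h := natDegree_ww_le Λ M (4 * K * M) j hM hmj
    have h2 : 4 * K * M ≤ 2 ^ (4 * K * M) := Nat.lt_two_pow_self.le
    have e : 2 ^ j * 2 = 2 ^ (j + 1 - 4 * K * M) * 2 ^ (4 * K * M) := by
      rw [← pow_add, ← pow_succ]; congr 1; omega
    have h3 : K * (2 * (ww Λ M (4 * K * M) j).natDegree + 1) ≤
        K * (2 * (M * 2 ^ (j + 1 - 4 * K * M))) := Nat.mul_le_mul_left _ (by omega)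
    have h4 : 2 * (K * (2 * (M * 2 ^ (j + 1 - 4 * K * M)))) ≤ 2 ^ j * 2 := by
      rw [e]
      calc 2 * (K * (2 * (M * 2 ^ (j + 1 - 4 * K * M)))) = 2 ^ (j + 1 - 4 * K * M) * (4 * K * M) := by
            ring
        _ ≤ _ := Nat.mul_le_mul_left _ h2
    omega
  deg_r := by
    intro j
    have h := natDegree_rho_le Λ M (4 * K * M) j
    have h2 : 4 * K * M ≤ 2 ^ (4 * K * M) := Nat.lt_two_pow_self.le
    rcases le_or_gt j (4 * K * M) with hj | hj
    · have e : j - 4 * K * M = 0 := by omega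
      rw [e] at h
      simp only [pow_zero, Nat.sub_self, Nat.mul_zero, Nat.le_zero] at h
      rw [h]; simp
    · have e : 2 ^ j = 2 ^ (j - 4 * K * M) * 2 ^ (4 * K * M) := by
        rw [← pow_add]; congr 1; omega
      rw [e]
      calc K * (2 * (rho Λ M (4 * K * M) j).natDegree)
          ≤ K * (2 * (M * (2 ^ (j - 4 * K * M)))) := by
            apply Nat.mul_le_mul_left; apply Nat.mul_le_mul_left
            exact h.trans (Nat.mul_le_mul_left _ (Nat.sub_le _ _))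
        _ ≤ 2 ^ (j - 4 * K * M) * (4 * K * M) := by
            have : 2 ^ (j - 4 * K * M) * (4 * K * M) = 2 * (K * (2 * (M * (2 ^ (j - 4 * K * M))))) := by
              ring
            rw [this]; omega
        _ ≤ _ := Nat.mul_le_mul_left _ h2
  w_nonneg := fun j t h0 h1 => eval_ww_nonneg hΛ h0 h1 _ _ _
  w_le := by
    intro j t h0 h1
    refine (eval_ww_le hΛ h0 h1 M (4 * K * M) j).trans ?_
    have h2 : (0 : ℝ) ≤ (1 + Λ * 4 ^ (4 * K * M + 1)) ^ M := by positivity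
    have h3 : (0 : ℝ) ≤ 4 ^ j := by positivity
    nlinarith [mul_nonneg h2 h3]
  r_nonneg := fun j t h0 h1 => eval_rho_nonneg hΛ h0 h1 _ _ _
  r_le_one := fun j t h0 h1 => eval_rho_le_one hΛ h0 h1 _ _ _
  r_le := by
    intro j t h0 h1
    refine (eval_rho_le hΛ h0 h1 M (4 * K * M) j).trans ?_
    have h2 : (0 : ℝ) ≤ (1 + Λ * 4 ^ (4 * K * M + 1)) ^ M := by positivity
    have h3 : (0 : ℝ) ≤ 4 / Λ * M := by positivity
    nlinarith [mul_nonneg h2 h3]

end

end Crest.Agent.R165.FRDPolyx439
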