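import Mathlib
import Crest.Agent.R165.Gr0_606

/-!
# Row 165, block G: the Gram-Hadamard inequality for Grassmann Gaussian expectations

`gram_hadamard`: if `B` is a symmetric positive semidefinite bilinear form on `V` and `S` a covariance with
`|S x y| ≤ √(B x x) * √(B y y)`, then `|E_S (x₁ x₂ ⋯ xₙ)| ≤ ∏ √(B xᵢ xᵢ)`.
The proof uses Gram-Schmidt (through the volume form), no Pfaffian or determinant identity.
-/

set_option autoImplicit false

noncomputable section

namespace Crest.Agent.R165.GramHx439

open Crest.Agent.R165.Gr0x606 Module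

universe u v

section basic

variable {V : Type*} [AddCommGroup V] [Module ℝ V] {W : Type*} [AddCommGroup W] [Module ℝ W]

/-- pull back of a covariance -/
def comap (S : Cov W) (f : V →ₗ[ℝ] W) : Cov V := ⟨S.b.compl₁₂ f f, fun x => by simp [S.alt]⟩

@[simp] theorem comap_b (S : Cov W) (f : V →ₗ[ℝ] W) (x y : V) :
    (comap S f).b x y = S.b (f x) (f y) := rfl

theorem EE_comap (S : Cov W) (f : V →ₗ[ℝ] W) (a : Gr V) : EE S (mp f a) = EE (comap S f) a :=
  EE_mp f (comap S f) S (fun _ _ => rfl) a

/-- expectation of a product of `n` elementary fields as an alternating map -/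
def om (S : Cov V) (n : ℕ) : V [⋀^Fin n]→ₗ[ℝ] ℝ :=
  (EE S).compAlternatingMap (ExteriorAlgebra.ιMulti ℝ n)

theorem om_apply (S : Cov V) (n : ℕ) (v : Fin n → V) :
    om S n v = EE S (List.ofFn fun i => fi (v i)).prod := by
  unfold om
  rw [LinearMap.compAlternatingMap_apply, ExteriorAlgebra.ιMulti_apply]
  rfl

theorem om_list (S : Cov V) (l : List V) :
    EE S (l.map fi).prod = om S l.length l.get := by
  rw [om_apply]
  congr 2
  conv_lhs => rw [← List.ofFn_get l]
  rw [List.map_ofFn]
  rfl

theorem dd_list_prod_eq_zero (l : Module.Dual ℝ V) (L : List V) (h : ∀ x ∈ L, l x = 0) :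
    dd l (L.map fi).prod = 0 := by
  induction L with
  | nil => simp
  | cons x L ih =>
    rw [List.map_cons, List.prod_cons, dd_fi_mul, h x (by simp),
      ih (fun y hy => h y (by simp [hy]))]
    simp

theorem om_cons_cons (S : Cov V) (n : ℕ) (x y : V) (v : Fin n → V) (h : ∀ i, S.b x (v i) = 0) :
    om S (n + 2) (Fin.cons x (Fin.cons y v : Fin (n + 1) → V) : Fin (n + 2) → V)
      = S.b x y * om S n v := by
  rw [om_apply, om_apply, List.ofFn_succ, List.ofFn_succ]
  simp only [Fin.cons_zero, Fin.cons_succ, List.prod_cons]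
  rw [EE_fi_mul, dd_fi_mul]
  have h2 : dd (S.b x) (List.ofFn fun i => fi (v i)).prod = 0 := by
    have := dd_list_prod_eq_zero (S.b x) (List.ofFn v) (by
      intro z hz
      rw [List.mem_ofFn] at hz
      obtain ⟨i, rfl⟩ := hz
      exact h i)
    rw [List.map_ofFn] at this
    exact this
  rw [h2, mul_zero, sub_zero, map_smul, smul_eq_mul]

theorem om_comap (S : Cov W) (f : V →ₗ[ℝ] W) (n : ℕ) (v : Fin n → V) :
    om (comap S f) n v = om S n (fun i => f (v i)) := by
  rw [om_apply, om_apply, ← EE_comap, map_list_prod, List.map_ofFn]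
  congr 3
  funext i
  simp

end basic

section inner

variable {W : Type*} [NormedAddCommGroup W] [InnerProductSpace ℝ W]

theorem bound_of_basis {n : ℕ} (f : W [⋀^Fin n]→ₗ[ℝ] ℝ) (e : OrthonormalBasis (Fin n) ℝ W)
    (he : |f e| ≤ 1) (v : Fin n → W) : |f v| ≤ ∏ i, ‖v i‖ := by
  have hf : finrank ℝ W = n := by simpa using finrank_eq_card_basis e.toBasis
  have : Fact (finrank ℝ W = n) := ⟨hf⟩
  have h := f.eq_smul_basis_det e.toBasis
  have h2 : f v = f e * e.toBasis.det v := by
    conv_lhs => rw [h]
    simp [smul_eq_mul]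
  have h3 : |e.toBasis.det v| ≤ ∏ i, ‖v i‖ := by
    rw [← (e.toBasis.orientation).volumeForm_robust' e v]
    exact (e.toBasis.orientation).abs_volumeForm_apply_le v
  rw [h2, abs_mul]
  calc |f e| * |e.toBasis.det v| ≤ 1 * ∏ i, ‖v i‖ :=
        mul_le_mul he h3 (abs_nonneg _) zero_le_one
    _ = _ := one_mul _

end inner

/-- existence of a unit vector `e₂ ⟂ e₁` such that `S e₁` vanishes on `{e₁, e₂}^⟂`. -/
theorem exists_partner {W : Type*} [NormedAddCommGroup W] [InnerProductSpace ℝ W]
    [FiniteDimensional ℝ W] (S : Cov W) (e1 : W) (he1 : ‖e1‖ = 1) (hd : 2 ≤ finrank ℝ W) :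
    ∃ e2 : W, ‖e2‖ = 1 ∧ inner ℝ e1 e2 = 0 ∧
      ∀ x, inner ℝ e1 x = 0 → inner ℝ e2 x = 0 → S.b e1 x = 0 := by
  classical
  have : CompleteSpace W := FiniteDimensional.complete ℝ W
  let w : W := (InnerProductSpace.toDual ℝ W).symm (LinearMap.toContinuousLinearMap (S.b e1))
  have hw : ∀ x, inner ℝ w x = S.b e1 x := by
    intro x
    simp [w]
  by_cases hw0 : w = 0
  · -- any unit vector orthogonal to `e1`
    have h1 : finrank ℝ (Submodule.span ℝ {e1})ᗮ = finrank ℝ W - 1 := by
      have hne : e1 ≠ 0 := by
        intro h; rw [h, norm_zero] at he1; exact zero_ne_one he1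
      have := Submodule.finrank_add_finrank_orthogonal (Submodule.span ℝ {e1})
      rw [finrank_span_singleton hne] at this
      omega
    have h2 : 0 < finrank ℝ (Submodule.span ℝ {e1})ᗮ := by omega
    have := Module.finrank_pos_iff (R := ℝ).mp h2
    obtain ⟨y, hy⟩ := exists_ne (0 : (Submodule.span ℝ {e1})ᗮ)
    have hy0 : (y : W) ≠ 0 := by simpa using hy
    have hyo : inner ℝ e1 (y : W) = 0 :=
      Submodule.mem_orthogonal_singleton_iff_inner_right.mp y.2
    refine ⟨(‖(y : W)‖⁻¹ : ℝ) • (y : W), ?_, ?_, ?_⟩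
    · rw [norm_smul, norm_inv, norm_norm, inv_mul_cancel₀ (norm_ne_zero_iff.mpr hy0)]
    · rw [inner_smul_right, hyo, mul_zero]
    · intro x _ _
      rw [← hw, hw0, inner_zero_left]
  · refine ⟨(‖w‖⁻¹ : ℝ) • w, ?_, ?_, ?_⟩
    · rw [norm_smul, norm_inv, norm_norm, inv_mul_cancel₀ (norm_ne_zero_iff.mpr hw0)]
    · rw [inner_smul_right, real_inner_comm, hw, S.alt, mul_zero]
    · intro x _ h2
      rw [inner_smul_left] at h2
      have h3 : inner ℝ w x = 0 := by
        rcases mul_eq_zero.mp h2 with h | h
        · exfalso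
          simp only [conj_trivial, inv_eq_zero, norm_eq_zero] at h
          exact hw0 h
        · exact h
      rw [← hw, h3]

theorem om_le_fd (n : ℕ) : ∀ (W : Type u) [NormedAddCommGroup W] [InnerProductSpace ℝ W]
    [FiniteDimensional ℝ W] (S : Cov W) (_ : ∀ x y, |S.b x y| ≤ ‖x‖ * ‖y‖)
    (_ : finrank ℝ W = n) (v : Fin n → W), |om S n v| ≤ ∏ i, ‖v i‖ := by
  induction n using Nat.twoStepInduction with
  | zero =>
    intro W _ _ _ S _ _ v
    rw [om_apply]; simp
  | one =>
    intro W _ _ _ S _ _ v
    have : om S 1 v = 0 := by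
      rw [om_apply, List.ofFn_succ]
      simp only [List.ofFn_zero, List.prod_cons, List.prod_nil]
      rw [EE_fi_mul]; simp
    rw [this, abs_zero]
    exact Finset.prod_nonneg fun i _ => norm_nonneg _
  | more n ih _ =>
    intro W _ _ _ S hS hdim v
    -- unit vector
    have : Nontrivial W := by
      apply Module.nontrivial_of_finrank_pos (R := ℝ); omega
    obtain ⟨y, hy⟩ := exists_ne (0 : W)
    set e1 : W := (‖y‖⁻¹ : ℝ) • y with he1def
    have he1 : ‖e1‖ = 1 := by
      rw [he1def, norm_smul, norm_inv, norm_norm, inv_mul_cancel₀ (norm_ne_zero_iff.mpr hy)]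
    obtain ⟨e2, he2, h12, hker⟩ := exists_partner S e1 he1 (by omega)
    let P : Submodule ℝ W := Submodule.span ℝ (Set.range ![e1, e2])
    have hon : Orthonormal ℝ ![e1, e2] := by
      rw [orthonormal_iff_ite]
      intro i j
      have h21 : inner ℝ e2 e1 = 0 := by rw [real_inner_comm]; exact h12
      fin_cases i <;> fin_cases j <;>
        simp [h12, h21, he1, he2]
    have hP : finrank ℝ P = 2 := by
      have := finrank_span_eq_card hon.linearIndependent
      simpa using this
    have hPo : finrank ℝ Pᗮ = n := by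
      have := Submodule.finrank_add_finrank_orthogonal P
      omega
    -- orthonormal basis of the complement
    let b' : OrthonormalBasis (Fin n) ℝ Pᗮ :=
      (stdOrthonormalBasis ℝ Pᗮ).reindex (finCongr hPo)
    have hmem : ∀ x ∈ Pᗮ, inner ℝ e1 x = 0 ∧ inner ℝ e2 x = 0 := by
      intro x hx
      rw [Submodule.mem_orthogonal] at hx
      exact ⟨hx e1 (Submodule.subset_span ⟨0, rfl⟩), hx e2 (Submodule.subset_span ⟨1, rfl⟩)⟩
    let c : Fin (n + 2) → W :=
      (Fin.cons e1 (Fin.cons e2 (fun i => (b' i : W)) : Fin (n + 1) → W) : Fin (n + 2) → W)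
    have hc : Orthonormal ℝ c := by
      rw [orthonormal_iff_ite]
      intro i j
      have h21 : inner ℝ e2 e1 = 0 := by rw [real_inner_comm]; exact h12
      refine Fin.cases ?_ (fun i => ?_) i
      · refine Fin.cases ?_ (fun j => ?_) j
        · simp [c, he1]
        · refine Fin.cases ?_ (fun j => ?_) j
          · simp [c, h12]
          · simp [c, (hmem _ (b' j).2).1, (Fin.succ_ne_zero _).symm]
      · refine Fin.cases ?_ (fun j => ?_) j
        · refine Fin.cases ?_ (fun i => ?_) i
          · simp [c, h21]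
          · simp only [c, Fin.cons_succ, Fin.cons_zero]
            rw [real_inner_comm, (hmem _ (b' i).2).1]
            simp [Fin.succ_ne_zero]
        · refine Fin.cases ?_ (fun i => ?_) i
          · refine Fin.cases ?_ (fun j => ?_) j
            · simp [c, he2]
            · simp only [c, Fin.cons_succ, Fin.cons_zero]
              rw [(hmem _ (b' j).2).2, if_neg]
              intro h
              exact Fin.succ_ne_zero _ (Fin.succ_injective _ h).symm
          · refine Fin.cases ?_ (fun j => ?_) j
            · simp only [c, Fin.cons_succ, Fin.cons_zero]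
              rw [real_inner_comm, (hmem _ (b' i).2).2, if_neg]
              intro h
              exact Fin.succ_ne_zero _ (Fin.succ_injective _ h)
            · simp only [c, Fin.cons_succ]
              have := (orthonormal_iff_ite.mp b'.orthonormal) i j
              rw [Submodule.coe_inner] at this
              rw [this]
              simp
    have hcard : Fintype.card (Fin (n + 2)) = finrank ℝ W := by simp [hdim]
    let e : OrthonormalBasis (Fin (n + 2)) ℝ W :=
      OrthonormalBasis.mk hc (by
        rw [top_le_iff]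
        exact hc.linearIndependent.span_eq_top_of_card_eq_finrank' hcard)
    have hec : (e : Fin (n + 2) → W) = c := by simp [e]
    refine bound_of_basis (om S (n + 2)) e ?_ v
    rw [hec]
    have h5 : om S (n + 2) c = S.b e1 e2 * om S n (fun i => (b' i : W)) :=
      om_cons_cons S n e1 e2 _ (fun i => hker _ (hmem _ (b' i).2).1 (hmem _ (b' i).2).2)
    rw [h5, abs_mul]
    have h6 : |S.b e1 e2| ≤ 1 := by
      have := hS e1 e2
      rwa [he1, he2, mul_one] at this
    have h7 : |om S n (fun i => (b' i : W))| ≤ 1 := by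
      have := ih Pᗮ (comap S Pᗮ.subtype) (fun x y => hS _ _) hPo b'
      rw [om_comap] at this
      refine this.trans (le_of_eq ?_)
      apply Finset.prod_eq_one
      intro i _
      exact b'.orthonormal.1 i
    calc |S.b e1 e2| * |om S n (fun i => (b' i : W))| ≤ 1 * 1 :=
          mul_le_mul h6 h7 (abs_nonneg _) zero_le_one
      _ = 1 := one_mul _

/-- Gram-Hadamard in an inner product space of any dimension. -/
theorem om_le_inner {E : Type u} [NormedAddCommGroup E] [InnerProductSpace ℝ E] (S : Cov E)
    (hS : ∀ x y, |S.b x y| ≤ ‖x‖ * ‖y‖) (n : ℕ) (v : Fin n → E) :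
    |om S n v| ≤ ∏ i, ‖v i‖ := by
  by_cases hv : LinearIndependent ℝ v
  · let P : Submodule ℝ E := Submodule.span ℝ (Set.range v)
    have hP : finrank ℝ P = n := by simpa using finrank_span_eq_card hv
    have : FiniteDimensional ℝ P := FiniteDimensional.span_of_finite ℝ (Set.finite_range v)
    let v' : Fin n → P := fun i => ⟨v i, Submodule.subset_span ⟨i, rfl⟩⟩
    have := om_le_fd n P (comap S P.subtype) (fun x y => hS _ _) hP v'
    rw [om_comap] at this
    exact this
  · rw [(om S n).map_linearDependent v hv, abs_zero]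
    exact Finset.prod_nonneg fun i _ => norm_nonneg _

/-- Gram-Hadamard through a Gram representation `u : V → E`. -/
theorem om_le_gram {V : Type v} [AddCommGroup V] [Module ℝ V] {E : Type u} [NormedAddCommGroup E]
    [InnerProductSpace ℝ E] (S : Cov V) (g : V →ₗ[ℝ] E)
    (hS : ∀ x y, |S.b x y| ≤ ‖g x‖ * ‖g y‖) (n : ℕ) (v : Fin n → V) :
    |om S n v| ≤ ∏ i, ‖g (v i)‖ := by
  obtain ⟨s, hs⟩ := (g.rangeRestrict).exists_rightInverse_of_surjective
    (LinearMap.range_rangeRestrict g)
  have hs' : ∀ y : LinearMap.range g, g (s y) = y := by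
    intro y
    have := congrArg (fun f => (f y : LinearMap.range g)) hs
    exact congrArg Subtype.val this
  have key : ∀ x y, S.b x y = (comap (comap S s) g.rangeRestrict).b x y := by
    intro x y
    simp only [comap_b]
    set x' := s (g.rangeRestrict x)
    set y' := s (g.rangeRestrict y)
    have hx : g x' = g x := hs' (g.rangeRestrict x)
    have hy : g y' = g y := hs' (g.rangeRestrict y)
    have h1 : S.b (x - x') y = 0 := by
      have := hS (x - x') y
      rw [map_sub g, hx, sub_self, norm_zero, zero_mul] at this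
      exact abs_nonpos_iff.mp this
    have h2 : S.b x' (y - y') = 0 := by
      have := hS x' (y - y')
      rw [map_sub g, hy, sub_self, norm_zero, mul_zero] at this
      exact abs_nonpos_iff.mp this
    rw [map_sub, LinearMap.sub_apply] at h1
    rw [map_sub] at h2
    linarith
  have hSeq : S = comap (comap S s) g.rangeRestrict := by
    apply Cov.ext
    ext x y
    exact key x y
  have h3 : om S n v = om (comap S s) n (fun i => g.rangeRestrict (v i)) := by
    conv_lhs => rw [hSeq]
    rw [om_comap]
  rw [h3]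
  refine (om_le_inner (comap S s) ?_ n _).trans (le_of_eq ?_)
  · intro x y
    rw [comap_b]
    have := hS (s x) (s y)
    rw [hs', hs'] at this
    exact this
  · rfl

/-- Gram-Hadamard for a symmetric positive semidefinite form. -/
theorem om_le_form {V : Type v} [AddCommGroup V] [Module ℝ V] (S : Cov V)
    (B : LinearMap.BilinForm ℝ V) (hsymm : ∀ x y, B x y = B y x) (hpos : ∀ x, 0 ≤ B x x)
    (hS : ∀ x y, |S.b x y| ≤ √(B x x) * √(B y y)) (n : ℕ) (v : Fin n → V) :
    |om S n v| ≤ ∏ i, √(B (v i) (v i)) := by
  let c : PreInnerProductSpace.Core ℝ V :=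
    { inner := fun x y => B x y
      conj_inner_symm := fun x y => by simp [hsymm x y]
      re_inner_nonneg := fun x => by simpa using hpos x
      add_left := fun x y z => by simp
      smul_left := fun x y r => by simp }
  let : SeminormedAddCommGroup V := InnerProductSpace.Core.toSeminormedAddCommGroup (𝕜 := ℝ)
  let : InnerProductSpace ℝ V := InnerProductSpace.ofCore c
  have hn : ∀ x : V, ‖x‖ = √(B x x) := fun x => rfl
  let g : V →ₗ[ℝ] SeparationQuotient V := (SeparationQuotient.mkCLM ℝ V).toLinearMap
  have hg : ∀ x, ‖g x‖ = √(B x x) := by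
    intro x
    rw [← hn]
    exact SeparationQuotient.norm_mk x
  have := om_le_gram S g (fun x y => by rw [hg, hg]; exact hS x y) n v
  simpa only [hg] using this

/-- **Gram-Hadamard inequality**, list form. -/
theorem gram_hadamard {V : Type v} [AddCommGroup V] [Module ℝ V] (S : Cov V)
    (B : LinearMap.BilinForm ℝ V) (hsymm : ∀ x y, B x y = B y x) (hpos : ∀ x, 0 ≤ B x x)
    (hS : ∀ x y, |S.b x y| ≤ √(B x x) * √(B y y)) (l : List V) :
    |EE S (l.map fi).prod| ≤ (l.map fun x => √(B x x)).prod := by
  rw [om_list]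
  refine (om_le_form S B hsymm hpos hS _ _).trans (le_of_eq ?_)
  conv_rhs => rw [← List.ofFn_get l]
  rw [List.map_ofFn, List.prod_ofFn]
  rfl

end Crest.Agent.R165.GramHx439
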