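import Mathlib
import Crest.Agent.R165.FRDAbs_439
import Crest.Agent.R165.FRDPoly_439
import Crest.Agent.R165.GramH_439

/-!
# Row 165, block G: slices, Gram forms and dual weights on a pre-Hilbert space of fields

`V` any real vector space with a form `P : Pre V` (for instance finitely supported fields on an infinite
lattice), `A` antisymmetric for `P.ip`, `Q = -A²`.
* `SP hA p` the covariance `⟨x, A p(Q) y⟩`, `GP P A p c` its Gram form
* `slice D hA j`, `gform P D A j`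
* `restS`: the covariance `⟨x, S p(Q) y⟩` for `S = -A⁻¹`
* `RD P A a M l = sup {⟨l, f⟩ : ⟨f, (1 + a Q)^M f⟩ ≤ 1}`
-/

set_option autoImplicit false

noncomputable section

namespace Crest.Agent.R165.FRDInfx439

open Finset hiding slice
open Polynomial Crest.Agent.R165.FRDAbsx439 Crest.Agent.R165.FRDPolyx439
  Crest.Agent.R165.Gr0x606 Crest.Agent.R165.GramHx439

section cov

variable {V : Type*} [AddCommGroup V] [Module ℝ V] {P : Pre V} {A : V →ₗ[ℝ] V}

/-- the covariance `⟨x, A p(Q) y⟩` -/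
def SP (hA : Asy P A) (p : ℝ[X]) : Cov V where
  b := P.ip.compl₁₂ LinearMap.id (A ∘ₗ Polynomial.aeval (QA A) p)
  alt := by
    intro x
    show P.ip x (A (Polynomial.aeval (QA A) p x)) = 0
    have h1 : P.ip x (A (Polynomial.aeval (QA A) p x)) =
        -P.ip x (A (Polynomial.aeval (QA A) p x)) := by
      conv_lhs => rw [← neg_neg (P.ip x (A (Polynomial.aeval (QA A) p x))), ← hA,
        ← hA.sy.aeval p, ← A_aeval, P.symm]
    linarith

theorem SP_apply (hA : Asy P A) (p : ℝ[X]) (x y : V) :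
    (SP hA p).b x y = P.ip x (A (Polynomial.aeval (QA A) p y)) := rfl

theorem SP_eq_BP (hA : Asy P A) (p : ℝ[X]) (x y : V) :
    (SP hA p).b x y = BP P (QA A) p x (A y) := by
  rw [SP_apply, BP_apply, A_aeval]

theorem SP_add (hA : Asy P A) (p q : ℝ[X]) : SP hA (p + q) = SP hA p + SP hA q := by
  apply Cov.ext
  ext x y
  rw [Cov.add_b, LinearMap.add_apply, LinearMap.add_apply, SP_apply, SP_apply, SP_apply, map_add,
    LinearMap.add_apply, map_add, map_add]

theorem SP_zero (hA : Asy P A) : SP hA 0 = 0 := by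
  apply Cov.ext
  ext x y
  rw [SP_apply, map_zero]
  simp

theorem SP_sum {ι : Type*} (hA : Asy P A) (s : Finset ι) (p : ι → ℝ[X]) :
    SP hA (∑ j ∈ s, p j) = ∑ j ∈ s, SP hA (p j) := by
  classical
  induction s using Finset.induction_on with
  | empty => simp [SP_zero]
  | insert a s ha ih => rw [Finset.sum_insert ha, Finset.sum_insert ha, SP_add, ih]

/-- Gram form `(c⁻¹ p(Q) + c Q p(Q)) / 2` -/
def GP (P : Pre V) (A : V →ₗ[ℝ] V) (p : ℝ[X]) (c : ℝ) : LinearMap.BilinForm ℝ V :=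
  BP P (QA A) (C (1 / 2) * ((C c⁻¹ + C c * X) * p))

theorem GP_symm (hA : Asy P A) (p : ℝ[X]) (c : ℝ) (x y : V) : GP P A p c x y = GP P A p c y x :=
  BP_symm hA.sy _ x y

theorem GP_eq (p : ℝ[X]) (c : ℝ) (x y : V) :
    GP P A p c x y = 1 / 2 * (c⁻¹ * BP P (QA A) p x y + c * BP P (QA A) (X * p) x y) := by
  unfold GP
  rw [BP_smul]
  have : (C c⁻¹ + C c * X) * p = C c⁻¹ * p + C c * (X * p) := by ring
  rw [this, BP_add, BP_smul, BP_smul]

variable {a b : ℝ}

theorem GP_nonneg (hA : Asy P A) (h : ABtw P A a b) (ha : 0 ≤ a) (p : ℝ[X])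
    (hp : ∀ t, a ≤ t → t ≤ b → 0 ≤ p.eval t) (c : ℝ) (hc : 0 < c) (x : V) : 0 ≤ GP P A p c x x := by
  apply BP_nonneg hA.sy (h.btw hA)
  intro t h1 h2
  have h3 := hp t h1 h2
  have h4 : 0 ≤ t := ha.trans h1
  simp only [eval_mul, eval_C, eval_add, eval_X]
  positivity

theorem sqrt_mul_sqrt_le (a b c : ℝ) (ha : 0 ≤ a) (hb : 0 ≤ b) (hc : 0 < c) :
    √a * √b ≤ 1 / 2 * (c⁻¹ * a + c * b) := by
  have h1 : √a * √b = √(c⁻¹ * a) * √(c * b) := by
    rw [← Real.sqrt_mul ha, ← Real.sqrt_mul (by positivity)]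
    congr 1
    field_simp
  have h2 := two_mul_le_add_sq (√(c⁻¹ * a)) (√(c * b))
  rw [Real.sq_sqrt (by positivity), Real.sq_sqrt (by positivity)] at h2
  rw [h1]
  linarith

/-- **Gram bound of `A p(Q)`.** -/
theorem SP_le (hA : Asy P A) (h : ABtw P A a b) (ha : 0 ≤ a) (p : ℝ[X])
    (hp : ∀ t, a ≤ t → t ≤ b → 0 ≤ p.eval t) (c : ℝ) (hc : 0 < c) (x y : V) :
    |(SP hA p).b x y| ≤ √(GP P A p c x x) * √(GP P A p c y y) := by
  have hXp : ∀ t, a ≤ t → t ≤ b → 0 ≤ (X * p).eval t := fun t h1 h2 => by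
    rw [eval_mul, eval_X]; exact mul_nonneg (ha.trans h1) (hp t h1 h2)
  have key : ∀ x y : V, |(SP hA p).b x y| ≤
      √(BP P (QA A) p x x) * √(BP P (QA A) (X * p) y y) := by
    intro x y
    rw [SP_eq_BP, ← BP_A_A hA p y y]
    exact BP_abs_le hA.sy (h.btw hA) p hp x (A y)
  have h1 := key x y
  have h2 := key y x
  have h3 : |(SP hA p).b y x| = |(SP hA p).b x y| := by
    rw [Cov.skew, abs_neg]
  rw [h3] at h2
  set u := BP P (QA A) p x x
  set v := BP P (QA A) (X * p) x x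
  set u' := BP P (QA A) p y y
  set v' := BP P (QA A) (X * p) y y
  have hu : 0 ≤ u := BP_nonneg hA.sy (h.btw hA) p hp x
  have hv : 0 ≤ v := BP_nonneg hA.sy (h.btw hA) _ hXp x
  have hu' : 0 ≤ u' := BP_nonneg hA.sy (h.btw hA) p hp y
  have hv' : 0 ≤ v' := BP_nonneg hA.sy (h.btw hA) _ hXp y
  have h4 : |(SP hA p).b x y| ^ 2 ≤ (√u * √v) * (√u' * √v') := by
    calc |(SP hA p).b x y| ^ 2 = |(SP hA p).b x y| * |(SP hA p).b x y| := sq _
      _ ≤ (√u * √v') * (√u' * √v) := mul_le_mul h1 h2 (abs_nonneg _) (by positivity)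
      _ = (√u * √v) * (√u' * √v') := by ring
  have h5 : √u * √v ≤ GP P A p c x x := by
    rw [GP_eq]; exact sqrt_mul_sqrt_le u v c hu hv hc
  have h6 : √u' * √v' ≤ GP P A p c y y := by
    rw [GP_eq]; exact sqrt_mul_sqrt_le u' v' c hu' hv' hc
  have h7 : |(SP hA p).b x y| ^ 2 ≤ GP P A p c x x * GP P A p c y y :=
    h4.trans (mul_le_mul h5 h6 (by positivity) (GP_nonneg hA h ha p hp c hc x))
  rw [← Real.sqrt_mul (GP_nonneg hA h ha p hp c hc x)]
  exact Real.le_sqrt_of_sq_le h7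

/-- sum of finitely many covariances with Gram forms -/
theorem sum_cov_le {ι : Type*} (s : Finset ι) (S : ι → Cov V)
    (B : ι → LinearMap.BilinForm ℝ V) (hpos : ∀ j ∈ s, ∀ x, 0 ≤ B j x x)
    (hS : ∀ j ∈ s, ∀ x y, |(S j).b x y| ≤ √(B j x x) * √(B j y y)) (x y : V) :
    |(∑ j ∈ s, S j).b x y| ≤ √((∑ j ∈ s, B j) x x) * √((∑ j ∈ s, B j) y y) := by
  classical
  have hb : (∑ j ∈ s, S j).b x y = ∑ j ∈ s, (S j).b x y := by
    induction s using Finset.induction_on with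
    | empty => simp
    | insert a s ha ih =>
      rw [Finset.sum_insert ha, Finset.sum_insert ha, Cov.add_b, LinearMap.add_apply,
        LinearMap.add_apply, ih (fun j hj => hpos j (Finset.mem_insert_of_mem hj))
          (fun j hj => hS j (Finset.mem_insert_of_mem hj))]
  have hBx : ∀ z, (∑ j ∈ s, B j) z z = ∑ j ∈ s, B j z z := by
    intro z
    simp [LinearMap.sum_apply]
  rw [hb, hBx, hBx]
  have h1 : |∑ j ∈ s, (S j).b x y| ≤ ∑ j ∈ s, √(B j x x) * √(B j y y) :=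
    (Finset.abs_sum_le_sum_abs _ _).trans (Finset.sum_le_sum fun j hj => hS j hj x y)
  refine h1.trans ?_
  have h2 := Finset.sum_mul_sq_le_sq_mul_sq s (fun j => √(B j x x)) (fun j => √(B j y y))
  have h3 : ∀ z, ∑ j ∈ s, (√(B j z z)) ^ 2 = ∑ j ∈ s, B j z z := fun z =>
    Finset.sum_congr rfl fun j hj => Real.sq_sqrt (hpos j hj z)
  rw [h3, h3] at h2
  rw [← Real.sqrt_mul (Finset.sum_nonneg fun j hj => hpos j hj x)]
  exact Real.le_sqrt_of_sq_le h2

/-! ### slices -/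

variable {L : ℝ} {M K : ℕ} (D : FRD L M K)

/-- the slice covariance `S_j = A w_j(Q)` -/
def slice (hA : Asy P A) (j : ℕ) : Cov V := SP hA (D.w j)

/-- the Gram form of a slice, `(2^(-j) w_j(Q) + 2^j Q w_j(Q)) / 2` -/
def gform (P : Pre V) (D : FRD L M K) (A : V →ₗ[ℝ] V) (j : ℕ) : LinearMap.BilinForm ℝ V :=
  GP P A (D.w j) (2 ^ j)

theorem gform_symm (hA : Asy P A) (j : ℕ) (x y : V) : gform P D A j x y = gform P D A j y x :=
  GP_symm hA _ _ x y

theorem gform_nonneg (hA : Asy P A) (h : ABtw P A 0 L) (j : ℕ) (x : V) : 0 ≤ gform P D A j x x :=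
  GP_nonneg hA h le_rfl _ (D.w_nonneg j) _ (by positivity) x

theorem slice_le (hA : Asy P A) (h : ABtw P A 0 L) (j : ℕ) (x y : V) :
    |(slice D hA j).b x y| ≤ √(gform P D A j x x) * √(gform P D A j y y) :=
  SP_le hA h le_rfl _ (D.w_nonneg j) _ (by positivity) x y

theorem slices_le (hA : Asy P A) (h : ABtw P A 0 L) (s : Finset ℕ) (x y : V) :
    |(∑ j ∈ s, slice D hA j).b x y| ≤
      √((∑ j ∈ s, gform P D A j) x x) * √((∑ j ∈ s, gform P D A j) y y) :=
  sum_cov_le s _ _ (fun j _ => gform_nonneg D hA h j) (fun j _ => slice_le D hA h j) x y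

/-- Gram-Hadamard for a block of scales -/
theorem EE_slices_le (hA : Asy P A) (h : ABtw P A 0 L) (s : Finset ℕ) (l : List V) :
    |EE (∑ j ∈ s, slice D hA j) (l.map fi).prod| ≤
      (l.map fun x => √((∑ j ∈ s, gform P D A j) x x)).prod := by
  refine gram_hadamard _ (∑ j ∈ s, gform P D A j) ?_ ?_ (slices_le D hA h s) l
  · intro x y
    simp only [LinearMap.sum_apply]
    exact Finset.sum_congr rfl fun j _ => gform_symm D hA j x y
  · intro x
    simp only [LinearMap.sum_apply]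
    exact Finset.sum_nonneg fun j _ => gform_nonneg D hA h j x

/-! ### the inverse and the last covariance -/

/-- `S = -A⁻¹` on the space `V` -/
structure IsNegInv (A S : V →ₗ[ℝ] V) : Prop where
  right : ∀ x, A (S x) = -x
  left : ∀ x, S (A x) = -x

variable {S : V →ₗ[ℝ] V}

theorem IsNegInv.asy (hS : IsNegInv A S) (hA : Asy P A) : Asy P S := by
  intro x y
  have h1 : P.ip (S x) y = -P.ip (S x) (A (S y)) := by rw [hS.right, map_neg, neg_neg]
  have h2 := hA (S x) (S y)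
  rw [hS.right, map_neg, LinearMap.neg_apply] at h2
  linarith

theorem IsNegInv.comm_QA (hS : IsNegInv A S) (x : V) : S (QA A x) = QA A (S x) := by
  rw [QA_apply, QA_apply, map_neg, hS.left, hS.right, map_neg]

theorem IsNegInv.aeval (hS : IsNegInv A S) (p : ℝ[X]) (x : V) :
    S (Polynomial.aeval (QA A) p x) = Polynomial.aeval (QA A) p (S x) := by
  have hpow : ∀ (n : ℕ) (x : V), S ((QA A ^ n) x) = (QA A ^ n) (S x) := by
    intro n
    induction n with
    | zero => intro x; simp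
    | succ n ih =>
      intro x
      rw [pow_succ', Module.End.mul_apply, Module.End.mul_apply, hS.comm_QA, ih]
  rw [aeval_apply_sum (QA A) p le_rfl, aeval_apply_sum (QA A) p le_rfl, map_sum]
  exact Finset.sum_congr rfl fun k _ => by rw [map_smul, hpow]

/-- the covariance `⟨x, S p(Q) y⟩` -/
def restS (hA : Asy P A) (hS : IsNegInv A S) (p : ℝ[X]) : Cov V where
  b := P.ip.compl₁₂ LinearMap.id (S ∘ₗ Polynomial.aeval (QA A) p)
  alt := by
    intro x
    show P.ip x (S (Polynomial.aeval (QA A) p x)) = 0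
    have h1 : P.ip x (S (Polynomial.aeval (QA A) p x)) =
        -P.ip x (S (Polynomial.aeval (QA A) p x)) := by
      conv_lhs => rw [← neg_neg (P.ip x (S (Polynomial.aeval (QA A) p x))), ← hS.asy hA,
        ← hA.sy.aeval p, ← hS.aeval, P.symm]
    linarith

theorem restS_apply (hA : Asy P A) (hS : IsNegInv A S) (p : ℝ[X]) (x y : V) :
    (restS hA hS p).b x y = P.ip x (S (Polynomial.aeval (QA A) p y)) := rfl

/-- decomposition of the full covariance `S = -A⁻¹` -/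
theorem sum_slice_add_rest (hA : Asy P A) (hS : IsNegInv A S) (J : ℕ) :
    ∑ j ∈ range J, slice D hA j + restS hA hS (D.r J) = restS hA hS 1 := by
  unfold slice
  rw [← SP_sum]
  apply Cov.ext
  ext x y
  rw [Cov.add_b, LinearMap.add_apply, LinearMap.add_apply, SP_apply, restS_apply, restS_apply,
    ← map_add]
  congr 1
  have h1 : ∀ z, A z = S (QA A z) := by
    intro z
    rw [QA_apply, map_neg, hS.left, neg_neg]
  have h2 : QA A (Polynomial.aeval (QA A) (∑ j ∈ range J, D.w j) y) =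
      Polynomial.aeval (QA A) (X * ∑ j ∈ range J, D.w j) y := by
    rw [map_mul, aeval_X, Module.End.mul_apply]
  rw [h1, h2, D.X_mul_sum, ← map_add S, ← LinearMap.add_apply, ← map_add, sub_add_cancel]

/-- Gram bound of the last covariance: `|A v| ≥ m |v|` -/
theorem restS_le (hA : Asy P A) (hS : IsNegInv A S) {m : ℝ} (hm : 0 < m) (h : ABtw P A (m ^ 2) b)
    (p : ℝ[X]) (hp : ∀ t, m ^ 2 ≤ t → t ≤ b → 0 ≤ p.eval t) (x y : V) :
    |(restS hA hS p).b x y| ≤
      √((m⁻¹ • BP P (QA A) p) x x) * √((m⁻¹ • BP P (QA A) p) y y) := by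
  have h1 : (restS hA hS p).b x y = BP P (QA A) p x (S y) := by
    rw [restS_apply, BP_apply, hS.aeval]
  have h2 := BP_abs_le hA.sy (h.btw hA) p hp x (S y)
  have h3 : m ^ 2 * BP P (QA A) p (S y) (S y) ≤ BP P (QA A) p y y := by
    have h4 : BP P (QA A) p y y = BP P (QA A) (X * p) (S y) (S y) := by
      rw [← BP_A_A hA, hS.right]
      simp
    rw [h4, ← BP_smul]
    apply BP_mono hA.sy (h.btw hA)
    intro t h5 h6
    simp only [eval_mul, eval_C, eval_X]
    exact mul_le_mul_of_nonneg_right h5 (hp t h5 h6)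
  have hx := BP_nonneg hA.sy (h.btw hA) p hp x
  have hy := BP_nonneg hA.sy (h.btw hA) p hp y
  have hSy := BP_nonneg hA.sy (h.btw hA) p hp (S y)
  have h5 : √(BP P (QA A) p (S y) (S y)) ≤ m⁻¹ * √(BP P (QA A) p y y) := by
    have h6 : m⁻¹ * √(BP P (QA A) p y y) = √((m⁻¹) ^ 2 * BP P (QA A) p y y) := by
      rw [Real.sqrt_mul (by positivity), Real.sqrt_sq (by positivity)]
    rw [h6]
    apply Real.sqrt_le_sqrt
    rw [inv_pow, inv_mul_eq_div, le_div_iff₀ (by positivity)]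
    linarith
  rw [h1]
  simp only [LinearMap.smul_apply, smul_eq_mul]
  rw [Real.sqrt_mul (by positivity), Real.sqrt_mul (by positivity)]
  calc |BP P (QA A) p x (S y)| ≤ √(BP P (QA A) p x x) * (m⁻¹ * √(BP P (QA A) p y y)) :=
        h2.trans (mul_le_mul_of_nonneg_left h5 (Real.sqrt_nonneg _))
    _ = (√m⁻¹ * √m⁻¹) * (√(BP P (QA A) p x x) * √(BP P (QA A) p y y)) := by
        rw [Real.mul_self_sqrt (by positivity)]; ring
    _ = _ := by ring

theorem EE_restS_le (hA : Asy P A) (hS : IsNegInv A S) {m : ℝ} (hm : 0 < m)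
    (h : ABtw P A (m ^ 2) b) (p : ℝ[X]) (hp : ∀ t, m ^ 2 ≤ t → t ≤ b → 0 ≤ p.eval t) (l : List V) :
    |EE (restS hA hS p) (l.map fi).prod| ≤ (l.map fun x => √((m⁻¹ • BP P (QA A) p) x x)).prod := by
  refine gram_hadamard _ (m⁻¹ • BP P (QA A) p) ?_ ?_ (restS_le hA hS hm h p hp) l
  · intro x y
    simp only [LinearMap.smul_apply]
    rw [BP_symm hA.sy]
  · intro x
    simp only [LinearMap.smul_apply, smul_eq_mul]
    have := BP_nonneg hA.sy (h.btw hA) p hp x
    positivity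

/-! ### dual weights -/

/-- the dual weight `sup {⟨l, f⟩ : ⟨f, (1 + a Q)^M f⟩ ≤ 1}` -/
def RD (P : Pre V) (A : V →ₗ[ℝ] V) (a : ℝ) (M : ℕ) (l : V) : ℝ :=
  sSup {r | ∃ f, BP P (QA A) (opl a M) f f ≤ 1 ∧ r = P.ip l f}

theorem ip_le_opl (hA : Asy P A) {a : ℝ} (ha : 0 ≤ a) (M : ℕ) (f : V) :
    P.ip f f ≤ BP P (QA A) (opl a M) f f := by
  rw [BP_opl hA, Finset.sum_range_succ']
  have h1 : 0 ≤ ∑ n ∈ range M, (M.choose (n + 1) : ℝ) * a ^ (n + 1) *
      P.ip ((A ^ (n + 1)) f) ((A ^ (n + 1)) f) :=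
    Finset.sum_nonneg fun n _ => mul_nonneg (by positivity) (P.nonneg _)
  simpa using h1

theorem opl_nonneg (hA : Asy P A) {a : ℝ} (ha : 0 ≤ a) (M : ℕ) (f : V) :
    0 ≤ BP P (QA A) (opl a M) f f := (P.nonneg f).trans (ip_le_opl hA ha M f)

theorem ip_abs_le (P : Pre V) (x y : V) : |P.ip x y| ≤ √(P.ip x x) * √(P.ip y y) :=
  form_abs_le P.ip P.symm P.nonneg x y

theorem RD_bddAbove (hA : Asy P A) {a : ℝ} (ha : 0 ≤ a) (M : ℕ) (l : V) :
    BddAbove {r | ∃ f, BP P (QA A) (opl a M) f f ≤ 1 ∧ r = P.ip l f} := by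
  refine ⟨√(P.ip l l), ?_⟩
  rintro r ⟨f, hf, rfl⟩
  have h1 := ip_abs_le P l f
  have h2 : √(P.ip f f) ≤ 1 := by
    rw [Real.sqrt_le_one]
    exact (ip_le_opl hA ha M f).trans hf
  calc P.ip l f ≤ |P.ip l f| := le_abs_self _
    _ ≤ √(P.ip l l) * √(P.ip f f) := h1
    _ ≤ √(P.ip l l) * 1 := mul_le_mul_of_nonneg_left h2 (Real.sqrt_nonneg _)
    _ = _ := mul_one _

theorem RD_nonempty (P : Pre V) (A : V →ₗ[ℝ] V) (a : ℝ) (M : ℕ) (l : V) :
    {r | ∃ f, BP P (QA A) (opl a M) f f ≤ 1 ∧ r = P.ip l f}.Nonempty :=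
  ⟨0, 0, by simp, by simp⟩

theorem RD_nonneg (hA : Asy P A) {a : ℝ} (ha : 0 ≤ a) (M : ℕ) (l : V) : 0 ≤ RD P A a M l :=
  le_csSup (RD_bddAbove hA ha M l) ⟨0, by simp, by simp⟩

theorem RD_le_of (P : Pre V) (A : V →ₗ[ℝ] V) {a : ℝ} {M : ℕ} {l : V} {c : ℝ}
    (h : ∀ f, BP P (QA A) (opl a M) f f ≤ 1 → P.ip l f ≤ c) : RD P A a M l ≤ c := by
  apply csSup_le (RD_nonempty P A a M l)
  rintro r ⟨f, hf, rfl⟩
  exact h f hf

/-- duality inequality -/
theorem ip_le_RD (hA : Asy P A) {a : ℝ} (ha : 0 ≤ a) (M : ℕ) (l f : V) :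
    |P.ip l f| ≤ RD P A a M l * √(BP P (QA A) (opl a M) f f) := by
  have key : ∀ f : V, P.ip l f ≤ RD P A a M l * √(BP P (QA A) (opl a M) f f) := by
    intro f
    rcases (opl_nonneg hA ha M f).eq_or_lt with h0 | h0
    · have h1 : P.ip f f = 0 :=
        le_antisymm (h0 ▸ ip_le_opl hA ha M f) (P.nonneg f)
      have h2 : f = 0 := by
        by_contra hne
        exact (P.pos f hne).ne' h1
      rw [h2]; simp
    · set B := BP P (QA A) (opl a M) f f
      have hB : 0 < √B := Real.sqrt_pos.mpr h0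
      have h1 : P.ip l ((√B)⁻¹ • f) ≤ RD P A a M l := by
        apply le_csSup (RD_bddAbove hA ha M l)
        refine ⟨(√B)⁻¹ • f, ?_, rfl⟩
        simp only [map_smul, LinearMap.smul_apply, smul_eq_mul]
        have h3 : (√B)⁻¹ * ((√B)⁻¹ * B) = 1 := by
          field_simp
          rw [Real.sq_sqrt h0.le]
        exact h3.le
      rw [map_smul, smul_eq_mul, inv_mul_eq_div, div_le_iff₀ hB] at h1
      exact h1
  rw [abs_le]
  constructor
  · have h := key (-f)
    simp only [map_neg, LinearMap.neg_apply, neg_neg] at h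
    linarith
  · exact key f

theorem RD_le_of' (_hA : Asy P A) {a : ℝ} (_ha : 0 ≤ a) {M : ℕ} {l : V} {c : ℝ} (hc : 0 ≤ c)
    (h : ∀ f, P.ip l f ≤ c * √(BP P (QA A) (opl a M) f f)) : RD P A a M l ≤ c := by
  apply RD_le_of
  intro f hf
  refine (h f).trans ?_
  have : √(BP P (QA A) (opl a M) f f) ≤ 1 := Real.sqrt_le_one.mpr hf
  calc c * √(BP P (QA A) (opl a M) f f) ≤ c * 1 := mul_le_mul_of_nonneg_left this hc
    _ = c := mul_one c

theorem RD_add_le (hA : Asy P A) {a : ℝ} (ha : 0 ≤ a) (M : ℕ) (l l' : V) :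
    RD P A a M (l + l') ≤ RD P A a M l + RD P A a M l' := by
  apply RD_le_of
  intro f hf
  rw [map_add, LinearMap.add_apply]
  exact add_le_add (le_csSup (RD_bddAbove hA ha M l) ⟨f, hf, rfl⟩)
    (le_csSup (RD_bddAbove hA ha M l') ⟨f, hf, rfl⟩)

theorem RD_smul (hA : Asy P A) {a : ℝ} (ha : 0 ≤ a) (M : ℕ) (c : ℝ) (l : V) :
    RD P A a M (c • l) = |c| * RD P A a M l := by
  have key : ∀ (c : ℝ) (l : V), RD P A a M (c • l) ≤ |c| * RD P A a M l := by
    intro c l
    apply RD_le_of' hA ha (mul_nonneg (abs_nonneg _) (RD_nonneg hA ha M l))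
    intro f
    rw [map_smul, LinearMap.smul_apply, smul_eq_mul, mul_assoc]
    calc c * P.ip l f ≤ |c * P.ip l f| := le_abs_self _
      _ = |c| * |P.ip l f| := abs_mul _ _
      _ ≤ _ := mul_le_mul_of_nonneg_left (ip_le_RD hA ha M l f) (abs_nonneg _)
  apply le_antisymm (key c l)
  by_cases hc : c = 0
  · subst hc
    simp only [abs_zero, zero_mul]
    exact RD_nonneg hA ha M _
  · have h := key c⁻¹ (c • l)
    rw [smul_smul, inv_mul_cancel₀ hc, one_smul, abs_inv] at h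
    have h2 : 0 < |c| := abs_pos.mpr hc
    rwa [inv_mul_eq_div, le_div_iff₀ h2, mul_comm] at h

theorem RD_zero (hA : Asy P A) {a : ℝ} (ha : 0 ≤ a) (M : ℕ) : RD P A a M (0 : V) = 0 := by
  have := RD_smul hA ha M 0 (0 : V)
  simpa using this

theorem RD_neg (hA : Asy P A) {a : ℝ} (ha : 0 ≤ a) (M : ℕ) (l : V) :
    RD P A a M (-l) = RD P A a M l := by
  have := RD_smul hA ha M (-1) l
  simpa using this

theorem RD_sub_le (hA : Asy P A) {a : ℝ} (ha : 0 ≤ a) (M : ℕ) (l l' : V) :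
    RD P A a M (l - l') ≤ RD P A a M l + RD P A a M l' := by
  rw [sub_eq_add_neg]
  refine (RD_add_le hA ha M _ _).trans ?_
  rw [RD_neg hA ha]

theorem RD_le_norm (hA : Asy P A) {a : ℝ} (ha : 0 ≤ a) (M : ℕ) (l : V) :
    RD P A a M l ≤ √(P.ip l l) := by
  apply RD_le_of' hA ha (Real.sqrt_nonneg _)
  intro f
  refine (le_abs_self _).trans ((ip_abs_le P l f).trans ?_)
  exact mul_le_mul_of_nonneg_left (Real.sqrt_le_sqrt (ip_le_opl hA ha M f)) (Real.sqrt_nonneg _)

/-- comparison of two dual weights through a comparison of the test forms -/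
theorem RD_compare (hA : Asy P A) {a a' : ℝ} (ha : 0 ≤ a) (ha' : 0 ≤ a') {M M' : ℕ} {c : ℝ} (hc : 0 ≤ c)
    (h : ∀ f, BP P (QA A) (opl a' M') f f ≤ c ^ 2 * BP P (QA A) (opl a M) f f) (l : V) :
    RD P A a M l ≤ c * RD P A a' M' l := by
  apply RD_le_of' hA ha (mul_nonneg hc (RD_nonneg hA ha' M' l))
  intro f
  refine (le_abs_self _).trans ((ip_le_RD hA ha' M' l f).trans ?_)
  have h1 : √(BP P (QA A) (opl a' M') f f) ≤ c * √(BP P (QA A) (opl a M) f f) := by
    have h2 : c * √(BP P (QA A) (opl a M) f f) = √(c ^ 2 * BP P (QA A) (opl a M) f f) := by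
      rw [Real.sqrt_mul (by positivity), Real.sqrt_sq hc]
    rw [h2]
    exact Real.sqrt_le_sqrt (h f)
  calc RD P A a' M' l * √(BP P (QA A) (opl a' M') f f)
      ≤ RD P A a' M' l * (c * √(BP P (QA A) (opl a M) f f)) :=
        mul_le_mul_of_nonneg_left h1 (RD_nonneg hA ha' M' l)
    _ = _ := by ring

theorem RD_anti (hA : Asy P A) {a a' : ℝ} (ha : 0 ≤ a) (haa : a ≤ a') (M : ℕ) (l : V) :
    RD P A a' M l ≤ RD P A a M l := by
  have h := RD_compare hA (ha.trans haa) ha (M := M) (M' := M) (c := 1) zero_le_one (fun f => by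
    rw [one_pow, one_mul, BP_opl hA, BP_opl hA]
    apply Finset.sum_le_sum
    intro n _
    apply mul_le_mul_of_nonneg_right _ (P.nonneg _)
    apply mul_le_mul_of_nonneg_left _ (by positivity)
    exact pow_le_pow_left₀ ha haa n) l
  rwa [one_mul] at h

theorem RD_scale (hA : Asy P A) {a a' : ℝ} (ha : 0 < a) (haa : a ≤ a') (M : ℕ) (l : V) :
    RD P A a M l ≤ √((a' / a) ^ M) * RD P A a' M l := by
  have ha' : 0 < a' := ha.trans_le haa
  apply RD_compare hA ha.le ha'.le (Real.sqrt_nonneg _)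
  intro f
  rw [Real.sq_sqrt (by positivity), BP_opl hA, BP_opl hA, Finset.mul_sum]
  apply Finset.sum_le_sum
  intro n hn
  have hn' : n ≤ M := Nat.lt_succ_iff.mp (Finset.mem_range.mp hn)
  have h1 : a' ^ n ≤ (a' / a) ^ M * a ^ n := by
    have h2 : a' ^ n = (a' / a) ^ n * a ^ n := by
      rw [← mul_pow, div_mul_cancel₀ _ ha.ne']
    rw [h2]
    apply mul_le_mul_of_nonneg_right _ (by positivity)
    apply pow_le_pow_right₀ _ hn'
    rw [one_le_div ha]; exact haa
  calc (M.choose n : ℝ) * a' ^ n * P.ip ((A ^ n) f) ((A ^ n) f)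
      ≤ (M.choose n : ℝ) * ((a' / a) ^ M * a ^ n) * P.ip ((A ^ n) f) ((A ^ n) f) := by
        apply mul_le_mul_of_nonneg_right _ (P.nonneg _)
        exact mul_le_mul_of_nonneg_left h1 (by positivity)
    _ = _ := by ring

theorem RD_pow_anti (hA : Asy P A) {a : ℝ} (ha : 0 ≤ a) {M M' : ℕ} (hM : M ≤ M') (l : V) :
    RD P A a M' l ≤ RD P A a M l := by
  have h := RD_compare hA ha ha (M := M') (M' := M) (c := 1) zero_le_one (fun f => by
    rw [one_pow, one_mul, BP_opl hA, BP_opl hA]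
    have h1 : ∀ n, 0 ≤ a ^ n * P.ip ((A ^ n) f) ((A ^ n) f) := fun n =>
      mul_nonneg (by positivity) (P.nonneg _)
    calc ∑ n ∈ range (M + 1), (M.choose n : ℝ) * a ^ n * P.ip ((A ^ n) f) ((A ^ n) f)
        ≤ ∑ n ∈ range (M + 1), (M'.choose n : ℝ) * a ^ n * P.ip ((A ^ n) f) ((A ^ n) f) := by
          apply Finset.sum_le_sum
          intro n _
          rw [mul_assoc, mul_assoc]
          apply mul_le_mul_of_nonneg_right _ (h1 n)
          exact_mod_cast Nat.choose_le_choose n hM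
      _ ≤ _ := by
          apply Finset.sum_le_sum_of_subset_of_nonneg
          · exact Finset.range_mono (by omega)
          · intro n _ _
            rw [mul_assoc]
            exact mul_nonneg (by positivity) (h1 n)) l
  rwa [one_mul] at h

/-- a form `⟨l, g(Q) l⟩` against the dual weight, when `g (1 + a t)^M ≤ c` -/
theorem BP_le_RD (hA : Asy P A) {b₀ b : ℝ} (h : ABtw P A b₀ b) {a : ℝ} (ha : 0 ≤ a) {M : ℕ}
    (g : ℝ[X]) {c : ℝ} (hc : 0 ≤ c) (hg : ∀ t, b₀ ≤ t → t ≤ b → 0 ≤ g.eval t)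
    (hgc : ∀ t, b₀ ≤ t → t ≤ b → g.eval t * (1 + a * t) ^ M ≤ c) (l : V) :
    BP P (QA A) g l l ≤ c * RD P A a M l ^ 2 := by
  set G := BP P (QA A) g l l with hG
  have hG0 : 0 ≤ G := BP_nonneg hA.sy (h.btw hA) g hg l
  let f := Polynomial.aeval (QA A) g l
  have h1 : P.ip l f = G := rfl
  have h2 : BP P (QA A) (opl a M) f f ≤ c * G := by
    rw [BP_aeval_left hA.sy, BP_aeval_right, hG, ← BP_smul]
    apply BP_mono hA.sy (h.btw hA)
    intro t h3 h4
    simp only [eval_mul, eval_C, opl_eval]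
    exact mul_le_mul_of_nonneg_right (hgc t h3 h4) (hg t h3 h4)
  have h3 := ip_le_RD hA ha M l f
  rw [h1, abs_of_nonneg hG0] at h3
  have hR := RD_nonneg hA ha M l
  have h4 : G ≤ RD P A a M l * √(c * G) :=
    h3.trans (mul_le_mul_of_nonneg_left (Real.sqrt_le_sqrt h2) hR)
  rcases hG0.eq_or_lt with h0 | h0
  · rw [← h0]; positivity
  · have h5 : G ^ 2 ≤ RD P A a M l ^ 2 * (c * G) := by
      calc G ^ 2 ≤ (RD P A a M l * √(c * G)) ^ 2 := pow_le_pow_left₀ hG0 h4 2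
        _ = _ := by rw [mul_pow, Real.sq_sqrt (by positivity)]
    nlinarith

/-- the Gram form of a slice against the dual weight -/
theorem gform_le (hA : Asy P A) (h : ABtw P A 0 L) {M' : ℕ} (hM : M' + 1 ≤ M) (j : ℕ) (l : V) :
    gform P D A j l l ≤ D.C * 2 ^ j * RD P A (4 ^ j) M' l ^ 2 := by
  have hC := D.C_pos
  apply BP_le_RD hA h (by positivity) _ (by positivity)
  · intro t h1 h2
    have := D.w_nonneg j t h1 h2
    simp only [eval_mul, eval_C, eval_add, eval_X]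
    positivity
  · intro t h1 h2
    simp only [eval_mul, eval_C, eval_add, eval_X]
    have h3 := D.w_le j _ h1 h2
    have h4 := D.w_nonneg j _ h1 h2
    have h0 : (0 : ℝ) ≤ 4 ^ j * t := by positivity
    have h5 : ((2 : ℝ) ^ j)⁻¹ + 2 ^ j * t = ((2 : ℝ) ^ j)⁻¹ * (1 + 4 ^ j * t) := by
      have : (4 : ℝ) ^ j = 2 ^ j * 2 ^ j := by
        rw [← mul_pow]; norm_num
      rw [this]; field_simp
    have h6 : (1 + 4 ^ j * t) ^ (M' + 1) ≤ (1 + 4 ^ j * t) ^ M :=
      pow_le_pow_right₀ (by linarith) hM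
    have h7 : (D.w j).eval t * (1 + 4 ^ j * t) ^ (M' + 1) ≤ D.C * 4 ^ j :=
      (mul_le_mul_of_nonneg_left h6 h4).trans h3
    rw [h5]
    calc 1 / 2 * (((2 : ℝ) ^ j)⁻¹ * (1 + 4 ^ j * t) * (D.w j).eval t) * (1 + 4 ^ j * t) ^ M'
        = 1 / 2 * ((2 : ℝ) ^ j)⁻¹ * ((D.w j).eval t * (1 + 4 ^ j * t) ^ (M' + 1)) := by ring
      _ ≤ 1 / 2 * ((2 : ℝ) ^ j)⁻¹ * (D.C * 4 ^ j) := by
          apply mul_le_mul_of_nonneg_left h7; positivity
      _ = 1 / 2 * (D.C * 2 ^ j) := by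
          have : (4 : ℝ) ^ j = 2 ^ j * 2 ^ j := by
            rw [← mul_pow]; norm_num
          rw [this]; field_simp
      _ ≤ D.C * 2 ^ j := by
          have : 0 < D.C * 2 ^ j := mul_pos D.C_pos (by positivity)
          linarith

/-- sum of the Gram forms over a block of scales `k ≤ j < k'`, in terms of the weight at scale `k` -/
theorem sum_gform_le (hA : Asy P A) (h : ABtw P A 0 L) {M' : ℕ} (hM : M' + 1 ≤ M) (k k' : ℕ)
    (l : V) :
    (∑ j ∈ Finset.Ico k k', gform P D A j) l l ≤ D.C * 2 ^ k' * RD P A (4 ^ k) M' l ^ 2 := by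
  have hC := D.C_pos
  simp only [LinearMap.sum_apply]
  have h1 : ∀ j ∈ Finset.Ico k k', gform P D A j l l ≤ D.C * RD P A (4 ^ k) M' l ^ 2 * 2 ^ j := by
    intro j hj
    have hj' := Finset.mem_Ico.mp hj
    refine (gform_le D hA h hM j l).trans ?_
    have h2 : RD P A (4 ^ j) M' l ≤ RD P A (4 ^ k) M' l :=
      RD_anti hA (by positivity) (pow_le_pow_right₀ (by norm_num) hj'.1) M' l
    have h3 : RD P A (4 ^ j) M' l ^ 2 ≤ RD P A (4 ^ k) M' l ^ 2 :=
      pow_le_pow_left₀ (RD_nonneg hA (by positivity) M' l) h2 2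
    calc D.C * 2 ^ j * RD P A (4 ^ j) M' l ^ 2 ≤ D.C * 2 ^ j * RD P A (4 ^ k) M' l ^ 2 :=
          mul_le_mul_of_nonneg_left h3 (by positivity)
      _ = _ := by ring
  refine (Finset.sum_le_sum h1).trans ?_
  rw [← Finset.mul_sum]
  have h4 : ∑ j ∈ Finset.Ico k k', (2 : ℝ) ^ j ≤ 2 ^ k' := by
    have h5 : ∑ j ∈ Finset.Ico k k', (2 : ℝ) ^ j ≤ ∑ j ∈ Finset.range k', (2 : ℝ) ^ j := by
      apply Finset.sum_le_sum_of_subset_of_nonneg
      · intro j hj
        exact Finset.mem_range.mpr (Finset.mem_Ico.mp hj).2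
      · intro j _ _; positivity
    refine h5.trans ?_
    have := geom_sum_eq (x := (2 : ℝ)) (by norm_num) k'
    rw [this]
    have : (0 : ℝ) < 2 ^ k' := by positivity
    linarith
  calc D.C * RD P A (4 ^ k) M' l ^ 2 * ∑ j ∈ Finset.Ico k k', (2 : ℝ) ^ j
      ≤ D.C * RD P A (4 ^ k) M' l ^ 2 * 2 ^ k' := mul_le_mul_of_nonneg_left h4 (by positivity)
    _ = _ := by ring

/-- the Gram form of the last covariance against the dual weight -/
theorem rest_form_le (hA : Asy P A) {m : ℝ} (hm : 0 < m) (h : ABtw P A (m ^ 2) L) (J : ℕ) (l : V) :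
    (m⁻¹ • BP P (QA A) (D.r J)) l l ≤ D.C / m * RD P A (4 ^ J) M l ^ 2 := by
  have hC := D.C_pos
  have h0 : 0 ≤ m ^ 2 := by positivity
  have h1 := BP_le_RD hA h (a := 4 ^ J) (by positivity) (M := M) (D.r J) hC.le
    (fun t h1 h2 => D.r_nonneg J t (h0.trans h1) h2)
    (fun t h1 h2 => D.r_le J t (h0.trans h1) h2) l
  simp only [LinearMap.smul_apply, smul_eq_mul]
  calc m⁻¹ * BP P (QA A) (D.r J) l l ≤ m⁻¹ * (D.C * RD P A (4 ^ J) M l ^ 2) :=
        mul_le_mul_of_nonneg_left h1 (by positivity)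
    _ = _ := by rw [div_eq_mul_inv]; ring

end cov

end Crest.Agent.R165.FRDInfx439
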