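import Crest.Agent.R165.GDef_387
import Crest.Agent.R165.FRDInf_439

/-!
# Row 165, block G: the slices on the half-edge lattice

Bridge between the abstract finite range decomposition (`FRDInf_439`) and the frozen definitions of
`Lat_683` / `GDef_387`.
-/

set_option autoImplicit false
set_option linter.unusedSectionVars false

noncomputable section

namespace Crest.Agent.R165.FRDLatx439

open scoped ENNReal
open Polynomial Crest.Agent.R165.Gr0x606 Crest.Agent.R165.Latx683 Crest.Agent.R165.PNormx417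
  Crest.Agent.R165.GDefx387 Crest.Agent.R165.FRDAbsx439 Crest.Agent.R165.FRDPolyx439
  Crest.Agent.R165.FRDInfx439

/-! ### dot product of finitely supported functions -/

/-- dot product -/
def dotF (ι : Type*) : LinearMap.BilinForm ℝ (ι →₀ ℝ) :=
  LinearMap.mk₂ ℝ (fun x y => x.sum fun i c => c * y i)
    (fun x x' y => Finsupp.sum_add_index' (by simp) (by intro i b c; ring))
    (fun c x y => by
      rw [Finsupp.sum_smul_index (by simp), Finsupp.smul_sum]
      exact Finset.sum_congr rfl fun i _ => by simp only [smul_eq_mul]; ring)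
    (fun x y y' => by
      rw [← Finsupp.sum_add]
      exact Finset.sum_congr rfl fun i _ => by simp only [Finsupp.add_apply]; ring)
    (fun c x y => by
      rw [Finsupp.smul_sum]
      exact Finset.sum_congr rfl fun i _ => by simp only [Finsupp.smul_apply, smul_eq_mul]; ring)

theorem dotF_apply {ι : Type*} (x y : ι →₀ ℝ) : dotF ι x y = x.sum fun i c => c * y i := rfl

theorem dotF_eq_sum {ι : Type*} (x y : ι →₀ ℝ) (s : Finset ι) (hs : x.support ⊆ s) :
    dotF ι x y = ∑ i ∈ s, x i * y i := by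
  rw [dotF_apply, Finsupp.sum]
  apply Finset.sum_subset hs
  intro i _ hi
  rw [Finsupp.notMem_support_iff.mp hi, zero_mul]

theorem dotF_symm {ι : Type*} (x y : ι →₀ ℝ) : dotF ι x y = dotF ι y x := by
  classical
  rw [dotF_eq_sum x y (x.support ∪ y.support) Finset.subset_union_left,
    dotF_eq_sum y x (x.support ∪ y.support) Finset.subset_union_right]
  exact Finset.sum_congr rfl fun i _ => mul_comm _ _

/-- the pre-Hilbert structure -/
def preF (ι : Type*) : Pre (ι →₀ ℝ) where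
  ip := dotF ι
  symm := dotF_symm
  pos x hx := by
    rw [dotF_eq_sum x x x.support (Finset.Subset.refl _)]
    apply Finset.sum_pos'
    · intro i _; exact mul_self_nonneg _
    · obtain ⟨i, hi⟩ := Finsupp.support_nonempty_iff.mpr hx
      exact ⟨i, hi, mul_self_pos.mpr (Finsupp.mem_support_iff.mp hi)⟩

theorem preF_ip {ι : Type*} (x y : ι →₀ ℝ) : (preF ι).ip x y = dotF ι x y := rfl

theorem dotF_single {ι : Type*} (i : ι) (c : ℝ) (y : ι →₀ ℝ) : dotF ι (Finsupp.single i c) y = c * y i := by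
  rw [dotF_apply, Finsupp.sum_single_index (by simp)]

/-! ### the operator on finitely supported fields -/

section lattice

variable {G : Type} [CommRing G]

theorem Aop_S_N (w : BW G) (φ : HE G → ℝ) (f : G × G) : Aop w φ (f, 2) =
    -φ (f, 0) + -φ (f, 1) + φ (f, 3) + yN w f * -φ ((f.1, f.2 + 1), 0) := by
  rw [Aop_N]; ring

theorem Aop_S_W (w : BW G) (φ : HE G → ℝ) (f : G × G) : Aop w φ (f, 3) =
    -φ (f, 0) + -φ (f, 1) + -φ (f, 2) + yE w (f.1 - 1, f.2) * -φ ((f.1 - 1, f.2), 1) := by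
  rw [Aop_W]; ring

/-- the neighbours of a face and the face itself -/
def nb5 (f : G × G) : Set (G × G) :=
  {f, (f.1 + 1, f.2), (f.1 - 1, f.2), (f.1, f.2 + 1), (f.1, f.2 - 1)}

theorem nb5_finite (f : G × G) : (nb5 f).Finite := by unfold nb5; exact Set.toFinite _

theorem nb5_symm {f g : G × G} (h : g ∈ nb5 f) : f ∈ nb5 g := by
  unfold nb5 at *
  simp only [Set.mem_insert_iff, Set.mem_singleton_iff] at *
  rcases h with rfl | rfl | rfl | rfl | rfl
  · simp
  · right; right; left; simp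
  · right; left; simp
  · right; right; right; right; simp
  · right; right; right; left; simp

/-- locality of `Aop`: it only sees the half-edges of the neighbouring faces -/
theorem Aop_eq_zero_of (w : BW G) (φ : HE G → ℝ) (h : HE G)
    (h0 : ∀ h' : HE G, h'.1 ∈ nb5 h.1 → φ h' = 0) : Aop w φ h = 0 := by
  obtain ⟨f, d⟩ := h
  have e0 : ∀ d', φ (f, d') = 0 := fun d' => h0 (f, d') (by simp [nb5])
  have e1 : ∀ d', φ ((f.1 + 1, f.2), d') = 0 := fun d' => h0 _ (by simp [nb5])
  have e2 : ∀ d', φ ((f.1 - 1, f.2), d') = 0 := fun d' => h0 _ (by simp [nb5])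
  have e3 : ∀ d', φ ((f.1, f.2 + 1), d') = 0 := fun d' => h0 _ (by simp [nb5])
  have e4 : ∀ d', φ ((f.1, f.2 - 1), d') = 0 := fun d' => h0 _ (by simp [nb5])
  rw [Aop_apply]
  fin_cases d <;> simp [Arow, e0, e1, e2, e3, e4]

theorem Aop_finite (w : BW G) (l : Fld G) : (Function.support (Aop w (l : HE G → ℝ))).Finite := by
  have h1 : (⋃ h ∈ (l.support : Set (HE G)), (nb5 h.1) ×ˢ (Set.univ : Set (Fin 4))).Finite :=
    Set.Finite.biUnion l.support.finite_toSet fun h _ => (nb5_finite h.1).prod Set.finite_univ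
  apply h1.subset
  intro h hh
  by_contra hc
  apply hh
  apply Aop_eq_zero_of
  intro h' hh'
  by_contra hne
  apply hc
  simp only [Set.mem_iUnion]
  exact ⟨h', Finsupp.mem_support_iff.mpr hne, nb5_symm hh', Set.mem_univ _⟩

/-- `A` on finitely supported fields -/
def AopF (w : BW G) : Fld G →ₗ[ℝ] Fld G where
  toFun l := Finsupp.ofSupportFinite (Aop w (l : HE G → ℝ)) (Aop_finite w l)
  map_add' l m := by
    ext h
    simp [Finsupp.ofSupportFinite_coe]
  map_smul' c l := by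
    ext h
    simp [Finsupp.ofSupportFinite_coe]

@[simp] theorem AopF_coe (w : BW G) (l : Fld G) : (AopF w l : HE G → ℝ) = Aop w (l : HE G → ℝ) :=
  Finsupp.ofSupportFinite_coe

theorem single_coe [DecidableEq G] (h : HE G) (c : ℝ) :
    ((Finsupp.single h c : Fld G) : HE G → ℝ) = Pi.single h c := by
  funext h'
  rw [Finsupp.single_apply, Pi.single_apply]
  by_cases hh : h = h'
  · rw [if_pos hh, if_pos hh.symm]
  · rw [if_neg hh, if_neg (Ne.symm hh)]

theorem ite_a1 [DecidableEq G] (i j i' j' : G) :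
    (if i = i' ∧ j = j' then (1 : ℝ) else 0) = if i' = i ∧ j' = j then 1 else 0 := by
  by_cases h : i = i' ∧ j = j'
  · rw [if_pos h, if_pos ⟨h.1.symm, h.2.symm⟩]
  · rw [if_neg h, if_neg fun h' => h ⟨h'.1.symm, h'.2.symm⟩]

theorem ite_a2 [DecidableEq G] (w : BW G) (k : Fin 2) (i j i' j' : G) :
    (if i = i' ∧ j - 1 = j' then w (i, j) k else 0) =
      if i' = i ∧ j' + 1 = j then w (i', j' + 1) k else 0 := by
  by_cases h : i = i' ∧ j - 1 = j'
  · obtain ⟨rfl, rfl⟩ := h; simp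
  · rw [if_neg h, if_neg]
    rintro ⟨rfl, rfl⟩
    apply h; simp

theorem ite_a3 [DecidableEq G] (w : BW G) (k : Fin 2) (i j i' j' : G) :
    (if i - 1 = i' ∧ j = j' then w (i, j) k else 0) =
      if i' + 1 = i ∧ j' = j then w (i' + 1, j') k else 0 := by
  by_cases h : i - 1 = i' ∧ j = j'
  · obtain ⟨rfl, rfl⟩ := h; simp
  · rw [if_neg h, if_neg]
    rintro ⟨rfl, rfl⟩
    apply h; simp

/-- antisymmetry of the kernel of `A` -/
theorem Aop_skew [DecidableEq G] (w : BW G) (h h' : HE G) :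
    Aop w (Pi.single h' 1) h = -Aop w (Pi.single h 1) h' := by
  obtain ⟨⟨i, j⟩, d⟩ := h
  obtain ⟨⟨i', j'⟩, d'⟩ := h'
  rw [Aop_apply, Aop_apply]
  have a1 := ite_a1 i j i' j'
  have a2 := ite_a2 w 0 i j i' j'
  have a2' := ite_a2 w 0 i' j' i j
  have a3 := ite_a3 w 1 i j i' j'
  have a3' := ite_a3 w 1 i' j' i j
  fin_cases d <;> fin_cases d' <;>
    simp [Arow, Pi.single_apply, Prod.ext_iff, yE, yN]
  all_goals linarith

/-- `A` is antisymmetric on finitely supported fields -/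
theorem AopF_asy (w : BW G) : Asy (preF (HE G)) (AopF w) := by
  classical
  have key : (dotF (HE G)).compl₁₂ (AopF w) LinearMap.id =
      -((dotF (HE G)).compl₁₂ LinearMap.id (AopF w)) := by
    apply Finsupp.lhom_ext
    intro h c
    apply Finsupp.lhom_ext
    intro h' c'
    have e1 : ∀ (h : HE G) (c : ℝ), (Finsupp.single h c : Fld G) = c • Finsupp.single h 1 := by
      intro h c; rw [Finsupp.smul_single, smul_eq_mul, mul_one]
    rw [e1 h c, e1 h' c']
    simp only [LinearMap.compl₁₂_apply, LinearMap.id_apply, map_smul, LinearMap.smul_apply,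
      LinearMap.neg_apply, smul_eq_mul]
    have e2 : dotF (HE G) (AopF w (Finsupp.single h 1)) (Finsupp.single h' 1) =
        Aop w (Pi.single h 1) h' := by
      rw [dotF_symm, dotF_single, one_mul, AopF_coe, single_coe]
    have e3 : dotF (HE G) (Finsupp.single h 1) (AopF w (Finsupp.single h' 1)) =
        Aop w (Pi.single h' 1) h := by
      rw [dotF_single, one_mul, AopF_coe, single_coe]
    rw [e2, e3, Aop_skew w h h']
    ring
  intro x y
  have := congrArg (fun B => B x y) key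
  exact this

theorem summable_face (l : Fld G) (d : Fin 4) (e : G × G → G × G) (he : Function.Injective e) :
    Summable fun f : G × G => l (e f, d) ^ 2 := by
  apply summable_of_hasFiniteSupport
  have h1 : (l.support : Set (HE G)).Finite := l.support.finite_toSet
  have h2 : Function.Injective fun f : G × G => ((e f, d) : HE G) := fun f g h => he (by
    simpa using h)
  refine (h1.preimage h2.injOn).subset ?_
  intro f hf
  simp only [Set.mem_preimage, Finset.mem_coe, Finsupp.mem_support_iff]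
  intro h0
  apply hf
  show l (e f, d) ^ 2 = 0
  rw [h0]; norm_num

theorem dotF_self_eq_tsum (l : Fld G) :
    dotF (HE G) l l = ∑' f : G × G, ∑ d : Fin 4, l (f, d) ^ 2 := by
  classical
  have h0 : dotF (HE G) l l = ∑' h : HE G, l h ^ 2 := by
    rw [dotF_eq_sum l l l.support (Finset.Subset.refl _), tsum_eq_sum (s := l.support)]
    · exact Finset.sum_congr rfl fun i _ => (sq _).symm
    · intro i hi
      rw [Finsupp.notMem_support_iff.mp hi]; norm_num
  have hs : Summable fun h : HE G => l h ^ 2 := by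
    apply summable_of_hasFiniteSupport
    refine l.support.finite_toSet.subset fun h hh => ?_
    simp only [Finset.mem_coe, Finsupp.mem_support_iff]
    intro h0
    apply hh
    show l h ^ 2 = 0
    rw [h0]; norm_num
  rw [h0, hs.tsum_prod' (fun f => (hasSum_fintype _).summable)]
  exact tsum_congr fun f => tsum_fintype _

theorem sq4_le (a b c d y : ℝ) (hy : |y| ≤ 1) :
    (a + b + c + y * d) ^ 2 ≤ 4 * (a ^ 2 + b ^ 2 + c ^ 2 + d ^ 2) := by
  have h1 : y ^ 2 ≤ 1 := by
    rw [← sq_abs]; exact pow_le_one₀ (abs_nonneg _) hy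
  have h2 : (y * d) ^ 2 ≤ d ^ 2 := by
    rw [mul_pow]; nlinarith [sq_nonneg d]
  nlinarith [sq_nonneg (a - b), sq_nonneg (a - c), sq_nonneg (a - y * d), sq_nonneg (b - c),
    sq_nonneg (b - y * d), sq_nonneg (c - y * d)]

/-- `|A l|² ≤ 16 |l|²` when all weights are at most one in absolute value -/
theorem AopF_bdd (w : BW G) (hw : ∀ z j, |w z j| ≤ 1) : ABtw (preF (HE G)) (AopF w) 0 16 := by
  intro l
  rw [preF_ip, preF_ip]
  refine ⟨by rw [zero_mul]; exact (preF (HE G)).nonneg _, ?_⟩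
  rw [dotF_self_eq_tsum, dotF_self_eq_tsum]
  -- the four shifted sums
  have sh : ∀ (d : Fin 4) (e : Equiv.Perm (G × G)),
      ∑' f : G × G, l (e f, d) ^ 2 = ∑' f : G × G, l (f, d) ^ 2 := fun d e =>
    e.tsum_eq fun f => l (f, d) ^ 2
  have hs : ∀ (d : Fin 4) (e : Equiv.Perm (G × G)), Summable fun f : G × G => l (e f, d) ^ 2 :=
    fun d e => summable_face l d e e.injective
  let e1 : Equiv.Perm (G × G) := Equiv.prodCongr (Equiv.addRight 1) (Equiv.refl G)
  let e1' : Equiv.Perm (G × G) := Equiv.prodCongr (Equiv.subRight 1) (Equiv.refl G)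
  let e2 : Equiv.Perm (G × G) := Equiv.prodCongr (Equiv.refl G) (Equiv.addRight 1)
  let e2' : Equiv.Perm (G × G) := Equiv.prodCongr (Equiv.refl G) (Equiv.subRight 1)
  have hpt : ∀ f : G × G, ∑ d : Fin 4, (AopF w l) (f, d) ^ 2 ≤
      12 * ∑ d : Fin 4, l (f, d) ^ 2 +
        4 * (l (e2' f, 2) ^ 2 + l (e1 f, 3) ^ 2 + l (e2 f, 0) ^ 2 + l (e1' f, 1) ^ 2) := by
    intro f
    have c0 := sq4_le (l (f, 1)) (l (f, 2)) (l (f, 3)) (l ((f.1, f.2 - 1), 2))
      (yN w (f.1, f.2 - 1)) (hw _ _)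
    have c1 := sq4_le (-l (f, 0)) (l (f, 2)) (l (f, 3)) (l ((f.1 + 1, f.2), 3))
      (yE w f) (hw _ _)
    have c2 := sq4_le (-l (f, 0)) (-l (f, 1)) (l (f, 3)) (-l ((f.1, f.2 + 1), 0))
      (yN w f) (hw _ _)
    have c3 := sq4_le (-l (f, 0)) (-l (f, 1)) (-l (f, 2)) (-l ((f.1 - 1, f.2), 1))
      (yE w (f.1 - 1, f.2)) (hw _ _)
    have q0 : (AopF w l) (f, 0) = l (f, 1) + l (f, 2) + l (f, 3) +
        yN w (f.1, f.2 - 1) * l ((f.1, f.2 - 1), 2) := by
      rw [AopF_coe]; rfl
    have q1 : (AopF w l) (f, 1) = -l (f, 0) + l (f, 2) + l (f, 3) +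
        yE w f * l ((f.1 + 1, f.2), 3) := by
      rw [AopF_coe]; rfl
    have q2 : (AopF w l) (f, 2) = -l (f, 0) + -l (f, 1) + l (f, 3) +
        yN w f * -l ((f.1, f.2 + 1), 0) := by
      rw [AopF_coe, Aop_S_N]
    have q3 : (AopF w l) (f, 3) = -l (f, 0) + -l (f, 1) + -l (f, 2) +
        yE w (f.1 - 1, f.2) * -l ((f.1 - 1, f.2), 1) := by
      rw [AopF_coe, Aop_S_W]
    simp only [Fin.sum_univ_four]
    rw [q0, q1, q2, q3]
    have r2' : e2' f = (f.1, f.2 - 1) := rfl
    have r1 : e1 f = (f.1 + 1, f.2) := rfl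
    have r2 : e2 f = (f.1, f.2 + 1) := rfl
    have r1' : e1' f = (f.1 - 1, f.2) := rfl
    rw [r2', r1, r2, r1']
    simp only [neg_sq] at c1 c2 c3
    linarith
  have hsl : Summable fun f : G × G => ∑ d : Fin 4, l (f, d) ^ 2 :=
    summable_sum fun d _ => hs d (Equiv.refl _)
  have hsA : Summable fun f : G × G => ∑ d : Fin 4, (AopF w l) (f, d) ^ 2 :=
    summable_sum fun d _ => summable_face (AopF w l) d id Function.injective_id
  have hs4 : Summable fun f : G × G =>
      4 * (l (e2' f, 2) ^ 2 + l (e1 f, 3) ^ 2 + l (e2 f, 0) ^ 2 + l (e1' f, 1) ^ 2) :=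
    ((((hs 2 e2').add (hs 3 e1)).add (hs 0 e2)).add (hs 1 e1')).mul_left 4
  have hs12 : Summable fun f : G × G => 12 * ∑ d : Fin 4, l (f, d) ^ 2 := hsl.mul_left 12
  refine (Summable.tsum_le_tsum hpt hsA (hs12.add hs4)).trans ?_
  rw [hs12.tsum_add hs4, tsum_mul_left, tsum_mul_left,
    (((hs 2 e2').add (hs 3 e1)).add (hs 0 e2)).tsum_add (hs 1 e1'),
    ((hs 2 e2').add (hs 3 e1)).tsum_add (hs 0 e2), (hs 2 e2').tsum_add (hs 3 e1),
    sh, sh, sh, sh]
  have h5 : ∑' f : G × G, ∑ d : Fin 4, l (f, d) ^ 2 =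
      ∑' f : G × G, l (f, 2) ^ 2 + ∑' f : G × G, l (f, 3) ^ 2 + ∑' f : G × G, l (f, 0) ^ 2 +
        ∑' f : G × G, l (f, 1) ^ 2 := by
    have hd : ∀ d : Fin 4, Summable fun f : G × G => l (f, d) ^ 2 := fun d => hs d (Equiv.refl _)
    rw [Summable.tsum_finsetSum (fun d _ => hd d), Fin.sum_univ_four]
    ring
  linarith

/-! ### slices as operators on functions and on finitely supported fields -/

theorem Qop_coe (w : BW G) (l : Fld G) :
    Qop w (l : HE G → ℝ) = ((QA (AopF w) l : Fld G) : HE G → ℝ) := by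
  rw [QA_apply, Finsupp.coe_neg, AopF_coe, AopF_coe]
  rfl

theorem Qop_pow_coe (w : BW G) (n : ℕ) (l : Fld G) :
    (Qop w ^ n) (l : HE G → ℝ) = (((QA (AopF w) ^ n) l : Fld G) : HE G → ℝ) := by
  induction n with
  | zero => simp
  | succ n ih =>
    rw [pow_succ', pow_succ', Module.End.mul_apply, Module.End.mul_apply, ih, Qop_coe]

theorem aeval_Qop_coe (w : BW G) (p : ℝ[X]) (l : Fld G) :
    (aeval (Qop w) p) (l : HE G → ℝ) = ((aeval (QA (AopF w)) p l : Fld G) : HE G → ℝ) := by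
  rw [aeval_apply_sum (Qop w) p le_rfl, aeval_apply_sum (QA (AopF w)) p le_rfl,
    Finsupp.coe_finsetSum]
  exact Finset.sum_congr rfl fun k _ => by rw [Qop_pow_coe, Finsupp.coe_smul]

theorem Aop_iter_coe (w : BW G) (n : ℕ) (l : Fld G) :
    (Aop w)^[n] (l : HE G → ℝ) = (((AopF w ^ n) l : Fld G) : HE G → ℝ) := by
  induction n with
  | zero => simp
  | succ n ih =>
    rw [Function.iterate_succ_apply', ih, pow_succ', Module.End.mul_apply, AopF_coe]

/-- `A p(Q)` on finitely supported fields -/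
def slF (w : BW G) (p : ℝ[X]) : Fld G →ₗ[ℝ] Fld G := AopF w ∘ₗ aeval (QA (AopF w)) p

theorem slF_coe (w : BW G) (p : ℝ[X]) (l : Fld G) :
    (slF w p l : HE G → ℝ) = slop w p (l : HE G → ℝ) := by
  unfold slF slop
  rw [LinearMap.comp_apply, AopF_coe, Module.End.mul_apply, aeval_Qop_coe]

variable {Λ : ℝ} {M K : ℕ} (D : FRD Λ M K)

/-- the sum of the slices on finitely supported fields -/
def SopF (w : BW G) (a b : ℕ) : Fld G →ₗ[ℝ] Fld G := ∑ j ∈ Finset.Ico a b, slF w (D.w j)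

theorem SopF_coe (w : BW G) (a b : ℕ) (l : Fld G) :
    (SopF D w a b l : HE G → ℝ) = Sop w D a b (l : HE G → ℝ) := by
  unfold SopF Sop
  rw [LinearMap.sum_apply, LinearMap.sum_apply, Finsupp.coe_finsetSum]
  exact Finset.sum_congr rfl fun j _ => slF_coe w _ l

/-- **the covariance of the block of slices `a ≤ j < b`** -/
def SopC (w : BW G) (a b : ℕ) : Cov (Fld G) := ∑ j ∈ Finset.Ico a b, slice D (AopF_asy w) j

theorem cov_sum_b {V ι : Type*} [AddCommGroup V] [Module ℝ V] (s : Finset ι) (S : ι → Cov V) (x y : V) :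
    (∑ j ∈ s, S j).b x y = ∑ j ∈ s, (S j).b x y := by
  classical
  induction s using Finset.induction_on with
  | empty => simp
  | insert a s ha ih =>
    rw [Finset.sum_insert ha, Finset.sum_insert ha, Cov.add_b, LinearMap.add_apply,
      LinearMap.add_apply, ih]

theorem SopC_apply' (w : BW G) (a b : ℕ) (l m : Fld G) :
    (SopC D w a b).b l m = dotF (HE G) l (SopF D w a b m) := by
  unfold SopC SopF
  rw [cov_sum_b, LinearMap.sum_apply, map_sum]
  rfl

theorem dotF_eq_pair (l m : Fld G) : dotF (HE G) l m = pair l (m : HE G → ℝ) := rfl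

theorem SopC_apply (w : BW G) (a b : ℕ) (l m : Fld G) :
    (SopC D w a b).b l m = pair l (Sop w D a b (m : HE G → ℝ)) := by
  rw [SopC_apply', dotF_eq_pair, SopF_coe]

theorem ker_skew [DecidableEq G] (w : BW G) (a b : ℕ) (h h' : HE G) :
    ker (Sop w D a b) h h' = -ker (Sop w D a b) h' h := by
  have h1 : ∀ h h' : HE G, (SopC D w a b).b (Finsupp.single h 1) (Finsupp.single h' 1) =
      ker (Sop w D a b) h h' := by
    intro h h'
    rw [SopC_apply', dotF_single, one_mul, SopF_coe, single_coe]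
    rfl
  rw [← h1, ← h1, Cov.skew]

theorem SopC_eq_covS [DecidableEq G] (w : BW G) (a b : ℕ) :
    SopC D w a b = covS (ker (Sop w D a b)) (ker_skew D w a b) := by
  apply Cov.ext
  show (SopC D w a b).b = formS (ker (Sop w D a b))
  apply Finsupp.lhom_ext
  intro h c
  apply Finsupp.lhom_ext
  intro h' c'
  have e1 : ∀ (h : HE G) (c : ℝ), (Finsupp.single h c : Fld G) = c • Finsupp.single h 1 := by
    intro h c; rw [Finsupp.smul_single, smul_eq_mul, mul_one]
  rw [e1 h c, e1 h' c']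
  simp only [map_smul, LinearMap.smul_apply]
  rw [formS_single, SopC_apply', dotF_single, one_mul, SopF_coe, single_coe]
  rfl

/-- the Gram form of a block of slices -/
def gB (w : BW G) (a b : ℕ) : LinearMap.BilinForm ℝ (Fld G) :=
  ∑ j ∈ Finset.Ico a b, gform (preF (HE G)) D (AopF w) j

theorem gB_nonneg (w : BW G) (h : ABtw (preF (HE G)) (AopF w) 0 Λ) (a b : ℕ) (l : Fld G) :
    0 ≤ gB D w a b l l := by
  unfold gB
  simp only [LinearMap.sum_apply]
  exact Finset.sum_nonneg fun j _ => gform_nonneg D (AopF_asy w) h j l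

/-- the Gram weight of a block of slices -/
def gw (w : BW G) (a b : ℕ) (l : Fld G) : ℝ≥0∞ := ENNReal.ofReal √(gB D w a b l l)

theorem mwt_ofReal {V : Type*} (g : V → ℝ) (hg : ∀ x, 0 ≤ g x) (L : List V) :
    mwt (fun x => ENNReal.ofReal (g x)) L = ENNReal.ofReal (L.map g).prod := by
  induction L with
  | nil => simp [mwt]
  | cons x L ih =>
    rw [List.map_cons, List.prod_cons, ENNReal.ofReal_mul (hg x), ← ih]
    simp [mwt]

/-- **Gram bound of the slices** -/
theorem SopC_gram (w : BW G) (h : ABtw (preF (HE G)) (AopF w) 0 Λ) (a b : ℕ) :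
    Gram (SopC D w a b) (gw D w a b) := by
  intro L
  have h1 := EE_slices_le D (AopF_asy w) h (Finset.Ico a b) L
  unfold gw
  rw [mwt_ofReal (fun l => √(gB D w a b l l)) (fun l => Real.sqrt_nonneg _),
    Real.enorm_eq_ofReal_abs]
  exact ENNReal.ofReal_le_ofReal h1

/-! ### (W0): Gram weight against the local weight -/

variable [CN G]

theorem l2_coe (l : Fld G) : l2 (l : HE G → ℝ) = √(dotF (HE G) l l) := by
  unfold l2
  congr 1
  rw [dotF_eq_sum l l l.support (Finset.Subset.refl _), tsum_eq_sum (s := l.support)]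
  · exact Finset.sum_congr rfl fun i _ => sq _
  · intro i hi
    rw [Finsupp.notMem_support_iff.mp hi]; norm_num

theorem l2_restr_le (Z : Set (G × G)) (l : Fld G) : l2 (restr Z (l : HE G → ℝ)) ≤ l2 (l : HE G → ℝ) := by
  classical
  unfold l2
  apply Real.sqrt_le_sqrt
  have hs : Summable fun h : HE G => l h ^ 2 := by
    apply summable_of_hasFiniteSupport
    refine l.support.finite_toSet.subset fun h hh => ?_
    simp only [Finset.mem_coe, Finsupp.mem_support_iff]
    intro h0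
    apply hh
    show l h ^ 2 = 0
    rw [h0]; norm_num
  have hle : ∀ h : HE G, (restr Z (l : HE G → ℝ) h) ^ 2 ≤ l h ^ 2 := by
    intro h
    unfold restr
    by_cases hz : h.1 ∈ Z
    · rw [if_pos hz]
    · rw [if_neg hz, zero_pow two_ne_zero]; exact sq_nonneg _
  exact Summable.tsum_le_tsum hle (Summable.of_nonneg_of_le (fun h => sq_nonneg _) hle hs) hs

theorem nnB_coe_le (w : BW G) (r : ℕ) (x : G × G) (f : Fld G) :
    nnB w r x (f : HE G → ℝ) ≤
      7 * √(BP (preF (HE G)) (QA (AopF w)) (opl ((r : ℝ) ^ 2) MM) f f) := by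
  unfold nnB
  have h1 : ∀ n ∈ Finset.range (MM + 1), (r : ℝ) ^ n * l2 (restr (ball x (s1 * r))
      ((Aop w)^[n] (f : HE G → ℝ))) ≤
        √(BP (preF (HE G)) (QA (AopF w)) (opl ((r : ℝ) ^ 2) MM) f f) := by
    intro n hn
    have hn' : n ≤ MM := Nat.lt_succ_iff.mp (Finset.mem_range.mp hn)
    rw [Aop_iter_coe]
    have h2 := l2_restr_le (ball x (s1 * r)) ((AopF w ^ n) f)
    rw [l2_coe] at h2
    refine (mul_le_mul_of_nonneg_left h2 (by positivity)).trans ?_
    have h3 : (r : ℝ) ^ n * √(dotF (HE G) ((AopF w ^ n) f) ((AopF w ^ n) f)) =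
        √(((r : ℝ) ^ 2) ^ n * dotF (HE G) ((AopF w ^ n) f) ((AopF w ^ n) f)) := by
      rw [Real.sqrt_mul (by positivity), ← pow_mul, mul_comm 2 n, pow_mul,
        Real.sqrt_sq (by positivity)]
    rw [h3]
    apply Real.sqrt_le_sqrt
    rw [BP_opl (AopF_asy w)]
    have h4 : ∀ k ∈ Finset.range (MM + 1), 0 ≤ (MM.choose k : ℝ) * ((r : ℝ) ^ 2) ^ k *
        (preF (HE G)).ip ((AopF w ^ k) f) ((AopF w ^ k) f) := fun k _ =>
      mul_nonneg (by positivity) ((preF (HE G)).nonneg _)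
    refine le_trans ?_ (Finset.single_le_sum h4 hn)
    have h5 : (1 : ℝ) ≤ (MM.choose n : ℝ) := by
      exact_mod_cast Nat.choose_pos hn'
    have h6 : 0 ≤ ((r : ℝ) ^ 2) ^ n * dotF (HE G) ((AopF w ^ n) f) ((AopF w ^ n) f) :=
      mul_nonneg (by positivity) ((preF (HE G)).nonneg _)
    rw [preF_ip, mul_assoc]
    nlinarith
  refine (Finset.sum_le_sum h1).trans (le_of_eq ?_)
  rw [Finset.sum_const, Finset.card_range, nsmul_eq_mul]
  norm_num [MM]

/-- the supremum in the local weight -/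
def sup1 (w : BW G) (r : ℕ) (x : G × G) (l : Fld G) : ℝ≥0∞ :=
  ⨆ f : {f : HE G → ℝ // nnB w r x f ≤ 1}, ENNReal.ofReal |pair l f.1|

theorem wt_eq (w : BW G) (a : ℝ) (r : ℕ) (x : G × G) (l : Fld G) :
    wt w a r x l = ENNReal.ofReal (a * √r) * sup1 w r x l := rfl

/-- the dual weight of `FRDInf_439` against the local supremum -/
theorem RD_le_sup1 (w : BW G) (r : ℕ) (x : G × G) (l : Fld G) :
    ENNReal.ofReal (RD (preF (HE G)) (AopF w) ((r : ℝ) ^ 2) MM l) ≤ 7 * sup1 w r x l := by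
  by_cases htop : sup1 w r x l = ∞
  · rw [htop]; simp
  · have h1 : RD (preF (HE G)) (AopF w) ((r : ℝ) ^ 2) MM l ≤ 7 * (sup1 w r x l).toReal := by
      apply RD_le_of
      intro f hf
      have h2 : nnB w r x (((1 / 7 : ℝ) • f : Fld G) : HE G → ℝ) ≤ 1 := by
        refine (nnB_coe_le w r x ((1 / 7 : ℝ) • f)).trans ?_
        simp only [map_smul, LinearMap.smul_apply, smul_eq_mul]
        have h3 : √(1 / 7 * (1 / 7 * BP (preF (HE G)) (QA (AopF w)) (opl ((r : ℝ) ^ 2) MM) f f)) ≤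
            1 / 7 := by
          rw [← mul_assoc, Real.sqrt_mul (by positivity), Real.sqrt_mul_self (by positivity)]
          have : √(BP (preF (HE G)) (QA (AopF w)) (opl ((r : ℝ) ^ 2) MM) f f) ≤ 1 :=
            Real.sqrt_le_one.mpr hf
          linarith
        linarith
      have h4 : ENNReal.ofReal |pair l (((1 / 7 : ℝ) • f : Fld G) : HE G → ℝ)| ≤ sup1 w r x l :=
        le_iSup (fun f : {f : HE G → ℝ // nnB w r x f ≤ 1} => ENNReal.ofReal |pair l f.1|)
          ⟨_, h2⟩
      have h5 : |pair l (((1 / 7 : ℝ) • f : Fld G) : HE G → ℝ)| ≤ (sup1 w r x l).toReal := by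
        rw [ENNReal.ofReal_le_iff_le_toReal htop] at h4
        exact h4
      rw [← dotF_eq_pair, map_smul, smul_eq_mul, abs_mul, abs_of_pos (by norm_num : (0:ℝ) < 1/7)]
        at h5
      have h6 : (preF (HE G)).ip l f ≤ |dotF (HE G) l f| := le_abs_self _
      linarith
    calc ENNReal.ofReal (RD (preF (HE G)) (AopF w) ((r : ℝ) ^ 2) MM l)
        ≤ ENNReal.ofReal (7 * (sup1 w r x l).toReal) := ENNReal.ofReal_le_ofReal h1
      _ = 7 * sup1 w r x l := by
        rw [ENNReal.ofReal_mul (by norm_num), ENNReal.ofReal_toReal htop]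
        norm_num

/-- **(W0)**: for the block of slices `a ≤ j < b` with `r ≤ 2 ^ a` and `2 ^ b ≤ N r`, the Gram weight is at
most `7 √(C N) / A` times the local weight of amplitude `A` at any face. -/
theorem gw_le_wt (hM : MM + 1 ≤ M) (w : BW G) (h : ABtw (preF (HE G)) (AopF w) 0 Λ) (a b r : ℕ)
    (N : ℝ) (hr : r ≤ 2 ^ a) (hN : (2 : ℝ) ^ b ≤ N * r) {A : ℝ} (hA : 0 < A) (x : G × G)
    (l : Fld G) : gw D w a b l ≤ ENNReal.ofReal (7 * √(D.C * N) / A) * wt w A r x l := by
  have hC := D.C_pos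
  have h1 := sum_gform_le D (AopF_asy w) h hM a b l
  have hR := RD_nonneg (AopF_asy w) (a := (r : ℝ) ^ 2) (by positivity) MM l
  have h2 : RD (preF (HE G)) (AopF w) (4 ^ a) MM l ≤
      RD (preF (HE G)) (AopF w) ((r : ℝ) ^ 2) MM l := by
    apply RD_anti (AopF_asy w) (by positivity)
    have : ((r : ℝ)) ≤ 2 ^ a := by exact_mod_cast hr
    calc (r : ℝ) ^ 2 ≤ ((2 : ℝ) ^ a) ^ 2 := by gcongr
      _ = 4 ^ a := by rw [← pow_mul, mul_comm, pow_mul]; norm_num
  have hN0 : 0 ≤ N * r := (by positivity : (0 : ℝ) ≤ 2 ^ b).trans hN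
  have h3 : √(gB D w a b l l) ≤ √(D.C * (N * r)) * RD (preF (HE G)) (AopF w) ((r : ℝ) ^ 2) MM l := by
    have h4 : gB D w a b l l ≤ D.C * (N * r) * RD (preF (HE G)) (AopF w) ((r : ℝ) ^ 2) MM l ^ 2 := by
      refine h1.trans ?_
      have h5 : RD (preF (HE G)) (AopF w) (4 ^ a) MM l ^ 2 ≤
          RD (preF (HE G)) (AopF w) ((r : ℝ) ^ 2) MM l ^ 2 :=
        pow_le_pow_left₀ (RD_nonneg (AopF_asy w) (by positivity) MM l) h2 2
      exact mul_le_mul (mul_le_mul_of_nonneg_left hN hC.le) h5 (sq_nonneg _)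
        (mul_nonneg hC.le hN0)
    calc √(gB D w a b l l) ≤
        √(D.C * (N * r) * RD (preF (HE G)) (AopF w) ((r : ℝ) ^ 2) MM l ^ 2) :=
          Real.sqrt_le_sqrt h4
      _ = _ := by rw [Real.sqrt_mul (mul_nonneg hC.le hN0), Real.sqrt_sq hR]
  have h6 : √(D.C * (N * r)) = √(D.C * N) * √r := by
    rw [← mul_assoc, Real.sqrt_mul' _ (by positivity)]
  rw [wt_eq, ← mul_assoc]
  calc gw D w a b l ≤ ENNReal.ofReal (√(D.C * (N * r)) *
          RD (preF (HE G)) (AopF w) ((r : ℝ) ^ 2) MM l) := ENNReal.ofReal_le_ofReal h3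
    _ = ENNReal.ofReal (√(D.C * N) * √r) *
        ENNReal.ofReal (RD (preF (HE G)) (AopF w) ((r : ℝ) ^ 2) MM l) := by
        rw [ENNReal.ofReal_mul (Real.sqrt_nonneg _), h6]
    _ ≤ ENNReal.ofReal (√(D.C * N) * √r) * (7 * sup1 w r x l) := by
        gcongr
        exact RD_le_sup1 w r x l
    _ = ENNReal.ofReal (7 * √(D.C * N) / A) * ENNReal.ofReal (A * √r) * sup1 w r x l := by
        rw [← ENNReal.ofReal_mul (by positivity), ← mul_assoc]
        congr 1
        have h7 : (7 : ℝ≥0∞) = ENNReal.ofReal 7 := by norm_num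
        rw [h7, ← ENNReal.ofReal_mul (by positivity)]
        congr 1
        field_simp

/-- the first block `j < b`: `2 ^ b ≤ N r`, `1 ≤ r`; the constant is allowed to depend on `r` -/
theorem gw_le_wt_first (hM : MM + 1 ≤ M) (w : BW G) (h : ABtw (preF (HE G)) (AopF w) 0 Λ)
    (b r : ℕ) (N : ℝ) (hr : 1 ≤ r) (hN : (2 : ℝ) ^ b ≤ N * r) {A : ℝ} (hA : 0 < A) (x : G × G)
    (l : Fld G) :
    gw D w 0 b l ≤ ENNReal.ofReal (7 * √(D.C * N) * (r : ℝ) ^ MM / A) * wt w A r x l := by
  have hC := D.C_pos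
  have hr1 : (1 : ℝ) ≤ r := by exact_mod_cast hr
  have h1 := sum_gform_le D (AopF_asy w) h hM 0 b l
  have hR := RD_nonneg (AopF_asy w) (a := (r : ℝ) ^ 2) (by positivity) MM l
  have h2 : RD (preF (HE G)) (AopF w) (4 ^ 0) MM l ≤
      (r : ℝ) ^ MM * RD (preF (HE G)) (AopF w) ((r : ℝ) ^ 2) MM l := by
    have h3 := RD_scale (AopF_asy w) (a := 4 ^ 0) (a' := (r : ℝ) ^ 2) (by norm_num)
      (by rw [pow_zero]; exact one_le_pow₀ hr1) MM l
    refine h3.trans (le_of_eq ?_)
    congr 1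
    rw [pow_zero, div_one, ← pow_mul, mul_comm 2 MM, pow_mul, Real.sqrt_sq (by positivity)]
  have hN0 : 0 ≤ N * r := (by positivity : (0 : ℝ) ≤ 2 ^ b).trans hN
  set R := RD (preF (HE G)) (AopF w) ((r : ℝ) ^ 2) MM l
  have h3 : √(gB D w 0 b l l) ≤ √(D.C * (N * r)) * ((r : ℝ) ^ MM * R) := by
    have h4 : gB D w 0 b l l ≤ D.C * (N * r) * ((r : ℝ) ^ MM * R) ^ 2 := by
      refine h1.trans ?_
      have h5 : RD (preF (HE G)) (AopF w) (4 ^ 0) MM l ^ 2 ≤ ((r : ℝ) ^ MM * R) ^ 2 :=
        pow_le_pow_left₀ (RD_nonneg (AopF_asy w) (by norm_num) MM l) h2 2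
      exact mul_le_mul (mul_le_mul_of_nonneg_left hN hC.le) h5 (sq_nonneg _)
        (mul_nonneg hC.le hN0)
    calc √(gB D w 0 b l l) ≤ √(D.C * (N * r) * ((r : ℝ) ^ MM * R) ^ 2) := Real.sqrt_le_sqrt h4
      _ = _ := by
        rw [Real.sqrt_mul (mul_nonneg hC.le hN0), Real.sqrt_sq (mul_nonneg (by positivity) hR)]
  have h6 : √(D.C * (N * r)) = √(D.C * N) * √r := by
    rw [← mul_assoc, Real.sqrt_mul' _ (by positivity)]
  rw [wt_eq, ← mul_assoc]
  calc gw D w 0 b l ≤ ENNReal.ofReal ((√(D.C * N) * √r * (r : ℝ) ^ MM) * R) := by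
        apply ENNReal.ofReal_le_ofReal
        refine h3.trans (le_of_eq ?_)
        rw [h6]; ring
    _ = ENNReal.ofReal (√(D.C * N) * √r * (r : ℝ) ^ MM) * ENNReal.ofReal R :=
        ENNReal.ofReal_mul (by positivity)
    _ ≤ ENNReal.ofReal (√(D.C * N) * √r * (r : ℝ) ^ MM) * (7 * sup1 w r x l) := by
        gcongr
        exact RD_le_sup1 w r x l
    _ = ENNReal.ofReal (7 * √(D.C * N) * (r : ℝ) ^ MM / A) * ENNReal.ofReal (A * √r) *
        sup1 w r x l := by
        rw [← ENNReal.ofReal_mul (by positivity), ← mul_assoc]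
        congr 1
        have h7 : (7 : ℝ≥0∞) = ENNReal.ofReal 7 := by norm_num
        rw [h7, ← ENNReal.ofReal_mul (by positivity)]
        congr 1
        field_simp

end lattice

end Crest.Agent.R165.FRDLatx439
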