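import Crest.Agent.R165.GBulk_417
import Crest.Agent.R165.Bridge_915

/-!
# Row 165 (S0250), block G4: linear bound of the bulk step in the norm `NK`
-/

set_option autoImplicit false
set_option linter.unusedSectionVars false

noncomputable section

open scoped ENNReal
open Crest.Agent.R165.Gr0x606 Crest.Agent.R165.Latx683 Crest.Agent.R165.PNormx417
open Crest.Agent.R165.GDefx387 Crest.Agent.R165.Locx901 Crest.Agent.R165.Packx915
open Crest.Agent.R165.NSumx915 Crest.Agent.R165.Bridgex915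

namespace Crest.Agent.R165.GBulkx417

variable {G : Type} [CommRing G] [CN G]

open Classical in
/-- linear part of the remainder after one step: convolution, minus the constant, minus the
averaged local part for the small polymers -/
def Qlin (S : Cov (Fld G)) (Lo : G × G → Gr (Fld G) →ₗ[ℝ] Gr (Fld G)) (r : ℕ)
    (Q : Finset (G × G) → Gr (Fld G)) (U : Finset (G × G)) : Gr (Fld G) :=
  conv S (Q U) - hom 0 (conv S (Q U)) -
    if size r U ≤ 1 then (U.card : ℝ)⁻¹ • ∑ f ∈ U, Lo f (conv S (Q U)) else 0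

theorem Qlin_zero (S : Cov (Fld G)) (Lo : G × G → Gr (Fld G) →ₗ[ℝ] Gr (Fld G)) (r : ℕ)
    {Q : Finset (G × G) → Gr (Fld G)} {U : Finset (G × G)} (h : Q U = 0) :
    Qlin S Lo r Q U = 0 := by
  classical
  unfold Qlin
  rw [h]
  simp

theorem Qlin_sub (S : Cov (Fld G)) (Lo : G × G → Gr (Fld G) →ₗ[ℝ] Gr (Fld G)) (r : ℕ)
    (Q Q' : Finset (G × G) → Gr (Fld G)) (U : Finset (G × G)) :
    Qlin S Lo r (fun U => Q U - Q' U) U = Qlin S Lo r Q U - Qlin S Lo r Q' U := by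
  classical
  unfold Qlin
  split_ifs with h
  · simp only [map_sub, Finset.sum_sub_distrib, smul_sub]; abel
  · simp only [map_sub]; abel

variable {w : BW G} {a a' : ℝ} {r r' : ℕ} {g : Fld G → ℝ≥0∞}
  {P0 P1 : G × G → Fld G →ₗ[ℝ] Fld G} {p0 p1 q2 q0 C : ℝ≥0∞}

/-- the numerical hypotheses on the constants of one bulk step -/
structure BulkNum (p0 p1 q2 q0 C : ℝ≥0∞) : Prop where
  p0_ne : p0 ≠ 0
  p1_ne : p1 ≠ 0
  q2_ne : q2 ≠ 0
  q0_ne : q0 ≠ 0
  p0_top : p0 ≠ ∞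
  C_top : C ≠ ∞
  q0_le : q0 ≤ 1 / 4
  q_le : p1 + q2 + q0 + q0 * C ≤ 1 / 4
  qp_le : p1 + q2 + q0 + q0 * C ≤ p0 + q0 * C
  sum_le : p0 + q0 ≤ 1

theorem BulkNum.p1_top (N : BulkNum p0 p1 q2 q0 C) : p1 ≠ ∞ :=
  ne_top_of_le_ne_top (by norm_num : (1 / 4 : ℝ≥0∞) ≠ ∞) (le_trans (by
    calc p1 ≤ p1 + (q2 + q0 + q0 * C) := le_self_add
      _ = _ := by ring) N.q_le)

theorem BulkNum.q2_top (N : BulkNum p0 p1 q2 q0 C) : q2 ≠ ∞ :=
  ne_top_of_le_ne_top (by norm_num : (1 / 4 : ℝ≥0∞) ≠ ∞) (le_trans (by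
    calc q2 ≤ q2 + (p1 + q0 + q0 * C) := le_self_add
      _ = _ := by ring) N.q_le)

/-- contraction factor of a small bulk polymer -/
def kap (p0 p1 q2 q0 C : ℝ≥0∞) : ℝ≥0∞ :=
  11 * ((p0 + q0 * C) ^ 2 * (p1 + q2 + q0 + q0 * C) ^ 2) + (p1 ^ 2 + 2 * (p0 + p1) * q2 + q2 ^ 2)

theorem BulkNum.kap_ne (N : BulkNum p0 p1 q2 q0 C) : kap p0 p1 q2 q0 C ≠ 0 := by
  unfold kap
  have : p1 ^ 2 ≠ 0 := pow_ne_zero 2 N.p1_ne
  simp [this, N.p1_ne]

/-- per polymer bound, small -/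
theorem pnorm_Qlin_small (H : BulkHyp w a a' r r' g P0 P1 p0 p1 q2 q0 C)
    (N : BulkNum p0 p1 q2 q0 C) {S : Cov (Fld G)}
    (hg : Gram S g) (hrk : ∀ f, FiniteDimensional ℝ (LinearMap.range (P0 f)))
    (hrank : ∀ f, Module.finrank ℝ (LinearMap.range (P0 f)) ≤ 2)
    {Q : Finset (G × G) → Gr (Fld G)} (hev : ∀ U, IsEv (Q U))
    {U : Finset (G × G)} (hU : U.Nonempty) (hs : size r U ≤ 1) :
    pnorm (wU w a' r' U) (Qlin S (fun f => loc2 (P0 f) (P1 f)) r Q U) ≤
      kap p0 p1 q2 q0 C * pnorm (wU w a r U) (Q U) := by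
  classical
  by_cases hF : pnorm (wU w a r U) (Q U) = ∞
  · rw [hF, ENNReal.mul_top N.kap_ne]; exact le_top
  · have hdiam : ∀ x ∈ U, ∀ f ∈ U, fd x f ≤ r := by
      intro x hx f hf
      rw [size_eq_pack] at hs
      exact (pack_le_one_iff pd_fd).1 hs x hx f hf
    unfold Qlin
    rw [if_pos hs]
    exact pnorm_small H hg hrk hrank hU hdiam N.p0_ne N.p1_ne N.q2_ne N.q0_ne N.p0_top N.p1_top
      N.q2_top N.C_top N.q0_le N.q_le N.qp_le (hev U) hF

/-- per polymer bound, large -/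
theorem pnorm_Qlin_large (h0 : ∀ x l, SuppL (ball x (s0 * r)) l → g l ≤ q0 * wt w a r x l)
    (h1 : ∀ x, WLe w a a' r r' x x LinearMap.id p0) (hc0 : p0 + q0 ≠ 0) (hc : p0 + q0 ≤ 1)
    {S : Cov (Fld G)} (hg : Gram S g) (Lo : G × G → Gr (Fld G) →ₗ[ℝ] Gr (Fld G))
    (Q : Finset (G × G) → Gr (Fld G)) {U : Finset (G × G)} (hs : ¬ size r U ≤ 1) :
    pnorm (wU w a' r' U) (Qlin S Lo r Q U) ≤ pnorm (wU w a r U) (Q U) := by
  classical
  unfold Qlin
  rw [if_neg hs, sub_zero]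
  exact (pnorm_sub_hom0_le _ _).trans (pnorm_any hg h0 h1 hc0 hc U (Q U))

/-- **linear bound of the bulk step** -/
theorem NK_Qlin_le [GoodG G] (H : BulkHyp w a a' r r' g P0 P1 p0 p1 q2 q0 C)
    (N : BulkNum p0 p1 q2 q0 C) {S : Cov (Fld G)}
    (hg : Gram S g) (hrk : ∀ f, FiniteDimensional ℝ (LinearMap.range (P0 f)))
    (hrank : ∀ f, Module.finrank ℝ (LinearMap.range (P0 f)) ≤ 2)
    {Q : Finset (G × G) → Gr (Fld G)} (hev : ∀ U, IsEv (Q U)) (hQ0 : Q ∅ = 0)
    {R : ℕ} (hconn : ∀ U, Q U ≠ 0 → Packx915.Conn fd R U) (hr : 0 < r) (hR : R + 2 * r ≤ r')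
    {Γ : ℝ≥0∞} (hΓ : 1 ≤ Γ) (hΓt : Γ ≠ ∞) (p : Finset (G × G) → Prop) :
    NK w a' r' Γ p (Qlin S (fun f => loc2 (P0 f) (P1 f)) r Q) ≤
      (((2 * (r' / r) + 3) ^ 2 : ℕ) : ℝ≥0∞) * (kap p0 p1 q2 q0 C + Γ⁻¹) * NK w a r Γ p Q := by
  classical
  rw [NK_eq_NN, NK_eq_NN]
  have hΓ0 : Γ ≠ 0 := (lt_of_lt_of_le one_pos hΓ).ne'
  have hcov := cov_fd (G := G) hr r'
  have key := NN_step (d := (fd : G × G → G × G → ℕ)) (r := r) (r' := r') (Γ := Γ)
    (Finset.univ : Finset Bool)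
    (fun b U => if b then size r U ≤ 1 else ¬ size r U ≤ 1)
    (act w a' r' p (Qlin S (fun f => loc2 (P0 f) (P1 f)) r Q))
    (fun _ => act w a r p Q) (fun b => if b then kap p0 p1 q2 q0 C else Γ⁻¹)
    (fun _ => (2 * (r' / r) + 3) ^ 2)
    (fun U _ => by
      by_cases hs : size r U ≤ 1
      · exact ⟨true, Finset.mem_univ _, by simpa using hs⟩
      · exact ⟨false, Finset.mem_univ _, by simpa using hs⟩)
    (fun b _ U hb hne => by
      by_cases hpU : p U
      · rw [act_of hpU, act_of hpU]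
        have hQU : Q U ≠ 0 := by
          intro h
          apply hne
          rw [act_of hpU, Qlin_zero _ _ _ h, pnorm_zero]
        have hUne : U.Nonempty := by
          rw [Finset.nonempty_iff_ne_empty]
          rintro rfl
          exact hQU hQ0
        cases b with
        | true =>
          simp only [if_true] at hb ⊢
          have h1 := pnorm_Qlin_small H N hg hrk hrank hev hUne hb
          have h2 : Γ ^ pack fd r' U ≤ Γ ^ pack fd r U :=
            pow_le_pow_right₀ hΓ (pack_anti (by omega))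
          calc Γ ^ pack fd r' U * _ ≤ Γ ^ pack fd r U * (kap p0 p1 q2 q0 C *
                pnorm (wU w a r U) (Q U)) := mul_le_mul' h2 h1
            _ = _ := by ring
        | false =>
          simp only [Bool.false_eq_true, if_false] at hb ⊢
          have hc0 : p0 + q0 ≠ 0 := by
            intro h
            exact N.p0_ne (add_eq_zero.1 h).1
          have h1 := pnorm_Qlin_large H.W0 H.W1 hc0 N.sum_le hg
            (fun f => loc2 (P0 f) (P1 f)) Q hb
          have h2 : pack fd r' U + 1 ≤ pack fd r U := by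
            refine pack_drop pd_fd (hconn U hQU) hR ?_
            rw [size_eq_pack] at hb
            omega
          have h3 : Γ ^ pack fd r' U ≤ Γ⁻¹ * Γ ^ pack fd r U := by
            calc Γ ^ pack fd r' U = Γ⁻¹ * (Γ * Γ ^ pack fd r' U) := by
                  rw [← mul_assoc, ENNReal.inv_mul_cancel hΓ0 hΓt, one_mul]
              _ = Γ⁻¹ * Γ ^ (pack fd r' U + 1) := by rw [pow_succ']
              _ ≤ _ := by gcongr
          calc Γ ^ pack fd r' U * _ ≤ (Γ⁻¹ * Γ ^ pack fd r U) * pnorm (wU w a r U) (Q U) :=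
                mul_le_mul' h3 h1
            _ = _ := by ring
      · exact absurd (act_not hpU) hne)
    (fun b _ f => by
      obtain ⟨net, hc, hn⟩ := hcov.net f
      exact ⟨net, hc, fun U _ _ hU => hn U hU⟩)
  refine key.trans (le_of_eq ?_)
  rw [Fintype.sum_bool]
  simp only [if_true, Bool.false_eq_true, if_false]
  ring

end Crest.Agent.R165.GBulkx417
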