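import Crest.Agent.R165.W2_812
import Crest.Agent.R165.FRDLat_439
import Crest.Agent.R165.GBulk2_417

/-!
# Row 165 (S0250), block G: the weight hypotheses `BulkHyp` of the plane step (helper812)

* `gw_semi` : the Gram weight of a block of slices is an extended seminorm
* `BkReg.W1` : (W1) in the plane
* `BkReg.bulkHyp` : a term of `GBulkx417.BulkHyp` for the plane background, with explicit constants
-/

set_option autoImplicit false

noncomputable section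

open scoped ENNReal
open Crest.Agent.R165.Gr0x606 Crest.Agent.R165.Latx683 Crest.Agent.R165.Locx901
  Crest.Agent.R165.PNormx417 Crest.Agent.R165.NWidthx386 Crest.Agent.R165.FRDPolyx439
  Crest.Agent.R165.FRDAbsx439 Crest.Agent.R165.FRDInfx439 Crest.Agent.R165.FRDLatx439
  Crest.Agent.R165.PlaneModesx901 Crest.Agent.R165.PlaneLocx901 Crest.Agent.R165.GDefx387
  Crest.Agent.R165.Wtx898

namespace Crest.Agent.R165.W2x812

section gram

variable {G : Type} [CommRing G] {Λ : ℝ} {M K : ℕ} (D : FRD Λ M K)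

theorem gB_psd (w : BW G) (h : ABtw (preF (HE G)) (AopF w) 0 Λ) (a b : ℕ) :
    PSD (gB D w a b) := by
  refine ⟨fun x y => ?_, gB_nonneg D w h a b⟩
  unfold gB
  simp only [LinearMap.sum_apply]
  exact Finset.sum_congr rfl fun j _ => gform_symm D (AopF_asy w) j x y

theorem gw_eq (w : BW G) (a b : ℕ) (l : Fld G) :
    gw D w a b l = ENNReal.ofReal (nB (gB D w a b) l) := rfl

/-- the Gram weight is an extended seminorm -/
theorem gw_semi (w : BW G) (h : ABtw (preF (HE G)) (AopF w) 0 Λ) (a b : ℕ) :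
    ESemi (gw D w a b) := by
  have hp := gB_psd D w h a b
  refine ⟨?_, fun x y => ?_, fun c x => ?_⟩
  · have := hp.smul_eq 0 (0 : Fld G)
    rw [zero_smul, abs_zero, zero_mul] at this
    rw [gw_eq, this, ENNReal.ofReal_zero]
  · rw [gw_eq, gw_eq, gw_eq, ← ENNReal.ofReal_add (nB_nonneg _ _) (nB_nonneg _ _)]
    exact ENNReal.ofReal_le_ofReal (hp.add_le x y)
  · rw [gw_eq, gw_eq, hp.smul_eq, ENNReal.ofReal_mul (abs_nonneg _), Real.enorm_eq_ofReal_abs]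

end gram

section plane

variable {C : ℝ} {a a' : ℝ} {r r' : ℕ} {x y : Fc}

/-- Reg1 in the plane, in the full test seminorm -/
theorem BkReg.nnB_reg1 (h : BkReg C) {r ρ : ℕ} (hr : 1 ≤ r) (hρ : 16 * r ≤ ρ) {f : Tst}
    (hf : nnB (wPl ℤ) ρ x f ≤ 1) : nnB (wPl ℤ) r x f ≤ (340000 * C + 1) * ((r : ℝ) / ρ) := by
  have hC := h.nonneg
  have hρ1 : 1 ≤ ρ := by omega
  have hρ0 : (0 : ℝ) < ρ := by exact_mod_cast (by omega : 0 < ρ)
  have hxx : fd x x ≤ r := by rw [fd_self]; exact Nat.zero_le _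
  have e1 := h.nnB_rest hr hρ hxx hf
  have e2 := h.nnB_T1 hr hρ1 hxx hf
  have e3 := h.nnB_T0 (x := x) hr hρ1 hf
  have e4 : f = (f - T0 x f - T1 x f) + T1 x f + T0 x f := by abel
  have hq : (r : ℝ) / ρ ≤ 1 := by
    rw [div_le_one hρ0]
    exact_mod_cast (by omega : r ≤ ρ)
  have hq0 : (0 : ℝ) ≤ (r : ℝ) / ρ := by positivity
  have hq3 : ((r : ℝ) / ρ) ^ 3 ≤ (r : ℝ) / ρ := pow_le_of_le_one hq0 hq (by norm_num)
  have hq2 : ((r : ℝ) / ρ) ^ 2 ≤ (r : ℝ) / ρ := pow_le_of_le_one hq0 hq (by norm_num)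
  have h1 : nnB (wPl ℤ) r x f ≤ nnB (wPl ℤ) r x (f - T0 x f - T1 x f) +
      nnB (wPl ℤ) r x (T1 x f) + nnB (wPl ℤ) r x (T0 x f) := by
    nth_rewrite 1 [e4]
    exact (nnB_add_le _ _ _ _ _).trans (add_le_add (nnB_add_le _ _ _ _ _) le_rfl)
  have h2 := mul_le_mul_of_nonneg_left hq3 (by positivity : (0 : ℝ) ≤ 170000 * C + 1)
  have h3 := mul_le_mul_of_nonneg_left hq2 (by positivity : (0 : ℝ) ≤ 160000 * C)
  have h4 : 0 ≤ C * ((r : ℝ) / ρ) := by positivity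
  nlinarith

/-- **(W1) in the plane** -/
theorem BkReg.W1 (h : BkReg C) (ha : 0 < a) (ha' : 0 ≤ a') (hr : 1 ≤ r) (hr' : 16 * r ≤ r')
    (x : Fc) : WLe (wPl ℤ) a a' r r' x x LinearMap.id
      (ENNReal.ofReal (a' * Real.sqrt r' / (a * Real.sqrt r) *
        ((340000 * C + 1) * ((r : ℝ) / r')))) := by
  refine WLe_of_dual ha (by omega) ha' _ (fun f => f) (fun l hl => ?_) (fun l _ f _ => le_rfl)
    fun f hf => h.nnB_reg1 hr hr' hf
  refine suppL_mono (ball_mono x ?_) hl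
  exact Nat.mul_le_mul_left _ (by omega)

/-- `‖wPl‖ ≤ 1` -/
theorem wPl_le (z : Fc) (j : Fin 2) : |wPl ℤ z j| ≤ 1 := by
  show |xc| ≤ 1
  rw [abs_of_pos xc_pos]; exact xc_le

/-- **the weight hypotheses of the plane step** -/
theorem BkReg.bulkHyp (h : BkReg C) {M K : ℕ} (D : FRD 16 M K) (hM : MM + 1 ≤ M) (ha : 0 < a)
    (ha' : 0 < a') (hr : 1 ≤ r) (hr' : 16 * r ≤ r') {j₁ j₂ : ℕ} {N : ℝ} (h1 : r ≤ 2 ^ j₁)
    (h2 : (2 : ℝ) ^ j₂ ≤ N * r) :
    GBulkx417.BulkHyp (wPl ℤ) a a' r r' (gw D (wPl ℤ) j₁ j₂) (fun f => (md f).P0)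
      (fun f => (md f).P1)
      (ENNReal.ofReal (a' * Real.sqrt r' / (a * Real.sqrt r) *
        ((340000 * C + 1) * ((r : ℝ) / r'))))
      (ENNReal.ofReal (a' * Real.sqrt r' / (a * Real.sqrt r) *
        ((160000 * C + 1) * ((r : ℝ) / r') ^ 2)))
      (ENNReal.ofReal (a' * Real.sqrt r' / (a * Real.sqrt r) *
        ((170000 * C + 1) * ((r : ℝ) / r') ^ 3)))
      (ENNReal.ofReal (7 * √(D.C * N) / a)) (ENNReal.ofReal (516 * C + 1)) where
  g_semi := gw_semi D _ (AopF_bdd _ wPl_le) _ _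
  W0 x l _ := gw_le_wt D hM _ (AopF_bdd _ wPl_le) j₁ j₂ r N h1 h2 ha x l
  W1 x := h.W1 ha ha'.le hr hr' x
  W2a x f hf := by
    have hC := h.nonneg
    refine Wtx898.WLe.mono (W2_P0 h ha ha'.le hr (by omega)) (ENNReal.ofReal_le_ofReal ?_)
    have : 0 ≤ (r : ℝ) / r' := by positivity
    gcongr
    linarith
  W2b x f hf := by
    have hC := h.nonneg
    refine Wtx898.WLe.mono (W2_P1 h ha ha'.le hr (by omega) hf) (ENNReal.ofReal_le_ofReal ?_)
    have : 0 ≤ (r : ℝ) / r' := by positivity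
    gcongr
    linarith
  W2c x f hf := W2_rest h ha ha'.le hr hr' hf
  W2d x f hf := by
    have hC := h.nonneg
    refine Wtx898.WLe.mono (W2_P0 h ha ha.le hr hr) (ENNReal.ofReal_le_ofReal ?_)
    have hr0 : (0 : ℝ) < r := by exact_mod_cast (by omega : 0 < r)
    have hs : 0 < a * Real.sqrt r := mul_pos ha (Real.sqrt_pos.2 hr0)
    rw [div_self hs.ne', div_self hr0.ne', mul_one, one_mul]
    linarith

/-! ### weights of the local functionals -/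

theorem wt_le_of_pair {w : BW ℤ} {a : ℝ} (ha : 0 ≤ a) {r : ℕ} {x : Fc} {l : Fld ℤ} {B : ℝ}
    (h : ∀ f, nnB w r x f ≤ 1 → |ev f l| ≤ B) :
    wt w a r x l ≤ ENNReal.ofReal (a * Real.sqrt r * B) := by
  rw [Wtx898.wt_eq, ENNReal.ofReal_mul (mul_nonneg ha (Real.sqrt_nonneg _))]
  gcongr
  refine dn_le_ofReal fun f hf => ?_
  rw [pair_eq_ev]
  exact h f hf

theorem BkReg.wt_phiA (h : BkReg C) (ha : 0 ≤ a) (hr : 1 ≤ r) (f : Fc) :
    wt (wPl ℤ) a r f (phiA f) ≤ ENNReal.ofReal (a * Real.sqrt r * (C / r)) :=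
  wt_le_of_pair ha fun g hg => (h.amp f r hr g hg).1

theorem BkReg.wt_phiB (h : BkReg C) (ha : 0 ≤ a) (hr : 1 ≤ r) (f : Fc) :
    wt (wPl ℤ) a r f (phiB f) ≤ ENNReal.ofReal (a * Real.sqrt r * (C / r)) :=
  wt_le_of_pair ha fun g hg => (h.amp f r hr g hg).2

theorem BkReg.wt_qU (h : BkReg C) (ha : 0 ≤ a) (hr : 1 ≤ r) (f : Fc) :
    wt (wPl ℤ) a r f (qU f) ≤ ENNReal.ofReal (a * Real.sqrt r * (C / r ^ 2)) :=
  wt_le_of_pair ha fun g hg => (h.slope f r hr g hg).1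

theorem BkReg.wt_qV (h : BkReg C) (ha : 0 ≤ a) (hr : 1 ≤ r) (f : Fc) :
    wt (wPl ℤ) a r f (qV f) ≤ ENNReal.ofReal (a * Real.sqrt r * (C / r ^ 2)) :=
  wt_le_of_pair ha fun g hg => (h.slope f r hr g hg).2.1

theorem BkReg.wt_qS (h : BkReg C) (ha : 0 ≤ a) (hr : 1 ≤ r) (f : Fc) :
    wt (wPl ℤ) a r f (qS f) ≤ ENNReal.ofReal (a * Real.sqrt r * (C / r ^ 2)) :=
  wt_le_of_pair ha fun g hg => (h.slope f r hr g hg).2.2.1

theorem BkReg.wt_qT (h : BkReg C) (ha : 0 ≤ a) (hr : 1 ≤ r) (f : Fc) :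
    wt (wPl ℤ) a r f (qT f) ≤ ENNReal.ofReal (a * Real.sqrt r * (C / r ^ 2)) :=
  wt_le_of_pair ha fun g hg => (h.slope f r hr g hg).2.2.2

end plane

end Crest.Agent.R165.W2x812
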