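import Crest.Agent.R165.LimE_797

/-!
# Row 165 (S0250), block R: EX at a branch vertex, definitions (helper797)

* `w0` : the plane with one branch vertex (lower left corner of the face `0`), cut to the right
* `t2` : the gauge which moves the cut to the left
* `Om1`, `Om2` : plane minus the positive (negative) real half line
* `EXbrSeq C` : the sequence form of `EXbr C` (reduction: helper936)
* `ModeLim` : sampling of the mode (helper841)
-/

set_option autoImplicit false

noncomputable section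

namespace Crest.Agent.R165.Bxx797

open Finset Filter Topology
open Crest.Agent.R165.Tr1x40
open Crest.Agent.R165.Campx891 (q)
open Crest.Agent.R165.RIfx891
open Crest.Agent.R165.Lim1x943 (pt LocUnif)
open Crest.Agent.R165.LimEx797

/-- one branch vertex at the origin, cut to the right -/
def w0 : Fld := fun f h => rayw 0 f h * xc

/-- the mode, trivial gauge, vertex at the origin -/
def u0 : Fld := modeBr (fun _ => 1) 0

/-- the gauge moving the cut to the left -/
def t2 (f : Face) : ℝ := if 0 ≤ f.2 then -1 else 1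

/-- plane minus the positive half line -/
def Om1 : Set ℂ := {z | -z ∈ Complex.slitPlane}

/-- plane minus the negative half line -/
def Om2 : Set ℂ := Complex.slitPlane

/-- sequence form of `EXbr` -/
def EXbrSeq (C : ℝ) : Prop :=
  ∀ (U : Ultrafilter ℕ) (r : ℕ → ℝ), Tendsto r (U : Filter ℕ) atTop → ∀ e : ℕ → Fld,
    (∀ᶠ k in (U : Filter ℕ), ∀ f ∈ bx 0 (r k), A w0 (e k) f = 0) →
    (∀ᶠ k in (U : Filter ℕ), NB 0 (r k) (e k) ≤ 1) →
    ∀ (m : ℕ) (η : ℝ), 0 < η →
      (∀ᶠ k in (U : Filter ℕ), NB 0 (r k * q ^ (2 * m)) (e k) ≤ C * q ^ m + η) ∧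
      (∀ᶠ k in (U : Filter ℕ), ∃ κ : ℝ,
        NB 0 (r k * q ^ (2 * m)) (e k - κ • u0) ≤ C * q ^ (3 * m) + η)

/-- amplitude limit of the mode in the chart `Om1` -/
def m1 (z : ℂ) : ℂ := (-z) ^ (-(1 / 2) : ℂ)

/-- amplitude limit of the mode in the chart `Om2` -/
def m2 (z : ℂ) : ℂ := -Complex.I * z ^ (-(1 / 2) : ℂ)

/-- sampling of the mode: rescaled limits in the two charts, and the mass bound -/
structure ModeLim (K : ℝ) : Prop where
  lim1 : ∀ {ι : Type} (U : Filter ι) (r : ι → ℝ), Tendsto r U atTop → ∀ h,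
    LocUnif U r Om1 (fun n f => Real.sqrt (r n) * u0 f h) (fun z => lv (m1 z) h)
  lim2 : ∀ {ι : Type} (U : Filter ι) (r : ι → ℝ), Tendsto r U atTop → ∀ h,
    LocUnif U r Om2 (fun n f => Real.sqrt (r n) * (t2 f * u0 f h)) (fun z => lv (m2 z) h)
  mass : ∀ t : ℝ, 1 ≤ t → NB 0 t u0 ^ 2 ≤ K * t

end Crest.Agent.R165.Bxx797
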