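import Crest.Agent.R165.BxA_797

/-!
# Row 165 (S0250), block R: EX at a branch vertex, the two charts (helper797)

* `locEx1`, `locEx2` : the fields `e` and `t2 · e` are locally exact in the two charts
* `pt_bound` : pointwise bound away from the vertex
* `exists_charts` : the limits `F1`, `F2`
-/

set_option autoImplicit false

noncomputable section

namespace Crest.Agent.R165.Bxx797

open Finset Filter Topology
open Crest.Agent.R165.Tr1x40
open Crest.Agent.R165.Campx891 (q)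
open Crest.Agent.R165.RIfx891
open Crest.Agent.R165.PotAx894 (Q mem_Q self_mem_Q Q_mono)
open Crest.Agent.R165.Intx811 (mass mass_nonneg harm pt_est sup_est)
open Crest.Agent.R165.Lim1x943 (pt flr LocBd LocUnif LocZero Bds lim limC d1 exists_nbhd pt_re pt_im)
open Crest.Agent.R165.LimEx797

/-- gauge `t2` -/
theorem gauge_t2 : Gauge t2 := by
  intro f; unfold t2; split_ifs <;> norm_num

/-- weights in the second chart -/
def w2 : Fld := fun f h => t2 f * t2 (nb f h) * w0 f h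

theorem isOpen_Om1 : IsOpen Om1 := Complex.isOpen_slitPlane.preimage continuous_neg

theorem isOpen_Om2 : IsOpen Om2 := Complex.isOpen_slitPlane

/-- the charts inside the unit disc -/
def Ob1 : Set ℂ := Om1 ∩ Metric.ball 0 1
def Ob2 : Set ℂ := Om2 ∩ Metric.ball 0 1

theorem isOpen_Ob1 : IsOpen Ob1 := isOpen_Om1.inter Metric.isOpen_ball
theorem isOpen_Ob2 : IsOpen Ob2 := isOpen_Om2.inter Metric.isOpen_ball

theorem w0_eq_of {g : Face} (h1 : ¬ (g.2 = 0 ∧ 0 ≤ g.1)) (h2 : ¬ (g.2 + 1 = 0 ∧ 0 ≤ g.1))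
    (h : Fin 4) : w0 g h = xc := by
  unfold w0 rayw
  rw [if_neg, one_mul]
  rintro (⟨-, a, b⟩ | ⟨-, a, b⟩)
  · exact h1 ⟨a, b⟩
  · exact h2 ⟨a, b⟩

theorem t2_nonneg {f : Face} (h : 0 ≤ f.2) : t2 f = -1 := if_pos h
theorem t2_neg {f : Face} (h : f.2 < 0) : t2 f = 1 := if_neg (not_le.2 h)

theorem rayw_S {g : Face} (h : g.2 = 0 ∧ 0 ≤ g.1) : rayw 0 g 0 = -1 := by
  unfold rayw; rw [if_pos]; exact Or.inl ⟨rfl, h.1, h.2⟩
theorem rayw_N {g : Face} (h : g.2 + 1 = 0 ∧ 0 ≤ g.1) : rayw 0 g 2 = -1 := by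
  unfold rayw; rw [if_pos]; exact Or.inr ⟨rfl, h.1, h.2⟩
theorem rayw_S' {g : Face} (h : ¬ (g.2 = 0 ∧ 0 ≤ g.1)) : rayw 0 g 0 = 1 := by
  unfold rayw; rw [if_neg]
  rintro (⟨-, a, b⟩ | ⟨c, -⟩)
  · exact h ⟨a, b⟩
  · exact absurd c (by decide)
theorem rayw_N' {g : Face} (h : ¬ (g.2 + 1 = 0 ∧ 0 ≤ g.1)) : rayw 0 g 2 = 1 := by
  unfold rayw; rw [if_neg]
  rintro (⟨c, -⟩ | ⟨-, a, b⟩)
  · exact absurd c (by decide)
  · exact h ⟨a, b⟩
theorem rayw_E (g : Face) : rayw 0 g 1 = 1 := by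
  unfold rayw; rw [if_neg]
  rintro (⟨c, -⟩ | ⟨c, -⟩) <;> exact absurd c (by decide)
theorem rayw_W (g : Face) : rayw 0 g 3 = 1 := by
  unfold rayw; rw [if_neg]
  rintro (⟨c, -⟩ | ⟨c, -⟩) <;> exact absurd c (by decide)

theorem w2_eq_of {g : Face} (h1 : ¬ (g.2 = 0 ∧ g.1 < 0)) (h2 : ¬ (g.2 + 1 = 0 ∧ g.1 < 0))
    (h : Fin 4) : w2 g h = xc := by
  have key : t2 g * t2 (nb g h) * rayw 0 g h = 1 := by
    fin_cases h
    · show t2 g * t2 (nb g 0) * rayw 0 g 0 = 1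
      by_cases a : g.2 = 0
      · have b : 0 ≤ g.1 := by by_contra hb; exact h1 ⟨a, not_le.1 hb⟩
        rw [t2_nonneg a.ge, t2_neg (by rw [nb_zero]; simp only; omega), rayw_S ⟨a, b⟩]; norm_num
      · rw [rayw_S' fun hc => a hc.1]
        rcases lt_or_ge g.2 0 with c | c
        · rw [t2_neg c, t2_neg (by rw [nb_zero]; simp only; omega)]; norm_num
        · rw [t2_nonneg c, t2_nonneg (by rw [nb_zero]; simp only; omega)]; norm_num
    · show t2 g * t2 (nb g 1) * rayw 0 g 1 = 1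
      have e : t2 (nb g 1) = t2 g := by rw [nb_one]; rfl
      rw [rayw_E, e, mul_one, ← pow_two, gauge_t2 g]
    · show t2 g * t2 (nb g 2) * rayw 0 g 2 = 1
      by_cases a : g.2 + 1 = 0
      · have b : 0 ≤ g.1 := by by_contra hb; exact h2 ⟨a, not_le.1 hb⟩
        rw [t2_neg (by omega), t2_nonneg (by rw [nb_two]; simp only; omega), rayw_N ⟨a, b⟩]
        norm_num
      · rw [rayw_N' fun hc => a hc.1]
        rcases lt_or_ge g.2 0 with c | c
        · rw [t2_neg c, t2_neg (by rw [nb_two]; simp only; omega)]; norm_num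
        · rw [t2_nonneg c, t2_nonneg (by rw [nb_two]; simp only; omega)]; norm_num
    · show t2 g * t2 (nb g 3) * rayw 0 g 3 = 1
      have e : t2 (nb g 3) = t2 g := by rw [nb_three]; rfl
      rw [rayw_W, e, mul_one, ← pow_two, gauge_t2 g]
  unfold w2 w0
  rw [← mul_assoc, key, one_mul]

theorem A_w2 (e : Fld) (f : Face) : A w2 (gm t2 e) f = fun h => t2 f * A w0 e f h :=
  A_gm gauge_t2 (w' := w0) (fun _ => rfl) e

theorem mass_le_NB {φ : Fld} {f : Face} {R : ℕ} {ρ : ℝ} (h : ∀ g ∈ Q f R, g ∈ bx 0 ρ) :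
    mass φ f R ≤ NB 0 ρ φ ^ 2 := by
  rw [NB_sq]
  exact sum_le_sum_of_subset_of_nonneg h fun g _ _ => nsq_nonneg _

theorem mass_gm (φ : Fld) (f : Face) (R : ℕ) : mass (gm t2 φ) f R = mass φ f R :=
  sum_congr rfl fun g _ => nsq_gm gauge_t2 φ g

theorem mem_bx_of_ball {r : ℝ} (hr : 0 < r) {g : Face} (h : pt r g ∈ Metric.ball (0 : ℂ) 1) :
    g ∈ bx 0 r := by
  rw [mem_ball_zero_iff] at h
  have h1 := Complex.abs_re_le_norm (pt r g)
  have h2 := Complex.abs_im_le_norm (pt r g)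
  rw [pt_re, abs_div, abs_of_pos hr] at h1
  rw [pt_im, abs_div, abs_of_pos hr] at h2
  rw [mem_bx_real]
  simp only [Prod.fst_zero, Prod.snd_zero, Int.cast_zero, sub_zero]
  constructor
  · have := h1.trans h.le
    rwa [div_le_iff₀ hr, one_mul] at this
  · have := h2.trans h.le
    rwa [div_le_iff₀ hr, one_mul] at this

theorem d1_pt_le {r ρ : ℝ} (hr : 0 < r) {f g : Face} {R : ℕ} (hR : (R : ℝ) ≤ ρ * r)
    (hg : g ∈ Q f R) : d1 (pt r g) (pt r f) ≤ 2 * ρ := by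
  rw [mem_Q] at hg
  have g1 : |(g.1 : ℝ) - f.1| ≤ R := by exact_mod_cast hg.1
  have g2 : |(g.2 : ℝ) - f.2| ≤ R := by exact_mod_cast hg.2
  unfold d1
  simp only [pt_re, pt_im, ← sub_div, abs_div, abs_of_pos hr]
  rw [← add_div, div_le_iff₀ hr]
  linarith

/-- common part of the two charts -/
theorem locEx_of {ι : Type} {U : Filter ι} {r : ι → ℝ} (hr : Tendsto r U atTop) {Ω : Set ℂ}
    (hΩ : IsOpen Ω) {w e : ι → Fld} (hb : ∀ z ∈ Ω, z ∈ Metric.ball (0 : ℂ) 1)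
    (hw : ∀ n, 0 < r n → ∀ g : Face, pt (r n) g ∈ Ω → pt (r n) (g.1, g.2 + 1) ∈ Ω →
      ∀ h, w n g h = xc)
    (hex : ∀ᶠ k in U, ∀ f ∈ bx 0 (r k), ∀ h, A (w k) (e k) f h = 0)
    (hnorm : ∀ᶠ k in U, NB 0 (r k) (e k) ≤ 1) : LocEx U r Ω w e := by
  intro K hK hKΩ
  obtain ⟨δ, hδ, K', hK', hK'Ω, -, hnb⟩ := exists_nbhd hΩ hK hKΩ
  refine ⟨δ / 4, by positivity, 1, ?_⟩
  filter_upwards [hex, hnorm, hr.eventually_gt_atTop 0, hr.eventually_ge_atTop (2 / δ)]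
    with n he hn hr0 hrd f hf
  have hfl : ((⌊δ / 4 * r n⌋₊ : ℕ) : ℝ) ≤ δ / 4 * r n := Nat.floor_le (by positivity)
  have hmem : ∀ g ∈ Q f ⌊δ / 4 * r n⌋₊, pt (r n) g ∈ Ω ∧ pt (r n) (g.1, g.2 + 1) ∈ Ω := by
    intro g hg
    have h1 := d1_pt_le hr0 hfl hg
    refine ⟨hK'Ω (hnb _ hf _ (h1.trans (by linarith))), hK'Ω (hnb _ hf _ ?_)⟩
    have h2 : d1 (pt (r n) (g.1, g.2 + 1)) (pt (r n) g) ≤ δ / 2 := by
      unfold d1
      simp only [pt_re, pt_im, sub_self, abs_zero, zero_add, ← sub_div]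
      push_cast
      rw [show (g.2 : ℝ) + 1 - g.2 = 1 by ring, abs_div, abs_one, abs_of_pos hr0,
        div_le_iff₀ hr0]
      rw [div_le_iff₀ hδ] at hrd
      linarith
    have := Lim1x943.d1_triangle (pt (r n) (g.1, g.2 + 1)) (pt (r n) g) (pt (r n) f)
    linarith
  refine ⟨fun g hg h => ⟨hw n hr0 g (hmem g hg).1 (hmem g hg).2 h, ?_⟩, ?_⟩
  · exact he g (mem_bx_of_ball hr0 (hb _ (hmem g hg).1)) h
  · have h1 := mass_le_NB (φ := e n) (f := f) (R := ⌊δ / 4 * r n⌋₊) (ρ := r n)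
      (fun g hg => mem_bx_of_ball hr0 (hb _ (hmem g hg).1))
    have h2 : NB 0 (r n) (e n) ^ 2 ≤ 1 := by
      have := apply_nonneg (NB 0 (r n)) (e n)
      nlinarith
    exact h1.trans h2

theorem not_cut1 {r : ℝ} (hr : 0 < r) {g : Face} (h : pt r g ∈ Om1) : ¬ (g.2 = 0 ∧ 0 ≤ g.1) := by
  rintro ⟨a, b⟩
  have h' : -pt r g ∈ Complex.slitPlane := h
  rw [Complex.mem_slitPlane_iff] at h'
  have hb : (0 : ℝ) ≤ g.1 := by exact_mod_cast b
  rcases h' with h' | h'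
  · rw [Complex.neg_re, pt_re] at h'
    have : 0 ≤ (g.1 : ℝ) / r := by positivity
    linarith
  · rw [Complex.neg_im, pt_im, a] at h'
    simp at h'

theorem not_cut2 {r : ℝ} (hr : 0 < r) {g : Face} (h : pt r g ∈ Om2) : ¬ (g.2 = 0 ∧ g.1 < 0) := by
  rintro ⟨a, b⟩
  have h' : pt r g ∈ Complex.slitPlane := h
  rw [Complex.mem_slitPlane_iff] at h'
  have hb : (g.1 : ℝ) < 0 := by exact_mod_cast b
  rcases h' with h' | h'
  · rw [pt_re] at h'
    have : (g.1 : ℝ) / r ≤ 0 := div_nonpos_of_nonpos_of_nonneg hb.le hr.le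
    linarith
  · rw [pt_im, a] at h'
    simp at h'

section seq

variable {U : Ultrafilter ℕ} {r : ℕ → ℝ} {e : ℕ → Fld}

theorem locEx1 (hr : Tendsto r (U : Filter ℕ) atTop)
    (hex : ∀ᶠ k in (U : Filter ℕ), ∀ f ∈ bx 0 (r k), A w0 (e k) f = 0)
    (hnorm : ∀ᶠ k in (U : Filter ℕ), NB 0 (r k) (e k) ≤ 1) :
    LocEx (U : Filter ℕ) r Ob1 (fun _ => w0) e := by
  refine locEx_of hr isOpen_Ob1 (fun z hz => hz.2) ?_ ?_ hnorm
  · intro n hn g h1 h2 h
    exact w0_eq_of (not_cut1 hn h1.1) (not_cut1 hn h2.1) h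
  · exact hex.mono fun k hk f hf h => by rw [hk f hf]; rfl

theorem locEx2 (hr : Tendsto r (U : Filter ℕ) atTop)
    (hex : ∀ᶠ k in (U : Filter ℕ), ∀ f ∈ bx 0 (r k), A w0 (e k) f = 0)
    (hnorm : ∀ᶠ k in (U : Filter ℕ), NB 0 (r k) (e k) ≤ 1) :
    LocEx (U : Filter ℕ) r Ob2 (fun _ => w2) (fun k => gm t2 (e k)) := by
  refine locEx_of hr isOpen_Ob2 (fun z hz => hz.2) ?_ ?_ ?_
  · intro n hn g h1 h2 h
    exact w2_eq_of (not_cut2 hn h1.1) (not_cut2 hn h2.1) h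
  · exact hex.mono fun k hk f hf h => by rw [A_w2]; simp only; rw [hk f hf]; simp
  · exact hnorm.mono fun k hk => by rw [NB_gm gauge_t2]; exact hk

end seq

/-! ### pointwise bound away from the vertex -/

theorem sup_of {w φ : Fld} {f : Face} {R : ℕ} (hR : 0 < R) (hw : ∀ g ∈ Q f R, ∀ h, w g h = xc)
    (he : ∀ g ∈ Q f R, ∀ h, A w φ g h = 0) (a : Fin 4) :
    φ f a ^ 2 ≤ 113729 / (R : ℝ) ^ 2 * mass φ f R := by
  have e1 : R - 1 + 1 = R := by omega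
  refine sup_est hR (harm (w := w) ?_ ?_ a) (self_mem_Q f _)
  · rw [e1]; exact hw
  · rw [e1]; exact he

/-- sup norm of a face -/
def dist0 (f : Face) : ℕ := max f.1.natAbs f.2.natAbs

theorem pt_bound {e : Fld} {ρ : ℝ} (he : ∀ f ∈ bx 0 ρ, A w0 e f = 0) {f : Face}
    (hd : 32 ≤ dist0 f) (hρ : 2 * (dist0 f : ℝ) ≤ ρ) (a : Fin 4) :
    |e f a| ≤ 2700 / dist0 f * NB 0 (2 * dist0 f) e := by
  set d := dist0 f with hdd
  have hd0 : (0 : ℝ) < d := by
    have : 0 < d := by omega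
    exact_mod_cast this
  have hR : 0 < d / 4 := by omega
  have hbox : ∀ g ∈ Q f (d / 4), g ∈ bx 0 (2 * (d : ℝ)) := by
    intro g hg
    rw [mem_Q, abs_le, abs_le] at hg
    rw [mem_bx_real]
    simp only [Prod.fst_zero, Prod.snd_zero, Int.cast_zero, sub_zero]
    have h1 : |g.1| ≤ 2 * (d : ℤ) ∧ |g.2| ≤ 2 * (d : ℤ) := by
      have a1 : f.1.natAbs ≤ d := le_max_left _ _
      have a2 : f.2.natAbs ≤ d := le_max_right _ _
      rw [abs_le, abs_le]
      omega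
    constructor
    · exact_mod_cast h1.1
    · exact_mod_cast h1.2
  have hexact : ∀ g ∈ Q f (d / 4), A w0 e g = 0 := fun g hg => he g (bx_mono 0 hρ (hbox g hg))
  have main : ∀ φ : Fld, (∃ w : Fld, (∀ g ∈ Q f (d / 4), ∀ h, w g h = xc) ∧
      (∀ g ∈ Q f (d / 4), ∀ h, A w φ g h = 0)) → φ f a ^ 2 ≤
        (2700 / d) ^ 2 * mass φ f (d / 4) := by
    rintro φ ⟨w, h1, h2⟩
    refine (sup_of hR h1 h2 a).trans (mul_le_mul_of_nonneg_right ?_ (mass_nonneg _ _ _))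
    have h3 : (d : ℝ) ≤ 8 * ((d / 4 : ℕ) : ℝ) := by
      have : d ≤ 8 * (d / 4) := by omega
      exact_mod_cast this
    have h4 : (0 : ℝ) < ((d / 4 : ℕ) : ℝ) := by exact_mod_cast hR
    rw [div_pow, div_le_div_iff₀ (by positivity) (by positivity)]
    nlinarith [mul_self_le_mul_self hd0.le h3]
  have fin : ∀ x : ℝ, x ^ 2 ≤ (2700 / d) ^ 2 * mass e f (d / 4) →
      |x| ≤ 2700 / d * NB 0 (2 * (d : ℝ)) e := by
    intro x hx
    have h1 := mass_le_NB hbox (φ := e)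
    refine abs_le_of_sq_le_sq ?_ (by positivity)
    rw [mul_pow]
    exact hx.trans (mul_le_mul_of_nonneg_left h1 (by positivity))
  by_cases hc : f.1 = d
  · have h1 := main (gm t2 e) ⟨w2, fun g hg => w2_eq_of (by rw [mem_Q, abs_le, abs_le] at hg; omega)
      (by rw [mem_Q, abs_le, abs_le] at hg; omega), fun g hg h => by
        rw [A_w2]; simp only; rw [hexact g hg]; simp⟩
    rw [mass_gm, gm_apply, mul_pow, gauge_t2, one_mul] at h1
    exact fin _ h1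
  · have hcase : f.1 = -(d : ℤ) ∨ f.2 = d ∨ f.2 = -(d : ℤ) := by
      have : d = f.1.natAbs ∨ d = f.2.natAbs := by
        rw [hdd]; unfold dist0; exact max_choice _ _
      omega
    exact fin _ (main e ⟨w0, fun g hg => w0_eq_of (by rw [mem_Q, abs_le, abs_le] at hg; omega)
      (by rw [mem_Q, abs_le, abs_le] at hg; omega), fun g hg h => by rw [hexact g hg]; rfl⟩)

end Crest.Agent.R165.Bxx797
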