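import Crest.Agent.R165.BxB_797

/-!
# Row 165 (S0250), block R: EX at a branch vertex, the limits `F1`, `F2` (helper797)
-/

set_option autoImplicit false

noncomputable section

namespace Crest.Agent.R165.Bxx797

open Finset Filter Topology
open Crest.Agent.R165.Tr1x40
open Crest.Agent.R165.Campx891 (q)
open Crest.Agent.R165.RIfx891
open Crest.Agent.R165.PotAx894 (Q mem_Q self_mem_Q Q_mono)
open Crest.Agent.R165.Lim1x943 (pt flr LocBd LocUnif LocZero Bds lim limC d1 exists_nbhd pt_re pt_im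
  tendsto_flr_sub)
open Crest.Agent.R165.LimEx797

/-- no concentration at the branch vertex, exact solutions -/
def NCbr (K : ℝ) : Prop := ∀ (e : Fld) (ρ t : ℝ), 1 ≤ t → t ≤ ρ → (∀ f ∈ bx 0 ρ, A w0 e f = 0) →
  NB 0 t e ^ 2 ≤ K * (t / ρ) * NB 0 ρ e ^ 2

theorem lv_one (c : ℂ) : lv c 1 = c.re := rfl
theorem lv_three (c : ℂ) : lv c 3 = -c.im := rfl

theorem continuousOn_lv {F : ℂ → ℂ} {Ω : Set ℂ} (hF : ContinuousOn F Ω) (h : Fin 4) :
    ContinuousOn (fun z => lv (F z) h) Ω := by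
  have h1 := Complex.continuous_re.comp_continuousOn hF
  have h2 := Complex.continuous_im.comp_continuousOn hF
  fin_cases h
  · exact ((h1.add h2).neg).div_const _
  · exact h1
  · exact (h2.sub h1).div_const _
  · exact h2.neg

theorem abs_lv_le (c : ℂ) (h : Fin 4) : |lv c h| ≤ ‖c‖ := by
  have hn : ‖c‖ ^ 2 = c.re ^ 2 + c.im ^ 2 := by
    rw [← Complex.normSq_eq_norm_sq, Complex.normSq_apply]; ring
  refine abs_le_of_sq_le_sq ?_ (norm_nonneg _)
  rw [hn]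
  have h2 := sq2
  have s2 : Real.sqrt 2 ≠ 0 := ne_of_gt sq2_pos
  have e : ∀ a : ℝ, (a / Real.sqrt 2) ^ 2 = a ^ 2 / 2 := by
    intro a; rw [div_pow, Real.sq_sqrt (by norm_num)]
  fin_cases h
  · show (-(c.re + c.im) / Real.sqrt 2) ^ 2 ≤ _
    rw [e]; nlinarith [sq_nonneg (c.re - c.im)]
  · show c.re ^ 2 ≤ _
    nlinarith [sq_nonneg c.im]
  · show ((c.im - c.re) / Real.sqrt 2) ^ 2 ≤ _
    rw [e]; nlinarith [sq_nonneg (c.re + c.im)]
  · show (-c.im) ^ 2 ≤ _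
    nlinarith [sq_nonneg c.re]

theorem lv_sub (c d : ℂ) (h : Fin 4) : lv (c - d) h = lv c h - lv d h := by
  fin_cases h <;> simp only [lv, Complex.sub_re, Complex.sub_im] <;> ring

theorem lv_smul (k : ℝ) (c : ℂ) (h : Fin 4) : lv (k * c) h = k * lv c h := by
  fin_cases h <;> simp only [lv, Complex.mul_re, Complex.mul_im, Complex.ofReal_re,
    Complex.ofReal_im] <;> ring

theorem lv_inj {c d : ℂ} (h : ∀ k, lv c k = lv d k) : c = d := by
  have h1 := h 1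
  have h3 := h 3
  rw [lv_one, lv_one] at h1
  rw [lv_three, lv_three] at h3
  exact Complex.ext h1 (by linarith)

theorem tendsto_flr {U : Filter ℕ} {r : ℕ → ℝ} (hr : Tendsto r U atTop) (z : ℂ) :
    Tendsto (fun n => (dist0 (flr (r n) z) : ℝ) / r n) U (𝓝 (max |z.re| |z.im|)) := by
  obtain ⟨h1, h2⟩ := tendsto_flr_sub hr 0 z
  have e0 : ∀ x : ℝ, flr x 0 = 0 := by
    intro x; ext <;> simp [flr]
  simp only [e0, Prod.fst_zero, Prod.snd_zero, sub_zero, Complex.zero_re, Complex.zero_im] at h1 h2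
  refine ((h1.abs).max (h2.abs)).congr' ?_
  filter_upwards [hr.eventually_gt_atTop 0] with n hn
  rw [abs_div, abs_div, abs_of_pos hn, max_div_div_right hn.le]
  congr 1
  unfold dist0
  rw [Nat.cast_max, Nat.cast_natAbs, Nat.cast_natAbs]
  push_cast
  rfl

section seq

variable {U : Ultrafilter ℕ} {r : ℕ → ℝ} {e : ℕ → Fld} {K : ℝ}

/-- the pointwise bound, rescaled -/
theorem scaled_bound (hr : Tendsto r (U : Filter ℕ) atTop)
    (hex : ∀ᶠ k in (U : Filter ℕ), ∀ f ∈ bx 0 (r k), A w0 (e k) f = 0)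
    (hnorm : ∀ᶠ k in (U : Filter ℕ), NB 0 (r k) (e k) ≤ 1) (hK0 : 0 ≤ K) (hK : NCbr K) :
    ∀ᶠ n in (U : Filter ℕ), ∀ f : Face, 32 ≤ dist0 f → 2 * (dist0 f : ℝ) ≤ r n → ∀ a,
      (r n * e n f a) ^ 2 * (dist0 f / r n) ≤ 2 * 2700 ^ 2 * K := by
  filter_upwards [hex, hnorm, hr.eventually_gt_atTop 0] with n h1 h2 hr0 f hd hd2 a
  have hd0 : (0 : ℝ) < dist0 f := by
    have : 0 < dist0 f := by omega
    exact_mod_cast this
  have h3 := pt_bound h1 hd hd2 a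
  have hd1 : (1 : ℝ) ≤ dist0 f := by
    have : 1 ≤ dist0 f := by omega
    exact_mod_cast this
  have h4 := hK (e n) (r n) (2 * dist0 f) (by linarith) hd2 h1
  have h5 : NB 0 (r n) (e n) ^ 2 ≤ 1 := by
    have := apply_nonneg (NB 0 (r n)) (e n)
    nlinarith
  have h6 : NB 0 (2 * (dist0 f : ℝ)) (e n) ^ 2 ≤ K * (2 * dist0 f / r n) := by
    refine h4.trans ?_
    have : 0 ≤ K * (2 * dist0 f / r n) := by positivity
    nlinarith
  have h7 : (e n f a) ^ 2 ≤ (2700 / dist0 f) ^ 2 * (K * (2 * dist0 f / r n)) := by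
    have h8 : (e n f a) ^ 2 ≤ (2700 / dist0 f * NB 0 (2 * (dist0 f : ℝ)) (e n)) ^ 2 :=
      sq_le_sq' (by linarith [(abs_le.1 h3).1]) (abs_le.1 h3).2
    rw [mul_pow] at h8
    exact h8.trans (mul_le_mul_of_nonneg_left h6 (by positivity))
  calc (r n * e n f a) ^ 2 * (dist0 f / r n) = r n ^ 2 * (dist0 f / r n) * (e n f a) ^ 2 := by ring
    _ ≤ r n ^ 2 * (dist0 f / r n) * ((2700 / dist0 f) ^ 2 * (K * (2 * dist0 f / r n))) := by
        gcongr
    _ = 2 * 2700 ^ 2 * K := by field_simp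

/-- bound of a limit -/
theorem limit_bound (hr : Tendsto r (U : Filter ℕ) atTop)
    (hex : ∀ᶠ k in (U : Filter ℕ), ∀ f ∈ bx 0 (r k), A w0 (e k) f = 0)
    (hnorm : ∀ᶠ k in (U : Filter ℕ), NB 0 (r k) (e k) ≤ 1) (hK0 : 0 ≤ K) (hK : NCbr K)
    {s : Face → ℝ} (hs : Gauge s) {Ω : Set ℂ} (hΩ : IsOpen Ω) {F : ℂ → ℂ} (hF : ContinuousOn F Ω)
    (hlim : ∀ h, LocUnif (U : Filter ℕ) r Ω (vc r (fun k => gm s (e k)) h) (fun z => lv (F z) h))
    {z : ℂ} (hz : z ∈ Ω) (hz0 : z ≠ 0) (hz1 : ‖z‖ ≤ 1 / 4) :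
    ‖F z‖ ^ 2 * ‖z‖ ≤ 8 * 2700 ^ 2 * K := by
  have hmax : ‖z‖ ≤ 2 * max |z.re| |z.im| := by
    have := Complex.norm_le_abs_re_add_abs_im z
    have a := le_max_left |z.re| |z.im|
    have b := le_max_right |z.re| |z.im|
    linarith
  have hzn : 0 < ‖z‖ := norm_pos_iff.2 hz0
  have hm0 : 0 < max |z.re| |z.im| := by linarith
  have hm1 : max |z.re| |z.im| ≤ 1 / 4 :=
    max_le ((Complex.abs_re_le_norm z).trans hz1) ((Complex.abs_im_le_norm z).trans hz1)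
  have ht := tendsto_flr hr z
  have key : ∀ h, (lv (F z) h) ^ 2 * max |z.re| |z.im| ≤ 2 * 2700 ^ 2 * K := by
    intro h
    have t1 := (hlim h).tendsto hr hΩ (continuousOn_lv hF h) hz
    have t2 := (t1.pow 2).mul ht
    refine le_of_tendsto t2 ?_
    have e1 : ∀ᶠ n in (U : Filter ℕ), (dist0 (flr (r n) z) : ℝ) / r n < 1 / 2 :=
      ht.eventually_lt_const (by linarith)
    have e2 : ∀ᶠ n in (U : Filter ℕ), max |z.re| |z.im| / 2 < (dist0 (flr (r n) z) : ℝ) / r n :=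
      ht.eventually_const_lt (by linarith)
    filter_upwards [scaled_bound hr hex hnorm hK0 hK, e1, e2, hr.eventually_gt_atTop 0,
      hr.eventually_ge_atTop (64 / max |z.re| |z.im|)] with n hn h1 h2 hr0 hr1
    have hd2 : 2 * (dist0 (flr (r n) z) : ℝ) ≤ r n := by
      rw [div_lt_iff₀ hr0] at h1; linarith
    have hd1 : 32 ≤ dist0 (flr (r n) z) := by
      rw [lt_div_iff₀ hr0] at h2
      rw [div_le_iff₀ hm0] at hr1
      have : (32 : ℝ) < dist0 (flr (r n) z) := by nlinarith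
      have : 32 < dist0 (flr (r n) z) := by exact_mod_cast this
      omega
    have := hn _ hd1 hd2 h
    have e : vc r (fun k => gm s (e k)) h n (flr (r n) z) ^ 2 = (r n * e n (flr (r n) z) h) ^ 2 := by
      unfold vc
      simp only
      rw [gm_apply, mul_pow, mul_pow, mul_pow, hs, one_mul]
    rw [e]; exact this
  have hn : ‖F z‖ ^ 2 = (lv (F z) 1) ^ 2 + (lv (F z) 3) ^ 2 := by
    rw [← Complex.normSq_eq_norm_sq, Complex.normSq_apply, lv_one, lv_three]; ring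
  have k1 := key 1
  have k3 := key 3
  calc ‖F z‖ ^ 2 * ‖z‖ ≤ ‖F z‖ ^ 2 * (2 * max |z.re| |z.im|) := by gcongr
    _ = 2 * ((lv (F z) 1) ^ 2 * max |z.re| |z.im| + (lv (F z) 3) ^ 2 * max |z.re| |z.im|) := by
        rw [hn]; ring
    _ ≤ 8 * 2700 ^ 2 * K := by linarith

theorem gm_one (φ : Fld) : gm (fun _ => 1) φ = φ := by
  funext f h; rw [gm_apply, one_mul]

/-- the two limits -/
structure Charts (U : Ultrafilter ℕ) (r : ℕ → ℝ) (e : ℕ → Fld) (C : ℝ) (F1 F2 : ℂ → ℂ) :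
    Prop where
  d1 : DifferentiableOn ℂ F1 Ob1
  d2 : DifferentiableOn ℂ F2 Ob2
  lim1 : ∀ h, LocUnif (U : Filter ℕ) r Ob1 (fun n f => r n * e n f h) (fun z => lv (F1 z) h)
  lim2 : ∀ h, LocUnif (U : Filter ℕ) r Ob2 (fun n f => r n * (t2 f * e n f h))
    (fun z => lv (F2 z) h)
  up : ∀ z ∈ Metric.ball (0 : ℂ) 1, 0 < z.im → F2 z = -F1 z
  dn : ∀ z ∈ Metric.ball (0 : ℂ) 1, z.im < 0 → F2 z = F1 z
  b1 : ∀ z ∈ Ob1, ‖z‖ ≤ 1 / 4 → ‖F1 z‖ ^ 2 * ‖z‖ ≤ C
  b2 : ∀ z ∈ Ob2, ‖z‖ ≤ 1 / 4 → ‖F2 z‖ ^ 2 * ‖z‖ ≤ C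

theorem ne_zero_of_Ob1 {z : ℂ} (hz : z ∈ Ob1) : z ≠ 0 := by
  rintro rfl
  have h : -(0 : ℂ) ∈ Complex.slitPlane := hz.1
  simp at h

theorem ne_zero_of_Ob2 {z : ℂ} (hz : z ∈ Ob2) : z ≠ 0 := by
  rintro rfl
  have h : (0 : ℂ) ∈ Complex.slitPlane := hz.1
  simp at h

theorem mem_Om1_of_im {z : ℂ} (h : z.im ≠ 0) : z ∈ Om1 := by
  show -z ∈ Complex.slitPlane
  rw [Complex.mem_slitPlane_iff]; right; simpa using h

theorem mem_Om2_of_im {z : ℂ} (h : z.im ≠ 0) : z ∈ Om2 := by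
  show z ∈ Complex.slitPlane
  rw [Complex.mem_slitPlane_iff]; right; exact h

theorem exists_charts (hr : Tendsto r (U : Filter ℕ) atTop)
    (hex : ∀ᶠ k in (U : Filter ℕ), ∀ f ∈ bx 0 (r k), A w0 (e k) f = 0)
    (hnorm : ∀ᶠ k in (U : Filter ℕ), NB 0 (r k) (e k) ≤ 1) (hK0 : 0 ≤ K) (hK : NCbr K) :
    ∃ F1 F2 : ℂ → ℂ, Charts U r e (8 * 2700 ^ 2 * K) F1 F2 := by
  obtain ⟨F1, hd1, hl1⟩ := (locEx1 hr hex hnorm).exists_limit hr isOpen_Ob1
  obtain ⟨F2, hd2, hl2⟩ := (locEx2 hr hex hnorm).exists_limit hr isOpen_Ob2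
  have e2 : ∀ h n f, vc r (fun k => gm t2 (e k)) h n f = r n * (t2 f * e n f h) :=
    fun h n f => rfl
  have hl1' : ∀ h, LocUnif (U : Filter ℕ) r Ob1 (vc r (fun k => gm (fun _ => 1) (e k)) h)
      (fun z => lv (F1 z) h) := by
    intro h
    have := hl1 h
    simp only [gm_one]; exact this
  refine ⟨F1, F2, hd1, hd2, hl1, hl2, ?_, ?_, ?_, ?_⟩
  · intro z hz him
    have z1 : z ∈ Ob1 := ⟨mem_Om1_of_im him.ne', hz⟩
    have z2 : z ∈ Ob2 := ⟨mem_Om2_of_im him.ne', hz⟩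
    refine lv_inj fun h => ?_
    have a1 := (hl1 h).tendsto hr isOpen_Ob1 (continuousOn_lv hd1.continuousOn h) z1
    have a2 := (hl2 h).tendsto hr isOpen_Ob2 (continuousOn_lv hd2.continuousOn h) z2
    have a3 : Tendsto (fun n => vc r (fun k => gm t2 (e k)) h n (flr (r n) z)) (U : Filter ℕ)
        (𝓝 (-lv (F1 z) h)) := by
      refine a1.neg.congr' ?_
      filter_upwards [hr.eventually_gt_atTop 0] with n hn
      rw [e2, t2_nonneg (by
        show 0 ≤ ⌊r n * z.im⌋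
        exact Int.floor_nonneg.2 (by positivity))]
      unfold vc; ring
    have := tendsto_nhds_unique a2 a3
    rw [this]
    have : -F1 z = ((-1 : ℝ) : ℂ) * F1 z := by push_cast; ring
    rw [this, lv_smul]; ring
  · intro z hz him
    have z1 : z ∈ Ob1 := ⟨mem_Om1_of_im him.ne, hz⟩
    have z2 : z ∈ Ob2 := ⟨mem_Om2_of_im him.ne, hz⟩
    refine lv_inj fun h => ?_
    have a1 := (hl1 h).tendsto hr isOpen_Ob1 (continuousOn_lv hd1.continuousOn h) z1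
    have a2 := (hl2 h).tendsto hr isOpen_Ob2 (continuousOn_lv hd2.continuousOn h) z2
    have a3 : Tendsto (fun n => vc r (fun k => gm t2 (e k)) h n (flr (r n) z)) (U : Filter ℕ)
        (𝓝 (lv (F1 z) h)) := by
      refine a1.congr' ?_
      filter_upwards [hr.eventually_gt_atTop 0] with n hn
      rw [e2, t2_neg (by
        show ⌊r n * z.im⌋ < 0
        exact Int.floor_lt.2 (by push_cast; nlinarith))]
      unfold vc; ring
    exact tendsto_nhds_unique a2 a3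
  · intro z hz h1
    exact limit_bound hr hex hnorm hK0 hK (s := fun _ => 1) (fun _ => by norm_num) isOpen_Ob1
      hd1.continuousOn hl1' hz (ne_zero_of_Ob1 hz) h1
  · intro z hz h1
    exact limit_bound hr hex hnorm hK0 hK gauge_t2 isOpen_Ob2 hd2.continuousOn hl2 hz
      (ne_zero_of_Ob2 hz) h1

end seq

end Crest.Agent.R165.Bxx797
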