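import Crest.Agent.R165.BxC_797

/-!
# Row 165 (S0250), block R: EX at a branch vertex, the regular part (helper797)

`exists_g` : `F1 = g m1`, `F2 = g m2` with `g` holomorphic near `0`; quantitative form
`‖F z - g(0) m z‖ ≤ L √‖z‖`.
-/

set_option autoImplicit false

noncomputable section

namespace Crest.Agent.R165.Bxx797

open Finset Filter Topology

theorem exp_neg_half_pi : Complex.exp (-(Real.pi : ℂ) * Complex.I * (1 / 2)) = -Complex.I := by
  have e : -(Real.pi : ℂ) * Complex.I * (1 / 2) = ((-(Real.pi / 2) : ℝ) : ℂ) * Complex.I := by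
    push_cast; ring
  rw [e, Complex.exp_mul_I, ← Complex.ofReal_cos, ← Complex.ofReal_sin, Real.cos_neg,
    Real.sin_neg, Real.cos_pi_div_two, Real.sin_pi_div_two]
  simp

theorem exp_half_pi : Complex.exp ((Real.pi : ℂ) * Complex.I * (1 / 2)) = Complex.I := by
  have e : (Real.pi : ℂ) * Complex.I * (1 / 2) = (((Real.pi / 2) : ℝ) : ℂ) * Complex.I := by
    push_cast; ring
  rw [e, Complex.exp_mul_I, ← Complex.ofReal_cos, ← Complex.ofReal_sin,
    Real.cos_pi_div_two, Real.sin_pi_div_two]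
  simp

theorem neg_cpow_up {z : ℂ} (h : 0 < z.im) :
    (-z) ^ (1 / 2 : ℂ) = -Complex.I * z ^ (1 / 2 : ℂ) := by
  have hz : z ≠ 0 := by rintro rfl; simp at h
  have hl : Complex.log (-z) = Complex.log z + -(Real.pi : ℂ) * Complex.I := by
    rw [Complex.log, Complex.log, Complex.arg_neg_eq_arg_sub_pi_of_im_pos h, norm_neg]
    push_cast; ring
  rw [Complex.cpow_def_of_ne_zero (neg_ne_zero.2 hz), Complex.cpow_def_of_ne_zero hz, hl, add_mul,
    Complex.exp_add, exp_neg_half_pi]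
  ring

theorem neg_cpow_dn {z : ℂ} (h : z.im < 0) :
    (-z) ^ (1 / 2 : ℂ) = Complex.I * z ^ (1 / 2 : ℂ) := by
  have hz : z ≠ 0 := by rintro rfl; simp at h
  have hl : Complex.log (-z) = Complex.log z + (Real.pi : ℂ) * Complex.I := by
    rw [Complex.log, Complex.log, Complex.arg_neg_eq_arg_add_pi_of_im_neg h, norm_neg]
    push_cast; ring
  rw [Complex.cpow_def_of_ne_zero (neg_ne_zero.2 hz), Complex.cpow_def_of_ne_zero hz, hl, add_mul,
    Complex.exp_add, exp_half_pi]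
  ring

theorem norm_cpow_half (z : ℂ) : ‖z ^ (1 / 2 : ℂ)‖ = Real.sqrt ‖z‖ := by
  have e : (1 / 2 : ℂ) = ((1 / 2 : ℝ) : ℂ) := by push_cast; ring
  rw [e, Complex.norm_cpow_real, Real.sqrt_eq_rpow]

theorem norm_m1 (z : ℂ) : ‖m1 z‖ = (Real.sqrt ‖z‖)⁻¹ := by
  unfold m1
  rw [Complex.cpow_neg, norm_inv, norm_cpow_half, norm_neg]

theorem norm_m2 (z : ℂ) : ‖m2 z‖ = (Real.sqrt ‖z‖)⁻¹ := by
  unfold m2
  rw [Complex.cpow_neg, norm_mul, norm_inv, norm_cpow_half, norm_neg, Complex.norm_I, one_mul]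

theorem cpow_half_ne {z : ℂ} (hz : z ≠ 0) : z ^ (1 / 2 : ℂ) ≠ 0 := by
  rw [Complex.cpow_def_of_ne_zero hz]; exact Complex.exp_ne_zero _

theorem m1_mul {z : ℂ} (hz : z ≠ 0) : (-z) ^ (1 / 2 : ℂ) * m1 z = 1 := by
  unfold m1
  rw [Complex.cpow_neg, mul_inv_cancel₀ (cpow_half_ne (neg_ne_zero.2 hz))]

theorem m2_mul {z : ℂ} (hz : z ≠ 0) : Complex.I * z ^ (1 / 2 : ℂ) * m2 z = 1 := by
  unfold m2
  rw [Complex.cpow_neg]
  have h1 : z ^ (1 / 2 : ℂ) * (z ^ (1 / 2 : ℂ))⁻¹ = 1 := mul_inv_cancel₀ (cpow_half_ne hz)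
  linear_combination (-Complex.I * Complex.I) * h1 - Complex.I_mul_I

open Classical in
/-- the regular function -/
def GG (F1 F2 : ℂ → ℂ) (z : ℂ) : ℂ :=
  if z ∈ Om1 then F1 z * (-z) ^ (1 / 2 : ℂ) else Complex.I * F2 z * z ^ (1 / 2 : ℂ)

theorem GG_1 {F1 F2 : ℂ → ℂ} {z : ℂ} (hz : z ∈ Om1) : GG F1 F2 z = F1 z * (-z) ^ (1 / 2 : ℂ) :=
  if_pos hz

section

variable {U : Ultrafilter ℕ} {r : ℕ → ℝ} {e : ℕ → Tr1x40.Fld} {C : ℝ} {F1 F2 : ℂ → ℂ}

theorem Charts.GG_2 (H : Charts U r e C F1 F2) {z : ℂ} (hz : z ∈ Ob2) :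
    GG F1 F2 z = Complex.I * F2 z * z ^ (1 / 2 : ℂ) := by
  by_cases h1 : z ∈ Om1
  · rw [GG_1 h1]
    have him : z.im ≠ 0 := by
      intro h0
      have a : -z ∈ Complex.slitPlane := h1
      have b : z ∈ Complex.slitPlane := hz.1
      rw [Complex.mem_slitPlane_iff] at a b
      rw [Complex.neg_re, Complex.neg_im, h0] at a
      rw [h0] at b
      simp only [neg_zero, ne_eq, not_true_eq_false, or_false] at a b
      linarith
    rcases lt_or_gt_of_ne him with h | h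
    · rw [neg_cpow_dn h, H.dn z hz.2 h]; ring
    · rw [neg_cpow_up h, H.up z hz.2 h]; ring
  · exact if_neg h1

theorem mem_Om {z : ℂ} (hz : z ≠ 0) : z ∈ Om1 ∨ z ∈ Om2 := by
  by_cases him : z.im = 0
  · have hre : z.re ≠ 0 := fun h => hz (Complex.ext h him)
    rcases lt_or_gt_of_ne hre with h | h
    · left
      show -z ∈ Complex.slitPlane
      rw [Complex.mem_slitPlane_iff]; left; simpa using h
    · right
      show z ∈ Complex.slitPlane
      rw [Complex.mem_slitPlane_iff]; left; exact h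
  · exact Or.inl (mem_Om1_of_im him)

theorem Charts.diffG (H : Charts U r e C F1 F2) :
    DifferentiableOn ℂ (GG F1 F2) (Metric.ball 0 1 \ {0}) := by
  rintro z ⟨hz1, hz0⟩
  have hz0' : z ≠ 0 := hz0
  refine DifferentiableAt.differentiableWithinAt ?_
  rcases mem_Om hz0' with h | h
  · have hz : z ∈ Ob1 := ⟨h, hz1⟩
    have hd : DifferentiableAt ℂ (fun z => F1 z * (-z) ^ (1 / 2 : ℂ)) z := by
      refine (H.d1.differentiableAt (isOpen_Ob1.mem_nhds hz)).mul ?_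
      exact (differentiableAt_id.neg).cpow (differentiableAt_const _) h
    refine hd.congr_of_eventuallyEq ?_
    filter_upwards [isOpen_Ob1.mem_nhds hz] with y hy
    exact GG_1 hy.1
  · have hz : z ∈ Ob2 := ⟨h, hz1⟩
    have hd : DifferentiableAt ℂ (fun z => Complex.I * F2 z * z ^ (1 / 2 : ℂ)) z := by
      refine ((H.d2.differentiableAt (isOpen_Ob2.mem_nhds hz)).const_mul _).mul ?_
      exact differentiableAt_id.cpow (differentiableAt_const _) h
    refine hd.congr_of_eventuallyEq ?_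
    filter_upwards [isOpen_Ob2.mem_nhds hz] with y hy
    exact H.GG_2 hy

theorem Charts.normG (H : Charts U r e C F1 F2) {z : ℂ} (hz0 : z ≠ 0) (hz : ‖z‖ ≤ 1 / 4) :
    ‖GG F1 F2 z‖ ^ 2 ≤ C := by
  have hb : z ∈ Metric.ball (0 : ℂ) 1 := by rw [mem_ball_zero_iff]; linarith
  rcases mem_Om hz0 with h | h
  · rw [GG_1 h, norm_mul, mul_pow, norm_cpow_half, norm_neg, Real.sq_sqrt (norm_nonneg _)]
    exact H.b1 z ⟨h, hb⟩ hz
  · rw [H.GG_2 ⟨h, hb⟩, norm_mul, norm_mul, Complex.norm_I, one_mul, mul_pow, norm_cpow_half,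
      Real.sq_sqrt (norm_nonneg _)]
    exact H.b2 z ⟨h, hb⟩ hz

/-- Lipschitz constant of the regular part -/
def LL (C : ℝ) : ℝ := 8 * Real.sqrt C

theorem Charts.exists_g (H : Charts U r e C F1 F2) (hC : 0 ≤ C) :
    ∃ g : ℂ, ‖g‖ ^ 2 ≤ C ∧
      (∀ z ∈ Ob1, ‖z‖ < 1 / 4 → ‖F1 z - g * m1 z‖ ≤ LL C * Real.sqrt ‖z‖) ∧
      (∀ z ∈ Ob2, ‖z‖ < 1 / 4 → ‖F2 z - g * m2 z‖ ≤ LL C * Real.sqrt ‖z‖) := by
  have hn : Metric.ball (0 : ℂ) (1 / 4) ∈ 𝓝 (0 : ℂ) := Metric.ball_mem_nhds _ (by norm_num)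
  have hbd : ∀ z ∈ Metric.ball (0 : ℂ) (1 / 4), z ≠ 0 → ‖GG F1 F2 z‖ ≤ Real.sqrt C := by
    intro z hz hz0
    rw [mem_ball_zero_iff] at hz
    exact Real.le_sqrt_of_sq_le (H.normG hz0 hz.le)
  have hsub : Metric.ball (0 : ℂ) (1 / 4) \ {0} ⊆ Metric.ball 0 1 \ {0} :=
    Set.diff_subset_diff_left (Metric.ball_subset_ball (by norm_num))
  have hrem := Complex.differentiableOn_update_limUnder_of_bddAbove hn (H.diffG.mono hsub)
    ⟨Real.sqrt C, by
      rintro _ ⟨z, hz, rfl⟩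
      exact hbd z hz.1 hz.2⟩
  set G := Function.update (GG F1 F2) 0 (limUnder (𝓝[≠] (0 : ℂ)) (GG F1 F2)) with hG
  have hGz : ∀ z, z ≠ 0 → G z = GG F1 F2 z := fun z hz => Function.update_of_ne hz _ _
  have hcont : ContinuousAt G 0 := (hrem.differentiableAt hn).continuousAt
  have hG0 : ‖G 0‖ ≤ Real.sqrt C := by
    have h1 : Tendsto (fun z => ‖G z‖) (𝓝[≠] (0 : ℂ)) (𝓝 ‖G 0‖) :=
      (hcont.norm.tendsto).mono_left nhdsWithin_le_nhds
    refine le_of_tendsto h1 ?_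
    filter_upwards [self_mem_nhdsWithin, nhdsWithin_le_nhds hn] with z hz hz'
    rw [hGz z hz]; exact hbd z hz' hz
  have hball : ∀ z ∈ Metric.ball (0 : ℂ) (1 / 4), ‖G z‖ ≤ Real.sqrt C := by
    intro z hz
    by_cases h0 : z = 0
    · rw [h0]; exact hG0
    · rw [hGz z h0]; exact hbd z hz h0
  have hlip : ∀ z ∈ Metric.ball (0 : ℂ) (1 / 4), ‖G z - G 0‖ ≤ LL C * ‖z‖ := by
    intro z hz
    have := Complex.dist_le_div_mul_dist_of_mapsTo_ball (f := G) (c := 0) (z := z) (R₁ := 1 / 4)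
      (R₂ := 2 * Real.sqrt C) hrem (fun w hw => by
        rw [Metric.mem_closedBall, dist_eq_norm]
        have := norm_sub_le (G w) (G 0)
        have := hball w hw
        linarith) hz
    rw [dist_eq_norm, dist_zero_right] at this
    refine this.trans (le_of_eq ?_)
    unfold LL; ring
  refine ⟨G 0, ?_, ?_, ?_⟩
  · have := Real.sq_sqrt hC
    nlinarith [norm_nonneg (G 0), Real.sqrt_nonneg C]
  · intro z hz hz4
    have hz0 := ne_zero_of_Ob1 hz
    have hzb : z ∈ Metric.ball (0 : ℂ) (1 / 4) := by rwa [mem_ball_zero_iff]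
    have e1 : F1 z - G 0 * m1 z = (G z - G 0) * m1 z := by
      rw [hGz z hz0, GG_1 hz.1]
      linear_combination (-F1 z) * m1_mul hz0
    have hs : 0 < Real.sqrt ‖z‖ := Real.sqrt_pos.2 (norm_pos_iff.2 hz0)
    rw [e1, norm_mul, norm_m1]
    calc ‖G z - G 0‖ * (Real.sqrt ‖z‖)⁻¹ ≤ (LL C * ‖z‖) * (Real.sqrt ‖z‖)⁻¹ := by
          gcongr; exact hlip z hzb
      _ = LL C * Real.sqrt ‖z‖ := by
          rw [mul_assoc]; congr 1
          rw [← div_eq_mul_inv, Real.div_sqrt]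
  · intro z hz hz4
    have hz0 := ne_zero_of_Ob2 hz
    have hzb : z ∈ Metric.ball (0 : ℂ) (1 / 4) := by rwa [mem_ball_zero_iff]
    have e1 : F2 z - G 0 * m2 z = (G z - G 0) * m2 z := by
      rw [hGz z hz0, H.GG_2 hz]
      linear_combination (-F2 z) * m2_mul hz0
    have hs : 0 < Real.sqrt ‖z‖ := Real.sqrt_pos.2 (norm_pos_iff.2 hz0)
    rw [e1, norm_mul, norm_m2]
    calc ‖G z - G 0‖ * (Real.sqrt ‖z‖)⁻¹ ≤ (LL C * ‖z‖) * (Real.sqrt ‖z‖)⁻¹ := by
          gcongr; exact hlip z hzb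
      _ = LL C * Real.sqrt ‖z‖ := by
          rw [mul_assoc]; congr 1
          rw [← div_eq_mul_inv, Real.div_sqrt]

end

end Crest.Agent.R165.Bxx797
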