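import Crest.Agent.R165.BxD_797

/-!
# Row 165 (S0250), block R: EX at a branch vertex, flux identities (helper797)

* `q1`, `q2` : fluxes through a half-edge in terms of the values at the face
* `flux1`, `flux2` : conservation laws, summed over a box
* `sum_recip` : the sum `∑ 1/(l + i t)` is real and at least `1`
-/

set_option autoImplicit false

noncomputable section

namespace Crest.Agent.R165.Bxx797

open Finset Filter Topology
open Crest.Agent.R165.Tr1x40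
open Crest.Agent.R165.RIfx891
open Crest.Agent.R165.PotAx894 (Q mem_Q self_mem_Q Q_mono)
open Crest.Agent.R165.Lim1x943 (pt_re pt_im)

/-! ### telescoping -/

theorem sum_tel (F : ℤ → ℝ) (a : ℤ) (n : ℕ) :
    ∑ i ∈ Icc a (a + n), (F i - F (i - 1)) = F (a + n) - F (a - 1) := by
  induction n with
  | zero => simp
  | succ n ih =>
    have : Icc a (a + (n + 1 : ℕ)) = insert (a + n + 1) (Icc a (a + n)) := by
      ext i; simp only [mem_insert, mem_Icc]; push_cast; omega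
    rw [this, sum_insert (by simp), ih]
    have e : a + (n : ℤ) + 1 - 1 = a + n := by ring
    rw [e]; push_cast; rw [← add_assoc]; ring

theorem sum_neg_Icc (F : ℤ → ℝ) (l : ℤ) :
    ∑ t ∈ Icc (-l) l, F (-t) = ∑ t ∈ Icc (-l) l, F t := by
  refine sum_nbij' (fun t => -t) (fun t => -t) ?_ ?_ ?_ ?_ ?_
  · intro t ht; rw [mem_Icc] at ht ⊢; omega
  · intro t ht; rw [mem_Icc] at ht ⊢; omega
  · intro t _; simp
  · intro t _; simp
  · intro t _; rfl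

/-- the faces along the side `h` of the box of radius `l` -/
def sd (l : ℤ) (h : Fin 4) (t : ℤ) : Face :=
  match h with
  | 0 => (t, -l)
  | 1 => (l, t)
  | 2 => (-t, l)
  | 3 => (-l, -t)

/-- outward normal -/
def nu (h : Fin 4) : ℂ :=
  match h with
  | 0 => -Complex.I
  | 1 => 1
  | 2 => Complex.I
  | 3 => -1

theorem box_flux (ψ : Face → Fin 4 → ℝ) (hψ : ∀ f h, ψ (nb f h) (op h) = -ψ f h) (l : ℕ) :
    ∑ f ∈ Q 0 l, ∑ h, ψ f h = ∑ t ∈ Icc (-(l : ℤ)) l, ∑ h, ψ (sd l h t) h := by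
  have hQ : Q 0 l = Icc (-(l : ℤ)) l ×ˢ Icc (-(l : ℤ)) l := by
    ext f; rw [mem_Q]; simp [abs_le]
  have h3 : ∀ i j : ℤ, ψ (i, j) 3 = -ψ (i - 1, j) 1 := by
    intro i j
    have := hψ (i - 1, j) 1
    simpa using this
  have h0 : ∀ i j : ℤ, ψ (i, j) 0 = -ψ (i, j - 1) 2 := by
    intro i j
    have := hψ (i, j - 1) 2
    simpa using this
  have hl : ((l : ℤ)) = -(l : ℤ) + ((2 * l : ℕ) : ℤ) := by push_cast; ring
  have tel : ∀ F : ℤ → ℝ, ∑ i ∈ Icc (-(l : ℤ)) l, (F i - F (i - 1)) = F l - F (-l - 1) := by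
    intro F
    have := sum_tel F (-(l : ℤ)) (2 * l)
    rw [← hl] at this; exact this
  rw [hQ, sum_product]
  have e1 : ∑ i ∈ Icc (-(l : ℤ)) l, ∑ j ∈ Icc (-(l : ℤ)) l, ∑ h, ψ (i, j) h =
      ∑ j ∈ Icc (-(l : ℤ)) l, ∑ i ∈ Icc (-(l : ℤ)) l, (ψ (i, j) 1 - ψ (i - 1, j) 1) +
      ∑ i ∈ Icc (-(l : ℤ)) l, ∑ j ∈ Icc (-(l : ℤ)) l, (ψ (i, j) 2 - ψ (i, j - 1) 2) := by
    rw [sum_comm (f := fun j i => ψ (i, j) 1 - ψ (i - 1, j) 1), ← sum_add_distrib]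
    refine sum_congr rfl fun i _ => ?_
    rw [← sum_add_distrib]
    refine sum_congr rfl fun j _ => ?_
    rw [Fin.sum_univ_four, h3, h0]; ring
  have e2 : ∀ j : ℤ, ∑ i ∈ Icc (-(l : ℤ)) l, (ψ (i, j) 1 - ψ (i - 1, j) 1) =
      ψ (l, j) 1 + ψ (-l, j) 3 := by
    intro j
    rw [tel (fun i => ψ (i, j) 1), h3]; ring
  have e3 : ∀ i : ℤ, ∑ j ∈ Icc (-(l : ℤ)) l, (ψ (i, j) 2 - ψ (i, j - 1) 2) =
      ψ (i, l) 2 + ψ (i, -l) 0 := by
    intro i
    rw [tel (fun j => ψ (i, j) 2), h0]; ring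
  rw [e1, sum_congr rfl fun j _ => e2 j, sum_congr rfl fun i _ => e3 i, sum_add_distrib,
    sum_add_distrib]
  have e4 : ∑ t ∈ Icc (-(l : ℤ)) l, ∑ h, ψ (sd l h t) h =
      ∑ t ∈ Icc (-(l : ℤ)) l, ψ (t, -l) 0 + ∑ t ∈ Icc (-(l : ℤ)) l, ψ (l, t) 1 +
      ∑ t ∈ Icc (-(l : ℤ)) l, ψ (-t, l) 2 + ∑ t ∈ Icc (-(l : ℤ)) l, ψ (-l, -t) 3 := by
    rw [← sum_add_distrib, ← sum_add_distrib, ← sum_add_distrib]
    refine sum_congr rfl fun t _ => ?_
    rw [Fin.sum_univ_four]; rfl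
  rw [e4, sum_neg_Icc (fun t => ψ (t, l) 2), sum_neg_Icc (fun t => ψ (-l, t) 3)]
  ring

/-! ### fluxes -/

theorem w0_sq (f : Face) (h : Fin 4) : w0 f h ^ 2 = xc ^ 2 := by
  unfold w0; rw [mul_pow, rayw_sq, one_mul]

theorem sym_w0 : Sym w0 := by
  intro f h
  unfold w0
  congr 1
  fin_cases h
  · show rayw 0 (f.1, f.2 - 1) 2 = rayw 0 f 0
    by_cases hc : f.2 = 0 ∧ 0 ≤ f.1
    · rw [rayw_S hc, rayw_N (by simp only; omega)]
    · rw [rayw_S' hc, rayw_N' (by simp only; omega)]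
  · show rayw 0 (f.1 + 1, f.2) 3 = rayw 0 f 1
    rw [rayw_W, rayw_E]
  · show rayw 0 (f.1, f.2 + 1) 0 = rayw 0 f 2
    by_cases hc : f.2 + 1 = 0 ∧ 0 ≤ f.1
    · rw [rayw_N hc, rayw_S (by simp only; omega)]
    · rw [rayw_N' hc, rayw_S' (by simp only; omega)]
  · show rayw 0 (f.1 - 1, f.2) 1 = rayw 0 f 3
    rw [rayw_W, rayw_E]

/-- first flux -/
def q1 (p : Fin 4 → ℝ) (h : Fin 4) : ℝ := xc ^ 2 * p h ^ 2 - A0 p h ^ 2

/-- second flux -/
def q2 (p : Fin 4 → ℝ) (h : Fin 4) : ℝ := A0 p h * p h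

theorem sum_q1 (p : Fin 4 → ℝ) : ∑ h, q1 p h ≤ 0 := by
  have h1 : ∑ h, q1 p h = xc ^ 2 * nsq p - nsq (A0 p) := by
    unfold q1 nsq; rw [sum_sub_distrib, ← mul_sum]
  rw [h1]
  linarith [nsq_A0_ge p]

theorem sum_q2 (p : Fin 4 → ℝ) : ∑ h, q2 p h = 0 := by
  have h1 := A0_antisymm p p
  have h2 : ∑ h, p h * A0 p h = ∑ h, A0 p h * p h := sum_congr rfl fun h _ => mul_comm _ _
  unfold q2
  linarith

theorem flux1 {e : Fld} {l : ℕ} (he : ∀ f ∈ Q 0 l, A w0 e f = 0) :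
    ∑ t ∈ Icc (-(l : ℤ)) l, ∑ h, q1 (e (sd l h t)) h ≤ 0 := by
  have hmem : ∀ t ∈ Icc (-(l : ℤ)) l, ∀ h, sd l h t ∈ Q 0 l := by
    intro t ht h
    rw [mem_Icc] at ht
    rw [mem_Q, abs_le, abs_le]
    fin_cases h <;> simp [sd] <;> omega
  have key : ∀ f ∈ Q 0 l, ∀ h, q1 (e f) h =
      w0 f h ^ 2 * (e f h ^ 2 - e (nb f h) (op h) ^ 2) := by
    intro f hf h
    have h1 : A0 (e f) h + Y w0 e f h = 0 := congrFun (he f hf) h
    have h2 : A0 (e f) h = -Y w0 e f h := by linarith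
    unfold q1
    rw [h2, neg_sq]
    unfold Y
    rw [mul_pow, mul_pow, sg_sq, w0_sq]; ring
  have hb := box_flux (fun f h => w0 f h ^ 2 * (e f h ^ 2 - e (nb f h) (op h) ^ 2))
    (fun f h => by simp only [nb_nb_op, op_op, sym_w0 f h]; ring) l
  rw [sum_congr rfl fun t ht => sum_congr rfl fun h _ => key _ (hmem t ht h) h, ← hb]
  refine sum_nonpos fun f hf => ?_
  rw [← sum_congr rfl fun h _ => key f hf h]
  exact sum_q1 _

theorem flux2 {e : Fld} {l : ℕ} (he : ∀ f ∈ Q 0 l, A w0 e f = 0) :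
    ∑ t ∈ Icc (-(l : ℤ)) l, ∑ h, q2 (e (sd l h t)) h = 0 := by
  have hmem : ∀ t ∈ Icc (-(l : ℤ)) l, ∀ h, sd l h t ∈ Q 0 l := by
    intro t ht h
    rw [mem_Icc] at ht
    rw [mem_Q, abs_le, abs_le]
    fin_cases h <;> simp [sd] <;> omega
  have key : ∀ f ∈ Q 0 l, ∀ h, q2 (e f) h = -(Y w0 e f h * e f h) := by
    intro f hf h
    have h1 : A0 (e f) h + Y w0 e f h = 0 := congrFun (he f hf) h
    have h2 : A0 (e f) h = -Y w0 e f h := by linarith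
    unfold q2
    rw [h2]; ring
  have hb := box_flux (fun f h => -(Y w0 e f h * e f h))
    (fun f h => by simp only [Y, nb_nb_op, op_op, sg_op, sym_w0 f h]; ring) l
  rw [sum_congr rfl fun t ht => sum_congr rfl fun h _ => key _ (hmem t ht h) h, ← hb]
  refine sum_eq_zero fun f hf => ?_
  rw [← sum_congr rfl fun h _ => key f hf h]
  exact sum_q2 _

/-! ### fluxes of light vectors -/

theorem nu_mul_re (h : Fin 4) (c : ℂ) : (nu h * c ^ 2).re =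
    lv c h ^ 2 - lv c (op h) ^ 2 := by
  have e : ∀ a b : ℝ, (a / Real.sqrt 2) ^ 2 - (b / Real.sqrt 2) ^ 2 = (a ^ 2 - b ^ 2) / 2 := by
    intro a b; rw [div_pow, div_pow, Real.sq_sqrt (by norm_num)]; ring
  have hc : c ^ 2 = ⟨c.re ^ 2 - c.im ^ 2, 2 * c.re * c.im⟩ := by
    rw [pow_two]; apply Complex.ext <;> simp <;> ring
  rw [hc]
  fin_cases h
  · show (-Complex.I * _).re = (-(c.re + c.im) / Real.sqrt 2) ^ 2 - ((c.im - c.re) / Real.sqrt 2) ^ 2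
    rw [e]; simp; ring
  · show ((1 : ℂ) * _).re = c.re ^ 2 - (-c.im) ^ 2
    simp
  · show (Complex.I * _).re = ((c.im - c.re) / Real.sqrt 2) ^ 2 - (-(c.re + c.im) / Real.sqrt 2) ^ 2
    rw [e]; simp; ring
  · show ((-1 : ℂ) * _).re = (-c.im) ^ 2 - c.re ^ 2
    simp

theorem A0_lv (c : ℂ) (h : Fin 4) : A0 (lv c) h = -(sg h * xc * lv c (op h)) := by
  have h2 := sq2
  unfold xc
  fin_cases h
  · show c.re + (c.im - c.re) / Real.sqrt 2 + -c.im =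
      -(1 * (Real.sqrt 2 - 1) * ((c.im - c.re) / Real.sqrt 2))
    rw [div_sq2]
    linear_combination ((c.im - c.re) / 2) * h2
  · show -(-(c.re + c.im) / Real.sqrt 2) + (c.im - c.re) / Real.sqrt 2 + -c.im =
      -(1 * (Real.sqrt 2 - 1) * (-c.im))
    rw [div_sq2, div_sq2]
    ring
  · show -(-(c.re + c.im) / Real.sqrt 2) - c.re + -c.im =
      -(-1 * (Real.sqrt 2 - 1) * (-(c.re + c.im) / Real.sqrt 2))
    rw [div_sq2]
    linear_combination ((c.re + c.im) / 2) * h2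
  · show -(-(c.re + c.im) / Real.sqrt 2) - c.re - (c.im - c.re) / Real.sqrt 2 =
      -(-1 * (Real.sqrt 2 - 1) * c.re)
    rw [div_sq2, div_sq2]
    ring

theorem q1_lv (c : ℂ) (h : Fin 4) : q1 (lv c) h = xc ^ 2 * (nu h * c ^ 2).re := by
  unfold q1
  rw [A0_lv, nu_mul_re, neg_sq, mul_pow, mul_pow, sg_sq]; ring

theorem q2_lv (c : ℂ) (h : Fin 4) : q2 (lv c) h = xc / 2 * (nu h * c ^ 2).im := by
  have e : ∀ a b : ℝ, a / Real.sqrt 2 * (b / Real.sqrt 2) = a * b / 2 := by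
    intro a b; rw [div_mul_div_comm, sq2]
  have hc : c ^ 2 = ⟨c.re ^ 2 - c.im ^ 2, 2 * c.re * c.im⟩ := by
    rw [pow_two]; apply Complex.ext <;> simp <;> ring
  unfold q2
  rw [A0_lv, hc]
  fin_cases h
  · show -(1 * xc * ((c.im - c.re) / Real.sqrt 2)) * (-(c.re + c.im) / Real.sqrt 2) =
      xc / 2 * (-Complex.I * _).im
    have := e (c.im - c.re) (-(c.re + c.im))
    simp only [Complex.mul_im, Complex.neg_re, Complex.neg_im, Complex.I_re, Complex.I_im]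
    linear_combination (-xc) * this
  · show -(1 * xc * (-c.im)) * c.re = xc / 2 * ((1 : ℂ) * _).im
    simp; ring
  · show -(-1 * xc * (-(c.re + c.im) / Real.sqrt 2)) * ((c.im - c.re) / Real.sqrt 2) =
      xc / 2 * (Complex.I * _).im
    have := e (-(c.re + c.im)) (c.im - c.re)
    simp only [Complex.mul_im, Complex.I_re, Complex.I_im]
    linear_combination xc * this
  · show -(-1 * xc * c.re) * (-c.im) = xc / 2 * ((-1 : ℂ) * _).im
    simp; ring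

/-! ### stability -/

theorem A0_sub' (p p' : Fin 4 → ℝ) (h : Fin 4) : A0 p h - A0 p' h = A0 (fun k => p k - p' k) h := by
  fin_cases h <;> simp [A0] <;> ring

theorem abs_A0_le {p : Fin 4 → ℝ} {m : ℝ} (hp : ∀ k, |p k| ≤ m) (h : Fin 4) :
    |A0 p h| ≤ 3 * m := by
  have h0 := abs_le.1 (hp 0)
  have h1 := abs_le.1 (hp 1)
  have h2 := abs_le.1 (hp 2)
  have h3 := abs_le.1 (hp 3)
  rw [abs_le]
  fin_cases h <;> simp [A0] <;> constructor <;> linarith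

theorem abs_sq_sub_le {x y E M : ℝ} (h : |x - y| ≤ E) (hy : |y| ≤ M) :
    |x ^ 2 - y ^ 2| ≤ E * (2 * M + E) := by
  have hE : 0 ≤ E := (abs_nonneg _).trans h
  have e : x ^ 2 - y ^ 2 = (x - y) * ((x - y) + 2 * y) := by ring
  rw [e, abs_mul]
  refine mul_le_mul h ?_ (abs_nonneg _) hE
  refine (abs_add_le _ _).trans ?_
  rw [abs_mul, abs_two]; linarith

theorem q1_stab {p : Fin 4 → ℝ} {c : ℂ} {E M : ℝ} (h : ∀ k, |p k - lv c k| ≤ E) (hc : ‖c‖ ≤ M)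
    (k : Fin 4) : |q1 p k - xc ^ 2 * (nu k * c ^ 2).re| ≤ 8 * M * E + 10 * E ^ 2 := by
  rw [← q1_lv]
  have hE : 0 ≤ E := (abs_nonneg _).trans (h 0)
  have hM : 0 ≤ M := (norm_nonneg _).trans hc
  have hx0 := xc_pos
  have hx1 : xc < 1 := xc_lt_one
  have hlv : ∀ k, |lv c k| ≤ M := fun k => (abs_lv_le c k).trans hc
  have h1 := abs_sq_sub_le (h k) (hlv k)
  have h2 : |A0 p k - A0 (lv c) k| ≤ 3 * E := by
    rw [A0_sub']; exact abs_A0_le h k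
  have h3 : |A0 (lv c) k| ≤ M := by
    have h4 : |A0 (lv c) k| ^ 2 ≤ M ^ 2 := by
      rw [A0_lv, sq_abs, neg_sq, mul_pow, mul_pow, sg_sq, one_mul, ← sq_abs (lv c (op k))]
      have a := hlv (op k)
      have b := abs_nonneg (lv c (op k))
      have c1 : xc ^ 2 ≤ 1 := by nlinarith
      calc xc ^ 2 * |lv c (op k)| ^ 2 ≤ 1 * M ^ 2 := by gcongr
        _ = M ^ 2 := one_mul _
    exact abs_le_of_sq_le_sq' h4 hM |>.2
  have h5 := abs_sq_sub_le h2 h3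
  have e : q1 p k - q1 (lv c) k =
      xc ^ 2 * (p k ^ 2 - lv c k ^ 2) - (A0 p k ^ 2 - A0 (lv c) k ^ 2) := by
    unfold q1; ring
  rw [e]
  refine (abs_sub _ _).trans ?_
  rw [abs_mul, abs_of_nonneg (sq_nonneg xc)]
  have h6 : xc ^ 2 * |p k ^ 2 - lv c k ^ 2| ≤ 1 * (E * (2 * M + E)) := by
    have c1 : xc ^ 2 ≤ 1 := by nlinarith
    gcongr
  nlinarith

theorem q2_stab {p : Fin 4 → ℝ} {c : ℂ} {E M : ℝ} (h : ∀ k, |p k - lv c k| ≤ E) (hc : ‖c‖ ≤ M)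
    (k : Fin 4) : |q2 p k - xc / 2 * (nu k * c ^ 2).im| ≤ 8 * M * E + 10 * E ^ 2 := by
  rw [← q2_lv]
  have hE : 0 ≤ E := (abs_nonneg _).trans (h 0)
  have hM : 0 ≤ M := (norm_nonneg _).trans hc
  have hx0 := xc_pos
  have hx1 : xc < 1 := xc_lt_one
  have hlv : ∀ k, |lv c k| ≤ M := fun k => (abs_lv_le c k).trans hc
  have h2 : |A0 p k - A0 (lv c) k| ≤ 3 * E := by
    rw [A0_sub']; exact abs_A0_le h k
  have h3 : |A0 (lv c) k| ≤ M := by
    have h4 : |A0 (lv c) k| ^ 2 ≤ M ^ 2 := by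
      rw [A0_lv, sq_abs, neg_sq, mul_pow, mul_pow, sg_sq, one_mul, ← sq_abs (lv c (op k))]
      have a := hlv (op k)
      have b := abs_nonneg (lv c (op k))
      have c1 : xc ^ 2 ≤ 1 := by nlinarith
      calc xc ^ 2 * |lv c (op k)| ^ 2 ≤ 1 * M ^ 2 := by gcongr
        _ = M ^ 2 := one_mul _
    exact abs_le_of_sq_le_sq' h4 hM |>.2
  have e : q2 p k - q2 (lv c) k =
      (A0 p k - A0 (lv c) k) * ((p k - lv c k) + lv c k) + A0 (lv c) k * (p k - lv c k) := by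
    unfold q2; ring
  rw [e]
  have h7 : |(A0 p k - A0 (lv c) k) * ((p k - lv c k) + lv c k)| ≤ 3 * E * (E + M) := by
    rw [abs_mul]
    exact mul_le_mul h2 ((abs_add_le _ _).trans (add_le_add (h k) (hlv k))) (abs_nonneg _)
      (by positivity)
  have h8 : |A0 (lv c) k * (p k - lv c k)| ≤ M * E := by
    rw [abs_mul]
    exact mul_le_mul h3 (h k) (abs_nonneg _) hM
  refine (abs_add_le _ _).trans ?_
  nlinarith [mul_nonneg hM hE, sq_nonneg E]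

theorem q1_smul (a : ℝ) (p : Fin 4 → ℝ) (h : Fin 4) :
    q1 (fun k => a * p k) h = a ^ 2 * q1 p h := by
  have e : A0 (fun k => a * p k) h = a * A0 p h := by
    have := A0_smul a p h
    simpa [Pi.smul_def, smul_eq_mul] using this
  unfold q1; rw [e]; ring

theorem q2_smul (a : ℝ) (p : Fin 4 → ℝ) (h : Fin 4) :
    q2 (fun k => a * p k) h = a ^ 2 * q2 p h := by
  have e : A0 (fun k => a * p k) h = a * A0 p h := by
    have := A0_smul a p h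
    simpa [Pi.smul_def, smul_eq_mul] using this
  unfold q2; rw [e]; ring

/-! ### the sum over a side -/

/-- `∑ 1/(l + i t)` -/
def SS (l : ℕ) : ℝ := ∑ t ∈ Icc (-(l : ℤ)) l, (l : ℝ) / ((l : ℝ) ^ 2 + (t : ℝ) ^ 2)

theorem one_le_SS {l : ℕ} (hl : 0 < l) : 1 ≤ SS l := by
  have hl0 : (0 : ℝ) < l := by exact_mod_cast hl
  have h1 : ∀ t ∈ Icc (-(l : ℤ)) l, 1 / (2 * (l : ℝ)) ≤ (l : ℝ) / ((l : ℝ) ^ 2 + (t : ℝ) ^ 2) := by
    intro t ht
    rw [mem_Icc] at ht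
    have a : (-(l : ℝ)) ≤ t := by exact_mod_cast ht.1
    have b : (t : ℝ) ≤ l := by exact_mod_cast ht.2
    rw [div_le_div_iff₀ (by positivity) (by positivity)]
    nlinarith
  have h2 := sum_le_sum h1
  rw [sum_const, nsmul_eq_mul, Int.card_Icc] at h2
  have e : ((l : ℤ) + 1 - (-(l : ℤ))).toNat = 2 * l + 1 := by omega
  rw [e] at h2
  refine le_trans ?_ h2
  push_cast
  rw [mul_one_div, le_div_iff₀ (by positivity)]
  linarith

theorem sum_recip (γ : ℂ) (l : ℕ) :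
    ∑ t ∈ Icc (-(l : ℤ)) l, (γ / ⟨(l : ℝ), (t : ℝ)⟩ : ℂ).re = γ.re * SS l ∧
    ∑ t ∈ Icc (-(l : ℤ)) l, (γ / ⟨(l : ℝ), (t : ℝ)⟩ : ℂ).im = γ.im * SS l := by
  have hodd : ∑ t ∈ Icc (-(l : ℤ)) l, (t : ℝ) / ((l : ℝ) ^ 2 + (t : ℝ) ^ 2) = 0 := by
    have h1 := sum_neg_Icc (fun t => (t : ℝ) / ((l : ℝ) ^ 2 + (t : ℝ) ^ 2)) l
    simp only [Int.cast_neg, neg_sq, neg_div, sum_neg_distrib] at h1
    linarith
  have hre : ∀ t : ℤ, (γ / ⟨(l : ℝ), (t : ℝ)⟩ : ℂ).re =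
      γ.re * ((l : ℝ) / ((l : ℝ) ^ 2 + (t : ℝ) ^ 2)) +
        γ.im * ((t : ℝ) / ((l : ℝ) ^ 2 + (t : ℝ) ^ 2)) := by
    intro t
    rw [Complex.div_re, Complex.normSq_apply]; simp only; ring_nf
  have him : ∀ t : ℤ, (γ / ⟨(l : ℝ), (t : ℝ)⟩ : ℂ).im =
      γ.im * ((l : ℝ) / ((l : ℝ) ^ 2 + (t : ℝ) ^ 2)) -
        γ.re * ((t : ℝ) / ((l : ℝ) ^ 2 + (t : ℝ) ^ 2)) := by
    intro t
    rw [Complex.div_im, Complex.normSq_apply]; simp only; ring_nf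
  constructor
  · rw [sum_congr rfl fun t _ => hre t, sum_add_distrib, ← mul_sum, ← mul_sum, hodd]
    unfold SS; ring
  · rw [sum_congr rfl fun t _ => him t, sum_sub_distrib, ← mul_sum, ← mul_sum, hodd]
    unfold SS; ring

theorem pt_sd (r : ℝ) (l : ℤ) (h : Fin 4) (t : ℤ) :
    Lim1x943.pt r (sd l h t) = nu h * (⟨(l : ℝ), (t : ℝ)⟩ / (r : ℂ)) := by
  have e : (⟨(l : ℝ), (t : ℝ)⟩ / (r : ℂ) : ℂ) = ⟨(l : ℝ) / r, (t : ℝ) / r⟩ := by
    apply Complex.ext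
    · simp
    · simp
  rw [e]
  fin_cases h <;> apply Complex.ext <;> simp [Lim1x943.pt, sd, nu, neg_div]

end Crest.Agent.R165.Bxx797
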