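import Crest.Agent.R165.BxE_797

/-!
# Row 165 (S0250), block R: EX at a branch vertex, `g` is real (helper797)
-/

set_option autoImplicit false

noncomputable section

namespace Crest.Agent.R165.Bxx797

open Finset Filter Topology
open Crest.Agent.R165.Tr1x40 hiding pt
open Crest.Agent.R165.RIfx891
open Crest.Agent.R165.PotAx894 (Q mem_Q self_mem_Q Q_mono)
open Crest.Agent.R165.Lim1x943 (pt flr LocUnif pt_re pt_im)

/-- half annuli -/
def K1 (σ τ : ℝ) : Set ℂ := {z | z.re ≤ 0 ∧ σ ≤ max |z.re| |z.im| ∧ max |z.re| |z.im| ≤ τ}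
def K2 (σ τ : ℝ) : Set ℂ := {z | 0 ≤ z.re ∧ σ ≤ max |z.re| |z.im| ∧ max |z.re| |z.im| ≤ τ}

theorem norm_le_two_max (z : ℂ) : ‖z‖ ≤ 2 * max |z.re| |z.im| := by
  have := Complex.norm_le_abs_re_add_abs_im z
  have a := le_max_left |z.re| |z.im|
  have b := le_max_right |z.re| |z.im|
  linarith

theorem max_le_norm (z : ℂ) : max |z.re| |z.im| ≤ ‖z‖ :=
  max_le (Complex.abs_re_le_norm z) (Complex.abs_im_le_norm z)

theorem continuous_max : Continuous fun z : ℂ => max |z.re| |z.im| :=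
  (Complex.continuous_re.abs).max (Complex.continuous_im.abs)

theorem isCompact_K1 (σ τ : ℝ) : IsCompact (K1 σ τ) := by
  refine Metric.isCompact_of_isClosed_isBounded ?_ ?_
  · exact (isClosed_le Complex.continuous_re continuous_const).inter
      ((isClosed_le continuous_const continuous_max).inter
        (isClosed_le continuous_max continuous_const))
  · refine (Metric.isBounded_closedBall (x := (0 : ℂ)) (r := 2 * τ)).subset ?_
    intro z hz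
    rw [mem_closedBall_zero_iff]
    have := norm_le_two_max z
    have := hz.2.2
    linarith

theorem isCompact_K2 (σ τ : ℝ) : IsCompact (K2 σ τ) := by
  refine Metric.isCompact_of_isClosed_isBounded ?_ ?_
  · exact (isClosed_le continuous_const Complex.continuous_re).inter
      ((isClosed_le continuous_const continuous_max).inter
        (isClosed_le continuous_max continuous_const))
  · refine (Metric.isBounded_closedBall (x := (0 : ℂ)) (r := 2 * τ)).subset ?_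
    intro z hz
    rw [mem_closedBall_zero_iff]
    have := norm_le_two_max z
    have := hz.2.2
    linarith

theorem ne_zero_of_max {σ : ℝ} {z : ℂ} (hσ : 0 < σ) (h : σ ≤ max |z.re| |z.im|) : z ≠ 0 := by
  rintro rfl; simp at h; linarith

theorem K1_sub' {σ τ : ℝ} (hσ : 0 < σ) : K1 σ τ ⊆ Om1 := by
  intro z hz
  have h0 := ne_zero_of_max hσ hz.2.1
  show -z ∈ Complex.slitPlane
  rw [Complex.mem_slitPlane_iff]
  by_cases him : z.im = 0
  · left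
    have : z.re ≠ 0 := fun h => h0 (Complex.ext h him)
    have := lt_of_le_of_ne hz.1 this
    simpa using this
  · right; simpa using him

theorem K2_sub' {σ τ : ℝ} (hσ : 0 < σ) : K2 σ τ ⊆ Om2 := by
  intro z hz
  have h0 := ne_zero_of_max hσ hz.2.1
  show z ∈ Complex.slitPlane
  rw [Complex.mem_slitPlane_iff]
  by_cases him : z.im = 0
  · left
    have : z.re ≠ 0 := fun h => h0 (Complex.ext h him)
    exact lt_of_le_of_ne hz.1 this.symm
  · right; exact him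

theorem K1_sub {σ τ : ℝ} (hσ : 0 < σ) (hτ : τ < 1 / 8) : K1 σ τ ⊆ Ob1 := by
  intro z hz
  refine ⟨K1_sub' hσ hz, ?_⟩
  rw [mem_ball_zero_iff]
  have := norm_le_two_max z
  have := hz.2.2
  linarith

theorem K2_sub {σ τ : ℝ} (hσ : 0 < σ) (hτ : τ < 1 / 8) : K2 σ τ ⊆ Ob2 := by
  intro z hz
  refine ⟨K2_sub' hσ hz, ?_⟩
  rw [mem_ball_zero_iff]
  have := norm_le_two_max z
  have := hz.2.2
  linarith

theorem max_pt {r : ℝ} (hr : 0 < r) (f : Face) :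
    max |(pt r f).re| |(pt r f).im| = (dist0 f : ℝ) / r := by
  rw [pt_re, pt_im, abs_div, abs_div, abs_of_pos hr, max_div_div_right hr.le]
  congr 1
  unfold dist0
  rw [Nat.cast_max, Nat.cast_natAbs, Nat.cast_natAbs]
  push_cast
  rfl

theorem mem_K {r σ τ : ℝ} (hr : 0 < r) {f : Face} (h1 : σ * r ≤ dist0 f)
    (h2 : (dist0 f : ℝ) ≤ τ * r) : pt r f ∈ K1 σ τ ∨ pt r f ∈ K2 σ τ := by
  have e := max_pt hr f
  have a : σ ≤ (dist0 f : ℝ) / r := by rwa [le_div_iff₀ hr]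
  have b : (dist0 f : ℝ) / r ≤ τ := by rwa [div_le_iff₀ hr]
  rcases le_total (pt r f).re 0 with h | h
  · left; exact ⟨h, by rw [e]; exact a, by rw [e]; exact b⟩
  · right; exact ⟨h, by rw [e]; exact a, by rw [e]; exact b⟩

theorem m1_sq (z : ℂ) : m1 z ^ 2 = -z⁻¹ := by
  unfold m1
  rw [← Complex.cpow_nat_mul]
  have e : ((2 : ℕ) : ℂ) * -(1 / 2) = -1 := by push_cast; ring
  rw [e, Complex.cpow_neg_one, inv_neg]

theorem m2_sq (z : ℂ) : m2 z ^ 2 = -z⁻¹ := by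
  unfold m2
  rw [mul_pow, ← Complex.cpow_nat_mul]
  have e : ((2 : ℕ) : ℂ) * -(1 / 2) = -1 := by push_cast; ring
  rw [e, Complex.cpow_neg_one, neg_sq, Complex.I_sq]; ring

theorem norm_m_le {σ : ℝ} (hσ : 0 < σ) {z : ℂ} (h : σ ≤ max |z.re| |z.im|) :
    (Real.sqrt ‖z‖)⁻¹ ≤ (Real.sqrt σ)⁻¹ := by
  have h1 := h.trans (max_le_norm z)
  have h2 : 0 < Real.sqrt σ := Real.sqrt_pos.2 hσ
  exact inv_anti₀ h2 (Real.sqrt_le_sqrt h1)

/-- approximation constant -/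
def DD (C : ℝ) : ℝ := Real.sqrt 2 * LL C + 1

theorem LL_nonneg (C : ℝ) : 0 ≤ LL C := by unfold LL; positivity

theorem DD_pos (C : ℝ) : 0 < DD C := by
  unfold DD; have := LL_nonneg C; positivity

section

variable {U : Ultrafilter ℕ} {r : ℕ → ℝ} {e : ℕ → Fld} {C : ℝ} {F1 F2 : ℂ → ℂ} {g : ℂ}

theorem LL_le {z : ℂ} {τ : ℝ} (h : max |z.re| |z.im| ≤ τ) :
    LL C * Real.sqrt ‖z‖ + Real.sqrt τ ≤ DD C * Real.sqrt τ := by
  have h1 : Real.sqrt ‖z‖ ≤ Real.sqrt 2 * Real.sqrt τ := by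
    rw [← Real.sqrt_mul (by norm_num)]
    exact Real.sqrt_le_sqrt (by have := norm_le_two_max z; linarith)
  have h2 := mul_le_mul_of_nonneg_left h1 (LL_nonneg C)
  unfold DD; linarith

theorem Charts.approx1 (H : Charts U r e C F1 F2)
    (h1 : ∀ z ∈ Ob1, ‖z‖ < 1 / 4 → ‖F1 z - g * m1 z‖ ≤ LL C * Real.sqrt ‖z‖)
    {σ τ : ℝ} (hσ : 0 < σ) (hτ0 : 0 < τ) (hτ : τ < 1 / 8) :
    ∀ᶠ n in (U : Filter ℕ), ∀ f : Face, pt (r n) f ∈ K1 σ τ → ∀ h,
      |r n * e n f h - lv (g * m1 (pt (r n) f)) h| ≤ DD C * Real.sqrt τ := by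
  have hs : 0 < Real.sqrt τ := Real.sqrt_pos.2 hτ0
  have hev : ∀ᶠ n in (U : Filter ℕ), ∀ h, ∀ f : Face, pt (r n) f ∈ K1 σ τ →
      |r n * e n f h - lv (F1 (pt (r n) f)) h| ≤ Real.sqrt τ :=
    eventually_all.2 fun h => H.lim1 h _ (isCompact_K1 σ τ) (K1_sub hσ hτ) _ hs
  filter_upwards [hev] with n hn f hf h
  have a := hn h f hf
  have hz := K1_sub hσ hτ hf
  have hz4 : ‖pt (r n) f‖ < 1 / 4 := by
    have := norm_le_two_max (pt (r n) f)
    have := hf.2.2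
    linarith
  have b := (abs_lv_le (F1 (pt (r n) f) - g * m1 (pt (r n) f)) h).trans (h1 _ hz hz4)
  rw [lv_sub] at b
  have c := LL_le (C := C) hf.2.2
  calc |r n * e n f h - lv (g * m1 (pt (r n) f)) h|
      = |(r n * e n f h - lv (F1 (pt (r n) f)) h) +
          (lv (F1 (pt (r n) f)) h - lv (g * m1 (pt (r n) f)) h)| := by congr 1; ring
    _ ≤ _ := (abs_add_le _ _).trans (by linarith)

theorem Charts.approx2 (H : Charts U r e C F1 F2)
    (h2 : ∀ z ∈ Ob2, ‖z‖ < 1 / 4 → ‖F2 z - g * m2 z‖ ≤ LL C * Real.sqrt ‖z‖)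
    {σ τ : ℝ} (hσ : 0 < σ) (hτ0 : 0 < τ) (hτ : τ < 1 / 8) :
    ∀ᶠ n in (U : Filter ℕ), ∀ f : Face, pt (r n) f ∈ K2 σ τ → ∀ h,
      |r n * (t2 f * e n f h) - lv (g * m2 (pt (r n) f)) h| ≤ DD C * Real.sqrt τ := by
  have hs : 0 < Real.sqrt τ := Real.sqrt_pos.2 hτ0
  have hev : ∀ᶠ n in (U : Filter ℕ), ∀ h, ∀ f : Face, pt (r n) f ∈ K2 σ τ →
      |r n * (t2 f * e n f h) - lv (F2 (pt (r n) f)) h| ≤ Real.sqrt τ :=
    eventually_all.2 fun h => H.lim2 h _ (isCompact_K2 σ τ) (K2_sub hσ hτ) _ hs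
  filter_upwards [hev] with n hn f hf h
  have a := hn h f hf
  have hz := K2_sub hσ hτ hf
  have hz4 : ‖pt (r n) f‖ < 1 / 4 := by
    have := norm_le_two_max (pt (r n) f)
    have := hf.2.2
    linarith
  have b := (abs_lv_le (F2 (pt (r n) f) - g * m2 (pt (r n) f)) h).trans (h2 _ hz hz4)
  rw [lv_sub] at b
  have c := LL_le (C := C) hf.2.2
  calc |r n * (t2 f * e n f h) - lv (g * m2 (pt (r n) f)) h|
      = |(r n * (t2 f * e n f h) - lv (F2 (pt (r n) f)) h) +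
          (lv (F2 (pt (r n) f)) h - lv (g * m2 (pt (r n) f)) h)| := by congr 1; ring
    _ ≤ _ := (abs_add_le _ _).trans (by linarith)

/-- common form: the square of the field -/
theorem Charts.approx (H : Charts U r e C F1 F2) (hr : Tendsto r (U : Filter ℕ) atTop)
    (h1 : ∀ z ∈ Ob1, ‖z‖ < 1 / 4 → ‖F1 z - g * m1 z‖ ≤ LL C * Real.sqrt ‖z‖)
    (h2 : ∀ z ∈ Ob2, ‖z‖ < 1 / 4 → ‖F2 z - g * m2 z‖ ≤ LL C * Real.sqrt ‖z‖)
    {σ τ : ℝ} (hσ : 0 < σ) (hτ0 : 0 < τ) (hτ : τ < 1 / 8) :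
    ∀ᶠ n in (U : Filter ℕ), ∀ f : Face, σ * r n ≤ dist0 f → (dist0 f : ℝ) ≤ τ * r n →
      ∃ (a : ℝ) (c : ℂ), a ^ 2 = r n ^ 2 ∧ c ^ 2 = -g ^ 2 / pt (r n) f ∧
        ‖c‖ ≤ ‖g‖ * (Real.sqrt σ)⁻¹ ∧ ∀ h, |a * e n f h - lv c h| ≤ DD C * Real.sqrt τ := by
  filter_upwards [H.approx1 h1 hσ hτ0 hτ, H.approx2 h2 hσ hτ0 hτ, hr.eventually_gt_atTop 0]
    with n a1 a2 hr0 f hf1 hf2
  rcases mem_K hr0 hf1 hf2 with h | h
  · refine ⟨r n, g * m1 (pt (r n) f), rfl, ?_, ?_, a1 f h⟩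
    · rw [mul_pow, m1_sq]; ring
    · rw [norm_mul, norm_m1]
      exact mul_le_mul_of_nonneg_left (norm_m_le hσ h.2.1) (norm_nonneg _)
  · refine ⟨r n * t2 f, g * m2 (pt (r n) f), ?_, ?_, ?_, fun k => ?_⟩
    · rw [mul_pow, gauge_t2, mul_one]
    · rw [mul_pow, m2_sq]; ring
    · rw [norm_mul, norm_m2]
      exact mul_le_mul_of_nonneg_left (norm_m_le hσ h.2.1) (norm_nonneg _)
    · have := a2 f h k
      rwa [← mul_assoc] at this

theorem dist0_sd {l : ℕ} {t : ℤ} (ht : t ∈ Icc (-(l : ℤ)) l) (h : Fin 4) : dist0 (sd l h t) = l := by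
  rw [mem_Icc] at ht
  unfold dist0
  fin_cases h <;> simp only [sd] <;> omega

/-- the flux through the boundary of a small box -/
theorem Charts.flux (H : Charts U r e C F1 F2) (hr : Tendsto r (U : Filter ℕ) atTop)
    (hex : ∀ᶠ k in (U : Filter ℕ), ∀ f ∈ bx 0 (r k), A w0 (e k) f = 0)
    (h1 : ∀ z ∈ Ob1, ‖z‖ < 1 / 4 → ‖F1 z - g * m1 z‖ ≤ LL C * Real.sqrt ‖z‖)
    (h2 : ∀ z ∈ Ob2, ‖z‖ < 1 / 4 → ‖F2 z - g * m2 z‖ ≤ LL C * Real.sqrt ‖z‖)
    {s : ℝ} (hs0 : 0 < s) (hs : s < 1 / 8) :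
    xc ^ 2 * (-g ^ 2).re ≤ 3 * s * (16 * ‖g‖ * DD C + 10 * DD C ^ 2) ∧
    xc / 2 * |(-g ^ 2).im| ≤ 3 * s * (16 * ‖g‖ * DD C + 10 * DD C ^ 2) := by
  have hD := DD_pos C
  obtain ⟨n, hap, hexn, hr0, hr1⟩ := ((H.approx hr h1 h2 (σ := s / 2) (by positivity) hs0 hs).and
    (hex.and ((hr.eventually_gt_atTop 0).and (hr.eventually_ge_atTop (2 / s))))).exists
  set l : ℕ := ⌊s * r n⌋₊ with hl
  have hl1 : (l : ℝ) ≤ s * r n := Nat.floor_le (by positivity)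
  have hl2 : s * r n < l + 1 := Nat.lt_floor_add_one _
  have hsr : 2 ≤ s * r n := by rw [div_le_iff₀ hs0] at hr1; linarith
  have hl3 : 0 < l := Nat.floor_pos.2 (by linarith)
  have hl4 : (1 : ℝ) ≤ l := by exact_mod_cast hl3
  have hl5 : s / 2 * r n ≤ l := by linarith
  have hQ : ∀ f ∈ Q 0 l, A w0 (e n) f = 0 := by
    intro f hf
    refine hexn f ?_
    rw [mem_Q] at hf
    rw [mem_bx_real]
    have a1 : |(f.1 : ℝ)| ≤ l := by have := hf.1; rw [Prod.fst_zero, sub_zero] at this; exact_mod_cast this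
    have a2 : |(f.2 : ℝ)| ≤ l := by have := hf.2; rw [Prod.snd_zero, sub_zero] at this; exact_mod_cast this
    have a3 : (l : ℝ) ≤ r n := by nlinarith
    simp only [Prod.fst_zero, Prod.snd_zero, Int.cast_zero, sub_zero]
    exact ⟨a1.trans a3, a2.trans a3⟩
  set E := DD C * Real.sqrt s with hE
  set M := ‖g‖ * (Real.sqrt (s / 2))⁻¹ with hM
  have hsq : Real.sqrt s ^ 2 = s := Real.sq_sqrt hs0.le
  have hss : 0 < Real.sqrt s := Real.sqrt_pos.2 hs0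
  have hB : 8 * M * E + 10 * E ^ 2 ≤ 16 * ‖g‖ * DD C + 10 * DD C ^ 2 := by
    have e1 : M * E ≤ 2 * ‖g‖ * DD C := by
      have e2 : Real.sqrt s ≤ 2 * Real.sqrt (s / 2) := by
        have e3 : (2 : ℝ) * Real.sqrt (s / 2) = Real.sqrt (2 ^ 2 * (s / 2)) := by
          rw [Real.sqrt_mul (by norm_num), Real.sqrt_sq (by norm_num)]
        rw [e3]; exact Real.sqrt_le_sqrt (by linarith)
      have e4 : 0 < Real.sqrt (s / 2) := Real.sqrt_pos.2 (by positivity)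
      have e5 : (Real.sqrt (s / 2))⁻¹ * Real.sqrt s ≤ 2 := by
        rw [inv_mul_le_iff₀ e4]; linarith
      have e6 : M * E = ‖g‖ * DD C * ((Real.sqrt (s / 2))⁻¹ * Real.sqrt s) := by
        rw [hM, hE]; ring
      rw [e6]
      have : 0 ≤ ‖g‖ * DD C := by positivity
      nlinarith
    have e7 : E ^ 2 ≤ DD C ^ 2 := by
      rw [hE, mul_pow, hsq]; nlinarith [sq_nonneg (DD C)]
    nlinarith
  set B := 16 * ‖g‖ * DD C + 10 * DD C ^ 2 with hBdef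
  have hB0 : 0 ≤ B := by positivity
  have hnu : ∀ h : Fin 4, nu h ≠ 0 := by
    intro h; fin_cases h <;> simp [nu]
  -- one half-edge
  have key : ∀ t ∈ Icc (-(l : ℤ)) l, ∀ h,
      |r n ^ 2 * q1 (e n (sd l h t)) h - r n * xc ^ 2 * ((-g ^ 2) / ⟨(l : ℝ), (t : ℝ)⟩ : ℂ).re| ≤ B ∧
      |r n ^ 2 * q2 (e n (sd l h t)) h - r n * (xc / 2) * ((-g ^ 2) / ⟨(l : ℝ), (t : ℝ)⟩ : ℂ).im|
        ≤ B := by
    intro t ht h
    have hd := dist0_sd ht h
    obtain ⟨a, c, ha, hc, hcM, hac⟩ := hap (sd l h t) (by rw [hd]; exact hl5) (by rw [hd]; exact hl1)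
    have hlt : (⟨(l : ℝ), (t : ℝ)⟩ : ℂ) ≠ 0 := by
      intro h0
      have := congrArg Complex.re h0
      simp only [Complex.zero_re] at this
      linarith
    have hrn : (r n : ℂ) ≠ 0 := by exact_mod_cast hr0.ne'
    have hz : nu h * c ^ 2 = (r n : ℂ) * ((-g ^ 2) / ⟨(l : ℝ), (t : ℝ)⟩) := by
      rw [hc, pt_sd]
      have := hnu h
      push_cast
      field_simp
    have s1 := q1_stab hac hcM h
    have s2 := q2_stab hac hcM h
    rw [q1_smul, ha, hz, Complex.re_ofReal_mul] at s1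
    rw [q2_smul, ha, hz, Complex.im_ofReal_mul] at s2
    refine ⟨le_trans (le_of_eq ?_) (s1.trans hB), le_trans (le_of_eq ?_) (s2.trans hB)⟩
    · congr 1; ring
    · congr 1; ring
  obtain ⟨c1, c2⟩ := sum_recip (-g ^ 2) l
  have f1 := flux1 hQ
  have f2 := flux2 hQ
  have hS := one_le_SS hl3
  -- summation
  have hcard : ((Icc (-(l : ℤ)) l).card : ℝ) ≤ 3 * s * r n := by
    rw [Int.card_Icc]
    have e1 : ((l : ℤ) + 1 - (-(l : ℤ))).toNat = 2 * l + 1 := by omega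
    rw [e1]; push_cast; linarith
  have sumE : ∀ F G : ℤ → Fin 4 → ℝ, (∀ t ∈ Icc (-(l : ℤ)) l, ∀ h, |F t h - G t h| ≤ B) →
      |∑ t ∈ Icc (-(l : ℤ)) l, ∑ h, F t h - ∑ t ∈ Icc (-(l : ℤ)) l, ∑ h, G t h| ≤
        3 * s * r n * (4 * B) := by
    intro F G hFG
    rw [← sum_sub_distrib]
    refine (abs_sum_le_sum_abs _ _).trans ?_
    have : ∀ t ∈ Icc (-(l : ℤ)) l, |∑ h, F t h - ∑ h, G t h| ≤ 4 * B := by
      intro t ht
      rw [← sum_sub_distrib]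
      refine (abs_sum_le_sum_abs _ _).trans ?_
      refine (sum_le_sum fun h _ => hFG t ht h).trans ?_
      simp
    refine (sum_le_sum this).trans ?_
    rw [sum_const, nsmul_eq_mul]
    gcongr
  have t1 := sumE (fun t h => r n ^ 2 * q1 (e n (sd l h t)) h)
    (fun t h => r n * xc ^ 2 * ((-g ^ 2) / ⟨(l : ℝ), (t : ℝ)⟩ : ℂ).re) fun t ht h => (key t ht h).1
  have t2' := sumE (fun t h => r n ^ 2 * q2 (e n (sd l h t)) h)
    (fun t h => r n * (xc / 2) * ((-g ^ 2) / ⟨(l : ℝ), (t : ℝ)⟩ : ℂ).im)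
      fun t ht h => (key t ht h).2
  have u1 : ∑ t ∈ Icc (-(l : ℤ)) l, ∑ _h : Fin 4,
      r n * xc ^ 2 * ((-g ^ 2) / ⟨(l : ℝ), (t : ℝ)⟩ : ℂ).re = r n * xc ^ 2 * 4 * ((-g ^ 2).re * SS l) := by
    rw [← c1, mul_sum]
    refine sum_congr rfl fun t _ => ?_
    rw [sum_const]; simp; ring
  have u2 : ∑ t ∈ Icc (-(l : ℤ)) l, ∑ _h : Fin 4,
      r n * (xc / 2) * ((-g ^ 2) / ⟨(l : ℝ), (t : ℝ)⟩ : ℂ).im =
        r n * (xc / 2) * 4 * ((-g ^ 2).im * SS l) := by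
    rw [← c2, mul_sum]
    refine sum_congr rfl fun t _ => ?_
    rw [sum_const]; simp; ring
  have v1 : ∑ t ∈ Icc (-(l : ℤ)) l, ∑ h, r n ^ 2 * q1 (e n (sd l h t)) h =
      r n ^ 2 * ∑ t ∈ Icc (-(l : ℤ)) l, ∑ h, q1 (e n (sd l h t)) h := by
    simp only [mul_sum]
  have v2 : ∑ t ∈ Icc (-(l : ℤ)) l, ∑ h, r n ^ 2 * q2 (e n (sd l h t)) h =
      r n ^ 2 * ∑ t ∈ Icc (-(l : ℤ)) l, ∑ h, q2 (e n (sd l h t)) h := by
    simp only [mul_sum]
  rw [u1, v1] at t1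
  rw [u2, v2, f2, mul_zero, zero_sub, abs_neg] at t2'
  have hx := xc_pos
  constructor
  · by_cases hneg : (-g ^ 2).re ≤ 0
    · have : xc ^ 2 * (-g ^ 2).re ≤ 0 := mul_nonpos_of_nonneg_of_nonpos (by positivity) hneg
      have : 0 ≤ 3 * s * B := by positivity
      linarith
    · push Not at hneg
      have w1 := (abs_le.1 t1).1
      have w2 : r n ^ 2 * ∑ t ∈ Icc (-(l : ℤ)) l, ∑ h, q1 (e n (sd l h t)) h ≤ 0 :=
        mul_nonpos_of_nonneg_of_nonpos (by positivity) f1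
      have w3 : r n * xc ^ 2 * 4 * ((-g ^ 2).re * SS l) ≤ 3 * s * r n * (4 * B) := by linarith
      have w4 : (-g ^ 2).re * 1 ≤ (-g ^ 2).re * SS l := mul_le_mul_of_nonneg_left hS hneg.le
      have w5 : r n * (4 * (xc ^ 2 * (-g ^ 2).re)) ≤ r n * (4 * (3 * s * B)) := by
        calc r n * (4 * (xc ^ 2 * (-g ^ 2).re)) = r n * xc ^ 2 * 4 * ((-g ^ 2).re * 1) := by ring
          _ ≤ r n * xc ^ 2 * 4 * ((-g ^ 2).re * SS l) := by gcongr
          _ ≤ 3 * s * r n * (4 * B) := w3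
          _ = r n * (4 * (3 * s * B)) := by ring
      have w6 := le_of_mul_le_mul_left w5 hr0
      linarith
  · have x1 : 0 < r n * (xc / 2) * 4 := by positivity
    have x2 : 0 < SS l := by linarith
    rw [abs_mul (r n * (xc / 2) * 4), abs_mul (-g ^ 2).im, abs_of_pos x1, abs_of_pos x2] at t2'
    have w5 : r n * (4 * (xc / 2 * |(-g ^ 2).im|)) ≤ r n * (4 * (3 * s * B)) := by
      calc r n * (4 * (xc / 2 * |(-g ^ 2).im|)) = r n * (xc / 2) * 4 * (|(-g ^ 2).im| * 1) := by ring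
        _ ≤ r n * (xc / 2) * 4 * (|(-g ^ 2).im| * SS l) := by gcongr
        _ ≤ 3 * s * r n * (4 * B) := t2'
        _ = r n * (4 * (3 * s * B)) := by ring
    have w6 := le_of_mul_le_mul_left w5 hr0
    linarith

theorem le_zero_of {x B : ℝ} (h : ∀ s : ℝ, 0 < s → s < 1 / 8 → x ≤ 3 * s * B) : x ≤ 0 := by
  have h1 : Tendsto (fun s : ℝ => 3 * s * B) (𝓝[>] 0) (𝓝 (3 * 0 * B)) := by
    refine Tendsto.mono_left ?_ nhdsWithin_le_nhds
    exact ((continuous_const.mul continuous_id).mul continuous_const).tendsto 0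
  have h2 := ge_of_tendsto (b := x) h1 (by
    have : Set.Iio (1 / 8 : ℝ) ∈ 𝓝[>] (0 : ℝ) := mem_nhdsWithin_of_mem_nhds (Iio_mem_nhds (by norm_num))
    filter_upwards [this, self_mem_nhdsWithin] with s hs1 hs2
    exact h s hs2 hs1)
  simpa using h2

/-- **`g` is real** -/
theorem Charts.g_real (H : Charts U r e C F1 F2) (hr : Tendsto r (U : Filter ℕ) atTop)
    (hex : ∀ᶠ k in (U : Filter ℕ), ∀ f ∈ bx 0 (r k), A w0 (e k) f = 0)
    (h1 : ∀ z ∈ Ob1, ‖z‖ < 1 / 4 → ‖F1 z - g * m1 z‖ ≤ LL C * Real.sqrt ‖z‖)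
    (h2 : ∀ z ∈ Ob2, ‖z‖ < 1 / 4 → ‖F2 z - g * m2 z‖ ≤ LL C * Real.sqrt ‖z‖) : g.im = 0 := by
  have hx := xc_pos
  have a1 : xc ^ 2 * (-g ^ 2).re ≤ 0 := le_zero_of fun s hs0 hs =>
    (H.flux hr hex h1 h2 hs0 hs).1
  have a2 : xc / 2 * |(-g ^ 2).im| ≤ 0 := le_zero_of fun s hs0 hs =>
    (H.flux hr hex h1 h2 hs0 hs).2
  have b1 : (-g ^ 2).re ≤ 0 := by
    by_contra hc
    push Not at hc
    have : 0 < xc ^ 2 * (-g ^ 2).re := by positivity
    linarith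
  have b2 : (-g ^ 2).im = 0 := by
    by_contra hc
    have : 0 < |(-g ^ 2).im| := abs_pos.2 hc
    have : 0 < xc / 2 * |(-g ^ 2).im| := by positivity
    linarith
  have c1 : (-g ^ 2).re = g.im ^ 2 - g.re ^ 2 := by simp [pow_two]
  have c2 : (-g ^ 2).im = -(2 * g.re * g.im) := by simp [pow_two]; ring
  rw [c1] at b1
  rw [c2] at b2
  by_contra hc
  have hre : g.re = 0 := by
    rcases mul_eq_zero.1 (neg_eq_zero.1 b2) with h | h
    · linarith
    · exact absurd h hc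
  rw [hre] at b1
  have : 0 < g.im ^ 2 := by positivity
  linarith

end

end Crest.Agent.R165.Bxx797
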