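import Mathlib
import Crest.Agent.R165.BxA_797

/-!
# EX at a branch vertex: transfer of the continuum estimate to the lattice (row 165; helper936)

* `transfer`: locally uniform convergence in the two charts `Om1`, `Om2`, no concentration at the
  branch vertex and a pointwise bound `|F - P₀ m|² ≤ b` on the box of size `τ` give
  `NB 0 (τ r) (e - (P₀/√r) u0)² ≤ 36 τ² b + η` eventually
-/

set_option autoImplicit false
set_option linter.unusedSimpArgs false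
set_option linter.unusedVariables false

noncomputable section

namespace Crest.Agent.R165.BxTx936

open Finset Filter Topology
open Crest.Agent.R165.Tr1x40
open Crest.Agent.R165.RIfx891
open Crest.Agent.R165.Lim1x943 (pt LocUnif)
open Crest.Agent.R165.Bxx797

theorem lv_sub (c d : ℂ) (p : ℝ) (h : Fin 4) : lv (c - p * d) h = lv c h - p * lv d h := by
  fin_cases h <;> simp [lv] <;> ring

theorem t2_sq (f : Face) : t2 f ^ 2 = 1 := by
  unfold t2; split_ifs <;> norm_num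

/-- the pieces of the annulus -/
def KK1 (δ τ : ℝ) : Set ℂ :=
  {z | |z.re| ≤ τ ∧ |z.im| ≤ τ ∧ δ ≤ max |z.re| |z.im| ∧ z.re ≤ 0}
def KK2 (δ τ : ℝ) : Set ℂ :=
  {z | |z.re| ≤ τ ∧ |z.im| ≤ τ ∧ δ ≤ max |z.re| |z.im| ∧ 0 ≤ z.re}

theorem isCompact_box (τ : ℝ) : IsCompact {z : ℂ | |z.re| ≤ τ ∧ |z.im| ≤ τ} := by
  rw [Metric.isCompact_iff_isClosed_bounded]
  constructor
  · have h1 : IsClosed {z : ℂ | |z.re| ≤ τ} := isClosed_le (by fun_prop) continuous_const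
    have h2 : IsClosed {z : ℂ | |z.im| ≤ τ} := isClosed_le (by fun_prop) continuous_const
    exact h1.inter h2
  · rw [isBounded_iff_forall_norm_le]
    refine ⟨τ + τ, fun z hz => ?_⟩
    have h1 := Complex.norm_le_abs_re_add_abs_im z
    exact h1.trans (add_le_add hz.1 hz.2)

theorem isCompact_KK1 (δ τ : ℝ) : IsCompact (KK1 δ τ) := by
  refine (isCompact_box τ).of_isClosed_subset ?_ fun z hz => ⟨hz.1, hz.2.1⟩
  have h1 : IsClosed {z : ℂ | |z.re| ≤ τ} := isClosed_le (by fun_prop) continuous_const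
  have h2 : IsClosed {z : ℂ | |z.im| ≤ τ} := isClosed_le (by fun_prop) continuous_const
  have h3 : IsClosed {z : ℂ | δ ≤ max |z.re| |z.im|} :=
    isClosed_le continuous_const (by fun_prop)
  have h4 : IsClosed {z : ℂ | z.re ≤ 0} := isClosed_le (by fun_prop) continuous_const
  exact h1.inter (h2.inter (h3.inter h4))

theorem isCompact_KK2 (δ τ : ℝ) : IsCompact (KK2 δ τ) := by
  refine (isCompact_box τ).of_isClosed_subset ?_ fun z hz => ⟨hz.1, hz.2.1⟩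
  have h1 : IsClosed {z : ℂ | |z.re| ≤ τ} := isClosed_le (by fun_prop) continuous_const
  have h2 : IsClosed {z : ℂ | |z.im| ≤ τ} := isClosed_le (by fun_prop) continuous_const
  have h3 : IsClosed {z : ℂ | δ ≤ max |z.re| |z.im|} :=
    isClosed_le continuous_const (by fun_prop)
  have h4 : IsClosed {z : ℂ | 0 ≤ z.re} := isClosed_le continuous_const (by fun_prop)
  exact h1.inter (h2.inter (h3.inter h4))

theorem ne_zero_of_max {z : ℂ} {δ : ℝ} (hδ : 0 < δ) (h : δ ≤ max |z.re| |z.im|) : z ≠ 0 := by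
  rintro rfl
  simp at h
  linarith

theorem KK1_sub {δ τ : ℝ} (hδ : 0 < δ) : KK1 δ τ ⊆ Om1 := by
  intro z hz
  have hz0 := ne_zero_of_max hδ hz.2.2.1
  show -z ∈ Complex.slitPlane
  rw [Complex.mem_slitPlane_iff]
  rcases eq_or_lt_of_le hz.2.2.2 with h | h
  · right
    intro h2
    apply hz0
    apply Complex.ext
    · exact h
    · simpa using h2
  · left
    simpa using h

theorem KK2_sub {δ τ : ℝ} (hδ : 0 < δ) : KK2 δ τ ⊆ Om2 := by
  intro z hz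
  have hz0 := ne_zero_of_max hδ hz.2.2.1
  show z ∈ Complex.slitPlane
  rw [Complex.mem_slitPlane_iff]
  rcases eq_or_lt_of_le hz.2.2.2 with h | h
  · right
    intro h2
    apply hz0
    apply Complex.ext
    · exact h.symm
    · simpa using h2
  · left
    exact h

theorem card_bx_le {r : ℝ} (hr : 0 ≤ r) (x : Face) : ((bx x r).card : ℝ) ≤ (2 * r + 1) ^ 2 := by
  unfold bx
  rw [card_product, Int.card_Icc, Int.card_Icc]
  have h0 : 0 ≤ ⌊r⌋ := Int.floor_nonneg.2 hr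
  have h1 : (x.1 + ⌊r⌋ + 1 - (x.1 - ⌊r⌋)).toNat = (2 * ⌊r⌋ + 1).toNat := by congr 1; ring
  have h2 : (x.2 + ⌊r⌋ + 1 - (x.2 - ⌊r⌋)).toNat = (2 * ⌊r⌋ + 1).toNat := by congr 1; ring
  rw [h1, h2]
  have h3 : (((2 * ⌊r⌋ + 1).toNat : ℕ) : ℝ) = 2 * (⌊r⌋ : ℝ) + 1 := by
    have : (((2 * ⌊r⌋ + 1).toNat : ℕ) : ℤ) = 2 * ⌊r⌋ + 1 := Int.toNat_of_nonneg (by omega)
    exact_mod_cast congrArg (fun k : ℤ => (k : ℝ)) this
  push_cast
  rw [h3, ← pow_two]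
  have h4 := Int.floor_le r
  have h5 : (0:ℝ) ≤ (⌊r⌋ : ℝ) := by exact_mod_cast h0
  apply pow_le_pow_left₀ (by linarith)
  linarith

/-- pointwise comparison at one face: everything multiplied by `σ = ±1` -/
theorem face_est {R P0 ε b σ : ℝ} (hR : 0 < R) (hσ : σ ^ 2 = 1) {e u : Fin 4 → ℝ} {F m : ℂ}
    (h1 : ∀ h, |R * (σ * e h) - lv F h| ≤ ε) (h2 : ∀ h, |Real.sqrt R * (σ * u h) - lv m h| ≤ ε)
    (hb : ‖F - P0 * m‖ ^ 2 ≤ b) :
    nsq (fun h => e h - P0 / Real.sqrt R * u h) ≤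
      (4 * b + 8 * (ε * (1 + |P0|)) ^ 2) / R ^ 2 := by
  have hs : 0 < Real.sqrt R := Real.sqrt_pos.2 hR
  have hss : Real.sqrt R * Real.sqrt R = R := Real.mul_self_sqrt hR.le
  have hε : 0 ≤ ε := (abs_nonneg _).trans (h1 0)
  have key : ∀ h, (R * (e h - P0 / Real.sqrt R * u h)) ^ 2
      ≤ 2 * lv (F - P0 * m) h ^ 2 + 2 * (ε * (1 + |P0|)) ^ 2 := by
    intro h
    have e1 : σ * (R * (e h - P0 / Real.sqrt R * u h)) = lv (F - P0 * m) h +
        ((R * (σ * e h) - lv F h) - P0 * (Real.sqrt R * (σ * u h) - lv m h)) := by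
      rw [lv_sub]
      have : R * (P0 / Real.sqrt R) = P0 * Real.sqrt R := by
        calc R * (P0 / Real.sqrt R) = Real.sqrt R * Real.sqrt R * (P0 / Real.sqrt R) := by rw [hss]
          _ = P0 * Real.sqrt R := by field_simp
      linear_combination (-σ * u h) * this
    have e2 : (R * (e h - P0 / Real.sqrt R * u h)) ^ 2
        = (σ * (R * (e h - P0 / Real.sqrt R * u h))) ^ 2 := by
      rw [mul_pow σ, hσ, one_mul]
    rw [e2, e1]
    set A := lv (F - P0 * m) h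
    set B := (R * (σ * e h) - lv F h) - P0 * (Real.sqrt R * (σ * u h) - lv m h) with hB
    have hBle : |B| ≤ ε * (1 + |P0|) := by
      calc |B| ≤ |R * (σ * e h) - lv F h| + |P0 * (Real.sqrt R * (σ * u h) - lv m h)| :=
            abs_sub _ _
        _ ≤ ε + |P0| * ε := by
            rw [abs_mul]
            exact add_le_add (h1 h) (mul_le_mul_of_nonneg_left (h2 h) (abs_nonneg _))
        _ = ε * (1 + |P0|) := by ring
    have hB2 : B ^ 2 ≤ (ε * (1 + |P0|)) ^ 2 := by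
      rw [← sq_abs]
      exact pow_le_pow_left₀ (abs_nonneg _) hBle 2
    nlinarith [sq_nonneg (A - B)]
  rw [le_div_iff₀ (by positivity)]
  have h3 : nsq (fun h => e h - P0 / Real.sqrt R * u h) * R ^ 2
      = ∑ h, (R * (e h - P0 / Real.sqrt R * u h)) ^ 2 := by
    unfold nsq
    rw [sum_mul]
    exact sum_congr rfl fun h _ => by ring
  rw [h3]
  refine (sum_le_sum fun h _ => key h).trans ?_
  rw [sum_add_distrib, ← mul_sum]
  have h4 : ∑ h, lv (F - P0 * m) h ^ 2 = 2 * ‖F - P0 * m‖ ^ 2 := by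
    have := nsq_lv (F - P0 * m)
    rw [Complex.normSq_eq_norm_sq] at this
    exact this
  rw [h4]
  simp only [sum_const, card_univ, Fintype.card_fin, nsmul_eq_mul]
  push_cast
  linarith

/-- splitting a sum over a box into an inner box and the rest -/
theorem NB_split {r t : ℝ} {φ : Fld} {c : ℝ} (hc : 0 ≤ c) (hr : 0 ≤ r)
    (h : ∀ f ∈ bx 0 r, f ∉ bx 0 t → nsq (φ f) ≤ c) :
    NB 0 r φ ^ 2 ≤ NB 0 t φ ^ 2 + (2 * r + 1) ^ 2 * c := by
  rw [NB_sq, NB_sq]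
  calc ∑ f ∈ bx 0 r, nsq (φ f)
      ≤ ∑ f ∈ bx 0 r, ((if f ∈ bx 0 t then nsq (φ f) else 0) + c) := by
        refine sum_le_sum fun f hf => ?_
        split_ifs with h1
        · linarith
        · rw [zero_add]; exact h f hf h1
    _ = ∑ f ∈ (bx 0 r).filter (· ∈ bx 0 t), nsq (φ f) + (bx 0 r).card * c := by
        rw [sum_add_distrib, sum_filter, sum_const, nsmul_eq_mul]
    _ ≤ ∑ f ∈ bx 0 t, nsq (φ f) + (2 * r + 1) ^ 2 * c := by
        refine add_le_add ?_ (mul_le_mul_of_nonneg_right (card_bx_le hr 0) hc)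
        refine sum_le_sum_of_subset_of_nonneg ?_ fun f _ _ => nsq_nonneg _
        intro f hf
        exact (mem_filter.1 hf).2

theorem arith1 {τ R b ε p η E : ℝ} (hR : 0 < R) (hτ : 0 < τ) (hτR : 1 ≤ τ * R) (hb : 0 ≤ b)
    (hη : 0 < η) (hE : E = 144 * τ ^ 2 * p ^ 2 + 1) (hε : ε ^ 2 = η / E) :
    (2 * (τ * R) + 1) ^ 2 * ((4 * b + 8 * (ε * p) ^ 2) / R ^ 2) ≤ 36 * τ ^ 2 * b + η / 2 := by
  have hE0 : 0 < E := by rw [hE]; positivity
  have d1 : (2 * (τ * R) + 1) ^ 2 ≤ 9 * τ ^ 2 * R ^ 2 := by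
    have : (2 * (τ * R) + 1) ^ 2 ≤ (3 * (τ * R)) ^ 2 :=
      pow_le_pow_left₀ (by positivity) (by linarith) 2
    calc _ ≤ _ := this
      _ = _ := by ring
  have hc0 : 0 ≤ (4 * b + 8 * (ε * p) ^ 2) / R ^ 2 := by positivity
  have d2 : 9 * τ ^ 2 * R ^ 2 * ((4 * b + 8 * (ε * p) ^ 2) / R ^ 2)
      = 36 * τ ^ 2 * b + 72 * τ ^ 2 * p ^ 2 * ε ^ 2 := by
    have : R ^ 2 ≠ 0 := by positivity
    field_simp
    ring
  have d3 : 72 * τ ^ 2 * p ^ 2 * (η / E) ≤ η / 2 := by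
    rw [← mul_div_assoc, div_le_div_iff₀ hE0 two_pos, hE]
    nlinarith [mul_pos hη (by positivity : 0 < τ ^ 2), sq_nonneg (τ * p)]
  calc _ ≤ 9 * τ ^ 2 * R ^ 2 * ((4 * b + 8 * (ε * p) ^ 2) / R ^ 2) :=
        mul_le_mul_of_nonneg_right d1 hc0
    _ = 36 * τ ^ 2 * b + 72 * τ ^ 2 * p ^ 2 * ε ^ 2 := d2
    _ ≤ 36 * τ ^ 2 * b + η / 2 := by rw [hε]; linarith

theorem arith2 {K K' P δ η x y z : ℝ} (hx : 0 ≤ x) (hy : 0 ≤ y) (hz : 0 ≤ z)
    (h0 : x ≤ y + z) (h1 : y ^ 2 ≤ K * δ) (h2 : z ^ 2 ≤ P * K' * δ) (hδ : 0 ≤ δ)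
    (h3 : δ * (4 * (K + P * K' + 1)) ≤ η) : x ^ 2 ≤ η / 2 := by
  have b8 : x ^ 2 ≤ 2 * y ^ 2 + 2 * z ^ 2 := by
    have : x ^ 2 ≤ (y + z) ^ 2 := pow_le_pow_left₀ hx h0 2
    nlinarith [sq_nonneg (y - z)]
  nlinarith

/-- **transfer** of the continuum estimate -/
theorem transfer {ι : Type} {U : Filter ι} {r : ι → ℝ} (hr : Tendsto r U atTop) {e : ι → Fld}
    {Ω1 Ω2 : Set ℂ} {F1 F2 : ℂ → ℂ} {τ K K' b P0 : ℝ} (hτ : 0 < τ) (hb : 0 ≤ b)
    (hΩ1 : ∀ z ∈ Om1, |z.re| ≤ τ → |z.im| ≤ τ → z ∈ Ω1)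
    (hΩ2 : ∀ z ∈ Om2, |z.re| ≤ τ → |z.im| ≤ τ → z ∈ Ω2)
    (L1 : ∀ h, LocUnif U r Ω1 (fun n f => r n * e n f h) (fun z => lv (F1 z) h))
    (L2 : ∀ h, LocUnif U r Ω2 (fun n f => r n * (t2 f * e n f h)) (fun z => lv (F2 z) h))
    (M : ModeLim K') (hK : 0 ≤ K) (hK' : 0 ≤ K')
    (NC : ∀ᶠ n in U, ∀ t, 1 ≤ t → 2 * t ≤ r n → NB 0 t (e n) ^ 2 ≤ K * (t / r n))
    (B1 : ∀ z ∈ Om1, |z.re| ≤ τ → |z.im| ≤ τ → ‖F1 z - P0 * m1 z‖ ^ 2 ≤ b)
    (B2 : ∀ z ∈ Om2, |z.re| ≤ τ → |z.im| ≤ τ → ‖F2 z - P0 * m2 z‖ ^ 2 ≤ b)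
    {η : ℝ} (hη : 0 < η) :
    ∀ᶠ n in U, NB 0 (τ * r n) (e n - (P0 / Real.sqrt (r n)) • u0) ^ 2 ≤ 36 * τ ^ 2 * b + η := by
  -- choice of `δ` and `ε`
  set D := 4 * (K + P0 ^ 2 * K' + 1) with hD
  have hD0 : 0 < D := by positivity
  set δ := min (1 / 2) (min τ (η / D)) with hδdef
  have hδ : 0 < δ := by
    apply lt_min (by norm_num) (lt_min hτ (by positivity))
  have hδ2 : δ ≤ 1 / 2 := min_le_left _ _
  have hδη : δ * D ≤ η := by
    have : δ ≤ η / D := (min_le_right _ _).trans (min_le_right _ _)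
    rwa [le_div_iff₀ hD0] at this
  set E := 144 * τ ^ 2 * (1 + |P0|) ^ 2 + 1 with hE
  have hE0 : 0 < E := by positivity
  set ε := Real.sqrt (η / E) with hε
  have hε0 : 0 < ε := Real.sqrt_pos.2 (by positivity)
  have hεsq : ε ^ 2 = η / E := Real.sq_sqrt (by positivity)
  have k1 := isCompact_KK1 δ τ
  have k2 := isCompact_KK2 δ τ
  have s1 := KK1_sub (τ := τ) hδ
  have s2 := KK2_sub (τ := τ) hδ
  have c1 : KK1 δ τ ⊆ Ω1 := fun z hz => hΩ1 z (s1 hz) hz.1 hz.2.1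
  have c2 : KK2 δ τ ⊆ Ω2 := fun z hz => hΩ2 z (s2 hz) hz.1 hz.2.1
  have ev1 : ∀ᶠ n in U, ∀ h, ∀ f, pt (r n) f ∈ KK1 δ τ →
      |r n * e n f h - lv (F1 (pt (r n) f)) h| ≤ ε :=
    eventually_all.2 fun h => L1 h _ k1 c1 ε hε0
  have ev2 : ∀ᶠ n in U, ∀ h, ∀ f, pt (r n) f ∈ KK2 δ τ →
      |r n * (t2 f * e n f h) - lv (F2 (pt (r n) f)) h| ≤ ε :=
    eventually_all.2 fun h => L2 h _ k2 c2 ε hε0
  have ev3 : ∀ᶠ n in U, ∀ h, ∀ f, pt (r n) f ∈ KK1 δ τ →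
      |Real.sqrt (r n) * u0 f h - lv (m1 (pt (r n) f)) h| ≤ ε :=
    eventually_all.2 fun h => M.lim1 U r hr h _ k1 s1 ε hε0
  have ev4 : ∀ᶠ n in U, ∀ h, ∀ f, pt (r n) f ∈ KK2 δ τ →
      |Real.sqrt (r n) * (t2 f * u0 f h) - lv (m2 (pt (r n) f)) h| ≤ ε :=
    eventually_all.2 fun h => M.lim2 U r hr h _ k2 s2 ε hε0
  filter_upwards [ev1, ev2, ev3, ev4, NC, hr.eventually_ge_atTop (1 / δ),
    hr.eventually_ge_atTop (1 / τ), hr.eventually_gt_atTop 0] with n h1 h2 h3 h4 hnc hr1 hr2 hr0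
  set R := r n with hRdef
  have hδR : 1 ≤ δ * R := by rw [div_le_iff₀ hδ] at hr1; linarith
  have hτR : 1 ≤ τ * R := by rw [div_le_iff₀ hτ] at hr2; linarith
  set c := (4 * b + 8 * (ε * (1 + |P0|)) ^ 2) / R ^ 2 with hc
  have hc0 : 0 ≤ c := by positivity
  set φ : Fld := e n - (P0 / Real.sqrt R) • u0 with hφ
  have hφf : ∀ f, φ f = fun h => e n f h - P0 / Real.sqrt R * u0 f h := fun f => rfl
  have hout : ∀ f ∈ bx 0 (τ * R), f ∉ bx 0 (δ * R) → nsq (φ f) ≤ c := by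
    intro f hf hfδ
    rw [mem_bx_real] at hf hfδ
    simp only [Prod.fst_zero, Prod.snd_zero, Int.cast_zero, sub_zero] at hf hfδ
    have a1 : |(pt R f).re| ≤ τ := by
      rw [Lim1x943.pt_re, abs_div, abs_of_pos hr0, div_le_iff₀ hr0]; exact hf.1
    have a2 : |(pt R f).im| ≤ τ := by
      rw [Lim1x943.pt_im, abs_div, abs_of_pos hr0, div_le_iff₀ hr0]; exact hf.2
    have a3 : δ ≤ max |(pt R f).re| |(pt R f).im| := by
      by_contra hcon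
      push Not at hcon
      have b1 := (le_max_left _ _).trans_lt hcon
      have b2 := (le_max_right _ _).trans_lt hcon
      apply hfδ
      rw [Lim1x943.pt_re, abs_div, abs_of_pos hr0, div_lt_iff₀ hr0] at b1
      rw [Lim1x943.pt_im, abs_div, abs_of_pos hr0, div_lt_iff₀ hr0] at b2
      exact ⟨b1.le, b2.le⟩
    rw [hφf]
    rcases le_total (pt R f).re 0 with hz | hz
    · have hz1 : pt R f ∈ KK1 δ τ := ⟨a1, a2, a3, hz⟩
      refine face_est (σ := 1) hr0 (by norm_num) (fun h => ?_) (fun h => ?_)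
        (B1 _ (s1 hz1) a1 a2)
      · rw [one_mul]; exact h1 h f hz1
      · rw [one_mul]; exact h3 h f hz1
    · have hz1 : pt R f ∈ KK2 δ τ := ⟨a1, a2, a3, hz⟩
      exact face_est (σ := t2 f) hr0 (t2_sq f) (fun h => h2 h f hz1) (fun h => h4 h f hz1)
        (B2 _ (s2 hz1) a1 a2)
  have hsplit := NB_split hc0 (by linarith : 0 ≤ τ * R) hout
  -- the inner ball
  have hin : NB 0 (δ * R) φ ^ 2 ≤ η / 2 := by
    have b0 : NB 0 (δ * R) φ ≤ NB 0 (δ * R) (e n) + NB 0 (δ * R) ((P0 / Real.sqrt R) • u0) :=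
      map_sub_le_add _ _ _
    have b1 := hnc (δ * R) hδR (by nlinarith)
    have b2 := M.mass (δ * R) hδR
    have b3 : NB 0 (δ * R) ((P0 / Real.sqrt R) • u0) ^ 2 ≤ P0 ^ 2 * K' * δ := by
      rw [map_smul_eq_mul, mul_pow, Real.norm_eq_abs, sq_abs, div_pow, Real.sq_sqrt hr0.le]
      calc P0 ^ 2 / R * NB 0 (δ * R) u0 ^ 2 ≤ P0 ^ 2 / R * (K' * (δ * R)) :=
            mul_le_mul_of_nonneg_left b2 (by positivity)
        _ = P0 ^ 2 * K' * δ := by field_simp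
    have b4 : K * (δ * R / R) = K * δ := by rw [mul_div_assoc, div_self hr0.ne', mul_one]
    rw [b4] at b1
    exact arith2 (apply_nonneg _ _) (apply_nonneg _ _) (apply_nonneg _ _) b0 b1 b3 hδ.le hδη
  -- the annulus
  have hann : (2 * (τ * R) + 1) ^ 2 * c ≤ 36 * τ ^ 2 * b + η / 2 :=
    arith1 hr0 hτ hτR hb hη hE hεsq
  linarith

/-- the second conjunct of `EXbrSeq` from `transfer`: `b = B τ`, `τ = q ^ (2 m)` -/
theorem one_mode {ι : Type} {U : Filter ι} {r : ι → ℝ} (hr : Tendsto r U atTop) {e : ι → Fld}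
    {Ω1 Ω2 : Set ℂ} {F1 F2 : ℂ → ℂ} {K K' B P0 : ℝ} {m : ℕ} (hB : 0 ≤ B)
    (hΩ1 : ∀ z ∈ Om1, |z.re| ≤ Campx891.q ^ (2 * m) → |z.im| ≤ Campx891.q ^ (2 * m) → z ∈ Ω1)
    (hΩ2 : ∀ z ∈ Om2, |z.re| ≤ Campx891.q ^ (2 * m) → |z.im| ≤ Campx891.q ^ (2 * m) → z ∈ Ω2)
    (L1 : ∀ h, LocUnif U r Ω1 (fun n f => r n * e n f h) (fun z => lv (F1 z) h))
    (L2 : ∀ h, LocUnif U r Ω2 (fun n f => r n * (t2 f * e n f h)) (fun z => lv (F2 z) h))
    (M : ModeLim K') (hK : 0 ≤ K) (hK' : 0 ≤ K')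
    (NC : ∀ᶠ n in U, ∀ t, 1 ≤ t → 2 * t ≤ r n → NB 0 t (e n) ^ 2 ≤ K * (t / r n))
    (B1 : ∀ z ∈ Om1, |z.re| ≤ Campx891.q ^ (2 * m) → |z.im| ≤ Campx891.q ^ (2 * m) →
      ‖F1 z - P0 * m1 z‖ ^ 2 ≤ B * Campx891.q ^ (2 * m))
    (B2 : ∀ z ∈ Om2, |z.re| ≤ Campx891.q ^ (2 * m) → |z.im| ≤ Campx891.q ^ (2 * m) →
      ‖F2 z - P0 * m2 z‖ ^ 2 ≤ B * Campx891.q ^ (2 * m))
    {η : ℝ} (hη : 0 < η) :
    ∀ᶠ n in U, ∃ κ : ℝ, NB 0 (r n * Campx891.q ^ (2 * m)) (e n - κ • u0) ≤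
      6 * Real.sqrt B * Campx891.q ^ (3 * m) + η := by
  have hq := Campx891.q_pos
  have h1 := transfer hr (τ := Campx891.q ^ (2 * m)) (b := B * Campx891.q ^ (2 * m))
    (by positivity) (by positivity) hΩ1 hΩ2 L1 L2 M hK hK' NC B1 B2 (η := η ^ 2) (by positivity)
  filter_upwards [h1] with n hn
  refine ⟨P0 / Real.sqrt (r n), ?_⟩
  rw [mul_comm (r n)]
  have e1 : 36 * (Campx891.q ^ (2 * m)) ^ 2 * (B * Campx891.q ^ (2 * m))
      = (6 * Real.sqrt B * Campx891.q ^ (3 * m)) ^ 2 := by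
    have hs := Real.sq_sqrt hB
    have e2 : (Campx891.q ^ (2 * m)) ^ 2 * Campx891.q ^ (2 * m) = (Campx891.q ^ (3 * m)) ^ 2 := by
      rw [← pow_mul, ← pow_mul, ← pow_add]; congr 1; ring
    rw [mul_pow, mul_pow, hs, ← e2]; ring
  rw [e1] at hn
  refine le_of_sq_le_sq (hn.trans ?_) (by positivity)
  have a1 : 0 ≤ 6 * Real.sqrt B * Campx891.q ^ (3 * m) := by positivity
  nlinarith

end Crest.Agent.R165.BxTx936
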