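import Mathlib
import Crest.Agent.R165.NcCut_811
import Crest.Agent.R165.RIface_891
import Crest.Agent.R165.SqK_470
import Crest.Agent.R165.BxA_797

/-!
# EX at a branch vertex, part 0 (row 165, block R; helper936, with 797)

* translation and gauge covariance: `red` brings a `BranchOn` background to the standard one
  (`Br0`: vertex at the origin, no gauge, solution of norm one)
* `ex1_ball`: growth of exact solutions on balls for every plus background, from the square trick
* `exbr_of_seq`: `EXbr C` follows from the square trick and a statement about normalised sequences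
  along an ultrafilter (`SqBr`)
-/

set_option autoImplicit false
set_option linter.unusedSimpArgs false
set_option linter.unusedVariables false

noncomputable section

namespace Crest.Agent.R165.EXbr0x936

open Finset Filter Topology Crest.Agent.R165.Tr1x40 Crest.Agent.R165.Intx811
  Crest.Agent.R165.NcCutx811 Crest.Agent.R165.RIfx891 Crest.Agent.R165.Campx891

open Crest.Agent.R165.PotAx894 (Q mem_Q)

/-! ### translation -/

/-- translation of a field -/
def tr (v : Face) : Fld →ₗ[ℝ] Fld where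
  toFun φ f h := φ (f + v) h
  map_add' φ ψ := rfl
  map_smul' c φ := rfl

@[simp] theorem tr_apply (v : Face) (φ : Fld) (f : Face) : tr v φ f = φ (f + v) := rfl

theorem nb_add (f v : Face) (h : Fin 4) : nb (f + v) h = nb f h + v := by
  fin_cases h <;> simp [nb, Prod.ext_iff] <;> ring

theorem A_tr (v : Face) (w φ : Fld) (f : Face) : A (tr v w) (tr v φ) f = A w φ (f + v) := by
  funext h
  simp only [A, Y, tr_apply, nb_add]

theorem sym_tr (v : Face) {w : Fld} (hw : Sym w) : Sym (tr v w) := by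
  intro f h
  have := hw (f + v) h
  simp only [tr_apply]
  rwa [← nb_add]

theorem mem_bx_add {f v : Face} {r : ℝ} : f + v ∈ bx v r ↔ f ∈ bx 0 r := by
  rw [mem_bx, mem_bx]
  simp

theorem mem_bx_zero_sub {f v : Face} {r : ℝ} : f ∈ bx v r ↔ f - v ∈ bx 0 r := by
  rw [← mem_bx_add (v := v), sub_add_cancel]

theorem NB_tr (v : Face) (r : ℝ) (φ : Fld) : NB 0 r (tr v φ) = NB v r φ := by
  have h : NB 0 r (tr v φ) ^ 2 = NB v r φ ^ 2 := by
    rw [NB_sq, NB_sq]
    refine sum_bij' (fun f _ => f + v) (fun f _ => f - v) (fun f hf => mem_bx_add.2 hf)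
      (fun f hf => mem_bx_zero_sub.1 hf) (fun f _ => add_sub_cancel_right _ _)
      (fun f _ => sub_add_cancel _ _) (fun f _ => rfl)
  exact (pow_left_inj₀ (apply_nonneg _ _) (apply_nonneg _ _) two_ne_zero).1 h

theorem rayw_add (v f : Face) (h : Fin 4) : rayw v (f + v) h = rayw 0 f h := by
  unfold rayw
  simp only [Prod.fst_add, Prod.snd_add, Prod.fst_zero, Prod.snd_zero]
  have e1 : (f.2 + v.2 = v.2) ↔ f.2 = 0 := by constructor <;> intro h <;> omega
  have e2 : (v.1 ≤ f.1 + v.1) ↔ 0 ≤ f.1 := by constructor <;> intro h <;> omega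
  have e3 : (f.2 + v.2 + 1 = v.2) ↔ f.2 + 1 = 0 := by constructor <;> intro h <;> omega
  simp only [e1, e2, e3]

theorem zf_add (v f : Face) : zf v (f + v) = zf 0 f := by
  unfold zf
  apply Complex.ext <;> simp

/-! ### the standard branch mode -/

/-- the branch mode at the origin, without gauge -/
def mode0 : Fld := modeBr (fun _ => 1) 0

theorem mode0_apply (f : Face) (h : Fin 4) :
    mode0 f h = lv ((-zf 0 f) ^ (-(1 / 2) : ℂ)) h := by
  unfold mode0 modeBr
  rw [one_mul]

/-! ### reduction to the standard situation -/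

/-- the standard situation: branch vertex at the origin, no gauge, exact solution of norm one -/
structure Br0 (w φ : Fld) (r : ℝ) : Prop where
  sym : Sym w
  eq : ∀ f ∈ bx 0 r, ∀ h, w f h = rayw 0 f h * xc
  exact : ∀ f ∈ bx 0 r, A w φ f = 0
  norm : NB 0 r φ = 1

theorem Br0.plus {w φ : Fld} {r : ℝ} (H : Br0 w φ r) : IsPlusOn w 0 r := fun f hf h =>
  Or.inl (by rw [H.eq f hf h, mul_pow, rayw_sq, one_mul])

theorem red {w : Fld} {s : Face → ℝ} {v : Face} {r : ℝ} (H : BranchOn w s v r) {e : Fld}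
    (he : ∀ f ∈ bx v r, A w e f = 0) (hN : 0 < NB v r e) :
    ∃ w' φ : Fld, Br0 w' φ r ∧ ∀ t κ : ℝ,
      NB v t (e - κ • modeBr s v) = NB v r e * NB 0 t (φ - (κ / NB v r e) • mode0) := by
  set S : Face → ℝ := fun f => s (f + v) with hS
  have hSg : Gauge S := fun f => H.gauge (f + v)
  set W : Fld := fun f h => S f * S (nb f h) * tr v w f h with hW
  set N := NB v r e with hNdef
  have hmode : gm S (tr v (modeBr s v)) = mode0 := by
    funext f h
    rw [gm_apply, tr_apply, mode0_apply]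
    unfold modeBr
    rw [zf_add, ← mul_assoc]
    have := H.gauge (f + v)
    simp only [hS]
    rw [← pow_two, this, one_mul]
  have hAgm : ∀ φ f, A W (gm S φ) f = fun h => S f * A (tr v w) φ f h := fun φ f =>
    A_gm hSg (fun h => rfl) φ
  refine ⟨W, N⁻¹ • gm S (tr v e), ⟨?_, ?_, ?_, ?_⟩, ?_⟩
  · -- symmetry
    intro f h
    have h1 := sym_tr v H.sym f h
    simp only [hW, nb_nb_op]
    rw [h1]; ring
  · intro f hf h
    have h1 := H.eq (f + v) (mem_bx_add.2 hf) h
    simp only [hW, tr_apply]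
    rw [h1, nb_add, rayw_add]
    have a1 := H.gauge (f + v)
    have a2 := H.gauge (nb f h + v)
    simp only [hS]
    calc s (f + v) * s (nb f h + v) * (s (f + v) * s (nb f h + v) * rayw 0 f h * xc)
        = s (f + v) ^ 2 * s (nb f h + v) ^ 2 * (rayw 0 f h * xc) := by ring
      _ = rayw 0 f h * xc := by rw [a1, a2]; ring
  · intro f hf
    have h1 : A W (N⁻¹ • gm S (tr v e)) f = N⁻¹ • A W (gm S (tr v e)) f :=
      congrFun ((AL W).map_smul N⁻¹ (gm S (tr v e))) f
    rw [h1, hAgm]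
    funext h
    simp only [Pi.smul_apply, smul_eq_mul, Pi.zero_apply]
    rw [A_tr, he (f + v) (mem_bx_add.2 hf)]
    simp
  · rw [map_smul_eq_mul, NB_gm hSg, NB_tr, Real.norm_eq_abs, abs_of_pos (inv_pos.2 hN),
      ← hNdef, inv_mul_cancel₀ hN.ne']
  · intro t κ
    have e1 : N⁻¹ • gm S (tr v e) - (κ / N) • mode0
        = N⁻¹ • gm S (tr v (e - κ • modeBr s v)) := by
      rw [map_sub, map_sub, map_smul, map_smul, hmode, smul_sub, smul_smul, div_eq_inv_mul]
    rw [e1, map_smul_eq_mul, NB_gm hSg, NB_tr, Real.norm_eq_abs, abs_of_pos (inv_pos.2 hN),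
      ← mul_assoc, mul_inv_cancel₀ hN.ne', one_mul]

/-! ### balls -/

theorem kap_ball (x : Face) {t : ℝ} (ht : 0 ≤ t) : kap (bx x t) (8 * (1 + t)) := by
  intro v
  refine SqKx470.kap_box (c := x) ht ?_ v
  intro f hf
  exact mem_bx_real.1 hf

theorem bx_eq_Q (x : Face) {r : ℝ} (hr : 0 ≤ r) : bx x r = Q x ⌊r⌋₊ := by
  ext f
  rw [mem_bx, mem_Q]
  have : ((⌊r⌋₊ : ℕ) : ℤ) = ⌊r⌋ := Int.natCast_floor_eq_floor hr
  rw [this]

/-- growth of exact solutions on balls for every plus background: `|e|²_t ≤ C (t/r) |e|²_r` -/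
theorem ball_sq {C : ℝ} (hC : 0 ≤ C) (hSQ : SQ C) {w e : Fld} (hw : Sym w) {x : Face} {r t : ℝ}
    (ht : 1 ≤ t) (htr : 2 * t ≤ r) (hr : 4 ≤ r) (hp : IsPlusOn w x r)
    (he : ∀ f ∈ bx x r, A w e f = 0) :
    NB x t e ^ 2 ≤ 136 * C * (t / r) * NB x r e ^ 2 := by
  have hr0 : 0 < r := by linarith
  have ht0 : 0 ≤ t := by linarith
  have hbR := bx_eq_Q x hr0.le
  have hbt := bx_eq_Q x ht0
  set R := ⌊r⌋₊ with hR
  set n := ⌊t⌋₊ with hn
  have hR1 : r < R + 1 := Nat.lt_floor_add_one r
  have hn1 : (n : ℝ) ≤ t := Nat.floor_le ht0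
  have hnR : (n : ℝ) + r / 4 ≤ R := by linarith
  have hnR' : n < R := by
    have : (n : ℝ) < R := by linarith
    exact_mod_cast this
  have hk : ((R - n : ℕ) : ℝ) = R - n := by
    rw [Nat.cast_sub hnR'.le]
  have key := nc_cut hC hSQ hw (c := x) (n := n) (k := R - n) (R := R) (by omega) (by omega)
    (fun f hf h => hp f (hbR ▸ hf) h) (fun f hf h => by rw [he f (hbR ▸ hf)]; rfl)
    (E := bx x t) (by rw [hbt]) (kap_ball x ht0)
  rw [NB_sq]
  refine key.trans ?_
  have hm : mass e x R = NB x r e ^ 2 := by rw [NB_sq, hbR]; rfl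
  rw [hm]
  have hm0 : 0 ≤ NB x r e ^ 2 := sq_nonneg _
  refine mul_le_mul_of_nonneg_right ?_ hm0
  have hk4 : r / 4 ≤ ((R - n : ℕ) : ℝ) := by rw [hk]; linarith
  have hk0 : 0 < r / 4 := by positivity
  calc 2 * C * (1 + 8 * (1 + t)) / ((R - n : ℕ) : ℝ) ≤ 2 * C * (17 * t) / (r / 4) := by
        have : 0 ≤ 2 * C * (1 + 8 * (1 + t)) := by positivity
        have h2 : 2 * C * (1 + 8 * (1 + t)) ≤ 2 * C * (17 * t) := by
          apply mul_le_mul_of_nonneg_left _ (by positivity)
          linarith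
        exact div_le_div₀ (by positivity) h2 hk0 hk4
    _ = 136 * C * (t / r) := by field_simp; ring

theorem q_sq : q ^ 2 = 1 / 2 := by
  unfold q
  exact Real.sq_sqrt (by norm_num)

/-- the constant of `ex1_ball` -/
def K1 (C : ℝ) : ℝ := max 1 (Real.sqrt (136 * C))

/-- `Ex1` with exponent one half for every plus background -/
theorem ex1_ball {C : ℝ} (hC : 0 ≤ C) (hSQ : SQ C) (m : ℕ) :
    ∃ r0 : ℝ, ∀ (w : Fld) (x : Face) (r : ℝ), r0 ≤ r → Sym w → IsPlusOn w x r →
      Ex1On w x r (r * q ^ (2 * m)) (K1 C * q ^ m) := by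
  have hq := q_pos
  refine ⟨max 4 (1 / q ^ (2 * m)), fun w x r hr hw hp e he => ?_⟩
  have hr4 : 4 ≤ r := (le_max_left _ _).trans hr
  have hr1 : 1 / q ^ (2 * m) ≤ r := (le_max_right _ _).trans hr
  have hr0 : 0 < r := by linarith
  have hN : 0 ≤ NB x r e := apply_nonneg _ _
  rcases Nat.eq_zero_or_pos m with rfl | hm
  · simp only [mul_zero, pow_zero, mul_one]
    calc NB x r e = 1 * NB x r e := (one_mul _).symm
      _ ≤ K1 C * NB x r e := mul_le_mul_of_nonneg_right (le_max_left _ _) hN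
  · have ht1 : 1 ≤ r * q ^ (2 * m) := by
      rw [div_le_iff₀ (by positivity)] at hr1; exact hr1
    have hq2 : q ^ (2 * m) ≤ 1 / 2 := by
      have : q ^ (2 * m) ≤ q ^ 2 := q_pow_le (by omega)
      rwa [q_sq] at this
    have ht2 : 2 * (r * q ^ (2 * m)) ≤ r := by nlinarith
    have h1 := ball_sq hC hSQ hw ht1 ht2 hr4 hp he
    have e1 : r * q ^ (2 * m) / r = (q ^ m) ^ 2 := by
      rw [mul_div_assoc, mul_comm, div_mul_cancel₀ _ hr0.ne', ← pow_mul, mul_comm]
    rw [e1] at h1
    have h2 : NB x (r * q ^ (2 * m)) e ^ 2 ≤ (Real.sqrt (136 * C) * q ^ m * NB x r e) ^ 2 := by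
      rw [mul_pow, mul_pow, Real.sq_sqrt (by positivity)]
      exact h1
    have h3 := le_of_sq_le_sq h2 (by positivity)
    refine h3.trans ?_
    have : Real.sqrt (136 * C) ≤ K1 C := le_max_right _ _
    gcongr

/-! ### sequences -/

/-- normalised sequence of exact solutions around a branch vertex -/
structure SqBr (U : Ultrafilter ℕ) where
  r : ℕ → ℝ
  w : ℕ → Fld
  φ : ℕ → Fld
  hr : Tendsto r U atTop
  br : ∀ k, Br0 (w k) (φ k) (r k)

/-- what has to be proved for sequences: for every normalised sequence, eventually one multiple of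
the mode is close on the small box -/
def SeqBr (C : ℝ) : Prop :=
  ∀ (U : Ultrafilter ℕ) (S : SqBr U) (m : ℕ) (η : ℝ), 0 < η →
    ∃ᶠ k in (U : Filter ℕ), ∃ κ : ℝ,
      NB 0 (S.r k * q ^ (2 * m)) (S.φ k - κ • mode0) ≤ C * q ^ (3 * m) + η

/-- the one-mode statement for the branch class, from sequences -/
theorem ex2_of_seq {C : ℝ} (hC : 0 ≤ C) (h : SeqBr C) (m : ℕ) (η : ℝ) (hη : 0 < η) :
    ∃ r0 : ℝ, ∀ (w : Fld) (s : Face → ℝ) (v : Face) (r : ℝ), r0 ≤ r → BranchOn w s v r →
      Ex2On w v r (r * q ^ (2 * m)) (modeBr s v) (C * q ^ (3 * m) + η) := by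
  by_contra hcon
  push Not at hcon
  choose w s v r hr hB hEx using fun k : ℕ => hcon k
  have hEx' : ∀ k, ∃ e : Fld, (∀ f ∈ bx (v k) (r k), A (w k) e f = 0) ∧
      ∀ κ : ℝ, (C * q ^ (3 * m) + η) * NB (v k) (r k) e
        < NB (v k) (r k * q ^ (2 * m)) (e - κ • modeBr (s k) (v k)) := by
    intro k
    have := hEx k
    unfold Ex2On at this
    push Not at this
    obtain ⟨e, he, h2⟩ := this
    exact ⟨e, he, h2⟩
  choose e he hlt using hEx'
  have hq := q_pos
  have hc0 : 0 < C * q ^ (3 * m) + η := by positivity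
  have hN : ∀ k, 0 < NB (v k) (r k) (e k) := by
    intro k
    rcases eq_or_lt_of_le (apply_nonneg (NB (v k) (r k)) (e k)) with h0 | h0
    · exfalso
      have h1 := hlt k 0
      rw [zero_smul, sub_zero] at h1
      have hrk : 0 ≤ r k := (Nat.cast_nonneg k).trans (hr k)
      have h2 : NB (v k) (r k * q ^ (2 * m)) (e k) ≤ NB (v k) (r k) (e k) :=
        NB_mono (v k) (mul_le_of_le_one_right hrk (pow_le_one₀ hq.le q_le_one)) (e k)
      rw [← h0] at h1 h2
      linarith
    · exact h0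
  choose W Φ hbr hid using fun k => red (hB k) (he k) (hN k)
  have hcof : ((hyperfilter ℕ : Ultrafilter ℕ) : Filter ℕ) ≤ atTop := Nat.hyperfilter_le_atTop
  have hrt : Tendsto r (hyperfilter ℕ : Ultrafilter ℕ) atTop :=
    (tendsto_atTop_mono hr tendsto_natCast_atTop_atTop).mono_left hcof
  have := h (hyperfilter ℕ) ⟨r, W, Φ, hrt, hbr⟩ m η hη
  obtain ⟨k, κ, hk⟩ := this.exists
  have h1 := hlt k (κ * NB (v k) (r k) (e k))
  rw [hid k, mul_div_assoc, div_self (hN k).ne', mul_one, mul_comm] at h1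
  have h2 := lt_of_mul_lt_mul_left h1 (hN k).le
  exact absurd hk (not_le.2 h2)

/-- **EX at a branch vertex** from the square trick and sequences -/
theorem exbr_of_seq {C C' : ℝ} (hC : 0 ≤ C) (hSQ : SQ C) (hC' : 0 ≤ C') (h : SeqBr C') :
    EXbr (max (K1 C) C') := by
  intro m η hη
  obtain ⟨r1, h1⟩ := ex1_ball hC hSQ m
  obtain ⟨r2, h2⟩ := ex2_of_seq hC' h m η hη
  have hq := q_pos
  refine ⟨max r1 r2, fun w s v r hr hB => ⟨?_, ?_⟩⟩
  · intro e he
    refine (h1 w v r ((le_max_left _ _).trans hr) hB.sym hB.plus e he).trans ?_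
    refine mul_le_mul_of_nonneg_right ?_ (apply_nonneg _ _)
    have a1 : K1 C * q ^ m ≤ max (K1 C) C' * q ^ m :=
      mul_le_mul_of_nonneg_right (le_max_left _ _) (by positivity)
    linarith
  · intro e he
    obtain ⟨κ, hκ⟩ := h2 w s v r ((le_max_right _ _).trans hr) hB e he
    refine ⟨κ, hκ.trans ?_⟩
    refine mul_le_mul_of_nonneg_right ?_ (apply_nonneg _ _)
    have a1 : C' * q ^ (3 * m) ≤ max (K1 C) C' * q ^ (3 * m) :=
      mul_le_mul_of_nonneg_right (le_max_right _ _) (by positivity)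
    linarith

/-! ### the sequence form of 797 -/

theorem A_congr_w {w w' φ : Fld} {f : Face} (h : ∀ a, w f a = w' f a) : A w φ f = A w' φ f := by
  funext a
  simp only [A, Y, h a]

theorem mode0_eq : mode0 = Bxx797.u0 := rfl

theorem br0_exact {w φ : Fld} {r : ℝ} (H : Br0 w φ r) : ∀ f ∈ bx 0 r, A Bxx797.w0 φ f = 0 := by
  intro f hf
  rw [← H.exact f hf]
  exact A_congr_w fun a => (H.eq f hf a).symm

/-- **reduction of `EXbr` to sequences** (target of helper797) -/
theorem EXbr_of_seq {C : ℝ} (hC : 0 ≤ C) (H : Bxx797.EXbrSeq C) : EXbr C := by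
  have hq := q_pos
  have hcof : ((hyperfilter ℕ : Ultrafilter ℕ) : Filter ℕ) ≤ atTop := Nat.hyperfilter_le_atTop
  intro m η hη
  -- first conjunct
  have P1 : ∃ r0 : ℝ, ∀ (w : Fld) (s : Face → ℝ) (v : Face) (r : ℝ), r0 ≤ r → BranchOn w s v r →
      Ex1On w v r (r * q ^ (2 * m)) (C * q ^ m + η) := by
    by_contra hcon
    push Not at hcon
    choose w s v r hr hB hEx using fun k : ℕ => hcon k
    have hEx' : ∀ k, ∃ e : Fld, (∀ f ∈ bx (v k) (r k), A (w k) e f = 0) ∧
        (C * q ^ m + η) * NB (v k) (r k) e < NB (v k) (r k * q ^ (2 * m)) e := by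
      intro k
      have := hEx k
      unfold Ex1On at this
      push Not at this
      obtain ⟨e, he, h2⟩ := this
      exact ⟨e, he, h2⟩
    choose e he hlt using hEx'
    have hc0 : 0 < C * q ^ m + η := by positivity
    have hN : ∀ k, 0 < NB (v k) (r k) (e k) := by
      intro k
      rcases eq_or_lt_of_le (apply_nonneg (NB (v k) (r k)) (e k)) with h0 | h0
      · exfalso
        have h1 := hlt k
        have hrk : 0 ≤ r k := (Nat.cast_nonneg k).trans (hr k)
        have h2 : NB (v k) (r k * q ^ (2 * m)) (e k) ≤ NB (v k) (r k) (e k) :=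
          NB_mono (v k) (mul_le_of_le_one_right hrk (pow_le_one₀ hq.le q_le_one)) (e k)
        rw [← h0] at h1 h2
        linarith
      · exact h0
    choose W Φ hbr hid using fun k => red (hB k) (he k) (hN k)
    have hrt : Tendsto r (hyperfilter ℕ : Ultrafilter ℕ) atTop :=
      (tendsto_atTop_mono hr tendsto_natCast_atTop_atTop).mono_left hcof
    have h3 := (H (hyperfilter ℕ) r hrt Φ (Eventually.of_forall fun k => br0_exact (hbr k))
      (Eventually.of_forall fun k => (hbr k).norm.le) m η hη).1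
    obtain ⟨k, hk⟩ := h3.exists
    have h1 := hlt k
    have h4 := hid k (r k * q ^ (2 * m)) 0
    rw [zero_smul, sub_zero, zero_div, zero_smul, sub_zero] at h4
    rw [h4, mul_comm] at h1
    exact absurd hk (not_le.2 (lt_of_mul_lt_mul_left h1 (hN k).le))
  -- second conjunct
  have hseq : SeqBr C := by
    intro U S m η hη
    exact (H U S.r S.hr S.φ (Eventually.of_forall fun k => br0_exact (S.br k))
      (Eventually.of_forall fun k => (S.br k).norm.le) m η hη).2.frequently
  obtain ⟨r1, h1⟩ := P1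
  obtain ⟨r2, h2⟩ := ex2_of_seq hC hseq m η hη
  exact ⟨max r1 r2, fun w s v r hr hB => ⟨h1 w s v r ((le_max_left _ _).trans hr) hB,
    h2 w s v r ((le_max_right _ _).trans hr) hB⟩⟩

end Crest.Agent.R165.EXbr0x936
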