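import Mathlib

/-!
# Row 165 (S0250), block R: limit passage, part 1

Locally uniform limits of lattice functions along an ultrafilter.
Scaled lattice points `pt r f = f / r`; a family `w n : ℤ × ℤ → ℝ` converges locally uniformly
(`LocUnif`) on an open set `Ω ⊆ ℂ` to `W : ℂ → ℝ`.
-/

set_option autoImplicit false

noncomputable section

namespace Crest.Agent.R165.Lim1x943

open Filter Topology

/-- scaled position of the lattice point `f` -/
def pt (r : ℝ) (f : ℤ × ℤ) : ℂ := ⟨f.1 / r, f.2 / r⟩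

/-- the lattice point below and to the left of `z` at scale `r` -/
def flr (r : ℝ) (z : ℂ) : ℤ × ℤ := (⌊r * z.re⌋, ⌊r * z.im⌋)

@[simp] theorem pt_re (r : ℝ) (f : ℤ × ℤ) : (pt r f).re = f.1 / r := rfl
@[simp] theorem pt_im (r : ℝ) (f : ℤ × ℤ) : (pt r f).im = f.2 / r := rfl
@[simp] theorem flr_fst (r : ℝ) (z : ℂ) : (flr r z).1 = ⌊r * z.re⌋ := rfl
@[simp] theorem flr_snd (r : ℝ) (z : ℂ) : (flr r z).2 = ⌊r * z.im⌋ := rfl

/-- the `l1` distance of the plane -/
def d1 (z w : ℂ) : ℝ := |z.re - w.re| + |z.im - w.im|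

theorem d1_nonneg (z w : ℂ) : 0 ≤ d1 z w := add_nonneg (abs_nonneg _) (abs_nonneg _)

theorem d1_comm (z w : ℂ) : d1 z w = d1 w z := by
  unfold d1; rw [abs_sub_comm z.re, abs_sub_comm z.im]

theorem d1_triangle (z w u : ℂ) : d1 z u ≤ d1 z w + d1 w u := by
  unfold d1
  have h1 := abs_sub_le z.re w.re u.re
  have h2 := abs_sub_le z.im w.im u.im
  linarith

theorem dist_le_d1 (z w : ℂ) : dist z w ≤ d1 z w := by
  rw [Complex.dist_eq]
  have := Complex.norm_le_abs_re_add_abs_im (z - w)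
  simpa [d1] using this

theorem d1_le_dist (z w : ℂ) : d1 z w ≤ 2 * dist z w := by
  rw [Complex.dist_eq]
  have h1 := Complex.abs_re_le_norm (z - w)
  have h2 := Complex.abs_im_le_norm (z - w)
  simp only [Complex.sub_re, Complex.sub_im] at h1 h2
  unfold d1
  linarith

theorem abs_floor_div (r : ℝ) (hr : 0 < r) (x : ℝ) : |(⌊r * x⌋ : ℝ) / r - x| ≤ 1 / r := by
  have h1 := Int.floor_le (r * x)
  have h2 := Int.lt_floor_add_one (r * x)
  rw [abs_le]
  constructor
  · rw [neg_le_sub_iff_le_add, ← add_div, le_div_iff₀ hr]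
    nlinarith
  · rw [sub_le_iff_le_add, div_le_iff₀ hr, add_mul, one_div, inv_mul_cancel₀ hr.ne']
    nlinarith

theorem d1_pt_flr (r : ℝ) (hr : 0 < r) (z : ℂ) : d1 (pt r (flr r z)) z ≤ 2 / r := by
  unfold d1
  simp only [pt_re, pt_im, flr_fst, flr_snd]
  have h1 := abs_floor_div r hr z.re
  have h2 := abs_floor_div r hr z.im
  have : (2 : ℝ) / r = 1 / r + 1 / r := by ring
  linarith

/-- one-dimensional telescoping bound -/
theorem path1 (h : ℤ → ℝ) (m : ℝ) (a : ℤ)
    (H : ∀ k : ℤ, |k| ≤ |a| → |h (k + 1) - h k| ≤ m) : |h a - h 0| ≤ |(a : ℝ)| * m := by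
  rcases Int.le_total 0 a with ha | ha
  · obtain ⟨n, rfl⟩ := Int.eq_ofNat_of_zero_le ha
    have key : ∀ j : ℕ, j ≤ n → |h j - h 0| ≤ j * m := by
      intro j
      induction j with
      | zero => intro _; simp
      | succ j ih =>
        intro hj
        have h1 := ih (by omega)
        have h2 := H j (by simp; omega)
        have h3 : h ((j + 1 : ℕ) : ℤ) - h 0 = (h ((j : ℤ) + 1) - h j) + (h j - h 0) := by
          push_cast; ring
        rw [h3]
        refine (abs_add_le _ _).trans ?_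
        push_cast
        linarith
    have := key n le_rfl
    simpa using this
  · obtain ⟨n, hn⟩ := Int.eq_ofNat_of_zero_le (neg_nonneg.2 ha)
    obtain rfl : a = -n := by omega
    have key : ∀ j : ℕ, j ≤ n → |h (-j) - h 0| ≤ j * m := by
      intro j
      induction j with
      | zero => intro _; simp
      | succ j ih =>
        intro hj
        have h1 := ih (by omega)
        have h2 := H (-(j : ℤ) - 1) (by
          have : |(-(j : ℤ) - 1)| = j + 1 := by
            rw [show (-(j : ℤ) - 1) = -((j : ℤ) + 1) by ring, abs_neg, abs_of_nonneg (by positivity)]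
          rw [this]; simp; omega)
        have h3 : h (-((j + 1 : ℕ) : ℤ)) - h 0
            = -(h (-(j : ℤ) - 1 + 1) - h (-(j : ℤ) - 1)) + (h (-j) - h 0) := by
          push_cast
          rw [show (-((j : ℤ) + 1)) = -(j : ℤ) - 1 by ring, sub_add_cancel]
          ring
        rw [h3]
        refine (abs_add_le _ _).trans ?_
        rw [abs_neg]
        push_cast
        linarith
    have := key n le_rfl
    simpa using this

/-- forward unit steps -/
def e1 : ℤ × ℤ := (1, 0)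
def e2 : ℤ × ℤ := (0, 1)

@[simp] theorem e1_fst : e1.1 = 1 := rfl
@[simp] theorem e1_snd : e1.2 = 0 := rfl
@[simp] theorem e2_fst : e2.1 = 0 := rfl
@[simp] theorem e2_snd : e2.2 = 1 := rfl

/-- two-dimensional telescoping bound along an L-shaped path -/
theorem path2 (u : ℤ × ℤ → ℝ) (m : ℝ) (f g : ℤ × ℤ)
    (H : ∀ h : ℤ × ℤ, |h.1 - f.1| ≤ |g.1 - f.1| → |h.2 - f.2| ≤ |g.2 - f.2| →
      |u (h + e1) - u h| ≤ m ∧ |u (h + e2) - u h| ≤ m) :
    |u g - u f| ≤ (|((g.1 - f.1 : ℤ) : ℝ)| + |((g.2 - f.2 : ℤ) : ℝ)|) * m := by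
  have h1 := path1 (fun k => u (f.1 + k, f.2)) m (g.1 - f.1) (fun k hk => by
    have := (H (f.1 + k, f.2) (by simpa using hk) (by simp)).1
    simpa [e1, add_assoc] using this)
  have h2 := path1 (fun k => u (g.1, f.2 + k)) m (g.2 - f.2) (fun k hk => by
    have := (H (g.1, f.2 + k) (by simp) (by simpa using hk)).2
    simpa [e2, add_assoc] using this)
  simp only [add_sub_cancel, add_zero] at h1 h2
  have h3 : u g - u f = (u (g.1, g.2) - u (g.1, f.2)) + (u (g.1, f.2) - u (f.1, f.2)) := by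
    simp
  rw [h3]
  refine (abs_add_le _ _).trans ?_
  linarith

/-- discrete first order Taylor bound -/
theorem taylor1 (u : ℤ × ℤ → ℝ) (p q m : ℝ) (f g : ℤ × ℤ)
    (H : ∀ h : ℤ × ℤ, |h.1 - f.1| ≤ |g.1 - f.1| → |h.2 - f.2| ≤ |g.2 - f.2| →
      |u (h + e1) - u h - p| ≤ m ∧ |u (h + e2) - u h - q| ≤ m) :
    |u g - u f - ((g.1 - f.1 : ℤ) : ℝ) * p - ((g.2 - f.2 : ℤ) : ℝ) * q|
      ≤ (|((g.1 - f.1 : ℤ) : ℝ)| + |((g.2 - f.2 : ℤ) : ℝ)|) * m := by
  have := path2 (fun h => u h - (h.1 : ℝ) * p - (h.2 : ℝ) * q) m f g (fun h ha hb => by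
    obtain ⟨h1, h2⟩ := H h ha hb
    constructor
    · convert h1 using 2
      simp [e1]; ring
    · convert h2 using 2
      simp [e2]; ring)
  convert this using 2
  push_cast
  ring

/-- scaled forward differences -/
def D1 (r : ℝ) (u : ℤ × ℤ → ℝ) (f : ℤ × ℤ) : ℝ := r * (u (f + e1) - u f)
def D2 (r : ℝ) (u : ℤ × ℤ → ℝ) (f : ℤ × ℤ) : ℝ := r * (u (f + e2) - u f)

variable {ι : Type*}

/-- eventually bounded on compacts of `Ω` -/
def LocBd (U : Filter ι) (r : ι → ℝ) (Ω : Set ℂ) (w : ι → ℤ × ℤ → ℝ) : Prop :=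
  ∀ K : Set ℂ, IsCompact K → K ⊆ Ω → ∃ M : ℝ, ∀ᶠ n in U, ∀ f, pt (r n) f ∈ K → |w n f| ≤ M

/-- locally uniform convergence on `Ω` of lattice functions -/
def LocUnif (U : Filter ι) (r : ι → ℝ) (Ω : Set ℂ) (w : ι → ℤ × ℤ → ℝ) (W : ℂ → ℝ) : Prop :=
  ∀ K : Set ℂ, IsCompact K → K ⊆ Ω → ∀ η : ℝ, 0 < η →
    ∀ᶠ n in U, ∀ f, pt (r n) f ∈ K → |w n f - W (pt (r n) f)| ≤ η

theorem exists_lim (U : Ultrafilter ι) (x : ι → ℝ) (M : ℝ) (h : ∀ᶠ n in (U : Filter ι), |x n| ≤ M) :
    ∃ L, |L| ≤ M ∧ Tendsto x U (𝓝 L) := by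
  have hc : IsCompact (Set.Icc (-M) M) := isCompact_Icc
  have := hc.ultrafilter_le_nhds' (U.map x) (by
    have : ∀ᶠ n in (U : Filter ι), x n ∈ Set.Icc (-M) M := h.mono fun n hn => abs_le.1 hn
    exact this)
  obtain ⟨L, hL, hU⟩ := this
  exact ⟨L, abs_le.2 hL, hU⟩

/-- neighbourhood: an `l1`-neighbourhood of a compact subset of an open set is compact -/
theorem exists_nbhd {Ω K : Set ℂ} (hΩ : IsOpen Ω) (hK : IsCompact K) (hKΩ : K ⊆ Ω) :
    ∃ δ : ℝ, 0 < δ ∧ ∃ K' : Set ℂ, IsCompact K' ∧ K' ⊆ Ω ∧ K ⊆ K' ∧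
      ∀ z ∈ K, ∀ w, d1 w z ≤ δ → w ∈ K' := by
  obtain ⟨δ, hδ, hsub⟩ := hK.exists_cthickening_subset_open hΩ hKΩ
  refine ⟨δ, hδ, Metric.cthickening δ K, hK.cthickening, hsub, Metric.self_subset_cthickening K, ?_⟩
  intro z hz w hw
  exact Metric.mem_cthickening_of_dist_le w z δ K hz ((dist_le_d1 w z).trans hw)

/-- points on the discrete box between `f` and `g` are close to `f` -/
theorem d1_pt_box {r : ℝ} (hr : 0 < r) {f g h : ℤ × ℤ} (h1 : |h.1 - f.1| ≤ |g.1 - f.1|)
    (h2 : |h.2 - f.2| ≤ |g.2 - f.2|) : d1 (pt r h) (pt r f) ≤ d1 (pt r g) (pt r f) := by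
  unfold d1
  simp only [pt_re, pt_im, ← sub_div, abs_div]
  have e1 : |(h.1 : ℝ) - f.1| ≤ |(g.1 : ℝ) - f.1| := by exact_mod_cast h1
  have e2 : |(h.2 : ℝ) - f.2| ≤ |(g.2 : ℝ) - f.2| := by exact_mod_cast h2
  gcongr

theorem d1_pt (r : ℝ) (hr : 0 < r) (f g : ℤ × ℤ) :
    (|((g.1 - f.1 : ℤ) : ℝ)| + |((g.2 - f.2 : ℤ) : ℝ)|) = r * d1 (pt r g) (pt r f) := by
  unfold d1
  simp only [pt_re, pt_im, ← sub_div, abs_div, abs_of_pos hr]
  push_cast
  field_simp

/-- the local Lipschitz estimate -/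
theorem lip {U : Filter ι} {r : ι → ℝ} (hr : Tendsto r U atTop) {Ω : Set ℂ} (hΩ : IsOpen Ω)
    {v : ι → ℤ × ℤ → ℝ} (h1 : LocBd U r Ω fun n => D1 (r n) (v n))
    (h2 : LocBd U r Ω fun n => D2 (r n) (v n)) {K : Set ℂ} (hK : IsCompact K) (hKΩ : K ⊆ Ω) :
    ∃ δ : ℝ, 0 < δ ∧ ∃ M : ℝ, 0 ≤ M ∧ ∀ᶠ n in U, ∀ f g, pt (r n) f ∈ K →
      d1 (pt (r n) g) (pt (r n) f) ≤ δ → |v n g - v n f| ≤ M * d1 (pt (r n) g) (pt (r n) f) := by
  obtain ⟨δ, hδ, K', hK', hK'Ω, -, hnb⟩ := exists_nbhd hΩ hK hKΩ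
  obtain ⟨M1, hM1⟩ := h1 K' hK' hK'Ω
  obtain ⟨M2, hM2⟩ := h2 K' hK' hK'Ω
  refine ⟨δ, hδ, max 0 (max M1 M2), le_max_left _ _, ?_⟩
  filter_upwards [hM1, hM2, hr.eventually_gt_atTop 0] with n hn1 hn2 hrn f g hf hfg
  have := path2 (v n) (max 0 (max M1 M2) / r n) f g (fun h ha hb => by
    have hmem : pt (r n) h ∈ K' := hnb _ hf _ ((d1_pt_box hrn ha hb).trans hfg)
    have a1 := hn1 h hmem
    have a2 := hn2 h hmem
    simp only [D1, D2, abs_mul, abs_of_pos hrn] at a1 a2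
    constructor
    · rw [le_div_iff₀ hrn, mul_comm]
      exact a1.trans ((le_max_left _ _).trans (le_max_right _ _))
    · rw [le_div_iff₀ hrn, mul_comm]
      exact a2.trans ((le_max_right _ _).trans (le_max_right _ _)))
  rw [d1_pt _ hrn] at this
  refine this.trans (le_of_eq ?_)
  field_simp

/-- the pointwise limit along an ultrafilter -/
def lim (U : Ultrafilter ι) (r : ι → ℝ) (v : ι → ℤ × ℤ → ℝ) (z : ℂ) : ℝ :=
  limUnder (U : Filter ι) fun n => v n (flr (r n) z)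

theorem lim_tendsto {U : Ultrafilter ι} {r : ι → ℝ} (hr : Tendsto r U atTop) {Ω : Set ℂ}
    (hΩ : IsOpen Ω) {v : ι → ℤ × ℤ → ℝ} (h0 : LocBd U r Ω v) {z : ℂ} (hz : z ∈ Ω) :
    Tendsto (fun n => v n (flr (r n) z)) U (𝓝 (lim U r v z)) := by
  obtain ⟨δ, hδ, K', hK', hK'Ω, -, hnb⟩ := exists_nbhd hΩ (isCompact_singleton (x := z))
    (Set.singleton_subset_iff.2 hz)
  obtain ⟨M, hM⟩ := h0 K' hK' hK'Ω
  have hev : ∀ᶠ n in (U : Filter ι), |v n (flr (r n) z)| ≤ M := by
    filter_upwards [hM, hr.eventually_gt_atTop 0, hr.eventually_ge_atTop (2 / δ)] with n hn hrn hrd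
    refine hn _ (hnb z rfl _ ((d1_pt_flr _ hrn z).trans ?_))
    rw [div_le_iff₀ hrn]
    rw [div_le_iff₀ hδ] at hrd
    linarith
  obtain ⟨L, -, hL⟩ := exists_lim U _ M hev
  exact tendsto_nhds_limUnder ⟨L, hL⟩

theorem eventually_two_div_le {U : Filter ι} {r : ι → ℝ} (hr : Tendsto r U atTop) {δ : ℝ}
    (hδ : 0 < δ) : ∀ᶠ n in U, 0 < r n ∧ 2 / r n ≤ δ := by
  filter_upwards [hr.eventually_gt_atTop 0, hr.eventually_ge_atTop (2 / δ)] with n hrn hrd
  refine ⟨hrn, ?_⟩
  rw [div_le_iff₀ hrn]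
  rw [div_le_iff₀ hδ] at hrd
  linarith

/-- **Existence of the limit**: boundedness and a local Lipschitz bound give a continuous,
locally Lipschitz and locally uniform limit. -/
theorem exists_limit {U : Ultrafilter ι} {r : ι → ℝ} (hr : Tendsto r U atTop) {Ω : Set ℂ}
    (hΩ : IsOpen Ω) {v : ι → ℤ × ℤ → ℝ} (h0 : LocBd U r Ω v)
    (h1 : LocBd U r Ω fun n => D1 (r n) (v n)) (h2 : LocBd U r Ω fun n => D2 (r n) (v n)) :
    ContinuousOn (lim U r v) Ω ∧ LocUnif U r Ω v (lim U r v) := by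
  -- Lipschitz bound of the limit near compacts
  have key : ∀ K : Set ℂ, IsCompact K → K ⊆ Ω → ∃ δ : ℝ, 0 < δ ∧ ∃ M : ℝ, 0 ≤ M ∧
      (∀ᶠ n in (U : Filter ι), ∀ f g, pt (r n) f ∈ K →
        d1 (pt (r n) g) (pt (r n) f) ≤ δ →
          |v n g - v n f| ≤ M * d1 (pt (r n) g) (pt (r n) f)) ∧
      (∀ z ∈ K, ∀ w, d1 w z ≤ δ → w ∈ Ω → |lim U r v w - lim U r v z| ≤ M * d1 w z) := by
    intro K hK hKΩ
    obtain ⟨δ0, hδ0, K', hK', hK'Ω, hKK', hnb⟩ := exists_nbhd hΩ hK hKΩ
    obtain ⟨δ, hδ, M, hM, hlip⟩ := lip hr hΩ h1 h2 hK' hK'Ω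
    refine ⟨δ / 2, by positivity, M, hM, ?_, ?_⟩
    · filter_upwards [hlip] with n hn f g hf hfg
      exact hn f g (hKK' hf) (hfg.trans (by linarith))
    · intro z hz w hw hwΩ
      have tz := lim_tendsto hr hΩ h0 (hKΩ hz)
      have tw := lim_tendsto hr hΩ h0 hwΩ
      have hlim : Tendsto (fun n => M * (d1 w z + 4 / r n)) U (𝓝 (M * (d1 w z + 0))) := by
        refine (tendsto_const_nhds.add ?_).const_mul M
        exact tendsto_const_nhds.div_atTop hr
      rw [add_zero] at hlim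
      refine le_of_tendsto_of_tendsto (tw.sub tz).abs hlim ?_
      filter_upwards [hlip, eventually_two_div_le hr (by positivity : 0 < min δ0 (δ / 8))]
        with n hn hrn
      obtain ⟨hrn, hrd⟩ := hrn
      have a1 := d1_pt_flr (r n) hrn z
      have a2 := d1_pt_flr (r n) hrn w
      have a3 : d1 (pt (r n) (flr (r n) w)) (pt (r n) (flr (r n) z)) ≤ d1 w z + 4 / r n := by
        have t1 := d1_triangle (pt (r n) (flr (r n) w)) w (pt (r n) (flr (r n) z))
        have t2 := d1_triangle w z (pt (r n) (flr (r n) z))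
        rw [d1_comm z] at t2
        have : (4 : ℝ) / r n = 2 / r n + 2 / r n := by ring
        linarith
      have a4 : (4 : ℝ) / r n ≤ δ / 4 := by
        have := hrd.trans (min_le_right _ _)
        have e : (4 : ℝ) / r n = 2 * (2 / r n) := by ring
        rw [e]; linarith
      have := hn (flr (r n) z) (flr (r n) w)
        (hnb z hz _ (a1.trans (hrd.trans (min_le_left _ _)))) (a3.trans (by linarith))
      exact this.trans (mul_le_mul_of_nonneg_left a3 hM)
  constructor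
  · intro z hz
    obtain ⟨δ, hδ, M, hM, -, hlip⟩ := key {z} isCompact_singleton (Set.singleton_subset_iff.2 hz)
    rw [ContinuousWithinAt, Metric.tendsto_nhdsWithin_nhds]
    intro ε hε
    refine ⟨min (δ / 2) (ε / (2 * (M + 1)) / 2), by positivity, fun w hw hd => ?_⟩
    have b1 := d1_le_dist w z
    have b2 : d1 w z ≤ δ := by
      have := hd.trans_le (min_le_left _ _)
      linarith
    have b3 : d1 w z ≤ ε / (2 * (M + 1)) := by
      have := hd.trans_le (min_le_right _ _)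
      linarith
    rw [Real.dist_eq]
    have := hlip z rfl w b2 hw
    have b4 : M * d1 w z ≤ M * (ε / (2 * (M + 1))) := mul_le_mul_of_nonneg_left b3 hM
    have b5 : M * (ε / (2 * (M + 1))) < ε := by
      have e : M * (ε / (2 * (M + 1))) = (M / (M + 1)) * (ε / 2) := by
        field_simp
      rw [e]
      have : M / (M + 1) ≤ 1 := by rw [div_le_one (by linarith)]; linarith
      nlinarith
    linarith
  · intro K hK hKΩ η hη
    obtain ⟨δ0, hδ0, K', hK', hK'Ω, hKK', hnb⟩ := exists_nbhd hΩ hK hKΩ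
    obtain ⟨δ, hδ, M, hM, hlipn, hlip⟩ := key K' hK' hK'Ω
    set e : ℝ := min (δ / 8) (η / (16 * (M + 1))) with he
    have hepos : 0 < e := by positivity
    obtain ⟨t, htK, htf, hcov⟩ := hK.finite_cover_balls hepos
    have hfin : ∀ᶠ n in (U : Filter ι), ∀ x ∈ t, |v n (flr (r n) x) - lim U r v x| ≤ η / 4 := by
      rw [Filter.eventually_all_finite htf]
      intro x hx
      have := lim_tendsto hr hΩ h0 (hKΩ (htK hx))
      have := (this.sub_const (lim U r v x)).abs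
      simp only [sub_self, abs_zero] at this
      exact this.eventually_le_const (by positivity)
    filter_upwards [hfin, hlipn, eventually_two_div_le hr (by positivity : 0 < e)] with n hn1 hn2 hrn f hf
    obtain ⟨hrn, hrd⟩ := hrn
    obtain ⟨x, hx⟩ := Set.mem_iUnion.1 (hcov hf)
    obtain ⟨hxt, hxd⟩ := Set.mem_iUnion.1 hx
    have c1 : d1 (pt (r n) f) x ≤ 2 * e := (d1_le_dist _ _).trans (by
      have := (Metric.mem_ball.1 hxd).le
      linarith)
    have c2 := d1_pt_flr (r n) hrn x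
    have c3 : d1 (pt (r n) (flr (r n) x)) (pt (r n) f) ≤ 3 * e := by
      have := d1_triangle (pt (r n) (flr (r n) x)) x (pt (r n) f)
      rw [d1_comm x] at this
      linarith
    have he1 : e ≤ δ / 8 := min_le_left _ _
    have he2 : e ≤ η / (16 * (M + 1)) := min_le_right _ _
    have c4 := hn2 f (flr (r n) x) (hKK' hf) (c3.trans (by linarith))
    have c5 := hlip x (hKK' (htK hxt)) (pt (r n) f) (c1.trans (by linarith)) (hKΩ hf)
    have c6 := hn1 x hxt
    have hMe : M * e ≤ η / 16 := by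
      calc M * e ≤ M * (η / (16 * (M + 1))) := mul_le_mul_of_nonneg_left he2 hM
        _ = (M / (M + 1)) * (η / 16) := by field_simp
        _ ≤ 1 * (η / 16) := by
          have : M / (M + 1) ≤ 1 := by rw [div_le_one (by linarith)]; linarith
          gcongr
        _ = η / 16 := one_mul _
    have c7 : |v n (flr (r n) x) - v n f| ≤ 3 * η / 16 := by
      have := c4.trans (mul_le_mul_of_nonneg_left c3 hM)
      linarith
    have c8 : |lim U r v (pt (r n) f) - lim U r v x| ≤ 2 * η / 16 := by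
      have := c5.trans (mul_le_mul_of_nonneg_left c1 hM)
      linarith
    rw [abs_le] at *
    constructor <;> linarith [c6.1, c6.2, c7.1, c7.2, c8.1, c8.2]

/-- restriction of locally uniform convergence -/
theorem LocUnif.mono {U : Filter ι} {r : ι → ℝ} {Ω Ω' : Set ℂ} {w : ι → ℤ × ℤ → ℝ} {W : ℂ → ℝ}
    (h : LocUnif U r Ω w W) (hs : Ω' ⊆ Ω) : LocUnif U r Ω' w W :=
  fun K hK hKΩ η hη => h K hK (hKΩ.trans hs) η hη

theorem LocUnif.congr {U : Filter ι} {r : ι → ℝ} {Ω : Set ℂ} {w : ι → ℤ × ℤ → ℝ} {W W' : ℂ → ℝ}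
    (h : LocUnif U r Ω w W) (hs : ∀ z ∈ Ω, W z = W' z) : LocUnif U r Ω w W' := by
  intro K hK hKΩ η hη
  filter_upwards [h K hK hKΩ η hη] with n hn f hf
  rw [← hs _ (hKΩ hf)]
  exact hn f hf

theorem tendsto_flr_sub {U : Filter ι} {r : ι → ℝ} (hr : Tendsto r U atTop) (z w : ℂ) :
    Tendsto (fun n => (((flr (r n) w).1 - (flr (r n) z).1 : ℤ) : ℝ) / r n) U (𝓝 (w.re - z.re)) ∧
    Tendsto (fun n => (((flr (r n) w).2 - (flr (r n) z).2 : ℤ) : ℝ) / r n) U (𝓝 (w.im - z.im)) := by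
  have h0 : Tendsto (fun n => 1 / r n) U (𝓝 0) := tendsto_const_nhds.div_atTop hr
  have key : ∀ x : ℝ, Tendsto (fun n => (⌊r n * x⌋ : ℝ) / r n) U (𝓝 x) := by
    intro x
    rw [tendsto_iff_dist_tendsto_zero]
    refine squeeze_zero' (Eventually.of_forall fun _ => dist_nonneg) ?_ h0
    filter_upwards [hr.eventually_gt_atTop 0] with n hn
    rw [Real.dist_eq]
    exact abs_floor_div _ hn x
  constructor
  · refine ((key w.re).sub (key z.re)).congr fun n => ?_
    simp only [flr_fst]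
    push_cast
    ring
  · refine ((key w.im).sub (key z.im)).congr fun n => ?_
    simp only [flr_snd]
    push_cast
    ring

/-- **Differentiability of the limit** -/
theorem hasFDerivAt_limit {U : Filter ι} [U.NeBot] {r : ι → ℝ} (hr : Tendsto r U atTop) {Ω : Set ℂ}
    (hΩ : IsOpen Ω) {v : ι → ℤ × ℤ → ℝ} {F F1 F2 : ℂ → ℝ}
    (h0 : ∀ z ∈ Ω, Tendsto (fun n => v n (flr (r n) z)) U (𝓝 (F z)))
    (h1 : LocUnif U r Ω (fun n => D1 (r n) (v n)) F1)
    (h2 : LocUnif U r Ω (fun n => D2 (r n) (v n)) F2)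
    (c1 : ContinuousOn F1 Ω) (c2 : ContinuousOn F2 Ω) {z : ℂ} (hz : z ∈ Ω) :
    HasFDerivAt F (F1 z • Complex.reCLM + F2 z • Complex.imCLM) z := by
  rw [hasFDerivAt_iff_isLittleO_nhds_zero, Asymptotics.isLittleO_iff]
  intro ε hε
  have c1' := c1.continuousAt (hΩ.mem_nhds hz)
  have c2' := c2.continuousAt (hΩ.mem_nhds hz)
  obtain ⟨δ1, hδ1, hc1⟩ := Metric.continuousAt_iff.1 c1' (ε / 8) (by positivity)
  obtain ⟨δ2, hδ2, hc2⟩ := Metric.continuousAt_iff.1 c2' (ε / 8) (by positivity)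
  obtain ⟨δ0, hδ0, K', hK', hK'Ω, -, hnb⟩ := exists_nbhd hΩ (isCompact_singleton (x := z))
    (Set.singleton_subset_iff.2 hz)
  set δ : ℝ := min δ0 (min (δ1 / 2) (δ2 / 2)) with hδdef
  have hδ : 0 < δ := by positivity
  have hball : Metric.ball (0 : ℂ) (δ / 4) ∈ 𝓝 (0 : ℂ) := Metric.ball_mem_nhds _ (by positivity)
  filter_upwards [hball] with x hx
  set w := z + x with hw
  have hx' : ‖x‖ < δ / 4 := by simpa using hx
  have hdwz : dist w z = ‖x‖ := by simp [hw, dist_eq_norm]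
  have hd1 : d1 w z ≤ 2 * ‖x‖ := by rw [← hdwz]; exact d1_le_dist w z
  have hwΩ : w ∈ Ω := hK'Ω (hnb z rfl w (by
    have := min_le_left δ0 (min (δ1 / 2) (δ2 / 2))
    linarith))
  have t1 := h0 z hz
  have t2 := h0 w hwΩ
  obtain ⟨s1, s2⟩ := tendsto_flr_sub hr z w
  have hL : Tendsto (fun n => |v n (flr (r n) w) - v n (flr (r n) z)
      - (((flr (r n) w).1 - (flr (r n) z).1 : ℤ) : ℝ) / r n * F1 z
      - (((flr (r n) w).2 - (flr (r n) z).2 : ℤ) : ℝ) / r n * F2 z|) U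
      (𝓝 |F w - F z - (w.re - z.re) * F1 z - (w.im - z.im) * F2 z|) :=
    (((t2.sub t1).sub (s1.mul_const _)).sub (s2.mul_const _)).abs
  have hR : Tendsto (fun n => (d1 w z + 4 / r n) * (ε / 4)) U (𝓝 ((d1 w z + 0) * (ε / 4))) := by
    refine (tendsto_const_nhds.add ?_).mul_const _
    exact tendsto_const_nhds.div_atTop hr
  rw [add_zero] at hR
  have hle := le_of_tendsto_of_tendsto hL hR (by
    filter_upwards [h1 K' hK' hK'Ω (ε / 8) (by positivity), h2 K' hK' hK'Ω (ε / 8) (by positivity),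
      eventually_two_div_le hr (by positivity : 0 < δ / 8)] with n hn1 hn2 hrn
    obtain ⟨hrn, hrd⟩ := hrn
    have a1 := d1_pt_flr (r n) hrn z
    have a2 := d1_pt_flr (r n) hrn w
    have a3 : d1 (pt (r n) (flr (r n) w)) (pt (r n) (flr (r n) z)) ≤ d1 w z + 4 / r n := by
      have t1 := d1_triangle (pt (r n) (flr (r n) w)) w (pt (r n) (flr (r n) z))
      have t2 := d1_triangle w z (pt (r n) (flr (r n) z))
      rw [d1_comm z] at t2
      have : (4 : ℝ) / r n = 2 / r n + 2 / r n := by ring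
      linarith
    have a4 : (4 : ℝ) / r n ≤ δ / 4 := by
      have e : (4 : ℝ) / r n = 2 * (2 / r n) := by ring
      rw [e]; linarith
    have := taylor1 (v n) (F1 z / r n) (F2 z / r n) (ε / 4 / r n) (flr (r n) z) (flr (r n) w)
      (fun h ha hb => by
        have b1 := d1_pt_box hrn ha hb
        have b2 : d1 (pt (r n) h) z ≤ δ := by
          have := d1_triangle (pt (r n) h) (pt (r n) (flr (r n) z)) z
          linarith
        have b3 : pt (r n) h ∈ K' := hnb z rfl _ (b2.trans (min_le_left _ _))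
        have b4 := dist_le_d1 (pt (r n) h) z
        have b5 := hn1 h b3
        have b6 := hn2 h b3
        have b7 : dist (F1 (pt (r n) h)) (F1 z) < ε / 8 := hc1 (by
          have := (min_le_right δ0 (min (δ1 / 2) (δ2 / 2))).trans (min_le_left _ _)
          linarith)
        have b8 : dist (F2 (pt (r n) h)) (F2 z) < ε / 8 := hc2 (by
          have := (min_le_right δ0 (min (δ1 / 2) (δ2 / 2))).trans (min_le_right _ _)
          linarith)
        rw [Real.dist_eq] at b7 b8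
        simp only [D1, D2] at b5 b6
        constructor
        · have e : v n (h + e1) - v n h - F1 z / r n
              = ((r n * (v n (h + e1) - v n h) - F1 (pt (r n) h)) + (F1 (pt (r n) h) - F1 z)) / r n := by
            field_simp
            ring
          rw [e, abs_div, abs_of_pos hrn]
          refine div_le_div_of_nonneg_right ((abs_add_le _ _).trans ?_) hrn.le
          linarith
        · have e : v n (h + e2) - v n h - F2 z / r n
              = ((r n * (v n (h + e2) - v n h) - F2 (pt (r n) h)) + (F2 (pt (r n) h) - F2 z)) / r n := by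
            field_simp
            ring
          rw [e, abs_div, abs_of_pos hrn]
          refine div_le_div_of_nonneg_right ((abs_add_le _ _).trans ?_) hrn.le
          linarith)
    rw [d1_pt _ hrn] at this
    have e1 : r n * d1 (pt (r n) (flr (r n) w)) (pt (r n) (flr (r n) z)) * (ε / 4 / r n)
        = d1 (pt (r n) (flr (r n) w)) (pt (r n) (flr (r n) z)) * (ε / 4) := by
      field_simp
    rw [e1] at this
    have e2 : ∀ x y : ℝ, x / r n * y = x * (y / r n) := fun x y => by ring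
    rw [e2, e2]
    exact this.trans (mul_le_mul_of_nonneg_right a3 (by positivity)))
  have hfin : F (z + x) - F z - (F1 z • Complex.reCLM + F2 z • Complex.imCLM) x
      = F w - F z - (w.re - z.re) * F1 z - (w.im - z.im) * F2 z := by
    simp [hw]
    ring
  rw [hfin, Real.norm_eq_abs]
  refine hle.trans ?_
  nlinarith [norm_nonneg x]

/-- uniqueness of locally uniform limits -/
theorem LocUnif.tendsto {U : Filter ι} {r : ι → ℝ} (hr : Tendsto r U atTop) {Ω : Set ℂ}
    (hΩ : IsOpen Ω) {w : ι → ℤ × ℤ → ℝ} {W : ℂ → ℝ} (h : LocUnif U r Ω w W)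
    (hW : ContinuousOn W Ω) {z : ℂ} (hz : z ∈ Ω) :
    Tendsto (fun n => w n (flr (r n) z)) U (𝓝 (W z)) := by
  obtain ⟨δ0, hδ0, K', hK', hK'Ω, -, hnb⟩ := exists_nbhd hΩ (isCompact_singleton (x := z))
    (Set.singleton_subset_iff.2 hz)
  rw [Metric.tendsto_nhds]
  intro ε hε
  obtain ⟨δ1, hδ1, hc1⟩ := Metric.continuousAt_iff.1 (hW.continuousAt (hΩ.mem_nhds hz)) (ε / 2)
    (by positivity)
  filter_upwards [h K' hK' hK'Ω (ε / 4) (by positivity),
    eventually_two_div_le hr (by positivity : 0 < min δ0 (δ1 / 2))] with n hn hrn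
  obtain ⟨hrn, hrd⟩ := hrn
  have a1 := d1_pt_flr (r n) hrn z
  have b3 : pt (r n) (flr (r n) z) ∈ K' := hnb z rfl _ (a1.trans (hrd.trans (min_le_left _ _)))
  have b4 := hn _ b3
  have b5 : dist (W (pt (r n) (flr (r n) z))) (W z) < ε / 2 := hc1 (by
    have := dist_le_d1 (pt (r n) (flr (r n) z)) z
    have := hrd.trans (min_le_right δ0 (δ1 / 2))
    linarith)
  rw [Real.dist_eq] at *
  rw [abs_le] at b4
  rw [abs_lt] at *
  constructor <;> linarith [b4.1, b4.2, b5.1, b5.2]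

/-- the complex valued limit -/
def limC (U : Ultrafilter ι) (r : ι → ℝ) (a b : ι → ℤ × ℤ → ℝ) (z : ℂ) : ℂ :=
  ⟨lim U r a z, lim U r b z⟩

/-- all the interior bounds needed for one real component -/
structure Bds (U : Filter ι) (r : ι → ℝ) (Ω : Set ℂ) (v : ι → ℤ × ℤ → ℝ) : Prop where
  b0 : LocBd U r Ω v
  b1 : LocBd U r Ω fun n => D1 (r n) (v n)
  b2 : LocBd U r Ω fun n => D2 (r n) (v n)
  b11 : LocBd U r Ω fun n => D1 (r n) (D1 (r n) (v n))
  b12 : LocBd U r Ω fun n => D2 (r n) (D1 (r n) (v n))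
  b21 : LocBd U r Ω fun n => D1 (r n) (D2 (r n) (v n))
  b22 : LocBd U r Ω fun n => D2 (r n) (D2 (r n) (v n))

/-- tends to zero locally uniformly -/
def LocZero (U : Filter ι) (r : ι → ℝ) (Ω : Set ℂ) (w : ι → ℤ × ℤ → ℝ) : Prop :=
  LocUnif U r Ω w fun _ => 0

theorem Bds.hasFDerivAt {U : Ultrafilter ι} {r : ι → ℝ} (hr : Tendsto r U atTop) {Ω : Set ℂ}
    (hΩ : IsOpen Ω) {v : ι → ℤ × ℤ → ℝ} (h : Bds U r Ω v) {z : ℂ} (hz : z ∈ Ω) :
    HasFDerivAt (lim U r v) (lim U r (fun n => D1 (r n) (v n)) z • Complex.reCLM +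
      lim U r (fun n => D2 (r n) (v n)) z • Complex.imCLM) z := by
  obtain ⟨k1, k2⟩ := exists_limit hr hΩ h.b1 h.b11 h.b12
  obtain ⟨k3, k4⟩ := exists_limit hr hΩ h.b2 h.b21 h.b22
  exact hasFDerivAt_limit hr hΩ (fun z hz => lim_tendsto hr hΩ h.b0 hz) k2 k4 k1 k3 hz

/-- **Holomorphy of the limit** -/
theorem differentiableOn_limC {U : Ultrafilter ι} {r : ι → ℝ} (hr : Tendsto r U atTop) {Ω : Set ℂ}
    (hΩ : IsOpen Ω) {a b : ι → ℤ × ℤ → ℝ} (ha : Bds U r Ω a) (hb : Bds U r Ω b)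
    (cr1 : LocZero U r Ω fun n f => D1 (r n) (a n) f - D2 (r n) (b n) f)
    (cr2 : LocZero U r Ω fun n f => D2 (r n) (a n) f + D1 (r n) (b n) f) :
    DifferentiableOn ℂ (limC U r a b) Ω := by
  intro z hz
  refine DifferentiableAt.differentiableWithinAt ?_
  have fa := ha.hasFDerivAt hr hΩ hz
  have fb := hb.hasFDerivAt hr hΩ hz
  have ta1 := lim_tendsto hr hΩ ha.b1 hz
  have ta2 := lim_tendsto hr hΩ ha.b2 hz
  have tb1 := lim_tendsto hr hΩ hb.b1 hz
  have tb2 := lim_tendsto hr hΩ hb.b2 hz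
  have q1 := tendsto_nhds_unique (ta1.sub tb2) (cr1.tendsto hr hΩ continuousOn_const hz)
  have q2 := tendsto_nhds_unique (ta2.add tb1) (cr2.tendsto hr hΩ continuousOn_const hz)
  set A1 := lim U r (fun n => D1 (r n) (a n)) z
  set A2 := lim U r (fun n => D2 (r n) (a n)) z
  set B1 := lim U r (fun n => D1 (r n) (b n)) z
  set B2 := lim U r (fun n => D2 (r n) (b n)) z
  have hF : HasFDerivAt (𝕜 := ℝ) (limC U r a b)
      (Complex.ofRealCLM.comp (A1 • Complex.reCLM + A2 • Complex.imCLM) +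
        Complex.I • Complex.ofRealCLM.comp (B1 • Complex.reCLM + B2 • Complex.imCLM)) z := by
    have h1 := Complex.ofRealCLM.hasFDerivAt.comp z fa
    have h2 := (Complex.ofRealCLM.hasFDerivAt.comp z fb).const_smul Complex.I
    refine (h1.add h2).congr_of_eventuallyEq (Eventually.of_forall fun w => ?_)
    simp only [limC, Function.comp_apply, Complex.ofRealCLM_apply, smul_eq_mul, Pi.add_apply,
      Pi.smul_apply]
    apply Complex.ext <;> simp
  have hC : HasFDerivAt (𝕜 := ℂ) (limC U r a b)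
      (ContinuousLinearMap.toSpanSingleton ℂ (⟨A1, B1⟩ : ℂ)) z := by
    refine hasFDerivAt_of_restrictScalars ℝ hF ?_
    have hB1 : B1 = -A2 := by linarith
    have hB2 : B2 = A1 := by linarith
    rw [hB1, hB2]
    refine ContinuousLinearMap.ext fun w => ?_
    apply Complex.ext
    · simp; ring
    · simp; ring
  exact hC.differentiableAt

end Crest.Agent.R165.Lim1x943
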