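import Mathlib
import Crest.Agent.R165.NcCut_811
import Crest.Agent.R165.RIface_891
import Crest.Agent.R165.Lim1_943

/-!
# EX at a plus boundary, part 1: normalised sequences and interior bounds (row 165, helper811)
-/

set_option autoImplicit false

noncomputable section

namespace Crest.Agent.R165.EXb1x811

open Finset Filter Topology Crest.Agent.R165.Tr1x40 Crest.Agent.R165.Tr2x40
  Crest.Agent.R165.Intx811 Crest.Agent.R165.NcCutx811 Crest.Agent.R165.RIfx891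

open Crest.Agent.R165.PotAx894 (Q mem_Q)
open Crest.Agent.R165.PotBx894 (Harm DL DD)
open Crest.Agent.R165.Lim1x943 (pt LocBd exists_nbhd d1)

/-- linear form of the normal -/
def lin (n z : ℂ) : ℝ := n.re * z.re + n.im * z.im

/-- the open half box -/
def Om (n : ℂ) : Set ℂ := {z | |z.re| < 1 ∧ |z.im| < 1 ∧ lin n z < 0}

theorem continuous_lin (n : ℂ) : Continuous (lin n) := by
  unfold lin
  fun_prop

theorem isOpen_Om (n : ℂ) : IsOpen (Om n) := by
  have h1 : IsOpen {z : ℂ | |z.re| < 1} := isOpen_lt (by fun_prop) continuous_const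
  have h2 : IsOpen {z : ℂ | |z.im| < 1} := isOpen_lt (by fun_prop) continuous_const
  have h3 : IsOpen {z : ℂ | lin n z < 0} := isOpen_lt (continuous_lin n) continuous_const
  exact h1.inter (h2.inter h3)

/-- normalised sequence of exact solutions in asymptotically flat boxes -/
structure Sq (U : Ultrafilter ℕ) (n : ℂ) where
  r : ℕ → ℝ
  ε : ℕ → ℝ
  nn : ℕ → ℂ
  w : ℕ → Fld
  φ : ℕ → Fld
  hr : Tendsto r U atTop
  hε : Tendsto ε U (𝓝 0)
  hn : Tendsto nn U (𝓝 n)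
  n1 : ‖n‖ = 1
  sym : ∀ k, Sym (w k)
  plus : ∀ k, IsPlusOn (w k) 0 (r k)
  inside : ∀ k, ∀ f ∈ bx 0 (r k), dotn (nn k) 0 f ≤ -(ε k * r k) → ∀ h, w k f h = xc
  outside : ∀ k, ∀ f ∈ bx 0 (r k), ε k * r k ≤ dotn (nn k) 0 f → ∀ h, w k f h = 0
  exact : ∀ k, ∀ f ∈ bx 0 (r k), A (w k) (φ k) f = 0
  norm : ∀ k, NB 0 (r k) (φ k) ≤ 1

theorem dotn_eq (n : ℂ) (r : ℝ) (hr : 0 < r) (f : Face) : dotn n 0 f = r * lin n (pt r f) := by
  unfold dotn lin
  simp only [Prod.fst_zero, Prod.snd_zero, Int.cast_zero, sub_zero, Lim1x943.pt_re, Lim1x943.pt_im]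
  field_simp

theorem lin_sub_le (n n' z : ℂ) (h1 : |z.re| ≤ 1) (h2 : |z.im| ≤ 1) :
    |lin n z - lin n' z| ≤ 2 * ‖n - n'‖ := by
  have e : lin n z - lin n' z = (n - n').re * z.re + (n - n').im * z.im := by
    unfold lin; simp; ring
  rw [e]
  have a1 := Complex.abs_re_le_norm (n - n')
  have a2 := Complex.abs_im_le_norm (n - n')
  calc |(n - n').re * z.re + (n - n').im * z.im|
      ≤ |(n - n').re * z.re| + |(n - n').im * z.im| := abs_add_le _ _
    _ ≤ ‖n - n'‖ * 1 + ‖n - n'‖ * 1 := by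
        rw [abs_mul, abs_mul]
        gcongr
    _ = 2 * ‖n - n'‖ := by ring

theorem mass_le_NB (φ : Fld) (f : Face) (ρ : ℕ) (r : ℝ) (h : Q f ρ ⊆ bx 0 r) :
    mass φ f ρ ≤ NB 0 r φ ^ 2 := by
  rw [NB_sq]
  exact sum_le_sum_of_subset_of_nonneg h fun _ _ _ => nsq_nonneg _

/-- the key geometric lemma: near a compact of `Om n` everything is in plane gauge. -/
theorem geo {U : Ultrafilter ℕ} {n : ℂ} (S : Sq U n) {K : Set ℂ} (hK : IsCompact K)
    (hKΩ : K ⊆ Om n) :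
    ∃ δ : ℝ, 0 < δ ∧ ∀ᶠ k in (U : Filter ℕ), 1 ≤ S.r k ∧ ∀ f : Face, pt (S.r k) f ∈ K →
      ∀ ρ : ℕ, (ρ : ℝ) ≤ δ * S.r k → ∀ g ∈ Q f ρ, g ∈ bx 0 (S.r k) ∧ ∀ h, S.w k g h = xc := by
  rcases K.eq_empty_or_nonempty with rfl | hne
  · refine ⟨1, one_pos, ?_⟩
    filter_upwards [S.hr.eventually_ge_atTop 1] with k hk
    exact ⟨hk, fun f hf => absurd hf (Set.notMem_empty _)⟩
  obtain ⟨δ, hδ, K', hK', hK'Ω, hKK', hnb⟩ := exists_nbhd (isOpen_Om n) hK hKΩ
  have hne' : K'.Nonempty := hne.mono hKK'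
  obtain ⟨z0, hz0, hmax⟩ := hK'.exists_isMaxOn hne' (continuous_lin n).continuousOn
  set m := -(lin n z0) with hm
  have hm0 : 0 < m := by have := (hK'Ω hz0).2.2; rw [hm]; linarith
  have hlin : ∀ z ∈ K', lin n z ≤ -m := fun z hz => by
    have := hmax hz
    rw [hm, neg_neg]; exact this
  refine ⟨δ / 2, by positivity, ?_⟩
  have e1 : ∀ᶠ k in (U : Filter ℕ), ‖S.nn k - n‖ < m / 4 := by
    have := S.hn
    rw [tendsto_iff_norm_sub_tendsto_zero] at this
    exact this.eventually_lt_const (by positivity)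
  have e2 : ∀ᶠ k in (U : Filter ℕ), S.ε k < m / 2 := S.hε.eventually_lt_const (by positivity)
  filter_upwards [S.hr.eventually_ge_atTop 1, e1, e2] with k hk h1 h2
  refine ⟨hk, fun f hf ρ hρ g hg => ?_⟩
  have hr0 : 0 < S.r k := by linarith
  have hgK : pt (S.r k) g ∈ K' := by
    apply hnb _ hf
    unfold d1
    simp only [Lim1x943.pt_re, Lim1x943.pt_im]
    rw [mem_Q] at hg
    have a1 : |(g.1 : ℝ) - f.1| ≤ ρ := by exact_mod_cast hg.1
    have a2 : |(g.2 : ℝ) - f.2| ≤ ρ := by exact_mod_cast hg.2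
    rw [← sub_div, ← sub_div, abs_div, abs_div, abs_of_pos hr0, ← add_div, div_le_iff₀ hr0]
    linarith
  have hb := hK'Ω hgK
  have hbx : g ∈ bx 0 (S.r k) := by
    rw [mem_bx_real]
    have b1 := hb.1
    have b2 := hb.2.1
    simp only [Lim1x943.pt_re, Lim1x943.pt_im, abs_div, abs_of_pos hr0, div_lt_one hr0] at b1 b2
    simp only [Prod.fst_zero, Prod.snd_zero, Int.cast_zero, sub_zero]
    exact ⟨b1.le, b2.le⟩
  refine ⟨hbx, S.inside k g hbx ?_⟩
  rw [dotn_eq _ _ hr0]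
  have c1 := lin_sub_le (S.nn k) n (pt (S.r k) g) hb.1.le hb.2.1.le
  have c2 := hlin _ hgK
  have c3 := (abs_le.1 c1).2
  have c4 : lin (S.nn k) (pt (S.r k) g) ≤ -(m / 2) := by linarith
  nlinarith

/-- all orders: `r^{|l|+1} |D_l φ_a|` is bounded on compacts of `Om n`. -/
theorem bd_all {U : Ultrafilter ℕ} {n : ℂ} (S : Sq U n) (l : List Bool) (a : Fin 4) :
    LocBd U S.r (Om n) (fun k f => S.r k ^ (l.length + 1) * DL l (fun g => S.φ k g a) f) := by
  intro K hK hKΩ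
  obtain ⟨δ, hδ, hev⟩ := geo S hK hKΩ
  obtain ⟨C, hC, H⟩ := pt_est l
  refine ⟨C * (2 / δ) ^ (l.length + 1), ?_⟩
  filter_upwards [hev, S.hr.eventually_ge_atTop (2 / δ * (4 * (l.length + 1) + 1))] with k hk hk2 f hf
  obtain ⟨hr1, hg⟩ := hk
  have hr0 : 0 < S.r k := by linarith
  have hδr : 2 * (4 * (l.length + 1) + 1) ≤ δ * S.r k := by
    rw [div_mul_eq_mul_div, div_le_iff₀ hδ] at hk2
    linarith
  set ρ := ⌊δ * S.r k⌋₊ with hρ
  have hρ1 : (ρ : ℝ) ≤ δ * S.r k := Nat.floor_le (by positivity)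
  have hρ2 : δ * S.r k < ρ + 1 := Nat.lt_floor_add_one _
  have hl0 : (0:ℝ) ≤ l.length := Nat.cast_nonneg _
  have hρ3 : δ * S.r k / 2 ≤ ρ := by linarith
  have hρ4 : 4 * (l.length + 1) ≤ ρ := by
    have : (4 * ((l.length : ℝ) + 1)) ≤ ρ := by linarith
    exact_mod_cast this
  have hg' := hg f hf ρ hρ1
  have hm : Harm (fun g => S.φ k g a) f (ρ - 1) := by
    have e : ρ - 1 + 1 = ρ := by omega
    apply harm (w := S.w k) (c := f) (r := ρ - 1)
    · rw [e]; exact fun g hg => (hg' g hg).2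
    · rw [e]; exact fun g hg h => congrFun (S.exact k g (hg' g hg).1) h
  have h1 := H (S.φ k) f ρ a hρ4 hm
  have hmass : Real.sqrt (mass (S.φ k) f ρ) ≤ 1 := by
    rw [← Real.sqrt_one]
    apply Real.sqrt_le_sqrt
    refine (mass_le_NB (S.φ k) f ρ (S.r k) (fun g hg => (hg' g hg).1)).trans ?_
    have h2 := S.norm k
    have h3 : 0 ≤ NB 0 (S.r k) (S.φ k) := apply_nonneg _ _
    nlinarith
  have hρ0 : (0:ℝ) < ρ := by
    have : 0 < δ * S.r k / 2 := by positivity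
    linarith
  rw [abs_mul, abs_of_pos (by positivity : 0 < S.r k ^ (l.length + 1))]
  calc S.r k ^ (l.length + 1) * |DL l (fun g => S.φ k g a) f|
      ≤ S.r k ^ (l.length + 1) * (C / (ρ : ℝ) ^ (l.length + 1) * 1) := by
        gcongr
        exact h1.trans (mul_le_mul_of_nonneg_left hmass (by positivity))
    _ = C * (S.r k / ρ) ^ (l.length + 1) := by rw [div_pow]; ring
    _ ≤ C * (2 / δ) ^ (l.length + 1) := by
        gcongr ?_ * ?_ ^ _
        rw [div_le_div_iff₀ hρ0 hδ]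
        linarith

/-- the rescaled components -/
def v {U : Ultrafilter ℕ} {n : ℂ} (S : Sq U n) (a : Fin 4) : ℕ → ℤ × ℤ → ℝ :=
  fun k f => S.r k * S.φ k f a

theorem bd0 {U : Ultrafilter ℕ} {n : ℂ} (S : Sq U n) (a : Fin 4) :
    LocBd U S.r (Om n) (v S a) := by
  intro K hK hKΩ
  obtain ⟨M, hM⟩ := bd_all S [] a K hK hKΩ
  refine ⟨M, hM.mono fun k hk f hf => ?_⟩
  have := hk f hf
  simpa [DL, v] using this

theorem bd1 {U : Ultrafilter ℕ} {n : ℂ} (S : Sq U n) (a : Fin 4) :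
    LocBd U S.r (Om n) (fun k => Lim1x943.D1 (S.r k) (v S a k)) := by
  intro K hK hKΩ
  obtain ⟨M, hM⟩ := bd_all S [true] a K hK hKΩ
  refine ⟨M, hM.mono fun k hk f hf => ?_⟩
  have := hk f hf
  refine le_trans (le_of_eq ?_) this
  congr 1
  simp only [DL, DD, v, Lim1x943.D1, PotAx894.D1, PotAx894.e1, Lim1x943.e1, List.length_cons,
    List.length_nil, if_true]
  ring

theorem bd2 {U : Ultrafilter ℕ} {n : ℂ} (S : Sq U n) (a : Fin 4) :
    LocBd U S.r (Om n) (fun k => Lim1x943.D2 (S.r k) (v S a k)) := by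
  intro K hK hKΩ
  obtain ⟨M, hM⟩ := bd_all S [false] a K hK hKΩ
  refine ⟨M, hM.mono fun k hk f hf => ?_⟩
  have := hk f hf
  refine le_trans (le_of_eq ?_) this
  congr 1
  simp only [DL, DD, v, Lim1x943.D2, PotAx894.D2, PotAx894.e2, Lim1x943.e2, List.length_cons,
    List.length_nil, Bool.false_eq_true, if_false]
  ring

end Crest.Agent.R165.EXb1x811
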