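import Mathlib
import Crest.Agent.R165.EXb1_811

/-!
# EX at a plus boundary, part 2: no mass escapes (row 165, helper811)
-/

set_option autoImplicit false

noncomputable section

namespace Crest.Agent.R165.EXb2x811

open Finset Filter Topology Crest.Agent.R165.Tr1x40 Crest.Agent.R165.Tr2x40
  Crest.Agent.R165.Intx811 Crest.Agent.R165.NcCutx811 Crest.Agent.R165.RIfx891
  Crest.Agent.R165.EXb1x811

open Crest.Agent.R165.PotAx894 (Q mem_Q)
open Crest.Agent.R165.Lim1x943 (pt)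

/-- strips have small potential -/
def StripK (C : ℝ) : Prop :=
  ∀ (n : ℂ) (H R : ℝ) (E : Finset Face), ‖n‖ = 1 → 1 ≤ H → H ≤ R →
    (∀ f ∈ E, |(f.1 : ℝ)| ≤ R ∧ |(f.2 : ℝ)| ≤ R ∧ |n.re * f.1 + n.im * f.2| ≤ H) →
    kap E (C * H * (1 + Real.log (R / H)))

theorem Q_sub_bx {m : ℕ} {r : ℝ} (h : (m : ℝ) ≤ r) : Q (0 : Face) m ⊆ bx 0 r := by
  intro f hf
  rw [mem_Q] at hf
  rw [mem_bx_real]
  simp only [Prod.fst_zero, Prod.snd_zero, Int.cast_zero, sub_zero] at hf ⊢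
  have a1 : |(f.1 : ℝ)| ≤ m := by exact_mod_cast hf.1
  have a2 : |(f.2 : ℝ)| ≤ m := by exact_mod_cast hf.2
  exact ⟨a1.trans h, a2.trans h⟩

theorem bx_sub_Q {r : ℝ} (hr : 0 ≤ r) : bx (0 : Face) r ⊆ Q 0 ⌊r⌋₊ := by
  intro f hf
  rw [mem_bx] at hf
  rw [mem_Q]
  have : ((⌊r⌋₊ : ℕ) : ℤ) = ⌊r⌋ := Int.natCast_floor_eq_floor hr
  rw [this]
  exact hf

theorem A0_eq_zero {p : Fin 4 → ℝ} (h : ∀ a, A0 p a = 0) : p = 0 := by
  have h1 := nsq_A0_ge p
  have h2 : nsq (A0 p) = 0 := by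
    unfold nsq
    exact sum_eq_zero fun a _ => by rw [h a]; norm_num
  rw [h2] at h1
  have hx := xc_pos
  have h3 := nsq_nonneg p
  have h4 : nsq p = 0 := by
    have : 0 < xc ^ 2 := by positivity
    nlinarith
  exact nsq_eq_zero.1 h4

/-- the field vanishes outside of the strip on the outer side -/
theorem zero_outside {w φ : Fld} {f : Face} (hw : ∀ h, w f h = 0) (he : A w φ f = 0) : φ f = 0 := by
  apply A0_eq_zero
  intro a
  have := congrFun he a
  simp only [A, Y, hw a, Pi.zero_apply] at this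
  linarith

theorem theta_bound {θ : ℝ} (h0 : 0 < θ) :
    θ ^ 2 * (1 + Real.log (1 / θ ^ 2)) ≤ 2 * θ := by
  have e : Real.log (1 / θ ^ 2) = 2 * Real.log (1 / θ) := by
    rw [← one_div_pow, Real.log_pow]; norm_num
  have h2 : Real.log (1 / θ) ≤ 1 / θ - 1 := Real.log_le_sub_one_of_pos (by positivity)
  rw [e]
  have h3 : θ ^ 2 * (1 + 2 * Real.log (1 / θ)) ≤ θ ^ 2 * (1 + 2 * (1 / θ - 1)) := by
    gcongr
  refine h3.trans ?_
  have : θ ^ 2 * (1 + 2 * (1 / θ - 1)) = 2 * θ - θ ^ 2 := by field_simp; ring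
  rw [this]
  nlinarith [sq_nonneg θ]

theorem dotn_zero (n : ℂ) (f : Face) : dotn n 0 f = n.re * (f.1 : ℝ) + n.im * (f.2 : ℝ) := by
  simp only [dotn, Prod.fst_zero, Prod.snd_zero, Int.cast_zero, sub_zero]

/-- compact inner part of the half box -/
def Kc (n : ℂ) (s δ : ℝ) : Set ℂ := {z | |z.re| ≤ s ∧ |z.im| ≤ s ∧ lin n z ≤ -δ}

theorem isCompact_Kc (n : ℂ) (s δ : ℝ) : IsCompact (Kc n s δ) := by
  have h1 : IsClosed (Kc n s δ) := by
    have a1 : IsClosed {z : ℂ | |z.re| ≤ s} := isClosed_le (by fun_prop) continuous_const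
    have a2 : IsClosed {z : ℂ | |z.im| ≤ s} := isClosed_le (by fun_prop) continuous_const
    have a3 : IsClosed {z : ℂ | lin n z ≤ -δ} := isClosed_le (continuous_lin n) continuous_const
    exact a1.inter (a2.inter a3)
  refine Metric.isCompact_of_isClosed_isBounded h1 ?_
  rw [Metric.isBounded_iff_subset_closedBall 0]
  refine ⟨2 * s, fun z hz => ?_⟩
  rw [mem_closedBall_zero_iff]
  have := Complex.norm_le_abs_re_add_abs_im z
  linarith [hz.1, hz.2.1]

theorem Kc_sub (n : ℂ) {s δ : ℝ} (hs : s < 1) (hδ : 0 < δ) : Kc n s δ ⊆ Om n := by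
  intro z hz
  exact ⟨hz.1.trans_lt hs, hz.2.1.trans_lt hs, by linarith [hz.2.2]⟩

theorem arith {C C' θ s r η k0 m κ : ℝ} (hC : 0 ≤ C) (hC' : 0 ≤ C') (hθ0 : 0 < θ) (h1s : 0 < 1 - s)
    (hr : 0 < r) (hη : 0 < η) (hk0 : (1 - s) * r / 2 ≤ k0) (hκ : κ ≤ 2 * C' * θ * r)
    (hκ0 : 0 ≤ 1 + κ) (hm : m ≤ 1) (h5 : 8 * (C + 1) / ((1 - s) * η) ≤ r)
    (hθ : θ ≤ η * (1 - s) / (16 * (C * C' + 1))) : 2 * C * (1 + κ) / k0 * m ≤ η := by
  have hsr : 0 < (1 - s) * r := by positivity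
  have hk : 0 < k0 := by linarith
  have a1 : 8 * (C + 1) ≤ r * ((1 - s) * η) := by rwa [div_le_iff₀ (by positivity)] at h5
  have a2 : θ * (16 * (C * C' + 1)) ≤ η * (1 - s) := by rwa [le_div_iff₀ (by positivity)] at hθ
  have a3 : 2 * C * (1 + κ) ≤ η * k0 := by
    have b1 : 2 * C * (1 + κ) ≤ 2 * C * (1 + 2 * C' * θ * r) :=
      mul_le_mul_of_nonneg_left (by linarith) (by positivity)
    have b2 : η * ((1 - s) * r / 2) ≤ η * k0 := mul_le_mul_of_nonneg_left hk0 hη.le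
    have b3 : θ * (16 * (C * C' + 1)) * r ≤ η * (1 - s) * r := mul_le_mul_of_nonneg_right a2 hr.le
    have b4 : 0 ≤ θ * r := by positivity
    nlinarith
  calc 2 * C * (1 + κ) / k0 * m ≤ 2 * C * (1 + κ) / k0 * 1 :=
        mul_le_mul_of_nonneg_left hm (by positivity)
    _ ≤ η := by rw [mul_one, div_le_iff₀ hk]; exact a3

open Classical in
/-- **no mass escapes** -/
theorem nc_tail {C C' : ℝ} (hC : 0 ≤ C) (hC' : 0 ≤ C') (hSQ : SQ C) (hst : StripK C')
    {U : Ultrafilter ℕ} {n : ℂ} (S : Sq U n) {s : ℝ} (hs0 : 0 < s) (hs : s < 1) {η : ℝ}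
    (hη : 0 < η) :
    ∃ K : Set ℂ, IsCompact K ∧ K ⊆ Om n ∧ ∀ᶠ k in (U : Filter ℕ),
      ∑ f ∈ (bx 0 (s * S.r k)).filter (fun f => pt (S.r k) f ∉ K), nsq (S.φ k f) ≤ η := by
  have h1s : 0 < 1 - s := by linarith
  set θ : ℝ := min 1 (η * (1 - s) / (16 * (C * C' + 1))) with hθ
  have hθ0 : 0 < θ := by rw [hθ]; positivity
  have hθ1 : θ ≤ 1 := min_le_left _ _
  have hθ2 : θ ≤ η * (1 - s) / (16 * (C * C' + 1)) := min_le_right _ _
  set δ : ℝ := θ ^ 2 with hδ
  have hδ0 : 0 < δ := by positivity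
  have hδ1 : δ ≤ 1 := by rw [hδ]; nlinarith
  refine ⟨Kc n s δ, isCompact_Kc n s δ, Kc_sub n hs hδ0, ?_⟩
  have e1 : ∀ᶠ k in (U : Filter ℕ), ‖S.nn k - n‖ < δ / 8 := by
    have := S.hn
    rw [tendsto_iff_norm_sub_tendsto_zero] at this
    exact this.eventually_lt_const (by positivity)
  have e2 : ∀ᶠ k in (U : Filter ℕ), S.ε k < δ / 2 := S.hε.eventually_lt_const (by positivity)
  filter_upwards [e1, e2, S.hr.eventually_ge_atTop (1 / δ),
    S.hr.eventually_ge_atTop (2 / (1 - s)),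
    S.hr.eventually_ge_atTop (8 * (C + 1) / ((1 - s) * η))] with k h1 h2 h3 h4 h5
  have hr0 : 0 < S.r k := lt_of_lt_of_le (by positivity) h3
  have hδr : 1 ≤ δ * S.r k := by
    rw [div_le_iff₀ hδ0] at h3; linarith
  have h4' : 2 ≤ (1 - s) * S.r k := by
    rw [div_le_iff₀ h1s] at h4; linarith
  -- the strip
  set E : Finset Face := (bx 0 (s * S.r k)).filter
    (fun f => |lin n (pt (S.r k) f)| ≤ δ) with hE
  have step1 : ∑ f ∈ (bx 0 (s * S.r k)).filter (fun f => pt (S.r k) f ∉ Kc n s δ), nsq (S.φ k f)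
      ≤ ∑ f ∈ E, nsq (S.φ k f) := by
    rw [sum_filter, hE, sum_filter]
    refine sum_le_sum fun f hf => ?_
    by_cases hK : pt (S.r k) f ∈ Kc n s δ
    · rw [if_neg (not_not.2 hK)]
      split_ifs
      · exact nsq_nonneg _
      · exact le_refl _
    · rw [if_pos hK]
      have hf' := hf
      rw [mem_bx_real] at hf'
      simp only [Prod.fst_zero, Prod.snd_zero, Int.cast_zero, sub_zero] at hf'
      have b1 : |(pt (S.r k) f).re| ≤ s := by
        rw [Lim1x943.pt_re, abs_div, abs_of_pos hr0, div_le_iff₀ hr0]; exact hf'.1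
      have b2 : |(pt (S.r k) f).im| ≤ s := by
        rw [Lim1x943.pt_im, abs_div, abs_of_pos hr0, div_le_iff₀ hr0]; exact hf'.2
      have b3 : -δ < lin n (pt (S.r k) f) := by
        by_contra hc
        exact hK ⟨b1, b2, not_lt.1 hc⟩
      by_cases hup : lin n (pt (S.r k) f) ≤ δ
      · rw [if_pos (abs_le.2 ⟨b3.le, hup⟩)]
      · have hz : S.φ k f = 0 := by
          have hbx : f ∈ bx 0 (S.r k) := bx_mono 0 (by nlinarith) hf
          refine zero_outside (S.outside k f hbx ?_) (S.exact k f hbx)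
          rw [dotn_eq _ _ hr0]
          have c1 := lin_sub_le (S.nn k) n (pt (S.r k) f) (b1.trans hs.le) (b2.trans hs.le)
          have c3 := (abs_le.1 c1).1
          push Not at hup
          have : S.ε k ≤ lin (S.nn k) (pt (S.r k) f) := by linarith
          nlinarith
        rw [hz]
        have : nsq (0 : Fin 4 → ℝ) = 0 := nsq_eq_zero.2 rfl
        rw [this]
        split_ifs <;> exact le_refl _
  refine step1.trans ?_
  -- apply nc_cut
  set n0 := ⌊s * S.r k⌋₊ with hn0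
  set k0 := ⌊(1 - s) * S.r k⌋₊ with hk0
  set R0 := ⌊S.r k⌋₊ with hR0
  have f1 : (n0 : ℝ) ≤ s * S.r k := Nat.floor_le (by positivity)
  have f2 : (k0 : ℝ) ≤ (1 - s) * S.r k := Nat.floor_le (by positivity)
  have f3 : n0 + k0 ≤ R0 := by
    rw [hR0]
    apply Nat.le_floor
    push_cast
    linarith
  have f4 : (1 - s) * S.r k / 2 ≤ k0 := by
    have := Nat.lt_floor_add_one ((1 - s) * S.r k)
    rw [← hk0] at this
    linarith
  have f5 : (0:ℝ) < k0 := by linarith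
  have f6 : 0 < k0 := by exact_mod_cast f5
  have f7 : (R0 : ℝ) ≤ S.r k := Nat.floor_le hr0.le
  have hQ : Q 0 R0 ⊆ bx 0 (S.r k) := Q_sub_bx f7
  have hκ : kap E (C' * (δ * S.r k) * (1 + Real.log (S.r k / (δ * S.r k)))) := by
    apply hst n (δ * S.r k) (S.r k) E S.n1 hδr (by nlinarith)
    intro f hf
    rw [hE, mem_filter, mem_bx_real] at hf
    simp only [Prod.fst_zero, Prod.snd_zero, Int.cast_zero, sub_zero] at hf
    have g1 : s * S.r k ≤ S.r k := by nlinarith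
    refine ⟨hf.1.1.trans g1, hf.1.2.trans g1, ?_⟩
    have g2 := hf.2
    have g3 : n.re * (f.1 : ℝ) + n.im * (f.2 : ℝ) = S.r k * lin n (pt (S.r k) f) := by
      rw [← dotn_eq n (S.r k) hr0 f, dotn_zero]
    rw [g3, abs_mul, abs_of_pos hr0]
    nlinarith
  have hcut := nc_cut hC hSQ (S.sym k) (c := 0) (n := n0) (k := k0) (R := R0) f6 f3
    (fun f hf h => S.plus k f (hQ hf) h)
    (fun f hf h => congrFun (S.exact k f (hQ hf)) h)
    (E := E) (by
      intro f hf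
      exact bx_sub_Q (by positivity) (mem_filter.1 hf).1) hκ
  refine hcut.trans ?_
  have hm : mass (S.φ k) 0 R0 ≤ 1 := by
    refine (mass_le_NB (S.φ k) 0 R0 (S.r k) hQ).trans ?_
    have g2 := S.norm k
    have g3 : 0 ≤ NB 0 (S.r k) (S.φ k) := apply_nonneg _ _
    nlinarith
  have hq : S.r k / (δ * S.r k) = 1 / δ := by
    rw [div_mul_cancel_right₀ hr0.ne', one_div]
  rw [hq]
  have hlog : δ * (1 + Real.log (1 / δ)) ≤ 2 * θ := by
    rw [hδ]
    exact theta_bound hθ0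
  have hlog0 : 0 ≤ 1 + Real.log (1 / δ) := by
    have : 0 ≤ Real.log (1 / δ) := Real.log_nonneg (one_le_one_div hδ0 hδ1)
    linarith
  have hκle : C' * (δ * S.r k) * (1 + Real.log (1 / δ)) ≤ 2 * C' * θ * S.r k := by
    have h6 := mul_le_mul_of_nonneg_left hlog (mul_nonneg hC' hr0.le)
    calc C' * (δ * S.r k) * (1 + Real.log (1 / δ))
        = C' * S.r k * (δ * (1 + Real.log (1 / δ))) := by ring
      _ ≤ C' * S.r k * (2 * θ) := h6
      _ = 2 * C' * θ * S.r k := by ring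
  have hκ0 : 0 ≤ 1 + C' * (δ * S.r k) * (1 + Real.log (1 / δ)) :=
    add_nonneg zero_le_one (mul_nonneg (mul_nonneg hC' (mul_nonneg hδ0.le hr0.le)) hlog0)
  exact arith hC hC' hθ0 h1s hr0 hη f4 hκle hκ0 hm h5 hθ2

end Crest.Agent.R165.EXb2x811
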