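import Crest.Agent.R165.Lim1_943

/-!
# Row 165 (S0250), block R: limit passage, part 2 (strong `L²` convergence)
-/

set_option autoImplicit false

noncomputable section

namespace Crest.Agent.R165.Lim2x943

open Filter Topology MeasureTheory Crest.Agent.R165.Lim1x943

/-- the cell of the lattice point `f` -/
def cell (r : ℝ) (f : ℤ × ℤ) : Set ℂ := {z | flr r z = f}

theorem mem_cell {r : ℝ} {f : ℤ × ℤ} {z : ℂ} : z ∈ cell r f ↔ flr r z = f := Iff.rfl

theorem cell_eq {r : ℝ} (hr : 0 < r) (f : ℤ × ℤ) :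
    cell r f = Complex.measurableEquivRealProd ⁻¹'
      (Set.Ico ((f.1 : ℝ) / r) ((f.1 + 1 : ℝ) / r) ×ˢ Set.Ico ((f.2 : ℝ) / r) ((f.2 + 1 : ℝ) / r)) := by
  ext z
  simp only [cell, flr, Set.mem_ofPred_eq, Prod.ext_iff, Int.floor_eq_iff, Set.mem_preimage,
    Complex.measurableEquivRealProd_apply, Set.mem_prod, Set.mem_Ico, div_le_iff₀ hr, lt_div_iff₀ hr,
    mul_comm r]

theorem measurableSet_cell {r : ℝ} (hr : 0 < r) (f : ℤ × ℤ) : MeasurableSet (cell r f) := by
  rw [cell_eq hr]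
  exact Complex.measurableEquivRealProd.measurable (measurableSet_Ico.prod measurableSet_Ico)

theorem volume_cell {r : ℝ} (hr : 0 < r) (f : ℤ × ℤ) :
    volume (cell r f) = ENNReal.ofReal (1 / r ^ 2) := by
  rw [cell_eq hr, Complex.volume_preserving_equiv_real_prod.measure_preimage
    (measurableSet_Ico.prod measurableSet_Ico).nullMeasurableSet, Measure.volume_eq_prod,
    Measure.prod_prod, Real.volume_Ico, Real.volume_Ico, ← ENNReal.ofReal_mul (by
      rw [← sub_div]; have : (f.1 : ℝ) + 1 - f.1 = 1 := by ring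
      rw [this]; positivity)]
  congr 1
  field_simp
  ring

theorem pairwise_cell (r : ℝ) (S : Set (ℤ × ℤ)) : S.PairwiseDisjoint (cell r) := by
  intro f _ g _ hfg
  rw [Function.onFun, Set.disjoint_left]
  intro z hz hz'
  exact hfg (hz.symm.trans hz')

/-- integral of a lattice function over a set covered by finitely many cells -/
theorem lintegral_flr_le {r : ℝ} (hr : 0 < r) {A : Set ℂ} {S : Finset (ℤ × ℤ)}
    (h : ∀ z ∈ A, flr r z ∈ S) (g : ℤ × ℤ → ENNReal) :
    ∫⁻ z in A, g (flr r z) ≤ ∑ f ∈ S, g f * ENNReal.ofReal (1 / r ^ 2) := by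
  have hsub : A ⊆ ⋃ f ∈ S, cell r f := by
    intro z hz
    exact Set.mem_biUnion (h z hz) rfl
  refine (lintegral_mono_set hsub).trans ?_
  rw [lintegral_biUnion_finset (pairwise_cell r _) (fun f _ => measurableSet_cell hr f)]
  refine Finset.sum_le_sum fun f _ => ?_
  rw [setLIntegral_congr_fun (measurableSet_cell hr f)
    (fun z hz => by
      change g (flr r z) = g f
      rw [mem_cell.1 hz] : Set.EqOn (fun z => g (flr r z)) (fun _ => g f) _),
    setLIntegral_const, volume_cell hr]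

/-- lower bound by whole cells -/
theorem sum_le_lintegral_flr {r : ℝ} (hr : 0 < r) {A : Set ℂ} {S : Finset (ℤ × ℤ)}
    (h : ∀ f ∈ S, cell r f ⊆ A) (g : ℤ × ℤ → ENNReal) :
    ∑ f ∈ S, g f * ENNReal.ofReal (1 / r ^ 2) ≤ ∫⁻ z in A, g (flr r z) := by
  have hsub : (⋃ f ∈ S, cell r f) ⊆ A := by
    intro z hz
    obtain ⟨f, hf, hz⟩ := Set.mem_iUnion₂.1 hz
    exact h f hf hz
  refine le_trans ?_ (lintegral_mono_set hsub)
  rw [lintegral_biUnion_finset (pairwise_cell r _) (fun f _ => measurableSet_cell hr f)]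
  refine Finset.sum_le_sum fun f _ => ?_
  rw [setLIntegral_congr_fun (measurableSet_cell hr f)
    (fun z hz => by
      change g (flr r z) = g f
      rw [mem_cell.1 hz] : Set.EqOn (fun z => g (flr r z)) (fun _ => g f) _),
    setLIntegral_const, volume_cell hr]

theorem measurable_flr (r : ℝ) : Measurable (flr r) := by
  unfold flr
  fun_prop

theorem measurable_comp_flr {β : Type*} [MeasurableSpace β] (r : ℝ) (g : ℤ × ℤ → β) :
    Measurable fun z => g (flr r z) :=
  (measurable_of_countable g).comp (measurable_flr r)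

variable {ι : Type*}

/-- locally uniform convergence in the continuous variable -/
theorem _root_.Crest.Agent.R165.Lim1x943.LocUnif.unif {U : Filter ι} {r : ι → ℝ}
    (hr : Tendsto r U atTop) {Ω : Set ℂ} (hΩ : IsOpen Ω) {w : ι → ℤ × ℤ → ℝ} {W : ℂ → ℝ}
    (h : LocUnif U r Ω w W) (hW : ContinuousOn W Ω) {K : Set ℂ} (hK : IsCompact K) (hKΩ : K ⊆ Ω)
    {η : ℝ} (hη : 0 < η) : ∀ᶠ n in U, ∀ z ∈ K, |w n (flr (r n) z) - W z| ≤ η := by
  obtain ⟨δ0, hδ0, K', hK', hK'Ω, hKK', hnb⟩ := exists_nbhd hΩ hK hKΩ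
  have huc := (hK'.uniformContinuousOn_of_continuous (hW.mono hK'Ω))
  rw [Metric.uniformContinuousOn_iff] at huc
  obtain ⟨δ1, hδ1, huc⟩ := huc (η / 2) (by positivity)
  filter_upwards [h K' hK' hK'Ω (η / 2) (by positivity),
    eventually_two_div_le hr (by positivity : 0 < min δ0 (δ1 / 2))] with n hn hrn z hz
  obtain ⟨hrn, hrd⟩ := hrn
  have a1 := d1_pt_flr (r n) hrn z
  have b3 : pt (r n) (flr (r n) z) ∈ K' := hnb z hz _ (a1.trans (hrd.trans (min_le_left _ _)))
  have b4 := hn _ b3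
  have b5 := huc _ b3 _ (hKK' hz) (by
    have := dist_le_d1 (pt (r n) (flr (r n) z)) z
    have := hrd.trans (min_le_right δ0 (δ1 / 2))
    linarith)
  rw [Real.dist_eq] at b5
  rw [abs_le] at *
  rw [abs_lt] at b5
  constructor <;> linarith [b4.1, b4.2, b5.1, b5.2]

/-- the set of lattice points whose cell meets a bounded set is finite -/
theorem finite_flr {B : Set ℂ} (hB : Bornology.IsBounded B) (r : ℝ) : (flr r '' B).Finite := by
  obtain ⟨R, hR⟩ := hB.subset_closedBall (0 : ℂ)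
  refine ((Set.finite_Icc (-⌈|r| * |R| + 1⌉) ⌈|r| * |R| + 1⌉).prod
    (Set.finite_Icc (-⌈|r| * |R| + 1⌉) ⌈|r| * |R| + 1⌉)).subset ?_
  rintro _ ⟨z, hz, rfl⟩
  have hz' := hR hz
  rw [Metric.mem_closedBall, dist_zero_right] at hz'
  have h1 := (Complex.abs_re_le_norm z).trans (hz'.trans (le_abs_self R))
  have h2 := (Complex.abs_im_le_norm z).trans (hz'.trans (le_abs_self R))
  have key : ∀ x : ℝ, |x| ≤ |R| → ⌊r * x⌋ ∈ Set.Icc (-⌈|r| * |R| + 1⌉) ⌈|r| * |R| + 1⌉ := by
    intro x hx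
    have h3 : |r * x| ≤ |r| * |R| := by rw [abs_mul]; gcongr
    have h4 := abs_le.1 h3
    have h5 := Int.le_ceil (|r| * |R| + 1)
    have h6 := Int.floor_le (r * x)
    have h7 := Int.lt_floor_add_one (r * x)
    constructor
    · have : (-(⌈|r| * |R| + 1⌉ : ℝ)) ≤ ⌊r * x⌋ := by linarith [h4.1]
      exact_mod_cast this
    · have : (⌊r * x⌋ : ℝ) ≤ ⌈|r| * |R| + 1⌉ := by linarith [h4.2]
      exact_mod_cast this
  exact ⟨key _ h1, key _ h2⟩

/-- no concentration on the complement of compacts of `Ω`, inside `B'` -/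
def NC (U : Filter ι) (r : ι → ℝ) (Ω B' : Set ℂ) (v : ι → ℤ × ℤ → ℝ) : Prop :=
  ∀ η : ℝ, 0 < η → ∃ K : Set ℂ, IsCompact K ∧ K ⊆ Ω ∧ ∀ᶠ n in U, ∀ S : Finset (ℤ × ℤ),
    (∀ f ∈ S, pt (r n) f ∈ B' ∧ pt (r n) f ∉ K) → ∑ f ∈ S, v n f ^ 2 ≤ η * r n ^ 2

theorem exists_compact_exhaustion {Ω : Set ℂ} (hΩ : IsOpen Ω) :
    ∃ K : ℕ → Set ℂ, (∀ m, IsCompact (K m)) ∧ Monotone K ∧ (⋃ m, K m) = Ω := by
  have : LocallyCompactSpace Ω := hΩ.locallyCompactSpace
  have hσ : IsSigmaCompact Ω := isSigmaCompact_iff_sigmaCompactSpace.2 inferInstance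
  obtain ⟨K, hK, hU⟩ := hσ
  refine ⟨Set.accumulate K, fun m => ?_, Set.monotone_accumulate, ?_⟩
  · rw [Set.accumulate_def]
    exact (Set.finite_Iic m).isCompact_biUnion fun i _ => hK i
  · rw [Set.iUnion_accumulate, hU]

/-- squared difference, as an extended nonnegative number -/
def sq2 (x : ℝ) : ENNReal := ENNReal.ofReal (x ^ 2)

theorem sq2_sub_le (a b : ℝ) : sq2 (a - b) ≤ 2 * sq2 a + 2 * sq2 b := by
  unfold sq2
  rw [show (2 : ENNReal) = ENNReal.ofReal 2 by simp, ← ENNReal.ofReal_mul (by norm_num),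
    ← ENNReal.ofReal_mul (by norm_num), ← ENNReal.ofReal_add (by positivity) (by positivity)]
  apply ENNReal.ofReal_le_ofReal
  nlinarith [sq_nonneg (a + b)]

theorem sq2_le_of_abs_le {a t : ℝ} (h : |a| ≤ t) : sq2 a ≤ sq2 t := by
  unfold sq2
  apply ENNReal.ofReal_le_ofReal
  exact sq_le_sq.2 (h.trans (le_abs_self t))

theorem sq2_neg (a : ℝ) : sq2 (-a) = sq2 a := by unfold sq2; rw [neg_sq]

theorem measurable_sq2 : Measurable sq2 := by unfold sq2; fun_prop

/-- (A1) small mass outside compacts -/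
theorem mass_out {U : Filter ι} {r : ι → ℝ} (hr : Tendsto r U atTop) {Ω B B' : Set ℂ}
    (hΩ : IsOpen Ω) (hB : Bornology.IsBounded B) {δ : ℝ} (hδ : 0 < δ)
    (hBB' : ∀ z ∈ B, ∀ w, d1 w z ≤ δ → w ∈ B') {v : ι → ℤ × ℤ → ℝ} (hnc : NC U r Ω B' v)
    {η : ℝ} (hη : 0 < η) : ∃ K : Set ℂ, IsCompact K ∧ K ⊆ Ω ∧
      ∀ᶠ n in U, ∫⁻ z in B \ K, sq2 (v n (flr (r n) z)) ≤ ENNReal.ofReal η := by
  obtain ⟨K, hK, hKΩ, hn⟩ := hnc η hη
  obtain ⟨δ1, hδ1, K', hK', hK'Ω, hKK', hnb⟩ := exists_nbhd hΩ hK hKΩ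
  refine ⟨K', hK', hK'Ω, ?_⟩
  filter_upwards [hn, eventually_two_div_le hr (by positivity : 0 < min δ δ1)] with n hn hrn
  obtain ⟨hrn, hrd⟩ := hrn
  have hfin := finite_flr (hB.subset (Set.sdiff_subset (s := B) (t := K'))) (r n)
  have hS := lintegral_flr_le hrn (A := B \ K') (S := hfin.toFinset)
    (fun z hz => by rw [Set.Finite.mem_toFinset]; exact Set.mem_image_of_mem _ hz)
    (fun f => sq2 (v n f))
  refine hS.trans ?_
  have hsum := hn hfin.toFinset (fun f hf => by
    rw [Set.Finite.mem_toFinset] at hf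
    obtain ⟨z, hz, rfl⟩ := hf
    have a1 := d1_pt_flr (r n) hrn z
    refine ⟨hBB' z hz.1 _ (a1.trans (hrd.trans (min_le_left _ _))), fun hmem => hz.2 ?_⟩
    exact hnb _ hmem z (by rw [d1_comm]; exact a1.trans (hrd.trans (min_le_right _ _))))
  rw [← Finset.sum_mul]
  unfold sq2
  rw [← ENNReal.ofReal_sum_of_nonneg (fun _ _ => sq_nonneg _), ← ENNReal.ofReal_mul
    (Finset.sum_nonneg fun _ _ => sq_nonneg _)]
  apply ENNReal.ofReal_le_ofReal
  rw [mul_one_div, div_le_iff₀ (by positivity)]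
  exact hsum

/-- (A2) Fatou for the limit -/
theorem mass_lim {U : Filter ι} [U.NeBot] {r : ι → ℝ} (hr : Tendsto r U atTop) {Ω B K : Set ℂ}
    (hΩ : IsOpen Ω) (hB : MeasurableSet B) (hK : IsCompact K)
    {v : ι → ℤ × ℤ → ℝ} {F : ℂ → ℝ} (hF : ContinuousOn F Ω) (hv : LocUnif U r Ω v F)
    {η : ENNReal} (h : ∀ᶠ n in U, ∫⁻ z in B \ K, sq2 (v n (flr (r n) z)) ≤ η) :
    ∫⁻ z in B \ K, sq2 (Ω.indicator F z) ≤ 2 * η := by
  have hBK : MeasurableSet (B \ K) := hB.diff hK.measurableSet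
  have h1 : ∫⁻ z in B \ K, sq2 (Ω.indicator F z) = ∫⁻ z in (B \ K) ∩ Ω, sq2 (F z) := by
    rw [← lintegral_inter_add_sdiff (fun z => sq2 (Ω.indicator F z)) (B \ K) hΩ.measurableSet]
    have e1 : ∫⁻ z in (B \ K) ∩ Ω, sq2 (Ω.indicator F z) = ∫⁻ z in (B \ K) ∩ Ω, sq2 (F z) := by
      refine setLIntegral_congr_fun (hBK.inter hΩ.measurableSet) fun z hz => ?_
      rw [Set.indicator_of_mem hz.2]
    have e2 : ∫⁻ z in (B \ K) \ Ω, sq2 (Ω.indicator F z) = 0 := by
      rw [setLIntegral_congr_fun (hBK.diff hΩ.measurableSet) (g := fun _ => 0) (fun z hz => by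
        change sq2 (Ω.indicator F z) = 0
        rw [Set.indicator_of_notMem hz.2]; simp [sq2])]
      simp
    rw [e1, e2, add_zero]
  rw [h1]
  obtain ⟨Km, hKm, hmono, hUn⟩ := exists_compact_exhaustion hΩ
  rw [← hUn, Set.inter_iUnion, setLIntegral_iUnion_of_directed]
  · refine iSup_le fun m => ?_
    -- on a compact set
    have hKmΩ : Km m ⊆ Ω := hUn ▸ Set.subset_iUnion Km m
    have hvol : volume (Km m) ≠ ⊤ := (hKm m).measure_lt_top.ne
    have key : ∀ t : ℝ, 0 < t → ∫⁻ z in B \ K ∩ Km m, sq2 (F z)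
        ≤ 2 * η + 2 * (sq2 t * volume (Km m)) := by
      intro t ht
      obtain ⟨n, hn1, hn2⟩ := (h.and (hv.unif hr hΩ hF (hKm m) hKmΩ ht)).exists
      calc ∫⁻ z in B \ K ∩ Km m, sq2 (F z)
          ≤ ∫⁻ z in B \ K ∩ Km m, (2 * sq2 (v n (flr (r n) z)) + 2 * sq2 t) := by
            refine setLIntegral_mono' (hBK.inter (hKm m).measurableSet) fun z hz => ?_
            have e : F z = v n (flr (r n) z) - (v n (flr (r n) z) - F z) := by ring
            rw [e]
            refine (sq2_sub_le _ _).trans ?_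
            gcongr
            exact sq2_le_of_abs_le (hn2 z hz.2)
        _ = 2 * (∫⁻ z in B \ K ∩ Km m, sq2 (v n (flr (r n) z)))
            + 2 * (sq2 t * volume (B \ K ∩ Km m)) := by
            rw [lintegral_add_right _ measurable_const, lintegral_const_mul _
              (measurable_comp_flr _ (fun f => sq2 (v n f))), setLIntegral_const, mul_assoc]
        _ ≤ 2 * η + 2 * (sq2 t * volume (Km m)) := by
            gcongr
            · exact (lintegral_mono_set Set.inter_subset_left).trans hn1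
            · exact Set.inter_subset_right
    refine ENNReal.le_of_forall_pos_le_add fun ε hε _ => ?_
    obtain ⟨t, ht, htε⟩ : ∃ t : ℝ, 0 < t ∧ 2 * (sq2 t * volume (Km m)) ≤ ε := by
      set V := (volume (Km m)).toReal with hV
      have hV0 : 0 ≤ V := ENNReal.toReal_nonneg
      refine ⟨Real.sqrt (ε / (2 * (V + 1))), by positivity, ?_⟩
      rw [show volume (Km m) = ENNReal.ofReal V from (ENNReal.ofReal_toReal hvol).symm, sq2,
        Real.sq_sqrt (by positivity), ← ENNReal.ofReal_mul (by positivity),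
        show (2 : ENNReal) = ENNReal.ofReal 2 by simp, ← ENNReal.ofReal_mul (by norm_num),
        show (ε : ENNReal) = ENNReal.ofReal (ε : ℝ) by simp]
      apply ENNReal.ofReal_le_ofReal
      have : (2 : ℝ) * (ε / (2 * (V + 1)) * V) = ε * (V / (V + 1)) := by field_simp
      rw [this]
      have h2 : V / (V + 1) ≤ 1 := by rw [div_le_one (by linarith)]; linarith
      have : (0 : ℝ) ≤ ε := ε.2
      nlinarith
    exact (key t ht).trans (by gcongr)
  · intro i j
    exact ⟨max i j, Set.inter_subset_inter_right _ (hmono (le_max_left i j)),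
      Set.inter_subset_inter_right _ (hmono (le_max_right i j))⟩

/-- **strong `L²` convergence** -/
theorem strong {U : Filter ι} [U.NeBot] {r : ι → ℝ} (hr : Tendsto r U atTop) {Ω B B' : Set ℂ}
    (hΩ : IsOpen Ω) (hB : Bornology.IsBounded B) (hBm : MeasurableSet B) {δ : ℝ} (hδ : 0 < δ)
    (hBB' : ∀ z ∈ B, ∀ w, d1 w z ≤ δ → w ∈ B') {v : ι → ℤ × ℤ → ℝ} (hnc : NC U r Ω B' v)
    {F : ℂ → ℝ} (hF : ContinuousOn F Ω) (hv : LocUnif U r Ω v F) :
    Tendsto (fun n => ∫⁻ z in B, sq2 (v n (flr (r n) z) - Ω.indicator F z)) U (𝓝 0) := by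
  rw [ENNReal.tendsto_nhds_zero]
  intro ε hε
  obtain ⟨c, hc0, hcε⟩ := ENNReal.lt_iff_exists_nnreal_btwn.1 hε
  have hc : 0 < (c : ℝ) := by exact_mod_cast ENNReal.coe_pos.1 hc0
  obtain ⟨K, hK, hKΩ, hn1⟩ := mass_out hr hΩ hB hδ hBB' hnc (by positivity : 0 < (c : ℝ) / 12)
  have h2 := mass_lim hr hΩ hBm hK hF hv hn1
  set V := (volume K).toReal with hV
  have hV0 : 0 ≤ V := ENNReal.toReal_nonneg
  have ht : 0 < Real.sqrt ((c : ℝ) / (2 * (V + 1))) := by positivity
  filter_upwards [hn1, hv.unif hr hΩ hF hK hKΩ ht] with n hn1 hn2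
  have hmeas : Measurable fun z => sq2 (v n (flr (r n) z)) :=
    measurable_comp_flr _ (fun f => sq2 (v n f))
  have p1 : ∫⁻ z in B ∩ K, sq2 (v n (flr (r n) z) - Ω.indicator F z) ≤ ENNReal.ofReal (c / 2) := by
    calc ∫⁻ z in B ∩ K, sq2 (v n (flr (r n) z) - Ω.indicator F z)
        ≤ ∫⁻ z in B ∩ K, sq2 (Real.sqrt ((c : ℝ) / (2 * (V + 1)))) := by
          refine setLIntegral_mono' (hBm.inter hK.measurableSet) fun z hz => ?_
          rw [Set.indicator_of_mem (hKΩ hz.2)]
          exact sq2_le_of_abs_le (hn2 z hz.2)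
      _ = sq2 (Real.sqrt ((c : ℝ) / (2 * (V + 1)))) * volume (B ∩ K) := setLIntegral_const _ _
      _ ≤ sq2 (Real.sqrt ((c : ℝ) / (2 * (V + 1)))) * volume K := by
          gcongr
          exact Set.inter_subset_right
      _ ≤ ENNReal.ofReal (c / 2) := by
          rw [show volume K = ENNReal.ofReal V from (ENNReal.ofReal_toReal hK.measure_lt_top.ne).symm,
            sq2, Real.sq_sqrt (by positivity), ← ENNReal.ofReal_mul (by positivity)]
          apply ENNReal.ofReal_le_ofReal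
          have : (c : ℝ) / (2 * (V + 1)) * V = c / 2 * (V / (V + 1)) := by field_simp
          rw [this]
          have h2 : V / (V + 1) ≤ 1 := by rw [div_le_one (by linarith)]; linarith
          nlinarith
  have p2 : ∫⁻ z in B \ K, sq2 (v n (flr (r n) z) - Ω.indicator F z) ≤ ENNReal.ofReal (c / 2) := by
    calc ∫⁻ z in B \ K, sq2 (v n (flr (r n) z) - Ω.indicator F z)
        ≤ ∫⁻ z in B \ K, (2 * sq2 (v n (flr (r n) z)) + 2 * sq2 (Ω.indicator F z)) :=
          lintegral_mono fun z => sq2_sub_le _ _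
      _ ≤ 2 * ENNReal.ofReal (c / 12) + 2 * (2 * ENNReal.ofReal (c / 12)) := by
          rw [lintegral_add_left (hmeas.const_mul 2), lintegral_const_mul _ hmeas,
            lintegral_const_mul' _ _ (by simp)]
          gcongr
      _ = ENNReal.ofReal (c / 2) := by
          rw [show (2 : ENNReal) = ENNReal.ofReal 2 by simp, ← ENNReal.ofReal_mul (by norm_num),
            ← ENNReal.ofReal_mul (by norm_num), ← ENNReal.ofReal_add (by positivity) (by positivity)]
          congr 1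
          ring
  rw [← lintegral_inter_add_sdiff _ B hK.measurableSet]
  refine ((add_le_add p1 p2).trans ?_).trans hcε.le
  rw [← ENNReal.ofReal_add (by positivity) (by positivity)]
  simp

/-- `L²` norm on a set as an extended nonnegative number -/
def nrm (B : Set ℂ) (g : ℂ → ℝ) : ENNReal := (∫⁻ z in B, sq2 (g z)) ^ (1 / 2 : ℝ)

theorem nrm_sq (B : Set ℂ) (g : ℂ → ℝ) : nrm B g ^ 2 = ∫⁻ z in B, sq2 (g z) := by
  unfold nrm
  rw [← ENNReal.rpow_natCast, ← ENNReal.rpow_mul]
  norm_num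

theorem sq2_eq_enorm (x : ℝ) : sq2 x = ‖x‖ₑ ^ (2 : ℝ) := by
  unfold sq2
  rw [show (2 : ℝ) = ((2 : ℕ) : ℝ) by norm_num, ENNReal.rpow_natCast, ← ofReal_norm,
    ← ENNReal.ofReal_pow (norm_nonneg _), Real.norm_eq_abs, sq_abs]

theorem nrm_eq_eLpNorm (B : Set ℂ) (g : ℂ → ℝ) : nrm B g = eLpNorm g 2 (volume.restrict B) := by
  rw [eLpNorm_eq_lintegral_rpow_enorm_toReal (by norm_num) (by norm_num)]
  unfold nrm
  simp only [sq2_eq_enorm, ENNReal.toReal_ofNat]

theorem nrm_mono {B B' : Set ℂ} (h : B ⊆ B') (g : ℂ → ℝ) : nrm B g ≤ nrm B' g := by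
  unfold nrm
  exact ENNReal.rpow_le_rpow (lintegral_mono_set h) (by norm_num)

theorem nrm_add_le {B : Set ℂ} {f g : ℂ → ℝ} (hf : AEMeasurable f (volume.restrict B))
    (hg : AEMeasurable g (volume.restrict B)) :
    nrm B (fun z => f z + g z) ≤ nrm B f + nrm B g := by
  rw [nrm_eq_eLpNorm, nrm_eq_eLpNorm, nrm_eq_eLpNorm]
  exact eLpNorm_add_le hf.aestronglyMeasurable hg.aestronglyMeasurable (by norm_num)

theorem nrm_neg (B : Set ℂ) (g : ℂ → ℝ) : nrm B (fun z => -g z) = nrm B g := by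
  unfold nrm
  simp only [sq2_neg]

theorem nrm_sub_comm (B : Set ℂ) (f g : ℂ → ℝ) :
    nrm B (fun z => f z - g z) = nrm B (fun z => g z - f z) := by
  rw [← nrm_neg]
  simp

/-- a function continuous on an open set, extended by zero, is measurable -/
theorem measurable_indicator {Ω : Set ℂ} (hΩ : IsOpen Ω) {F : ℂ → ℝ} (hF : ContinuousOn F Ω) :
    Measurable (Ω.indicator F) := by
  refine measurable_of_restrict_of_restrict_compl hΩ.measurableSet ?_ ?_
  · have : Ω.domRestrict (Ω.indicator F) = Ω.domRestrict F := by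
      ext z
      exact Set.indicator_of_mem z.2 _
    rw [this]
    exact (continuousOn_iff_continuous_domRestrict.1 hF).measurable
  · have : Ωᶜ.domRestrict (Ω.indicator F) = fun _ => 0 := by
      ext z
      exact Set.indicator_of_notMem z.2 _
    rw [this]
    exact measurable_const

theorem nrm_tendsto_zero {U : Filter ι} {B : Set ℂ} {g : ι → ℂ → ℝ}
    (h : Tendsto (fun n => ∫⁻ z in B, sq2 (g n z)) U (𝓝 0)) :
    Tendsto (fun n => nrm B (g n)) U (𝓝 0) := by
  have := ((ENNReal.continuous_rpow_const (y := (1 / 2 : ℝ))).tendsto 0).comp h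
  rw [ENNReal.zero_rpow_of_pos (by norm_num)] at this
  exact this

/-- convergence of norms, on any measurable subset -/
theorem norm_tendsto {U : Filter ι} {r : ι → ℝ} {A : Set ℂ} {v : ι → ℤ × ℤ → ℝ} {G : ℂ → ℝ}
    (hG : Measurable G)
    (h : Tendsto (fun n => ∫⁻ z in A, sq2 (v n (flr (r n) z) - G z)) U (𝓝 0)) :
    Tendsto (fun n => nrm A fun z => v n (flr (r n) z)) U (𝓝 (nrm A G)) := by
  have h0 := nrm_tendsto_zero h
  have hm : ∀ n, Measurable fun z => v n (flr (r n) z) := fun n => measurable_comp_flr _ (v n)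
  have up : ∀ n, nrm A (fun z => v n (flr (r n) z)) ≤
      nrm A G + nrm A (fun z => v n (flr (r n) z) - G z) := by
    intro n
    have := nrm_add_le (B := A) (f := G) (g := fun z => v n (flr (r n) z) - G z) hG.aemeasurable
      ((hm n).sub hG).aemeasurable
    simpa using this
  have lo : ∀ n, nrm A G ≤ nrm A (fun z => v n (flr (r n) z))
      + nrm A (fun z => v n (flr (r n) z) - G z) := by
    intro n
    have := nrm_add_le (B := A) (f := fun z => v n (flr (r n) z))
      (g := fun z => G z - v n (flr (r n) z)) (hm n).aemeasurable (hG.sub (hm n)).aemeasurable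
    rw [nrm_sub_comm] at this
    simpa using this
  have hup : Tendsto (fun n => nrm A G + nrm A (fun z => v n (flr (r n) z) - G z)) U
      (𝓝 (nrm A G)) := by
    simpa using tendsto_const_nhds.add h0
  have hlo : Tendsto (fun n => nrm A G - nrm A (fun z => v n (flr (r n) z) - G z)) U
      (𝓝 (nrm A G)) := by
    have := ENNReal.Tendsto.sub (tendsto_const_nhds (x := nrm A G)) h0 (Or.inr (by simp))
    simpa using this
  exact tendsto_of_tendsto_of_tendsto_of_le_of_le hlo hup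
    (fun n => tsub_le_iff_right.2 (lo n)) up

end Crest.Agent.R165.Lim2x943
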