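import Crest.Agent.R165.SqK_470

/-!
# R165 / Strip (helper894): `κ(E)` for flat strips

`strip_kap` (ST): `E` = faces of a box of half side `R` about `c` with `|n · (f - c)| ≤ H`,
`|n| = 1`, `1 ≤ H ≤ R`: `κ(E) ≤ 288 H (1 + log (R / H))`.
`strip_kap_at`: the same for a strip `|n · (f - c) - b| ≤ H`.
-/

set_option autoImplicit false

noncomputable section

open Finset

namespace Crest.Agent.R165.Stripx894

open Crest.Agent.R165.SqKx470

/-- a finite set of integers of diameter `≤ D` has at most `D + 1` elements -/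
theorem card_le_of_diam (S : Finset ℤ) {D : ℝ} (hD : 0 ≤ D)
    (h : ∀ x ∈ S, ∀ y ∈ S, ((y : ℝ) - x) ≤ D) : (S.card : ℝ) ≤ D + 1 := by
  rcases S.eq_empty_or_nonempty with rfl | hne
  · simp; linarith
  set m := S.min' hne with hm
  have hsub : S ⊆ Icc m (m + ⌊D⌋) := by
    intro y hy
    rw [mem_Icc]
    refine ⟨S.min'_le y hy, ?_⟩
    have h1 := h m (S.min'_mem hne) y hy
    have h2 : ((y - m : ℤ) : ℝ) ≤ D := by push_cast; exact h1
    have h3 := Int.le_floor.2 h2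
    omega
  have h1 := card_le_card hsub
  rw [Int.card_Icc] at h1
  have h2 : (m + ⌊D⌋ + 1 - m).toNat = (⌊D⌋ + 1).toNat := by congr 1; ring
  rw [h2] at h1
  have h3 : ((⌊D⌋ + 1).toNat : ℤ) = ⌊D⌋ + 1 :=
    Int.toNat_of_nonneg (by have := Int.floor_nonneg.2 hD; omega)
  have h4 : ((⌊D⌋ + 1).toNat : ℝ) = (⌊D⌋ : ℝ) + 1 := by exact_mod_cast h3
  have h5 : (S.card : ℝ) ≤ ((⌊D⌋ + 1).toNat : ℝ) := by exact_mod_cast h1
  rw [h4] at h5
  linarith [Int.floor_le D]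

/-- general strip, `n` not necessarily through the centre -/
theorem strip_kap_at {n1 n2 : ℝ} (hn : n1 ^ 2 + n2 ^ 2 = 1) {c : ℤ × ℤ} {b H R : ℝ} (hH : 1 ≤ H)
    (hR : H ≤ R) {E : Finset (ℤ × ℤ)}
    (hc : ∀ f ∈ E, |((f.1 : ℝ) - (c.1 : ℝ))| ≤ R ∧ |((f.2 : ℝ) - (c.2 : ℝ))| ≤ R)
    (hs : ∀ f ∈ E, |n1 * ((f.1 : ℝ) - c.1) + n2 * ((f.2 : ℝ) - c.2) - b| ≤ H) (w : ℤ × ℤ) :
    kapS E w ≤ 288 * H * (1 + Real.log (R / H)) := by
  have hH0 : 0 < H := by linarith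
  have hR0 : 0 ≤ R := by linarith
  -- the final numerical comparison
  have fin : 36 * (4 * H) * (1 + Real.log (1 + R / (4 * H))) ≤ 288 * H * (1 + Real.log (R / H)) := by
    have h1 : 1 ≤ R / H := by rw [le_div_iff₀ hH0]; linarith
    have h2 : R / (4 * H) ≤ R / H := by
      apply div_le_div_of_nonneg_left hR0 hH0; linarith
    have h3 : 1 + R / (4 * H) ≤ 2 * (R / H) := by linarith
    have h4 := Real.log_le_log (by positivity) h3
    rw [Real.log_mul (by norm_num) (by positivity)] at h4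
    have h5 := Real.log_two_lt_d9
    have h6 : 0 ≤ Real.log (R / H) := Real.log_nonneg h1
    have h7 : 1 + Real.log (1 + R / (4 * H)) ≤ 2 * (1 + Real.log (R / H)) := by linarith
    calc 36 * (4 * H) * (1 + Real.log (1 + R / (4 * H)))
        ≤ 36 * (4 * H) * (2 * (1 + Real.log (R / H))) := by gcongr
      _ = _ := by ring
  -- quantitative separation
  have key : ∀ (a d : ℝ), 1 / 2 ≤ a ^ 2 → |a * d| ≤ 2 * H → d ≤ 3 * H := by
    intro a d ha hd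
    by_contra hc
    push Not at hc
    have h1 : |a * d| ^ 2 ≤ (2 * H) ^ 2 := by
      apply pow_le_pow_left₀ (abs_nonneg _) hd
    rw [sq_abs] at h1
    have h2 : 9 * H ^ 2 < d ^ 2 := by nlinarith
    have h3 : (a * d) ^ 2 = a ^ 2 * d ^ 2 := by ring
    have h4 := mul_le_mul_of_nonneg_right ha (sq_nonneg d)
    nlinarith
  have h34 : (3 * H + 1 : ℝ) ≤ 4 * H := by linarith
  rcases le_or_gt (1 / 2) (n2 ^ 2) with h2 | h2
  · -- columns
    refine (kap_lines₁ (H := 4 * H) (by linarith) hR0 hc ?_ w).trans fin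
    intro i
    have hinj : Set.InjOn (fun f : ℤ × ℤ => f.2) (E.filter fun f => f.1 = i : Finset (ℤ × ℤ)) := by
      intro f hf g hg hfg
      simp only [coe_filter, Set.mem_ofPred_eq] at hf hg
      exact Prod.ext (hf.2.trans hg.2.symm) hfg
    have hcard := card_image_of_injOn hinj
    rw [← hcard]
    refine (card_le_of_diam _ (D := 3 * H) (by linarith) ?_).trans h34
    intro x hx y hy
    rw [mem_image] at hx hy
    obtain ⟨f, hf, rfl⟩ := hx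
    obtain ⟨g, hg, rfl⟩ := hy
    rw [mem_filter] at hf hg
    have e : (g.1 : ℝ) = f.1 := by rw [hf.2, hg.2]
    have hf' := abs_le.mp (hs f hf.1)
    have hg' := abs_le.mp (hs g hg.1)
    rw [e] at hg'
    apply key n2 _ h2
    rw [abs_le]
    constructor <;> nlinarith [hf'.1, hf'.2, hg'.1, hg'.2]
  · -- rows
    have h1 : 1 / 2 ≤ n1 ^ 2 := by linarith
    refine (kap_lines₂ (H := 4 * H) (by linarith) hR0 hc ?_ w).trans fin
    intro i
    have hinj : Set.InjOn (fun f : ℤ × ℤ => f.1) (E.filter fun f => f.2 = i : Finset (ℤ × ℤ)) := by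
      intro f hf g hg hfg
      simp only [coe_filter, Set.mem_ofPred_eq] at hf hg
      exact Prod.ext hfg (hf.2.trans hg.2.symm)
    have hcard := card_image_of_injOn hinj
    rw [← hcard]
    refine (card_le_of_diam _ (D := 3 * H) (by linarith) ?_).trans h34
    intro x hx y hy
    rw [mem_image] at hx hy
    obtain ⟨f, hf, rfl⟩ := hx
    obtain ⟨g, hg, rfl⟩ := hy
    rw [mem_filter] at hf hg
    have e : (g.2 : ℝ) = f.2 := by rw [hf.2, hg.2]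
    have hf' := abs_le.mp (hs f hf.1)
    have hg' := abs_le.mp (hs g hg.1)
    rw [e] at hg'
    apply key n1 _ h1
    rw [abs_le]
    constructor <;> nlinarith [hf'.1, hf'.2, hg'.1, hg'.2]

/-- **(ST)** -/
theorem strip_kap {n1 n2 : ℝ} (hn : n1 ^ 2 + n2 ^ 2 = 1) {c : ℤ × ℤ} {H R : ℝ} (hH : 1 ≤ H)
    (hR : H ≤ R) {E : Finset (ℤ × ℤ)}
    (hc : ∀ f ∈ E, |((f.1 : ℝ) - (c.1 : ℝ))| ≤ R ∧ |((f.2 : ℝ) - (c.2 : ℝ))| ≤ R)
    (hs : ∀ f ∈ E, |n1 * ((f.1 : ℝ) - c.1) + n2 * ((f.2 : ℝ) - c.2)| ≤ H) (w : ℤ × ℤ) :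
    kapS E w ≤ 288 * H * (1 + Real.log (R / H)) :=
  strip_kap_at (b := 0) hn hH hR hc (fun f hf => by rw [sub_zero]; exact hs f hf) w

/-- (ST) literally in the form asked by helper811 -/
theorem strip_sum {n1 n2 : ℝ} (hn : n1 ^ 2 + n2 ^ 2 = 1) {c : ℤ × ℤ} {H R : ℝ} (hH : 1 ≤ H)
    (hR : H ≤ R) {E : Finset (ℤ × ℤ)}
    (hc : ∀ f ∈ E, |((f.1 : ℝ) - (c.1 : ℝ))| ≤ R ∧ |((f.2 : ℝ) - (c.2 : ℝ))| ≤ R)
    (hs : ∀ f ∈ E, |n1 * ((f.1 : ℝ) - c.1) + n2 * ((f.2 : ℝ) - c.2)| ≤ H) (w : ℤ × ℤ) :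
    ∑ f ∈ E, 1 / (1 + |((f.1 : ℝ) - (w.1 : ℝ))| + |((f.2 : ℝ) - (w.2 : ℝ))|)
      ≤ 288 * H * (1 + Real.log (R / H)) :=
  strip_kap hn hH hR hc hs w

/-- thin strips: `H = δ R`: `κ ≤ 1152 √δ R` -/
theorem strip_thin {n1 n2 : ℝ} (hn : n1 ^ 2 + n2 ^ 2 = 1) {c : ℤ × ℤ} {δ R : ℝ} (hδ : 0 < δ)
    (hδ1 : δ ≤ 1) (hH : 1 ≤ δ * R) {E : Finset (ℤ × ℤ)}
    (hc : ∀ f ∈ E, |((f.1 : ℝ) - (c.1 : ℝ))| ≤ R ∧ |((f.2 : ℝ) - (c.2 : ℝ))| ≤ R)
    (hs : ∀ f ∈ E, |n1 * ((f.1 : ℝ) - c.1) + n2 * ((f.2 : ℝ) - c.2)| ≤ δ * R) (w : ℤ × ℤ) :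
    kapS E w ≤ 1152 * Real.sqrt δ * R := by
  have hR0 : 0 < R := by
    by_contra h
    push Not at h
    nlinarith
  have h1 := strip_kap hn hH (by nlinarith) hc hs w
  have h2 := delta_log_le hδ hδ1
  have h3 : R / (δ * R) = 1 / δ := by field_simp
  rw [h3] at h1
  have h4 : Real.log (1 / δ) ≤ Real.log (1 + 1 / δ) := by
    apply Real.log_le_log (by positivity); linarith
  calc kapS E w ≤ 288 * (δ * R) * (1 + Real.log (1 / δ)) := h1
    _ ≤ 288 * (δ * R) * (1 + Real.log (1 + 1 / δ)) := by gcongr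
    _ = 288 * R * (δ * (1 + Real.log (1 + 1 / δ))) := by ring
    _ ≤ 288 * R * (4 * Real.sqrt δ) := by gcongr
    _ = _ := by ring

end Crest.Agent.R165.Stripx894
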