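import Mathlib
import Crest.Agent.R165.EXb2_811
import Crest.Agent.R165.Lim2_943
import Crest.Agent.R165.Strip_894
import Crest.Agent.R165.Sq3_54

/-!
# EX at a plus boundary, part 3: the square trick and the strip bound plugged in; strong limits
(row 165, helper811)
-/

set_option autoImplicit false

noncomputable section

namespace Crest.Agent.R165.EXb3x811

open Finset Filter Topology MeasureTheory Crest.Agent.R165.Tr1x40 Crest.Agent.R165.Tr2x40
  Crest.Agent.R165.Intx811 Crest.Agent.R165.NcCutx811 Crest.Agent.R165.RIfx891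
  Crest.Agent.R165.EXb1x811 Crest.Agent.R165.EXb2x811

open Crest.Agent.R165.PotAx894 (Q mem_Q)
open Crest.Agent.R165.Lim1x943 (pt flr LocBd LocUnif)

/-- the strip bound (helper894) -/
theorem stripInst : StripK 288 := by
  intro n H R E hn hH hR hE v
  have h1 : n.re ^ 2 + n.im ^ 2 = 1 := by
    have := Complex.sq_norm n
    rw [hn, Complex.normSq_apply] at this
    nlinarith
  exact Stripx894.strip_sum h1 (c := 0) hH hR
    (fun f hf => by simpa using ⟨(hE f hf).1, (hE f hf).2.1⟩)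
    (fun f hf => by simpa using (hE f hf).2.2) v

theorem nsq_zero' {p : Fin 4 → ℝ} (h : ∀ a, p a = 0) : nsq p = 0 := by
  unfold nsq
  exact sum_eq_zero fun a _ => by rw [h a]; norm_num

/-- the square trick (helper54) -/
theorem sqInst : SQ 3000000000 := by
  intro w φ K hs hp h1 h2 E κ t ht hκ
  have hz : ∀ f, f ∉ K → φ f = 0 := fun f hf => funext fun h => h1 f hf h
  have e1 : ∑' f, nsq (A w φ f) = ∑ f ∈ K, nsq (A w φ f) := by
    refine tsum_eq_sum fun f hf => nsq_zero' fun a => ?_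
    have h3 := h2 f hf a
    simp only [A, Y]
    rw [hz f hf, mul_assoc, h3]
    fin_cases a <;> simp [A0]
  have e2 : ∑' f, nsq (φ f) = ∑ f ∈ K, nsq (φ f) :=
    tsum_eq_sum fun f hf => nsq_zero' fun a => h1 f hf a
  have hκ' : ∀ z, ∑ f ∈ E, Sqx54.wt (f - z) ≤ κ := by
    intro z
    refine le_trans (le_of_eq ?_) (hκ z)
    refine sum_congr rfl fun f _ => ?_
    simp only [Sqx54.wt, Prod.fst_sub, Prod.snd_sub]
    push_cast
    rfl
  have := Sqx54.sq_t hs hp (I := K) h1 E κ hκ' ht
  rw [e1, e2, div_eq_inv_mul] at this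
  exact this

/-- closed box in the plane -/
def bC (s : ℝ) : Set ℂ := {z | |z.re| ≤ s ∧ |z.im| ≤ s}

theorem isClosed_bC (s : ℝ) : IsClosed (bC s) := by
  have a1 : IsClosed {z : ℂ | |z.re| ≤ s} := isClosed_le (by fun_prop) continuous_const
  have a2 : IsClosed {z : ℂ | |z.im| ≤ s} := isClosed_le (by fun_prop) continuous_const
  exact a1.inter a2

theorem isBounded_bC (s : ℝ) : Bornology.IsBounded (bC s) := by
  rw [Metric.isBounded_iff_subset_closedBall 0]
  refine ⟨2 * s, fun z hz => ?_⟩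
  rw [mem_closedBall_zero_iff]
  have := Complex.norm_le_abs_re_add_abs_im z
  linarith [hz.1, hz.2]

theorem bC_nbhd {s s' : ℝ} {z : ℂ} (hz : z ∈ bC s) {w : ℂ} (hw : Lim1x943.d1 w z ≤ s' - s) :
    w ∈ bC s' := by
  unfold Lim1x943.d1 at hw
  have h1 := abs_nonneg (w.re - z.re)
  have h2 := abs_nonneg (w.im - z.im)
  have h3 : |w.re| ≤ |w.re - z.re| + |z.re| := by
    have := abs_add_le (w.re - z.re) z.re
    simpa using this
  have h4 : |w.im| ≤ |w.im - z.im| + |z.im| := by
    have := abs_add_le (w.im - z.im) z.im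
    simpa using this
  exact ⟨by linarith [hz.1], by linarith [hz.2]⟩

section

variable {U : Ultrafilter ℕ} {n : ℂ} (S : Sq U n)

theorem mem_bx_of_pt {r s : ℝ} (hr : 0 < r) {f : Face} (h : pt r f ∈ bC s) : f ∈ bx 0 (s * r) := by
  rw [mem_bx_real]
  simp only [Prod.fst_zero, Prod.snd_zero, Int.cast_zero, sub_zero]
  have h1 := h.1
  have h2 := h.2
  rw [Lim1x943.pt_re, abs_div, abs_of_pos hr, div_le_iff₀ hr] at h1
  rw [Lim1x943.pt_im, abs_div, abs_of_pos hr, div_le_iff₀ hr] at h2
  exact ⟨h1, h2⟩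

/-- NC in the form of `Lim2_943` -/
theorem nc (a : Fin 4) {s : ℝ} (hs0 : 0 < s) (hs : s < 1) :
    Lim2x943.NC U S.r (Om n) (bC s) (v S a) := by
  classical
  intro η hη
  obtain ⟨K, hK, hKΩ, hev⟩ := nc_tail (by norm_num) (by norm_num) sqInst stripInst S hs0 hs hη
  refine ⟨K, hK, hKΩ, ?_⟩
  filter_upwards [hev, S.hr.eventually_gt_atTop 0] with k hk hr T hT
  have h1 : ∑ f ∈ T, S.φ k f a ^ 2 ≤ η := by
    refine le_trans ?_ hk
    calc ∑ f ∈ T, S.φ k f a ^ 2 ≤ ∑ f ∈ T, nsq (S.φ k f) := by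
          refine sum_le_sum fun f _ => ?_
          exact single_le_sum (f := fun b => S.φ k f b ^ 2) (fun _ _ => sq_nonneg _) (mem_univ a)
      _ ≤ _ := by
          refine sum_le_sum_of_subset_of_nonneg ?_ fun _ _ _ => nsq_nonneg _
          intro f hf
          rw [mem_filter]
          exact ⟨mem_bx_of_pt hr (hT f hf).1, (hT f hf).2⟩
  have h2 : ∑ f ∈ T, v S a k f ^ 2 = (∑ f ∈ T, S.φ k f a ^ 2) * S.r k ^ 2 := by
    rw [sum_mul]
    refine sum_congr rfl fun f _ => ?_
    simp only [v]; ring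
  rw [h2]
  exact mul_le_mul_of_nonneg_right h1 (by positivity)

/-- strong convergence of every component on closed boxes of side `< 1`, given the locally
uniform limit -/
theorem strongC {a : Fin 4} {F : ℂ → ℝ} (hF : ContinuousOn F (Om n))
    (hv : LocUnif U S.r (Om n) (v S a) F) {s : ℝ} (hs0 : 0 < s) (hs : s < 1) :
    Tendsto (fun k => ∫⁻ z in bC s, Lim2x943.sq2 (v S a k (flr (S.r k) z) - (Om n).indicator F z))
      U (𝓝 0) := by
  have h1 : s < (s + 1) / 2 := by linarith
  have h2 : (s + 1) / 2 < 1 := by linarith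
  exact Lim2x943.strong S.hr (isOpen_Om n) (isBounded_bC s) (isClosed_bC s).measurableSet
    (δ := (s + 1) / 2 - s) (by linarith) (fun z hz w hw => bC_nbhd hz hw)
    (nc S a (by linarith) h2) hF hv

end

end Crest.Agent.R165.EXb3x811
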