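import Crest.Agent.R165.ModeS_841
import Crest.Agent.R165.BxA_797
import Crest.Agent.R165.EXb3_811
import Crest.Agent.R165.EXb1_811

/-!
# Row 165 (S0250), block R: sampling of the modes, literal targets of 797 and 811 (helper841)
-/

set_option autoImplicit false

noncomputable section

namespace Crest.Agent.R165.ModeTx841

open Filter Topology MeasureTheory
open Crest.Agent.R165.RIfx891

/-- target of helper797 -/
theorem modeLim : Bxx797.ModeLim 256 where
  lim1 U r hr h := ModeSx841.modeBr_locUnif hr h
  lim2 U r hr h := ModeSx841.modeBr_locUnif2 hr h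
  mass t ht := by
    refine (ModeSx841.NB_modeBr_sq_le ModeSx841.gauge_one 0 (by linarith)).trans ?_
    linarith

/-- target of helper811 -/
theorem modeB_lim {U : Filter ℕ} {r : ℕ → ℝ} (hr : Tendsto r U atTop) {nn cc : ℕ → ℂ}
    {n c : ℂ} (hn : Tendsto nn U (𝓝 n)) (hc : Tendsto cc U (𝓝 c)) (h1 : ‖n‖ = 1) (s : ℝ)
    (a : Fin 4) :
    Tendsto (fun k => ∫⁻ z in EXb3x811.bC s,
      Lim2x943.sq2 (modeB (fun _ => 1) 0 (nn k) (cc k) (Lim1x943.flr (r k) z) a
        - Set.indicator {z | EXb1x811.lin n z < 0} (fun _ => lv c a) z)) U (𝓝 0) := by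
  rcases U.eq_or_neBot with rfl | hU
  · exact tendsto_bot
  have hb : Bornology.IsBounded (EXb3x811.bC s) := by
    refine (Metric.isBounded_closedBall (x := (0 : ℂ)) (r := |s| + |s|)).subset fun z hz => ?_
    rw [Metric.mem_closedBall, dist_zero_right]
    refine (Complex.norm_le_abs_re_add_abs_im z).trans ?_
    have := hz.1.trans (le_abs_self s)
    have := hz.2.trans (le_abs_self s)
    linarith
  have hn0 : n ≠ 0 := fun h => by rw [h, norm_zero] at h1; exact zero_ne_one h1
  have key := ModeSx841.modeB_strong hr hn hc hn0 a hb (EXb3x811.isClosed_bC s).measurableSet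
  refine key.congr fun k => lintegral_congr fun z => ?_
  congr 2

end Crest.Agent.R165.ModeTx841
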