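import Crest.Agent.R165.BxF_797
import Crest.Agent.R165.BxT_936
import Crest.Agent.R165.EXbr0_936
import Crest.Agent.R165.Sq4_54
import Crest.Agent.R165.ModeT_841

/-!
# Row 165 (S0250), block R: LEAF EX AT A BRANCH VERTEX (helper797)

`exbr : ∃ C, 0 ≤ C ∧ RIfx891.EXbr C`, unconditional.
With the limits of helper943/797, the square trick of helper54 (no concentration), the sampling of
the mode of helper841 and the reduction and transfer lemmas of helper936.
-/

set_option autoImplicit false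

noncomputable section

namespace Crest.Agent.R165.Bxx797

open Finset Filter Topology
open Crest.Agent.R165.Tr1x40 hiding pt
open Crest.Agent.R165.Campx891 (q q_pos q_le_one q_pow_le)
open Crest.Agent.R165.RIfx891

theorem isPlusOn_w0 (x : Face) (r : ℝ) : IsPlusOn w0 x r := fun f _ h => Or.inl (w0_sq f h)

/-- no concentration at a branch vertex -/
theorem ncbr : ∃ K : ℝ, 0 ≤ K ∧ NCbr K := by
  refine ⟨136 * 3000000000 + 4, by norm_num, ?_⟩
  intro e ρ t ht htρ he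
  have hρ0 : 0 < ρ := by linarith
  have hmono : NB 0 t e ^ 2 ≤ NB 0 ρ e ^ 2 :=
    pow_le_pow_left₀ (apply_nonneg _ _) (NB_mono 0 htρ e) 2
  have hN : 0 ≤ NB 0 ρ e ^ 2 := sq_nonneg _
  have htr : 0 ≤ t / ρ := by positivity
  by_cases h1 : 4 * t ≤ ρ
  · have h2 := EXbr0x936.ball_sq (C := 3000000000) (by norm_num) Sqx54.sq811 sym_w0 ht
      (by linarith : 2 * t ≤ ρ) (by linarith) (isPlusOn_w0 0 ρ) he
    refine h2.trans (mul_le_mul_of_nonneg_right ?_ hN)
    linarith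
  · push Not at h1
    have h2 : 1 ≤ 4 * (t / ρ) := by
      rw [← mul_div_assoc, one_le_div hρ0]; exact h1.le
    calc NB 0 t e ^ 2 ≤ 1 * NB 0 ρ e ^ 2 := by rw [one_mul]; exact hmono
      _ ≤ (136 * 3000000000 + 4) * (t / ρ) * NB 0 ρ e ^ 2 :=
          mul_le_mul_of_nonneg_right (by linarith) hN

theorem norm_sq_le_of {z a : ℂ} {C τ : ℝ} (h : ‖a‖ ≤ LL C * Real.sqrt ‖z‖)
    (hz : ‖z‖ ≤ 2 * τ) : ‖a‖ ^ 2 ≤ 2 * LL C ^ 2 * τ := by
  have h1 : ‖a‖ ^ 2 ≤ (LL C * Real.sqrt ‖z‖) ^ 2 := pow_le_pow_left₀ (norm_nonneg _) h 2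
  rw [mul_pow, Real.sq_sqrt (norm_nonneg _)] at h1
  nlinarith [sq_nonneg (LL C)]

/-- **EX at a branch vertex, sequence form** -/
theorem exbrSeq : ∃ C : ℝ, 0 ≤ C ∧ EXbrSeq C := by
  obtain ⟨K, hK0, hK⟩ := ncbr
  have hq := q_pos
  set C0 : ℝ := 8 * 2700 ^ 2 * K with hC0
  have hC00 : 0 ≤ C0 := by positivity
  set B : ℝ := 2 * LL C0 ^ 2 with hB
  have hB0 : 0 ≤ B := by positivity
  refine ⟨Real.sqrt K + 6 * Real.sqrt B + 32, by positivity, ?_⟩
  intro U r hr e hex hnorm m η hη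
  have hsK := Real.sqrt_nonneg K
  have hsB := Real.sqrt_nonneg B
  constructor
  · filter_upwards [hex, hnorm, hr.eventually_gt_atTop 0,
      hr.eventually_ge_atTop (1 / q ^ (2 * m))] with n he hn hr0 hr1
    have ht1 : 1 ≤ r n * q ^ (2 * m) := by
      rw [div_le_iff₀ (by positivity)] at hr1; exact hr1
    have ht2 : r n * q ^ (2 * m) ≤ r n :=
      mul_le_of_le_one_right hr0.le (pow_le_one₀ hq.le q_le_one)
    have h1 := hK (e n) (r n) (r n * q ^ (2 * m)) ht1 ht2 he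
    have h2 : NB 0 (r n) (e n) ^ 2 ≤ 1 := by
      have := apply_nonneg (NB 0 (r n)) (e n)
      nlinarith
    have e1 : r n * q ^ (2 * m) / r n = (q ^ m) ^ 2 := by
      rw [mul_div_assoc, mul_comm, div_mul_cancel₀ _ hr0.ne', ← pow_mul, mul_comm]
    rw [e1] at h1
    have h3 : NB 0 (r n * q ^ (2 * m)) (e n) ^ 2 ≤ (Real.sqrt K * q ^ m) ^ 2 := by
      rw [mul_pow, Real.sq_sqrt hK0]
      refine h1.trans ?_
      have : 0 ≤ K * (q ^ m) ^ 2 := by positivity
      nlinarith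
    have h4 : NB 0 (r n * q ^ (2 * m)) (e n) ≤ Real.sqrt K * q ^ m :=
      (abs_le_of_sq_le_sq' h3 (by positivity)).2
    have h5 : 0 ≤ (6 * Real.sqrt B + 32) * q ^ m := by positivity
    nlinarith
  · by_cases hm : m ≤ 3
    · filter_upwards [hnorm, hr.eventually_gt_atTop 0] with n hn hr0
      refine ⟨0, ?_⟩
      rw [zero_smul, sub_zero]
      have ht2 : r n * q ^ (2 * m) ≤ r n :=
        mul_le_of_le_one_right hr0.le (pow_le_one₀ hq.le q_le_one)
      have h1 := (NB_mono 0 ht2 (e n)).trans hn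
      have h2 : q ^ 10 ≤ q ^ (3 * m) := q_pow_le (by omega)
      have h3 : q ^ 10 = 1 / 32 := by
        have : q ^ 10 = (q ^ 2) ^ 5 := by ring
        rw [this, EXbr0x936.q_sq]; norm_num
      have h4 : 0 ≤ (Real.sqrt K + 6 * Real.sqrt B) * q ^ (3 * m) := by positivity
      nlinarith
    · push Not at hm
      have hτ : q ^ (2 * m) < 1 / 8 := by
        have h2 : q ^ (2 * m) ≤ q ^ 8 := q_pow_le (by omega)
        have h3 : q ^ 8 = 1 / 16 := by
          have : q ^ 8 = (q ^ 2) ^ 4 := by ring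
          rw [this, EXbr0x936.q_sq]; norm_num
        linarith
      obtain ⟨F1, F2, H⟩ := exists_charts hr hex hnorm hK0 hK
      obtain ⟨g, -, h1, h2⟩ := H.exists_g hC00
      have hg : g.im = 0 := H.g_real hr hex h1 h2
      have hg' : ((g.re : ℝ) : ℂ) = g := Complex.ext (by simp) (by simp [hg])
      have hnz : ∀ z : ℂ, |z.re| ≤ q ^ (2 * m) → |z.im| ≤ q ^ (2 * m) →
          ‖z‖ ≤ 2 * q ^ (2 * m) := by
        intro z a b
        have := Complex.norm_le_abs_re_add_abs_im z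
        linarith
      have hb : ∀ z : ℂ, |z.re| ≤ q ^ (2 * m) → |z.im| ≤ q ^ (2 * m) →
          z ∈ Metric.ball (0 : ℂ) 1 := by
        intro z a b
        rw [mem_ball_zero_iff]
        have := hnz z a b
        linarith
      have NC : ∀ᶠ n in (U : Filter ℕ), ∀ t, 1 ≤ t → 2 * t ≤ r n →
          NB 0 t (e n) ^ 2 ≤ K * (t / r n) := by
        filter_upwards [hex, hnorm, hr.eventually_gt_atTop 0] with n he hn hr0 t ht1 ht2
        have a1 := hK (e n) (r n) t ht1 (by linarith) he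
        have a2 : NB 0 (r n) (e n) ^ 2 ≤ 1 := by
          have := apply_nonneg (NB 0 (r n)) (e n)
          nlinarith
        have a3 : 0 ≤ K * (t / r n) := by positivity
        nlinarith
      have key := BxTx936.one_mode (m := m) (B := B) (P0 := g.re) (K := K) (K' := 256) hr hB0
        (Ω1 := Ob1) (Ω2 := Ob2) (F1 := F1) (F2 := F2)
        (fun z hz a b => ⟨hz, hb z a b⟩) (fun z hz a b => ⟨hz, hb z a b⟩) H.lim1 H.lim2
        ModeTx841.modeLim hK0 (by norm_num) NC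
        (fun z hz a b => by
          rw [hg']
          exact norm_sq_le_of (h1 z ⟨hz, hb z a b⟩ (by have := hnz z a b; linarith)) (hnz z a b))
        (fun z hz a b => by
          rw [hg']
          exact norm_sq_le_of (h2 z ⟨hz, hb z a b⟩ (by have := hnz z a b; linarith)) (hnz z a b))
        hη
      filter_upwards [key] with n hn
      obtain ⟨κ, hκ⟩ := hn
      refine ⟨κ, hκ.trans ?_⟩
      have h4 : 0 ≤ (Real.sqrt K + 32) * q ^ (3 * m) := by positivity
      nlinarith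

/-- **LEAF EX, branch vertex** -/
theorem exbr : ∃ C : ℝ, 0 ≤ C ∧ EXbr C := by
  obtain ⟨C, hC, h⟩ := exbrSeq
  exact ⟨C, hC, EXbr0x936.EXbr_of_seq hC h⟩

/-- **Reg1/Reg2 at a branch vertex**, unconditional -/
theorem regBr_all : ∃ C : ℝ, 0 ≤ C ∧ ∀ J : ℕ, ∃ r0 : ℝ,
    ∀ (w : Fld) (s : Face → ℝ) (v : Face) (ρ : ℝ), r0 ≤ ρ → BranchOn w s v ρ →
      ∀ f : Fld, NB v ρ f ≤ 1 → NB v ρ (A w f) ≤ 1 / ρ → NB v ρ (A w (A w f)) ≤ 1 / ρ ^ 2 →
        NB v (ρ * q ^ (2 * J)) f ≤ C * q ^ J ∧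
        ∃ κ : ℝ, NB v (ρ * q ^ (2 * J)) (f - κ • modeBr s v) ≤ C * q ^ (2 * J) := by
  obtain ⟨C, hC, h⟩ := exbr
  refine ⟨Campx891.K2 C 110000000000, ?_, regBr hC (by norm_num) Sqx54.gapU h⟩
  unfold Campx891.K2 Campx891.K1; positivity

end Crest.Agent.R165.Bxx797
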