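import Mathlib
import Crest.Agent.R165.BxF_797
import Crest.Agent.R165.BxT_936
import Crest.Agent.R165.EXbr0_936
import Crest.Agent.R165.ModeT_841
import Crest.Agent.R165.Sq4_54

/-!
# EX at a branch vertex: final wiring (row 165; helper936)

* `ncbr` : `NCbr K` from the square trick
* `RealG` : reality of the regular part at the vertex (`realG`, from `BxF_797`)
* `exbrSeq_of` : `EXbrSeq` from `RealG`
* `exbr` : `∃ C, 0 ≤ C ∧ EXbr C`
-/

set_option autoImplicit false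
set_option linter.unusedVariables false

noncomputable section

namespace Crest.Agent.R165.BxWx936

open Finset Filter Topology
open Crest.Agent.R165.Tr1x40
open Crest.Agent.R165.RIfx891
open Crest.Agent.R165.Campx891 (q q_pos q_sq q_le_one)
open Crest.Agent.R165.Lim1x943 (pt LocUnif)
open Crest.Agent.R165.Bxx797

/-- every half-edge weight of `w0` is `± xc` -/
theorem w0_sq (f : Face) (h : Fin 4) : w0 f h ^ 2 = xc ^ 2 := by
  unfold w0
  rw [mul_pow, rayw_sq, one_mul]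

theorem w0_plus (x : Face) (r : ℝ) : IsPlusOn w0 x r := fun f _ h => Or.inl (w0_sq f h)

theorem w0_sym : Sym w0 := by
  intro f h
  fin_cases h
  · show rayw 0 (nb f 0) 2 * xc = rayw 0 f 0 * xc
    congr 1
    by_cases c : f.2 = 0 ∧ 0 ≤ f.1
    · rw [rayw_S c, rayw_N]
      rw [nb_zero]; exact ⟨by simp only; omega, c.2⟩
    · rw [rayw_S' c, rayw_N']
      rw [nb_zero]; simp only; intro h; exact c ⟨by omega, h.2⟩
  · show rayw 0 (nb f 1) 3 * xc = rayw 0 f 1 * xc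
    rw [rayw_E, rayw_W]
  · show rayw 0 (nb f 2) 0 * xc = rayw 0 f 2 * xc
    congr 1
    by_cases c : f.2 + 1 = 0 ∧ 0 ≤ f.1
    · rw [rayw_N c, rayw_S]
      rw [nb_two]; exact ⟨by simp only; omega, c.2⟩
    · rw [rayw_N' c, rayw_S']
      rw [nb_two]; simp only; intro h; exact c ⟨by omega, h.2⟩
  · show rayw 0 (nb f 3) 1 * xc = rayw 0 f 3 * xc
    rw [rayw_E, rayw_W]

/-- no concentration at the vertex -/
theorem ncbr {C : ℝ} (hC : 0 ≤ C) (hSQ : NcCutx811.SQ C) : NCbr (max 4 (136 * C)) := by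
  intro e ρ t ht htρ he
  set K := max 4 (136 * C) with hK
  have hK4 : 4 ≤ K := le_max_left _ _
  have hρ : 0 < ρ := by linarith
  have hN : 0 ≤ NB 0 ρ e ^ 2 := sq_nonneg _
  by_cases h : 4 ≤ ρ ∧ 2 * t ≤ ρ
  · have h1 := EXbr0x936.ball_sq hC hSQ w0_sym ht h.2 h.1 (w0_plus 0 ρ) he
    refine h1.trans ?_
    have : 136 * C ≤ K := le_max_right _ _
    gcongr
  · have h1 : NB 0 t e ≤ NB 0 ρ e := NB_mono _ htρ _
    have h2 : NB 0 t e ^ 2 ≤ NB 0 ρ e ^ 2 := pow_le_pow_left₀ (apply_nonneg _ _) h1 2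
    refine h2.trans ?_
    have h3 : 1 ≤ K * (t / ρ) := by
      rw [← mul_div_assoc, le_div_iff₀ hρ, one_mul]
      by_contra hc
      push Not at hc
      apply h
      constructor <;> nlinarith
    nlinarith

/-- reality of the regular part at the vertex -/
def RealG (C : ℝ) : Prop :=
  ∀ (U : Ultrafilter ℕ) (r : ℕ → ℝ), Tendsto r (U : Filter ℕ) atTop → ∀ e : ℕ → Fld,
    (∀ᶠ k in (U : Filter ℕ), ∀ f ∈ bx 0 (r k), A w0 (e k) f = 0) →
    (∀ᶠ k in (U : Filter ℕ), NB 0 (r k) (e k) ≤ 1) →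
    ∀ F1 F2 : ℂ → ℂ, Charts U r e C F1 F2 → ∀ g : ℂ,
      (∀ z ∈ Ob1, ‖z‖ < 1 / 4 → ‖F1 z - g * m1 z‖ ≤ LL C * Real.sqrt ‖z‖) →
      (∀ z ∈ Ob2, ‖z‖ < 1 / 4 → ‖F2 z - g * m2 z‖ ≤ LL C * Real.sqrt ‖z‖) →
      g.im = 0

theorem q_pow_two (m : ℕ) : q ^ (2 * m) = (1 / 2) ^ m := by
  rw [pow_mul, q_sq]

theorem norm_lt_quarter {m : ℕ} (hm : 3 ≤ m) {z : ℂ} (h1 : |z.re| ≤ q ^ (2 * m))
    (h2 : |z.im| ≤ q ^ (2 * m)) : ‖z‖ < 1 / 4 := by
  have h3 : q ^ (2 * m) ≤ 1 / 8 := by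
    rw [q_pow_two]
    calc (1 / 2 : ℝ) ^ m ≤ (1 / 2) ^ 3 := pow_le_pow_of_le_one (by norm_num) (by norm_num) hm
      _ = 1 / 8 := by norm_num
  have h4 : ‖z‖ ^ 2 = z.re ^ 2 + z.im ^ 2 := by
    rw [← Complex.normSq_eq_norm_sq, Complex.normSq_apply]; ring
  have h5 : z.re ^ 2 ≤ (1 / 8) ^ 2 := sq_le_sq' (by linarith [(abs_le.1 h1).1])
    (by linarith [(abs_le.1 h1).2])
  have h6 : z.im ^ 2 ≤ (1 / 8) ^ 2 := sq_le_sq' (by linarith [(abs_le.1 h2).1])
    (by linarith [(abs_le.1 h2).2])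
  nlinarith [norm_nonneg z]

theorem norm_le_two {τ : ℝ} {z : ℂ} (h1 : |z.re| ≤ τ) (h2 : |z.im| ≤ τ) : ‖z‖ ≤ 2 * τ := by
  have := Complex.norm_le_abs_re_add_abs_im z
  linarith

/-- the constant -/
def CC (K : ℝ) : ℝ := max (Real.sqrt K) (max 8 (6 * Real.sqrt (2 * LL (8 * 2700 ^ 2 * K) ^ 2)))

/-- **`EXbrSeq` from the reality of the regular part** -/
theorem exbrSeq_of {K K' : ℝ} (hK0 : 0 ≤ K) (hK : NCbr K) (hK'0 : 0 ≤ K') (M : ModeLim K')
    (hR : RealG (8 * 2700 ^ 2 * K)) : EXbrSeq (CC K) := by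
  intro U r hr e hex hnorm m η hη
  have hq := q_pos
  have hC1 : Real.sqrt K ≤ CC K := le_max_left _ _
  have hC2 : 8 ≤ CC K := (le_max_left _ _).trans (le_max_right _ _)
  have hC3 : 6 * Real.sqrt (2 * LL (8 * 2700 ^ 2 * K) ^ 2) ≤ CC K :=
    (le_max_right _ _).trans (le_max_right _ _)
  have hqm1 : q ^ (2 * m) ≤ 1 := pow_le_one₀ hq.le q_le_one
  have hqpos : 0 < q ^ (2 * m) := by positivity
  have hNC : ∀ᶠ n in (U : Filter ℕ), ∀ t, 1 ≤ t → t ≤ r n → NB 0 t (e n) ^ 2 ≤ K * (t / r n) := by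
    filter_upwards [hex, hnorm, hr.eventually_gt_atTop 0] with n h1 h2 h3 t ht htr
    have h4 := hK (e n) (r n) t ht htr h1
    have h5 : NB 0 (r n) (e n) ^ 2 ≤ 1 := pow_le_one₀ (apply_nonneg _ _) h2
    have h6 : 0 ≤ K * (t / r n) := by positivity
    nlinarith
  refine ⟨?_, ?_⟩
  · filter_upwards [hNC, hr.eventually_ge_atTop (1 / q ^ (2 * m)), hr.eventually_gt_atTop 0]
      with n h1 h2 h3
    have h4 : 1 ≤ r n * q ^ (2 * m) := by
      rw [div_le_iff₀ hqpos] at h2; exact h2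
    have h5 : r n * q ^ (2 * m) ≤ r n := by nlinarith
    have h6 := h1 _ h4 h5
    have e1 : r n * q ^ (2 * m) / r n = (q ^ m) ^ 2 := by
      rw [mul_comm, mul_div_assoc, div_self h3.ne', mul_one, ← pow_mul, mul_comm]
    rw [e1] at h6
    have h7 : NB 0 (r n * q ^ (2 * m)) (e n) ≤ Real.sqrt K * q ^ m := by
      refine le_of_sq_le_sq ?_ (by positivity)
      rw [mul_pow, Real.sq_sqrt hK0]; exact h6
    have h8 : Real.sqrt K * q ^ m ≤ CC K * q ^ m := by gcongr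
    linarith
  · rcases lt_or_ge m 3 with hm | hm
    · filter_upwards [hnorm, hr.eventually_gt_atTop 0] with n h1 h3
      refine ⟨0, ?_⟩
      rw [zero_smul, sub_zero]
      have h5 : r n * q ^ (2 * m) ≤ r n := by nlinarith
      have h6 : NB 0 (r n * q ^ (2 * m)) (e n) ≤ NB 0 (r n) (e n) := NB_mono _ h5 _
      have h7 : (1 : ℝ) / 8 ≤ q ^ (3 * m) := by
        calc (1 : ℝ) / 8 = q ^ (2 * 3) := by
              rw [q_pow_two]; norm_num
          _ ≤ q ^ (3 * m) := pow_le_pow_of_le_one hq.le q_le_one (by omega)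
      have h8 : 1 ≤ CC K * q ^ (3 * m) := by nlinarith
      linarith
    · obtain ⟨F1, F2, H⟩ := exists_charts hr hex hnorm hK0 hK
      have hCC : 0 ≤ 8 * 2700 ^ 2 * K := by positivity
      obtain ⟨g, hg, hg1, hg2⟩ := H.exists_g hCC
      have hgi := hR U r hr e hex hnorm F1 F2 H g hg1 hg2
      have hgr : ((g.re : ℝ) : ℂ) = g := Complex.ext rfl (by simp [hgi])
      have hLL : 0 ≤ LL (8 * 2700 ^ 2 * K) := by unfold LL; positivity
      have hbd : ∀ z : ℂ, |z.re| ≤ q ^ (2 * m) → |z.im| ≤ q ^ (2 * m) → ∀ x : ℝ, 0 ≤ x →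
          x ≤ LL (8 * 2700 ^ 2 * K) * Real.sqrt ‖z‖ →
          x ^ 2 ≤ 2 * LL (8 * 2700 ^ 2 * K) ^ 2 * q ^ (2 * m) := by
        intro z h1 h2 x hx0 hx
        have h3 : x ^ 2 ≤ (LL (8 * 2700 ^ 2 * K) * Real.sqrt ‖z‖) ^ 2 :=
          pow_le_pow_left₀ hx0 hx 2
        rw [mul_pow, Real.sq_sqrt (norm_nonneg _)] at h3
        have h4 := norm_le_two h1 h2
        nlinarith [sq_nonneg (LL (8 * 2700 ^ 2 * K))]
      have key := BxTx936.one_mode (m := m) (P0 := g.re) hr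
        (B := 2 * LL (8 * 2700 ^ 2 * K) ^ 2) (by positivity)
        (Ω1 := Ob1) (Ω2 := Ob2)
        (fun z hz h1 h2 => ⟨hz, by
          rw [mem_ball_zero_iff]; linarith [norm_lt_quarter hm h1 h2]⟩)
        (fun z hz h1 h2 => ⟨hz, by
          rw [mem_ball_zero_iff]; linarith [norm_lt_quarter hm h1 h2]⟩)
        H.lim1 H.lim2 M hK0 hK'0
        (by
          filter_upwards [hNC, hr.eventually_gt_atTop 0] with n h1 h2 t ht htr
          exact h1 t ht (by linarith))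
        (fun z hz h1 h2 => by
          have h3 := norm_lt_quarter hm h1 h2
          have h4 := hg1 z ⟨hz, by rw [mem_ball_zero_iff]; linarith⟩ h3
          rw [hgr]
          exact hbd z h1 h2 _ (norm_nonneg _) h4)
        (fun z hz h1 h2 => by
          have h3 := norm_lt_quarter hm h1 h2
          have h4 := hg2 z ⟨hz, by rw [mem_ball_zero_iff]; linarith⟩ h3
          rw [hgr]
          exact hbd z h1 h2 _ (norm_nonneg _) h4)
        hη
      filter_upwards [key] with n hn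
      obtain ⟨κ, hκ⟩ := hn
      refine ⟨κ, hκ.trans ?_⟩
      have : 6 * Real.sqrt (2 * LL (8 * 2700 ^ 2 * K) ^ 2) * q ^ (3 * m) ≤
          CC K * q ^ (3 * m) := by gcongr
      linarith

/-- reality of the regular part (helper797) -/
theorem realG (C : ℝ) : RealG C :=
  fun _ _ hr _ hex _ _ _ H _ h1 h2 => H.g_real hr hex h1 h2

/-- **`EXbrSeq`** -/
theorem exbrSeq : ∃ C : ℝ, 0 ≤ C ∧ EXbrSeq C := by
  have h1 := ncbr (C := 3000000000) (by norm_num) Sqx54.sq811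
  have h2 := exbrSeq_of (K := max 4 (136 * 3000000000)) (by positivity) h1 (by norm_num)
    ModeTx841.modeLim (realG _)
  exact ⟨_, by unfold CC; positivity, h2⟩

/-- **EX at a branch vertex** -/
theorem exbr : ∃ C : ℝ, 0 ≤ C ∧ EXbr C := by
  obtain ⟨C, h3, h2⟩ := exbrSeq
  exact ⟨C, h3, EXbr0x936.EXbr_of_seq h3 h2⟩


end Crest.Agent.R165.BxWx936
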