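import Mathlib
import Crest.Prelude.Def_PerturbedIsing

/-!
# Row 165 (S0250): centring algebra (helper541)

Moments of spins times bonds centred by CONSTANTS, and the expansion of the own-state-centred
correlations of the statement (`domainMixedCorr`, `latticeMixedCorr`) in them.
-/

set_option autoImplicit false

noncomputable section

open Filter Topology Finset
open Crest.ProbabilityR.IsingModel

namespace Crest.Agent.R165.Centx541

/-- increasing enumeration of a subset of `Fin m` -/
def en {m : ℕ} (S : Finset (Fin m)) (i : Fin S.card) : Fin m := S.orderEmbOfFin rfl i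

theorem en_injective {m : ℕ} (S : Finset (Fin m)) : Function.Injective (en S) :=
  (S.orderEmbOfFin rfl).injective

theorem prod_en {m : ℕ} {M : Type*} [CommMonoid M] (S : Finset (Fin m)) (g : Fin m → M) :
    ∏ i : Fin S.card, g (en S i) = ∏ k ∈ S, g k := by
  have h := Finset.map_orderEmbOfFin_univ S (k := S.card) rfl
  conv_rhs => rw [← h]
  rw [Finset.prod_map]
  rfl

/-- abstract centring expansion -/
theorem centre_abstract {Ω : Type*} (E : (Ω → ℝ) →ₗ[ℝ] ℝ) (X : Ω → ℝ) {m : ℕ}
    (Y : Fin m → Ω → ℝ) (d : Fin m → ℝ) :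
    E (fun s => X s * ∏ k, (Y k s - d k)) =
      ∑ S : Finset (Fin m), E (fun s => X s * ∏ i : Fin S.card, Y (en S i) s) *
        ∏ k ∈ Sᶜ, (-d k) := by
  have h1 : (fun s => X s * ∏ k, (Y k s - d k)) =
      ∑ S : Finset (Fin m), (∏ k ∈ Sᶜ, (-d k)) • (fun s => X s * ∏ i : Fin S.card, Y (en S i) s) := by
    funext s
    simp only [Finset.sum_apply, Pi.smul_apply, smul_eq_mul, sub_eq_add_neg]
    rw [Finset.prod_add, Finset.powerset_univ, Finset.mul_sum]
    refine Finset.sum_congr rfl fun S _ => ?_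
    rw [prod_en S (fun k => Y k s), Finset.compl_eq_univ_sdiff]
    ring
  rw [h1, map_sum]
  refine Finset.sum_congr rfl fun S _ => ?_
  rw [map_smul, smul_eq_mul, mul_comm]

/-! ### Domain side -/

/-- product of `n` spins and of the bond variables centred by constants `c k` -/
def obs {n m : ℕ} (us : Fin n → ℤ × ℤ) (vs : Fin m → ℤ × ℤ) (js : Fin m → Fin 2) (c : Fin m → ℝ)
    (s : ℤ × ℤ → Bool) : ℝ :=
  (∏ i, spinSign (s (us i))) *
    ∏ k, (spinSign (s (vs k)) * spinSign (s (vs k + unitVec (js k))) - c k)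

/-- domain moment with constant centring -/
def domMom (D : Set ℂ) (a : ℝ) (b : BoundaryCondition) (J lam : ℝ) (R : ℕ)
    (V : Finset (ℤ × ℤ) → ℝ) (β : ℝ) {n m : ℕ} (xs : Fin n → ℂ) (ys : Fin m → ℂ)
    (js : Fin m → Fin 2) (c : Fin m → ℝ) : ℝ :=
  domainExpect D a b J lam R V β
    (obs (fun i => meshIndex a (xs i)) (fun k => meshIndex a (ys k)) js c)

/-- the partition function in a domain is positive -/
theorem domPart_pos (T : Finset (ℤ × ℤ)) (b : BoundaryCondition) (J lam : ℝ) (R : ℕ)
    (V : Finset (ℤ × ℤ) → ℝ) (β : ℝ) :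
    0 < ∑ σ : T → Bool, Real.exp (-β * domainEnergy T b J lam R V (extendConfig T b σ)) :=
  Finset.sum_pos (fun _ _ => Real.exp_pos _) Finset.univ_nonempty

/-- `domainExpect` as a linear functional -/
def domE (D : Set ℂ) (a : ℝ) (b : BoundaryCondition) (J lam : ℝ) (R : ℕ)
    (V : Finset (ℤ × ℤ) → ℝ) (β : ℝ) : ((ℤ × ℤ → Bool) → ℝ) →ₗ[ℝ] ℝ where
  toFun f := domainExpect D a b J lam R V β f
  map_add' f g := by
    unfold domainExpect
    split_ifs with h
    · simp only [Pi.add_apply, add_mul, Finset.sum_add_distrib, add_div]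
    · simp
  map_smul' c f := by
    unfold domainExpect
    split_ifs with h
    · simp only [Pi.smul_apply, smul_eq_mul, RingHom.id_apply, mul_assoc, ← Finset.mul_sum,
        mul_div_assoc]
    · simp

theorem domE_apply (D : Set ℂ) (a : ℝ) (b : BoundaryCondition) (J lam : ℝ) (R : ℕ)
    (V : Finset (ℤ × ℤ) → ℝ) (β : ℝ) (f : (ℤ × ℤ → Bool) → ℝ) :
    domE D a b J lam R V β f = domainExpect D a b J lam R V β f := rfl

theorem domainExpect_one (D : Set ℂ) (a : ℝ) (b : BoundaryCondition) (J lam : ℝ) (R : ℕ)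
    (V : Finset (ℤ × ℤ) → ℝ) (β : ℝ) (hfin : (domainSites D a).Finite) :
    domainExpect D a b J lam R V β (fun _ => 1) = 1 := by
  unfold domainExpect
  rw [dif_pos hfin]
  simp only [one_mul]
  exact div_self (domPart_pos _ _ _ _ _ _ _).ne'

theorem domMom_zero_zero (D : Set ℂ) (a : ℝ) (b : BoundaryCondition) (J lam : ℝ) (R : ℕ)
    (V : Finset (ℤ × ℤ) → ℝ) (β : ℝ) (hfin : (domainSites D a).Finite) (xs : Fin 0 → ℂ)
    (ys : Fin 0 → ℂ) (js : Fin 0 → Fin 2) (c : Fin 0 → ℝ) :
    domMom D a b J lam R V β xs ys js c = 1 := by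
  unfold domMom
  rw [← domainExpect_one D a b J lam R V β hfin]
  congr 1
  funext s
  simp [obs]

/-- one bond -/
theorem domMom_single (D : Set ℂ) (a : ℝ) (b : BoundaryCondition) (J lam : ℝ) (R : ℕ)
    (V : Finset (ℤ × ℤ) → ℝ) (β : ℝ) (hfin : (domainSites D a).Finite) (xs : Fin 0 → ℂ)
    (y : ℂ) (j : Fin 2) (c : ℝ) :
    domMom D a b J lam R V β xs (fun _ : Fin 1 => y) (fun _ => j) (fun _ => c) =
      domainExpect D a b J lam R V β (fun s' =>
          spinSign (s' (meshIndex a y)) * spinSign (s' (meshIndex a y + unitVec j))) - c := by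
  unfold domMom
  have h1 : (obs (fun i => meshIndex a (xs i)) (fun _ : Fin 1 => meshIndex a y) (fun _ => j)
      (fun _ => c)) = (fun s' : ℤ × ℤ → Bool =>
          spinSign (s' (meshIndex a y)) * spinSign (s' (meshIndex a y + unitVec j))) -
        c • (fun _ => (1 : ℝ)) := by
    funext s
    simp [obs]
  rw [h1, ← domE_apply, map_sub, map_smul, domE_apply, domE_apply,
    domainExpect_one D a b J lam R V β hfin]
  simp

/-- the centring expansion in a domain -/
theorem domainMixedCorr_expand (D : Set ℂ) (a : ℝ) (b : BoundaryCondition) (J lam : ℝ) (R : ℕ)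
    (V : Finset (ℤ × ℤ) → ℝ) (β : ℝ) (hfin : (domainSites D a).Finite) {n m : ℕ}
    (xs : Fin n → ℂ) (ys : Fin m → ℂ) (js : Fin m → Fin 2) (c : Fin m → ℝ) :
    domainMixedCorr D a b J lam R V β xs ys js =
      ∑ S : Finset (Fin m),
        domMom D a b J lam R V β xs (fun i => ys (en S i)) (fun i => js (en S i))
          (fun i => c (en S i)) *
        ∏ k ∈ Sᶜ, (-domMom D a b J lam R V β ![] (fun _ : Fin 1 => ys k) (fun _ => js k)
          (fun _ => c k)) := by
  have key := centre_abstract (domE D a b J lam R V β)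
    (fun s => ∏ i, spinSign (s (meshIndex a (xs i))))
    (fun k s => spinSign (s (meshIndex a (ys k))) *
      spinSign (s (meshIndex a (ys k) + unitVec (js k))) - c k)
    (fun k => domMom D a b J lam R V β ![] (fun _ : Fin 1 => ys k) (fun _ => js k)
          (fun _ => c k))
  have h2 : (fun s : ℤ × ℤ → Bool => (∏ i, spinSign (s (meshIndex a (xs i)))) *
      ∏ k, (spinSign (s (meshIndex a (ys k))) *
      spinSign (s (meshIndex a (ys k) + unitVec (js k))) - c k -
        domMom D a b J lam R V β ![] (fun _ : Fin 1 => ys k) (fun _ => js k)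
          (fun _ => c k))) = fun s =>
    (∏ i, spinSign (s (meshIndex a (xs i)))) *
      ∏ k, (spinSign (s (meshIndex a (ys k))) *
          spinSign (s (meshIndex a (ys k) + unitVec (js k))) -
        domainExpect D a b J lam R V β fun s' =>
          spinSign (s' (meshIndex a (ys k))) * spinSign (s' (meshIndex a (ys k) + unitVec (js k)))) := by
    funext s
    congr 1
    refine Finset.prod_congr rfl fun k _ => ?_
    rw [domMom_single D a b J lam R V β hfin]
    ring
  rw [h2] at key
  exact key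

/-! ### Torus side -/

/-- torus moment (side `L + 1`) with constant centring -/
def torMom (L : ℕ) (J lam : ℝ) (R : ℕ) (V : Finset (ℤ × ℤ) → ℝ) (β : ℝ) {n m : ℕ}
    (us : Fin n → ℤ × ℤ) (vs : Fin m → ℤ × ℤ) (js : Fin m → Fin 2) (c : Fin m → ℝ) : ℝ :=
  torusExpect (L + 1) J lam R V β fun σ =>
    (∏ i, spinSign (σ (toTorus (L + 1) (us i)))) *
      ∏ k, (spinSign (σ (toTorus (L + 1) (vs k))) *
        spinSign (σ (toTorus (L + 1) (vs k) + toTorus (L + 1) (unitVec (js k)))) - c k)

theorem torPart_pos (L : ℕ) [NeZero L] (J lam : ℝ) (R : ℕ) (V : Finset (ℤ × ℤ) → ℝ) (β : ℝ) :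
    0 < ∑ σ : TorusConfig L, Real.exp (-β * energy L J lam R V σ) :=
  Finset.sum_pos (fun _ _ => Real.exp_pos _) Finset.univ_nonempty

/-- `torusExpect` as a linear functional -/
def torE (L : ℕ) [NeZero L] (J lam : ℝ) (R : ℕ) (V : Finset (ℤ × ℤ) → ℝ) (β : ℝ) :
    (TorusConfig L → ℝ) →ₗ[ℝ] ℝ where
  toFun f := torusExpect L J lam R V β f
  map_add' f g := by
    unfold torusExpect
    simp only [Pi.add_apply, add_mul, Finset.sum_add_distrib, add_div]
  map_smul' c f := by
    unfold torusExpect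
    simp only [Pi.smul_apply, smul_eq_mul, RingHom.id_apply, mul_assoc, ← Finset.mul_sum,
        mul_div_assoc]

theorem torE_apply (L : ℕ) [NeZero L] (J lam : ℝ) (R : ℕ) (V : Finset (ℤ × ℤ) → ℝ) (β : ℝ)
    (f : TorusConfig L → ℝ) : torE L J lam R V β f = torusExpect L J lam R V β f := rfl

theorem torusExpect_one (L : ℕ) [NeZero L] (J lam : ℝ) (R : ℕ) (V : Finset (ℤ × ℤ) → ℝ)
    (β : ℝ) : torusExpect L J lam R V β (fun _ => 1) = 1 := by
  unfold torusExpect
  simp only [one_mul]
  exact div_self (torPart_pos _ _ _ _ _ _).ne'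

theorem torMom_zero_zero (L : ℕ) (J lam : ℝ) (R : ℕ) (V : Finset (ℤ × ℤ) → ℝ) (β : ℝ)
    (us : Fin 0 → ℤ × ℤ) (vs : Fin 0 → ℤ × ℤ) (js : Fin 0 → Fin 2) (c : Fin 0 → ℝ) :
    torMom L J lam R V β us vs js c = 1 := by
  unfold torMom
  rw [← torusExpect_one (L + 1) J lam R V β]
  congr 1
  funext s
  simp

theorem torMom_single (L : ℕ) (J lam : ℝ) (R : ℕ) (V : Finset (ℤ × ℤ) → ℝ) (β : ℝ)
    (us : Fin 0 → ℤ × ℤ) (v : ℤ × ℤ) (j : Fin 2) (c : ℝ) :
    torMom L J lam R V β us (fun _ : Fin 1 => v) (fun _ => j) (fun _ => c) =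
      torusTwoPoint (L + 1) J lam R V β (toTorus (L + 1) v)
        (toTorus (L + 1) v + toTorus (L + 1) (unitVec j)) - c := by
  unfold torMom torusTwoPoint
  have h1 : (fun σ : TorusConfig (L + 1) => (∏ i, spinSign (σ (toTorus (L + 1) (us i)))) *
      ∏ _k : Fin 1, (spinSign (σ (toTorus (L + 1) v)) *
        spinSign (σ (toTorus (L + 1) v + toTorus (L + 1) (unitVec j))) - c)) =
      (fun σ : TorusConfig (L + 1) =>
          spinSign (σ (toTorus (L + 1) v)) *
            spinSign (σ (toTorus (L + 1) v + toTorus (L + 1) (unitVec j)))) -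
        c • (fun _ => (1 : ℝ)) := by
    funext s
    simp
  rw [h1, ← torE_apply, map_sub, map_smul, torE_apply, torE_apply,
    torusExpect_one (L + 1) J lam R V β]
  simp

/-- the centring expansion on the torus -/
theorem latticeMixedCorr_expand (L : ℕ) (J lam : ℝ) (R : ℕ)
    (V : Finset (ℤ × ℤ) → ℝ) (β : ℝ) {n m : ℕ}
    (us : Fin n → ℤ × ℤ) (vs : Fin m → ℤ × ℤ) (js : Fin m → Fin 2) (c : Fin m → ℝ) :
    latticeMixedCorr L J lam R V β us vs js =
      ∑ S : Finset (Fin m),
        torMom L J lam R V β us (fun i => vs (en S i)) (fun i => js (en S i))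
          (fun i => c (en S i)) *
        ∏ k ∈ Sᶜ, (-torMom L J lam R V β ![] (fun _ : Fin 1 => vs k) (fun _ => js k)
          (fun _ => c k)) := by
  have key := centre_abstract (torE (L + 1) J lam R V β)
    (fun σ => ∏ i, spinSign (σ (toTorus (L + 1) (us i))))
    (fun k σ => spinSign (σ (toTorus (L + 1) (vs k))) *
        spinSign (σ (toTorus (L + 1) (vs k) + toTorus (L + 1) (unitVec (js k)))) - c k)
    (fun k => torMom L J lam R V β ![] (fun _ : Fin 1 => vs k) (fun _ => js k)
          (fun _ => c k))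
  have h2 : (fun σ : TorusConfig (L + 1) => (∏ i, spinSign (σ (toTorus (L + 1) (us i)))) *
      ∏ k, (spinSign (σ (toTorus (L + 1) (vs k))) *
        spinSign (σ (toTorus (L + 1) (vs k) + toTorus (L + 1) (unitVec (js k)))) - c k -
        torMom L J lam R V β ![] (fun _ : Fin 1 => vs k) (fun _ => js k)
          (fun _ => c k))) = fun σ =>
    (∏ i, spinSign (σ (toTorus (L + 1) (us i)))) *
      ∏ k, (spinSign (σ (toTorus (L + 1) (vs k))) *
        spinSign (σ (toTorus (L + 1) (vs k) + toTorus (L + 1) (unitVec (js k)))) -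
        torusTwoPoint (L + 1) J lam R V β (toTorus (L + 1) (vs k))
          (toTorus (L + 1) (vs k) + toTorus (L + 1) (unitVec (js k)))) := by
    funext s
    congr 1
    refine Finset.prod_congr rfl fun k _ => ?_
    rw [torMom_single L J lam R V β]
    ring
  rw [h2] at key
  exact key

end Crest.Agent.R165.Centx541
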