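import Crest.Agent.R165.Gr0_606

/-!
# Row 165 (S0250), block J/G: Grassmann algebra over an index set

Fields indexed by a type `ι` (half-edges): `V = ι →₀ ℝ`; generators `ph i`, derivations `de i`,
covariances `covOf K` given by an antisymmetric kernel, the Clifford operators `cP i = φ_i + ∂_i`,
`cM i = φ_i - ∂_i`, and the commutative ring `Ge V` of even elements.
-/

set_option autoImplicit false

noncomputable section

namespace Crest.Agent.R165.Gr1x606

open Crest.Agent.R165.Gr0x606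

/-! ### the commutative ring of even elements -/

section even
variable {V : Type*} [AddCommGroup V] [Module ℝ V]

/-- the even subalgebra -/
def Ge (V : Type*) [AddCommGroup V] [Module ℝ V] : Subalgebra ℝ (Gr V) :=
  AlgHom.equalizer inv' (AlgHom.id ℝ (Gr V))

theorem mem_Ge {a : Gr V} : a ∈ Ge V ↔ IsEv a := Iff.rfl

instance : CommRing (Ge V) :=
  { (inferInstance : Ring (Ge V)) with
    mul_comm := fun a b => Subtype.ext (IsEv.comm a.2 b.1) }

instance : Algebra ℝ (Ge V) := Subalgebra.algebra (Ge V)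

theorem Ge.isEv (a : Ge V) : IsEv (a : Gr V) := a.2

@[simp] theorem Ge.coe_mul (a b : Ge V) : ((a * b : Ge V) : Gr V) = (a : Gr V) * b := rfl
@[simp] theorem Ge.coe_add (a b : Ge V) : ((a + b : Ge V) : Gr V) = (a : Gr V) + b := rfl
@[simp] theorem Ge.coe_sub (a b : Ge V) : ((a - b : Ge V) : Gr V) = (a : Gr V) - b := rfl
@[simp] theorem Ge.coe_neg (a : Ge V) : ((-a : Ge V) : Gr V) = -(a : Gr V) := rfl
@[simp] theorem Ge.coe_one : ((1 : Ge V) : Gr V) = 1 := rfl
@[simp] theorem Ge.coe_zero : ((0 : Ge V) : Gr V) = 0 := rfl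
@[simp] theorem Ge.coe_smul (c : ℝ) (a : Ge V) : ((c • a : Ge V) : Gr V) = c • (a : Gr V) := rfl

/-- the even product of two fields -/
def bi (x y : V) : Ge V := ⟨fi x * fi y, isEv_fi_fi x y⟩

@[simp] theorem coe_bi (x y : V) : ((bi x y : Ge V) : Gr V) = fi x * fi y := rfl

theorem bi_mul_self (x y : V) : bi x y * bi x y = 0 := by
  apply Subtype.ext
  rw [Ge.coe_mul, coe_bi, Ge.coe_zero, mul_assoc, ← mul_assoc (fi y), fi_anti y x, neg_mul,
    mul_assoc, fi_mul_self, mul_zero, neg_zero, mul_zero]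

end even

/-! ### indexed fields -/

section idx
variable {ι : Type*}

/-- fields indexed by `ι` -/
abbrev VI (ι : Type*) : Type _ := ι →₀ ℝ

/-- generator -/
def ph (i : ι) : Gr (VI ι) := fi (Finsupp.single i 1)

/-- derivation -/
def de (i : ι) : Gr (VI ι) →ₗ[ℝ] Gr (VI ι) := dd (Finsupp.lapply i)

theorem de_ph_mul [DecidableEq ι] (i j : ι) (a : Gr (VI ι)) :
    de i (ph j * a) = (if i = j then (1 : ℝ) else 0) • a - ph j * de i a := by
  rw [de, ph, dd_fi_mul]
  congr 2
  simp [Finsupp.single_apply, eq_comm]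

theorem de_ph_mul_self [DecidableEq ι] (i : ι) (a : Gr (VI ι)) : de i (ph i * a) = a - ph i * de i a := by
  rw [de_ph_mul, if_pos rfl, one_smul]

theorem de_ph_mul_ne [DecidableEq ι] {i j : ι} (h : i ≠ j) (a : Gr (VI ι)) :
    de i (ph j * a) = -(ph j * de i a) := by
  rw [de_ph_mul, if_neg h, zero_smul, zero_sub]

theorem ph_mul_self (i : ι) : ph i * ph i = 0 := fi_mul_self _
theorem ph_ph_mul_self (i : ι) (a : Gr (VI ι)) : ph i * (ph i * a) = 0 := by
  rw [← mul_assoc, ph_mul_self, zero_mul]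
theorem ph_anti (i j : ι) : ph i * ph j = -(ph j * ph i) := fi_anti _ _
theorem ph_anti_mul (i j : ι) (a : Gr (VI ι)) : ph i * (ph j * a) = -(ph j * (ph i * a)) := by
  rw [← mul_assoc, ph_anti, neg_mul, mul_assoc]
theorem de_de_self (i : ι) (a : Gr (VI ι)) : de i (de i a) = 0 := dd_dd_self _ _
theorem de_de_anti (i j : ι) (a : Gr (VI ι)) : de i (de j a) = -de j (de i a) := dd_dd_anti _ _ _
@[simp] theorem de_one (i : ι) : de i (1 : Gr (VI ι)) = 0 := dd_one _

theorem de_mul (i : ι) (a b : Gr (VI ι)) : de i (a * b) = de i a * b + inv' a * de i b :=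
  dd_mul _ _ _

/-- Clifford operator `φ_i + ∂_i`, of square `1` -/
def cP (i : ι) : Gr (VI ι) →ₗ[ℝ] Gr (VI ι) := LinearMap.mulLeft ℝ (ph i) + de i

/-- Clifford operator `φ_i - ∂_i`, of square `-1` -/
def cM (i : ι) : Gr (VI ι) →ₗ[ℝ] Gr (VI ι) := LinearMap.mulLeft ℝ (ph i) - de i

theorem cP_apply (i : ι) (a : Gr (VI ι)) : cP i a = ph i * a + de i a := rfl
theorem cM_apply (i : ι) (a : Gr (VI ι)) : cM i a = ph i * a - de i a := rfl

theorem cP_cP [DecidableEq ι] (i : ι) (a : Gr (VI ι)) : cP i (cP i a) = a := by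
  rw [cP_apply, cP_apply, map_add, mul_add, ph_ph_mul_self, de_ph_mul_self, de_de_self]
  abel

theorem cM_cM [DecidableEq ι] (i : ι) (a : Gr (VI ι)) : cM i (cM i a) = -a := by
  rw [cM_apply, cM_apply, map_sub, mul_sub, ph_ph_mul_self, de_ph_mul_self, de_de_self]
  abel

theorem cP_cM [DecidableEq ι] (i j : ι) (a : Gr (VI ι)) : cP i (cM j a) = -cM j (cP i a) := by
  rw [cP_apply, cM_apply, cM_apply, cP_apply, mul_sub, mul_add, map_sub, map_add, de_ph_mul,
    de_ph_mul, ph_anti_mul i j, de_de_anti i j]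
  by_cases h : i = j
  · subst h; abel
  · have h' : ¬ j = i := fun e => h e.symm
    rw [if_neg h, if_neg h']; simp only [zero_smul]; abel

theorem cM_cP [DecidableEq ι] (i j : ι) (a : Gr (VI ι)) : cM i (cP j a) = -cP j (cM i a) := by
  rw [cP_cM, neg_neg]

theorem cM_cM_ne [DecidableEq ι] {i j : ι} (h : i ≠ j) (a : Gr (VI ι)) : cM i (cM j a) = -cM j (cM i a) := by
  rw [cM_apply, cM_apply, cM_apply, cM_apply, mul_sub, mul_sub, map_sub, map_sub,
    de_ph_mul_ne h, de_ph_mul_ne h.symm, ph_anti_mul i j, de_de_anti i j]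
  abel

theorem cP_cP_ne [DecidableEq ι] {i j : ι} (h : i ≠ j) (a : Gr (VI ι)) : cP i (cP j a) = -cP j (cP i a) := by
  rw [cP_apply, cP_apply, cP_apply, cP_apply, mul_add, mul_add, map_add, map_add,
    de_ph_mul_ne h, de_ph_mul_ne h.symm, ph_anti_mul i j, de_de_anti i j]
  abel

/-! ### toggling a bilinear -/

theorem tog_new [DecidableEq ι] {p q : ι} (hpq : p ≠ q) {a : Gr (VI ι)} (hp : de p a = 0) (hq : de q a = 0) :
    cP p (cM q a) = ph p * ph q * a := by
  rw [cM_apply, hq, sub_zero, cP_apply, de_ph_mul_ne hpq, hp, mul_zero, neg_zero, add_zero,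
    mul_assoc]

theorem tog_old [DecidableEq ι] {p q : ι} (hpq : p ≠ q) {a : Gr (VI ι)} (hp : de p a = 0) (hq : de q a = 0) :
    cP p (cM q (ph p * ph q * a)) = a := by
  have h1 : ph q * (ph p * ph q * a) = 0 := by
    rw [mul_assoc, ph_anti_mul q p, ph_ph_mul_self, mul_zero, neg_zero]
  have h2 : de q (ph p * ph q * a) = -(ph p * a) := by
    rw [mul_assoc, de_ph_mul_ne hpq.symm, de_ph_mul_self, hq, mul_zero, sub_zero]
  rw [cM_apply, h1, h2, zero_sub, neg_neg, cP_apply, ph_ph_mul_self, zero_add, de_ph_mul_self, hp,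
    mul_zero, sub_zero]

theorem tog_new' [DecidableEq ι] {p q : ι} (hpq : p ≠ q) {a : Gr (VI ι)} (hp : de p a = 0) (hq : de q a = 0) :
    cP q (cM p a) = -(ph p * ph q * a) := by
  rw [tog_new hpq.symm hq hp, ph_anti, neg_mul]

theorem tog_old' [DecidableEq ι] {p q : ι} (hpq : p ≠ q) {a : Gr (VI ι)} (hp : de p a = 0) (hq : de q a = 0) :
    cP q (cM p (ph p * ph q * a)) = -a := by
  rw [ph_anti, neg_mul, map_neg, map_neg, tog_old hpq.symm hq hp]

/-! ### covariances from kernels -/

/-- the bilinear form of a kernel -/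
def formOf (K : ι → ι → ℝ) : LinearMap.BilinForm ℝ (VI ι) :=
  Finsupp.linearCombination ℝ (fun i => Finsupp.linearCombination ℝ (fun j => K i j))

theorem formOf_apply (K : ι → ι → ℝ) (x y : VI ι) :
    formOf K x y = x.sum fun i a => y.sum fun j b => a * (b * K i j) := by
  rw [formOf, Finsupp.linearCombination_apply, Finsupp.sum, LinearMap.sum_apply]
  refine Finset.sum_congr rfl fun i _ => ?_
  rw [LinearMap.smul_apply, Finsupp.linearCombination_apply, smul_eq_mul, Finsupp.mul_sum]
  rfl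

theorem formOf_single (K : ι → ι → ℝ) (i j : ι) :
    formOf K (Finsupp.single i 1) (Finsupp.single j 1) = K i j := by
  rw [formOf_apply, Finsupp.sum_single_index, Finsupp.sum_single_index]
  · ring
  · ring
  · simp

/-- the covariance of an antisymmetric kernel -/
def covOf (K : ι → ι → ℝ) (hK : ∀ i j, K i j = -K j i) : Cov (VI ι) where
  b := formOf K
  alt x := by
    have h : formOf K x x = -formOf K x x := by
      conv_lhs => rw [formOf_apply]
      rw [Finsupp.sum_comm, formOf_apply, Finsupp.sum, Finsupp.sum, ← Finset.sum_neg_distrib]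
      refine Finset.sum_congr rfl fun i _ => ?_
      rw [Finsupp.sum, Finsupp.sum, ← Finset.sum_neg_distrib]
      refine Finset.sum_congr rfl fun j _ => ?_
      rw [hK j i]; ring
    linarith

@[simp] theorem covOf_b (K : ι → ι → ℝ) (hK : ∀ i j, K i j = -K j i) :
    (covOf K hK).b = formOf K := rfl

/-- the linear form `Σ_{j ∈ s} k_j ∂_j` -/
theorem dd_of_row [DecidableEq ι] (s : Finset ι) (k : ι → ℝ) (l : Module.Dual ℝ (VI ι))
    (hl : ∀ j, l (Finsupp.single j 1) = if j ∈ s then k j else 0) (a : Gr (VI ι)) :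
    dd l a = ∑ j ∈ s, k j • de j a := by
  have : l = ∑ j ∈ s, k j • (Finsupp.lapply j : (ι →₀ ℝ) →ₗ[ℝ] ℝ) := by
    apply Finsupp.lhom_ext'
    intro j
    apply LinearMap.ext_ring
    rw [LinearMap.comp_apply, LinearMap.comp_apply, Finsupp.lsingle_apply, hl, LinearMap.sum_apply]
    simp only [LinearMap.smul_apply, Finsupp.lapply_apply, Finsupp.single_apply, smul_eq_mul,
      mul_ite, mul_one, mul_zero]
    rw [Finset.sum_ite_eq s j k]
  rw [this]
  clear this hl
  induction s using Finset.induction_on with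
  | empty => simp
  | insert j s hj ih =>
    rw [Finset.sum_insert hj, dd_add_left, dd_smul_left, ih, Finset.sum_insert hj]
    rfl

/-- Schwinger-Dyson for kernels with finite rows -/
theorem EE_ph_mul [DecidableEq ι] (K : ι → ι → ℝ) (hK : ∀ i j, K i j = -K j i) (i : ι) (s : Finset ι)
    (hs : ∀ j, j ∉ s → K i j = 0) (a : Gr (VI ι)) :
    EE (covOf K hK) (ph i * a) = ∑ j ∈ s, K i j * EE (covOf K hK) (de j a) := by
  rw [ph, EE_fi_mul, dd_of_row s (K i), map_sum]
  · simp only [map_smul, smul_eq_mul]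
  · intro j
    rw [covOf_b, formOf_single]
    split_ifs with h
    · rfl
    · exact hs j h

end idx

end Crest.Agent.R165.Gr1x606
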