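import Crest.Agent.R165.Gr0_606

/-!
# Row 165 (S0250), block G: atomic projective norms on the Grassmann algebra

`w : V → ℝ≥0∞` is the weight of an atom (a linear field); `w l = ∞` means "not allowed", so that
locality is built in.  `pnorm w F` is the infimum of `∑ |c| ∏ w(l_i)` over all representations
`F = ∑ c l_1 ⋯ l_n`.

Main results: seminorm properties, submultiplicativity, the master lemma `bound_of_mono`, degree
splitting, the addition formula `mp_add_mono`, the splitting formula for the Gaussian convolution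
`conv_mono`, and the Gram bound `pnorm_conv_le`.
-/

set_option autoImplicit false
set_option linter.unusedSectionVars false

noncomputable section

namespace Crest.Agent.R165.PNormx417

open Crest.Agent.R165.Gr0x606
open scoped ENNReal

variable {V : Type*} [AddCommGroup V] [Module ℝ V]
variable {W : Type*} [AddCommGroup W] [Module ℝ W]

/-! ### monomials -/

/-- the monomial `l_1 ⋯ l_n` -/
def mono (L : List V) : Gr V := (L.map fi).prod

@[simp] theorem mono_nil : mono ([] : List V) = 1 := rfl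
@[simp] theorem mono_cons (x : V) (L : List V) : mono (x :: L) = fi x * mono L := by
  simp [mono]
theorem mono_append (L L' : List V) : mono (L ++ L') = mono L * mono L' := by
  simp [mono]
theorem mono_singleton (x : V) : mono [x] = fi x := by simp

theorem mp_mono (f : V →ₗ[ℝ] W) (L : List V) : mp f (mono L) = mono (L.map f) := by
  induction L with
  | nil => simp
  | cons x L ih => simp [ih]

theorem inv'_mono (L : List V) : inv' (mono L) = (-1 : ℝ) ^ L.length • mono L := by
  induction L with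
  | nil => simp
  | cons x L ih =>
    rw [mono_cons, map_mul, inv'_fi, ih, List.length_cons, pow_succ, mul_smul_comm, neg_mul,
      mul_neg_one, neg_smul, smul_neg]

/-! ### extended seminorms -/

/-- extended seminorm on a real vector space -/
structure ESemi {X : Type*} [AddCommGroup X] [Module ℝ X] (N : X → ℝ≥0∞) : Prop where
  zero : N 0 = 0
  add : ∀ x y, N (x + y) ≤ N x + N y
  smul : ∀ (c : ℝ) x, N (c • x) ≤ ‖c‖ₑ * N x

namespace ESemi

variable {X : Type*} [AddCommGroup X] [Module ℝ X] {N : X → ℝ≥0∞}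

theorem list_sum (hN : ESemi N) (L : List X) : N L.sum ≤ (L.map N).sum := by
  induction L with
  | nil => simp [hN.zero]
  | cons x L ih =>
    rw [List.sum_cons, List.map_cons, List.sum_cons]
    exact (hN.add _ _).trans (by gcongr)

theorem finset_sum (hN : ESemi N) {ι : Type*} (s : Finset ι) (f : ι → X) :
    N (∑ i ∈ s, f i) ≤ ∑ i ∈ s, N (f i) := by
  classical
  induction s using Finset.induction_on with
  | empty => simp [hN.zero]
  | insert a s ha ih =>
    rw [Finset.sum_insert ha, Finset.sum_insert ha]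
    exact (hN.add _ _).trans (by gcongr)

theorem neg (hN : ESemi N) (x : X) : N (-x) = N x := by
  have h : ∀ y, N (-y) ≤ N y := fun y => by simpa using hN.smul (-1) y
  exact le_antisymm (h x) (by simpa using h (-x))

theorem sub (hN : ESemi N) (x y : X) : N (x - y) ≤ N x + N y := by
  rw [sub_eq_add_neg]
  exact (hN.add _ _).trans (by rw [hN.neg])

theorem smul_eq (hN : ESemi N) (c : ℝ) (x : X) (hc : c ≠ 0) : N (c • x) = ‖c‖ₑ * N x := by
  refine le_antisymm (hN.smul c x) ?_
  have h := hN.smul c⁻¹ (c • x)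
  rw [smul_smul, inv_mul_cancel₀ hc, one_smul] at h
  calc ‖c‖ₑ * N x ≤ ‖c‖ₑ * (‖c⁻¹‖ₑ * N (c • x)) := by gcongr
    _ = ‖c * c⁻¹‖ₑ * N (c • x) := by rw [enorm_mul, mul_assoc]
    _ = N (c • x) := by rw [mul_inv_cancel₀ hc]; simp

/-- composition with a linear map -/
theorem comp {Y : Type*} [AddCommGroup Y] [Module ℝ Y] (hN : ESemi N) (T : Y →ₗ[ℝ] X) :
    ESemi fun y => N (T y) :=
  ⟨by simp [hN.zero], fun x y => by rw [map_add]; exact hN.add _ _,
    fun c x => by rw [map_smul]; exact hN.smul _ _⟩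

/-- sums of extended seminorms -/
theorem tsum {ι : Type*} {M : ι → X → ℝ≥0∞} (hM : ∀ i, ESemi (M i)) :
    ESemi fun x => ∑' i, M i x := by
  refine ⟨by simp [(hM _).zero], fun x y => ?_, fun c x => ?_⟩
  · rw [← ENNReal.tsum_add]
    exact ENNReal.tsum_le_tsum fun i => (hM i).add x y
  · rw [← ENNReal.tsum_mul_left]
    exact ENNReal.tsum_le_tsum fun i => (hM i).smul c x

theorem add_semi {M : X → ℝ≥0∞} (hN : ESemi N) (hM : ESemi M) : ESemi fun x => N x + M x := by
  refine ⟨by simp [hN.zero, hM.zero], fun x y => ?_, fun c x => ?_⟩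
  · calc N (x + y) + M (x + y) ≤ (N x + N y) + (M x + M y) := add_le_add (hN.add _ _) (hM.add _ _)
      _ = _ := by ring
  · rw [mul_add]; exact add_le_add (hN.smul _ _) (hM.smul _ _)

theorem const_mul (hN : ESemi N) (C : ℝ≥0∞) : ESemi fun x => C * N x := by
  refine ⟨by simp [hN.zero], fun x y => ?_, fun c x => ?_⟩
  · rw [← mul_add]; gcongr; exact hN.add _ _
  · calc C * N (c • x) ≤ C * (‖c‖ₑ * N x) := by gcongr; exact hN.smul _ _
      _ = _ := by ring

theorem enorm : ESemi fun x : ℝ => ‖x‖ₑ :=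
  ⟨by simp, fun x y => enorm_add_le x y, fun c x => by rw [smul_eq_mul, enorm_mul]⟩

theorem iSup {ι : Type*} {M : ι → X → ℝ≥0∞} (hM : ∀ i, ESemi (M i)) :
    ESemi fun x => ⨆ i, M i x := by
  refine ⟨by simp [(hM _).zero], fun x y => ?_, fun c x => ?_⟩
  · exact iSup_le fun i => ((hM i).add x y).trans
      (add_le_add (le_iSup (fun i => M i x) i) (le_iSup (fun i => M i y) i))
  · exact iSup_le fun i => ((hM i).smul c x).trans
      (mul_le_mul_right (le_iSup (fun i => M i x) i) _)

end ESemi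

/-! ### representations and the projective norm -/

/-- the element represented by a list of coefficients and monomials -/
def rval (R : List (ℝ × List V)) : Gr V := (R.map fun p => p.1 • mono p.2).sum

/-- the weight of a monomial -/
def mwt (w : V → ℝ≥0∞) (L : List V) : ℝ≥0∞ := (L.map w).prod

/-- the weight of a representation -/
def rwt (w : V → ℝ≥0∞) (R : List (ℝ × List V)) : ℝ≥0∞ := (R.map fun p => ‖p.1‖ₑ * mwt w p.2).sum

/-- the atomic projective norm -/
def pnorm (w : V → ℝ≥0∞) (F : Gr V) : ℝ≥0∞ :=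
  ⨅ (R : List (ℝ × List V)) (_ : rval R = F), rwt w R

@[simp] theorem mwt_nil (w : V → ℝ≥0∞) : mwt w [] = 1 := rfl
@[simp] theorem mwt_cons (w : V → ℝ≥0∞) (x : V) (L : List V) :
    mwt w (x :: L) = w x * mwt w L := by simp [mwt]
theorem mwt_append (w : V → ℝ≥0∞) (L L' : List V) :
    mwt w (L ++ L') = mwt w L * mwt w L' := by simp [mwt]
@[simp] theorem rval_nil : rval ([] : List (ℝ × List V)) = 0 := rfl
@[simp] theorem rval_cons (p : ℝ × List V) (R) : rval (p :: R) = p.1 • mono p.2 + rval R := by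
  simp [rval]
theorem rval_append (R R' : List (ℝ × List V)) : rval (R ++ R') = rval R + rval R' := by
  simp [rval]
@[simp] theorem rwt_nil (w : V → ℝ≥0∞) : rwt w [] = 0 := rfl
@[simp] theorem rwt_cons (w : V → ℝ≥0∞) (p : ℝ × List V) (R) :
    rwt w (p :: R) = ‖p.1‖ₑ * mwt w p.2 + rwt w R := by
  simp [rwt]
theorem rwt_append (w : V → ℝ≥0∞) (R R' : List (ℝ × List V)) :
    rwt w (R ++ R') = rwt w R + rwt w R' := by
  simp [rwt]

theorem mwt_mono {w w' : V → ℝ≥0∞} (h : ∀ l, w' l ≤ w l) (L : List V) : mwt w' L ≤ mwt w L := by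
  induction L with
  | nil => simp
  | cons x L ih => rw [mwt_cons, mwt_cons]; exact mul_le_mul' (h x) ih

theorem pnorm_le_rwt (w : V → ℝ≥0∞) (R : List (ℝ × List V)) : pnorm w (rval R) ≤ rwt w R := by
  unfold pnorm
  exact iInf_le_of_le R (iInf_le_of_le rfl le_rfl)

theorem exists_rep {w : V → ℝ≥0∞} {F : Gr V} {a : ℝ≥0∞} (h : pnorm w F < a) :
    ∃ R, rval R = F ∧ rwt w R < a := by
  simpa [pnorm, iInf_lt_iff] using h

theorem pnorm_mono_le (w : V → ℝ≥0∞) (L : List V) : pnorm w (mono L) ≤ mwt w L := by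
  simpa using pnorm_le_rwt w [((1 : ℝ), L)]

/-- smul of a representation -/
theorem rval_smul (c : ℝ) (R : List (ℝ × List V)) :
    rval (R.map fun p => (c * p.1, p.2)) = c • rval R := by
  induction R with
  | nil => simp
  | cons p R ih => simp [ih, smul_add, smul_smul]

theorem rwt_smul (w : V → ℝ≥0∞) (c : ℝ) (R : List (ℝ × List V)) :
    rwt w (R.map fun p => (c * p.1, p.2)) = ‖c‖ₑ * rwt w R := by
  induction R with
  | nil => simp
  | cons p R ih => simp [ih, mul_add, mul_assoc, enorm_mul]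

theorem pnorm_semi (w : V → ℝ≥0∞) : ESemi (pnorm w) := by
  refine ⟨?_, fun F G => ?_, fun c F => ?_⟩
  · have := pnorm_le_rwt w ([] : List (ℝ × List V))
    simpa using this
  · refine ENNReal.le_of_forall_pos_le_add fun ε hε hlt => ?_
    have hF : pnorm w F < pnorm w F + (ε / 2 : NNReal) :=
      ENNReal.lt_add_right (ne_top_of_le_ne_top hlt.ne le_self_add) (by simpa using hε.ne')
    have hG : pnorm w G < pnorm w G + (ε / 2 : NNReal) :=
      ENNReal.lt_add_right (ne_top_of_le_ne_top hlt.ne le_add_self) (by simpa using hε.ne')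
    obtain ⟨R, hR, hR'⟩ := exists_rep hF
    obtain ⟨S, hS, hS'⟩ := exists_rep hG
    have h1 := pnorm_le_rwt w (R ++ S)
    rw [rval_append, hR, hS, rwt_append] at h1
    refine h1.trans ((add_le_add hR'.le hS'.le).trans (le_of_eq ?_))
    have : (ε : ℝ≥0∞) = ((ε / 2 : NNReal) : ℝ≥0∞) + ((ε / 2 : NNReal) : ℝ≥0∞) := by
      rw [← ENNReal.coe_add, add_halves]
    rw [this]; ring
  · rcases eq_or_ne c 0 with rfl | hc
    · have := pnorm_le_rwt w ([] : List (ℝ × List V))
      simp only [rval_nil, rwt_nil, nonpos_iff_eq_zero] at this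
      simp [this]
    · have hc' : ‖c‖ₑ ≠ 0 := by simpa using hc
      have hc'' : ‖c‖ₑ ≠ ∞ := enorm_ne_top
      unfold pnorm
      rw [ENNReal.mul_iInf_of_ne hc' hc'']
      refine le_iInf fun R => ?_
      rw [ENNReal.mul_iInf_of_ne hc' hc'']
      refine le_iInf fun hR => ?_
      rw [← rwt_smul]
      exact iInf₂_le _ (by rw [rval_smul, hR])

@[simp] theorem pnorm_zero (w : V → ℝ≥0∞) : pnorm w 0 = 0 := (pnorm_semi w).zero
theorem pnorm_add_le (w : V → ℝ≥0∞) (F G : Gr V) : pnorm w (F + G) ≤ pnorm w F + pnorm w G :=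
  (pnorm_semi w).add F G
theorem pnorm_smul_le (w : V → ℝ≥0∞) (c : ℝ) (F : Gr V) : pnorm w (c • F) ≤ ‖c‖ₑ * pnorm w F :=
  (pnorm_semi w).smul c F
theorem pnorm_smul (w : V → ℝ≥0∞) (c : ℝ) (F : Gr V) (hc : c ≠ 0) :
    pnorm w (c • F) = ‖c‖ₑ * pnorm w F := (pnorm_semi w).smul_eq c F hc
@[simp] theorem pnorm_neg (w : V → ℝ≥0∞) (F : Gr V) : pnorm w (-F) = pnorm w F :=
  (pnorm_semi w).neg F
theorem pnorm_sub_le (w : V → ℝ≥0∞) (F G : Gr V) : pnorm w (F - G) ≤ pnorm w F + pnorm w G :=
  (pnorm_semi w).sub F G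
theorem pnorm_sum_le (w : V → ℝ≥0∞) {ι : Type*} (s : Finset ι) (f : ι → Gr V) :
    pnorm w (∑ i ∈ s, f i) ≤ ∑ i ∈ s, pnorm w (f i) := (pnorm_semi w).finset_sum s f

theorem pnorm_one_le (w : V → ℝ≥0∞) : pnorm w 1 ≤ 1 := by
  simpa using pnorm_mono_le w []

theorem pnorm_algebraMap_le (w : V → ℝ≥0∞) (c : ℝ) : pnorm w (algebraMap ℝ _ c) ≤ ‖c‖ₑ := by
  rw [Algebra.algebraMap_eq_smul_one]
  exact (pnorm_smul_le w c 1).trans (mul_le_of_le_one_right (zero_le) (pnorm_one_le w))

theorem pnorm_fi_le (w : V → ℝ≥0∞) (x : V) : pnorm w (fi x) ≤ w x := by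
  simpa using pnorm_mono_le w [x]

/-- **Master lemma**: an extended seminorm which is bounded on the monomials of finite weight is
bounded by the projective norm. -/
theorem semi_le_of_mono {N : Gr V → ℝ≥0∞} (hN : ESemi N) {w : V → ℝ≥0∞} {C : ℝ≥0∞}
    (hC : C ≠ ∞) (h : ∀ L : List V, mwt w L ≠ ∞ → N (mono L) ≤ C * mwt w L) {F : Gr V}
    (hF : pnorm w F ≠ ∞) : N F ≤ C * pnorm w F := by
  have key : ∀ R : List (ℝ × List V), rwt w R ≠ ∞ → N (rval R) ≤ C * rwt w R := by
    intro R
    induction R with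
    | nil => intro _; simp [hN.zero]
    | cons p R ih =>
      intro hR
      rw [rwt_cons] at hR
      rw [rval_cons, rwt_cons, mul_add]
      refine (hN.add _ _).trans (add_le_add ?_ (ih (ENNReal.add_ne_top.1 hR).2))
      have h1 := (ENNReal.add_ne_top.1 hR).1
      rcases eq_or_ne p.1 0 with h0 | h0
      · simp [h0, hN.zero]
      · have h2 : mwt w p.2 ≠ ∞ := by
          intro h3
          rw [h3] at h1
          exact h1 (ENNReal.mul_top (by simpa using h0))
        refine (hN.smul _ _).trans ?_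
        calc ‖p.1‖ₑ * N (mono p.2) ≤ ‖p.1‖ₑ * (C * mwt w p.2) := by gcongr; exact h _ h2
          _ = _ := by ring
  refine ENNReal.le_of_forall_pos_le_add fun ε hε hlt => ?_
  -- choose a representation with small excess
  obtain ⟨δ, hδ, hδ'⟩ : ∃ δ : NNReal, 0 < δ ∧ C * δ ≤ ε := by
    refine ⟨ε / (C.toNNReal + 1), by positivity, ?_⟩
    rw [← ENNReal.coe_toNNReal hC, ← ENNReal.coe_mul, ENNReal.coe_le_coe, ENNReal.toNNReal_coe,
      mul_div_assoc', div_le_iff₀ (by positivity)]
    nlinarith [zero_le (a := ε), zero_le (a := C.toNNReal)]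
  obtain ⟨R, hR, hR'⟩ := exists_rep (w := w) (F := F) (a := pnorm w F + δ)
    (ENNReal.lt_add_right hF (by simpa using hδ.ne'))
  have h1 := key R (ne_top_of_lt hR')
  rw [hR] at h1
  calc N F ≤ C * rwt w R := h1
    _ ≤ C * (pnorm w F + δ) := by gcongr
    _ = C * pnorm w F + C * δ := by rw [mul_add]
    _ ≤ _ := by gcongr

/-- master lemma, linear map version -/
theorem bound_of_mono {X : Type*} [AddCommGroup X] [Module ℝ X] {N : X → ℝ≥0∞} (hN : ESemi N)
    (T : Gr V →ₗ[ℝ] X) {w : V → ℝ≥0∞} {C : ℝ≥0∞} (hC : C ≠ ∞)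
    (h : ∀ L : List V, mwt w L ≠ ∞ → N (T (mono L)) ≤ C * mwt w L) {F : Gr V}
    (hF : pnorm w F ≠ ∞) : N (T F) ≤ C * pnorm w F :=
  semi_le_of_mono (hN.comp T) hC h hF

/-- master lemma with constant one, without finiteness assumption -/
theorem semi_le_of_mono_one {N : Gr V → ℝ≥0∞} (hN : ESemi N) {w : V → ℝ≥0∞}
    (h : ∀ L : List V, mwt w L ≠ ∞ → N (mono L) ≤ mwt w L) (F : Gr V) : N F ≤ pnorm w F := by
  rcases eq_or_ne (pnorm w F) ∞ with hF | hF
  · rw [hF]; exact le_top
  · simpa using semi_le_of_mono hN ENNReal.one_ne_top (by simpa using h) hF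

theorem bound_of_mono_one {X : Type*} [AddCommGroup X] [Module ℝ X] {N : X → ℝ≥0∞}
    (hN : ESemi N) (T : Gr V →ₗ[ℝ] X) {w : V → ℝ≥0∞}
    (h : ∀ L : List V, mwt w L ≠ ∞ → N (T (mono L)) ≤ mwt w L) (F : Gr V) :
    N (T F) ≤ pnorm w F := semi_le_of_mono_one (hN.comp T) h F

theorem pnorm_le_pnorm {w w' : V → ℝ≥0∞} (h : ∀ l, w' l ≤ w l) (F : Gr V) :
    pnorm w' F ≤ pnorm w F :=
  semi_le_of_mono_one (pnorm_semi w') (fun L _ => (pnorm_mono_le _ _).trans (mwt_mono h L)) F

/-! ### products -/

theorem pnorm_mul_le {w : V → ℝ≥0∞} {F G : Gr V} (hF : pnorm w F ≠ ∞) (hG : pnorm w G ≠ ∞) :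
    pnorm w (F * G) ≤ pnorm w F * pnorm w G := by
  have h1 : ∀ L : List V, mwt w L ≠ ∞ → pnorm w (mono L * G) ≤ mwt w L * pnorm w G := by
    intro L hL
    refine bound_of_mono (pnorm_semi w) (LinearMap.mulLeft ℝ (mono L)) hL (fun L' _ => ?_) hG
    rw [LinearMap.mulLeft_apply, ← mono_append, ← mwt_append]
    exact pnorm_mono_le _ _
  have h2 := bound_of_mono (pnorm_semi w) (LinearMap.mulRight ℝ G) (C := pnorm w G) hG
    (fun L hL => by
      rw [LinearMap.mulRight_apply, mul_comm (pnorm w G)]; exact h1 L hL) hF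
  rw [mul_comm (pnorm w F)]
  exact h2

theorem pnorm_mul_le' {w : V → ℝ≥0∞} {F G : Gr V} {a b : ℝ≥0∞} (hF : pnorm w F ≤ a)
    (hG : pnorm w G ≤ b) (ha : a ≠ ∞) (hb : b ≠ ∞) : pnorm w (F * G) ≤ a * b :=
  (pnorm_mul_le (ne_top_of_le_ne_top ha hF) (ne_top_of_le_ne_top hb hG)).trans
    (mul_le_mul' hF hG)

theorem pnorm_pow_le {w : V → ℝ≥0∞} {F : Gr V} {a : ℝ≥0∞} (hF : pnorm w F ≤ a) (ha : a ≠ ∞)
    (n : ℕ) : pnorm w (F ^ n) ≤ a ^ n := by
  induction n with
  | zero => simpa using pnorm_one_le w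
  | succ n ih =>
    rw [pow_succ, pow_succ]
    exact pnorm_mul_le' ih hF (ENNReal.pow_ne_top ha) ha

/-! ### functoriality -/

theorem mwt_map {w : V → ℝ≥0∞} {w' : W → ℝ≥0∞} {f : V →ₗ[ℝ] W} (h : ∀ l, w' (f l) ≤ w l)
    (L : List V) : mwt w' (L.map f) ≤ mwt w L := by
  induction L with
  | nil => simp
  | cons x L ih => rw [List.map_cons, mwt_cons, mwt_cons]; exact mul_le_mul' (h x) ih

theorem pnorm_mp_le {w : V → ℝ≥0∞} {w' : W → ℝ≥0∞} (f : V →ₗ[ℝ] W) (h : ∀ l, w' (f l) ≤ w l)
    (F : Gr V) : pnorm w' (mp f F) ≤ pnorm w F :=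
  bound_of_mono_one (pnorm_semi w') (mp f).toLinearMap (fun L _ => by
    rw [AlgHom.toLinearMap_apply, mp_mono]
    exact (pnorm_mono_le _ _).trans (mwt_map h L)) F

theorem pnorm_inv'_le (w : V → ℝ≥0∞) (F : Gr V) : pnorm w (inv' F) ≤ pnorm w F :=
  bound_of_mono_one (pnorm_semi w) (inv' (V := V)).toLinearMap (fun L _ => by
    rw [AlgHom.toLinearMap_apply, inv'_mono]
    refine (pnorm_smul_le _ _ _).trans ?_
    refine le_trans (le_of_eq ?_) (pnorm_mono_le w L)
    have : ‖((-1 : ℝ) ^ L.length)‖ₑ = 1 := by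
      rw [← ofReal_norm]; simp
    rw [this, one_mul]) F

/-! ### splittings of a list and the addition formula -/

/-- all splittings of a list in two complementary sublists, with the sign of the shuffle -/
def splits : List V → List (ℝ × List V × List V)
  | [] => [(1, [], [])]
  | x :: L => (splits L).map (fun s => (s.1, x :: s.2.1, s.2.2)) ++
      (splits L).map (fun s => (s.1 * (-1) ^ s.2.1.length, s.2.1, x :: s.2.2))

theorem splits_sign (L : List V) : ∀ s ∈ splits L, ‖s.1‖ₑ = 1 := by
  induction L with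
  | nil => intro s hs; simp only [splits, List.mem_singleton] at hs; subst hs; simp
  | cons x L ih =>
    intro s hs
    simp only [splits, List.mem_append, List.mem_map] at hs
    rcases hs with ⟨t, ht, rfl⟩ | ⟨t, ht, rfl⟩
    · exact ih t ht
    · have : ‖((-1 : ℝ) ^ t.2.1.length)‖ₑ = 1 := by
        rw [← ofReal_norm]; simp
      simp [enorm_mul, ih t ht, this]

/-- the sum over all splittings of a product is a product of sums -/
theorem sum_splits (u v : V → ℝ≥0∞) (L : List V) :
    ((splits L).map fun s => mwt u s.2.1 * mwt v s.2.2).sum = mwt (fun l => u l + v l) L := by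
  induction L with
  | nil => simp [splits]
  | cons x L ih =>
    rw [splits, List.map_append, List.sum_append, List.map_map, List.map_map, mwt_cons, ← ih,
      add_mul, ← List.sum_map_mul_left, ← List.sum_map_mul_left]
    congr 1
    · refine congrArg List.sum (List.map_congr_left fun s _ => ?_)
      simp [mul_assoc]
    · refine congrArg List.sum (List.map_congr_left fun s _ => ?_)
      simp only [Function.comp, mwt_cons]; ring

/-- **addition formula** for the algebra map of a sum of two linear maps -/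
theorem mp_add_mono (f g : V →ₗ[ℝ] W) (L : List V) :
    mp (f + g) (mono L) =
      ((splits L).map fun s => s.1 • (mono (s.2.1.map f) * mono (s.2.2.map g))).sum := by
  induction L with
  | nil => simp [splits]
  | cons x L ih =>
    rw [mono_cons, map_mul, ih, splits, List.map_append, List.sum_append, List.map_map,
      List.map_map, mp_fi, LinearMap.add_apply, fi_add, add_mul, ← List.sum_map_mul_left,
      ← List.sum_map_mul_left]
    congr 1
    · refine congrArg List.sum (List.map_congr_left fun s _ => ?_)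
      simp [mul_assoc]
    · refine congrArg List.sum (List.map_congr_left fun s _ => ?_)
      simp only [Function.comp, List.map_cons, mono_cons]
      rw [mul_smul_comm, ← mul_assoc, fi_mul_comm (g x), inv'_mono, List.length_map,
        smul_mul_assoc, smul_mul_assoc, smul_smul, mul_assoc]

/-- **splitting formula for the Gaussian convolution** -/
theorem conv_mono (S : Cov V) (L : List V) :
    conv S (mono L) = ((splits L).map fun s => s.1 • (EE S (mono s.2.2) • mono s.2.1)).sum := by
  -- the doubled space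
  let T : Cov (V × V) := ⟨S.b.compl₁₂ (LinearMap.snd ℝ V V) (LinearMap.snd ℝ V V),
    fun x => by simp [S.alt]⟩
  let di : V →ₗ[ℝ] V × V := LinearMap.inl ℝ V V + LinearMap.inr ℝ V V
  have h1 : mp (LinearMap.fst ℝ V V) (mp di (conv S (mono L))) = conv S (mono L) := by
    have hc : ∀ a : Gr V, mp (LinearMap.fst ℝ V V) (mp di a) = a := by
      intro a
      induction a using Gr.induction with
      | h0 r => simp
      | h1 x a ih => simp only [map_mul, mp_fi, ih]; simp [di]
      | h2 a b iha ihb => simp only [map_add, iha, ihb]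
    exact hc _
  have h2 : mp di (conv S (mono L)) = conv T (mp di (mono L)) :=
    mp_conv di S T (fun x y => by simp [T, di]) _
  have h3 : ∀ A B : List V, mp (LinearMap.fst ℝ V V)
      (conv T (mono (A.map (LinearMap.inl ℝ V V)) * mono (B.map (LinearMap.inr ℝ V V)))) =
      EE S (mono B) • mono A := by
    intro A B
    have hB : mp (LinearMap.fst ℝ V V) (conv T (mono (B.map (LinearMap.inr ℝ V V)))) =
        algebraMap ℝ _ (EE S (mono B)) := by
      rw [← mp_mono, ← mp_conv (LinearMap.inr ℝ V V) S T (fun x y => by simp [T])]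
      have hc : ∀ a : Gr V, mp (LinearMap.fst ℝ V V) (mp (LinearMap.inr ℝ V V) a) =
          algebraMap ℝ _ (ct a) := by
        intro a
        induction a using Gr.induction with
        | h0 r => simp
        | h1 x a ih => simp only [map_mul, mp_fi, ih, ct_fi]; simp
        | h2 a b iha ihb => simp only [map_add, iha, ihb]
      rw [hc, EE_apply]
    induction A with
    | nil => rw [List.map_nil, mono_nil, one_mul, hB, Algebra.algebraMap_eq_smul_one]; simp
    | cons x A ih =>
      have hz : T.b ((LinearMap.inl ℝ V V) x) = 0 := by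
        ext y <;> simp [T]
      rw [List.map_cons, mono_cons, mul_assoc, conv_fi_mul, hz, dd_zero_left, add_zero, map_mul,
        ih, mp_fi, mono_cons, mul_smul_comm]
      rfl
  rw [← h1, h2, mp_add_mono, map_list_sum, map_list_sum, List.map_map, List.map_map]
  refine congrArg List.sum (List.map_congr_left fun s _ => ?_)
  simp only [Function.comp]
  rw [map_smul, map_smul, h3]

/-! ### the Gram bound and the convolution bound -/

/-- `g` is a Gram weight for the covariance `S` -/
def Gram (S : Cov V) (g : V → ℝ≥0∞) : Prop := ∀ L : List V, ‖EE S (mono L)‖ₑ ≤ mwt g L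

/-- the same, for the lists of allowed atoms only -/
def GramOn (S : Cov V) (w g : V → ℝ≥0∞) : Prop :=
  ∀ L : List V, (∀ l ∈ L, w l ≠ ∞) → ‖EE S (mono L)‖ₑ ≤ mwt g L

theorem Gram.on {S : Cov V} {g : V → ℝ≥0∞} (h : Gram S g) (w : V → ℝ≥0∞) : GramOn S w g :=
  fun L _ => h L

/-- **the Gaussian expectation is bounded by the projective norm with Gram weights** -/
theorem EE_le_pnorm {S : Cov V} {g : V → ℝ≥0∞} (h : Gram S g) (F : Gr V) :
    ‖EE S F‖ₑ ≤ pnorm g F :=
  bound_of_mono_one ESemi.enorm (EE S) (fun L _ => h L) F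

theorem pnorm_conv_mono_le {S : Cov V} {g : V → ℝ≥0∞} (h : Gram S g) (w' : V → ℝ≥0∞)
    (L : List V) : pnorm w' (conv S (mono L)) ≤ mwt (fun l => w' l + g l) L := by
  rw [conv_mono, ← sum_splits]
  refine ((pnorm_semi w').list_sum _).trans ?_
  rw [List.map_map]
  refine List.sum_le_sum fun s hs => ?_
  simp only [Function.comp]
  refine (pnorm_smul_le _ _ _).trans ?_
  rw [splits_sign L s hs, one_mul]
  refine (pnorm_smul_le _ _ _).trans ?_
  rw [mul_comm]
  exact mul_le_mul' (pnorm_mono_le _ _) (h _)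

/-- **the convolution bound**: if `w' + g ≤ w` then the Gaussian convolution is a contraction -/
theorem pnorm_conv_le {S : Cov V} {g w w' : V → ℝ≥0∞} (h : Gram S g)
    (hw : ∀ l, w' l + g l ≤ w l) (F : Gr V) : pnorm w' (conv S F) ≤ pnorm w F :=
  bound_of_mono_one (pnorm_semi w') (conv S) (fun L _ =>
    (pnorm_conv_mono_le h w' L).trans (mwt_mono hw L)) F

end Crest.Agent.R165.PNormx417
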