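import Crest.Agent.R165.GrLoc_337
import Crest.Agent.R165.Gr1_606
import Crest.Agent.R165.PNorm_417

/-!
# Row 165 (S0250), block G: operations on the commutative ring `Ge V` of even elements (helper337)

`ctG` constant term, `cvG S` Gaussian convolution, `EEG S` expectation, `mpG f` functoriality,
`grG W` local subalgebras, `pG w` projective norm.
-/

set_option autoImplicit false

noncomputable section

namespace Crest.Agent.R165.GeOpsx337

open scoped ENNReal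
open Crest.Agent.R165.Gr0x606 Crest.Agent.R165.Gr1x606 Crest.Agent.R165.GrLocx337
  Crest.Agent.R165.PNormx417

variable {V : Type*} [AddCommGroup V] [Module ℝ V] {V' : Type*} [AddCommGroup V'] [Module ℝ V']
  {V'' : Type*} [AddCommGroup V''] [Module ℝ V'']

@[ext] theorem ge_ext {a b : Ge V} (h : (a : Gr V) = b) : a = b := Subtype.ext h

@[simp] theorem ge_coe_algebraMap (c : ℝ) :
    ((algebraMap ℝ (Ge V) c : Ge V) : Gr V) = algebraMap ℝ (Gr V) c := rfl

@[simp] theorem ge_coe_pow (a : Ge V) (n : ℕ) : ((a ^ n : Ge V) : Gr V) = (a : Gr V) ^ n := by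
  induction n with
  | zero => simp
  | succ n ih => rw [pow_succ, pow_succ, Ge.coe_mul, ih]

/-- the inclusion -/
def geVal (V : Type*) [AddCommGroup V] [Module ℝ V] : Ge V →ₐ[ℝ] Gr V := (Ge V).val

@[simp] theorem geVal_apply (a : Ge V) : geVal V a = (a : Gr V) := rfl

@[simp] theorem ge_coe_sum {ι : Type*} (s : Finset ι) (f : ι → Ge V) :
    ((∑ i ∈ s, f i : Ge V) : Gr V) = ∑ i ∈ s, (f i : Gr V) := by
  rw [← geVal_apply, map_sum]; rfl

/-- constant term -/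
def ctG : Ge V →ₐ[ℝ] ℝ := ct.comp (geVal V)

theorem ctG_apply (a : Ge V) : ctG a = ct (a : Gr V) := rfl

/-- Gaussian convolution on even elements -/
def cvG (S : Cov V) : Ge V →ₗ[ℝ] Ge V where
  toFun a := ⟨conv S a, IsEv.conv a.2 S⟩
  map_add' a b := ge_ext (by simp)
  map_smul' c a := ge_ext (by simp)

@[simp] theorem coe_cvG (S : Cov V) (a : Ge V) : ((cvG S a : Ge V) : Gr V) = conv S a := rfl

@[simp] theorem cvG_one (S : Cov V) : cvG S (1 : Ge V) = 1 := ge_ext (by simp)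

@[simp] theorem cvG_algebraMap (S : Cov V) (r : ℝ) :
    cvG S (algebraMap ℝ (Ge V) r) = algebraMap ℝ (Ge V) r := ge_ext (by simp)

theorem cvG_cvG (S T : Cov V) (a : Ge V) : cvG S (cvG T a) = cvG (S + T) a :=
  ge_ext (by simp [conv_conv])

@[simp] theorem cvG_zero (a : Ge V) : cvG (0 : Cov V) a = a := ge_ext (by simp)

/-- expectation -/
def EEG (S : Cov V) : Ge V →ₗ[ℝ] ℝ := (EE S).comp (geVal V).toLinearMap

theorem EEG_apply (S : Cov V) (a : Ge V) : EEG S a = EE S (a : Gr V) := rfl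

@[simp] theorem EEG_one (S : Cov V) : EEG S (1 : Ge V) = 1 := by simp [EEG_apply]

theorem EEG_cvG (S T : Cov V) (a : Ge V) : EEG S (cvG T a) = EEG (S + T) a := EE_conv S T _

theorem ctG_cvG (S : Cov V) (a : Ge V) : ctG (cvG S a) = EEG S a := rfl

/-- functoriality -/
def mpG (f : V →ₗ[ℝ] V') : Ge V →ₐ[ℝ] Ge V' where
  toFun a := ⟨mp f a, by
    have h := mp_inv' f (a : Gr V)
    rw [Ge.isEv a] at h
    exact h.symm⟩
  map_one' := ge_ext (by simp)
  map_mul' a b := ge_ext (by simp)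
  map_zero' := ge_ext (by simp)
  map_add' a b := ge_ext (by simp)
  commutes' r := ge_ext (by simp)

@[simp] theorem coe_mpG (f : V →ₗ[ℝ] V') (a : Ge V) : ((mpG f a : Ge V') : Gr V') = mp f a := rfl

@[simp] theorem mpG_bi (f : V →ₗ[ℝ] V') (x y : V) : mpG f (bi x y) = bi (f x) (f y) :=
  ge_ext (by simp)

theorem mpG_mpG (g : V' →ₗ[ℝ] V'') (f : V →ₗ[ℝ] V') (a : Ge V) :
    mpG g (mpG f a) = mpG (g ∘ₗ f) a := ge_ext (by simp [mp_mp])

theorem ctG_mpG (f : V →ₗ[ℝ] V') (a : Ge V) : ctG (mpG f a) = ctG a := by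
  rw [ctG_apply, ctG_apply, coe_mpG, ct_mp]

/-! ### local subalgebras -/

/-- even elements in the algebra generated by the fields in `W` -/
def grG (W : Submodule ℝ V) : Subalgebra ℝ (Ge V) := (gr W).comap (geVal V)

theorem mem_grG {W : Submodule ℝ V} {a : Ge V} : a ∈ grG W ↔ (a : Gr V) ∈ gr W := Iff.rfl

theorem grG_mono {W W' : Submodule ℝ V} (h : W ≤ W') : grG W ≤ grG W' :=
  fun _ ha => gr_mono h ha

theorem cvG_mem (S : Cov V) {W : Submodule ℝ V} {a : Ge V} (ha : a ∈ grG W) : cvG S a ∈ grG W :=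
  conv_mem_gr S ha

theorem cvG_congr {S T : Cov V} {W : Submodule ℝ V} (h : ∀ x ∈ W, ∀ y ∈ W, S.b x y = T.b x y)
    {a : Ge V} (ha : a ∈ grG W) : cvG S a = cvG T a := ge_ext (conv_congr h ha)

/-- local naturality -/
theorem mpG_cvG (f : V →ₗ[ℝ] V') {S : Cov V} {T : Cov V'} {W : Submodule ℝ V}
    (h : ∀ x ∈ W, ∀ y ∈ W, S.b x y = T.b (f x) (f y)) {a : Ge V} (ha : a ∈ grG W) :
    mpG f (cvG S a) = cvG T (mpG f a) := ge_ext (mp_conv_local f h ha)

theorem mpG_congr {f g : V →ₗ[ℝ] V'} {W : Submodule ℝ V} (h : ∀ x ∈ W, f x = g x) {a : Ge V}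
    (ha : a ∈ grG W) : mpG f a = mpG g a := ge_ext (mp_congr h ha)

theorem mpG_mem (f : V →ₗ[ℝ] V') {W : Submodule ℝ V} {W' : Submodule ℝ V'}
    (h : ∀ x ∈ W, f x ∈ W') {a : Ge V} (ha : a ∈ grG W) : mpG f a ∈ grG W' := by
  have h1 : W.map f ≤ W' := by
    rintro _ ⟨x, hx, rfl⟩
    exact h x hx
  exact gr_mono h1 (mp_mem_gr_map f ha)

/-! ### factorisation of the convolution -/

theorem dd_eq_zero_of_gr {W : Submodule ℝ V} {l : Module.Dual ℝ V} (h : ∀ y ∈ W, l y = 0)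
    {a : Gr V} (ha : a ∈ gr W) : dd l a = 0 := dd_eq_zero_of_mem l h ha

/-- the convolution factorises when the covariance between the two sets of fields vanishes -/
theorem cvG_mul (S : Cov V) {W W' : Submodule ℝ V} (h : ∀ x ∈ W, ∀ y ∈ W', S.b x y = 0)
    {a b : Ge V} (ha : a ∈ grG W) (hb : b ∈ grG W') : cvG S (a * b) = cvG S a * cvG S b := by
  apply ge_ext
  rw [coe_cvG, Ge.coe_mul, Ge.coe_mul, coe_cvG, coe_cvG]
  exact conv_mul S (W : Set V) a b ha fun x hx => dd_eq_zero_of_gr (h x hx) hb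

/-! ### the norm -/

/-- the projective norm on the even ring -/
def pG (w : V → ℝ≥0∞) (a : Ge V) : ℝ≥0∞ := pnorm w (a : Gr V)

theorem pG_def (w : V → ℝ≥0∞) (a : Ge V) : pG w a = pnorm w (a : Gr V) := rfl

theorem pG_add_le (w : V → ℝ≥0∞) (a b : Ge V) : pG w (a + b) ≤ pG w a + pG w b :=
  pnorm_add_le w _ _

theorem pG_sub_le (w : V → ℝ≥0∞) (a b : Ge V) : pG w (a - b) ≤ pG w a + pG w b :=
  pnorm_sub_le w _ _

@[simp] theorem pG_neg (w : V → ℝ≥0∞) (a : Ge V) : pG w (-a) = pG w a := pnorm_neg w _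

theorem pG_smul_le (w : V → ℝ≥0∞) (c : ℝ) (a : Ge V) : pG w (c • a) ≤ ‖c‖ₑ * pG w a :=
  pnorm_smul_le w c _

@[simp] theorem pG_zero (w : V → ℝ≥0∞) : pG w (0 : Ge V) = 0 := pnorm_zero w

theorem pG_one_le (w : V → ℝ≥0∞) : pG w (1 : Ge V) ≤ 1 := pnorm_one_le w

theorem pG_sum_le (w : V → ℝ≥0∞) {ι : Type*} (s : Finset ι) (f : ι → Ge V) :
    pG w (∑ i ∈ s, f i) ≤ ∑ i ∈ s, pG w (f i) := by
  rw [pG_def, ge_coe_sum]
  exact pnorm_sum_le w s _

theorem pG_mul_le' {w : V → ℝ≥0∞} {a b : Ge V} {x y : ℝ≥0∞} (ha : pG w a ≤ x) (hb : pG w b ≤ y)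
    (hx : x ≠ ∞) (hy : y ≠ ∞) : pG w (a * b) ≤ x * y := pnorm_mul_le' ha hb hx hy

theorem pG_pow_le {w : V → ℝ≥0∞} {a : Ge V} {x : ℝ≥0∞} (ha : pG w a ≤ x) (hx : x ≠ ∞) (n : ℕ) :
    pG w (a ^ n) ≤ x ^ n := by
  rw [pG_def, ge_coe_pow]; exact pnorm_pow_le ha hx n

theorem pG_prod_le {w : V → ℝ≥0∞} {ι : Type*} (s : Finset ι) (f : ι → Ge V) (x : ι → ℝ≥0∞)
    (h : ∀ i ∈ s, pG w (f i) ≤ x i) (hx : ∀ i ∈ s, x i ≠ ∞) :
    pG w (∏ i ∈ s, f i) ≤ ∏ i ∈ s, x i := by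
  classical
  induction s using Finset.induction_on with
  | empty => simpa using pG_one_le w
  | insert i s hi ih =>
    rw [Finset.prod_insert hi, Finset.prod_insert hi]
    refine pG_mul_le' (h i (Finset.mem_insert_self _ _))
      (ih (fun j hj => h j (Finset.mem_insert_of_mem hj))
        (fun j hj => hx j (Finset.mem_insert_of_mem hj))) (hx i (Finset.mem_insert_self _ _)) ?_
    exact ENNReal.prod_ne_top fun j hj => hx j (Finset.mem_insert_of_mem hj)

end Crest.Agent.R165.GeOpsx337
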