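import Crest.Agent.R165.PlaneModes_901

/-!
# Row 165 (S0250), block G5: localisation at a face of the plane

* `Loc_mp3` : covariance of the localisation under a linear map, for elements living on a part of
  the space (charts)
* `phiA y, phiB y` : local functionals dual to the constant modes; `D1 Φ, D2 Φ` central differences
* `md y : Modes (Fld ℤ) (Fin 2) (Fin 4)` and its biorthogonality
* `LocAt y := Loc (md y)`; `mass y`, `kin y`; covariance under translations, rotation, reflection;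
* `LocAt_covariant` : a D4(y)-covariant element has `LocAt y a = κ • mass y + z • kin y`
-/

set_option autoImplicit false

noncomputable section

namespace Crest.Agent.R165.PlaneLocx901

open Crest.Agent.R165.Gr0x606
open Crest.Agent.R165.Latx683
open Crest.Agent.R165.Locx901
open Crest.Agent.R165.PlaneModesx901

section general

variable {V₀ V W : Type*} [AddCommGroup V₀] [Module ℝ V₀] [AddCommGroup V] [Module ℝ V]
  [AddCommGroup W] [Module ℝ W]

theorem Loc_mp3_aux {σ τ : Type*} [Fintype σ] [Fintype τ] (inc : V₀ →ₗ[ℝ] V) (g : V →ₗ[ℝ] W)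
    (c : ℝ) (m : σ → Module.Dual ℝ V) (p : σ → V) (n : τ → Module.Dual ℝ V) (q : τ → V)
    (m' : σ → Module.Dual ℝ W) (p' : σ → W) (n' : τ → Module.Dual ℝ W) (q' : τ → W)
    (G : σ → σ → ℝ) (H : τ → τ → ℝ)
    (hm : ∀ i, (m' i ∘ₗ g) ∘ₗ inc = ∑ i', G i i' • (m i' ∘ₗ inc))
    (hn : ∀ j, (n' j ∘ₗ g) ∘ₗ inc = ∑ j', H j j' • (n j' ∘ₗ inc))
    (hp : ∀ i', g (p i') = ∑ i, G i i' • p' i) (hq : ∀ j', g (q j') = ∑ j, H j j' • q' j)
    (b : Gr V₀) :
    ∑ i, ∑ j, (c * form (mp g (mp inc b)) (m' i) (n' j)) • (fi (p' i) * fi (q' j)) =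
      mp g (∑ i, ∑ j, (c * form (mp inc b) (m i) (n j)) • (fi (p i) * fi (q j))) := by
  have e1 : ∀ i, mp g (∑ i', (c * form (mp inc b) (m i) (n i')) •
      (fi (p i) * fi (q i'))) = ∑ i', ∑ j, ∑ j', (c * (G j i * (H j' i' *
        form (mp inc b) (m i) (n i')))) • (fi (p' j) * fi (q' j')) := by
    intro i
    rw [map_sum]
    refine Finset.sum_congr rfl fun i' _ => ?_
    rw [map_smul, map_mul, mp_fi, mp_fi, hp, hq, fi_sum_smul, fi_sum_smul, Finset.sum_mul_sum,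
      Finset.smul_sum]
    refine Finset.sum_congr rfl fun j _ => ?_
    rw [Finset.smul_sum]
    refine Finset.sum_congr rfl fun j' _ => ?_
    rw [smul_mul_smul_comm, smul_smul]
    congr 1; ring
  have e2 : ∀ j j', (c * form (mp g (mp inc b)) (m' j) (n' j')) •
      (fi (p' j) * fi (q' j')) = ∑ i, ∑ i', (c * (G j i * (H j' i' *
        form (mp inc b) (m i) (n i')))) • (fi (p' j) * fi (q' j')) := by
    intro j j'
    rw [form_mp, form_mp, hm, hn, form_sum_left]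
    simp only [form_sum_right, Finset.mul_sum, Finset.sum_smul, form_mp]
  rw [map_sum]
  simp only [e1, e2]
  exact sum4_comm _

variable {ι κ : Type*} [Fintype ι] [Fintype κ]

/-- covariance of the localisation, for elements living on the range of `inc` -/
theorem Loc_mp3 (inc : V₀ →ₗ[ℝ] V) (g : V →ₗ[ℝ] W) (M : Modes V ι κ) (M' : Modes W ι κ)
    (G : ι → ι → ℝ) (H : κ → κ → ℝ)
    (hm : ∀ i, (M'.m i ∘ₗ g) ∘ₗ inc = ∑ i', G i i' • (M.m i' ∘ₗ inc))
    (hn : ∀ j, (M'.n j ∘ₗ g) ∘ₗ inc = ∑ j', H j j' • (M.n j' ∘ₗ inc))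
    (hp : ∀ i', g (M.p i') = ∑ i, G i i' • M'.p i) (hq : ∀ j', g (M.q j') = ∑ j, H j j' • M'.q j)
    (b : Gr V₀) : Loc M' (mp g (mp inc b)) = mp g (Loc M (mp inc b)) := by
  have h1 := Loc_mp3_aux inc g (1 / 2) M.m M.p M.m M.p M'.m M'.p M'.m M'.p G G hm hm hp hp b
  have h2 := Loc_mp3_aux inc g 1 M.m M.p M.n M.q M'.m M'.p M'.n M'.q G H hm hn hp hq b
  simp only [one_mul] at h2
  rw [Loc_apply, Loc_apply, map_add, h1, h2]

theorem mp_id' (a : Gr V) : mp (LinearMap.id : V →ₗ[ℝ] V) a = a := by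
  induction a using Gr.induction with
  | h0 r => simp
  | h1 x a ih => rw [map_mul, mp_fi, ih, LinearMap.id_apply]
  | h2 a b iha ihb => rw [map_add, iha, ihb]

/-- covariance of the localisation between two systems of modes -/
theorem Loc_mp2 (g : V →ₗ[ℝ] W) (M : Modes V ι κ) (M' : Modes W ι κ)
    (G : ι → ι → ℝ) (H : κ → κ → ℝ)
    (hm : ∀ i, M'.m i ∘ₗ g = ∑ i', G i i' • M.m i')
    (hn : ∀ j, M'.n j ∘ₗ g = ∑ j', H j j' • M.n j')
    (hp : ∀ i', g (M.p i') = ∑ i, G i i' • M'.p i) (hq : ∀ j', g (M.q j') = ∑ j, H j j' • M'.q j)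
    (a : Gr V) : Loc M' (mp g a) = mp g (Loc M a) := by
  have h := Loc_mp3 (LinearMap.id : V →ₗ[ℝ] V) g M M' G H (fun i => by rw [LinearMap.comp_id, hm]; rfl)
    (fun j => by rw [LinearMap.comp_id, hn]; rfl) hp hq a
  rwa [mp_id'] at h

end general

/-! ### local functionals -/

/-- the elementary field of a half-edge, as a vector -/
abbrev dl (x : Fc) (d : Fin 4) : Fld ℤ := Finsupp.single (x, d) 1

/-- value of the first light component at the face `x` -/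
def phiA (x : Fc) : Fld ℤ := (1 / 2 : ℝ) • (-(r2 / 2) • dl x 0 + dl x 1 - (r2 / 2) • dl x 2)

/-- value of the second light component at the face `x` -/
def phiB (x : Fc) : Fld ℤ := (1 / 2 : ℝ) • (-(r2 / 2) • dl x 0 + (r2 / 2) • dl x 2 - dl x 3)

theorem ev_phiA (f : Tst) (x : Fc) :
    ev f (phiA x) = (1 / 2) * (-(r2 / 2) * f (x, 0) + f (x, 1) - (r2 / 2) * f (x, 2)) := by
  simp only [phiA, dl, map_smul, map_add, map_sub, ev_single, smul_eq_mul, one_mul]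

theorem ev_phiB (f : Tst) (x : Fc) :
    ev f (phiB x) = (1 / 2) * (-(r2 / 2) * f (x, 0) + (r2 / 2) * f (x, 2) - f (x, 3)) := by
  simp only [phiB, dl, map_smul, map_add, map_sub, ev_single, smul_eq_mul, one_mul]

/-- central differences -/
def D1 (Φ : Fc → Fld ℤ) (x : Fc) : Fld ℤ := (1 / 2 : ℝ) • (Φ (x.1 + 1, x.2) - Φ (x.1 - 1, x.2))

/-- central differences -/
def D2 (Φ : Fc → Fld ℤ) (x : Fc) : Fld ℤ := (1 / 2 : ℝ) • (Φ (x.1, x.2 + 1) - Φ (x.1, x.2 - 1))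

/-- the functionals of order one -/
def qU (x : Fc) : Fld ℤ := (1 / 2 : ℝ) • (D1 phiA x + D2 phiB x)
/-- the functionals of order one -/
def qV (x : Fc) : Fld ℤ := (1 / 2 : ℝ) • (D1 phiB x - D2 phiA x)
/-- the functionals of order one -/
def qS (x : Fc) : Fld ℤ := (1 / 2 : ℝ) • (D1 phiA x - D2 phiB x)
/-- the functionals of order one -/
def qT (x : Fc) : Fld ℤ := (1 / 2 : ℝ) • (D1 phiB x + D2 phiA x)

theorem ev_phiA_m0 (a b : ℝ) (x : Fc) : ev (m0 a b) (phiA x) = a := by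
  have h2 := r2_sq
  rw [ev_phiA]; simp only [m0, lt_S, lt_E, lt_N]; grind

theorem ev_phiB_m0 (a b : ℝ) (x : Fc) : ev (m0 a b) (phiB x) = b := by
  have h2 := r2_sq
  rw [ev_phiB]; simp only [m0, lt_S, lt_N, lt_W]; grind

theorem ev_phiA_m1 (y : Fc) (u v s t : ℝ) (x : Fc) : ev (m1 y u v s t) (phiA x) =
    (u + s) * (x.1 - y.1 : ℤ) + (t - v) * (x.2 - y.2 : ℤ) := by
  have h2 := r2_sq
  rw [ev_phiA]
  simp only [m1, lt_S, lt_E, lt_N, hv_S, hv_E, hv_N, Pi.add_apply, Pi.smul_apply, smul_eq_mul]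
  grind

theorem ev_phiB_m1 (y : Fc) (u v s t : ℝ) (x : Fc) : ev (m1 y u v s t) (phiB x) =
    (v + t) * (x.1 - y.1 : ℤ) + (u - s) * (x.2 - y.2 : ℤ) := by
  have h2 := r2_sq
  rw [ev_phiB]
  simp only [m1, lt_S, lt_W, lt_N, hv_S, hv_W, hv_N, Pi.add_apply, Pi.smul_apply, smul_eq_mul]
  grind

theorem ev_D1 (f : Tst) (Φ : Fc → Fld ℤ) (x : Fc) : ev f (D1 Φ x) =
    (1 / 2) * (ev f (Φ (x.1 + 1, x.2)) - ev f (Φ (x.1 - 1, x.2))) := by
  simp only [D1, map_smul, map_sub, smul_eq_mul]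

theorem ev_D2 (f : Tst) (Φ : Fc → Fld ℤ) (x : Fc) : ev f (D2 Φ x) =
    (1 / 2) * (ev f (Φ (x.1, x.2 + 1)) - ev f (Φ (x.1, x.2 - 1))) := by
  simp only [D2, map_smul, map_sub, smul_eq_mul]

theorem ev_D1A_m0 (a b : ℝ) (x : Fc) : ev (m0 a b) (D1 phiA x) = 0 := by
  rw [ev_D1, ev_phiA_m0, ev_phiA_m0]; ring
theorem ev_D2A_m0 (a b : ℝ) (x : Fc) : ev (m0 a b) (D2 phiA x) = 0 := by
  rw [ev_D2, ev_phiA_m0, ev_phiA_m0]; ring
theorem ev_D1B_m0 (a b : ℝ) (x : Fc) : ev (m0 a b) (D1 phiB x) = 0 := by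
  rw [ev_D1, ev_phiB_m0, ev_phiB_m0]; ring
theorem ev_D2B_m0 (a b : ℝ) (x : Fc) : ev (m0 a b) (D2 phiB x) = 0 := by
  rw [ev_D2, ev_phiB_m0, ev_phiB_m0]; ring

theorem ev_D1A_m1 (y : Fc) (u v s t : ℝ) (x : Fc) : ev (m1 y u v s t) (D1 phiA x) = u + s := by
  rw [ev_D1, ev_phiA_m1, ev_phiA_m1]; push_cast; ring
theorem ev_D2A_m1 (y : Fc) (u v s t : ℝ) (x : Fc) : ev (m1 y u v s t) (D2 phiA x) = t - v := by
  rw [ev_D2, ev_phiA_m1, ev_phiA_m1]; push_cast; ring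
theorem ev_D1B_m1 (y : Fc) (u v s t : ℝ) (x : Fc) : ev (m1 y u v s t) (D1 phiB x) = v + t := by
  rw [ev_D1, ev_phiB_m1, ev_phiB_m1]; push_cast; ring
theorem ev_D2B_m1 (y : Fc) (u v s t : ℝ) (x : Fc) : ev (m1 y u v s t) (D2 phiB x) = u - s := by
  rw [ev_D2, ev_phiB_m1, ev_phiB_m1]; push_cast; ring

theorem ev_qU_m1 (y : Fc) (u v s t : ℝ) (x : Fc) : ev (m1 y u v s t) (qU x) = u := by
  simp only [qU, map_smul, map_add, ev_D1A_m1, ev_D2B_m1, smul_eq_mul]; ring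
theorem ev_qV_m1 (y : Fc) (u v s t : ℝ) (x : Fc) : ev (m1 y u v s t) (qV x) = v := by
  simp only [qV, map_smul, map_sub, ev_D1B_m1, ev_D2A_m1, smul_eq_mul]; ring
theorem ev_qS_m1 (y : Fc) (u v s t : ℝ) (x : Fc) : ev (m1 y u v s t) (qS x) = s := by
  simp only [qS, map_smul, map_sub, ev_D1A_m1, ev_D2B_m1, smul_eq_mul]; ring
theorem ev_qT_m1 (y : Fc) (u v s t : ℝ) (x : Fc) : ev (m1 y u v s t) (qT x) = t := by
  simp only [qT, map_smul, map_add, ev_D1B_m1, ev_D2A_m1, smul_eq_mul]; ring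
theorem ev_qU_m0 (a b : ℝ) (x : Fc) : ev (m0 a b) (qU x) = 0 := by
  simp only [qU, map_smul, map_add, ev_D1A_m0, ev_D2B_m0, smul_eq_mul]; ring
theorem ev_qV_m0 (a b : ℝ) (x : Fc) : ev (m0 a b) (qV x) = 0 := by
  simp only [qV, map_smul, map_sub, ev_D1B_m0, ev_D2A_m0, smul_eq_mul]; ring
theorem ev_qS_m0 (a b : ℝ) (x : Fc) : ev (m0 a b) (qS x) = 0 := by
  simp only [qS, map_smul, map_sub, ev_D1A_m0, ev_D2B_m0, smul_eq_mul]; ring
theorem ev_qT_m0 (a b : ℝ) (x : Fc) : ev (m0 a b) (qT x) = 0 := by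
  simp only [qT, map_smul, map_add, ev_D1B_m0, ev_D2A_m0, smul_eq_mul]; ring

/-- the system of modes at the face `y` -/
def md (y : Fc) : Modes (Fld ℤ) (Fin 2) (Fin 4) where
  m := ![ev (m0 1 0), ev (m0 0 1)]
  p := ![phiA y, phiB y]
  n := ![ev (m1 y 1 0 0 0), ev (m1 y 0 1 0 0), ev (m1 y 0 0 1 0), ev (m1 y 0 0 0 1)]
  q := ![qU y, qV y, qS y, qT y]

theorem md_dual (y : Fc) : (md y).Dual where
  mp i i' := by
    fin_cases i <;> fin_cases i' <;> simp [md, ev_phiA_m0, ev_phiB_m0]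
  mq i j := by
    fin_cases i <;> fin_cases j <;> simp [md, ev_qU_m0, ev_qV_m0, ev_qS_m0, ev_qT_m0]
  np j i := by
    fin_cases i <;> fin_cases j <;> simp [md, ev_phiA_m1, ev_phiB_m1]
  nq j j' := by
    fin_cases j <;> fin_cases j' <;> simp [md, ev_qU_m1, ev_qV_m1, ev_qS_m1, ev_qT_m1]

/-- localisation at the face `y` -/
def LocAt (y : Fc) : Gr (Fld ℤ) →ₗ[ℝ] Gr (Fld ℤ) := Loc (md y)

/-- the mass term at the face `y` -/
def mass (y : Fc) : Gr (Fld ℤ) := fi (phiA y) * fi (phiB y)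

/-- the kinetic term at the face `y` -/
def kin (y : Fc) : Gr (Fld ℤ) := fi (phiA y) * fi (qT y) + fi (phiB y) * fi (qS y)

/-- coefficient of the mass term -/
def cMass : Gr (Fld ℤ) →ₗ[ℝ] ℝ := formL (ev (m0 1 0)) (ev (m0 0 1))

/-- coefficient of the kinetic term -/
def cKin (y : Fc) : Gr (Fld ℤ) →ₗ[ℝ] ℝ := formL (ev (m0 1 0)) (ev (m1 y 0 0 0 1))

theorem LocAt_expand (y : Fc) (a : Gr (Fld ℤ)) : LocAt y a =
    cMass a • mass y +
    (form a (ev (m0 1 0)) (ev (m1 y 1 0 0 0)) • (fi (phiA y) * fi (qU y)) +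
     form a (ev (m0 1 0)) (ev (m1 y 0 1 0 0)) • (fi (phiA y) * fi (qV y)) +
     form a (ev (m0 1 0)) (ev (m1 y 0 0 1 0)) • (fi (phiA y) * fi (qS y)) +
     form a (ev (m0 1 0)) (ev (m1 y 0 0 0 1)) • (fi (phiA y) * fi (qT y)) +
     form a (ev (m0 0 1)) (ev (m1 y 1 0 0 0)) • (fi (phiB y) * fi (qU y)) +
     form a (ev (m0 0 1)) (ev (m1 y 0 1 0 0)) • (fi (phiB y) * fi (qV y)) +
     form a (ev (m0 0 1)) (ev (m1 y 0 0 1 0)) • (fi (phiB y) * fi (qS y)) +
     form a (ev (m0 0 1)) (ev (m1 y 0 0 0 1)) • (fi (phiB y) * fi (qT y))) := by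
  have h1 : form a (ev (m0 0 1)) (ev (m0 1 0)) = -form a (ev (m0 1 0)) (ev (m0 0 1)) :=
    form_swap _ _ _
  have h2 : fi (phiB y) * fi (phiA y) = -(fi (phiA y) * fi (phiB y)) := fi_anti _ _
  rw [LocAt, Loc_apply]
  simp only [md, Fin.sum_univ_two, Fin.sum_univ_four, Matrix.cons_val_zero, Matrix.cons_val_one,
    Matrix.cons_val, form_self, mul_zero, zero_smul, zero_add, add_zero, h1, h2]
  simp only [cMass, formL_apply, mass]
  rw [smul_neg, mul_neg, neg_smul, neg_neg, ← add_smul]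
  have h3 : (1 / 2 : ℝ) * form a (ev (m0 1 0)) (ev (m0 0 1)) +
      (1 / 2 : ℝ) * form a (ev (m0 1 0)) (ev (m0 0 1)) = form a (ev (m0 1 0)) (ev (m0 0 1)) := by
    ring
  rw [h3]
  abel

/-- the form of an element on test functions -/
def formT (a : Gr (Fld ℤ)) : Tst →ₗ[ℝ] Tst →ₗ[ℝ] ℝ :=
  LinearMap.mk₂ ℝ (fun f g => form a (ev f) (ev g))
    (fun f f' g => by rw [ev_add, form_add_left])
    (fun c f g => by rw [ev_smul, form_smul_left, smul_eq_mul])
    (fun f g g' => by rw [ev_add, form_add_right])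
    (fun c f g => by rw [ev_smul, form_smul_right, smul_eq_mul])

@[simp] theorem formT_apply (a : Gr (Fld ℤ)) (f g : Tst) : formT a f g = form a (ev f) (ev g) := rfl

/-- **an element covariant under the symmetries of the face `y` has a two-parameter local part** -/
theorem LocAt_covariant (y : Fc) (a : Gr (Fld ℤ)) (hr : mp (rhoV y) a = a)
    (hs : rev' (mp (sigV y) a) = a) : LocAt y a = cMass a • mass y + cKin y a • kin y := by
  have Hr : ∀ f g, formT a (rhoS y f) (rhoS y g) = formT a f g := by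
    intro f g
    rw [formT_apply, formT_apply, ← ev_rhoV, ← ev_rhoV, ← form_mp, hr]
  have Hs : ∀ f g, formT a (sigS y f) (sigS y g) = -formT a f g := by
    intro f g
    rw [formT_apply, formT_apply, ← ev_sigV, ← ev_sigV, ← form_mp]
    nth_rewrite 2 [← hs]
    rw [form_rev', neg_neg]
  have key := fun a' b' u v s t => form_m1 (formT a) y Hr Hs a' b' u v s t
  simp only [formT_apply] at key
  rw [LocAt_expand, key 1 0 1 0 0 0, key 1 0 0 1 0 0, key 1 0 0 0 1 0, key 0 1 1 0 0 0,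
    key 0 1 0 1 0 0, key 0 1 0 0 1 0, key 0 1 0 0 0 1]
  simp only [cKin, formL_apply, kin]
  simp only [mul_zero, mul_one, zero_mul, add_zero, zero_add, zero_smul, one_mul, smul_add]

end Crest.Agent.R165.PlaneLocx901
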