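import Crest.Agent.R165.BgIso2_432
import Crest.Agent.R165.BoxRay_432
import Crest.Agent.R165.PlaneLoc_901
import Crest.Agent.R165.GeOps_337

/-!
# Row 165 (S0250): uniqueness of plane charts, localisation through a chart (helper432)

* `ball_const` : a function on a ball which does not change along steps is constant
* `chart_sgn`, `chart_tau` : two plane charts of a ball differ by a translation and a global sign
* `BgIso.LocC` : the localisation of 901 at the face `f` through a plane chart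
* `LocC_nat` : naturality under isomorphisms of backgrounds, `LocC_indep` : independence of the chart
* `LocC_mem` : locality; `LocC_even`; `BgIso.LocG` : the same on `Ge`
-/

set_option autoImplicit false

noncomputable section

open scoped ENNReal Classical
open Crest.Agent.R165.Gr0x606 Crest.Agent.R165.Latx683 Crest.Agent.R165.GDefx387
open Crest.Agent.R165.PNormx417 Crest.Agent.R165.GrLocx337

namespace Crest.Agent.R165.BgIsox432

/-! ### functions constant along steps -/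

/-- a function on a ball which does not change along steps is constant -/
theorem ball_const {G : Type} [CommRing G] [CN G] [CNZ G] {α : Type*} {x : G × G} {R : ℕ}
    (u : G × G → α)
    (h1 : ∀ f ∈ ball x R, ((f.1 + 1, f.2) : G × G) ∈ ball x R → u (f.1 + 1, f.2) = u f)
    (h2 : ∀ f ∈ ball x R, ((f.1, f.2 + 1) : G × G) ∈ ball x R → u (f.1, f.2 + 1) = u f) :
    ∀ g ∈ ball x R, u g = u x := by
  have hmem : ∀ m n : ℤ, m.natAbs ≤ R → n.natAbs ≤ R → ((x.1 + m, x.2 + n) : G × G) ∈ ball x R := by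
    intro m n hm hn
    rw [mem_ball]
    exact (fd_add_int x m n).trans (max_le hm hn)
  have k1 : ∀ m : ℤ, m.natAbs ≤ R → u (x.1 + (m : G), x.2 + ((0 : ℤ) : G)) = u x := by
    intro m
    induction m using Int.induction_on with
    | zero => intro _; simp
    | succ i ih =>
      intro hi
      have ih' := ih (by omega)
      rw [← ih']
      have e := h1 (x.1 + ((i : ℤ) : G), x.2 + ((0 : ℤ) : G)) (hmem _ _ (by omega) (by omega)) (by
        have := hmem ((i : ℤ) + 1) 0 (by omega) (by omega)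
        convert this using 2
        push_cast; ring)
      rw [← e]
      congr 2
      push_cast; ring
    | pred i ih =>
      intro hi
      have ih' := ih (by omega)
      rw [← ih']
      have e0 : ((x.1 + ((-(i : ℤ) - 1 : ℤ) : G) + 1, x.2 + ((0 : ℤ) : G)) : G × G) =
          (x.1 + ((-(i : ℤ) : ℤ) : G), x.2 + ((0 : ℤ) : G)) := by
        ext <;> push_cast <;> ring
      have e := h1 (x.1 + ((-(i : ℤ) - 1 : ℤ) : G), x.2 + ((0 : ℤ) : G))
        (hmem _ _ (by omega) (by omega)) (by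
        rw [e0]
        exact hmem _ _ (by omega) (by omega))
      rw [e0] at e
      rw [e]
  have k2 : ∀ m n : ℤ, m.natAbs ≤ R → n.natAbs ≤ R →
      u (x.1 + (m : G), x.2 + (n : G)) = u x := by
    intro m n hm
    induction n using Int.induction_on with
    | zero => intro _; exact k1 m hm
    | succ i ih =>
      intro hi
      have ih' := ih (by omega)
      rw [← ih']
      have e := h2 (x.1 + (m : G), x.2 + ((i : ℤ) : G)) (hmem _ _ (by omega) (by omega)) (by
        have := hmem m ((i : ℤ) + 1) (by omega) (by omega)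
        convert this using 2
        push_cast; ring)
      rw [← e]
      congr 2
      push_cast; ring
    | pred i ih =>
      intro hi
      have ih' := ih (by omega)
      rw [← ih']
      have e0 : ((x.1 + (m : G), x.2 + ((-(i : ℤ) - 1 : ℤ) : G) + 1) : G × G) =
          (x.1 + (m : G), x.2 + ((-(i : ℤ) : ℤ) : G)) := by
        ext <;> push_cast <;> ring
      have e := h2 (x.1 + (m : G), x.2 + ((-(i : ℤ) - 1 : ℤ) : G))
        (hmem _ _ (by omega) (by omega)) (by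
        rw [e0]
        exact hmem _ _ (by omega) (by omega))
      rw [e0] at e
      rw [e]
  intro g hg
  obtain ⟨m, n, hm, hn, rfl⟩ := exists_int_of_mem_ball hg
  exact k2 m n hm hn

variable {G G' G'' : Type} [CommRing G] [CN G] [CommRing G'] [CN G'] [CommRing G''] [CN G'']
variable {w : BW G} {w' : BW G'} {Z Z₁ Z₂ : Set (G × G)}

theorem xc_ne : xc ≠ 0 := PlaneModesx901.xc_pos.ne'

/-- the gauges of two charts of a ball into constant backgrounds agree up to a global sign -/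
theorem chart_sgn [CNZ G] (b₁ : BgIso w (wPl G') Z₁) (b₂ : BgIso w (wPl G'') Z₂) {x : G × G} {R : ℕ}
    (h1 : ball x R ⊆ Z₁) (h2 : ball x R ⊆ Z₂) {g : G × G} (hg : g ∈ ball x R) :
    b₂.s g = (b₁.s x * b₂.s x) * b₁.s g := by
  have key : ∀ a a' c c' : ℝ, a * a = 1 → a' * a' = 1 → c * c = 1 → c' * c' = 1 →
      a * a' * xc = c * c' * xc → a' * c' = a * c := by
    intro a a' c c' ha ha' hc hc' h
    have h' : a * a' = c * c' := mul_right_cancel₀ xc_ne h
    calc a' * c' = (a * a) * a' * c' := by rw [ha, one_mul]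
      _ = a * (a * a') * c' := by ring
      _ = a * (c * c') * c' := by rw [h']
      _ = a * c * (c' * c') := by ring
      _ = a * c := by rw [hc', mul_one]
  have hu : b₁.s g * b₂.s g = b₁.s x * b₂.s x :=
    ball_const (x := x) (R := R) (fun f => b₁.s f * b₂.s f) (by
    intro f hf hf'
    have e1 := b₁.wE f (h1 hf) (h1 hf')
    have e2 := b₂.wE f (h2 hf) (h2 hf')
    exact key _ _ _ _ (b₁.sq _) (b₁.sq _) (b₂.sq _) (b₂.sq _) (e1.symm.trans e2)) (by
    intro f hf hf'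
    have e1 := b₁.wN f (h1 hf) (h1 hf')
    have e2 := b₂.wN f (h2 hf) (h2 hf')
    exact key _ _ _ _ (b₁.sq _) (b₁.sq _) (b₂.sq _) (b₂.sq _) (e1.symm.trans e2)) g hg
  calc b₂.s g = (b₁.s g * b₁.s g) * b₂.s g := by rw [b₁.sq, one_mul]
    _ = (b₁.s g * b₂.s g) * b₁.s g := by ring
    _ = _ := by rw [hu]

/-- the charts differ by a translation -/
theorem chart_tau [CNZ G] {w'' : BW G'} (b₁ : BgIso w w' Z₁) (b₂ : BgIso w w'' Z₂)
    {x : G × G} {R : ℕ} (h1 : ball x R ⊆ Z₁) (h2 : ball x R ⊆ Z₂) {g : G × G}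
    (hg : g ∈ ball x R) : b₂.τ g = b₁.τ g + (b₂.τ x - b₁.τ x) := by
  have hu : b₂.τ g - b₁.τ g = b₂.τ x - b₁.τ x :=
    ball_const (x := x) (R := R) (fun f => b₂.τ f - b₁.τ f) (by
    intro f hf hf'
    rw [b₁.e1 f (h1 hf) (h1 hf'), b₂.e1 f (h2 hf) (h2 hf')]
    ext <;> simp) (by
    intro f hf hf'
    rw [b₁.e2 f (h1 hf) (h1 hf'), b₂.e2 f (h2 hf) (h2 hf')]
    ext <;> simp) g hg
  rw [← hu]; abel

theorem sgn_sq (b₁ : BgIso w (wPl G') Z₁) (b₂ : BgIso w (wPl G'') Z₂) (x : G × G) :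
    (b₁.s x * b₂.s x) * (b₁.s x * b₂.s x) = 1 := by
  calc _ = (b₁.s x * b₁.s x) * (b₂.s x * b₂.s x) := by ring
    _ = 1 := by rw [b₁.sq, b₂.sq, one_mul]

/-! ### translations of the plane -/

open PlaneModesx901 PlaneLocx901 Locx901

theorem tauV_single (t : Fc) (h : HE ℤ) (c : ℝ) :
    tauV t (Finsupp.single h c) = Finsupp.single (h.1 + t, h.2) c := by
  rw [tauV, PlaneModesx901.push, Finsupp.linearCombination_single, one_smul, Finsupp.smul_single',
    mul_one]
  rfl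

theorem push_eq_tauV [CNZ G] (b₁ : BgIso w (wPl ℤ) Z₁) (b₂ : BgIso w (wPl ℤ) Z₂)
    {x : G × G} {R : ℕ} (h1 : ball x R ⊆ Z₁) (h2 : ball x R ⊆ Z₂) {l : Fld G}
    (hl : l ∈ fldS (ball x R)) :
    b₂.push l = ((b₁.s x * b₂.s x) • tauV (b₂.τ x - b₁.τ x)) (b₁.push l) := by
  refine fldS_ind (P := fun l => b₂.push l =
    ((b₁.s x * b₂.s x) • tauV (b₂.τ x - b₁.τ x)) (b₁.push l)) (by simp) ?_ ?_ hl
  · intro k hk c
    rw [BgIso.push_single, BgIso.push_single, LinearMap.smul_apply, tauV_single,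
      Finsupp.smul_single, chart_tau b₁ b₂ h1 h2 hk, chart_sgn b₁ b₂ h1 h2 hk, smul_eq_mul]
    congr 1
    ring
  · intro l m hl hm
    rw [map_add, map_add, map_add, hl, hm]

theorem tauV_phiA (t y : Fc) : tauV t (phiA y) = phiA (y + t) := by
  simp only [phiA, map_smul, map_sub, map_add, tauV_single]

theorem tauV_phiB (t y : Fc) : tauV t (phiB y) = phiB (y + t) := by
  simp only [phiB, map_smul, map_sub, map_add, tauV_single]

theorem tauV_D1 (t : Fc) {Φ : Fc → Fld ℤ} (hΦ : ∀ y, tauV t (Φ y) = Φ (y + t)) (y : Fc) :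
    tauV t (D1 Φ y) = D1 Φ (y + t) := by
  simp only [D1, map_smul, map_sub, hΦ]
  congr 3
  · ext <;> simp <;> ring
  · ext <;> simp <;> ring

theorem tauV_D2 (t : Fc) {Φ : Fc → Fld ℤ} (hΦ : ∀ y, tauV t (Φ y) = Φ (y + t)) (y : Fc) :
    tauV t (D2 Φ y) = D2 Φ (y + t) := by
  simp only [D2, map_smul, map_sub, hΦ]
  congr 3
  · ext <;> simp <;> ring
  · ext <;> simp <;> ring

theorem tauV_q (t y : Fc) : tauV t (qU y) = qU (y + t) ∧ tauV t (qV y) = qV (y + t) ∧
    tauV t (qS y) = qS (y + t) ∧ tauV t (qT y) = qT (y + t) := by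
  refine ⟨?_, ?_, ?_, ?_⟩
  · simp only [qU, map_smul, map_add, tauV_D1 t (tauV_phiA t), tauV_D2 t (tauV_phiB t)]
  · simp only [qV, map_smul, map_sub, tauV_D1 t (tauV_phiB t), tauV_D2 t (tauV_phiA t)]
  · simp only [qS, map_smul, map_sub, tauV_D1 t (tauV_phiA t), tauV_D2 t (tauV_phiB t)]
  · simp only [qT, map_smul, map_add, tauV_D1 t (tauV_phiB t), tauV_D2 t (tauV_phiA t)]

/-- covariance of the localisation under translations and signs -/
theorem LocAt_transl (c : ℝ) (t y : Fc) (a : Gr (Fld ℤ)) :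
    LocAt (y + t) (mp (c • tauV t) a) = mp (c • tauV t) (LocAt y a) := by
  obtain ⟨q1, q2, q3, q4⟩ := tauV_q t y
  refine Loc_mp2 (c • tauV t) (md y) (md (y + t)) (fun i i' => if i = i' then c else 0)
    (fun j j' => if j = j' then c else 0) ?_ ?_ ?_ ?_ a
  · intro i
    rw [Finset.sum_eq_single i (fun j _ hj => by rw [if_neg (Ne.symm hj), zero_smul])
      (fun h => absurd (Finset.mem_univ _) h), if_pos rfl]
    fin_cases i
    · show ev (m0 1 0) ∘ₗ (c • tauV t) = c • ev (m0 1 0)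
      rw [LinearMap.comp_smul, ev_tauV, tauS_m0]
    · show ev (m0 0 1) ∘ₗ (c • tauV t) = c • ev (m0 0 1)
      rw [LinearMap.comp_smul, ev_tauV, tauS_m0]
  · intro i
    rw [Finset.sum_eq_single i (fun j _ hj => by rw [if_neg (Ne.symm hj), zero_smul])
      (fun h => absurd (Finset.mem_univ _) h), if_pos rfl]
    fin_cases i
    · show ev (m1 (y + t) 1 0 0 0) ∘ₗ (c • tauV t) = c • ev (m1 y 1 0 0 0)
      rw [LinearMap.comp_smul, ev_tauV, tauS_m1]
    · show ev (m1 (y + t) 0 1 0 0) ∘ₗ (c • tauV t) = c • ev (m1 y 0 1 0 0)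
      rw [LinearMap.comp_smul, ev_tauV, tauS_m1]
    · show ev (m1 (y + t) 0 0 1 0) ∘ₗ (c • tauV t) = c • ev (m1 y 0 0 1 0)
      rw [LinearMap.comp_smul, ev_tauV, tauS_m1]
    · show ev (m1 (y + t) 0 0 0 1) ∘ₗ (c • tauV t) = c • ev (m1 y 0 0 0 1)
      rw [LinearMap.comp_smul, ev_tauV, tauS_m1]
  · intro i
    rw [Finset.sum_eq_single i (fun j _ hj => by rw [if_neg hj, zero_smul])
      (fun h => absurd (Finset.mem_univ _) h), if_pos rfl]
    fin_cases i
    · show (c • tauV t) (phiA y) = c • phiA (y + t)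
      rw [LinearMap.smul_apply, tauV_phiA]
    · show (c • tauV t) (phiB y) = c • phiB (y + t)
      rw [LinearMap.smul_apply, tauV_phiB]
  · intro i
    rw [Finset.sum_eq_single i (fun j _ hj => by rw [if_neg hj, zero_smul])
      (fun h => absurd (Finset.mem_univ _) h), if_pos rfl]
    fin_cases i
    · show (c • tauV t) (qU y) = c • qU (y + t)
      rw [LinearMap.smul_apply, q1]
    · show (c • tauV t) (qV y) = c • qV (y + t)
      rw [LinearMap.smul_apply, q2]
    · show (c • tauV t) (qS y) = c • qS (y + t)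
      rw [LinearMap.smul_apply, q3]
    · show (c • tauV t) (qT y) = c • qT (y + t)
      rw [LinearMap.smul_apply, q4]

/-! ### locality of the localisation -/

theorem mem_ball_plane {x y : Fc} {r : ℕ} : y ∈ ball x r ↔
    (y.1 - x.1).natAbs ≤ r ∧ (y.2 - x.2).natAbs ≤ r := by
  rw [mem_ball]
  unfold fd
  show max (Int.natAbs (x.1 - y.1)) (Int.natAbs (x.2 - y.2)) ≤ r ↔ _
  omega

theorem phiA_mem (x y : Fc) (r : ℕ) (h : y ∈ ball x r) : phiA y ∈ fldS (ball x r) := by
  unfold phiA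
  exact Submodule.smul_mem _ _ (Submodule.sub_mem _ (Submodule.add_mem _
    (Submodule.smul_mem _ _ (single_mem_fldS h _)) (single_mem_fldS h _))
    (Submodule.smul_mem _ _ (single_mem_fldS h _)))

theorem phiB_mem (x y : Fc) (r : ℕ) (h : y ∈ ball x r) : phiB y ∈ fldS (ball x r) := by
  unfold phiB
  exact Submodule.smul_mem _ _ (Submodule.sub_mem _ (Submodule.add_mem _
    (Submodule.smul_mem _ _ (single_mem_fldS h _)) (Submodule.smul_mem _ _ (single_mem_fldS h _)))
    (single_mem_fldS h _))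

theorem D1_mem {Φ : Fc → Fld ℤ} (hΦ : ∀ x y r, y ∈ ball x r → Φ y ∈ fldS (ball x r)) (y : Fc) :
    D1 Φ y ∈ fldS (ball y 1) := by
  unfold D1
  refine Submodule.smul_mem _ _ (Submodule.sub_mem _ (hΦ _ _ _ ?_) (hΦ _ _ _ ?_))
  · rw [mem_ball_plane]; simp
  · rw [mem_ball_plane]; simp

theorem D2_mem {Φ : Fc → Fld ℤ} (hΦ : ∀ x y r, y ∈ ball x r → Φ y ∈ fldS (ball x r)) (y : Fc) :
    D2 Φ y ∈ fldS (ball y 1) := by
  unfold D2
  refine Submodule.smul_mem _ _ (Submodule.sub_mem _ (hΦ _ _ _ ?_) (hΦ _ _ _ ?_))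
  · rw [mem_ball_plane]; simp
  · rw [mem_ball_plane]; simp

/-- the localisation of 901 lives on the faces around `y` -/
theorem LocAt_mem (y : Fc) (a : Gr (Fld ℤ)) : LocAt y a ∈ gr (fldS (ball y 1)) := by
  have hA : phiA y ∈ fldS (ball y 1) := phiA_mem y y 1 (mem_ball_self y 1)
  have hB : phiB y ∈ fldS (ball y 1) := phiB_mem y y 1 (mem_ball_self y 1)
  have hU : qU y ∈ fldS (ball y 1) := Submodule.smul_mem _ _ (Submodule.add_mem _
    (D1_mem phiA_mem y) (D2_mem phiB_mem y))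
  have hV : qV y ∈ fldS (ball y 1) := Submodule.smul_mem _ _ (Submodule.sub_mem _
    (D1_mem phiB_mem y) (D2_mem phiA_mem y))
  have hS : qS y ∈ fldS (ball y 1) := Submodule.smul_mem _ _ (Submodule.sub_mem _
    (D1_mem phiA_mem y) (D2_mem phiB_mem y))
  have hT : qT y ∈ fldS (ball y 1) := Submodule.smul_mem _ _ (Submodule.add_mem _
    (D1_mem phiB_mem y) (D2_mem phiA_mem y))
  have hp : ∀ i, (md y).p i ∈ fldS (ball y 1) := by
    intro i; fin_cases i
    · exact hA
    · exact hB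
  have hq : ∀ i, (md y).q i ∈ fldS (ball y 1) := by
    intro i; fin_cases i
    · exact hU
    · exact hV
    · exact hS
    · exact hT
  rw [LocAt, Loc_apply]
  refine Subalgebra.add_mem _ ?_ ?_
  · refine Subalgebra.sum_mem _ fun i _ => Subalgebra.sum_mem _ fun j _ => ?_
    exact Subalgebra.smul_mem _ (Subalgebra.mul_mem _ (fi_mem_gr (hp i)) (fi_mem_gr (hp j))) _
  · refine Subalgebra.sum_mem _ fun i _ => Subalgebra.sum_mem _ fun j _ => ?_
    exact Subalgebra.smul_mem _ (Subalgebra.mul_mem _ (fi_mem_gr (hp i)) (fi_mem_gr (hq j))) _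

/-! ### localisation through a chart -/

/-- localisation at the face `f` through the plane chart `b` -/
def BgIso.LocC (b : BgIso w (wPl ℤ) Z) (f : G × G) : Gr (Fld G) →ₗ[ℝ] Gr (Fld G) :=
  (mp b.pull).toLinearMap ∘ₗ LocAt (b.τ f) ∘ₗ (mp b.push).toLinearMap

theorem BgIso.LocC_apply (b : BgIso w (wPl ℤ) Z) (f : G × G) (a : Gr (Fld G)) :
    b.LocC f a = mp b.pull (LocAt (b.τ f) (mp b.push a)) := rfl

theorem BgIso.LocC_mem [CNZ G] (b : BgIso w (wPl ℤ) Z) {f : G × G} (hf : ball f 1 ⊆ Z)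
    (a : Gr (Fld G)) : b.LocC f a ∈ gr (fldS (ball f 1)) := by
  rw [b.LocC_apply]
  have h1 := LocAt_mem (b.τ f) (mp b.push a)
  rw [← b.image_ball hf] at h1
  have h2 := mp_mem_gr_map b.pull h1
  refine gr_mono ?_ h2
  rintro _ ⟨l, hl, rfl⟩
  exact b.pull_mem hf hl

/-- pushing the localisation -/
theorem BgIso.push_LocC [CNZ G] (b : BgIso w (wPl ℤ) Z) {f : G × G} (hf : ball f 1 ⊆ Z)
    (a : Gr (Fld G)) : mp b.push (b.LocC f a) = LocAt (b.τ f) (mp b.push a) := by
  rw [b.LocC_apply]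
  have h1 := LocAt_mem (b.τ f) (mp b.push a)
  rw [← b.image_ball hf] at h1
  refine mp_left_inv (f := b.pull) (g := b.push) (W := fldS (b.τ '' ball f 1)) ?_ h1
  intro l hl
  exact b.push_pull (fldS_mono (Set.image_mono hf) hl)

theorem push_trans (b : BgIso w w' Z) {w'' : BW G''} {Z' : Set (G' × G')} (b' : BgIso w' w'' Z')
    (h : ∀ f ∈ Z, b.τ f ∈ Z') : (b.trans b' h).push = b'.push ∘ₗ b.push := by
  refine Finsupp.lhom_ext fun k c => ?_
  rw [LinearMap.comp_apply, BgIso.push_single, BgIso.push_single, BgIso.push_single]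
  congr 1
  show c * (b.s k.1 * b'.s (b.τ k.1)) = c * b.s k.1 * b'.s (b.τ k.1)
  ring

/-- **naturality of the localisation** under isomorphisms of backgrounds -/
theorem LocC_nat [CNZ G] [CNZ G'] (b : BgIso w w' Z) (b₁ : BgIso w (wPl ℤ) Z₁)
    {Z' : Set (G' × G')} (b₂ : BgIso w' (wPl ℤ) Z') {f : G × G} {R : ℕ} (hR : 1 ≤ R)
    (h : ball f R ⊆ Z) (h1 : ball f R ⊆ Z₁) (h2 : ball (b.τ f) R ⊆ Z') {a : Gr (Fld G)}
    (ha : a ∈ gr (fldS (ball f R))) :
    mp b.push (b₁.LocC f a) = b₂.LocC (b.τ f) (mp b.push a) := by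
  have hb : ball f 1 ⊆ ball f R := ball_mono f hR
  have hτ : ∀ g ∈ ball f R, (b.mono h).τ g ∈ Z' := by
    intro g hg
    show b.τ g ∈ Z'
    apply h2
    rw [← b.image_ball h]
    exact ⟨g, hg, rfl⟩
  set b' : BgIso w (wPl ℤ) (ball f R) := (b.mono h).trans b₂ hτ with hb'
  have hp : ∀ l, b'.push l = b₂.push (b.push l) := fun l => by
    have e := push_trans (b.mono h) b₂ hτ
    exact congrArg (fun T : Fld G →ₗ[ℝ] Fld ℤ => T l) e
  set c : ℝ := b₁.s f * b'.s f with hc
  set t : Fc := b'.τ f - b₁.τ f with ht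
  have hpt : ∀ l ∈ fldS (ball f R), b'.push l = (c • tauV t) (b₁.push l) := fun l hl =>
    push_eq_tauV b₁ b' h1 le_rfl hl
  -- the pushed element
  have e1 : mp b₂.push (mp b.push a) = mp (c • tauV t) (mp b₁.push a) := by
    rw [mp_mp, mp_mp]
    refine mp_congr (W := fldS (ball f R)) (fun l hl => ?_) ha
    rw [LinearMap.comp_apply, LinearMap.comp_apply, ← hp, hpt l hl]
  have e2 : b₂.τ (b.τ f) = b₁.τ f + t := by
    rw [ht]
    show b₂.τ (b.τ f) = b₁.τ f + (b₂.τ (b.τ f) - b₁.τ f)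
    abel
  set M : Gr (Fld G) := b₁.LocC f a with hM
  have hMm : M ∈ gr (fldS (ball f 1)) := b₁.LocC_mem (hb.trans h1) a
  rw [b₂.LocC_apply, e1, e2, LocAt_transl, ← b₁.push_LocC (hb.trans h1), ← hM]
  have e3 : mp (c • tauV t) (mp b₁.push M) = mp b₂.push (mp b.push M) := by
    rw [mp_mp, mp_mp]
    refine mp_congr (W := fldS (ball f 1)) (fun l hl => ?_) hMm
    rw [LinearMap.comp_apply, LinearMap.comp_apply, ← hp, hpt l (fldS_mono hb hl)]
  rw [e3]
  symm
  refine mp_left_inv (f := b₂.push) (g := b₂.pull) (W := fldS (ball (b.τ f) 1)) (fun l hl => ?_) ?_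
  · exact b₂.pull_push (fldS_mono ((ball_mono _ hR).trans h2) hl)
  · refine gr_mono ?_ (mp_mem_gr_map b.push hMm)
    rintro _ ⟨l, hl, rfl⟩
    refine b.push_mem (fun g hg => ?_) hl
    rw [← b.image_ball (hb.trans h)]
    exact ⟨g, hg, rfl⟩

theorem refl_push (w : BW G) (Z : Set (G × G)) : (BgIso.refl w Z).push = LinearMap.id := by
  refine Finsupp.lhom_ext fun k c => ?_
  rw [BgIso.push_single]
  show Finsupp.single (k.1, k.2) (c * 1) = _
  rw [mul_one]; rfl

/-- **independence of the chart** -/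
theorem LocC_indep [CNZ G] (b₁ : BgIso w (wPl ℤ) Z₁) (b₂ : BgIso w (wPl ℤ) Z₂) {f : G × G} {R : ℕ}
    (hR : 1 ≤ R) (h1 : ball f R ⊆ Z₁) (h2 : ball f R ⊆ Z₂) {a : Gr (Fld G)}
    (ha : a ∈ gr (fldS (ball f R))) : b₁.LocC f a = b₂.LocC f a := by
  have h := LocC_nat (BgIso.refl w (ball f R)) b₁ b₂ hR le_rfl h1 h2 ha
  rw [refl_push, mp_id, mp_id] at h
  exact h

/-! ### the even part -/

theorem Loc_even {V : Type*} [AddCommGroup V] [Module ℝ V] {ι κ : Type*} [Fintype ι] [Fintype κ]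
    (M : Modes V ι κ) (a : Gr V) : Loc M a ∈ Gr1x606.Ge V := by
  have h2 : ∀ x y : V, fi x * fi y ∈ Gr1x606.Ge V := by
    intro x y
    show inv' (fi x * fi y) = fi x * fi y
    rw [map_mul, inv'_fi, inv'_fi, neg_mul_neg]
  rw [Loc_apply]
  refine Subalgebra.add_mem _ ?_ ?_
  · refine Subalgebra.sum_mem _ fun i _ => Subalgebra.sum_mem _ fun j _ => ?_
    exact Subalgebra.smul_mem _ (h2 _ _) _
  · refine Subalgebra.sum_mem _ fun i _ => Subalgebra.sum_mem _ fun j _ => ?_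
    exact Subalgebra.smul_mem _ (h2 _ _) _

open GeOpsx337 Gr1x606

theorem BgIso.LocC_even (b : BgIso w (wPl ℤ) Z) (f : G × G) (a : Gr (Fld G)) :
    b.LocC f a ∈ Ge (Fld G) :=
  (mpG b.pull ⟨LocAt (b.τ f) (mp b.push a), Loc_even _ _⟩).2

/-- localisation at the face `f` through the plane chart `b`, on the even part -/
def BgIso.LocG (b : BgIso w (wPl ℤ) Z) (f : G × G) : Ge (Fld G) →ₗ[ℝ] Ge (Fld G) where
  toFun a := ⟨b.LocC f a, b.LocC_even f a⟩
  map_add' x y := Subtype.ext (by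
    show b.LocC f (((x + y : Ge (Fld G)) : Gr (Fld G))) = _
    rw [Ge.coe_add, map_add]; rfl)
  map_smul' c x := Subtype.ext (by
    show b.LocC f (((c • x : Ge (Fld G)) : Gr (Fld G))) = _
    rw [Ge.coe_smul, map_smul]; rfl)

@[simp] theorem BgIso.coe_LocG (b : BgIso w (wPl ℤ) Z) (f : G × G) (a : Ge (Fld G)) :
    ((b.LocG f a : Ge (Fld G)) : Gr (Fld G)) = b.LocC f a := rfl

theorem BgIso.LocG_mem [CNZ G] (b : BgIso w (wPl ℤ) Z) {f : G × G} (hf : ball f 1 ⊆ Z)
    (a : Ge (Fld G)) : b.LocG f a ∈ grG (fldS (ball f 1)) := b.LocC_mem hf a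

theorem LocG_nat [CNZ G] [CNZ G'] (b : BgIso w w' Z) (b₁ : BgIso w (wPl ℤ) Z₁)
    {Z' : Set (G' × G')} (b₂ : BgIso w' (wPl ℤ) Z') {f : G × G} {R : ℕ} (hR : 1 ≤ R)
    (h : ball f R ⊆ Z) (h1 : ball f R ⊆ Z₁) (h2 : ball (b.τ f) R ⊆ Z') {a : Ge (Fld G)}
    (ha : a ∈ grG (fldS (ball f R))) :
    mpG b.push (b₁.LocG f a) = b₂.LocG (b.τ f) (mpG b.push a) :=
  Subtype.ext (LocC_nat b b₁ b₂ hR h h1 h2 ha)

theorem LocG_indep [CNZ G] (b₁ : BgIso w (wPl ℤ) Z₁) (b₂ : BgIso w (wPl ℤ) Z₂) {f : G × G} {R : ℕ}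
    (hR : 1 ≤ R) (h1 : ball f R ⊆ Z₁) (h2 : ball f R ⊆ Z₂) {a : Ge (Fld G)}
    (ha : a ∈ grG (fldS (ball f R))) : b₁.LocG f a = b₂.LocG f a :=
  Subtype.ext (LocC_indep b₁ b₂ hR h1 h2 ha)

end Crest.Agent.R165.BgIsox432
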