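import Mathlib

/-!
# Row 165, block R-f: Cauchy-Pompeiu formula and the Cauchy transform in the plane

`dbar χ` is the Wirtinger derivative `(∂_x + i ∂_y)/2`.
-/

open MeasureTheory Set Filter Topology Complex

namespace Crest.Agent.R165.Cl1x722

/-- The Wirtinger derivative `(∂_x + i ∂_y)/2`. -/
noncomputable def dbar (χ : ℂ → ℂ) (z : ℂ) : ℂ :=
  (fderiv ℝ χ z 1 + I * fderiv ℝ χ z I) / 2

/-- polar form of the real linear identity behind Cauchy-Pompeiu -/
lemma linear_polar (L : ℂ →L[ℝ] ℂ) (θ : ℝ) :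
    L (exp (θ * I)) + I * L (I * exp (θ * I)) = (exp (θ * I))⁻¹ * (L 1 + I * L I) := by
  have he : exp (θ * I) = (Real.cos θ : ℂ) + (Real.sin θ : ℂ) * I := by
    rw [Complex.exp_mul_I]; push_cast; rfl
  have hinv : (exp (θ * I))⁻¹ = (Real.cos θ : ℂ) - (Real.sin θ : ℂ) * I := by
    rw [← Complex.exp_neg]
    have : -((θ : ℂ) * I) = ((-θ : ℝ) : ℂ) * I := by push_cast; ring
    rw [this, Complex.exp_mul_I]
    push_cast
    rw [Complex.cos_neg, Complex.sin_neg]; ring
  have h1 : L (exp (θ * I)) = Real.cos θ • L 1 + Real.sin θ • L I := by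
    rw [he, ← map_smul, ← map_smul, ← map_add]
    congr 1
    simp
  have h2 : L (I * exp (θ * I)) = (-Real.sin θ) • L 1 + Real.cos θ • L I := by
    rw [he, ← map_smul, ← map_smul, ← map_add]
    congr 1
    simp only [real_smul]
    push_cast
    linear_combination (Complex.sin (θ : ℂ)) * I_mul_I
  rw [h1, h2, hinv]
  simp only [real_smul]
  push_cast
  linear_combination (Complex.sin (θ : ℂ) * (L I)) * I_mul_I

lemma integrableOn_of_zero {f : ℝ × ℝ → ℂ} (hf : Continuous f) (R : ℝ)
    (h0 : ∀ p : ℝ × ℝ, R < p.1 → f p = 0) :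
    IntegrableOn f (Ioi (0 : ℝ) ×ˢ Ioo (-Real.pi) Real.pi) := by
  have hc : IntegrableOn f (Icc (0 : ℝ) R ×ˢ Icc (-Real.pi) Real.pi) :=
    hf.continuousOn.integrableOn_compact (isCompact_Icc.prod isCompact_Icc)
  have hz : IntegrableOn f ((Ioi R) ×ˢ (univ : Set ℝ)) := by
    refine (integrableOn_zero (μ := volume) (s := (Ioi R) ×ˢ (univ : Set ℝ))).congr_fun ?_
      (measurableSet_Ioi.prod MeasurableSet.univ)
    intro p hp
    simpa using (h0 p hp.1).symm
  refine (hc.union hz).mono_set ?_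
  rintro ⟨r, t⟩ ⟨hr, ht⟩
  by_cases h : r ≤ R
  · left; exact ⟨⟨le_of_lt hr, h⟩, ⟨le_of_lt ht.1, le_of_lt ht.2⟩⟩
  · right; exact ⟨not_le.mp h, trivial⟩

/-- **Cauchy-Pompeiu** at the origin. -/
theorem cauchy_pompeiu_zero {χ : ℂ → ℂ} (h1 : ContDiff ℝ 1 χ) (h2 : HasCompactSupport χ) :
    ∫ w : ℂ, w⁻¹ * dbar χ w = -(Real.pi : ℂ) * χ 0 := by
  obtain ⟨R0, hR0⟩ : ∃ R, ∀ z, R < ‖z‖ → fderiv ℝ χ z = 0 := by
    have hc : HasCompactSupport (fderiv ℝ χ) := h2.fderiv (𝕜 := ℝ)
    obtain ⟨R, hR⟩ := hc.isCompact.isBounded.subset_closedBall (0 : ℂ)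
    refine ⟨R, fun z hz => ?_⟩
    by_contra h
    have := hR (subset_tsupport _ h)
    rw [mem_closedBall_zero_iff] at this
    linarith
  set e : ℝ → ℂ := fun t => exp (t * I) with he
  have hecont : Continuous e := by fun_prop
  set A : ℝ × ℝ → ℂ := fun p => fderiv ℝ χ ((p.1 : ℂ) * e p.2) (e p.2) with hA
  set B : ℝ × ℝ → ℂ := fun p => fderiv ℝ χ ((p.1 : ℂ) * e p.2) (I * e p.2) with hB
  have hfd : Continuous (fderiv ℝ χ) := h1.continuous_fderiv one_ne_zero
  have hpt : Continuous (fun p : ℝ × ℝ => (p.1 : ℂ) * e p.2) := by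
    simp only [he]; fun_prop
  have hAc : Continuous A := by
    simp only [hA]
    exact (hfd.comp hpt).clm_apply (hecont.comp continuous_snd)
  have hBc : Continuous B := by
    simp only [hB]
    exact (hfd.comp hpt).clm_apply (continuous_const.mul (hecont.comp continuous_snd))
  have hnorm : ∀ p : ℝ × ℝ, max R0 0 < p.1 → R0 < ‖(p.1 : ℂ) * e p.2‖ := by
    intro p hp
    have h0 : 0 < p.1 := lt_of_le_of_lt (le_max_right _ _) hp
    have : ‖(p.1 : ℂ) * e p.2‖ = p.1 := by
      simp [he, norm_exp_ofReal_mul_I, abs_of_pos h0]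
    rw [this]; exact lt_of_le_of_lt (le_max_left _ _) hp
  have hA0 : ∀ p : ℝ × ℝ, max R0 0 < p.1 → A p = 0 := by
    intro p hp; simp [hA, hR0 _ (hnorm p hp)]
  have hB0 : ∀ p : ℝ × ℝ, max R0 0 < p.1 → B p = 0 := by
    intro p hp; simp [hB, hR0 _ (hnorm p hp)]
  have hAi := integrableOn_of_zero hAc _ hA0
  have hBi := integrableOn_of_zero hBc _ hB0
  rw [← Complex.integral_comp_polarCoord_symm]
  have htarget : polarCoord.target = Ioi (0 : ℝ) ×ˢ Ioo (-Real.pi) Real.pi := rfl
  rw [htarget]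
  have hcongr : ∫ p in Ioi (0 : ℝ) ×ˢ Ioo (-Real.pi) Real.pi,
      p.1 • ((Complex.polarCoord.symm p)⁻¹ * dbar χ (Complex.polarCoord.symm p)) =
      ∫ p in Ioi (0 : ℝ) ×ˢ Ioo (-Real.pi) Real.pi, ((1 / 2 : ℂ) * A p + (I / 2) * B p) := by
    refine setIntegral_congr_fun (measurableSet_Ioi.prod measurableSet_Ioo) ?_
    rintro ⟨r, t⟩ ⟨hr, -⟩
    have hr' : (r : ℂ) ≠ 0 := by
      exact_mod_cast (ne_of_gt hr)
    have hs : Complex.polarCoord.symm (r, t) = (r : ℂ) * e t := by
      rw [Complex.polarCoord_symm_apply, he]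
      simp only
      rw [Complex.exp_mul_I]; push_cast; ring
    have hex : e t ≠ 0 := exp_ne_zero _
    simp only [hs, hA, hB, dbar, real_smul]
    have hl := linear_polar (fderiv ℝ χ ((r : ℂ) * e t)) t
    have hl' : (fderiv ℝ χ ((r : ℂ) * e t)) (e t) + I * (fderiv ℝ χ ((r : ℂ) * e t)) (I * e t) =
      (e t)⁻¹ * ((fderiv ℝ χ ((r : ℂ) * e t)) 1 + I * (fderiv ℝ χ ((r : ℂ) * e t)) I) := hl
    rw [mul_inv]
    calc (r : ℂ) * ((r : ℂ)⁻¹ * (e t)⁻¹ * (((fderiv ℝ χ (↑r * e t)) 1 + I * (fderiv ℝ χ (↑r * e t)) I) / 2))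
        = ((r : ℂ) * (r : ℂ)⁻¹) * ((e t)⁻¹ * ((fderiv ℝ χ (↑r * e t)) 1 + I * (fderiv ℝ χ (↑r * e t)) I)) / 2 := by ring
      _ = _ := by rw [mul_inv_cancel₀ hr', ← hl']; ring
  rw [hcongr, integral_add (hAi.const_mul _) (hBi.const_mul _), integral_const_mul,
    integral_const_mul]
  have hAint : ∫ p in Ioi (0 : ℝ) ×ˢ Ioo (-Real.pi) Real.pi, A p = -(2 * Real.pi : ℂ) * χ 0 := by
    rw [Measure.volume_eq_prod] at hAi ⊢
    rw [← setIntegral_prod_swap, setIntegral_prod]
    · have hin : ∀ t : ℝ, ∫ r in Ioi (0 : ℝ), A (r, t) = - χ 0 := by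
        intro t
        have hder : ∀ r ∈ Ici (0 : ℝ), HasDerivAt (fun r : ℝ => χ ((r : ℂ) * e t)) (A (r, t)) r := by
          intro r _
          have h3 : HasFDerivAt χ (fderiv ℝ χ ((r : ℂ) * e t)) ((r : ℂ) * e t) :=
            (h1.differentiable one_ne_zero _).hasFDerivAt
          have h4 : HasDerivAt (fun r : ℝ => (r : ℂ) * e t) (e t) r := by
            simpa using (Complex.ofRealCLM.hasDerivAt (x := r)).mul_const (e t)
          exact h3.comp_hasDerivAt r h4
        have hint : IntegrableOn (fun r : ℝ => A (r, t)) (Ioi 0) := by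
          have hcs : HasCompactSupport (fun r : ℝ => (A (r, t)) * 1) ∨ True := Or.inr trivial
          have hcont : Continuous (fun r : ℝ => A (r, t)) := by
            exact hAc.comp (by fun_prop)
          have hc : IntegrableOn (fun r : ℝ => A (r, t)) (Icc 0 (max R0 0)) :=
            hcont.continuousOn.integrableOn_compact isCompact_Icc
          have hz : IntegrableOn (fun r : ℝ => A (r, t)) (Ioi (max R0 0)) := by
            refine (integrableOn_zero (μ := volume)).congr_fun ?_ measurableSet_Ioi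
            intro r hr
            simpa using (hA0 (r, t) hr).symm
          refine (hc.union hz).mono_set ?_
          intro r hr
          by_cases h : r ≤ max R0 0
          · left; exact ⟨le_of_lt hr, h⟩
          · right; exact not_le.mp h
        have htend : Tendsto (fun r : ℝ => χ ((r : ℂ) * e t)) atTop (𝓝 0) := by
          obtain ⟨R1, hR1⟩ := h2.isCompact.isBounded.subset_closedBall (0 : ℂ)
          refine tendsto_const_nhds.congr' ?_
          filter_upwards [eventually_gt_atTop (max R1 0)] with r hr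
          have h0 : 0 < r := lt_of_le_of_lt (le_max_right _ _) hr
          have hn : ‖(r : ℂ) * e t‖ = r := by
            simp [he, norm_exp_ofReal_mul_I, abs_of_pos h0]
          by_contra hne
          have := hR1 (subset_tsupport _ (Ne.symm hne))
          rw [mem_closedBall_zero_iff, hn] at this
          exact absurd (lt_of_le_of_lt (le_max_left _ _) hr) (not_lt.mpr this)
        have := integral_Ioi_of_hasDerivAt_of_tendsto' hder hint htend
        rw [this]; simp
      simp only [Prod.swap]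
      simp_rw [hin]
      rw [setIntegral_const]
      have hv : (volume : Measure ℝ).real (Ioo (-Real.pi) Real.pi) = 2 * Real.pi := by
        rw [Real.volume_real_Ioo_of_le (by linarith [Real.pi_pos])]; ring
      rw [hv, real_smul]; push_cast; ring
    · exact hAi.swap
  have hBint : ∫ p in Ioi (0 : ℝ) ×ˢ Ioo (-Real.pi) Real.pi, B p = 0 := by
    rw [Measure.volume_eq_prod] at hBi ⊢
    rw [setIntegral_prod _ hBi]
    have hin : ∀ r ∈ Ioi (0 : ℝ), ∫ t in Ioo (-Real.pi) Real.pi, B (r, t) = 0 := by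
      intro r hr
      have hr' : (r : ℂ) ≠ 0 := by exact_mod_cast (ne_of_gt hr)
      have hder : ∀ t ∈ uIcc (-Real.pi) Real.pi,
          HasDerivAt (fun t : ℝ => (r : ℂ)⁻¹ * χ ((r : ℂ) * e t)) (B (r, t)) t := by
        intro t _
        have h3 : HasFDerivAt χ (fderiv ℝ χ ((r : ℂ) * e t)) ((r : ℂ) * e t) :=
          (h1.differentiable one_ne_zero _).hasFDerivAt
        have h4 : HasDerivAt (fun t : ℝ => (r : ℂ) * e t) ((r : ℂ) * (I * e t)) t := by
          have h5 : HasDerivAt (fun t : ℝ => (t : ℂ) * I) (1 * I) t :=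
            (Complex.ofRealCLM.hasDerivAt (x := t)).mul_const I
          have h6 := h5.cexp
          have h7 := h6.const_mul (r : ℂ)
          refine h7.congr_deriv ?_
          simp only [he]; ring
        have h8 := (h3.comp_hasDerivAt t h4).const_mul ((r : ℂ)⁻¹)
        refine h8.congr_deriv ?_
        have h9 : (fderiv ℝ χ ((r : ℂ) * e t)) ((r : ℂ) * (I * e t)) =
            (r : ℂ) * (fderiv ℝ χ ((r : ℂ) * e t)) (I * e t) := by
          have := (fderiv ℝ χ ((r : ℂ) * e t)).map_smul r (I * e t)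
          simpa [real_smul] using this
        rw [h9, ← mul_assoc, inv_mul_cancel₀ hr', one_mul]
      have hcont : Continuous (fun t : ℝ => B (r, t)) := hBc.comp (by fun_prop)
      have := intervalIntegral.integral_eq_sub_of_hasDerivAt hder (hcont.intervalIntegrable _ _)
      rw [← integral_Ioc_eq_integral_Ioo, ← intervalIntegral.integral_of_le (by linarith [Real.pi_pos]),
        this]
      have hpi : e Real.pi = e (-Real.pi) := by
        simp [he, Complex.exp_neg, Complex.exp_pi_mul_I]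
      rw [hpi]; ring
    rw [setIntegral_congr_fun measurableSet_Ioi hin]; simp
  rw [hAint, hBint]; ring

end Crest.Agent.R165.Cl1x722
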