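import Crest.Agent.R165.Cl1_722

/-!
# Row 165, block R-f: kernel integrals `∫ |z|^{-a}`, weighted Cauchy-Schwarz, weak `∂̄`
-/

open MeasureTheory Set Filter Topology Complex Metric
open scoped ENNReal NNReal ContDiff

namespace Crest.Agent.R165.Cl2x722

open Cl1x722

/-- `∫_{|z|<R} |z|^{-a} dz = 2π R^{2-a}/(2-a)`. -/
theorem lintegral_kernel_ball {a R : ℝ} (ha : a < 2) (hR : 0 ≤ R) :
    ∫⁻ z in ball (0 : ℂ) R, ENNReal.ofReal (‖z‖ ^ (-a)) =
      ENNReal.ofReal (2 * Real.pi * (R ^ (2 - a) / (2 - a))) := by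
  rw [← lintegral_indicator measurableSet_ball, ← Complex.lintegral_comp_polarCoord_symm]
  have htarget : polarCoord.target = Ioi (0 : ℝ) ×ˢ Ioo (-Real.pi) Real.pi := rfl
  rw [htarget]
  have h1 : ∫⁻ p in Ioi (0 : ℝ) ×ˢ Ioo (-Real.pi) Real.pi,
      ENNReal.ofReal p.1 • (ball (0 : ℂ) R).indicator (fun z => ENNReal.ofReal (‖z‖ ^ (-a)))
        (Complex.polarCoord.symm p) =
      ∫⁻ p in Ioi (0 : ℝ) ×ˢ Ioo (-Real.pi) Real.pi,
        (Ioo (0 : ℝ) R).indicator (fun r => ENNReal.ofReal (r ^ (1 - a))) p.1 := by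
    refine setLIntegral_congr_fun (measurableSet_Ioi.prod measurableSet_Ioo) ?_
    rintro ⟨r, t⟩ ⟨hr, -⟩
    have hr0 : (0 : ℝ) < r := hr
    have hn : ‖Complex.polarCoord.symm (r, t)‖ = r := by
      rw [Complex.norm_polarCoord_symm]; exact abs_of_pos hr0
    by_cases h : r < R
    · have hm : Complex.polarCoord.symm (r, t) ∈ ball (0 : ℂ) R := by
        rw [mem_ball_zero_iff, hn]; exact h
      have hm2 : r ∈ Ioo (0 : ℝ) R := ⟨hr0, h⟩
      simp only [indicator_of_mem hm, indicator_of_mem hm2, hn, smul_eq_mul]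
      rw [← ENNReal.ofReal_mul hr0.le]
      congr 1
      rw [sub_eq_add_neg, Real.rpow_add hr0, Real.rpow_one]
    · have hm : Complex.polarCoord.symm (r, t) ∉ ball (0 : ℂ) R := by
        rw [mem_ball_zero_iff, hn]; exact h
      have hm2 : r ∉ Ioo (0 : ℝ) R := fun hh => h hh.2
      simp only [indicator_of_notMem hm, indicator_of_notMem hm2, smul_eq_mul, mul_zero]
  rw [h1, Measure.volume_eq_prod, ← Measure.prod_restrict]
  have hmeas : Measurable ((Ioo (0 : ℝ) R).indicator (fun r : ℝ => ENNReal.ofReal (r ^ (1 - a)))) :=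
    (by fun_prop : Measurable (fun r : ℝ => ENNReal.ofReal (r ^ (1 - a)))).indicator measurableSet_Ioo
  rw [lintegral_prod (fun p : ℝ × ℝ => (Ioo (0 : ℝ) R).indicator
    (fun r : ℝ => ENNReal.ofReal (r ^ (1 - a))) p.1) (hmeas.comp measurable_fst).aemeasurable]
  simp only [lintegral_const, Measure.restrict_apply_univ]
  have hv : (volume : Measure ℝ) (Ioo (-Real.pi) Real.pi) = ENNReal.ofReal (2 * Real.pi) := by
    rw [Real.volume_Ioo]; congr 1; ring
  rw [hv, lintegral_mul_const _ hmeas, setLIntegral_indicator measurableSet_Ioo]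
  have hs : Ioo (0 : ℝ) R ∩ Ioi 0 = Ioo 0 R := by
    ext x; simp only [mem_inter_iff, mem_Ioo, mem_Ioi]; tauto
  rw [hs]
  have h2 : ∫⁻ r in Ioo (0 : ℝ) R, ENNReal.ofReal (r ^ (1 - a)) =
      ENNReal.ofReal (R ^ (2 - a) / (2 - a)) := by
    have hint : IntervalIntegrable (fun r : ℝ => r ^ (1 - a)) volume 0 R :=
      intervalIntegral.intervalIntegrable_rpow' (by linarith)
    have hIoc : IntegrableOn (fun r : ℝ => r ^ (1 - a)) (Ioc 0 R) := by
      rwa [intervalIntegrable_iff_integrableOn_Ioc_of_le hR] at hint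
    have hIoo : IntegrableOn (fun r : ℝ => r ^ (1 - a)) (Ioo 0 R) := hIoc.mono_set Ioo_subset_Ioc_self
    rw [← ofReal_integral_eq_lintegral_ofReal hIoo]
    · rw [← integral_Ioc_eq_integral_Ioo, ← intervalIntegral.integral_of_le hR,
        integral_rpow (Or.inl (by linarith))]
      congr 1
      have : (1 : ℝ) - a + 1 = 2 - a := by ring
      rw [this, Real.zero_rpow (by linarith)]; ring
    · refine (ae_restrict_iff' measurableSet_Ioo).mpr (Eventually.of_forall fun r hr => ?_)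
      exact Real.rpow_nonneg hr.1.le _
  rw [h2, ← ENNReal.ofReal_mul (div_nonneg (Real.rpow_nonneg hR _) (by linarith))]
  congr 1; ring

/-- translated version -/
theorem lintegral_kernel_ball' {a R : ℝ} (ha : a < 2) (hR : 0 ≤ R) (w : ℂ) :
    ∫⁻ z in ball w R, ENNReal.ofReal (‖z - w‖ ^ (-a)) =
      ENNReal.ofReal (2 * Real.pi * (R ^ (2 - a) / (2 - a))) := by
  rw [← lintegral_kernel_ball ha hR, ← lintegral_indicator measurableSet_ball,
    ← lintegral_indicator measurableSet_ball]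
  rw [← lintegral_sub_right_eq_self (μ := (volume : Measure ℂ)) (fun z => (ball (0 : ℂ) R).indicator
    (fun z => ENNReal.ofReal (‖z‖ ^ (-a))) z) w]
  refine lintegral_congr fun z => ?_
  by_cases h : z ∈ ball w R
  · have h' : z - w ∈ ball (0 : ℂ) R := by
      rw [mem_ball_zero_iff, ← dist_eq_norm]; exact h
    rw [indicator_of_mem h, indicator_of_mem h']
  · have h' : z - w ∉ ball (0 : ℂ) R := by
      rw [mem_ball_zero_iff, ← dist_eq_norm]; exact h
    rw [indicator_of_notMem h, indicator_of_notMem h']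

/-- On an arbitrary subset `S` of a ball of radius `R`, `∫_S |z-w|^{-a} ≤ 2π (2R)^{2-a}/(2-a)` for every
`w` in the same ball. -/
theorem lintegral_kernel_le {a R : ℝ} (ha : a < 2) (hR : 0 ≤ R) {c w : ℂ} (hw : w ∈ closedBall c R)
    {S : Set ℂ} (hS : S ⊆ ball c R) :
    ∫⁻ z in S, ENNReal.ofReal (‖z - w‖ ^ (-a)) ≤
      ENNReal.ofReal (2 * Real.pi * ((2 * R) ^ (2 - a) / (2 - a))) := by
  rw [← lintegral_kernel_ball' ha (by linarith : (0 : ℝ) ≤ 2 * R) w]
  refine lintegral_mono_set ?_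
  intro z hz
  have h1 := hS hz
  rw [mem_ball] at h1 ⊢
  rw [mem_closedBall, dist_comm] at hw
  calc dist z w ≤ dist z c + dist c w := dist_triangle _ _ _
    _ < R + R := by linarith
    _ = 2 * R := by ring

/-- Cauchy-Schwarz for the lower integral, squared form. -/
theorem lintegral_mul_sq_le {α : Type*} [MeasurableSpace α] {μ : Measure α} {f g : α → ℝ≥0∞}
    (hf : AEMeasurable f μ) (hg : AEMeasurable g μ) :
    (∫⁻ x, f x * g x ∂μ) ^ 2 ≤ (∫⁻ x, f x ^ 2 ∂μ) * ∫⁻ x, g x ^ 2 ∂μ := by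
  have h := ENNReal.lintegral_mul_le_Lp_mul_Lq μ Real.HolderConjugate.two_two hf hg
  simp only [Pi.mul_apply] at h
  have h2 : (∫⁻ x, f x * g x ∂μ) ^ 2 ≤
      ((∫⁻ a, f a ^ (2 : ℝ) ∂μ) ^ (1 / (2 : ℝ)) * (∫⁻ a, g a ^ (2 : ℝ) ∂μ) ^ (1 / (2 : ℝ))) ^ 2 := by
    gcongr
  refine h2.trans (le_of_eq ?_)
  rw [mul_pow]
  simp only [← ENNReal.rpow_natCast, ← ENNReal.rpow_mul]
  norm_num

end Crest.Agent.R165.Cl2x722
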