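import Crest.Agent.R165.Cl2_722

/-!
# Row 165, block R-f: Cauchy transform, representation of weak solutions of `∂̄ u = g`, Weyl lemma
-/

open MeasureTheory Set Filter Topology Complex Metric
open scoped ENNReal NNReal ContDiff Convolution

namespace Crest.Agent.R165.Cl3x722

open Cl1x722 Cl2x722

/-- `u` solves `∂̄ u = g` weakly on the open set `U`. -/
def WDbar (U : Set ℂ) (u g : ℂ → ℂ) : Prop :=
  ∀ χ : ℂ → ℂ, ContDiff ℝ ∞ χ → HasCompactSupport χ → tsupport χ ⊆ U →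
    ∫ z, (u z * dbar χ z + g z * χ z) = 0

/-- The Cauchy transform. -/
noncomputable def cau (k : ℂ → ℂ) (z : ℂ) : ℂ := (Real.pi : ℂ)⁻¹ * ∫ w, (z - w)⁻¹ * k w

lemma dbar_mul {f g : ℂ → ℂ} {z : ℂ} (hf : DifferentiableAt ℝ f z) (hg : DifferentiableAt ℝ g z) :
    dbar (fun w => f w * g w) z = dbar f z * g z + f z * dbar g z := by
  have h : fderiv ℝ (fun w => f w * g w) z = f z • fderiv ℝ g z + g z • fderiv ℝ f z :=
    fderiv_fun_mul hf hg
  simp only [dbar, h, _root_.add_apply, _root_.smul_apply, smul_eq_mul]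
  ring

lemma continuous_dbar {f : ℂ → ℂ} (hf : ContDiff ℝ 1 f) : Continuous (dbar f) := by
  have h : Continuous (fderiv ℝ f) := hf.continuous_fderiv one_ne_zero
  unfold dbar
  exact ((h.clm_apply continuous_const).add (continuous_const.mul (h.clm_apply continuous_const))).div_const _

lemma dbar_zero_of_notMem {f : ℂ → ℂ} {z : ℂ} (hz : z ∉ tsupport f) : dbar f z = 0 := by
  have : fderiv ℝ f z = 0 := by
    by_contra h
    exact hz (support_fderiv_subset ℝ h)
  simp [dbar, this]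

/-- bounded integrable functions against the Cauchy kernel, uniformly in the pole -/
lemma lintegral_kernel_bdd {φ : ℂ → ℂ} {M : ℝ} (hM : ∀ z, ‖φ z‖ ≤ M) (w : ℂ) :
    ∫⁻ z, ‖(z - w)⁻¹ * φ z‖ₑ ≤ ENNReal.ofReal (2 * Real.pi) * ENNReal.ofReal M + ∫⁻ z, ‖φ z‖ₑ := by
  have hM0 : 0 ≤ M := (norm_nonneg _).trans (hM 0)
  rw [← lintegral_add_compl (fun z => ‖(z - w)⁻¹ * φ z‖ₑ) (measurableSet_ball (x := w) (ε := 1))]
  refine add_le_add ?_ ?_
  · calc ∫⁻ z in ball w 1, ‖(z - w)⁻¹ * φ z‖ₑ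
        ≤ ∫⁻ z in ball w 1, ENNReal.ofReal (‖z - w‖ ^ (-(1 : ℝ))) * ENNReal.ofReal M := by
          refine lintegral_mono fun z => ?_
          rw [enorm_mul, ← ofReal_norm, ← ofReal_norm, norm_inv,
            Real.rpow_neg_one]
          gcongr
          exact hM z
      _ = (∫⁻ z in ball w 1, ENNReal.ofReal (‖z - w‖ ^ (-(1 : ℝ)))) * ENNReal.ofReal M := by
          rw [lintegral_mul_const' _ _ ENNReal.ofReal_ne_top]
      _ = _ := by
          rw [lintegral_kernel_ball' (by norm_num) zero_le_one]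
          norm_num
  · calc ∫⁻ z in (ball w 1)ᶜ, ‖(z - w)⁻¹ * φ z‖ₑ ≤ ∫⁻ z in (ball w 1)ᶜ, ‖φ z‖ₑ := by
          refine setLIntegral_mono' measurableSet_ball.compl fun z hz => ?_
          rw [enorm_mul]
          have h1 : 1 ≤ ‖z - w‖ := by
            rw [mem_compl_iff, mem_ball, not_lt, dist_eq_norm] at hz; exact hz
          have h2 : ‖(z - w)⁻¹‖ₑ ≤ 1 := by
            rw [← ofReal_norm, norm_inv]
            exact ENNReal.ofReal_le_one.mpr (inv_le_one_of_one_le₀ h1)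
          calc ‖(z - w)⁻¹‖ₑ * ‖φ z‖ₑ ≤ 1 * ‖φ z‖ₑ := by gcongr
            _ = _ := one_mul _
      _ ≤ _ := setLIntegral_le_lintegral _ _

/-- Tonelli for the Cauchy kernel. -/
lemma integrable_kernel_prod {φ k : ℂ → ℂ} (hφ : Integrable φ) {M : ℝ} (hM : ∀ z, ‖φ z‖ ≤ M)
    (hk : Integrable k) :
    Integrable (fun p : ℂ × ℂ => (p.1 - p.2)⁻¹ * φ p.1 * k p.2) (volume.prod volume) := by
  have hmeas : AEStronglyMeasurable (fun p : ℂ × ℂ => (p.1 - p.2)⁻¹ * φ p.1 * k p.2)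
      (volume.prod volume) := by
    have h1 : AEStronglyMeasurable (fun p : ℂ × ℂ => (p.1 - p.2)⁻¹) (volume.prod volume) :=
      (by fun_prop : Measurable (fun p : ℂ × ℂ => (p.1 - p.2)⁻¹)).aestronglyMeasurable
    exact (h1.mul hφ.aestronglyMeasurable.comp_fst).mul hk.aestronglyMeasurable.comp_snd
  refine ⟨hmeas, ?_⟩
  unfold HasFiniteIntegral
  rw [lintegral_prod_symm _ hmeas.enorm]
  have hC : ENNReal.ofReal (2 * Real.pi) * ENNReal.ofReal M + ∫⁻ z, ‖φ z‖ₑ < ⊤ :=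
    ENNReal.add_lt_top.mpr ⟨ENNReal.mul_lt_top ENNReal.ofReal_lt_top ENNReal.ofReal_lt_top,
      hφ.hasFiniteIntegral⟩
  calc ∫⁻ w, ∫⁻ z, ‖(z - w)⁻¹ * φ z * k w‖ₑ
      ≤ ∫⁻ w, (ENNReal.ofReal (2 * Real.pi) * ENNReal.ofReal M + ∫⁻ z, ‖φ z‖ₑ) * ‖k w‖ₑ := by
        refine lintegral_mono fun w => ?_
        simp_rw [enorm_mul _ (k w)]
        rw [lintegral_mul_const' _ _ enorm_ne_top]
        gcongr
        exact lintegral_kernel_bdd hM w
    _ = (ENNReal.ofReal (2 * Real.pi) * ENNReal.ofReal M + ∫⁻ z, ‖φ z‖ₑ) * ∫⁻ w, ‖k w‖ₑ := by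
        rw [lintegral_const_mul' _ _ hC.ne]
    _ < ⊤ := ENNReal.mul_lt_top hC hk.hasFiniteIntegral

/-- antisymmetry of the Cauchy transform -/
lemma integral_mul_cau {φ k : ℂ → ℂ} (hφ : Integrable φ) {M : ℝ} (hM : ∀ z, ‖φ z‖ ≤ M)
    (hk : Integrable k) : ∫ z, φ z * cau k z = -∫ w, k w * cau φ w := by
  have h := integrable_kernel_prod hφ hM hk
  have h1 : ∫ z, φ z * cau k z = (Real.pi : ℂ)⁻¹ * ∫ z, ∫ w, (z - w)⁻¹ * φ z * k w := by
    rw [← integral_const_mul]
    refine integral_congr_ae (Eventually.of_forall fun z => ?_)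
    simp only [cau]
    rw [mul_left_comm, ← integral_const_mul]
    congr 1
    refine integral_congr_ae (Eventually.of_forall fun w => ?_)
    simp only; ring
  have h2 : -∫ w, k w * cau φ w = (Real.pi : ℂ)⁻¹ * ∫ w, ∫ z, (z - w)⁻¹ * φ z * k w := by
    rw [← integral_neg, ← integral_const_mul]
    refine integral_congr_ae (Eventually.of_forall fun w => ?_)
    simp only [cau]
    have h3 : ∫ z, (z - w)⁻¹ * φ z * k w = -(k w * ∫ z, (w - z)⁻¹ * φ z) := by
      rw [← integral_const_mul, ← integral_neg]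
      refine integral_congr_ae (Eventually.of_forall fun z => ?_)
      have : (z - w)⁻¹ = -(w - z)⁻¹ := by rw [← inv_neg, neg_sub]
      simp only [this]; ring
    rw [h3]; ring
  rw [h1, h2, integral_integral_swap (f := fun z w => (z - w)⁻¹ * φ z * k w) h]

lemma locallyIntegrable_inv : LocallyIntegrable (fun z : ℂ => z⁻¹) := by
  rw [locallyIntegrable_iff]
  intro K hK
  obtain ⟨R, hR⟩ := hK.isBounded.subset_ball (0 : ℂ)
  have hR' : K ⊆ ball (0 : ℂ) (max R 0) := hR.trans (ball_subset_ball (le_max_left _ _))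
  refine IntegrableOn.mono_set ⟨measurable_inv.aestronglyMeasurable, ?_⟩ hR'
  unfold HasFiniteIntegral
  have h := lintegral_kernel_ball (a := 1) (by norm_num) (le_max_right R 0)
  calc ∫⁻ z in ball (0 : ℂ) (max R 0), ‖z⁻¹‖ₑ
      = ∫⁻ z in ball (0 : ℂ) (max R 0), ENNReal.ofReal (‖z‖ ^ (-(1 : ℝ))) := by
        refine lintegral_congr fun z => ?_
        rw [← ofReal_norm, norm_inv, Real.rpow_neg_one]
    _ < ⊤ := by rw [h]; exact ENNReal.ofReal_lt_top

lemma cau_eq_conv (φ : ℂ → ℂ) :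
    cau φ = fun z => (Real.pi : ℂ)⁻¹ *
      ((fun t : ℂ => t⁻¹) ⋆[ContinuousLinearMap.mul ℝ ℂ, volume] φ) z := by
  funext z
  simp only [cau, convolution_def, ContinuousLinearMap.mul_apply']
  congr 1
  have := integral_sub_left_eq_self (fun w : ℂ => (z - w)⁻¹ * φ w) volume z
  rw [← this]
  refine integral_congr_ae (Eventually.of_forall fun w => ?_)
  simp

lemma contDiff_cau {φ : ℂ → ℂ} (h1 : ContDiff ℝ ∞ φ) (h2 : HasCompactSupport φ) :
    ContDiff ℝ ∞ (cau φ) := by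
  rw [cau_eq_conv]
  exact contDiff_const.mul
    (h2.contDiff_convolution_right (ContinuousLinearMap.mul ℝ ℂ) locallyIntegrable_inv h1)

/-- `∂̄ (cau φ) = φ` for test functions. -/
theorem dbar_cau {φ : ℂ → ℂ} (h1 : ContDiff ℝ ∞ φ) (h2 : HasCompactSupport φ) (z : ℂ) :
    dbar (cau φ) z = φ z := by
  have h1' : ContDiff ℝ 1 φ := h1.of_le (by exact_mod_cast le_top)
  have hd := h2.hasFDerivAt_convolution_right (ContinuousLinearMap.mul ℝ ℂ)
    locallyIntegrable_inv h1' z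
  have hd2 := hd.const_mul ((Real.pi : ℂ)⁻¹)
  have hfd : fderiv ℝ (cau φ) z = (Real.pi : ℂ)⁻¹ •
      ((fun t : ℂ => t⁻¹) ⋆[(ContinuousLinearMap.mul ℝ ℂ).precompR ℂ, volume] fderiv ℝ φ) z := by
    rw [cau_eq_conv]; exact hd2.fderiv
  have hcf : HasCompactSupport (fderiv ℝ φ) := h2.fderiv (𝕜 := ℝ)
  have hcc : Continuous (fderiv ℝ φ) := h1'.continuous_fderiv one_ne_zero
  simp only [dbar, hfd, _root_.smul_apply, smul_eq_mul]
  rw [convolution_precompR_apply _ locallyIntegrable_inv hcf hcc,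
    convolution_precompR_apply _ locallyIntegrable_inv hcf hcc]
  simp only [convolution_def, ContinuousLinearMap.mul_apply']
  -- the function `χ t = φ (z - t)`
  have hχ : ContDiff ℝ 1 (fun t => φ (z - t)) := h1'.comp (contDiff_const.sub contDiff_id)
  have hχc : HasCompactSupport (fun t => φ (z - t)) := by
    have := h2.comp_homeomorph (Homeomorph.subLeft z)
    exact this
  have hcp := cauchy_pompeiu_zero hχ hχc
  have hder : ∀ t, fderiv ℝ (fun t => φ (z - t)) t = -fderiv ℝ φ (z - t) := by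
    intro t
    have hf : HasFDerivAt φ (fderiv ℝ φ (z - t)) (z - t) :=
      (h1'.differentiable one_ne_zero _).hasFDerivAt
    have hg : HasFDerivAt (fun t : ℂ => z - t) (-ContinuousLinearMap.id ℝ ℂ) t :=
      (hasFDerivAt_id t).const_sub z
    have := hf.comp t hg
    rw [show (fun t => φ (z - t)) = φ ∘ (fun t => z - t) from rfl, this.fderiv]
    ext v; simp
  have hdb : ∀ t, t⁻¹ * dbar (fun t => φ (z - t)) t =
      -(t⁻¹ * ((fderiv ℝ φ (z - t) 1 + I * fderiv ℝ φ (z - t) I) / 2)) := by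
    intro t
    simp only [dbar, hder, _root_.neg_apply]; ring
  simp_rw [hdb] at hcp
  rw [integral_neg, sub_zero, neg_mul, neg_inj] at hcp
  have hi : ∀ v : ℂ, Integrable (fun t : ℂ => t⁻¹ * fderiv ℝ φ (z - t) v) := by
    intro v
    have hc1 : HasCompactSupport (fun x => fderiv ℝ φ x v) :=
      hcf.comp_left (g := fun L : ℂ →L[ℝ] ℂ => L v) (by simp)
    have := (hc1.convolutionExists_right (ContinuousLinearMap.mul ℝ ℂ) locallyIntegrable_inv
      (hcc.clm_apply continuous_const) z)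
    exact this
  have hsum : (∫ t, t⁻¹ * (fderiv ℝ φ (z - t)) 1) + I * (∫ t, t⁻¹ * (fderiv ℝ φ (z - t)) I) =
      2 * ∫ t, t⁻¹ * ((fderiv ℝ φ (z - t) 1 + I * fderiv ℝ φ (z - t) I) / 2) := by
    rw [← integral_const_mul, ← integral_const_mul, ← integral_add (hi 1) ((hi I).const_mul I)]
    refine integral_congr_ae (Eventually.of_forall fun t => ?_)
    simp only; ring
  have hpi : (Real.pi : ℂ) ≠ 0 := by exact_mod_cast Real.pi_ne_zero
  calc ((Real.pi : ℂ)⁻¹ * (∫ t, t⁻¹ * (fderiv ℝ φ (z - t)) 1) +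
        I * ((Real.pi : ℂ)⁻¹ * ∫ t, t⁻¹ * (fderiv ℝ φ (z - t)) I)) / 2
        = (Real.pi : ℂ)⁻¹ * ((∫ t, t⁻¹ * (fderiv ℝ φ (z - t)) 1) +
          I * (∫ t, t⁻¹ * (fderiv ℝ φ (z - t)) I)) / 2 := by ring
      _ = φ z := by rw [hsum, hcp]; field_simp

end Crest.Agent.R165.Cl3x722
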