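import Crest.Agent.R165.Cl3_722

/-!
# Row 165, block R-f: representation of weak solutions of `∂̄ u = g`, Weyl lemma for `∂̄`
-/

open MeasureTheory Set Filter Topology Complex Metric
open scoped ENNReal NNReal ContDiff Convolution

namespace Crest.Agent.R165.Cl4x722

open Cl1x722 Cl2x722 Cl3x722

lemma integrable_mul_test {U : Set ℂ} {u h : ℂ → ℂ} (hu : LocallyIntegrableOn u U)
    (hh : Continuous h) (hc : HasCompactSupport h) (hs : tsupport h ⊆ U) :
    Integrable (fun z => u z * h z) := by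
  have h1 : IntegrableOn u (tsupport h) := hu.integrableOn_compact_subset hs hc.isCompact
  have h2 : IntegrableOn (fun z => u z * h z) (tsupport h) :=
    h1.mul_continuousOn hh.continuousOn hc.isCompact
  refine (integrableOn_iff_integrable_of_support_subset ?_).mp h2
  intro z hz
  exact subset_tsupport _ (right_ne_zero_of_mul hz)

lemma tsupport_dbar_subset (ψ : ℂ → ℂ) : tsupport (dbar ψ) ⊆ tsupport ψ := by
  refine closure_minimal ?_ (isClosed_tsupport ψ)
  intro z hz
  by_contra h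
  exact hz (dbar_zero_of_notMem h)

lemma hasCompactSupport_dbar {ψ : ℂ → ℂ} (h : HasCompactSupport ψ) : HasCompactSupport (dbar ψ) :=
  h.of_isClosed_subset (isClosed_tsupport _) (tsupport_dbar_subset ψ)

lemma locallyIntegrable_cau {k : ℂ → ℂ} (hk : Integrable k) : LocallyIntegrable (cau k) := by
  rw [locallyIntegrable_iff]
  intro K hK
  set φ : ℂ → ℂ := K.indicator (fun _ => 1) with hφ
  have hφi : Integrable φ := by
    rw [hφ, integrable_indicator_iff hK.measurableSet]
    exact integrableOn_const (hs := hK.measure_lt_top.ne)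
  have hM : ∀ z, ‖φ z‖ ≤ 1 := by
    intro z
    by_cases hz : z ∈ K
    · simp [hφ, indicator_of_mem hz]
    · simp [hφ, indicator_of_notMem hz]
  have h := (integrable_kernel_prod hφi hM hk).integral_prod_left
  have h2 : IntegrableOn (fun z => (Real.pi : ℂ)⁻¹ * ∫ w, (z - w)⁻¹ * φ z * k w) K :=
    (h.const_mul _).integrableOn
  refine h2.congr_fun ?_ hK.measurableSet
  intro z hz
  simp only [cau]
  congr 1
  refine integral_congr_ae (Eventually.of_forall fun w => ?_)
  simp [hφ, indicator_of_mem hz]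

/-- **Representation of weak solutions**: `ψ u = cau (u ∂̄ψ + g ψ)` almost everywhere. -/
theorem rep {U : Set ℂ} {u g ψ : ℂ → ℂ} (hu : LocallyIntegrableOn u U)
    (hg : LocallyIntegrableOn g U) (hw : WDbar U u g) (hψ : ContDiff ℝ ∞ ψ)
    (hψc : HasCompactSupport ψ) (hψs : tsupport ψ ⊆ U) :
    ∀ᵐ z, ψ z * u z = cau (fun w => u w * dbar ψ w + g w * ψ w) z := by
  have hψ1 : ContDiff ℝ 1 ψ := hψ.of_le (by exact_mod_cast le_top)
  set k : ℂ → ℂ := fun w => u w * dbar ψ w + g w * ψ w with hk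
  have hki : Integrable k :=
    (integrable_mul_test hu (continuous_dbar hψ1) (hasCompactSupport_dbar hψc)
      ((tsupport_dbar_subset ψ).trans hψs)).add
      (integrable_mul_test hg hψ.continuous hψc hψs)
  have hui : Integrable (fun z => ψ z * u z) := by
    have := integrable_mul_test hu hψ.continuous hψc hψs
    simpa [mul_comm] using this
  have hloc : LocallyIntegrable (fun z => ψ z * u z - cau k z) :=
    hui.locallyIntegrable.sub (locallyIntegrable_cau hki)
  have hmain : ∀ (φ : ℂ → ℝ), ContDiff ℝ ∞ φ → HasCompactSupport φ →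
      ∫ z, φ z • (ψ z * u z - cau k z) = 0 := by
    intro φ hφ hφc
    set Φ : ℂ → ℂ := fun z => (φ z : ℂ) with hΦ
    have hΦs : ContDiff ℝ ∞ Φ := ofRealCLM.contDiff.comp hφ
    have hΦc : HasCompactSupport Φ := hφc.comp_left (g := fun x : ℝ => (x : ℂ)) (by simp)
    obtain ⟨M, hM⟩ := hΦc.exists_bound_of_continuous hΦs.continuous
    have hΦi : Integrable Φ := hΦs.continuous.integrable_of_hasCompactSupport hΦc
    have e1 : ∫ z, φ z • (ψ z * u z - cau k z) =
        (∫ z, Φ z * (ψ z * u z)) - ∫ z, Φ z * cau k z := by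
      rw [← integral_sub]
      · refine integral_congr_ae (Eventually.of_forall fun z => ?_)
        simp only [real_smul, hΦ]; ring
      · exact hui.bdd_mul hΦs.continuous.aestronglyMeasurable (Eventually.of_forall hM)
      · have h3 : LocallyIntegrableOn (cau k) univ := (locallyIntegrable_cau hki).locallyIntegrableOn _
        have := integrable_mul_test h3 hΦs.continuous hΦc (subset_univ _)
        simpa [mul_comm] using this
    rw [e1, integral_mul_cau hΦi hM hki, sub_neg_eq_add]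
    have hcs : ContDiff ℝ ∞ (cau Φ) := contDiff_cau hΦs hΦc
    have ht1 : ContDiff ℝ ∞ (fun z => ψ z * cau Φ z) := hψ.mul hcs
    have ht2 : HasCompactSupport (fun z => ψ z * cau Φ z) := hψc.mul_right
    have ht3 : tsupport (fun z => ψ z * cau Φ z) ⊆ U :=
      (closure_mono (fun z hz => left_ne_zero_of_mul hz)).trans hψs
    have hw' := hw _ ht1 ht2 ht3
    have hdb : ∀ z, dbar (fun z => ψ z * cau Φ z) z = dbar ψ z * cau Φ z + ψ z * Φ z := by
      intro z
      rw [dbar_mul (hψ.differentiable (by simp) z) (hcs.differentiable (by simp) z),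
        dbar_cau hΦs hΦc]
    have e2 : ∫ z, (u z * dbar (fun z => ψ z * cau Φ z) z + g z * (ψ z * cau Φ z)) =
        (∫ z, Φ z * (ψ z * u z)) + ∫ w, k w * cau Φ w := by
      rw [← integral_add]
      · refine integral_congr_ae (Eventually.of_forall fun z => ?_)
        simp only [hdb, hk]; ring
      · exact hui.bdd_mul hΦs.continuous.aestronglyMeasurable (Eventually.of_forall hM)
      · have h4 : Continuous (fun z => dbar ψ z * cau Φ z) :=
          (continuous_dbar hψ1).mul hcs.continuous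
        have h5 : HasCompactSupport (fun z => dbar ψ z * cau Φ z) :=
          (hasCompactSupport_dbar hψc).mul_right
        have h6 : tsupport (fun z => dbar ψ z * cau Φ z) ⊆ U :=
          (closure_mono (fun z hz => left_ne_zero_of_mul hz)).trans
            ((tsupport_dbar_subset ψ).trans hψs)
        have h7 := integrable_mul_test hu h4 h5 h6
        have h8 := integrable_mul_test hg (hψ.continuous.mul hcs.continuous) ht2 ht3
        refine (h7.add h8).congr (Eventually.of_forall fun z => ?_)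
        simp only [hk, Pi.add_apply, Pi.mul_apply]; ring
    rw [← e2]; exact hw'
  have := ae_eq_zero_of_integral_contDiff_smul_eq_zero hloc hmain
  filter_upwards [this] with z hz
  exact sub_eq_zero.mp hz

/-- The Cauchy transform is holomorphic off the support of the density. -/
theorem differentiableOn_cau {k : ℂ → ℂ} (hk : Integrable k) {c : ℂ} {r : ℝ}
    (h0 : ∀ w ∈ ball c r, k w = 0) : DifferentiableOn ℂ (cau k) (ball c r) := by
  intro z0 hz0
  refine DifferentiableAt.differentiableWithinAt ?_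
  set δ : ℝ := (r - dist z0 c) / 2 with hδ
  have hz0' : dist z0 c < r := hz0
  have hδ0 : 0 < δ := by rw [hδ]; linarith
  have hfar : ∀ z ∈ ball z0 δ, ∀ w, k w ≠ 0 → δ ≤ ‖z - w‖ := by
    intro z hz w hw
    by_contra hlt
    push Not at hlt
    refine hw (h0 w ?_)
    rw [mem_ball] at hz ⊢
    have h1 : dist w c ≤ dist w z + dist z z0 + dist z0 c := dist_triangle4 _ _ _ _
    have h2 : dist w z = ‖z - w‖ := by rw [dist_comm, dist_eq_norm]
    have : dist w c < δ + δ + dist z0 c := by linarith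
    rw [hδ] at this; linarith
  have hmeasF : ∀ z, AEStronglyMeasurable (fun w => (z - w)⁻¹ * k w) volume := by
    intro z
    have h1 : AEStronglyMeasurable (fun w : ℂ => (z - w)⁻¹) volume :=
      (by fun_prop : Measurable (fun w : ℂ => (z - w)⁻¹)).aestronglyMeasurable
    exact h1.mul hk.aestronglyMeasurable
  have hF' : AEStronglyMeasurable (fun w => (-((z0 - w) ^ 2)⁻¹) * k w) volume := by
    have h1 : AEStronglyMeasurable (fun w : ℂ => -((z0 - w) ^ 2)⁻¹) volume :=
      (by fun_prop : Measurable (fun w : ℂ => -((z0 - w) ^ 2)⁻¹)).aestronglyMeasurable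
    exact h1.mul hk.aestronglyMeasurable
  have hmem : z0 ∈ ball z0 δ := mem_ball_self hδ0
  have hFi : Integrable (fun w => (z0 - w)⁻¹ * k w) := by
    refine (hk.norm.const_mul (δ⁻¹)).mono' (hmeasF z0) (Eventually.of_forall fun w => ?_)
    rw [norm_mul]
    by_cases hw : k w = 0
    · simp [hw]
    · rw [norm_inv]
      gcongr
      exact hfar z0 hmem w hw
  have key := hasDerivAt_integral_of_dominated_loc_of_deriv_le (μ := (volume : Measure ℂ))
    (F := fun z w => (z - w)⁻¹ * k w) (F' := fun z w => (-((z - w) ^ 2)⁻¹) * k w)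
    (x₀ := z0) (s := ball z0 δ) (bound := fun w => (δ ^ 2)⁻¹ * ‖k w‖)
    (ball_mem_nhds z0 hδ0) (Eventually.of_forall hmeasF) hFi hF'
    (Eventually.of_forall fun w z hz => ?_) (hk.norm.const_mul _)
    (Eventually.of_forall fun w z hz => ?_)
  · have h2 := key.2.const_mul ((Real.pi : ℂ)⁻¹)
    exact h2.differentiableAt
  · rw [norm_mul, norm_neg, norm_inv, norm_pow]
    by_cases hw : k w = 0
    · simp [hw]
    · gcongr
      exact hfar z hz w hw
  · by_cases hw : k w = 0
    · simp only [hw, mul_zero]; exact hasDerivAt_const _ _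
    · have hne : z - w ≠ 0 := by
        intro h
        have := hfar z hz w hw
        rw [h, norm_zero] at this; linarith
      have h3 : HasDerivAt (fun z => z - w) 1 z := (hasDerivAt_id z).sub_const w
      have h4 := (h3.inv hne).mul_const (k w)
      refine h4.congr_deriv ?_
      field_simp

/-- uniform bound of the Cauchy transform away from the support of the density -/
lemma norm_cau_le {k : ℂ → ℂ} (hk : Integrable k) {z : ℂ} {δ : ℝ} (hδ : 0 < δ)
    (h0 : ∀ w, k w ≠ 0 → δ ≤ ‖z - w‖) : ‖cau k z‖ ≤ (Real.pi * δ)⁻¹ * ∫ w, ‖k w‖ := by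
  have h1 : ‖∫ w, (z - w)⁻¹ * k w‖ ≤ ∫ w, δ⁻¹ * ‖k w‖ := by
    refine norm_integral_le_of_norm_le (hk.norm.const_mul _) (Eventually.of_forall fun w => ?_)
    rw [norm_mul, norm_inv]
    by_cases hw : k w = 0
    · simp [hw]
    · gcongr
      exact h0 w hw
  rw [cau, norm_mul, norm_inv, norm_real, Real.norm_of_nonneg Real.pi_pos.le]
  calc Real.pi⁻¹ * ‖∫ w, (z - w)⁻¹ * k w‖ ≤ Real.pi⁻¹ * ∫ w, δ⁻¹ * ‖k w‖ := by
        gcongr
    _ = _ := by rw [integral_const_mul, mul_inv]; ring

lemma norm_cau_sub_le {k : ℂ → ℂ} (hk : Integrable k) {z z' : ℂ} {δ : ℝ} (hδ : 0 < δ)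
    (h0 : ∀ w, k w ≠ 0 → δ ≤ ‖z - w‖) (h0' : ∀ w, k w ≠ 0 → δ ≤ ‖z' - w‖) :
    ‖cau k z - cau k z'‖ ≤ (Real.pi * δ ^ 2)⁻¹ * ‖z - z'‖ * ∫ w, ‖k w‖ := by
  have hint : ∀ z, (∀ w, k w ≠ 0 → δ ≤ ‖z - w‖) → Integrable (fun w => (z - w)⁻¹ * k w) := by
    intro z hz
    have h1 : AEStronglyMeasurable (fun w : ℂ => (z - w)⁻¹) volume :=
      (by fun_prop : Measurable (fun w : ℂ => (z - w)⁻¹)).aestronglyMeasurable
    refine (hk.norm.const_mul (δ⁻¹)).mono' (h1.mul hk.aestronglyMeasurable)
      (Eventually.of_forall fun w => ?_)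
    rw [norm_mul, norm_inv]
    by_cases hw : k w = 0
    · simp [hw]
    · gcongr
      exact hz w hw
  have h1 : ‖(∫ w, (z - w)⁻¹ * k w) - ∫ w, (z' - w)⁻¹ * k w‖ ≤
      ∫ w, ((δ ^ 2)⁻¹ * ‖z - z'‖) * ‖k w‖ := by
    rw [← integral_sub (hint z h0) (hint z' h0')]
    refine norm_integral_le_of_norm_le (hk.norm.const_mul _) (Eventually.of_forall fun w => ?_)
    by_cases hw : k w = 0
    · simp [hw]
    · have ha := h0 w hw
      have hb := h0' w hw
      have hane : z - w ≠ 0 := by
        intro h; rw [h, norm_zero] at ha; linarith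
      have hbne : z' - w ≠ 0 := by
        intro h; rw [h, norm_zero] at hb; linarith
      have h2 : (z - w)⁻¹ * k w - (z' - w)⁻¹ * k w = (z - w)⁻¹ * (z' - w)⁻¹ * (z' - z) * k w := by
        field_simp; ring
      rw [h2, norm_mul, norm_mul, norm_mul, norm_inv, norm_inv, norm_sub_rev z' z]
      have h3 : ‖z - w‖⁻¹ * ‖z' - w‖⁻¹ ≤ (δ ^ 2)⁻¹ := by
        rw [pow_two, mul_inv]
        gcongr
      gcongr
  rw [cau, cau, ← mul_sub, norm_mul, norm_inv, norm_real, Real.norm_of_nonneg Real.pi_pos.le]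
  calc Real.pi⁻¹ * ‖(∫ w, (z - w)⁻¹ * k w) - ∫ w, (z' - w)⁻¹ * k w‖
      ≤ Real.pi⁻¹ * ∫ w, ((δ ^ 2)⁻¹ * ‖z - z'‖) * ‖k w‖ := by gcongr
    _ = _ := by rw [integral_const_mul, mul_inv]; ring

/-- a smooth cut-off, complex valued, equal to one on `closedBall c r`, supported in
`closedBall c R` -/
lemma exists_cutoff (c : ℂ) {r R : ℝ} (hr : 0 < r) (hR : r < R) :
    ∃ ψ : ℂ → ℂ, ContDiff ℝ ∞ ψ ∧ HasCompactSupport ψ ∧ tsupport ψ ⊆ closedBall c R ∧
      (∀ z ∈ closedBall c r, ψ z = 1) ∧ (∀ z ∈ ball c r, dbar ψ z = 0) ∧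
      (∀ z, ∃ t : ℝ, ψ z = t ∧ 0 ≤ t ∧ t ≤ 1) := by
  let f : ContDiffBump c := ⟨r, R, hr, hR⟩
  refine ⟨fun z => (f z : ℂ), ofRealCLM.contDiff.comp f.contDiff,
    f.hasCompactSupport.comp_left (g := fun x : ℝ => (x : ℂ)) (by simp), ?_, ?_, ?_, ?_⟩
  · have h1 : tsupport (fun z => (f z : ℂ)) ⊆ tsupport f := by
      refine closure_mono fun z hz => ?_
      intro h; exact hz (by simp [h])
    rw [f.tsupport_eq] at h1
    exact h1
  · intro z hz
    have : f z = 1 := f.one_of_mem_closedBall hz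
    simp [this]
  · intro z hz
    have h1 : (fun z => (f z : ℂ)) =ᶠ[𝓝 z] fun _ => (1 : ℂ) := by
      filter_upwards [isOpen_ball.mem_nhds hz] with w hw
      have : f w = 1 := f.one_of_mem_closedBall (ball_subset_closedBall hw)
      simp [this]
    have h2 : fderiv ℝ (fun z => (f z : ℂ)) z = 0 := by
      rw [h1.fderiv_eq]; simp
    simp [dbar, h2]
  · intro z
    exact ⟨f z, rfl, f.nonneg, f.le_one⟩

/-- local Weyl lemma for `∂̄` -/
theorem weyl_local {U : Set ℂ} {u : ℂ → ℂ} (hu : LocallyIntegrableOn u U)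
    (hw : WDbar U u 0) {c : ℂ} {r R : ℝ} (hr : 0 < r) (hR : r < R) (hB : closedBall c R ⊆ U) :
    ∃ v : ℂ → ℂ, DifferentiableOn ℂ v (ball c r) ∧ ∀ᵐ z, z ∈ ball c r → u z = v z := by
  obtain ⟨ψ, h1, h2, h3, h4, h5, -⟩ := exists_cutoff c hr hR
  have h1' : ContDiff ℝ 1 ψ := h1.of_le (by exact_mod_cast le_top)
  have hg : LocallyIntegrableOn (0 : ℂ → ℂ) U := (locallyIntegrable_zero).locallyIntegrableOn _
  have hrep := rep hu hg hw h1 h2 (h3.trans hB)
  set k : ℂ → ℂ := fun w => u w * dbar ψ w + (0 : ℂ → ℂ) w * ψ w with hk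
  have hki : Integrable k := by
    have := integrable_mul_test hu (continuous_dbar h1') (hasCompactSupport_dbar h2)
      ((tsupport_dbar_subset ψ).trans (h3.trans hB))
    simpa [hk] using this
  refine ⟨cau k, differentiableOn_cau hki ?_, ?_⟩
  · intro w hw
    simp [hk, h5 w hw]
  · filter_upwards [hrep] with z hz hzr
    rw [← hz, h4 z (ball_subset_closedBall hzr), one_mul]

/-- **Weyl lemma for `∂̄`**. -/
theorem weyl {U : Set ℂ} (hU : IsOpen U) {u : ℂ → ℂ} (hu : LocallyIntegrableOn u U)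
    (hw : WDbar U u 0) :
    ∃ v : ℂ → ℂ, DifferentiableOn ℂ v U ∧ ∀ᵐ z, z ∈ U → u z = v z := by
  have hloc : ∀ c : ℂ, ∃ p : ℝ × (ℂ → ℂ), c ∈ U → 0 < p.1 ∧ ball c p.1 ⊆ U ∧
      DifferentiableOn ℂ p.2 (ball c p.1) ∧ ∀ᵐ z, z ∈ ball c p.1 → u z = p.2 z := by
    intro c
    by_cases hc : c ∈ U
    · obtain ⟨R, hR0, hR⟩ := nhds_basis_closedBall.mem_iff.mp (hU.mem_nhds hc)
      obtain ⟨v, hv1, hv2⟩ := weyl_local hu hw (half_pos hR0) (half_lt_self hR0) hR
      exact ⟨(R / 2, v), fun _ => ⟨half_pos hR0,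
        (ball_subset_closedBall.trans (closedBall_subset_closedBall (half_le_self hR0.le))).trans hR,
        hv1, hv2⟩⟩
    · exact ⟨(1, 0), fun h => absurd h hc⟩
  choose p hp using hloc
  set v : ℂ → ℂ := fun z => (p z).2 z with hv
  have hagree : ∀ c ∈ U, ∀ z ∈ ball c (p c).1, v z = (p c).2 z := by
    intro c hc z hz
    obtain ⟨c1, c2, c3, c4⟩ := hp c hc
    have hzU : z ∈ U := c2 hz
    obtain ⟨z1, z2, z3, z4⟩ := hp z hzU
    have hopen : IsOpen (ball c (p c).1 ∩ ball z (p z).1) := isOpen_ball.inter isOpen_ball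
    have hae : (p z).2 =ᵐ[volume.restrict (ball c (p c).1 ∩ ball z (p z).1)] (p c).2 := by
      rw [Filter.EventuallyEq, ae_restrict_iff' hopen.measurableSet]
      filter_upwards [c4, z4] with w hw1 hw2 hw
      rw [← hw1 hw.1, ← hw2 hw.2]
    have := Measure.eqOn_open_of_ae_eq hae hopen (z3.continuousOn.mono inter_subset_right)
      (c3.continuousOn.mono inter_subset_left)
    exact this ⟨hz, mem_ball_self z1⟩
  refine ⟨v, ?_, ?_⟩
  · intro c hc
    obtain ⟨c1, c2, c3, c4⟩ := hp c hc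
    have h1 : DifferentiableAt ℂ (p c).2 c := c3.differentiableAt (ball_mem_nhds c c1)
    have h2 : v =ᶠ[𝓝 c] (p c).2 := by
      filter_upwards [ball_mem_nhds c c1] with z hz
      exact hagree c hc z hz
    exact (h2.differentiableAt_iff.mpr h1).differentiableWithinAt
  · have hnull : volume {z | z ∈ U ∧ u z ≠ v z} = 0 := by
      refine measure_null_of_locally_null _ fun c hc => ?_
      obtain ⟨c1, c2, c3, c4⟩ := hp c hc.1
      refine ⟨ball c (p c).1 ∩ {z | z ∈ U ∧ u z ≠ v z}, ?_, ?_⟩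
      · exact inter_mem (mem_nhdsWithin_of_mem_nhds (ball_mem_nhds c c1)) self_mem_nhdsWithin
      · refine measure_mono_null ?_ (ae_iff.mp c4)
        rintro z ⟨hz1, hz2, hz3⟩
        simp only [mem_setOf_eq, Classical.not_imp]
        refine ⟨hz1, ?_⟩
        rw [← hagree c hc.1 z hz1]; exact hz3
    rw [ae_iff]
    convert hnull using 2
    ext z; simp [Classical.not_imp]

end Crest.Agent.R165.Cl4x722
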