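import Crest.Agent.R165.Cl4_722

/-!
# Row 165, block R-f: holomorphic functions are weakly holomorphic, Green's formula in the half plane,
test functions vanishing on the real line
-/

open MeasureTheory Set Filter Topology Complex Metric
open scoped ENNReal NNReal ContDiff Convolution ComplexConjugate

namespace Crest.Agent.R165.Cl5x722

open Cl1x722 Cl2x722 Cl3x722 Cl4x722

/-- the open upper half plane -/
def HP : Set ℂ := {z | 0 < z.im}

lemma isOpen_HP : IsOpen HP := isOpen_lt continuous_const continuous_im

lemma measurableSet_HP : MeasurableSet HP := isOpen_HP.measurableSet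

lemma locallyIntegrableOn_of_differentiableOn {U : Set ℂ} (hU : IsOpen U) {v : ℂ → ℂ}
    (hv : DifferentiableOn ℂ v U) : LocallyIntegrableOn v U :=
  hv.continuousOn.locallyIntegrableOn hU.measurableSet

/-- a holomorphic function is weakly holomorphic -/
theorem integral_hol_dbar {U : Set ℂ} (hU : IsOpen U) {v χ : ℂ → ℂ}
    (hv : DifferentiableOn ℂ v U) (h1 : ContDiff ℝ 1 χ) (h2 : HasCompactSupport χ)
    (h3 : tsupport χ ⊆ U) : ∫ z, v z * dbar χ z = 0 := by
  have hfd : Continuous (fderiv ℝ χ) := h1.continuous_fderiv one_ne_zero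
  have hvl := locallyIntegrableOn_of_differentiableOn hU hv
  have hv' : DifferentiableOn ℂ (deriv v) U := hv.deriv hU
  have hv'l := locallyIntegrableOn_of_differentiableOn hU hv'
  have hval : ∀ z ∈ U, ∀ e : ℂ, fderiv ℝ v z e = deriv v z * e := by
    intro z hz e
    have hd : DifferentiableAt ℂ v z := hv.differentiableAt (hU.mem_nhds hz)
    have : HasFDerivAt v ((fderiv ℂ v z).restrictScalars ℝ) z :=
      hd.hasFDerivAt.restrictScalars ℝ
    rw [this.fderiv]
    simp [mul_comm]
  have hcs : ∀ e : ℂ, HasCompactSupport (fun z => fderiv ℝ χ z e) ∧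
      tsupport (fun z => fderiv ℝ χ z e) ⊆ U := by
    intro e
    have hsub : tsupport (fun z => fderiv ℝ χ z e) ⊆ tsupport χ := by
      refine closure_minimal ?_ (isClosed_tsupport χ)
      intro z hz
      have hne : fderiv ℝ χ z ≠ 0 := by
        intro h; exact hz (by simp [h])
      exact support_fderiv_subset ℝ hne
    exact ⟨h2.of_isClosed_subset (isClosed_tsupport _) hsub, hsub.trans h3⟩
  have key : ∀ e : ℂ, ∫ z, v z * fderiv ℝ χ z e = -∫ z, (deriv v z * χ z) * e := by
    intro e
    have hi2 : Integrable (fun z => v z * fderiv ℝ χ z e) :=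
      integrable_mul_test hvl (hfd.clm_apply continuous_const) (hcs e).1 (hcs e).2
    have hi3 : Integrable (fun z => v z * χ z) := integrable_mul_test hvl h1.continuous h2 h3
    have heq : (fun z => fderiv ℝ v z e * χ z) = fun z => (deriv v z * χ z) * e := by
      funext z
      by_cases hz : z ∈ U
      · rw [hval z hz]; ring
      · have : χ z = 0 := by
          by_contra h; exact hz (h3 (subset_tsupport _ h))
        rw [this]; ring
    have hi1 : Integrable (fun z => fderiv ℝ v z e * χ z) := by
      rw [heq]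
      exact (integrable_mul_test hv'l h1.continuous h2 h3).mul_const e
    have := integral_mul_fderiv_eq_neg_fderiv_mul_of_integrable (μ := volume) (f := v) (g := χ)
      (v := e) hi1 hi2 hi3
      (fun z hz => (hv.differentiableAt (hU.mem_nhds (h3 hz))).restrictScalars ℝ)
      (fun z _ => h1.differentiable one_ne_zero z)
    rw [this, heq]
  have hi : ∀ e : ℂ, Integrable (fun z => v z * fderiv ℝ χ z e) := fun e =>
    integrable_mul_test hvl (hfd.clm_apply continuous_const) (hcs e).1 (hcs e).2
  calc ∫ z, v z * dbar χ z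
      = ∫ z, ((1 / 2 : ℂ) * (v z * fderiv ℝ χ z 1) + (I / 2) * (v z * fderiv ℝ χ z I)) := by
        refine integral_congr_ae (Eventually.of_forall fun z => ?_)
        simp only [dbar]; ring
    _ = (1 / 2 : ℂ) * (∫ z, v z * fderiv ℝ χ z 1) + (I / 2) * ∫ z, v z * fderiv ℝ χ z I := by
        rw [integral_add ((hi 1).const_mul _) ((hi I).const_mul _), integral_const_mul,
          integral_const_mul]
    _ = 0 := by
        rw [key 1, key I, integral_mul_const, integral_mul_const]
        linear_combination (-(1 / 2 : ℂ) * ∫ z, deriv v z * χ z) * I_mul_I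

/-- holomorphic functions are weak solutions -/
theorem wdbar_of_hol {U : Set ℂ} (hU : IsOpen U) {u v : ℂ → ℂ}
    (hv : DifferentiableOn ℂ v U) (huv : ∀ᵐ z, z ∈ U → u z = v z) : WDbar U u 0 := by
  intro χ h1 h2 h3
  have h1' : ContDiff ℝ 1 χ := h1.of_le (by exact_mod_cast le_top)
  rw [← integral_hol_dbar hU hv h1' h2 h3]
  refine integral_congr_ae ?_
  filter_upwards [huv] with z hz
  by_cases hzU : z ∈ U
  · simp [hz hzU]
  · have : dbar χ z = 0 := dbar_zero_of_notMem (fun h => hzU (h3 h))
    simp [this]

/-- **Green's formula in the upper half plane**. -/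
theorem green_half {G : ℂ → ℂ} (h1 : ContDiff ℝ 1 G) (h2 : HasCompactSupport G) :
    ∫ z in HP, dbar G z = -(I / 2) * ∫ x : ℝ, G x := by
  have hfd : Continuous (fderiv ℝ G) := h1.continuous_fderiv one_ne_zero
  have hfc : HasCompactSupport (fderiv ℝ G) := h2.fderiv (𝕜 := ℝ)
  -- pass to the product
  have hprod : ∀ f : ℂ → ℂ, ∫ z in HP, f z =
      ∫ p in (univ : Set ℝ) ×ˢ Ioi (0 : ℝ), f (measurableEquivRealProd.symm p) := by
    intro f
    have hmp := Complex.volume_preserving_equiv_real_prod.symm
    rw [← hmp.setIntegral_preimage_emb (measurableEquivRealProd.symm.measurableEmbedding) f HP]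
    congr 2
    ext p
    simp [HP, measurableEquivRealProd]
  have hcomp : Continuous (fun p : ℝ × ℝ => measurableEquivRealProd.symm p) :=
    Complex.equivRealProdCLM.symm.continuous
  have hkey : ∀ e : ℂ, Continuous (fun p : ℝ × ℝ =>
      fderiv ℝ G (measurableEquivRealProd.symm p) e) := fun e =>
    (hfd.comp hcomp).clm_apply continuous_const
  have hsup : ∀ e : ℂ, HasCompactSupport (fun p : ℝ × ℝ =>
      fderiv ℝ G (measurableEquivRealProd.symm p) e) := by
    intro e
    have h3 : HasCompactSupport (fun z => fderiv ℝ G z e) :=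
      hfc.comp_left (g := fun L : ℂ →L[ℝ] ℂ => L e) (by simp)
    exact h3.comp_homeomorph Complex.equivRealProdCLM.symm.toHomeomorph
  have hint : ∀ e : ℂ, Integrable (fun p : ℝ × ℝ =>
      fderiv ℝ G (measurableEquivRealProd.symm p) e) := fun e =>
    (hkey e).integrable_of_hasCompactSupport (hsup e)
  have hs : ∀ x y : ℝ, measurableEquivRealProd.symm (x, y) = (x : ℂ) + y * I := by
    intro x y
    apply Complex.ext <;> simp [measurableEquivRealProd]
  -- the `x`-derivative
  have hx : ∫ p in (univ : Set ℝ) ×ˢ Ioi (0 : ℝ), fderiv ℝ G (measurableEquivRealProd.symm p) 1 = 0 := by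
    have hi := (hint 1).integrableOn (s := (univ : Set ℝ) ×ˢ Ioi (0 : ℝ))
    rw [Measure.volume_eq_prod] at hi ⊢
    have hi2 := hi.swap
    simp only [Function.comp_def] at hi2
    rw [← setIntegral_prod_swap, setIntegral_prod _ hi2]
    have hz0 : ∫ y in Ioi (0 : ℝ), (0 : ℂ) = 0 := by simp
    rw [← hz0]
    refine setIntegral_congr_fun measurableSet_Ioi fun y _ => ?_
    simp only [Prod.swap, hs, Measure.restrict_univ]
    have hd : ∀ x : ℝ, deriv (fun x : ℝ => G ((x : ℂ) + y * I)) x = fderiv ℝ G ((x : ℂ) + y * I) 1 := by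
      intro x
      have h3 : HasFDerivAt G (fderiv ℝ G ((x : ℂ) + y * I)) ((x : ℂ) + y * I) :=
        (h1.differentiable one_ne_zero _).hasFDerivAt
      have h4 : HasDerivAt (fun x : ℝ => (x : ℂ) + y * I) 1 x :=
        (Complex.ofRealCLM.hasDerivAt (x := x)).add_const _
      exact (h3.comp_hasDerivAt x h4).deriv
    have hg1 : ContDiff ℝ 1 (fun x : ℝ => G ((x : ℂ) + y * I)) :=
      h1.comp ((Complex.ofRealCLM.contDiff).add contDiff_const)
    have hg2 : HasCompactSupport (fun x : ℝ => G ((x : ℂ) + y * I)) := by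
      refine h2.comp_isClosedEmbedding ?_
      refine Isometry.isClosedEmbedding ?_
      refine Isometry.of_dist_eq fun a b => ?_
      simp [dist_eq_norm, ← Complex.ofReal_sub]
    have : ∫ x : ℝ, deriv (fun x : ℝ => G ((x : ℂ) + y * I)) x = 0 := by
      have hleft := hg2.integral_Iic_deriv_eq hg1 0
      have hright := hg2.integral_Ioi_deriv_eq hg1 0
      have hdc : Continuous (deriv (fun x : ℝ => G ((x : ℂ) + y * I))) := hg1.continuous_deriv le_rfl
      have hdi : Integrable (deriv (fun x : ℝ => G ((x : ℂ) + y * I))) :=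
        hdc.integrable_of_hasCompactSupport hg2.deriv
      rw [← intervalIntegral.integral_Iic_add_Ioi (b := 0) hdi.integrableOn hdi.integrableOn,
        hleft, hright]
      ring
    simpa [hd] using this
  -- the `y`-derivative
  have hy : ∫ p in (univ : Set ℝ) ×ˢ Ioi (0 : ℝ), fderiv ℝ G (measurableEquivRealProd.symm p) I =
      -∫ x : ℝ, G x := by
    have hi := (hint I).integrableOn (s := (univ : Set ℝ) ×ˢ Ioi (0 : ℝ))
    rw [Measure.volume_eq_prod] at hi ⊢
    rw [setIntegral_prod _ hi, Measure.restrict_univ, ← integral_neg]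
    refine integral_congr_ae (Eventually.of_forall fun x => ?_)
    simp only [hs]
    have hd : ∀ y : ℝ, deriv (fun y : ℝ => G ((x : ℂ) + y * I)) y = fderiv ℝ G ((x : ℂ) + y * I) I := by
      intro y
      have h3 : HasFDerivAt G (fderiv ℝ G ((x : ℂ) + y * I)) ((x : ℂ) + y * I) :=
        (h1.differentiable one_ne_zero _).hasFDerivAt
      have h4 : HasDerivAt (fun y : ℝ => (x : ℂ) + y * I) (1 * I) y :=
        ((Complex.ofRealCLM.hasDerivAt (x := y)).mul_const I).const_add _
      rw [one_mul] at h4
      exact (h3.comp_hasDerivAt y h4).deriv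
    have hg1 : ContDiff ℝ 1 (fun y : ℝ => G ((x : ℂ) + y * I)) :=
      h1.comp (contDiff_const.add ((Complex.ofRealCLM.contDiff).mul contDiff_const))
    have hg2 : HasCompactSupport (fun y : ℝ => G ((x : ℂ) + y * I)) := by
      refine h2.comp_isClosedEmbedding ?_
      refine Isometry.isClosedEmbedding ?_
      refine Isometry.of_dist_eq fun a b => ?_
      simp only [dist_eq_norm, add_sub_add_left_eq_sub, ← sub_mul, norm_mul, norm_I, mul_one,
        ← Complex.ofReal_sub, norm_real]
    have := hg2.integral_Ioi_deriv_eq hg1 0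
    simp only [hd] at this
    rw [this]; simp
  have hI : ∀ e : ℂ, IntegrableOn (fun z => fderiv ℝ G z e) HP := by
    intro e
    have h3 : HasCompactSupport (fun z => fderiv ℝ G z e) :=
      hfc.comp_left (g := fun L : ℂ →L[ℝ] ℂ => L e) (by simp)
    exact ((hfd.clm_apply continuous_const).integrable_of_hasCompactSupport h3).integrableOn
  calc ∫ z in HP, dbar G z
      = ∫ z in HP, ((1 / 2 : ℂ) * fderiv ℝ G z 1 + (I / 2) * fderiv ℝ G z I) := by
        refine integral_congr_ae (Eventually.of_forall fun z => ?_)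
        simp only [dbar]; ring
    _ = (1 / 2 : ℂ) * (∫ z in HP, fderiv ℝ G z 1) + (I / 2) * ∫ z in HP, fderiv ℝ G z I := by
        rw [integral_add ((hI 1).const_mul _) ((hI I).const_mul _), integral_const_mul,
          integral_const_mul]
    _ = _ := by
        rw [hprod, hprod, hx, hy]; ring

end Crest.Agent.R165.Cl5x722
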