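import Crest.Agent.R165.Cl5_722

/-!
# Row 165, block R-f: test functions vanishing on the real line, reflection of `L¹` functions
-/

open MeasureTheory Set Filter Topology Complex Metric
open scoped ENNReal NNReal ContDiff Convolution ComplexConjugate

namespace Crest.Agent.R165.Cl6x722

open Cl1x722 Cl2x722 Cl3x722 Cl4x722 Cl5x722

/-- smooth cut-off vanishing near the closed lower half plane -/
noncomputable def th (ε : ℝ) (z : ℂ) : ℂ := ((Real.smoothTransition (z.im / ε - 1) : ℝ) : ℂ)

lemma contDiff_th (ε : ℝ) : ContDiff ℝ ∞ (th ε) := by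
  unfold th
  refine ofRealCLM.contDiff.comp (Real.smoothTransition.contDiff.comp ?_)
  exact (imCLM.contDiff.div_const ε).sub contDiff_const

lemma exists_bound_transition : ∃ C : ℝ, 0 ≤ C ∧ ∀ t, |deriv Real.smoothTransition t| ≤ C := by
  have hc : Continuous (deriv Real.smoothTransition) :=
    (Real.smoothTransition.contDiff (n := 1)).continuous_deriv le_rfl
  obtain ⟨C, hC⟩ := (isCompact_Icc (a := (-1 : ℝ)) (b := 2)).exists_bound_of_continuousOn
    hc.continuousOn
  refine ⟨max C 0, le_max_right _ _, fun t => ?_⟩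
  by_cases h1 : t < 0
  · have : Real.smoothTransition =ᶠ[𝓝 t] fun _ => 0 := by
      filter_upwards [Iio_mem_nhds h1] with s hs
      exact Real.smoothTransition.zero_of_nonpos hs.le
    rw [this.deriv_eq]; simp
  · by_cases h2 : 1 < t
    · have : Real.smoothTransition =ᶠ[𝓝 t] fun _ => 1 := by
        filter_upwards [Ioi_mem_nhds h2] with s hs
        exact Real.smoothTransition.one_of_one_le hs.le
      rw [this.deriv_eq]; simp
    · have := hC t ⟨by linarith, by linarith⟩
      exact (by simpa using this : |deriv Real.smoothTransition t| ≤ C).trans (le_max_left _ _)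

lemma norm_th_le (ε : ℝ) (z : ℂ) : ‖th ε z‖ ≤ 1 := by
  unfold th
  rw [norm_real, Real.norm_eq_abs, abs_of_nonneg (Real.smoothTransition.nonneg _)]
  exact Real.smoothTransition.le_one _

lemma th_zero {ε : ℝ} (hε : 0 < ε) {z : ℂ} (hz : z.im ≤ ε) : th ε z = 0 := by
  unfold th
  rw [Real.smoothTransition.zero_of_nonpos]
  · simp
  · rw [sub_nonpos, div_le_one hε]; exact hz

lemma th_one {ε : ℝ} (hε : 0 < ε) {z : ℂ} (hz : 2 * ε ≤ z.im) : th ε z = 1 := by
  unfold th
  rw [Real.smoothTransition.one_of_one_le]
  · simp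
  · rw [le_sub_iff_add_le, le_div_iff₀ hε]; linarith

lemma dbar_th (ε : ℝ) (z : ℂ) :
    dbar (th ε) z = (I / 2) * ((deriv Real.smoothTransition (z.im / ε - 1) / ε : ℝ) : ℂ) := by
  have h0 : HasFDerivAt (fun z : ℂ => z.im / ε - 1) (ε⁻¹ • imCLM) z := by
    have h1 := ((imCLM.hasFDerivAt (x := z)).const_mul (ε⁻¹)).sub_const 1
    refine h1.congr_of_eventuallyEq (Eventually.of_forall fun w => ?_)
    simp [div_eq_inv_mul]
  have h2 : HasDerivAt Real.smoothTransition (deriv Real.smoothTransition (z.im / ε - 1))
      (z.im / ε - 1) :=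
    ((Real.smoothTransition.contDiff (n := 1)).differentiable one_ne_zero _).hasDerivAt
  have h3 := h2.comp_hasFDerivAt z h0
  have h4 := (ofRealCLM.hasFDerivAt (x := Real.smoothTransition (z.im / ε - 1))).comp z h3
  have h5 : fderiv ℝ (th ε) z = ofRealCLM.comp
      (deriv Real.smoothTransition (z.im / ε - 1) • (ε⁻¹ • imCLM)) := by
    rw [← h4.fderiv]; rfl
  rw [dbar, h5]
  simp only [ContinuousLinearMap.comp_apply, _root_.smul_apply, imCLM_apply, one_im, I_im,
    smul_eq_mul, ofRealCLM_apply]
  push_cast
  ring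

lemma dbar_th_zero {ε : ℝ} (hε : 0 < ε) {z : ℂ} (hz : 2 * ε < z.im) : dbar (th ε) z = 0 := by
  rw [dbar_th]
  have h1 : 1 < z.im / ε - 1 := by
    rw [lt_sub_iff_add_lt, lt_div_iff₀ hε]; linarith
  have : Real.smoothTransition =ᶠ[𝓝 (z.im / ε - 1)] fun _ => 1 := by
    filter_upwards [Ioi_mem_nhds h1] with s hs
    exact Real.smoothTransition.one_of_one_le (le_of_lt hs)
  rw [this.deriv_eq]; simp

/-- `χ th ε` is a test function in the open half ball -/
lemma tsupport_mul_th {ε : ℝ} (hε : 0 < ε) {χ : ℂ → ℂ} {B : Set ℂ} (h : tsupport χ ⊆ B) :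
    tsupport (fun z => χ z * th ε z) ⊆ B ∩ HP := by
  have h1 : tsupport (fun z => χ z * th ε z) ⊆ tsupport χ ∩ {z | ε ≤ z.im} := by
    refine closure_minimal ?_ ((isClosed_tsupport χ).inter (isClosed_le continuous_const continuous_im))
    intro z hz
    have hz' : χ z * th ε z ≠ 0 := hz
    refine ⟨subset_tsupport _ (left_ne_zero_of_mul hz'), ?_⟩
    by_contra hlt
    simp only [mem_ofPred_eq, not_le] at hlt
    exact (right_ne_zero_of_mul hz') (th_zero hε hlt.le)
  intro z hz
  exact ⟨h (h1 hz).1, lt_of_lt_of_le hε (h1 hz).2⟩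

/-- Weakly holomorphic `L¹` functions on the half ball do not see test functions vanishing on the
real line. -/
theorem integral_vanish {B : Set ℂ} (hB : MeasurableSet B) {q χ : ℂ → ℂ}
    (hq : IntegrableOn q (B ∩ HP)) (hw : WDbar (B ∩ HP) q 0) (h1 : ContDiff ℝ ∞ χ)
    (h2 : HasCompactSupport χ) (h3 : tsupport χ ⊆ B) (h0 : ∀ x : ℝ, χ x = 0) :
    ∫ z in B ∩ HP, q z * dbar χ z = 0 := by
  have h1' : ContDiff ℝ 1 χ := h1.of_le (by exact_mod_cast le_top)
  obtain ⟨L, hL⟩ := h1'.lipschitzWith_of_hasCompactSupport h2 one_ne_zero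
  obtain ⟨C0, hC0, hC⟩ := exists_bound_transition
  obtain ⟨M, hM⟩ := (hasCompactSupport_dbar h2).exists_bound_of_continuous (continuous_dbar h1')
  have hχ : ∀ z : ℂ, ‖χ z‖ ≤ L * |z.im| := by
    intro z
    have h4 := hL.dist_le_mul z (z.re : ℂ)
    rw [dist_eq_norm, h0, sub_zero, dist_eq_norm] at h4
    have h5 : z - (z.re : ℂ) = (z.im : ℂ) * I := by
      apply Complex.ext <;> simp
    rw [h5, norm_mul, norm_I, mul_one, norm_real, Real.norm_eq_abs] at h4
    exact h4
  set ε : ℕ → ℝ := fun n => 1 / ((n : ℝ) + 1) with hε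
  have hεpos : ∀ n, 0 < ε n := fun n => by simp only [hε]; positivity
  set F : ℕ → ℂ → ℂ := fun n z => q z * dbar (fun w => χ w * th (ε n) w) z with hF
  have hdb : ∀ n z, dbar (fun w => χ w * th (ε n) w) z =
      dbar χ z * th (ε n) z + χ z * dbar (th (ε n)) z := fun n z =>
    dbar_mul (h1'.differentiable one_ne_zero z) ((contDiff_th (ε n)).differentiable (by simp) z)
  have hFz : ∀ n, ∫ z in B ∩ HP, F n z = 0 := by
    intro n
    have ht1 : ContDiff ℝ ∞ (fun w => χ w * th (ε n) w) := h1.mul (contDiff_th _)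
    have ht2 : HasCompactSupport (fun w => χ w * th (ε n) w) := h2.mul_right
    have ht3 := tsupport_mul_th (hεpos n) h3
    have hw' := hw _ ht1 ht2 ht3
    rw [← hw']
    rw [← integral_indicator (hB.inter measurableSet_HP)]
    refine integral_congr_ae (Eventually.of_forall fun z => ?_)
    by_cases hz : z ∈ B ∩ HP
    · simp [indicator_of_mem hz, hF]
    · have hz' : dbar (fun w => χ w * th (ε n) w) z = 0 :=
        dbar_zero_of_notMem (fun h => hz (ht3 h))
      simp [indicator_of_notMem hz, hz']
  have hlim : Tendsto (fun n => ∫ z in B ∩ HP, F n z) atTop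
      (𝓝 (∫ z in B ∩ HP, q z * dbar χ z)) := by
    refine tendsto_integral_of_dominated_convergence (fun z => ‖q z‖ * (M + L * C0)) ?_ ?_ ?_ ?_
    · intro n
      have hc : Continuous (dbar (fun w => χ w * th (ε n) w)) :=
        continuous_dbar ((h1'.mul ((contDiff_th (ε n)).of_le (by exact_mod_cast le_top))))
      exact hq.aestronglyMeasurable.mul hc.aestronglyMeasurable.restrict
    · exact hq.norm.mul_const _
    · intro n
      refine (ae_restrict_iff' (hB.inter measurableSet_HP)).mpr (Eventually.of_forall fun z hz => ?_)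
      simp only [hF]
      rw [norm_mul, hdb]
      have hzim : 0 < z.im := hz.2
      refine mul_le_mul_of_nonneg_left ?_ (norm_nonneg _)
      refine (norm_add_le _ _).trans (add_le_add ?_ ?_)
      · rw [norm_mul]
        calc ‖dbar χ z‖ * ‖th (ε n) z‖ ≤ M * 1 := by
              gcongr
              · exact (norm_nonneg _).trans (hM z)
              · exact hM z
              · exact norm_th_le _ _
          _ = M := mul_one M
      · rw [norm_mul]
        by_cases h2e : 2 * ε n < z.im
        · rw [dbar_th_zero (hεpos n) h2e]; simp; positivity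
        · rw [dbar_th, norm_mul, norm_real, norm_div, norm_I]
          have h6 : ‖(2 : ℂ)‖ = 2 := by norm_num
          rw [h6, Real.norm_eq_abs, abs_div, abs_of_pos (hεpos n)]
          calc ‖χ z‖ * (1 / 2 * (|deriv Real.smoothTransition (z.im / ε n - 1)| / ε n))
              ≤ (L * |z.im|) * (1 / 2 * (C0 / ε n)) := by
                gcongr
                · exact hχ z
                · exact hC _
            _ = L * C0 * (z.im / (2 * ε n)) := by
                rw [abs_of_pos hzim]
                have := (hεpos n).ne'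
                field_simp
            _ ≤ L * C0 * 1 := by
                gcongr
                rw [div_le_one (by have := hεpos n; positivity)]
                exact not_lt.mp h2e
            _ = L * C0 := mul_one _
    · refine (ae_restrict_iff' (hB.inter measurableSet_HP)).mpr (Eventually.of_forall fun z hz => ?_)
      have hzim : 0 < z.im := hz.2
      refine tendsto_const_nhds.congr' ?_
      have hev : ∀ᶠ n : ℕ in atTop, 2 * ε n < z.im := by
        have : Tendsto (fun n : ℕ => 2 * ε n) atTop (𝓝 (2 * 0)) :=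
          (tendsto_one_div_add_atTop_nhds_zero_nat).const_mul 2
        rw [mul_zero] at this
        exact this.eventually (gt_mem_nhds hzim)
      filter_upwards [hev] with n hn
      simp only [hF]
      rw [hdb, th_one (hεpos n) hn.le, dbar_th_zero (hεpos n) hn]
      simp
  have h7 : (fun n => ∫ z in B ∩ HP, F n z) = fun _ => 0 := funext hFz
  rw [h7] at hlim
  exact (tendsto_nhds_unique hlim tendsto_const_nhds)

end Crest.Agent.R165.Cl6x722
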