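import Crest.Agent.R165.Cl6_722

/-!
# Row 165, block R-f: reflection of weakly holomorphic `L¹` functions
-/

open MeasureTheory Set Filter Topology Complex Metric
open scoped ENNReal NNReal ContDiff Convolution ComplexConjugate

namespace Crest.Agent.R165.Cl7x722

open Cl1x722 Cl2x722 Cl3x722 Cl4x722 Cl5x722 Cl6x722

/-- `χ` is a real test function compactly supported in `B` -/
structure RTest (B : Set ℂ) (χ : ℂ → ℝ) : Prop where
  smooth : ContDiff ℝ ∞ χ
  cpt : HasCompactSupport χ
  supp : tsupport χ ⊆ B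

/-- a real function as a complex one -/
def cx (χ : ℂ → ℝ) (z : ℂ) : ℂ := (χ z : ℂ)

lemma RTest.cx_smooth {B : Set ℂ} {χ : ℂ → ℝ} (h : RTest B χ) : ContDiff ℝ ∞ (cx χ) :=
  ofRealCLM.contDiff.comp h.smooth

lemma RTest.cx_cpt {B : Set ℂ} {χ : ℂ → ℝ} (h : RTest B χ) : HasCompactSupport (cx χ) :=
  h.cpt.comp_left (g := fun x : ℝ => (x : ℂ)) (by simp)

lemma RTest.cx_supp {B : Set ℂ} {χ : ℂ → ℝ} (h : RTest B χ) : tsupport (cx χ) ⊆ B := by
  refine (closure_mono fun z hz => ?_).trans h.supp
  intro h0; exact hz (by simp [cx, h0])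

/-- the reflected function -/
noncomputable def refl (q : ℂ → ℂ) (z : ℂ) : ℂ :=
  if 0 < z.im then q z else if z.im < 0 then conj (q (conj z)) else 0

lemma refl_up {q : ℂ → ℂ} {z : ℂ} (h : 0 < z.im) : refl q z = q z := if_pos h

lemma refl_dn {q : ℂ → ℂ} {z : ℂ} (h : z.im < 0) : refl q z = conj (q (conj z)) := by
  rw [refl, if_neg (not_lt.mpr h.le), if_pos h]

lemma refl_conj (q : ℂ → ℂ) (z : ℂ) : refl q (conj z) = conj (refl q z) := by
  rcases lt_trichotomy z.im 0 with h | h | h
  · rw [refl_up (by simpa using h), refl_dn h, conj_conj]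
  · simp [refl, h]
  · rw [refl_dn (by simpa using h), refl_up h, conj_conj]

/-- the lower half plane -/
def HM : Set ℂ := {z | z.im < 0}

lemma isOpen_HM : IsOpen HM := isOpen_lt continuous_im continuous_const

lemma measurableSet_HM : MeasurableSet HM := isOpen_HM.measurableSet

lemma volume_im_eq_zero : volume {z : ℂ | z.im = 0} = 0 := by
  have h1 : {z : ℂ | z.im = 0} = (LinearMap.ker imCLM.toLinearMap : Submodule ℝ ℂ) := by
    ext z; simp
  rw [h1]
  refine Measure.addHaar_submodule _ _ ?_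
  intro h
  have : (I : ℂ) ∈ (LinearMap.ker imCLM.toLinearMap : Submodule ℝ ℂ) := by rw [h]; trivial
  simp at this

lemma mp_conj : MeasurePreserving (fun z : ℂ => conj z) volume volume :=
  (conjLIE : ℂ ≃ₗᵢ[ℝ] ℂ).measurePreserving

lemma integral_conj_HM {B : Set ℂ} (hB : ∀ z, conj z ∈ B ↔ z ∈ B) (f : ℂ → ℂ) :
    ∫ z in B ∩ HM, f z = ∫ z in B ∩ HP, f (conj z) := by
  have hemb : MeasurableEmbedding (fun z : ℂ => conj z) :=
    (conjLIE : ℂ ≃ₗᵢ[ℝ] ℂ).toHomeomorph.measurableEmbedding
  rw [← mp_conj.setIntegral_preimage_emb hemb f (B ∩ HM)]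
  congr 2
  ext z
  simp [hB, HM, HP]

lemma integrableOn_conj_HM {B : Set ℂ} (hB : ∀ z, conj z ∈ B ↔ z ∈ B) {f : ℂ → ℂ}
    (hf : IntegrableOn (fun z => f (conj z)) (B ∩ HP)) : IntegrableOn f (B ∩ HM) := by
  have hemb : MeasurableEmbedding (fun z : ℂ => conj z) :=
    (conjLIE : ℂ ≃ₗᵢ[ℝ] ℂ).toHomeomorph.measurableEmbedding
  have h := mp_conj.integrableOn_comp_preimage hemb (f := f) (s := B ∩ HM)
  rw [← h]
  have hs : (fun z : ℂ => conj z) ⁻¹' (B ∩ HM) = B ∩ HP := by
    ext z
    simp [hB, HM, HP]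
  rw [hs]; exact hf

lemma dbar_comp_conj {χ : ℂ → ℝ} (h : Differentiable ℝ χ) (z : ℂ) :
    dbar (cx (fun w => χ (conj w))) z = conj (dbar (cx χ) (conj z)) := by
  have e1 : ∀ (ξ : ℂ → ℝ) (z : ℂ), DifferentiableAt ℝ ξ z → ∀ e : ℂ,
      fderiv ℝ (cx ξ) z e = ((fderiv ℝ ξ z e : ℝ) : ℂ) := by
    intro ξ z hξ e
    have : HasFDerivAt (cx ξ) (ofRealCLM.comp (fderiv ℝ ξ z)) z :=
      (ofRealCLM.hasFDerivAt).comp z hξ.hasFDerivAt
    rw [this.fderiv]; simp
  have hc : HasFDerivAt (fun w : ℂ => conj w) (conjCLE.toContinuousLinearMap) z :=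
    conjCLE.hasFDerivAt
  have h2 : HasFDerivAt (fun w => χ (conj w))
      ((fderiv ℝ χ (conj z)).comp (conjCLE.toContinuousLinearMap)) z :=
    (h (conj z)).hasFDerivAt.comp z hc
  rw [dbar, dbar, e1 _ z h2.differentiableAt, e1 _ z h2.differentiableAt, e1 _ _ (h _),
    e1 _ _ (h _), h2.fderiv]
  have h3 : (fderiv ℝ χ (conj z)) (conj I) = -(fderiv ℝ χ (conj z)) I := by
    rw [conj_I, map_neg]
  simp only [ContinuousLinearMap.comp_apply, map_div₀, map_add, map_mul, conj_ofReal, conj_I]
  simp [h3, map_ofNat]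

/-- **Reflection for the square**: a weakly holomorphic `L¹` function on the upper half of a
conjugation invariant open set which annihilates (in real part) the real test functions crossing the
real line extends by reflection to a weakly holomorphic function. -/
theorem wdbar_refl {B : Set ℂ} (hBo : IsOpen B) (hB : ∀ z, conj z ∈ B ↔ z ∈ B) {q : ℂ → ℂ}
    (hq : IntegrableOn q (B ∩ HP)) (hw : WDbar (B ∩ HP) q 0)
    (hre : ∀ χ : ℂ → ℝ, RTest B χ → (∫ z in B ∩ HP, q z * dbar (cx χ) z).re = 0) :
    IntegrableOn (refl q) B ∧ WDbar B (refl q) 0 := by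
  have hBm : MeasurableSet B := hBo.measurableSet
  -- integrability of the reflected function
  have hup : IntegrableOn (refl q) (B ∩ HP) := by
    refine hq.congr_fun (fun z hz => ?_) (hBm.inter measurableSet_HP)
    exact (refl_up hz.2).symm
  have hdn : IntegrableOn (refl q) (B ∩ HM) := by
    refine integrableOn_conj_HM hB ?_
    have h1 : IntegrableOn (fun z => conj (q z)) (B ∩ HP) := by
      have := (conjCLE : ℂ ≃L[ℝ] ℂ).toContinuousLinearMap.integrable_comp hq
      exact this
    refine h1.congr_fun (fun z hz => ?_) (hBm.inter measurableSet_HP)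
    simp only
    rw [refl_conj, refl_up hz.2]
  have hsplit : ∀ᵐ z, z ∈ B ↔ z ∈ (B ∩ HP) ∪ (B ∩ HM) := by
    have h0 : ∀ᵐ z : ℂ, ¬ z.im = 0 := by
      rw [ae_iff]; simpa using volume_im_eq_zero
    filter_upwards [h0] with z hz
    constructor
    · intro h
      rcases lt_or_gt_of_ne hz with h1 | h1
      · right; exact ⟨h, h1⟩
      · left; exact ⟨h, h1⟩
    · rintro (h | h)
      · exact h.1
      · exact h.1
  have hset : B =ᵐ[volume] ((B ∩ HP) ∪ (B ∩ HM) : Set ℂ) := by
    filter_upwards [hsplit] with z hz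
    exact propext hz
  have hBi : IntegrableOn (refl q) B := by
    rw [integrableOn_congr_set_ae hset]
    exact hup.union hdn
  refine ⟨hBi, ?_⟩
  have hdisj : Disjoint (B ∩ HP) (B ∩ HM) := by
    rw [Set.disjoint_left]
    rintro z ⟨_, h1⟩ ⟨_, h2⟩
    exact lt_asymm (show 0 < z.im from h1) h2
  -- real test functions
  have hreal : ∀ χ : ℂ → ℝ, RTest B χ → ∫ z in B, refl q z * dbar (cx χ) z = 0 := by
    intro χ hχ
    have hc1 : ContDiff ℝ 1 (cx χ) := hχ.cx_smooth.of_le (by exact_mod_cast le_top)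
    obtain ⟨M, hM⟩ := (hasCompactSupport_dbar hχ.cx_cpt).exists_bound_of_continuous
      (continuous_dbar hc1)
    have hmi : ∀ {S : Set ℂ}, IntegrableOn (refl q) S →
        IntegrableOn (fun z => refl q z * dbar (cx χ) z) S := fun {S} hS =>
      hS.mul_bdd (continuous_dbar hc1).aestronglyMeasurable (Eventually.of_forall hM)
    rw [setIntegral_congr_set hset, setIntegral_union hdisj (hBm.inter measurableSet_HM)
      (hmi hup) (hmi hdn)]
    set χs : ℂ → ℝ := fun w => χ (conj w) with hχs
    have hχs1 : RTest B χs := by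
      refine ⟨hχ.smooth.comp conjCLE.contDiff, ?_, ?_⟩
      · exact hχ.cpt.comp_homeomorph (conjCLE : ℂ ≃L[ℝ] ℂ).toHomeomorph
      · intro z hz
        have : conj z ∈ tsupport χ := by
          have h5 : tsupport χs = (fun z : ℂ => conj z) ⁻¹' tsupport χ := by
            have := tsupport_comp_eq_preimage χ (conjCLE : ℂ ≃L[ℝ] ℂ).toHomeomorph
            exact this
          rw [h5] at hz; exact hz
        exact (hB z).mp (hχ.supp this)
    have e1 : ∫ z in B ∩ HP, refl q z * dbar (cx χ) z = ∫ z in B ∩ HP, q z * dbar (cx χ) z := by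
      refine setIntegral_congr_fun (hBm.inter measurableSet_HP) (fun z hz => ?_)
      rw [refl_up hz.2]
    have e2 : ∫ z in B ∩ HM, refl q z * dbar (cx χ) z =
        conj (∫ z in B ∩ HP, q z * dbar (cx χs) z) := by
      rw [integral_conj_HM hB, ← integral_conj]
      refine setIntegral_congr_fun (hBm.inter measurableSet_HP) (fun z hz => ?_)
      rw [refl_conj, refl_up hz.2, map_mul, hχs,
        dbar_comp_conj (hχ.smooth.differentiable (by simp)), conj_conj]
    have e3 : ∫ z in B ∩ HP, q z * dbar (cx χs) z = ∫ z in B ∩ HP, q z * dbar (cx χ) z := by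
      have hd : ContDiff ℝ ∞ (fun z => cx χs z - cx χ z) := hχs1.cx_smooth.sub hχ.cx_smooth
      have hdc : HasCompactSupport (fun z => cx χs z - cx χ z) := hχs1.cx_cpt.sub hχ.cx_cpt
      have hds : tsupport (fun z => cx χs z - cx χ z) ⊆ B := by
        refine (tsupport_sub _ _).trans ?_
        exact union_subset hχs1.cx_supp hχ.cx_supp
      have hd0 : ∀ x : ℝ, cx χs x - cx χ x = 0 := by
        intro x; simp [cx, hχs]
      have h6 := integral_vanish hBm hq hw hd hdc hds hd0
      have hc1s : ContDiff ℝ 1 (cx χs) := hχs1.cx_smooth.of_le (by exact_mod_cast le_top)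
      obtain ⟨M2, hM2⟩ := (hasCompactSupport_dbar hχs1.cx_cpt).exists_bound_of_continuous
        (continuous_dbar hc1s)
      have h7 : ∀ z, dbar (fun z => cx χs z - cx χ z) z = dbar (cx χs) z - dbar (cx χ) z := by
        intro z
        have h8 : fderiv ℝ (fun z => cx χs z - cx χ z) z = fderiv ℝ (cx χs) z - fderiv ℝ (cx χ) z :=
          fderiv_fun_sub (hc1s.differentiable one_ne_zero z) (hc1.differentiable one_ne_zero z)
        simp only [dbar, h8, _root_.sub_apply]; ring
      simp_rw [h7, mul_sub] at h6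
      rw [integral_sub] at h6
      · exact sub_eq_zero.mp h6
      · exact hq.mul_bdd (continuous_dbar hc1s).aestronglyMeasurable (Eventually.of_forall hM2)
      · exact hq.mul_bdd (continuous_dbar hc1).aestronglyMeasurable (Eventually.of_forall hM)
    rw [e1, e2, e3]
    have := hre χ hχ
    apply Complex.ext
    · simp [this]
    · simp
  -- complex test functions
  intro χ h1 h2 h3
  have hR : RTest B (fun z => (χ z).re) := by
    refine ⟨reCLM.contDiff.comp h1, h2.comp_left (g := fun w : ℂ => w.re) (by simp), ?_⟩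
    refine (closure_mono fun z hz => ?_).trans h3
    intro h0; exact hz (by simp [h0])
  have hI : RTest B (fun z => (χ z).im) := by
    refine ⟨imCLM.contDiff.comp h1, h2.comp_left (g := fun w : ℂ => w.im) (by simp), ?_⟩
    refine (closure_mono fun z hz => ?_).trans h3
    intro h0; exact hz (by simp [h0])
  have hsum : ∀ z, dbar χ z = dbar (cx fun z => (χ z).re) z + I * dbar (cx fun z => (χ z).im) z := by
    intro z
    have hd1 := hR.cx_smooth.differentiable (by simp) z
    have hd2 := hI.cx_smooth.differentiable (by simp) z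
    have h8 : χ = fun z => cx (fun z => (χ z).re) z + I * cx (fun z => (χ z).im) z := by
      funext z; simp only [cx]; rw [mul_comm]; exact (re_add_im _).symm
    have h9 : fderiv ℝ χ z = fderiv ℝ (cx fun z => (χ z).re) z + I • fderiv ℝ (cx fun z => (χ z).im) z := by
      conv_lhs => rw [h8]
      rw [fderiv_fun_add hd1 (hd2.const_mul I), fderiv_const_mul hd2]
    simp only [dbar, h9, _root_.add_apply, _root_.smul_apply, smul_eq_mul]; ring
  have h10 : ∫ z, (refl q z * dbar χ z + (0 : ℂ → ℂ) z * χ z) = ∫ z in B, refl q z * dbar χ z := by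
    rw [← integral_indicator hBm]
    refine integral_congr_ae (Eventually.of_forall fun z => ?_)
    by_cases hz : z ∈ B
    · simp [indicator_of_mem hz]
    · have hz' : dbar χ z = 0 := dbar_zero_of_notMem (fun h => hz (h3 h))
      simp [indicator_of_notMem hz, hz']
  rw [h10]
  simp_rw [hsum]
  have hmi : ∀ {χ : ℂ → ℝ}, RTest B χ →
      IntegrableOn (fun z => refl q z * dbar (cx χ) z) B := by
    intro χ hχ
    have hc1 : ContDiff ℝ 1 (cx χ) := hχ.cx_smooth.of_le (by exact_mod_cast le_top)
    obtain ⟨M, hM⟩ := (hasCompactSupport_dbar hχ.cx_cpt).exists_bound_of_continuous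
      (continuous_dbar hc1)
    exact hBi.mul_bdd (continuous_dbar hc1).aestronglyMeasurable (Eventually.of_forall hM)
  have h11 : ∫ z in B, refl q z * (dbar (cx fun z => (χ z).re) z + I * dbar (cx fun z => (χ z).im) z) =
      (∫ z in B, refl q z * dbar (cx fun z => (χ z).re) z) +
      I * ∫ z in B, refl q z * dbar (cx fun z => (χ z).im) z := by
    rw [← integral_const_mul, ← integral_add (hmi hR) ((hmi hI).const_mul I)]
    refine integral_congr_ae (Eventually.of_forall fun z => ?_)
    simp only; ring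
  rw [h11, hreal _ hR, hreal _ hI]; simp

end Crest.Agent.R165.Cl7x722
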