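import Mathlib

/-!
# Schur tests with the weakly singular kernel `1/(1+|z-w|)` on the square lattice

Generic counting and Schur lemmas (helper811, row 165, block R, leaf R-c).
* `sum_le_of_count` : Abel summation: a decreasing function of an integer-valued distance,
  summed over a finite set with counting bound `#{d ≤ t} ≤ M t`.
* `schur_sq` : asymmetric Schur test.
* `bulk_schur`, `layer_schur` : the two instances used for the local gap: kernel `C/(1+|z-w|)`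
  from a box to a box has norm `≤ C r`, from an (upper Ahlfors regular) boundary layer to a box
  norm `≤ C r^{1/2}`.
-/

namespace Crest.Agent.R165.Schurx811

open Finset BigOperators

/-- Abel summation with a counting bound. -/
theorem sum_le_of_count {ι : Type*} (S : Finset ι) (d : ι → ℕ) (N : ℕ) (hd : ∀ i ∈ S, d i ≤ N)
    (g : ℕ → ℝ) (hg : Antitone g) (hg0 : ∀ n, 0 ≤ g n) (M : ℕ → ℝ)
    (hM : ∀ t ≤ N, ((S.filter (fun i => d i ≤ t)).card : ℝ) ≤ M t) :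
    ∑ i ∈ S, g (d i) ≤ g N * M N + ∑ t ∈ range N, (g t - g (t+1)) * M t := by
  -- g (d i) = g N + ∑_{t<N} (g t - g (t+1)) 1[d i ≤ t]
  have key : ∀ i ∈ S, g (d i) = g N + ∑ t ∈ range N, (g t - g (t+1)) * (if d i ≤ t then 1 else 0) := by
    intro i hi
    have h1 : ∀ n, d i ≤ n → g (d i) = g n + ∑ t ∈ range n, (g t - g (t+1)) * (if d i ≤ t then 1 else 0) := by
      intro n
      induction n with
      | zero => intro h; simp; congr 1; omega
      | succ n ih =>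
        intro h
        rw [sum_range_succ]
        rcases Nat.lt_or_ge n (d i) with h' | h'
        · have hdi : d i = n+1 := by omega
          have : ∑ t ∈ range n, (g t - g (t+1)) * (if d i ≤ t then (1:ℝ) else 0) = 0 := by
            apply sum_eq_zero
            intro t ht
            have : ¬ d i ≤ t := by have := mem_range.1 ht; omega
            simp [this]
          rw [this]
          simp [hdi]
        · rw [ih h']
          rw [if_pos h']; ring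
    exact h1 N (hd i hi)
  rw [sum_congr rfl key, sum_add_distrib, sum_comm]
  have h2 : ∑ i ∈ S, g N = g N * (S.card : ℝ) := by simp [mul_comm]
  have h3 : (S.card : ℝ) ≤ M N := by
    have := hM N le_rfl
    rwa [filter_true_of_mem hd] at this
  have h4 : ∀ t ∈ range N, ∑ i ∈ S, (g t - g (t+1)) * (if d i ≤ t then (1:ℝ) else 0)
      ≤ (g t - g (t+1)) * M t := by
    intro t ht
    rw [← mul_sum]
    have : ∑ i ∈ S, (if d i ≤ t then (1:ℝ) else 0) = ((S.filter (fun i => d i ≤ t)).card : ℝ) := by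
      simp
    rw [this]
    apply mul_le_mul_of_nonneg_left (hM t (mem_range.1 ht).le)
    exact sub_nonneg.2 (hg (Nat.le_succ t))
  rw [h2]
  exact add_le_add (mul_le_mul_of_nonneg_left h3 (hg0 N)) (sum_le_sum h4)

/-- Linear counting bound `M t = C (t+1)`. -/
theorem sum_le_linear {ι : Type*} (S : Finset ι) (d : ι → ℕ) (N : ℕ) (hd : ∀ i ∈ S, d i ≤ N)
    (g : ℕ → ℝ) (hg : Antitone g) (hg0 : ∀ n, 0 ≤ g n) (C : ℝ)
    (hM : ∀ t ≤ N, ((S.filter (fun i => d i ≤ t)).card : ℝ) ≤ C * (t+1)) :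
    ∑ i ∈ S, g (d i) ≤ C * ∑ t ∈ range (N+1), g t := by
  refine (sum_le_of_count S d N hd g hg hg0 (fun t => C * (t+1)) hM).trans (le_of_eq ?_)
  have : ∀ n : ℕ, g n * (C * (n+1)) + ∑ t ∈ range n, (g t - g (t+1)) * (C * (t+1))
      = C * ∑ t ∈ range (n+1), g t := by
    intro n
    induction n with
    | zero => simp; ring
    | succ n ih =>
      have e := sum_range_succ g (n+1)
      rw [e, sum_range_succ _ n]
      push_cast
      linear_combination ih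
  exact this N

/-- Quadratic counting bound `M t = C (t+1)^2`. -/
theorem sum_le_quad {ι : Type*} (S : Finset ι) (d : ι → ℕ) (N : ℕ) (hd : ∀ i ∈ S, d i ≤ N)
    (g : ℕ → ℝ) (hg : Antitone g) (hg0 : ∀ n, 0 ≤ g n) (C : ℝ) (hC : 0 ≤ C)
    (hM : ∀ t ≤ N, ((S.filter (fun i => d i ≤ t)).card : ℝ) ≤ C * (t+1)^2) :
    ∑ i ∈ S, g (d i) ≤ 2 * C * ∑ t ∈ range (N+1), g t * (t+1) := by
  refine (sum_le_of_count S d N hd g hg hg0 (fun t => C * (t+1)^2) hM).trans ?_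
  have : ∀ n : ℕ, g n * (C * (n+1)^2) + ∑ t ∈ range n, (g t - g (t+1)) * (C * (t+1)^2)
      = C * ∑ t ∈ range (n+1), g t * (2*t+1) := by
    intro n
    induction n with
    | zero => simp; ring
    | succ n ih =>
      have e := sum_range_succ (fun t : ℕ => g t * (2*(t:ℝ)+1)) (n+1)
      rw [e, sum_range_succ _ n]
      push_cast
      linear_combination ih
  rw [this N]
  have h2 : 2 * C * ∑ t ∈ range (N+1), g t * ((t:ℝ)+1) = C * ∑ t ∈ range (N+1), g t * (2 * (t+1)) := by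
    rw [mul_comm 2 C, mul_assoc, mul_sum]
    congr 1
    apply sum_congr rfl
    intro t _; ring
  rw [h2]
  apply mul_le_mul_of_nonneg_left _ hC
  apply sum_le_sum
  intro t _
  apply mul_le_mul_of_nonneg_left _ (hg0 t)
  linarith

/-- `∑_{t ≤ N} (1+t)^{-1/2} ≤ 2 (N+1)^{1/2}` -/
theorem sum_inv_sqrt (N : ℕ) : ∑ t ∈ range (N+1), 1 / Real.sqrt (t+1) ≤ 2 * Real.sqrt (N+1) := by
  induction N with
  | zero => simp
  | succ n ih =>
    rw [sum_range_succ]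
    have h1 : (0:ℝ) < (n:ℝ)+1 := by positivity
    have h2 : (0:ℝ) < (n:ℝ)+1+1 := by positivity
    have hs2 : 0 < Real.sqrt ((n:ℝ)+1+1) := Real.sqrt_pos.2 h2
    have hs1 : 0 < Real.sqrt ((n:ℝ)+1) := Real.sqrt_pos.2 h1
    have e1 : Real.sqrt ((n:ℝ)+1+1) ^ 2 = (n:ℝ)+1+1 := Real.sq_sqrt h2.le
    have e2 : Real.sqrt ((n:ℝ)+1) ^ 2 = (n:ℝ)+1 := Real.sq_sqrt h1.le
    push_cast
    have hle : Real.sqrt ((n:ℝ)+1) ≤ Real.sqrt ((n:ℝ)+1+1) := Real.sqrt_le_sqrt (by linarith)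
    have : 1 / Real.sqrt ((n:ℝ)+1+1) ≤ 2 * (Real.sqrt ((n:ℝ)+1+1) - Real.sqrt ((n:ℝ)+1)) := by
      rw [div_le_iff₀ hs2]
      nlinarith
    linarith

/-- Asymmetric Schur test: `K^2 ≤ p q`, `∑_j p ≤ P`, `∑_i q ≤ Q`. -/
theorem schur_sq {ι κ : Type*} (I : Finset ι) (J : Finset κ) (K : ι → κ → ℝ) (p q : ι → κ → ℝ)
    (P Q : ℝ) (hp : ∀ i ∈ I, ∀ j ∈ J, 0 ≤ p i j) (hq : ∀ i ∈ I, ∀ j ∈ J, 0 ≤ q i j)
    (hK : ∀ i ∈ I, ∀ j ∈ J, K i j ^ 2 ≤ p i j * q i j)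
    (hP : ∀ i ∈ I, ∑ j ∈ J, p i j ≤ P) (hQ : ∀ j ∈ J, ∑ i ∈ I, q i j ≤ Q) (s : κ → ℝ) (hP0 : 0 ≤ P) :
    ∑ i ∈ I, (∑ j ∈ J, K i j * s j) ^ 2 ≤ P * Q * ∑ j ∈ J, s j ^ 2 := by
  have h1 : ∀ i ∈ I, (∑ j ∈ J, K i j * s j) ^ 2 ≤ P * ∑ j ∈ J, q i j * s j ^ 2 := by
    intro i hi
    have := sum_sq_le_sum_mul_sum_of_sq_le_mul J (r := fun j => K i j * s j) (f := fun j => p i j)
      (g := fun j => q i j * s j ^ 2) (fun j hj => hp i hi j hj)
      (fun j hj => mul_nonneg (hq i hi j hj) (sq_nonneg _))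
      (fun j hj => by
        have := mul_le_mul_of_nonneg_right (hK i hi j hj) (sq_nonneg (s j))
        nlinarith)
    refine this.trans (mul_le_mul_of_nonneg_right (hP i hi) ?_)
    exact sum_nonneg fun j hj => mul_nonneg (hq i hi j hj) (sq_nonneg _)
  calc ∑ i ∈ I, (∑ j ∈ J, K i j * s j) ^ 2 ≤ ∑ i ∈ I, P * ∑ j ∈ J, q i j * s j ^ 2 := sum_le_sum h1
    _ = P * ∑ j ∈ J, (∑ i ∈ I, q i j) * s j ^ 2 := by
        rw [← mul_sum, sum_comm]
        congr 1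
        apply sum_congr rfl
        intro j _
        rw [sum_mul]
    _ ≤ P * ∑ j ∈ J, Q * s j ^ 2 := by
        apply mul_le_mul_of_nonneg_left _ hP0
        apply sum_le_sum
        intro j hj
        exact mul_le_mul_of_nonneg_right (hQ j hj) (sq_nonneg _)
    _ = P * Q * ∑ j ∈ J, s j ^ 2 := by rw [← mul_sum, mul_assoc]

/-- Sup-norm distance on `ℤ × ℤ`. -/
def dd (z w : ℤ × ℤ) : ℕ := max (z.1 - w.1).natAbs (z.2 - w.2).natAbs

theorem dd_comm (z w : ℤ × ℤ) : dd z w = dd w z := by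
  unfold dd
  rw [← Int.natAbs_neg (z.1 - w.1), ← Int.natAbs_neg (z.2 - w.2), neg_sub, neg_sub]

theorem dd_self (z : ℤ × ℤ) : dd z z = 0 := by simp [dd]

theorem dd_triangle (z w v : ℤ × ℤ) : dd z v ≤ dd z w + dd w v := by
  unfold dd
  omega

theorem dd_le_iff {z w : ℤ × ℤ} {t : ℕ} :
    dd z w ≤ t ↔ (w.1 - t ≤ z.1 ∧ z.1 ≤ w.1 + t) ∧ (w.2 - t ≤ z.2 ∧ z.2 ≤ w.2 + t) := by
  unfold dd
  omega

/-- Counting in boxes. -/
theorem card_box (S : Finset (ℤ × ℤ)) (w : ℤ × ℤ) (t : ℕ) :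
    ((S.filter (fun z => dd z w ≤ t)).card : ℝ) ≤ 4 * (t+1)^2 := by
  have h : S.filter (fun z => dd z w ≤ t) ⊆ Finset.Icc (w.1 - t) (w.1 + t) ×ˢ Finset.Icc (w.2 - t) (w.2 + t) := by
    intro z hz
    rw [mem_filter, dd_le_iff] at hz
    simp only [mem_product, mem_Icc]
    exact hz.2
  have h2 := card_le_card h
  rw [card_product, Int.card_Icc, Int.card_Icc] at h2
  have e1 : (w.1 + t + 1 - (w.1 - t)).toNat = 2*t+1 := by omega
  have e2 : (w.2 + t + 1 - (w.2 - t)).toNat = 2*t+1 := by omega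
  rw [e1, e2] at h2
  have h3 : ((S.filter (fun z => dd z w ≤ t)).card : ℝ) ≤ ((2*t+1)*(2*t+1) : ℕ) := by exact_mod_cast h2
  push_cast at h3
  nlinarith [(Nat.cast_nonneg t : (0:ℝ) ≤ t)]

theorem anti_inv_sqrt : Antitone (fun t : ℕ => 1 / Real.sqrt ((t:ℝ)+1)) := by
  intro a b hab
  have h : (a:ℝ) ≤ b := by exact_mod_cast hab
  exact one_div_le_one_div_of_le (Real.sqrt_pos.2 (by positivity)) (Real.sqrt_le_sqrt (by linarith))

theorem anti_three_half : Antitone (fun t : ℕ => 1 / (Real.sqrt ((t:ℝ)+1) * ((t:ℝ)+1))) := by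
  intro a b hab
  have h : (a:ℝ) ≤ b := by exact_mod_cast hab
  have h0 : (0:ℝ) < (a:ℝ) + 1 := by positivity
  have hs : 0 < Real.sqrt ((a:ℝ)+1) := Real.sqrt_pos.2 h0
  apply one_div_le_one_div_of_le (by positivity)
  exact mul_le_mul (Real.sqrt_le_sqrt (by linarith)) (by linarith) h0.le (Real.sqrt_nonneg _)

/-- `∑_{z ∈ S} (1+|z-w|)^{-3/2} ≤ 16 (N+1)^{1/2}` if `S` lies in the box of radius `N` about `w`. -/
theorem bulk_three_half (S : Finset (ℤ × ℤ)) (w : ℤ × ℤ) (N : ℕ) (hS : ∀ z ∈ S, dd z w ≤ N) :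
    ∑ z ∈ S, 1 / (Real.sqrt ((dd z w : ℝ)+1) * ((dd z w : ℝ)+1)) ≤ 16 * Real.sqrt (N+1) := by
  have h := sum_le_quad S (fun z => dd z w) N hS (fun t : ℕ => 1 / (Real.sqrt ((t:ℝ)+1) * ((t:ℝ)+1)))
    anti_three_half (fun n => by positivity) 4 (by norm_num) (fun t _ => card_box S w t)
  refine h.trans ?_
  have e : ∑ t ∈ range (N+1), 1 / (Real.sqrt ((t:ℝ)+1) * ((t:ℝ)+1)) * ((t:ℝ)+1)
      = ∑ t ∈ range (N+1), 1 / Real.sqrt ((t:ℝ)+1) := by
    apply sum_congr rfl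
    intro t _
    have h0 : (0:ℝ) < (t:ℝ) + 1 := by positivity
    have hs : 0 < Real.sqrt ((t:ℝ)+1) := Real.sqrt_pos.2 h0
    field_simp
  rw [e]
  have := sum_inv_sqrt N
  linarith

/-- `∑_{w ∈ B} (1+|z-w|)^{-1/2} ≤ 2 C₀ (N+1)^{1/2}` for an upper Ahlfors regular set `B`. -/
theorem layer_half (B : Finset (ℤ × ℤ)) (z : ℤ × ℤ) (N : ℕ) (hB : ∀ w ∈ B, dd z w ≤ N) (C₀ : ℝ)
    (hC : 0 ≤ C₀)
    (hc : ∀ t ≤ N, ((B.filter (fun w => dd z w ≤ t)).card : ℝ) ≤ C₀ * (t+1)) :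
    ∑ w ∈ B, 1 / Real.sqrt ((dd z w : ℝ)+1) ≤ 2 * C₀ * Real.sqrt (N+1) := by
  have h := sum_le_linear B (fun w => dd z w) N hB (fun t : ℕ => 1 / Real.sqrt ((t:ℝ)+1))
    anti_inv_sqrt (fun n => by positivity) C₀ hc
  refine h.trans ?_
  have := sum_inv_sqrt N
  nlinarith

/-- Layer to box: the kernel `C/(1+|z-w|)` has norm `≤ C' r^{1/2}`. -/
theorem layer_schur (I B : Finset (ℤ × ℤ)) (N : ℕ) (hIB : ∀ z ∈ I, ∀ w ∈ B, dd z w ≤ N) (C₀ : ℝ)
    (hC : 0 ≤ C₀)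
    (hc : ∀ z ∈ I, ∀ t ≤ N, ((B.filter (fun w => dd z w ≤ t)).card : ℝ) ≤ C₀ * (t+1))
    (K : ℤ × ℤ → ℤ × ℤ → ℝ) (c : ℝ) (hK : ∀ z ∈ I, ∀ w ∈ B, |K z w| ≤ c / ((dd z w : ℝ) + 1))
    (s : ℤ × ℤ → ℝ) :
    ∑ z ∈ I, (∑ w ∈ B, K z w * s w) ^ 2 ≤ 32 * C₀ * c^2 * (N+1) * ∑ w ∈ B, s w ^ 2 := by
  have h := schur_sq I B K (fun z w => 1 / Real.sqrt ((dd z w : ℝ)+1))
    (fun z w => c^2 * (1 / (Real.sqrt ((dd z w : ℝ)+1) * ((dd z w : ℝ)+1))))
    (2 * C₀ * Real.sqrt (N+1)) (c^2 * (16 * Real.sqrt (N+1)))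
    (fun i _ j _ => by positivity) (fun i _ j _ => by positivity)
    (fun z hz w hw => by
      have h0 : (0:ℝ) < (dd z w : ℝ) + 1 := by positivity
      have hs : 0 < Real.sqrt ((dd z w : ℝ)+1) := Real.sqrt_pos.2 h0
      have e : Real.sqrt ((dd z w : ℝ)+1) * Real.sqrt ((dd z w : ℝ)+1) = (dd z w : ℝ)+1 :=
        Real.mul_self_sqrt h0.le
      have h1 : K z w ^ 2 ≤ (c / ((dd z w : ℝ) + 1))^2 := by
        rw [← sq_abs (K z w)]
        exact pow_le_pow_left₀ (abs_nonneg _) (hK z hz w hw) 2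
      refine h1.trans (le_of_eq ?_)
      have e3 : 1 / Real.sqrt ((dd z w : ℝ)+1) * (c^2 * (1 / (Real.sqrt ((dd z w : ℝ)+1) * ((dd z w : ℝ)+1))))
        = c^2 / ((Real.sqrt ((dd z w : ℝ)+1) * Real.sqrt ((dd z w : ℝ)+1)) * ((dd z w : ℝ)+1)) := by
        field_simp
      rw [e3, e, div_pow, sq ((dd z w : ℝ)+1)])
    (fun z hz => layer_half B z N (hIB z hz) C₀ hC (hc z hz))
    (fun w hw => by
      rw [← mul_sum]
      exact mul_le_mul_of_nonneg_left (bulk_three_half I w N (fun z hz => hIB z hz w hw)) (sq_nonneg c))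
    s (by positivity)
  refine h.trans (le_of_eq ?_)
  have e : Real.sqrt ((N:ℝ)+1) * Real.sqrt ((N:ℝ)+1) = (N:ℝ)+1 := Real.mul_self_sqrt (by positivity)
  have : 2 * C₀ * Real.sqrt ((N:ℝ)+1) * (c^2 * (16 * Real.sqrt ((N:ℝ)+1)))
    = 32 * C₀ * c^2 * (Real.sqrt ((N:ℝ)+1) * Real.sqrt ((N:ℝ)+1)) := by ring
  rw [this, e]

/-- `∑_{z ∈ S} (1+|z-w|)^{-1} ≤ 8 (N+1)`. -/
theorem bulk_one (S : Finset (ℤ × ℤ)) (w : ℤ × ℤ) (N : ℕ) (hS : ∀ z ∈ S, dd z w ≤ N) :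
    ∑ z ∈ S, 1 / ((dd z w : ℝ)+1) ≤ 8 * (N+1) := by
  have h := sum_le_quad S (fun z => dd z w) N hS (fun t : ℕ => 1 / ((t:ℝ)+1))
    (by
      intro a b hab
      have h : (a:ℝ) ≤ b := by exact_mod_cast hab
      exact one_div_le_one_div_of_le (by positivity) (by linarith))
    (fun n => by positivity) 4 (by norm_num) (fun t _ => card_box S w t)
  refine h.trans ?_
  have e : ∑ t ∈ range (N+1), 1 / ((t:ℝ)+1) * ((t:ℝ)+1) = ((N:ℝ)+1) := by
    have : ∀ t ∈ range (N+1), 1 / ((t:ℝ)+1) * ((t:ℝ)+1) = 1 := by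
      intro t _
      have h0 : (0:ℝ) < (t:ℝ) + 1 := by positivity
      field_simp
    rw [sum_congr rfl this]; simp
  rw [e]
  linarith

/-- Box to box: the kernel `C/(1+|z-w|)` has norm `≤ C' r`. -/
theorem bulk_schur (I J : Finset (ℤ × ℤ)) (N : ℕ) (hIJ : ∀ z ∈ I, ∀ w ∈ J, dd z w ≤ N)
    (K : ℤ × ℤ → ℤ × ℤ → ℝ) (c : ℝ) (hK : ∀ z ∈ I, ∀ w ∈ J, |K z w| ≤ c / ((dd z w : ℝ) + 1))
    (s : ℤ × ℤ → ℝ) :
    ∑ z ∈ I, (∑ w ∈ J, K z w * s w) ^ 2 ≤ 64 * c^2 * (N+1)^2 * ∑ w ∈ J, s w ^ 2 := by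
  have h := schur_sq I J K (fun z w => 1 / ((dd z w : ℝ)+1))
    (fun z w => c^2 * (1 / ((dd z w : ℝ)+1)))
    (8 * (N+1)) (c^2 * (8 * (N+1)))
    (fun i _ j _ => by positivity) (fun i _ j _ => by positivity)
    (fun z hz w hw => by
      have h0 : (0:ℝ) < (dd z w : ℝ) + 1 := by positivity
      have h1 : K z w ^ 2 ≤ (c / ((dd z w : ℝ) + 1))^2 := by
        rw [← sq_abs (K z w)]
        exact pow_le_pow_left₀ (abs_nonneg _) (hK z hz w hw) 2
      refine h1.trans (le_of_eq ?_)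
      field_simp)
    (fun z hz => by
      have := bulk_one J z N (fun w hw => by rw [dd_comm]; exact hIJ z hz w hw)
      refine le_trans (le_of_eq ?_) this
      apply sum_congr rfl
      intro w _
      rw [dd_comm])
    (fun w hw => by
      rw [← mul_sum]
      exact mul_le_mul_of_nonneg_left (bulk_one I w N (fun z hz => hIJ z hz w hw)) (sq_nonneg c))
    s (by positivity)
  refine h.trans (le_of_eq ?_)
  ring

end Crest.Agent.R165.Schurx811
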