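import Crest.Agent.R165.Tr1_40
import Crest.Agent.R165.Schur_811

/-!
# Row 165, block R, leaf R7 (cluster geometry), part a: boxes, cut-offs, plane kernel

Half-edge fields `Fld = ℤ × ℤ → Fin 4 → ℝ` and the operator `A w` of `Tr1_40`.

* `bx o m`        : sup-norm box of radius `m` around the face `o`
* `E2 K φ`        : squared `ℓ²` norm on the finite set `K`
* `cut o m k`     : cut-off, `1` on `bx o m`, `0` off `bx o (m+k-1)`, `1/k`-Lipschitz
* `comm w χ φ`    : commutator, `A w (χ φ) = χ A w φ + comm w χ φ`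
* `PK c`          : a plane kernel with bound `c/(1+|z|)`, two-sided inverse of the plane operator
* `cv`            : convolution with the plane kernel, `ℓ²` bounds near and far from the source
* `interior`      : `|F|_{B_s} ≤ C (s/r) |F|_{B_r}` for exact plane solutions
-/

set_option autoImplicit false

noncomputable section

namespace Crest.Agent.R165.Cl7x999

open Finset Crest.Agent.R165.Tr1x40 Crest.Agent.R165.Schurx811

/-! ### boxes and norms -/

/-- the box of radius `m` around `o` -/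
def bx (o : Face) (m : ℕ) : Finset Face :=
  Icc (o.1 - m) (o.1 + m) ×ˢ Icc (o.2 - m) (o.2 + m)

theorem mem_bx {o f : Face} {m : ℕ} : f ∈ bx o m ↔ dd f o ≤ m := by
  rw [dd_le_iff]; simp only [bx, mem_product, mem_Icc]

theorem bx_mono (o : Face) {m n : ℕ} (h : m ≤ n) : bx o m ⊆ bx o n := fun f hf => by
  rw [mem_bx] at *; omega

theorem card_bx (o : Face) (m : ℕ) : ((bx o m).card : ℝ) ≤ 4 * (m + 1) ^ 2 := by
  have h := card_box (bx o m) o m
  have e : (bx o m).filter (fun z => dd z o ≤ m) = bx o m := by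
    apply filter_true_of_mem
    intro f hf; exact mem_bx.1 hf
  rw [e] at h
  exact h

theorem dd_nb (f : Face) (h : Fin 4) : dd (nb f h) f = 1 := by
  fin_cases h <;> simp [nb, dd]

theorem dd_nb_le (f o : Face) (h : Fin 4) : dd (nb f h) o ≤ dd f o + 1 := by
  have := dd_triangle (nb f h) f o
  rw [dd_nb] at this; omega

theorem dd_le_nb (f o : Face) (h : Fin 4) : dd f o ≤ dd (nb f h) o + 1 := by
  have := dd_triangle f (nb f h) o
  rw [dd_comm f (nb f h), dd_nb] at this; omega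

/-- squared `ℓ²` norm on `K` -/
def E2 (K : Finset Face) (φ : Fld) : ℝ := ∑ f ∈ K, nsq (φ f)

theorem E2_nonneg (K : Finset Face) (φ : Fld) : 0 ≤ E2 K φ := sum_nonneg fun _ _ => nsq_nonneg _

theorem E2_mono {K L : Finset Face} (h : K ⊆ L) (φ : Fld) : E2 K φ ≤ E2 L φ :=
  sum_le_sum_of_subset_of_nonneg h fun _ _ _ => nsq_nonneg _

theorem E2_le_of_pt {K : Finset Face} {φ ψ : Fld} (h : ∀ f ∈ K, nsq (φ f) ≤ nsq (ψ f)) :
    E2 K φ ≤ E2 K ψ := sum_le_sum h

theorem nsq_zero : nsq (0 : Fin 4 → ℝ) = 0 := by simp [nsq]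

theorem nsq_add_le (p q : Fin 4 → ℝ) : nsq (p + q) ≤ 2 * nsq p + 2 * nsq q := by
  simp only [nsq, mul_sum, ← sum_add_distrib, Pi.add_apply]
  exact sum_le_sum fun h _ => by nlinarith [sq_nonneg (p h - q h)]

theorem nsq_sub_le (p q : Fin 4 → ℝ) : nsq (p - q) ≤ 2 * nsq p + 2 * nsq q := by
  simp only [nsq, mul_sum, ← sum_add_distrib, Pi.sub_apply]
  exact sum_le_sum fun h _ => by nlinarith [sq_nonneg (p h + q h)]

theorem E2_add_le (K : Finset Face) (φ ψ : Fld) : E2 K (φ + ψ) ≤ 2 * E2 K φ + 2 * E2 K ψ := by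
  simp only [E2, mul_sum, ← sum_add_distrib]
  exact sum_le_sum fun f _ => nsq_add_le _ _

theorem E2_sub_le (K : Finset Face) (φ ψ : Fld) : E2 K (φ - ψ) ≤ 2 * E2 K φ + 2 * E2 K ψ := by
  simp only [E2, mul_sum, ← sum_add_distrib]
  exact sum_le_sum fun f _ => nsq_sub_le _ _

theorem E2_congr {K : Finset Face} {φ ψ : Fld} (h : ∀ f ∈ K, φ f = ψ f) : E2 K φ = E2 K ψ :=
  sum_congr rfl fun f hf => by rw [h f hf]

theorem E2_of_supp {K L : Finset Face} {φ : Fld} (h : K ⊆ L) (h0 : ∀ f, f ∉ K → φ f = 0) :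
    E2 L φ = E2 K φ := by
  symm
  apply sum_subset h
  intro f _ hf
  rw [h0 f hf, nsq_zero]

theorem E2_split {K L : Finset Face} (h : K ⊆ L) (φ : Fld) :
    E2 L φ = E2 K φ + E2 (L \ K) φ := by
  classical
  unfold E2
  rw [add_comm]
  exact (sum_sdiff h).symm

/-- multiplication by a scalar function -/
def sm (c : Face → ℝ) (φ : Fld) : Fld := fun f h => c f * φ f h

theorem nsq_sm (c : Face → ℝ) (φ : Fld) (f : Face) : nsq (sm c φ f) = c f ^ 2 * nsq (φ f) := by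
  simp only [nsq, sm, mul_sum]
  exact sum_congr rfl fun h _ => by ring

theorem E2_sm_le {K : Finset Face} {c : Face → ℝ} {φ : Fld} (h : ∀ f ∈ K, c f ^ 2 ≤ 1) :
    E2 K (sm c φ) ≤ E2 K φ :=
  E2_le_of_pt fun f hf => by
    rw [nsq_sm]
    have := nsq_nonneg (φ f)
    nlinarith [h f hf]

/-! ### linearity of `A` -/

theorem A_add (w φ ψ : Fld) : A w (φ + ψ) = A w φ + A w ψ := by
  funext f h
  fin_cases h <;> simp [A_S, A_E, A_N, A_W] <;> ring

theorem A_sub (w φ ψ : Fld) : A w (φ - ψ) = A w φ - A w ψ := by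
  funext f h
  fin_cases h <;> simp [A_S, A_E, A_N, A_W] <;> ring

/-- commutator with a scalar function -/
def comm (w : Fld) (c : Face → ℝ) (φ : Fld) : Fld := fun f h =>
  sg h * w f h * (c (nb f h) - c f) * φ (nb f h) (op h)

theorem A_sm (w : Fld) (c : Face → ℝ) (φ : Fld) : A w (sm c φ) = sm c (A w φ) + comm w c φ := by
  have e : ∀ f h, sm c φ f h = c f * φ f h := fun _ _ => rfl
  funext f h
  simp only [A, Y, comm, Pi.add_apply, sm]
  fin_cases h <;> simp [A0, e] <;> ring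

/-- the constant critical weight -/
def wc : Fld := fun _ _ => xc

theorem sym_wc : Sym wc := fun _ _ => rfl

/-- if `w = w'` at the half-edges where `c` varies, the commutators agree -/
theorem comm_congr {w w' : Fld} {c : Face → ℝ} {φ : Fld}
    (h : ∀ f h, c (nb f h) ≠ c f → w f h = w' f h) : comm w c φ = comm w' c φ := by
  funext f k
  simp only [comm]
  by_cases hc : c (nb f k) = c f
  · rw [hc]; ring
  · rw [h f k hc]

/-- pointwise bound of the commutator -/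
theorem nsq_comm_le {w : Fld} (hw : ∀ f h, w f h ^ 2 ≤ 1) {c : Face → ℝ} {δ : ℝ}
    (hδ : ∀ f h, |c (nb f h) - c f| ≤ δ) (φ : Fld) (f : Face) :
    nsq (comm w c φ f) ≤ δ ^ 2 * ∑ h, φ (nb f h) (op h) ^ 2 := by
  simp only [nsq, comm, mul_sum]
  refine sum_le_sum fun h _ => ?_
  have h1 : (c (nb f h) - c f) ^ 2 ≤ δ ^ 2 := by
    rw [← sq_abs (c (nb f h) - c f)]
    exact pow_le_pow_left₀ (abs_nonneg _) (hδ f h) 2
  have h2 := hw f h
  have h3 : (sg h * w f h * (c (nb f h) - c f) * φ (nb f h) (op h)) ^ 2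
      = (w f h ^ 2 * (c (nb f h) - c f) ^ 2) * φ (nb f h) (op h) ^ 2 := by
    have := sg_sq h
    calc _ = sg h ^ 2 * (w f h ^ 2 * (c (nb f h) - c f) ^ 2) * φ (nb f h) (op h) ^ 2 := by ring
      _ = _ := by rw [this, one_mul]
  rw [h3]
  apply mul_le_mul_of_nonneg_right _ (sq_nonneg _)
  calc w f h ^ 2 * (c (nb f h) - c f) ^ 2 ≤ 1 * δ ^ 2 :=
        mul_le_mul h2 h1 (sq_nonneg _) zero_le_one
    _ = δ ^ 2 := one_mul _

/-- summation over the neighbours, weighted by an indicator-like set relation -/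
theorem sum_nb_le (K L : Finset Face) (hKL : ∀ f ∈ K, ∀ h, nb f h ∈ L) (φ : Fld) :
    ∑ f ∈ K, ∑ h, φ (nb f h) (op h) ^ 2 ≤ E2 L φ := by
  classical
  unfold E2 nsq
  rw [← sum_product', ← sum_product']
  calc ∑ x ∈ K ×ˢ (univ : Finset (Fin 4)), φ (nb x.1 x.2) (op x.2) ^ 2
      = ∑ x ∈ (K ×ˢ (univ : Finset (Fin 4))).image bar, φ x.1 x.2 ^ 2 := by
        rw [sum_image fun x _ y _ h => bar.injective h]
        rfl
    _ ≤ ∑ x ∈ L ×ˢ (univ : Finset (Fin 4)), φ x.1 x.2 ^ 2 := by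
        apply sum_le_sum_of_subset_of_nonneg
        · intro x hx
          rw [mem_image] at hx
          obtain ⟨y, hy, rfl⟩ := hx
          rw [mem_product] at hy ⊢
          exact ⟨hKL y.1 hy.1 y.2, mem_univ _⟩
        · intro _ _ _; positivity

theorem E2_comm_le {w : Fld} (hw : ∀ f h, w f h ^ 2 ≤ 1) {c : Face → ℝ} {δ : ℝ}
    (hδ : ∀ f h, |c (nb f h) - c f| ≤ δ) (φ : Fld) (K L : Finset Face)
    (hKL : ∀ f ∈ K, ∀ h, nb f h ∈ L) :
    E2 K (comm w c φ) ≤ δ ^ 2 * E2 L φ := by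
  calc E2 K (comm w c φ) ≤ ∑ f ∈ K, δ ^ 2 * ∑ h, φ (nb f h) (op h) ^ 2 :=
        sum_le_sum fun f _ => nsq_comm_le hw hδ φ f
    _ = δ ^ 2 * ∑ f ∈ K, ∑ h, φ (nb f h) (op h) ^ 2 := (mul_sum _ _ _).symm
    _ ≤ δ ^ 2 * E2 L φ := mul_le_mul_of_nonneg_left (sum_nb_le K L hKL φ) (sq_nonneg _)

/-! ### cut-off functions -/

/-- cut-off: `1` for `dd f o ≤ m`, `0` for `dd f o ≥ m + k`, linear in between -/
def cut (o : Face) (m k : ℕ) (f : Face) : ℝ := max 0 (min 1 (((m : ℝ) + k - dd f o) / k))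

theorem cut_nonneg (o : Face) (m k : ℕ) (f : Face) : 0 ≤ cut o m k f := le_max_left _ _

theorem cut_le_one (o : Face) (m k : ℕ) (f : Face) : cut o m k f ≤ 1 :=
  max_le zero_le_one (min_le_left _ _)

theorem cut_sq_le (o : Face) (m k : ℕ) (f : Face) : cut o m k f ^ 2 ≤ 1 := by
  have h0 := cut_nonneg o m k f
  have h1 := cut_le_one o m k f
  nlinarith

theorem cut_eq_one {o : Face} {m k : ℕ} (hk : 0 < k) {f : Face} (h : dd f o ≤ m) :
    cut o m k f = 1 := by
  unfold cut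
  have hk' : (0 : ℝ) < k := by exact_mod_cast hk
  have h' : (dd f o : ℝ) ≤ m := by exact_mod_cast h
  have : 1 ≤ ((m : ℝ) + k - dd f o) / k := by rw [le_div_iff₀ hk']; linarith
  rw [min_eq_left this]; simp

theorem cut_eq_zero {o : Face} {m k : ℕ} {f : Face} (h : m + k ≤ dd f o) :
    cut o m k f = 0 := by
  unfold cut
  have h' : (m : ℝ) + k ≤ dd f o := by exact_mod_cast h
  have : ((m : ℝ) + k - dd f o) / k ≤ 0 :=
    div_nonpos_of_nonpos_of_nonneg (by linarith) (Nat.cast_nonneg k)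
  rw [max_eq_left ((min_le_right _ _).trans this)]

theorem cut_lip (o : Face) (m k : ℕ) (f : Face) (h : Fin 4) :
    |cut o m k (nb f h) - cut o m k f| ≤ 1 / k := by
  unfold cut
  refine (abs_max_sub_max_le_abs' _ _ _).trans ?_
  refine (abs_min_sub_min_le_abs' _ _ _).trans ?_
  rw [← sub_div, abs_div, abs_of_nonneg (Nat.cast_nonneg (α := ℝ) k)]
  apply div_le_div_of_nonneg_right _ (Nat.cast_nonneg k)
  have h1 : (dd (nb f h) o : ℝ) ≤ dd f o + 1 := by exact_mod_cast dd_nb_le f o h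
  have h2 : (dd f o : ℝ) ≤ dd (nb f h) o + 1 := by exact_mod_cast dd_le_nb f o h
  rw [abs_le]; constructor <;> linarith
where
  abs_max_sub_max_le_abs' (a b : ℝ) (c : ℝ) : |max c a - max c b| ≤ |a - b| := by
    have := abs_max_sub_max_le_abs a b c
    rwa [max_comm a c, max_comm b c] at this
  abs_min_sub_min_le_abs' (a b : ℝ) (c : ℝ) : |min c a - min c b| ≤ |a - b| := by
    rcases le_total c a with h1 | h1 <;> rcases le_total c b with h2 | h2 <;>
      simp only [min_eq_left, min_eq_right, h1, h2] <;> rw [abs_le, ] <;> constructor <;>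
      cases abs_cases (a - b) <;> linarith

/-! ### the plane kernel -/

/-- convolution of a kernel with a field, the field restricted to the finite set `J` -/
def cv (K : Face → Fin 4 → Fin 4 → ℝ) (J : Finset Face) (ε : Fld) : Fld :=
  fun z a => ∑ w ∈ J, ∑ b, K (z - w) a b * ε w b

/-- plane kernel: decay `c/(1+|z|)` and two-sided inverse of the critical plane operator -/
structure PK (c : ℝ) where
  /-- the kernel -/
  K : Face → Fin 4 → Fin 4 → ℝ
  c_nonneg : 0 ≤ c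
  bound : ∀ d a b, |K d a b| ≤ c / ((dd d 0 : ℝ) + 1)
  right : ∀ (J : Finset Face) (ε : Fld), (∀ f, f ∉ J → ε f = 0) → A wc (cv K J ε) = ε
  left : ∀ (J : Finset Face) (ψ : Fld), (∀ f, f ∉ J → ψ f = 0) → (∀ f, f ∉ J → A wc ψ f = 0) →
    cv K J (A wc ψ) = ψ

theorem dd_sub (z w : Face) : dd (z - w) 0 = dd z w := by
  simp [dd]

variable {c : ℝ}

theorem PK.bound' (P : PK c) (z w : Face) (a b : Fin 4) :
    |P.K (z - w) a b| ≤ c / ((dd z w : ℝ) + 1) := by
  have := P.bound (z - w) a b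
  rwa [dd_sub] at this

theorem sq_sum4_le (x : Fin 4 → ℝ) : (∑ b, x b) ^ 2 ≤ 4 * ∑ b, x b ^ 2 := by
  simp only [Fin.sum_univ_four]
  nlinarith [sq_nonneg (x 0 - x 1), sq_nonneg (x 0 - x 2), sq_nonneg (x 0 - x 3),
    sq_nonneg (x 1 - x 2), sq_nonneg (x 1 - x 3), sq_nonneg (x 2 - x 3)]

/-- near bound: `|K * ε|_{I} ≤ 32 c (N+1) |ε|` if `I` and the source are within distance `N` -/
theorem E2_cv_le (P : PK c) (I J : Finset Face) (N : ℕ) (hIJ : ∀ z ∈ I, ∀ w ∈ J, dd z w ≤ N)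
    (ε : Fld) : E2 I (cv P.K J ε) ≤ 1024 * c ^ 2 * (N + 1) ^ 2 * E2 J ε := by
  have h1 : ∀ a b : Fin 4, ∑ z ∈ I, (∑ w ∈ J, P.K (z - w) a b * ε w b) ^ 2
      ≤ 64 * c ^ 2 * (N + 1) ^ 2 * ∑ w ∈ J, ε w b ^ 2 := fun a b =>
    bulk_schur I J N hIJ (fun z w => P.K (z - w) a b) c (fun z _ w _ => P.bound' z w a b)
      (fun w => ε w b)
  have h2 : ∀ z a, cv P.K J ε z a ^ 2 ≤ 4 * ∑ b, (∑ w ∈ J, P.K (z - w) a b * ε w b) ^ 2 := by
    intro z a
    have : cv P.K J ε z a = ∑ b, ∑ w ∈ J, P.K (z - w) a b * ε w b := by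
      unfold cv; rw [sum_comm]
    rw [this]
    exact sq_sum4_le _
  calc E2 I (cv P.K J ε) = ∑ z ∈ I, ∑ a, cv P.K J ε z a ^ 2 := rfl
    _ ≤ ∑ z ∈ I, ∑ a, 4 * ∑ b, (∑ w ∈ J, P.K (z - w) a b * ε w b) ^ 2 :=
        sum_le_sum fun z _ => sum_le_sum fun a _ => h2 z a
    _ = ∑ a, ∑ b, 4 * ∑ z ∈ I, (∑ w ∈ J, P.K (z - w) a b * ε w b) ^ 2 := by
        rw [sum_comm]
        refine sum_congr rfl fun a _ => ?_
        simp only [mul_sum]
        rw [sum_comm]
    _ ≤ ∑ _a : Fin 4, ∑ b, 4 * (64 * c ^ 2 * (N + 1) ^ 2 * ∑ w ∈ J, ε w b ^ 2) :=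
        sum_le_sum fun a _ => sum_le_sum fun b _ => by
          have := h1 a b; linarith
    _ = 1024 * c ^ 2 * (N + 1) ^ 2 * E2 J ε := by
        have : E2 J ε = ∑ b, ∑ w ∈ J, ε w b ^ 2 := by
          unfold E2 nsq; rw [sum_comm]
        rw [this, sum_const, card_univ, Fintype.card_fin, nsmul_eq_mul, mul_sum]
        push_cast
        simp only [mul_sum]
        refine sum_congr rfl fun b _ => sum_congr rfl fun w _ => ?_
        ring

/-- far bound, pointwise -/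
theorem nsq_cv_le (P : PK c) (J : Finset Face) (ε : Fld) (z : Face) (t : ℕ)
    (ht : ∀ w ∈ J, t ≤ dd z w) :
    nsq (cv P.K J ε z) ≤ 16 * c ^ 2 * J.card / (t + 1) ^ 2 * E2 J ε := by
  have hc := P.c_nonneg
  have ht0 : (0 : ℝ) < (t : ℝ) + 1 := by positivity
  have h1 : ∀ a, cv P.K J ε z a ^ 2 ≤ (c / (t + 1)) ^ 2 * ((J.card * 4 : ℕ) : ℝ) * E2 J ε := by
    intro a
    have e1 : cv P.K J ε z a = ∑ x ∈ J ×ˢ (univ : Finset (Fin 4)), P.K (z - x.1) a x.2 * ε x.1 x.2 := by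
      unfold cv; rw [sum_product]
    have e2 : E2 J ε = ∑ x ∈ J ×ˢ (univ : Finset (Fin 4)), ε x.1 x.2 ^ 2 := by
      unfold E2 nsq; rw [sum_product]
    rw [e1, e2]
    refine (sum_mul_sq_le_sq_mul_sq _ _ _).trans ?_
    apply mul_le_mul_of_nonneg_right _ (sum_nonneg fun _ _ => sq_nonneg _)
    calc ∑ x ∈ J ×ˢ (univ : Finset (Fin 4)), P.K (z - x.1) a x.2 ^ 2
        ≤ ∑ _x ∈ J ×ˢ (univ : Finset (Fin 4)), (c / (t + 1)) ^ 2 := by
          refine sum_le_sum fun x hx => ?_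
          rw [mem_product] at hx
          have h2 := P.bound' z x.1 a x.2
          have h3 : c / ((dd z x.1 : ℝ) + 1) ≤ c / (t + 1) := by
            apply div_le_div_of_nonneg_left hc ht0
            have : (t : ℝ) ≤ dd z x.1 := by exact_mod_cast ht x.1 hx.1
            linarith
          rw [← sq_abs (P.K (z - x.1) a x.2)]
          exact pow_le_pow_left₀ (abs_nonneg _) (h2.trans h3) 2
      _ = (c / (t + 1)) ^ 2 * ((J.card * 4 : ℕ) : ℝ) := by
          rw [sum_const, card_product, card_univ, Fintype.card_fin, nsmul_eq_mul, mul_comm]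
  calc nsq (cv P.K J ε z) = ∑ a, cv P.K J ε z a ^ 2 := rfl
    _ ≤ ∑ _a : Fin 4, (c / (t + 1)) ^ 2 * ((J.card * 4 : ℕ) : ℝ) * E2 J ε :=
        sum_le_sum fun a _ => h1 a
    _ = 16 * c ^ 2 * J.card / (t + 1) ^ 2 * E2 J ε := by
        rw [sum_const, card_univ, Fintype.card_fin, nsmul_eq_mul]
        push_cast
        rw [div_pow]
        ring

/-- far bound, summed: source in `bx o m`, region `bx o s \ bx o (2m)` -/
theorem E2_cv_far (P : PK c) (o : Face) (m s : ℕ) (ε : Fld) :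
    E2 (bx o s \ bx o (2 * m)) (cv P.K (bx o m) ε)
      ≤ 2048 * c ^ 2 * (m + 1) * (s + 1) * E2 (bx o m) ε := by
  classical
  have hE := E2_nonneg (bx o m) ε
  have hm : (0 : ℝ) ≤ m := Nat.cast_nonneg m
  have h1 : ∀ z ∈ bx o s \ bx o (2 * m), nsq (cv P.K (bx o m) ε z)
      ≤ 256 * c ^ 2 * (m + 1) * E2 (bx o m) ε * (1 / ((dd z o : ℝ) + 1)) := by
    intro z hz
    rw [mem_sdiff, mem_bx, mem_bx] at hz
    have hd : 2 * m < dd z o := by omega
    have h2 := nsq_cv_le P (bx o m) ε z (dd z o - m) (fun w hw => by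
      rw [mem_bx] at hw
      have := dd_triangle z w o
      omega)
    refine h2.trans ?_
    have hcard := card_bx o m
    have hcast : ((dd z o - m : ℕ) : ℝ) = (dd z o : ℝ) - m := by
      rw [Nat.cast_sub (by omega)]
    rw [hcast]
    have hd' : 2 * (m : ℝ) + 1 ≤ dd z o := by exact_mod_cast hd
    set d : ℝ := (dd z o : ℝ)
    have ht : (d + 1) / 2 ≤ d - m + 1 := by linarith
    have ht0 : 0 < (d + 1) / 2 := by linarith
    have h3 : 16 * c ^ 2 * ((bx o m).card : ℝ) / (d - m + 1) ^ 2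
        ≤ 16 * c ^ 2 * (4 * (m + 1) ^ 2) / ((d + 1) / 2) ^ 2 := by
      apply div_le_div₀ (by positivity) _ (by positivity)
      · exact pow_le_pow_left₀ ht0.le ht 2
      · exact mul_le_mul_of_nonneg_left hcard (by positivity)
    have h4 : 16 * c ^ 2 * (4 * ((m : ℝ) + 1) ^ 2) / ((d + 1) / 2) ^ 2
        ≤ 256 * c ^ 2 * (m + 1) * (1 / (d + 1)) := by
      have e : 16 * c ^ 2 * (4 * ((m : ℝ) + 1) ^ 2) / ((d + 1) / 2) ^ 2
          = 256 * c ^ 2 * (m + 1) * (1 / (d + 1)) * ((m + 1) / (d + 1)) := by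
        field_simp; ring
      rw [e]
      have h5 : ((m : ℝ) + 1) / (d + 1) ≤ 1 := by
        rw [div_le_one (by linarith)]; linarith
      have h6 : 0 ≤ 256 * c ^ 2 * ((m : ℝ) + 1) * (1 / (d + 1)) := by positivity
      nlinarith
    calc _ ≤ 256 * c ^ 2 * (m + 1) * (1 / (d + 1)) * E2 (bx o m) ε :=
          mul_le_mul_of_nonneg_right (h3.trans h4) hE
      _ = _ := by ring
  calc E2 (bx o s \ bx o (2 * m)) (cv P.K (bx o m) ε)
      ≤ ∑ z ∈ bx o s \ bx o (2 * m),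
          256 * c ^ 2 * (m + 1) * E2 (bx o m) ε * (1 / ((dd z o : ℝ) + 1)) := sum_le_sum h1
    _ = 256 * c ^ 2 * (m + 1) * E2 (bx o m) ε *
          ∑ z ∈ bx o s \ bx o (2 * m), 1 / ((dd z o : ℝ) + 1) := (mul_sum _ _ _).symm
    _ ≤ 256 * c ^ 2 * (m + 1) * E2 (bx o m) ε * (8 * (s + 1)) := by
        apply mul_le_mul_of_nonneg_left _ (by positivity)
        exact bulk_one _ o s fun z hz => mem_bx.1 (mem_sdiff.1 hz).1
    _ = _ := by ring

/-- bound of the convolution on a box: source in `bx o m`, target `bx o s` -/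
theorem E2_cv_bx (P : PK c) (o : Face) (m s : ℕ) (ε : Fld) :
    E2 (bx o s) (cv P.K (bx o m) ε)
      ≤ 12000 * c ^ 2 * (m + 1) * (m + s + 1) * E2 (bx o m) ε := by
  classical
  have hE := E2_nonneg (bx o m) ε
  have hm : (0 : ℝ) ≤ m := Nat.cast_nonneg m
  have hs : (0 : ℝ) ≤ s := Nat.cast_nonneg s
  have h1 : E2 (bx o (2 * m)) (cv P.K (bx o m) ε)
      ≤ 1024 * c ^ 2 * (3 * m + 1) ^ 2 * E2 (bx o m) ε := by
    have := E2_cv_le P (bx o (2 * m)) (bx o m) (3 * m) (fun z hz w hw => by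
      rw [mem_bx] at hz hw
      have := dd_triangle z o w
      rw [dd_comm o w] at this
      omega) ε
    push_cast at this
    exact this
  have h2 := E2_cv_far P o m s ε
  have h3 : E2 (bx o s) (cv P.K (bx o m) ε)
      ≤ E2 (bx o (2 * m)) (cv P.K (bx o m) ε)
        + E2 (bx o s \ bx o (2 * m)) (cv P.K (bx o m) ε) := by
    unfold E2
    rw [← sum_inter_add_sum_sdiff (bx o s) (bx o (2 * m))]
    have := sum_le_sum_of_subset_of_nonneg (f := fun f => nsq (cv P.K (bx o m) ε f))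
      (inter_subset_right : bx o s ∩ bx o (2 * m) ⊆ bx o (2 * m)) (fun _ _ _ => nsq_nonneg _)
    linarith
  have h4 : 1024 * c ^ 2 * (3 * (m : ℝ) + 1) ^ 2 + 2048 * c ^ 2 * (m + 1) * (s + 1)
      ≤ 12000 * c ^ 2 * (m + 1) * (m + s + 1) := by
    have hc2 : 0 ≤ c ^ 2 := sq_nonneg c
    have : 1024 * (3 * (m : ℝ) + 1) ^ 2 + 2048 * (m + 1) * (s + 1)
      ≤ 12000 * (m + 1) * (m + s + 1) := by nlinarith [mul_nonneg hm hs]
    nlinarith
  nlinarith [mul_le_mul_of_nonneg_right h4 hE]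

/-- restriction of the source -/
theorem cv_congr {K : Face → Fin 4 → Fin 4 → ℝ} {J J' : Finset Face} (h : J' ⊆ J) {ε : Fld}
    (h0 : ∀ f ∈ J, f ∉ J' → ε f = 0) : cv K J ε = cv K J' ε := by
  funext z a
  unfold cv
  symm
  apply sum_subset h
  intro w hw hw'
  rw [h0 w hw hw']
  simp

theorem wc_sq_le (f : Face) (h : Fin 4) : wc f h ^ 2 ≤ 1 := by
  have h1 := xc_pos
  have h2 := xc_lt_one
  show xc ^ 2 ≤ 1
  nlinarith

/-- the commutator with `cut o m k` vanishes at faces with `dd f o < m` or `dd f o > m + k` -/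
theorem comm_cut_eq_zero {w : Fld} {o : Face} {m k : ℕ} (hk : 0 < k) {φ : Fld} {f : Face}
    (h : dd f o < m ∨ m + k < dd f o) : comm w (cut o m k) φ f = 0 := by
  funext a
  have : cut o m k (nb f a) = cut o m k f := by
    rcases h with h | h
    · rw [cut_eq_one hk (by have := dd_nb_le f o a; omega), cut_eq_one hk (by omega)]
    · rw [cut_eq_zero (by have := dd_le_nb f o a; omega), cut_eq_zero (by omega)]
  simp [comm, this]

/-- interior estimate for exact solutions of the plane equation, pointwise form -/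
theorem interior_pt (P : PK c) (o : Face) (m s r : ℕ) (hm : 0 < m) (hs : 2 * s ≤ m)
    (hr : 2 * m + 1 ≤ r) (F : Fld) (hF : ∀ f, dd f o ≤ r → A wc F f = 0) (z : Face)
    (hz : dd z o ≤ s) : nsq (F z) ≤ 1024 * c ^ 2 / m ^ 2 * E2 (bx o r) F := by
  classical
  have hm' : (0 : ℝ) < m := by exact_mod_cast hm
  set χ := cut o m m with hχ
  set ψ := sm χ F with hψ
  have hA : A wc ψ = comm wc χ F := by
    rw [hψ, A_sm]
    have : sm χ (A wc F) = 0 := by
      funext f h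
      by_cases hf : dd f o ≤ r
      · simp [sm, hF f hf]
      · simp [sm, hχ, cut_eq_zero (show m + m ≤ dd f o by omega)]
    rw [this, zero_add]
  have hJψ : ∀ f, f ∉ bx o (2 * m) → ψ f = 0 := by
    intro f hf
    rw [mem_bx] at hf
    funext h
    simp [hψ, sm, hχ, cut_eq_zero (show m + m ≤ dd f o by omega)]
  have hJA : ∀ f, f ∉ bx o (2 * m) → A wc ψ f = 0 := by
    intro f hf
    rw [mem_bx] at hf
    rw [hA]
    exact comm_cut_eq_zero hm (Or.inr (by omega))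
  have hleft := P.left (bx o (2 * m)) ψ hJψ hJA
  rw [hA] at hleft
  -- pass to the ring
  have hring : cv P.K (bx o (2 * m)) (comm wc χ F)
      = cv P.K (bx o (2 * m) \ bx o (m - 1)) (comm wc χ F) := by
    apply cv_congr sdiff_subset
    intro f hf hf'
    have : dd f o ≤ m - 1 := by
      by_contra hc
      exact hf' (mem_sdiff.2 ⟨hf, fun h => hc (mem_bx.1 h)⟩)
    exact comm_cut_eq_zero hm (Or.inl (by omega))
  have hFz : F z = cv P.K (bx o (2 * m) \ bx o (m - 1)) (comm wc χ F) z := by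
    rw [← hring, hleft]
    funext h
    simp [hψ, sm, hχ, cut_eq_one hm (show dd z o ≤ m by omega)]
  rw [hFz]
  have h1 := nsq_cv_le P (bx o (2 * m) \ bx o (m - 1)) (comm wc χ F) z (m - s) (fun w hw => by
    rw [mem_sdiff, mem_bx, mem_bx] at hw
    have := dd_triangle w z o
    rw [dd_comm w z] at this
    omega)
  refine h1.trans ?_
  have hcard : ((bx o (2 * m) \ bx o (m - 1)).card : ℝ) ≤ 4 * (2 * m + 1) ^ 2 := by
    have h2 : ((bx o (2 * m) \ bx o (m - 1)).card : ℝ) ≤ ((bx o (2 * m)).card : ℝ) := by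
      exact_mod_cast card_le_card sdiff_subset
    have h3 := card_bx o (2 * m)
    push_cast at h3
    linarith
  have hcomm : E2 (bx o (2 * m) \ bx o (m - 1)) (comm wc χ F) ≤ (1 / m) ^ 2 * E2 (bx o r) F := by
    refine (E2_comm_le wc_sq_le (fun f h => cut_lip o m m f h) F _ (bx o r) ?_)
    intro f hf h
    rw [mem_sdiff, mem_bx] at hf
    rw [mem_bx]
    have := dd_nb_le f o h
    omega
  have hcast : ((m - s : ℕ) : ℝ) = (m : ℝ) - s := by rw [Nat.cast_sub (by omega)]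
  have hs' : 2 * (s : ℝ) ≤ m := by exact_mod_cast hs
  have hs0 : (0 : ℝ) ≤ s := Nat.cast_nonneg s
  have hE := E2_nonneg (bx o r) F
  rw [hcast]
  have h4 : 16 * c ^ 2 * ((bx o (2 * m) \ bx o (m - 1)).card : ℝ) / ((m : ℝ) - s + 1) ^ 2
      ≤ 1024 * c ^ 2 := by
    have h5 : 16 * c ^ 2 * ((bx o (2 * m) \ bx o (m - 1)).card : ℝ) / ((m : ℝ) - s + 1) ^ 2
        ≤ 16 * c ^ 2 * (4 * (2 * m + 1) ^ 2) / (((m : ℝ) + 2) / 2) ^ 2 := by
      apply div_le_div₀ (by positivity) _ (by positivity)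
      · exact pow_le_pow_left₀ (by positivity) (by linarith) 2
      · exact mul_le_mul_of_nonneg_left hcard (by positivity)
    refine h5.trans ?_
    rw [div_le_iff₀ (by positivity)]
    have hc2 : 0 ≤ c ^ 2 := sq_nonneg c
    have : 16 * (4 * (2 * (m : ℝ) + 1) ^ 2) ≤ 1024 * (((m : ℝ) + 2) / 2) ^ 2 := by nlinarith
    nlinarith
  calc 16 * c ^ 2 * ((bx o (2 * m) \ bx o (m - 1)).card : ℝ) / ((m : ℝ) - s + 1) ^ 2 *
        E2 (bx o (2 * m) \ bx o (m - 1)) (comm wc χ F)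
      ≤ 1024 * c ^ 2 * ((1 / m) ^ 2 * E2 (bx o r) F) :=
        mul_le_mul h4 hcomm (E2_nonneg _ _) (by positivity)
    _ = _ := by rw [one_div, inv_pow]; ring

/-- **interior estimate**: `|F|_{B_s} ≤ C (s/r) |F|_{B_r}` for exact plane solutions on `B_r` -/
theorem interior (P : PK c) (o : Face) (s r : ℕ) (hsr : s ≤ r) (F : Fld)
    (hF : ∀ f, dd f o ≤ r → A wc F f = 0) :
    E2 (bx o s) F ≤ (102400 * c ^ 2 + 100) * (((s : ℝ) + 1) / (r + 1)) ^ 2 * E2 (bx o r) F := by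
  have hE := E2_nonneg (bx o r) F
  have hs0 : (0 : ℝ) ≤ s := Nat.cast_nonneg s
  have hr0 : (0 : ℝ) ≤ r := Nat.cast_nonneg r
  have hc2 : 0 ≤ c ^ 2 := sq_nonneg c
  by_cases hbig : r + 1 ≤ 10 * (s + 1)
  · have h1 := E2_mono (bx_mono o hsr) F
    have h2 : (1 : ℝ) ≤ 100 * (((s : ℝ) + 1) / (r + 1)) ^ 2 := by
      have h3 : (r : ℝ) + 1 ≤ 10 * (s + 1) := by exact_mod_cast hbig
      have h4 : (1 : ℝ) ≤ 10 * (((s : ℝ) + 1) / (r + 1)) := by
        rw [← mul_div_assoc, le_div_iff₀ (by linarith)]; linarith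
      nlinarith
    have h5 : 1 ≤ (102400 * c ^ 2 + 100) * (((s : ℝ) + 1) / (r + 1)) ^ 2 := by
      have : 0 ≤ 102400 * c ^ 2 * (((s : ℝ) + 1) / (r + 1)) ^ 2 := by positivity
      nlinarith
    nlinarith
  · have hm : 0 < (r - 1) / 2 := by omega
    set m := (r - 1) / 2 with hmdef
    have h1 : ∀ z ∈ bx o s, nsq (F z) ≤ 1024 * c ^ 2 / m ^ 2 * E2 (bx o r) F := fun z hz =>
      interior_pt P o m s r hm (by omega) (by omega) F hF z (mem_bx.1 hz)
    have h2 : E2 (bx o s) F ≤ (bx o s).card * (1024 * c ^ 2 / m ^ 2 * E2 (bx o r) F) := by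
      calc E2 (bx o s) F ≤ ∑ _z ∈ bx o s, 1024 * c ^ 2 / m ^ 2 * E2 (bx o r) F := sum_le_sum h1
        _ = _ := by rw [sum_const, nsmul_eq_mul]
    have hcard := card_bx o s
    have hm5 : ((r : ℝ) + 1) / 5 ≤ m := by
      have : r + 1 ≤ 5 * m := by omega
      have : (r : ℝ) + 1 ≤ 5 * m := by exact_mod_cast this
      linarith
    have hm0 : (0 : ℝ) < m := by exact_mod_cast hm
    have h3 : 1024 * c ^ 2 / (m : ℝ) ^ 2 ≤ 1024 * c ^ 2 / (((r : ℝ) + 1) / 5) ^ 2 := by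
      apply div_le_div_of_nonneg_left (by positivity) (by positivity)
      exact pow_le_pow_left₀ (by positivity) hm5 2
    calc E2 (bx o s) F ≤ (bx o s).card * (1024 * c ^ 2 / m ^ 2 * E2 (bx o r) F) := h2
      _ ≤ (4 * ((s : ℝ) + 1) ^ 2) * (1024 * c ^ 2 / (((r : ℝ) + 1) / 5) ^ 2 * E2 (bx o r) F) := by
          apply mul_le_mul hcard (mul_le_mul_of_nonneg_right h3 hE) (by positivity) (by positivity)
      _ = 102400 * c ^ 2 * (((s : ℝ) + 1) / (r + 1)) ^ 2 * E2 (bx o r) F := by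
          field_simp; ring
      _ ≤ _ := by
          have : 0 ≤ (((s : ℝ) + 1) / (r + 1)) ^ 2 * E2 (bx o r) F := by positivity
          nlinarith

end Crest.Agent.R165.Cl7x999
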