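import Crest.Agent.R165.Cl7a_999

/-!
# Row 165, block R, leaf R7, part b: the cluster estimate (K)

`w` is a sign background (`w² = x_c²`) which is the plane one outside the box `bx o R`
(`Clu w o R`); `SQ Cs` is the square-trick inequality of helper54, as a hypothesis.

`Kest`: for every field `φ`, with `χ = cut o (2R) (2R)`,
`F = (1-χ) φ + K * [A, χ] φ` (which satisfies `A_plane F = (1-χ) A φ`),
`|φ|²_{8R} ≤ C (|F|²_{8R} + R² |A φ|²_{8R})`.
-/

set_option autoImplicit false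

noncomputable section

namespace Crest.Agent.R165.Cl7x999

open Finset Crest.Agent.R165.Tr1x40 Crest.Agent.R165.Schurx811

/-- the square-trick inequality on boxes (helper54) -/
def SQ (Cs : ℝ) : Prop :=
  0 ≤ Cs ∧ ∀ (w φ : Fld) (o : Face) (s : ℕ) (J : Finset Face), Sym w → IsPlus w →
    (∀ f, f ∉ J → φ f = 0) → (∀ f, f ∉ J → A w φ f = 0) →
    E2 (bx o s) φ ≤ Cs * (s + 1) * (Real.sqrt (E2 J φ) * Real.sqrt (E2 J (A w φ)))

/-- cluster background: critical weights up to signs, trivial outside `bx o R` -/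
structure Clu (w : Fld) (o : Face) (R : ℕ) : Prop where
  sym : Sym w
  sq : ∀ f h, w f h ^ 2 = xc ^ 2
  out : ∀ f h, R < dd f o → w f h = xc

theorem Clu.isPlus {w : Fld} {o : Face} {R : ℕ} (hw : Clu w o R) : IsPlus w := fun f h =>
  Or.inl (hw.sq f h)

theorem Clu.sq_le {w : Fld} {o : Face} {R : ℕ} (hw : Clu w o R) (f : Face) (h : Fin 4) :
    w f h ^ 2 ≤ 1 := by rw [hw.sq]; exact wc_sq_le f h

variable {c : ℝ}

/-- far bound, pointwise, source in `bx o m` -/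
theorem nsq_cv_far (P : PK c) (o : Face) (m : ℕ) (ε : Fld) (z : Face) (hz : 2 * m ≤ dd z o) :
    nsq (cv P.K (bx o m) ε z)
      ≤ 256 * c ^ 2 * (m + 1) ^ 2 / ((dd z o : ℝ) + 1) ^ 2 * E2 (bx o m) ε := by
  have hE := E2_nonneg (bx o m) ε
  have h2 := nsq_cv_le P (bx o m) ε z (dd z o - m) (fun w hw => by
    rw [mem_bx] at hw
    have := dd_triangle z w o
    omega)
  refine h2.trans (mul_le_mul_of_nonneg_right ?_ hE)
  have hcard := card_bx o m
  have hcast : ((dd z o - m : ℕ) : ℝ) = (dd z o : ℝ) - m := by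
    rw [Nat.cast_sub (by omega)]
  rw [hcast]
  have hd' : 2 * (m : ℝ) ≤ dd z o := by exact_mod_cast hz
  have hm : (0 : ℝ) ≤ m := Nat.cast_nonneg m
  set d : ℝ := (dd z o : ℝ)
  have ht : (d + 1) / 2 ≤ d - m + 1 := by linarith
  have ht0 : 0 < (d + 1) / 2 := by linarith
  calc 16 * c ^ 2 * ((bx o m).card : ℝ) / (d - m + 1) ^ 2
      ≤ 16 * c ^ 2 * (4 * (m + 1) ^ 2) / ((d + 1) / 2) ^ 2 := by
        apply div_le_div₀ (by positivity) _ (by positivity)
        · exact pow_le_pow_left₀ ht0.le ht 2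
        · exact mul_le_mul_of_nonneg_left hcard (by positivity)
    _ = 256 * c ^ 2 * (m + 1) ^ 2 / (d + 1) ^ 2 := by
        field_simp; ring

/-- the complementary cut-off -/
def ci (χ : Face → ℝ) : Face → ℝ := fun f => 1 - χ f

theorem comm_ci (w : Fld) (χ : Face → ℝ) (φ : Fld) : comm w (ci χ) φ = -comm w χ φ := by
  funext f h
  simp only [comm, ci, Pi.neg_apply]; ring

theorem sm_add (χ : Face → ℝ) (φ ψ : Fld) : sm χ (φ + ψ) = sm χ φ + sm χ ψ := by
  funext f h; simp only [sm, Pi.add_apply]; ring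

/-- the cut-off at the cluster scale -/
def chi (o : Face) (R : ℕ) : Face → ℝ := cut o (2 * R) (2 * R)

section
variable {w : Fld} {o : Face} {R : ℕ}

theorem chi_comm (hw : Clu w o R) (hR : 1 ≤ R) (φ : Fld) :
    comm w (chi o R) φ = comm wc (chi o R) φ := by
  apply comm_congr
  intro f h hne
  apply hw.out
  by_contra hc
  apply hne
  unfold chi
  rw [cut_eq_one (by omega) (by have := dd_nb_le f o h; omega), cut_eq_one (by omega) (by omega)]

theorem chi_A (hw : Clu w o R) (hR : 1 ≤ R) (φ : Fld) :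
    sm (ci (chi o R)) (A w φ) = sm (ci (chi o R)) (A wc φ) := by
  funext f h
  simp only [sm, ci]
  by_cases hf : dd f o ≤ 2 * R
  · unfold chi
    rw [cut_eq_one (by omega) hf]; ring
  · have : ∀ k, w f k = wc f k := fun k => hw.out f k (by omega)
    simp only [A, Y, this]

/-- the source of the cut-off -/
def eps (w : Fld) (o : Face) (R : ℕ) (φ : Fld) : Fld := comm w (chi o R) φ

theorem eps_supp (hR : 1 ≤ R) (φ : Fld) : ∀ f, f ∉ bx o (4 * R) → eps w o R φ f = 0 := by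
  intro f hf
  rw [mem_bx] at hf
  exact comm_cut_eq_zero (by omega) (Or.inr (by omega))

/-- the plane-regular part -/
def Freg (P : PK c) (w : Fld) (o : Face) (R : ℕ) (φ : Fld) : Fld :=
  sm (ci (chi o R)) φ + cv P.K (bx o (4 * R)) (eps w o R φ)

theorem A_Freg (P : PK c) (hw : Clu w o R) (hR : 1 ≤ R) (φ : Fld) :
    A wc (Freg P w o R φ) = sm (ci (chi o R)) (A w φ) := by
  unfold Freg
  rw [A_add, P.right _ _ (eps_supp hR φ), A_sm, comm_ci, chi_A hw hR, eps, chi_comm hw hR]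
  abel

/-- the corrected field -/
def outg (P : PK c) (w : Fld) (o : Face) (R : ℕ) (φ : Fld) : Fld :=
  φ - sm (ci (chi o R)) (Freg P w o R φ)

theorem outg_eq (P : PK c) (φ : Fld) :
    outg P w o R φ = sm (chi o R) φ - cv P.K (bx o (4 * R)) (eps w o R φ)
      + sm (chi o R) (Freg P w o R φ) := by
  funext f h
  simp only [outg, Freg, sm, ci, Pi.sub_apply, Pi.add_apply]; ring

theorem outg_far (P : PK c) (φ : Fld) {f : Face} (hf : 4 * R ≤ dd f o) :
    outg P w o R φ f = -cv P.K (bx o (4 * R)) (eps w o R φ) f := by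
  rw [outg_eq]
  funext h
  have : chi o R f = 0 := cut_eq_zero (by omega)
  simp [sm, this]

theorem A_outg (P : PK c) (hw : Clu w o R) (hR : 1 ≤ R) (φ : Fld) :
    A w (outg P w o R φ) = sm (fun f => 1 - (ci (chi o R) f) ^ 2) (A w φ)
      + comm w (chi o R) (Freg P w o R φ) := by
  unfold outg
  rw [A_sub, A_sm, comm_ci, chi_A hw hR, A_Freg P hw hR]
  funext f h
  simp only [sm, Pi.sub_apply, Pi.add_apply, Pi.neg_apply]; ring

theorem chi_nonneg (f : Face) : 0 ≤ chi o R f := cut_nonneg _ _ _ _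
theorem chi_le_one (f : Face) : chi o R f ≤ 1 := cut_le_one _ _ _ _

theorem ci_chi_sq (f : Face) : (ci (chi o R) f) ^ 2 ≤ 1 := by
  have h0 := chi_nonneg (o := o) (R := R) f
  have h1 := chi_le_one (o := o) (R := R) f
  unfold ci; nlinarith

theorem A_outg_supp (P : PK c) (hw : Clu w o R) (hR : 1 ≤ R) (φ : Fld) {f : Face}
    (hf : 4 * R < dd f o) : A w (outg P w o R φ) f = 0 := by
  rw [A_outg P hw hR]
  have h1 : chi o R f = 0 := cut_eq_zero (by omega)
  have h2 : comm w (chi o R) (Freg P w o R φ) f = 0 := comm_cut_eq_zero (by omega) (Or.inr (by omega))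
  funext h
  simp [sm, ci, h1, h2]

theorem E2_A_outg (P : PK c) (hw : Clu w o R) (hR : 1 ≤ R) (φ : Fld) :
    E2 (bx o (4 * R)) (A w (outg P w o R φ)) ≤ 2 * E2 (bx o (8 * R)) (A w φ)
      + 2 * (1 / (2 * R : ℕ)) ^ 2 * E2 (bx o (8 * R)) (Freg P w o R φ) := by
  rw [A_outg P hw hR]
  refine (E2_add_le _ _ _).trans ?_
  have h1 : E2 (bx o (4 * R)) (sm (fun f => 1 - (ci (chi o R) f) ^ 2) (A w φ))
      ≤ E2 (bx o (8 * R)) (A w φ) := by
    refine (E2_sm_le fun f _ => ?_).trans (E2_mono (bx_mono o (by omega)) _)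
    have h2 := ci_chi_sq (o := o) (R := R) f
    have h3 := sq_nonneg (ci (chi o R) f)
    nlinarith
  have h2 : E2 (bx o (4 * R)) (comm w (chi o R) (Freg P w o R φ))
      ≤ (1 / (2 * R : ℕ)) ^ 2 * E2 (bx o (8 * R)) (Freg P w o R φ) := by
    apply E2_comm_le hw.sq_le (fun f h => cut_lip o (2 * R) (2 * R) f h)
    intro f hf h
    rw [mem_bx] at hf ⊢
    have := dd_nb_le f o h
    omega
  linarith

theorem E2_eps (hw : Clu w o R) (hR : 1 ≤ R) (φ : Fld) :
    E2 (bx o (4 * R)) (eps w o R φ) ≤ (1 / (2 * R : ℕ)) ^ 2 * E2 (bx o (8 * R)) φ := by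
  apply E2_comm_le hw.sq_le (fun f h => cut_lip o (2 * R) (2 * R) f h)
  intro f hf h
  rw [mem_bx] at hf ⊢
  have := dd_nb_le f o h
  omega

end

/-- final algebra of (K) -/
theorem alg_K {x y z α β D2 : ℝ} (hx : 0 ≤ x) (hy : 0 ≤ y) (hz : 0 ≤ z) (hα : 0 ≤ α)
    (hD2 : 0 ≤ D2) (hsmall : D2 * α * β ≤ 1 / 4)
    (h : x ^ 2 ≤ D2 * (α * (x + y)) * (4 * z + y + β * (x + y))) :
    x ≤ 3 * (D2 * α * 5 + 2) * (y + z) := by
  set Q := (D2 * α * 5 + 2) * (y + z) with hQ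
  have hDα : 0 ≤ D2 * α := mul_nonneg hD2 hα
  have hxy : 0 ≤ x + y := add_nonneg hx hy
  have h1 : D2 * (α * (x + y)) * (4 * z + y + β * (x + y))
      = D2 * α * (x + y) * (4 * z + y) + (D2 * α * β) * (x + y) * (x + y) := by ring
  have h2 : (D2 * α * β) * (x + y) * (x + y) ≤ 1 / 4 * (x + y) * (x + y) := by
    have := mul_nonneg hxy hxy
    nlinarith
  have h3 : D2 * α * (x + y) * (4 * z + y) ≤ (x + y) * (D2 * α * 5 * (y + z)) := by
    have h5 : (4 * z + y) ≤ 5 * (y + z) := by linarith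
    have h6 : 0 ≤ D2 * α * (x + y) := mul_nonneg hDα hxy
    nlinarith
  have h4 : x ^ 2 ≤ 1 / 4 * (x + y) * (x + y) + (x + y) * (D2 * α * 5 * (y + z)) := by linarith
  have hQy : y ≤ Q := by
    rw [hQ]; nlinarith [mul_nonneg hDα (add_nonneg hy hz)]
  have h7 : x ^ 2 ≤ (x + y) * (1 / 4 * x + Q) := by
    have : 1 / 4 * y + D2 * α * 5 * (y + z) ≤ Q := by
      rw [hQ]; nlinarith
    nlinarith
  by_contra hc
  push Not at hc
  have hc' : 3 * Q < x := by rw [hQ]; linarith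
  have hxQ : 0 ≤ Q := hy.trans hQy
  nlinarith

theorem exists_M (c Cs : ℝ) : ∃ M : ℕ, 16 ≤ M ∧
    81 * Cs ^ 2 * (1 + 15360 * c ^ 2 * M) * (409600 * c ^ 2 / (M : ℝ) ^ 2) ≤ 1 / 4 := by
  obtain ⟨M, hM⟩ := exists_nat_ge (4 * (81 * Cs ^ 2 * (1 + 15360 * c ^ 2) * (409600 * c ^ 2)) + 16)
  have hA : 0 ≤ 81 * Cs ^ 2 * (1 + 15360 * c ^ 2) * (409600 * c ^ 2) := by positivity
  have hM16 : (16 : ℝ) ≤ M := by linarith
  refine ⟨M, by exact_mod_cast hM16, ?_⟩
  have hM0 : (0 : ℝ) < M := by linarith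
  have h1 : 1 + 15360 * c ^ 2 * (M : ℝ) ≤ (1 + 15360 * c ^ 2) * M := by nlinarith
  calc 81 * Cs ^ 2 * (1 + 15360 * c ^ 2 * M) * (409600 * c ^ 2 / (M : ℝ) ^ 2)
      ≤ 81 * Cs ^ 2 * ((1 + 15360 * c ^ 2) * M) * (409600 * c ^ 2 / (M : ℝ) ^ 2) := by
        gcongr
    _ = (81 * Cs ^ 2 * (1 + 15360 * c ^ 2) * (409600 * c ^ 2)) / M := by
        field_simp
    _ ≤ 1 / 4 := by
        rw [div_le_iff₀ hM0]; linarith

set_option maxHeartbeats 2000000 in
/-- **(K)**, the cluster estimate -/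
theorem Kest {Cs : ℝ} (P : PK c) (hSQ : SQ Cs) : ∃ CK : ℝ, 0 < CK ∧
    ∀ (w : Fld) (o : Face) (R : ℕ), 1 ≤ R → Clu w o R → ∀ φ : Fld,
      E2 (bx o (8 * R)) φ ≤ CK * (E2 (bx o (8 * R)) (Freg P w o R φ)
        + (R : ℝ) ^ 2 * E2 (bx o (8 * R)) (A w φ)) := by
  classical
  obtain ⟨M, hM, hsmall⟩ := exists_M c Cs
  obtain ⟨hCs, hSQ⟩ := hSQ
  set α : ℝ := 1 + 15360 * c ^ 2 * M with hα
  set β : ℝ := 409600 * c ^ 2 / (M : ℝ) ^ 2 with hβ
  have hα0 : 0 ≤ α := by rw [hα]; positivity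
  have hβ0 : 0 ≤ β := by rw [hβ]; positivity
  refine ⟨2 * (3 * (81 * Cs ^ 2 * α * 5 + 2)) + 2, by positivity, ?_⟩
  intro w o R hR hw φ
  have hRr : (1 : ℝ) ≤ R := by exact_mod_cast hR
  have hR0 : (0 : ℝ) < R := by linarith
  have hMr : (16 : ℝ) ≤ M := by exact_mod_cast hM
  have hM0 : (0 : ℝ) < M := by linarith
  set ψ := outg P w o R φ with hψ
  set F := Freg P w o R φ with hF
  set ε := eps w o R φ with hε
  set x := E2 (bx o (8 * R)) ψ with hx
  set y := E2 (bx o (8 * R)) F with hy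
  set g2 := E2 (bx o (8 * R)) (A w φ) with hg2
  set u2 := E2 (bx o (8 * R)) φ with hu2
  set e2 := E2 (bx o (4 * R)) ε with he2
  have hx0 : 0 ≤ x := E2_nonneg _ _
  have hy0 : 0 ≤ y := E2_nonneg _ _
  have hg0 : 0 ≤ g2 := E2_nonneg _ _
  have hu0 : 0 ≤ u2 := E2_nonneg _ _
  have he0 : 0 ≤ e2 := E2_nonneg _ _
  -- u2 ≤ 2x + 2y
  have hu : u2 ≤ 2 * x + 2 * y := by
    have e1 : φ = ψ + sm (ci (chi o R)) F := by rw [hψ, outg]; abel
    have h1 := E2_add_le (bx o (8 * R)) ψ (sm (ci (chi o R)) F)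
    rw [← e1] at h1
    have h2 : E2 (bx o (8 * R)) (sm (ci (chi o R)) F) ≤ y := E2_sm_le fun f _ => ci_chi_sq f
    linarith
  -- e2 ≤ u2 / (4 R²)
  have he : 4 * (R : ℝ) ^ 2 * e2 ≤ u2 := by
    have h1 := E2_eps hw hR φ
    push_cast at h1
    have h2 : e2 ≤ (1 / (2 * (R : ℝ))) ^ 2 * u2 := h1
    have h3 : (1 / (2 * (R : ℝ))) ^ 2 * u2 = u2 / (4 * R ^ 2) := by field_simp; ring
    rw [h3, le_div_iff₀ (by positivity)] at h2
    linarith
  -- the large cut-off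
  set T : ℕ := M * R with hT
  have hTR : 16 * R ≤ T := by rw [hT]; exact Nat.mul_le_mul_right R hM
  have hT0 : 0 < T := by omega
  have hTr : (T : ℝ) = M * R := by rw [hT]; push_cast; ring
  have hTr0 : (0 : ℝ) < T := by exact_mod_cast hT0
  have hT1 : (1 : ℝ) ≤ T := by exact_mod_cast hT0
  set χT := cut o T T with hχT
  set Φ := sm χT ψ with hΦ
  set J := bx o (2 * T) with hJ
  have hAΦ : A w Φ = sm χT (A w ψ) + comm w χT ψ := A_sm w χT ψ
  have hsupp1 : ∀ f, f ∉ J → Φ f = 0 := by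
    intro f hf
    rw [hJ, mem_bx] at hf
    have : χT f = 0 := cut_eq_zero (by omega)
    funext h
    simp [hΦ, sm, this]
  have hsupp2 : ∀ f, f ∉ J → A w Φ f = 0 := by
    intro f hf
    rw [hJ, mem_bx] at hf
    have h1 : χT f = 0 := cut_eq_zero (by omega)
    have h2 : comm w χT ψ f = 0 := comm_cut_eq_zero hT0 (Or.inr (by omega))
    rw [hAΦ]
    funext h
    simp [sm, h1, h2]
  have hmain := hSQ w Φ o (8 * R) J hw.sym hw.isPlus hsupp1 hsupp2
  have hxΦ : E2 (bx o (8 * R)) Φ = x := by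
    apply E2_congr
    intro f hf
    rw [mem_bx] at hf
    funext h
    simp [hΦ, sm, hχT, cut_eq_one hT0 (show dd f o ≤ T by omega)]
  rw [hxΦ] at hmain
  -- (3)
  have hN : E2 J Φ ≤ x + 7680 * c ^ 2 * M * u2 := by
    have h1 : E2 J Φ ≤ E2 J ψ := E2_sm_le fun f _ => cut_sq_le _ _ _ _
    have h2 : E2 J ψ = x + E2 (J \ bx o (8 * R)) ψ :=
      E2_split (bx_mono o (by omega)) ψ
    have h3 : E2 (J \ bx o (8 * R)) ψ = E2 (J \ bx o (8 * R)) (cv P.K (bx o (4 * R)) ε) := by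
      refine sum_congr rfl fun f hf => ?_
      rw [mem_sdiff, mem_bx, mem_bx] at hf
      rw [hψ, outg_far P φ (by omega)]
      simp [nsq]
      rfl
    have h4 := E2_cv_far P o (4 * R) (2 * T) ε
    have e8 : 2 * (4 * R) = 8 * R := by ring
    rw [e8] at h4
    push_cast at h4
    have h5 : 2048 * c ^ 2 * (4 * (R : ℝ) + 1) * (2 * (T : ℝ) + 1) * e2
        ≤ 7680 * c ^ 2 * M * u2 := by
      have h6 : 2048 * c ^ 2 * (4 * (R : ℝ) + 1) * (2 * (T : ℝ) + 1) * e2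
          ≤ 2048 * c ^ 2 * (5 * R) * (3 * T) * e2 := by
        gcongr <;> linarith
      have h7 : 2048 * c ^ 2 * (5 * (R : ℝ)) * (3 * T) * e2
          = 7680 * c ^ 2 * M * (4 * R ^ 2 * e2) := by rw [hTr]; ring
      have h8 : 7680 * c ^ 2 * M * (4 * (R : ℝ) ^ 2 * e2) ≤ 7680 * c ^ 2 * M * u2 := by gcongr
      linarith
    linarith
  -- (4)
  have hn : (R : ℝ) ^ 2 * E2 J (A w Φ) ≤ 4 * ((R : ℝ) ^ 2 * g2) + y + 204800 * c ^ 2 / M ^ 2 * u2 := by
    have h1 : E2 J (A w Φ) ≤ 2 * E2 J (sm χT (A w ψ)) + 2 * E2 J (comm w χT ψ) := by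
      rw [hAΦ]; exact E2_add_le _ _ _
    have h2 : E2 J (sm χT (A w ψ)) ≤ 2 * g2 + 2 * (1 / (2 * R : ℕ)) ^ 2 * y := by
      calc E2 J (sm χT (A w ψ)) ≤ E2 J (A w ψ) := E2_sm_le fun f _ => cut_sq_le _ _ _ _
        _ = E2 (bx o (4 * R)) (A w ψ) := by
            apply E2_of_supp (bx_mono o (by omega))
            intro f hf
            rw [mem_bx] at hf
            exact A_outg_supp P hw hR φ (by omega)
        _ ≤ _ := E2_A_outg P hw hR φ
    have h3 : E2 J (comm w χT ψ) ≤ (1 / T) ^ 2 * (102400 * c ^ 2 * u2) := by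
      have h4 : E2 J (comm w χT ψ) = E2 (J \ bx o (T - 1)) (comm w χT ψ) := by
        rw [E2_split (bx_mono o (show T - 1 ≤ 2 * T by omega)) (comm w χT ψ)]
        have : E2 (bx o (T - 1)) (comm w χT ψ) = 0 := by
          apply sum_eq_zero
          intro f hf
          rw [mem_bx] at hf
          have h0 : comm w χT ψ f = 0 := comm_cut_eq_zero hT0 (Or.inl (by omega))
          rw [h0, nsq_zero]
        rw [this, zero_add]
      have h5 : E2 (J \ bx o (T - 1)) (comm w χT ψ)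
          ≤ (1 / T) ^ 2 * E2 (bx o (2 * T + 1) \ bx o (T - 2)) ψ := by
        apply E2_comm_le hw.sq_le (fun f h => cut_lip o T T f h)
        intro f hf h
        rw [mem_sdiff, hJ, mem_bx, mem_bx] at hf
        rw [mem_sdiff, mem_bx, mem_bx]
        have h6 := dd_nb_le f o h
        have h7 := dd_le_nb f o h
        omega
      have h6 : E2 (bx o (2 * T + 1) \ bx o (T - 2)) ψ ≤ 102400 * c ^ 2 * u2 := by
        have h7 : ∀ f ∈ bx o (2 * T + 1) \ bx o (T - 2),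
            nsq (ψ f) ≤ 6400 * c ^ 2 * R ^ 2 / T ^ 2 * e2 := by
          intro f hf
          rw [mem_sdiff, mem_bx, mem_bx] at hf
          have hd : T - 1 ≤ dd f o := by omega
          have h8 : nsq (ψ f) = nsq (cv P.K (bx o (4 * R)) ε f) := by
            rw [hψ, outg_far P φ (by omega)]
            simp [nsq]
            rfl
          have h9 := nsq_cv_far P o (4 * R) ε f (by omega)
          rw [h8]
          refine h9.trans (mul_le_mul_of_nonneg_right ?_ he0)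
          push_cast
          have h10 : (T : ℝ) ≤ (dd f o : ℝ) + 1 := by
            have : T ≤ dd f o + 1 := by omega
            exact_mod_cast this
          apply div_le_div₀ (by positivity) _ (by positivity)
          · exact pow_le_pow_left₀ (by positivity) h10 2
          · have : (4 * (R : ℝ) + 1) ^ 2 ≤ (5 * R) ^ 2 :=
              pow_le_pow_left₀ (by positivity) (by linarith) 2
            nlinarith [sq_nonneg c]
        have hcard : ((bx o (2 * T + 1) \ bx o (T - 2)).card : ℝ) ≤ 64 * T ^ 2 := by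
          have h11 : ((bx o (2 * T + 1) \ bx o (T - 2)).card : ℝ) ≤ ((bx o (2 * T + 1)).card : ℝ) := by
            exact_mod_cast card_le_card sdiff_subset
          have h12 := card_bx o (2 * T + 1)
          push_cast at h12
          nlinarith
        calc E2 (bx o (2 * T + 1) \ bx o (T - 2)) ψ
            ≤ ∑ _f ∈ bx o (2 * T + 1) \ bx o (T - 2), 6400 * c ^ 2 * R ^ 2 / T ^ 2 * e2 :=
              sum_le_sum h7
          _ = ((bx o (2 * T + 1) \ bx o (T - 2)).card : ℝ) * (6400 * c ^ 2 * R ^ 2 / T ^ 2 * e2) := by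
              rw [sum_const, nsmul_eq_mul]
          _ ≤ 64 * (T : ℝ) ^ 2 * (6400 * c ^ 2 * R ^ 2 / T ^ 2 * e2) := by gcongr
          _ = 102400 * c ^ 2 * (4 * R ^ 2 * e2) := by field_simp; ring
          _ ≤ 102400 * c ^ 2 * u2 := by gcongr
      rw [h4]
      refine h5.trans ?_
      gcongr
    have h13 : (R : ℝ) ^ 2 * (2 * (1 / ((2 * R : ℕ) : ℝ)) ^ 2 * y) = y / 2 := by
      push_cast; field_simp
    have h14 : (R : ℝ) ^ 2 * ((1 / T) ^ 2 * (102400 * c ^ 2 * u2)) = 102400 * c ^ 2 / M ^ 2 * u2 := by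
      rw [hTr]; field_simp
    have hR2 : 0 ≤ (R : ℝ) ^ 2 := sq_nonneg _
    have h15 : (R : ℝ) ^ 2 * E2 J (A w Φ) ≤ (R : ℝ) ^ 2 * (2 * (2 * g2 + 2 * (1 / (2 * R : ℕ)) ^ 2 * y)
        + 2 * ((1 / T) ^ 2 * (102400 * c ^ 2 * u2))) :=
      mul_le_mul_of_nonneg_left (by linarith) hR2
    have h16 : (R : ℝ) ^ 2 * (2 * (2 * g2 + 2 * (1 / (2 * R : ℕ)) ^ 2 * y)
        + 2 * ((1 / T) ^ 2 * (102400 * c ^ 2 * u2)))
        = 4 * (R ^ 2 * g2) + 2 * ((R : ℝ) ^ 2 * (2 * (1 / ((2 * R : ℕ) : ℝ)) ^ 2 * y))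
          + 2 * ((R : ℝ) ^ 2 * ((1 / T) ^ 2 * (102400 * c ^ 2 * u2))) := by ring
    rw [h16, h13, h14] at h15
    have h17 : 2 * (102400 * c ^ 2 / (M : ℝ) ^ 2 * u2) = 204800 * c ^ 2 / M ^ 2 * u2 := by ring
    linarith
  -- combine
  set N2 := E2 J Φ with hN2
  set n2 := E2 J (A w Φ) with hn2
  have hN20 : 0 ≤ N2 := E2_nonneg _ _
  have hn20 : 0 ≤ n2 := E2_nonneg _ _
  have hsq : x ^ 2 ≤ 81 * Cs ^ 2 * N2 * ((R : ℝ) ^ 2 * n2) := by
    have h1 : x ≤ Cs * (9 * R) * (Real.sqrt N2 * Real.sqrt n2) := by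
      refine hmain.trans ?_
      apply mul_le_mul_of_nonneg_right _ (by positivity)
      push_cast
      apply mul_le_mul_of_nonneg_left _ hCs
      linarith
    have h2 : x ^ 2 ≤ (Cs * (9 * R) * (Real.sqrt N2 * Real.sqrt n2)) ^ 2 :=
      pow_le_pow_left₀ hx0 h1 2
    have h3 : (Cs * (9 * R) * (Real.sqrt N2 * Real.sqrt n2)) ^ 2
        = 81 * Cs ^ 2 * (Real.sqrt N2 ^ 2) * ((R : ℝ) ^ 2 * Real.sqrt n2 ^ 2) := by ring
    rw [h3, Real.sq_sqrt hN20, Real.sq_sqrt hn20] at h2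
    exact h2
  have hNα : N2 ≤ α * (x + y) := by
    have h1 : 7680 * c ^ 2 * M * u2 ≤ 7680 * c ^ 2 * M * (2 * x + 2 * y) := by gcongr
    have h2 : α * (x + y) = x + y + 7680 * c ^ 2 * M * (2 * x + 2 * y) := by rw [hα]; ring
    linarith
  have hnβ : (R : ℝ) ^ 2 * n2 ≤ 4 * ((R : ℝ) ^ 2 * g2) + y + β * (x + y) := by
    have h1 : 204800 * c ^ 2 / M ^ 2 * u2 ≤ 204800 * c ^ 2 / M ^ 2 * (2 * x + 2 * y) := by gcongr
    have h2 : β * (x + y) = 204800 * c ^ 2 / M ^ 2 * (2 * x + 2 * y) := by rw [hβ]; ring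
    linarith
  have hfin : x ^ 2 ≤ 81 * Cs ^ 2 * (α * (x + y)) * (4 * ((R : ℝ) ^ 2 * g2) + y + β * (x + y)) := by
    refine hsq.trans ?_
    have hR2n : 0 ≤ (R : ℝ) ^ 2 * n2 := by positivity
    apply mul_le_mul _ hnβ hR2n (by positivity)
    exact mul_le_mul_of_nonneg_left hNα (by positivity)
  have hz0 : 0 ≤ (R : ℝ) ^ 2 * g2 := by positivity
  have hres := alg_K hx0 hy0 hz0 hα0 (by positivity) hsmall hfin
  have hyz : 0 ≤ y + (R : ℝ) ^ 2 * g2 := add_nonneg hy0 hz0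
  nlinarith

end Crest.Agent.R165.Cl7x999
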