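import Crest.Agent.R165.Cl7b_999

/-!
# Row 165, block R, leaf R7, part c: exact solutions near a cluster

`ex1c`: `|e|_{B_s} ≤ C (s/r) |e|_{B_r}` for `A e = 0` on `B_r`, all `R ≤ s ≤ r`, constants absolute
(they depend only on the constants of the plane kernel and of the square trick).
-/

set_option autoImplicit false

noncomputable section

namespace Crest.Agent.R165.Cl7x999

open Finset Crest.Agent.R165.Tr1x40 Crest.Agent.R165.Schurx811

variable {c : ℝ}

set_option maxHeartbeats 1000000 in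
/-- response of the cluster to an exact solution -/
theorem resp {Cs : ℝ} (P : PK c) (hSQ : SQ Cs) : ∃ C : ℝ, 0 < C ∧ ∃ M : ℕ, 16 ≤ M ∧
    ∀ (w : Fld) (o : Face) (R r : ℕ), 1 ≤ R → M * R ≤ r → Clu w o R → ∀ e : Fld,
      (∀ f, dd f o ≤ r → A w e f = 0) →
      (r : ℝ) ^ 2 * E2 (bx o (8 * R)) e ≤ C * (R : ℝ) ^ 2 * E2 (bx o r) e ∧
      E2 (bx o r) (Freg P w o R e) ≤ C * E2 (bx o r) e := by
  obtain ⟨CK, hCK, hK⟩ := Kest P hSQ
  set CI : ℝ := 102400 * c ^ 2 + 100 with hCI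
  have hCI0 : 0 < CI := by rw [hCI]; positivity
  obtain ⟨M, hM⟩ := exists_nat_ge (2 * (81 * 60000 * c ^ 2 * CK * CI) + 16)
  have hA0 : 0 ≤ 81 * 60000 * c ^ 2 * CK * CI := by positivity
  have hM16 : (16 : ℝ) ≤ M := by linarith
  have hM16' : 16 ≤ M := by exact_mod_cast hM16
  refine ⟨324 * CK * CI + 2 + 60000 * c ^ 2 * (324 * CK * CI), by positivity, M, hM16', ?_⟩
  intro w o R r hR hr hw e he
  have hRr : (1 : ℝ) ≤ R := by exact_mod_cast hR
  have hR0 : (0 : ℝ) < R := by linarith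
  have hr16 : 16 * R ≤ r := (Nat.mul_le_mul_right R hM16').trans hr
  have hrr : (M : ℝ) * R ≤ r := by exact_mod_cast hr
  have hr16' : 16 * (R : ℝ) ≤ r := by exact_mod_cast hr16
  have hr0 : (0 : ℝ) < r := by linarith
  set F := Freg P w o R e with hF
  set ε := eps w o R e with hε
  set u2 := E2 (bx o (8 * R)) e with hu2
  set E := E2 (bx o r) e with hE
  have hu0 : 0 ≤ u2 := E2_nonneg _ _
  have hE0 : 0 ≤ E := E2_nonneg _ _
  have hAF : ∀ f, dd f o ≤ r → A wc F f = 0 := by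
    intro f hf
    rw [hF, A_Freg P hw hR]
    funext h
    simp [sm, he f hf]
  have h1 : u2 ≤ CK * E2 (bx o (8 * R)) F := by
    have h2 := hK w o R hR hw e
    have h3 : E2 (bx o (8 * R)) (A w e) = 0 := by
      apply sum_eq_zero
      intro f hf
      rw [mem_bx] at hf
      rw [he f (by omega), nsq_zero]
    rw [h3, mul_zero, add_zero] at h2
    exact h2
  have h2 := interior P o (8 * R) r (by omega) F hAF
  have he2 : 4 * (R : ℝ) ^ 2 * E2 (bx o (4 * R)) ε ≤ u2 := by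
    have h1 := E2_eps hw hR e
    push_cast at h1
    have h2 : E2 (bx o (4 * R)) ε ≤ (1 / (2 * (R : ℝ))) ^ 2 * u2 := h1
    have h3 : (1 / (2 * (R : ℝ))) ^ 2 * u2 = u2 / (4 * R ^ 2) := by field_simp; ring
    rw [h3, le_div_iff₀ (by positivity)] at h2
    linarith
  have hcv : E2 (bx o r) (cv P.K (bx o (4 * R)) ε) * R ≤ 30000 * c ^ 2 * r * u2 := by
    have h3 := E2_cv_bx P o (4 * R) r ε
    push_cast at h3
    have he0 := E2_nonneg (bx o (4 * R)) ε
    have h4 : 12000 * c ^ 2 * (4 * (R : ℝ) + 1) * (4 * R + r + 1) * E2 (bx o (4 * R)) ε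
        ≤ 12000 * c ^ 2 * (5 * R) * (2 * r) * E2 (bx o (4 * R)) ε := by
      gcongr <;> linarith
    have h5 : 12000 * c ^ 2 * (5 * (R : ℝ)) * (2 * r) * E2 (bx o (4 * R)) ε * R
        = 30000 * c ^ 2 * r * (4 * R ^ 2 * E2 (bx o (4 * R)) ε) := by ring
    have h6 : 30000 * c ^ 2 * r * (4 * (R : ℝ) ^ 2 * E2 (bx o (4 * R)) ε)
        ≤ 30000 * c ^ 2 * r * u2 := by gcongr
    nlinarith [mul_le_mul_of_nonneg_right (h3.trans h4) hR0.le]
  have hFr : E2 (bx o r) F * R ≤ 2 * E * R + 60000 * c ^ 2 * r * u2 := by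
    have h3 : E2 (bx o r) F ≤ 2 * E2 (bx o r) (sm (ci (chi o R)) e)
        + 2 * E2 (bx o r) (cv P.K (bx o (4 * R)) ε) := E2_add_le _ _ _
    have h4 : E2 (bx o r) (sm (ci (chi o R)) e) ≤ E := E2_sm_le fun f _ => ci_chi_sq f
    nlinarith
  have hFr0 : 0 ≤ E2 (bx o r) F := E2_nonneg _ _
  -- u2 ≤ CK CI (9R/r)² E2 F
  have h3 : (r : ℝ) ^ 2 * u2 ≤ 81 * CK * CI * R ^ 2 * E2 (bx o r) F := by
    have h4 : (((8 * R : ℕ) : ℝ) + 1) / (r + 1) ≤ 9 * R / r := by
      push_cast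
      rw [div_le_div_iff₀ (by positivity) hr0]
      nlinarith
    have h5 : ((((8 * R : ℕ) : ℝ) + 1) / (r + 1)) ^ 2 ≤ (9 * R / r) ^ 2 :=
      pow_le_pow_left₀ (by positivity) h4 2
    have h6 : u2 ≤ CK * (CI * (9 * R / r) ^ 2 * E2 (bx o r) F) := by
      refine h1.trans (mul_le_mul_of_nonneg_left (h2.trans ?_) hCK.le)
      gcongr
    calc (r : ℝ) ^ 2 * u2 ≤ r ^ 2 * (CK * (CI * (9 * R / r) ^ 2 * E2 (bx o r) F)) := by gcongr
      _ = 81 * CK * CI * R ^ 2 * E2 (bx o r) F := by field_simp; ring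
  -- absorb
  have h4 : (r : ℝ) ^ 2 * u2 ≤ 324 * CK * CI * R ^ 2 * E := by
    have h5 : 81 * CK * CI * (R : ℝ) ^ 2 * E2 (bx o r) F
        ≤ 81 * CK * CI * R * (2 * E * R + 60000 * c ^ 2 * r * u2) := by
      have : 81 * CK * CI * (R : ℝ) ^ 2 * E2 (bx o r) F
          = 81 * CK * CI * R * (E2 (bx o r) F * R) := by ring
      rw [this]; gcongr
    have h6 : 81 * CK * CI * R * (2 * E * R + 60000 * c ^ 2 * r * u2)
        = 162 * CK * CI * R ^ 2 * E + (81 * 60000 * c ^ 2 * CK * CI) * R * (r * u2) := by ring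
    have h7 : (81 * 60000 * c ^ 2 * CK * CI) * (R : ℝ) ≤ r / 2 := by nlinarith
    have h8 : (81 * 60000 * c ^ 2 * CK * CI) * (R : ℝ) * (r * u2) ≤ r / 2 * (r * u2) := by
      gcongr
    nlinarith
  have hrest : 0 ≤ 60000 * c ^ 2 * (324 * CK * CI) := by positivity
  have hKI : 0 ≤ 324 * CK * CI := by positivity
  constructor
  · have h9 : 0 ≤ (R : ℝ) ^ 2 * E := by positivity
    nlinarith
  · have h5 : 60000 * c ^ 2 * r * u2 ≤ 60000 * c ^ 2 * (324 * CK * CI) * E * R := by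
      have h6 : (r : ℝ) * u2 ≤ 324 * CK * CI * E * R := by
        have h7 : (r : ℝ) * (r * u2) ≤ r * (324 * CK * CI * E * R) := by
          have h8 : 324 * CK * CI * (R : ℝ) ^ 2 * E ≤ r * (324 * CK * CI * E * R) := by
            have : 0 ≤ 324 * CK * CI * E * R := by positivity
            nlinarith
          nlinarith
        exact le_of_mul_le_mul_left h7 hr0
      calc 60000 * c ^ 2 * r * u2 = 60000 * c ^ 2 * (r * u2) := by ring
        _ ≤ 60000 * c ^ 2 * (324 * CK * CI * E * R) := by gcongr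
        _ = _ := by ring
    have h6 : E2 (bx o r) F * R ≤ (2 * E + 60000 * c ^ 2 * (324 * CK * CI) * E) * R := by
      nlinarith
    have h7 := le_of_mul_le_mul_right h6 hR0
    nlinarith

set_option maxHeartbeats 1000000 in
/-- **(EX1c)**: bulk growth rate of exact solutions around a cluster, at all scales `≥ R` -/
theorem ex1c {Cs : ℝ} (P : PK c) (hSQ : SQ Cs) : ∃ C : ℝ, 0 < C ∧
    ∀ (w : Fld) (o : Face) (R s r : ℕ), 1 ≤ R → R ≤ s → s ≤ r → Clu w o R → ∀ e : Fld,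
      (∀ f, dd f o ≤ r → A w e f = 0) →
      E2 (bx o s) e ≤ C * ((s : ℝ) / r) ^ 2 * E2 (bx o r) e := by
  obtain ⟨C1, hC1, M, hM, hresp⟩ := resp P hSQ
  set CI : ℝ := 102400 * c ^ 2 + 100 with hCI
  have hCI0 : 0 < CI := by rw [hCI]; positivity
  -- the main case
  have main : ∀ (w : Fld) (o : Face) (R s r : ℕ), 1 ≤ R → 8 * R ≤ s → s ≤ r → M * R ≤ r →
      Clu w o R → ∀ e : Fld, (∀ f, dd f o ≤ r → A w e f = 0) →
      E2 (bx o s) e ≤ (C1 + 2 * (4 * CI * C1) + 2 * (30000 * c ^ 2 * C1)) * ((s : ℝ) / r) ^ 2 *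
        E2 (bx o r) e := by
    intro w o R s r hR hs hsr hr hw e he
    obtain ⟨hu, hFr⟩ := hresp w o R r hR hr hw e he
    have hRr : (1 : ℝ) ≤ R := by exact_mod_cast hR
    have hR0 : (0 : ℝ) < R := by linarith
    have hs' : 8 * (R : ℝ) ≤ s := by exact_mod_cast hs
    have hsr' : (s : ℝ) ≤ r := by exact_mod_cast hsr
    have hs0 : (0 : ℝ) < s := by linarith
    have hr0 : (0 : ℝ) < r := by linarith
    set F := Freg P w o R e with hF
    set ε := eps w o R e with hε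
    set u2 := E2 (bx o (8 * R)) e with hu2
    set E := E2 (bx o r) e with hE
    have hu0 : 0 ≤ u2 := E2_nonneg _ _
    have hE0 : 0 ≤ E := E2_nonneg _ _
    have hAF : ∀ f, dd f o ≤ r → A wc F f = 0 := by
      intro f hf
      rw [hF, A_Freg P hw hR]
      funext h
      simp [sm, he f hf]
    have hint := interior P o s r hsr F hAF
    have he2 : 4 * (R : ℝ) ^ 2 * E2 (bx o (4 * R)) ε ≤ u2 := by
      have h1 := E2_eps hw hR e
      push_cast at h1
      have h2 : E2 (bx o (4 * R)) ε ≤ (1 / (2 * (R : ℝ))) ^ 2 * u2 := h1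
      have h3 : (1 / (2 * (R : ℝ))) ^ 2 * u2 = u2 / (4 * R ^ 2) := by field_simp; ring
      rw [h3, le_div_iff₀ (by positivity)] at h2
      linarith
    have hcv : E2 (bx o s) (cv P.K (bx o (4 * R)) ε) * R ≤ 30000 * c ^ 2 * s * u2 := by
      have h3 := E2_cv_bx P o (4 * R) s ε
      push_cast at h3
      have he0 := E2_nonneg (bx o (4 * R)) ε
      have h4 : 12000 * c ^ 2 * (4 * (R : ℝ) + 1) * (4 * R + s + 1) * E2 (bx o (4 * R)) ε
          ≤ 12000 * c ^ 2 * (5 * R) * (2 * s) * E2 (bx o (4 * R)) ε := by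
        gcongr <;> linarith
      have h5 : 12000 * c ^ 2 * (5 * (R : ℝ)) * (2 * s) * E2 (bx o (4 * R)) ε * R
          = 30000 * c ^ 2 * s * (4 * R ^ 2 * E2 (bx o (4 * R)) ε) := by ring
      have h6 : 30000 * c ^ 2 * s * (4 * (R : ℝ) ^ 2 * E2 (bx o (4 * R)) ε)
          ≤ 30000 * c ^ 2 * s * u2 := by gcongr
      nlinarith [mul_le_mul_of_nonneg_right (h3.trans h4) hR0.le]
    -- u2 bound
    have hu' : u2 ≤ C1 * ((R : ℝ) / r) ^ 2 * E := by
      rw [div_pow, ← sub_nonneg]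
      have h1 : C1 * ((R : ℝ) ^ 2 / r ^ 2) * E - u2 = (C1 * R ^ 2 * E - r ^ 2 * u2) / r ^ 2 := by
        field_simp
      rw [h1]
      exact div_nonneg (by linarith) (by positivity)
    have hRs : ((R : ℝ) / r) ^ 2 ≤ ((s : ℝ) / r) ^ 2 := by
      apply pow_le_pow_left₀ (by positivity)
      gcongr
      linarith
    -- split
    have h1 : E2 (bx o s) e = u2 + E2 (bx o s \ bx o (8 * R)) e :=
      E2_split (bx_mono o hs) e
    have h2 : E2 (bx o s \ bx o (8 * R)) e ≤ 2 * E2 (bx o s) F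
        + 2 * E2 (bx o s) (cv P.K (bx o (4 * R)) ε) := by
      have h3 : E2 (bx o s \ bx o (8 * R)) e
          = E2 (bx o s \ bx o (8 * R)) (F - cv P.K (bx o (4 * R)) ε) := by
        apply E2_congr
        intro f hf
        rw [mem_sdiff, mem_bx, mem_bx] at hf
        have h0 : chi o R f = 0 := cut_eq_zero (by omega)
        funext h
        simp [hF, Freg, sm, ci, h0, hε]
      rw [h3]
      refine (E2_sub_le _ _ _).trans ?_
      have h4 := E2_mono (sdiff_subset : bx o s \ bx o (8 * R) ⊆ bx o s) F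
      have h5 := E2_mono (sdiff_subset : bx o s \ bx o (8 * R) ⊆ bx o s)
        (cv P.K (bx o (4 * R)) ε)
      linarith
    have h3 : E2 (bx o s) F ≤ 4 * CI * C1 * ((s : ℝ) / r) ^ 2 * E := by
      have h4 : ((s : ℝ) + 1) / (r + 1) ≤ 2 * (s / r) := by
        rw [← mul_div_assoc, div_le_div_iff₀ (by positivity) hr0]
        nlinarith
      have h5 : (((s : ℝ) + 1) / (r + 1)) ^ 2 ≤ (2 * (s / r)) ^ 2 :=
        pow_le_pow_left₀ (by positivity) h4 2
      calc E2 (bx o s) F ≤ CI * (((s : ℝ) + 1) / (r + 1)) ^ 2 * E2 (bx o r) F := hint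
        _ ≤ CI * (2 * (s / r)) ^ 2 * (C1 * E) := by
            apply mul_le_mul _ hFr (E2_nonneg _ _) (by positivity)
            exact mul_le_mul_of_nonneg_left h5 hCI0.le
        _ = _ := by ring
    have h4 : E2 (bx o s) (cv P.K (bx o (4 * R)) ε) ≤ 30000 * c ^ 2 * C1 * ((s : ℝ) / r) ^ 2 * E := by
      have h5 : 30000 * c ^ 2 * s * u2 ≤ 30000 * c ^ 2 * s * (C1 * ((R : ℝ) / r) ^ 2 * E) := by
        gcongr
      have h6 : 30000 * c ^ 2 * s * (C1 * ((R : ℝ) / r) ^ 2 * E)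
          ≤ 30000 * c ^ 2 * C1 * ((s : ℝ) / r) ^ 2 * E * R := by
        have e1 : 30000 * c ^ 2 * s * (C1 * ((R : ℝ) / r) ^ 2 * E)
            = 30000 * c ^ 2 * C1 * E * (R / r ^ 2) * (s * R) := by field_simp
        have e2 : 30000 * c ^ 2 * C1 * ((s : ℝ) / r) ^ 2 * E * R
            = 30000 * c ^ 2 * C1 * E * (R / r ^ 2) * (s * s) := by field_simp
        rw [e1, e2]
        gcongr
        linarith
      exact le_of_mul_le_mul_right (hcv.trans (h5.trans h6)) hR0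
    have h5 : u2 ≤ C1 * ((s : ℝ) / r) ^ 2 * E := hu'.trans (by gcongr)
    rw [h1]
    nlinarith
  refine ⟨64 * (C1 + 2 * (4 * CI * C1) + 2 * (30000 * c ^ 2 * C1)) + M ^ 2, by positivity, ?_⟩
  intro w o R s r hR hRs hsr hw e he
  set C := C1 + 2 * (4 * CI * C1) + 2 * (30000 * c ^ 2 * C1) with hC
  have hC0 : 0 < C := by rw [hC]; positivity
  have hRr : (1 : ℝ) ≤ R := by exact_mod_cast hR
  have hR0 : (0 : ℝ) < R := by linarith
  have hs' : (R : ℝ) ≤ s := by exact_mod_cast hRs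
  have hsr' : (s : ℝ) ≤ r := by exact_mod_cast hsr
  have hs0 : (0 : ℝ) < s := by linarith
  have hr0 : (0 : ℝ) < r := by linarith
  have hM0 : (0 : ℝ) ≤ M := Nat.cast_nonneg M
  have hE0 : 0 ≤ E2 (bx o r) e := E2_nonneg _ _
  by_cases hr : M * R ≤ r
  · by_cases hs8 : 8 * R ≤ s
    · refine (main w o R s r hR hs8 hsr hr hw e he).trans ?_
      gcongr
      nlinarith [sq_nonneg (M : ℝ)]
    · have h1 : E2 (bx o s) e ≤ E2 (bx o (8 * R)) e := E2_mono (bx_mono o (by omega)) e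
      have h2 := main w o R (8 * R) r hR le_rfl (by
        have := Nat.mul_le_mul_right R hM; omega) hr hw e he
      refine h1.trans (h2.trans ?_)
      push_cast
      have h3 : (8 * (R : ℝ) / r) ^ 2 ≤ 64 * ((s : ℝ) / r) ^ 2 := by
        rw [show 64 * ((s : ℝ) / r) ^ 2 = (8 * s / r) ^ 2 by ring]
        apply pow_le_pow_left₀ (by positivity)
        gcongr
      calc C * (8 * (R : ℝ) / r) ^ 2 * E2 (bx o r) e
          ≤ C * (64 * ((s : ℝ) / r) ^ 2) * E2 (bx o r) e := by gcongr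
        _ = 64 * C * ((s : ℝ) / r) ^ 2 * E2 (bx o r) e := by ring
        _ ≤ _ := by
            gcongr
            nlinarith [sq_nonneg (M : ℝ)]
  · have h1 : E2 (bx o s) e ≤ E2 (bx o r) e := E2_mono (bx_mono o hsr) e
    have h2 : (r : ℝ) ≤ M * s := by
      have : r ≤ M * R := by omega
      have h3 : (r : ℝ) ≤ M * R := by exact_mod_cast this
      nlinarith
    have h3 : 1 ≤ (M : ℝ) ^ 2 * ((s : ℝ) / r) ^ 2 := by
      rw [← mul_pow, ← mul_div_assoc]
      apply one_le_pow₀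
      rw [le_div_iff₀ hr0]; linarith
    have h4 : 0 ≤ 64 * C * ((s : ℝ) / r) ^ 2 := by positivity
    nlinarith

end Crest.Agent.R165.Cl7x999
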