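import Mathlib
import Crest.Agent.R165.Schur_811

/-!
# Local gap without branch point (row 165, block R, leaf R-c; helper811)

Half-edge fields `φ : ℤ × ℤ → Fin 4 → ℝ`, components in the order `S, E, N, W`.
`Aop yE yN` is the fermionic matrix `A` of TEXT 824 with edge weights `yE`, `yN`.

* `tplus`   : the exact identity (T+): `∑ |A₀φ|² - |φ|² x² + x²|φ|_bd² = 2⟨A₀φ, Aφ⟩ - |Aφ|²`.
* `trace_le`: boundary trace `x²|φ|_bd² ≤ 2 x⁻¹ |φ| |Aφ|`.
* `gap`     : `|φ| ≤ K r |Aφ|` for `φ` supported in a box of radius `r`, weights gauge equivalent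
  to the constant critical weight except on edges with weight `0` which form an upper Ahlfors
  regular layer; `K` depends only on the constants of the plane kernel and of the layer.
-/

namespace Crest.Agent.R165.Gapx811

open Finset BigOperators Crest.Agent.R165.Schurx811

/-- Critical weight. -/
noncomputable def xc : ℝ := Real.sqrt 2 - 1

theorem xc_sq : xc ^ 2 = 1 - 2 * xc := by
  unfold xc
  have : Real.sqrt 2 ^ 2 = 2 := Real.sq_sqrt (by norm_num)
  ring_nf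
  rw [this]; ring

theorem xc_pos : 0 < xc := by
  unfold xc
  have : (1:ℝ) < Real.sqrt 2 := by
    rw [show (1:ℝ) = Real.sqrt 1 by simp]
    exact Real.sqrt_lt_sqrt (by norm_num) (by norm_num)
  linarith

theorem xc_lt : xc < 1/2 := by
  have h := xc_sq
  have h0 := xc_pos
  nlinarith

theorem xc_gt : 2/5 < xc := by
  have h := xc_sq
  have h0 := xc_pos
  nlinarith

/-- The intra-face matrix (`+1` above the diagonal). -/
def A0 (v : Fin 4 → ℝ) : Fin 4 → ℝ :=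
  ![v 1 + v 2 + v 3, -v 0 + v 2 + v 3, -v 0 - v 1 + v 3, -v 0 - v 1 - v 2]

/-- The edge part. -/
def Yop (yE yN : ℤ × ℤ → ℝ) (φ : ℤ × ℤ → Fin 4 → ℝ) (f : ℤ × ℤ) : Fin 4 → ℝ :=
  ![yN (f - (0,1)) * φ (f - (0,1)) 2, yE f * φ (f + (1,0)) 3,
    -(yN f * φ (f + (0,1)) 0), -(yE (f - (1,0)) * φ (f - (1,0)) 1)]

/-- The fermionic matrix. -/
def Aop (yE yN : ℤ × ℤ → ℝ) (φ : ℤ × ℤ → Fin 4 → ℝ) (f : ℤ × ℤ) (a : Fin 4) : ℝ :=
  A0 (φ f) a + Yop yE yN φ f a

/-- Sum of squares of a vector with four components. -/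
def q4 (v : Fin 4 → ℝ) : ℝ := ∑ a, v a ^ 2

theorem q4_nonneg (v : Fin 4 → ℝ) : 0 ≤ q4 v := sum_nonneg fun _ _ => sq_nonneg _

theorem q4_eq (v : Fin 4 → ℝ) : q4 v = v 0 ^ 2 + v 1 ^ 2 + v 2 ^ 2 + v 3 ^ 2 := by
  simp [q4, Fin.sum_univ_four]

/-- The positive form at a face: `|A₀ v|² - x² |v|²`. -/
theorem A0_lower (v : Fin 4 → ℝ) : xc ^ 2 * q4 v ≤ q4 (A0 v) := by
  rw [q4_eq, q4_eq]
  simp only [A0, Matrix.cons_val_zero, Matrix.cons_val_one, Matrix.cons_val]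
  set r2 : ℝ := xc + 1 with hr2
  have hx : xc ^ 2 = 1 - 2 * xc := xc_sq
  have h2 : r2 ^ 2 = 2 := by rw [hr2]; nlinarith
  have hr0 : 0 < r2 := by have := xc_pos; linarith
  -- difference = r2 * sum of squares of (v + N v / √2) ; N v = (v1 - v3, v0 + v2, v1 + v3, -v0 + v2)
  have key : (v 1 + v 2 + v 3) ^ 2 + (-v 0 + v 2 + v 3) ^ 2 + (-v 0 - v 1 + v 3) ^ 2 + (-v 0 - v 1 - v 2) ^ 2
      - xc ^ 2 * (v 0 ^ 2 + v 1 ^ 2 + v 2 ^ 2 + v 3 ^ 2)
      = r2 * ((v 0 + r2/2 * (v 1 - v 3)) ^ 2 + (v 1 + r2/2 * (v 0 + v 2)) ^ 2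
        + (v 2 + r2/2 * (v 1 + v 3)) ^ 2 + (v 3 + r2/2 * (v 2 - v 0)) ^ 2) := by
    have hx2 : xc ^ 2 = 3 - 2 * r2 := by rw [hx, hr2]; ring
    have h3 : r2 ^ 3 = 2 * r2 := by rw [pow_succ, h2]
    rw [hx2]
    ring_nf
    rw [h2, h3]
    ring
  have : 0 ≤ r2 * ((v 0 + r2/2 * (v 1 - v 3)) ^ 2 + (v 1 + r2/2 * (v 0 + v 2)) ^ 2
        + (v 2 + r2/2 * (v 1 + v 3)) ^ 2 + (v 3 + r2/2 * (v 2 - v 0)) ^ 2) := by positivity
  linarith

/-- Upper bound of the intra-face matrix (norm `≤ 3`; the exact value is `1 + √2`). -/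
theorem A0_upper (v : Fin 4 → ℝ) : q4 (A0 v) ≤ 9 * q4 v := by
  rw [q4_eq, q4_eq]
  simp only [A0, Matrix.cons_val_zero, Matrix.cons_val_one, Matrix.cons_val]
  nlinarith [sq_nonneg (v 0 - v 1), sq_nonneg (v 0 + v 3), sq_nonneg (v 1 - v 2), sq_nonneg (v 2 - v 3),
    sq_nonneg (v 0 + v 1), sq_nonneg (v 0 - v 3)]

/-! ### Sums over the lattice -/

/-- Squared `ℓ²` norm. -/
noncomputable def N2 (φ : ℤ × ℤ → Fin 4 → ℝ) : ℝ := ∑' f, q4 (φ f)

/-- `φ` vanishes off the finite set `I`. -/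
def Sup (I : Finset (ℤ × ℤ)) (φ : ℤ × ℤ → Fin 4 → ℝ) : Prop := ∀ f, f ∉ I → φ f = 0

theorem N2_nonneg (φ : ℤ × ℤ → Fin 4 → ℝ) : 0 ≤ N2 φ := tsum_nonneg fun _ => q4_nonneg _

theorem q4_zero : q4 0 = 0 := by simp [q4]

theorem N2_eq_sum {I : Finset (ℤ × ℤ)} {φ : ℤ × ℤ → Fin 4 → ℝ} (h : Sup I φ) :
    N2 φ = ∑ f ∈ I, q4 (φ f) := by
  unfold N2
  exact tsum_eq_sum (fun f hf => by rw [h f hf, q4_zero])

/-- Summability of a function vanishing off a shift of a finite set. -/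
theorem summ {I : Finset (ℤ × ℤ)} {F : ℤ × ℤ → ℝ} (h : ∀ f, f ∉ I → F f = 0) : Summable F :=
  summable_of_ne_finset_zero h

theorem tsum_sub_shift (F : ℤ × ℤ → ℝ) (v : ℤ × ℤ) : ∑' f, F (f - v) = ∑' f, F f :=
  (Equiv.subRight v).tsum_eq F

theorem tsum_add_shift (F : ℤ × ℤ → ℝ) (v : ℤ × ℤ) : ∑' f, F (f + v) = ∑' f, F f :=
  (Equiv.addRight v).tsum_eq F

theorem summable_sub_shift {F : ℤ × ℤ → ℝ} (hF : Summable F) (v : ℤ × ℤ) :
    Summable (fun f => F (f - v)) :=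
  (Equiv.subRight v).summable_iff.2 hF

theorem summable_add_shift {F : ℤ × ℤ → ℝ} (hF : Summable F) (v : ℤ × ℤ) :
    Summable (fun f => F (f + v)) :=
  (Equiv.addRight v).summable_iff.2 hF

/-- The weight of the edge carrying the half-edge `(f, a)`. -/
def wt (yE yN : ℤ × ℤ → ℝ) (f : ℤ × ℤ) : Fin 4 → ℝ :=
  ![yN (f - (0,1)), yE f, yN f, yE (f - (1,0))]

/-- `x²`-deficit on the non critical half-edges: `∑ (x² - w²) φ²`. -/
noncomputable def bd2 (yE yN : ℤ × ℤ → ℝ) (φ : ℤ × ℤ → Fin 4 → ℝ) : ℝ :=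
  ∑' f, ∑ a, (xc ^ 2 - wt yE yN f a ^ 2) * φ f a ^ 2

theorem tsum_add4 {A B C D : ℤ × ℤ → ℝ} (hA : Summable A) (hB : Summable B) (hC : Summable C)
    (hD : Summable D) :
    ∑' f, (A f + B f + C f + D f) = ∑' f, A f + ∑' f, B f + ∑' f, C f + ∑' f, D f := by
  rw [((hA.add hB).add hC).tsum_add hD, (hA.add hB).tsum_add hC, hA.tsum_add hB]

theorem N2_Y {I : Finset (ℤ × ℤ)} {φ : ℤ × ℤ → Fin 4 → ℝ} (h : Sup I φ) (yE yN : ℤ × ℤ → ℝ) :
    N2 (Yop yE yN φ) = ∑' f, ∑ a, wt yE yN f a ^ 2 * φ f a ^ 2 := by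
  unfold N2
  have hS : ∀ (a : Fin 4) (w : ℤ × ℤ → ℝ), Summable (fun f => (w f * φ f a) ^ 2) := by
    intro a w
    exact summ (I := I) (fun f hf => by rw [h f hf]; simp)
  set P : ℤ × ℤ → ℝ := fun f => (yN f * φ f 2) ^ 2 with hP
  set Q : ℤ × ℤ → ℝ := fun f => (yE (f - (1,0)) * φ f 3) ^ 2 with hQ
  set R : ℤ × ℤ → ℝ := fun f => (yN (f - (0,1)) * φ f 0) ^ 2 with hR
  set T : ℤ × ℤ → ℝ := fun f => (yE f * φ f 1) ^ 2 with hT
  have s1 : Summable P := hS 2 yN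
  have s2 : Summable Q := hS 3 (fun f => yE (f - (1,0)))
  have s3 : Summable R := hS 0 (fun f => yN (f - (0,1)))
  have s4 : Summable T := hS 1 yE
  have e1 : ∀ f, q4 (Yop yE yN φ f) = P (f - (0,1)) + Q (f + (1,0)) + R (f + (0,1)) + T (f - (1,0)) := by
    intro f
    rw [q4_eq, hP, hQ, hR, hT]
    simp only [Yop, Matrix.cons_val_zero, Matrix.cons_val_one, Matrix.cons_val, add_sub_cancel_right]
    ring
  have e2 : ∀ f, ∑ a, wt yE yN f a ^ 2 * φ f a ^ 2 = P f + Q f + R f + T f := by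
    intro f
    rw [Fin.sum_univ_four, hP, hQ, hR, hT]
    simp only [wt, Matrix.cons_val_zero, Matrix.cons_val_one, Matrix.cons_val]
    ring
  rw [tsum_congr e1, tsum_congr e2,
    tsum_add4 (summable_sub_shift s1 _) (summable_add_shift s2 _) (summable_add_shift s3 _)
      (summable_sub_shift s4 _), tsum_add4 s1 s2 s3 s4, tsum_sub_shift P, tsum_add_shift Q,
      tsum_add_shift R, tsum_sub_shift T]

theorem A0_zero : A0 0 = 0 := by
  ext a
  fin_cases a <;> simp [A0]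

/-- A finite set containing the support and its neighbours. -/
def nb (I : Finset (ℤ × ℤ)) : Finset (ℤ × ℤ) :=
  I ∪ I.image (fun f => f + (1,0)) ∪ I.image (fun f => f - (1,0)) ∪ I.image (fun f => f + (0,1))
    ∪ I.image (fun f => f - (0,1))

theorem not_mem_nb {I : Finset (ℤ × ℤ)} {f : ℤ × ℤ} (h : f ∉ nb I) :
    f ∉ I ∧ f - (1,0) ∉ I ∧ f + (1,0) ∉ I ∧ f - (0,1) ∉ I ∧ f + (0,1) ∉ I := by
  simp only [nb, mem_union, mem_image, not_or, not_exists, not_and] at h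
  obtain ⟨⟨⟨⟨h0, h1⟩, h2⟩, h3⟩, h4⟩ := h
  refine ⟨h0, fun hh => h1 _ hh (by simp), fun hh => h2 _ hh (by simp), fun hh => h3 _ hh (by simp),
    fun hh => h4 _ hh (by simp)⟩

theorem Sup_Y {I : Finset (ℤ × ℤ)} {φ : ℤ × ℤ → Fin 4 → ℝ} (h : Sup I φ) (yE yN : ℤ × ℤ → ℝ) :
    Sup (nb I) (Yop yE yN φ) := by
  intro f hf
  obtain ⟨h0, h1, h2, h3, h4⟩ := not_mem_nb hf
  ext a
  fin_cases a <;> simp [Yop, h _ h1, h _ h2, h _ h3, h _ h4]

theorem Sup_A0 {I : Finset (ℤ × ℤ)} {φ : ℤ × ℤ → Fin 4 → ℝ} (h : Sup I φ) :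
    Sup I (fun f => A0 (φ f)) := by
  intro f hf
  show A0 (φ f) = 0
  rw [h f hf, A0_zero]

theorem Sup_A {I : Finset (ℤ × ℤ)} {φ : ℤ × ℤ → Fin 4 → ℝ} (h : Sup I φ) (yE yN : ℤ × ℤ → ℝ) :
    Sup (nb I) (Aop yE yN φ) := by
  intro f hf
  have h1 := Sup_Y h yE yN f hf
  have h2 := h f (not_mem_nb hf).1
  ext a
  have h3 := congrFun h1 a
  simp only [Aop, h2, A0_zero]
  rw [h3]; simp

/-- The exact identity (T+). -/
theorem tplus {I : Finset (ℤ × ℤ)} {φ : ℤ × ℤ → Fin 4 → ℝ} (h : Sup I φ) (yE yN : ℤ × ℤ → ℝ) :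
    N2 (fun f => A0 (φ f)) - xc ^ 2 * N2 φ + bd2 yE yN φ
      = ∑' f, 2 * (∑ a, A0 (φ f) a * Aop yE yN φ f a) - N2 (Aop yE yN φ) := by
  have hY := N2_Y h yE yN
  have hbd : bd2 yE yN φ = xc ^ 2 * N2 φ - N2 (Yop yE yN φ) := by
    rw [hY]
    unfold bd2 N2
    rw [← tsum_mul_left, ← Summable.tsum_sub]
    · apply tsum_congr
      intro f
      rw [q4, mul_sum, ← sum_sub_distrib]
      apply sum_congr rfl
      intro a _; ring
    · exact summ (I := I) (fun f hf => by rw [h f hf, q4_zero]; ring)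
    · exact summ (I := I) (fun f hf => by rw [h f hf]; simp)
  have hA : N2 (Yop yE yN φ) = N2 (Aop yE yN φ)
      - ∑' f, 2 * (∑ a, A0 (φ f) a * Aop yE yN φ f a) + N2 (fun f => A0 (φ f)) := by
    unfold N2
    rw [← Summable.tsum_sub, ← Summable.tsum_add]
    · apply tsum_congr
      intro f
      simp only [q4]
      rw [mul_sum, ← sum_sub_distrib, ← sum_add_distrib]
      apply sum_congr rfl
      intro a _
      simp only [Aop]; ring
    · exact summ (I := nb I) (fun f hf => by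
        rw [Sup_A h yE yN f hf, h f (not_mem_nb hf).1, A0_zero]; simp [q4])
    · exact summ (I := I) (fun f hf => by show q4 (A0 (φ f)) = 0; rw [h f hf, A0_zero, q4_zero])
    · exact summ (I := nb I) (fun f hf => by rw [Sup_A h yE yN f hf, q4_zero])
    · exact summ (I := I) (fun f hf => by rw [h f hf, A0_zero]; simp)
  rw [hbd, hA]; ring

/-- Boundary trace, Young form. -/
theorem trace_young {I : Finset (ℤ × ℤ)} {φ : ℤ × ℤ → Fin 4 → ℝ} (h : Sup I φ) (yE yN : ℤ × ℤ → ℝ)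
    (t : ℝ) (ht : 0 < t) :
    bd2 yE yN φ ≤ 9 * t * N2 φ + t⁻¹ * N2 (Aop yE yN φ) := by
  have h1 := tplus h yE yN
  have h2 : xc ^ 2 * N2 φ ≤ N2 (fun f => A0 (φ f)) := by
    unfold N2
    rw [← tsum_mul_left]
    apply Summable.tsum_le_tsum (fun f => A0_lower (φ f))
    · exact summ (I := I) (fun f hf => by rw [h f hf, q4_zero]; ring)
    · exact summ (I := I) (fun f hf => by rw [h f hf, A0_zero, q4_zero])
  have h3 : ∑' f, 2 * (∑ a, A0 (φ f) a * Aop yE yN φ f a) ≤ 9 * t * N2 φ + t⁻¹ * N2 (Aop yE yN φ) := by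
    unfold N2
    rw [← tsum_mul_left, ← tsum_mul_left, ← Summable.tsum_add]
    · apply Summable.tsum_le_tsum
      · intro f
        have hA := A0_upper (φ f)
        have : 2 * (∑ a, A0 (φ f) a * Aop yE yN φ f a) ≤ t * q4 (A0 (φ f)) + t⁻¹ * q4 (Aop yE yN φ f) := by
          simp only [q4]
          rw [mul_sum, mul_sum, mul_sum, ← sum_add_distrib]
          apply sum_le_sum
          intro a _
          have h5 : 0 ≤ t⁻¹ * (t * A0 (φ f) a - Aop yE yN φ f a) ^ 2 := by positivity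
          have h6 : t⁻¹ * (t * A0 (φ f) a - Aop yE yN φ f a) ^ 2
            = t * A0 (φ f) a ^ 2 - 2 * (A0 (φ f) a * Aop yE yN φ f a) + t⁻¹ * Aop yE yN φ f a ^ 2 := by
            field_simp
            ring
          linarith
        nlinarith
      · exact summ (I := I) (fun f hf => by rw [h f hf, A0_zero]; simp)
      · apply Summable.add
        · exact summ (I := I) (fun f hf => by rw [h f hf, q4_zero]; ring)
        · exact summ (I := nb I) (fun f hf => by rw [Sup_A h yE yN f hf, q4_zero]; ring)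
    · exact summ (I := I) (fun f hf => by rw [h f hf, q4_zero]; ring)
    · exact summ (I := nb I) (fun f hf => by rw [Sup_A h yE yN f hf, q4_zero]; ring)
  have h4 := N2_nonneg (Aop yE yN φ)
  linarith

/-! ### The plane kernel and the gap -/

/-- A kernel inverting the plane operator on finitely supported fields, with decay `1/(1+|z-w|)`. -/
structure PlaneKernel where
  S : ℤ × ℤ → ℤ × ℤ → Fin 4 → Fin 4 → ℝ
  c : ℝ
  c_pos : 0 < c
  bound : ∀ z w a b, |S z w a b| ≤ c / ((dd z w : ℝ) + 1)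
  inv : ∀ (I : Finset (ℤ × ℤ)) (φ : ℤ × ℤ → Fin 4 → ℝ), Sup I φ → ∀ z a,
    φ z a = ∑' w, ∑ b, S z w a b * Aop (fun _ => xc) (fun _ => xc) φ w b

/-- Kernel estimate: bulk source `g`, layer source `σ`. -/
theorem kernel_est (K : PlaneKernel) (I J B : Finset (ℤ × ℤ)) (N : ℕ)
    (hIJ : ∀ z ∈ I, ∀ w ∈ J, dd z w ≤ N) (hIB : ∀ z ∈ I, ∀ w ∈ B, dd z w ≤ N) (C₀ : ℝ) (hC : 0 ≤ C₀)
    (hc : ∀ z ∈ I, ∀ t ≤ N, ((B.filter (fun w => dd z w ≤ t)).card : ℝ) ≤ C₀ * (t+1))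
    (g σ : ℤ × ℤ → Fin 4 → ℝ) (φ : ℤ × ℤ → Fin 4 → ℝ)
    (hφ : ∀ z ∈ I, ∀ a, φ z a = ∑ w ∈ J, ∑ b, K.S z w a b * g w b + ∑ w ∈ B, ∑ b, K.S z w a b * σ w b) :
    ∑ z ∈ I, q4 (φ z) ≤ 32 * (64 * K.c^2 * (N+1)^2 * ∑ w ∈ J, q4 (g w)
      + 32 * C₀ * K.c^2 * (N+1) * ∑ w ∈ B, q4 (σ w)) := by
  have h1 : ∀ a b : Fin 4, ∑ z ∈ I, (∑ w ∈ J, K.S z w a b * g w b) ^ 2
      ≤ 64 * K.c^2 * (N+1)^2 * ∑ w ∈ J, g w b ^ 2 := fun a b =>
    bulk_schur I J N hIJ (fun z w => K.S z w a b) K.c (fun z _ w _ => K.bound z w a b) (fun w => g w b)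
  have h2 : ∀ a b : Fin 4, ∑ z ∈ I, (∑ w ∈ B, K.S z w a b * σ w b) ^ 2
      ≤ 32 * C₀ * K.c^2 * (N+1) * ∑ w ∈ B, σ w b ^ 2 := fun a b =>
    layer_schur I B N hIB C₀ hC hc (fun z w => K.S z w a b) K.c (fun z _ w _ => K.bound z w a b)
      (fun w => σ w b)
  have h3 : ∀ z ∈ I, ∀ a, φ z a ^ 2 ≤ 8 * (∑ b, (∑ w ∈ J, K.S z w a b * g w b) ^ 2
      + ∑ b, (∑ w ∈ B, K.S z w a b * σ w b) ^ 2) := by
    intro z hz a
    rw [hφ z hz a, sum_comm, sum_comm (s := B)]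
    rw [Fin.sum_univ_four, Fin.sum_univ_four, Fin.sum_univ_four, Fin.sum_univ_four]
    generalize ∑ w ∈ J, K.S z w a 0 * g w 0 = x0
    generalize ∑ w ∈ J, K.S z w a 1 * g w 1 = x1
    generalize ∑ w ∈ J, K.S z w a 2 * g w 2 = x2
    generalize ∑ w ∈ J, K.S z w a 3 * g w 3 = x3
    generalize ∑ w ∈ B, K.S z w a 0 * σ w 0 = y0
    generalize ∑ w ∈ B, K.S z w a 1 * σ w 1 = y1
    generalize ∑ w ∈ B, K.S z w a 2 * σ w 2 = y2
    generalize ∑ w ∈ B, K.S z w a 3 * σ w 3 = y3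
    have a1 := sq_nonneg (x0 - x1)
    have a2 := sq_nonneg (x2 - x3)
    have a3 := sq_nonneg (y0 - y1)
    have a4 := sq_nonneg (y2 - y3)
    have a5 := sq_nonneg ((x0 + x1) - (x2 + x3))
    have a6 := sq_nonneg ((y0 + y1) - (y2 + y3))
    have a7 := sq_nonneg ((x0 + x1 + x2 + x3) - (y0 + y1 + y2 + y3))
    nlinarith
  calc ∑ z ∈ I, q4 (φ z) ≤ ∑ z ∈ I, ∑ a : Fin 4, 8 * (∑ b, (∑ w ∈ J, K.S z w a b * g w b) ^ 2
      + ∑ b, (∑ w ∈ B, K.S z w a b * σ w b) ^ 2) :=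
        sum_le_sum fun z hz => sum_le_sum fun a _ => h3 z hz a
    _ = 8 * ∑ a : Fin 4, ∑ b : Fin 4, (∑ z ∈ I, (∑ w ∈ J, K.S z w a b * g w b) ^ 2
        + ∑ z ∈ I, (∑ w ∈ B, K.S z w a b * σ w b) ^ 2) := by
        rw [sum_comm, mul_sum]
        apply sum_congr rfl
        intro a _
        rw [← mul_sum, sum_add_distrib, sum_add_distrib, sum_comm, sum_comm (s := I) (t := univ)]
    _ ≤ 8 * ∑ a : Fin 4, ∑ b : Fin 4, (64 * K.c^2 * (N+1)^2 * ∑ w ∈ J, g w b ^ 2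
        + 32 * C₀ * K.c^2 * (N+1) * ∑ w ∈ B, σ w b ^ 2) := by
        apply mul_le_mul_of_nonneg_left _ (by norm_num)
        exact sum_le_sum fun a _ => sum_le_sum fun b _ => add_le_add (h1 a b) (h2 a b)
    _ = 32 * (64 * K.c^2 * (N+1)^2 * ∑ w ∈ J, q4 (g w)
      + 32 * C₀ * K.c^2 * (N+1) * ∑ w ∈ B, q4 (σ w)) := by
        simp only [q4]
        rw [sum_const, sum_add_distrib, ← mul_sum, ← mul_sum, sum_comm (s := univ) (t := J),
          sum_comm (s := univ) (t := B)]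
        simp only [card_univ, Fintype.card_fin, nsmul_eq_mul, Nat.cast_ofNat]
        ring

/-- Shift identity for weighted half-edge sums. -/
theorem shift_sum {I : Finset (ℤ × ℤ)} {φ : ℤ × ℤ → Fin 4 → ℝ} (h : Sup I φ) (WE WN : ℤ × ℤ → ℝ) :
    ∑' f, (WN (f - (0,1)) * φ (f - (0,1)) 2 ^ 2 + WE f * φ (f + (1,0)) 3 ^ 2
      + WN f * φ (f + (0,1)) 0 ^ 2 + WE (f - (1,0)) * φ (f - (1,0)) 1 ^ 2)
    = ∑' f, (WN (f - (0,1)) * φ f 0 ^ 2 + WE f * φ f 1 ^ 2 + WN f * φ f 2 ^ 2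
      + WE (f - (1,0)) * φ f 3 ^ 2) := by
  have hS : ∀ (a : Fin 4) (w : ℤ × ℤ → ℝ), Summable (fun f => w f * φ f a ^ 2) := by
    intro a w
    exact summ (I := I) (fun f hf => by rw [h f hf]; simp)
  set P : ℤ × ℤ → ℝ := fun f => WN f * φ f 2 ^ 2 with hP
  set Q : ℤ × ℤ → ℝ := fun f => WE (f - (1,0)) * φ f 3 ^ 2 with hQ
  set R : ℤ × ℤ → ℝ := fun f => WN (f - (0,1)) * φ f 0 ^ 2 with hR
  set T : ℤ × ℤ → ℝ := fun f => WE f * φ f 1 ^ 2 with hT
  have s1 : Summable P := hS 2 WN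
  have s2 : Summable Q := hS 3 (fun f => WE (f - (1,0)))
  have s3 : Summable R := hS 0 (fun f => WN (f - (0,1)))
  have s4 : Summable T := hS 1 WE
  have e1 : ∀ f, WN (f - (0,1)) * φ (f - (0,1)) 2 ^ 2 + WE f * φ (f + (1,0)) 3 ^ 2
      + WN f * φ (f + (0,1)) 0 ^ 2 + WE (f - (1,0)) * φ (f - (1,0)) 1 ^ 2
      = P (f - (0,1)) + Q (f + (1,0)) + R (f + (0,1)) + T (f - (1,0)) := by
    intro f
    rw [hP, hQ, hR, hT]
    simp only [add_sub_cancel_right]
  have e2 : ∀ f, WN (f - (0,1)) * φ f 0 ^ 2 + WE f * φ f 1 ^ 2 + WN f * φ f 2 ^ 2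
      + WE (f - (1,0)) * φ f 3 ^ 2 = P f + Q f + R f + T f := by
    intro f
    rw [hP, hQ, hR, hT]
    ring
  rw [tsum_congr e1, tsum_congr e2,
    tsum_add4 (summable_sub_shift s1 _) (summable_add_shift s2 _) (summable_add_shift s3 _)
      (summable_sub_shift s4 _), tsum_add4 s1 s2 s3 s4, tsum_sub_shift P, tsum_add_shift Q,
      tsum_add_shift R, tsum_sub_shift T]

/-- Gauge transform. -/
def gau (s : ℤ × ℤ → ℝ) (φ : ℤ × ℤ → Fin 4 → ℝ) (f : ℤ × ℤ) : Fin 4 → ℝ := fun a => s f * φ f a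

/-- The defect of the plane operator on the gauged field. -/
noncomputable def sig (s yE yN : ℤ × ℤ → ℝ) (φ : ℤ × ℤ → Fin 4 → ℝ) (f : ℤ × ℤ) : Fin 4 → ℝ :=
  ![(xc * s (f - (0,1)) - s f * yN (f - (0,1))) * φ (f - (0,1)) 2,
    (xc * s (f + (1,0)) - s f * yE f) * φ (f + (1,0)) 3,
    -((xc * s (f + (0,1)) - s f * yN f) * φ (f + (0,1)) 0),
    -((xc * s (f - (1,0)) - s f * yE (f - (1,0))) * φ (f - (1,0)) 1)]

theorem Aop_gau (s yE yN : ℤ × ℤ → ℝ) (φ : ℤ × ℤ → Fin 4 → ℝ) (f : ℤ × ℤ) (a : Fin 4) :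
    Aop (fun _ => xc) (fun _ => xc) (gau s φ) f a = s f * Aop yE yN φ f a + sig s yE yN φ f a := by
  fin_cases a <;>
  · simp [Aop, A0, Yop, gau, sig]
    ring

/-- Local gap without branch point (plus type boundary, arbitrary rough layer). -/
theorem gap (K : PlaneKernel) (C₀ : ℝ) (hC₀ : 0 < C₀) (x₀ : ℤ × ℤ) (r : ℕ)
    (yE yN s : ℤ × ℤ → ℝ) (hs : ∀ f, s f ^ 2 = 1) (I B : Finset (ℤ × ℤ)) (φ : ℤ × ℤ → Fin 4 → ℝ)
    (hφ : Sup I φ) (hI : ∀ f ∈ I, dd f x₀ ≤ r) (hB : ∀ f ∈ B, dd f x₀ ≤ r + 1)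
    (hE : ∀ f, (f ∈ I ∨ f + (1,0) ∈ I) → yE f = s f * s (f + (1,0)) * xc ∨ yE f = 0)
    (hN : ∀ f, (f ∈ I ∨ f + (0,1) ∈ I) → yN f = s f * s (f + (0,1)) * xc ∨ yN f = 0)
    (hBE : ∀ f, yE f = 0 → (f + (1,0) ∈ I → f ∈ B) ∧ (f ∈ I → f + (1,0) ∈ B))
    (hBN : ∀ f, yN f = 0 → (f + (0,1) ∈ I → f ∈ B) ∧ (f ∈ I → f + (0,1) ∈ B))
    (hc : ∀ z ∈ I, ∀ t : ℕ, t ≤ 2 * r + 1 → ((B.filter (fun w => dd z w ≤ t)).card : ℝ) ≤ C₀ * (t+1)) :
    N2 φ ≤ (16384 * K.c^2 + 36 * (2048 * C₀ * K.c^2)^2) * (r+1)^2 * N2 (Aop yE yN φ) := by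
  have hx := xc_pos
  have hs' : ∀ f, s f * s f = 1 := fun f => by have := hs f; nlinarith
  -- the squares of the defect
  have hWE : ∀ f, (f + (1,0) ∈ I) → (xc * s (f + (1,0)) - s f * yE f) ^ 2 = xc ^ 2 - yE f ^ 2 := by
    intro f hf
    rcases hE f (Or.inr hf) with h | h
    · have h1 := hs' f
      have h2 := hs' (f + (1,0))
      have e1 : s f * yE f = xc * s (f + (1,0)) := by rw [h]; linear_combination xc * s (f + (1,0)) * h1
      have e2 : yE f ^ 2 = xc ^ 2 := by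
        rw [h]; linear_combination xc^2 * (s (f + (1,0)) * s (f + (1,0))) * h1 + xc^2 * h2
      rw [e1, e2]; ring
    · rw [h]; have h2 := hs (f + (1,0)); linear_combination xc^2 * h2
  have hWE' : ∀ f, (f ∈ I) → (xc * s f - s (f + (1,0)) * yE f) ^ 2 = xc ^ 2 - yE f ^ 2 := by
    intro f hf
    rcases hE f (Or.inl hf) with h | h
    · have h1 := hs' f
      have h2 := hs' (f + (1,0))
      have e1 : s (f + (1,0)) * yE f = xc * s f := by rw [h]; linear_combination xc * s f * h2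
      have e2 : yE f ^ 2 = xc ^ 2 := by
        rw [h]; linear_combination xc^2 * (s (f + (1,0)) * s (f + (1,0))) * h1 + xc^2 * h2
      rw [e1, e2]; ring
    · rw [h]; have h2 := hs f; linear_combination xc^2 * h2
  have hWN : ∀ f, (f + (0,1) ∈ I) → (xc * s (f + (0,1)) - s f * yN f) ^ 2 = xc ^ 2 - yN f ^ 2 := by
    intro f hf
    rcases hN f (Or.inr hf) with h | h
    · have h1 := hs' f
      have h2 := hs' (f + (0,1))
      have e1 : s f * yN f = xc * s (f + (0,1)) := by rw [h]; linear_combination xc * s (f + (0,1)) * h1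
      have e2 : yN f ^ 2 = xc ^ 2 := by
        rw [h]; linear_combination xc^2 * (s (f + (0,1)) * s (f + (0,1))) * h1 + xc^2 * h2
      rw [e1, e2]; ring
    · rw [h]; have h2 := hs (f + (0,1)); linear_combination xc^2 * h2
  have hWN' : ∀ f, (f ∈ I) → (xc * s f - s (f + (0,1)) * yN f) ^ 2 = xc ^ 2 - yN f ^ 2 := by
    intro f hf
    rcases hN f (Or.inl hf) with h | h
    · have h1 := hs' f
      have h2 := hs' (f + (0,1))
      have e1 : s (f + (0,1)) * yN f = xc * s f := by rw [h]; linear_combination xc * s f * h2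
      have e2 : yN f ^ 2 = xc ^ 2 := by
        rw [h]; linear_combination xc^2 * (s (f + (0,1)) * s (f + (0,1))) * h1 + xc^2 * h2
      rw [e1, e2]; ring
    · rw [h]; have h2 := hs f; linear_combination xc^2 * h2
  -- N2 of the defect
  have hsig : N2 (sig s yE yN φ) = bd2 yE yN φ := by
    have e1 : ∀ f, q4 (sig s yE yN φ f) = (xc^2 - yN (f - (0,1))^2) * φ (f - (0,1)) 2 ^ 2
        + (xc^2 - yE f ^2) * φ (f + (1,0)) 3 ^ 2
        + (xc^2 - yN f ^2) * φ (f + (0,1)) 0 ^ 2 + (xc^2 - yE (f - (1,0))^2) * φ (f - (1,0)) 1 ^ 2 := by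
      intro f
      rw [q4_eq]
      simp only [sig, Matrix.cons_val_zero, Matrix.cons_val_one, Matrix.cons_val]
      have t1 : ((xc * s (f - (0,1)) - s f * yN (f - (0,1))) * φ (f - (0,1)) 2) ^ 2
          = (xc^2 - yN (f - (0,1))^2) * φ (f - (0,1)) 2 ^ 2 := by
        by_cases hf : f - (0,1) ∈ I
        · have := hWN' (f - (0,1)) hf
          rw [sub_add_cancel] at this
          rw [mul_pow, this]
        · rw [hφ _ hf]; simp
      have t2 : ((xc * s (f + (1,0)) - s f * yE f) * φ (f + (1,0)) 3) ^ 2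
          = (xc^2 - yE f ^2) * φ (f + (1,0)) 3 ^ 2 := by
        by_cases hf : f + (1,0) ∈ I
        · rw [mul_pow, hWE f hf]
        · rw [hφ _ hf]; simp
      have t3 : (-((xc * s (f + (0,1)) - s f * yN f) * φ (f + (0,1)) 0)) ^ 2
          = (xc^2 - yN f ^2) * φ (f + (0,1)) 0 ^ 2 := by
        by_cases hf : f + (0,1) ∈ I
        · rw [neg_sq, mul_pow, hWN f hf]
        · rw [hφ _ hf]; simp
      have t4 : (-((xc * s (f - (1,0)) - s f * yE (f - (1,0))) * φ (f - (1,0)) 1)) ^ 2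
          = (xc^2 - yE (f - (1,0))^2) * φ (f - (1,0)) 1 ^ 2 := by
        by_cases hf : f - (1,0) ∈ I
        · have := hWE' (f - (1,0)) hf
          rw [sub_add_cancel] at this
          rw [neg_sq, mul_pow, this]
        · rw [hφ _ hf]; simp
      rw [t1, t2, t3, t4]
    unfold N2 bd2
    rw [tsum_congr e1]
    have := shift_sum hφ (fun f => xc^2 - yE f^2) (fun f => xc^2 - yN f^2)
    rw [this]
    apply tsum_congr
    intro f
    rw [Fin.sum_univ_four]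
    simp only [wt, Matrix.cons_val_zero, Matrix.cons_val_one, Matrix.cons_val]
  -- support of the defect
  have hsB : Sup B (sig s yE yN φ) := by
    intro f hf
    have c1 : (xc * s (f - (0,1)) - s f * yN (f - (0,1))) * φ (f - (0,1)) 2 = 0 := by
      by_cases h : f - (0,1) ∈ I
      · have e := hWN' (f - (0,1)) h
        rw [sub_add_cancel] at e
        rcases hN (f - (0,1)) (Or.inl h) with h' | h'
        · have h1 := hs' f
          rw [sub_add_cancel] at h'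
          have : s f * yN (f - (0,1)) = xc * s (f - (0,1)) := by
            rw [h']; linear_combination xc * s (f - (0,1)) * h1
          rw [this]; ring
        · exact absurd ((hBN _ h').2 h) (by rw [sub_add_cancel]; exact hf)
      · rw [hφ _ h]; simp
    have c2 : (xc * s (f + (1,0)) - s f * yE f) * φ (f + (1,0)) 3 = 0 := by
      by_cases h : f + (1,0) ∈ I
      · rcases hE f (Or.inr h) with h' | h'
        · have h1 := hs' f
          have : s f * yE f = xc * s (f + (1,0)) := by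
            rw [h']; linear_combination xc * s (f + (1,0)) * h1
          rw [this]; ring
        · exact absurd ((hBE _ h').1 h) hf
      · rw [hφ _ h]; simp
    have c3 : (xc * s (f + (0,1)) - s f * yN f) * φ (f + (0,1)) 0 = 0 := by
      by_cases h : f + (0,1) ∈ I
      · rcases hN f (Or.inr h) with h' | h'
        · have h1 := hs' f
          have : s f * yN f = xc * s (f + (0,1)) := by
            rw [h']; linear_combination xc * s (f + (0,1)) * h1
          rw [this]; ring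
        · exact absurd ((hBN _ h').1 h) hf
      · rw [hφ _ h]; simp
    have c4 : (xc * s (f - (1,0)) - s f * yE (f - (1,0))) * φ (f - (1,0)) 1 = 0 := by
      by_cases h : f - (1,0) ∈ I
      · rcases hE (f - (1,0)) (Or.inl h) with h' | h'
        · have h1 := hs' f
          rw [sub_add_cancel] at h'
          have : s f * yE (f - (1,0)) = xc * s (f - (1,0)) := by
            rw [h']; linear_combination xc * s (f - (1,0)) * h1
          rw [this]; ring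
        · exact absurd ((hBE _ h').2 h) (by rw [sub_add_cancel]; exact hf)
      · rw [hφ _ h]; simp
    ext a
    fin_cases a
    · exact c1
    · exact c2
    · show -((xc * s (f + (0,1)) - s f * yN f) * φ (f + (0,1)) 0) = 0
      rw [c3, neg_zero]
    · show -((xc * s (f - (1,0)) - s f * yE (f - (1,0))) * φ (f - (1,0)) 1) = 0
      rw [c4, neg_zero]
  -- representation
  have hgau : Sup I (gau s φ) := by
    intro f hf
    ext a
    simp [gau, hφ f hf]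
  have hrep : ∀ z ∈ I, ∀ a, gau s φ z a = ∑ w ∈ nb I, ∑ b, K.S z w a b * (s w * Aop yE yN φ w b)
      + ∑ w ∈ B, ∑ b, K.S z w a b * sig s yE yN φ w b := by
    intro z _ a
    rw [K.inv I (gau s φ) hgau z a]
    have e : ∀ w, ∑ b, K.S z w a b * Aop (fun _ => xc) (fun _ => xc) (gau s φ) w b
        = ∑ b, K.S z w a b * (s w * Aop yE yN φ w b) + ∑ b, K.S z w a b * sig s yE yN φ w b := by
      intro w
      rw [← sum_add_distrib]
      apply sum_congr rfl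
      intro b _
      rw [Aop_gau s yE yN φ w b]; ring
    rw [tsum_congr e]
    have z1 : ∀ w, w ∉ nb I → ∑ b, K.S z w a b * (s w * Aop yE yN φ w b) = 0 := by
      intro w hw
      apply sum_eq_zero
      intro b _
      rw [Sup_A hφ yE yN w hw]; simp
    have z2 : ∀ w, w ∉ B → ∑ b, K.S z w a b * sig s yE yN φ w b = 0 := by
      intro w hw
      apply sum_eq_zero
      intro b _
      rw [hsB w hw]; simp
    rw [Summable.tsum_add (summ z1) (summ z2), tsum_eq_sum (fun w hw => z1 w hw),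
      tsum_eq_sum (fun w hw => z2 w hw)]
  have hJ : ∀ w ∈ nb I, dd w x₀ ≤ r + 1 := by
    intro w hw
    simp only [nb, mem_union, mem_image] at hw
    rcases hw with (((hw | ⟨v, hv, rfl⟩) | ⟨v, hv, rfl⟩) | ⟨v, hv, rfl⟩) | ⟨v, hv, rfl⟩
    · have := hI w hw; omega
    all_goals
      have := hI v hv
      unfold dd at this ⊢
      simp only [Prod.fst_add, Prod.snd_add, Prod.fst_sub, Prod.snd_sub]
      omega
  have hest := kernel_est K I (nb I) B (2*r+1)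
    (fun z hz w hw => by
      have h1 := dd_triangle z x₀ w
      have h2 := hI z hz
      have h3 := hJ w hw
      rw [dd_comm w x₀] at h3
      omega)
    (fun z hz w hw => by
      have h1 := dd_triangle z x₀ w
      have h2 := hI z hz
      have h3 := hB w hw
      rw [dd_comm w x₀] at h3
      omega)
    C₀ hC₀.le hc (fun w b => s w * Aop yE yN φ w b) (sig s yE yN φ) (gau s φ) hrep
  have n1 : ∑ z ∈ I, q4 (gau s φ z) = N2 φ := by
    rw [N2_eq_sum hφ]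
    apply sum_congr rfl
    intro z _
    rw [q4_eq, q4_eq]
    simp only [gau]
    have := hs z
    linear_combination (φ z 0 ^ 2 + φ z 1 ^ 2 + φ z 2 ^ 2 + φ z 3 ^ 2) * this
  have n2 : ∑ w ∈ nb I, q4 (fun b => s w * Aop yE yN φ w b) = N2 (Aop yE yN φ) := by
    rw [N2_eq_sum (Sup_A hφ yE yN)]
    apply sum_congr rfl
    intro z _
    rw [q4_eq, q4_eq]
    have := hs z
    linear_combination (Aop yE yN φ z 0 ^ 2 + Aop yE yN φ z 1 ^ 2 + Aop yE yN φ z 2 ^ 2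
      + Aop yE yN φ z 3 ^ 2) * this
  have n3 : ∑ w ∈ B, q4 (sig s yE yN φ w) = bd2 yE yN φ := by
    rw [← hsig, N2_eq_sum hsB]
  rw [n1, n2, n3] at hest
  have hKc := K.c_pos
  set β : ℝ := 2048 * C₀ * K.c^2 with hβ
  have hβ0 : 0 < β := by rw [hβ]; positivity
  set R : ℝ := (r:ℝ) + 1 with hR
  have hR0 : 0 < R := by rw [hR]; positivity
  have htr := trace_young hφ yE yN (1 / (18 * β * R)) (by positivity)
  have hg0 := N2_nonneg (Aop yE yN φ)
  have e1 : ((2 * r + 1 : ℕ) : ℝ) + 1 = 2 * R := by rw [hR]; push_cast; ring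
  rw [e1] at hest
  have e2 : 9 * (1 / (18 * β * R)) * N2 φ = N2 φ / (2 * β * R) := by
    field_simp
    ring
  have e3 : (1 / (18 * β * R))⁻¹ = 18 * β * R := by
    rw [one_div, inv_inv]
  rw [e2, e3] at htr
  have h5 : β * R * bd2 yE yN φ ≤ N2 φ / 2 + 18 * β^2 * R^2 * N2 (Aop yE yN φ) := by
    have := mul_le_mul_of_nonneg_left htr (by positivity : 0 ≤ β * R)
    have e4 : β * R * (N2 φ / (2 * β * R)) = N2 φ / 2 := by field_simp
    have e5 : β * R * (N2 φ / (2 * β * R) + 18 * β * R * N2 (Aop yE yN φ))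
        = N2 φ / 2 + 18 * β^2 * R^2 * N2 (Aop yE yN φ) := by
      rw [mul_add (β * R), e4]; ring
    rw [e5] at this
    exact this
  have h6 : N2 φ ≤ 8192 * K.c^2 * R^2 * N2 (Aop yE yN φ) + β * R * bd2 yE yN φ := by
    refine hest.trans (le_of_eq ?_)
    rw [hβ]; ring
  linarith

end Crest.Agent.R165.Gapx811
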