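import Mathlib
import Crest.Agent.R165.PkD_583

/-!
Row 165, block U2: the plane propagator.

`TT x P a b m n` : the adjugate of the half-edge symbol `A(p)` applied to a function `P : ℤ → ℤ → ℝ`
(`a, b ∈ Fin 4` = S, E, N, W).  Main algebraic identity (any `x`, any `P`):
`row_a (TT x P · b) = δ_ab · ((1+x²)² P - x(1-x²) Σ_{nbrs} P)`, hence at `x² + 2x = 1`:
`A (TT P) = -2x² Δ P`.
`SP a b m n = TT xc pk a b m n / (2 xc²)` is the plane covariance `S = -A⁻¹` at `(f,g)`, `f - g = (m,n)`.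
-/

set_option autoImplicit false
set_option linter.unusedSimpArgs false

namespace Crest.Agent.R165.Spx583

open Crest.Agent.R165.Pkx583 Real

/-- critical weight -/
noncomputable def xc : ℝ := Real.sqrt 2 - 1

theorem sqrt2_sq : Real.sqrt 2 * Real.sqrt 2 = 2 := Real.mul_self_sqrt (by norm_num)

theorem xc_rel : xc ^ 2 + 2 * xc = 1 := by
  have := sqrt2_sq
  unfold xc; nlinarith

theorem xc_pos : 0 < xc := by
  have h := sqrt2_sq
  have h1 : 0 ≤ Real.sqrt 2 := Real.sqrt_nonneg _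
  unfold xc
  nlinarith

theorem xc_lt_half : xc < 1/2 := by
  have h := xc_rel
  have h2 := xc_pos
  nlinarith

/-- the operator rows: `row x F a m n = (A F)_{((m,n),a)}` -/
def row (x : ℝ) (F : Fin 4 → ℤ → ℤ → ℝ) : Fin 4 → ℤ → ℤ → ℝ
  | 0, m, n => F 1 m n + F 2 m n + F 3 m n + x * F 2 m (n-1)
  | 1, m, n => -F 0 m n + F 2 m n + F 3 m n + x * F 3 (m+1) n
  | 2, m, n => -F 0 m n - F 1 m n + F 3 m n - x * F 0 m (n+1)
  | 3, m, n => -F 0 m n - F 1 m n - F 2 m n - x * F 1 (m-1) n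

/-- the adjugate symbol applied to `P` -/
def TT (x : ℝ) (P : ℤ → ℤ → ℝ) : Fin 4 → Fin 4 → ℤ → ℤ → ℝ
  | 0, 0, m, n => x * P (m+1) n - x * P (m-1) n
  | 0, 1, m, n => -P m n + x * P (m-1) n + x * P m (n-1) + x^2 * P (m-1) (n-1)
  | 0, 2, m, n => (1-x^2) * P m n - (x+x^3) * P m (n-1) - x^2 * P (m-1) (n-1) - x^2 * P (m+1) (n-1)
  | 0, 3, m, n => -P m n + x * P (m+1) n + x * P m (n-1) + x^2 * P (m+1) (n-1)
  | 1, 0, m, n => P m n - x * P m (n+1) - x * P (m+1) n - x^2 * P (m+1) (n+1)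
  | 1, 1, m, n => x * P m (n+1) - x * P m (n-1)
  | 1, 2, m, n => -P m n + x * P (m+1) n + x * P m (n-1) + x^2 * P (m+1) (n-1)
  | 1, 3, m, n => (1-x^2) * P m n - (x+x^3) * P (m+1) n - x^2 * P (m+1) (n+1) - x^2 * P (m+1) (n-1)
  | 2, 0, m, n => -(1-x^2) * P m n + (x+x^3) * P m (n+1) + x^2 * P (m-1) (n+1) + x^2 * P (m+1) (n+1)
  | 2, 1, m, n => P m n - x * P (m-1) n - x * P m (n+1) - x^2 * P (m-1) (n+1)
  | 2, 2, m, n => x * P (m-1) n - x * P (m+1) n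
  | 2, 3, m, n => -P m n + x * P m (n+1) + x * P (m+1) n + x^2 * P (m+1) (n+1)
  | 3, 0, m, n => P m n - x * P (m-1) n - x * P m (n+1) - x^2 * P (m-1) (n+1)
  | 3, 1, m, n => -(1-x^2) * P m n + (x+x^3) * P (m-1) n + x^2 * P (m-1) (n+1) + x^2 * P (m-1) (n-1)
  | 3, 2, m, n => P m n - x * P (m-1) n - x * P m (n-1) - x^2 * P (m-1) (n-1)
  | 3, 3, m, n => x * P m (n-1) - x * P m (n+1)

/-- the determinant symbol applied to `P` -/
def detP (x : ℝ) (P : ℤ → ℤ → ℝ) (m n : ℤ) : ℝ :=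
  (1+x^2)^2 * P m n - x * (1-x^2) * (P (m+1) n + P (m-1) n + P m (n+1) + P m (n-1))

/-- `A · adj A = det A`, position space, any weight `x`, any function `P`. -/
theorem row_TT (x : ℝ) (P : ℤ → ℤ → ℝ) (a b : Fin 4) (m n : ℤ) :
    row x (fun c => TT x P c b) a m n = if a = b then detP x P m n else 0 := by
  fin_cases a <;> fin_cases b <;>
    simp only [row, TT, detP, Fin.zero_eta, Fin.mk_one, Fin.reduceFinMk, Fin.isValue, reduceIte,
      add_sub_cancel_right, sub_add_cancel, zero_ne_one, one_ne_zero, Fin.reduceEq] <;> ring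

theorem detP_crit {x : ℝ} (hx : x^2 + 2*x = 1) (P : ℤ → ℤ → ℝ) (m n : ℤ) :
    detP x P m n = -(2*x^2) * (P (m+1) n + P (m-1) n + P m (n+1) + P m (n-1) - 4 * P m n) := by
  unfold detP
  have h1 : (1+x^2)^2 = 8*x^2 := by
    have : x^2 = 1 - 2*x := by linarith
    nlinarith
  have h2 : x * (1-x^2) = 2*x^2 := by
    have : x^2 = 1 - 2*x := by linarith
    nlinarith
  rw [h1, h2]; ring

/-- reflection symmetry: antisymmetry of the kernel -/
theorem TT_anti (x : ℝ) (P : ℤ → ℤ → ℝ) (hP : ∀ m n, P (-m) (-n) = P m n) (a b : Fin 4) (m n : ℤ) :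
    TT x P a b m n = - TT x P b a (-m) (-n) := by
  have h1 : ∀ i j : ℤ, P (-m+i) (-n+j) = P (m-i) (n-j) := by
    intro i j
    rw [← hP (m-i) (n-j)]
    congr 1 <;> ring
  have e1 := h1 1 0
  have e2 := h1 (-1) 0
  have e3 := h1 0 1
  have e4 := h1 0 (-1)
  have e5 := h1 1 1
  have e6 := h1 1 (-1)
  have e7 := h1 (-1) 1
  have e8 := h1 (-1) (-1)
  have e0 := hP m n
  simp only [add_zero, sub_zero, sub_neg_eq_add, ← sub_eq_add_neg] at e1 e2 e3 e4 e5 e6 e7 e8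
  fin_cases a <;> fin_cases b <;>
    simp only [TT, Fin.zero_eta, Fin.mk_one, Fin.reduceFinMk, Fin.isValue, e0, e1, e2, e3, e4, e5, e6, e7, e8] <;> ring

/-- the potential kernel as a function of two variables -/
noncomputable def pp (m n : ℤ) : ℝ := pk (m, n)

theorem pp_neg (m n : ℤ) : pp (-m) (-n) = pp m n := pk_neg m n

/-- the plane covariance kernel -/
noncomputable def SP (a b : Fin 4) (m n : ℤ) : ℝ := (1/(2*xc^2)) * TT xc pp a b m n

theorem row_smul (x c : ℝ) (F : Fin 4 → ℤ → ℤ → ℝ) (a : Fin 4) (m n : ℤ) :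
    row x (fun b m n => c * F b m n) a m n = c * row x F a m n := by
  fin_cases a <;> simp only [row, Fin.zero_eta, Fin.mk_one, Fin.reduceFinMk, Fin.isValue] <;> ring

/-- **`A S = -1`** in the plane. -/
theorem row_SP (a b : Fin 4) (m n : ℤ) :
    row xc (fun c => SP c b) a m n = if a = b ∧ m = 0 ∧ n = 0 then -1 else 0 := by
  have h := row_smul xc (1/(2*xc^2)) (fun c => TT xc pp c b) a m n
  have h2 : row xc (fun c => SP c b) a m n = (1/(2*xc^2)) * row xc (fun c => TT xc pp c b) a m n := h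
  rw [h2, row_TT, detP_crit xc_rel]
  have hl := pk_lap m n
  have hx := xc_pos
  by_cases hab : a = b
  · rw [if_pos hab]
    unfold pp
    rw [hl]
    by_cases h0 : m = 0 ∧ n = 0
    · rw [if_pos h0, if_pos ⟨hab, h0⟩]
      field_simp
    · rw [if_neg h0, if_neg (fun h => h0 h.2)]
      simp
  · rw [if_neg hab, if_neg (fun h => hab h.1), mul_zero]

theorem SP_anti (a b : Fin 4) (m n : ℤ) : SP a b m n = - SP b a (-m) (-n) := by
  unfold SP
  rw [TT_anti xc pp pp_neg a b m n]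
  ring

theorem SP_self (a : Fin 4) : SP a a 0 0 = 0 := by
  have := SP_anti a a 0 0
  simp only [neg_zero] at this
  linarith

/-! ### shifts of the potential kernel -/

theorem S_pos {m n : ℤ} (h0 : ¬ (m = 0 ∧ n = 0)) : 1 ≤ (m:ℝ)^2 + (n:ℝ)^2 := by
  have : 1 ≤ m^2 + n^2 := by
    rcases not_and_or.1 h0 with h1 | h1
    · have : 1 ≤ m^2 := by
        rcases lt_or_gt_of_ne h1 with h2 | h2 <;> nlinarith
      nlinarith [sq_nonneg n]
    · have : 1 ≤ n^2 := by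
        rcases lt_or_gt_of_ne h1 with h2 | h2 <;> nlinarith
      nlinarith [sq_nonneg m]
  exact_mod_cast this

/-- leading term of a shift -/
noncomputable def ld (i j : ℝ) (m n : ℤ) : ℝ := (1/(2*π)) * ((i * m + j * n)/((m:ℝ)^2 + (n:ℝ)^2))

theorem two_pi_inv_le : 1/(2*π) ≤ 1/6 := by
  apply one_div_le_one_div_of_le (by norm_num)
  linarith [Real.pi_gt_three]

theorem sh10 (m n : ℤ) (h0 : ¬ (m = 0 ∧ n = 0)) :
    |pp (m+1) n - pp m n - ld 1 0 m n| ≤ 50000/((m:ℝ)^2 + (n:ℝ)^2) := by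
  have h := pk_dx m n h0
  unfold ld pp
  rw [show (1:ℝ) * m + 0 * n = m by ring]
  refine h.trans (div_le_div_of_nonneg_right (by norm_num) (by positivity))

theorem sh01 (m n : ℤ) (h0 : ¬ (m = 0 ∧ n = 0)) :
    |pp m (n+1) - pp m n - ld 0 1 m n| ≤ 50000/((m:ℝ)^2 + (n:ℝ)^2) := by
  have h := pk_dy m n h0
  unfold ld pp
  rw [show (0:ℝ) * m + 1 * n = n by ring]
  refine h.trans (div_le_div_of_nonneg_right (by norm_num) (by positivity))

theorem pp_neg1 (m n : ℤ) : pp (-m) n = pp m n := pk_neg_fst m n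
theorem pp_neg2 (m n : ℤ) : pp m (-n) = pp m n := pk_neg_snd m n
theorem pp_comm (m n : ℤ) : pp m n = pp n m := pk_comm m n

theorem sh_m10 (m n : ℤ) (h0 : ¬ (m = 0 ∧ n = 0)) :
    |pp (m-1) n - pp m n - ld (-1) 0 m n| ≤ 50000/((m:ℝ)^2 + (n:ℝ)^2) := by
  have h := sh10 (-m) n (by omega)
  rw [show -m + 1 = -(m-1) by ring, pp_neg1, pp_neg1] at h
  have e : ld 1 0 (-m) n = ld (-1) 0 m n := by
    unfold ld; push_cast; congr 2 <;> ring
  rw [e] at h
  simpa using h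

theorem sh_0m1 (m n : ℤ) (h0 : ¬ (m = 0 ∧ n = 0)) :
    |pp m (n-1) - pp m n - ld 0 (-1) m n| ≤ 50000/((m:ℝ)^2 + (n:ℝ)^2) := by
  have h := sh01 m (-n) (by omega)
  rw [show -n + 1 = -(n-1) by ring, pp_neg2, pp_neg2] at h
  have e : ld 0 1 m (-n) = ld 0 (-1) m n := by
    unfold ld; push_cast; congr 2 <;> ring
  rw [e] at h
  simpa using h

theorem abs_ld_sub (m n : ℤ) (h0 : ¬ (m = 0 ∧ n = 0)) (h1 : ¬ (m + 1 = 0 ∧ n = 0)) :
    |ld 0 1 (m+1) n - ld 0 1 m n| ≤ 2/((m:ℝ)^2 + (n:ℝ)^2) ∧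
    (m:ℝ)^2 + (n:ℝ)^2 ≤ 4 * (((m:ℝ)+1)^2 + (n:ℝ)^2) := by
  have hS := S_pos h0
  have hS' := S_pos h1
  push_cast at hS'
  set M : ℝ := (m:ℝ)
  set N : ℝ := (n:ℝ)
  have hSp : 0 < M^2 + N^2 := by linarith
  have hSp' : 0 < (M+1)^2 + N^2 := by linarith
  have h4 : M^2 + N^2 ≤ 4 * ((M+1)^2 + N^2) := by nlinarith [sq_nonneg (M+2), sq_nonneg N, sq_nonneg (M+1)]
  refine ⟨?_, h4⟩
  have e : ld 0 1 (m+1) n - ld 0 1 m n = (1/(2*π)) * (-(N * (2*M+1)) / (((M+1)^2 + N^2) * (M^2 + N^2))) := by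
    unfold ld
    push_cast
    show 1/(2*π) * ((0 * (M+1) + 1 * N)/((M+1)^2 + N^2)) - 1/(2*π) * ((0 * M + 1 * N)/(M^2+N^2)) = _
    have hp := Real.pi_ne_zero
    field_simp
    ring
  rw [e, abs_mul, abs_of_pos (by positivity : (0:ℝ) < 1/(2*π)), abs_div, abs_neg,
    abs_of_pos (by positivity : 0 < ((M+1)^2 + N^2) * (M^2 + N^2))]
  have hnum : |N * (2*M+1)| ≤ 2 * (M^2 + N^2) := by
    rw [abs_le]
    constructor <;> nlinarith [sq_nonneg (M+N), sq_nonneg (M-N), sq_nonneg (N-1), sq_nonneg (N+1)]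
  have h5 : |N * (2*M+1)| / (((M+1)^2 + N^2) * (M^2 + N^2)) ≤ 8/(M^2+N^2) := by
    rw [div_le_div_iff₀ (by positivity) hSp]
    have : |N * (2*M+1)| * (M^2+N^2) ≤ 2 * (M^2+N^2) * (4 * ((M+1)^2 + N^2)) :=
      mul_le_mul hnum h4 hSp.le (by positivity)
    linarith
  calc 1/(2*π) * (|N * (2*M+1)| / (((M+1)^2 + N^2) * (M^2 + N^2))) ≤ (1/6) * (8/(M^2+N^2)) :=
        mul_le_mul two_pi_inv_le h5 (by positivity) (by norm_num)
    _ ≤ 2/(M^2+N^2) := by
        rw [← mul_div_assoc]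
        exact div_le_div_of_nonneg_right (by norm_num) hSp.le

theorem sh11 (m n : ℤ) (h0 : ¬ (m = 0 ∧ n = 0)) :
    |pp (m+1) (n+1) - pp m n - ld 1 1 m n| ≤ 60000/((m:ℝ)^2 + (n:ℝ)^2) := by
  have hS := S_pos h0
  have hSp : 0 < (m:ℝ)^2 + (n:ℝ)^2 := by linarith
  by_cases h1 : m + 1 = 0 ∧ n = 0
  · obtain ⟨hm, hn⟩ := h1
    have hm' : m = -1 := by omega
    subst hm' hn
    have e1 : pp (-1+1) (0+1) = pp 0 1 := by norm_num
    have e2 : pp (-1) 0 = pp 0 1 := by rw [pp_neg1, pp_comm]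
    rw [e1, e2, sub_self, zero_sub, abs_neg]
    unfold ld
    push_cast
    have hpi := Real.pi_gt_three
    rw [show (1 * -1 + 1 * 0 : ℝ)/((-1)^2 + 0^2) = -1 by norm_num, mul_neg, mul_one, abs_neg,
      abs_of_pos (by positivity)]
    have := two_pi_inv_le
    norm_num at this ⊢
    linarith
  · have ha := sh10 m n h0
    have hb := pk_dy (m+1) n h1
    obtain ⟨hc, hd⟩ := abs_ld_sub m n h0 h1
    have hS' := S_pos h1
    push_cast at hS' hb
    have hSp' : 0 < ((m:ℝ)+1)^2 + (n:ℝ)^2 := by linarith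
    have hb' : |pp (m+1) (n+1) - pp (m+1) n - ld 0 1 (m+1) n| ≤ 40000/((m:ℝ)^2 + (n:ℝ)^2) := by
      have e : ld 0 1 (m+1) n = 1/(2*π) * ((n:ℝ)/(((m:ℝ)+1)^2 + (n:ℝ)^2)) := by
        unfold ld; push_cast; congr 2; ring
      rw [e]
      refine hb.trans ?_
      rw [div_le_div_iff₀ hSp' hSp]
      linarith
    have hA : |pp (m+1) n - pp m n - ld 1 0 m n| ≤ 10000/((m:ℝ)^2 + (n:ℝ)^2) := by
      have h := pk_dx m n h0
      unfold ld pp
      rw [show (1:ℝ) * m + 0 * n = m by ring]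
      exact h
    have e : pp (m+1) (n+1) - pp m n - ld 1 1 m n
        = (pp (m+1) (n+1) - pp (m+1) n - ld 0 1 (m+1) n) + (pp (m+1) n - pp m n - ld 1 0 m n)
          + (ld 0 1 (m+1) n - ld 0 1 m n) := by
      have : ld 1 1 m n = ld 1 0 m n + ld 0 1 m n := by
        unfold ld; ring
      rw [this]; ring
    rw [e]
    refine (abs_add_le _ _).trans ((add_le_add (abs_add_le _ _) le_rfl).trans ?_)
    calc _ ≤ 40000/((m:ℝ)^2 + (n:ℝ)^2) + 10000/((m:ℝ)^2 + (n:ℝ)^2) + 2/((m:ℝ)^2 + (n:ℝ)^2) :=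
          add_le_add (add_le_add hb' hA) hc
      _ = 50002/((m:ℝ)^2 + (n:ℝ)^2) := by ring
      _ ≤ _ := div_le_div_of_nonneg_right (by norm_num) hSp.le

theorem sh_m11 (m n : ℤ) (h0 : ¬ (m = 0 ∧ n = 0)) :
    |pp (m-1) (n+1) - pp m n - ld (-1) 1 m n| ≤ 60000/((m:ℝ)^2 + (n:ℝ)^2) := by
  have h := sh11 (-m) n (by omega)
  rw [show -m + 1 = -(m-1) by ring, pp_neg1, pp_neg1] at h
  have e : ld 1 1 (-m) n = ld (-1) 1 m n := by
    unfold ld; push_cast; congr 2 <;> ring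
  rw [e] at h
  simpa using h

theorem sh_1m1 (m n : ℤ) (h0 : ¬ (m = 0 ∧ n = 0)) :
    |pp (m+1) (n-1) - pp m n - ld 1 (-1) m n| ≤ 60000/((m:ℝ)^2 + (n:ℝ)^2) := by
  have h := sh11 m (-n) (by omega)
  rw [show -n + 1 = -(n-1) by ring, pp_neg2, pp_neg2] at h
  have e : ld 1 1 m (-n) = ld 1 (-1) m n := by
    unfold ld; push_cast; congr 2 <;> ring
  rw [e] at h
  simpa using h

theorem sh_m1m1 (m n : ℤ) (h0 : ¬ (m = 0 ∧ n = 0)) :
    |pp (m-1) (n-1) - pp m n - ld (-1) (-1) m n| ≤ 60000/((m:ℝ)^2 + (n:ℝ)^2) := by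
  have h := sh11 (-m) (-n) (by omega)
  rw [show -m + 1 = -(m-1) by ring, show -n + 1 = -(n-1) by ring, pp_neg, pp_neg] at h
  have e : ld 1 1 (-m) (-n) = ld (-1) (-1) m n := by
    unfold ld; push_cast; congr 2 <;> ring
  rw [e] at h
  simpa using h

end Crest.Agent.R165.Spx583
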