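import Mathlib
import Crest.Agent.R165.SpA_583

/-!
Row 165, block U2: leading term and bounds of the plane propagator `SP`; its values on the diagonal
staircase (input of Wu's formula, `Stair_408`).
-/

set_option autoImplicit false
set_option linter.unusedSimpArgs false

namespace Crest.Agent.R165.Spx583

open Crest.Agent.R165.Pkx583 Real

/-- leading coefficients -/
def al (x : ℝ) : Fin 4 → Fin 4 → ℝ
  | 0, 0 => 2*x | 0, 1 => -(x+x^2) | 0, 2 => 0 | 0, 3 => x+x^2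
  | 1, 0 => -(x+x^2) | 1, 1 => 0 | 1, 2 => x+x^2 | 1, 3 => -(2*x)
  | 2, 0 => 0 | 2, 1 => x+x^2 | 2, 2 => -(2*x) | 2, 3 => x+x^2
  | 3, 0 => x+x^2 | 3, 1 => -(2*x) | 3, 2 => x+x^2 | 3, 3 => 0

def be (x : ℝ) : Fin 4 → Fin 4 → ℝ
  | 0, 0 => 0 | 0, 1 => -(x+x^2) | 0, 2 => 2*x | 0, 3 => -(x+x^2)
  | 1, 0 => -(x+x^2) | 1, 1 => 2*x | 1, 2 => -(x+x^2) | 1, 3 => 0
  | 2, 0 => 2*x | 2, 1 => -(x+x^2) | 2, 2 => 0 | 2, 3 => x+x^2
  | 3, 0 => -(x+x^2) | 3, 1 => 0 | 3, 2 => x+x^2 | 3, 3 => -(2*x)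

theorem mul_bd {c e B : ℝ} (hc0 : 0 ≤ c) (hc1 : c ≤ 1) (he : |e| ≤ B) : -B ≤ c * e ∧ c * e ≤ B := by
  have hB : 0 ≤ B := (abs_nonneg e).trans he
  have h := abs_le.1 he
  constructor <;> nlinarith

theorem TT_lead_aux (x p p10 pm10 p01 p0m1 p11 pm11 p1m1 pm1m1 u v B : ℝ) (hx : x^2+2*x=1) (hx0 : 0 < x) (hx1 : x < 1/2)
    (h10 : |p10 - p - u| ≤ B) (hm10 : |pm10 - p + u| ≤ B) (h01 : |p01 - p - v| ≤ B)
    (h0m1 : |p0m1 - p + v| ≤ B) (h11 : |p11 - p - u - v| ≤ B) (hm11 : |pm11 - p + u - v| ≤ B)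
    (h1m1 : |p1m1 - p - u + v| ≤ B) (hm1m1 : |pm1m1 - p + u + v| ≤ B) :
    |(x*p10 - x*pm10) - 2*x*u| ≤ 4*B ∧
    |(x*p01 - x*p0m1) - 2*x*v| ≤ 4*B ∧
    |(-p + x*pm10 + x*p0m1 + x^2*pm1m1) + (x+x^2)*(u+v)| ≤ 4*B ∧
    |(-p + x*p10 + x*p0m1 + x^2*p1m1) - (x+x^2)*(u-v)| ≤ 4*B ∧
    |(-p + x*p10 + x*p01 + x^2*p11) - (x+x^2)*(u+v)| ≤ 4*B ∧
    |(-p + x*pm10 + x*p01 + x^2*pm11) + (x+x^2)*(u-v)| ≤ 4*B ∧
    |((1-x^2)*p - (x+x^3)*p0m1 - x^2*pm1m1 - x^2*p1m1) - 2*x*v| ≤ 4*B ∧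
    |((1-x^2)*p - (x+x^3)*p10 - x^2*p11 - x^2*p1m1) + 2*x*u| ≤ 4*B ∧
    |(-(1-x^2)*p + (x+x^3)*p01 + x^2*pm11 + x^2*p11) - 2*x*v| ≤ 4*B ∧
    |(-(1-x^2)*p + (x+x^3)*pm10 + x^2*pm11 + x^2*pm1m1) + 2*x*u| ≤ 4*B := by
  have hx2 : x^2 ≤ 1 := by nlinarith
  have hx20 : 0 ≤ x^2 := sq_nonneg x
  have hx3 : x + x^3 ≤ 1 := by nlinarith [mul_nonneg hx0.le hx20]
  have hx30 : 0 ≤ x + x^3 := by positivity
  have hxl : x ≤ 1 := by linarith
  have hB : 0 ≤ B := (abs_nonneg _).trans h10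
  have hxx : x^2 = 1 - 2*x := by linarith
  have hxxx : x^3 = 5*x - 2 := by
    have : x^3 = x * x^2 := by ring
    rw [this, hxx]; nlinarith
  obtain ⟨a1, a2⟩ := mul_bd hx0.le hxl h10
  obtain ⟨a3, a4⟩ := mul_bd hx0.le hxl hm10
  obtain ⟨a5, a6⟩ := mul_bd hx0.le hxl h01
  obtain ⟨a7, a8⟩ := mul_bd hx0.le hxl h0m1
  obtain ⟨b1, b2⟩ := mul_bd hx20 hx2 h11
  obtain ⟨b3, b4⟩ := mul_bd hx20 hx2 hm11
  obtain ⟨b5, b6⟩ := mul_bd hx20 hx2 h1m1
  obtain ⟨b7, b8⟩ := mul_bd hx20 hx2 hm1m1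
  obtain ⟨c1, c2⟩ := mul_bd hx30 hx3 h10
  obtain ⟨c3, c4⟩ := mul_bd hx30 hx3 hm10
  obtain ⟨c5, c6⟩ := mul_bd hx30 hx3 h01
  obtain ⟨c7, c8⟩ := mul_bd hx30 hx3 h0m1
  rw [hxxx] at c1 c2 c3 c4 c5 c6 c7 c8
  rw [hxx] at b1 b2 b3 b4 b5 b6 b7 b8
  simp only [hxx, hxxx]
  refine ⟨?_, ?_, ?_, ?_, ?_, ?_, ?_, ?_, ?_, ?_⟩ <;> rw [abs_le] <;> constructor <;> linarith

theorem TT_lead (a b : Fin 4) (m n : ℤ) (h0 : ¬ (m = 0 ∧ n = 0)) :
    |TT xc pp a b m n - (1/(2*π)) * ((al xc a b * m + be xc a b * n)/((m:ℝ)^2+(n:ℝ)^2))|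
      ≤ 240000/((m:ℝ)^2+(n:ℝ)^2) := by
  have hS := S_pos h0
  have hSp : 0 < (m:ℝ)^2+(n:ℝ)^2 := by linarith
  set S : ℝ := (m:ℝ)^2+(n:ℝ)^2 with hSdef
  set u : ℝ := (1/(2*π)) * ((m:ℝ)/S) with hu
  set v : ℝ := (1/(2*π)) * ((n:ℝ)/S) with hv
  have hld : ∀ i j : ℝ, ld i j m n = i*u + j*v := by
    intro i j
    rw [hu, hv, hSdef]
    unfold ld
    ring
  have hB5 : 50000/S ≤ 60000/S := div_le_div_of_nonneg_right (by norm_num) hSp.le
  have e10 := (sh10 m n h0).trans hB5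
  have em10 := (sh_m10 m n h0).trans hB5
  have e01 := (sh01 m n h0).trans hB5
  have e0m1 := (sh_0m1 m n h0).trans hB5
  have e11 := sh11 m n h0
  have em11 := sh_m11 m n h0
  have e1m1 := sh_1m1 m n h0
  have em1m1 := sh_m1m1 m n h0
  rw [hld] at e10 em10 e01 e0m1 e11 em11 e1m1 em1m1
  have key := TT_lead_aux xc (pp m n) (pp (m+1) n) (pp (m-1) n) (pp m (n+1)) (pp m (n-1))
    (pp (m+1) (n+1)) (pp (m-1) (n+1)) (pp (m+1) (n-1)) (pp (m-1) (n-1)) u v (60000/S) xc_rel xc_pos xc_lt_half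
    (le_of_eq_of_le (congrArg abs (by ring)) e10) (le_of_eq_of_le (congrArg abs (by ring)) em10)
    (le_of_eq_of_le (congrArg abs (by ring)) e01) (le_of_eq_of_le (congrArg abs (by ring)) e0m1)
    (le_of_eq_of_le (congrArg abs (by ring)) e11) (le_of_eq_of_le (congrArg abs (by ring)) em11)
    (le_of_eq_of_le (congrArg abs (by ring)) e1m1) (le_of_eq_of_le (congrArg abs (by ring)) em1m1)
  obtain ⟨k1, k2, k3, k4, k5, k6, k7, k8, k9, k10⟩ := key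
  have e4 : 4 * (60000/S) = 240000/S := by ring
  rw [e4] at k1 k2 k3 k4 k5 k6 k7 k8 k9 k10
  have hlead : ∀ A C : ℝ, (1/(2*π)) * ((A * m + C * n)/S) = A*u + C*v := by
    intro A C
    rw [hu, hv]; ring
  rw [hlead]
  have hneg : ∀ X Y : ℝ, |X| ≤ Y → |-X| ≤ Y := fun X Y h => by rwa [abs_neg]
  fin_cases a <;> fin_cases b <;>
    simp only [TT, al, be, Fin.zero_eta, Fin.mk_one, Fin.reduceFinMk, Fin.isValue]
  · convert k1 using 2; ring
  · convert k3 using 2; ring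
  · convert k7 using 2; ring
  · convert k4 using 2; ring
  · convert hneg _ _ k5 using 2; ring
  · convert k2 using 2; ring
  · convert k4 using 2; ring
  · convert k8 using 2; ring
  · convert k9 using 2; ring
  · convert hneg _ _ k6 using 2; ring
  · convert hneg _ _ k1 using 2; ring
  · convert k5 using 2; ring
  · convert hneg _ _ k6 using 2; ring
  · convert k10 using 2; ring
  · convert hneg _ _ k3 using 2; ring
  · convert hneg _ _ k2 using 2; ring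

/-- the angle `ψ = 3(θ_a + θ_b)/2`, `θ = -90°, 0°, 90°, 180°` for S, E, N, W -/
noncomputable def psi (a b : Fin 4) : ℝ := (3*π/4) * (((a.val:ℝ) + (b.val:ℝ)) - 2)

theorem one_add_xc : 1 + xc = Real.sqrt 2 := by unfold xc; ring

theorem al_eq (a b : Fin 4) : al xc a b = 2 * xc * Real.sin (psi a b) := by
  have hs : Real.sin (π/4) = Real.sqrt 2 / 2 := Real.sin_pi_div_four
  have h0 : Real.sin ((3*π/4) * ((0:ℝ)-2)) = 1 := by
    rw [show (3*π/4) * ((0:ℝ)-2) = π/2 - 2*π by ring, Real.sin_sub_two_pi, Real.sin_pi_div_two]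
  have h1 : Real.sin ((3*π/4) * ((1:ℝ)-2)) = -(Real.sqrt 2/2) := by
    rw [show (3*π/4) * ((1:ℝ)-2) = π/4 - π by ring, Real.sin_sub_pi, hs]
  have h2 : Real.sin ((3*π/4) * ((2:ℝ)-2)) = 0 := by simp
  have h3 : Real.sin ((3*π/4) * ((3:ℝ)-2)) = Real.sqrt 2/2 := by
    rw [show (3*π/4) * ((3:ℝ)-2) = π - π/4 by ring, Real.sin_pi_sub, hs]
  have h4 : Real.sin ((3*π/4) * ((4:ℝ)-2)) = -1 := by
    rw [show (3*π/4) * ((4:ℝ)-2) = π/2 + π by ring, Real.sin_add_pi, Real.sin_pi_div_two]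
  have h5 : Real.sin ((3*π/4) * ((5:ℝ)-2)) = Real.sqrt 2/2 := by
    rw [show (3*π/4) * ((5:ℝ)-2) = π/4 + 2*π by ring, Real.sin_add_two_pi, hs]
  have h6 : Real.sin ((3*π/4) * ((6:ℝ)-2)) = 0 := by
    rw [show (3*π/4) * ((6:ℝ)-2) = π + 2*π by ring, Real.sin_add_two_pi, Real.sin_pi]
  have hx : xc + xc^2 = 2 * xc * (Real.sqrt 2/2) := by rw [← one_add_xc]; ring
  have hx' : -(xc + xc^2) = 2 * xc * (-(Real.sqrt 2/2)) := by rw [← one_add_xc]; ring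
  unfold psi
  fin_cases a <;> fin_cases b <;>
    simp only [al, Fin.zero_eta, Fin.mk_one, Fin.reduceFinMk, Fin.isValue, Fin.val_zero, Fin.val_one, Fin.val_two,
      Nat.cast_zero, Nat.cast_one, Nat.cast_ofNat, Fin.coe_ofNat_eq_mod, Nat.reduceMod, add_zero, zero_add]
  · rw [h0]; ring
  · rw [h1, ← hx']
  · rw [h2]; ring
  · rw [h3, ← hx]
  · rw [h1, ← hx']
  · rw [show (1:ℝ)+1 = 2 by norm_num, h2]; ring
  · rw [show (1:ℝ)+2 = 3 by norm_num, h3, ← hx]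
  · rw [show (1:ℝ)+3 = 4 by norm_num, h4]; ring
  · rw [h2]; ring
  · rw [show (2:ℝ)+1 = 3 by norm_num, h3, ← hx]
  · rw [show (2:ℝ)+2 = 4 by norm_num, h4]; ring
  · rw [show (2:ℝ)+3 = 5 by norm_num, h5, ← hx]
  · rw [h3, ← hx]
  · rw [show (3:ℝ)+1 = 4 by norm_num, h4]; ring
  · rw [show (3:ℝ)+2 = 5 by norm_num, h5, ← hx]
  · rw [show (3:ℝ)+3 = 6 by norm_num, h6]; ring

theorem be_eq (a b : Fin 4) : be xc a b = 2 * xc * Real.cos (psi a b) := by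
  have hs : Real.cos (π/4) = Real.sqrt 2 / 2 := Real.cos_pi_div_four
  have h0 : Real.cos ((3*π/4) * ((0:ℝ)-2)) = 0 := by
    rw [show (3*π/4) * ((0:ℝ)-2) = π/2 - 2*π by ring, Real.cos_sub_two_pi, Real.cos_pi_div_two]
  have h1 : Real.cos ((3*π/4) * ((1:ℝ)-2)) = -(Real.sqrt 2/2) := by
    rw [show (3*π/4) * ((1:ℝ)-2) = π/4 - π by ring, Real.cos_sub_pi, hs]
  have h2 : Real.cos ((3*π/4) * ((2:ℝ)-2)) = 1 := by simp
  have h3 : Real.cos ((3*π/4) * ((3:ℝ)-2)) = -(Real.sqrt 2/2) := by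
    rw [show (3*π/4) * ((3:ℝ)-2) = π - π/4 by ring, Real.cos_pi_sub, hs]
  have h4 : Real.cos ((3*π/4) * ((4:ℝ)-2)) = 0 := by
    rw [show (3*π/4) * ((4:ℝ)-2) = π/2 + π by ring, Real.cos_add_pi, Real.cos_pi_div_two, neg_zero]
  have h5 : Real.cos ((3*π/4) * ((5:ℝ)-2)) = Real.sqrt 2/2 := by
    rw [show (3*π/4) * ((5:ℝ)-2) = π/4 + 2*π by ring, Real.cos_add_two_pi, hs]
  have h6 : Real.cos ((3*π/4) * ((6:ℝ)-2)) = -1 := by
    rw [show (3*π/4) * ((6:ℝ)-2) = π + 2*π by ring, Real.cos_add_two_pi, Real.cos_pi]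
  have hx : xc + xc^2 = 2 * xc * (Real.sqrt 2/2) := by rw [← one_add_xc]; ring
  have hx' : -(xc + xc^2) = 2 * xc * (-(Real.sqrt 2/2)) := by rw [← one_add_xc]; ring
  unfold psi
  fin_cases a <;> fin_cases b <;>
    simp only [be, Fin.zero_eta, Fin.mk_one, Fin.reduceFinMk, Fin.isValue, Fin.val_zero, Fin.val_one, Fin.val_two,
      Nat.cast_zero, Nat.cast_one, Nat.cast_ofNat, Fin.coe_ofNat_eq_mod, Nat.reduceMod, add_zero, zero_add]
  · rw [h0]; ring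
  · rw [h1, ← hx']
  · rw [h2]; ring
  · rw [h3, ← hx']
  · rw [h1, ← hx']
  · rw [show (1:ℝ)+1 = 2 by norm_num, h2]; ring
  · rw [show (1:ℝ)+2 = 3 by norm_num, h3, ← hx']
  · rw [show (1:ℝ)+3 = 4 by norm_num, h4]; ring
  · rw [h2]; ring
  · rw [show (2:ℝ)+1 = 3 by norm_num, h3, ← hx']
  · rw [show (2:ℝ)+2 = 4 by norm_num, h4]; ring
  · rw [show (2:ℝ)+3 = 5 by norm_num, h5, ← hx]
  · rw [h3, ← hx']
  · rw [show (3:ℝ)+1 = 4 by norm_num, h4]; ring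
  · rw [show (3:ℝ)+2 = 5 by norm_num, h5, ← hx]
  · rw [show (3:ℝ)+3 = 6 by norm_num, h6]; ring

/-- the leading term of the plane kernel,
`(1/(2π x)) Re(i e^{-iψ}/(m+in)) = (1/(2πx)) (m sin ψ + n cos ψ)/(m²+n²)` -/
noncomputable def SPlead (a b : Fin 4) (m n : ℤ) : ℝ :=
  (1/(2*π*xc)) * ((Real.sin (psi a b) * m + Real.cos (psi a b) * n)/((m:ℝ)^2+(n:ℝ)^2))

/-- **leading asymptotics of the plane kernel** -/
theorem SP_asymp (a b : Fin 4) (m n : ℤ) (h0 : ¬ (m = 0 ∧ n = 0)) :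
    |SP a b m n - SPlead a b m n| ≤ 1000000/((m:ℝ)^2+(n:ℝ)^2) := by
  have h := TT_lead a b m n h0
  rw [al_eq, be_eq] at h
  have hS := S_pos h0
  have hSp : 0 < (m:ℝ)^2+(n:ℝ)^2 := by linarith
  have hx := xc_pos
  have e : SP a b m n - SPlead a b m n = (1/(2*xc^2)) * (TT xc pp a b m n
      - (1/(2*π)) * ((2 * xc * Real.sin (psi a b) * m + 2 * xc * Real.cos (psi a b) * n)/((m:ℝ)^2+(n:ℝ)^2))) := by
    unfold SP SPlead
    have hp := Real.pi_ne_zero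
    field_simp
  rw [e, abs_mul, abs_of_pos (by positivity : (0:ℝ) < 1/(2*xc^2))]
  have hk : 1/(2*xc^2) ≤ 4 := by
    have h1 : (2/5:ℝ) ≤ xc := by
      have := xc_rel
      by_contra hlt
      push Not at hlt
      nlinarith
    rw [div_le_iff₀ (by positivity)]
    nlinarith
  calc _ ≤ 4 * (240000/((m:ℝ)^2+(n:ℝ)^2)) := mul_le_mul hk h (abs_nonneg _) (by norm_num)
    _ ≤ _ := by
      rw [← mul_div_assoc]
      exact div_le_div_of_nonneg_right (by norm_num) hSp.le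

theorem abs_SPlead_le (a b : Fin 4) (m n : ℤ) (h0 : ¬ (m = 0 ∧ n = 0)) :
    |SPlead a b m n| ≤ 3 / (1 + |(m:ℝ)| + |(n:ℝ)|) := by
  have hS := S_pos h0
  have hSp : 0 < (m:ℝ)^2+(n:ℝ)^2 := by linarith
  have hx := xc_pos
  have h25 : (2/5:ℝ) ≤ xc := by
    have := xc_rel
    by_contra hlt
    push Not at hlt
    nlinarith
  unfold SPlead
  rw [abs_mul, abs_of_pos (by positivity : (0:ℝ) < 1/(2*π*xc)), abs_div, abs_of_pos hSp]
  set M : ℝ := |(m:ℝ)| with hM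
  set N : ℝ := |(n:ℝ)| with hN
  have hM0 : 0 ≤ M := abs_nonneg _
  have hN0 : 0 ≤ N := abs_nonneg _
  have hMs : (m:ℝ)^2 = M^2 := (sq_abs _).symm
  have hNs : (n:ℝ)^2 = N^2 := (sq_abs _).symm
  have hnum : |Real.sin (psi a b) * m + Real.cos (psi a b) * n| ≤ M + N := by
    refine (abs_add_le _ _).trans ?_
    rw [abs_mul, abs_mul, ← hM, ← hN]
    have h1 := Real.abs_sin_le_one (psi a b)
    have h2 := Real.abs_cos_le_one (psi a b)
    nlinarith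
  have hk : 1/(2*π*xc) ≤ 1/2 := by
    apply one_div_le_one_div_of_le (by norm_num)
    nlinarith [Real.pi_gt_three]
  have e1 : |Real.sin (psi a b) * m + Real.cos (psi a b) * n|/((m:ℝ)^2+(n:ℝ)^2) ≤ 6/(1+M+N) := by
    rw [div_le_div_iff₀ hSp (by positivity), hMs, hNs]
    rw [hMs, hNs] at hS
    calc _ ≤ (M+N) * (1+M+N) := mul_le_mul_of_nonneg_right hnum (by positivity)
      _ ≤ 6 * (M^2+N^2) := by nlinarith [sq_nonneg (M-N), sq_nonneg (M-1/2), sq_nonneg (N-1/2)]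
  calc _ ≤ (1/2) * (6/(1+M+N)) := mul_le_mul hk e1 (by positivity) (by norm_num)
    _ = _ := by ring

/-- **bound of the plane kernel** `|S| ≤ C/(1+|m|+|n|)` -/
theorem SP_le (a b : Fin 4) (m n : ℤ) : |SP a b m n| ≤ 4000000 / (1 + |(m:ℝ)| + |(n:ℝ)|) := by
  by_cases h0 : m = 0 ∧ n = 0
  · obtain ⟨rfl, rfl⟩ := h0
    -- crude bound at the origin from the antisymmetry with the neighbours: use the definition
    have hx := xc_pos
    have hx1 := xc_lt_half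
    have hb : ∀ i j : ℤ, |i| ≤ 1 → |j| ≤ 1 → |pp i j| ≤ 1 := by
      intro i j hi hj
      have h1 : |pp 1 0| ≤ 1/2 := by
        have := abs_pk_dx_le_half 0 0
        simp only [zero_add] at this
        rw [pk_zero, sub_zero] at this
        exact this
      have h11 : |pp 1 1| ≤ 1 := by
        have := abs_pk_dx_le_half 0 1
        simp only [zero_add] at this
        have h01 : pp 0 1 = pp 1 0 := pp_comm 0 1
        have e : pp 1 1 = (pk (1,1) - pk (0,1)) + pp 1 0 := by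
          rw [← h01]; unfold pp; ring
        rw [e]
        refine (abs_add_le _ _).trans ?_
        linarith
      have h00 : pp 0 0 = 0 := pk_zero
      have hi1 := abs_le.1 hi
      have hj1 := abs_le.1 hj
      have ci : i = -1 ∨ i = 0 ∨ i = 1 := by omega
      have cj : j = -1 ∨ j = 0 ∨ j = 1 := by omega
      have h01 : pp 0 1 = pp 1 0 := pp_comm 0 1
      rcases ci with rfl | rfl | rfl <;> rcases cj with rfl | rfl | rfl <;>
        (try simp only [pp_neg1, pp_neg2, h00, h01, abs_zero]) <;> linarith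
    have hx2 : xc^2 ≤ 1 := by nlinarith
    have hx20 : 0 ≤ xc^2 := sq_nonneg _
    have hx3 : xc + xc^3 ≤ 1 := by nlinarith [mul_nonneg hx.le hx20]
    have hx30 : 0 ≤ xc + xc^3 := by positivity
    have hT : |TT xc pp a b 0 0| ≤ 4 := by
      have q : ∀ c : ℝ, 0 ≤ c → c ≤ 1 → ∀ i j : ℤ, |i| ≤ 1 → |j| ≤ 1 → -1 ≤ c * pp i j ∧ c * pp i j ≤ 1 :=
        fun c h0 h1 i j hi hj => mul_bd h0 h1 (hb i j hi hj)
      have z1 := q xc hx.le (by linarith)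
      have z2 := q (xc^2) hx20 hx2
      have z3 := q (xc+xc^3) hx30 hx3
      have h00 : pp 0 0 = 0 := pk_zero
      have a1 := z1 1 0 (by norm_num) (by norm_num)
      have a2 := z1 (-1) 0 (by norm_num) (by norm_num)
      have a3 := z1 0 1 (by norm_num) (by norm_num)
      have a4 := z1 0 (-1) (by norm_num) (by norm_num)
      have b1 := z2 1 1 (by norm_num) (by norm_num)
      have b2 := z2 (-1) 1 (by norm_num) (by norm_num)
      have b3 := z2 1 (-1) (by norm_num) (by norm_num)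
      have b4 := z2 (-1) (-1) (by norm_num) (by norm_num)
      have c1 := z3 1 0 (by norm_num) (by norm_num)
      have c2 := z3 (-1) 0 (by norm_num) (by norm_num)
      have c3 := z3 0 1 (by norm_num) (by norm_num)
      have c4 := z3 0 (-1) (by norm_num) (by norm_num)
      rw [abs_le]
      fin_cases a <;> fin_cases b <;>
        (simp only [TT, Fin.zero_eta, Fin.mk_one, Fin.reduceFinMk, Fin.isValue, zero_add, zero_sub, h00, mul_zero,
          neg_zero]; constructor <;> linarith)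
    have hk : 1/(2*xc^2) ≤ 4 := by
      have h1 : (2/5:ℝ) ≤ xc := by
        have := xc_rel
        by_contra hlt
        push Not at hlt
        nlinarith
      rw [div_le_iff₀ (by positivity)]
      nlinarith
    unfold SP
    rw [abs_mul, abs_of_pos (by positivity : (0:ℝ) < 1/(2*xc^2))]
    have : 1/(2*xc^2) * |TT xc pp a b 0 0| ≤ 4 * 4 := mul_le_mul hk hT (abs_nonneg _) (by norm_num)
    refine this.trans ?_
    norm_num
  · have h := SP_asymp a b m n h0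
    have hl := abs_SPlead_le a b m n h0
    have hS := S_pos h0
    have hSp : 0 < (m:ℝ)^2+(n:ℝ)^2 := by linarith
    set M : ℝ := |(m:ℝ)| with hM
    set N : ℝ := |(n:ℝ)| with hN
    have hM0 : 0 ≤ M := abs_nonneg _
    have hN0 : 0 ≤ N := abs_nonneg _
    have hMs : (m:ℝ)^2 = M^2 := (sq_abs _).symm
    have hNs : (n:ℝ)^2 = N^2 := (sq_abs _).symm
    have h3 : (1 + M + N) ≤ 3 * ((m:ℝ)^2 + (n:ℝ)^2) := by
      rw [hMs, hNs] at hS ⊢
      nlinarith [sq_nonneg (M-1), sq_nonneg (N-1), sq_nonneg (M-1/2), sq_nonneg (N-1/2)]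
    have h4 : 1000000/((m:ℝ)^2 + (n:ℝ)^2) ≤ 3000000 / (1 + M + N) := by
      rw [div_le_div_iff₀ hSp (by positivity)]
      linarith
    have h5 := abs_add_le (SP a b m n - SPlead a b m n) (SPlead a b m n)
    rw [sub_add_cancel] at h5
    refine h5.trans ?_
    calc _ ≤ 3000000 / (1 + M + N) + 3/(1+M+N) := add_le_add (h.trans h4) hl
      _ ≤ _ := by
        rw [← add_div]
        exact div_le_div_of_nonneg_right (by norm_num) (by positivity)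

/-! ### the diagonal staircase values -/

/-- `P_j = S_(j,j) - x N_(j,j-1)`: `S(P_j,P_k) = 0`. -/
theorem SP_PP (d : ℤ) :
    SP 0 0 d d - xc * SP 0 2 d (d+1) - xc * SP 2 0 d (d-1) + xc^2 * SP 2 2 d d = 0 := by
  unfold SP
  simp only [TT, add_sub_cancel_right, sub_add_cancel]
  have e1 : pp d (d+1) = pp (d+1) d := pp_comm _ _
  have e2 : pp d (d-1) = pp (d-1) d := pp_comm _ _
  rw [e1, e2]
  ring

/-- `Q_j = N_(j,j) + x S_(j,j+1)`: `S(Q_j,Q_k) = 0`. -/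
theorem SP_QQ (d : ℤ) :
    SP 2 2 d d + xc * SP 2 0 d (d-1) + xc * SP 0 2 d (d+1) + xc^2 * SP 0 0 d d = 0 := by
  unfold SP
  simp only [TT, add_sub_cancel_right, sub_add_cancel]
  have e1 : pp d (d+1) = pp (d+1) d := pp_comm _ _
  have e2 : pp d (d-1) = pp (d-1) d := pp_comm _ _
  rw [e1, e2]
  ring

/-- `S(P_j,Q_k)`, `d = j - k`, in terms of the potential kernel. -/
theorem SP_PQ (d : ℤ) :
    SP 0 2 d d + xc * SP 0 0 d (d-1) - xc * SP 2 2 d (d-1) - xc^2 * SP 2 0 d (d-2)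
      = 2 * (pp d d - pp (d-1) (d-1)) := by
  have hx := xc_pos
  have hr := xc_rel
  have e3 : d - 2 + 1 = d - 1 := by ring
  have hl := pk_lap d (d-1)
  have hl2 : pp (d+1) (d-1) + pp (d-1) (d-1) + pp d d + pp d (d-2) - 4 * pp d (d-1) = 0 := by
    have : d - 1 + 1 = d := by ring
    have h2 : d - 1 - 1 = d - 2 := by ring
    rw [this, h2, if_neg (by omega)] at hl
    exact hl
  have hT : TT xc pp 0 2 d d + xc * TT xc pp 0 0 d (d-1) - xc * TT xc pp 2 2 d (d-1)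
      - xc^2 * TT xc pp 2 0 d (d-2) = 4 * xc^2 * (pp d d - pp (d-1) (d-1)) := by
    simp only [TT, e3]
    linear_combination (2*xc^3) * hl2 + (-(2*xc+1) * pp d d - xc*(xc^2-2*xc-1) * pp d (d-1)
      - xc^2 * pp (d-1) (d-1) - xc^2 * pp (d+1) (d-1) - xc^2 * pp d (d-2)) * hr
  have e : SP 0 2 d d + xc * SP 0 0 d (d-1) - xc * SP 2 2 d (d-1) - xc^2 * SP 2 0 d (d-2)
      = (1/(2*xc^2)) * (TT xc pp 0 2 d d + xc * TT xc pp 0 0 d (d-1) - xc * TT xc pp 2 2 d (d-1)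
      - xc^2 * TT xc pp 2 0 d (d-2)) := by
    unfold SP; ring
  rw [e, hT]
  field_simp
  ring

theorem pp_diag (d : ℤ) : 2 * (pp d d - pp (d-1) (d-1)) = 1/(π * ((d:ℝ) - 1/2)) := by
  have hp := Real.pi_ne_zero
  rcases le_or_gt 1 d with h | h
  · obtain ⟨n, hn⟩ := Int.eq_ofNat_of_zero_le (by omega : 0 ≤ d - 1)
    have hd : d = (n:ℤ) + 1 := by omega
    have hs := pk_diag_step n
    have e : pp d d - pp (d-1) (d-1) = pk ((n:ℤ)+1, (n:ℤ)+1) - pk ((n:ℤ), (n:ℤ)) := by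
      unfold pp; rw [hd]; simp
    rw [e, hs, hd]
    push_cast
    have h1 : (2*(n:ℝ)+1) ≠ 0 := by positivity
    rw [show ((n:ℝ)+1-1/2) = (2*n+1)/2 by ring]
    field_simp
  · obtain ⟨n, hn⟩ := Int.eq_ofNat_of_zero_le (by omega : 0 ≤ -d)
    have hd : d = -(n:ℤ) := by omega
    have hs := pk_diag_step n
    have e : pp d d - pp (d-1) (d-1) = -(pk ((n:ℤ)+1, (n:ℤ)+1) - pk ((n:ℤ), (n:ℤ))) := by
      have e1 : pp d d = pk ((n:ℤ), (n:ℤ)) := by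
        rw [hd, pp_neg1, pp_neg2]; rfl
      have e2 : pp (d-1) (d-1) = pk ((n:ℤ)+1, (n:ℤ)+1) := by
        rw [hd, show -(n:ℤ) - 1 = -((n:ℤ)+1) by ring, pp_neg1, pp_neg2]; rfl
      rw [e1, e2]; ring
    rw [e, hs, hd]
    push_cast
    have h1 : (2*(n:ℝ)+1) ≠ 0 := by positivity
    rw [show (-(n:ℝ)-1/2) = -((2*n+1)/2) by ring]
    field_simp

/-- **the Cauchy entries**: `S(P_j,Q_k) = 1/(π(d - 1/2))`, `d = j - k`. -/
theorem SP_PQ' (d : ℤ) :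
    SP 0 2 d d + xc * SP 0 0 d (d-1) - xc * SP 2 2 d (d-1) - xc^2 * SP 2 0 d (d-2)
      = 1/(π * ((d:ℝ) - 1/2)) := by
  rw [SP_PQ, pp_diag]

end Crest.Agent.R165.Spx583
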