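import Mathlib
import Crest.Agent.R165.SpB_583
import Crest.Agent.R165.Gap_811
import Crest.Agent.R165.Lat_683

/-!
Row 165, block U2: the plane covariance on the types of `Lat_683` (`IsCov (wPl ℤ) Spl`) and the term
`planeKernel : Gapx811.PlaneKernel` (helper583).
-/

set_option autoImplicit false
set_option linter.unusedSimpArgs false

noncomputable section

namespace Crest.Agent.R165.Spx583

open Crest.Agent.R165.Pkx583 Real Filter Topology
open Crest.Agent.R165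

/-- the plane covariance on half-edges -/
def Spl (h h' : Latx683.HE ℤ) : ℝ := SP h.2 h'.2 (h.1.1 - h'.1.1) (h.1.2 - h'.1.2)

theorem Spl_anti (h h' : Latx683.HE ℤ) : Spl h h' = - Spl h' h := by
  unfold Spl
  rw [SP_anti h.2 h'.2, neg_sub, neg_sub]

theorem Spl_shift (h h' : Latx683.HE ℤ) (v : ℤ × ℤ) : Spl (h.1 + v, h.2) (h'.1 + v, h'.2) = Spl h h' := by
  unfold Spl
  simp

theorem Spl_le (h h' : Latx683.HE ℤ) : |Spl h h'| ≤ 4000000 / (1 + |(h.1.1:ℝ) - h'.1.1| + |(h.1.2:ℝ) - h'.1.2|) := by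
  have := SP_le h.2 h'.2 (h.1.1 - h'.1.1) (h.1.2 - h'.1.2)
  unfold Spl
  push_cast at this
  exact this

theorem tendsto_dist (u : ℤ × ℤ) : Tendsto (fun h : Latx683.HE ℤ => 1 + |(h.1.1:ℝ) - u.1| + |(h.1.2:ℝ) - u.2|)
    cofinite atTop := by
  rw [tendsto_atTop]
  intro B
  rw [eventually_cofinite]
  obtain ⟨N, hN⟩ := exists_nat_ge B
  apply Set.Finite.subset (s := (Set.Icc (u.1 - N) (u.1 + N) ×ˢ Set.Icc (u.2 - N) (u.2 + N)) ×ˢ (Set.univ : Set (Fin 4)))
  · exact ((Set.finite_Icc _ _).prod (Set.finite_Icc _ _)).prod Set.finite_univ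
  · intro h hh
    have hh' : 1 + |(h.1.1:ℝ) - u.1| + |(h.1.2:ℝ) - u.2| < B := not_le.1 hh
    have h1 : |(h.1.1:ℝ) - u.1| ≤ N := by
      have := abs_nonneg ((h.1.2:ℝ) - u.2); linarith
    have h2 : |(h.1.2:ℝ) - u.2| ≤ N := by
      have := abs_nonneg ((h.1.1:ℝ) - u.1); linarith
    rw [abs_le] at h1 h2
    have a1 : u.1 - N ≤ h.1.1 := by have := h1.1; exact_mod_cast (by linarith : (u.1:ℝ) - N ≤ h.1.1)
    have a2 : h.1.1 ≤ u.1 + N := by have := h1.2; exact_mod_cast (by linarith : (h.1.1:ℝ) ≤ u.1 + N)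
    have a3 : u.2 - N ≤ h.1.2 := by have := h2.1; exact_mod_cast (by linarith : (u.2:ℝ) - N ≤ h.1.2)
    have a4 : h.1.2 ≤ u.2 + N := by have := h2.2; exact_mod_cast (by linarith : (h.1.2:ℝ) ≤ u.2 + N)
    exact ⟨⟨⟨a1, a2⟩, ⟨a3, a4⟩⟩, Set.mem_univ _⟩

theorem Spl_zero (h' : Latx683.HE ℤ) : Tendsto (fun h => Spl h h') cofinite (𝓝 0) := by
  have h1 : Tendsto (fun h : Latx683.HE ℤ => 4000000 / (1 + |(h.1.1:ℝ) - h'.1.1| + |(h.1.2:ℝ) - h'.1.2|))
      cofinite (𝓝 0) := (tendsto_dist h'.1).const_div_atTop _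
  exact squeeze_zero_norm (fun h => Spl_le h h') h1

theorem xc_eq683 : Latx683.xc = xc := rfl

theorem Arow_eq (F : Fin 4 → ℤ → ℤ → ℝ) (f u : ℤ × ℤ) (a : Fin 4) :
    Latx683.Arow (Latx683.wPl ℤ) (fun h => F h.2 (h.1.1 - u.1) (h.1.2 - u.2)) f a
      = row xc F a (f.1 - u.1) (f.2 - u.2) := by
  have e1 : f.2 - 1 - u.2 = f.2 - u.2 - 1 := by ring
  have e2 : f.1 + 1 - u.1 = f.1 - u.1 + 1 := by ring
  have e3 : f.2 + 1 - u.2 = f.2 - u.2 + 1 := by ring
  have e4 : f.1 - 1 - u.1 = f.1 - u.1 - 1 := by ring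
  fin_cases a
  · simp [Latx683.Arow, row, Latx683.yN, Latx683.wPl, e1, xc_eq683]
  · simp [Latx683.Arow, row, Latx683.yE, Latx683.wPl, e2, xc_eq683]
  · simp [Latx683.Arow, row, Latx683.yN, Latx683.wPl, e3, xc_eq683]
  · simp [Latx683.Arow, row, Latx683.yE, Latx683.wPl, e4, xc_eq683]

/-- **the plane covariance** -/
theorem isCov_Spl : Latx683.IsCov (Latx683.wPl ℤ) Spl where
  skew := Spl_anti
  zero := Spl_zero
  inv := by
    intro g h'
    rw [Latx683.Aop_apply]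
    have h := Arow_eq (fun c => SP c h'.2) g.1 h'.1 g.2
    have h2 : Latx683.Arow (Latx683.wPl ℤ) (fun h => Spl h h') g.1 g.2
      = row xc (fun c => SP c h'.2) g.2 (g.1.1 - h'.1.1) (g.1.2 - h'.1.2) := h
    rw [h2, row_SP]
    by_cases hg : g = h'
    · subst hg; simp
    · rw [Pi.single_eq_of_ne hg, if_neg, neg_zero]
      rintro ⟨h3, h4, h5⟩
      apply hg
      ext
      · linarith
      · linarith
      · rw [h3]

/-! ### the kernel of `Gap_811` -/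

open Gapx811 Schurx811

/-- summation by parts for finitely supported `φ` -/
theorem green (F : ℤ × ℤ → Fin 4 → ℝ) (I : Finset (ℤ × ℤ)) (φ : ℤ × ℤ → Fin 4 → ℝ) (hφ : Sup I φ) (x : ℝ) :
    ∑' w, ∑ b, F w b * Aop (fun _ => x) (fun _ => x) φ w b
      = - ∑' w, ∑ b, Aop (fun _ => x) (fun _ => x) F w b * φ w b := by
  have hs : ∀ (G : ℤ × ℤ → ℝ) (a : Fin 4), Summable (fun f => G f * φ f a) := fun G a =>
    summ (I := I) fun f hf => by rw [hφ f hf]; simp
  have hs' : ∀ (G : ℤ × ℤ → ℝ) (a : Fin 4) (v : ℤ × ℤ), Summable (fun f => G f * φ (f - v) a) := by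
    intro G a v
    have := summable_sub_shift (hs (fun f => G (f + v)) a) v
    simpa using this
  have hs2 : ∀ (G : ℤ × ℤ → ℝ) (a : Fin 4) (v : ℤ × ℤ), Summable (fun f => G f * φ (f + v) a) := by
    intro G a v
    have := summable_add_shift (hs (fun f => G (f - v)) a) v
    simpa using this
  have t1 : ∀ (G : ℤ × ℤ → ℝ) (a : Fin 4) (v : ℤ × ℤ), ∑' f, G f * φ (f - v) a = ∑' f, G (f + v) * φ f a := by
    intro G a v
    have := tsum_sub_shift (fun f => G (f + v) * φ f a) v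
    simpa using this
  have t2 : ∀ (G : ℤ × ℤ → ℝ) (a : Fin 4) (v : ℤ × ℤ), ∑' f, G f * φ (f + v) a = ∑' f, G (f - v) * φ f a := by
    intro G a v
    have := tsum_add_shift (fun f => G (f - v) * φ f a) v
    simpa using this
  have L : ∀ w, ∑ b, F w b * Aop (fun _ => x) (fun _ => x) φ w b
      = ((-F w 1 - F w 2 - F w 3) * φ w 0 + (F w 0 - F w 2 - F w 3) * φ w 1
          + (F w 0 + F w 1 - F w 3) * φ w 2 + (F w 0 + F w 1 + F w 2) * φ w 3)
        + ((x * F w 0) * φ (w - (0,1)) 2 + (x * F w 1) * φ (w + (1,0)) 3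
          + (-(x * F w 2)) * φ (w + (0,1)) 0 + (-(x * F w 3)) * φ (w - (1,0)) 1) := by
    intro w
    simp only [Fin.sum_univ_four, Aop, A0, Yop, Matrix.cons_val_zero, Matrix.cons_val_one, Matrix.cons_val]
    ring
  have R : ∀ w, ∑ b, Aop (fun _ => x) (fun _ => x) F w b * φ w b
      = -((-F w 1 - F w 2 - F w 3) * φ w 0 + (F w 0 - F w 2 - F w 3) * φ w 1
          + (F w 0 + F w 1 - F w 3) * φ w 2 + (F w 0 + F w 1 + F w 2) * φ w 3)
        - ((x * F (w + (0,1)) 0) * φ w 2 + (x * F (w - (1,0)) 1) * φ w 3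
          + (-(x * F (w - (0,1)) 2)) * φ w 0 + (-(x * F (w + (1,0)) 3)) * φ w 1) := by
    intro w
    simp only [Fin.sum_univ_four, Aop, A0, Yop, Matrix.cons_val_zero, Matrix.cons_val_one, Matrix.cons_val]
    ring
  rw [tsum_congr L, tsum_congr R]
  have sA : Summable (fun w => ((-F w 1 - F w 2 - F w 3) * φ w 0 + (F w 0 - F w 2 - F w 3) * φ w 1
          + (F w 0 + F w 1 - F w 3) * φ w 2 + (F w 0 + F w 1 + F w 2) * φ w 3)) :=
    (((hs (fun w => -F w 1 - F w 2 - F w 3) 0).add (hs (fun w => F w 0 - F w 2 - F w 3) 1)).add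
      (hs (fun w => F w 0 + F w 1 - F w 3) 2)).add (hs (fun w => F w 0 + F w 1 + F w 2) 3)
  have b1 := hs' (fun w => x * F w 0) 2 (0,1)
  have b2 := hs2 (fun w => x * F w 1) 3 (1,0)
  have b3 := hs2 (fun w => -(x * F w 2)) 0 (0,1)
  have b4 := hs' (fun w => -(x * F w 3)) 1 (1,0)
  have c1 := hs (fun w => x * F (w + (0,1)) 0) 2
  have c2 := hs (fun w => x * F (w - (1,0)) 1) 3
  have c3 := hs (fun w => -(x * F (w - (0,1)) 2)) 0
  have c4 := hs (fun w => -(x * F (w + (1,0)) 3)) 1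
  rw [sA.tsum_add (((b1.add b2).add b3).add b4), sA.neg.tsum_sub (((c1.add c2).add c3).add c4), tsum_neg,
    tsum_add4 b1 b2 b3 b4, tsum_add4 c1 c2 c3 c4,
    t1 (fun w => x * F w 0) 2 (0,1), t2 (fun w => x * F w 1) 3 (1,0), t2 (fun w => -(x * F w 2)) 0 (0,1),
    t1 (fun w => -(x * F w 3)) 1 (1,0)]
  ring

theorem xc_eq811 : Gapx811.xc = xc := rfl

theorem Aop_eq_row (F : Fin 4 → ℤ → ℤ → ℝ) (u w : ℤ × ℤ) (b : Fin 4) :
    Aop (fun _ => xc) (fun _ => xc) (fun f c => F c (f.1 - u.1) (f.2 - u.2)) w b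
      = row xc F b (w.1 - u.1) (w.2 - u.2) := by
  have e1 : w.2 - 1 - u.2 = w.2 - u.2 - 1 := by ring
  have e2 : w.1 + 1 - u.1 = w.1 - u.1 + 1 := by ring
  have e3 : w.2 + 1 - u.2 = w.2 - u.2 + 1 := by ring
  have e4 : w.1 - 1 - u.1 = w.1 - u.1 - 1 := by ring
  fin_cases b <;> simp [Aop, A0, Yop, row, e1, e2, e3, e4] <;> ring

/-- **the plane kernel of `Gap_811`**: `K.S z w a b = -SP a b (z-w)` -/
def planeKernel : PlaneKernel where
  S z w a b := - SP a b (z.1 - w.1) (z.2 - w.2)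
  c := 4000000
  c_pos := by norm_num
  bound := by
    intro z w a b
    rw [abs_neg]
    refine (SP_le a b _ _).trans ?_
    apply div_le_div_of_nonneg_left (by norm_num) (by positivity)
    have h1 : ((dd z w : ℕ) : ℝ) = max |((z.1 - w.1 : ℤ) : ℝ)| |((z.2 - w.2 : ℤ) : ℝ)| := by
      unfold dd
      rw [Nat.cast_max, Nat.cast_natAbs, Nat.cast_natAbs, Int.cast_abs, Int.cast_abs]
    rw [h1]
    have h2 : max |((z.1 - w.1 : ℤ) : ℝ)| |((z.2 - w.2 : ℤ) : ℝ)| ≤ |((z.1 - w.1 : ℤ) : ℝ)| + |((z.2 - w.2 : ℤ) : ℝ)| :=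
      max_le (le_add_of_nonneg_right (abs_nonneg _)) (le_add_of_nonneg_left (abs_nonneg _))
    linarith
  inv := by
    intro I φ hφ z a
    have h := green (fun w b => - SP a b (z.1 - w.1) (z.2 - w.2)) I φ hφ xc
    rw [show (∑' w, ∑ b, - SP a b (z.1 - w.1) (z.2 - w.2) * Aop (fun _ => Gapx811.xc) (fun _ => Gapx811.xc) φ w b)
      = ∑' w, ∑ b, (fun (w : ℤ × ℤ) b => - SP a b (z.1 - w.1) (z.2 - w.2)) w b * Aop (fun _ => xc) (fun _ => xc) φ w b from rfl, h]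
    have e : (fun (w : ℤ × ℤ) (b : Fin 4) => - SP a b (z.1 - w.1) (z.2 - w.2))
        = fun (f : ℤ × ℤ) c => SP c a (f.1 - z.1) (f.2 - z.2) := by
      funext w b
      rw [SP_anti a b, neg_neg, neg_sub, neg_sub]
    rw [e]
    have hA : ∀ w b, Aop (fun _ => xc) (fun _ => xc) (fun (f : ℤ × ℤ) c => SP c a (f.1 - z.1) (f.2 - z.2)) w b
        = if w = z ∧ b = a then -1 else 0 := by
      intro w b
      rw [Aop_eq_row (fun c => SP c a) z w b, row_SP]
      congr 1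
      rw [sub_eq_zero, sub_eq_zero, Prod.ext_iff]
      exact propext (by tauto)
    simp only [hA]
    rw [tsum_eq_single z]
    · simp
    · intro w hw
      simp [hw]

theorem planeKernel_S (z w : ℤ × ℤ) (a b : Fin 4) : planeKernel.S z w a b = - Spl (z, a) (w, b) := rfl

end Crest.Agent.R165.Spx583
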