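import Crest.Agent.R165.Cl7c_999
import Crest.Agent.R165.SpC_583
import Crest.Agent.R165.Sq4_54

/-!
# Row 165, block R, leaf R7, part d: instances

* `pk0 : PK 4000000`          from the plane propagator of helper583
* `sq0 : SQ 100000000000`     from the square trick of helper54
* `ex1c0`, `K0`               the cluster theorems without hypotheses
-/

set_option autoImplicit false

noncomputable section

namespace Crest.Agent.R165.Cl7x999

open Finset Crest.Agent.R165.Tr1x40 Crest.Agent.R165.Schurx811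

/-- the kernel -/
def K00 (d : Face) (a b : Fin 4) : ℝ := -Spx583.SP a b d.1 d.2

theorem dd_cast (d : Face) : (dd d 0 : ℝ) ≤ |(d.1 : ℝ)| + |(d.2 : ℝ)| := by
  have h1 : ((dd d 0 : ℕ) : ℝ) = max |(d.1 : ℝ)| |(d.2 : ℝ)| := by
    unfold dd
    rw [Nat.cast_max, Nat.cast_natAbs, Nat.cast_natAbs, Int.cast_abs, Int.cast_abs]
    simp
  rw [h1]
  exact max_le (le_add_of_nonneg_right (abs_nonneg _)) (le_add_of_nonneg_left (abs_nonneg _))

theorem A_wc_K00 (w f : Face) (a b : Fin 4) :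
    A wc (fun f c => K00 (f - w) c b) f a = if f = w ∧ a = b then 1 else 0 := by
  have h := Spx583.row_SP a b (f.1 - w.1) (f.2 - w.2)
  have e0 : A wc (fun f c => K00 (f - w) c b) f a
      = -Spx583.row Spx583.xc (fun c => Spx583.SP c b) a (f.1 - w.1) (f.2 - w.2) := by
    have e1 : f.2 - 1 - w.2 = f.2 - w.2 - 1 := by ring
    have e2 : f.1 + 1 - w.1 = f.1 - w.1 + 1 := by ring
    have e3 : f.2 + 1 - w.2 = f.2 - w.2 + 1 := by ring
    have e4 : f.1 - 1 - w.1 = f.1 - w.1 - 1 := by ring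
    have ex : xc = Spx583.xc := rfl
    fin_cases a <;>
      simp only [Fin.zero_eta, Fin.mk_one, Fin.reduceFinMk, A_S, A_E, A_N, A_W, K00, wc,
        Spx583.row, Prod.fst_sub, Prod.snd_sub, e1, e2, e3, e4, ex] <;> ring
  rw [e0, h]
  by_cases hf : f = w
  · subst hf
    simp only [sub_self, and_true, true_and]
    by_cases hab : a = b <;> simp [hab]
  · have : ¬ (f.1 - w.1 = 0 ∧ f.2 - w.2 = 0) := by
      rintro ⟨h1, h2⟩
      exact hf (Prod.ext (by linarith) (by linarith))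
    rw [if_neg (fun hh => this hh.2), if_neg (fun hh => hf hh.1), neg_zero]

theorem cv_eq_sum (J : Finset Face) (ε : Fld) :
    cv K00 J ε = ∑ w ∈ J, ∑ b, ε w b • (fun (f : Face) (c : Fin 4) => K00 (f - w) c b) := by
  funext f c
  simp only [cv, Finset.sum_apply, Pi.smul_apply, smul_eq_mul]
  exact sum_congr rfl fun w _ => sum_congr rfl fun b _ => mul_comm _ _

theorem right00 (J : Finset Face) (ε : Fld) (h : ∀ f, f ∉ J → ε f = 0) :
    A wc (cv K00 J ε) = ε := by
  rw [cv_eq_sum, ← RIfx891.AL_apply, map_sum]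
  simp only [map_sum, map_smul, RIfx891.AL_apply]
  funext f a
  simp only [Finset.sum_apply, Pi.smul_apply, smul_eq_mul, A_wc_K00]
  by_cases hf : f ∈ J
  · rw [sum_eq_single_of_mem f hf]
    · rw [sum_eq_single_of_mem a (mem_univ _)]
      · simp
      · intro b _ hb
        rw [if_neg (fun hh => hb hh.2.symm), mul_zero]
    · intro w _ hw
      apply sum_eq_zero
      intro b _
      rw [if_neg (fun hh => hw hh.1.symm), mul_zero]
  · rw [h f hf]
    apply sum_eq_zero
    intro w hw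
    apply sum_eq_zero
    intro b _
    rw [if_neg (fun hh : f = w ∧ a = b => hf (hh.1.symm ▸ hw)), mul_zero]

theorem A_wc_eq_Aop (φ : Fld) :
    A wc φ = Gapx811.Aop (fun _ => Gapx811.xc) (fun _ => Gapx811.xc) φ := by
  have ex : Gapx811.xc = xc := rfl
  funext f a
  have e1 : f - (0, 1) = (f.1, f.2 - 1) := by ext <;> simp
  have e2 : f + (1, 0) = (f.1 + 1, f.2) := by ext <;> simp
  have e3 : f + (0, 1) = (f.1, f.2 + 1) := by ext <;> simp
  have e4 : f - (1, 0) = (f.1 - 1, f.2) := by ext <;> simp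
  fin_cases a <;>
    simp [A_S, A_E, A_N, A_W, wc, Gapx811.Aop, Gapx811.A0, Gapx811.Yop, e1, e2, e3, e4, ex] <;> ring

theorem left00 (J : Finset Face) (ψ : Fld) (h1 : ∀ f, f ∉ J → ψ f = 0)
    (h2 : ∀ f, f ∉ J → A wc ψ f = 0) : cv K00 J (A wc ψ) = ψ := by
  funext z a
  have h := Spx583.planeKernel.inv J ψ h1 z a
  rw [h, ← A_wc_eq_Aop]
  unfold cv
  symm
  rw [tsum_eq_sum (s := J)]
  · rfl
  · intro w hw
    rw [h2 w hw]
    simp

/-- the plane kernel -/
def pk0 : PK 4000000 where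
  K := K00
  c_nonneg := by norm_num
  bound d a b := by
    unfold K00
    rw [abs_neg]
    refine (Spx583.SP_le a b _ _).trans ?_
    apply div_le_div_of_nonneg_left (by norm_num) (by positivity)
    have := dd_cast d
    linarith
  right := right00
  left := left00

theorem isSupp_iff {J : Finset Face} {φ : Fld} (h : ∀ f, f ∉ J → φ f = 0) : Sqx54.Supp J φ :=
  fun f hf k => by rw [h f hf]; rfl

theorem tsum_E2 {J : Finset Face} {φ : Fld} (h : ∀ f, f ∉ J → φ f = 0) :
    ∑' f, nsq (φ f) = E2 J φ :=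
  tsum_eq_sum fun f hf => by rw [h f hf, nsq_zero]

/-- the square trick on boxes -/
theorem sq0 : SQ 100000000000 := by
  refine ⟨by norm_num, ?_⟩
  intro w φ o s J hs hp h1 h2
  have hκ : ∀ z, ∑ f ∈ bx o s, Sqx54.wt (f - z) ≤ 8 * (1 + (s : ℝ)) := by
    intro z
    have h := SqKx470.kap_box (E := bx o s) (c := o) (r := (s : ℝ)) (Nat.cast_nonneg s)
      (fun f hf => by
        rw [mem_bx, dd_le_iff] at hf
        obtain ⟨⟨a1, a2⟩, a3, a4⟩ := hf
        have b1 : (o.1 : ℝ) - s ≤ f.1 := by exact_mod_cast a1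
        have b2 : (f.1 : ℝ) ≤ o.1 + s := by exact_mod_cast a2
        have b3 : (o.2 : ℝ) - s ≤ f.2 := by exact_mod_cast a3
        have b4 : (f.2 : ℝ) ≤ o.2 + s := by exact_mod_cast a4
        constructor <;> rw [abs_le] <;> constructor <;> linarith) z
    refine le_trans (le_of_eq (sum_congr rfl fun f _ => ?_)) h
    unfold Sqx54.wt
    simp only [Prod.fst_sub, Prod.snd_sub, Int.cast_sub]
  have h := Sqx54.sq_main hs hp (isSupp_iff h1) (bx o s) _ hκ
  rw [tsum_E2 h1, tsum_E2 h2] at h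
  refine h.trans (mul_le_mul_of_nonneg_right ?_ (by positivity))
  have : (0 : ℝ) ≤ s := Nat.cast_nonneg s
  nlinarith

/-- (K) -/
theorem K0 : ∃ CK : ℝ, 0 < CK ∧
    ∀ (w : Fld) (o : Face) (R : ℕ), 1 ≤ R → Clu w o R → ∀ φ : Fld,
      E2 (bx o (8 * R)) φ ≤ CK * (E2 (bx o (8 * R)) (Freg pk0 w o R φ)
        + (R : ℝ) ^ 2 * E2 (bx o (8 * R)) (A w φ)) := Kest pk0 sq0

/-- (EX1c) -/
theorem ex1c0 : ∃ C : ℝ, 0 < C ∧
    ∀ (w : Fld) (o : Face) (R s r : ℕ), 1 ≤ R → R ≤ s → s ≤ r → Clu w o R → ∀ e : Fld,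
      (∀ f, dd f o ≤ r → A w e f = 0) →
      E2 (bx o s) e ≤ C * ((s : ℝ) / r) ^ 2 * E2 (bx o r) e := ex1c pk0 sq0

/-- interior estimate of the plane -/
theorem interior0 (o : Face) (s r : ℕ) (hsr : s ≤ r) (F : Fld)
    (hF : ∀ f, dd f o ≤ r → A wc F f = 0) :
    E2 (bx o s) F ≤ (102400 * (4000000 : ℝ) ^ 2 + 100) * (((s : ℝ) + 1) / (r + 1)) ^ 2 *
      E2 (bx o r) F := interior pk0 o s r hsr F hF

end Crest.Agent.R165.Cl7x999
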