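import Crest.Agent.R165.Cl7d_999
import Crest.Agent.R165.ClPl_117

/-!
# Row 165, block R, leaf R7, part e: the cluster in the interface of `RIface_891`

* `ClOn w s x R ρ` : cluster background: on the box `bx x ρ` all weights are `± x_c`, and outside
  `bx x R` they are the plane weights up to the gauge `s`
* `grow_cluster`   : exact solutions grow like `t / r` on the scales `R ≤ t ≤ r ≤ ρ`, ABSOLUTE
  constant
* `regCl`, `regCl_off` : Reg1 at the centre and at every centre, absolute constants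
* `regPl` : Reg1 in the plane
-/

set_option autoImplicit false

noncomputable section

namespace Crest.Agent.R165.Cl7x999

open Finset Crest.Agent.R165.Tr1x40 Crest.Agent.R165.Schurx811

/-- cluster background on the box `bx x ρ`: weights `± x_c`, plane (up to the gauge `s`) outside
`bx x R` -/
structure ClOn (w : Fld) (s : Face → ℝ) (x : Face) (R ρ : ℝ) : Prop where
  sym : Sym w
  gauge : RIfx891.Gauge s
  sq : ∀ f ∈ RIfx891.bx x ρ, ∀ h, w f h ^ 2 = xc ^ 2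
  out : ∀ f ∈ RIfx891.bx x ρ, f ∉ RIfx891.bx x R → ∀ h, w f h = s f * s (nb f h) * xc

theorem ClOn.mono {w : Fld} {s : Face → ℝ} {x : Face} {R R' ρ ρ' : ℝ} (hR : R ≤ R') (hρ : ρ' ≤ ρ)
    (H : ClOn w s x R ρ) : ClOn w s x R' ρ' :=
  ⟨H.sym, H.gauge, fun f hf => H.sq f (RIfx891.bx_mono x hρ hf),
    fun f hf hf' => H.out f (RIfx891.bx_mono x hρ hf) fun h => hf' (RIfx891.bx_mono x hR h)⟩

theorem ClOn.plus {w : Fld} {s : Face → ℝ} {x : Face} {R ρ : ℝ} (H : ClOn w s x R ρ) :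
    RIfx891.IsPlusOn w x ρ := fun f hf h => Or.inl (H.sq f hf h)

/-- boxes of real radius are boxes of natural radius -/
theorem mem_rbx {x f : Face} {r : ℝ} (hr : 0 ≤ r) : f ∈ RIfx891.bx x r ↔ dd f x ≤ ⌊r⌋₊ := by
  have e : ((⌊r⌋₊ : ℕ) : ℤ) = ⌊r⌋ := Int.natCast_floor_eq_floor hr
  rw [RIfx891.mem_bx, dd_le_iff, ← e, abs_le, abs_le]
  constructor
  · rintro ⟨⟨h1, h2⟩, h3, h4⟩
    refine ⟨⟨?_, ?_⟩, ?_, ?_⟩ <;> linarith
  · rintro ⟨⟨h1, h2⟩, h3, h4⟩
    refine ⟨⟨?_, ?_⟩, ?_, ?_⟩ <;> linarith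

theorem rbx_eq (x : Face) {r : ℝ} (hr : 0 ≤ r) : RIfx891.bx x r = bx x ⌊r⌋₊ := by
  ext f
  rw [mem_rbx hr, mem_bx]

theorem NB_sq_E2 (x : Face) {r : ℝ} (hr : 0 ≤ r) (φ : Fld) :
    RIfx891.NB x r φ ^ 2 = E2 (bx x ⌊r⌋₊) φ := by
  rw [RIfx891.NB_sq, rbx_eq x hr]; rfl

/-- the global cluster weights made of the weights of a box -/
def gw (w : Fld) (s : Face → ℝ) (x : Face) (n : ℕ) : Fld := fun f h =>
  if dd f x ≤ n ∨ dd (nb f h) x ≤ n then s f * s (nb f h) * w f h else xc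

theorem gw_clu {w : Fld} {s : Face → ℝ} {x : Face} {R ρ : ℝ} (H : ClOn w s x R ρ) (hR : 0 ≤ R)
    {n : ℕ} (hn : (n : ℝ) ≤ ρ) (hRn : ⌊R⌋₊ < n) : Clu (gw w s x n) x ⌊R⌋₊ := by
  have hρ : 0 ≤ ρ := (Nat.cast_nonneg n).trans hn
  have hin : ∀ f, dd f x ≤ n → f ∈ RIfx891.bx x ρ := fun f hf => by
    rw [mem_rbx hρ]
    exact hf.trans (Nat.le_floor hn)
  have hout : ∀ f, dd f x ≤ n → ⌊R⌋₊ < dd f x → ∀ h, w f h = s f * s (nb f h) * xc :=
    fun f h1 h2 => H.out f (hin f h1) (by rw [mem_rbx hR]; omega)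
  have hs := H.gauge
  refine ⟨?_, ?_, ?_⟩
  · intro f h
    unfold gw
    rw [nb_nb_op, H.sym f h]
    by_cases h1 : dd f x ≤ n ∨ dd (nb f h) x ≤ n
    · rw [if_pos h1, if_pos h1.symm]; ring
    · rw [if_neg h1, if_neg fun h2 => h1 h2.symm]
  · intro f h
    unfold gw
    split_ifs with h1
    · have e : w f h ^ 2 = xc ^ 2 := by
        rcases h1 with h1 | h1
        · exact H.sq f (hin f h1) h
        · rw [← H.sym f h]
          exact H.sq _ (hin _ h1) _
      rw [mul_pow, mul_pow, hs f, hs (nb f h), e]; ring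
    · rfl
  · intro f h hf
    unfold gw
    split_ifs with h1
    · by_cases h2 : dd f x ≤ n
      · rw [hout f h2 hf h]
        linear_combination (s (nb f h) ^ 2 * xc) * hs f + xc * hs (nb f h)
      · have h3 : dd (nb f h) x ≤ n := h1.resolve_left h2
        have h4 : ⌊R⌋₊ < dd (nb f h) x := by
          have := dd_le_nb f x h
          omega
        rw [← H.sym f h, hout _ h3 h4 (op h), nb_nb_op]
        linear_combination (s (nb f h) ^ 2 * xc) * hs f + xc * hs (nb f h)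
    · rfl

theorem sq_le_sq_of {a b : ℝ} (hb : 0 ≤ b) (h : a ^ 2 ≤ b ^ 2) : a ≤ b := by
  nlinarith [sq_nonneg (a - b)]

/-- **growth at a cluster**, absolute constant -/
theorem grow_cluster : ∃ C : ℝ, 1 ≤ C ∧ ∀ (w : Fld) (s : Face → ℝ) (x : Face) (R ρ : ℝ), 1 ≤ R →
    ClOn w s x R ρ → ClRegx117.GrowOn w x R ρ C := by
  obtain ⟨C0, hC0, h0⟩ := ex1c0
  have hC2 : 0 ≤ Real.sqrt C0 := Real.sqrt_nonneg _
  refine ⟨2 * Real.sqrt C0 + 2, by linarith, ?_⟩
  intro w s x R ρ hR H t r hRt htr hrρ e he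
  have hR0 : 0 ≤ R := by linarith
  have ht0 : 0 ≤ t := by linarith
  have hr0 : 0 < r := by linarith
  have hN : 0 ≤ RIfx891.NB x r e := apply_nonneg _ _
  set n : ℕ := ⌊r⌋₊ with hn
  set m : ℕ := ⌊t⌋₊ with hm
  have hn1 : (n : ℝ) ≤ r := Nat.floor_le hr0.le
  have hn2 : r < n + 1 := Nat.lt_floor_add_one r
  have hn0 : 0 < n := Nat.floor_pos.2 (by linarith)
  have hn0' : (1 : ℝ) ≤ n := by exact_mod_cast hn0
  have hm1 : (m : ℝ) ≤ t := Nat.floor_le ht0
  have hRm : ⌊R⌋₊ ≤ m := Nat.floor_mono hRt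
  have hmn : m ≤ n := Nat.floor_mono htr
  have hR1 : 1 ≤ ⌊R⌋₊ := Nat.le_floor (by simpa using hR)
  by_cases hRn : ⌊R⌋₊ < n
  · have hcl := gw_clu H hR0 (hn1.trans hrρ) hRn
    have hA : ∀ f, dd f x ≤ n → A (gw w s x n) (RIfx891.gm s e) f = 0 := by
      intro f hf
      have h1 := RIfx891.A_gm (w := gw w s x n) (w' := w) H.gauge (f := f)
        (fun h => by unfold gw; rw [if_pos (Or.inl hf)]) e
      rw [h1, he f (by rwa [mem_rbx hr0.le])]
      funext h
      simp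
    have h1 := h0 (gw w s x n) x ⌊R⌋₊ m n hR1 hRm hmn hcl (RIfx891.gm s e) hA
    have e1 : ∀ k : ℕ, E2 (bx x k) (RIfx891.gm s e) = E2 (bx x k) e := fun k =>
      sum_congr rfl fun f _ => RIfx891.nsq_gm H.gauge e f
    rw [e1, e1, ← NB_sq_E2 x ht0, ← NB_sq_E2 x hr0.le] at h1
    have h2 : (m : ℝ) / n ≤ 2 * (t / r) := by
      rw [← mul_div_assoc, div_le_div_iff₀ (by linarith) hr0]
      have h3 : r ≤ 2 * n := by linarith
      nlinarith
    refine sq_le_sq_of (by positivity) (h1.trans ?_)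
    have h3 : ((m : ℝ) / n) ^ 2 ≤ (2 * (t / r)) ^ 2 :=
      pow_le_pow_left₀ (by positivity) h2 2
    have h4 : C0 = Real.sqrt C0 ^ 2 := (Real.sq_sqrt hC0.le).symm
    have hq : 0 ≤ t / r := by positivity
    calc C0 * ((m : ℝ) / n) ^ 2 * RIfx891.NB x r e ^ 2
        ≤ C0 * (2 * (t / r)) ^ 2 * RIfx891.NB x r e ^ 2 := by gcongr
      _ = (2 * Real.sqrt C0 * (t / r) * RIfx891.NB x r e) ^ 2 := by rw [h4]; simp; ring
      _ ≤ ((2 * Real.sqrt C0 + 2) * (t / r) * RIfx891.NB x r e) ^ 2 := by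
          gcongr; linarith
  · have h1 : RIfx891.NB x t e ≤ RIfx891.NB x r e := RIfx891.NB_mono x htr e
    refine h1.trans (le_mul_of_one_le_left hN ?_)
    have h2 : n ≤ m := by omega
    have h2' : (n : ℝ) ≤ m := by exact_mod_cast h2
    have h3 : 1 / 2 ≤ t / r := by rw [div_le_div_iff₀ (by norm_num) hr0]; linarith
    nlinarith

/-- cluster background seen from any centre `z`: on the box `bx z ρ` all weights are `± x_c`, and
outside `bx x R` they are the plane weights up to the gauge `s` -/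
structure ClAt (w : Fld) (s : Face → ℝ) (x : Face) (R : ℝ) (z : Face) (ρ : ℝ) : Prop where
  sym : Sym w
  gauge : RIfx891.Gauge s
  sq : ∀ f ∈ RIfx891.bx z ρ, ∀ h, w f h ^ 2 = xc ^ 2
  out : ∀ f ∈ RIfx891.bx z ρ, f ∉ RIfx891.bx x R → ∀ h, w f h = s f * s (nb f h) * xc

theorem ClAt.mono {w : Fld} {s : Face → ℝ} {x z : Face} {R R' ρ ρ' : ℝ} (hR : R ≤ R') (hρ : ρ' ≤ ρ)
    (H : ClAt w s x R z ρ) : ClAt w s x R' z ρ' :=
  ⟨H.sym, H.gauge, fun f hf => H.sq f (RIfx891.bx_mono z hρ hf),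
    fun f hf hf' => H.out f (RIfx891.bx_mono z hρ hf) fun h => hf' (RIfx891.bx_mono x hR h)⟩

theorem ClAt.plus {w : Fld} {s : Face → ℝ} {x z : Face} {R ρ : ℝ} (H : ClAt w s x R z ρ) :
    RIfx891.IsPlusOn w z ρ := fun f hf h => Or.inl (H.sq f hf h)

theorem ClAt.sub {w : Fld} {s : Face → ℝ} {x z y : Face} {R ρ r : ℝ} (H : ClAt w s x R z ρ)
    (h : RIfx891.bx y r ⊆ RIfx891.bx z ρ) : ClAt w s x R y r :=
  ⟨H.sym, H.gauge, fun f hf => H.sq f (h hf), fun f hf hf' => H.out f (h hf) hf'⟩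

theorem ClAt.clOn {w : Fld} {s : Face → ℝ} {x : Face} {R ρ : ℝ} (H : ClAt w s x R x ρ) :
    ClOn w s x R ρ := ⟨H.sym, H.gauge, H.sq, H.out⟩

theorem ClOn.clAt {w : Fld} {s : Face → ℝ} {x : Face} {R ρ : ℝ} (H : ClOn w s x R ρ) :
    ClAt w s x R x ρ := ⟨H.sym, H.gauge, H.sq, H.out⟩

theorem clAt_of_planeOn {w : Fld} {s : Face → ℝ} {x z : Face} {R ρ : ℝ}
    (H : RIfx891.PlaneOn w s z ρ) : ClAt w s x R z ρ :=
  ⟨H.sym, H.gauge, fun f hf h => by rw [H.eq f hf h, RIfx891.sq_of H.gauge],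
    fun f hf _ => H.eq f hf⟩

/-- away from the cluster the background is plane -/
theorem ClAt.planeOn {w : Fld} {s : Face → ℝ} {x z : Face} {R ρ r : ℝ} (H : ClAt w s x R z ρ)
    (hr : r ≤ ρ) (hd : R + r < ClRegx117.fdr x z) : RIfx891.PlaneOn w s z r := by
  refine ⟨H.sym, H.gauge, fun f hf h => H.out f (RIfx891.bx_mono z hr hf) (fun hc => ?_) h⟩
  rw [RIfx891.mem_bx_real] at hf hc
  have h1 : |(z.1 : ℝ) - x.1| ≤ |(f.1 : ℝ) - z.1| + |(f.1 : ℝ) - x.1| := by
    have e : (z.1 : ℝ) - x.1 = -((f.1 : ℝ) - z.1) + ((f.1 : ℝ) - x.1) := by ring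
    have h2 := abs_add_le (-((f.1 : ℝ) - z.1)) ((f.1 : ℝ) - x.1)
    rwa [← e, abs_neg] at h2
  have h2 : |(z.2 : ℝ) - x.2| ≤ |(f.2 : ℝ) - z.2| + |(f.2 : ℝ) - x.2| := by
    have e : (z.2 : ℝ) - x.2 = -((f.2 : ℝ) - z.2) + ((f.2 : ℝ) - x.2) := by ring
    have h2 := abs_add_le (-((f.2 : ℝ) - z.2)) ((f.2 : ℝ) - x.2)
    rwa [← e, abs_neg] at h2
  have h3 : ClRegx117.fdr x z ≤ R + r :=
    max_le (by linarith [hf.1, hc.1]) (by linarith [hf.2, hc.2])
  linarith

theorem fdr_comm (x z : Face) : ClRegx117.fdr x z = ClRegx117.fdr z x := by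
  unfold ClRegx117.fdr
  rw [abs_sub_comm, abs_sub_comm (z.2 : ℝ)]

/-- **growth of exact solutions near a cluster, every centre** `z`, absolute constant -/
theorem grow_any : ∃ C : ℝ, 1 ≤ C ∧ ∀ (w : Fld) (s : Face → ℝ) (x : Face) (R : ℝ) (z : Face)
    (ρ : ℝ), 1 ≤ R → ClAt w s x R z ρ → ClRegx117.GrowOn w z R ρ C := by
  obtain ⟨C, hC, hg⟩ := grow_cluster
  refine ⟨40000 * C, by linarith, ?_⟩
  intro w s x R z ρ hR H t r hRt htr hrρ e he
  have hR0 : 0 ≤ R := by linarith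
  have ht0 : 0 < t := by linarith
  have hr0 : 0 < r := by linarith
  have hN : 0 ≤ RIfx891.NB z r e := apply_nonneg _ _
  have htr0 : 0 ≤ t / r := by positivity
  have mono : ∀ a b : ℝ, a ≤ b → a * (t / r) * RIfx891.NB z r e ≤ b * (t / r) * RIfx891.NB z r e :=
    fun a b hab => by gcongr
  by_cases h16 : r ≤ 16 * t
  · have h1 : RIfx891.NB z t e ≤ RIfx891.NB z r e := RIfx891.NB_mono z htr e
    refine h1.trans (le_mul_of_one_le_left hN ?_)
    have h3 : 1 / 16 ≤ t / r := by rw [div_le_div_iff₀ (by norm_num) hr0]; linarith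
    nlinarith
  · push Not at h16
    set d : ℝ := ClRegx117.fdr x z with hd
    have hd0 : 0 ≤ d := le_max_of_le_left (abs_nonneg _)
    by_cases hda : r / 4 ≤ d
    · have hp : RIfx891.PlaneOn w s z (r / 8) := H.planeOn (by linarith) (by linarith)
      have h1 := ClPlx117.grow_plane (R := R) hR hp t (r / 8) hRt (by linarith) le_rfl e
        (fun f hf => he f (RIfx891.bx_mono z (by linarith) hf))
      have h2 : RIfx891.NB z (r / 8) e ≤ RIfx891.NB z r e := RIfx891.NB_mono z (by linarith) e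
      calc RIfx891.NB z t e ≤ 4056 * (t / (r / 8)) * RIfx891.NB z (r / 8) e := h1
        _ ≤ 4056 * (t / (r / 8)) * RIfx891.NB z r e := by gcongr
        _ = 32448 * (t / r) * RIfx891.NB z r e := by
            have : t / (r / 8) = 8 * (t / r) := by field_simp
            rw [this]; ring
        _ ≤ 40000 * C * (t / r) * RIfx891.NB z r e := mono _ _ (by linarith)
    · push Not at hda
      have hsub : RIfx891.bx x (3 * r / 4) ⊆ RIfx891.bx z r :=
        ClRegx117.bx_subset (by rw [fdr_comm, ← hd]; linarith)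
      have hcl : ClOn w s x R (3 * r / 4) := ((H.mono le_rfl hrρ).sub hsub).clOn
      have hgx := hg w s x R (3 * r / 4) hR hcl
      have hex : ∀ f ∈ RIfx891.bx x (3 * r / 4), A w e f = 0 := fun f hf => he f (hsub hf)
      have h34 : RIfx891.NB x (3 * r / 4) e ≤ RIfx891.NB z r e := RIfx891.N2_mono hsub e
      by_cases hdt : d ≤ 4 * t
      · have h1 : RIfx891.NB z t e ≤ RIfx891.NB x (5 * t) e :=
          RIfx891.N2_mono (ClRegx117.bx_subset (by rw [← hd]; linarith)) e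
        have h2 := hgx (5 * t) (3 * r / 4) (by linarith) (by linarith) le_rfl e hex
        calc RIfx891.NB z t e ≤ C * (5 * t / (3 * r / 4)) * RIfx891.NB x (3 * r / 4) e :=
              h1.trans h2
          _ ≤ C * (5 * t / (3 * r / 4)) * RIfx891.NB z r e := by gcongr
          _ = (20 / 3 * C) * (t / r) * RIfx891.NB z r e := by
              have : 5 * t / (3 * r / 4) = 20 / 3 * (t / r) := by field_simp; ring
              rw [this]; ring
          _ ≤ 40000 * C * (t / r) * RIfx891.NB z r e := mono _ _ (by linarith)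
      · push Not at hdt
        have hd1 : 0 < d := by linarith
        have hp : RIfx891.PlaneOn w s z (d / 2) := H.planeOn (by linarith) (by linarith)
        have hs2 : RIfx891.bx z (d / 2) ⊆ RIfx891.bx z r := RIfx891.bx_mono z (by linarith)
        have h1 := ClPlx117.grow_plane (R := R) hR hp t (d / 2) hRt (by linarith) le_rfl e
          (fun f hf => he f (hs2 hf))
        have h2 : RIfx891.NB z (d / 2) e ≤ RIfx891.NB x (3 * d / 2) e :=
          RIfx891.N2_mono (ClRegx117.bx_subset (by rw [← hd]; linarith)) e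
        have h3 := hgx (3 * d / 2) (3 * r / 4) (by linarith) (by linarith) le_rfl e hex
        calc RIfx891.NB z t e ≤ 4056 * (t / (d / 2)) * RIfx891.NB z (d / 2) e := h1
          _ ≤ 4056 * (t / (d / 2)) *
              (C * (3 * d / 2 / (3 * r / 4)) * RIfx891.NB x (3 * r / 4) e) := by
              gcongr; exact h2.trans h3
          _ ≤ 4056 * (t / (d / 2)) * (C * (3 * d / 2 / (3 * r / 4)) * RIfx891.NB z r e) := by
              gcongr
          _ = (16224 * C) * (t / r) * RIfx891.NB z r e := by field_simp; ring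
          _ ≤ 40000 * C * (t / r) * RIfx891.NB z r e := mono _ _ (by linarith)

/-- the gap of helper54 -/
theorem gapP {w : Fld} {x : Face} {r : ℝ} (hr : 1 ≤ r) (hw : Sym w)
    (hp : RIfx891.IsPlusOn w x r) : RIfx891.GapOn w x r 110000000000 :=
  Sqx54.gapU w x r hr hw hp

/-- **Reg1 near a cluster, every centre** `z`, absolute constant, all scales `R ≤ t ≤ ρ` -/
theorem regCl : ∃ C : ℝ, 0 < C ∧ ∀ (w : Fld) (s : Face → ℝ) (x : Face) (R : ℝ) (z : Face) (ρ : ℝ),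
    1 ≤ R → ClAt w s x R z ρ → ∀ (t : ℝ), R ≤ t → t ≤ ρ → ∀ f : Fld, RIfx891.NB z ρ f ≤ 1 →
      RIfx891.NB z ρ (A w f) ≤ 1 / ρ → RIfx891.NB z ρ (A w (A w f)) ≤ 1 / ρ ^ 2 →
      RIfx891.NB z t f ≤ C * (t / ρ) := by
  obtain ⟨C1, hC1, hg⟩ := grow_any
  have hK := ClRegx117.K2_nonneg (C1 := C1) (Cs := 110000000000) (by linarith) (by norm_num)
  refine ⟨2 * Campx891.K2 C1 110000000000 + 1, by linarith, ?_⟩
  intro w s x R z ρ hR H t hRt htρ f f0 f1 f2
  have h := ClRegx117.reg1 H.sym (x := z) (R := R) (ρ := ρ) (C1 := C1) (Cs := 110000000000)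
    (by linarith) (by linarith) (by norm_num)
    (fun r hr hr' => gapP (hR.trans hr) H.sym fun g hg => H.plus g (RIfx891.bx_mono z hr' hg))
    (hg w s x R z ρ hR H) hRt htρ f0 f1 f2
  refine h.trans ?_
  have : 0 ≤ t / ρ := div_nonneg (by linarith) (by linarith)
  nlinarith

/-- **Reg1 in the plane**, all scales `1 ≤ t ≤ ρ` -/
theorem regPl : ∃ C : ℝ, 0 < C ∧ ∀ (w : Fld) (s : Face → ℝ) (z : Face) (ρ : ℝ),
    RIfx891.PlaneOn w s z ρ → ∀ (t : ℝ), 1 ≤ t → t ≤ ρ → ∀ f : Fld, RIfx891.NB z ρ f ≤ 1 →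
      RIfx891.NB z ρ (A w f) ≤ 1 / ρ → RIfx891.NB z ρ (A w (A w f)) ≤ 1 / ρ ^ 2 →
      RIfx891.NB z t f ≤ C * (t / ρ) := by
  obtain ⟨C, hC, h⟩ := regCl
  exact ⟨C, hC, fun w s z ρ H => h w s z 1 z ρ le_rfl (clAt_of_planeOn H)⟩

end Crest.Agent.R165.Cl7x999
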