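import Crest.Agent.R165.Cl7e_999
import Crest.Agent.R165.BridgeRB2_386

/-!
# Row 165, block R, leaf R7, part f: the cluster is bulk-like (`RegG_893.RB`) at every centre
-/

set_option autoImplicit false

noncomputable section

namespace Crest.Agent.R165.Cl7x999

open Finset Crest.Agent.R165.Tr1x40
open Crest.Agent.R165.Gr0x606 Crest.Agent.R165.Latx683 Crest.Agent.R165.GDefx387

/-- **the cluster in the form consumed by the weights**: at EVERY centre `z` and all scales
`r ≥ r0 ≥ R`, absolute constant -/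
theorem rb_cl : ∃ C : ℝ, 0 < C ∧ ∀ {G : Type} [CommRing G] [CN G] [Bridgex386.CNL G] {w : BW G}
    {s : Face → ℝ} {x : Face} {R : ℝ} {z : Face} {r0 R0 : ℕ}, 1 ≤ R → R ≤ r0 →
    Bridgex386.Inj G R0 → ClAt (Bridgex386.wl w) s x R z R0 → ∀ Λ : ℕ,
      RegGx893.RB w (Bridgex386.pf z) C Λ r0 R0 := by
  obtain ⟨C1, hC1, hg⟩ := grow_any
  have hK := ClRegx117.K2_nonneg (C1 := C1) (Cs := 110000000000) (by linarith) (by norm_num)
  refine ⟨2 * Campx891.K2 C1 110000000000 + 1, by linarith, ?_⟩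
  intro G _ _ _ w s x R z r0 R0 hR hr0 hI H Λ
  have h1 : (1 : ℝ) ≤ r0 := hR.trans hr0
  have h := BridgeRBx386.rb_of_grow (w := w) (X := z) (r0 := r0) (R0 := R0)
    (by exact_mod_cast h1) (C1 := C1) (Cs := 110000000000) (by linarith) (by norm_num) hI
    (fun r hr hr' => gapP (h1.trans hr) H.sym fun g hg => H.plus g (RIfx891.bx_mono z hr' hg))
    (fun t r ht htr hr e he => hg _ s x R z R0 hR H t r (hr0.trans ht) htr hr e he) Λ
  exact h.mono (by linarith) le_rfl le_rfl le_rfl

end Crest.Agent.R165.Cl7x999
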