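import Crest.Agent.R165.ClGr_117
import Crest.Agent.R165.BridgeRB2_386

/-!
# Row 165 (S0250), block R: a cluster is invisible at scales `≥ 4 R + 4`

* `grow_clu_all` : growth of exact solutions at EVERY centre `z` of a cluster box
* `rb_clu`       : the class `RB` of `RegG_893` at EVERY centre, every coordinate ring, absolute
                   constant, radii `≥ 4 R + 4`
* `clg`, `wl_wX_clu`, `clOn_of_plane` : the gauge of an even cluster of rays: if all `X i` lie in
                   `bx x R` and `n` is even, `wX w X` is `ClOn .. x (R + 1) ρ` wherever `w` is plane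
-/

set_option autoImplicit false
set_option linter.unusedVariables false
set_option linter.unusedSectionVars false
set_option linter.unusedSimpArgs false

noncomputable section

open Crest.Agent.R165.Gr0x606 Crest.Agent.R165.Latx683 Crest.Agent.R165.GDefx387
  Crest.Agent.R165.Bridgex386 Crest.Agent.R165.BridgeRegx386 Crest.Agent.R165.BridgeRBx386

namespace Crest.Agent.R165.ClAllx117

open Finset Crest.Agent.R165.Campx891 Crest.Agent.R165.RIfx891
  Crest.Agent.R165.ClRegx117 Crest.Agent.R165.ClGrx117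
open Crest.Agent.R165.Tr1x40 (nb op A Sym)

theorem fdr_comm (x z : Face) : fdr x z = fdr z x := by
  unfold fdr
  rw [abs_sub_comm, abs_sub_comm (z.2 : ℝ)]

theorem fdr_nonneg (x z : Face) : 0 ≤ fdr x z := (abs_nonneg _).trans (le_max_left _ _)

/-- trivial growth when the ratio is bounded below -/
theorem triv {x z : Face} {t r K : ℝ} {e : FR} (hsub : bx x t ⊆ bx z r) (h : 1 ≤ K) :
    NB x t e ≤ K * NB z r e := by
  have h1 : NB x t e ≤ NB z r e := N2_mono hsub e
  have h2 : 0 ≤ NB z r e := apply_nonneg _ _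
  nlinarith

/-- **growth of exact solutions at every centre** of a cluster box -/
theorem grow_clu_all : ∃ C : ℝ, 0 ≤ C ∧ ∀ (w : FR) (s : Face → ℝ) (x z : Face) (R ρ ρ' : ℝ),
    0 ≤ R → ClOn w s x R ρ → fdr x z + ρ' ≤ ρ → GrowOn w z (4 * R + 4) ρ' C := by
  obtain ⟨C0, hC0, key⟩ := grow_clu
  refine ⟨100000 * (C0 + 1), by positivity, ?_⟩
  intro w s x z R ρ ρ' hR H hρ t r hRt htr hrρ e he
  have ht : 0 < t := by linarith
  have hr : 0 < r := by linarith
  set D := fdr x z with hD
  have hD0 : 0 ≤ D := fdr_nonneg x z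
  have hg := key w s x R ρ hR H
  have hN : 0 ≤ NB z r e := apply_nonneg _ _
  have htr0 : 0 ≤ t / r := by positivity
  -- bound with a smaller constant is enough
  have fin : ∀ K : ℝ, K ≤ 100000 * (C0 + 1) * (t / r) → NB z t e ≤ K * NB z r e →
      NB z t e ≤ 100000 * (C0 + 1) * (t / r) * NB z r e := fun K h1 h2 =>
    h2.trans (mul_le_mul_of_nonneg_right h1 hN)
  -- large ratio
  have big : r ≤ 16 * t → NB z t e ≤ 100000 * (C0 + 1) * (t / r) * NB z r e := by
    intro h
    refine triv (bx_mono z htr) ?_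
    have : 1 / 16 ≤ t / r := by rw [div_le_div_iff₀ (by norm_num) hr]; linarith
    nlinarith
  by_cases hbig : r ≤ 16 * t
  · exact big hbig
  push Not at hbig
  -- growth around the cluster centre, outer radius r / 2
  have cen : ∀ u : ℝ, D ≤ r / 2 → R + 1 ≤ u → u ≤ r / 2 →
      NB x u e ≤ 2 * (C0 + 1) * (u / r) * NB z r e := by
    intro u hDr hu hur
    have hu0 : 0 < u := by linarith
    have h1 := hg u (r / 2) hu hur (by linarith) e (fun f hf =>
      he f (bx_subset (by rw [fdr_comm]; linarith) hf))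
    have h2 : NB x (r / 2) e ≤ NB z r e :=
      N2_mono (bx_subset (by rw [fdr_comm]; linarith)) e
    have e1 : u / (r / 2) = 2 * (u / r) := by field_simp
    rw [e1] at h1
    have h3 : 0 ≤ u / r := by positivity
    calc NB x u e ≤ C0 * (2 * (u / r)) * NB x (r / 2) e := h1
      _ ≤ C0 * (2 * (u / r)) * NB z r e := mul_le_mul_of_nonneg_left h2 (by positivity)
      _ ≤ 2 * (C0 + 1) * (u / r) * NB z r e := by
          refine mul_le_mul_of_nonneg_right ?_ hN
          nlinarith
  -- growth in a plane box centred at z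
  have pl : ∀ d : ℝ, R + d < D → t ≤ d → d ≤ r → NB z t e ≤ 4056 * (t / d) * NB z d e := by
    intro d hd1 hd2 hd3
    exact ClPlx117.grow_plane (s := s) le_rfl (H.planeOn (z := z) (d := d) (by linarith) hd1)
      t d (by linarith) hd2 le_rfl e (fun f hf => he f (bx_mono z hd3 hf))
  by_cases hDr : D ≤ r / 2
  · by_cases hDt : D ≤ 2 * t
    · have h1 : NB z t e ≤ NB x (3 * t) e := N2_mono (bx_subset (by linarith)) e
      have h2 := cen (3 * t) hDr (by linarith) (by linarith)
      refine fin (2 * (C0 + 1) * (3 * t / r)) ?_ (h1.trans h2)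
      have e1 : 2 * (C0 + 1) * (3 * t / r) = 6 * (C0 + 1) * (t / r) := by ring
      rw [e1]
      exact mul_le_mul_of_nonneg_right (by linarith) htr0
    · push Not at hDt
      set d := D / 2 with hd
      have hd0 : 0 < d := by linarith
      have h1 := pl d (by linarith) (by linarith) (by linarith)
      have h2 : NB z d e ≤ 6 * (C0 + 1) * (d / r) * NB z r e := by
        by_cases h3 : 3 * d ≤ r / 2
        · have h4 : NB z d e ≤ NB x (3 * d) e := N2_mono (bx_subset (by linarith)) e
          have h5 := cen (3 * d) hDr (by linarith) h3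
          have e1 : 2 * (C0 + 1) * (3 * d / r) = 6 * (C0 + 1) * (d / r) := by ring
          rw [e1] at h5
          exact h4.trans h5
        · push Not at h3
          refine triv (bx_mono z (by linarith)) ?_
          have : 1 / 6 ≤ d / r := by rw [div_le_div_iff₀ (by norm_num) hr]; linarith
          nlinarith
      refine fin (4056 * (t / d) * (6 * (C0 + 1) * (d / r))) ?_ ?_
      · have e1 : 4056 * (t / d) * (6 * (C0 + 1) * (d / r)) = 24336 * (C0 + 1) * (t / r) := by
          field_simp; ring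
        rw [e1]
        exact mul_le_mul_of_nonneg_right (by linarith) htr0
      · rw [mul_assoc]
        exact h1.trans (mul_le_mul_of_nonneg_left h2 (by positivity))
  · push Not at hDr
    have h1 := pl (r / 4) (by linarith) (by linarith) (by linarith)
    have h2 : NB z (r / 4) e ≤ NB z r e := NB_mono z (by linarith) e
    refine fin (4056 * (t / (r / 4))) ?_
      (h1.trans (mul_le_mul_of_nonneg_left h2 (by positivity)))
    have e1 : 4056 * (t / (r / 4)) = 16224 * (t / r) := by field_simp; ring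
    rw [e1]
    exact mul_le_mul_of_nonneg_right (by nlinarith) htr0

/-- **`RB` at every centre of a cluster box**, every coordinate ring, absolute constant -/
theorem rb_clu : ∃ C : ℝ, 0 ≤ C ∧ ∀ {G : Type} [CommRing G] [CN G] [CNL G] (w : BW G)
    (s : Face → ℝ) (x z : Face) (R ρ : ℝ) (r0 R0 : ℕ), 0 ≤ R → ClOn (wl w) s x R ρ →
    fdr x z + R0 ≤ ρ → 4 * R + 4 ≤ r0 → Inj G R0 → ∀ Λ : ℕ,
    RegGx893.RB w (pf z) C Λ r0 R0 := by
  obtain ⟨C1, hC1, hg⟩ := grow_clu_all
  refine ⟨2 * K2 C1 110000000000, by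
    have := ClRegx117.K2_nonneg hC1 (by norm_num : (0:ℝ) ≤ 110000000000); positivity, ?_⟩
  intro G _ _ _ w s x z R ρ r0 R0 hR H hz hr0 hI Λ
  have hr1 : (1 : ℝ) ≤ r0 := by linarith
  refine rb_of_grow (by exact_mod_cast hr1) hC1 (by norm_num) hI (fun r h1 h2 => ?_) ?_ Λ
  · exact H.gap (by linarith) (by linarith)
  · intro t r h1 h2 h3 e he
    exact hg (wl w) s x z R ρ R0 hR H hz t r (by linarith) h2 h3 e he

/-! ### the gauge of an even cluster of rays -/

/-- gauge of a family of rays, threshold column `x.1` -/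
def clg {n : ℕ} (x : Face) (X : Fin n → ℤ × ℤ) (f : Face) : ℝ :=
  if x.1 ≤ f.1 then ∏ i, (if (X i).2 ≤ f.2 then (-1 : ℝ) else 1) else 1

theorem prod_sq_one {ι : Type} (s : Finset ι) (p : ι → Prop) [DecidablePred p] :
    (∏ i ∈ s, (if p i then (-1 : ℝ) else 1)) ^ 2 = 1 := by
  rw [← Finset.prod_pow]
  exact Finset.prod_eq_one fun i _ => by split_ifs <;> norm_num

theorem gauge_clg {n : ℕ} (x : Face) (X : Fin n → ℤ × ℤ) : Gauge (clg x X) := by
  intro f
  unfold clg
  split_ifs
  · exact prod_sq_one _ _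
  · norm_num

/-- above and below the cluster the gauge is trivial -/
theorem clg_top {n : ℕ} (hn : Even n) {x f : Face} {X : Fin n → ℤ × ℤ}
    (h : ∀ i, (X i).2 ≤ f.2) : clg x X f = 1 := by
  unfold clg
  split_ifs with hx
  · rw [Finset.prod_congr rfl fun i _ => if_pos (h i), Finset.prod_const, Finset.card_univ,
      Fintype.card_fin, hn.neg_one_pow]
  · rfl

theorem clg_bot {n : ℕ} {x f : Face} {X : Fin n → ℤ × ℤ} (h : ∀ i, f.2 < (X i).2) :
    clg x X f = 1 := by
  unfold clg
  split_ifs with hx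
  · exact Finset.prod_eq_one fun i _ => if_neg (not_le.2 (h i))
  · rfl

theorem clg_left {n : ℕ} {x f : Face} {X : Fin n → ℤ × ℤ} (h : f.1 < x.1) :
    clg x X f = 1 := by
  unfold clg
  rw [if_neg (not_le.2 h)]

/-- sign of the ray on the bond between `f` and `f + e₂` -/
theorem clg_ray {n : ℕ} (hn : Even n) {x : Face} {R : ℤ} {X : Fin n → ℤ × ℤ}
    (hX : ∀ i, |(X i).1 - x.1| ≤ R ∧ |(X i).2 - x.2| ≤ R) {f : Face}
    (hf : x.1 + R < f.1 ∨ f.1 < x.1 - R ∨ x.2 + R ≤ f.2 ∨ f.2 + 1 < x.2 - R) (hR : 0 ≤ R) :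
    ray X (f.1, f.2 + 1) 0 = clg x X f * clg x X (f.1, f.2 + 1) := by
  have hX' : ∀ i, x.1 - R ≤ (X i).1 ∧ (X i).1 ≤ x.1 + R ∧ x.2 - R ≤ (X i).2 ∧
      (X i).2 ≤ x.2 + R := by
    intro i
    obtain ⟨h1, h2⟩ := hX i
    rw [abs_le] at h1 h2
    refine ⟨by linarith [h1.1], by linarith [h1.2], by linarith [h2.1], by linarith [h2.2]⟩
  rcases hf with hf | hf | hf | hf
  · -- right
    unfold clg ray
    rw [if_pos (by linarith), if_pos (by simp only; linarith), ← Finset.prod_mul_distrib]
    refine Finset.prod_congr rfl fun i _ => ?_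
    obtain ⟨h1, h2, h3, h4⟩ := hX' i
    simp only [true_and]
    split_ifs <;> first | (exfalso; omega) | norm_num
  · -- left
    rw [clg_left (f := f) (by linarith), clg_left (f := (f.1, f.2 + 1)) (by simp only; linarith)]
    unfold ray
    rw [mul_one]
    refine Finset.prod_eq_one fun i _ => if_neg ?_
    obtain ⟨h1, h2, h3, h4⟩ := hX' i
    rintro ⟨-, -, h5⟩
    simp only at h5
    linarith
  · -- above
    rw [clg_top hn (f := f) (fun i => (hX' i).2.2.2.trans hf),
      clg_top hn (f := (f.1, f.2 + 1)) (fun i => by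
        have := (hX' i).2.2.2
        simp only; linarith)]
    unfold ray
    rw [mul_one]
    refine Finset.prod_eq_one fun i _ => if_neg ?_
    obtain ⟨h1, h2, h3, h4⟩ := hX' i
    rintro ⟨-, h5, -⟩
    simp only at h5
    linarith
  · -- below
    rw [clg_bot (f := f) (fun i => by
        have := (hX' i).2.2.1
        linarith),
      clg_bot (f := (f.1, f.2 + 1)) (fun i => by
        have := (hX' i).2.2.1
        simp only; linarith)]
    unfold ray
    rw [mul_one]
    refine Finset.prod_eq_one fun i _ => if_neg ?_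
    obtain ⟨h1, h2, h3, h4⟩ := hX' i
    rintro ⟨-, h5, -⟩
    simp only at h5
    linarith

theorem ray_vert {n : ℕ} (X : Fin n → ℤ × ℤ) (z : ℤ × ℤ) : ray X z 1 = 1 := by
  unfold ray
  exact Finset.prod_eq_one fun i _ => if_neg (by rintro ⟨h, -⟩; exact absurd h (by decide))

theorem ray_sq {n : ℕ} (X : Fin n → ℤ × ℤ) (z : ℤ × ℤ) (j : Fin 2) : ray X z j ^ 2 = 1 := by
  unfold ray
  exact prod_sq_one _ _

/-- two faces differing by `e₁` outside the box have the same gauge -/
theorem clg_e1 {n : ℕ} (hn : Even n) {x : Face} {R : ℤ} {X : Fin n → ℤ × ℤ}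
    (hX : ∀ i, |(X i).1 - x.1| ≤ R ∧ |(X i).2 - x.2| ≤ R) {f : Face} (hR : 0 ≤ R)
    (hf : x.1 + R < f.1 ∨ f.1 + 1 < x.1 - R ∨ x.2 + R < f.2 ∨ f.2 < x.2 - R) :
    clg x X (f.1 + 1, f.2) = clg x X f := by
  have hX' : ∀ i, x.2 - R ≤ (X i).2 ∧ (X i).2 ≤ x.2 + R := by
    intro i
    obtain ⟨h1, h2⟩ := hX i
    rw [abs_le] at h2
    exact ⟨by linarith [h2.1], by linarith [h2.2]⟩
  rcases hf with hf | hf | hf | hf
  · unfold clg
    rw [if_pos (by simp only; linarith), if_pos (by linarith)]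
  · rw [clg_left (f := f) (by linarith), clg_left (f := (f.1 + 1, f.2)) (by simp only; linarith)]
  · rw [clg_top hn (f := f) (fun i => (hX' i).2.trans hf.le),
      clg_top hn (f := (f.1 + 1, f.2)) (fun i => (hX' i).2.trans hf.le)]
  · rw [clg_bot (f := f) (fun i => lt_of_lt_of_le hf (hX' i).1),
      clg_bot (f := (f.1 + 1, f.2)) (fun i => lt_of_lt_of_le hf (hX' i).1)]

theorem pf_int (f : Face) : (pf f : ℤ × ℤ) = f := by
  unfold pf
  ext <;> simp

/-- **the gauge of an even cluster**, any weights `w`: outside the box of radius `R + 1` -/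
theorem wl_wX_clu {n : ℕ} (hn : Even n) (w : BW ℤ) {x : Face} {R : ℝ} (hR : 0 ≤ R)
    {X : Fin n → ℤ × ℤ} (hX : ∀ i, X i ∈ bx x R) {f : Face} (hf : f ∉ bx x (R + 1)) (h : Fin 4) :
    wl (wX w X) f h = clg x X f * clg x X (nb f h) * wl w f h := by
  have hR0 : 0 ≤ ⌊R⌋ := Int.floor_nonneg.2 hR
  have hX' : ∀ i, |(X i).1 - x.1| ≤ ⌊R⌋ ∧ |(X i).2 - x.2| ≤ ⌊R⌋ := fun i => mem_bx.1 (hX i)
  rw [mem_bx, Int.floor_add_one, not_and_or, not_le, not_le, lt_abs, lt_abs] at hf
  have g1 := gauge_clg x X f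
  have hyE : ∀ g : Face, yE (wX w X) (pf g) = yE w (pf g) := by
    intro g
    simp only [yE, wX, ray_vert, one_mul]
  have hyN : ∀ g : Face, yN (wX w X) (pf g) = ray X (g.1, g.2 + 1) 0 * yN w (pf g) := by
    intro g
    simp only [yN, wX, pf_int]
  fin_cases h
  · -- S
    have e := clg_ray hn hX' (f := (f.1, f.2 - 1)) (by simp only; omega) hR0
    simp only [Fin.zero_eta, nb, wl, Tr1x40.ofEN]
    rw [hyN, e]
    simp only [sub_add_cancel]
    ring
  · have e := clg_e1 hn hX' (f := f) hR0 (by omega)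
    simp only [Fin.mk_one, nb, wl, Tr1x40.ofEN]
    rw [hyE, e]
    linear_combination (-yE w (pf f)) * g1
  · have e := clg_ray hn hX' (f := f) (by omega) hR0
    simp only [Fin.reduceFinMk, nb, wl, Tr1x40.ofEN]
    rw [hyN, e]
  · have e := clg_e1 hn hX' (f := (f.1 - 1, f.2)) hR0 (by simp only; omega)
    simp only [sub_add_cancel] at e
    simp only [Fin.reduceFinMk, nb, wl, Tr1x40.ofEN]
    rw [hyE, ← e]
    have g2 := gauge_clg x X (f.1, f.2)
    linear_combination (-yE w (pf (f.1 - 1, f.2))) * g2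

theorem wl_wX_sq {n : ℕ} (w : BW ℤ) (X : Fin n → ℤ × ℤ) (f : Face) (h : Fin 4) :
    wl (wX w X) f h ^ 2 = wl w f h ^ 2 := by
  fin_cases h <;>
    simp only [Fin.zero_eta, Fin.mk_one, Fin.reduceFinMk, wl, Tr1x40.ofEN, yE, yN, wX] <;>
    rw [mul_pow, ray_sq, one_mul]

/-- **an even cluster of insertions in a plane box** is a `ClOn` background -/
theorem clOn_of_plane {n : ℕ} (hn : Even n) {w : BW ℤ} {s : Face → ℝ} {x : Face} {R ρ : ℝ}
    (hR : 0 ≤ R) (hP : PlaneOn (wl w) s x ρ) {X : Fin n → ℤ × ℤ} (hX : ∀ i, X i ∈ bx x R) :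
    ClOn (wl (wX w X)) (fun f => s f * clg x X f) x (R + 1) ρ where
  sym := sym_wl _
  gauge f := by
    have h1 := hP.gauge f
    have h2 := gauge_clg x X f
    rw [mul_pow, h1, h2, one_mul]
  sq f hf h := by
    rw [wl_wX_sq, hP.eq f hf h, mul_pow, mul_pow, hP.gauge f, hP.gauge (nb f h)]; ring
  eq f hf hf' h := by
    rw [wl_wX_clu hn w hR hX hf' h, hP.eq f hf h]; ring

/-- the plane background -/
theorem planeOn_wPl (x : Face) (ρ : ℝ) : PlaneOn (wl (wPl ℤ)) (fun _ => 1) x ρ where
  sym := sym_wl _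
  gauge _ := by norm_num
  eq f _ h := by
    have e : Latx683.xc = Tr1x40.xc := rfl
    fin_cases h <;> simp [wl, Tr1x40.ofEN, yE, yN, wPl, e]

/-- the cluster of all insertions in the plane -/
theorem clOn_wPl {n : ℕ} (hn : Even n) {x : Face} {R ρ : ℝ} (hR : 0 ≤ R) {X : Fin n → ℤ × ℤ}
    (hX : ∀ i, X i ∈ bx x R) :
    ClOn (wl (wX (wPl ℤ) X)) (fun f => 1 * clg x X f) x (R + 1) ρ :=
  clOn_of_plane hn hR (planeOn_wPl x ρ) hX

end Crest.Agent.R165.ClAllx117
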