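import Crest.Agent.R165.ClPl_117
import Crest.Agent.R165.Cl7d_999

/-!
# Row 165 (S0250), block R, fifth geometry: the cluster class in the interface of helper891

* `ClOn w s x R ρ` : weights `± x_c` on `bx x ρ`, plane up to the gauge `s` on `bx x ρ \ bx x R`
* `grow_clu`  : exact solutions grow like `NB x t e ≤ C (t/r) NB x r e`, `R + 1 ≤ t ≤ r ≤ ρ`
                (from `Cl7x999.ex1c0`, helper999)
* `reg_clu`, `reg_clu_off` : Reg1 at the cluster centre and at every other centre, all scales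
                between `R + 1` and `ρ`, absolute constant
-/

set_option autoImplicit false
set_option linter.unusedVariables false

noncomputable section

namespace Crest.Agent.R165.ClGrx117

open Finset Crest.Agent.R165.Tr1x40 Crest.Agent.R165.Campx891 Crest.Agent.R165.RIfx891
  Crest.Agent.R165.ClRegx117 Crest.Agent.R165.Schurx811

/-- a cluster of insertions inside `bx x R`; the background is the plane one up to the gauge `s`
on `bx x ρ \ bx x R` -/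
structure ClOn (w : Fld) (s : Face → ℝ) (x : Face) (R ρ : ℝ) : Prop where
  sym : Sym w
  gauge : Gauge s
  sq : ∀ f ∈ bx x ρ, ∀ h, w f h ^ 2 = xc ^ 2
  eq : ∀ f ∈ bx x ρ, f ∉ bx x R → ∀ h, w f h = s f * s (nb f h) * xc

theorem ClOn.mono {w : Fld} {s : Face → ℝ} {x : Face} {R R' ρ ρ' : ℝ} (H : ClOn w s x R ρ)
    (hR : R ≤ R') (hρ : ρ' ≤ ρ) : ClOn w s x R' ρ' where
  sym := H.sym
  gauge := H.gauge
  sq f hf h := H.sq f (bx_mono x hρ hf) h
  eq f hf hf' h := H.eq f (bx_mono x hρ hf) (fun hc => hf' (bx_mono x hR hc)) h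

theorem ClOn.isPlusOn {w : Fld} {s : Face → ℝ} {x : Face} {R ρ : ℝ} (H : ClOn w s x R ρ) :
    IsPlusOn w x ρ := fun f hf h => Or.inl (H.sq f hf h)

/-- a box away from the cluster is a plane box -/
theorem ClOn.planeOn {w : Fld} {s : Face → ℝ} {x z : Face} {R ρ d : ℝ} (H : ClOn w s x R ρ)
    (hd : fdr x z + d ≤ ρ) (hd' : R + d < fdr x z) : PlaneOn w s z d where
  sym := H.sym
  gauge := H.gauge
  eq f hf h := by
    refine H.eq f (bx_subset hd hf) (fun hc => ?_) h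
    rw [mem_bx_real] at hf hc
    have h1 : fdr x z ≤ R + d := by
      refine max_le ?_ ?_
      · have := abs_sub_le (z.1 : ℝ) f.1 x.1
        rw [abs_sub_comm (z.1 : ℝ) f.1] at this
        linarith [hf.1, hc.1]
      · have := abs_sub_le (z.2 : ℝ) f.2 x.2
        rw [abs_sub_comm (z.2 : ℝ) f.2] at this
        linarith [hf.2, hc.2]
    linarith

/-! ### truncation and gauge -/

/-- the gauged weights of the half-edges touching `bx x ρ`, critical weights elsewhere -/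
def trw (s : Face → ℝ) (x : Face) (ρ : ℝ) (w : Fld) : Fld := fun f h =>
  if f ∈ bx x ρ ∨ nb f h ∈ bx x ρ then s f * s (nb f h) * w f h else xc

theorem mem_bx_nat {x f : Face} {r : ℝ} (hr : 0 ≤ r) : f ∈ bx x r ↔ dd f x ≤ ⌊r⌋₊ := by
  rw [mem_bx, dd_le_iff]
  have e : ((⌊r⌋₊ : ℕ) : ℤ) = ⌊r⌋ := Int.natCast_floor_eq_floor hr
  rw [e, abs_le, abs_le]
  constructor
  · rintro ⟨⟨h1, h2⟩, h3, h4⟩
    exact ⟨⟨by linarith, by linarith⟩, ⟨by linarith, by linarith⟩⟩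
  · rintro ⟨⟨h1, h2⟩, h3, h4⟩
    exact ⟨⟨by linarith, by linarith⟩, ⟨by linarith, by linarith⟩⟩

theorem bx_eq_bx (x : Face) {r : ℝ} (hr : 0 ≤ r) : bx x r = Cl7x999.bx x ⌊r⌋₊ := by
  ext f
  rw [mem_bx_nat hr, Cl7x999.mem_bx]

theorem NB_sq_E2 (x : Face) {r : ℝ} (hr : 0 ≤ r) (φ : Fld) :
    NB x r φ ^ 2 = Cl7x999.E2 (Cl7x999.bx x ⌊r⌋₊) φ := by
  rw [NB_sq, bx_eq_bx x hr]; rfl

theorem clu_trw {w : Fld} {s : Face → ℝ} {x : Face} {R ρ : ℝ} (hR : 0 ≤ R)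
    (H : ClOn w s x R ρ) : Cl7x999.Clu (trw s x ρ w) x (⌊R⌋₊ + 1) where
  sym f h := by
    unfold trw
    rw [nb_nb_op, H.sym f h]
    have hc : (nb f h ∈ bx x ρ ∨ f ∈ bx x ρ) ↔ (f ∈ bx x ρ ∨ nb f h ∈ bx x ρ) := or_comm
    simp only [hc]
    split_ifs
    · ring
    · rfl
  sq f h := by
    unfold trw
    split_ifs with hh
    · have hw : w f h ^ 2 = xc ^ 2 := by
        rcases hh with hh | hh
        · exact H.sq f hh h
        · have := H.sq _ hh (op h)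
          rwa [H.sym f h] at this
      rw [mul_pow, mul_pow, H.gauge f, H.gauge (nb f h), hw]; ring
    · rfl
  out f h hf := by
    have hfR : f ∉ bx x R := by rw [mem_bx_nat hR]; omega
    have hnR : nb f h ∉ bx x R := by
      rw [mem_bx_nat hR]
      have := Cl7x999.dd_le_nb f x h
      omega
    unfold trw
    split_ifs with hh
    · have hw : w f h = s f * s (nb f h) * xc := by
        rcases hh with hh | hh
        · exact H.eq f hh hfR h
        · have := H.eq _ hh hnR (op h)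
          rw [H.sym f h, nb_nb_op] at this
          rw [this]; ring
      have g1 := H.gauge f
      have g2 := H.gauge (nb f h)
      rw [hw]
      linear_combination (s (nb f h) ^ 2 * xc) * g1 + xc * g2
    · rfl

theorem A_trw {w : Fld} {s : Face → ℝ} {x : Face} {ρ : ℝ} (hs : Gauge s) {f : Face}
    (hf : f ∈ bx x ρ) (φ : Fld) : A (trw s x ρ w) (gm s φ) f = fun h => s f * A w φ f h := by
  refine A_gm hs (fun h => ?_) φ
  unfold trw
  rw [if_pos (Or.inl hf)]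

/-- **growth of exact solutions around a cluster** -/
theorem grow_clu : ∃ C : ℝ, 0 ≤ C ∧ ∀ (w : Fld) (s : Face → ℝ) (x : Face) (R ρ : ℝ), 0 ≤ R →
    ClOn w s x R ρ → GrowOn w x (R + 1) ρ C := by
  obtain ⟨C0, hC0, key⟩ := Cl7x999.ex1c0
  refine ⟨2 * Real.sqrt C0, by positivity, ?_⟩
  intro w s x R ρ hR H t r hRt htr hrρ e he
  have ht1 : 1 ≤ t := by linarith
  have hr1 : 1 ≤ r := by linarith
  have ht0 : 0 ≤ t := by linarith
  have hr0 : 0 ≤ r := by linarith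
  have hfl : ⌊R⌋₊ + 1 ≤ ⌊t⌋₊ := by
    rw [← Nat.floor_add_one hR]
    exact Nat.floor_mono hRt
  have hfl2 : ⌊t⌋₊ ≤ ⌊r⌋₊ := Nat.floor_mono htr
  have h1 := key (trw s x ρ w) x (⌊R⌋₊ + 1) ⌊t⌋₊ ⌊r⌋₊ (by omega) hfl hfl2 (clu_trw hR H)
    (gm s e) (fun f hf => by
      have hf' : f ∈ bx x r := (mem_bx_nat hr0).2 hf
      rw [A_trw H.gauge (bx_mono x hrρ hf'), he f hf']
      funext h; simp)
  rw [← NB_sq_E2 x ht0, ← NB_sq_E2 x hr0, NB_gm H.gauge, NB_gm H.gauge] at h1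
  have hr' : r ≤ 2 * (⌊r⌋₊ : ℝ) := by
    have a1 : r < ⌊r⌋₊ + 1 := Nat.lt_floor_add_one r
    have a2 : (1 : ℝ) ≤ ⌊r⌋₊ := by
      have : 1 ≤ ⌊r⌋₊ := Nat.le_floor (by simpa using hr1)
      exact_mod_cast this
    linarith
  have hrf : (0 : ℝ) < ⌊r⌋₊ := by linarith
  have hq : ((⌊t⌋₊ : ℕ) : ℝ) / (⌊r⌋₊ : ℕ) ≤ 2 * (t / r) := by
    rw [div_le_iff₀ hrf]
    have a1 : ((⌊t⌋₊ : ℕ) : ℝ) ≤ t := Nat.floor_le ht0
    have a2 : t = 2 * (t / r) * (r / 2) := by field_simp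
    calc ((⌊t⌋₊ : ℕ) : ℝ) ≤ t := a1
      _ = 2 * (t / r) * (r / 2) := a2
      _ ≤ 2 * (t / r) * ⌊r⌋₊ := by
          refine mul_le_mul_of_nonneg_left (by linarith) (by positivity)
  have hN : 0 ≤ NB x r e := apply_nonneg _ _
  refine le_of_sq_le_sq (h1.trans ?_) (by positivity)
  have hq0 : 0 ≤ ((⌊t⌋₊ : ℕ) : ℝ) / (⌊r⌋₊ : ℕ) := by positivity
  calc C0 * (((⌊t⌋₊ : ℕ) : ℝ) / (⌊r⌋₊ : ℕ)) ^ 2 * NB x r e ^ 2
      ≤ C0 * (2 * (t / r)) ^ 2 * NB x r e ^ 2 := by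
        refine mul_le_mul_of_nonneg_right (mul_le_mul_of_nonneg_left
          (pow_le_pow_left₀ hq0 hq 2) hC0.le) (by positivity)
    _ = (2 * Real.sqrt C0 * (t / r) * NB x r e) ^ 2 := by
        rw [mul_pow (2 * Real.sqrt C0 * (t / r)), mul_pow (2 * Real.sqrt C0), mul_pow 2 (Real.sqrt C0),
          Real.sq_sqrt hC0.le]
        ring

/-- gap on every box inside `bx x ρ` -/
theorem ClOn.gap {w : Fld} {s : Face → ℝ} {x : Face} {R ρ : ℝ} (H : ClOn w s x R ρ) {z : Face}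
    {r : ℝ} (hr : 1 ≤ r) (h : fdr x z + r ≤ ρ) : GapOn w z r 110000000000 :=
  Sqx54.gapU w z r hr H.sym (fun f hf k => Or.inl (H.sq f (bx_subset h hf) k))

theorem fdr_self (x : Face) : fdr x x = 0 := by simp [fdr]

/-- **Reg1 at the cluster centre**, all scales `R + 1 ≤ t ≤ ρ`, absolute constant -/
theorem reg_clu : ∃ C : ℝ, 0 ≤ C ∧ ∀ (w : Fld) (s : Face → ℝ) (x : Face) (R ρ : ℝ), 0 ≤ R →
    ClOn w s x R ρ → ∀ t : ℝ, R + 1 ≤ t → t ≤ ρ → ∀ f : Fld, NB x ρ f ≤ 1 →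
      NB x ρ (A w f) ≤ 1 / ρ → NB x ρ (A w (A w f)) ≤ 1 / ρ ^ 2 → NB x t f ≤ C * (t / ρ) := by
  obtain ⟨C1, hC1, hg⟩ := grow_clu
  refine ⟨2 * K2 C1 110000000000, by have := K2_nonneg hC1 (by norm_num : (0:ℝ) ≤ 110000000000); positivity, ?_⟩
  intro w s x R ρ hR H t ht htρ f h0 h1 h2
  refine reg1 H.sym (R := R + 1) (by linarith) hC1 (by norm_num) (fun r h3 h4 => ?_)
    (hg w s x R ρ hR H) ht htρ h0 h1 h2
  exact H.gap (by linarith) (by rw [fdr_self]; linarith)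

/-- **Reg1 at every centre** of the box around a cluster, scales `R + 1 ≤ t`, absolute constant -/
theorem reg_clu_off : ∃ C : ℝ, 0 ≤ C ∧ ∀ (w : Fld) (s : Face → ℝ) (x : Face) (R ρ : ℝ), 0 ≤ R →
    ClOn w s x R ρ → ∀ (z : Face) (t : ℝ), R + 1 ≤ t → 3 * t ≤ ρ → 3 * fdr x z ≤ 2 * ρ →
      ∀ f : Fld, NB x ρ f ≤ 1 → NB x ρ (A w f) ≤ 1 / ρ → NB x ρ (A w (A w f)) ≤ 1 / ρ ^ 2 →
        NB z t f ≤ C * (t / ρ) := by
  obtain ⟨C1, hC1, hg⟩ := grow_clu
  refine ⟨K3 C1 4056 110000000000, (K3_pos hC1 (by norm_num) (by norm_num)).le, ?_⟩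
  intro w s x R ρ hR H z t ht htρ hz f h0 h1 h2
  refine reg1_off H.sym (R := R + 1) (by linarith) hC1 (by norm_num) (by norm_num)
    (fun r h3 h4 => H.gap (by linarith) (by rw [fdr_self]; linarith))
    (hg w s x R ρ hR H) (fun r h3 h4 => H.gap (by linarith) (by linarith))
    (fun h3 => ClPlx117.grow_plane (s := s) (by linarith) (H.planeOn (by linarith) (by linarith)))
    (by linarith) (by linarith) htρ hz h0 h1 h2

end Crest.Agent.R165.ClGrx117
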