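import Crest.Agent.R165.PlaneLoc_901

/-!
# Row 165 (S0250), block G5: covariance of the localisation under the symmetries of the plane
-/

set_option autoImplicit false

noncomputable section

namespace Crest.Agent.R165.PlaneCovx901

open Crest.Agent.R165.Gr0x606
open Crest.Agent.R165.Latx683
open Crest.Agent.R165.Locx901
open Crest.Agent.R165.PlaneModesx901
open Crest.Agent.R165.PlaneLocx901

/-! ### action on the local functionals -/

theorem tauV_dl (t x : Fc) (d : Fin 4) : tauV t (dl x d) = dl (x + t) d := by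
  rw [tauV, dl, push_single, one_smul]; rfl

theorem rhoV_S (z x : Fc) : rhoV z (dl x 0) = dl (rot z x) 1 := by
  rw [rhoV, dl, push_single]; simp [rhoSgn, rhoH]
theorem rhoV_E (z x : Fc) : rhoV z (dl x 1) = dl (rot z x) 2 := by
  rw [rhoV, dl, push_single]; simp [rhoSgn, rhoH]
theorem rhoV_N (z x : Fc) : rhoV z (dl x 2) = dl (rot z x) 3 := by
  rw [rhoV, dl, push_single]; simp [rhoSgn, rhoH]
theorem rhoV_W (z x : Fc) : rhoV z (dl x 3) = -dl (rot z x) 0 := by
  rw [rhoV, dl, push_single]; simp [rhoSgn, rhoH]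
theorem sigV_S (z x : Fc) : sigV z (dl x 0) = dl (ref z x) 0 := by
  rw [sigV, dl, push_single]; simp [sigSgn, sigH]
theorem sigV_E (z x : Fc) : sigV z (dl x 1) = -dl (ref z x) 3 := by
  rw [sigV, dl, push_single]; simp [sigSgn, sigH]
theorem sigV_N (z x : Fc) : sigV z (dl x 2) = -dl (ref z x) 2 := by
  rw [sigV, dl, push_single]; simp [sigSgn, sigH]
theorem sigV_W (z x : Fc) : sigV z (dl x 3) = -dl (ref z x) 1 := by
  rw [sigV, dl, push_single]; simp [sigSgn, sigH]

theorem tauV_phiA (t x : Fc) : tauV t (phiA x) = phiA (x + t) := by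
  simp only [phiA, map_smul, map_add, map_sub, tauV_dl]
theorem tauV_phiB (t x : Fc) : tauV t (phiB x) = phiB (x + t) := by
  simp only [phiB, map_smul, map_add, map_sub, tauV_dl]

theorem rhoV_phiA (z x : Fc) :
    rhoV z (phiA x) = (r2 / 2) • (phiB (rot z x) - phiA (rot z x)) := by
  have h2 : r2 / 2 * (r2 / 2) = 1 / 2 := by linear_combination r2_sq / 4
  have h3 : (1 / 2 - r2 / 2 * (r2 / 2)) • dl (rot z x) 2 = 0 := by rw [h2, sub_self, zero_smul]
  rw [← add_zero ((r2 / 2) • (phiB (rot z x) - phiA (rot z x))), ← h3]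
  simp only [phiA, phiB, map_smul, map_add, map_sub, rhoV_S, rhoV_E, rhoV_N]
  module

theorem rhoV_phiB (z x : Fc) :
    rhoV z (phiB x) = -(r2 / 2) • (phiA (rot z x) + phiB (rot z x)) := by
  have h2 : r2 / 2 * (r2 / 2) = 1 / 2 := by linear_combination r2_sq / 4
  have h3 : (1 / 2 - r2 / 2 * (r2 / 2)) • dl (rot z x) 0 = 0 := by rw [h2, sub_self, zero_smul]
  rw [← add_zero (-(r2 / 2) • (phiA (rot z x) + phiB (rot z x))), ← h3]
  simp only [phiA, phiB, map_smul, map_add, map_sub, rhoV_S, rhoV_W, rhoV_N]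
  module

theorem sigV_phiA (z x : Fc) : sigV z (phiA x) = phiB (ref z x) := by
  simp only [phiA, phiB, map_smul, map_add, map_sub, sigV_S, sigV_E, sigV_N]
  module

theorem sigV_phiB (z x : Fc) : sigV z (phiB x) = phiA (ref z x) := by
  simp only [phiA, phiB, map_smul, map_add, map_sub, sigV_S, sigV_W, sigV_N]
  module

theorem fc_add1 (x t : Fc) : ((x.1 + 1, x.2) : Fc) + t = ((x + t).1 + 1, (x + t).2) := by
  ext <;> simp [add_right_comm]
theorem fc_sub1 (x t : Fc) : ((x.1 - 1, x.2) : Fc) + t = ((x + t).1 - 1, (x + t).2) := by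
  ext <;> simp [sub_add_eq_add_sub]
theorem fc_add2 (x t : Fc) : ((x.1, x.2 + 1) : Fc) + t = ((x + t).1, (x + t).2 + 1) := by
  ext <;> simp [add_right_comm]
theorem fc_sub2 (x t : Fc) : ((x.1, x.2 - 1) : Fc) + t = ((x + t).1, (x + t).2 - 1) := by
  ext <;> simp [sub_add_eq_add_sub]

theorem tauV_D1A (t x : Fc) : tauV t (D1 phiA x) = D1 phiA (x + t) := by
  simp only [D1, map_smul, map_sub, tauV_phiA, fc_add1, fc_sub1]
theorem tauV_D1B (t x : Fc) : tauV t (D1 phiB x) = D1 phiB (x + t) := by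
  simp only [D1, map_smul, map_sub, tauV_phiB, fc_add1, fc_sub1]
theorem tauV_D2A (t x : Fc) : tauV t (D2 phiA x) = D2 phiA (x + t) := by
  simp only [D2, map_smul, map_sub, tauV_phiA, fc_add2, fc_sub2]
theorem tauV_D2B (t x : Fc) : tauV t (D2 phiB x) = D2 phiB (x + t) := by
  simp only [D2, map_smul, map_sub, tauV_phiB, fc_add2, fc_sub2]

theorem rhoV_D1A (z x : Fc) :
    rhoV z (D1 phiA x) = (r2 / 2) • (D2 phiB (rot z x) - D2 phiA (rot z x)) := by
  simp only [D1, D2, map_smul, map_sub, rhoV_phiA, rot_add1, rot_sub1]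
  module
theorem rhoV_D1B (z x : Fc) :
    rhoV z (D1 phiB x) = -(r2 / 2) • (D2 phiA (rot z x) + D2 phiB (rot z x)) := by
  simp only [D1, D2, map_smul, map_sub, rhoV_phiB, rot_add1, rot_sub1]
  module
theorem rhoV_D2A (z x : Fc) :
    rhoV z (D2 phiA x) = -(r2 / 2) • (D1 phiB (rot z x) - D1 phiA (rot z x)) := by
  simp only [D1, D2, map_smul, map_sub, rhoV_phiA, rot_add2, rot_sub2]
  module
theorem rhoV_D2B (z x : Fc) :
    rhoV z (D2 phiB x) = (r2 / 2) • (D1 phiA (rot z x) + D1 phiB (rot z x)) := by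
  simp only [D1, D2, map_smul, map_sub, rhoV_phiB, rot_add2, rot_sub2]
  module

theorem sigV_D1A (z x : Fc) : sigV z (D1 phiA x) = -D1 phiB (ref z x) := by
  simp only [D1, map_smul, map_sub, sigV_phiA, ref_add1, ref_sub1]
  module
theorem sigV_D1B (z x : Fc) : sigV z (D1 phiB x) = -D1 phiA (ref z x) := by
  simp only [D1, map_smul, map_sub, sigV_phiB, ref_add1, ref_sub1]
  module
theorem sigV_D2A (z x : Fc) : sigV z (D2 phiA x) = D2 phiB (ref z x) := by
  simp only [D2, map_smul, map_sub, sigV_phiA, ref_add2, ref_sub2]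
theorem sigV_D2B (z x : Fc) : sigV z (D2 phiB x) = D2 phiA (ref z x) := by
  simp only [D2, map_smul, map_sub, sigV_phiB, ref_add2, ref_sub2]

theorem tauV_qU (t x : Fc) : tauV t (qU x) = qU (x + t) := by
  simp only [qU, map_smul, map_add, tauV_D1A, tauV_D2B]
theorem tauV_qV (t x : Fc) : tauV t (qV x) = qV (x + t) := by
  simp only [qV, map_smul, map_sub, tauV_D1B, tauV_D2A]
theorem tauV_qS (t x : Fc) : tauV t (qS x) = qS (x + t) := by
  simp only [qS, map_smul, map_sub, tauV_D1A, tauV_D2B]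
theorem tauV_qT (t x : Fc) : tauV t (qT x) = qT (x + t) := by
  simp only [qT, map_smul, map_add, tauV_D1B, tauV_D2A]

theorem rhoV_qU (z x : Fc) : rhoV z (qU x) = (r2 / 2) • (qU (rot z x) + qV (rot z x)) := by
  simp only [qU, qV, map_smul, map_add, rhoV_D1A, rhoV_D2B]
  module
theorem rhoV_qV (z x : Fc) : rhoV z (qV x) = (r2 / 2) • (qV (rot z x) - qU (rot z x)) := by
  simp only [qU, qV, map_smul, map_sub, rhoV_D1B, rhoV_D2A]
  module
theorem rhoV_qS (z x : Fc) : rhoV z (qS x) = -(r2 / 2) • (qS (rot z x) + qT (rot z x)) := by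
  simp only [qS, qT, map_smul, map_sub, rhoV_D1A, rhoV_D2B]
  module
theorem rhoV_qT (z x : Fc) : rhoV z (qT x) = (r2 / 2) • (qS (rot z x) - qT (rot z x)) := by
  simp only [qS, qT, map_smul, map_add, rhoV_D1B, rhoV_D2A]
  module

theorem sigV_qU (z x : Fc) : sigV z (qU x) = -qV (ref z x) := by
  simp only [qU, qV, map_smul, map_add, sigV_D1A, sigV_D2B]
  module
theorem sigV_qV (z x : Fc) : sigV z (qV x) = -qU (ref z x) := by
  simp only [qU, qV, map_smul, map_sub, sigV_D1B, sigV_D2A]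
  module
theorem sigV_qS (z x : Fc) : sigV z (qS x) = -qT (ref z x) := by
  simp only [qS, qT, map_smul, map_sub, sigV_D1A, sigV_D2B]
  module
theorem sigV_qT (z x : Fc) : sigV z (qT x) = -qS (ref z x) := by
  simp only [qS, qT, map_smul, map_add, sigV_D1B, sigV_D2A]
  module

/-! ### action on the local forms -/

theorem fi_add' (x y : Fld ℤ) : fi (x + y) = fi x + fi y := fi_add x y
theorem fi_smul' (c : ℝ) (x : Fld ℤ) : fi (c • x) = c • fi x := by rw [fi, fi, map_smul]
theorem fi_neg' (x : Fld ℤ) : fi (-x) = -fi x := by rw [fi, fi, map_neg]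
theorem fi_sub' (x y : Fld ℤ) : fi (x - y) = fi x - fi y := by rw [fi, fi, fi, map_sub]

theorem fi_sq' (x : Fld ℤ) : fi x * fi x = 0 := by
  have h := fi_anti x x
  have h2 : (2 : ℝ) • (fi x * fi x) = 0 := by rw [two_smul]; nth_rewrite 1 [h]; exact neg_add_cancel _
  exact (smul_eq_zero.1 h2).resolve_left two_ne_zero

theorem mp_tau_mass (t y : Fc) : mp (tauV t) (mass y) = mass (y + t) := by
  rw [mass, map_mul, mp_fi, mp_fi, tauV_phiA, tauV_phiB, mass]

theorem mp_tau_kin (t y : Fc) : mp (tauV t) (kin y) = kin (y + t) := by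
  rw [kin, map_add, map_mul, map_mul, mp_fi, mp_fi, mp_fi, mp_fi, tauV_phiA, tauV_phiB, tauV_qS,
    tauV_qT, kin]

theorem mp_rho_mass (z y : Fc) : mp (rhoV z) (mass y) = mass (rot z y) := by
  have h2 : r2 / 2 * (r2 / 2) = 1 / 2 := by linear_combination r2_sq / 4
  rw [mass, map_mul, mp_fi, mp_fi, rhoV_phiA, rhoV_phiB, mass]
  set a := phiA (rot z y)
  set b := phiB (rot z y)
  rw [fi_smul', fi_smul', fi_sub', fi_add', smul_mul_smul_comm, sub_mul, mul_add, mul_add, fi_sq',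
    fi_sq', fi_anti b a]
  have h3 : r2 / 2 * -(r2 / 2) = -(1 / 2) := by rw [mul_neg, h2]
  rw [h3]
  module

theorem mp_rho_kin (z y : Fc) : mp (rhoV z) (kin y) = kin (rot z y) := by
  have h2 : r2 / 2 * (r2 / 2) = 1 / 2 := by linear_combination r2_sq / 4
  rw [kin, map_add, map_mul, map_mul, mp_fi, mp_fi, mp_fi, mp_fi, rhoV_phiA, rhoV_phiB, rhoV_qS,
    rhoV_qT, kin]
  simp only [fi_smul', fi_sub', fi_add', smul_mul_smul_comm]
  rw [show -(r2 / 2) * -(r2 / 2) = 1 / 2 by rw [neg_mul_neg, h2], h2]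
  simp only [sub_mul, mul_add, add_mul, mul_sub]
  module

theorem mp_sig_mass (z y : Fc) : rev' (mp (sigV z) (mass y)) = mass (ref z y) := by
  rw [mass, map_mul, mp_fi, mp_fi, sigV_phiA, sigV_phiB, rev'_mul, rev'_fi, rev'_fi, mass]

theorem mp_sig_kin (z y : Fc) : rev' (mp (sigV z) (kin y)) = kin (ref z y) := by
  rw [kin, map_add, map_mul, map_mul, mp_fi, mp_fi, mp_fi, mp_fi, sigV_phiA, sigV_phiB, sigV_qS,
    sigV_qT, map_add, rev'_mul, rev'_mul, rev'_fi, rev'_fi, rev'_fi, rev'_fi, kin, fi_neg', fi_neg',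
    neg_mul, neg_mul, fi_anti (qS _) (phiB _), fi_anti (qT _) (phiA _), neg_neg, neg_neg, add_comm]

theorem isEv_fi_fi (x y : Fld ℤ) : IsEv (fi x * fi y) := by
  rw [IsEv, map_mul, inv'_fi, inv'_fi, neg_mul_neg]

theorem isEv_mass (y : Fc) : IsEv (mass y) := isEv_fi_fi _ _
theorem isEv_kin (y : Fc) : IsEv (kin y) := by
  have h1 := isEv_fi_fi (phiA y) (qT y)
  have h2 := isEv_fi_fi (phiB y) (qS y)
  rw [IsEv] at h1 h2 ⊢
  rw [kin, map_add, h1, h2]

/-! ### covariance of the localisation -/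

theorem rot_eq (z y x : Fc) : rot z x = rot y x + (rot z y - y) := by
  ext <;> simp [rot] <;> ring

theorem ref_eq (z y x : Fc) : ref z x = ref y x + (ref z y - y) := by
  ext <;> simp [ref] <;> ring

theorem rhoS_eq (z y : Fc) (f : Tst) : rhoS z f = rhoS y (tauS (rot z y - y) f) := by
  refine tst_ext ?_ ?_ ?_ ?_ <;> intro x
  · rw [rhoS_S, rhoS_S, tauS_apply, rot_eq z y x]
  · rw [rhoS_E, rhoS_E, tauS_apply, rot_eq z y x]
  · rw [rhoS_N, rhoS_N, tauS_apply, rot_eq z y x]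
  · rw [rhoS_W, rhoS_W, tauS_apply, rot_eq z y x]

theorem sigS_eq (z y : Fc) (f : Tst) : sigS z f = sigS y (tauS (ref z y - y) f) := by
  refine tst_ext ?_ ?_ ?_ ?_ <;> intro x
  · rw [sigS_S, sigS_S, tauS_apply, ref_eq z y x]
  · rw [sigS_E, sigS_E, tauS_apply, ref_eq z y x]
  · rw [sigS_N, sigS_N, tauS_apply, ref_eq z y x]
  · rw [sigS_W, sigS_W, tauS_apply, ref_eq z y x]

theorem rhoS_m1' (z y : Fc) (u v s t : ℝ) :
    rhoS z (m1 (rot z y) u v s t) = m1 y ((r2 / 2) * (u + v)) ((r2 / 2) * (v - u))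
      (-(r2 / 2) * (s + t)) ((r2 / 2) * (s - t)) := by
  rw [rhoS_eq z y]
  nth_rewrite 2 [show rot z y = y + (rot z y - y) by abel]
  rw [tauS_m1, rhoS_m1]

theorem sigS_m1' (z y : Fc) (u v s t : ℝ) :
    sigS z (m1 (ref z y) u v s t) = m1 y (-v) (-u) (-t) (-s) := by
  rw [sigS_eq z y]
  nth_rewrite 2 [show ref z y = y + (ref z y - y) by abel]
  rw [tauS_m1, sigS_m1]

theorem tauS_m1' (t y : Fc) (u v s w : ℝ) : tauS t (m1 (y + t) u v s w) = m1 y u v s w :=
  tauS_m1 t y u v s w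

theorem ev_m0_eq (a b : ℝ) : ev (m0 a b) = a • ev (m0 1 0) + b • ev (m0 0 1) := by
  rw [m0_eq, ev_add, ev_smul, ev_smul]

theorem ev_m1_eq (y : Fc) (u v s t : ℝ) : ev (m1 y u v s t) =
    u • ev (m1 y 1 0 0 0) + v • ev (m1 y 0 1 0 0) + s • ev (m1 y 0 0 1 0) +
      t • ev (m1 y 0 0 0 1) := by
  rw [m1_eq, ev_add, ev_add, ev_add, ev_smul, ev_smul, ev_smul, ev_smul]

theorem LocAt_tau (t y : Fc) (a : Gr (Fld ℤ)) :
    LocAt (y + t) (mp (tauV t) a) = mp (tauV t) (LocAt y a) := by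
  refine Loc_mp2 (tauV t) (md y) (md (y + t)) (fun i j => if i = j then 1 else 0)
    (fun i j => if i = j then 1 else 0) ?_ ?_ ?_ ?_ a
  · intro i
    fin_cases i <;> simp [md, ev_tauV, tauS_m0]
  · intro i
    fin_cases i <;> simp [md, ev_tauV, tauS_m1]
  · intro i
    fin_cases i <;> simp [md, tauV_phiA, tauV_phiB]
  · intro i
    fin_cases i <;> simp [md, tauV_qU, tauV_qV, tauV_qS, tauV_qT]

/-- the matrix of the rotation on the constant modes -/
def Grho : Fin 2 → Fin 2 → ℝ := ![![-(r2 / 2), -(r2 / 2)], ![r2 / 2, -(r2 / 2)]]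

/-- the matrix of the rotation on the linear modes -/
def Hrho : Fin 4 → Fin 4 → ℝ :=
  ![![r2 / 2, -(r2 / 2), 0, 0], ![r2 / 2, r2 / 2, 0, 0], ![0, 0, -(r2 / 2), r2 / 2],
    ![0, 0, -(r2 / 2), -(r2 / 2)]]

theorem LocAt_rho (z y : Fc) (a : Gr (Fld ℤ)) :
    LocAt (rot z y) (mp (rhoV z) a) = mp (rhoV z) (LocAt y a) := by
  refine Loc_mp2 (rhoV z) (md y) (md (rot z y)) Grho Hrho ?_ ?_ ?_ ?_ a
  · intro i
    fin_cases i
    · simp only [md, Matrix.cons_val_zero, Fin.zero_eta, ev_rhoV, rhoS_m0, Fin.sum_univ_two, Grho,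
        Matrix.cons_val_one]
      rw [ev_m0_eq]
      module
    · simp only [md, Matrix.cons_val_zero, Fin.mk_one, ev_rhoV, rhoS_m0, Fin.sum_univ_two, Grho,
        Matrix.cons_val_one]
      rw [ev_m0_eq]
      module
  · intro i
    fin_cases i <;>
    · simp only [md, Matrix.cons_val_zero, Fin.zero_eta, Fin.mk_one, Fin.reduceFinMk, ev_rhoV,
        rhoS_m1', Fin.sum_univ_four, Hrho, Matrix.cons_val_one, Matrix.cons_val]
      rw [ev_m1_eq]
      module
  · intro i
    fin_cases i <;>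
    · simp only [md, Matrix.cons_val_zero, Fin.zero_eta, Fin.mk_one, rhoV_phiA, rhoV_phiB,
        Fin.sum_univ_two, Grho, Matrix.cons_val_one]
      module
  · intro i
    fin_cases i <;>
    · simp only [md, Matrix.cons_val_zero, Fin.zero_eta, Fin.mk_one, Fin.reduceFinMk, rhoV_qU,
        rhoV_qV, rhoV_qS, rhoV_qT, Fin.sum_univ_four, Hrho, Matrix.cons_val_one, Matrix.cons_val]
      module

/-- the matrix of the reflection on the constant modes -/
def Gsig : Fin 2 → Fin 2 → ℝ := ![![0, 1], ![1, 0]]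

/-- the matrix of the reflection on the linear modes -/
def Hsig : Fin 4 → Fin 4 → ℝ := ![![0, -1, 0, 0], ![-1, 0, 0, 0], ![0, 0, 0, -1], ![0, 0, -1, 0]]

theorem LocAt_sig' (z y : Fc) (a : Gr (Fld ℤ)) :
    LocAt (ref z y) (mp (sigV z) a) = mp (sigV z) (LocAt y a) := by
  refine Loc_mp2 (sigV z) (md y) (md (ref z y)) Gsig Hsig ?_ ?_ ?_ ?_ a
  · intro i
    fin_cases i
    · simp only [md, Matrix.cons_val_zero, Fin.zero_eta, ev_sigV, sigS_m0, Fin.sum_univ_two, Gsig,
        Matrix.cons_val_one]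
      module
    · simp only [md, Matrix.cons_val_zero, Fin.mk_one, ev_sigV, sigS_m0, Fin.sum_univ_two, Gsig,
        Matrix.cons_val_one]
      module
  · intro i
    fin_cases i <;>
    · simp only [md, Matrix.cons_val_zero, Fin.zero_eta, Fin.mk_one, Fin.reduceFinMk, ev_sigV,
        sigS_m1', Fin.sum_univ_four, Hsig, Matrix.cons_val_one, Matrix.cons_val]
      rw [ev_m1_eq]
      module
  · intro i
    fin_cases i <;>
    · simp only [md, Matrix.cons_val_zero, Fin.zero_eta, Fin.mk_one, sigV_phiA, sigV_phiB,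
        Fin.sum_univ_two, Gsig, Matrix.cons_val_one]
      module
  · intro i
    fin_cases i <;>
    · simp only [md, Matrix.cons_val_zero, Fin.zero_eta, Fin.mk_one, Fin.reduceFinMk, sigV_qU,
        sigV_qV, sigV_qS, sigV_qT, Fin.sum_univ_four, Hsig, Matrix.cons_val_one, Matrix.cons_val]
      module

theorem rev'_LocAt (y : Fc) (a : Gr (Fld ℤ)) : rev' (LocAt y a) = -LocAt y a := by
  rw [LocAt, Loc_apply]
  simp only [map_add, map_sum, map_smul, rev'_mul, rev'_fi]
  rw [neg_add]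
  congr 1
  · rw [← Finset.sum_neg_distrib]
    refine Finset.sum_congr rfl fun i _ => ?_
    rw [← Finset.sum_neg_distrib]
    refine Finset.sum_congr rfl fun j _ => ?_
    rw [fi_anti, smul_neg]
  · rw [← Finset.sum_neg_distrib]
    refine Finset.sum_congr rfl fun i _ => ?_
    rw [← Finset.sum_neg_distrib]
    refine Finset.sum_congr rfl fun j _ => ?_
    rw [fi_anti, smul_neg]

/-- covariance under the (real form of the) reflection -/
theorem LocAt_sig (z y : Fc) (a : Gr (Fld ℤ)) :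
    LocAt (ref z y) (rev' (mp (sigV z) a)) = rev' (mp (sigV z) (LocAt y a)) := by
  rw [show LocAt (ref z y) (rev' (mp (sigV z) a)) = -LocAt (ref z y) (mp (sigV z) a) from
    Loc_rev' _ _, LocAt_sig', ← LocAt_sig', rev'_LocAt]

/-! ### local parts of the local forms -/

theorem cMass_mass (y : Fc) : cMass (mass y) = 1 := by
  rw [cMass, formL_apply, mass, form_fi_fi, ev_phiA_m0, ev_phiB_m0, ev_phiB_m0]; ring

theorem cMass_kin (y : Fc) : cMass (kin y) = 0 := by
  rw [cMass, formL_apply, kin, form_add, form_fi_fi, form_fi_fi]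
  simp only [ev_phiA_m0, ev_phiB_m0, ev_qS_m0, ev_qT_m0]
  ring

theorem cKin_mass (y : Fc) : cKin y (mass y) = 0 := by
  rw [cKin, formL_apply, mass, form_fi_fi]
  simp only [ev_phiA_m0, ev_phiB_m0, ev_phiA_m1, ev_phiB_m1]
  push_cast
  ring

theorem cKin_kin (y : Fc) : cKin y (kin y) = 1 := by
  rw [cKin, formL_apply, kin, form_add, form_fi_fi, form_fi_fi]
  simp only [ev_phiA_m0, ev_phiB_m0, ev_phiA_m1, ev_phiB_m1, ev_qS_m0, ev_qT_m0, ev_qS_m1,
    ev_qT_m1]
  push_cast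
  ring

theorem rot_self (y : Fc) : rot y y = y := by ext <;> simp [rot]
theorem ref_self (y : Fc) : ref y y = y := by ext <;> simp [ref]

theorem LocAt_mass (y : Fc) : LocAt y (mass y) = mass y := by
  rw [LocAt_covariant y _ (by rw [mp_rho_mass, rot_self]) (by rw [mp_sig_mass, ref_self]),
    cMass_mass, cKin_mass, one_smul, zero_smul, add_zero]

theorem LocAt_kin (y : Fc) : LocAt y (kin y) = kin y := by
  rw [LocAt_covariant y _ (by rw [mp_rho_kin, rot_self]) (by rw [mp_sig_kin, ref_self]),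
    cMass_kin, cKin_kin, one_smul, zero_smul, zero_add]

end Crest.Agent.R165.PlaneCovx901
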