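import Crest.Agent.R165.KFlow_337
import Crest.Agent.R165.GBulk2_417
import Crest.Agent.R165.PlaneCov_901

/-!
# Row 165 (S0250), block G: extraction at single faces, for every background

* `exF p Lo r : Extr (G × G) (Fld G)` : the part `(1/#U) Lo f (H U)` of a small polymer `U`
  (`size r U ≤ 1`) is moved to `{f}`, for the faces `f ∈ U` with property `p`
* `vac0` : the constant part
* `gain_exF`, `lost_exF`, `AA_exF`
* `SymS` : covariances of the plane invariant under translations, rotations, reflections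
-/

set_option autoImplicit false
set_option linter.unusedSectionVars false

noncomputable section

open scoped ENNReal
open Crest.Agent.R165.Gr0x606 Crest.Agent.R165.Gr1x606 Crest.Agent.R165.Latx683
open Crest.Agent.R165.PNormx417 Crest.Agent.R165.GDefx387 Crest.Agent.R165.GeOpsx337
open Crest.Agent.R165.KFlowx337 Crest.Agent.R165.Packx915 Crest.Agent.R165.Bridgex915
open Crest.Agent.R165.PlaneModesx901

namespace Crest.Agent.R165.PStepx417

section ex

variable {G : Type} [CommRing G] [CN G] [DecidableEq G]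

theorem size_le_one_iff {r : ℕ} {U : Finset (G × G)} :
    size r U ≤ 1 ↔ ∀ x ∈ U, ∀ f ∈ U, fd x f ≤ r := by
  rw [size_eq_pack]; exact pack_le_one_iff pd_fd

/-- the ball as a finset -/
def bal (f : G × G) (r : ℕ) : Finset (G × G) := (ball_finite f r).toFinset

theorem mem_bal {f x : G × G} {r : ℕ} : x ∈ bal f r ↔ fd f x ≤ r := by
  rw [bal, Set.Finite.mem_toFinset, mem_ball]

/-- the small polymers through `f` -/
def inS (r : ℕ) (f : G × G) : Finset (Finset (G × G)) :=
  (bal f r).powerset.filter fun U => f ∈ U ∧ size r U ≤ 1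

theorem mem_inS {r : ℕ} {f : G × G} {U : Finset (G × G)} :
    U ∈ inS r f ↔ f ∈ U ∧ size r U ≤ 1 := by
  rw [inS, Finset.mem_filter, Finset.mem_powerset]
  constructor
  · exact fun h => h.2
  · intro h
    exact ⟨fun x hx => mem_bal.2 (size_le_one_iff.1 h.2 f h.1 x hx), h⟩

variable (p : G × G → Prop) [DecidablePred p] (Lo : G × G → Ge (Fld G) →ₗ[ℝ] Ge (Fld G)) (r : ℕ)

/-- targets of a polymer -/
def exOut (U : Finset (G × G)) : Finset (Finset (G × G)) :=
  if size r U ≤ 1 then (U.filter p).image (fun f => {f}) else ∅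

theorem mem_exOut {U T : Finset (G × G)} :
    T ∈ exOut p r U ↔ size r U ≤ 1 ∧ ∃ f ∈ U, p f ∧ T = {f} := by
  unfold exOut
  split_ifs with h
  · simp only [Finset.mem_image, Finset.mem_filter]
    constructor
    · rintro ⟨f, ⟨h1, h2⟩, rfl⟩; exact ⟨h, f, h1, h2, rfl⟩
    · rintro ⟨_, f, h1, h2, rfl⟩; exact ⟨f, ⟨h1, h2⟩, rfl⟩
  · simp [h]

/-- extraction at single faces -/
def exF : Extr (G × G) (Fld G) where
  out := exOut p r
  inn T := (T.biUnion fun f => bal f r).powerset.filter fun U => T ∈ exOut p r U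
  mem_iff U T := by
    rw [Finset.mem_filter, Finset.mem_powerset]
    constructor
    · intro h
      refine ⟨?_, h⟩
      obtain ⟨h1, f, hf, -, rfl⟩ := (mem_exOut p r).1 h
      intro x hx
      rw [Finset.mem_biUnion]
      exact ⟨f, Finset.mem_singleton_self f, mem_bal.2 (size_le_one_iff.1 h1 f hf x hx)⟩
    · exact fun h => h.2
  sub U T h := by
    obtain ⟨h1, f, hf, -, rfl⟩ := (mem_exOut p r).1 h
    simpa using hf
  ne U T h := by
    obtain ⟨h1, f, hf, -, rfl⟩ := (mem_exOut p r).1 h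
    exact Finset.singleton_nonempty f
  X U T := (U.card : ℝ)⁻¹ • ∑ f ∈ T, Lo f

@[simp] theorem exF_X (U T : Finset (G × G)) (a : Ge (Fld G)) :
    (exF p Lo r).X U T a = (U.card : ℝ)⁻¹ • ∑ f ∈ T, Lo f a := by
  rw [exF, LinearMap.smul_apply, LinearMap.sum_apply]

theorem inn_exF_singleton {f : G × G} (hf : p f) : (exF p Lo r).inn {f} = inS r f := by
  ext U
  rw [← (exF p Lo r).mem_iff, mem_inS]
  show {f} ∈ exOut p r U ↔ _
  rw [mem_exOut]
  constructor
  · rintro ⟨h, g, hg, _, he⟩
    rw [Finset.singleton_inj] at he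
    subst he
    exact ⟨hg, h⟩
  · rintro ⟨h1, h2⟩
    exact ⟨h2, f, h1, hf, rfl⟩

theorem gain_exF (H : Finset (G × G) → Ge (Fld G)) {f : G × G} (hf : p f) :
    (exF p Lo r).gain H {f} = ∑ U ∈ inS r f, (U.card : ℝ)⁻¹ • Lo f (H U) := by
  rw [Extr.gain, inn_exF_singleton p Lo r hf]
  refine Finset.sum_congr rfl fun U _ => ?_
  rw [exF_X, Finset.sum_singleton]

theorem gain_exF_zero (H : Finset (G × G) → Ge (Fld G)) {T : Finset (G × G)}
    (hT : ∀ f, p f → T ≠ {f}) : (exF p Lo r).gain H T = 0 := by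
  rw [Extr.gain]
  refine Finset.sum_eq_zero fun U hU => ?_
  rw [← (exF p Lo r).mem_iff] at hU
  obtain ⟨_, f, _, hf, rfl⟩ := (mem_exOut p r).1 hU
  exact absurd rfl (hT f hf)

theorem lost_exF (H : Finset (G × G) → Ge (Fld G)) (U : Finset (G × G)) :
    (exF p Lo r).lost H U =
      if size r U ≤ 1 then (U.card : ℝ)⁻¹ • ∑ f ∈ U.filter p, Lo f (H U) else 0 := by
  rw [Extr.lost]
  show ∑ T ∈ exOut p r U, _ = _
  unfold exOut
  split_ifs with h
  · rw [Finset.sum_image (fun a _ b _ hab => Finset.singleton_injective hab), Finset.smul_sum]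
    refine Finset.sum_congr rfl fun f _ => ?_
    rw [exF_X, Finset.sum_singleton]
  · simp

/-- the constant part as a linear map -/
def vac0 (V : Type*) [AddCommGroup V] [Module ℝ V] : Ge V →ₗ[ℝ] Ge V :=
  (Algebra.linearMap ℝ (Ge V)).comp (ctG (V := V)).toLinearMap

theorem vac0_apply {V : Type*} [AddCommGroup V] [Module ℝ V] (a : Ge V) :
    vac0 V a = algebraMap ℝ (Ge V) (ctG a) := rfl

theorem coe_vac0 {V : Type*} [AddCommGroup V] [Module ℝ V] (a : Ge V) :
    ((vac0 V a : Ge V) : Gr V) = hom 0 (a : Gr V) := by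
  rw [vac0_apply, ge_coe_algebraMap, hom_zero_eq, ctG_apply]

theorem AA_exF_of_ne (H : Finset (G × G) → Ge (Fld G)) {U : Finset (G × G)}
    (hU : ∀ f, p f → U ≠ {f}) :
    H U + AA (vac0 (Fld G)) (exF p Lo r) H U = H U - vac0 (Fld G) (H U) -
      (if size r U ≤ 1 then (U.card : ℝ)⁻¹ • ∑ f ∈ U.filter p, Lo f (H U) else 0) := by
  rw [AA, gain_exF_zero p Lo r H hU, lost_exF]
  abel

theorem AA_exF_singleton (H : Finset (G × G) → Ge (Fld G)) {f : G × G} (hf : p f) :
    H {f} + AA (vac0 (Fld G)) (exF p Lo r) H {f} = (H {f} - vac0 (Fld G) (H {f}) - Lo f (H {f})) +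
      ∑ U ∈ inS r f, (U.card : ℝ)⁻¹ • Lo f (H U) := by
  have h1 : size r ({f} : Finset (G × G)) ≤ 1 := by
    rw [size_le_one_iff]; simp
  rw [AA, gain_exF p Lo r H hf, lost_exF, if_pos h1]
  have h2 : ({f} : Finset (G × G)).filter p = {f} := by
    rw [Finset.filter_eq_self]; simpa using hf
  rw [h2, Finset.sum_singleton, Finset.card_singleton, Nat.cast_one, inv_one, one_smul]
  abel

end ex

/-- covariances which are invariant under the symmetries of the plane (the real form of the
reflection changes the sign) -/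
structure SymS (S : Cov (Fld ℤ)) : Prop where
  tau : ∀ t x y, S.b (tauV t x) (tauV t y) = S.b x y
  rho : ∀ z x y, S.b (rhoV z x) (rhoV z y) = S.b x y
  sig : ∀ z x y, S.b (sigV z x) (sigV z y) = - S.b x y

end Crest.Agent.R165.PStepx417
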