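import Crest.Agent.R165.KFlow_337

/-!
# Row 165 (S0250), block G: equality induction between two systems (helper337)

`D₁` on faces `F₁`, fields `V₁`; `D₂` on faces `F₂`, fields `V₂` (plane, torus, domains, with or
without spins).  A chart is `ψ : F₁ → F₂` with a partial inverse `φ` and a linear map of the fields
`p : V₁ → V₂` (translation + gauge on the fields in the chart, anything elsewhere).

`okK k c U` : the chart `c` is valid around `U` up to the distance which `K_k(U)` can see,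
`okH k c U` : ... which `H_k(U) = conv_{S_k} K_k(U)` can see.

`Cmp D₁ D₂ okK okH` : hypotheses.  Conclusion: `K₁_k(U) ↦ K₂_k(ψ U)` whenever `okK k c U`, and
`H₁_k(U) ↦ H₂_k(ψ U)`, `vac` equal, whenever `okH k c U`.
-/

set_option autoImplicit false

noncomputable section

namespace Crest.Agent.R165.KEqx337

open Crest.Agent.R165.Gr0x606 Crest.Agent.R165.Gr1x606 Crest.Agent.R165.GeOpsx337
  Crest.Agent.R165.ExpGx337 Crest.Agent.R165.KCompx892 Crest.Agent.R165.KStepx892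
  Crest.Agent.R165.KMapx892 Crest.Agent.R165.GrLocx337 Crest.Agent.R165.KFlowx337

variable {F₁ : Type*} [DecidableEq F₁] {V₁ : Type*} [AddCommGroup V₁] [Module ℝ V₁]
variable {F₂ : Type*} [DecidableEq F₂] {V₂ : Type*} [AddCommGroup V₂] [Module ℝ V₂]

/-- a chart: faces, partial inverse, fields -/
structure Chart (F₁ V₁ F₂ V₂ : Type*) [AddCommGroup V₁] [Module ℝ V₁] [AddCommGroup V₂]
    [Module ℝ V₂] where
  /-- on faces -/
  ψ : F₁ → F₂
  /-- partial inverse -/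
  φ : F₂ → F₁
  /-- on fields -/
  p : V₁ →ₗ[ℝ] V₂

/-- hypotheses of the equality induction -/
structure Cmp (D₁ : Sys F₁ V₁) (D₂ : Sys F₂ V₂) (okK okH : ℕ → Chart F₁ V₁ F₂ V₂ → Finset F₁ → Prop) :
    Prop where
  /-- initial activities -/
  K0 : ∀ c U, okK 0 c U → mpG c.p (D₁.K0 U) = D₂.K0 (U.image c.ψ)
  toK : ∀ k c U, okH k c U → okK k c U
  /-- slices agree on the fields of `U` -/
  S : ∀ k c U, okH k c U → ∀ x ∈ D₁.fld U, ∀ y ∈ D₁.fld U,
    (D₁.S k).b x y = (D₂.S k).b (c.p x) (c.p y)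
  down : ∀ k c W, okK (k + 1) c W → ∀ U ⊆ W, U.Nonempty → okH k c U
  iso : ∀ k c W, okK (k + 1) c W →
    PIso (D₁.near k) (D₁.near (k + 1)) (D₂.near k) (D₂.near (k + 1)) W c.ψ c.φ
  /-- sources of the extraction are visible -/
  inn : ∀ k c W, okK (k + 1) c W → ∀ T ⊆ W, T.Nonempty → ∀ U ∈ (D₁.e k).inn T, okH k c U
  inn_eq : ∀ k c W, okK (k + 1) c W → ∀ T ⊆ W, T.Nonempty →
    (D₂.e k).inn (T.image c.ψ) = ((D₁.e k).inn T).image (Finset.image c.ψ)
  inn_inj : ∀ k c W, okK (k + 1) c W → ∀ T ⊆ W, T.Nonempty → ∀ U ∈ (D₁.e k).inn T,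
    ∀ U' ∈ (D₁.e k).inn T, U.image c.ψ = U'.image c.ψ → U = U'
  out_eq : ∀ k c W, okK (k + 1) c W → ∀ U ⊆ W, U.Nonempty →
    (D₂.e k).out (U.image c.ψ) = ((D₁.e k).out U).image (Finset.image c.ψ)
  X : ∀ k c W, okK (k + 1) c W → ∀ T ⊆ W, T.Nonempty → ∀ U ∈ (D₁.e k).inn T,
    ∀ a ∈ grG (D₁.fld U),
      mpG c.p ((D₁.e k).X U T a) = (D₂.e k).X (U.image c.ψ) (T.image c.ψ) (mpG c.p a)
  vac : ∀ k c U, okH k c U → ∀ a ∈ grG (D₁.fld U), mpG c.p (D₁.vac a) = D₂.vac (mpG c.p a)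

variable {D₁ : Sys F₁ V₁} {D₂ : Sys F₂ V₂} {okK okH : ℕ → Chart F₁ V₁ F₂ V₂ → Finset F₁ → Prop}

theorem Cmp.H_of_K {src : Submodule ℝ V₁} (hD : D₁.OK src) (h : Cmp D₁ D₂ okK okH) {k : ℕ}
    (hK : ∀ c U, okK k c U → mpG c.p (D₁.K k U) = D₂.K k (U.image c.ψ)) (c) (U : Finset F₁)
    (hc : okH k c U) : mpG c.p (D₁.H k U) = D₂.H k (U.image c.ψ) := by
  rw [Sys.H, mpG_cvG c.p (h.S k c U hc) (Sys.K_mem hD k U), hK c U (h.toK k c U hc)]
  rfl

/-- the extraction exponents agree -/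
theorem Cmp.A_of_H {src : Submodule ℝ V₁} (hD : D₁.OK src) (h : Cmp D₁ D₂ okK okH) {k : ℕ}
    (hH : ∀ c U, okH k c U → mpG c.p (D₁.H k U) = D₂.H k (U.image c.ψ)) (c) (W : Finset F₁)
    (hc : okK (k + 1) c W) (U : Finset F₁) (hU : U ⊆ W) (hne : U.Nonempty) :
    mpG c.p (D₁.A k U) = D₂.A k (U.image c.ψ) := by
  have hcU : okH k c U := h.down k c W hc U hU hne
  have e1 : mpG c.p ((D₁.e k).gain (D₁.H k) U) = (D₂.e k).gain (D₂.H k) (U.image c.ψ) := by
    rw [Extr.gain, Extr.gain, map_sum, h.inn_eq k c W hc U hU hne, Finset.sum_image]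
    · refine Finset.sum_congr rfl fun U' hU' => ?_
      rw [h.X k c W hc U hU hne U' hU' _ (Sys.H_mem hD k U'),
        hH c U' (h.inn k c W hc U hU hne U' hU')]
    · intro a ha b hb hab
      exact h.inn_inj k c W hc U hU hne a ha b hb hab
  have e2 : mpG c.p ((D₁.e k).lost (D₁.H k) U) = (D₂.e k).lost (D₂.H k) (U.image c.ψ) := by
    rw [Extr.lost, Extr.lost, map_sum, h.out_eq k c W hc U hU hne, Finset.sum_image]
    · refine Finset.sum_congr rfl fun T hT => ?_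
      have hTW : T ⊆ W := ((D₁.e k).sub U T hT).trans hU
      rw [h.X k c W hc T hTW ((D₁.e k).ne U T hT) U (((D₁.e k).mem_iff U T).1 hT) _
        (Sys.H_mem hD k U), hH c U hcU]
    · intro a ha b hb hab
      have ha' : a ⊆ W := ((D₁.e k).sub U a ha).trans hU
      have hb' : b ⊆ W := ((D₁.e k).sub U b hb).trans hU
      have hl := (h.iso k c W hc).left
      have h1 := congrArg (Finset.image c.φ) hab
      rwa [image_image_id fun x hx => hl x (ha' hx), image_image_id fun x hx => hl x (hb' hx)] at h1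
  have e3 : mpG c.p (D₁.vac (D₁.H k U)) = D₂.vac (D₂.H k (U.image c.ψ)) := by
    rw [h.vac k c U hcU _ (Sys.H_mem hD k U), hH c U hcU]
  rw [Sys.A, Sys.A, AA, AA, map_sub, map_sub, e1, e2, e3]

theorem Cmp.B_of_H {src : Submodule ℝ V₁} (hD : D₁.OK src) (h : Cmp D₁ D₂ okK okH) {k : ℕ}
    (hH : ∀ c U, okH k c U → mpG c.p (D₁.H k U) = D₂.H k (U.image c.ψ)) (c) (W : Finset F₁)
    (hc : okK (k + 1) c W) (U : Finset F₁) (hU : U ⊆ W) (hne : U.Nonempty) :
    mpG c.p (D₁.B k U) = D₂.B k (U.image c.ψ) := by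
  rw [Sys.B_eq, Sys.B_eq, map_sub, map_one, mpG_gexp, h.A_of_H hD hH c W hc U hU hne]

/-- **equality of the activities** -/
theorem Cmp.K_eq {src : Submodule ℝ V₁} (hD : D₁.OK src) (h : Cmp D₁ D₂ okK okH) (k : ℕ) (c)
    (U : Finset F₁) (hc : okK k c U) : mpG c.p (D₁.K k U) = D₂.K k (U.image c.ψ) := by
  induction k generalizing c U with
  | zero => exact h.K0 c U hc
  | succ k ih =>
    have hH : ∀ c U, okH k c U → mpG c.p (D₁.H k U) = D₂.H k (U.image c.ψ) :=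
      fun c U hcU => h.H_of_K hD ih c U hcU
    rw [Sys.K_succ, Sys.K_succ]
    refine KK_map (h.iso k c U hc) (mpG c.p).toRingHom ?_ ?_
    · intro U' hU' hne
      exact hH c U' (h.down k c U hc U' hU' hne)
    · intro U' hU' hne
      exact h.B_of_H hD hH c U hc U' hU' hne

/-- **equality of the convolved activities** -/
theorem Cmp.H_eq {src : Submodule ℝ V₁} (hD : D₁.OK src) (h : Cmp D₁ D₂ okK okH) (k : ℕ) (c)
    (U : Finset F₁) (hc : okH k c U) : mpG c.p (D₁.H k U) = D₂.H k (U.image c.ψ) :=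
  h.H_of_K hD (h.K_eq hD k) c U hc

/-- equality of the extraction exponents -/
theorem Cmp.A_eq {src : Submodule ℝ V₁} (hD : D₁.OK src) (h : Cmp D₁ D₂ okK okH) (k : ℕ) (c)
    (W : Finset F₁) (hc : okK (k + 1) c W) (U : Finset F₁) (hU : U ⊆ W) (hne : U.Nonempty) :
    mpG c.p (D₁.A k U) = D₂.A k (U.image c.ψ) :=
  h.A_of_H hD (h.H_eq hD k) c W hc U hU hne

theorem Cmp.B_eq {src : Submodule ℝ V₁} (hD : D₁.OK src) (h : Cmp D₁ D₂ okK okH) (k : ℕ) (c)
    (W : Finset F₁) (hc : okK (k + 1) c W) (U : Finset F₁) (hU : U ⊆ W) (hne : U.Nonempty) :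
    mpG c.p (D₁.B k U) = D₂.B k (U.image c.ψ) :=
  h.B_of_H hD (h.H_eq hD k) c W hc U hU hne

/-- equality of the vacuum parts -/
theorem Cmp.vac_eq {src : Submodule ℝ V₁} (hD : D₁.OK src) (h : Cmp D₁ D₂ okK okH) (k : ℕ) (c)
    (U : Finset F₁) (hc : okH k c U) :
    mpG c.p (D₁.vac (D₁.H k U)) = D₂.vac (D₂.H k (U.image c.ψ)) := by
  rw [h.vac k c U hc _ (Sys.H_mem hD k U), h.H_eq hD k c U hc]

/-- equality of the constant terms (case `vac = constant term`) -/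
theorem Cmp.ct_eq {src : Submodule ℝ V₁} (hD : D₁.OK src) (h : Cmp D₁ D₂ okK okH) (k : ℕ) (c)
    (U : Finset F₁) (hc : okH k c U) : ctG (D₁.H k U) = ctG (D₂.H k (U.image c.ψ)) := by
  rw [← h.H_eq hD k c U hc, ctG_mpG]

end Crest.Agent.R165.KEqx337
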