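import Crest.Agent.R165.ChartU_432
import Crest.Agent.R165.FRDLat_439
import Crest.Agent.R165.Extr_417
import Crest.Agent.R165.KEq_337

/-!
# Row 165 (S0250): ingredients of the comparison of two flows (helper432)

For an isomorphism of backgrounds `b : BgIso w w' Z`:

* `tr_Sop`, `SopC_push` : the slices agree
* `piso_of` : partial isomorphism of the touching relations
* `inS_image`, `exOut_image`, `exF_inn_image` : targets and sources of the extraction correspond
* `BgIso.symmBall` : the inverse isomorphism on a full ball; `emb_iff`, `marks_iff`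
-/

set_option autoImplicit false
set_option linter.unusedSectionVars false

noncomputable section

open scoped ENNReal Classical
open Crest.Agent.R165.Gr0x606 Crest.Agent.R165.Latx683 Crest.Agent.R165.GDefx387
open Crest.Agent.R165.PNormx417 Crest.Agent.R165.GrLocx337 Crest.Agent.R165.FRDPolyx439
open Crest.Agent.R165.FRDLatx439 Crest.Agent.R165.PStepx417 Crest.Agent.R165.KMapx892

namespace Crest.Agent.R165.BgIsox432

variable {G G' G'' : Type} [CommRing G] [CN G] [CommRing G'] [CN G'] [CommRing G''] [CN G'']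
variable {w : BW G} {w' : BW G'} {Z : Set (G × G)}

/-! ### slices -/

/-- blocks of slices are transported -/
theorem tr_Sop {Λ : ℝ} {M K : ℕ} (D : FRD Λ M K) (b : BgIso w w' Z) (i j n : ℕ) (hK : 0 < K)
    (hn : 2 ^ j ≤ K * n) : Tr b n (Sop w D i j) (Sop w' D i j) := by
  unfold Sop
  refine Tr.sum _ fun k hk => ?_
  by_cases h0 : D.w k = 0
  · have e : slop w (D.w k) = 0 := by rw [h0, slop, map_zero, mul_zero]
    have e' : slop w' (D.w k) = 0 := by rw [h0, slop, map_zero, mul_zero]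
    rw [e, e']
    exact (Tr.zero b).mono (Nat.zero_le n)
  · refine (tr_slop b (D.w k)).mono ?_
    have h1 := D.deg_w k h0
    have h2 : 2 ^ k ≤ 2 ^ j := Nat.pow_le_pow_right (by norm_num) (Finset.mem_Ico.1 hk).2.le
    have h3 : K * (2 * (D.w k).natDegree + 1) ≤ K * n := h1.trans (h2.trans hn)
    have h4 := Nat.le_of_mul_le_mul_left h3 hK
    omega

/-- **the slices agree** -/
theorem SopC_push {Λ : ℝ} {M K : ℕ} (D : FRD Λ M K) (b : BgIso w w' Z) (i j n : ℕ) (hK : 0 < K)
    (hn : 2 ^ j ≤ K * n) {Y : Set (G × G)} (hY : ∀ f ∈ Y, ball f n ⊆ Z) {l m : Fld G}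
    (hl : l ∈ fldS Y) (hm : m ∈ fldS Z) :
    (SopC D w' i j).b (b.push l) (b.push m) = (SopC D w i j).b l m := by
  rw [SopC_apply, SopC_apply]
  exact bil_push (tr_Sop D b i j n hK hn) hY hl hm

/-! ### touching relations -/

theorem piso_of (b : BgIso w w' Z) (R R' : ℕ) {W : Finset (G × G)} (hW : ∀ f ∈ W, f ∈ Z) :
    PIso (fun f g : G × G => fd f g ≤ R) (fun f g => fd f g ≤ R')
      (fun f g : G' × G' => fd f g ≤ R) (fun f g => fd f g ≤ R') W b.τ b.inv where
  left a ha := b.inv_tau (hW a ha)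
  n a ha c hc := by rw [b.iso a (hW a ha) c (hW c hc)]
  n' a ha c hc := by rw [b.iso a (hW a ha) c (hW c hc)]

/-! ### images of sets of faces -/

section im

variable [DecidableEq G] [DecidableEq G']

theorem size_im (b : BgIso w w' Z) (r : ℕ) {U : Finset (G × G)} (hU : ∀ u ∈ U, u ∈ Z) :
    size r (U.image b.τ) = size r U := by
  convert size_image b r hU

theorem touch_im (b : BgIso w w' Z) (R : ℕ) {U U₂ : Finset (G × G)} (hU : ∀ u ∈ U, u ∈ Z)
    (hU₂ : ∀ u ∈ U₂, u ∈ Z) :
    GDefx387.touch R (U.image b.τ) (U₂.image b.τ) ↔ GDefx387.touch R U U₂ := by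
  convert touch_image b R hU hU₂

theorem image_inj (b : BgIso w w' Z) {U U' : Finset (G × G)} (hU : ∀ f ∈ U, f ∈ Z)
    (hU' : ∀ f ∈ U', f ∈ Z) (h : U.image b.τ = U'.image b.τ) : U = U' := by
  have h1 := congrArg (Finset.image b.inv) h
  rwa [image_image_id fun x hx => b.inv_tau (hU x hx),
    image_image_id fun x hx => b.inv_tau (hU' x hx)] at h1

/-- a finset of the image of a region is an image -/
theorem exists_image (b : BgIso w w' Z) {Y : Set (G × G)} (hY : Y ⊆ Z) {U' : Finset (G' × G')}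
    (h : ∀ f ∈ U', f ∈ b.τ '' Y) : ∃ U : Finset (G × G), (∀ f ∈ U, f ∈ Y) ∧ U.image b.τ = U' := by
  refine ⟨U'.image b.inv, ?_, ?_⟩
  · intro f hf
    obtain ⟨g, hg, rfl⟩ := Finset.mem_image.1 hf
    obtain ⟨k, hk, rfl⟩ := h g hg
    rw [b.inv_tau (hY hk)]; exact hk
  · refine image_image_id fun x hx => ?_
    obtain ⟨f, hf, rfl⟩ := h x hx
    rw [b.inv_tau (hY hf)]

/-- small polymers through a face correspond -/
theorem inS_image [CNZ G] [CNZ G'] (b : BgIso w w' Z) {r : ℕ}
    {f : G × G} (hf : ball f r ⊆ Z) :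
    inS r (b.τ f) = (inS r f).image (Finset.image b.τ) := by
  ext U'
  rw [mem_inS, Finset.mem_image]
  constructor
  · rintro ⟨h1, h2⟩
    have h3 : ∀ x ∈ U', x ∈ b.τ '' ball f r := by
      intro x hx
      rw [b.image_ball hf, mem_ball]
      exact size_le_one_iff.1 h2 _ h1 x hx
    obtain ⟨U, hU, rfl⟩ := exists_image b hf h3
    refine ⟨U, ?_, rfl⟩
    rw [mem_inS]
    constructor
    · obtain ⟨g, hg, hgf⟩ := Finset.mem_image.1 h1
      have := b.injOn (hf (hU g hg)) (hf (mem_ball_self f r)) hgf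
      rwa [this] at hg
    · rwa [size_im b r fun u hu => hf (hU u hu)] at h2
  · rintro ⟨U, hU, rfl⟩
    rw [mem_inS] at hU
    refine ⟨Finset.mem_image_of_mem _ hU.1, ?_⟩
    rw [size_im b r fun u hu => ?_]
    · exact hU.2
    · apply hf
      rw [mem_ball]
      exact size_le_one_iff.1 hU.2 f hU.1 u hu

end im

section ex

variable [DecidableEq G] [DecidableEq G'] (p : G × G → Prop) [DecidablePred p]
  (Lo : G × G → Gr1x606.Ge (Fld G) →ₗ[ℝ] Gr1x606.Ge (Fld G)) (p' : G' × G' → Prop)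
  [DecidablePred p'] (Lo' : G' × G' → Gr1x606.Ge (Fld G') →ₗ[ℝ] Gr1x606.Ge (Fld G'))

/-- targets correspond -/
theorem exOut_image (b : BgIso w w' Z) {r : ℕ} {U : Finset (G × G)} (hU : ∀ f ∈ U, f ∈ Z)
    (hp : ∀ f ∈ U, (p f ↔ p' (b.τ f))) :
    exOut p' r (U.image b.τ) = (exOut p r U).image (Finset.image b.τ) := by
  ext T'
  rw [mem_exOut, Finset.mem_image]
  constructor
  · rintro ⟨h1, f', hf', h2, rfl⟩
    obtain ⟨f, hf, rfl⟩ := Finset.mem_image.1 hf'
    refine ⟨{f}, ?_, Finset.image_singleton b.τ f⟩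
    rw [mem_exOut]
    refine ⟨?_, f, hf, (hp f hf).2 h2, rfl⟩
    rwa [size_im b r hU] at h1
  · rintro ⟨T, hT, rfl⟩
    rw [mem_exOut] at hT
    obtain ⟨h1, f, hf, h2, rfl⟩ := hT
    refine ⟨by rwa [size_im b r hU], b.τ f, Finset.mem_image_of_mem _ hf, (hp f hf).1 h2, ?_⟩
    rw [Finset.image_singleton]

/-- the sources of `T` are the small polymers through the face of `T` -/
theorem mem_exF_inn {r : ℕ} {T U : Finset (G × G)} :
    U ∈ (exF p Lo r).inn T ↔ size r U ≤ 1 ∧ ∃ f ∈ U, p f ∧ T = {f} := by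
  rw [← (exF p Lo r).mem_iff]
  exact mem_exOut p r

/-- sources correspond -/
theorem exF_inn_image [CNZ G] [CNZ G'] (b : BgIso w w' Z) {r : ℕ} {T : Finset (G × G)}
    (hT : ∀ f ∈ T, ball f r ⊆ Z) (hp : ∀ f ∈ T, (p f ↔ p' (b.τ f))) :
    (exF p' Lo' r).inn (T.image b.τ) = ((exF p Lo r).inn T).image (Finset.image b.τ) := by
  ext U'
  rw [mem_exF_inn, Finset.mem_image]
  constructor
  · rintro ⟨h1, f', hf', h2, h3⟩
    obtain ⟨f, hf, rfl⟩ : ∃ f ∈ T, b.τ f = f' := by
      have : f' ∈ T.image b.τ := by rw [h3]; exact Finset.mem_singleton_self _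
      exact Finset.mem_image.1 this
    have hU' : U' ∈ inS r (b.τ f) := by
      rw [mem_inS]; exact ⟨hf', h1⟩
    rw [inS_image b (hT f hf)] at hU'
    obtain ⟨U, hU, rfl⟩ := Finset.mem_image.1 hU'
    refine ⟨U, ?_, rfl⟩
    rw [mem_exF_inn]
    rw [mem_inS] at hU
    refine ⟨hU.2, f, hU.1, (hp f hf).2 h2, ?_⟩
    have h4 : T.image b.τ = Finset.image b.τ {f} := by rw [h3, Finset.image_singleton]
    exact image_inj b (fun g hg => hT g hg (mem_ball_self g r))
      (fun g hg => by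
        rw [Finset.mem_singleton] at hg
        rw [hg]; exact hT f hf (mem_ball_self f r)) h4
  · rintro ⟨U, hU, rfl⟩
    rw [mem_exF_inn] at hU
    obtain ⟨h1, f, hf, h2, rfl⟩ := hU
    have hf1 : ball f r ⊆ Z := hT f (Finset.mem_singleton_self f)
    have hUZ : ∀ u ∈ U, u ∈ Z := fun u hu => hf1 (by
      rw [mem_ball]; exact size_le_one_iff.1 h1 f hf u hu)
    refine ⟨by rwa [size_im b r hUZ], b.τ f, Finset.mem_image_of_mem _ hf,
      (hp f (Finset.mem_singleton_self f)).1 h2, ?_⟩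
    rw [Finset.image_singleton]

theorem exF_inn_sub {r : ℕ} {T U : Finset (G × G)} (h : U ∈ (exF p Lo r).inn T) :
    ∃ f ∈ T, ∀ u ∈ U, u ∈ ball f r := by
  rw [mem_exF_inn] at h
  obtain ⟨h1, f, hf, h2, rfl⟩ := h
  exact ⟨f, Finset.mem_singleton_self f, fun u hu => by
    rw [mem_ball]; exact size_le_one_iff.1 h1 f hf u hu⟩

end ex

/-! ### inverse on a ball -/

theorem two_ne_one {G : Type} [CommRing G] (h2 : (2 : G) ≠ 0) : (1 : G) ≠ 0 := by
  intro h
  apply h2
  have : (2 : G) = 1 + 1 := by norm_num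
  rw [this, h, add_zero]

/-- if the images of two faces of a ball differ by a coordinate vector, so do the faces -/
theorem step_back [CNZ G] (b : BgIso w w' Z) {x : G × G} {R : ℕ} (hx : ball x R ⊆ Z)
    (h2 : (2 : G') ≠ 0) {g g' : G × G} (hg : g ∈ ball x R) (hg' : g' ∈ ball x R) :
    (b.τ g' = ((b.τ g).1 + 1, (b.τ g).2) → g' = (g.1 + 1, g.2)) ∧
    (b.τ g' = ((b.τ g).1, (b.τ g).2 + 1) → g' = (g.1, g.2 + 1)) := by
  have h1 : (1 : G') ≠ 0 := two_ne_one h2
  have hm1 : (-1 : G') ≠ 1 := fun h => h2 (by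
    have : (2 : G') = 1 - (-1) := by norm_num
    rw [this, h, sub_self])
  have hm0 : (-1 : G') ≠ 0 := fun h => h1 (by rw [← neg_neg (1 : G'), h, neg_zero])
  have hstep : ∀ m n : ℤ, (m = -1 ∨ m = 0 ∨ m = 1) → (n = -1 ∨ n = 0 ∨ n = 1) →
      g' = (g.1 + (m : G), g.2 + (n : G)) →
      b.τ g' = ((b.τ g).1 + (m : G'), (b.τ g).2 + (n : G')) := by
    intro m n hm hn he
    have hc : ((g.1 + (m : G), g.2) : G × G) ∈ ball x R := by
      rw [mem_ball] at hg hg' ⊢
      rw [he] at hg'
      unfold fd at hg hg' ⊢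
      simp only at hg hg' ⊢
      omega
    have e1 : b.τ (g.1 + (m : G), g.2) = ((b.τ g).1 + (m : G'), (b.τ g).2) := by
      rcases hm with rfl | rfl | rfl
      · have e0 : ((g.1 + ((-1 : ℤ) : G) + 1, g.2) : G × G) = g := by ext <;> simp
        have e := b.e1 _ (hx hc) (by simp only [e0]; exact hx hg)
        simp only [e0] at e
        rw [e]
        ext <;> simp
      · simp
      · have e0 : ((g.1 + ((1 : ℤ) : G), g.2) : G × G) = (g.1 + 1, g.2) := by simp
        rw [e0] at hc ⊢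
        rw [b.e1 _ (hx hg) (hx hc)]
        simp
    rw [he] at hg' ⊢
    rcases hn with rfl | rfl | rfl
    · have e0 : ((g.1 + (m : G), g.2 + ((-1 : ℤ) : G) + 1) : G × G) = (g.1 + (m : G), g.2) := by
        ext <;> simp
      have e := b.e2 _ (hx hg') (by simp only [e0]; exact hx hc)
      simp only [e0] at e
      rw [e1] at e
      have ea := congrArg Prod.fst e
      have eb := congrArg Prod.snd e
      simp only at ea eb
      refine Prod.ext ?_ ?_
      · exact ea.symm
      · simp only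
        rw [eb]; push_cast; ring
    · have e0 : ((g.1 + (m : G), g.2 + ((0 : ℤ) : G)) : G × G) = (g.1 + (m : G), g.2) := by
        ext <;> simp
      rw [e0, e1]; simp
    · have e0 : ((g.1 + (m : G), g.2 + ((1 : ℤ) : G)) : G × G) = (g.1 + (m : G), g.2 + 1) := by simp
      rw [e0] at hg' ⊢
      rw [b.e2 _ (hx hc) (hx hg'), e1]
      simp
  have hnear : ∀ v : G' × G', b.τ g' = b.τ g + v → cn v.1 ≤ 1 → cn v.2 ≤ 1 →
      ∃ m n : ℤ, (m = -1 ∨ m = 0 ∨ m = 1) ∧ (n = -1 ∨ n = 0 ∨ n = 1) ∧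
        g' = (g.1 + (m : G), g.2 + (n : G)) := by
    intro v hv hv1 hv2
    have h3 : g' ∈ ball g 1 := by
      rw [mem_ball, ← b.iso g (hx hg) g' (hx hg'), hv]
      unfold fd
      simp only [Prod.fst_add, Prod.snd_add, sub_add_cancel_left, CN.cn_neg]
      omega
    obtain ⟨m, n, hm, hn, he⟩ := exists_int_of_mem_ball h3
    exact ⟨m, n, by omega, by omega, he⟩
  constructor
  · intro he
    obtain ⟨m, n, hm, hn, hgg⟩ := hnear (1, 0) (by rw [he]; ext <;> simp) CN.cn_one
      (by rw [CN.cn_zero]; exact Nat.zero_le 1)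
    have e := hstep m n hm hn hgg
    rw [he] at e
    have ea : (1 : G') = (m : G') := add_left_cancel (congrArg Prod.fst e)
    have eb : (0 : G') = (n : G') := by
      have := congrArg Prod.snd e
      simp only at this
      exact add_left_cancel (by rw [add_zero]; exact this)
    have hm' : m = 1 := by
      rcases hm with rfl | rfl | rfl
      · exact absurd (by simpa using ea.symm) hm1
      · exact absurd (by simpa using ea) h1
      · rfl
    have hn' : n = 0 := by
      rcases hn with rfl | rfl | rfl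
      · exact absurd (by simpa using eb.symm) hm0
      · rfl
      · exact absurd (by simpa using eb.symm) h1
    rw [hgg, hm', hn']; simp
  · intro he
    obtain ⟨m, n, hm, hn, hgg⟩ := hnear (0, 1) (by rw [he]; ext <;> simp)
      (by rw [CN.cn_zero]; exact Nat.zero_le 1) CN.cn_one
    have e := hstep m n hm hn hgg
    rw [he] at e
    have ea : (1 : G') = (n : G') := add_left_cancel (congrArg Prod.snd e)
    have eb : (0 : G') = (m : G') := by
      have := congrArg Prod.fst e
      simp only at this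
      exact add_left_cancel (by rw [add_zero]; exact this)
    have hm' : n = 1 := by
      rcases hn with rfl | rfl | rfl
      · exact absurd (by simpa using ea.symm) hm1
      · exact absurd (by simpa using ea) h1
      · rfl
    have hn' : m = 0 := by
      rcases hm with rfl | rfl | rfl
      · exact absurd (by simpa using eb.symm) hm0
      · rfl
      · exact absurd (by simpa using eb.symm) h1
    rw [hgg, hm', hn']; simp

/-- the inverse isomorphism on a full ball -/
def BgIso.symmBall [CNZ G] [CNZ G'] (b : BgIso w w' Z) {x : G × G} {R : ℕ} (hx : ball x R ⊆ Z)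
    (h2 : (2 : G') ≠ 0) : BgIso w' w (ball (b.τ x) R) where
  τ := b.inv
  s f := b.s (b.inv f)
  sq f := b.sq _
  iso := by
    intro f hf g hg
    rw [← b.image_ball hx] at hf hg
    obtain ⟨f, hf, rfl⟩ := hf
    obtain ⟨g, hg, rfl⟩ := hg
    rw [b.inv_tau (hx hf), b.inv_tau (hx hg), b.iso f (hx hf) g (hx hg)]
  e1 := by
    intro f hf hf'
    rw [← b.image_ball hx] at hf hf'
    obtain ⟨f, hf, rfl⟩ := hf
    obtain ⟨g, hg, hgf⟩ := hf'
    have h3 := (step_back b hx h2 hf hg).1 hgf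
    rw [← hgf, b.inv_tau (hx hg), b.inv_tau (hx hf), h3]
  e2 := by
    intro f hf hf'
    rw [← b.image_ball hx] at hf hf'
    obtain ⟨f, hf, rfl⟩ := hf
    obtain ⟨g, hg, hgf⟩ := hf'
    have h3 := (step_back b hx h2 hf hg).2 hgf
    rw [← hgf, b.inv_tau (hx hg), b.inv_tau (hx hf), h3]
  wE := by
    intro f hf hf'
    rw [← b.image_ball hx] at hf hf'
    obtain ⟨f, hf, rfl⟩ := hf
    obtain ⟨g, hg, hgf⟩ := hf'
    have h3 := (step_back b hx h2 hf hg).1 hgf
    rw [← hgf, b.inv_tau (hx hg), b.inv_tau (hx hf), h3,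
      b.wE f (hx hf) (by rw [← h3]; exact hx hg)]
    have e1 := b.sq f
    have e2 := b.sq (f.1 + 1, f.2)
    calc yE w' (b.τ f) = (b.s f * b.s f) * (b.s (f.1 + 1, f.2) * b.s (f.1 + 1, f.2)) *
          yE w' (b.τ f) := by rw [e1, e2]; ring
      _ = _ := by ring
  wN := by
    intro f hf hf'
    rw [← b.image_ball hx] at hf hf'
    obtain ⟨f, hf, rfl⟩ := hf
    obtain ⟨g, hg, hgf⟩ := hf'
    have h3 := (step_back b hx h2 hf hg).2 hgf
    rw [← hgf, b.inv_tau (hx hg), b.inv_tau (hx hf), h3,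
      b.wN f (hx hf) (by rw [← h3]; exact hx hg)]
    have e1 := b.sq f
    have e2 := b.sq (f.1, f.2 + 1)
    calc yN w' (b.τ f) = (b.s f * b.s f) * (b.s (f.1, f.2 + 1) * b.s (f.1, f.2 + 1)) *
          yN w' (b.τ f) := by rw [e1, e2]; ring
      _ = _ := by ring

theorem nbhd_single (r : ℕ) (x : G × G) : nbhd r {x} = ball x r := by
  ext f
  unfold nbhd
  simp [mem_ball]

/-- embeddability of single faces corresponds -/
theorem emb_iff [CNZ G] [CNZ G'] (b : BgIso w w' Z) {x : G × G} {r : ℕ}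
    (hx : ball x (s2 * r) ⊆ Z) (h2 : (2 : G') ≠ 0) : Emb w r {x} ↔ Emb w' r {b.τ x} := by
  unfold Emb
  rw [nbhd_single, nbhd_single]
  constructor
  · rintro ⟨p⟩
    refine ⟨((b.symmBall hx h2).trans (ofPlane p) ?_).toPlane⟩
    intro f hf
    rw [← b.image_ball hx] at hf
    obtain ⟨f, hf, rfl⟩ := hf
    show b.inv (b.τ f) ∈ _
    rw [b.inv_tau (hx hf)]; exact hf
  · rintro ⟨p⟩
    refine ⟨((b.mono hx).trans (ofPlane p) ?_).toPlane⟩
    intro f hf
    show b.τ f ∈ _
    rw [← b.image_ball hx]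
    exact ⟨f, hf, rfl⟩

/-- the marks correspond -/
theorem marks_iff [CNZ G] [CNZ G'] (b : BgIso w w' Z) {mk : Finset (G × G)}
    {mk' : Finset (G' × G')} (hmk : ∀ f ∈ Z, (f ∈ mk ↔ b.τ f ∈ mk')) {x : G × G} {R : ℕ}
    (hx : ball x R ⊆ Z) : (∀ m ∈ mk, R < fd x m) ↔ ∀ m ∈ mk', R < fd (b.τ x) m := by
  constructor
  · intro h m hm
    by_contra hc
    push Not at hc
    have h1 : m ∈ ball (b.τ x) R := mem_ball.2 hc
    rw [← b.image_ball hx] at h1
    obtain ⟨g, hg, rfl⟩ := h1
    have h3 := h g ((hmk g (hx hg)).2 hm)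
    rw [mem_ball] at hg
    omega
  · intro h m hm
    by_contra hc
    push Not at hc
    have h1 : m ∈ ball x R := mem_ball.2 hc
    have h3 := h (b.τ m) ((hmk m (hx h1)).1 hm)
    rw [b.iso x (hx (mem_ball_self x R)) m (hx h1)] at h3
    omega

end Crest.Agent.R165.BgIsox432
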