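import Crest.Agent.R165.GSys_387
import Crest.Agent.R165.ChartU_432

/-!
# Row 165 (S0250), block G: the canonical chart of `GSys_387` and the plane system

* `gp_eq` : the canonical gauge is `s f * s g` for every plane chart with gauge `s`
* `canIso` : the canonical chart as a `BgIso` on a ball
* `LocC_eq`, `LocG_eq` : `LocC w f = b.LocC f` for every plane chart `b` (on the fields of a ball)
* `LocC_plane`, `LocG_plane` : in the plane `LocC (wPl ℤ) f = LocAt f`
* `emb_plane`, `deep_plane`, `bulk_plane` : the plane system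
* `mem_bulk_out`
-/

set_option autoImplicit false
set_option linter.unusedSectionVars false

noncomputable section

open scoped ENNReal
open Crest.Agent.R165.Gr0x606 Crest.Agent.R165.Gr1x606 Crest.Agent.R165.Latx683
open Crest.Agent.R165.GDefx387 Crest.Agent.R165.GeOpsx337 Crest.Agent.R165.KFlowx337
open Crest.Agent.R165.FRDPolyx439 Crest.Agent.R165.FRDLatx439 Crest.Agent.R165.BgIsox432
open Crest.Agent.R165.PlaneLocx901 Crest.Agent.R165.Locx901 Crest.Agent.R165.GrLocx337
open Crest.Agent.R165.PStepx417 Crest.Agent.R165.SrcDefx991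
open Crest.Agent.R165.PlaneModesx901 (Fc)

namespace Crest.Agent.R165.GSysx387

section chart

variable {G : Type} [CommRing G] [CN G] [CNZ G] {w : BW G} {Z : Set (G × G)}

/-! ### the gauge -/

theorem bs_mul {s s' : ℝ} (hs : s * s = 1) (hs' : s' * s' = 1) : bs (s * s' * xc) = s * s' := by
  have hx := PlaneModesx901.xc_pos
  have h1 : s * s' = 1 ∨ s * s' = -1 := by
    have h : (s * s') * (s * s') = 1 := by
      calc _ = (s * s) * (s' * s') := by ring
        _ = 1 := by rw [hs, hs', one_mul]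
    exact mul_self_eq_one_iff.1 h
  rcases h1 with h | h <;> rw [h] <;> unfold bs
  · rw [if_neg (by linarith)]
  · rw [if_pos (by linarith)]

theorem mem_ball_int (x : G × G) {R : ℕ} {m n : ℤ} (hm : m.natAbs ≤ R) (hn : n.natAbs ≤ R) :
    ((x.1 + (m : G), x.2 + (n : G)) : G × G) ∈ ball x R := by
  rw [mem_ball]
  exact (fd_add_int x m n).trans (max_le hm hn)

/-- horizontal part of the canonical gauge along a row -/
theorem gh_eq {Y : Set (G × G)} (b : BgIso w (wPl ℤ) Y) (f : G × G) (m : ℤ)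
    (hY : ∀ i : ℤ, i.natAbs ≤ m.natAbs → ((f.1 + (i : G), f.2) : G × G) ∈ Y) :
    gh w f m = b.s f * b.s (f.1 + (m : G), f.2) := by
  rcases m with k | k
  · show (∏ i ∈ Finset.range k, bs (yE w (f.1 + (i : G), f.2))) = _
    have key : ∀ n, n ≤ k → (∏ i ∈ Finset.range n, bs (yE w (f.1 + (i : G), f.2))) =
        b.s f * b.s (f.1 + ((n : ℤ) : G), f.2) := by
      intro n
      induction n with
      | zero => intro _; simp [b.sq]
      | succ n ih =>
        intro hn
        rw [Finset.prod_range_succ, ih (by omega)]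
        have h1 := hY (n : ℤ) (by simp only [Int.natAbs_natCast, Int.ofNat_eq_natCast]; omega)
        have h2 := hY ((n : ℤ) + 1) (by simp only [Int.ofNat_eq_natCast]; omega)
        have e2 : ((f.1 + (((n : ℤ) + 1 : ℤ) : G), f.2) : G × G) =
            ((f.1 + ((n : ℤ) : G)) + 1, f.2) := by ext <;> push_cast <;> ring
        rw [e2] at h2
        have h3 := b.wE _ h1 h2
        have e1 : ((f.1 + (n : G), f.2) : G × G) = (f.1 + ((n : ℤ) : G), f.2) := by
          rw [Int.cast_natCast]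
        have h3' : yE w (f.1 + ((n : ℤ) : G), f.2) = b.s (f.1 + ((n : ℤ) : G), f.2) *
            b.s (f.1 + ((n : ℤ) : G) + 1, f.2) * xc := h3
        rw [e1, h3', bs_mul (b.sq _) (b.sq _)]
        have e3 : ((f.1 + ((((n + 1 : ℕ) : ℤ)) : G), f.2) : G × G) =
            ((f.1 + ((n : ℤ) : G)) + 1, f.2) := by ext <;> push_cast <;> ring
        rw [e3]
        calc _ = b.s f * (b.s (f.1 + ((n : ℤ) : G), f.2) * b.s (f.1 + ((n : ℤ) : G), f.2)) *
              b.s (f.1 + ((n : ℤ) : G) + 1, f.2) := by ring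
          _ = _ := by rw [b.sq, mul_one]
    exact key k le_rfl
  · show (∏ i ∈ Finset.range (k + 1), bs (yE w (f.1 - ((i + 1 : ℕ) : G), f.2))) = _
    have key : ∀ n, n ≤ k + 1 →
        (∏ i ∈ Finset.range n, bs (yE w (f.1 - ((i + 1 : ℕ) : G), f.2))) =
        b.s f * b.s (f.1 + ((-(n : ℤ) : ℤ) : G), f.2) := by
      intro n
      induction n with
      | zero => intro _; simp [b.sq]
      | succ n ih =>
        intro hn
        rw [Finset.prod_range_succ, ih (by omega)]
        have h1 := hY (-((n : ℤ) + 1)) (by rw [Int.natAbs_negSucc]; omega)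
        have h2 := hY (-(n : ℤ)) (by rw [Int.natAbs_negSucc]; omega)
        have e2 : ((f.1 + ((-(n : ℤ) : ℤ) : G), f.2) : G × G) =
            ((f.1 + ((-((n : ℤ) + 1) : ℤ) : G)) + 1, f.2) := by ext <;> push_cast <;> ring
        rw [e2] at h2
        have h3 := b.wE _ h1 h2
        have e1 : ((f.1 - ((n + 1 : ℕ) : G), f.2) : G × G) =
            (f.1 + ((-((n : ℤ) + 1) : ℤ) : G), f.2) := by ext <;> push_cast <;> ring
        have h3' : yE w (f.1 + ((-((n : ℤ) + 1) : ℤ) : G), f.2) =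
            b.s (f.1 + ((-((n : ℤ) + 1) : ℤ) : G), f.2) *
            b.s (f.1 + ((-((n : ℤ) + 1) : ℤ) : G) + 1, f.2) * xc := h3
        rw [e1, h3', bs_mul (b.sq _) (b.sq _)]
        have e3 : ((f.1 + ((-(((n + 1 : ℕ) : ℤ)) : ℤ) : G), f.2) : G × G) =
            (f.1 + ((-((n : ℤ) + 1) : ℤ) : G), f.2) := by ext <;> push_cast <;> ring
        rw [e3, e2]
        calc _ = b.s f * (b.s (f.1 + ((-((n : ℤ) + 1) : ℤ) : G) + 1, f.2) *
              b.s (f.1 + ((-((n : ℤ) + 1) : ℤ) : G) + 1, f.2)) *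
              b.s (f.1 + ((-((n : ℤ) + 1) : ℤ) : G), f.2) := by ring
          _ = _ := by rw [b.sq, mul_one]
    have := key (k + 1) le_rfl
    rw [this]
    rfl

/-- vertical part of the canonical gauge along a column -/
theorem gv_eq {Y : Set (G × G)} (b : BgIso w (wPl ℤ) Y) (f : G × G) (m : ℤ)
    (hY : ∀ i : ℤ, i.natAbs ≤ m.natAbs → ((f.1, f.2 + (i : G)) : G × G) ∈ Y) :
    gv w f m = b.s f * b.s (f.1, f.2 + (m : G)) := by
  rcases m with k | k
  · show (∏ i ∈ Finset.range k, bs (yN w (f.1, f.2 + (i : G)))) = _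
    have key : ∀ n, n ≤ k → (∏ i ∈ Finset.range n, bs (yN w (f.1, f.2 + (i : G)))) =
        b.s f * b.s (f.1, f.2 + ((n : ℤ) : G)) := by
      intro n
      induction n with
      | zero => intro _; simp [b.sq]
      | succ n ih =>
        intro hn
        rw [Finset.prod_range_succ, ih (by omega)]
        have h1 := hY (n : ℤ) (by simp only [Int.natAbs_natCast, Int.ofNat_eq_natCast]; omega)
        have h2 := hY ((n : ℤ) + 1) (by simp only [Int.ofNat_eq_natCast]; omega)
        have e2 : ((f.1, f.2 + (((n : ℤ) + 1 : ℤ) : G)) : G × G) =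
            (f.1, (f.2 + ((n : ℤ) : G)) + 1) := by ext <;> push_cast <;> ring
        rw [e2] at h2
        have h3 := b.wN _ h1 h2
        have e1 : ((f.1, f.2 + (n : G)) : G × G) = (f.1, f.2 + ((n : ℤ) : G)) := by
          rw [Int.cast_natCast]
        have h3' : yN w (f.1, f.2 + ((n : ℤ) : G)) = b.s (f.1, f.2 + ((n : ℤ) : G)) *
            b.s (f.1, f.2 + ((n : ℤ) : G) + 1) * xc := h3
        rw [e1, h3', bs_mul (b.sq _) (b.sq _)]
        have e3 : ((f.1, f.2 + ((((n + 1 : ℕ) : ℤ)) : G)) : G × G) =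
            (f.1, (f.2 + ((n : ℤ) : G)) + 1) := by ext <;> push_cast <;> ring
        rw [e3]
        calc _ = b.s f * (b.s (f.1, f.2 + ((n : ℤ) : G)) * b.s (f.1, f.2 + ((n : ℤ) : G))) *
              b.s (f.1, f.2 + ((n : ℤ) : G) + 1) := by ring
          _ = _ := by rw [b.sq, mul_one]
    exact key k le_rfl
  · show (∏ i ∈ Finset.range (k + 1), bs (yN w (f.1, f.2 - ((i + 1 : ℕ) : G)))) = _
    have key : ∀ n, n ≤ k + 1 →
        (∏ i ∈ Finset.range n, bs (yN w (f.1, f.2 - ((i + 1 : ℕ) : G)))) =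
        b.s f * b.s (f.1, f.2 + ((-(n : ℤ) : ℤ) : G)) := by
      intro n
      induction n with
      | zero => intro _; simp [b.sq]
      | succ n ih =>
        intro hn
        rw [Finset.prod_range_succ, ih (by omega)]
        have h1 := hY (-((n : ℤ) + 1)) (by rw [Int.natAbs_negSucc]; omega)
        have h2 := hY (-(n : ℤ)) (by rw [Int.natAbs_negSucc]; omega)
        have e2 : ((f.1, f.2 + ((-(n : ℤ) : ℤ) : G)) : G × G) =
            (f.1, (f.2 + ((-((n : ℤ) + 1) : ℤ) : G)) + 1) := by ext <;> push_cast <;> ring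
        rw [e2] at h2
        have h3 := b.wN _ h1 h2
        have e1 : ((f.1, f.2 - ((n + 1 : ℕ) : G)) : G × G) =
            (f.1, f.2 + ((-((n : ℤ) + 1) : ℤ) : G)) := by ext <;> push_cast <;> ring
        have h3' : yN w (f.1, f.2 + ((-((n : ℤ) + 1) : ℤ) : G)) =
            b.s (f.1, f.2 + ((-((n : ℤ) + 1) : ℤ) : G)) *
            b.s (f.1, f.2 + ((-((n : ℤ) + 1) : ℤ) : G) + 1) * xc := h3
        rw [e1, h3', bs_mul (b.sq _) (b.sq _)]
        have e3 : ((f.1, f.2 + ((-(((n + 1 : ℕ) : ℤ)) : ℤ) : G)) : G × G) =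
            (f.1, f.2 + ((-((n : ℤ) + 1) : ℤ) : G)) := by ext <;> push_cast <;> ring
        rw [e3, e2]
        calc _ = b.s f * (b.s (f.1, f.2 + ((-((n : ℤ) + 1) : ℤ) : G) + 1) *
              b.s (f.1, f.2 + ((-((n : ℤ) + 1) : ℤ) : G) + 1)) *
              b.s (f.1, f.2 + ((-((n : ℤ) + 1) : ℤ) : G)) := by ring
          _ = _ := by rw [b.sq, mul_one]
    have := key (k + 1) le_rfl
    rw [this]
    rfl

/-- the canonical gauge in the chart -/
theorem gpZ_eq (b : BgIso w (wPl ℤ) Z) {f : G × G} {R : ℕ} (h : ball f R ⊆ Z) {v : ℤ × ℤ}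
    (h1 : v.1.natAbs ≤ R) (h2 : v.2.natAbs ≤ R) : gpZ w f v = b.s f * b.s (psiC f v) := by
  unfold gpZ
  rw [gh_eq (b.mono h) f v.1 (fun i hi => by
    have := mem_ball_int f (m := i) (n := 0) (hi.trans h1) (by simp)
    simpa using this), gv_eq (b.mono h) (f.1 + (v.1 : G), f.2) v.2 (fun i hi =>
      mem_ball_int f h1 (hi.trans h2))]
  show b.s f * b.s (f.1 + (v.1 : G), f.2) * (b.s (f.1 + (v.1 : G), f.2) *
    b.s (f.1 + (v.1 : G), f.2 + (v.2 : G))) = _
  calc _ = b.s f * (b.s (f.1 + (v.1 : G), f.2) * b.s (f.1 + (v.1 : G), f.2)) *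
        b.s (f.1 + (v.1 : G), f.2 + (v.2 : G)) := by ring
    _ = _ := by rw [b.sq, mul_one]; rfl

theorem tauC_abs {f g : G × G} {R : ℕ} (hg : g ∈ ball f R) :
    (tauC f g).1.natAbs ≤ R ∧ (tauC f g).2.natAbs ≤ R := by
  rw [mem_ball, fd] at hg
  unfold tauC
  simp only [lft_abs]
  rw [cn_sub_comm g.1, cn_sub_comm g.2]
  omega

/-- the canonical gauge -/
theorem gp_eq (b : BgIso w (wPl ℤ) Z) {f g : G × G} {R : ℕ} (h : ball f R ⊆ Z)
    (hg : g ∈ ball f R) : gp w f g = b.s f * b.s g := by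
  unfold gp
  rw [gpZ_eq b h (tauC_abs hg).1 (tauC_abs hg).2, psiC_tauC]

/-- the canonical chart -/
theorem tauC_eq {G' : Type} [CommRing G'] [CN G'] {w' : BW G'} (b : BgIso w w' Z) {f g : G × G}
    {R : ℕ} (h : ball f R ⊆ Z) (hg : g ∈ ball f R) :
    b.τ g = ((b.τ f).1 + ((tauC f g).1 : G'), (b.τ f).2 + ((tauC f g).2 : G')) := by
  have h1 := b.tau_add h (tauC f g).1 (tauC f g).2 (tauC_abs hg).1 (tauC_abs hg).2
  rw [← h1]
  congr 1
  exact (psiC_tauC f g).symm

theorem fd_int_sub (a a' c : ℤ × ℤ) : fd (c.1 + a.1, c.2 + a.2) (c.1 + a'.1, c.2 + a'.2) =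
    fd a a' := by
  unfold fd
  congr 2 <;> simp

/-- **the canonical chart is a chart**: on every ball on which some plane chart exists -/
def canIso (b : BgIso w (wPl ℤ) Z) {f : G × G} {R : ℕ} (h : ball f R ⊆ Z) :
    BgIso w (wPl ℤ) (ball f R) where
  τ := tauC f
  s := gp w f
  sq := gp_sq w f
  iso g hg g' hg' := by
    have e := b.iso g (h hg) g' (h hg')
    rw [tauC_eq b h hg, tauC_eq b h hg'] at e
    rw [← e]
    exact (fd_int_sub _ _ _).symm
  e1 g hg hg' := by
    have e := b.e1 g (h hg) (h hg')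
    rw [tauC_eq b h hg, tauC_eq b h hg'] at e
    simp only [Int.cast_id, Prod.mk.injEq] at e
    ext
    · show (tauC f (g.1 + 1, g.2)).1 = (tauC f g).1 + 1
      have := e.1
      linarith
    · show (tauC f (g.1 + 1, g.2)).2 = (tauC f g).2
      have := e.2
      linarith
  e2 g hg hg' := by
    have e := b.e2 g (h hg) (h hg')
    rw [tauC_eq b h hg, tauC_eq b h hg'] at e
    simp only [Int.cast_id, Prod.mk.injEq] at e
    ext
    · show (tauC f (g.1, g.2 + 1)).1 = (tauC f g).1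
      have := e.1
      linarith
    · show (tauC f (g.1, g.2 + 1)).2 = (tauC f g).2 + 1
      have := e.2
      linarith
  wE g hg hg' := by
    rw [b.wE g (h hg) (h hg'), gp_eq b h hg, gp_eq b h hg']
    show _ * _ * xc = _ * xc
    calc _ = (b.s f * b.s f) * (b.s g * b.s (g.1 + 1, g.2)) * xc := by rw [b.sq, one_mul]
      _ = _ := by ring
  wN g hg hg' := by
    rw [b.wN g (h hg) (h hg'), gp_eq b h hg, gp_eq b h hg']
    show _ * _ * xc = _ * xc
    calc _ = (b.s f * b.s f) * (b.s g * b.s (g.1, g.2 + 1)) * xc := by rw [b.sq, one_mul]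
      _ = _ := by ring

@[simp] theorem canIso_tau (b : BgIso w (wPl ℤ) Z) {f : G × G} {R : ℕ} (h : ball f R ⊆ Z)
    (g : G × G) : (canIso b h).τ g = tauC f g := rfl

@[simp] theorem canIso_s (b : BgIso w (wPl ℤ) Z) {f : G × G} {R : ℕ} (h : ball f R ⊆ Z)
    (g : G × G) : (canIso b h).s g = gp w f g := rfl

theorem lft_zero : lft (0 : G) = 0 := by
  have h := lft_abs (0 : G)
  rw [CN.cn_zero] at h
  exact Int.natAbs_eq_zero.1 h

@[simp] theorem tauC_self (f : G × G) : tauC f f = (0, 0) := by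
  unfold tauC
  rw [sub_self, sub_self, lft_zero]

theorem canIso_push (b : BgIso w (wPl ℤ) Z) {f : G × G} {R : ℕ} (h : ball f R ⊆ Z) :
    (canIso b h).push = chP w f := by
  refine Finsupp.lhom_ext fun k c => ?_
  rw [BgIso.push_single, chP_single]
  simp only [canIso_tau, canIso_s, Finsupp.smul_single, smul_eq_mul, mul_one]

theorem canIso_pull (b : BgIso w (wPl ℤ) Z) {f : G × G} {R : ℕ} (h : ball f R ⊆ Z) {l : Fld ℤ}
    (hl : l ∈ fldS (ball ((0, 0) : ℤ × ℤ) R)) : (canIso b h).pull l = chQ w f l := by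
  refine fldS_ind (P := fun l => (canIso b h).pull l = chQ w f l) (by simp) ?_ ?_ hl
  · intro k hk c
    have hk' : k.1.1.natAbs ≤ R ∧ k.1.2.natAbs ≤ R := by
      have := mem_ball_plane.1 hk
      simpa using this
    have hmem : psiC f k.1 ∈ ball f R := mem_ball_int f hk'.1 hk'.2
    have hτ : tauC f (psiC f k.1) = k.1 := by
      have e1 := tauC_eq b h hmem
      have e2 := b.tau_add h k.1.1 k.1.2 hk'.1 hk'.2
      have e3 : b.τ (psiC f k.1) = ((b.τ f).1 + (k.1.1 : ℤ), (b.τ f).2 + (k.1.2 : ℤ)) := e2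
      rw [e3] at e1
      simp only [Int.cast_id, Prod.mk.injEq, add_right_inj] at e1
      exact Prod.ext e1.1.symm e1.2.symm
    have hinv : (canIso b h).inv k.1 = psiC f k.1 := by
      conv_lhs => rw [← hτ]
      exact (canIso b h).inv_tau hmem
    rw [BgIso.pull_single, chQ_single, hinv, canIso_s]
    have : gp w f (psiC f k.1) = gpZ w f k.1 := by rw [gp, hτ]
    rw [this]
    simp only [Finsupp.smul_single, smul_eq_mul, mul_one]
  · intro l m hl hm
    rw [map_add, map_add, hl, hm]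

/-- the localisation of `GSys_387` is the localisation through the canonical chart -/
theorem LocC_can (b : BgIso w (wPl ℤ) Z) {f : G × G} {R : ℕ} (hR : 1 ≤ R) (h : ball f R ⊆ Z)
    (a : Gr (Fld G)) : LocC w f a = (canIso b h).LocC f a := by
  rw [LocC_apply, BgIso.LocC_apply, canIso_push, canIso_tau, tauC_self]
  symm
  refine mp_congr (W := fldS (ball ((0, 0) : ℤ × ℤ) R)) (fun l hl => canIso_pull b h hl) ?_
  exact gr_mono (fldS_mono (ball_mono _ hR)) (LocAt_mem _ _)

/-- **the localisation of `GSys_387` through any plane chart** -/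
theorem LocC_eq (b : BgIso w (wPl ℤ) Z) {f : G × G} {R : ℕ} (hR : 1 ≤ R) (h : ball f R ⊆ Z)
    {a : Gr (Fld G)} (ha : a ∈ gr (fldS (ball f R))) : LocC w f a = b.LocC f a := by
  rw [LocC_can b hR h]
  exact LocC_indep _ _ hR le_rfl h ha

theorem LocG_eq (b : BgIso w (wPl ℤ) Z) {f : G × G} {R : ℕ} (hR : 1 ≤ R) (h : ball f R ⊆ Z)
    {a : Ge (Fld G)} (ha : a ∈ grG (fldS (ball f R))) : LocG w f a = b.LocG f a :=
  ge_ext (LocC_eq b hR h ha)

/-- naturality under isomorphisms of backgrounds -/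
theorem LocC_natural {G' : Type} [CommRing G'] [CN G'] [CNZ G'] {w' : BW G'} (b : BgIso w w' Z)
    {Z₁ : Set (G × G)} (b₁ : BgIso w (wPl ℤ) Z₁) {Z' : Set (G' × G')} (b₂ : BgIso w' (wPl ℤ) Z')
    {f : G × G} {R : ℕ} (hR : 1 ≤ R) (h : ball f R ⊆ Z) (h1 : ball f R ⊆ Z₁)
    (h2 : ball (b.τ f) R ⊆ Z') {a : Gr (Fld G)} (ha : a ∈ gr (fldS (ball f R))) :
    mp b.push (LocC w f a) = LocC w' (b.τ f) (mp b.push a) := by
  rw [LocC_eq b₁ hR h1 ha, LocC_nat b b₁ b₂ hR h h1 h2 ha]
  symm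
  refine LocC_eq b₂ hR h2 ?_
  refine gr_mono ?_ (mp_mem_gr_map b.push ha)
  rintro _ ⟨l, hl, rfl⟩
  refine b.push_mem (fun g hg => ?_) hl
  rw [← b.image_ball h]
  exact ⟨g, hg, rfl⟩

theorem LocG_natural {G' : Type} [CommRing G'] [CN G'] [CNZ G'] {w' : BW G'} (b : BgIso w w' Z)
    {Z₁ : Set (G × G)} (b₁ : BgIso w (wPl ℤ) Z₁) {Z' : Set (G' × G')} (b₂ : BgIso w' (wPl ℤ) Z')
    {f : G × G} {R : ℕ} (hR : 1 ≤ R) (h : ball f R ⊆ Z) (h1 : ball f R ⊆ Z₁)
    (h2 : ball (b.τ f) R ⊆ Z') {a : Ge (Fld G)} (ha : a ∈ grG (fldS (ball f R))) :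
    mpG b.push (LocG w f a) = LocG w' (b.τ f) (mpG b.push a) :=
  ge_ext (LocC_natural b b₁ b₂ hR h h1 h2 ha)

/-- locality of the result, for every background -/
theorem LocC_mem (w : BW G) (f : G × G) (a : Gr (Fld G)) : LocC w f a ∈ gr (fldS (ball f 1)) := by
  rw [LocC_apply]
  refine gr_mono ?_ (mp_mem_gr_map (chQ w f) (LocAt_mem (0, 0) (mp (chP w f) a)))
  rintro _ ⟨l, hl, rfl⟩
  refine fldS_ind (P := fun l => chQ w f l ∈ fldS (ball f 1)) (by rw [map_zero]; exact zero_mem _)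
    ?_ ?_ hl
  · intro k hk c
    rw [chQ_single]
    have hk' := mem_ball_plane.1 hk
    simp only [sub_zero] at hk'
    refine Submodule.smul_mem _ _ (Submodule.smul_mem _ _ (single_mem_fldS ?_ _))
    exact mem_ball_int f hk'.1 hk'.2
  · intro l m hl hm
    rw [map_add]; exact add_mem hl hm

theorem LocG_mem (w : BW G) (f : G × G) (a : Ge (Fld G)) : LocG w f a ∈ grG (fldS (ball f 1)) :=
  LocC_mem w f a

end chart

/-! ### the plane -/

theorem bs_xc : bs xc = 1 := by
  unfold bs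
  rw [if_neg (not_lt.2 PlaneModesx901.xc_pos.le)]

theorem gh_plane {G : Type} [CommRing G] (f : G × G) (n : ℤ) : gh (wPl G) f n = 1 := by
  cases n <;> exact Finset.prod_eq_one fun _ _ => bs_xc

theorem gv_plane {G : Type} [CommRing G] (f : G × G) (n : ℤ) : gv (wPl G) f n = 1 := by
  cases n <;> exact Finset.prod_eq_one fun _ _ => bs_xc

theorem gpZ_plane {G : Type} [CommRing G] (f : G × G) (v : ℤ × ℤ) : gpZ (wPl G) f v = 1 := by
  unfold gpZ
  rw [gh_plane, gv_plane, one_mul]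

theorem chP_plane (f : Fc) : chP (wPl ℤ) f = PlaneModesx901.tauV (-f) := by
  refine Finsupp.lhom_ext fun k c => ?_
  rw [chP_single, tauV_single]
  unfold gp
  rw [gpZ_plane, one_smul, Finsupp.smul_single, smul_eq_mul, mul_one]
  congr 1
  unfold tauC
  simp only [lft_int]
  ext <;> simp <;> ring

theorem chQ_plane (f : Fc) : chQ (wPl ℤ) f = PlaneModesx901.tauV f := by
  refine Finsupp.lhom_ext fun k c => ?_
  rw [chQ_single, tauV_single]
  rw [gpZ_plane, one_smul, Finsupp.smul_single, smul_eq_mul, mul_one]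
  congr 1
  unfold psiC
  ext <;> simp <;> ring

theorem tauV_tauV_neg (f : Fc) :
    PlaneModesx901.tauV f ∘ₗ PlaneModesx901.tauV (-f) = LinearMap.id := by
  refine Finsupp.lhom_ext fun k c => ?_
  rw [LinearMap.comp_apply, tauV_single, tauV_single, LinearMap.id_apply]
  congr 1
  ext <;> simp

/-- in the plane the localisation is the one of 901 -/
theorem LocC_plane (f : Fc) : LocC (wPl ℤ) f = LocAt f := by
  refine LinearMap.ext fun a => ?_
  rw [LocC_apply, chP_plane, chQ_plane]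
  have h := LocAt_transl 1 f ((0, 0) : Fc) (mp (PlaneModesx901.tauV (-f)) a)
  rw [one_smul] at h
  rw [← h, mp_mp, tauV_tauV_neg, mp_id]
  congr 2
  ext <;> simp

theorem LocG_plane (f : Fc) : LocG (wPl ℤ) f = LocE f := by
  refine LinearMap.ext fun a => ge_ext ?_
  rw [coe_LocG, LocC_plane, coe_LocE]

/-- the identity chart of the plane -/
def plId (Z : Set (ℤ × ℤ)) : PlaneLike (wPl ℤ) Z where
  τ := id
  s _ := 1
  sq _ := by norm_num
  iso _ _ _ _ := rfl
  e1 _ _ _ := rfl
  e2 _ _ _ := rfl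
  wE _ _ _ := by simp [yE, wPl]
  wN _ _ _ := by simp [yN, wPl]

theorem emb_plane (r : ℕ) (U : Finset (ℤ × ℤ)) : Emb (wPl ℤ) r U := ⟨plId _⟩

theorem deep_plane (l k0 n : ℕ) (f : Fc) : deep (wPl ℤ) ∅ l k0 n f :=
  ⟨emb_plane _ _, fun m hm => absurd hm (Finset.notMem_empty m)⟩

theorem bulk_plane (l k0 n : ℕ) : bulk (wPl ℤ) ∅ l k0 n =
    exF (fun _ => True) LocE (rr l k0 n) := by
  unfold bulk
  have h1 : deep (wPl ℤ) ∅ l k0 n = fun _ => True := by
    funext f
    exact eq_true (deep_plane l k0 n f)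
  have h2 : LocG (wPl ℤ) = LocE := funext LocG_plane
  rw [h2]
  congr

/-- targets of the bulk extraction -/
theorem mem_bulk_out {G : Type} [CommRing G] [CN G] [CNZ G] [DecidableEq G] {w : BW G}
    {mk : Finset (G × G)} {l k0 n : ℕ} {U T : Finset (G × G)} :
    T ∈ (bulk w mk l k0 n).out U ↔
      size (rr l k0 n) U ≤ 1 ∧ ∃ f ∈ U, deep w mk l k0 n f ∧ T = {f} := by
  classical
  unfold bulk
  exact mem_exOut _ _

end Crest.Agent.R165.GSysx387
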