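import Crest.Agent.R165.CmpA_432
import Crest.Agent.R165.GSys2_387

/-!
# Row 165 (S0250): comparison of the concrete flows of two backgrounds (helper432)

For `b : BgIso w w' Z` (marks corresponding on `Z`, initial activities corresponding):

* `cmp` : the hypotheses `Cmp` of KEq_337 between `sys D w mk l k0 K0` and `sys D w' mk' l k0 K0'`
* `K_eq` : `mpG b.push (K_n U) = K'_n (U.image τ)` if `nbhd (s2 * rr n) U ⊆ Z`
* `H_eq`, `ct_eq` : the same for `H_n`, the constants, if `nbhd (rhoH n) U ⊆ Z`,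
  `rhoH n = max (s2 * rr n) (rr (n+1))`
-/

set_option autoImplicit false
set_option linter.unusedSectionVars false

noncomputable section

open scoped ENNReal
open Crest.Agent.R165.Gr0x606 Crest.Agent.R165.Gr1x606 Crest.Agent.R165.Latx683
open Crest.Agent.R165.GDefx387 Crest.Agent.R165.GeOpsx337 Crest.Agent.R165.KFlowx337
open Crest.Agent.R165.KEqx337 Crest.Agent.R165.KMapx892
open Crest.Agent.R165.FRDPolyx439 Crest.Agent.R165.FRDLatx439 Crest.Agent.R165.BgIsox432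
open Crest.Agent.R165.PStepx417 Crest.Agent.R165.GSysx387

namespace Crest.Agent.R165.CmpBgx432

variable {G G' : Type} [CommRing G] [CN G] [CNZ G] [DecidableEq G] [CommRing G'] [CN G'] [CNZ G']
  [DecidableEq G'] {w : BW G} {w' : BW G'} {Z : Set (G × G)}

/-- the chart of an isomorphism of backgrounds -/
def chartOf (b : BgIso w w' Z) : Chart (G × G) (Fld G) (G' × G') (Fld G') where
  ψ := b.τ
  φ := b.inv
  p := b.push

/-- what `K_n(U)` sees -/
def rhoK (l k0 n : ℕ) : ℕ := s2 * rr l k0 n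

/-- what `H_n(U)` sees -/
def rhoH (l k0 n : ℕ) : ℕ := max (s2 * rr l k0 n) (rr l k0 (n + 1))

theorem rhoK_le_rhoH (l k0 n : ℕ) : rhoK l k0 n ≤ rhoH l k0 n := le_max_left _ _

theorem rhoH_add_le {l k0 n : ℕ} (hl : 1 ≤ l) : rhoH l k0 n + rr l k0 n ≤ rhoK l k0 (n + 1) := by
  have h2 : 2 ≤ 2 ^ l := by
    calc 2 = 2 ^ 1 := by norm_num
      _ ≤ 2 ^ l := Nat.pow_le_pow_right (by norm_num) hl
  have h3 : 2 * rr l k0 n ≤ rr l k0 (n + 1) := by
    rw [rr_succ]; exact Nat.mul_le_mul_right _ h2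
  have hs : s2 = 128 := rfl
  unfold rhoH rhoK
  rw [hs]
  omega

/-- the chart is valid for `K_n(U)` -/
def okK (b : BgIso w w' Z) (l k0 n : ℕ) (c : Chart (G × G) (Fld G) (G' × G') (Fld G'))
    (U : Finset (G × G)) : Prop := c = chartOf b ∧ U.Nonempty ∧ nbhd (rhoK l k0 n) U ⊆ Z

/-- the chart is valid for `H_n(U)` -/
def okH (b : BgIso w w' Z) (l k0 n : ℕ) (c : Chart (G × G) (Fld G) (G' × G') (Fld G'))
    (U : Finset (G × G)) : Prop := c = chartOf b ∧ U.Nonempty ∧ nbhd (rhoH l k0 n) U ⊆ Z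

/-- the localisation is natural at the deep faces -/
theorem locG_push (b : BgIso w w' Z) (h2 : (2 : G') ≠ 0) {r R : ℕ} {f : G × G} (hR : 1 ≤ R)
    (hRr : R ≤ s2 * r) (hb : ball f (s2 * r) ⊆ Z) (he : Emb w r {f}) {a : Ge (Fld G)}
    (ha : a ∈ grG (fldS (ball f R))) :
    mpG b.push (LocG w f a) = LocG w' (b.τ f) (mpG b.push a) := by
  have he' := (emb_iff b hb h2).1 he
  obtain ⟨p⟩ := he
  obtain ⟨p'⟩ := he'
  refine LocG_natural b (ofPlane p) (ofPlane p') hR ((ball_mono f hRr).trans hb) ?_ ?_ ha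
  · rw [nbhd_single]; exact ball_mono f hRr
  · rw [nbhd_single]; exact ball_mono _ hRr

omit [CNZ G] [DecidableEq G] in
theorem nbhd_nbhd {r r' : ℕ} {U : Finset (G × G)} {f : G × G} (hf : f ∈ nbhd r U) :
    ball f r' ⊆ nbhd (r + r') U := by
  obtain ⟨u, hu, h⟩ := hf
  intro g hg
  exact ⟨u, hu, (fd_triangle u f g).trans (by rw [mem_ball] at hg; omega)⟩

omit [CNZ G] [DecidableEq G] in
theorem nbhd_sub {r : ℕ} {U W : Finset (G × G)} (h : U ⊆ W) : nbhd r U ⊆ nbhd r W := by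
  rintro f ⟨u, hu, hf⟩
  exact ⟨u, h hu, hf⟩

omit [CNZ G] [DecidableEq G] in
theorem fld_sub_ball {U : Finset (G × G)} {f : G × G} {r : ℕ} (h : ∀ u ∈ U, u ∈ ball f r) :
    (fldU U : Submodule ℝ (Fld G)) ≤ fldS (ball f (r + 1)) := by
  refine fldS_mono ?_
  rintro g ⟨u, hu, hg⟩
  have := h u hu
  rw [mem_ball] at this ⊢
  exact (fd_triangle f u g).trans (by omega)

variable {M K : ℕ} (D : FRD 16 M K)

omit [CNZ G] [CNZ G'] [DecidableEq G] [DecidableEq G'] in
/-- the slices agree on the fields of `U` -/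
theorem slC_push (b : BgIso w w' Z) {l k0 n : ℕ} (hl : 1 ≤ l) (hK : 2 ≤ K) {U : Finset (G × G)}
    (hU : nbhd (rhoH l k0 n) U ⊆ Z) {x y : Fld G} (hx : x ∈ (fldU U : Submodule ℝ (Fld G)))
    (hy : y ∈ (fldU U : Submodule ℝ (Fld G))) :
    (slC D w l k0 n).b x y = (slC D w' l k0 n).b (b.push x) (b.push y) := by
  have hr : 2 ≤ rr l k0 (n + 1) := by
    unfold rr
    calc 2 = 2 ^ 1 := by norm_num
      _ ≤ 2 ^ (l * (k0 + (n + 1))) := Nat.pow_le_pow_right (by norm_num) (by nlinarith)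
  have hev : rr l k0 (n + 1) = 2 * (rr l k0 (n + 1) / 2) := by
    have : 2 ∣ rr l k0 (n + 1) := by
      unfold rr
      exact dvd_pow_self 2 (by nlinarith)
    omega
  have hle : rr l k0 (n + 1) ≤ rhoH l k0 n := le_max_right _ _
  have h1 : ∀ f ∈ (nbhd 1 U : Set (G × G)), ball f (rr l k0 (n + 1) / 2) ⊆ Z := by
    intro f hf
    refine (nbhd_nbhd hf).trans ((nbhd_mono ?_).trans hU)
    omega
  have h2 : 2 ^ hi l k0 n ≤ K * (rr l k0 (n + 1) / 2) := by
    rw [hi_eq]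
    calc rr l k0 (n + 1) = 2 * (rr l k0 (n + 1) / 2) := hev
      _ ≤ K * (rr l k0 (n + 1) / 2) := Nat.mul_le_mul_right _ hK
  have h3 : (nbhd 1 U : Set (G × G)) ⊆ Z := (nbhd_mono (by omega)).trans hU
  exact (SopC_push D b (lo l k0 n) (hi l k0 n) _ (by omega) h2 h1 hx (fldS_mono h3 hy)).symm

/-- deep faces correspond -/
theorem deep_iff (b : BgIso w w' Z) {mk : Finset (G × G)} {mk' : Finset (G' × G')}
    (hmk : ∀ f ∈ Z, (f ∈ mk ↔ b.τ f ∈ mk')) (h2 : (2 : G') ≠ 0) {l k0 n : ℕ} {f : G × G}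
    (hf : ball f (s2 * rr l k0 (n + 1)) ⊆ Z) :
    deep w mk l k0 n f ↔ deep w' mk' l k0 n (b.τ f) := by
  unfold deep
  rw [emb_iff b hf h2, marks_iff b hmk hf]

/-- **the comparison hypotheses of KEq_337** -/
theorem cmp (b : BgIso w w' Z) {mk : Finset (G × G)} {mk' : Finset (G' × G')}
    (hmk : ∀ f ∈ Z, (f ∈ mk ↔ b.τ f ∈ mk')) (h2 : (2 : G') ≠ 0) {l k0 : ℕ} (hl : 1 ≤ l)
    (hK : 2 ≤ K) {K0 : Finset (G × G) → Ge (Fld G)} {K0' : Finset (G' × G') → Ge (Fld G')}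
    (hK0 : ∀ U : Finset (G × G), U.Nonempty → nbhd (rhoK l k0 0) U ⊆ Z →
      mpG b.push (K0 U) = K0' (U.image b.τ)) :
    Cmp (sys D w mk l k0 K0) (sys D w' mk' l k0 K0') (okK b l k0) (okH b l k0) where
  K0 := by
    rintro _ U ⟨rfl, hne, hU⟩
    exact hK0 U hne hU
  toK := by
    rintro n _ U ⟨rfl, hne, hU⟩
    exact ⟨rfl, hne, (nbhd_mono (rhoK_le_rhoH l k0 n)).trans hU⟩
  S := by
    rintro n _ U ⟨rfl, hne, hU⟩ x hx y hy
    exact slC_push D b hl hK hU hx hy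
  down := by
    rintro n _ W ⟨rfl, hne, hW⟩ U hU hUne
    refine ⟨rfl, hUne, ?_⟩
    have := rhoH_add_le (k0 := k0) (n := n) hl
    exact (nbhd_sub hU).trans ((nbhd_mono (by omega)).trans hW)
  iso := by
    rintro n _ W ⟨rfl, hne, hW⟩
    exact piso_of b _ _ fun f hf => hW (subset_nbhd W _ hf)
  inn := by
    rintro n _ W ⟨rfl, hne, hW⟩ T hT hTne U hU
    classical
    obtain ⟨h1, f, hf, h3, rfl⟩ := (mem_exF_inn _ _).1 hU
    refine ⟨rfl, ⟨f, hf⟩, ?_⟩
    have hle := rhoH_add_le (k0 := k0) (n := n) hl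
    refine Set.Subset.trans ?_ hW
    rintro g ⟨u, hu, hg⟩
    refine ⟨f, hT (Finset.mem_singleton_self f), ?_⟩
    have h4 := size_le_one_iff.1 h1 f hf u hu
    exact (fd_triangle f u g).trans (by omega)
  inn_eq := by
    rintro n _ W ⟨rfl, hne, hW⟩ T hT hTne
    classical
    have hle := rhoH_add_le (k0 := k0) (n := n) hl
    refine exF_inn_image _ _ _ _ b (fun f hf => ?_) (fun f hf => ?_)
    · exact (ball_subset_nbhd (hT hf)).trans ((nbhd_mono (by omega)).trans hW)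
    · exact deep_iff b hmk h2 ((ball_subset_nbhd (hT hf)).trans hW)
  inn_inj := by
    rintro n _ W ⟨rfl, hne, hW⟩ T hT hTne U hU U' hU' he
    classical
    have hle := rhoH_add_le (k0 := k0) (n := n) hl
    have key : ∀ U : Finset (G × G), U ∈ (bulk w mk l k0 n).inn T → ∀ u ∈ U, u ∈ Z := by
      intro U hU u hu
      obtain ⟨f, hf, h⟩ := exF_inn_sub _ _ hU
      refine ((ball_subset_nbhd (hT hf)).trans ((nbhd_mono ?_).trans hW)) (h u hu)
      omega
    exact image_inj b (key U hU) (key U' hU') he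
  out_eq := by
    rintro n _ W ⟨rfl, hne, hW⟩ U hU hUne
    classical
    refine exOut_image _ _ b (fun f hf => hW (subset_nbhd W _ (hU hf))) (fun f hf => ?_)
    exact deep_iff b hmk h2 ((ball_subset_nbhd (hU hf)).trans hW)
  X := by
    rintro n _ W ⟨rfl, hne, hW⟩ T hT hTne U hU a ha
    classical
    obtain ⟨h1, f, hf, h3, rfl⟩ := (mem_exF_inn _ _).1 hU
    have hle := rhoH_add_le (k0 := k0) (n := n) hl
    have hrK : rhoK l k0 n ≤ rhoH l k0 n := rhoK_le_rhoH l k0 n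
    have hfW : f ∈ W := hT (Finset.mem_singleton_self f)
    have hball : ball f (s2 * rr l k0 (n + 1)) ⊆ Z := (ball_subset_nbhd hfW).trans hW
    have hsub : ∀ u ∈ U, u ∈ ball f (rr l k0 n) := fun u hu => by
      rw [mem_ball]; exact size_le_one_iff.1 h1 f hf u hu
    have hU' : ∀ u ∈ U, u ∈ Z := fun u hu => hball (ball_mono f (by
      have : rhoK l k0 (n + 1) = s2 * rr l k0 (n + 1) := rfl
      omega) (hsub u hu))
    show mpG b.push ((exF (deep w mk l k0 n) (LocG w) (rr l k0 n)).X U {f} a) =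
      (exF (deep w' mk' l k0 n) (LocG w') (rr l k0 n)).X (U.image b.τ)
        (Finset.image b.τ {f}) (mpG b.push a)
    rw [exF_X, exF_X, Finset.image_singleton, Finset.sum_singleton, Finset.sum_singleton, map_smul,
      Finset.card_image_of_injOn (fun x hx y hy h => b.injOn (hU' x hx) (hU' y hy) h)]
    congr 1
    refine locG_push b h2 (r := rr l k0 (n + 1)) (R := rr l k0 n + 1) (by omega) ?_ hball h3.1
      (grG_mono (fld_sub_ball hsub) ha)
    have h5 : rhoK l k0 (n + 1) = s2 * rr l k0 (n + 1) := rfl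
    have h6 : rhoK l k0 n = s2 * rr l k0 n := rfl
    have h7 : s2 = 128 := rfl
    have h8 := rr_pos l k0 n
    rw [← h5]
    rw [h7] at h6
    omega
  vac := by
    rintro n _ U ⟨rfl, hne, hU⟩ a ha
    show mpG b.push (vac0 (Fld G) a) = vac0 (Fld G') (mpG b.push a)
    rw [vac0_apply, vac0_apply, ctG_mpG, AlgHom.commutes]

section concl

variable (b : BgIso w w' Z) {mk : Finset (G × G)} {mk' : Finset (G' × G')}
  (hmk : ∀ f ∈ Z, (f ∈ mk ↔ b.τ f ∈ mk')) (h2 : (2 : G') ≠ 0) {l k0 : ℕ} (hl : 1 ≤ l)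
  (hK : 2 ≤ K) {K0 : Finset (G × G) → Ge (Fld G)} {K0' : Finset (G' × G') → Ge (Fld G')}
  (hK0 : ∀ U : Finset (G × G), U.Nonempty → nbhd (s2 * rr l k0 0) U ⊆ Z →
    mpG b.push (K0 U) = K0' (U.image b.τ)) {src : Submodule ℝ (Fld G)}
  (hD : (sys D w mk l k0 K0).OK src)

include hmk h2 hl hK hK0 hD

/-- **equality of the activities** -/
theorem K_eq (n : ℕ) {U : Finset (G × G)} (hne : U.Nonempty) (hU : nbhd (s2 * rr l k0 n) U ⊆ Z) :
    mpG b.push ((sys D w mk l k0 K0).K n U) = (sys D w' mk' l k0 K0').K n (U.image b.τ) :=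
  (cmp D b hmk h2 hl hK hK0).K_eq hD n (chartOf b) U ⟨rfl, hne, hU⟩

/-- **equality of the convolved activities** -/
theorem H_eq (n : ℕ) {U : Finset (G × G)} (hne : U.Nonempty) (hU : nbhd (rhoH l k0 n) U ⊆ Z) :
    mpG b.push ((sys D w mk l k0 K0).H n U) = (sys D w' mk' l k0 K0').H n (U.image b.τ) :=
  (cmp D b hmk h2 hl hK hK0).H_eq hD n (chartOf b) U ⟨rfl, hne, hU⟩

/-- **equality of the constants** -/
theorem ct_eq (n : ℕ) {U : Finset (G × G)} (hne : U.Nonempty) (hU : nbhd (rhoH l k0 n) U ⊆ Z) :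
    ctG ((sys D w mk l k0 K0).H n U) = ctG ((sys D w' mk' l k0 K0').H n (U.image b.τ)) :=
  (cmp D b hmk h2 hl hK hK0).ct_eq hD n (chartOf b) U ⟨rfl, hne, hU⟩

/-- equality of the norms -/
theorem pnorm_K_eq (a : ℝ) (n : ℕ) {U : Finset (G × G)} (hne : U.Nonempty)
    (hU : nbhd (s2 * rr l k0 n) U ⊆ Z) (hr : MM ≤ rr l k0 n) :
    pG (wU w' a (rr l k0 n) (U.image b.τ)) ((sys D w' mk' l k0 K0').K n (U.image b.τ)) =
      pG (wU w a (rr l k0 n) U) ((sys D w mk l k0 K0).K n U) := by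
  rw [← K_eq D b hmk h2 hl hK hK0 hD n hne hU, pG_def, pG_def]
  have h1 : nbhd (s1 * rr l k0 n + MM) U ⊆ Z := by
    refine (nbhd_mono ?_).trans hU
    have e1 : s1 = 64 := rfl
    have e2 : s2 = 128 := rfl
    have e3 := rr_pos l k0 n
    rw [e1, e2]
    omega
  have h3 : (nbhd 1 U : Set (G × G)) ⊆ Z := by
    refine (nbhd_mono ?_).trans hU
    have e2 : s2 = 128 := rfl
    have e3 := rr_pos l k0 n
    rw [e2]
    omega
  convert pnorm_push b a (rr l k0 n) h1 (K := (((sys D w mk l k0 K0).K n U : Ge (Fld G)) : Gr (Fld G)))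
    (GrLocx337.gr_mono (fldS_mono h3) (Sys.K_mem hD n U))
  rfl

end concl

end Crest.Agent.R165.CmpBgx432
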