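import Crest.Agent.R165.CmpBg_432

/-!
# Row 165 (S0250): comparison of the concrete flows with sources (helper432)

* `ExC` : one extraction compared with another through a chart, for the sets inside `W`;
  `ExC.union`, `ExC.lift`, `bulkC`
* `pS b σ` : the field map on fields and sources (`σ : Fin m' → Fin m` selects the sources)
* `cmpS` : the hypotheses `Cmp` of KEq_337 between two systems `sysS`; `KS_eq`, `HS_eq`, `vacS_eq`
-/

set_option autoImplicit false
set_option linter.unusedSectionVars false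

noncomputable section

open scoped ENNReal
open Crest.Agent.R165.Gr0x606 Crest.Agent.R165.Gr1x606 Crest.Agent.R165.Latx683
open Crest.Agent.R165.GDefx387 Crest.Agent.R165.GeOpsx337 Crest.Agent.R165.KFlowx337
open Crest.Agent.R165.KEqx337 Crest.Agent.R165.KMapx892
open Crest.Agent.R165.FRDPolyx439 Crest.Agent.R165.FRDLatx439 Crest.Agent.R165.BgIsox432
open Crest.Agent.R165.PStepx417 Crest.Agent.R165.GSysx387 Crest.Agent.R165.SrcDefx991

namespace Crest.Agent.R165.CmpBgx432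

section ex

variable {F F' : Type} [DecidableEq F] [DecidableEq F'] {V V' : Type} [AddCommGroup V] [Module ℝ V]
  [AddCommGroup V'] [Module ℝ V']

/-- comparison of two extractions, for the sets inside `W`; `vis U` = the chart is valid for the
activity of `U` -/
structure ExC (e : Extr F V) (e' : Extr F' V') (ψ : F → F') (p : V →ₗ[ℝ] V')
    (fld : Finset F → Submodule ℝ V) (vis : Finset F → Prop) (W : Finset F) : Prop where
  inn : ∀ T ⊆ W, T.Nonempty → ∀ U ∈ e.inn T, vis U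
  inn_eq : ∀ T ⊆ W, T.Nonempty → e'.inn (T.image ψ) = (e.inn T).image (Finset.image ψ)
  out_eq : ∀ U ⊆ W, U.Nonempty → e'.out (U.image ψ) = (e.out U).image (Finset.image ψ)
  X : ∀ T ⊆ W, T.Nonempty → ∀ U ∈ e.inn T, ∀ a ∈ grG (fld U),
    mpG p (e.X U T a) = e'.X (U.image ψ) (T.image ψ) (mpG p a)

variable {e e₁ e₂ : Extr F V} {e' e₁' e₂' : Extr F' V'} {ψ : F → F'} {p : V →ₗ[ℝ] V'}
  {fld : Finset F → Submodule ℝ V} {vis : Finset F → Prop} {W : Finset F}

/-- membership in the targets corresponds -/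
theorem ExC.mem_iff (h : ExC e e' ψ p fld vis W)
    (hinj : ∀ U U' : Finset F, vis U → vis U' → U.image ψ = U'.image ψ → U = U')
    {T U : Finset F} (hT : T ⊆ W) (hTne : T.Nonempty) (hU : vis U) :
    T.image ψ ∈ e'.out (U.image ψ) ↔ T ∈ e.out U := by
  rw [e'.mem_iff, e.mem_iff, h.inn_eq T hT hTne, Finset.mem_image]
  constructor
  · rintro ⟨U', hU', he⟩
    rwa [← hinj U' U (h.inn T hT hTne U' hU') hU he]
  · exact fun h1 => ⟨U, h1, rfl⟩

/-- unions of extractions -/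
theorem ExC.union (h₁ : ExC e₁ e₁' ψ p fld vis W) (h₂ : ExC e₂ e₂' ψ p fld vis W)
    (hinj : ∀ U U' : Finset F, vis U → vis U' → U.image ψ = U'.image ψ → U = U') :
    ExC (GSysx387.union e₁ e₂) (GSysx387.union e₁' e₂') ψ p fld vis W where
  inn T hT hTne U hU := by
    rcases Finset.mem_union.1 (show U ∈ e₁.inn T ∪ e₂.inn T from hU) with h | h
    · exact h₁.inn T hT hTne U h
    · exact h₂.inn T hT hTne U h
  inn_eq T hT hTne := by
    show e₁'.inn (T.image ψ) ∪ e₂'.inn (T.image ψ) = (e₁.inn T ∪ e₂.inn T).image (Finset.image ψ)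
    rw [h₁.inn_eq T hT hTne, h₂.inn_eq T hT hTne, Finset.image_union]
  out_eq U hU hUne := by
    show e₁'.out (U.image ψ) ∪ e₂'.out (U.image ψ) = (e₁.out U ∪ e₂.out U).image (Finset.image ψ)
    rw [h₁.out_eq U hU hUne, h₂.out_eq U hU hUne, Finset.image_union]
  X T hT hTne U hU a ha := by
    have hv : vis U := by
      rcases Finset.mem_union.1 (show U ∈ e₁.inn T ∪ e₂.inn T from hU) with h | h
      · exact h₁.inn T hT hTne U h
      · exact h₂.inn T hT hTne U h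
    have m1 := h₁.mem_iff hinj hT hTne hv
    have m2 := h₂.mem_iff hinj hT hTne hv
    show mpG p (((if T ∈ e₁.out U then e₁.X U T else 0) + (if T ∈ e₂.out U then e₂.X U T else 0)) a) =
      ((if T.image ψ ∈ e₁'.out (U.image ψ) then e₁'.X (U.image ψ) (T.image ψ) else 0) +
        (if T.image ψ ∈ e₂'.out (U.image ψ) then e₂'.X (U.image ψ) (T.image ψ) else 0)) (mpG p a)
    rw [LinearMap.add_apply, LinearMap.add_apply, map_add]
    congr 1
    · by_cases h : T ∈ e₁.out U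
      · rw [if_pos h, if_pos (m1.2 h)]
        exact h₁.X T hT hTne U ((e₁.mem_iff U T).1 h) a ha
      · rw [if_neg h, if_neg fun h' => h (m1.1 h'), LinearMap.zero_apply, LinearMap.zero_apply,
          map_zero]
    · by_cases h : T ∈ e₂.out U
      · rw [if_pos h, if_pos (m2.2 h)]
        exact h₂.X T hT hTne U ((e₂.mem_iff U T).1 h) a ha
      · rw [if_neg h, if_neg fun h' => h (m2.1 h'), LinearMap.zero_apply, LinearMap.zero_apply,
          map_zero]

/-- extractions acting on the source-free part -/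
theorem ExC.lift (h : ExC e e' ψ p fld vis W) {m m' : ℕ} (P : VS V m →ₗ[ℝ] VS V' m')
    (fld' : Finset F → Submodule ℝ (VS V m))
    (h1 : ∀ x : VS V m, (P x).1 = p x.1) (h2 : ∀ x : V, P (x, 0) = (p x, 0))
    (h3 : ∀ U, ∀ x ∈ fld' U, x.1 ∈ fld U) :
    ExC (liftE m e) (liftE m' e') ψ P fld' vis W where
  inn := h.inn
  inn_eq := h.inn_eq
  out_eq := h.out_eq
  X T hT hTne U hU a ha := by
    have hn : noS a ∈ grG (fld U) := mpG_mem _ (fun x hx => h3 U x hx) ha
    have e1 : mpG p (noS a) = noS (mpG P a) := by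
      unfold noS
      rw [mpG_mpG, mpG_mpG]
      congr 1
      exact congrArg mpG (LinearMap.ext fun x => (h1 x).symm)
    rw [liftE_X, liftE_X, ← e1, ← h.X T hT hTne U hU _ hn]
    unfold inG
    rw [mpG_mpG, mpG_mpG]
    have e2 : P ∘ₗ LinearMap.inl ℝ V (Src m) = LinearMap.inl ℝ V' (Src m') ∘ₗ p :=
      LinearMap.ext fun x => h2 x
    rw [e2]

end ex

variable {G G' : Type} [CommRing G] [CN G] [CNZ G] [DecidableEq G] [CommRing G'] [CN G'] [CNZ G']
  [DecidableEq G'] {w : BW G} {w' : BW G'} {Z : Set (G × G)}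

/-- visibility for the convolved activities -/
def visH (Z : Set (G × G)) (l k0 n : ℕ) (U : Finset (G × G)) : Prop :=
  U.Nonempty ∧ nbhd (rhoH l k0 n) U ⊆ Z

theorem visH_inj (b : BgIso w w' Z) (l k0 n : ℕ) (U U' : Finset (G × G)) (h : visH Z l k0 n U)
    (h' : visH Z l k0 n U') (he : U.image b.τ = U'.image b.τ) : U = U' :=
  image_inj b (fun _ hf => h.2 (subset_nbhd U _ hf)) (fun _ hf => h'.2 (subset_nbhd U' _ hf)) he

/-- the extractions of the two backgrounds correspond -/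
theorem bulkC {M K : ℕ} (D : FRD 16 M K) (b : BgIso w w' Z) {mk : Finset (G × G)}
    {mk' : Finset (G' × G')}
    (hmk : ∀ f ∈ Z, (f ∈ mk ↔ b.τ f ∈ mk')) (h2 : (2 : G') ≠ 0) {l k0 : ℕ} (hl : 1 ≤ l)
    (hK : 2 ≤ K) {n : ℕ} {W : Finset (G × G)} (hWne : W.Nonempty)
    (hW : nbhd (rhoK l k0 (n + 1)) W ⊆ Z) :
    ExC (bulk w mk l k0 n) (bulk w' mk' l k0 n) b.τ b.push fldU (visH Z l k0 n) W := by
  have C := cmp D b hmk h2 (k0 := k0) hl hK (K0 := fun _ => 0) (K0' := fun _ => 0)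
    (fun _ _ _ => map_zero _)
  have ok : okK b l k0 (n + 1) (chartOf b) W := ⟨rfl, hWne, hW⟩
  exact
    { inn := fun T hT hTne U hU => (C.inn n (chartOf b) W ok T hT hTne U hU).2
      inn_eq := fun T hT hTne => C.inn_eq n (chartOf b) W ok T hT hTne
      out_eq := fun U hU hUne => C.out_eq n (chartOf b) W ok U hU hUne
      X := fun T hT hTne U hU a ha => C.X n (chartOf b) W ok T hT hTne U hU a ha }

/-! ### sources -/

variable {m m' : ℕ}

/-- the field map on fields and sources -/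
def pS (b : BgIso w w' Z) (σ : Fin m' → Fin m) : VS (Fld G) m →ₗ[ℝ] VS (Fld G') m' :=
  LinearMap.prodMap b.push (LinearMap.funLeft ℝ (ℝ × ℝ) σ)

theorem pS_fst (b : BgIso w w' Z) (σ : Fin m' → Fin m) (x : VS (Fld G) m) :
    (pS b σ x).1 = b.push x.1 := rfl

theorem pS_inl (b : BgIso w w' Z) (σ : Fin m' → Fin m) (x : Fld G) :
    pS b σ (x, 0) = (b.push x, 0) := by
  refine Prod.ext rfl ?_
  show LinearMap.funLeft ℝ (ℝ × ℝ) σ 0 = 0
  exact map_zero _

/-- the field map on the selected sources -/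
theorem pS_th (b : BgIso w w' Z) {σ : Fin m' → Fin m} (hσ : Function.Injective σ) (j : Fin m') :
    pS b σ (th (σ j)) = th j := by
  refine Prod.ext (map_zero b.push) ?_
  funext i
  show (Pi.single (σ j) ((1 : ℝ), (0 : ℝ)) : Src m) (σ i) = (Pi.single j ((1 : ℝ), (0 : ℝ)) : Src m') i
  by_cases h : i = j
  · subst h; simp
  · rw [Pi.single_eq_of_ne h, Pi.single_eq_of_ne fun h' => h (hσ h')]

theorem pS_th' (b : BgIso w w' Z) {σ : Fin m' → Fin m} (hσ : Function.Injective σ) (j : Fin m') :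
    pS b σ (th' (σ j)) = th' j := by
  refine Prod.ext (map_zero b.push) ?_
  funext i
  show (Pi.single (σ j) ((0 : ℝ), (1 : ℝ)) : Src m) (σ i) = (Pi.single j ((0 : ℝ), (1 : ℝ)) : Src m') i
  by_cases h : i = j
  · subst h; simp
  · rw [Pi.single_eq_of_ne h, Pi.single_eq_of_ne fun h' => h (hσ h')]

theorem pS_tau (b : BgIso w w' Z) {σ : Fin m' → Fin m} (hσ : Function.Injective σ) (j : Fin m') :
    mpG (pS b σ) (tau (σ j)) = tau j := by
  rw [tau, mpG_bi, pS_th b hσ, pS_th' b hσ]; rfl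

theorem pS_inG (b : BgIso w w' Z) (σ : Fin m' → Fin m) (a : Ge (Fld G)) :
    mpG (pS b σ) (inG m a) = inG m' (mpG b.push a) := by
  unfold inG
  rw [mpG_mpG, mpG_mpG]
  have e2 : pS b σ ∘ₗ LinearMap.inl ℝ (Fld G) (Src m) =
      LinearMap.inl ℝ (Fld G') (Src m') ∘ₗ b.push := LinearMap.ext fun x => pS_inl b σ x
  rw [e2]

theorem noS_pS (b : BgIso w w' Z) (σ : Fin m' → Fin m) (a : Ge (VS (Fld G) m)) :
    noS (mpG (pS b σ) a) = mpG b.push (noS a) := by
  unfold noS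
  rw [mpG_mpG, mpG_mpG]
  congr 1

theorem vacS_pS (b : BgIso w w' Z) (σ : Fin m' → Fin m) (a : Ge (VS (Fld G) m)) :
    mpG (pS b σ) (vacS a) = vacS (mpG (pS b σ) a) := by
  rw [vacS_apply, vacS_apply]
  unfold vacH
  rw [mpG_mpG, mpG_mpG]
  have e2 : pS b σ ∘ₗ (LinearMap.inr ℝ (Fld G) (Src m) ∘ₗ LinearMap.snd ℝ (Fld G) (Src m)) =
      (LinearMap.inr ℝ (Fld G') (Src m') ∘ₗ LinearMap.snd ℝ (Fld G') (Src m')) ∘ₗ pS b σ := by
    refine LinearMap.ext fun x => ?_
    exact Prod.ext (map_zero b.push) rfl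
  rw [e2]

/-- coefficients of the selected sources -/
theorem cpair_pS (b : BgIso w w' Z) (σ : Fin m' → Fin m) (j : Fin m') (a : Ge (VS (Fld G) m)) :
    cpair j (mpG (pS b σ) a) = mpG (pS b σ) (cpair (σ j) a) := by
  apply ge_ext
  rw [coe_cpair, coe_mpG, coe_mpG, coe_cpair]
  have h1 : ∀ l : Module.Dual ℝ (VS (Fld G') m'), ∀ x : Gr (VS (Fld G) m),
      dd l (mp (pS b σ) x) = mp (pS b σ) (dd (l ∘ₗ pS b σ) x) := fun l x => (mp_dd _ _ _).symm
  rw [h1, h1]
  rfl

/-- the chart with sources -/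
def chartS (b : BgIso w w' Z) (σ : Fin m' → Fin m) :
    Chart (G × G) (VS (Fld G) m) (G' × G') (VS (Fld G') m') where
  ψ := b.τ
  φ := b.inv
  p := pS b σ

/-- the chart is valid for `K_n(U)` -/
def okKS (b : BgIso w w' Z) (σ : Fin m' → Fin m) (l k0 n : ℕ)
    (c : Chart (G × G) (VS (Fld G) m) (G' × G') (VS (Fld G') m')) (U : Finset (G × G)) : Prop :=
  c = chartS b σ ∧ U.Nonempty ∧ nbhd (rhoK l k0 n) U ⊆ Z

/-- the chart is valid for `H_n(U)` -/
def okHS (b : BgIso w w' Z) (σ : Fin m' → Fin m) (l k0 n : ℕ)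
    (c : Chart (G × G) (VS (Fld G) m) (G' × G') (VS (Fld G') m')) (U : Finset (G × G)) : Prop :=
  c = chartS b σ ∧ visH Z l k0 n U

/-- **the comparison hypotheses of KEq_337, with sources** -/
theorem cmpS {M K : ℕ} (D : FRD 16 M K) (b : BgIso w w' Z) (σ : Fin m' → Fin m)
    {mk : Finset (G × G)} {mk' : Finset (G' × G')}
    (hmk : ∀ f ∈ Z, (f ∈ mk ↔ b.τ f ∈ mk')) (h2 : (2 : G') ≠ 0) {l k0 : ℕ} (hl : 1 ≤ l)
    (hK : 2 ≤ K) {sf : Fin m → Finset (G × G)} {sf' : Fin m' → Finset (G' × G')}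
    {e2 : ℕ → Extr (G × G) (VS (Fld G) m)} {e2' : ℕ → Extr (G' × G') (VS (Fld G') m')}
    (he2 : ∀ (n : ℕ) (W : Finset (G × G)), W.Nonempty → nbhd (rhoK l k0 (n + 1)) W ⊆ Z →
      ExC (e2 n) (e2' n) b.τ (pS b σ) (fldUS sf) (visH Z l k0 n) W)
    {K0 : Finset (G × G) → Ge (VS (Fld G) m)} {K0' : Finset (G' × G') → Ge (VS (Fld G') m')}
    (hK0 : ∀ U : Finset (G × G), U.Nonempty → nbhd (rhoK l k0 0) U ⊆ Z →
      mpG (pS b σ) (K0 U) = K0' (U.image b.τ)) :
    Cmp (sysS D w mk l k0 sf e2 K0) (sysS D w' mk' l k0 sf' e2' K0') (okKS b σ l k0)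
      (okHS b σ l k0) := by
  have C := cmp D b hmk h2 (k0 := k0) hl hK (K0 := fun _ => 0) (K0' := fun _ => 0)
    (fun _ _ _ => map_zero _)
  have E : ∀ (n : ℕ) (W : Finset (G × G)), W.Nonempty → nbhd (rhoK l k0 (n + 1)) W ⊆ Z →
      ExC (GSysx387.union (liftE m (bulk w mk l k0 n)) (e2 n))
        (GSysx387.union (liftE m' (bulk w' mk' l k0 n)) (e2' n)) b.τ (pS b σ) (fldUS sf)
        (visH Z l k0 n) W := by
    intro n W hWne hW
    refine ExC.union ?_ (he2 n W hWne hW) (visH_inj b l k0 n)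
    exact (bulkC D b hmk h2 hl hK hWne hW).lift (pS b σ) (fldUS sf) (pS_fst b σ) (pS_inl b σ)
      fun U x hx => hx.1
  exact
    { K0 := by
        rintro _ U ⟨rfl, hne, hU⟩
        exact hK0 U hne hU
      toK := by
        rintro n _ U ⟨rfl, hne, hU⟩
        exact ⟨rfl, hne, (nbhd_mono (rhoK_le_rhoH l k0 n)).trans hU⟩
      S := by
        rintro n _ U ⟨rfl, hne, hU⟩ x hx y hy
        exact slC_push D b hl hK hU hx.1 hy.1
      down := by
        rintro n _ W ⟨rfl, hne, hW⟩ U hU hUne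
        exact ⟨rfl, (C.down n (chartOf b) W ⟨rfl, hne, hW⟩ U hU hUne).2⟩
      iso := by
        rintro n _ W ⟨rfl, hne, hW⟩
        exact C.iso n (chartOf b) W ⟨rfl, hne, hW⟩
      inn := by
        rintro n _ W ⟨rfl, hne, hW⟩ T hT hTne U hU
        exact ⟨rfl, (E n W hne hW).inn T hT hTne U hU⟩
      inn_eq := by
        rintro n _ W ⟨rfl, hne, hW⟩ T hT hTne
        exact (E n W hne hW).inn_eq T hT hTne
      inn_inj := by
        rintro n _ W ⟨rfl, hne, hW⟩ T hT hTne U hU U' hU' he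
        exact visH_inj b l k0 n U U' ((E n W hne hW).inn T hT hTne U hU)
          ((E n W hne hW).inn T hT hTne U' hU') he
      out_eq := by
        rintro n _ W ⟨rfl, hne, hW⟩ U hU hUne
        exact (E n W hne hW).out_eq U hU hUne
      X := by
        rintro n _ W ⟨rfl, hne, hW⟩ T hT hTne U hU a ha
        exact (E n W hne hW).X T hT hTne U hU a ha
      vac := by
        rintro n _ U ⟨rfl, hne, hU⟩ a ha
        exact vacS_pS b σ a }

section concl

variable {M K : ℕ} (D : FRD 16 M K) (b : BgIso w w' Z) (σ : Fin m' → Fin m)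
    {mk : Finset (G × G)} {mk' : Finset (G' × G')}
    (hmk : ∀ f ∈ Z, (f ∈ mk ↔ b.τ f ∈ mk')) (h2 : (2 : G') ≠ 0) {l k0 : ℕ} (hl : 1 ≤ l)
    (hK : 2 ≤ K) {sf : Fin m → Finset (G × G)} {sf' : Fin m' → Finset (G' × G')}
    {e2 : ℕ → Extr (G × G) (VS (Fld G) m)} {e2' : ℕ → Extr (G' × G') (VS (Fld G') m')}
    (he2 : ∀ (n : ℕ) (W : Finset (G × G)), W.Nonempty → nbhd (rhoK l k0 (n + 1)) W ⊆ Z →
      ExC (e2 n) (e2' n) b.τ (pS b σ) (fldUS sf) (visH Z l k0 n) W)
    {K0 : Finset (G × G) → Ge (VS (Fld G) m)} {K0' : Finset (G' × G') → Ge (VS (Fld G') m')}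
    (hK0 : ∀ U : Finset (G × G), U.Nonempty → nbhd (s2 * rr l k0 0) U ⊆ Z →
      mpG (pS b σ) (K0 U) = K0' (U.image b.τ))
    {src : Submodule ℝ (VS (Fld G) m)} (hD : (sysS D w mk l k0 sf e2 K0).OK src)

include hmk h2 hl hK he2 hK0 hD

/-- **equality of the activities with sources** -/
theorem KS_eq (n : ℕ) {U : Finset (G × G)} (hne : U.Nonempty)
    (hU : nbhd (s2 * rr l k0 n) U ⊆ Z) :
    mpG (pS b σ) ((sysS D w mk l k0 sf e2 K0).K n U) =
      (sysS D w' mk' l k0 sf' e2' K0').K n (U.image b.τ) :=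
  (cmpS D b σ hmk h2 hl hK he2 hK0).K_eq hD n (chartS b σ) U ⟨rfl, hne, hU⟩

/-- **equality of the convolved activities with sources** -/
theorem HS_eq (n : ℕ) {U : Finset (G × G)} (hne : U.Nonempty) (hU : nbhd (rhoH l k0 n) U ⊆ Z) :
    mpG (pS b σ) ((sysS D w mk l k0 sf e2 K0).H n U) =
      (sysS D w' mk' l k0 sf' e2' K0').H n (U.image b.τ) :=
  (cmpS D b σ hmk h2 hl hK he2 hK0).H_eq hD n (chartS b σ) U ⟨rfl, hne, hU⟩

/-- **equality of the vacuum parts with sources** -/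
theorem vacS_eq (n : ℕ) {U : Finset (G × G)} (hne : U.Nonempty) (hU : nbhd (rhoH l k0 n) U ⊆ Z) :
    mpG (pS b σ) (vacS ((sysS D w mk l k0 sf e2 K0).H n U)) =
      vacS ((sysS D w' mk' l k0 sf' e2' K0').H n (U.image b.τ)) :=
  (cmpS D b σ hmk h2 hl hK he2 hK0).vac_eq hD n (chartS b σ) U ⟨rfl, hne, hU⟩

end concl

end Crest.Agent.R165.CmpBgx432
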