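import Crest.Agent.R165.KStep_892

/-!
# Row 165: K-representation, part 3 : locality, covariance, factorisation (helper892)

* `Conn.image'` : images of connected sets
* `KK_map` : if `ψ` (inverse `φ` on `W`) preserves both nearness relations on `W` and the ring
  homomorphism `τ` maps the activities of subsets of `W` to those of the images, then
  `τ (KK W) = KK (ψ W)`.  (Translations, D4, gauge, torus / plane / domain comparison.)
* `KK_congr` : the same with `ψ = id`, `τ = id`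
* `ZZ_conv` : a factorising additive map acts on the activities of the polymer gas
-/

set_option autoImplicit false
set_option linter.unusedSectionVars false
set_option linter.unusedVariables false

open Finset

namespace Crest.Agent.R165.KMapx892

open KCompx892 KStepx892

section conn

variable {ι κ : Type*} [DecidableEq ι] [DecidableEq κ]

theorem conn_image {r : ι → ι → Prop} {r' : κ → κ → Prop} {T : Finset ι} (h : Conn r T)
    (j : ι → κ) (hj : ∀ a ∈ T, ∀ b ∈ T, r a b → r' (j a) (j b)) : Conn r' (T.image j) := by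
  classical
  refine ⟨h.1.image j, fun A hA hne hN => ?_⟩
  have hA0 : (T.filter fun t => j t ∈ A) = T := by
    refine h.2 _ (Finset.filter_subset _ _) ?_ ?_
    · obtain ⟨a, ha⟩ := hne
      obtain ⟨t, ht, rfl⟩ := Finset.mem_image.1 (hA ha)
      exact ⟨t, Finset.mem_filter.2 ⟨ht, ha⟩⟩
    · intro a ha b hb hr
      rw [Finset.mem_filter] at ha
      rw [Finset.mem_sdiff, Finset.mem_filter] at hb
      refine hN (j a) ha.2 (j b) (Finset.mem_sdiff.2 ⟨Finset.mem_image_of_mem j hb.1, fun h' =>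
        hb.2 ⟨hb.1, h'⟩⟩) (hj a ha.1 b hb.1 hr)
  refine Finset.Subset.antisymm hA fun b hb => ?_
  obtain ⟨t, ht, rfl⟩ := Finset.mem_image.1 hb
  rw [← hA0] at ht
  exact (Finset.mem_filter.1 ht).2

end conn

section map

variable {F F' : Type*} [DecidableEq F] [DecidableEq F'] {R R' : Type*} [CommRing R] [CommRing R']

/-- image of an item -/
def jm (ψ : F → F') : Finset F ⊕ Finset F → Finset F' ⊕ Finset F' :=
  Sum.map (Finset.image ψ) (Finset.image ψ)

lemma sp_jm (ψ : F → F') (t : Finset F ⊕ Finset F) : sp (jm ψ t) = (sp t).image ψ := by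
  rcases t with U | U <;> rfl

lemma spp_jm (ψ : F → F') (T : Finset (Finset F ⊕ Finset F)) :
    spp (T.image (jm ψ)) = (spp T).image ψ := by
  ext x
  rw [mem_spp, Finset.mem_image]
  constructor
  · rintro ⟨t, ht, hx⟩
    obtain ⟨s, hs, rfl⟩ := Finset.mem_image.1 ht
    rw [sp_jm] at hx
    obtain ⟨y, hy, rfl⟩ := Finset.mem_image.1 hx
    exact ⟨y, mem_spp.2 ⟨s, hs, hy⟩, rfl⟩
  · rintro ⟨y, hy, rfl⟩
    obtain ⟨s, hs, hys⟩ := mem_spp.1 hy
    exact ⟨jm ψ s, Finset.mem_image_of_mem _ hs, by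
      rw [sp_jm]; exact Finset.mem_image_of_mem _ hys⟩

lemma image_image_id {ψ : F → F'} {φ : F' → F} {U : Finset F} (h : ∀ a ∈ U, φ (ψ a) = a) :
    (U.image ψ).image φ = U := by
  rw [Finset.image_image]
  ext x
  rw [Finset.mem_image]
  constructor
  · rintro ⟨a, ha, rfl⟩
    rw [Function.comp_apply, h a ha]; exact ha
  · intro hx
    exact ⟨x, hx, h x hx⟩

lemma jm_jm {ψ : F → F'} {φ : F' → F} {t : Finset F ⊕ Finset F} (h : ∀ a ∈ sp t, φ (ψ a) = a) :
    jm φ (jm ψ t) = t := by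
  rcases t with U | U
  · show Sum.inl ((U.image ψ).image φ) = Sum.inl U
    rw [image_image_id (U := U) h]
  · show Sum.inr ((U.image ψ).image φ) = Sum.inr U
    rw [image_image_id (U := U) h]

lemma image_jm_jm {ψ : F → F'} {φ : F' → F} {T : Finset (Finset F ⊕ Finset F)}
    (h : ∀ a ∈ spp T, φ (ψ a) = a) : (T.image (jm ψ)).image (jm φ) = T := by
  rw [Finset.image_image]
  ext t
  rw [Finset.mem_image]
  constructor
  · rintro ⟨s, hs, rfl⟩
    rw [Function.comp_apply, jm_jm fun a ha => h a (mem_spp.2 ⟨s, hs, ha⟩)]; exact hs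
  · intro ht
    exact ⟨t, ht, jm_jm fun a ha => h a (mem_spp.2 ⟨t, ht, ha⟩)⟩

/-- partial isomorphism on `W` -/
structure PIso (near₁ near₁' : F → F → Prop) (near₂ near₂' : F' → F' → Prop) (W : Finset F)
    (ψ : F → F') (φ : F' → F) : Prop where
  left : ∀ a ∈ W, φ (ψ a) = a
  n : ∀ a ∈ W, ∀ b ∈ W, (near₁ a b ↔ near₂ (ψ a) (ψ b))
  n' : ∀ a ∈ W, ∀ b ∈ W, (near₁' a b ↔ near₂' (ψ a) (ψ b))

variable {near₁ near₁' : F → F → Prop} {near₂ near₂' : F' → F' → Prop} {W : Finset F}
  {ψ : F → F'} {φ : F' → F}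

lemma PIso.symm (h : PIso near₁ near₁' near₂ near₂' W ψ φ) :
    PIso near₂ near₂' near₁ near₁' (W.image ψ) φ ψ := by
  constructor
  · intro a ha
    obtain ⟨b, hb, rfl⟩ := Finset.mem_image.1 ha
    rw [h.left b hb]
  · intro a' ha' b' hb'
    obtain ⟨a, ha, rfl⟩ := Finset.mem_image.1 ha'
    obtain ⟨b, hb, rfl⟩ := Finset.mem_image.1 hb'
    rw [h.left b hb, h.left a ha]
    exact (h.n a ha b hb).symm
  · intro a' ha' b' hb'
    obtain ⟨a, ha, rfl⟩ := Finset.mem_image.1 ha'
    obtain ⟨b, hb, rfl⟩ := Finset.mem_image.1 hb'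
    rw [h.left b hb, h.left a ha]
    exact (h.n' a ha b hb).symm

lemma PIso.mono (h : PIso near₁ near₁' near₂ near₂' W ψ φ) {U : Finset F} (hU : U ⊆ W) :
    PIso near₁ near₁' near₂ near₂' U ψ φ :=
  ⟨fun a ha => h.left a (hU ha), fun a ha b hb => h.n a (hU ha) b (hU hb),
    fun a ha b hb => h.n' a (hU ha) b (hU hb)⟩

lemma PIso.touch_iff (h : PIso near₁ near₁' near₂ near₂' W ψ φ) {U V : Finset F} (hU : U ⊆ W)
    (hV : V ⊆ W) : touch near₁ U V ↔ touch near₂ (U.image ψ) (V.image ψ) := by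
  constructor
  · rintro ⟨u, hu, v, hv, huv⟩
    exact ⟨ψ u, Finset.mem_image_of_mem _ hu, ψ v, Finset.mem_image_of_mem _ hv,
      (h.n u (hU hu) v (hV hv)).1 huv⟩
  · rintro ⟨u', hu', v', hv', huv⟩
    obtain ⟨u, hu, rfl⟩ := Finset.mem_image.1 hu'
    obtain ⟨v, hv, rfl⟩ := Finset.mem_image.1 hv'
    exact ⟨u, hu, v, hv, (h.n u (hU hu) v (hV hv)).2 huv⟩

lemma PIso.touch_iff' (h : PIso near₁ near₁' near₂ near₂' W ψ φ) {U V : Finset F} (hU : U ⊆ W)
    (hV : V ⊆ W) : touch near₁' U V ↔ touch near₂' (U.image ψ) (V.image ψ) := by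
  constructor
  · rintro ⟨u, hu, v, hv, huv⟩
    exact ⟨ψ u, Finset.mem_image_of_mem _ hu, ψ v, Finset.mem_image_of_mem _ hv,
      (h.n' u (hU hu) v (hV hv)).1 huv⟩
  · rintro ⟨u', hu', v', hv', huv⟩
    obtain ⟨u, hu, rfl⟩ := Finset.mem_image.1 hu'
    obtain ⟨v, hv, rfl⟩ := Finset.mem_image.1 hv'
    exact ⟨u, hu, v, hv, (h.n' u (hU hu) v (hV hv)).2 huv⟩

lemma PIso.conn (h : PIso near₁ near₁' near₂ near₂' W ψ φ) {T : Finset (Finset F ⊕ Finset F)}
    (hT : T ⊆ itm W) (hc : Conn (itr near₁') T) : Conn (itr near₂') (T.image (jm ψ)) := by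
  refine conn_image hc _ fun a ha b hb hab => ?_
  unfold itr at hab ⊢
  rw [sp_jm, sp_jm]
  exact (h.touch_iff' (mem_itm.1 (hT ha)).1 (mem_itm.1 (hT hb)).1).1 hab

lemma PIso.image_itm (h : PIso near₁ near₁' near₂ near₂' W ψ φ)
    {T : Finset (Finset F ⊕ Finset F)} (hT : T ⊆ itm W) : T.image (jm ψ) ⊆ itm (W.image ψ) := by
  intro t ht
  obtain ⟨s, hs, rfl⟩ := Finset.mem_image.1 ht
  rw [mem_itm, sp_jm]
  have := mem_itm.1 (hT hs)
  exact ⟨Finset.image_subset_image this.1, this.2.image ψ⟩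

lemma PIso.good (h : PIso near₁ near₁' near₂ near₂' W ψ φ)
    {T : Finset (Finset F ⊕ Finset F)} (hT : T ⊆ itm W) (hg : Good near₁ T) :
    Good near₂ (T.image (jm ψ)) := by
  constructor
  · intro t ht
    obtain ⟨s, hs, rfl⟩ := Finset.mem_image.1 ht
    rw [sp_jm]
    exact (hg.ne s hs).image ψ
  · intro U hU V hV hne
    obtain ⟨s, hs, hsU⟩ := Finset.mem_image.1 hU
    obtain ⟨s', hs', hsV⟩ := Finset.mem_image.1 hV
    rcases s with U₀ | U₀
    · rcases s' with V₀ | V₀
      · have hU₀ : U₀.image ψ = U := Sum.inl.inj hsU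
        have hV₀ : V₀.image ψ = V := Sum.inl.inj hsV
        subst hU₀ hV₀
        have h1 : U₀ ⊆ W := (mem_itm.1 (hT hs)).1
        have h2 : V₀ ⊆ W := (mem_itm.1 (hT hs')).1
        rw [← h.touch_iff h1 h2]
        exact hg.sep U₀ hs V₀ hs' fun h' => hne (by rw [h'])
      · exact absurd hsV (by simp [jm])
    · exact absurd hsU (by simp [jm])

open Classical in
/-- **locality and covariance of the reclustered activity** -/
theorem KK_map (h : PIso near₁ near₁' near₂ near₂' W ψ φ) (τ : R →+* R')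
    {K₁ B₁ : Finset F → R} {K₂ B₂ : Finset F' → R'}
    (hK : ∀ U ⊆ W, U.Nonempty → τ (K₁ U) = K₂ (U.image ψ))
    (hB : ∀ U ⊆ W, U.Nonempty → τ (B₁ U) = B₂ (U.image ψ)) :
    τ (KK near₁ near₁' K₁ B₁ W) = KK near₂ near₂' K₂ B₂ (W.image ψ) := by
  unfold KK
  rw [map_sum]
  have hback : ∀ T : Finset (Finset F' ⊕ Finset F'), T ⊆ itm (W.image ψ) →
      (T.image (jm φ)).image (jm ψ) = T := by
    intro T hT
    refine image_jm_jm fun a ha => h.symm.left a ?_
    exact spp_subset hT ha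
  have hforth : ∀ T : Finset (Finset F ⊕ Finset F), T ⊆ itm W →
      (T.image (jm ψ)).image (jm φ) = T := by
    intro T hT
    exact image_jm_jm fun a ha => h.left a (spp_subset hT ha)
  have hWW : (W.image ψ).image φ = W := image_image_id h.left
  refine Finset.sum_bij' (fun T _ => T.image (jm ψ)) (fun T _ => T.image (jm φ)) ?_ ?_ ?_ ?_ ?_
  · intro T hT
    rw [Finset.mem_filter, Finset.mem_powerset] at hT ⊢
    refine ⟨h.image_itm hT.1, h.conn hT.1 hT.2.1, ?_⟩
    rw [spp_jm, hT.2.2]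
  · intro T hT
    rw [Finset.mem_filter, Finset.mem_powerset] at hT ⊢
    have h1 := h.symm.image_itm hT.1
    have h2 := h.symm.conn hT.1 hT.2.1
    rw [hWW] at h1
    refine ⟨h1, h2, ?_⟩
    rw [spp_jm, hT.2.2, hWW]
  · intro T hT
    exact hforth T (Finset.mem_powerset.1 (Finset.mem_filter.1 hT).1)
  · intro T hT
    exact hback T (Finset.mem_powerset.1 (Finset.mem_filter.1 hT).1)
  · intro T hT
    rw [Finset.mem_filter, Finset.mem_powerset] at hT
    have hTW := hT.1
    have hgood : Good near₁ T ↔ Good near₂ (T.image (jm ψ)) := by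
      constructor
      · exact h.good hTW
      · intro hg
        have := h.symm.good (h.image_itm hTW) hg
        rwa [hforth T hTW] at this
    unfold wt
    by_cases hg : Good near₁ T
    · rw [if_pos hg, if_pos (hgood.1 hg), map_prod, Finset.prod_image]
      · refine Finset.prod_congr rfl fun t ht => ?_
        have := mem_itm.1 (hTW ht)
        rcases t with U | U
        · exact hK U this.1 this.2
        · exact hB U this.1 this.2
      · intro a ha b hb hab
        have ha' : jm φ (jm ψ a) = a :=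
          jm_jm fun x hx => h.left x ((mem_itm.1 (hTW ha)).1 hx)
        have hb' : jm φ (jm ψ b) = b :=
          jm_jm fun x hx => h.left x ((mem_itm.1 (hTW hb)).1 hx)
        rw [← ha', hab, hb']
    · rw [if_neg hg, if_neg (fun h' => hg (hgood.2 h')), map_zero]

/-- locality -/
theorem KK_congr {near near' : F → F → Prop} {K₁ B₁ K₂ B₂ : Finset F → R}
    (hK : ∀ U ⊆ W, U.Nonempty → K₁ U = K₂ U) (hB : ∀ U ⊆ W, U.Nonempty → B₁ U = B₂ U) :
    KK near near' K₁ B₁ W = KK near near' K₂ B₂ W := by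
  have h : PIso near near' near near' W id id := ⟨fun _ _ => rfl, fun _ _ _ _ => Iff.rfl,
    fun _ _ _ _ => Iff.rfl⟩
  have := KK_map h (RingHom.id R) (K₁ := K₁) (B₁ := B₁) (K₂ := K₂) (B₂ := B₂)
    (fun U hU hne => by simpa using hK U hU hne) (fun U hU hne => by simpa using hB U hU hne)
  simpa using this

open Classical in
/-- the reclustered activity vanishes on the empty set -/
theorem KK_empty (near near' : F → F → Prop) (K B : Finset F → R) :
    KK near near' K B ∅ = 0 := by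
  unfold KK
  rw [Finset.sum_eq_zero]
  intro T hT
  rw [Finset.mem_filter, Finset.mem_powerset] at hT
  obtain ⟨t, ht⟩ := hT.2.1.1
  have := mem_itm.1 (hT.1 ht)
  exact absurd (Finset.subset_empty.1 this.1) this.2.ne_empty

theorem ZZ_congr {near : F → F → Prop} {Λ : Finset F} {K₁ K₂ : Finset F → R}
    (hK : ∀ U ⊆ Λ, U.Nonempty → K₁ U = K₂ U) : ZZ near Λ K₁ = ZZ near Λ K₂ := by
  classical
  unfold ZZ
  refine Finset.sum_congr rfl fun P hP => Finset.prod_congr rfl fun U hU => ?_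
  rw [Finset.mem_filter, Finset.mem_powerset] at hP
  exact hK U (Finset.mem_powerset.1 (hP.1 hU)) (hP.2.ne U hU)

/-- **a factorising additive map acts on the activities** -/
theorem ZZ_conv {near : F → F → Prop} {Λ : Finset F} (Φ : R →+ R') {K : Finset F → R}
    {K' : Finset F → R'}
    (hΦ : ∀ P : Finset (Finset F), (∀ U ∈ P, U ⊆ Λ) → Sep near P →
      Φ (∏ U ∈ P, K U) = ∏ U ∈ P, K' U) : Φ (ZZ near Λ K) = ZZ near Λ K' := by
  classical
  unfold ZZ
  rw [map_sum]
  refine Finset.sum_congr rfl fun P hP => hΦ P (fun U hU => ?_) (Finset.mem_filter.1 hP).2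
  exact Finset.mem_powerset.1 (Finset.mem_powerset.1 (Finset.mem_filter.1 hP).1 hU)

/-- factorisation over families from pairwise factorisation.  `G U` = elements localised in `U`. -/
theorem fac_of_pair {near : F → F → Prop} {Λ : Finset F} (Φ : R →+ R') {K : Finset F → R}
    (G : Finset F → Set R) (hG1 : (1 : R) ∈ G ∅) (h1 : Φ 1 = 1)
    (hGm : ∀ U W : Finset F, ∀ a ∈ G U, ∀ b ∈ G W, a * b ∈ G (U ∪ W))
    (hΦ : ∀ U W : Finset F, ¬ touch near U W → ∀ a ∈ G U, ∀ b ∈ G W, Φ (a * b) = Φ a * Φ b)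
    (hK : ∀ U ⊆ Λ, U.Nonempty → K U ∈ G U)
    (P : Finset (Finset F)) (hP : ∀ U ∈ P, U ⊆ Λ) (hS : Sep near P) :
    Φ (∏ U ∈ P, K U) = ∏ U ∈ P, Φ (K U) ∧ ∏ U ∈ P, K U ∈ G (P.biUnion id) := by
  classical
  induction P using Finset.induction_on with
  | empty =>
    rw [Finset.prod_empty, Finset.prod_empty, Finset.biUnion_empty]
    exact ⟨h1, hG1⟩
  | @insert U P hU ih =>
    have ih' := ih (fun V hV => hP V (Finset.mem_insert_of_mem hV))
      ⟨fun V hV => hS.ne V (Finset.mem_insert_of_mem hV),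
        fun V hV V' hV' => hS.sep V (Finset.mem_insert_of_mem hV) V' (Finset.mem_insert_of_mem hV')⟩
    have hKU : K U ∈ G U :=
      hK U (hP U (Finset.mem_insert_self _ _)) (hS.ne U (Finset.mem_insert_self _ _))
    rw [Finset.prod_insert hU, Finset.prod_insert hU, Finset.biUnion_insert]
    refine ⟨?_, hGm _ _ _ hKU _ ih'.2⟩
    rw [hΦ U (P.biUnion id) ?_ _ hKU _ ih'.2, ih'.1]
    rintro ⟨u, hu, w, hw, huw⟩
    obtain ⟨V, hV, hwV⟩ := Finset.mem_biUnion.1 hw
    refine hS.sep U (Finset.mem_insert_self _ _) V (Finset.mem_insert_of_mem hV) ?_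
      ⟨u, hu, w, hwV, huw⟩
    rintro rfl
    exact hU hV

/-- **one renormalisation step**: convolution, extraction of a constant, reclustering -/
theorem rg_step {near near' : F → F → Prop} (hn : ∀ a b, near a b → near' a b)
    (hs : ∀ a b, near' a b → near' b a) (hr : ∀ a, near' a a) {Λ : Finset F} (Φ : R →+ R')
    {K : Finset F → R} {K' : Finset F → R'}
    (hΦ : ∀ P : Finset (Finset F), (∀ U ∈ P, U ⊆ Λ) → Sep near P →
      Φ (∏ U ∈ P, K U) = ∏ U ∈ P, K' U)
    {B : Finset F → R'} {c d : R'} (hcd : c * d = 1) (hB : ∏ U ∈ nes Λ, (1 + B U) = d) :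
    Φ (ZZ near Λ K) = c * ZZ near' Λ (KK near near' K' B) := by
  rw [← step hn hs hr, hB, ← mul_assoc, hcd, one_mul]
  exact ZZ_conv Φ hΦ

end map

end Crest.Agent.R165.KMapx892
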