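import Crest.Agent.R165.ExpG_337
import Crest.Agent.R165.KMap_892

/-!
# Row 165 (S0250), block G: the flow in the K-representation (helper337)

THE definition of the activities `K_k`, for every background (note 1028, decisions D11, D12).

* `Extr F V` : extraction data; a linear part `X U T (H U)` of the activity of `U` is moved to the
  set `T ⊆ U` (examples: `T = {f}`, `X = (1/#U) Loc_f`; `T` = faces of a source bond)
* `AA vac e H U = (what arrives in U) - (what leaves U) - vac (H U)`, `BB = gexp AA - 1`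
* `Sys F V` : slices `S k`, touching relations `near k`, fields `fld U`, vacuum part `vac`,
  extraction `e k`, initial activities `K0`
* `Sys.K k`, `Sys.H k = conv_{S_k} K_k`, `Sys.A k`, `Sys.B k`, `Sys.E n`
* `Sys.OK` : the algebraic hypotheses; `K_mem` (locality), `K_supp` (support), `sum_A`,
  `total` : `conv_{S_0 + ... + S_{n-1}} ZZ_0[K_0] = gexp (E n) * ZZ_n[K_n]`
-/

set_option autoImplicit false

noncomputable section

namespace Crest.Agent.R165.KFlowx337

open Crest.Agent.R165.Gr0x606 Crest.Agent.R165.Gr1x606 Crest.Agent.R165.GeOpsx337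
  Crest.Agent.R165.ExpGx337 Crest.Agent.R165.KCompx892 Crest.Agent.R165.KStepx892
  Crest.Agent.R165.KMapx892 Crest.Agent.R165.GrLocx337

variable {F : Type*} [DecidableEq F] {V : Type*} [AddCommGroup V] [Module ℝ V]

/-! ### extraction data -/

/-- extraction data: `out U` = targets of `U`, `inn T` = sources of `T`, `X U T` = the linear map
which gives the part of the activity of `U` that is moved to `T` -/
structure Extr (F : Type*) [DecidableEq F] (V : Type*) [AddCommGroup V] [Module ℝ V] where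
  /-- targets of `U` -/
  out : Finset F → Finset (Finset F)
  /-- sources of `T` -/
  inn : Finset F → Finset (Finset F)
  mem_iff : ∀ U T, T ∈ out U ↔ U ∈ inn T
  sub : ∀ U, ∀ T ∈ out U, T ⊆ U
  ne : ∀ U, ∀ T ∈ out U, T.Nonempty
  /-- the part of `U` moved to `T` -/
  X : Finset F → Finset F → Ge V →ₗ[ℝ] Ge V

namespace Extr

variable (e : Extr F V)

/-- what leaves `U` -/
def lost (H : Finset F → Ge V) (U : Finset F) : Ge V := ∑ T ∈ e.out U, e.X U T (H U)

/-- what arrives in `T` -/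
def gain (H : Finset F → Ge V) (T : Finset F) : Ge V := ∑ U ∈ e.inn T, e.X U T (H U)

/-- no extraction -/
def none (F : Type*) [DecidableEq F] (V : Type*) [AddCommGroup V] [Module ℝ V] : Extr F V where
  out _ := ∅
  inn _ := ∅
  mem_iff _ _ := by simp
  sub _ _ h := absurd h (Finset.notMem_empty _)
  ne _ _ h := absurd h (Finset.notMem_empty _)
  X _ _ := 0

theorem sub_of_inn {U T : Finset F} (h : U ∈ e.inn T) : T ⊆ U := e.sub U T ((e.mem_iff U T).2 h)

theorem ne_of_inn {U T : Finset F} (h : U ∈ e.inn T) : T.Nonempty :=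
  e.ne U T ((e.mem_iff U T).2 h)

/-- conservation: what is lost is gained -/
theorem sum_gain {Λ : Finset F} {H : Finset F → Ge V} (hH : ∀ U, ¬ U ⊆ Λ → H U = 0) :
    ∑ T ∈ nes Λ, e.gain H T = ∑ U ∈ nes Λ, e.lost H U := by
  classical
  have h1 : ∀ T ∈ nes Λ, e.gain H T =
      ∑ U ∈ nes Λ, if T ∈ e.out U then e.X U T (H U) else 0 := by
    intro T _
    rw [gain, ← Finset.sum_filter]
    refine (Finset.sum_subset_zero_on_sdiff ?_ ?_ ?_).symm
    · intro U hU
      exact (e.mem_iff U T).1 (Finset.mem_filter.1 hU).2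
    · intro U hU
      rw [Finset.mem_sdiff, Finset.mem_filter] at hU
      obtain ⟨hU1, hU2⟩ := hU
      have hout : T ∈ e.out U := (e.mem_iff U T).2 hU1
      by_cases hUΛ : U ⊆ Λ
      · exact absurd ⟨mem_nes.2 ⟨hUΛ, (e.ne U T hout).mono (e.sub U T hout)⟩, hout⟩ hU2
      · rw [hH U hUΛ, map_zero]
    · intro U _; rfl
  have h2 : ∀ U ∈ nes Λ, e.lost H U =
      ∑ T ∈ nes Λ, if T ∈ e.out U then e.X U T (H U) else 0 := by
    intro U hU
    rw [lost, ← Finset.sum_filter]
    refine Finset.sum_congr ?_ fun _ _ => rfl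
    ext T
    rw [Finset.mem_filter]
    constructor
    · intro hT
      exact ⟨mem_nes.2 ⟨(e.sub U T hT).trans (mem_nes.1 hU).1, e.ne U T hT⟩, hT⟩
    · exact fun h => h.2
  rw [Finset.sum_congr rfl h1, Finset.sum_congr rfl h2, Finset.sum_comm]

end Extr

/-- the exponent `A(U)` -/
def AA (vac : Ge V →ₗ[ℝ] Ge V) (e : Extr F V) (H : Finset F → Ge V) (U : Finset F) : Ge V :=
  e.gain H U - e.lost H U - vac (H U)

/-- the activity `B(U) = exp A(U) - 1` -/
def BB (vac : Ge V →ₗ[ℝ] Ge V) (e : Extr F V) (H : Finset F → Ge V) (U : Finset F) : Ge V :=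
  gexp (AA vac e H U) - 1

theorem sum_AA (vac : Ge V →ₗ[ℝ] Ge V) (e : Extr F V) {Λ : Finset F} {H : Finset F → Ge V}
    (hH : ∀ U, ¬ U ⊆ Λ → H U = 0) :
    ∑ U ∈ nes Λ, AA vac e H U = - ∑ U ∈ nes Λ, vac (H U) := by
  simp only [AA, Finset.sum_sub_distrib]
  rw [e.sum_gain hH]
  ring

theorem prod_BB (vac : Ge V →ₗ[ℝ] Ge V) (e : Extr F V) {Λ : Finset F} {H : Finset F → Ge V}
    (hH : ∀ U, ¬ U ⊆ Λ → H U = 0) :
    ∏ U ∈ nes Λ, (1 + BB vac e H U) = gexp (-∑ U ∈ nes Λ, vac (H U)) := by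
  have : ∀ U ∈ nes Λ, (1 + BB vac e H U) = gexp (AA vac e H U) := fun U _ => by
    rw [BB]; ring
  rw [Finset.prod_congr rfl this, ← gexp_sum, sum_AA vac e hH]

theorem AA_eq_zero (vac : Ge V →ₗ[ℝ] Ge V) (e : Extr F V) {Λ : Finset F} {H : Finset F → Ge V}
    (hH : ∀ U, ¬ U ⊆ Λ → H U = 0) {U : Finset F} (hU : ¬ U ⊆ Λ) : AA vac e H U = 0 := by
  have h1 : e.gain H U = 0 := by
    rw [Extr.gain]
    refine Finset.sum_eq_zero fun U' hU' => ?_
    rw [hH U' fun h => hU ((e.sub_of_inn hU').trans h), map_zero]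
  have h2 : e.lost H U = 0 := by
    rw [Extr.lost]
    refine Finset.sum_eq_zero fun T _ => ?_
    rw [hH U hU, map_zero]
  rw [AA, h1, h2, hH U hU, map_zero]; ring

/-! ### the flow -/

/-- a system: slices, touching relations, fields, vacuum part, extraction, initial activities -/
structure Sys (F : Type*) [DecidableEq F] (V : Type*) [AddCommGroup V] [Module ℝ V] where
  /-- the slices of the covariance -/
  S : ℕ → Cov V
  /-- touching relation at scale `k` (hard core of `ZZ_k`) -/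
  near : ℕ → F → F → Prop
  /-- the fields which may occur in the activity of `U` -/
  fld : Finset F → Submodule ℝ V
  /-- the vacuum part (constant term; with sources: the part without fields) -/
  vac : Ge V →ₗ[ℝ] Ge V
  /-- extraction at step `k` -/
  e : ℕ → Extr F V
  /-- initial activities -/
  K0 : Finset F → Ge V

namespace Sys

variable (D : Sys F V)

/-- activities at scale `k` -/
def K : ℕ → Finset F → Ge V
  | 0 => D.K0
  | k + 1 => KK (D.near k) (D.near (k + 1)) (fun U => cvG (D.S k) (K k U))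
      (BB D.vac (D.e k) fun U => cvG (D.S k) (K k U))

/-- convolved activities `conv_{S_k} K_k` -/
def H (k : ℕ) (U : Finset F) : Ge V := cvG (D.S k) (D.K k U)

/-- extraction exponent -/
def A (k : ℕ) (U : Finset F) : Ge V := AA D.vac (D.e k) (D.H k) U

/-- extraction activity -/
def B (k : ℕ) (U : Finset F) : Ge V := BB D.vac (D.e k) (D.H k) U

theorem B_eq (k : ℕ) (U : Finset F) : D.B k U = gexp (D.A k U) - 1 := rfl

@[simp] theorem K_zero : D.K 0 = D.K0 := rfl

theorem K_succ (k : ℕ) : D.K (k + 1) = KK (D.near k) (D.near (k + 1)) (D.H k) (D.B k) := rfl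

open Classical in
/-- the terms with at least two items -/
def Q (k : ℕ) (W : Finset F) : Ge V :=
  ∑ T ∈ (itm W).powerset.filter
    (fun T => Conn (itr (D.near (k + 1))) T ∧ spp T = W ∧ 2 ≤ T.card), wt (D.near k) (D.H k) (D.B k) T

/-- linear part `H + A`, exponential remainder `B - A`, terms with at least two items -/
theorem K_succ_eq (k : ℕ) {W : Finset F} (hW : W.Nonempty) :
    D.K (k + 1) W = (D.H k W + D.A k W) + (D.B k W - D.A k W) + D.Q k W := by
  rw [K_succ, KK_eq _ _ hW, Q]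
  ring

/-- total vacuum exponent of a step in the volume `Λ` -/
def vacE (Λ : Finset F) (k : ℕ) : Ge V := ∑ U ∈ nes Λ, D.vac (D.H k U)

/-- total vacuum exponent of the steps below `n` -/
def E (Λ : Finset F) (n : ℕ) : Ge V := ∑ k ∈ Finset.range n, D.vacE Λ k

/-- the algebraic hypotheses -/
structure OK (src : Submodule ℝ V) : Prop where
  near_mono : ∀ k a b, D.near k a b → D.near (k + 1) a b
  near_symm : ∀ k a b, D.near k a b → D.near k b a
  near_refl : ∀ k a, D.near k a a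
  fld_mono : ∀ U W : Finset F, U ⊆ W → D.fld U ≤ D.fld W
  range : ∀ k, ∀ U W : Finset F, ¬ touch (D.near k) U W →
    ∀ x ∈ D.fld U, ∀ y ∈ D.fld W, (D.S k).b x y = 0
  K0_mem : ∀ U, D.K0 U ∈ grG (D.fld U)
  X_mem : ∀ k U, ∀ T ∈ (D.e k).out U, ∀ a ∈ grG (D.fld U), (D.e k).X U T a ∈ grG (D.fld T)
  vac_mem : ∀ U, ∀ a ∈ grG (D.fld U), D.vac a ∈ grG (D.fld U)
  /-- the vacuum part only contains source fields, on which the covariances vanish -/
  vac_src : ∀ a, D.vac a ∈ grG src
  src_S : ∀ k, ∀ x ∈ src, ∀ y, (D.S k).b x y = 0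

variable {D}

/-- reclustering preserves localisation -/
theorem KK_mem {R : Type*} [CommRing R] [Algebra ℝ R] (G : Finset F → Subalgebra ℝ R)
    (hG : ∀ U W : Finset F, U ⊆ W → G U ≤ G W) (near near' : F → F → Prop)
    {K B : Finset F → R} (W : Finset F) (hK : ∀ U ⊆ W, K U ∈ G U)
    (hB : ∀ U ⊆ W, B U ∈ G U) : KK near near' K B W ∈ G W := by
  classical
  unfold KK
  refine Subalgebra.sum_mem _ fun T hT => ?_
  rw [Finset.mem_filter, Finset.mem_powerset] at hT
  unfold wt
  split_ifs with hg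
  · refine Subalgebra.prod_mem _ fun t ht => ?_
    have h1 : sp t ⊆ W := (mem_itm.1 (hT.1 ht)).1
    rcases t with U | U
    · exact hG U W h1 (hK U h1)
    · exact hG U W h1 (hB U h1)
  · exact Subalgebra.zero_mem _

theorem AA_mem {src : Submodule ℝ V} (hD : D.OK src) (k : ℕ) {H : Finset F → Ge V}
    (hH : ∀ U, H U ∈ grG (D.fld U)) (U : Finset F) : AA D.vac (D.e k) H U ∈ grG (D.fld U) := by
  refine Subalgebra.sub_mem _ (Subalgebra.sub_mem _ ?_ ?_) (hD.vac_mem U _ (hH U))
  · refine Subalgebra.sum_mem _ fun U' hU' => ?_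
    exact hD.X_mem k U' U (((D.e k).mem_iff U' U).2 hU') _ (hH U')
  · refine Subalgebra.sum_mem _ fun T hT => ?_
    exact grG_mono (hD.fld_mono T U ((D.e k).sub U T hT)) (hD.X_mem k U T hT _ (hH U))

theorem BB_mem {src : Submodule ℝ V} (hD : D.OK src) (k : ℕ) {H : Finset F → Ge V}
    (hH : ∀ U, H U ∈ grG (D.fld U)) (U : Finset F) : BB D.vac (D.e k) H U ∈ grG (D.fld U) :=
  Subalgebra.sub_mem _ (gexp_mem (AA_mem hD k hH U)) (Subalgebra.one_mem _)

/-- **locality of the activities** -/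
theorem K_mem {src : Submodule ℝ V} (hD : D.OK src) (k : ℕ) (U : Finset F) :
    D.K k U ∈ grG (D.fld U) := by
  induction k generalizing U with
  | zero => exact hD.K0_mem U
  | succ k ih =>
    rw [K_succ]
    refine KK_mem (fun U => grG (D.fld U)) (fun U W h => grG_mono (hD.fld_mono U W h)) _ _ U
      (fun U _ => cvG_mem _ (ih U)) (fun U _ => BB_mem hD k (fun U => cvG_mem _ (ih U)) U)

theorem H_mem {src : Submodule ℝ V} (hD : D.OK src) (k : ℕ) (U : Finset F) :
    D.H k U ∈ grG (D.fld U) := cvG_mem _ (K_mem hD k U)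

theorem A_mem {src : Submodule ℝ V} (hD : D.OK src) (k : ℕ) (U : Finset F) :
    D.A k U ∈ grG (D.fld U) := AA_mem hD k (H_mem hD k) U

theorem B_mem {src : Submodule ℝ V} (hD : D.OK src) (k : ℕ) (U : Finset F) :
    D.B k U ∈ grG (D.fld U) := BB_mem hD k (H_mem hD k) U

/-- reclustering preserves supports -/
theorem KK_supp {R : Type*} [CommRing R] {Λ : Finset F} (near near' : F → F → Prop)
    {K B : Finset F → R} (hK : ∀ U, ¬ U ⊆ Λ → K U = 0) (hB : ∀ U, ¬ U ⊆ Λ → B U = 0)
    {W : Finset F} (hW : ¬ W ⊆ Λ) : KK near near' K B W = 0 := by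
  classical
  unfold KK
  refine Finset.sum_eq_zero fun T hT => ?_
  rw [Finset.mem_filter, Finset.mem_powerset] at hT
  obtain ⟨t, ht, hts⟩ : ∃ t ∈ T, ¬ sp t ⊆ Λ := by
    by_contra hcon
    push Not at hcon
    refine hW ?_
    rw [← hT.2.2]
    intro x hx
    obtain ⟨t, ht, hxt⟩ := mem_spp.1 hx
    exact hcon t ht hxt
  unfold wt
  split_ifs with hg
  · refine Finset.prod_eq_zero ht ?_
    rcases t with U | U
    · exact hK U hts
    · exact hB U hts
  · rfl

/-- **supports never grow** -/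
theorem K_supp {Λ : Finset F} (h0 : ∀ U, ¬ U ⊆ Λ → D.K0 U = 0) (k : ℕ) {U : Finset F}
    (hU : ¬ U ⊆ Λ) : D.K k U = 0 := by
  induction k generalizing U with
  | zero => exact h0 U hU
  | succ k ih =>
    rw [K_succ]
    have h1 : ∀ U, ¬ U ⊆ Λ → D.H k U = 0 := fun U hU => by rw [H, ih hU, map_zero]
    refine KK_supp _ _ h1 (fun U hU => ?_) hU
    rw [B, BB, AA_eq_zero D.vac (D.e k) h1 hU, gexp_zero, sub_self]

theorem H_supp {Λ : Finset F} (h0 : ∀ U, ¬ U ⊆ Λ → D.K0 U = 0) (k : ℕ) {U : Finset F}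
    (hU : ¬ U ⊆ Λ) : D.H k U = 0 := by rw [H, K_supp h0 k hU, map_zero]

/-- the activity of the empty set vanishes -/
theorem K_empty (k : ℕ) : D.K (k + 1) ∅ = 0 := KK_empty _ _ _ _

/-! ### the exact identity -/

/-- elements built on source fields are not changed by the convolution -/
theorem cvG_src {src : Submodule ℝ V} {S : Cov V} (hS : ∀ x ∈ src, ∀ y, S.b x y = 0) {a : Ge V}
    (ha : a ∈ grG src) : cvG S a = a := by
  have h := cvG_congr (S := S) (T := 0) (W := src)
    (fun x hx y _ => by rw [hS x hx y]; rfl) ha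
  rw [h, cvG_zero]

theorem cvG_src_mul {src : Submodule ℝ V} {S : Cov V} (hS : ∀ x ∈ src, ∀ y, S.b x y = 0)
    {a : Ge V} (ha : a ∈ grG src) (b : Ge V) : cvG S (a * b) = a * cvG S b := by
  have hb : b ∈ grG (⊤ : Submodule ℝ V) := by
    rw [mem_grG]
    refine Gr.induction (P := fun a => a ∈ gr (⊤ : Submodule ℝ V)) ?_ ?_ ?_ (b : Gr V)
    · intro r; exact Subalgebra.algebraMap_mem _ _
    · intro x a ih; exact mul_mem (fi_mem_gr trivial) ih
    · intro a b iha ihb; exact add_mem iha ihb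
  rw [cvG_mul S (fun x hx y _ => hS x hx y) ha hb, cvG_src hS ha]

/-- one step of the flow -/
theorem step_eq {src : Submodule ℝ V} (hD : D.OK src) {Λ : Finset F}
    (h0 : ∀ U, ¬ U ⊆ Λ → D.K0 U = 0) (k : ℕ) :
    cvG (D.S k) (ZZ (D.near k) Λ (D.K k)) =
      gexp (D.vacE Λ k) * ZZ (D.near (k + 1)) Λ (D.K (k + 1)) := by
  have key : ∀ P : Finset (Finset F), (∀ U ∈ P, U ⊆ Λ) → Sep (D.near k) P →
      (cvG (D.S k)).toAddMonoidHom (∏ U ∈ P, D.K k U) = ∏ U ∈ P, D.H k U := by
    intro P hP hS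
    refine (fac_of_pair (Λ := Λ) (cvG (D.S k)).toAddMonoidHom
      (fun U => {a | a ∈ grG (D.fld U)}) ?_ ?_ ?_ ?_ ?_ P hP hS).1
    · exact (one_mem _ : (1 : Ge V) ∈ grG (D.fld ∅))
    · exact cvG_one _
    · intro U W a ha b hb
      have ha' : a ∈ grG (D.fld (U ∪ W)) :=
        grG_mono (hD.fld_mono _ _ Finset.subset_union_left) ha
      have hb' : b ∈ grG (D.fld (U ∪ W)) :=
        grG_mono (hD.fld_mono _ _ Finset.subset_union_right) hb
      exact mul_mem ha' hb'
    · intro U W h a ha b hb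
      exact cvG_mul _ (hD.range k U W h) ha hb
    · intro U _ _
      exact K_mem hD k U
  have hH : ∀ U, ¬ U ⊆ Λ → D.H k U = 0 := fun U hU => H_supp h0 k hU
  exact rg_step (hD.near_mono k) (hD.near_symm (k + 1)) (hD.near_refl (k + 1))
    (cvG (D.S k)).toAddMonoidHom key (c := gexp (D.vacE Λ k))
    (d := gexp (-D.vacE Λ k)) (gexp_mul_neg _) (prod_BB D.vac (D.e k) hH)

theorem vacE_mem {src : Submodule ℝ V} (hD : D.OK src) (Λ : Finset F) (k : ℕ) :
    D.vacE Λ k ∈ grG src := Subalgebra.sum_mem _ fun _ _ => hD.vac_src _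

theorem E_mem {src : Submodule ℝ V} (hD : D.OK src) (Λ : Finset F) (n : ℕ) :
    D.E Λ n ∈ grG src := Subalgebra.sum_mem _ fun _ _ => vacE_mem hD Λ _

/-- **the exact identity of the flow** -/
theorem total {src : Submodule ℝ V} (hD : D.OK src) {Λ : Finset F}
    (h0 : ∀ U, ¬ U ⊆ Λ → D.K0 U = 0) (n : ℕ) :
    cvG (∑ k ∈ Finset.range n, D.S k) (ZZ (D.near 0) Λ D.K0) =
      gexp (D.E Λ n) * ZZ (D.near n) Λ (D.K n) := by
  induction n with
  | zero => simp [E]
  | succ n ih =>
    rw [Finset.sum_range_succ, add_comm, ← cvG_cvG, ih,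
      cvG_src_mul (hD.src_S n) (gexp_mem (E_mem hD Λ n)), step_eq hD h0, ← mul_assoc, ← gexp_add]
    congr 2
    rw [E, E, Finset.sum_range_succ]

/-- the same with the remaining covariance -/
theorem total' {src : Submodule ℝ V} (hD : D.OK src) {Λ : Finset F}
    (h0 : ∀ U, ¬ U ⊆ Λ → D.K0 U = 0) (n : ℕ) (S Sf : Cov V)
    (hS : S = Sf + ∑ k ∈ Finset.range n, D.S k) (hsrc : ∀ x ∈ src, ∀ y, Sf.b x y = 0) :
    cvG S (ZZ (D.near 0) Λ D.K0) = gexp (D.E Λ n) * cvG Sf (ZZ (D.near n) Λ (D.K n)) := by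
  rw [hS, ← cvG_cvG, total hD h0, cvG_src_mul hsrc (gexp_mem (E_mem hD Λ n))]

/-- real form without sources -/
theorem total_real {src : Submodule ℝ V} (hD : D.OK src) {Λ : Finset F}
    (h0 : ∀ U, ¬ U ⊆ Λ → D.K0 U = 0) (n : ℕ) (S Sf : Cov V)
    (hS : S = Sf + ∑ k ∈ Finset.range n, D.S k) (hsrc : ∀ x ∈ src, ∀ y, Sf.b x y = 0) :
    EEG S (ZZ (D.near 0) Λ D.K0) =
      Real.exp (ctG (D.E Λ n)) * EEG Sf (ZZ (D.near n) Λ (D.K n)) := by
  rw [← ctG_cvG, total' hD h0 n S Sf hS hsrc, map_mul, ctG_gexp, ctG_cvG]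

end Sys

end Crest.Agent.R165.KFlowx337
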