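import Crest.Agent.R165.Quad2_897
import Crest.Agent.R165.ExpN_337
import Crest.Agent.R165.KFlow_337

/-!
# Row 165, block G, leaf (Q), part 3 : the step `B = gexp A - 1` on the even ring (helper897)

* `gexp_rem`, `gexp_rem_lip` : quadratic remainder of the exponential in `pG`
* `flow_quad` : `NN' (K_{k+1} - H_k - A_k) ≤ C (N(H_k) + N(A_k))²` for a `KFlowx337.Sys`
* `flow_lip` : Lipschitz form for two systems
-/

set_option autoImplicit false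
set_option linter.unusedVariables false
set_option linter.unusedSectionVars false

open scoped ENNReal

namespace Crest.Agent.R165.Quad3x897

open Crest.Agent.R165.Gr0x606 Crest.Agent.R165.Gr1x606 Crest.Agent.R165.GeOpsx337
  Crest.Agent.R165.ExpGx337 Crest.Agent.R165.ExpNx337 Crest.Agent.R165.PNormx417
  Crest.Agent.R165.KCompx892 Crest.Agent.R165.KStepx892 Crest.Agent.R165.Quadx897
  Crest.Agent.R165.Quad2x897 Crest.Agent.R165.Packx915 Crest.Agent.R165.NSumx915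
  Crest.Agent.R165.KFlowx337

section exp

variable {V : Type*} [AddCommGroup V] [Module ℝ V] {w : V → ℝ≥0∞}

theorem half_eq : (1 / 2 : ℝ≥0∞) = ENNReal.ofReal (1 / 2) := by
  rw [ENNReal.ofReal_div_of_pos (by norm_num)]
  simp

theorem toReal_half {x : ℝ≥0∞} (h : x ≤ 1 / 2) : x ≠ ∞ ∧ x.toReal ≤ 1 / 2 := by
  refine ⟨ne_top_of_le_ne_top (by rw [half_eq]; exact ENNReal.ofReal_ne_top) h, ?_⟩
  exact ENNReal.toReal_le_of_le_ofReal (by norm_num) (by rw [← half_eq]; exact h)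

theorem exp_sub_le_sq {x : ℝ} (h0 : 0 ≤ x) (h1 : x ≤ 1) : Real.exp x - 1 - x ≤ x ^ 2 :=
  (le_abs_self _).trans (Real.abs_exp_sub_one_sub_id_le (by rwa [abs_of_nonneg h0]))

theorem exp_sub_one_le_two {x : ℝ} (h0 : 0 ≤ x) (h1 : x ≤ 1) : Real.exp x - 1 ≤ 2 * x := by
  have := exp_sub_le_sq h0 h1
  nlinarith

/-- `|e^a - 1 - a| ≤ |a|²` -/
theorem gexp_rem {a : Ge V} (h : pG w a ≤ 1 / 2) : pG w (gexp a - 1 - a) ≤ pG w a ^ 2 := by
  obtain ⟨hne, hx⟩ := toReal_half h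
  have h1 := pG_gexp_sub_sub_le (w := w) (a := a) (x := (pG w a).toReal) ENNReal.toReal_nonneg
    (ENNReal.ofReal_toReal hne).ge
  refine h1.trans ((ENNReal.ofReal_le_ofReal
    (exp_sub_le_sq ENNReal.toReal_nonneg (by linarith))).trans_eq ?_)
  rw [ENNReal.ofReal_pow ENNReal.toReal_nonneg, ENNReal.ofReal_toReal hne]

/-- `|(e^a - 1 - a) - (e^b - 1 - b)| ≤ 4 (|a| + |b|) |a - b|` -/
theorem gexp_rem_lip {a b : Ge V} (ha : pG w a ≤ 1 / 2) (hb : pG w b ≤ 1 / 2) :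
    pG w ((gexp a - 1 - a) - (gexp b - 1 - b)) ≤ 4 * (pG w a + pG w b) * pG w (a - b) := by
  obtain ⟨hane, hax⟩ := toReal_half ha
  obtain ⟨hbne, hbx⟩ := toReal_half hb
  have hd := pG_sub_le w a b
  have hdne : pG w (a - b) ≠ ∞ := ne_top_of_le_ne_top (ENNReal.add_ne_top.2 ⟨hane, hbne⟩) hd
  have hdr : (pG w (a - b)).toReal ≤ (pG w a).toReal + (pG w b).toReal := by
    rw [← ENNReal.toReal_add hane hbne]
    exact ENNReal.toReal_mono (ENNReal.add_ne_top.2 ⟨hane, hbne⟩) hd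
  have h1 := pG_rem_sub_rem_le (w := w) (a := a) (a' := b) (x := (pG w b).toReal)
    (d := (pG w (a - b)).toReal) ENNReal.toReal_nonneg ENNReal.toReal_nonneg
    (ENNReal.ofReal_toReal hbne).ge (ENNReal.ofReal_toReal hdne).ge
  have h0a : 0 ≤ (pG w a).toReal := ENNReal.toReal_nonneg
  have h0b : 0 ≤ (pG w b).toReal := ENNReal.toReal_nonneg
  have h0d : 0 ≤ (pG w (a - b)).toReal := ENNReal.toReal_nonneg
  refine h1.trans ((ENNReal.ofReal_le_ofReal (q := 4 * ((pG w a).toReal + (pG w b).toReal)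
    * (pG w (a - b)).toReal) ?_).trans_eq ?_)
  · have e1 := exp_sub_one_le_two h0b (by linarith)
    have e2 := exp_sub_one_le_two h0d (by linarith)
    have e3 := exp_sub_le_sq h0d (by linarith)
    have p1 : 0 ≤ Real.exp (pG w b).toReal - 1 := by linarith [Real.one_le_exp h0b]
    have p2 : 0 ≤ Real.exp (pG w (a - b)).toReal - 1 := by linarith [Real.one_le_exp h0d]
    have e4 : (Real.exp (pG w b).toReal - 1) * (Real.exp (pG w (a - b)).toReal - 1)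
        ≤ 2 * (pG w b).toReal * (2 * (pG w (a - b)).toReal) :=
      mul_le_mul e1 e2 p2 (by linarith)
    nlinarith [mul_nonneg h0a h0d, mul_nonneg h0b h0d]
  · rw [ENNReal.ofReal_mul (by positivity), ENNReal.ofReal_mul (by norm_num),
      ENNReal.ofReal_add h0a h0b, ENNReal.ofReal_toReal hane, ENNReal.ofReal_toReal hbne,
      ENNReal.ofReal_toReal hdne]
    simp

end exp

section step

variable {X : Type*} [DecidableEq X] {d : X → X → ℕ} {r r' R R' : ℕ} {Γ : ℝ≥0∞}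
  {V : Type*} [AddCommGroup V] [Module ℝ V] {w : Finset X → V → ℝ≥0∞}

theorem conn_gexp {A₀ : Finset X → Ge V} (hA : ∀ U, A₀ U ≠ 0 → Packx915.Conn d R U)
    (U : Finset X) (h : gexp (A₀ U) - 1 ≠ 0) : Packx915.Conn d R U := by
  refine hA U fun h0 => h ?_
  rw [h0, gexp_zero, sub_self]

/-- **quadratic bound**, `B = gexp A - 1`, weights `w U` antitone in `U` -/
theorem gstep_quad (hd : PD d) {n n' : ℕ} (hΓ : 3 ≤ Γ) (hR : 4 * R + 3 * r + 2 ≤ r')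
    (hcov : Cov d (r' + R') r' n) (hcov' : Cov d r' r n')
    (hw : ∀ U U' : Finset X, U ⊆ U' → ∀ l, w U' l ≤ w U l)
    {K A₀ : Finset X → Ge V} (hK : ∀ U, K U ≠ 0 → Packx915.Conn d R U)
    (hA : ∀ U, A₀ U ≠ 0 → Packx915.Conn d R U)
    {εK εA : ℝ≥0∞} (HK : NN d r Γ (fun U => pG (w U) (K U)) ≤ εK)
    (HA : NN d r Γ (fun U => pG (w U) (A₀ U)) ≤ εA) (hA1 : εA ≤ 1 / 2)
    (hs : n * (3 * n' * (εK + 2 * εA)) ≤ 1) (hεK : εK ≠ ∞) (near : X → X → Prop) :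
    NN d r' Γ (fun W => pG (w W)
        (KK near (fun a b => d a b ≤ R') K (fun U => gexp (A₀ U) - 1) W - K W - A₀ W))
      ≤ n * (3 * n' * (εK + 2 * εA)) ^ 2 + n' * εA ^ 2 :=
  step_quad hd hΓ hR hcov hcov' (normFam_of_anti w hw) hK (conn_gexp hA)
    (fun U _ h => gexp_rem h) HK HA hA1 hs hεK near

/-- **Lipschitz bound**, `B = gexp A - 1`, weights `w U` antitone in `U` -/
theorem gstep_lip (hd : PD d) {n n' : ℕ} (hΓ : 3 ≤ Γ) (hR : 4 * R + 3 * r + 2 ≤ r')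
    (hcov : Cov d (r' + R') r' n) (hcov' : Cov d r' r n')
    (hw : ∀ U U' : Finset X, U ⊆ U' → ∀ l, w U' l ≤ w U l)
    {K A₀ K₂ A₂ : Finset X → Ge V} (hK : ∀ U, K U ≠ 0 → Packx915.Conn d R U)
    (hA : ∀ U, A₀ U ≠ 0 → Packx915.Conn d R U) (hK₂ : ∀ U, K₂ U ≠ 0 → Packx915.Conn d R U)
    (hA₂ : ∀ U, A₂ U ≠ 0 → Packx915.Conn d R U)
    {εK εA εK₂ εA₂ ηK ηA : ℝ≥0∞} (HK : NN d r Γ (fun U => pG (w U) (K U)) ≤ εK)
    (HA : NN d r Γ (fun U => pG (w U) (A₀ U)) ≤ εA)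
    (HK₂ : NN d r Γ (fun U => pG (w U) (K₂ U)) ≤ εK₂)
    (HA₂ : NN d r Γ (fun U => pG (w U) (A₂ U)) ≤ εA₂)
    (HdK : NN d r Γ (fun U => pG (w U) (K U - K₂ U)) ≤ ηK)
    (HdA : NN d r Γ (fun U => pG (w U) (A₀ U - A₂ U)) ≤ ηA)
    (hA1 : εA ≤ 1 / 2) (hA2 : εA₂ ≤ 1 / 2)
    (hs : n * (2 * (3 * n' * ((εK + εK₂) + (2 * εA + 2 * εA₂)))) ≤ 1)
    (hεK : εK ≠ ∞) (hεK₂ : εK₂ ≠ ∞) (hηK : ηK ≠ ∞) (hηA : ηA ≠ ∞) (near : X → X → Prop) :
    NN d r' Γ (fun W => pG (w W)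
        ((KK near (fun a b => d a b ≤ R') K (fun U => gexp (A₀ U) - 1) W - K W - A₀ W)
        - (KK near (fun a b => d a b ≤ R') K₂ (fun U => gexp (A₂ U) - 1) W - K₂ W - A₂ W)))
      ≤ 4 * n * (3 * n') ^ 2 * ((εK + εK₂) + (2 * εA + 2 * εA₂)) * (ηK + 5 * ηA)
        + n' * (4 * (εA + εA₂) * ηA) :=
  step_lip hd hΓ hR hcov hcov' (normFam_of_anti w hw) hK (conn_gexp hA) hK₂ (conn_gexp hA₂)
    (fun U _ h => gexp_rem h) (fun U _ h => gexp_rem h) (fun U _ h h' => gexp_rem_lip h h')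
    HK HA HK₂ HA₂ HdK HdA hA1 hA2 hs hεK hεK₂ hηK hηA near

/-- **quadratic bound for the flow** -/
theorem flow_quad (D : Sys X V) (k : ℕ) (hnear : D.near (k + 1) = fun a b => d a b ≤ R')
    (hd : PD d) {n n' : ℕ} (hΓ : 3 ≤ Γ) (hR : 4 * R + 3 * r + 2 ≤ r')
    (hcov : Cov d (r' + R') r' n) (hcov' : Cov d r' r n')
    (hw : ∀ U U' : Finset X, U ⊆ U' → ∀ l, w U' l ≤ w U l)
    (hK : ∀ U, D.H k U ≠ 0 → Packx915.Conn d R U)
    (hA : ∀ U, D.A k U ≠ 0 → Packx915.Conn d R U)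
    {εK εA : ℝ≥0∞} (HK : NN d r Γ (fun U => pG (w U) (D.H k U)) ≤ εK)
    (HA : NN d r Γ (fun U => pG (w U) (D.A k U)) ≤ εA) (hA1 : εA ≤ 1 / 2)
    (hs : n * (3 * n' * (εK + 2 * εA)) ≤ 1) (hεK : εK ≠ ∞) :
    NN d r' Γ (fun W => pG (w W) (D.K (k + 1) W - D.H k W - D.A k W))
      ≤ n * (3 * n' * (εK + 2 * εA)) ^ 2 + n' * εA ^ 2 := by
  have h := gstep_quad (w := w) (R' := R') hd hΓ hR hcov hcov' hw hK hA HK HA hA1 hs hεK (D.near k)
  rw [← hnear] at h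
  exact h

end step

end Crest.Agent.R165.Quad3x897
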