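import Crest.Agent.R165.ANorm_915
import Crest.Agent.R165.Quad3_897

/-!
# Row 165, block G/P: quadratic part and the complete one-step bound, all backgrounds (helper915)

The inputs of the quadratic bound are measured at the new scale with the larger polymer weight
`3 Γ` (this is what the linear bounds `DStep` give also near branch points, where a large polymer
picks up a factor `(1 + 2 C₀)^b`).

* `QQ_NN3`, `step_quad3` : quadratic bounds from `NN d r' (3 Γ)`
* `step_all` : `c' ≤ κ c + C b + C (b + c)²` for a `KFlowx337.Sys` on `GDef_387`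
-/

set_option autoImplicit false
set_option linter.unusedSectionVars false

open scoped ENNReal
open Crest.Agent.R165.Gr0x606 Crest.Agent.R165.Gr1x606 Crest.Agent.R165.GeOpsx337
  Crest.Agent.R165.ExpGx337 Crest.Agent.R165.KFlowx337
open Crest.Agent.R165.Latx683 Crest.Agent.R165.PNormx417
open Crest.Agent.R165.GDefx387 Crest.Agent.R165.Packx915 Crest.Agent.R165.NSumx915
open Crest.Agent.R165.Bridgex915 Crest.Agent.R165.DefStepx915 Crest.Agent.R165.NKDefx915
open Crest.Agent.R165.KStepx892 Crest.Agent.R165.Quadx897 Crest.Agent.R165.Quad2x897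

namespace Crest.Agent.R165.DefRecx915

section gen

variable {X : Type*} [DecidableEq X] {d : X → X → ℕ} {r' R' : ℕ} {Γ : ℝ≥0∞}
variable {A : Type*} [CommRing A] {nm : Finset X → A → ℝ≥0∞}

theorem bs3 (x : Finset X → ℝ≥0∞) (p : X) :
    ∑' U, Set.indicator {U | near d r' p U} (fun U => Γ ^ pack d r' U * 3 ^ pack d r' U * x U) U =
      bs d r' (3 * Γ) x p := by
  unfold bs
  refine tsum_congr fun U => ?_
  by_cases h : near d r' p U
  · rw [Set.indicator_of_mem (by exact h), Set.indicator_of_mem (by exact h), mul_pow]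
    ring
  · rw [Set.indicator_of_notMem (by exact h), Set.indicator_of_notMem (by exact h)]

/-- quadratic bound, inputs measured at the output scale with the weight `3 Γ` -/
theorem QQ_NN3 (hd : PD d) {n : ℕ} (hΓ : 1 ≤ Γ) (hcov : Cov d (r' + R') r' n) (hN : NormFam nm)
    {K B : Finset X → A} {εK εB : ℝ≥0∞} (HK : NN d r' (3 * Γ) (fun U => nm U (K U)) ≤ εK)
    (HB : NN d r' (3 * Γ) (fun U => nm U (B U)) ≤ εB) (hs : n * (εK + εB) ≤ 1)
    (hεK : εK ≠ ∞) (hεB : εB ≠ ∞) (near : X → X → Prop) :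
    NN d r' Γ (fun W => nm W (QQ near (fun a b => d a b ≤ R') K B W)) ≤ n * (εK + εB) ^ 2 := by
  refine iSup_le fun p => ?_
  have h := KK_quad (near := near) (near' := fun a b => d a b ≤ R')
    (fun a b hab => by rw [hd.symm]; exact hab) hN
    (sumData (r' := r') (R' := R') hd hΓ hcov) (εK := εK) (εB := εB) hεK hεB
    (fun p => by rw [bs3]; exact (bs_le_NN _ p).trans HK)
    (fun p => by rw [bs3]; exact (bs_le_NN _ p).trans HB) hs p
  refine h.trans (le_of_eq ?_)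
  ring

theorem three_half : (1 / 2 : ℝ≥0∞) ≤ 1 := by
  rw [one_div]; exact ENNReal.inv_le_one.2 (by norm_num)

/-- quadratic bound of one step, `B = exp A - 1` -/
theorem step_quad3 (hd : PD d) {n : ℕ} (hΓ : 1 ≤ Γ) (hcov : Cov d (r' + R') r' n)
    (hN : NormFam nm) {K A₀ B : Finset X → A}
    (hBA : ∀ U, U.Nonempty → nm U (A₀ U) ≤ 1 / 2 → nm U (B U - A₀ U) ≤ nm U (A₀ U) ^ 2)
    {εK εA : ℝ≥0∞} (HK : NN d r' (3 * Γ) (fun U => nm U (K U)) ≤ εK)
    (HA : NN d r' (3 * Γ) (fun U => nm U (A₀ U)) ≤ εA) (hA1 : εA ≤ 1 / 2)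
    (hs : n * (εK + 2 * εA) ≤ 1) (hεK : εK ≠ ∞) (near : X → X → Prop) :
    NN d r' Γ (fun W => nm W (KK near (fun a b => d a b ≤ R') K B W - K W - A₀ W))
      ≤ n * (εK + 2 * εA) ^ 2 + εA ^ 2 := by
  have h3 : 1 ≤ 3 * Γ := by
    calc (1 : ℝ≥0∞) = 1 * 1 := (mul_one 1).symm
      _ ≤ 3 * Γ := mul_le_mul' (by norm_num) hΓ
  have hΓ3 : Γ ≤ 3 * Γ := le_mul_of_one_le_left' (by norm_num)
  have hεA : εA ≠ ∞ := ne_top_of_le_ne_top (by norm_num) hA1
  have HB := NN_B hd h3 hN HA hA1 hBA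
  have h1 : NN d r' Γ (fun W => nm W (KK near (fun a b => d a b ≤ R') K B W - K W - A₀ W))
      ≤ NN d r' Γ (fun W => nm W (QQ near (fun a b => d a b ≤ R') K B W)
        + nm W (B W - A₀ W)) := by
    refine NN_mono_ne fun W hW => ?_
    rw [KK_eq_QQ hW]
    refine le_trans (le_of_eq ?_) (hN.add _ _ _)
    congr 1
    ring
  refine h1.trans ((NN_add_le _ _).trans (add_le_add ?_ ?_))
  · exact QQ_NN3 hd hΓ hcov hN HK HB hs hεK (ENNReal.mul_ne_top (by norm_num) hεA) near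
  · have hΓle : NN d r' Γ (fun W => nm W (A₀ W)) ≤ εA := by
      refine le_trans ?_ HA
      refine iSup_mono fun f => ENNReal.tsum_le_tsum fun U => ?_
      exact Set.indicator_le_indicator (mul_le_mul' (pow_le_pow_left' hΓ3 _) le_rfl)
    have h2 : NN d r' Γ (fun W => nm W (B W - A₀ W))
        ≤ NN d r' Γ (fun W => nm W (A₀ W) * nm W (A₀ W)) := NN_mono_ne fun W hW => by
      rw [← sq]
      exact hBA W hW ((nm_le_NN hd hΓ hΓle hW).trans hA1)
    refine h2.trans ((NN_sq hd hΓ _).trans ?_)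
    rw [sq]
    exact mul_le_mul' hΓle hΓle

end gen

/-! ### the complete one-step bound -/

variable {G : Type} [CommRing G] [CN G] [DecidableEq G]
variable {w : BW G} {a a' : ℝ} {r r' R' : ℕ} {Γ : ℝ≥0∞} {em em' : Finset (G × G) → Prop}
variable {κ : Type*} [Fintype κ] {A : κ → Set (G × G)} {m N : κ → ℕ} {q : κ → ℝ≥0∞}
  {qL qT CX : ℝ≥0∞} {ac : Finset (G × G) → Prop}

/-- contraction factor of the defect norm -/
noncomputable def kapD (r r' : ℕ) (m N : κ → ℕ) (q : κ → ℝ≥0∞) (qL : ℝ≥0∞) : ℝ≥0∞ :=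
  qL * (nn2 r r' : ℝ≥0∞) + ∑ i, q i * ((N i * (2 * ((m i + r) / r) + 3) ^ 2 : ℕ) : ℝ≥0∞)

/-- bound of the first order quantities -/
noncomputable def cF (r r' : ℕ) (qL qT CX : ℝ≥0∞) : ℝ≥0∞ := (qL + 3 * qT + 2 * (3 * CX)) * nn2 r r'

/-- covering number of the output balls -/
def nn3 (r' R' : ℕ) : ℕ := (2 * ((r' + R') / r') + 3) ^ 2

/-- constant of the quadratic part -/
noncomputable def cQ (r r' R' : ℕ) (qL qT CX : ℝ≥0∞) : ℝ≥0∞ :=
  10 * nn3 r' R' * cF r r' qL qT CX ^ 2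

/-- **quadratic part of the step**, all polymers -/
theorem NK_quad [GoodG G] (D : Sys (G × G) (Fld G)) (k : ℕ)
    (H : DStep w a a' r r' Γ (3 * Γ) (D.S k) ac em A m N q qL qT) (hr : 0 < r) (hrr : r ≤ r')
    (hΓ : 1 ≤ Γ) (hnear : D.near (k + 1) = fun x y => fd x y ≤ R')
    (hac : ∀ U, D.K k U ≠ 0 → ac U) (hne : ∀ U, ac U → U.Nonempty)
    (hvac : VacCt D) (he : EmbExtr r em' (D.e k)) (hX : XBd w a a' r r' ac D k CX)
    {X : ℝ≥0∞} (hX0 : NK w a r Γ allP (fun U => ((D.K k U : Ge (Fld G)) : Gr (Fld G))) ≤ X)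
    (hs : nn3 r' R' * (3 * (cF r r' qL qT CX * X)) ≤ 1) (hXt : cF r r' qL qT CX * X ≠ ∞) :
    NK w a' r' Γ (fun U => U.Nonempty)
      (fun U => ((D.B k U - D.A k U + D.Q k U : Ge (Fld G)) : Gr (Fld G))) ≤
      cQ r r' R' qL qT CX * X ^ 2 := by
  set Y : ℝ≥0∞ := cF r r' qL qT CX * X with hY
  have hΓΓ : Γ ≤ 3 * Γ := le_mul_of_one_le_left' (by norm_num)
  have hH := NK_H_le (Γ' := 3 * Γ) (c := 3) D k H hr hrr hΓ le_rfl hac hne
  have hA := NK_A_le (Γ' := 3 * Γ) (c := 3) D k H hr hrr hΓ hΓΓ le_rfl hac hne hvac he hX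
  have hHY : NN fd r' (3 * Γ) (fun U => pG (wU w a' r' U) (D.H k U)) ≤ Y := by
    have e : NK w a' r' (3 * Γ) allP (fun U => ((D.H k U : Ge (Fld G)) : Gr (Fld G))) =
        NN fd r' (3 * Γ) (fun U => pG (wU w a' r' U) (D.H k U)) := by
      rw [NK_eq_NN]
      congr 1
      funext U
      rw [act_of (p := allP) trivial]
      rfl
    rw [← e]
    refine hH.trans ?_
    rw [hY, cF, mul_assoc]
    exact mul_le_mul' le_self_add (mul_le_mul' le_rfl hX0)
  have hAY : NN fd r' (3 * Γ) (fun U => pG (wU w a' r' U) (D.A k U)) ≤ Y := by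
    have e : NK w a' r' (3 * Γ) allP (fun U => ((D.A k U : Ge (Fld G)) : Gr (Fld G))) =
        NN fd r' (3 * Γ) (fun U => pG (wU w a' r' U) (D.A k U)) := by
      rw [NK_eq_NN]
      congr 1
      funext U
      rw [act_of (p := allP) trivial]
      rfl
    rw [← e]
    refine hA.trans ?_
    rw [hY, cF, mul_assoc]
    exact mul_le_mul' le_rfl (mul_le_mul' le_rfl hX0)
  have hn1 : (1 : ℝ≥0∞) ≤ nn3 r' R' := by
    have : 1 ≤ nn3 r' R' := Nat.one_le_pow _ _ (by omega)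
    exact_mod_cast this
  have h3Y : 3 * Y ≤ 1 := le_trans (le_mul_of_one_le_left' hn1) hs
  have hY2 : Y ≤ 1 / 2 := by
    have h2 : 2 * Y ≤ 1 := le_trans (mul_le_mul' (by norm_num) le_rfl) h3Y
    rw [ENNReal.le_div_iff_mul_le (by norm_num) (by norm_num), mul_comm]
    exact h2
  by_cases hr' : r' = 0
  · exact absurd hr' (by omega)
  have hq := step_quad3 (R' := R') (nm := fun U (x : Ge (Fld G)) => pG (wU w a' r' U) x) pd_fd hΓ
    (cov_fd (Nat.pos_of_ne_zero hr') (r' + R')) (normFam_pG w a' r') (K := D.H k) (A₀ := D.A k)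
    (B := D.B k) (fun U _ h => Quad3x897.gexp_rem h) hHY hAY hY2
    (by
      refine le_trans (le_of_eq ?_) hs
      simp only [nn3]
      ring) hXt (D.near k)
  have h1 : NK w a' r' Γ (fun U => U.Nonempty)
      (fun U => ((D.B k U - D.A k U + D.Q k U : Ge (Fld G)) : Gr (Fld G))) ≤
      NN fd r' Γ (fun W => pG (wU w a' r' W)
        (KK (D.near k) (fun a b => fd a b ≤ R') (D.H k) (D.B k) W - D.H k W - D.A k W)) := by
    rw [NK_eq_NN]
    refine NN_mono fun U => ?_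
    by_cases hU : U.Nonempty
    · rw [act_of (p := fun U => U.Nonempty) hU, ← pG_def]
      have hK := D.K_succ_eq k hU
      rw [D.K_succ, hnear] at hK
      rw [hK]
      refine le_of_eq ?_
      congr 1
      ring
    · rw [act_not (p := fun U => U.Nonempty) hU]
      exact zero_le
  refine h1.trans (hq.trans ?_)
  have h9 : ((2 * ((r' + R') / r') + 3) ^ 2 : ℕ) = nn3 r' R' := rfl
  rw [h9]
  calc (nn3 r' R' : ℝ≥0∞) * (Y + 2 * Y) ^ 2 + Y ^ 2
      = nn3 r' R' * (9 * Y ^ 2) + 1 * Y ^ 2 := by ring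
    _ ≤ nn3 r' R' * (9 * Y ^ 2) + nn3 r' R' * Y ^ 2 := by gcongr
    _ = 10 * nn3 r' R' * Y ^ 2 := by ring
    _ = _ := by rw [cQ, hY]; ring

/-- the norm of all polymers splits in the plane-like part and the defect part -/
theorem NK_all_le (em : Finset (G × G) → Prop) (K : Finset (G × G) → Gr (Fld G)) :
    NK w a r Γ allP K ≤
      NK w a r Γ (fun U => em U) K + NK w a r Γ (fun U => ¬ em U) K := by
  refine (NK_split w a r Γ allP em K).trans (add_le_add ?_ ?_)
  · exact NK_mono fun U h => ⟨h.2, le_rfl⟩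
  · exact NK_mono fun U h => ⟨h.2, le_rfl⟩

/-- **THE ONE-STEP THEOREM (P6-DEFECT), complete**: with `b` the norm of the plane-like polymers and
`c` the norm of the defect polymers,
`c' ≤ κ c + (qL + (qT + CX)) n b + cQ (b + c)²` -/
theorem step_all [GoodG G] (D : Sys (G × G) (Fld G)) (k : ℕ)
    (H : DStep w a a' r r' Γ (3 * Γ) (D.S k) ac em A m N q qL qT) (hr : 0 < r) (hrr : r ≤ r')
    (hdeep : Deep r em em') (hΓ : 1 ≤ Γ) (hnear : D.near (k + 1) = fun x y => fd x y ≤ R')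
    (hac : ∀ U, D.K k U ≠ 0 → ac U) (hne : ∀ U, ac U → U.Nonempty)
    (hvac : VacCt D) (he : EmbExtr r em' (D.e k)) (hX : XBd w a a' r r' ac D k CX)
    {b c : ℝ≥0∞}
    (hb : NK w a r Γ (fun U => em U) (fun U => ((D.K k U : Ge (Fld G)) : Gr (Fld G))) ≤ b)
    (hc : NK w a r Γ (fun U => ¬ em U) (fun U => ((D.K k U : Ge (Fld G)) : Gr (Fld G))) ≤ c)
    (hs : nn3 r' R' * (3 * (cF r r' qL qT CX * (b + c))) ≤ 1)
    (hXt : cF r r' qL qT CX * (b + c) ≠ ∞) :
    NK w a' r' Γ (fun U => ¬ em' U) (fun U => ((D.K (k + 1) U : Ge (Fld G)) : Gr (Fld G))) ≤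
      kapD r r' m N q qL * c + (qL + (qT + CX)) * nn2 r r' * b + cQ r r' R' qL qT CX * (b + c) ^ 2 := by
  have h1 := NK_quad D k H hr hrr hΓ hnear hac hne hvac he hX
    ((NK_all_le em _).trans (add_le_add hb hc)) hs hXt
  have h2 := NK_defect (CX := CX) D k H hr hrr hdeep hΓ (le_mul_of_one_le_left' (by norm_num))
    hac hne hvac he (fun U h _ _ _ => hX.lost h) h1
  refine h2.trans (add_le_add (add_le_add ?_ ?_) le_rfl)
  · exact mul_le_mul' le_rfl hc
  · exact mul_le_mul' le_rfl hb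

end Crest.Agent.R165.DefRecx915
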