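import Crest.Agent.R165.Comp_889
import Crest.Agent.R165.QuadB_915

/-!
# Row 165, block F, leaf P8: norm bounds at all scales, one background (helper889)

On `KFlowx337.Sys (G × G) (Fld G)`, `GDefx387` and the one-step theorem `DefRecx915.step_all`.

* `StepOK`   : the hypotheses of `step_all` that carry numbers, at one step
* `Str`      : the structural hypotheses along the flow
* `NP`       : norm of the activities with property `p` at scale `k`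
* `rec_step` : `c' ≤ κ c + C b + C (b + c)²` as long as `b + c ≤ eta`
* `ct_le`    : the constants `ctG (H_k U)`, measured at the scale `r (k+1)`
* `comp`     : all scales; crude steps allowed where `ε q^k` is small
* `comp_good`: all scales, no crude step
-/

set_option autoImplicit false
set_option linter.unusedSectionVars false

open scoped ENNReal

namespace Crest.Agent.R165.Compx889

open Crest.Agent.R165.Gr0x606 Crest.Agent.R165.Gr1x606 Crest.Agent.R165.GeOpsx337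
  Crest.Agent.R165.ExpGx337 Crest.Agent.R165.KFlowx337
open Crest.Agent.R165.Latx683 Crest.Agent.R165.PNormx417
open Crest.Agent.R165.GDefx387 Crest.Agent.R165.Packx915 Crest.Agent.R165.NSumx915
open Crest.Agent.R165.Bridgex915 Crest.Agent.R165.NKDefx915 Crest.Agent.R165.DefRecx915

section defs

variable {G : Type} [CommRing G] [CN G] [DecidableEq G]

/-- the hypotheses of `step_all` at step `k` that carry numbers: `κ₀` = contraction factor of the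
defect norm, `CF` = constant of the first order quantities -/
def StepOK (D : Sys (G × G) (Fld G)) (w : BW G) (Γ : ℝ≥0∞) (k : ℕ) (a a' : ℝ) (r r' : ℕ)
    (ac em : Finset (G × G) → Prop) (κ₀ CF : ℝ≥0∞) : Prop :=
  ∃ (κ : Type) (_ : Fintype κ) (A : κ → Set (G × G)) (m N : κ → ℕ) (q : κ → ℝ≥0∞)
    (qL qT CX : ℝ≥0∞), DStep w a a' r r' Γ (3 * Γ) (D.S k) ac em A m N q qL qT ∧
      XBd w a a' r r' ac D k CX ∧ kapD r r' m N q qL ≤ κ₀ ∧ cF r r' qL qT CX ≤ CF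

/-- the structural hypotheses of the flow up to step `K` -/
structure Str (D : Sys (G × G) (Fld G)) (r R : ℕ → ℕ) (Γ : ℝ≥0∞)
    (ac em : ℕ → Finset (G × G) → Prop) (K : ℕ) : Prop where
  r_pos : ∀ k, 0 < r k
  r_mono : ∀ k, r k ≤ r (k + 1)
  Γ1 : 1 ≤ Γ
  vac : VacCt D
  near : ∀ k, k < K → D.near (k + 1) = fun x y => fd x y ≤ R (k + 1)
  hac : ∀ k, k < K → ∀ U, D.K k U ≠ 0 → ac k U
  ne : ∀ k, k < K → ∀ U, ac k U → U.Nonempty
  deep : ∀ k, k < K → Deep (r k) (em k) (em (k + 1))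
  ext : ∀ k, k < K → EmbExtr (r k) (em (k + 1)) (D.e k)

/-- norm of the activities with property `p` at scale `k` -/
noncomputable def NP (D : Sys (G × G) (Fld G)) (w : BW G) (a : ℕ → ℝ) (r : ℕ → ℕ) (Γ : ℝ≥0∞)
    (p : Finset (G × G) → Prop) (k : ℕ) : ℝ≥0∞ :=
  NK w (a k) (r k) Γ p (fun U => ((D.K k U : Ge (Fld G)) : Gr (Fld G)))

/-- norm of the constants at scale `k`, measured at scale `r (k + 1)` -/
noncomputable def NC (D : Sys (G × G) (Fld G)) (r : ℕ → ℕ) (Γ : ℝ≥0∞) (k : ℕ) : ℝ≥0∞ :=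
  NN fd (r (k + 1)) Γ (fun U => ENNReal.ofReal |ctG (D.H k U)|)

theorem NP_all_le (D : Sys (G × G) (Fld G)) (w : BW G) (a : ℕ → ℝ) (r : ℕ → ℕ) (Γ : ℝ≥0∞)
    (em : ℕ → Finset (G × G) → Prop) (k : ℕ) :
    NP D w a r Γ allP k ≤ NP D w a r Γ (em k) k + NP D w a r Γ (fun U => ¬ em k U) k :=
  NK_all_le (em k) _

end defs

/-- the radius of validity of the recursion -/
noncomputable def eta (n3 CF : ℝ≥0∞) : ℝ≥0∞ := (3 * n3 * CF + 1)⁻¹

theorem eta_ne_zero {n3 CF : ℝ≥0∞} (h : n3 ≠ ∞) (h' : CF ≠ ∞) : eta n3 CF ≠ 0 :=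
  ENNReal.inv_ne_zero.2 (ENNReal.add_ne_top.2
    ⟨ENNReal.mul_ne_top (ENNReal.mul_ne_top (by norm_num) h) h', ENNReal.one_ne_top⟩)

theorem eta_le_one (n3 CF : ℝ≥0∞) : eta n3 CF ≤ 1 := ENNReal.inv_le_one.2 le_add_self

theorem eta_mul (n3 CF : ℝ≥0∞) : 3 * n3 * CF * eta n3 CF ≤ 1 :=
  (mul_le_mul_left (le_self_add : 3 * n3 * CF ≤ 3 * n3 * CF + 1) _).trans
    (ENNReal.mul_inv_le_one _)

/-- constant of the recursion -/
noncomputable def CR (n3 CF : ℝ≥0∞) : ℝ≥0∞ := CF + 10 * n3 * CF ^ 2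

theorem CR_ne_top {n3 CF : ℝ≥0∞} (h : n3 ≠ ∞) (h' : CF ≠ ∞) : CR n3 CF ≠ ∞ :=
  ENNReal.add_ne_top.2 ⟨h', ENNReal.mul_ne_top (ENNReal.mul_ne_top (by norm_num) h)
    (ENNReal.pow_ne_top h')⟩

section one

variable {G : Type} [CommRing G] [CN G] [DecidableEq G] [GoodG G]
variable {D : Sys (G × G) (Fld G)} {w : BW G} {a : ℕ → ℝ} {r R : ℕ → ℕ} {Γ : ℝ≥0∞}
  {ac em : ℕ → Finset (G × G) → Prop} {K : ℕ} {κ₀ CF n3 : ℝ≥0∞}

/-- one step of the defect norm -/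
theorem rec_step (S : Str D r R Γ ac em K) {k : ℕ} (hk : k < K)
    (h : StepOK D w Γ k (a k) (a (k + 1)) (r k) (r (k + 1)) (ac k) (em k) κ₀ CF)
    (hn3 : (nn3 (r (k + 1)) (R (k + 1)) : ℝ≥0∞) ≤ n3) (hCF : CF ≠ ∞) {b : ℝ≥0∞}
    (hb : NP D w a r Γ (em k) k ≤ b)
    (hs : b + NP D w a r Γ (fun U => ¬ em k U) k ≤ eta n3 CF) :
    NP D w a r Γ (fun U => ¬ em (k + 1) U) (k + 1) ≤
      κ₀ * NP D w a r Γ (fun U => ¬ em k U) k + CR n3 CF * b +
        CR n3 CF * (b + NP D w a r Γ (fun U => ¬ em k U) k) ^ 2 := by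
  obtain ⟨κ, _, A, m, N, q, qL, qT, CX, H, hX, hκ, hF⟩ := h
  set c := NP D w a r Γ (fun U => ¬ em k U) k with hc
  have h1 := step_all (R' := R (k + 1)) D k H (S.r_pos k) (S.r_mono k) (S.deep k hk) S.Γ1
    (S.near k hk) (S.hac k hk) (S.ne k hk) S.vac (S.ext k hk) hX (b := b) (c := c) hb le_rfl
    (by
      calc (nn3 (r (k + 1)) (R (k + 1)) : ℝ≥0∞) *
            (3 * (cF (r k) (r (k + 1)) qL qT CX * (b + c)))
          ≤ n3 * (3 * (CF * eta n3 CF)) := by gcongr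
        _ = 3 * n3 * CF * eta n3 CF := by ring
        _ ≤ 1 := eta_mul _ _)
    (ENNReal.mul_ne_top (ne_top_of_le_ne_top hCF hF)
      (ne_top_of_le_ne_top ENNReal.one_ne_top (hs.trans (eta_le_one _ _))))
  refine h1.trans ?_
  have h2 : (qL + (qT + CX)) * (nn2 (r k) (r (k + 1)) : ℝ≥0∞) ≤ CR n3 CF := by
    refine le_trans ?_ (hF.trans le_self_add)
    rw [cF]
    refine mul_le_mul_left ?_ _
    calc qL + (qT + CX) ≤ qL + (3 * qT + 2 * (3 * CX)) := by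
          refine add_le_add le_rfl (add_le_add ?_ ?_)
          · exact le_mul_of_one_le_left' (by norm_num)
          · rw [← mul_assoc]
            exact le_mul_of_one_le_left' (by norm_num)
      _ = qL + 3 * qT + 2 * (3 * CX) := by ring
  have h3 : cQ (r k) (r (k + 1)) (R (k + 1)) qL qT CX ≤ CR n3 CF := by
    refine le_trans ?_ (le_add_self : 10 * n3 * CF ^ 2 ≤ CR n3 CF)
    rw [cQ]
    gcongr
  exact add_le_add (add_le_add (mul_le_mul_left hκ _) (mul_le_mul_left h2 _))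
    (mul_le_mul_left h3 _)

/-- the constants of one step -/
theorem ct_le (S : Str D r R Γ ac em K) {k : ℕ} (hk : k < K)
    (h : StepOK D w Γ k (a k) (a (k + 1)) (r k) (r (k + 1)) (ac k) (em k) κ₀ CF) :
    NC D r Γ k ≤ CF * NP D w a r Γ allP k := by
  obtain ⟨κ, _, A, m, N, q, qL, qT, CX, H, hX, hκ, hF⟩ := h
  have h1 := NK_H_le (Γ' := 3 * Γ) (c := 3) D k H (S.r_pos k) (S.r_mono k) S.Γ1 le_rfl
    (S.hac k hk) (S.ne k hk)
  have h2 : NC D r Γ k ≤ NK w (a (k + 1)) (r (k + 1)) (3 * Γ) allP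
      (fun U => ((D.H k U : Ge (Fld G)) : Gr (Fld G))) := by
    rw [NC, NK_eq_NN]
    refine iSup_mono fun f => ENNReal.tsum_le_tsum fun U => ?_
    refine Set.indicator_le_indicator (mul_le_mul' ?_ ?_)
    · exact pow_le_pow_left' (le_mul_of_one_le_left' (by norm_num)) _
    · rw [act_of (p := allP) trivial, ← pG_def]
      refine le_trans ?_ ((le_self_add).trans
        (Crest.Agent.R165.ExpNx337.pG_split (wU w (a (k + 1)) (r (k + 1)) U) (D.H k U)))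
      show ENNReal.ofReal |ctG (D.H k U)| ≤ _
      rw [← Real.norm_eq_abs, ofReal_norm]
  refine h2.trans (h1.trans ?_)
  calc (qL + 3 * qT) * ((nn2 (r k) (r (k + 1)) : ℝ≥0∞) *
        NK w (a k) (r k) Γ allP (fun U => ((D.K k U : Ge (Fld G)) : Gr (Fld G))))
      = ((qL + 3 * qT) * (nn2 (r k) (r (k + 1)) : ℝ≥0∞)) * NP D w a r Γ allP k := by
        rw [NP]; ring
    _ ≤ CF * NP D w a r Γ allP k := by
        refine mul_le_mul_left (le_trans ?_ hF) _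
        rw [cF]
        exact mul_le_mul_left le_self_add _

end one

/-! ### all scales -/

/-- **(P8), one background.**  `M₀ ε₀` depend only on `CF n3 m`.  The steps with `¬ good k` are
crude (constant `CF'`), they have to happen where `ε q^k ≤ eJ`. -/
theorem comp (CF n3 m : ℝ≥0∞) (hCF : CF ≠ ∞) (hn3 : n3 ≠ ∞) (hm : m ≠ ∞) :
    ∃ M₀ ε₀ : ℝ≥0∞, M₀ ≠ ∞ ∧ ε₀ ≠ 0 ∧ ∀ (CF' : ℝ≥0∞) (J : ℕ), CF' ≠ ∞ →
      ∃ MJ eJ : ℝ≥0∞, MJ ≠ ∞ ∧ eJ ≠ 0 ∧
      ∀ (G : Type) [CommRing G] [CN G] [DecidableEq G] [GoodG G] (D : Sys (G × G) (Fld G))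
        (w : BW G) (a : ℕ → ℝ) (r R : ℕ → ℕ) (Γ : ℝ≥0∞) (ac em : ℕ → Finset (G × G) → Prop)
        (K : ℕ) (good : ℕ → Prop) (ε q : ℝ≥0∞), 1 / 2 ≤ q → q ≤ 1 → ε ≤ ε₀ →
        Str D r R Γ ac em K →
        (∀ k, k < K → (nn3 (r (k + 1)) (R (k + 1)) : ℝ≥0∞) ≤ n3) →
        (∀ k, k < K → good k → StepOK D w Γ k (a k) (a (k + 1)) (r k) (r (k + 1)) (ac k) (em k)
          (1 / 4) CF) →
        cr good K ≤ J → (∀ k, k < K → ¬ good k → ε * q ^ k ≤ eJ) →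
        (∀ k, k < K → ¬ good k → StepOK D w Γ k (a k) (a (k + 1)) (r k) (r (k + 1)) (ac k)
          (em k) CF' CF') →
        (∀ k, k ≤ K → NP D w a r Γ (em k) k ≤ ε * q ^ k) →
        NP D w a r Γ (fun U => ¬ em 0 U) 0 ≤ m * ε →
        (∀ k, k ≤ K → NP D w a r Γ allP k ≤ MJ * (ε * q ^ k)) ∧
        (∀ k, k < K → NC D r Γ k ≤ MJ * (ε * q ^ k)) ∧
        (∀ k, k ≤ K → (∀ i, i < k → good i) → NP D w a r Γ allP k ≤ M₀ * (ε * q ^ k)) ∧
        (∀ k, k < K → (∀ i, i ≤ k → good i) → NC D r Γ k ≤ M₀ * (ε * q ^ k)) := by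
  obtain ⟨M₀, ε₀, hM₀, hε₀, h0⟩ := exists_sched (CR n3 CF) m (eta n3 CF) (CR_ne_top hn3 hCF) hm
    (eta_ne_zero hn3 hCF)
  have hM1 : 1 + M₀ ≠ ∞ := ENNReal.add_ne_top.2 ⟨ENNReal.one_ne_top, hM₀⟩
  refine ⟨(1 + CF) * (1 + M₀), ε₀, ENNReal.mul_ne_top
    (ENNReal.add_ne_top.2 ⟨ENNReal.one_ne_top, hCF⟩) hM1, hε₀, fun CF' J hCF' => ?_⟩
  obtain ⟨MJ, eJ, hMJ, heJ, h1⟩ := h0 (CF' + CR n3 CF' + CR n3 CF') (eta n3 CF') J
    (ENNReal.add_ne_top.2 ⟨ENNReal.add_ne_top.2 ⟨hCF', CR_ne_top hn3 hCF'⟩, CR_ne_top hn3 hCF'⟩)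
    (eta_ne_zero hn3 hCF')
  have hMJ1 : 1 + MJ ≠ ∞ := ENNReal.add_ne_top.2 ⟨ENNReal.one_ne_top, hMJ⟩
  refine ⟨(1 + CF + CF') * (1 + MJ), eJ, ENNReal.mul_ne_top (ENNReal.add_ne_top.2
    ⟨ENNReal.add_ne_top.2 ⟨ENNReal.one_ne_top, hCF⟩, hCF'⟩) hMJ1, heJ, ?_⟩
  intro G _ _ _ _ D w a r R Γ ac em K good ε q hq hq1 hε S hnn3 hgood hJ hbad hcrude hb hc0
  have key := h1 (1 / 4) q ε le_rfl hq hq1 hε good (fun k => ε * q ^ k)
    (fun k => NP D w a r Γ (fun U => ¬ em k U) k) K hJ hbad (fun k _ => le_rfl) hc0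
    (fun k hk hg hs => rec_step S hk (hgood k hk hg) (hnn3 k hk) hCF (hb k hk.le) hs)
    (fun k hk hg hs => by
      have h2 := rec_step S hk (hcrude k hk hg) (hnn3 k hk) hCF' (hb k hk.le) hs
      refine h2.trans ?_
      set c := NP D w a r Γ (fun U => ¬ em k U) k
      set e := ε * q ^ k
      have h3 : (e + c) ^ 2 ≤ e + c := by
        rw [sq]
        exact mul_le_of_le_one_left zero_le (hs.trans (eta_le_one _ _))
      calc CF' * c + CR n3 CF' * e + CR n3 CF' * (e + c) ^ 2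
          ≤ CF' * (e + c) + CR n3 CF' * (e + c) + CR n3 CF' * (e + c) :=
            add_le_add (add_le_add (mul_le_mul_right le_add_self _)
              (mul_le_mul_right le_self_add _)) (mul_le_mul_right h3 _)
        _ = (CF' + CR n3 CF' + CR n3 CF') * (e + c) := by ring)
  obtain ⟨k1, k2, k3, k4⟩ := key
  have all1 : ∀ k, k ≤ K → NP D w a r Γ allP k ≤ (1 + MJ) * (ε * q ^ k) := fun k hk =>
    (NP_all_le D w a r Γ em k).trans (total_le (hb k hk) (k1 k hk))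
  have all2 : ∀ k, k ≤ K → (∀ i, i < k → good i) →
      NP D w a r Γ allP k ≤ (1 + M₀) * (ε * q ^ k) := fun k hk hg =>
    (NP_all_le D w a r Γ em k).trans (total_le (hb k hk) (k2 k hk hg))
  refine ⟨fun k hk => (all1 k hk).trans ?_, fun k hk => ?_, fun k hk hg => (all2 k hk hg).trans ?_,
    fun k hk hg => ?_⟩
  · refine mul_le_mul_left (le_mul_of_one_le_left' ?_) _
    rw [add_assoc]
    exact le_self_add
  · by_cases hg : good k
    · refine (ct_le S hk (hgood k hk hg)).trans ?_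
      calc CF * NP D w a r Γ allP k ≤ CF * ((1 + MJ) * (ε * q ^ k)) :=
            mul_le_mul_right (all1 k hk.le) _
        _ = CF * (1 + MJ) * (ε * q ^ k) := by ring
        _ ≤ (1 + CF + CF') * (1 + MJ) * (ε * q ^ k) :=
            mul_le_mul_left (mul_le_mul_left (le_add_self.trans le_self_add) _) _
    · refine (ct_le S hk (hcrude k hk hg)).trans ?_
      calc CF' * NP D w a r Γ allP k ≤ CF' * ((1 + MJ) * (ε * q ^ k)) :=
            mul_le_mul_right (all1 k hk.le) _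
        _ = CF' * (1 + MJ) * (ε * q ^ k) := by ring
        _ ≤ (1 + CF + CF') * (1 + MJ) * (ε * q ^ k) :=
            mul_le_mul_left (mul_le_mul_left le_add_self _) _
  · exact mul_le_mul_left (le_mul_of_one_le_left' le_self_add) _
  · refine (ct_le S hk (hgood k hk (hg k le_rfl))).trans ?_
    calc CF * NP D w a r Γ allP k ≤ CF * ((1 + M₀) * (ε * q ^ k)) :=
          mul_le_mul_right (all2 k hk.le fun i hi => hg i hi.le) _
      _ = CF * (1 + M₀) * (ε * q ^ k) := by ring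
      _ ≤ (1 + CF) * (1 + M₀) * (ε * q ^ k) :=
          mul_le_mul_left (mul_le_mul_left le_add_self _) _

/-- **(P8), one background without crude steps.** -/
theorem comp_good (CF n3 m : ℝ≥0∞) (hCF : CF ≠ ∞) (hn3 : n3 ≠ ∞) (hm : m ≠ ∞) :
    ∃ M₀ ε₀ : ℝ≥0∞, M₀ ≠ ∞ ∧ ε₀ ≠ 0 ∧
      ∀ (G : Type) [CommRing G] [CN G] [DecidableEq G] [GoodG G] (D : Sys (G × G) (Fld G))
        (w : BW G) (a : ℕ → ℝ) (r R : ℕ → ℕ) (Γ : ℝ≥0∞) (ac em : ℕ → Finset (G × G) → Prop)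
        (K : ℕ) (ε q : ℝ≥0∞), 1 / 2 ≤ q → q ≤ 1 → ε ≤ ε₀ → Str D r R Γ ac em K →
        (∀ k, k < K → (nn3 (r (k + 1)) (R (k + 1)) : ℝ≥0∞) ≤ n3) →
        (∀ k, k < K → StepOK D w Γ k (a k) (a (k + 1)) (r k) (r (k + 1)) (ac k) (em k)
          (1 / 4) CF) →
        (∀ k, k ≤ K → NP D w a r Γ (em k) k ≤ ε * q ^ k) →
        NP D w a r Γ (fun U => ¬ em 0 U) 0 ≤ m * ε →
        (∀ k, k ≤ K → NP D w a r Γ allP k ≤ M₀ * (ε * q ^ k)) ∧
        (∀ k, k < K → NC D r Γ k ≤ M₀ * (ε * q ^ k)) := by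
  obtain ⟨M₀, ε₀, hM₀, hε₀, h0⟩ := comp CF n3 m hCF hn3 hm
  refine ⟨M₀, ε₀, hM₀, hε₀, ?_⟩
  intro G _ _ _ _ D w a r R Γ ac em K ε q hq hq1 hε S hnn3 hgood hb hc0
  obtain ⟨_, _, _, _, h1⟩ := h0 0 0 (by norm_num)
  have h2 := h1 G D w a r R Γ ac em K (fun _ => True) ε q hq hq1 hε S hnn3
    (fun k hk _ => hgood k hk) (by rw [cr_eq_zero.2 fun _ _ => trivial])
    (fun k _ h => absurd trivial h) (fun k _ h => absurd trivial h) hb hc0
  exact ⟨fun k hk => h2.2.2.1 k hk fun _ _ => trivial,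
    fun k hk => h2.2.2.2 k hk fun _ _ => trivial⟩

end Crest.Agent.R165.Compx889
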