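import Crest.Agent.R165.NSum_915

/-!
# Row 165, block G: the linear step of the defect norm (helper915)

* `defect_step` : old large polymers / old small polymers near a defect set / new defect polymers
* `size_small`, `size_large`, `size_branch` : the factor `Γ ^ |U|_{r'}` against `Γ ^ |U|_r`
* `pack_of_close` : a set close to `b` points pairwise far apart has size `≥ b`
-/

set_option autoImplicit false

namespace Crest.Agent.R165.DefStepx915

open Finset
open scoped ENNReal
open Crest.Agent.R165.Packx915 Crest.Agent.R165.NSumx915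

variable {X : Type*} {d : X → X → ℕ} {r r' R : ℕ} {Γ : ℝ≥0∞}

/-- LINEAR STEP OF THE DEFECT NORM. `a` = old defect activities, `b` = old plane-like activities,
`a'` = new (linear part of the) defect activities.  Every polymer is of one of three kinds:
gaining (`qL`, large), transition (`qT`, source), or small near the defect set `A i`. -/
theorem defect_step (hd : PD d) {κ : Type*} [Fintype κ] (A : κ → Set X) (m N D : κ → ℕ)
    (q : κ → ℝ≥0∞) (nL : ℕ) (qL qT : ℝ≥0∞) (a b a' : Finset X → ℝ≥0∞)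
    (hL : Cov d r' r nL) (hD : ∀ i, Cov d (m i + r) r (D i))
    (hN : ∀ i, DCount d (A i) (r' + m i) r (N i))
    (hcls : ∀ U, a' U ≠ 0 →
      Γ ^ pack d r' U * a' U ≤ qL * (Γ ^ pack d r U * a U) ∨
      Γ ^ pack d r' U * a' U ≤ qT * (Γ ^ pack d r U * b U) ∨
      ∃ i, (∀ u ∈ U, ∃ x ∈ A i, d u x ≤ m i) ∧
        Γ ^ pack d r' U * a' U ≤ q i * (Γ ^ pack d r U * a U)) :
    NN d r' Γ a' ≤ (qL * nL + ∑ i, q i * ((N i * D i : ℕ) : ℝ≥0∞)) * NN d r Γ a
      + qT * nL * NN d r Γ b := by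
  classical
  let cls : Option (Option κ) → Finset X → Prop := fun τ U => match τ with
    | none => Γ ^ pack d r' U * a' U ≤ qL * (Γ ^ pack d r U * a U)
    | some none => Γ ^ pack d r' U * a' U ≤ qT * (Γ ^ pack d r U * b U)
    | some (some i) => (∀ u ∈ U, ∃ x ∈ A i, d u x ≤ m i) ∧
        Γ ^ pack d r' U * a' U ≤ q i * (Γ ^ pack d r U * a U)
  let src : Option (Option κ) → Finset X → ℝ≥0∞ := fun τ => match τ with
    | none => a
    | some none => b
    | some (some _) => a
  let qq : Option (Option κ) → ℝ≥0∞ := fun τ => match τ with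
    | none => qL
    | some none => qT
    | some (some i) => q i
  let nn : Option (Option κ) → ℕ := fun τ => match τ with
    | none => nL
    | some none => nL
    | some (some i) => N i * D i
  have key := NN_step (d := d) (r := r) (r' := r') (Γ := Γ) Finset.univ cls a' src qq nn
    (by
      intro U hU
      rcases hcls U hU with h | h | ⟨i, h⟩
      · exact ⟨none, Finset.mem_univ _, h⟩
      · exact ⟨some none, Finset.mem_univ _, h⟩
      · exact ⟨some (some i), Finset.mem_univ _, h⟩)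
    (by
      intro τ _ U hU _
      match τ with
      | none => exact hU
      | some none => exact hU
      | some (some i) => exact hU.2)
    (by
      intro τ _ f
      match τ with
      | none =>
        obtain ⟨net, h1, h2⟩ := hL.net f
        exact ⟨net, h1, fun U _ _ h => h2 U h⟩
      | some none =>
        obtain ⟨net, h1, h2⟩ := hL.net f
        exact ⟨net, h1, fun U _ _ h => h2 U h⟩
      | some (some i) =>
        obtain ⟨net, h1, h2⟩ := (hN i).net hd (hD i) f
        exact ⟨net, h1, fun U hU _ h => h2 U hU.1 h⟩)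
  refine key.trans (le_of_eq ?_)
  rw [Fintype.sum_option, Fintype.sum_option]
  simp only [qq, nn, src]
  rw [add_mul, Finset.sum_mul]
  have : ∀ i : κ, q i * (((N i * D i : ℕ) : ℝ≥0∞) * NN d r Γ a) =
      q i * ((N i * D i : ℕ) : ℝ≥0∞) * NN d r Γ a := fun i => by rw [mul_assoc]
  simp only [this]
  ring

/-! ### size factors -/

theorem size_small {U : Finset X} (hne : U.Nonempty) (h : pack d r U ≤ 1) (hr : r ≤ r') (x : ℝ≥0∞) :
    Γ ^ pack d r' U * x = Γ ^ pack d r U * x := by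
  have h1 := pack_pos (d := d) (r := r') hne
  have h2 := pack_anti (d := d) (U := U) hr
  have h3 : pack d r' U = pack d r U := by omega
  rw [h3]

theorem size_large (hd : PD d) (hΓ0 : Γ ≠ 0) (hΓ : Γ ≠ ∞) (h1 : 1 ≤ Γ) {U : Finset X}
    (hU : Conn d R U) (hR : R + 2 * r ≤ r') (h2 : 2 ≤ pack d r U) {x y c : ℝ≥0∞}
    (hxy : x ≤ c * y) :
    Γ ^ pack d r' U * x ≤ (Γ⁻¹ * c) * (Γ ^ pack d r U * y) := by
  have h3 := pack_drop hd hU hR h2
  have h4 : Γ ^ pack d r' U ≤ Γ⁻¹ * Γ ^ pack d r U := by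
    calc Γ ^ pack d r' U = Γ⁻¹ * Γ * Γ ^ pack d r' U := by
          rw [ENNReal.inv_mul_cancel hΓ0 hΓ, one_mul]
      _ = Γ⁻¹ * Γ ^ (pack d r' U + 1) := by rw [pow_succ]; ring
      _ ≤ Γ⁻¹ * Γ ^ pack d r U := mul_le_mul_right (pow_le_pow_right₀ h1 h3) _
  calc Γ ^ pack d r' U * x ≤ (Γ⁻¹ * Γ ^ pack d r U) * (c * y) := mul_le_mul' h4 hxy
    _ = (Γ⁻¹ * c) * (Γ ^ pack d r U * y) := by ring

/-- a set which comes within `s` of each of the points of `Y`, pairwise more than `r' + 2 s`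
apart, has at least `card Y` points pairwise more than `r'` apart -/
theorem pack_of_close (hd : PD d) {U Y : Finset X} {s : ℕ}
    (hY : Packx915.Sep d (r' + 2 * s) Y) (h : ∀ y ∈ Y, ∃ u ∈ U, d u y ≤ s) :
    Y.card ≤ pack d r' U := by
  classical
  choose f hf using h
  let g : X → X := fun y => if h : y ∈ Y then f y h else y
  have hg : ∀ y ∈ Y, g y ∈ U ∧ d (g y) y ≤ s := by
    intro y hy
    have : g y = f y hy := dif_pos hy
    rw [this]
    exact hf y hy
  have hsep : ∀ x ∈ Y, ∀ y ∈ Y, x ≠ y → r' < d (g x) (g y) := by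
    intro x hx y hy hne
    have h1 := hY x hx y hy hne
    have h2 := (hg x hx).2
    have h3 := (hg y hy).2
    have h4 := hd.tri x (g x) y
    have h5 := hd.symm x (g x)
    have h6 := hd.tri (g x) (g y) y
    omega
  have hinj : Set.InjOn g (Y : Set X) := by
    intro x hx y hy he
    by_contra hne
    have := hsep x hx y hy hne
    rw [he, hd.self] at this
    omega
  have h1 : Packx915.Sep d r' (Y.image g) := by
    intro a ha b hb hab
    obtain ⟨x, hx, rfl⟩ := Finset.mem_image.1 ha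
    obtain ⟨y, hy, rfl⟩ := Finset.mem_image.1 hb
    exact hsep x hx y hy (fun he => hab (by rw [he]))
  have h2 : Y.image g ⊆ U := by
    intro a ha
    obtain ⟨x, hx, rfl⟩ := Finset.mem_image.1 ha
    exact (hg x hx).1
  have := card_le_pack h2 h1
  rwa [Finset.card_image_of_injOn hinj] at this

/-- large polymers near `b` branch points: the factor `c ^ b` is paid by the drop of the size -/
theorem size_branch (hd : PD d) (hΓ : Γ ≠ ∞) {c : ℝ≥0∞} (hc1 : 1 ≤ c) (hc : c ≤ Γ)
    {U Y : Finset X} (hU : Conn d R U) {s : ℕ} (hR : 4 * R + 3 * r + 2 ≤ r')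
    (h2 : 2 ≤ pack d r U) (hY : Packx915.Sep d (r' + 2 * s) Y) (h : ∀ y ∈ Y, ∃ u ∈ U, d u y ≤ s)
    {x y : ℝ≥0∞} (hxy : x ≤ c ^ Y.card * y) :
    Γ ^ pack d r' U * x ≤ (Γ⁻¹ * c) * (Γ ^ pack d r U * y) := by
  have hΓ1 : 1 ≤ Γ := hc1.trans hc
  have hΓ0 : Γ ≠ 0 := (lt_of_lt_of_le one_pos hΓ1).ne'
  have hc0 : c ≠ 0 := (lt_of_lt_of_le one_pos hc1).ne'
  have hct : c ≠ ∞ := ne_top_of_le_ne_top hΓ hc
  have h3 : pack d r' U + 1 ≤ pack d r U := pack_drop hd hU (by omega) h2
  have hb : Y.card ≤ pack d r' U := pack_of_close hd hY h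
  have h4 : pack d r' U + max 1 Y.card ≤ pack d r U := by
    by_cases hb2 : Y.card ≤ 1
    · rw [max_eq_left hb2]; exact h3
    · have hg := pack_growth (m := 2) (r := r) (r' := r') hd hU (ρ := 2 * R + r + 1) (by omega)
        (by omega) (by omega)
      rw [max_eq_right (by omega)]
      omega
  have h5 : Γ ^ pack d r' U * c ^ Y.card ≤ (Γ⁻¹ * c) * Γ ^ pack d r U := by
    have h6 : c ^ Y.card ≤ (Γ⁻¹ * c) * Γ ^ max 1 Y.card := by
      rcases Nat.eq_zero_or_pos Y.card with h0 | hpos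
      · rw [h0, pow_zero, max_eq_left (by omega), pow_one]
        calc (1 : ℝ≥0∞) = Γ⁻¹ * Γ := (ENNReal.inv_mul_cancel hΓ0 hΓ).symm
          _ ≤ Γ⁻¹ * c * Γ := by
            rw [mul_assoc]
            exact mul_le_mul_right (le_mul_of_one_le_left zero_le hc1) _
      · rw [max_eq_right hpos]
        obtain ⟨b, hb⟩ : ∃ b, Y.card = b + 1 := ⟨Y.card - 1, by omega⟩
        rw [hb, pow_succ, pow_succ]
        calc c ^ b * c ≤ Γ ^ b * c := mul_le_mul_left (pow_le_pow_left' hc b) _
          _ = Γ⁻¹ * Γ * (Γ ^ b * c) := by rw [ENNReal.inv_mul_cancel hΓ0 hΓ, one_mul]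
          _ = Γ⁻¹ * c * (Γ ^ b * Γ) := by ring
    calc Γ ^ pack d r' U * c ^ Y.card ≤ Γ ^ pack d r' U * ((Γ⁻¹ * c) * Γ ^ max 1 Y.card) :=
          mul_le_mul_right h6 _
      _ = (Γ⁻¹ * c) * Γ ^ (pack d r' U + max 1 Y.card) := by rw [pow_add]; ring
      _ ≤ (Γ⁻¹ * c) * Γ ^ pack d r U := mul_le_mul_right (pow_le_pow_right₀ hΓ1 h4) _
  calc Γ ^ pack d r' U * x ≤ Γ ^ pack d r' U * (c ^ Y.card * y) := mul_le_mul_right hxy _
    _ = (Γ ^ pack d r' U * c ^ Y.card) * y := by ring
    _ ≤ ((Γ⁻¹ * c) * Γ ^ pack d r U) * y := mul_le_mul_left h5 _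
    _ = (Γ⁻¹ * c) * (Γ ^ pack d r U * y) := by ring

end Crest.Agent.R165.DefStepx915
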