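import Crest.Agent.R165.KStep_892

/-!
# Row 165, block G, leaf (Q): quadratic and Lipschitz bounds for the reclustering step (helper897)

* `Att`, `tree_bound` : tree-free bound for sums over connected sets of items
* `quad` : `∑_{T connected, |T| ≥ 2, near p} ∏_{t ∈ T} a t ≤ C ε²`
* `quad_lip` : the same with one marked item (weight `b`) : `≤ 4 C ε η`
* `KK_quad`, `KK_lip` : quadratic part of `KStepx892.KK` in an abstract family of norms
-/

set_option autoImplicit false
set_option linter.unusedSectionVars false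
set_option linter.unusedVariables false

open Finset
open scoped ENNReal

namespace Crest.Agent.R165.Quadx897

open KCompx892 KStepx892

/-! ### the tree-free bound -/

section tree

variable {ι : Type*} [DecidableEq ι] {r : ι → ι → Prop}

/-- every closed part of `T` touches `S` -/
def Att (r : ι → ι → Prop) (S T : Finset ι) : Prop :=
  ∀ A ⊆ T, A.Nonempty → NoTouch r A (T \ A) → ∃ a ∈ A, ∃ s ∈ S, r s a

theorem att_erase (hs : ∀ a b, r a b → r b a) {T : Finset ι} (hT : Conn r T) {s : ι}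
    (hsT : s ∈ T) : Att r {s} (T.erase s) := by
  intro A hA hne hN
  by_contra hcon
  push Not at hcon
  have hsA : s ∉ A := fun h => (Finset.mem_erase.1 (hA h)).1 rfl
  have h1 : NoTouch r A (T \ A) := by
    intro a ha b hb hab
    rw [Finset.mem_sdiff] at hb
    by_cases hbs : b = s
    · subst hbs
      exact hcon a ha b (Finset.mem_singleton_self b) (hs _ _ hab)
    · exact hN a ha b (Finset.mem_sdiff.2 ⟨Finset.mem_erase.2 ⟨hbs, hb.1⟩, hb.2⟩) hab
  have h2 := hT.2 A (hA.trans (Finset.erase_subset _ _)) hne h1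
  exact hsA (h2 ▸ hsT)

open Classical in
theorem att_step (hs : ∀ a b, r a b → r b a) {S T : Finset ι} (h : Att r S T) (s : ι) :
    Att r (S.erase s ∪ T.filter (fun t => r s t)) (T \ T.filter (fun t => r s t)) := by
  intro A hA hne hN
  by_contra hcon
  push Not at hcon
  have h1 : NoTouch r A (T \ A) := by
    intro a ha b hb hab
    rw [Finset.mem_sdiff] at hb
    by_cases hbN : b ∈ T.filter (fun t => r s t)
    · exact hcon a ha b (Finset.mem_union_right _ hbN) (hs _ _ hab)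
    · exact hN a ha b (Finset.mem_sdiff.2 ⟨Finset.mem_sdiff.2 ⟨hb.1, hbN⟩, hb.2⟩) hab
  obtain ⟨a, ha, s', hs', hr⟩ := h A (hA.trans Finset.sdiff_subset) hne h1
  by_cases hss : s' = s
  · subst hss
    have := Finset.mem_sdiff.1 (hA ha)
    exact this.2 (Finset.mem_filter.2 ⟨this.1, hr⟩)
  · exact hcon a ha s' (Finset.mem_union_left _ (Finset.mem_erase.2 ⟨hss, hs'⟩)) hr

theorem prod_union_le {G : ι → ℝ≥0∞} (hG : ∀ t, 1 ≤ G t) (A B : Finset ι) :
    ∏ t ∈ A ∪ B, G t ≤ (∏ t ∈ A, G t) * ∏ t ∈ B, G t := by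
  rw [← Finset.prod_union_inter]
  exact le_mul_of_one_le_right' (Finset.one_le_prod' fun t _ => hG t)

open Classical in
/-- **tree-free bound** -/
theorem tree_bound (hs : ∀ a b, r a b → r b a) {a G : ι → ℝ≥0∞} (hG1 : ∀ t, 1 ≤ G t)
    (hG : ∀ s, ∀ J : Finset ι, ∏ t ∈ J.filter (fun t => r s t), (1 + a t * G t) ≤ G s) :
    ∀ n : ℕ, ∀ J S : Finset ι, J.card + S.card ≤ n →
      ∑ T ∈ J.powerset.filter (fun T => Att r S T), ∏ t ∈ T, a t ≤ ∏ s ∈ S, G s := by
  intro n
  induction n with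
  | zero =>
    intro J S hn
    have hJ : J = ∅ := Finset.card_eq_zero.1 (by omega)
    have hS : S = ∅ := Finset.card_eq_zero.1 (by omega)
    subst hJ hS
    refine (Finset.sum_le_sum_of_subset (Finset.filter_subset _ _)).trans ?_
    simp
  | succ n ih =>
    intro J S hn
    rcases S.eq_empty_or_nonempty with rfl | ⟨s, hsS⟩
    · have hsub : J.powerset.filter (fun T => Att r ∅ T) ⊆ {∅} := by
        intro T hT
        rw [Finset.mem_singleton]
        by_contra hne
        obtain ⟨a, _, s, hs', _⟩ := (Finset.mem_filter.1 hT).2 T (Finset.Subset.refl _)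
          (Finset.nonempty_iff_ne_empty.2 hne) (by
            intro a _ b hb
            rw [Finset.sdiff_self] at hb
            exact absurd hb (Finset.notMem_empty _))
        exact Finset.notMem_empty _ hs'
      refine (Finset.sum_le_sum_of_subset hsub).trans ?_
      simp
    · set Js := J.filter (fun t => r s t) with hJs
      have hfil : ∀ T ⊆ J, T.filter (fun t => r s t) = T ∩ Js := by
        intro T hT
        ext x
        rw [Finset.mem_filter, Finset.mem_inter, hJs, Finset.mem_filter]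
        constructor
        · rintro ⟨h1, h2⟩; exact ⟨h1, hT h1, h2⟩
        · rintro ⟨h1, _, h2⟩; exact ⟨h1, h2⟩
      -- the map `T ↦ (T ∩ Js, T \ Js)`
      let φ : Finset ι → (Σ _ : Finset ι, Finset ι) := fun T => ⟨T ∩ Js, T \ Js⟩
      have hφinj : Function.Injective φ := by
        intro T T' h
        have h1 : T ∩ Js = T' ∩ Js := congrArg (fun x => x.1) h
        have h2 : T \ Js = T' \ Js := by
          have := congrArg (fun x : (Σ _ : Finset ι, Finset ι) => x.2) h
          exact this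
        rw [← Finset.sdiff_union_inter T Js, ← Finset.sdiff_union_inter T' Js, h1, h2]
      let X : Finset (Σ _ : Finset ι, Finset ι) := Js.powerset.sigma fun N =>
        (J \ Js).powerset.filter (fun T => Att r (S.erase s ∪ N) T)
      have hX : (J.powerset.filter (fun T => Att r S T)).image φ ⊆ X := by
        intro x hx
        obtain ⟨T, hT, rfl⟩ := Finset.mem_image.1 hx
        rw [Finset.mem_filter, Finset.mem_powerset] at hT
        have hatt := att_step hs hT.2 s
        rw [hfil T hT.1, Finset.sdiff_inter_self_left] at hatt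
        rw [Finset.mem_sigma]
        refine ⟨Finset.mem_powerset.2 Finset.inter_subset_right, ?_⟩
        rw [Finset.mem_filter, Finset.mem_powerset]
        exact ⟨Finset.sdiff_subset_sdiff hT.1 (Finset.Subset.refl _), hatt⟩
      calc ∑ T ∈ J.powerset.filter (fun T => Att r S T), ∏ t ∈ T, a t
          = ∑ x ∈ (J.powerset.filter (fun T => Att r S T)).image φ,
              (∏ t ∈ x.1, a t) * ∏ t ∈ x.2, a t := by
            rw [Finset.sum_image fun T _ T' _ h => hφinj h]
            refine Finset.sum_congr rfl fun T _ => ?_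
            show _ = (∏ t ∈ T ∩ Js, a t) * ∏ t ∈ T \ Js, a t
            rw [← Finset.prod_union (Finset.disjoint_sdiff_inter T Js).symm, Finset.union_comm,
              Finset.sdiff_union_inter]
        _ ≤ ∑ x ∈ X, (∏ t ∈ x.1, a t) * ∏ t ∈ x.2, a t := Finset.sum_le_sum_of_subset hX
        _ = ∑ N ∈ Js.powerset, (∏ t ∈ N, a t) *
              ∑ T ∈ (J \ Js).powerset.filter (fun T => Att r (S.erase s ∪ N) T),
                ∏ t ∈ T, a t := by
            rw [Finset.sum_sigma]
            refine Finset.sum_congr rfl fun N _ => ?_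
            rw [Finset.mul_sum]
        _ ≤ ∑ N ∈ Js.powerset, (∏ t ∈ N, a t) * ((∏ t ∈ S.erase s, G t) * ∏ t ∈ N, G t) := by
            refine Finset.sum_le_sum fun N hN => mul_le_mul_right ?_ _
            rw [Finset.mem_powerset] at hN
            refine (ih _ _ ?_).trans (prod_union_le hG1 _ _)
            have h1 : (J \ Js).card + Js.card = J.card :=
              Finset.card_sdiff_add_card_eq_card (Finset.filter_subset _ _)
            have h2 : (S.erase s ∪ N).card ≤ (S.erase s).card + N.card := Finset.card_union_le _ _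
            have h3 : N.card ≤ Js.card := Finset.card_le_card hN
            have h4 : (S.erase s).card + 1 = S.card := Finset.card_erase_add_one hsS
            omega
        _ = (∏ t ∈ S.erase s, G t) * ∏ t ∈ Js, (1 + a t * G t) := by
            rw [Finset.prod_one_add, Finset.mul_sum]
            refine Finset.sum_congr rfl fun N _ => ?_
            rw [Finset.prod_mul_distrib]
            ring
        _ ≤ (∏ t ∈ S.erase s, G t) * G s := mul_le_mul_right (hG s J) _
        _ = ∏ t ∈ S, G t := by rw [mul_comm, Finset.mul_prod_erase _ _ hsS]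

open Classical in
/-- sum over the connected sets with at least two elements that contain `s` -/
theorem conn_bound (hs : ∀ a b, r a b → r b a) {a h : ι → ℝ≥0∞}
    (hh : ∀ s, ∀ J : Finset ι, ∏ t ∈ J.filter (fun t => r s t), (1 + a t * (1 + h t)) ≤ 1 + h s)
    (J : Finset ι) (s : ι) :
    ∑ T ∈ J.powerset.filter (fun T => Conn r T ∧ s ∈ T ∧ 2 ≤ T.card), ∏ t ∈ T.erase s, a t
      ≤ h s := by
  have h1 := tree_bound (G := fun t => 1 + h t) hs (fun t => le_self_add) hh _ J {s} le_rfl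
  rw [Finset.prod_singleton] at h1
  have h2 : 1 + ∑ T ∈ J.powerset.filter (fun T => Conn r T ∧ s ∈ T ∧ 2 ≤ T.card),
      ∏ t ∈ T.erase s, a t ≤ ∑ T ∈ J.powerset.filter (fun T => Att r {s} T), ∏ t ∈ T, a t := by
    have hinj : Set.InjOn (fun T : Finset ι => T.erase s)
        (J.powerset.filter (fun T => Conn r T ∧ s ∈ T ∧ 2 ≤ T.card) : Finset (Finset ι)) := by
      intro T hT T' hT' heq
      rw [Finset.mem_coe, Finset.mem_filter] at hT hT'
      have heq' : T.erase s = T'.erase s := heq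
      rw [← Finset.insert_erase hT.2.2.1, ← Finset.insert_erase hT'.2.2.1, heq']
    rw [← Finset.sum_image (f := fun T => ∏ t ∈ T, a t) hinj]
    have hnot : (∅ : Finset ι) ∉
        (J.powerset.filter (fun T => Conn r T ∧ s ∈ T ∧ 2 ≤ T.card)).image (fun T => T.erase s) := by
      intro hmem
      obtain ⟨T, hT, hTe⟩ := Finset.mem_image.1 hmem
      rw [Finset.mem_filter] at hT
      have := Finset.card_erase_add_one hT.2.2.1
      rw [hTe, Finset.card_empty] at this
      omega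
    have hone : (1 : ℝ≥0∞) = ∏ t ∈ (∅ : Finset ι), a t := by simp
    rw [hone, ← Finset.sum_insert (f := fun T => ∏ t ∈ T, a t) hnot]
    refine Finset.sum_le_sum_of_subset fun T hT => ?_
    rw [Finset.mem_insert] at hT
    rw [Finset.mem_filter, Finset.mem_powerset]
    rcases hT with rfl | hT
    · refine ⟨Finset.empty_subset _, fun A hA hne => ?_⟩
      rw [Finset.subset_empty] at hA
      exact absurd hA hne.ne_empty
    · obtain ⟨T', hT', rfl⟩ := Finset.mem_image.1 hT
      rw [Finset.mem_filter, Finset.mem_powerset] at hT'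
      exact ⟨(Finset.erase_subset _ _).trans hT'.1, att_erase hs hT'.2.1 hT'.2.2.1⟩
  exact (ENNReal.add_le_add_iff_left ENNReal.one_ne_top).1 (h2.trans h1)

open Classical in
/-- sum over the connected sets with at least two elements that contain an item with `q` -/
theorem conn_near_bound (hs : ∀ a b, r a b → r b a) {a h : ι → ℝ≥0∞}
    (hh : ∀ s, ∀ J : Finset ι, ∏ t ∈ J.filter (fun t => r s t), (1 + a t * (1 + h t)) ≤ 1 + h s)
    (q : ι → Prop) :
    ∑' T : Finset ι, (if Conn r T ∧ 2 ≤ T.card ∧ (∃ t ∈ T, q t) then ∏ t ∈ T, a t else 0)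
      ≤ ∑' s, (if q s then a s * h s else 0) := by
  rw [ENNReal.tsum_eq_iSup_sum]
  refine iSup_le fun X => ?_
  -- everything lives in a finite set of items
  set J : Finset ι := X.biUnion id with hJ
  have hXJ : X ⊆ J.powerset := fun T hT => Finset.mem_powerset.2 fun t ht =>
    Finset.mem_biUnion.2 ⟨T, hT, ht⟩
  calc ∑ T ∈ X, (if Conn r T ∧ 2 ≤ T.card ∧ (∃ t ∈ T, q t) then ∏ t ∈ T, a t else 0)
      ≤ ∑ T ∈ J.powerset, (if Conn r T ∧ 2 ≤ T.card ∧ (∃ t ∈ T, q t) then ∏ t ∈ T, a t else 0) :=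
        Finset.sum_le_sum_of_subset hXJ
    _ ≤ ∑ T ∈ J.powerset, ∑ s ∈ J.filter q,
          (if Conn r T ∧ s ∈ T ∧ 2 ≤ T.card then a s * ∏ t ∈ T.erase s, a t else 0) := by
        refine Finset.sum_le_sum fun T hT => ?_
        split_ifs with hc
        · obtain ⟨s, hsT, hqs⟩ := hc.2.2
          have hsJ : s ∈ J.filter q :=
            Finset.mem_filter.2 ⟨Finset.mem_powerset.1 hT hsT, hqs⟩
          refine le_trans ?_ (Finset.single_le_sum (f := fun s =>
            (if Conn r T ∧ s ∈ T ∧ 2 ≤ T.card then a s * ∏ t ∈ T.erase s, a t else 0))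
            (fun _ _ => bot_le) hsJ)
          show _ ≤ if Conn r T ∧ s ∈ T ∧ 2 ≤ T.card then a s * ∏ t ∈ T.erase s, a t else 0
          rw [if_pos ⟨hc.1, hsT, hc.2.1⟩, Finset.mul_prod_erase _ _ hsT]
        · exact bot_le
    _ = ∑ s ∈ J.filter q, ∑ T ∈ J.powerset.filter (fun T => Conn r T ∧ s ∈ T ∧ 2 ≤ T.card),
          a s * ∏ t ∈ T.erase s, a t := by
        rw [Finset.sum_comm]
        refine Finset.sum_congr rfl fun s _ => ?_
        rw [Finset.sum_filter]
    _ ≤ ∑ s ∈ J.filter q, a s * h s := by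
        refine Finset.sum_le_sum fun s _ => ?_
        rw [← Finset.mul_sum]
        exact mul_le_mul_right (conn_bound hs hh J s) _
    _ = ∑ s ∈ J, (if q s then a s * h s else 0) := Finset.sum_filter _ _
    _ ≤ ∑' s, (if q s then a s * h s else 0) := ENNReal.sum_le_tsum J

end tree


/-! ### the exponential weights -/

section expo

theorem prod_one_add_le {ι : Type*} (J : Finset ι) (x : ι → ℝ≥0∞) {y : ℝ} (hy : 0 ≤ y)
    (h : ∑ t ∈ J, x t ≤ ENNReal.ofReal y) :
    ∏ t ∈ J, (1 + x t) ≤ ENNReal.ofReal (Real.exp y) := by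
  have hx : ∀ t ∈ J, x t ≠ ∞ := fun t ht =>
    ne_top_of_le_ne_top ENNReal.ofReal_ne_top
      ((Finset.single_le_sum (f := x) (fun _ _ => bot_le) ht).trans h)
  calc ∏ t ∈ J, (1 + x t) ≤ ∏ t ∈ J, ENNReal.ofReal (Real.exp (x t).toReal) := by
        refine Finset.prod_le_prod' fun t ht => ?_
        conv_lhs => rw [← ENNReal.ofReal_toReal (hx t ht)]
        rw [← ENNReal.ofReal_one, ← ENNReal.ofReal_add zero_le_one ENNReal.toReal_nonneg]
        refine ENNReal.ofReal_le_ofReal ?_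
        rw [add_comm]
        exact Real.add_one_le_exp _
    _ = ENNReal.ofReal (Real.exp (∑ t ∈ J, (x t).toReal)) := by
        rw [← ENNReal.ofReal_prod_of_nonneg fun t _ => (Real.exp_pos _).le, Real.exp_sum]
    _ ≤ ENNReal.ofReal (Real.exp y) := by
        refine ENNReal.ofReal_le_ofReal (Real.exp_le_exp.2 ?_)
        rw [← ENNReal.toReal_sum hx]
        exact ENNReal.toReal_le_of_le_ofReal hy h

theorem exp_nat_le (n : ℕ) : Real.exp n ≤ 3 ^ n := by
  have h1 : Real.exp 1 ≤ 3 := Real.exp_one_lt_three.le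
  calc Real.exp n = Real.exp 1 ^ n := by rw [← Real.exp_nat_mul, mul_one]
    _ ≤ 3 ^ n := pow_le_pow_left₀ (Real.exp_pos _).le h1 n

/-- the function `h` of the tree-free bound -/
noncomputable def hfun (δ : ℝ) (n : ℕ) : ℝ≥0∞ := ENNReal.ofReal (Real.exp (δ * n) - 1)

theorem one_add_hfun {δ : ℝ} (hδ : 0 ≤ δ) (n : ℕ) :
    1 + hfun δ n = ENNReal.ofReal (Real.exp (δ * n)) := by
  unfold hfun
  rw [← ENNReal.ofReal_one, ← ENNReal.ofReal_add zero_le_one]
  · congr 1; ring
  · have := Real.one_le_exp (mul_nonneg hδ (Nat.cast_nonneg n))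
    linarith

theorem one_add_hfun_le {δ : ℝ} (hδ : 0 ≤ δ) (hδ1 : δ ≤ 1) (n : ℕ) :
    1 + hfun δ n ≤ 3 ^ n := by
  rw [one_add_hfun hδ]
  have h1 : Real.exp (δ * n) ≤ 3 ^ n := by
    refine le_trans (Real.exp_le_exp.2 ?_) (exp_nat_le n)
    nlinarith [Nat.cast_nonneg (α := ℝ) n]
  calc ENNReal.ofReal (Real.exp (δ * n)) ≤ ENNReal.ofReal (3 ^ n) := ENNReal.ofReal_le_ofReal h1
    _ = 3 ^ n := by
        rw [ENNReal.ofReal_pow (by norm_num)]
        norm_num

theorem hfun_le {δ : ℝ} (hδ : 0 ≤ δ) (hδ1 : δ ≤ 1) (n : ℕ) :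
    hfun δ n ≤ ENNReal.ofReal δ * 3 ^ n := by
  have h1 : Real.exp (δ * n) - 1 ≤ δ * 3 ^ n := by
    have hc := convexOn_exp.2 (Set.mem_univ (0 : ℝ)) (Set.mem_univ (n : ℝ))
      (show (0 : ℝ) ≤ 1 - δ by linarith) hδ (by ring)
    simp only [smul_eq_mul, mul_zero, zero_add, Real.exp_zero, mul_one] at hc
    have h3 := mul_le_mul_of_nonneg_left (exp_nat_le n) hδ
    nlinarith
  calc hfun δ n ≤ ENNReal.ofReal (δ * 3 ^ n) := ENNReal.ofReal_le_ofReal h1
    _ = ENNReal.ofReal δ * 3 ^ n := by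
        rw [ENNReal.ofReal_mul hδ, ENNReal.ofReal_pow (by norm_num)]
        norm_num

end expo

/-! ### abstract quadratic bound -/

section quad

variable {ι β : Type*} [DecidableEq ι] {r : ι → ι → Prop}

open Classical in
/-- **(Q1) quadratic bound** -/
theorem quad (hs : ∀ a b, r a b → r b a) (a : ι → ℝ≥0∞) (sz : ι → ℕ) (nr : β → ι → Prop)
    {C ε : ℝ≥0∞} (H1 : ∀ p, ∑' t, (if nr p t then a t * 3 ^ sz t else 0) ≤ ε)
    (H2 : ∀ s, ∃ P : Finset β, (P.card : ℝ≥0∞) ≤ C * sz s ∧ ∀ t, r s t → ∃ p ∈ P, nr p t)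
    (H3 : C * ε ≤ 1) (p : β) :
    ∑' T : Finset ι, (if Conn r T ∧ 2 ≤ T.card ∧ (∃ t ∈ T, nr p t) then ∏ t ∈ T, a t else 0)
      ≤ C * ε * ε := by
  set δ : ℝ := (C * ε).toReal with hδ
  have hCε : C * ε ≠ ∞ := ne_top_of_le_ne_top ENNReal.one_ne_top H3
  have hδ0 : 0 ≤ δ := ENNReal.toReal_nonneg
  have hδ1 : δ ≤ 1 := by
    have := ENNReal.toReal_mono ENNReal.one_ne_top H3
    rw [ENNReal.toReal_one] at this
    exact this
  have hδC : ENNReal.ofReal δ = C * ε := ENNReal.ofReal_toReal hCε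
  -- the hypothesis of the tree-free bound
  have hh : ∀ s, ∀ J : Finset ι,
      ∏ t ∈ J.filter (fun t => r s t), (1 + a t * (1 + hfun δ (sz t))) ≤ 1 + hfun δ (sz s) := by
    intro s J
    rw [one_add_hfun hδ0]
    refine prod_one_add_le _ _ (mul_nonneg hδ0 (Nat.cast_nonneg _)) ?_
    obtain ⟨P, hP, hcov⟩ := H2 s
    calc ∑ t ∈ J.filter (fun t => r s t), a t * (1 + hfun δ (sz t))
        ≤ ∑ t ∈ J.filter (fun t => r s t), a t * 3 ^ sz t :=
          Finset.sum_le_sum fun t _ => mul_le_mul_right (one_add_hfun_le hδ0 hδ1 _) _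
      _ ≤ ∑ t ∈ J.filter (fun t => r s t), ∑ p ∈ P, (if nr p t then a t * 3 ^ sz t else 0) := by
          refine Finset.sum_le_sum fun t ht => ?_
          obtain ⟨p, hp, hpt⟩ := hcov t (Finset.mem_filter.1 ht).2
          refine le_trans ?_ (Finset.single_le_sum
            (f := fun p => if nr p t then a t * 3 ^ sz t else 0) (fun _ _ => bot_le) hp)
          show _ ≤ if nr p t then a t * 3 ^ sz t else 0
          rw [if_pos hpt]
      _ = ∑ p ∈ P, ∑ t ∈ J.filter (fun t => r s t), (if nr p t then a t * 3 ^ sz t else 0) :=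
          Finset.sum_comm
      _ ≤ ∑ p ∈ P, ε := Finset.sum_le_sum fun p _ =>
          (ENNReal.sum_le_tsum _).trans (H1 p)
      _ = P.card * ε := by rw [Finset.sum_const, nsmul_eq_mul]
      _ ≤ C * sz s * ε := mul_le_mul_left hP _
      _ = ENNReal.ofReal (δ * sz s) := by
          rw [ENNReal.ofReal_mul hδ0, hδC, ENNReal.ofReal_natCast]
          ring
  refine (conn_near_bound hs hh (fun t => nr p t)).trans ?_
  calc ∑' s, (if nr p s then a s * hfun δ (sz s) else 0)
      ≤ ∑' s, C * ε * (if nr p s then a s * 3 ^ sz s else 0) := by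
        refine ENNReal.tsum_le_tsum fun s => ?_
        split_ifs
        · calc a s * hfun δ (sz s) ≤ a s * (ENNReal.ofReal δ * 3 ^ sz s) :=
                mul_le_mul_right (hfun_le hδ0 hδ1 _) _
            _ = C * ε * (a s * 3 ^ sz s) := by rw [hδC]; ring
        · exact bot_le
    _ = C * ε * ∑' s, (if nr p s then a s * 3 ^ sz s else 0) := ENNReal.tsum_mul_left
    _ ≤ C * ε * ε := mul_le_mul_right (H1 p) _

open Classical in
/-- (Q2) Lipschitz bound, with the two norms comparable -/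
theorem quad_lip_aux (hs : ∀ a b, r a b → r b a) (a b : ι → ℝ≥0∞) (sz : ι → ℕ)
    (nr : β → ι → Prop) {C ε η : ℝ≥0∞}
    (H1 : ∀ p, ∑' t, (if nr p t then a t * 3 ^ sz t else 0) ≤ ε)
    (H1' : ∀ p, ∑' t, (if nr p t then b t * 3 ^ sz t else 0) ≤ η)
    (H2 : ∀ s, ∃ P : Finset β, (P.card : ℝ≥0∞) ≤ C * sz s ∧ ∀ t, r s t → ∃ p ∈ P, nr p t)
    (H3 : C * (2 * ε) ≤ 1) (hε0 : ε ≠ 0) (hε : ε ≠ ∞) (hη0 : η ≠ 0) (hη : η ≠ ∞) (p : β) :
    ∑' T : Finset ι, (if Conn r T ∧ 2 ≤ T.card ∧ (∃ t ∈ T, nr p t) then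
      ∑ t ∈ T, b t * ∏ s ∈ T.erase t, a s else 0) ≤ 4 * C * ε * η := by
  set l : ℝ≥0∞ := ε / η with hl
  have hl0 : l ≠ 0 := ENNReal.div_ne_zero.2 ⟨hε0, hη⟩
  have hlt : l ≠ ∞ := ENNReal.div_ne_top hε hη0
  have hlη : l * η = ε := ENNReal.div_mul_cancel hη0 hη
  have h1 : ∀ p, ∑' t, (if nr p t then (a t + l * b t) * 3 ^ sz t else 0) ≤ 2 * ε := by
    intro p
    calc ∑' t, (if nr p t then (a t + l * b t) * 3 ^ sz t else 0)
        = ∑' t, ((if nr p t then a t * 3 ^ sz t else 0)
            + l * (if nr p t then b t * 3 ^ sz t else 0)) := by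
          refine tsum_congr fun t => ?_
          split_ifs
          · ring
          · simp
      _ = (∑' t, (if nr p t then a t * 3 ^ sz t else 0))
            + l * ∑' t, (if nr p t then b t * 3 ^ sz t else 0) := by
          rw [ENNReal.tsum_add, ENNReal.tsum_mul_left]
      _ ≤ ε + l * η := add_le_add (H1 p) (mul_le_mul_right (H1' p) _)
      _ = 2 * ε := by rw [hlη, two_mul]
  have h2 := quad hs (fun t => a t + l * b t) sz nr h1 H2 H3 p
  -- compare
  have h3 : ∀ T : Finset ι, l * (if Conn r T ∧ 2 ≤ T.card ∧ (∃ t ∈ T, nr p t) then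
      ∑ t ∈ T, b t * ∏ s ∈ T.erase t, a s else 0)
      ≤ if Conn r T ∧ 2 ≤ T.card ∧ (∃ t ∈ T, nr p t) then ∏ t ∈ T, (a t + l * b t) else 0 := by
    intro T
    split_ifs
    · rw [Finset.mul_sum, Finset.prod_add]
      -- the terms with exactly one factor `l * b`
      calc ∑ t ∈ T, l * (b t * ∏ s ∈ T.erase t, a s)
          = ∑ t ∈ T, (∏ s ∈ T.erase t, a s) * ∏ s ∈ T \ T.erase t, (l * b s) := by
            refine Finset.sum_congr rfl fun t ht => ?_
            rw [Finset.sdiff_erase ht, Finset.sdiff_self]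
            rw [show insert t (∅ : Finset ι) = {t} from rfl, Finset.prod_singleton]
            ring
        _ = ∑ A ∈ T.image (fun t => T.erase t), (∏ s ∈ A, a s) * ∏ s ∈ T \ A, (l * b s) := by
            rw [Finset.sum_image]
            intro t ht t' ht' h
            by_contra hne
            have : t ∈ T.erase t' := Finset.mem_erase.2 ⟨hne, ht⟩
            rw [← show T.erase t = T.erase t' from h] at this
            exact (Finset.mem_erase.1 this).1 rfl
        _ ≤ ∑ A ∈ T.powerset, (∏ s ∈ A, a s) * ∏ s ∈ T \ A, (l * b s) := by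
            refine Finset.sum_le_sum_of_subset fun A hA => ?_
            obtain ⟨t, _, rfl⟩ := Finset.mem_image.1 hA
            exact Finset.mem_powerset.2 (Finset.erase_subset _ _)
    · simp
  have h4 : l * ∑' T : Finset ι, (if Conn r T ∧ 2 ≤ T.card ∧ (∃ t ∈ T, nr p t) then
      ∑ t ∈ T, b t * ∏ s ∈ T.erase t, a s else 0) ≤ C * (2 * ε) * (2 * ε) := by
    rw [← ENNReal.tsum_mul_left]
    exact (ENNReal.tsum_le_tsum h3).trans h2
  refine (ENNReal.mul_le_mul_iff_right hl0 hlt).1 (h4.trans ?_)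
  calc C * (2 * ε) * (2 * ε) = C * (2 * ε) * (2 * (l * η)) := by rw [hlη]
    _ = l * (4 * C * ε * η) := by ring
    _ ≤ l * (4 * C * ε * η) := le_rfl

open Classical in
/-- **(Q2) Lipschitz bound** -/
theorem quad_lip (hs : ∀ a b, r a b → r b a) (a b : ι → ℝ≥0∞) (sz : ι → ℕ)
    (nr : β → ι → Prop) {C ε η : ℝ≥0∞}
    (H1 : ∀ p, ∑' t, (if nr p t then a t * 3 ^ sz t else 0) ≤ ε)
    (H1' : ∀ p, ∑' t, (if nr p t then b t * 3 ^ sz t else 0) ≤ η)
    (H2 : ∀ s, ∃ P : Finset β, (P.card : ℝ≥0∞) ≤ C * sz s ∧ ∀ t, r s t → ∃ p ∈ P, nr p t)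
    (H3 : C * (2 * ε) ≤ 1) (hC : C ≠ ∞) (hε : ε ≠ ∞) (hη : η ≠ ∞) (p : β) :
    ∑' T : Finset ι, (if Conn r T ∧ 2 ≤ T.card ∧ (∃ t ∈ T, nr p t) then
      ∑ t ∈ T, b t * ∏ s ∈ T.erase t, a s else 0) ≤ 4 * C * ε * η := by
  set X : ℝ≥0∞ := ∑' T : Finset ι, (if Conn r T ∧ 2 ≤ T.card ∧ (∃ t ∈ T, nr p t) then
      ∑ t ∈ T, b t * ∏ s ∈ T.erase t, a s else 0) with hX
  have key : ∀ ε' η' : ℝ≥0∞, ε ≤ ε' → η ≤ η' → C * (2 * ε') ≤ 1 → ε' ≠ 0 → ε' ≠ ∞ → η' ≠ 0 →
      η' ≠ ∞ → X ≤ 4 * C * ε' * η' := fun ε' η' h1 h2 h3 h4 h5 h6 h7 =>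
    quad_lip_aux hs a b sz nr (fun p => (H1 p).trans h1) (fun p => (H1' p).trans h2) H2 h3 h4 h5
      h6 h7 p
  have h4C : 4 * C ≠ ∞ := ENNReal.mul_ne_top (by norm_num) hC
  -- an auxiliary limit statement
  have lim : ∀ K : ℝ≥0∞, K ≠ ∞ → (∀ n : ℕ, 0 < n → X ≤ K * ((n : ℝ≥0∞))⁻¹) → X = 0 := by
    intro K hK h
    have h1 : Filter.Tendsto (fun n : ℕ => K * ((n : ℝ≥0∞))⁻¹) Filter.atTop (nhds (K * 0)) :=
      ENNReal.Tendsto.const_mul ENNReal.tendsto_inv_nat_nhds_zero (Or.inr hK)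
    rw [mul_zero] at h1
    have h2 := ge_of_tendsto h1 (Filter.eventually_atTop.2 ⟨1, fun n hn => h n hn⟩)
    exact le_antisymm h2 bot_le
  -- first make `η` positive
  have key2 : ∀ ε' : ℝ≥0∞, ε ≤ ε' → C * (2 * ε') ≤ 1 → ε' ≠ 0 → ε' ≠ ∞ →
      X ≤ 4 * C * ε' * η := by
    intro ε' h1 h3 h4 h5
    by_cases hη0 : η = 0
    · have : X = 0 := by
        refine lim (4 * C * ε') (ENNReal.mul_ne_top h4C h5) fun n hn => ?_
        refine key ε' ((n : ℝ≥0∞))⁻¹ h1 (hη0 ▸ bot_le) h3 h4 h5 ?_ ?_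
        · exact ENNReal.inv_ne_zero.2 (ENNReal.natCast_ne_top n)
        · exact ENNReal.inv_ne_top.2 (by exact_mod_cast hn.ne')
      rw [this]; exact bot_le
    · exact key ε' η h1 le_rfl h3 h4 h5 hη0 hη
  by_cases hε0 : ε = 0
  · have : X = 0 := by
      -- use `ε' = 1 / (2 (C + 1) n)`
      have hC1 : 2 * (C + 1) ≠ ∞ := ENNReal.mul_ne_top (by norm_num)
        (ENNReal.add_ne_top.2 ⟨hC, ENNReal.one_ne_top⟩)
      have hC0 : 2 * (C + 1) ≠ 0 := mul_ne_zero (by norm_num) (by simp)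
      refine lim (4 * C * (2 * (C + 1))⁻¹ * η) (ENNReal.mul_ne_top (ENNReal.mul_ne_top h4C
        (ENNReal.inv_ne_top.2 hC0)) hη) fun n hn => ?_
      have hn0 : (n : ℝ≥0∞) ≠ 0 := by exact_mod_cast hn.ne'
      have hnt : (n : ℝ≥0∞) ≠ ∞ := ENNReal.natCast_ne_top n
      have hinv : ((n : ℝ≥0∞))⁻¹ ≤ 1 := ENNReal.inv_le_one.2 (by exact_mod_cast hn)
      have h3 : C * (2 * ((2 * (C + 1))⁻¹ * ((n : ℝ≥0∞))⁻¹)) ≤ 1 := by
        calc C * (2 * ((2 * (C + 1))⁻¹ * ((n : ℝ≥0∞))⁻¹))
            ≤ (C + 1) * (2 * ((2 * (C + 1))⁻¹ * 1)) := by gcongr; exact le_self_add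
          _ = (2 * (C + 1)) * (2 * (C + 1))⁻¹ := by ring
          _ = 1 := ENNReal.mul_inv_cancel hC0 hC1
      refine (key2 ((2 * (C + 1))⁻¹ * ((n : ℝ≥0∞))⁻¹) (hε0 ▸ bot_le) h3 ?_ ?_).trans (le_of_eq ?_)
      · exact mul_ne_zero (ENNReal.inv_ne_zero.2 hC1) (ENNReal.inv_ne_zero.2 hnt)
      · exact ENNReal.mul_ne_top (ENNReal.inv_ne_top.2 hC0) (ENNReal.inv_ne_top.2 hn0)
      · ring
    rw [this]; exact bot_le
  · exact key2 ε le_rfl H3 hε0 hε

end quad

/-! ### families of norms -/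

section norms

variable {F : Type*} [DecidableEq F] {R : Type*} [CommRing R]

/-- a family of norms with values in `[0,∞]`, indexed by face sets, antitone in the face set,
submultiplicative on elements of finite norm -/
structure NormFam (nm : Finset F → R → ℝ≥0∞) : Prop where
  zero : ∀ U, nm U 0 = 0
  one : ∀ U, nm U 1 ≤ 1
  add : ∀ U x y, nm U (x + y) ≤ nm U x + nm U y
  neg : ∀ U x, nm U (-x) = nm U x
  anti : ∀ U V x, U ⊆ V → nm V x ≤ nm U x
  mul : ∀ U x y, nm U x ≠ ∞ → nm U y ≠ ∞ → nm U (x * y) ≤ nm U x * nm U y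

variable {nm : Finset F → R → ℝ≥0∞}

theorem NormFam.sum (h : NormFam nm) (U : Finset F) {κ : Type*} (s : Finset κ) (f : κ → R) :
    nm U (∑ i ∈ s, f i) ≤ ∑ i ∈ s, nm U (f i) := by
  classical
  induction s using Finset.induction_on with
  | empty => simp [h.zero]
  | @insert i s hi ih =>
    rw [Finset.sum_insert hi, Finset.sum_insert hi]
    exact (h.add _ _ _).trans (add_le_add le_rfl ih)

theorem NormFam.sub (h : NormFam nm) (U : Finset F) (x y : R) :
    nm U (x - y) ≤ nm U x + nm U y := by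
  rw [sub_eq_add_neg]
  exact (h.add _ _ _).trans (by rw [h.neg])

theorem NormFam.mul_le (h : NormFam nm) {U : Finset F} {x y : R} {a b : ℝ≥0∞}
    (hx : nm U x ≤ a) (hy : nm U y ≤ b) (ha : a ≠ ∞) (hb : b ≠ ∞) : nm U (x * y) ≤ a * b :=
  (h.mul U x y (ne_top_of_le_ne_top ha hx) (ne_top_of_le_ne_top hb hy)).trans
    (mul_le_mul' hx hy)

/-- norm of a product over a finite set -/
theorem NormFam.prod (h : NormFam nm) {κ : Type*} {W : Finset F} (T : Finset κ)
    (x : κ → R) (a : κ → ℝ≥0∞) (hx : ∀ t ∈ T, nm W (x t) ≤ a t) (ha : ∀ t ∈ T, a t ≠ ∞) :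
    nm W (∏ t ∈ T, x t) ≤ ∏ t ∈ T, a t := by
  classical
  induction T using Finset.induction_on with
  | empty => simpa using h.one W
  | @insert i T hi ih =>
    rw [Finset.prod_insert hi, Finset.prod_insert hi]
    refine h.mul_le (hx i (Finset.mem_insert_self _ _))
      (ih (fun t ht => hx t (Finset.mem_insert_of_mem ht))
        (fun t ht => ha t (Finset.mem_insert_of_mem ht)))
      (ha i (Finset.mem_insert_self _ _)) ?_
    exact ENNReal.prod_ne_top fun t ht => ha t (Finset.mem_insert_of_mem ht)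

/-- norm of a difference of two products -/
theorem NormFam.prod_sub (h : NormFam nm) {κ : Type*} [DecidableEq κ] {W : Finset F} (T : Finset κ)
    (x y : κ → R) (a b : κ → ℝ≥0∞) (hx : ∀ t ∈ T, nm W (x t) ≤ a t)
    (hy : ∀ t ∈ T, nm W (y t) ≤ a t) (hxy : ∀ t ∈ T, nm W (x t - y t) ≤ b t)
    (ha : ∀ t ∈ T, a t ≠ ∞) (hb : ∀ t ∈ T, b t ≠ ∞) :
    nm W (∏ t ∈ T, x t - ∏ t ∈ T, y t) ≤ ∑ t ∈ T, b t * ∏ s ∈ T.erase t, a s := by
  induction T using Finset.induction_on with
  | empty => simp [h.zero]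
  | @insert i T hi ih =>
    have ih' := ih (fun t ht => hx t (Finset.mem_insert_of_mem ht))
      (fun t ht => hy t (Finset.mem_insert_of_mem ht))
      (fun t ht => hxy t (Finset.mem_insert_of_mem ht))
      (fun t ht => ha t (Finset.mem_insert_of_mem ht))
      (fun t ht => hb t (Finset.mem_insert_of_mem ht))
    have hfin : ∀ t ∈ T, b t * ∏ s ∈ T.erase t, a s ≠ ∞ := fun t ht =>
      ENNReal.mul_ne_top (hb t (Finset.mem_insert_of_mem ht)) (ENNReal.prod_ne_top fun s hs =>
        ha s (Finset.mem_insert_of_mem (Finset.mem_of_mem_erase hs)))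
    rw [Finset.prod_insert hi, Finset.prod_insert hi, Finset.sum_insert hi,
      Finset.erase_insert hi]
    have hsplit : x i * ∏ t ∈ T, x t - y i * ∏ t ∈ T, y t
        = (x i - y i) * ∏ t ∈ T, x t + y i * (∏ t ∈ T, x t - ∏ t ∈ T, y t) := by ring
    rw [hsplit]
    refine (h.add _ _ _).trans (add_le_add ?_ ?_)
    · refine h.mul_le (hxy i (Finset.mem_insert_self _ _))
        (h.prod T x a (fun t ht => hx t (Finset.mem_insert_of_mem ht))
          (fun t ht => ha t (Finset.mem_insert_of_mem ht)))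
        (hb i (Finset.mem_insert_self _ _)) ?_
      exact ENNReal.prod_ne_top fun t ht => ha t (Finset.mem_insert_of_mem ht)
    · refine (h.mul_le (hy i (Finset.mem_insert_self _ _)) ih'
        (ha i (Finset.mem_insert_self _ _)) ?_).trans (le_of_eq ?_)
      · exact ENNReal.sum_ne_top.2 hfin
      · rw [Finset.mul_sum]
        refine Finset.sum_congr rfl fun t ht => ?_
        have hti : i ∉ T.erase t := fun h' => hi (Finset.mem_of_mem_erase h')
        have hne : i ≠ t := fun h' => hi (h' ▸ ht)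
        rw [Finset.erase_insert_of_ne hne, Finset.prod_insert hti]
        ring

end norms

/-! ### the quadratic part of the reclustered activity -/

section KKsec

variable {F : Type*} [DecidableEq F] {R : Type*} [CommRing R] {near near' : F → F → Prop}

open Classical in
/-- the part of `KK` with at least two items -/
noncomputable def QQ (near near' : F → F → Prop) (K B : Finset F → R) (W : Finset F) : R :=
  ∑ T ∈ (itm W).powerset.filter (fun T => Conn (itr near') T ∧ spp T = W ∧ 2 ≤ T.card),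
    wt near K B T

theorem KK_eq_QQ {K B : Finset F → R} {W : Finset F} (hW : W.Nonempty) :
    KK near near' K B W = K W + B W + QQ near near' K B W := KK_eq K B hW

theorem spp_mono {S T : Finset (Finset F ⊕ Finset F)} (h : S ⊆ T) : spp S ⊆ spp T := by
  intro x hx
  obtain ⟨t, ht, hxt⟩ := mem_spp.1 hx
  exact mem_spp.2 ⟨t, h ht, hxt⟩

theorem sp_subset_spp {T : Finset (Finset F ⊕ Finset F)} {t : Finset F ⊕ Finset F} (ht : t ∈ T) :
    sp t ⊆ spp T := fun _ hx => mem_spp.2 ⟨t, ht, hx⟩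

/-- data for the summation: out-weight `Wo`, sizes `sz`, base points `nr` -/
structure SumData (near' : F → F → Prop) (β : Type*) (Wo : Finset F → ℝ≥0∞) (sz : Finset F → ℕ)
    (nr : β → Finset F → Prop) (C : ℝ≥0∞) : Prop where
  wpos : ∀ U, Wo U ≠ 0
  wunion : ∀ U V, Wo (U ∪ V) ≤ Wo U * Wo V
  nempty : ∀ p, ¬ nr p ∅
  nunion : ∀ p U V, nr p (U ∪ V) → nr p U ∨ nr p V
  cov : ∀ U, ∃ P : Finset β, (P.card : ℝ≥0∞) ≤ C * sz U ∧
    ∀ V, touch near' U V → ∃ p ∈ P, nr p V
  hit : ∀ U, U.Nonempty → ∃ p, nr p U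

variable {β : Type*} {Wo : Finset F → ℝ≥0∞} {sz : Finset F → ℕ} {nr : β → Finset F → Prop}
  {C : ℝ≥0∞}

theorem spp_insert (t : Finset F ⊕ Finset F) (T : Finset (Finset F ⊕ Finset F)) :
    spp (insert t T) = sp t ∪ spp T := by
  unfold spp
  rw [Finset.biUnion_insert]

theorem SumData.wprod (h : SumData near' β Wo sz nr C) {T : Finset (Finset F ⊕ Finset F)}
    (hT : T.Nonempty) : Wo (spp T) ≤ ∏ t ∈ T, Wo (sp t) := by
  induction hT using Finset.Nonempty.cons_induction with
  | singleton t => simp [spp_singleton]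
  | cons t T ht hT ih =>
    rw [Finset.cons_eq_insert, spp_insert, Finset.prod_insert ht]
    exact (h.wunion _ _).trans (mul_le_mul_right ih _)

theorem SumData.nr_spp (h : SumData near' β Wo sz nr C) {T : Finset (Finset F ⊕ Finset F)}
    {p : β} (hp : nr p (spp T)) : ∃ t ∈ T, nr p (sp t) := by
  induction T using Finset.induction_on with
  | empty => exact absurd hp (h.nempty p)
  | @insert t T ht ih =>
    rw [spp_insert] at hp
    rcases h.nunion _ _ _ hp with h1 | h1
    · exact ⟨t, Finset.mem_insert_self _ _, h1⟩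
    · obtain ⟨t', ht', h2⟩ := ih h1
      exact ⟨t', Finset.mem_insert_of_mem ht', h2⟩

open Classical in
/-- tsum over the item type -/
theorem tsum_items (f : Finset F ⊕ Finset F → ℝ≥0∞) :
    ∑' t, f t = ∑' U, f (Sum.inl U) + ∑' U, f (Sum.inr U) :=
  Summable.tsum_sum ENNReal.summable ENNReal.summable

open Classical in
/-- regrouping: the sum over `W` of the sums over the item sets with union `W` -/
theorem regroup (q : Finset F → Prop) (x : Finset (Finset F ⊕ Finset F) → ℝ≥0∞) :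
    ∑' W : Finset F, (if q W then
      ∑ T ∈ (itm W).powerset.filter (fun T => Conn (itr near') T ∧ spp T = W ∧ 2 ≤ T.card), x T
      else 0) ≤ ∑' T : Finset (Finset F ⊕ Finset F),
        (if Conn (itr near') T ∧ 2 ≤ T.card ∧ q (spp T) then x T else 0) := by
  have h1 : ∀ W : Finset F, (if q W then
      ∑ T ∈ (itm W).powerset.filter (fun T => Conn (itr near') T ∧ spp T = W ∧ 2 ≤ T.card), x T
      else 0) ≤ ∑' T : Finset (Finset F ⊕ Finset F),
        (if spp T = W then
          (if Conn (itr near') T ∧ 2 ≤ T.card ∧ q (spp T) then x T else 0) else 0) := by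
    intro W
    split_ifs with hq
    · refine le_trans (Finset.sum_le_sum fun T hT => ?_) (ENNReal.sum_le_tsum
        ((itm W).powerset.filter (fun T => Conn (itr near') T ∧ spp T = W ∧ 2 ≤ T.card)))
      have := (Finset.mem_filter.1 hT).2
      rw [if_pos this.2.1, if_pos ⟨this.1, this.2.2, this.2.1 ▸ hq⟩]
    · exact bot_le
  refine (ENNReal.tsum_le_tsum h1).trans ?_
  rw [ENNReal.tsum_comm]
  refine ENNReal.tsum_le_tsum fun T => ?_
  rw [tsum_ite_eq' (spp T)]

/-- finiteness of the single activities -/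
theorem SumData.fin (h : SumData near' β Wo sz nr C) {x : Finset F → ℝ≥0∞} {ε : ℝ≥0∞}
    (hε : ε ≠ ∞) (H : ∀ p, ∑' U, Set.indicator {U | nr p U} (fun U => Wo U * 3 ^ sz U * x U) U ≤ ε)
    {U : Finset F} (hU : U.Nonempty) : x U ≠ ∞ := by
  classical
  obtain ⟨p, hp⟩ := h.hit U hU
  intro hx
  have h1 := (ENNReal.le_tsum (f := fun U : Finset F =>
    Set.indicator {U | nr p U} (fun U => Wo U * 3 ^ sz U * x U) U) U).trans (H p)
  rw [Set.indicator_of_mem (by exact hp), hx, ENNReal.mul_top] at h1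
  · exact hε (top_le_iff.1 h1)
  · exact mul_ne_zero (h.wpos U) (pow_ne_zero _ (by norm_num))

open Classical in
theorem items_H1 {x y : Finset F → ℝ≥0∞} {ε₁ ε₂ : ℝ≥0∞} (p : β)
    (H : ∑' U, Set.indicator {U | nr p U} (fun U => Wo U * 3 ^ sz U * x U) U ≤ ε₁)
    (H' : ∑' U, Set.indicator {U | nr p U} (fun U => Wo U * 3 ^ sz U * y U) U ≤ ε₂) :
    ∑' t : Finset F ⊕ Finset F, (if nr p (sp t) then
      (Wo (sp t) * Sum.elim x y t) * 3 ^ sz (sp t) else 0) ≤ ε₁ + ε₂ := by
  rw [tsum_items]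
  refine add_le_add (le_trans (le_of_eq ?_) H) (le_trans (le_of_eq ?_) H')
  · refine tsum_congr fun U => ?_
    by_cases h : nr p U
    · rw [Set.indicator_of_mem (by exact h),
        if_pos (show nr p (sp (Sum.inl U : Finset F ⊕ Finset F)) from h)]
      simp only [sp_inl, Sum.elim_inl]
      ring
    · rw [Set.indicator_of_notMem (by exact h),
        if_neg (show ¬ nr p (sp (Sum.inl U : Finset F ⊕ Finset F)) from h)]
  · refine tsum_congr fun U => ?_
    by_cases h : nr p U
    · rw [Set.indicator_of_mem (by exact h),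
        if_pos (show nr p (sp (Sum.inr U : Finset F ⊕ Finset F)) from h)]
      simp only [sp_inr, Sum.elim_inr]
      ring
    · rw [Set.indicator_of_notMem (by exact h),
        if_neg (show ¬ nr p (sp (Sum.inr U : Finset F ⊕ Finset F)) from h)]

/-- **(Q3) quadratic bound for the reclustered activity** -/
theorem KK_quad (hs : ∀ a b, near' a b → near' b a) {nm : Finset F → R → ℝ≥0∞}
    (hN : NormFam nm) (h : SumData near' β Wo sz nr C) {K B : Finset F → R} {εK εB : ℝ≥0∞}
    (hεK : εK ≠ ∞) (hεB : εB ≠ ∞)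
    (HK : ∀ p, ∑' U, Set.indicator {U | nr p U} (fun U => Wo U * 3 ^ sz U * nm U (K U)) U ≤ εK)
    (HB : ∀ p, ∑' U, Set.indicator {U | nr p U} (fun U => Wo U * 3 ^ sz U * nm U (B U)) U ≤ εB)
    (H3 : C * (εK + εB) ≤ 1) (p : β) :
    ∑' W, Set.indicator {W | nr p W} (fun W => Wo W * nm W (QQ near near' K B W)) W
      ≤ C * (εK + εB) * (εK + εB) := by
  classical
  set a : Finset F ⊕ Finset F → ℝ≥0∞ := fun t =>
    Wo (sp t) * Sum.elim (fun U => nm U (K U)) (fun U => nm U (B U)) t with ha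
  have hfin : ∀ t : Finset F ⊕ Finset F, (sp t).Nonempty →
      Sum.elim (fun U => nm U (K U)) (fun U => nm U (B U)) t ≠ ∞ := by
    rintro (U | U) hU
    · exact h.fin hεK HK hU
    · exact h.fin hεB HB hU
  have h1 : ∀ W, Set.indicator {W | nr p W} (fun W => Wo W * nm W (QQ near near' K B W)) W
      ≤ if nr p W then ∑ T ∈ (itm W).powerset.filter
          (fun T => Conn (itr near') T ∧ spp T = W ∧ 2 ≤ T.card), ∏ t ∈ T, a t else 0 := by
    intro W
    by_cases hp : nr p W
    · rw [Set.indicator_of_mem (by exact hp), if_pos hp]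
      unfold QQ
      refine (mul_le_mul_right (hN.sum W _ _) _).trans ?_
      rw [Finset.mul_sum]
      refine Finset.sum_le_sum fun T hT => ?_
      obtain ⟨hTW, hc, hsp, h2⟩ := by
        rw [Finset.mem_filter] at hT
        exact (⟨hT.1, hT.2.1, hT.2.2.1, hT.2.2.2⟩ : _ ∧ _ ∧ _ ∧ _)
      unfold wt
      split_ifs with hg
      · subst hsp
        refine (mul_le_mul' (h.wprod hc.1) (hN.prod T _
          (Sum.elim (fun U => nm U (K U)) (fun U => nm U (B U))) (fun t ht => ?_)
          (fun t ht => hfin t (hg.ne t ht)))).trans (le_of_eq ?_)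
        · rcases t with U | U
          · exact hN.anti _ _ _ (sp_subset_spp ht)
          · exact hN.anti _ _ _ (sp_subset_spp ht)
        · rw [← Finset.prod_mul_distrib]
      · rw [hN.zero, mul_zero]
        exact bot_le
    · rw [Set.indicator_of_notMem (by exact hp)]
      exact bot_le
  refine (ENNReal.tsum_le_tsum h1).trans ((regroup _ _).trans ?_)
  have h2 := quad (r := itr near') (β := β) (fun a b hab => touch.symm hs hab) a
    (fun t => sz (sp t)) (fun p t => nr p (sp t)) (C := C) (ε := εK + εB)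
    (fun p => items_H1 p (HK p) (HB p)) ?_ H3 p
  · refine (ENNReal.tsum_le_tsum fun T => ?_).trans h2
    split_ifs with hc1 hc2
    · exact le_rfl
    · exact absurd ⟨hc1.1, hc1.2.1, h.nr_spp hc1.2.2⟩ hc2
    · exact bot_le
    · exact bot_le
  · intro s
    obtain ⟨P, hP, hcov⟩ := h.cov (sp s)
    exact ⟨P, hP, fun t ht => hcov (sp t) ht⟩

/-- **(Q3) Lipschitz bound for the reclustered activity** -/
theorem KK_lip (hs : ∀ a b, near' a b → near' b a) {nm : Finset F → R → ℝ≥0∞}
    (hN : NormFam nm) (h : SumData near' β Wo sz nr C) {K B K₂ B₂ : Finset F → R}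
    {ε η : ℝ≥0∞} {εK εB εK₂ εB₂ ηK ηB : ℝ≥0∞} (hC : C ≠ ∞)
    (hεK : εK ≠ ∞) (hεB : εB ≠ ∞) (hεK₂ : εK₂ ≠ ∞) (hεB₂ : εB₂ ≠ ∞) (hηK : ηK ≠ ∞) (hηB : ηB ≠ ∞)
    (HK : ∀ p, ∑' U, Set.indicator {U | nr p U} (fun U => Wo U * 3 ^ sz U * nm U (K U)) U ≤ εK)
    (HB : ∀ p, ∑' U, Set.indicator {U | nr p U} (fun U => Wo U * 3 ^ sz U * nm U (B U)) U ≤ εB)
    (HK₂ : ∀ p, ∑' U, Set.indicator {U | nr p U} (fun U => Wo U * 3 ^ sz U * nm U (K₂ U)) U ≤ εK₂)
    (HB₂ : ∀ p, ∑' U, Set.indicator {U | nr p U} (fun U => Wo U * 3 ^ sz U * nm U (B₂ U)) U ≤ εB₂)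
    (HdK : ∀ p, ∑' U, Set.indicator {U | nr p U}
      (fun U => Wo U * 3 ^ sz U * nm U (K U - K₂ U)) U ≤ ηK)
    (HdB : ∀ p, ∑' U, Set.indicator {U | nr p U}
      (fun U => Wo U * 3 ^ sz U * nm U (B U - B₂ U)) U ≤ ηB)
    (H3 : C * (2 * ((εK + εK₂) + (εB + εB₂))) ≤ 1) (p : β) :
    ∑' W, Set.indicator {W | nr p W}
      (fun W => Wo W * nm W (QQ near near' K B W - QQ near near' K₂ B₂ W)) W
      ≤ 4 * C * ((εK + εK₂) + (εB + εB₂)) * (ηK + ηB) := by
  classical
  -- weights of the items and of the marked item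
  set xK : Finset F → ℝ≥0∞ := fun U => nm U (K U) + nm U (K₂ U) with hxK
  set xB : Finset F → ℝ≥0∞ := fun U => nm U (B U) + nm U (B₂ U) with hxB
  have hadd : ∀ (x y : Finset F → ℝ≥0∞) (e₁ e₂ : ℝ≥0∞),
      (∀ p, ∑' U, Set.indicator {U | nr p U} (fun U => Wo U * 3 ^ sz U * x U) U ≤ e₁) →
      (∀ p, ∑' U, Set.indicator {U | nr p U} (fun U => Wo U * 3 ^ sz U * y U) U ≤ e₂) →
      ∀ p, ∑' U, Set.indicator {U | nr p U} (fun U => Wo U * 3 ^ sz U * (x U + y U)) U
        ≤ e₁ + e₂ := by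
    intro x y e₁ e₂ h1 h2 p
    refine le_trans (le_of_eq ?_) (add_le_add (h1 p) (h2 p))
    rw [← ENNReal.tsum_add]
    refine tsum_congr fun U => ?_
    by_cases hp : nr p U
    · simp only [Set.indicator_of_mem (show U ∈ {U | nr p U} from hp), mul_add]
    · simp only [Set.indicator_of_notMem (show U ∉ {U | nr p U} from hp), add_zero]
  have HxK := hadd _ _ _ _ HK HK₂
  have HxB := hadd _ _ _ _ HB HB₂
  have hεK' : εK + εK₂ ≠ ∞ := ENNReal.add_ne_top.2 ⟨hεK, hεK₂⟩
  have hεB' : εB + εB₂ ≠ ∞ := ENNReal.add_ne_top.2 ⟨hεB, hεB₂⟩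
  set a : Finset F ⊕ Finset F → ℝ≥0∞ := fun t => Wo (sp t) * Sum.elim xK xB t with ha
  set b : Finset F ⊕ Finset F → ℝ≥0∞ := fun t =>
    Wo (sp t) * Sum.elim (fun U => nm U (K U - K₂ U)) (fun U => nm U (B U - B₂ U)) t with hb
  have hfin : ∀ t : Finset F ⊕ Finset F, (sp t).Nonempty → Sum.elim xK xB t ≠ ∞ := by
    rintro (U | U) hU
    · exact h.fin hεK' HxK hU
    · exact h.fin hεB' HxB hU
  have hfin' : ∀ t : Finset F ⊕ Finset F, (sp t).Nonempty →
      Sum.elim (fun U => nm U (K U - K₂ U)) (fun U => nm U (B U - B₂ U)) t ≠ ∞ := by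
    rintro (U | U) hU
    · exact h.fin hηK HdK hU
    · exact h.fin hηB HdB hU
  have h1 : ∀ W, Set.indicator {W | nr p W}
      (fun W => Wo W * nm W (QQ near near' K B W - QQ near near' K₂ B₂ W)) W
      ≤ if nr p W then ∑ T ∈ (itm W).powerset.filter
          (fun T => Conn (itr near') T ∧ spp T = W ∧ 2 ≤ T.card),
            ∑ t ∈ T, b t * ∏ s ∈ T.erase t, a s else 0 := by
    intro W
    by_cases hp : nr p W
    · rw [Set.indicator_of_mem (by exact hp), if_pos hp]
      unfold QQ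
      rw [← Finset.sum_sub_distrib]
      refine (mul_le_mul_right (hN.sum W _ _) _).trans ?_
      rw [Finset.mul_sum]
      refine Finset.sum_le_sum fun T hT => ?_
      obtain ⟨hTW, hc, hsp, h2⟩ := by
        rw [Finset.mem_filter] at hT
        exact (⟨hT.1, hT.2.1, hT.2.2.1, hT.2.2.2⟩ : _ ∧ _ ∧ _ ∧ _)
      unfold wt
      split_ifs with hg
      · subst hsp
        refine (mul_le_mul' (h.wprod hc.1) (hN.prod_sub T _ _ (Sum.elim xK xB)
          (Sum.elim (fun U => nm U (K U - K₂ U)) (fun U => nm U (B U - B₂ U)))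
          (fun t ht => ?_) (fun t ht => ?_) (fun t ht => ?_)
          (fun t ht => hfin t (hg.ne t ht)) (fun t ht => hfin' t (hg.ne t ht)))).trans
            (le_of_eq ?_)
        · rcases t with U | U
          · exact (hN.anti _ _ _ (sp_subset_spp ht)).trans le_self_add
          · exact (hN.anti _ _ _ (sp_subset_spp ht)).trans le_self_add
        · rcases t with U | U
          · exact (hN.anti _ _ _ (sp_subset_spp ht)).trans le_add_self
          · exact (hN.anti _ _ _ (sp_subset_spp ht)).trans le_add_self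
        · rcases t with U | U
          · exact hN.anti _ _ _ (sp_subset_spp ht)
          · exact hN.anti _ _ _ (sp_subset_spp ht)
        · rw [Finset.mul_sum]
          refine Finset.sum_congr rfl fun t ht => ?_
          rw [← Finset.mul_prod_erase T (fun t => Wo (sp t)) ht]
          simp only [ha, hb]
          rw [Finset.prod_mul_distrib]
          ring
      · rw [sub_zero, hN.zero, mul_zero]
        exact bot_le
    · rw [Set.indicator_of_notMem (by exact hp)]
      exact bot_le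
  refine (ENNReal.tsum_le_tsum h1).trans ((regroup _ _).trans ?_)
  have h2 := quad_lip (r := itr near') (β := β) (fun a b hab => touch.symm hs hab) a b
    (fun t => sz (sp t)) (fun p t => nr p (sp t)) (C := C) (ε := (εK + εK₂) + (εB + εB₂))
    (η := ηK + ηB)
    (fun p => items_H1 p (HxK p) (HxB p)) (fun p => items_H1 p (HdK p) (HdB p)) ?_ H3 hC
    (ENNReal.add_ne_top.2 ⟨hεK', hεB'⟩) (ENNReal.add_ne_top.2 ⟨hηK, hηB⟩) p
  · refine (ENNReal.tsum_le_tsum fun T => ?_).trans h2
    split_ifs with hc1 hc2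
    · exact le_rfl
    · exact absurd ⟨hc1.1, hc1.2.1, h.nr_spp hc1.2.2⟩ hc2
    · exact bot_le
    · exact bot_le
  · intro s
    obtain ⟨P, hP, hcov⟩ := h.cov (sp s)
    exact ⟨P, hP, fun t ht => hcov (sp t) ht⟩

end KKsec

end Crest.Agent.R165.Quadx897
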