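import Crest.Agent.R165.ExpN_337
import Crest.Agent.R165.Quad_897

/-!
# Row 165 (S0250), block G: exponential bounds in an abstract algebra norm (helper337)

* `GN N` : `N : Ge V → [0,∞]` is an algebra norm which splits off the constant term
* `GFam nm` : a family of such norms, antitone in the set of faces
* `GN.gexp_rem_le` : `N (gexp a - 1 - a) ≤ N a ^ 2` if `N a ≤ 1`
* `GN.gexp_rem_lip` : Lipschitz form
* instance `pG w`
-/

set_option autoImplicit false

noncomputable section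

namespace Crest.Agent.R165.ExpAx337

open scoped ENNReal Nat
open Crest.Agent.R165.Gr0x606 Crest.Agent.R165.Gr1x606 Crest.Agent.R165.GeOpsx337 Crest.Agent.R165.GrLocx337
  Crest.Agent.R165.PNormx417 Crest.Agent.R165.ExpGx337 Crest.Agent.R165.ExpNx337
  Crest.Agent.R165.Quadx897

variable {V : Type*} [AddCommGroup V] [Module ℝ V]

/-- an algebra norm with values in `[0,∞]` on the even elements -/
structure GN (N : Ge V → ℝ≥0∞) : Prop where
  zero : N 0 = 0
  one : N 1 ≤ 1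
  add : ∀ a b, N (a + b) ≤ N a + N b
  smul : ∀ (c : ℝ) a, N (c • a) ≤ ‖c‖ₑ * N a
  mul : ∀ a b, N a ≠ ∞ → N b ≠ ∞ → N (a * b) ≤ N a * N b
  split : ∀ a, ‖ctG a‖ₑ + N (nl a) ≤ N a

variable {N : Ge V → ℝ≥0∞}

namespace GN

theorem neg (h : GN N) (a : Ge V) : N (-a) = N a := by
  have h1 : ∀ a, N (-a) ≤ N a := fun a => by
    have := h.smul (-1) a
    rwa [neg_one_smul, enorm_neg, enorm_one, one_mul] at this
  refine le_antisymm (h1 a) ?_
  have := h1 (-a)
  rwa [neg_neg] at this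

theorem sub (h : GN N) (a b : Ge V) : N (a - b) ≤ N a + N b := by
  rw [sub_eq_add_neg]
  exact (h.add _ _).trans (by rw [h.neg])

theorem sum (h : GN N) {ι : Type*} (s : Finset ι) (f : ι → Ge V) :
    N (∑ i ∈ s, f i) ≤ ∑ i ∈ s, N (f i) := by
  classical
  induction s using Finset.induction_on with
  | empty => simp [h.zero]
  | insert i s hi ih =>
    rw [Finset.sum_insert hi, Finset.sum_insert hi]
    exact (h.add _ _).trans (add_le_add le_rfl ih)

theorem mul' (h : GN N) {a b : Ge V} {x y : ℝ≥0∞} (ha : N a ≤ x) (hb : N b ≤ y) (hx : x ≠ ∞)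
    (hy : y ≠ ∞) : N (a * b) ≤ x * y :=
  (h.mul a b (ne_top_of_le_ne_top hx ha) (ne_top_of_le_ne_top hy hb)).trans (mul_le_mul' ha hb)

theorem pow (h : GN N) {a : Ge V} {x : ℝ≥0∞} (ha : N a ≤ x) (hx : x ≠ ∞) (n : ℕ) :
    N (a ^ n) ≤ x ^ n := by
  induction n with
  | zero => simpa using h.one
  | succ n ih =>
    rw [pow_succ, pow_succ]
    exact h.mul' ih ha (ENNReal.pow_ne_top hx) hx

theorem term_le (hN : GN N) {a : Ge V} {x : ℝ} (hx : 0 ≤ x) (h : N a ≤ ENNReal.ofReal x)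
    (i : ℕ) : N ((i ! : ℝ)⁻¹ • a ^ i) ≤ ENNReal.ofReal (x ^ i / (i ! : ℝ)) := by
  refine (hN.smul _ _).trans ?_
  have h1 := hN.pow h ENNReal.ofReal_ne_top i
  rw [← ENNReal.ofReal_pow hx] at h1
  have hf : (0 : ℝ) ≤ (i ! : ℝ)⁻¹ := by positivity
  rw [Real.enorm_eq_ofReal hf]
  calc ENNReal.ofReal (i ! : ℝ)⁻¹ * N (a ^ i)
      ≤ ENNReal.ofReal (i ! : ℝ)⁻¹ * ENNReal.ofReal (x ^ i) := by gcongr
    _ = ENNReal.ofReal (x ^ i / (i ! : ℝ)) := by
      rw [← ENNReal.ofReal_mul hf, div_eq_inv_mul]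

theorem nexp_sub_one_le (hN : GN N) {a : Ge V} (ha : IsNilpotent a) {x : ℝ} (hx : 0 ≤ x)
    (h : N a ≤ ENNReal.ofReal x) : N (nexp a - 1) ≤ ENNReal.ofReal (Real.exp x - 1) := by
  obtain ⟨k, hk⟩ := ha
  have hk' : a ^ (k + 1) = 0 := by rw [pow_succ, hk, zero_mul]
  have e : nexp a - 1 = ∑ i ∈ Finset.range k, ((i + 1)! : ℝ)⁻¹ • a ^ (i + 1) := by
    rw [nexp_eq_sum hk', Finset.sum_range_succ']
    simp
  rw [e]
  refine (hN.sum _ _).trans ?_
  calc ∑ i ∈ Finset.range k, N (((i + 1)! : ℝ)⁻¹ • a ^ (i + 1))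
      ≤ ∑ i ∈ Finset.range k, ENNReal.ofReal (x ^ (i + 1) / ((i + 1)! : ℝ)) :=
        Finset.sum_le_sum fun i _ => hN.term_le hx h (i + 1)
    _ = ENNReal.ofReal (∑ i ∈ Finset.range k, x ^ (i + 1) / ((i + 1)! : ℝ)) := by
        rw [ENNReal.ofReal_sum_of_nonneg]
        intro i _; positivity
    _ ≤ _ := ENNReal.ofReal_le_ofReal (sum_succ_le hx k)

theorem nexp_sub_le (hN : GN N) {a : Ge V} (ha : IsNilpotent a) {x : ℝ} (hx : 0 ≤ x)
    (h : N a ≤ ENNReal.ofReal x) : N (nexp a - 1 - a) ≤ ENNReal.ofReal (Real.exp x - 1 - x) := by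
  obtain ⟨k, hk⟩ := ha
  have hk' : a ^ (k + 2) = 0 := by rw [pow_add, hk, zero_mul]
  have e : nexp a - 1 - a = ∑ i ∈ Finset.range k, ((i + 2)! : ℝ)⁻¹ • a ^ (i + 2) := by
    rw [nexp_eq_sum hk', Finset.sum_range_succ', Finset.sum_range_succ']
    simp
  rw [e]
  refine (hN.sum _ _).trans ?_
  calc ∑ i ∈ Finset.range k, N (((i + 2)! : ℝ)⁻¹ • a ^ (i + 2))
      ≤ ∑ i ∈ Finset.range k, ENNReal.ofReal (x ^ (i + 2) / ((i + 2)! : ℝ)) :=
        Finset.sum_le_sum fun i _ => hN.term_le hx h (i + 2)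
    _ = ENNReal.ofReal (∑ i ∈ Finset.range k, x ^ (i + 2) / ((i + 2)! : ℝ)) := by
        rw [ENNReal.ofReal_sum_of_nonneg]
        intro i _; positivity
    _ ≤ _ := ENNReal.ofReal_le_ofReal (sum_succ2_le hx k)

/-- real splitting of a bound -/
theorem split_bound (hN : GN N) {a : Ge V} {x : ℝ} (hx : 0 ≤ x)
    (h : N a ≤ ENNReal.ofReal x) : ∃ y : ℝ, 0 ≤ y ∧ N (nl a) ≤ ENNReal.ofReal y ∧
      |ctG a| + y ≤ x := by
  have h1 := (hN.split a).trans h
  have hfin : N (nl a) ≠ ∞ := ne_top_of_le_ne_top ENNReal.ofReal_ne_top (le_add_self.trans h1)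
  refine ⟨(N (nl a)).toReal, ENNReal.toReal_nonneg, ?_, ?_⟩
  · rw [ENNReal.ofReal_toReal hfin]
  · have h2 := (ENNReal.toReal_le_toReal (ENNReal.add_ne_top.2 ⟨enorm_ne_top, hfin⟩)
      ENNReal.ofReal_ne_top).2 h1
    rw [ENNReal.toReal_add enorm_ne_top hfin, ENNReal.toReal_ofReal hx, toReal_enorm,
      Real.norm_eq_abs] at h2
    exact h2

theorem gexp_sub_one_le (hN : GN N) {a : Ge V} {x : ℝ} (hx : 0 ≤ x)
    (h : N a ≤ ENNReal.ofReal x) : N (gexp a - 1) ≤ ENNReal.ofReal (Real.exp x - 1) := by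
  obtain ⟨y, hy0, hy, hxy⟩ := hN.split_bound hx h
  set c := ctG a with hc
  have e : gexp a - 1 = (Real.exp c - 1) • (1 : Ge V) + Real.exp c • (nexp (nl a) - 1) := by
    rw [gexp, ← hc, sub_smul, one_smul, smul_sub]; ring
  have h1 : N ((Real.exp c - 1) • (1 : Ge V)) ≤ ENNReal.ofReal (Real.exp |c| - 1) := by
    refine (hN.smul _ _).trans ?_
    calc ‖Real.exp c - 1‖ₑ * N (1 : Ge V) ≤ ‖Real.exp c - 1‖ₑ * 1 := by
          gcongr; exact hN.one
      _ = ENNReal.ofReal |Real.exp c - 1| := by rw [mul_one, Real.enorm_eq_ofReal_abs]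
      _ ≤ _ := ENNReal.ofReal_le_ofReal (abs_exp_sub_one_le c)
  have h2 : N (Real.exp c • (nexp (nl a) - 1)) ≤
      ENNReal.ofReal (Real.exp |c| * (Real.exp y - 1)) := by
    refine (hN.smul _ _).trans ?_
    rw [ENNReal.ofReal_mul (Real.exp_pos _).le, Real.enorm_eq_ofReal (Real.exp_pos _).le]
    exact mul_le_mul' (ENNReal.ofReal_le_ofReal (Real.exp_le_exp.2 (le_abs_self c)))
      (hN.nexp_sub_one_le (nl_nil a) hy0 hy)
  rw [e]
  refine (hN.add _ _).trans ((add_le_add h1 h2).trans ?_)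
  have p1 : 0 ≤ Real.exp |c| - 1 := by linarith [Real.one_le_exp (abs_nonneg c)]
  have p2 : 0 ≤ Real.exp |c| * (Real.exp y - 1) :=
    mul_nonneg (Real.exp_pos _).le (by linarith [Real.one_le_exp hy0])
  rw [← ENNReal.ofReal_add p1 p2]
  apply ENNReal.ofReal_le_ofReal
  have h3 : Real.exp (|c| + y) ≤ Real.exp x := Real.exp_le_exp.2 hxy
  rw [Real.exp_add] at h3
  nlinarith

theorem gexp_le (hN : GN N) {a : Ge V} {x : ℝ} (hx : 0 ≤ x)
    (h : N a ≤ ENNReal.ofReal x) : N (gexp a) ≤ ENNReal.ofReal (Real.exp x) := by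
  have h1 := hN.gexp_sub_one_le hx h
  have e : gexp a = 1 + (gexp a - 1) := by ring
  rw [e]
  refine (hN.add _ _).trans ((add_le_add hN.one h1).trans ?_)
  have p1 : 0 ≤ Real.exp x - 1 := by linarith [Real.one_le_exp hx]
  rw [← ENNReal.ofReal_one, ← ENNReal.ofReal_add zero_le_one p1]
  apply ENNReal.ofReal_le_ofReal
  linarith

/-- quadratic remainder -/
theorem gexp_sub_sub_le (hN : GN N) {a : Ge V} {x : ℝ} (hx : 0 ≤ x)
    (h : N a ≤ ENNReal.ofReal x) :
    N (gexp a - 1 - a) ≤ ENNReal.ofReal (Real.exp x - 1 - x) := by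
  obtain ⟨y, hy0, hy, hxy⟩ := hN.split_bound hx h
  set c := ctG a with hc
  have e : gexp a - 1 - a = (Real.exp c - 1 - c) • (1 : Ge V) + Real.exp c • (nexp (nl a) - 1 - nl a)
      + (Real.exp c - 1) • nl a := by
    have h0 : a = c • (1 : Ge V) + nl a := by
      rw [← Algebra.algebraMap_eq_smul_one, hc]; exact (add_nl a).symm
    conv_lhs => rw [gexp, ← hc]
    nth_rewrite 2 [h0]
    simp only [sub_smul, one_smul, smul_sub]
    abel
  have h1 : N ((Real.exp c - 1 - c) • (1 : Ge V)) ≤ ENNReal.ofReal (Real.exp |c| - 1 - |c|) := by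
    refine (hN.smul _ _).trans ?_
    calc ‖Real.exp c - 1 - c‖ₑ * N (1 : Ge V) ≤ ‖Real.exp c - 1 - c‖ₑ * 1 := by
          gcongr; exact hN.one
      _ = ENNReal.ofReal |Real.exp c - 1 - c| := by rw [mul_one, Real.enorm_eq_ofReal_abs]
      _ ≤ _ := ENNReal.ofReal_le_ofReal (abs_exp_sub_one_sub_le c)
  have h2 : N (Real.exp c • (nexp (nl a) - 1 - nl a)) ≤
      ENNReal.ofReal (Real.exp |c| * (Real.exp y - 1 - y)) := by
    refine (hN.smul _ _).trans ?_
    rw [ENNReal.ofReal_mul (Real.exp_pos _).le, Real.enorm_eq_ofReal (Real.exp_pos _).le]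
    exact mul_le_mul' (ENNReal.ofReal_le_ofReal (Real.exp_le_exp.2 (le_abs_self c)))
      (hN.nexp_sub_le (nl_nil a) hy0 hy)
  have h3 : N ((Real.exp c - 1) • nl a) ≤ ENNReal.ofReal ((Real.exp |c| - 1) * y) := by
    refine (hN.smul _ _).trans ?_
    have p1 : 0 ≤ Real.exp |c| - 1 := by linarith [Real.one_le_exp (abs_nonneg c)]
    rw [ENNReal.ofReal_mul p1, Real.enorm_eq_ofReal_abs]
    exact mul_le_mul' (ENNReal.ofReal_le_ofReal (abs_exp_sub_one_le c)) hy
  rw [e]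
  refine (hN.add _ _).trans ((add_le_add ((hN.add _ _).trans (add_le_add h1 h2)) h3).trans ?_)
  have p0 : 1 ≤ Real.exp |c| := Real.one_le_exp (abs_nonneg c)
  have p1 : 0 ≤ Real.exp |c| - 1 - |c| := by linarith [Real.add_one_le_exp |c|]
  have p2 : 0 ≤ Real.exp |c| * (Real.exp y - 1 - y) :=
    mul_nonneg (Real.exp_pos _).le (by linarith [Real.add_one_le_exp y])
  have p3 : 0 ≤ (Real.exp |c| - 1) * y := mul_nonneg (by linarith) hy0
  rw [← ENNReal.ofReal_add p1 p2, ← ENNReal.ofReal_add (add_nonneg p1 p2) p3]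
  apply ENNReal.ofReal_le_ofReal
  have h4 := exp_sub_mono (add_nonneg (abs_nonneg c) hy0) hxy
  rw [Real.exp_add] at h4
  nlinarith

/-- Lipschitz bound for the quadratic remainder -/
theorem rem_sub_rem_le (hN : GN N) {a a' : Ge V} {x d : ℝ} (hx : 0 ≤ x) (hd : 0 ≤ d)
    (h : N a' ≤ ENNReal.ofReal x) (h' : N (a - a') ≤ ENNReal.ofReal d) :
    N ((gexp a - 1 - a) - (gexp a' - 1 - a')) ≤
      ENNReal.ofReal ((Real.exp x - 1) * (Real.exp d - 1) + (Real.exp d - 1 - d)) := by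
  have e : (gexp a - 1 - a) - (gexp a' - 1 - a') =
      (gexp a' - 1) * (gexp (a - a') - 1) + (gexp (a - a') - 1 - (a - a')) := by
    have h1 : gexp a = gexp a' * gexp (a - a') := by rw [← gexp_add]; congr 1; ring
    rw [h1]; ring
  have p1 : 0 ≤ Real.exp x - 1 := by linarith [Real.one_le_exp hx]
  have p2 : 0 ≤ Real.exp d - 1 := by linarith [Real.one_le_exp hd]
  have p3 : 0 ≤ Real.exp d - 1 - d := by linarith [Real.add_one_le_exp d]
  rw [e, ENNReal.ofReal_add (mul_nonneg p1 p2) p3, ENNReal.ofReal_mul p1]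
  refine (hN.add _ _).trans (add_le_add ?_ (hN.gexp_sub_sub_le hd h'))
  exact hN.mul' (hN.gexp_sub_one_le hx h) (hN.gexp_sub_one_le hd h') ENNReal.ofReal_ne_top
    ENNReal.ofReal_ne_top

end GN

/-! ### convenient forms in `[0,∞]` -/

theorem exp_rem_le_sq {x : ℝ} (hx : 0 ≤ x) (h1 : x ≤ 1) : Real.exp x - 1 - x ≤ x ^ 2 := by
  have h := Real.abs_exp_sub_one_sub_id_le (x := x) (by rwa [abs_of_nonneg hx])
  exact (le_abs_self _).trans h

theorem exp_sub_one_le_two {x : ℝ} (hx : 0 ≤ x) (h1 : x ≤ 1) : Real.exp x - 1 ≤ 2 * x := by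
  have h := exp_rem_le_sq hx h1
  nlinarith

namespace GN

/-- `N (gexp a - 1 - a) ≤ (N a)²` -/
theorem rem_le (hN : GN N) {a : Ge V} (h1 : N a ≤ 1) : N (gexp a - 1 - a) ≤ N a ^ 2 := by
  have hfin : N a ≠ ∞ := ne_top_of_le_ne_top ENNReal.one_ne_top h1
  have hx : 0 ≤ (N a).toReal := ENNReal.toReal_nonneg
  have hx1 : (N a).toReal ≤ 1 := by
    have := ENNReal.toReal_mono ENNReal.one_ne_top h1
    simpa using this
  refine (hN.gexp_sub_sub_le hx (ENNReal.ofReal_toReal hfin).ge).trans ?_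
  refine (ENNReal.ofReal_le_ofReal (exp_rem_le_sq hx hx1)).trans (le_of_eq ?_)
  rw [ENNReal.ofReal_pow hx, ENNReal.ofReal_toReal hfin]

theorem one_le (hN : GN N) {a : Ge V} (h1 : N a ≤ 1) : N (gexp a - 1) ≤ 2 * N a := by
  have hfin : N a ≠ ∞ := ne_top_of_le_ne_top ENNReal.one_ne_top h1
  have hx : 0 ≤ (N a).toReal := ENNReal.toReal_nonneg
  have hx1 : (N a).toReal ≤ 1 := by
    have := ENNReal.toReal_mono ENNReal.one_ne_top h1
    simpa using this
  refine (hN.gexp_sub_one_le hx (ENNReal.ofReal_toReal hfin).ge).trans ?_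
  refine (ENNReal.ofReal_le_ofReal (exp_sub_one_le_two hx hx1)).trans (le_of_eq ?_)
  rw [ENNReal.ofReal_mul (by norm_num), ENNReal.ofReal_toReal hfin]
  norm_num

/-- Lipschitz form of `rem_le` -/
theorem rem_lip (hN : GN N) {a a' : Ge V} {x : ℝ≥0∞} (h : N a ≤ x) (h' : N a' ≤ x)
    (hx : x ≤ 1 / 2) :
    N ((gexp a - 1 - a) - (gexp a' - 1 - a')) ≤ 6 * x * N (a - a') := by
  have hxt : x ≠ ∞ := ne_top_of_le_ne_top (by norm_num) hx
  have hd1 : N (a - a') ≤ 2 * x := by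
    refine (hN.sub _ _).trans ?_
    rw [two_mul]; exact add_le_add h h'
  have hd2 : N (a - a') ≤ 1 := by
    refine hd1.trans ?_
    calc 2 * x ≤ 2 * (1 / 2) := mul_le_mul_right hx _
      _ = 1 := by rw [one_div]; exact ENNReal.mul_inv_cancel (by norm_num) (by norm_num)
  have hdt : N (a - a') ≠ ∞ := ne_top_of_le_ne_top ENNReal.one_ne_top hd2
  set X := x.toReal with hX
  set δ := (N (a - a')).toReal with hδ
  have hX0 : 0 ≤ X := ENNReal.toReal_nonneg
  have hδ0 : 0 ≤ δ := ENNReal.toReal_nonneg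
  have hX1 : X ≤ 1 / 2 := by
    have := ENNReal.toReal_mono (by norm_num) hx
    rw [hX]
    refine this.trans (le_of_eq ?_)
    simp
  have hδ1 : δ ≤ 1 := by
    have := ENNReal.toReal_mono ENNReal.one_ne_top hd2
    simpa using this
  have hδX : δ ≤ 2 * X := by
    have := ENNReal.toReal_mono (ENNReal.mul_ne_top (by norm_num) hxt) hd1
    rwa [ENNReal.toReal_mul] at this
  have h1 := hN.rem_sub_rem_le hX0 hδ0 (h'.trans (ENNReal.ofReal_toReal hxt).ge)
    (ENNReal.ofReal_toReal hdt).ge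
  refine h1.trans ?_
  have h2 : (Real.exp X - 1) * (Real.exp δ - 1) + (Real.exp δ - 1 - δ) ≤ 6 * X * δ := by
    have e1 := exp_sub_one_le_two hX0 (by linarith)
    have e2 := exp_sub_one_le_two hδ0 hδ1
    have e3 := exp_rem_le_sq hδ0 hδ1
    have p1 : 0 ≤ Real.exp δ - 1 := by linarith [Real.one_le_exp hδ0]
    have e4 : (Real.exp X - 1) * (Real.exp δ - 1) ≤ (2 * X) * (2 * δ) :=
      mul_le_mul e1 e2 p1 (by positivity)
    have e5 : δ ^ 2 ≤ 2 * X * δ := by nlinarith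
    linarith
  refine (ENNReal.ofReal_le_ofReal h2).trans (le_of_eq ?_)
  rw [ENNReal.ofReal_mul (by positivity), ENNReal.ofReal_mul (by norm_num), hX, hδ,
    ENNReal.ofReal_toReal hxt, ENNReal.ofReal_toReal hdt]
  norm_num

end GN

/-! ### families -/

/-- a family of algebra norms, antitone in the set of faces -/
structure GFam {F : Type*} (nm : Finset F → Ge V → ℝ≥0∞) : Prop where
  gn : ∀ U, GN (nm U)
  anti : ∀ U W a, U ⊆ W → nm W a ≤ nm U a

theorem GFam.toNormFam {F : Type*} {nm : Finset F → Ge V → ℝ≥0∞} (h : GFam nm) :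
    NormFam nm where
  zero U := (h.gn U).zero
  one U := (h.gn U).one
  add U := (h.gn U).add
  neg U := (h.gn U).neg
  anti := h.anti
  mul U := (h.gn U).mul

/-- the projective norm -/
theorem gn_pG (w : V → ℝ≥0∞) : GN (pG w) where
  zero := pG_zero w
  one := pG_one_le w
  add := pG_add_le w
  smul := pG_smul_le w
  mul a b ha hb := pG_mul_le' le_rfl le_rfl ha hb
  split := pG_split w

end Crest.Agent.R165.ExpAx337
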