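import Crest.Agent.R165.Quad_897
import Crest.Agent.R165.KMap_892
import Crest.Agent.R165.Bridge_915
import Crest.Agent.R165.GeOps_337

/-!
# Row 165, block G, leaf (Q), part 2 : quadratic and Lipschitz bounds in the norm `NN` / `NK`
(helper897)

`d` a pseudo-distance, `K B : Finset F → R` supported on sets connected at range `R`,
`near a b := d a b ≤ R`, `near' a b := d a b ≤ R'`, norm `NN d r Γ` (scale `r`) for the inputs and
`NN d r' Γ` for the output.

* `pack_weight`  : `(3 Γ)^|U|_{r'} ≤ 3 Γ^|U|_r` for `R`-connected `U`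
* `NN_sq`        : `N(x²) ≤ N(x)²`
* `QQ_NN`, `QQ_NN_lip` : the bounds in the form of `NSumx915.NN`
* `KK_conn`      : `KK W ≠ 0` implies that `W` is connected at range `R'`
* `step_quad`, `step_lip` : the bounds for `KK K B - K - A`, `B = exp A - 1`
* `normFam_pG` : the norms `pG (wU w a r U)` on `Ge (Fld G)`; `covs_fd` : the covering numbers
* `step_quad_fd`, `step_lip_fd`: everything on the names of `GDefx387`
-/

set_option autoImplicit false
set_option linter.unusedSectionVars false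
set_option linter.unusedVariables false

open Finset
open scoped ENNReal

namespace Crest.Agent.R165.Quad2x897

open KCompx892 KStepx892 Quadx897 Packx915 NSumx915

section gen

variable {X : Type*} {d : X → X → ℕ} {r r' R R' : ℕ} {Γ : ℝ≥0∞}

/-- `(3 Γ)^|U|_{r'} ≤ 3 Γ^|U|_r` -/
theorem pack_weight (hd : PD d) (hΓ : 3 ≤ Γ) (hR : 4 * R + 3 * r + 2 ≤ r') {U : Finset X}
    (hU : Packx915.Conn d R U) :
    Γ ^ pack d r' U * 3 ^ pack d r' U ≤ 3 * Γ ^ pack d r U := by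
  have hΓ1 : 1 ≤ Γ := le_trans (by norm_num) hΓ
  have hle : pack d r' U ≤ pack d r U := pack_anti (by omega)
  by_cases h : pack d r' U ≤ 1
  · have h3 : (3 : ℝ≥0∞) ^ pack d r' U ≤ 3 := by
      calc (3 : ℝ≥0∞) ^ pack d r' U ≤ 3 ^ 1 := pow_le_pow_right₀ (by norm_num) h
        _ = 3 := pow_one 3
    calc Γ ^ pack d r' U * 3 ^ pack d r' U ≤ Γ ^ pack d r U * 3 :=
          mul_le_mul' (pow_le_pow_right₀ hΓ1 hle) h3
      _ = 3 * Γ ^ pack d r U := mul_comm _ _
  · have hg := pack_growth (m := 2) (ρ := 2 * R + r + 1) (r := r) (r' := r') hd hU (by omega)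
      (by omega) (by omega : 2 ≤ pack d r' U)
    calc Γ ^ pack d r' U * 3 ^ pack d r' U ≤ Γ ^ pack d r' U * Γ ^ pack d r' U :=
          mul_le_mul_right (pow_le_pow_left' hΓ _) _
      _ = Γ ^ (2 * pack d r' U) := by rw [two_mul, pow_add]
      _ ≤ Γ ^ pack d r U := pow_le_pow_right₀ hΓ1 hg
      _ ≤ 3 * Γ ^ pack d r U := by
          refine le_mul_of_one_le_left' ?_
          norm_num

/-- the norm of the squares -/
theorem NN_sq (hd : PD d) (hΓ : 1 ≤ Γ) (x : Finset X → ℝ≥0∞) :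
    NN d r Γ (fun U => x U * x U) ≤ NN d r Γ x * NN d r Γ x := by
  refine iSup_le fun f => ?_
  have h1 : bs d r Γ (fun U => x U * x U) f ≤ NN d r Γ x * bs d r Γ x f := by
    unfold bs
    rw [← ENNReal.tsum_mul_left]
    refine ENNReal.tsum_le_tsum fun U => ?_
    by_cases h : near d r f U
    · rw [Set.indicator_of_mem (by exact h), Set.indicator_of_mem (by exact h)]
      have h2 : x U ≤ NN d r Γ x := by
        refine le_trans ?_ (le_NN hd x h.nonempty)
        exact le_mul_of_one_le_left' (one_le_pow₀ hΓ)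
      calc Γ ^ pack d r U * (x U * x U) = x U * (Γ ^ pack d r U * x U) := by ring
        _ ≤ NN d r Γ x * (Γ ^ pack d r U * x U) := mul_le_mul_left h2 _
    · rw [Set.indicator_of_notMem (by exact h)]
      exact bot_le
  exact h1.trans (mul_le_mul_right (bs_le_NN x f) _)

/-- summation data of a pseudo-distance -/
theorem sumData (hd : PD d) {n : ℕ} (hΓ1 : 1 ≤ Γ) (hcov : Cov d (r' + R') r' n) [DecidableEq X] :
    SumData (fun a b => d a b ≤ R') X (fun U => Γ ^ pack d r' U) (fun U => pack d r' U)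
      (fun p U => near d r' p U) (n : ℝ≥0∞) := by
  classical
  constructor
  · intro U
    exact pow_ne_zero _ (fun h => by rw [h] at hΓ1; exact absurd hΓ1 (by norm_num))
  · intro U V
    rw [← pow_add]
    refine pow_le_pow_right₀ hΓ1 ?_
    convert pack_union_le (d := d) (r := r') (U := U) (W := V) using 2
    ext x
    simp only [Finset.mem_union]
  · intro p hp
    exact absurd hp.nonempty Finset.not_nonempty_empty
  · rintro p U V ⟨u, hu, hpu⟩
    rcases Finset.mem_union.1 hu with h | h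
    · exact Or.inl ⟨u, h, hpu⟩
    · exact Or.inr ⟨u, h, hpu⟩
  · intro U
    obtain ⟨S, hSU, hS, hcard⟩ := exists_pack d r' U
    choose net hnc hnet using hcov
    refine ⟨S.biUnion net, ?_, ?_⟩
    · have h1 : (S.biUnion net).card ≤ n * pack d r' U := by
        refine Finset.card_biUnion_le.trans ?_
        refine (Finset.sum_le_card_nsmul _ _ n fun x _ => hnc x).trans ?_
        rw [smul_eq_mul, hcard, mul_comm]
      exact_mod_cast h1
    · rintro V ⟨u, hu, v, hv, huv⟩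
      -- `u` is within `r'` of a point of `S`
      have hcovu : ∃ p ∈ S, d p u ≤ r' := by
        by_contra hno
        push Not at hno
        have huS : u ∉ S := by
          intro huS
          have := hno u huS
          rw [hd.self] at this
          omega
        have hs : Packx915.Sep d r' (insert u S) := by
          intro a ha b hb hab
          rw [Finset.mem_insert] at ha hb
          rcases ha with rfl | ha <;> rcases hb with rfl | hb
          · exact absurd rfl hab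
          · rw [hd.symm]; exact hno b hb
          · exact hno a ha
          · exact hS a ha b hb hab
        have := card_le_pack (Finset.insert_subset hu hSU) hs
        rw [Finset.card_insert_of_notMem huS] at this
        omega
      obtain ⟨p, hp, hpu⟩ := hcovu
      have hpv : d p v ≤ r' + R' := (hd.tri p u v).trans (add_le_add hpu huv)
      obtain ⟨g, hg, hgv⟩ := hnet p v hpv
      exact ⟨g, Finset.mem_biUnion.2 ⟨p, hp, hg⟩, v, hv, hgv⟩
  · rintro U ⟨u, hu⟩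
    exact ⟨u, near_of_mem hd hu⟩

/-- change of scale for the input of the quadratic bound -/
theorem H1_of_NN (hd : PD d) {n' : ℕ} (hΓ : 3 ≤ Γ) (hR : 4 * R + 3 * r + 2 ≤ r')
    (hcov : Cov d r' r n') {x : Finset X → ℝ≥0∞} (hx : ∀ U, x U ≠ 0 → Packx915.Conn d R U)
    (p : X) :
    ∑' U, Set.indicator {U | near d r' p U} (fun U => Γ ^ pack d r' U * 3 ^ pack d r' U * x U) U
      ≤ 3 * n' * NN d r Γ x := by
  obtain ⟨net, hc, hnet⟩ := hcov.net p
  have h1 : ∑' U, Set.indicator {U | near d r' p U}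
      (fun U => Γ ^ pack d r' U * 3 ^ pack d r' U * x U) U
      ≤ ∑' U, Set.indicator {U | near d r' p U} (fun U => 3 * (Γ ^ pack d r U * x U)) U := by
    refine ENNReal.tsum_le_tsum fun U => Set.indicator_le_indicator ?_
    by_cases h0 : x U = 0
    · rw [h0]; simp
    · calc Γ ^ pack d r' U * 3 ^ pack d r' U * x U ≤ 3 * Γ ^ pack d r U * x U :=
            mul_le_mul_left (pack_weight hd hΓ hR (hx U h0)) _
        _ = 3 * (Γ ^ pack d r U * x U) := by ring
  refine h1.trans ((cover_sum _ net hnet).trans ?_)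
  have h2 : ∀ g ∈ net, (∑' U : Finset X, Set.indicator {U | near d r g U}
      (fun U => 3 * (Γ ^ pack d r U * x U)) U) ≤ 3 * NN d r Γ x := by
    intro g _
    have : (∑' U : Finset X, Set.indicator {U | near d r g U}
        (fun U => 3 * (Γ ^ pack d r U * x U)) U) = 3 * bs d r Γ x g := by
      unfold bs
      rw [← ENNReal.tsum_mul_left]
      refine tsum_congr fun U => ?_
      by_cases h : near d r g U
      · rw [Set.indicator_of_mem (by exact h), Set.indicator_of_mem (by exact h)]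
      · rw [Set.indicator_of_notMem (by exact h), Set.indicator_of_notMem (by exact h), mul_zero]
    rw [this]
    exact mul_le_mul_right (bs_le_NN x g) _
  refine (Finset.sum_le_sum h2).trans ?_
  rw [Finset.sum_const, nsmul_eq_mul]
  calc (net.card : ℝ≥0∞) * (3 * NN d r Γ x) ≤ n' * (3 * NN d r Γ x) :=
        mul_le_mul_left (Nat.cast_le.2 hc) _
    _ = 3 * n' * NN d r Γ x := by ring

variable [DecidableEq X] {A : Type*} [CommRing A] {nm : Finset X → A → ℝ≥0∞}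

/-- **(Q4) quadratic bound in the norms `NN`** -/
theorem QQ_NN (hd : PD d) {n n' : ℕ} (hΓ : 3 ≤ Γ) (hR : 4 * R + 3 * r + 2 ≤ r')
    (hcov : Cov d (r' + R') r' n) (hcov' : Cov d r' r n') (hN : NormFam nm)
    {K B : Finset X → A} (hK : ∀ U, K U ≠ 0 → Packx915.Conn d R U)
    (hB : ∀ U, B U ≠ 0 → Packx915.Conn d R U)
    {εK εB : ℝ≥0∞} (HK : NN d r Γ (fun U => nm U (K U)) ≤ εK)
    (HB : NN d r Γ (fun U => nm U (B U)) ≤ εB) (hs : n * (3 * n' * (εK + εB)) ≤ 1)
    (hεK : εK ≠ ∞) (hεB : εB ≠ ∞) (near : X → X → Prop) :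
    NN d r' Γ (fun W => nm W (QQ near (fun a b => d a b ≤ R') K B W))
      ≤ n * (3 * n' * (εK + εB)) ^ 2 := by
  have hΓ1 : 1 ≤ Γ := le_trans (by norm_num) hΓ
  have hK' : ∀ U, nm U (K U) ≠ 0 → Packx915.Conn d R U := fun U h =>
    hK U fun h0 => h (by rw [h0, hN.zero])
  have hB' : ∀ U, nm U (B U) ≠ 0 → Packx915.Conn d R U := fun U h =>
    hB U fun h0 => h (by rw [h0, hN.zero])
  refine iSup_le fun p => ?_
  have h3 : (3 : ℝ≥0∞) * n' ≠ ∞ := ENNReal.mul_ne_top (by norm_num) (ENNReal.natCast_ne_top _)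
  have h := KK_quad (near := near) (near' := fun a b => d a b ≤ R')
    (fun a b hab => by rw [hd.symm]; exact hab) hN
    (sumData (r' := r') (R' := R') hd hΓ1 hcov)
    (εK := 3 * n' * εK) (εB := 3 * n' * εB)
    (ENNReal.mul_ne_top h3 hεK) (ENNReal.mul_ne_top h3 hεB)
    (fun p => (H1_of_NN hd hΓ hR hcov' hK' p).trans (mul_le_mul_right HK _))
    (fun p => (H1_of_NN hd hΓ hR hcov' hB' p).trans (mul_le_mul_right HB _))
    (by rw [← mul_add]; exact hs) p
  refine h.trans (le_of_eq ?_)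
  rw [← mul_add]
  ring

/-- **(Q4) Lipschitz bound in the norms `NN`** -/
theorem QQ_NN_lip (hd : PD d) {n n' : ℕ} (hΓ : 3 ≤ Γ) (hR : 4 * R + 3 * r + 2 ≤ r')
    (hcov : Cov d (r' + R') r' n) (hcov' : Cov d r' r n') (hN : NormFam nm)
    {K B K₂ B₂ : Finset X → A} (hK : ∀ U, K U ≠ 0 → Packx915.Conn d R U)
    (hB : ∀ U, B U ≠ 0 → Packx915.Conn d R U) (hK₂ : ∀ U, K₂ U ≠ 0 → Packx915.Conn d R U)
    (hB₂ : ∀ U, B₂ U ≠ 0 → Packx915.Conn d R U)
    {εK εB εK₂ εB₂ ηK ηB : ℝ≥0∞} (HK : NN d r Γ (fun U => nm U (K U)) ≤ εK)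
    (HB : NN d r Γ (fun U => nm U (B U)) ≤ εB) (HK₂ : NN d r Γ (fun U => nm U (K₂ U)) ≤ εK₂)
    (HB₂ : NN d r Γ (fun U => nm U (B₂ U)) ≤ εB₂)
    (HdK : NN d r Γ (fun U => nm U (K U - K₂ U)) ≤ ηK)
    (HdB : NN d r Γ (fun U => nm U (B U - B₂ U)) ≤ ηB)
    (hs : n * (2 * (3 * n' * ((εK + εK₂) + (εB + εB₂)))) ≤ 1)
    (hεK : εK ≠ ∞) (hεB : εB ≠ ∞) (hεK₂ : εK₂ ≠ ∞) (hεB₂ : εB₂ ≠ ∞) (hηK : ηK ≠ ∞) (hηB : ηB ≠ ∞)
    (near : X → X → Prop) :
    NN d r' Γ (fun W => nm W (QQ near (fun a b => d a b ≤ R') K B W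
        - QQ near (fun a b => d a b ≤ R') K₂ B₂ W))
      ≤ 4 * n * (3 * n') ^ 2 * ((εK + εK₂) + (εB + εB₂)) * (ηK + ηB) := by
  have hΓ1 : 1 ≤ Γ := le_trans (by norm_num) hΓ
  have hsup : ∀ {Y : Finset X → A}, (∀ U, Y U ≠ 0 → Packx915.Conn d R U) →
      ∀ U, nm U (Y U) ≠ 0 → Packx915.Conn d R U := fun {Y} hY U h =>
    hY U fun h0 => h (by rw [h0, hN.zero])
  have hdK : ∀ U, K U - K₂ U ≠ 0 → Packx915.Conn d R U := fun U h => by
    by_cases h1 : K U = 0
    · refine hK₂ U fun h2 => h ?_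
      rw [h1, h2, sub_zero]
    · exact hK U h1
  have hdB : ∀ U, B U - B₂ U ≠ 0 → Packx915.Conn d R U := fun U h => by
    by_cases h1 : B U = 0
    · refine hB₂ U fun h2 => h ?_
      rw [h1, h2, sub_zero]
    · exact hB U h1
  refine iSup_le fun p => ?_
  have h3 : (3 : ℝ≥0∞) * n' ≠ ∞ := ENNReal.mul_ne_top (by norm_num) (ENNReal.natCast_ne_top _)
  have h := KK_lip (near := near) (near' := fun a b => d a b ≤ R')
    (ε := 0) (η := 0)
    (fun a b hab => by rw [hd.symm]; exact hab) hN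
    (sumData (r' := r') (R' := R') hd hΓ1 hcov) (ENNReal.natCast_ne_top n)
    (ENNReal.mul_ne_top h3 hεK) (ENNReal.mul_ne_top h3 hεB)
    (ENNReal.mul_ne_top h3 hεK₂) (ENNReal.mul_ne_top h3 hεB₂)
    (ENNReal.mul_ne_top h3 hηK) (ENNReal.mul_ne_top h3 hηB)
    (fun p => (H1_of_NN hd hΓ hR hcov' (hsup hK) p).trans (mul_le_mul_right HK _))
    (fun p => (H1_of_NN hd hΓ hR hcov' (hsup hB) p).trans (mul_le_mul_right HB _))
    (fun p => (H1_of_NN hd hΓ hR hcov' (hsup hK₂) p).trans (mul_le_mul_right HK₂ _))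
    (fun p => (H1_of_NN hd hΓ hR hcov' (hsup hB₂) p).trans (mul_le_mul_right HB₂ _))
    (fun p => (H1_of_NN hd hΓ hR hcov' (fun U h => hdK U fun h0 => h (by rw [h0, hN.zero])) p).trans
      (mul_le_mul_right HdK _))
    (fun p => (H1_of_NN hd hΓ hR hcov' (fun U h => hdB U fun h0 => h (by rw [h0, hN.zero])) p).trans
      (mul_le_mul_right HdB _))
    (by
      refine le_trans (le_of_eq ?_) hs
      ring) p
  refine h.trans (le_of_eq ?_)
  ring

/-! ### connectedness of the supports -/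

open Classical in
/-- the union of a connected item set of connected supports is connected -/
theorem conn_spp (hd : PD d) (hRR : R ≤ R') {T : Finset (Finset X ⊕ Finset X)}
    (hT : KCompx892.Conn (itr (fun a b => d a b ≤ R')) T)
    (hc : ∀ t ∈ T, Packx915.Conn d R (sp t)) : Packx915.Conn d R' (spp T) := by
  unfold spp
  have h := conn_biUnion (d := d) (R := R') T sp (fun t ht => (hc t ht).mono hRR) ?_
  · convert h
  · intro J hJ hne hneT
    by_contra hcon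
    push Not at hcon
    refine hneT (hT.2 J hJ hne ?_)
    intro a ha b hb hab
    rw [Finset.mem_sdiff] at hb
    obtain ⟨u, hu, v, hv, huv⟩ := hab
    have := hcon a ha b hb.1 hb.2 u hu v hv
    omega

/-- **supports of the reclustered activity** -/
theorem KK_conn (hd : PD d) (hRR : R ≤ R') {K B : Finset X → A}
    (hK : ∀ U, K U ≠ 0 → Packx915.Conn d R U) (hB : ∀ U, B U ≠ 0 → Packx915.Conn d R U)
    (near : X → X → Prop) {W : Finset X}
    (hW : KK near (fun a b => d a b ≤ R') K B W ≠ 0) : Packx915.Conn d R' W := by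
  classical
  unfold KK at hW
  obtain ⟨T, hT, hne⟩ := Finset.exists_ne_zero_of_sum_ne_zero hW
  rw [Finset.mem_filter] at hT
  rw [← hT.2.2]
  refine conn_spp hd hRR hT.2.1 fun t ht => ?_
  unfold wt at hne
  split_ifs at hne with hg
  · rcases t with U | U
    · exact hK U fun h0 => hne (Finset.prod_eq_zero ht h0)
    · exact hB U fun h0 => hne (Finset.prod_eq_zero ht h0)
  · exact absurd rfl hne

/-! ### the step `KK K B - K - A`, `B = exp A - 1` -/

theorem NN_mono_ne {a b : Finset X → ℝ≥0∞} (h : ∀ U, U.Nonempty → a U ≤ b U) :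
    NN d r Γ a ≤ NN d r Γ b := by
  refine iSup_mono fun f => ENNReal.tsum_le_tsum fun U => ?_
  by_cases hU : near d r f U
  · rw [Set.indicator_of_mem (by exact hU), Set.indicator_of_mem (by exact hU)]
    exact mul_le_mul_right (h U hU.nonempty) _
  · rw [Set.indicator_of_notMem (by exact hU)]
    exact bot_le

theorem NN_scale {n' : ℕ} (hΓ : 1 ≤ Γ) (hr : r ≤ r') (hcov : Cov d r' r n')
    (x : Finset X → ℝ≥0∞) : NN d r' Γ x ≤ n' * NN d r Γ x := by
  refine iSup_le fun p => ?_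
  obtain ⟨net, hc, hnet⟩ := hcov.net p
  have h1 : bs d r' Γ x p ≤ ∑' U, Set.indicator {U | near d r' p U}
      (fun U => Γ ^ pack d r U * x U) U :=
    ENNReal.tsum_le_tsum fun U => Set.indicator_le_indicator
      (mul_le_mul_left (pow_le_pow_right₀ hΓ (pack_anti hr)) _)
  refine h1.trans ((cover_sum _ net hnet).trans ?_)
  refine (Finset.sum_le_sum fun g _ => bs_le_NN (d := d) (r := r) (Γ := Γ) x g).trans ?_
  rw [Finset.sum_const, nsmul_eq_mul]
  exact mul_le_mul_left (Nat.cast_le.2 hc) _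

theorem nm_le_NN (hd : PD d) (hΓ : 1 ≤ Γ) {x : Finset X → ℝ≥0∞} {ε : ℝ≥0∞}
    (h : NN d r Γ x ≤ ε) {U : Finset X} (hU : U.Nonempty) : x U ≤ ε :=
  le_trans (le_mul_of_one_le_left' (one_le_pow₀ hΓ)) ((le_NN hd x hU).trans h)

/-- norm of `B = exp A - 1` -/
theorem NN_B (hd : PD d) (hΓ : 1 ≤ Γ) (hN : NormFam nm) {A₀ B : Finset X → A} {εA : ℝ≥0∞}
    (HA : NN d r Γ (fun U => nm U (A₀ U)) ≤ εA) (hA1 : εA ≤ 1 / 2)
    (hBA : ∀ U, U.Nonempty → nm U (A₀ U) ≤ 1 / 2 → nm U (B U - A₀ U) ≤ nm U (A₀ U) ^ 2) :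
    NN d r Γ (fun U => nm U (B U)) ≤ 2 * εA := by
  refine (NN_mono_ne (b := fun U => 2 * nm U (A₀ U)) fun U hU => ?_).trans
    ((NN_smul_le 2 _).trans (mul_le_mul_right HA _))
  have h1 : nm U (A₀ U) ≤ 1 / 2 := (nm_le_NN hd hΓ HA hU).trans hA1
  have h2 : nm U (A₀ U) ≤ 1 := h1.trans (by rw [one_div]; exact ENNReal.inv_le_one.2 (by norm_num))
  calc nm U (B U) = nm U (A₀ U + (B U - A₀ U)) := by rw [add_sub_cancel]
    _ ≤ nm U (A₀ U) + nm U (B U - A₀ U) := hN.add _ _ _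
    _ ≤ nm U (A₀ U) + nm U (A₀ U) ^ 2 := add_le_add le_rfl (hBA U hU h1)
    _ ≤ nm U (A₀ U) + nm U (A₀ U) * 1 := by
        rw [sq]
        exact add_le_add le_rfl (mul_le_mul_right h2 _)
    _ = 2 * nm U (A₀ U) := by ring

/-- **quadratic bound for one step** -/
theorem step_quad (hd : PD d) {n n' : ℕ} (hΓ : 3 ≤ Γ) (hR : 4 * R + 3 * r + 2 ≤ r')
    (hcov : Cov d (r' + R') r' n) (hcov' : Cov d r' r n') (hN : NormFam nm)
    {K A₀ B : Finset X → A} (hK : ∀ U, K U ≠ 0 → Packx915.Conn d R U)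
    (hB : ∀ U, B U ≠ 0 → Packx915.Conn d R U)
    (hBA : ∀ U, U.Nonempty → nm U (A₀ U) ≤ 1 / 2 → nm U (B U - A₀ U) ≤ nm U (A₀ U) ^ 2)
    {εK εA : ℝ≥0∞} (HK : NN d r Γ (fun U => nm U (K U)) ≤ εK)
    (HA : NN d r Γ (fun U => nm U (A₀ U)) ≤ εA) (hA1 : εA ≤ 1 / 2)
    (hs : n * (3 * n' * (εK + 2 * εA)) ≤ 1) (hεK : εK ≠ ∞) (near : X → X → Prop) :
    NN d r' Γ (fun W => nm W (KK near (fun a b => d a b ≤ R') K B W - K W - A₀ W))
      ≤ n * (3 * n' * (εK + 2 * εA)) ^ 2 + n' * εA ^ 2 := by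
  have hΓ1 : 1 ≤ Γ := le_trans (by norm_num) hΓ
  have hεA : εA ≠ ∞ := ne_top_of_le_ne_top (by norm_num) hA1
  have HB := NN_B hd hΓ1 hN HA hA1 hBA
  have h1 : NN d r' Γ (fun W => nm W (KK near (fun a b => d a b ≤ R') K B W - K W - A₀ W))
      ≤ NN d r' Γ (fun W => nm W (QQ near (fun a b => d a b ≤ R') K B W)
        + nm W (B W - A₀ W)) := by
    refine NN_mono_ne fun W hW => ?_
    rw [KK_eq_QQ hW]
    refine le_trans (le_of_eq ?_) (hN.add _ _ _)
    congr 1
    ring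
  refine h1.trans ((NN_add_le _ _).trans (add_le_add ?_ ?_))
  · exact QQ_NN hd hΓ hR hcov hcov' hN hK hB HK HB hs hεK
      (ENNReal.mul_ne_top (by norm_num) hεA) near
  · refine (NN_scale hΓ1 (by omega) hcov' _).trans (mul_le_mul_right ?_ _)
    have h2 : NN d r Γ (fun W => nm W (B W - A₀ W))
        ≤ NN d r Γ (fun W => nm W (A₀ W) * nm W (A₀ W)) := NN_mono_ne fun W hW => by
      rw [← sq]
      exact hBA W hW ((nm_le_NN hd hΓ1 HA hW).trans hA1)
    refine h2.trans ((NN_sq hd hΓ1 _).trans ?_)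
    rw [sq]
    exact mul_le_mul' HA HA

/-- **Lipschitz bound for one step** -/
theorem step_lip (hd : PD d) {n n' : ℕ} (hΓ : 3 ≤ Γ) (hR : 4 * R + 3 * r + 2 ≤ r')
    (hcov : Cov d (r' + R') r' n) (hcov' : Cov d r' r n') (hN : NormFam nm)
    {K A₀ B K₂ A₂ B₂ : Finset X → A} (hK : ∀ U, K U ≠ 0 → Packx915.Conn d R U)
    (hB : ∀ U, B U ≠ 0 → Packx915.Conn d R U) (hK₂ : ∀ U, K₂ U ≠ 0 → Packx915.Conn d R U)
    (hB₂ : ∀ U, B₂ U ≠ 0 → Packx915.Conn d R U)
    (hBA : ∀ U, U.Nonempty → nm U (A₀ U) ≤ 1 / 2 → nm U (B U - A₀ U) ≤ nm U (A₀ U) ^ 2)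
    (hBA₂ : ∀ U, U.Nonempty → nm U (A₂ U) ≤ 1 / 2 → nm U (B₂ U - A₂ U) ≤ nm U (A₂ U) ^ 2)
    (hl : ∀ U, U.Nonempty → nm U (A₀ U) ≤ 1 / 2 → nm U (A₂ U) ≤ 1 / 2 →
      nm U ((B U - A₀ U) - (B₂ U - A₂ U))
        ≤ 4 * (nm U (A₀ U) + nm U (A₂ U)) * nm U (A₀ U - A₂ U))
    {εK εA εK₂ εA₂ ηK ηA : ℝ≥0∞} (HK : NN d r Γ (fun U => nm U (K U)) ≤ εK)
    (HA : NN d r Γ (fun U => nm U (A₀ U)) ≤ εA) (HK₂ : NN d r Γ (fun U => nm U (K₂ U)) ≤ εK₂)
    (HA₂ : NN d r Γ (fun U => nm U (A₂ U)) ≤ εA₂)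
    (HdK : NN d r Γ (fun U => nm U (K U - K₂ U)) ≤ ηK)
    (HdA : NN d r Γ (fun U => nm U (A₀ U - A₂ U)) ≤ ηA)
    (hA1 : εA ≤ 1 / 2) (hA2 : εA₂ ≤ 1 / 2)
    (hs : n * (2 * (3 * n' * ((εK + εK₂) + (2 * εA + 2 * εA₂)))) ≤ 1)
    (hεK : εK ≠ ∞) (hεK₂ : εK₂ ≠ ∞) (hηK : ηK ≠ ∞) (hηA : ηA ≠ ∞) (near : X → X → Prop) :
    NN d r' Γ (fun W => nm W ((KK near (fun a b => d a b ≤ R') K B W - K W - A₀ W)
        - (KK near (fun a b => d a b ≤ R') K₂ B₂ W - K₂ W - A₂ W)))
      ≤ 4 * n * (3 * n') ^ 2 * ((εK + εK₂) + (2 * εA + 2 * εA₂)) * (ηK + 5 * ηA)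
        + n' * (4 * (εA + εA₂) * ηA) := by
  have hΓ1 : 1 ≤ Γ := le_trans (by norm_num) hΓ
  have hεA : εA ≠ ∞ := ne_top_of_le_ne_top (by norm_num) hA1
  have hεA₂ : εA₂ ≠ ∞ := ne_top_of_le_ne_top (by norm_num) hA2
  have HB := NN_B hd hΓ1 hN HA hA1 hBA
  have HB₂ := NN_B hd hΓ1 hN HA₂ hA2 hBA₂
  have hAA : εA + εA₂ ≤ 1 := by
    calc εA + εA₂ ≤ 1 / 2 + 1 / 2 := add_le_add hA1 hA2
      _ = 1 := ENNReal.add_halves 1
  -- the remainder of the exponential
  have hrem : ∀ U : Finset X, U.Nonempty → nm U ((B U - A₀ U) - (B₂ U - A₂ U))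
      ≤ (4 * (εA + εA₂)) * nm U (A₀ U - A₂ U) := by
    intro U hU
    have h1 := nm_le_NN hd hΓ1 HA hU
    have h2 := nm_le_NN hd hΓ1 HA₂ hU
    refine (hl U hU (h1.trans hA1) (h2.trans hA2)).trans ?_
    exact mul_le_mul_left (mul_le_mul_right (add_le_add h1 h2) _) _
  have Hrem : NN d r Γ (fun U => nm U ((B U - A₀ U) - (B₂ U - A₂ U)))
      ≤ 4 * (εA + εA₂) * ηA :=
    (NN_mono_ne hrem).trans ((NN_smul_le _ _).trans (mul_le_mul_right HdA _))
  have HdB : NN d r Γ (fun U => nm U (B U - B₂ U)) ≤ 5 * ηA := by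
    have h1 : NN d r Γ (fun U => nm U (B U - B₂ U))
        ≤ NN d r Γ (fun U => nm U ((B U - A₀ U) - (B₂ U - A₂ U)) + nm U (A₀ U - A₂ U)) := by
      refine NN_mono_ne fun U _ => le_trans (le_of_eq ?_) (hN.add _ _ _)
      congr 1
      ring
    refine h1.trans ((NN_add_le _ _).trans ((add_le_add Hrem HdA).trans ?_))
    calc 4 * (εA + εA₂) * ηA + ηA ≤ 4 * 1 * ηA + ηA := by gcongr
      _ = 5 * ηA := by ring
  have h1 : NN d r' Γ (fun W => nm W ((KK near (fun a b => d a b ≤ R') K B W - K W - A₀ W)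
        - (KK near (fun a b => d a b ≤ R') K₂ B₂ W - K₂ W - A₂ W)))
      ≤ NN d r' Γ (fun W => nm W (QQ near (fun a b => d a b ≤ R') K B W
          - QQ near (fun a b => d a b ≤ R') K₂ B₂ W)
        + nm W ((B W - A₀ W) - (B₂ W - A₂ W))) := by
    refine NN_mono_ne fun W hW => ?_
    rw [KK_eq_QQ hW, KK_eq_QQ hW]
    refine le_trans (le_of_eq ?_) (hN.add _ _ _)
    congr 1
    ring
  refine h1.trans ((NN_add_le _ _).trans (add_le_add ?_ ?_))
  · exact QQ_NN_lip hd hΓ hR hcov hcov' hN hK hB hK₂ hB₂ HK HB HK₂ HB₂ HdK HdB hs hεK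
      (ENNReal.mul_ne_top (by norm_num) hεA) hεK₂ (ENNReal.mul_ne_top (by norm_num) hεA₂) hηK
      (ENNReal.mul_ne_top (by norm_num) hηA) near
  · exact (NN_scale hΓ1 (by omega) hcov' _).trans (mul_le_mul_right Hrem _)

end gen

/-! ### the norms of `GDef_387` -/

section gdef

open Crest.Agent.R165.Gr0x606 Crest.Agent.R165.Gr1x606 Crest.Agent.R165.Latx683
  Crest.Agent.R165.PNormx417 Crest.Agent.R165.GDefx387 Crest.Agent.R165.Bridgex915
  Crest.Agent.R165.GeOpsx337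

/-- a family of weights which is antitone in the face set gives a family of norms -/
theorem normFam_of_anti {F : Type*} [DecidableEq F] {V : Type*} [AddCommGroup V] [Module ℝ V]
    (w : Finset F → V → ℝ≥0∞) (hw : ∀ U U' : Finset F, U ⊆ U' → ∀ l, w U' l ≤ w U l) :
    NormFam (fun U (a : Ge V) => pG (w U) a) where
  zero _ := pG_zero _
  one _ := pG_one_le _
  add _ _ _ := pG_add_le _ _ _
  neg _ _ := pG_neg _ _
  anti U U' a h := pnorm_le_pnorm (hw U U' h) _
  mul U x y hx hy := pG_mul_le' le_rfl le_rfl hx hy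

variable {G : Type} [CommRing G] [CN G]

theorem normFam_pG [DecidableEq (G × G)] (w : BW G) (a : ℝ) (r : ℕ) :
    NormFam (fun U (x : Ge (Fld G)) => pG (wU w a r U) x) :=
  normFam_of_anti _ fun _ _ h l => wU_anti w a r h l

/-- covering numbers of the step -/
theorem covs_fd [GoodG G] {r r' R' : ℕ} (hr : 0 < r) (hr' : 0 < r') :
    Cov (fd : G × G → G × G → ℕ) (r' + R') r' ((2 * ((r' + R') / r') + 3) ^ 2) ∧
      Cov (fd : G × G → G × G → ℕ) r' r ((2 * (r' / r) + 3) ^ 2) :=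
  ⟨cov_fd hr' _, cov_fd hr _⟩

end gdef

end Crest.Agent.R165.Quad2x897
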