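import Crest.Agent.R165.KFlow_337
import Crest.Agent.R165.KEq_337
import Crest.Agent.R165.ExpA_337
import Crest.Agent.R165.Quad2_897
import Crest.Agent.R165.DefStep_915

/-!
# Row 165 (S0250), block G: norms of one step of the flow, abstract form (helper337)

Any faces `F` with a pseudo-distance `d`, any fields `V` (sources allowed), any families of algebra
norms `nm` (old scale), `nm'` (new scale).

* `NP d r Γ nm p X` : norm of the family `X` restricted to the sets with the property `p`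
* `StepD` : data of one step: `h1` (convolution), `hv` (vacuum part), `hX` (extraction), always with
  the weights `(3 Γ) ^ |U|_{r'}` at the new scale, which also controls the factors of the branch
  points (`weight_mul`)
* `StepD.A_le` : `N'(A) ≤ (cH + 2 cX) n N(K)`;  `StepD.rem_le` : `N'(B - A) ≤ N'(A)²`;
  `StepD.Q_le` : quadratic bound for the terms with at least two items
* `StepD.defect` : recursion of the defect norm; `StepD.crude` : the same without classes
* `deep_le` : comparison with another system through charts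
-/

set_option autoImplicit false

noncomputable section

namespace Crest.Agent.R165.NFlowx337

open scoped ENNReal
open Crest.Agent.R165.Gr0x606 Crest.Agent.R165.Gr1x606 Crest.Agent.R165.GeOpsx337
  Crest.Agent.R165.ExpGx337 Crest.Agent.R165.KCompx892 Crest.Agent.R165.KStepx892
  Crest.Agent.R165.KMapx892 Crest.Agent.R165.KFlowx337 Crest.Agent.R165.ExpAx337
  Crest.Agent.R165.Packx915 Crest.Agent.R165.NSumx915 Crest.Agent.R165.Quadx897
  Crest.Agent.R165.Quad2x897

/-! ### sums over the polymers near a point -/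

section sums

variable {X : Type*} {d : X → X → ℕ} {r r' R R' n : ℕ} {Γ : ℝ≥0∞}

/-- sum over the polymers near a point at the new scale, weights of the old scale -/
theorem near_sum_le (hcov : NSumx915.Cov d r' r n) (a : Finset X → ℝ≥0∞) (f : X) :
    ∑' U : Finset X, Set.indicator {U | near d r' f U} (fun U => Γ ^ pack d r U * a U) U ≤
      n * NN d r Γ a := by
  obtain ⟨net, hc, hnet⟩ := hcov.net f
  refine (cover_sum _ net hnet).trans ?_
  refine (Finset.sum_le_sum fun g _ => bs_le_NN (d := d) (r := r) (Γ := Γ) a g).trans ?_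
  rw [Finset.sum_const, nsmul_eq_mul]
  exact mul_le_mul_left (Nat.cast_le.2 hc) _

/-- change of scale when the weights are compared one by one -/
theorem NN_change (hcov : NSumx915.Cov d r' r n) {Γ' c : ℝ≥0∞} {a a' : Finset X → ℝ≥0∞}
    (h : ∀ U, U.Nonempty → Γ' ^ pack d r' U * a' U ≤ c * (Γ ^ pack d r U * a U)) :
    NN d r' Γ' a' ≤ c * (n * NN d r Γ a) := by
  refine iSup_le fun f => ?_
  refine le_trans ?_ (mul_le_mul_right (near_sum_le hcov a f) c)
  rw [bs, ← ENNReal.tsum_mul_left]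
  refine ENNReal.tsum_le_tsum fun U => ?_
  by_cases hU : near d r' f U
  · rw [Set.indicator_of_mem (by exact hU), Set.indicator_of_mem (by exact hU)]
    exact h U hU.nonempty
  · rw [Set.indicator_of_notMem (by exact hU)]
    exact bot_le

theorem NN_weight {Γ' : ℝ≥0∞} (h : Γ ≤ Γ') (a : Finset X → ℝ≥0∞) : NN d r Γ a ≤ NN d r Γ' a :=
  iSup_mono fun _ => ENNReal.tsum_le_tsum fun _ =>
    Set.indicator_le_indicator (mul_le_mul_left (pow_le_pow_left' h _) _)

/-- **the weight which pays the branch points**: `(x Γ)^|U|_{r'} ≤ x Γ^|U|_r`, `1 ≤ x ≤ Γ` -/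
theorem weight_mul (hd : PD d) {x : ℝ≥0∞} (hx : 1 ≤ x) (hΓ : x ≤ Γ)
    (hR : 4 * R + 3 * r + 2 ≤ r') {U : Finset X} (hU : Packx915.Conn d R U) :
    (x * Γ) ^ pack d r' U ≤ x * Γ ^ pack d r U := by
  have hΓ1 : 1 ≤ Γ := hx.trans hΓ
  have hle : pack d r' U ≤ pack d r U := pack_anti (by omega)
  rw [mul_pow]
  by_cases h : pack d r' U ≤ 1
  · have h3 : x ^ pack d r' U ≤ x := by
      calc x ^ pack d r' U ≤ x ^ 1 := pow_le_pow_right₀ hx h
        _ = x := pow_one x
    exact mul_le_mul' h3 (pow_le_pow_right₀ hΓ1 hle)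
  · have hg := pack_growth (m := 2) (ρ := 2 * R + r + 1) (r := r) (r' := r') hd hU (by omega)
      (by omega) (by omega : 2 ≤ pack d r' U)
    calc x ^ pack d r' U * Γ ^ pack d r' U ≤ Γ ^ pack d r' U * Γ ^ pack d r' U :=
          mul_le_mul_left (pow_le_pow_left' hΓ _) _
      _ = Γ ^ (2 * pack d r' U) := by rw [two_mul, pow_add]
      _ ≤ Γ ^ pack d r U := pow_le_pow_right₀ hΓ1 hg
      _ ≤ x * Γ ^ pack d r U := le_mul_of_one_le_left' hx

end sums

variable {F : Type*} [DecidableEq F] {V : Type*} [AddCommGroup V] [Module ℝ V]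
  {d : F → F → ℕ} {r r' R R' n n₂ : ℕ} {Γ : ℝ≥0∞}

/-! ### norms of families -/

/-- norm of the family `X`, restricted to the sets with the property `p` -/
def NP (d : F → F → ℕ) (r : ℕ) (Γ : ℝ≥0∞) (nm : Finset F → Ge V → ℝ≥0∞) (p : Finset F → Prop)
    (X : Finset F → Ge V) : ℝ≥0∞ :=
  NN d r Γ (Set.indicator {U | p U} fun U => nm U (X U))

theorem NP_le_NN {nm : Finset F → Ge V → ℝ≥0∞} {p : Finset F → Prop} {X : Finset F → Ge V} :
    NP d r Γ nm p X ≤ NN d r Γ fun U => nm U (X U) := by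
  refine NN_mono fun U => ?_
  by_cases hp : p U
  · rw [Set.indicator_of_mem (by exact hp)]
  · rw [Set.indicator_of_notMem (by exact hp)]
    exact bot_le

theorem NN_le_split (nm : Finset F → Ge V → ℝ≥0∞) (p : Finset F → Prop) (X : Finset F → Ge V) :
    (NN d r Γ fun U => nm U (X U)) ≤
      NP d r Γ nm p X + NP d r Γ nm (fun U => ¬ p U) X := by
  refine le_trans (NN_mono fun U => ?_) (NN_add_le _ _)
  by_cases hp : p U
  · rw [Set.indicator_of_mem (by exact hp)]
    exact le_self_add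
  · rw [Set.indicator_of_mem (s := {U | ¬ p U}) (by exact hp)]
    exact le_add_self

/-! ### one step -/

/-- data of one step of the flow -/
structure StepD (D : Sys F V) (k : ℕ) (d : F → F → ℕ) (r r' R R' n n₂ : ℕ) (Γ : ℝ≥0∞)
    (nm nm' : Finset F → Ge V → ℝ≥0∞) (cH cX : ℝ≥0∞) : Prop where
  pd : PD d
  Γ3 : 3 ≤ Γ
  rr : 4 * R + 3 * r + 2 ≤ r'
  /-- touching at the new scale -/
  near' : D.near (k + 1) = fun a b => d a b ≤ R'
  cov : NSumx915.Cov d r' r n
  cov₂ : NSumx915.Cov d (r' + R') r' n₂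
  gf : GFam nm'
  /-- convolution -/
  h1 : ∀ U, U.Nonempty → (3 * Γ) ^ pack d r' U * nm' U (D.H k U) ≤
    cH * (Γ ^ pack d r U * nm U (D.K k U))
  /-- vacuum part -/
  hv : ∀ U, nm' U (D.vac (D.H k U)) ≤ nm' U (D.H k U)
  /-- extraction -/
  hX : ∀ U, ∑ T ∈ (D.e k).out U, (3 * Γ) ^ pack d r' T * nm' T ((D.e k).X U T (D.H k U)) ≤
    cX * (Γ ^ pack d r U * nm U (D.K k U))
  hsz : ∀ U, ∀ T ∈ (D.e k).out U, pack d r' U ≤ pack d r' T

namespace StepD

variable {D : Sys F V} {k : ℕ} {nm nm' : Finset F → Ge V → ℝ≥0∞} {cH cX : ℝ≥0∞}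

theorem Γ1 (h : StepD D k d r r' R R' n n₂ Γ nm nm' cH cX) : 1 ≤ Γ := le_trans (by norm_num) h.Γ3

theorem Γ3' (h : StepD D k d r r' R R' n n₂ Γ nm nm' cH cX) : 1 ≤ 3 * Γ :=
  h.Γ1.trans (le_mul_of_one_le_left' (by norm_num))

/-- the convolved activities -/
theorem H_le (h : StepD D k d r r' R R' n n₂ Γ nm nm' cH cX) :
    (NN d r' (3 * Γ) fun U => nm' U (D.H k U)) ≤ cH * (n * NN d r Γ fun U => nm U (D.K k U)) :=
  NN_change h.cov h.h1

/-- what is lost -/
theorem lost_le (h : StepD D k d r r' R R' n n₂ Γ nm nm' cH cX) :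
    (NN d r' (3 * Γ) fun U => nm' U ((D.e k).lost (D.H k) U)) ≤
      cX * (n * NN d r Γ fun U => nm U (D.K k U)) := by
  refine NN_change h.cov fun U _ => ?_
  refine le_trans ?_ (h.hX U)
  rw [Extr.lost]
  refine (mul_le_mul_right ((h.gf.gn U).sum _ _) _).trans ?_
  rw [Finset.mul_sum]
  refine Finset.sum_le_sum fun T hT => ?_
  exact mul_le_mul' (pow_le_pow_right₀ h.Γ3' (h.hsz U T hT)) (h.gf.anti T U _ ((D.e k).sub U T hT))

/-- what is gained -/
theorem gain_le (h : StepD D k d r r' R R' n n₂ Γ nm nm' cH cX) :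
    (NN d r' (3 * Γ) fun U => nm' U ((D.e k).gain (D.H k) U)) ≤
      cX * (n * NN d r Γ fun U => nm U (D.K k U)) := by
  classical
  refine iSup_le fun f => ?_
  refine le_trans ?_ (mul_le_mul_right (near_sum_le h.cov (fun U => nm U (D.K k U)) f) cX)
  have hterm : ∀ T : Finset F, Set.indicator {T | near d r' f T}
      (fun T => (3 * Γ) ^ pack d r' T * nm' T ((D.e k).gain (D.H k) T)) T ≤
      ∑' U : Finset F, if near d r' f T ∧ T ∈ (D.e k).out U then
        (3 * Γ) ^ pack d r' T * nm' T ((D.e k).X U T (D.H k U)) else 0 := by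
    intro T
    by_cases hT : near d r' f T
    · rw [Set.indicator_of_mem (by exact hT), Extr.gain]
      refine (mul_le_mul_right ((h.gf.gn T).sum _ _) _).trans ?_
      rw [Finset.mul_sum]
      refine le_trans (Finset.sum_le_sum fun U hU => ?_) (ENNReal.sum_le_tsum ((D.e k).inn T))
      rw [if_pos ⟨hT, ((D.e k).mem_iff U T).2 hU⟩]
    · rw [Set.indicator_of_notMem (by exact hT)]
      exact bot_le
  rw [bs]
  refine (ENNReal.tsum_le_tsum hterm).trans ?_
  rw [ENNReal.tsum_comm, ← ENNReal.tsum_mul_left]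
  refine ENNReal.tsum_le_tsum fun U => ?_
  have hsum : ∑' T : Finset F, (if near d r' f T ∧ T ∈ (D.e k).out U then
        (3 * Γ) ^ pack d r' T * nm' T ((D.e k).X U T (D.H k U)) else 0) =
      ∑ T ∈ (D.e k).out U, (if near d r' f T then
        (3 * Γ) ^ pack d r' T * nm' T ((D.e k).X U T (D.H k U)) else 0) := by
    rw [tsum_eq_sum (s := (D.e k).out U)]
    · refine Finset.sum_congr rfl fun T hT => ?_
      by_cases hn : near d r' f T
      · rw [if_pos ⟨hn, hT⟩, if_pos hn]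
      · rw [if_neg (fun h => hn h.1), if_neg hn]
    · intro T hT
      rw [if_neg fun h => hT h.2]
  rw [hsum]
  by_cases hU : near d r' f U
  · rw [Set.indicator_of_mem (by exact hU)]
    refine le_trans (Finset.sum_le_sum fun T _ => ?_) (h.hX U)
    split_ifs
    · exact le_rfl
    · exact bot_le
  · rw [Set.indicator_of_notMem (by exact hU), mul_zero]
    refine le_of_eq (Finset.sum_eq_zero fun T hT => ?_)
    rw [if_neg]
    intro hT'
    exact hU (hT'.mono ((D.e k).sub U T hT) le_rfl)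

/-- **(T1)** the extraction exponent -/
theorem A_le (h : StepD D k d r r' R R' n n₂ Γ nm nm' cH cX) :
    (NN d r' (3 * Γ) fun U => nm' U (D.A k U)) ≤
      (cH + 2 * cX) * (n * NN d r Γ fun U => nm U (D.K k U)) := by
  have h2 : (NN d r' (3 * Γ) fun U => nm' U (D.A k U)) ≤
      NN d r' (3 * Γ) fun U => nm' U ((D.e k).gain (D.H k) U) +
        (nm' U ((D.e k).lost (D.H k) U) + nm' U (D.H k U)) := by
    refine NN_mono fun U => ?_
    rw [Sys.A, AA]
    refine ((h.gf.gn U).sub _ _).trans ?_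
    refine (add_le_add ((h.gf.gn U).sub _ _) (h.hv U)).trans ?_
    rw [add_assoc]
  refine h2.trans ((NN_add_le _ _).trans ?_)
  refine (add_le_add h.gain_le ((NN_add_le _ _).trans (add_le_add h.lost_le h.H_le))).trans ?_
  refine le_of_eq ?_
  ring

/-- single values -/
theorem le_of_NN (h : StepD D k d r r' R R' n n₂ Γ nm nm' cH cX) {x : Finset F → ℝ≥0∞} {ε : ℝ≥0∞}
    (hx : NN d r' (3 * Γ) x ≤ ε) {U : Finset F} (hU : U.Nonempty) : x U ≤ ε :=
  nm_le_NN h.pd h.Γ3' hx hU

/-- **(T2)** exponential remainder -/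
theorem rem_le (h : StepD D k d r r' R R' n n₂ Γ nm nm' cH cX) {ε : ℝ≥0∞}
    (hA : (NN d r' (3 * Γ) fun U => nm' U (D.A k U)) ≤ ε) (hε : ε ≤ 1) :
    (NN d r' (3 * Γ) fun U => nm' U (D.B k U - D.A k U)) ≤ ε * ε := by
  refine (NN_mono_ne (b := fun U => nm' U (D.A k U) * nm' U (D.A k U)) fun U hU => ?_).trans ?_
  · rw [Sys.B_eq, ← sq]
    exact (h.gf.gn U).rem_le ((h.le_of_NN hA hU).trans hε)
  · exact (NN_sq h.pd h.Γ3' _).trans (mul_le_mul' hA hA)

theorem B_le (h : StepD D k d r r' R R' n n₂ Γ nm nm' cH cX) {ε : ℝ≥0∞}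
    (hA : (NN d r' (3 * Γ) fun U => nm' U (D.A k U)) ≤ ε) (hε : ε ≤ 1) :
    (NN d r' (3 * Γ) fun U => nm' U (D.B k U)) ≤ 2 * ε := by
  refine (NN_mono_ne (b := fun U => 2 * nm' U (D.A k U)) fun U hU => ?_).trans ?_
  · rw [Sys.B_eq]
    exact (h.gf.gn U).one_le ((h.le_of_NN hA hU).trans hε)
  · exact (NN_smul_le _ _).trans (mul_le_mul_right hA _)

/-- the terms with at least two items are 897's `QQ` -/
theorem Q_eq (D : Sys F V) (k : ℕ) (W : Finset F) :
    D.Q k W = QQ (D.near k) (D.near (k + 1)) (D.H k) (D.B k) W := rfl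

/-- **(T3)** quadratic bound for the terms with at least two items -/
theorem Q_le (h : StepD D k d r r' R R' n n₂ Γ nm nm' cH cX) {εH εB : ℝ≥0∞}
    (hH : (NN d r' (3 * Γ) fun U => nm' U (D.H k U)) ≤ εH)
    (hB : (NN d r' (3 * Γ) fun U => nm' U (D.B k U)) ≤ εB) (hεH : εH ≠ ∞) (hεB : εB ≠ ∞)
    (hs : n₂ * (εH + εB) ≤ 1) :
    (NN d r' Γ fun U => nm' U (D.Q k U)) ≤ n₂ * (εH + εB) * (εH + εB) := by
  refine iSup_le fun p => ?_
  have hw : ∀ (x : Finset F → ℝ≥0∞) (ε : ℝ≥0∞), NN d r' (3 * Γ) x ≤ ε →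
      ∀ p, ∑' U : Finset F, Set.indicator {U | near d r' p U}
        (fun U => Γ ^ pack d r' U * 3 ^ pack d r' U * x U) U ≤ ε := by
    intro x ε hx p
    refine le_trans (le_of_eq ?_) ((bs_le_NN x p).trans hx)
    rw [bs]
    refine tsum_congr fun U => ?_
    congr 1
    funext U
    rw [mul_pow]
    ring
  have key := KK_quad (near := D.near k) (near' := fun a b => d a b ≤ R')
    (fun a b hab => by rw [h.pd.symm]; exact hab) h.gf.toNormFam
    (sumData (r' := r') (R' := R') h.pd h.Γ1 h.cov₂) (K := D.H k) (B := D.B k) hεH hεB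
    (hw _ _ hH) (hw _ _ hB) hs p
  refine le_trans (le_of_eq ?_) key
  rw [bs]
  refine tsum_congr fun U => ?_
  congr 1
  funext U
  rw [Q_eq, h.near']

/-- **quadratic part of the step** -/
theorem quad (h : StepD D k d r r' R R' n n₂ Γ nm nm' cH cX) {N c : ℝ≥0∞}
    (hN : (NN d r Γ fun U => nm U (D.K k U)) ≤ N) (hc : c = 3 * ((cH + 2 * cX) * n))
    (hs : (n₂ + 1) * (c * N) ≤ 1) (hct : c * N ≠ ∞) :
    (NN d r' Γ fun U => nm' U (D.B k U - D.A k U + D.Q k U)) ≤ (n₂ + 1) * (c * N) * (c * N) := by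
  set ε : ℝ≥0∞ := (cH + 2 * cX) * (n * N) with hε
  have hcε : c * N = 3 * ε := by rw [hc, hε]; ring
  have hA : (NN d r' (3 * Γ) fun U => nm' U (D.A k U)) ≤ ε :=
    h.A_le.trans (mul_le_mul_right (mul_le_mul_right hN _) _)
  have hH : (NN d r' (3 * Γ) fun U => nm' U (D.H k U)) ≤ ε := by
    refine h.H_le.trans ?_
    rw [hε]
    exact mul_le_mul' le_self_add (mul_le_mul_right hN _)
  have hcN1 : c * N ≤ 1 := by
    refine le_trans ?_ hs
    exact le_mul_of_one_le_left' le_add_self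
  have hε1 : ε ≤ 1 := by
    refine le_trans ?_ hcN1
    rw [hcε]
    exact le_mul_of_one_le_left' (by norm_num)
  have hεt : ε ≠ ∞ := ne_top_of_le_ne_top ENNReal.one_ne_top hε1
  have hB := h.B_le hA hε1
  have hHB : ε + 2 * ε = c * N := by rw [hcε]; ring
  have hQ := h.Q_le hH hB hεt (ENNReal.mul_ne_top (by norm_num) hεt)
    (by rw [hHB]; exact le_trans (mul_le_mul_left le_self_add _) hs)
  rw [hHB] at hQ
  have hR := h.rem_le hA hε1
  have h1 : (NN d r' Γ fun U => nm' U (D.B k U - D.A k U)) ≤ c * N * (c * N) := by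
    refine (NN_weight (le_mul_of_one_le_left' (by norm_num)) _).trans (hR.trans ?_)
    have : ε ≤ c * N := by rw [hcε]; exact le_mul_of_one_le_left' (by norm_num)
    exact mul_le_mul' this this
  have h2 : (NN d r' Γ fun U => nm' U (D.B k U - D.A k U + D.Q k U)) ≤
      NN d r' Γ fun U => nm' U (D.B k U - D.A k U) + nm' U (D.Q k U) :=
    NN_mono fun U => (h.gf.gn U).add _ _
  refine h2.trans ((NN_add_le _ _).trans ((add_le_add h1 hQ).trans (le_of_eq ?_)))
  ring

theorem K_succ_rw (D : Sys F V) (k : ℕ) {U : Finset F} (hU : U.Nonempty) :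
    D.K (k + 1) U = (D.H k U + D.A k U) + (D.B k U - D.A k U + D.Q k U) := by
  rw [D.K_succ_eq k hU]; ring

/-- **(T4)** recursion of the norm restricted to a class `p'` (defect class of the new scale) -/
theorem defect (h : StepD D k d r r' R R' n n₂ Γ nm nm' cH cX) {κ : Type*} [Fintype κ]
    (Ad : κ → Set F) (m Nn Dn : κ → ℕ) (q : κ → ℝ≥0∞) (qL qT : ℝ≥0∞)
    (hD : ∀ i, NSumx915.Cov d (m i + r) r (Dn i)) (hN : ∀ i, DCount d (Ad i) (r' + m i) r (Nn i))
    (p p' : Finset F → Prop)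
    (hcls : ∀ U, p' U → U.Nonempty → nm' U (D.H k U + D.A k U) ≠ 0 →
      (p U ∧ Γ ^ pack d r' U * nm' U (D.H k U + D.A k U) ≤
        qL * (Γ ^ pack d r U * nm U (D.K k U))) ∨
      (¬ p U ∧ Γ ^ pack d r' U * nm' U (D.H k U + D.A k U) ≤
        qT * (Γ ^ pack d r U * nm U (D.K k U))) ∨
      ∃ i, p U ∧ (∀ u ∈ U, ∃ x ∈ Ad i, d u x ≤ m i) ∧
        Γ ^ pack d r' U * nm' U (D.H k U + D.A k U) ≤
          q i * (Γ ^ pack d r U * nm U (D.K k U)))
    {b c M : ℝ≥0∞} (hb : NP d r Γ nm (fun U => ¬ p U) (D.K k) ≤ b)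
    (hc : NP d r Γ nm p (D.K k) ≤ c) (hM : M = 3 * ((cH + 2 * cX) * n))
    (hs : (n₂ + 1) * (M * (b + c)) ≤ 1) (hMt : M * (b + c) ≠ ∞) :
    NP d r' Γ nm' p' (D.K (k + 1)) ≤
      (qL * n + ∑ i, q i * ((Nn i * Dn i : ℕ) : ℝ≥0∞)) * c + qT * n * b
        + (n₂ + 1) * (M * (b + c)) * (M * (b + c)) := by
  have hNN : (NN d r Γ fun U => nm U (D.K k U)) ≤ b + c := by
    refine (NN_le_split nm p (D.K k)).trans ?_
    rw [add_comm]
    exact add_le_add hb hc
  have hq := h.quad hNN hM hs hMt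
  -- splitting
  have h1 : NP d r' Γ nm' p' (D.K (k + 1)) ≤
      NN d r' Γ fun U => Set.indicator {U | p' U ∧ U.Nonempty}
        (fun U => nm' U (D.H k U + D.A k U)) U + nm' U (D.B k U - D.A k U + D.Q k U) := by
    refine NN_mono_ne fun U hU => ?_
    by_cases hp : p' U
    · rw [Set.indicator_of_mem (by exact hp), Set.indicator_of_mem (by exact ⟨hp, hU⟩),
        K_succ_rw D k hU]
      exact (h.gf.gn U).add _ _
    · rw [Set.indicator_of_notMem (by exact hp)]
      exact bot_le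
  refine h1.trans ((NN_add_le _ _).trans (add_le_add ?_ hq))
  refine (DefStepx915.defect_step h.pd Ad m Nn Dn q n qL qT
    (Set.indicator {U | p U} fun U => nm U (D.K k U))
    (Set.indicator {U | ¬ p U} fun U => nm U (D.K k U)) _ h.cov hD hN ?_).trans ?_
  · intro U hU
    by_cases hp : p' U ∧ U.Nonempty
    · rw [Set.indicator_of_mem (by exact hp)] at hU ⊢
      rcases hcls U hp.1 hp.2 hU with ⟨h2, h3⟩ | ⟨h2, h3⟩ | ⟨i, h2, h3, h4⟩
      · left
        rw [Set.indicator_of_mem (by exact h2)]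
        exact h3
      · right; left
        rw [Set.indicator_of_mem (s := {U | ¬ p U}) (by exact h2)]
        exact h3
      · right; right
        refine ⟨i, h3, ?_⟩
        rw [Set.indicator_of_mem (by exact h2)]
        exact h4
    · rw [Set.indicator_of_notMem (by exact hp)] at hU
      exact absurd rfl hU
  · exact add_le_add (mul_le_mul_right hc _) (mul_le_mul_right hb _)

/-- **(T5)** crude recursion, all polymers -/
theorem crude (h : StepD D k d r r' R R' n n₂ Γ nm nm' cH cX) {N M : ℝ≥0∞}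
    (hN : (NN d r Γ fun U => nm U (D.K k U)) ≤ N) (hM : M = 3 * ((cH + 2 * cX) * n))
    (hs : (n₂ + 1) * (M * N) ≤ 1) (hMt : M * N ≠ ∞) :
    (NN d r' Γ fun U => nm' U (D.K (k + 1) U)) ≤
      M * N + (n₂ + 1) * (M * N) * (M * N) := by
  have hq := h.quad hN hM hs hMt
  have h1 : (NN d r' Γ fun U => nm' U (D.K (k + 1) U)) ≤
      NN d r' Γ fun U => nm' U (D.H k U) + (nm' U (D.A k U) +
        nm' U (D.B k U - D.A k U + D.Q k U)) := by
    refine NN_mono_ne fun U hU => ?_
    rw [K_succ_rw D k hU]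
    refine ((h.gf.gn U).add _ _).trans ?_
    rw [← add_assoc]
    exact add_le_add ((h.gf.gn U).add _ _) le_rfl
  have h2 : (NN d r' Γ fun U => nm' U (D.H k U)) ≤ cH * (n * N) :=
    (NN_weight (le_mul_of_one_le_left' (by norm_num)) _).trans
      (h.H_le.trans (mul_le_mul_right (mul_le_mul_right hN _) _))
  have h3 : (NN d r' Γ fun U => nm' U (D.A k U)) ≤ (cH + 2 * cX) * (n * N) :=
    (NN_weight (le_mul_of_one_le_left' (by norm_num)) _).trans
      (h.A_le.trans (mul_le_mul_right (mul_le_mul_right hN _) _))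
  refine h1.trans ((NN_add_le _ _).trans ((add_le_add h2 ((NN_add_le _ _).trans
    (add_le_add h3 hq))).trans ?_))
  rw [← add_assoc]
  refine add_le_add ?_ le_rfl
  rw [hM]
  calc cH * (n * N) + (cH + 2 * cX) * (n * N)
      ≤ (cH + 2 * cX) * (n * N) + (cH + 2 * cX) * (n * N) :=
        add_le_add (mul_le_mul_left le_self_add _) le_rfl
    _ = 2 * ((cH + 2 * cX) * n * N) := by ring
    _ ≤ 3 * ((cH + 2 * cX) * n * N) := mul_le_mul_left (by norm_num) _
    _ = 3 * ((cH + 2 * cX) * n) * N := by ring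

end StepD

/-! ### comparison with another system -/

/-- **(T6)** deep part: the polymers with the property `q` are mapped injectively (near each face)
to polymers of another family with the same weights and not larger norms -/
theorem deep_le {F₁ F₂ : Type*} {d₁ : F₁ → F₁ → ℕ} {d₂ : F₂ → F₂ → ℕ} {r : ℕ} {Γ : ℝ≥0∞}
    {q : Finset F₁ → Prop} {a₁ : Finset F₁ → ℝ≥0∞} {a₂ : Finset F₂ → ℝ≥0∞}
    (h : ∀ f : F₁, ∃ (g : F₂) (φ : Finset F₁ → Finset F₂),
      Set.InjOn φ {U | near d₁ r f U ∧ q U} ∧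
      ∀ U, near d₁ r f U → q U → near d₂ r g (φ U) ∧ pack d₂ r (φ U) = pack d₁ r U ∧
        a₁ U ≤ a₂ (φ U)) :
    NN d₁ r Γ (Set.indicator {U | q U} a₁) ≤ NN d₂ r Γ a₂ := by
  classical
  refine iSup_le fun f => ?_
  obtain ⟨g, φ, hinj, hφ⟩ := h f
  refine le_trans ?_ (bs_le_NN a₂ g)
  rw [bs, bs]
  set s : Set (Finset F₁) := {U | near d₁ r f U ∧ q U} with hs
  have h1 : ∑' U : Finset F₁, Set.indicator {U | near d₁ r f U}
      (fun U => Γ ^ pack d₁ r U * Set.indicator {U | q U} a₁ U) U =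
      ∑' U : s, Γ ^ pack d₁ r U.1 * a₁ U.1 := by
    rw [tsum_subtype s fun U => Γ ^ pack d₁ r U * a₁ U]
    refine tsum_congr fun U => ?_
    by_cases h1 : near d₁ r f U
    · rw [Set.indicator_of_mem (by exact h1)]
      by_cases h2 : q U
      · rw [Set.indicator_of_mem (by exact h2), Set.indicator_of_mem (by exact ⟨h1, h2⟩)]
      · rw [Set.indicator_of_notMem (by exact h2), mul_zero,
          Set.indicator_of_notMem (fun h => h2 h.2)]
    · rw [Set.indicator_of_notMem (by exact h1), Set.indicator_of_notMem (fun h => h1 h.1)]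
  rw [h1]
  have hinj' : Function.Injective fun U : s => φ U.1 := fun U U' hUU =>
    Subtype.ext (hinj U.2 U'.2 hUU)
  refine le_trans (ENNReal.tsum_le_tsum fun U => ?_)
    (ENNReal.tsum_comp_le_tsum_of_injective hinj' fun W : Finset F₂ =>
      Set.indicator {W | near d₂ r g W} (fun W => Γ ^ pack d₂ r W * a₂ W) W)
  obtain ⟨h2, h3, h4⟩ := hφ U.1 U.2.1 U.2.2
  rw [Set.indicator_of_mem (by exact h2), h3]
  exact mul_le_mul_right h4 _

end Crest.Agent.R165.NFlowx337
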