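import Crest.Agent.R165.GDef_387
import Crest.Agent.R165.NWidth_386

/-!
# Row 165 (S0250), block G: the abstract layer of the local weights (helper898)

`nnB w r x f = ∑_{n ≤ 6} r^n |A^n f|_{l²(B(x, s₁ r))}` (GDef_387), `wt w a r x l = a √r · dn w r x l`,
`dn w r x l = sup {|l(f)| : nnB w r x f ≤ 1}`.

* `L2on Z f` : the `l²` seminorm on the half-edges of the faces of `Z`
* `nnB` is a seminorm, monotone in the ball, `nnB_split` : the high derivatives gain powers of `r/r'`
* `pair_le_dn` : duality inequality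
* `dn_semi`, `wt_semi` : extended seminorms; `wt_ne_top`, `wt_eq_zero`
* `WLe_of_dual` : the general comparison lemma for the inequalities (W1)-(W5)
* `WLe_id_of_reg1` (W1), `WLe_id_crude` (W5)
-/

set_option autoImplicit false
set_option linter.unusedSectionVars false

noncomputable section

open scoped ENNReal
open Crest.Agent.R165.Gr0x606 Crest.Agent.R165.Latx683 Crest.Agent.R165.PNormx417
  Crest.Agent.R165.GDefx387 Crest.Agent.R165.NWidthx386

namespace Crest.Agent.R165.Wtx898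

variable {G : Type} [CommRing G] [CN G]

/-! ### the `l²` seminorm on a set of faces -/

/-- `l²` seminorm on the half-edges of the faces of `Z` -/
def L2on (Z : Set (G × G)) (f : HE G → ℝ) : ℝ := l2 (restr Z f)

/-- the bilinear form of `L2on` for a finite set of faces -/
def bf (Z : Finset (G × G)) : LinearMap.BilinForm ℝ (HE G → ℝ) :=
  LinearMap.mk₂ ℝ (fun f g => ∑ h ∈ Z ×ˢ (Finset.univ : Finset (Fin 4)), f h * g h)
    (fun f f' g => by
      rw [← Finset.sum_add_distrib]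
      exact Finset.sum_congr rfl fun h _ => by rw [Pi.add_apply]; ring)
    (fun c f g => by
      rw [smul_eq_mul, Finset.mul_sum]
      exact Finset.sum_congr rfl fun h _ => by rw [Pi.smul_apply, smul_eq_mul]; ring)
    (fun f g g' => by
      rw [← Finset.sum_add_distrib]
      exact Finset.sum_congr rfl fun h _ => by rw [Pi.add_apply]; ring)
    (fun c f g => by
      rw [smul_eq_mul, Finset.mul_sum]
      exact Finset.sum_congr rfl fun h _ => by rw [Pi.smul_apply, smul_eq_mul]; ring)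

theorem bf_apply (Z : Finset (G × G)) (f g : HE G → ℝ) :
    bf Z f g = ∑ h ∈ Z ×ˢ (Finset.univ : Finset (Fin 4)), f h * g h := rfl

theorem bf_psd (Z : Finset (G × G)) : PSD (bf Z) := by
  refine ⟨fun f g => ?_, fun f => ?_⟩
  · rw [bf_apply, bf_apply]; exact Finset.sum_congr rfl fun h _ => mul_comm _ _
  · rw [bf_apply]; exact Finset.sum_nonneg fun h _ => mul_self_nonneg _

theorem L2on_coe (Z : Finset (G × G)) (f : HE G → ℝ) : L2on (Z : Set (G × G)) f = nB (bf Z) f := by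
  classical
  unfold L2on l2 nB
  congr 1
  rw [bf_apply, tsum_eq_sum (s := Z ×ˢ (Finset.univ : Finset (Fin 4)))]
  · refine Finset.sum_congr rfl fun h hh => ?_
    have : h.1 ∈ (Z : Set (G × G)) := by
      rw [Finset.mem_product] at hh; exact hh.1
    rw [restr, if_pos this]; ring
  · intro h hh
    have : ¬ h.1 ∈ (Z : Set (G × G)) := by
      intro h1
      apply hh
      rw [Finset.mem_product]
      exact ⟨h1, Finset.mem_univ _⟩
    rw [restr, if_neg this]; ring

theorem L2on_eq {Z : Set (G × G)} (hZ : Z.Finite) (f : HE G → ℝ) :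
    L2on Z f = nB (bf hZ.toFinset) f := by
  rw [← L2on_coe, Set.Finite.coe_toFinset]

theorem L2on_nonneg (Z : Set (G × G)) (f : HE G → ℝ) : 0 ≤ L2on Z f := Real.sqrt_nonneg _

theorem L2on_add_le {Z : Set (G × G)} (hZ : Z.Finite) (f g : HE G → ℝ) :
    L2on Z (f + g) ≤ L2on Z f + L2on Z g := by
  rw [L2on_eq hZ, L2on_eq hZ, L2on_eq hZ]; exact (bf_psd _).add_le f g

theorem L2on_sub_le {Z : Set (G × G)} (hZ : Z.Finite) (f g : HE G → ℝ) :
    L2on Z (f - g) ≤ L2on Z f + L2on Z g := by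
  rw [L2on_eq hZ, L2on_eq hZ, L2on_eq hZ]; exact (bf_psd _).sub_le f g

theorem L2on_smul {Z : Set (G × G)} (hZ : Z.Finite) (c : ℝ) (f : HE G → ℝ) :
    L2on Z (c • f) = |c| * L2on Z f := by
  rw [L2on_eq hZ, L2on_eq hZ]; exact (bf_psd _).smul_eq c f

theorem L2on_sq {Z : Set (G × G)} (hZ : Z.Finite) (f : HE G → ℝ) :
    L2on Z f ^ 2 = ∑ h ∈ hZ.toFinset ×ˢ (Finset.univ : Finset (Fin 4)), f h ^ 2 := by
  rw [L2on_eq hZ, nB_sq (bf_psd _), bf_apply]
  exact Finset.sum_congr rfl fun h _ => (sq _).symm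

theorem L2on_mono {Z Z' : Set (G × G)} (h : Z ⊆ Z') (hZ : Z'.Finite) (f : HE G → ℝ) :
    L2on Z f ≤ L2on Z' f := by
  have hZ0 : Z.Finite := hZ.subset h
  rw [← abs_of_nonneg (L2on_nonneg Z f), ← abs_of_nonneg (L2on_nonneg Z' f)]
  apply sq_le_sq.1
  rw [L2on_sq hZ0, L2on_sq hZ]
  refine Finset.sum_le_sum_of_subset_of_nonneg ?_ fun _ _ _ => sq_nonneg _
  exact Finset.product_subset_product (Set.Finite.toFinset_subset_toFinset.2 h) subset_rfl

theorem L2on_congr {Z : Set (G × G)} {f g : HE G → ℝ} (h : ∀ e : HE G, e.1 ∈ Z → f e = g e) :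
    L2on Z f = L2on Z g := by
  classical
  unfold L2on
  congr 1
  funext e
  unfold restr
  split_ifs with he
  · exact h e he
  · rfl

theorem abs_le_L2on {Z : Set (G × G)} (hZ : Z.Finite) (f : HE G → ℝ) {e : HE G} (he : e.1 ∈ Z) :
    |f e| ≤ L2on Z f := by
  rw [← abs_of_nonneg (L2on_nonneg Z f)]
  apply sq_le_sq.1
  rw [L2on_sq hZ]
  refine Finset.single_le_sum (f := fun h => f h ^ 2) (fun _ _ => sq_nonneg _) ?_
  rw [Finset.mem_product]
  exact ⟨hZ.mem_toFinset.2 he, Finset.mem_univ _⟩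

/-- `L2on` as a seminorm -/
def sL2 {Z : Set (G × G)} (hZ : Z.Finite) : Seminorm ℝ (HE G → ℝ) :=
  Seminorm.of (L2on Z) (L2on_add_le hZ) fun c f => by rw [L2on_smul hZ, Real.norm_eq_abs]

@[simp] theorem sL2_apply {Z : Set (G × G)} (hZ : Z.Finite) (f : HE G → ℝ) :
    sL2 hZ f = L2on Z f := rfl

/-! ### pairing -/

theorem pair_eq_sum (l : Fld G) (f : HE G → ℝ) : pair l f = ∑ h ∈ l.support, l h * f h := rfl

theorem pair_zero_left (f : HE G → ℝ) : pair (0 : Fld G) f = 0 := Finsupp.sum_zero_index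

theorem pair_add_left (l l' : Fld G) (f : HE G → ℝ) : pair (l + l') f = pair l f + pair l' f :=
  Finsupp.sum_add_index' (fun _ => by simp) fun _ _ _ => by ring

theorem pair_smul_left (c : ℝ) (l : Fld G) (f : HE G → ℝ) : pair (c • l) f = c * pair l f := by
  unfold pair
  rw [Finsupp.sum_smul_index' (fun _ => by simp), Finsupp.mul_sum]
  exact Finsupp.sum_congr fun h _ => by rw [smul_eq_mul]; ring

theorem pair_neg_left (l : Fld G) (f : HE G → ℝ) : pair (-l) f = -pair l f := by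
  have := pair_smul_left (-1) l f
  rwa [neg_one_smul, neg_one_mul] at this

theorem pair_sub_left (l l' : Fld G) (f : HE G → ℝ) : pair (l - l') f = pair l f - pair l' f := by
  rw [sub_eq_add_neg, pair_add_left, pair_neg_left]; ring

theorem pair_add_right (l : Fld G) (f g : HE G → ℝ) : pair l (f + g) = pair l f + pair l g := by
  rw [pair_eq_sum, pair_eq_sum, pair_eq_sum, ← Finset.sum_add_distrib]
  exact Finset.sum_congr rfl fun h _ => by rw [Pi.add_apply]; ring

theorem pair_smul_right (l : Fld G) (c : ℝ) (f : HE G → ℝ) : pair l (c • f) = c * pair l f := by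
  rw [pair_eq_sum, pair_eq_sum, Finset.mul_sum]
  exact Finset.sum_congr rfl fun h _ => by rw [Pi.smul_apply, smul_eq_mul]; ring

theorem pair_neg_right (l : Fld G) (f : HE G → ℝ) : pair l (-f) = -pair l f := by
  have := pair_smul_right l (-1) f
  rwa [neg_one_smul, neg_one_mul] at this

theorem pair_sub_right (l : Fld G) (f g : HE G → ℝ) : pair l (f - g) = pair l f - pair l g := by
  rw [sub_eq_add_neg, pair_add_right, pair_neg_right]; ring

@[simp] theorem pair_single (h : HE G) (c : ℝ) (f : HE G → ℝ) :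
    pair (Finsupp.single h c) f = c * f h := Finsupp.sum_single_index (by simp)

theorem pair_congr {Z : Set (G × G)} {l : Fld G} (hl : SuppL Z l) {f g : HE G → ℝ}
    (h : ∀ e : HE G, e.1 ∈ Z → f e = g e) : pair l f = pair l g := by
  rw [pair_eq_sum, pair_eq_sum]
  exact Finset.sum_congr rfl fun e he => by rw [h e (hl e (Finsupp.mem_support_iff.1 he))]

/-- duality with the `l¹` norm -/
theorem abs_pair_le_sum {Z : Set (G × G)} (hZ : Z.Finite) {l : Fld G} (hl : SuppL Z l)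
    (f : HE G → ℝ) : |pair l f| ≤ (∑ h ∈ l.support, |l h|) * L2on Z f := by
  rw [pair_eq_sum, Finset.sum_mul]
  refine (Finset.abs_sum_le_sum_abs _ _).trans (Finset.sum_le_sum fun e he => ?_)
  rw [abs_mul]
  exact mul_le_mul_of_nonneg_left (abs_le_L2on hZ f (hl e (Finsupp.mem_support_iff.1 he)))
    (abs_nonneg _)

theorem suppL_mono {Z Z' : Set (G × G)} (h : Z ⊆ Z') {l : Fld G} (hl : SuppL Z l) : SuppL Z' l :=
  fun e he => h (hl e he)

theorem suppL_zero (Z : Set (G × G)) : SuppL Z (0 : Fld G) := fun _ he => absurd rfl he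

theorem suppL_add {Z : Set (G × G)} {l l' : Fld G} (hl : SuppL Z l) (hl' : SuppL Z l') :
    SuppL Z (l + l') := by
  intro e he
  rw [Finsupp.add_apply] at he
  by_cases h : l e = 0
  · exact hl' e fun h' => he (by rw [h, h', add_zero])
  · exact hl e h

theorem suppL_smul {Z : Set (G × G)} {l : Fld G} (hl : SuppL Z l) (c : ℝ) : SuppL Z (c • l) := by
  intro e he
  rw [Finsupp.smul_apply, smul_eq_mul] at he
  exact hl e fun h' => he (by rw [h', mul_zero])

theorem suppL_neg {Z : Set (G × G)} {l : Fld G} (hl : SuppL Z l) : SuppL Z (-l) := by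
  intro e he
  rw [Finsupp.neg_apply] at he
  exact hl e fun h' => he (by rw [h', neg_zero])

theorem suppL_sub {Z : Set (G × G)} {l l' : Fld G} (hl : SuppL Z l) (hl' : SuppL Z l') :
    SuppL Z (l - l') := by
  rw [sub_eq_add_neg]; exact suppL_add hl (suppL_neg hl')

/-! ### balls -/

theorem ball_subset_ball {x x' : G × G} {r r' : ℕ} (h : fd x' x + r ≤ r') : ball x r ⊆ ball x' r' :=
  fun f hf => (fd_triangle x' x f).trans (by rw [mem_ball] at hf; omega)

theorem ball_mono (x : G × G) {r r' : ℕ} (h : r ≤ r') : ball x r ⊆ ball x r' :=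
  fun _ hf => le_trans hf h

/-! ### the local test seminorm -/

section nnB

variable (w : BW G) (r : ℕ) (x : G × G)

theorem iter_add (n : ℕ) (f g : HE G → ℝ) : (Aop w)^[n] (f + g) = (Aop w)^[n] f + (Aop w)^[n] g := by
  rw [← Module.End.pow_apply, ← Module.End.pow_apply, ← Module.End.pow_apply, map_add]

theorem iter_smul (n : ℕ) (c : ℝ) (f : HE G → ℝ) : (Aop w)^[n] (c • f) = c • (Aop w)^[n] f := by
  rw [← Module.End.pow_apply, ← Module.End.pow_apply, map_smul]

theorem iter_sub (n : ℕ) (f g : HE G → ℝ) : (Aop w)^[n] (f - g) = (Aop w)^[n] f - (Aop w)^[n] g := by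
  rw [← Module.End.pow_apply, ← Module.End.pow_apply, ← Module.End.pow_apply, map_sub]

theorem nnB_eq (f : HE G → ℝ) : nnB w r x f =
    ∑ n ∈ Finset.range (MM + 1), (r : ℝ) ^ n * L2on (ball x (s1 * r)) ((Aop w)^[n] f) := rfl

theorem nnB_nonneg (f : HE G → ℝ) : 0 ≤ nnB w r x f :=
  Finset.sum_nonneg fun n _ => mul_nonneg (by positivity) (L2on_nonneg _ _)

theorem nnB_add_le (f g : HE G → ℝ) : nnB w r x (f + g) ≤ nnB w r x f + nnB w r x g := by
  rw [nnB_eq, nnB_eq, nnB_eq, ← Finset.sum_add_distrib]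
  refine Finset.sum_le_sum fun n _ => ?_
  rw [iter_add, ← mul_add]
  exact mul_le_mul_of_nonneg_left (L2on_add_le (ball_finite _ _) _ _) (by positivity)

theorem nnB_smul (c : ℝ) (f : HE G → ℝ) : nnB w r x (c • f) = |c| * nnB w r x f := by
  rw [nnB_eq, nnB_eq, Finset.mul_sum]
  refine Finset.sum_congr rfl fun n _ => ?_
  rw [iter_smul, L2on_smul (ball_finite _ _)]; ring

theorem nnB_sub_le (f g : HE G → ℝ) : nnB w r x (f - g) ≤ nnB w r x f + nnB w r x g := by
  have h := nnB_add_le w r x f ((-1 : ℝ) • g)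
  rw [nnB_smul, abs_neg, abs_one, one_mul] at h
  rwa [neg_one_smul, ← sub_eq_add_neg] at h

/-- the local test seminorm as a `Seminorm` -/
def sB : Seminorm ℝ (HE G → ℝ) :=
  Seminorm.of (nnB w r x) (nnB_add_le w r x) fun c f => by rw [nnB_smul, Real.norm_eq_abs]

@[simp] theorem sB_apply (f : HE G → ℝ) : sB w r x f = nnB w r x f := rfl

variable {w r x}

/-- each derivative is bounded by the local seminorm -/
theorem pow_mul_L2on_le {n : ℕ} (hn : n ≤ MM) (f : HE G → ℝ) :
    (r : ℝ) ^ n * L2on (ball x (s1 * r)) ((Aop w)^[n] f) ≤ nnB w r x f :=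
  Finset.single_le_sum (f := fun n => (r : ℝ) ^ n * L2on (ball x (s1 * r)) ((Aop w)^[n] f))
    (fun n _ => mul_nonneg (by positivity) (L2on_nonneg _ _))
    (Finset.mem_range.2 (by omega))

theorem L2on_le_nnB (f : HE G → ℝ) : L2on (ball x (s1 * r)) f ≤ nnB w r x f := by
  have := pow_mul_L2on_le (w := w) (r := r) (x := x) (Nat.zero_le MM) f
  simpa using this

/-- **splitting**: the derivatives of order `≥ m` gain `(r/r')^m` -/
theorem nnB_split {r' : ℕ} {x' : G × G} (hr' : 0 < r') (hrr : r ≤ r')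
    (hb : ball x (s1 * r) ⊆ ball x' (s1 * r')) {m : ℕ} (hm : m ≤ MM) (f : HE G → ℝ) :
    nnB w r x f ≤ ∑ n ∈ Finset.range m, (r : ℝ) ^ n * L2on (ball x (s1 * r)) ((Aop w)^[n] f) +
      ((r : ℝ) / r') ^ m * nnB w r' x' f := by
  have hr0 : (0 : ℝ) < r' := by exact_mod_cast hr'
  have hq0 : (0 : ℝ) ≤ (r : ℝ) / r' := by positivity
  have hq1 : (r : ℝ) / r' ≤ 1 := by
    rw [div_le_one hr0]; exact_mod_cast hrr
  rw [nnB_eq, ← Finset.sum_range_add_sum_Ico _ (show m ≤ MM + 1 by omega)]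
  refine add_le_add le_rfl ?_
  rw [nnB_eq, Finset.mul_sum]
  refine (Finset.sum_le_sum fun n hn => ?_).trans (Finset.sum_le_sum_of_subset_of_nonneg
    (s := Finset.Ico m (MM + 1)) (t := Finset.range (MM + 1))
    (f := fun n => ((r : ℝ) / r') ^ m * ((r' : ℝ) ^ n * L2on (ball x' (s1 * r')) ((Aop w)^[n] f)))
    (fun n hn => Finset.mem_range.2 (Finset.mem_Ico.1 hn).2) fun n _ _ =>
      mul_nonneg (by positivity) (mul_nonneg (by positivity) (L2on_nonneg _ _)))
  have hmn : m ≤ n := (Finset.mem_Ico.1 hn).1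
  have h1 : (r : ℝ) ^ n = ((r : ℝ) / r') ^ n * (r' : ℝ) ^ n := by
    rw [← mul_pow, div_mul_cancel₀ _ hr0.ne']
  have h2 : ((r : ℝ) / r') ^ n ≤ ((r : ℝ) / r') ^ m := pow_le_pow_of_le_one hq0 hq1 hmn
  calc (r : ℝ) ^ n * L2on (ball x (s1 * r)) ((Aop w)^[n] f)
      ≤ (r : ℝ) ^ n * L2on (ball x' (s1 * r')) ((Aop w)^[n] f) :=
        mul_le_mul_of_nonneg_left (L2on_mono hb (ball_finite _ _) _) (by positivity)
    _ = ((r : ℝ) / r') ^ n * ((r' : ℝ) ^ n * L2on (ball x' (s1 * r')) ((Aop w)^[n] f)) := by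
        rw [h1]; ring
    _ ≤ ((r : ℝ) / r') ^ m * ((r' : ℝ) ^ n * L2on (ball x' (s1 * r')) ((Aop w)^[n] f)) :=
        mul_le_mul_of_nonneg_right h2 (mul_nonneg (by positivity) (L2on_nonneg _ _))

/-- monotonicity in the ball -/
theorem nnB_mono {r' : ℕ} {x' : G × G} (hr' : 0 < r') (hrr : r ≤ r')
    (hb : ball x (s1 * r) ⊆ ball x' (s1 * r')) (f : HE G → ℝ) : nnB w r x f ≤ nnB w r' x' f := by
  have := nnB_split (w := w) hr' hrr hb (Nat.zero_le MM) f
  simpa using this

/-- the global test norm bounds the local ones -/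
theorem nnB_le_of_global {b : ℝ} (f : HE G → ℝ)
    (hs : ∀ n ≤ MM, Summable fun h => ((Aop w)^[n] f h) ^ 2)
    (hb : ∀ n ≤ MM, (r : ℝ) ^ n * l2 ((Aop w)^[n] f) ≤ b) : nnB w r x f ≤ (MM + 1) * b := by
  rw [nnB_eq]
  calc _ ≤ ∑ n ∈ Finset.range (MM + 1), b := by
        refine Finset.sum_le_sum fun n hn => ?_
        have hn' : n ≤ MM := by have := Finset.mem_range.1 hn; omega
        refine le_trans (mul_le_mul_of_nonneg_left ?_ (by positivity)) (hb n hn')
        apply Real.sqrt_le_sqrt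
        refine Summable.tsum_le_tsum (fun h => ?_) ?_ (hs n hn')
        · unfold restr
          split_ifs
          · exact le_rfl
          · rw [zero_pow two_ne_zero]; exact sq_nonneg _
        · refine Summable.of_nonneg_of_le (fun _ => sq_nonneg _) (fun h => ?_) (hs n hn')
          unfold restr
          split_ifs
          · exact le_rfl
          · rw [zero_pow two_ne_zero]; exact sq_nonneg _
    _ = (MM + 1) * b := by rw [Finset.sum_const, Finset.card_range, nsmul_eq_mul]; push_cast; ring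

end nnB

/-! ### the dual norm -/

/-- dual of the local test seminorm -/
def dn (w : BW G) (r : ℕ) (x : G × G) (l : Fld G) : ℝ≥0∞ :=
  ⨆ f : {f : HE G → ℝ // nnB w r x f ≤ 1}, ENNReal.ofReal |pair l f.1|

theorem wt_eq (w : BW G) (a : ℝ) (r : ℕ) (x : G × G) (l : Fld G) :
    wt w a r x l = ENNReal.ofReal (a * Real.sqrt r) * dn w r x l := rfl

section dn

variable {w : BW G} {r : ℕ} {x : G × G}

theorem le_dn {f : HE G → ℝ} (hf : nnB w r x f ≤ 1) (l : Fld G) :
    ENNReal.ofReal |pair l f| ≤ dn w r x l :=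
  le_iSup (fun f : {f : HE G → ℝ // nnB w r x f ≤ 1} => ENNReal.ofReal |pair l f.1|) ⟨f, hf⟩

theorem dn_le {l : Fld G} {C : ℝ≥0∞} (h : ∀ f, nnB w r x f ≤ 1 → ENNReal.ofReal |pair l f| ≤ C) :
    dn w r x l ≤ C := iSup_le fun f => h f.1 f.2

theorem dn_le_ofReal {l : Fld G} {C : ℝ} (h : ∀ f, nnB w r x f ≤ 1 → |pair l f| ≤ C) :
    dn w r x l ≤ ENNReal.ofReal C := dn_le fun f hf => ENNReal.ofReal_le_ofReal (h f hf)

theorem dn_ne_top {l : Fld G} (hl : SuppL (ball x (s1 * r)) l) : dn w r x l ≠ ∞ := by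
  refine ne_top_of_le_ne_top (b := ENNReal.ofReal (∑ h ∈ l.support, |l h|)) ENNReal.ofReal_ne_top
    (dn_le_ofReal fun f hf => ?_)
  refine (abs_pair_le_sum (ball_finite _ _) hl f).trans ?_
  have h0 : 0 ≤ ∑ h ∈ l.support, |l h| := Finset.sum_nonneg fun _ _ => abs_nonneg _
  calc _ ≤ (∑ h ∈ l.support, |l h|) * 1 := mul_le_mul_of_nonneg_left ((L2on_le_nnB f).trans hf) h0
    _ = _ := mul_one _

/-- **duality inequality** -/
theorem pair_le_dn {l : Fld G} (hl : SuppL (ball x (s1 * r)) l) (f : HE G → ℝ) :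
    ENNReal.ofReal |pair l f| ≤ dn w r x l * ENNReal.ofReal (nnB w r x f) := by
  rcases (nnB_nonneg w r x f).eq_or_lt with h | h
  · have h0 : L2on (ball x (s1 * r)) f ≤ 0 := (L2on_le_nnB f).trans h.symm.le
    have h1 := abs_pair_le_sum (ball_finite _ _) hl f
    have h2 : |pair l f| ≤ 0 := h1.trans (by
      have : L2on (ball x (s1 * r)) f = 0 := le_antisymm h0 (L2on_nonneg _ _)
      rw [this, mul_zero])
    rw [le_antisymm h2 (abs_nonneg _)]; simp
  · have h1 : nnB w r x ((nnB w r x f)⁻¹ • f) ≤ 1 := by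
      rw [nnB_smul, abs_of_pos (inv_pos.2 h), inv_mul_cancel₀ h.ne']
    have h2 := le_dn h1 l
    rw [pair_smul_right, abs_mul, abs_of_pos (inv_pos.2 h)] at h2
    calc ENNReal.ofReal |pair l f|
        = ENNReal.ofReal ((nnB w r x f)⁻¹ * |pair l f|) * ENNReal.ofReal (nnB w r x f) := by
          rw [← ENNReal.ofReal_mul (mul_nonneg (inv_nonneg.2 h.le) (abs_nonneg _))]
          congr 1
          field_simp
      _ ≤ _ := by gcongr

theorem dn_semi (w : BW G) (r : ℕ) (x : G × G) : ESemi (dn w r x) := by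
  refine ESemi.iSup fun f => ?_
  refine ⟨?_, fun l l' => ?_, fun c l => ?_⟩
  · rw [pair_zero_left]; simp
  · rw [pair_add_left, ← ENNReal.ofReal_add (abs_nonneg _) (abs_nonneg _)]
    exact ENNReal.ofReal_le_ofReal (abs_add_le _ _)
  · rw [pair_smul_left, abs_mul, ENNReal.ofReal_mul (abs_nonneg _), Real.enorm_eq_ofReal_abs]

theorem wt_semi (w : BW G) (a : ℝ) (r : ℕ) (x : G × G) : ESemi (wt w a r x) :=
  (dn_semi w r x).const_mul _

theorem wt_ne_top (a : ℝ) {l : Fld G} (hl : SuppL (ball x (s1 * r)) l) : wt w a r x l ≠ ∞ :=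
  ENNReal.mul_ne_top ENNReal.ofReal_ne_top (dn_ne_top hl)

theorem eq_zero_of_dn {l : Fld G} (h : dn w r x l = 0) : l = 0 := by
  classical
  by_contra hl
  have h0 : ∀ f, nnB w r x f ≤ 1 → pair l f = 0 := fun f hf => by
    have := le_dn hf l
    rw [h, nonpos_iff_eq_zero, ENNReal.ofReal_eq_zero] at this
    exact abs_eq_zero.1 (le_antisymm this (abs_nonneg _))
  have h1 : ∀ f, pair l f = 0 := fun f => by
    have h2 : 0 < nnB w r x f + 1 := by have := nnB_nonneg w r x f; linarith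
    have h3 := h0 ((nnB w r x f + 1)⁻¹ • f) (by
      rw [nnB_smul, abs_of_pos (inv_pos.2 h2), inv_mul_le_iff₀ h2]; linarith)
    rw [pair_smul_right] at h3
    exact (mul_eq_zero.1 h3).resolve_left (inv_ne_zero h2.ne')
  obtain ⟨e, he⟩ := Finsupp.support_nonempty_iff.2 hl
  have h2 := h1 (fun h => l h)
  rw [pair_eq_sum] at h2
  have h3 := (Finset.sum_eq_zero_iff_of_nonneg fun h _ => mul_self_nonneg (l h)).1 h2 e he
  exact (Finsupp.mem_support_iff.1 he) (mul_self_eq_zero.1 h3)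

theorem eq_zero_of_wt {a : ℝ} (ha : 0 < a) (hr : 0 < r) {l : Fld G} (h : wt w a r x l = 0) :
    l = 0 := by
  rw [wt_eq, mul_eq_zero] at h
  refine eq_zero_of_dn (w := w) (r := r) (x := x) (h.resolve_left fun h1 => ?_)
  rw [ENNReal.ofReal_eq_zero] at h1
  have : 0 < a * Real.sqrt r := mul_pos ha (Real.sqrt_pos.2 (by exact_mod_cast hr))
  linarith

end dn

/-! ### the comparison lemma -/

section compare

variable {w : BW G}

/-- comparison of dual norms -/
theorem dn_le_dn {r r' : ℕ} {x x' : G × G} {l l' : Fld G} (hl : SuppL (ball x (s1 * r)) l)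
    {K : ℝ} (T : (HE G → ℝ) → (HE G → ℝ))
    (h : ∀ f, nnB w r' x' f ≤ 1 → |pair l' f| ≤ |pair l (T f)|)
    (hT : ∀ f, nnB w r' x' f ≤ 1 → nnB w r x (T f) ≤ K) :
    dn w r' x' l' ≤ ENNReal.ofReal K * dn w r x l := by
  refine dn_le fun f hf => (ENNReal.ofReal_le_ofReal (h f hf)).trans ((pair_le_dn (w := w) hl _).trans ?_)
  rw [mul_comm]
  gcongr
  exact hT f hf

theorem wt_le_wt {a a' : ℝ} {r r' : ℕ} {x x' : G × G} {l l' : Fld G} (ha : 0 < a) (hr : 0 < r)
    (ha' : 0 ≤ a') {K : ℝ} (hK : dn w r' x' l' ≤ ENNReal.ofReal K * dn w r x l) :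
    wt w a' r' x' l' ≤ ENNReal.ofReal (a' * Real.sqrt r' / (a * Real.sqrt r) * K) * wt w a r x l := by
  have hs : 0 < a * Real.sqrt r := mul_pos ha (Real.sqrt_pos.2 (by exact_mod_cast hr))
  have hs' : 0 ≤ a' * Real.sqrt r' := mul_nonneg ha' (Real.sqrt_nonneg _)
  rw [wt_eq, wt_eq]
  calc ENNReal.ofReal (a' * Real.sqrt r') * dn w r' x' l'
      ≤ ENNReal.ofReal (a' * Real.sqrt r') * (ENNReal.ofReal K * dn w r x l) := by gcongr
    _ = ENNReal.ofReal (a' * Real.sqrt r' / (a * Real.sqrt r) * K) *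
        (ENNReal.ofReal (a * Real.sqrt r) * dn w r x l) := by
        rw [← mul_assoc, ← mul_assoc]
        congr 1
        rw [← ENNReal.ofReal_mul hs', mul_comm (ENNReal.ofReal (_ / _ * K)),
          ← ENNReal.ofReal_mul hs.le]
        congr 1
        field_simp

/-- **general comparison lemma** for the weight inequalities: `T` is dual to `P` -/
theorem WLe_of_dual {a a' : ℝ} {r r' : ℕ} {x x' : G × G} (ha : 0 < a) (hr : 0 < r) (ha' : 0 ≤ a')
    (P : Fld G →ₗ[ℝ] Fld G) (T : (HE G → ℝ) → (HE G → ℝ)) {K : ℝ}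
    (hs : ∀ l, SuppL (ball x (s0 * r)) l → SuppL (ball x' (s0 * r')) (P l))
    (h : ∀ l, SuppL (ball x (s0 * r)) l → ∀ f, nnB w r' x' f ≤ 1 → |pair (P l) f| ≤ |pair l (T f)|)
    (hT : ∀ f, nnB w r' x' f ≤ 1 → nnB w r x (T f) ≤ K) :
    WLe w a a' r r' x x' P (ENNReal.ofReal (a' * Real.sqrt r' / (a * Real.sqrt r) * K)) := by
  intro l hl
  refine ⟨hs l hl, wt_le_wt ha hr ha' (dn_le_dn ?_ T (h l hl) hT)⟩
  refine suppL_mono (ball_mono _ (Nat.mul_le_mul_right _ ?_)) hl
  unfold s0 s1; norm_num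

theorem WLe.mono {a a' : ℝ} {r r' : ℕ} {x x' : G × G} {P : Fld G →ₗ[ℝ] Fld G} {q q' : ℝ≥0∞}
    (h : WLe w a a' r r' x x' P q) (hq : q ≤ q') : WLe w a a' r r' x x' P q' :=
  fun l hl => ⟨(h l hl).1, (h l hl).2.trans (by gcongr)⟩

/-- **(W1)** from Reg1: it is enough to bound the `l²` norm of `f` on the small ball -/
theorem WLe_id_of_reg1 {a a' : ℝ} {r r' : ℕ} {x x' : G × G} (ha : 0 < a) (hr : 0 < r)
    (ha' : 0 ≤ a') (hrr : r ≤ r') (hb : ball x (s1 * r) ⊆ ball x' (s1 * r'))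
    (hb0 : ball x (s0 * r) ⊆ ball x' (s0 * r')) {e : ℝ}
    (h : ∀ f, nnB w r' x' f ≤ 1 → L2on (ball x (s1 * r)) f ≤ e) :
    WLe w a a' r r' x x' LinearMap.id
      (ENNReal.ofReal (a' * Real.sqrt r' / (a * Real.sqrt r) * (e + (r : ℝ) / r'))) := by
  refine WLe_of_dual ha hr ha' LinearMap.id id (fun l hl => suppL_mono hb0 hl) (fun l _ f _ => le_rfl)
    fun f hf => ?_
  have h1 := nnB_split (w := w) (hr.trans_le hrr) hrr hb (m := 1) (by unfold MM; norm_num) f
  rw [Finset.sum_range_one, pow_zero, one_mul, pow_one] at h1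
  refine h1.trans (add_le_add (h f hf) ?_)
  calc (r : ℝ) / r' * nnB w r' x' f ≤ (r : ℝ) / r' * 1 :=
        mul_le_mul_of_nonneg_left hf (by positivity)
    _ = _ := mul_one _

/-- **(W5)** crude bound, every background -/
theorem WLe_id_crude {a a' : ℝ} {r r' : ℕ} {x x' : G × G} (ha : 0 < a) (hr : 0 < r)
    (ha' : 0 ≤ a') (hrr : r ≤ r') (hb : ball x (s1 * r) ⊆ ball x' (s1 * r'))
    (hb0 : ball x (s0 * r) ⊆ ball x' (s0 * r')) :
    WLe w a a' r r' x x' LinearMap.id
      (ENNReal.ofReal (a' * Real.sqrt r' / (a * Real.sqrt r))) := by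
  have h := WLe_of_dual (w := w) (K := 1) (a := a) (a' := a') (r := r) (r' := r') (x := x)
    (x' := x') ha hr ha' LinearMap.id id (fun l hl => suppL_mono hb0 hl)
    (fun l _ f _ => le_rfl) fun f hf => (nnB_mono (hr.trans_le hrr) hrr hb f).trans hf
  rwa [mul_one] at h

end compare

/-! ### (W0): Gram weights -/

section gram

variable {w : BW G}

/-- **(W0)**, abstract form: a seminorm which is bounded by the supremum over test functions with
global norms `|Aⁿ f| ≤ b r⁻ⁿ` is bounded by the local weight -/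
theorem le_dn_of_global {r : ℕ} {x : G × G} {l : Fld G} {g : ℝ≥0∞} {b : ℝ}
    (hl : SuppL (ball x (s1 * r)) l)
    (hg : ∃ f : HE G → ℝ, (∀ n ≤ MM, Summable fun h => ((Aop w)^[n] f h) ^ 2) ∧
      (∀ n ≤ MM, (r : ℝ) ^ n * l2 ((Aop w)^[n] f) ≤ b) ∧ g ≤ ENNReal.ofReal |pair l f|) :
    g ≤ ENNReal.ofReal ((MM + 1) * b) * dn w r x l := by
  obtain ⟨f, hs, hf, hgf⟩ := hg
  refine hgf.trans ((pair_le_dn (w := w) hl f).trans ?_)
  rw [mul_comm]
  gcongr
  exact nnB_le_of_global f hs hf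

end gram

end Crest.Agent.R165.Wtx898
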