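import Crest.Agent.R165.DefRec_915
import Crest.Agent.R165.NFlow_337
import Crest.Agent.R165.Wt_898

/-!
# Row 165, block G/P: crude steps in EVERY background, by a drop of the amplitude (helper386)

Near a cluster of insertions, at the scales between `δ/a` and `C(X)/a`, no regularity is available;
the only weight inequality is `WLe_id_crude` of `Wt_898`, with a factor larger than one per leg.
Remedy: at such a step the amplitude drops, `a' √r' ≤ a √r / 2`.  Then each leg contracts, in every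
background, for every number of legs.

* `wt_amp_mono`, `wU_amp_mono`, `NK_amp_mono`, `WLe.amp_mono` : monotonicity in the amplitude
* `crude_any`  : `‖conv K‖_{k+1,U} ≤ ‖K‖_{k,U}` for every `K`, `U`
* `crude_dstep`: the structure `DStep` of `DefRec_915` for a crude step (one defect class `univ`)
-/

set_option autoImplicit false
set_option linter.unusedSectionVars false

noncomputable section

open scoped ENNReal
open Crest.Agent.R165.Gr0x606 Crest.Agent.R165.Gr1x606 Crest.Agent.R165.GeOpsx337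
open Crest.Agent.R165.Latx683 Crest.Agent.R165.PNormx417
open Crest.Agent.R165.GDefx387 Crest.Agent.R165.Packx915 Crest.Agent.R165.NSumx915
open Crest.Agent.R165.Bridgex915 Crest.Agent.R165.DefRecx915

namespace Crest.Agent.R165.Crudex386

variable {G : Type} [CommRing G] [CN G]

/-! ### monotonicity in the amplitude -/

theorem wt_amp_mono (w : BW G) {a a' : ℝ} (h : a ≤ a') (r : ℕ) (x : G × G) (l : Fld G) :
    wt w a r x l ≤ wt w a' r x l := by
  unfold wt
  exact mul_le_mul_left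
    (ENNReal.ofReal_le_ofReal (mul_le_mul_of_nonneg_right h (Real.sqrt_nonneg _))) _

theorem wU_amp_mono (w : BW G) {a a' : ℝ} (h : a ≤ a') (r : ℕ) (U : Finset (G × G)) (l : Fld G) :
    wU w a r U l ≤ wU w a' r U l := by
  classical
  unfold wU
  refine iInf₂_mono fun x _ => ?_
  split_ifs
  · exact wt_amp_mono w h r x l
  · exact le_rfl

theorem pG_amp_mono (w : BW G) {a a' : ℝ} (h : a ≤ a') (r : ℕ) (U : Finset (G × G))
    (K : Ge (Fld G)) : pG (wU w a r U) K ≤ pG (wU w a' r U) K :=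
  pnorm_le_pnorm (wU_amp_mono w h r U) _

theorem NK_amp_mono (w : BW G) {a a' : ℝ} (h : a ≤ a') (r : ℕ) (Γ : ℝ≥0∞)
    (p : Finset (G × G) → Prop) (K : Finset (G × G) → Gr (Fld G)) :
    NK w a r Γ p K ≤ NK w a' r Γ p K := by
  classical
  unfold NK
  refine iSup_mono fun f => ENNReal.tsum_le_tsum fun U => ?_
  split_ifs
  · exact mul_le_mul' le_rfl (pnorm_le_pnorm (wU_amp_mono w h r U) _)
  · exact le_rfl

/-- a weight inequality at the amplitude `a'` holds at every smaller amplitude -/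
theorem WLe.amp_mono {w : BW G} {a a' a'' : ℝ} {r r' : ℕ} {x x' : G × G}
    {P : Fld G →ₗ[ℝ] Fld G} {q : ℝ≥0∞} (h : WLe w a a'' r r' x x' P q) (ha : a' ≤ a'') :
    WLe w a a' r r' x x' P q :=
  fun l hl => ⟨(h l hl).1, (wt_amp_mono w ha r' x' _).trans (h l hl).2⟩

/-! ### crude steps -/

/-- **crude step, per polymer**: if the amplitude drops by the factor `2 √(r'/r)`, the convolution
does not increase the norm, for every background, every `U`, every `K` -/
theorem crude_any {w : BW G} {a a' : ℝ} {r r' : ℕ} {S : Cov (Fld G)} {g : Fld G → ℝ≥0∞}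
    (hg : Gram S g) (ha : 0 < a) (hr : 0 < r) (ha' : 0 ≤ a') (hrr : r ≤ r')
    (hdrop : 2 * (a' * Real.sqrt r') ≤ a * Real.sqrt r) {U : Finset (G × G)} {ε : ℝ≥0∞}
    (h0 : GLinx336.W0 w g a' r' ε U) (hε : ε ≠ 0) (hε1 : ε ≤ 1) (K : Ge (Fld G)) :
    pG (wU w a' r' U) (cvG S K) ≤ pG (wU w a r U) K := by
  have hs : 0 < a * Real.sqrt r := mul_pos ha (Real.sqrt_pos.2 (by exact_mod_cast hr))
  have hq : a' * Real.sqrt r' / (a * Real.sqrt r) ≤ 1 / 2 := by
    rw [div_le_iff₀ hs]; linarith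
  have hp : ∀ x ∈ U, ∃ x' ∈ U, WLe w a a' r r' x x' LinearMap.id (1 / 2 : ℝ≥0∞) := fun x hx =>
    ⟨x, hx, Wtx898.WLe.mono
      (Wtx898.WLe_id_crude ha hr ha' hrr (Wtx898.ball_mono x (Nat.mul_le_mul_left _ hrr))
        (Wtx898.ball_mono x (Nat.mul_le_mul_left _ hrr))) (by
        calc ENNReal.ofReal (a' * Real.sqrt r' / (a * Real.sqrt r))
            ≤ ENNReal.ofReal (1 / 2) := ENNReal.ofReal_le_ofReal hq
          _ = 1 / 2 := by
            rw [ENNReal.ofReal_div_of_pos (by norm_num)]; norm_num)⟩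
  have h2 : (1 + ε) * (1 / 2 : ℝ≥0∞) ≤ 1 := by
    calc (1 + ε) * (1 / 2 : ℝ≥0∞) ≤ (1 + 1) * (1 / 2 : ℝ≥0∞) := by gcongr
      _ = 1 := by rw [one_add_one_eq_two, one_div, ENNReal.mul_inv_cancel (by norm_num) (by norm_num)]
  exact GLinx336.any_small hg h0 hε (by norm_num) h2 hp _

variable [DecidableEq G]

/-- separated sets in a ball are not larger than the covering number at half the distance -/
theorem dcount_univ [GoodG G] {R r : ℕ} (hr : 2 ≤ r) :
    DCount (fd : G × G → G × G → ℕ) Set.univ R r ((2 * (R / (r / 2)) + 3) ^ 2) := by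
  classical
  intro f S hS hsep
  obtain ⟨net, hc, hn⟩ := cov_fd (G := G) (r := r / 2) (by omega) R f
  refine le_trans ?_ hc
  have hch : ∀ x ∈ S, ∃ y ∈ net, fd y x ≤ r / 2 := fun x hx => hn x (hS x hx).2
  choose! c hc1 hc2 using hch
  refine Finset.card_le_card_of_injOn c hc1 ?_
  intro x hx y hy hxy
  by_contra hne
  have h1 := hsep x hx y hy hne
  have h2 := hc2 x hx
  have h3 := hc2 y hy
  have h4 := fd_triangle x (c y) y
  rw [hxy, fd_comm] at h2
  omega

/-- **crude step**: the structure `DStep` with one defect class (everything) and factors `3`, `1`,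
`1`; only the connectedness of the polymers is used -/
theorem crude_dstep [GoodG G] {w : BW G} {a a' : ℝ} {r r' R : ℕ} {Γ : ℝ≥0∞} {S : Cov (Fld G)}
    {g : Fld G → ℝ≥0∞} (hg : Gram S g) (ha : 0 < a) (hr : 2 ≤ r) (ha' : 0 ≤ a')
    (hdrop : 2 * (a' * Real.sqrt r') ≤ a * Real.sqrt r) {ε : ℝ≥0∞}
    (h0 : ∀ U, GLinx336.W0 w g a' r' ε U) (hε : ε ≠ 0) (hε1 : ε ≤ 1) (hΓ : 3 ≤ Γ)
    (hR : 4 * R + 3 * r + 2 ≤ r') {ac em : Finset (G × G) → Prop}
    (hac : ∀ U, ac U → Packx915.Conn fd R U) :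
    DStep w a a' r r' Γ (3 * Γ) S ac em (fun _ : Unit => (Set.univ : Set (G × G)))
      (fun _ => 0) (fun _ => (2 * (r' / (r / 2)) + 3) ^ 2) (fun _ => 1) 3 1 := by
  have hany : ∀ (U : Finset (G × G)) (K : Ge (Fld G)),
      pG (wU w a' r' U) (cvG S K) ≤ pG (wU w a r U) K := fun U K =>
    crude_any hg ha (by omega) ha' (by omega) hdrop (h0 U) hε hε1 K
  refine ⟨fun _ => dcount_univ hr, ?_, by norm_num, by norm_num, ?_, ?_, ?_⟩
  · intro _; norm_num
  · intro U hU _ K _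
    have h1 := NFlowx337.weight_mul (d := (fd : G × G → G × G → ℕ)) Bridgex915.pd_fd (x := 3)
      (Γ := Γ) (by norm_num) hΓ hR (hac U hU)
    rw [← Bridgex915.size_eq_pack, ← Bridgex915.size_eq_pack] at h1
    calc (3 * Γ) ^ size r' U * pG (wU w a' r' U) (cvG S K)
        ≤ (3 * Γ ^ size r U) * pG (wU w a r U) K := mul_le_mul' h1 (hany U K)
      _ = 3 * (Γ ^ size r U * pG (wU w a r U) K) := by ring
  · intro U _ _ _
    refine ⟨(), fun u _ => ⟨u, Set.mem_univ _, by simp⟩, fun K _ => ?_⟩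
    rw [one_mul]
    exact (pG_nl_le _ _).trans (hany U K)
  · intro U _ _ K _
    rw [one_mul]
    exact hany U K

/-! ### the amplitudes of a disc: growing, dropping at `J` crude steps, growing again -/

/-- amplitudes with `J` crude steps after the step `K₁`, each dropping the amplitude by `c` -/
def ampD (A₀ δ c : ℝ) (K₁ J k : ℕ) : ℝ :=
  if k ≤ K₁ then A₀ * (1 + δ * k)
  else if k ≤ K₁ + J then A₀ * (1 + δ * K₁) / c ^ (k - K₁)
  else A₀ * (1 + δ * K₁) / c ^ J + A₀ * δ * ((k : ℝ) - (K₁ + J))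

section amp

variable {A₀ δ c : ℝ} {K₁ J : ℕ}

theorem ampD_fine {k : ℕ} (h : k ≤ K₁) : ampD A₀ δ c K₁ J k = A₀ * (1 + δ * k) := if_pos h

/-- formula on the crude range, both ends included -/
theorem ampD_mid {k : ℕ} (h1 : K₁ ≤ k) (h2 : k ≤ K₁ + J) :
    ampD A₀ δ c K₁ J k = A₀ * (1 + δ * K₁) / c ^ (k - K₁) := by
  rcases Nat.eq_or_lt_of_le h1 with h | h
  · subst h; rw [ampD_fine le_rfl]; simp
  · rw [ampD, if_neg (by omega), if_pos h2]

/-- formula after the crude range, first scale included -/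
theorem ampD_coarse {k : ℕ} (h : K₁ + J ≤ k) :
    ampD A₀ δ c K₁ J k = A₀ * (1 + δ * K₁) / c ^ J + A₀ * δ * ((k : ℝ) - (K₁ + J)) := by
  rcases Nat.eq_or_lt_of_le h with h' | h'
  · subst h'
    rw [ampD_mid (by omega) le_rfl, Nat.add_sub_cancel_left]
    push_cast; ring
  · rw [ampD, if_neg (by omega), if_neg (by omega)]

/-- at a crude step the amplitude drops by `c` -/
theorem ampD_crude (hc : 0 < c) {k : ℕ} (h1 : K₁ ≤ k) (h2 : k < K₁ + J) :
    c * ampD A₀ δ c K₁ J (k + 1) = ampD A₀ δ c K₁ J k := by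
  rw [ampD_mid h1 h2.le, ampD_mid (by omega) (by omega), show k + 1 - K₁ = (k - K₁) + 1 by omega,
    pow_succ]
  field_simp

/-- lower bound of the amplitudes -/
theorem ampD_ge (hA : 0 ≤ A₀) (hδ : 0 ≤ δ) (hc : 1 ≤ c) (h : c ^ J ≤ 1 + δ * K₁) (k : ℕ) :
    A₀ ≤ ampD A₀ δ c K₁ J k := by
  have hK : (0 : ℝ) ≤ δ * K₁ := by positivity
  have hcJ : (0 : ℝ) < c ^ J := by positivity
  have key : ∀ j ≤ J, A₀ ≤ A₀ * (1 + δ * K₁) / c ^ j := by
    intro j hj
    rw [le_div_iff₀ (by positivity)]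
    exact mul_le_mul_of_nonneg_left ((pow_le_pow_right₀ hc hj).trans h) hA
  rcases le_or_gt k K₁ with h1 | h1
  · rw [ampD_fine h1]
    have : 0 ≤ A₀ * (δ * k) := by positivity
    linarith
  · rcases le_or_gt k (K₁ + J) with h2 | h2
    · rw [ampD_mid h1.le h2]; exact key _ (by omega)
    · rw [ampD_coarse h2.le]
      have h3 : (0 : ℝ) ≤ (k : ℝ) - (K₁ + J) := by
        have : ((K₁ + J : ℕ) : ℝ) ≤ k := by exact_mod_cast h2.le
        push_cast at this; linarith
      have : 0 ≤ A₀ * δ * ((k : ℝ) - (K₁ + J)) := by positivity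
      linarith [key J le_rfl]

/-- upper bound by the growing amplitudes of the plane -/
theorem ampD_le (hA : 0 ≤ A₀) (hδ : 0 ≤ δ) (hc : 1 ≤ c) (k : ℕ) :
    ampD A₀ δ c K₁ J k ≤ A₀ * (1 + δ * k) := by
  have hK : (0 : ℝ) ≤ A₀ * (1 + δ * K₁) := by positivity
  have hdrop : ∀ j : ℕ, A₀ * (1 + δ * K₁) / c ^ j ≤ A₀ * (1 + δ * K₁) := fun j =>
    div_le_self hK (one_le_pow₀ hc)
  rcases le_or_gt k K₁ with h1 | h1
  · rw [ampD_fine h1]
  · have hk : (K₁ : ℝ) ≤ k := by exact_mod_cast h1.le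
    have hmono : A₀ * (1 + δ * K₁) ≤ A₀ * (1 + δ * k) := by gcongr
    rcases le_or_gt k (K₁ + J) with h2 | h2
    · rw [ampD_mid h1.le h2]; exact (hdrop _).trans hmono
    · rw [ampD_coarse h2.le]
      have h3 : A₀ * δ * ((k : ℝ) - (K₁ + J)) ≤ A₀ * δ * ((k : ℝ) - K₁) := by
        refine mul_le_mul_of_nonneg_left ?_ (by positivity)
        have : (0 : ℝ) ≤ J := Nat.cast_nonneg J
        linarith
      calc _ ≤ A₀ * (1 + δ * K₁) + A₀ * δ * ((k : ℝ) - K₁) := add_le_add (hdrop J) h3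
        _ = _ := by ring

/-- growth of the amplitudes -/
theorem ampD_succ (hA : 0 ≤ A₀) (hδ : 0 ≤ δ) (hc : 1 ≤ c) (h : c ^ J ≤ 1 + δ * K₁) (k : ℕ) :
    ampD A₀ δ c K₁ J (k + 1) ≤ (1 + δ) * ampD A₀ δ c K₁ J k := by
  have hge := ampD_ge (A₀ := A₀) (δ := δ) (c := c) (K₁ := K₁) (J := J) hA hδ hc h
  have key : ∀ {u v : ℝ}, A₀ ≤ u → v ≤ u + A₀ * δ → v ≤ (1 + δ) * u := by
    intro u v h1 h2
    have := mul_le_mul_of_nonneg_right h1 hδ
    linarith
  refine key (hge k) ?_
  rcases lt_or_ge k K₁ with h1 | h1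
  · rw [ampD_fine h1.le, ampD_fine (by omega : k + 1 ≤ K₁)]
    push_cast; linarith
  · rcases lt_or_ge k (K₁ + J) with h2 | h2
    · have h3 := ampD_crude (A₀ := A₀) (δ := δ) (c := c) (by linarith) h1 h2
      have h4 : 0 ≤ ampD A₀ δ c K₁ J (k + 1) := hA.trans (hge _)
      have h5 : ampD A₀ δ c K₁ J (k + 1) ≤ c * ampD A₀ δ c K₁ J (k + 1) :=
        le_mul_of_one_le_left h4 hc
      have h6 : 0 ≤ A₀ * δ := by positivity
      linarith
    · rw [ampD_coarse h2, ampD_coarse (by omega : K₁ + J ≤ k + 1)]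
      push_cast; linarith

end amp

end Crest.Agent.R165.Crudex386
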