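import Crest.Agent.R165.WtD4_898
import Crest.Agent.R165.Extr_417

/-!
# Row 165 (S0250), block G: covariance of the flow under global symmetries (helper898)

* `ctG_hom`, `hom_gexp` : every algebra map `Ge V → Ge V'` commutes with `ctG`, `gexp`
* `ExtrEq`, `SysEq ψ Φ D₁ D₂` : global equivalence of two systems, `ψ : F₁ ≃ F₂` on faces,
  `Φ : Ge V₁ →ₐ Ge V₂` ANY algebra map (e.g. `revG ∘ mpG p`)
* `SysEq.K_eq`, `H_eq`, `A_eq`, `B_eq`, `Q_eq`, `vac_eq`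
* `CvL c Lo` : covariance of a local extraction; `extrEq_exF` : equivalence of 417's `exF`
* `PlSys D` : plane system (slices, distances, `exF` with `LocAt`, constant vacuum part);
  `PlSys.sysEq`, `PlSys.plSym` : **`PlSym K0 → PlSym (K k), (H k), (A k), (B k)`**
-/

set_option autoImplicit false
set_option linter.unusedSectionVars false

noncomputable section

open scoped ENNReal
open Crest.Agent.R165.Gr0x606 Crest.Agent.R165.Gr1x606 Crest.Agent.R165.Latx683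
  Crest.Agent.R165.GDefx387 Crest.Agent.R165.GeOpsx337 Crest.Agent.R165.GrLocx337
  Crest.Agent.R165.ExpGx337 Crest.Agent.R165.KCompx892 Crest.Agent.R165.KStepx892
  Crest.Agent.R165.KMapx892 Crest.Agent.R165.KFlowx337 Crest.Agent.R165.WtD4x898

namespace Crest.Agent.R165.FlowD4x898

section hom

variable {V : Type*} [AddCommGroup V] [Module ℝ V] {V' : Type*} [AddCommGroup V'] [Module ℝ V']

/-- the constant term is invariant under every algebra map -/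
theorem ctG_hom (Φ : Ge V →ₐ[ℝ] Ge V') (a : Ge V) : ctG (Φ a) = ctG a := by
  have h1 : IsNilpotent (Φ (nl a)) := (nl_nil a).map Φ
  have h2 : ctG (Φ (nl a)) = 0 := (h1.map (ctG (V := V'))).eq_zero
  conv_lhs => rw [← add_nl a]
  rw [map_add, map_add, AlgHom.commutes, h2, add_zero, AlgHom.commutes]
  rfl

theorem hom_nexp (Φ : Ge V →ₐ[ℝ] Ge V') {a : Ge V} (ha : IsNilpotent a) :
    Φ (nexp a) = nexp (Φ a) := by
  obtain ⟨k, hk⟩ := ha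
  have hk' : Φ a ^ k = 0 := by rw [← map_pow, hk, map_zero]
  rw [nexp_eq_sum hk, nexp_eq_sum hk', map_sum]
  exact Finset.sum_congr rfl fun i _ => by rw [map_smul, map_pow]

/-- the exponential is natural for every algebra map -/
theorem hom_gexp (Φ : Ge V →ₐ[ℝ] Ge V') (a : Ge V) : Φ (gexp a) = gexp (Φ a) := by
  have h : Φ (nl a) = nl (Φ a) := by
    rw [nl, nl, map_sub, AlgHom.commutes, ctG_hom]
  rw [gexp, gexp, map_smul, hom_nexp Φ (nl_nil a), h, ctG_hom]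

end hom

/-! ### global equivalence of two systems -/

variable {F₁ : Type*} [DecidableEq F₁] {V₁ : Type*} [AddCommGroup V₁] [Module ℝ V₁]
variable {F₂ : Type*} [DecidableEq F₂] {V₂ : Type*} [AddCommGroup V₂] [Module ℝ V₂]

/-- global equivalence of extraction data -/
structure ExtrEq (ψ : F₁ ≃ F₂) (Φ : Ge V₁ →ₐ[ℝ] Ge V₂) (e₁ : Extr F₁ V₁) (e₂ : Extr F₂ V₂) :
    Prop where
  out : ∀ U T, T.image ψ ∈ e₂.out (U.image ψ) ↔ T ∈ e₁.out U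
  X : ∀ U, ∀ T ∈ e₁.out U, ∀ a, Φ (e₁.X U T a) = e₂.X (U.image ψ) (T.image ψ) (Φ a)

/-- global equivalence of systems -/
structure SysEq (ψ : F₁ ≃ F₂) (Φ : Ge V₁ →ₐ[ℝ] Ge V₂) (D₁ : Sys F₁ V₁) (D₂ : Sys F₂ V₂) :
    Prop where
  K0 : ∀ U, Φ (D₁.K0 U) = D₂.K0 (U.image ψ)
  S : ∀ k a, Φ (cvG (D₁.S k) a) = cvG (D₂.S k) (Φ a)
  near : ∀ k a b, D₂.near k (ψ a) (ψ b) ↔ D₁.near k a b
  e : ∀ k, ExtrEq ψ Φ (D₁.e k) (D₂.e k)
  vac : ∀ a, Φ (D₁.vac a) = D₂.vac (Φ a)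

section extr

variable {ψ : F₁ ≃ F₂} {Φ : Ge V₁ →ₐ[ℝ] Ge V₂} {e₁ : Extr F₁ V₁} {e₂ : Extr F₂ V₂}

theorem image_injective (ψ : F₁ ≃ F₂) :
    Function.Injective (fun U : Finset F₁ => U.image ψ) := Finset.image_injective ψ.injective

theorem exists_image (ψ : F₁ ≃ F₂) (W : Finset F₂) : ∃ U : Finset F₁, U.image ψ = W :=
  ⟨W.image ψ.symm, by rw [Finset.image_image]; simp⟩

theorem ExtrEq.out_eq (h : ExtrEq ψ Φ e₁ e₂) (U : Finset F₁) :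
    e₂.out (U.image ψ) = (e₁.out U).image fun T => T.image ψ := by
  ext W
  obtain ⟨T, rfl⟩ := exists_image ψ W
  rw [h.out, Finset.mem_image]
  exact ⟨fun hT => ⟨T, hT, rfl⟩, fun ⟨T', hT', he⟩ => image_injective ψ he ▸ hT'⟩

theorem ExtrEq.inn_eq (h : ExtrEq ψ Φ e₁ e₂) (T : Finset F₁) :
    e₂.inn (T.image ψ) = (e₁.inn T).image fun U => U.image ψ := by
  ext W
  obtain ⟨U, rfl⟩ := exists_image ψ W
  rw [← e₂.mem_iff, h.out, e₁.mem_iff, Finset.mem_image]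
  exact ⟨fun hT => ⟨U, hT, rfl⟩, fun ⟨T', hT', he⟩ => image_injective ψ he ▸ hT'⟩

theorem ExtrEq.lost_eq (h : ExtrEq ψ Φ e₁ e₂) {H₁ : Finset F₁ → Ge V₁} {H₂ : Finset F₂ → Ge V₂}
    (hH : ∀ U, Φ (H₁ U) = H₂ (U.image ψ)) (U : Finset F₁) :
    Φ (e₁.lost H₁ U) = e₂.lost H₂ (U.image ψ) := by
  rw [Extr.lost, Extr.lost, h.out_eq, map_sum,
    Finset.sum_image (fun a _ b _ hab => image_injective ψ hab)]
  exact Finset.sum_congr rfl fun T hT => by rw [h.X U T hT, hH]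

theorem ExtrEq.gain_eq (h : ExtrEq ψ Φ e₁ e₂) {H₁ : Finset F₁ → Ge V₁} {H₂ : Finset F₂ → Ge V₂}
    (hH : ∀ U, Φ (H₁ U) = H₂ (U.image ψ)) (T : Finset F₁) :
    Φ (e₁.gain H₁ T) = e₂.gain H₂ (T.image ψ) := by
  rw [Extr.gain, Extr.gain, h.inn_eq, map_sum,
    Finset.sum_image (fun a _ b _ hab => image_injective ψ hab)]
  exact Finset.sum_congr rfl fun U hU => by rw [h.X U T ((e₁.mem_iff U T).2 hU), hH]

theorem ExtrEq.AA_eq (h : ExtrEq ψ Φ e₁ e₂) {vac₁ : Ge V₁ →ₗ[ℝ] Ge V₁}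
    {vac₂ : Ge V₂ →ₗ[ℝ] Ge V₂} (hv : ∀ a, Φ (vac₁ a) = vac₂ (Φ a)) {H₁ : Finset F₁ → Ge V₁}
    {H₂ : Finset F₂ → Ge V₂} (hH : ∀ U, Φ (H₁ U) = H₂ (U.image ψ)) (U : Finset F₁) :
    Φ (AA vac₁ e₁ H₁ U) = AA vac₂ e₂ H₂ (U.image ψ) := by
  rw [AA, AA, map_sub, map_sub, h.gain_eq hH, h.lost_eq hH, hv, hH]

theorem ExtrEq.BB_eq (h : ExtrEq ψ Φ e₁ e₂) {vac₁ : Ge V₁ →ₗ[ℝ] Ge V₁}
    {vac₂ : Ge V₂ →ₗ[ℝ] Ge V₂} (hv : ∀ a, Φ (vac₁ a) = vac₂ (Φ a)) {H₁ : Finset F₁ → Ge V₁}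
    {H₂ : Finset F₂ → Ge V₂} (hH : ∀ U, Φ (H₁ U) = H₂ (U.image ψ)) (U : Finset F₁) :
    Φ (BB vac₁ e₁ H₁ U) = BB vac₂ e₂ H₂ (U.image ψ) := by
  rw [BB, BB, map_sub, map_one, hom_gexp, h.AA_eq hv hH]

/-- reclustering is equivariant -/
theorem KK_equiv {n₁ n₁' : F₁ → F₁ → Prop} {n₂ n₂' : F₂ → F₂ → Prop}
    (hn : ∀ a b, n₂ (ψ a) (ψ b) ↔ n₁ a b) (hn' : ∀ a b, n₂' (ψ a) (ψ b) ↔ n₁' a b)
    {K₁ B₁ : Finset F₁ → Ge V₁} {K₂ B₂ : Finset F₂ → Ge V₂}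
    (hK : ∀ U, Φ (K₁ U) = K₂ (U.image ψ)) (hB : ∀ U, Φ (B₁ U) = B₂ (U.image ψ)) (W : Finset F₁) :
    Φ (KK n₁ n₁' K₁ B₁ W) = KK n₂ n₂' K₂ B₂ (W.image ψ) :=
  KK_map (φ := ψ.symm) ⟨fun a _ => ψ.symm_apply_apply a, fun a _ b _ => (hn a b).symm,
    fun a _ b _ => (hn' a b).symm⟩ Φ.toRingHom (fun U _ _ => hK U) (fun U _ _ => hB U)

end extr

namespace SysEq

variable {ψ : F₁ ≃ F₂} {Φ : Ge V₁ →ₐ[ℝ] Ge V₂} {D₁ : Sys F₁ V₁} {D₂ : Sys F₂ V₂}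

theorem H_of_K (h : SysEq ψ Φ D₁ D₂) {k : ℕ} (hK : ∀ U, Φ (D₁.K k U) = D₂.K k (U.image ψ))
    (U : Finset F₁) : Φ (D₁.H k U) = D₂.H k (U.image ψ) := by
  rw [Sys.H, Sys.H, h.S, hK]

/-- **equivariance of the activities** -/
theorem K_eq (h : SysEq ψ Φ D₁ D₂) (k : ℕ) (U : Finset F₁) :
    Φ (D₁.K k U) = D₂.K k (U.image ψ) := by
  induction k generalizing U with
  | zero => exact h.K0 U
  | succ k ih =>
    rw [Sys.K_succ, Sys.K_succ]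
    exact KK_equiv (h.near k) (h.near (k + 1)) (h.H_of_K ih)
      (fun U => (h.e k).BB_eq h.vac (h.H_of_K ih) U) U

theorem H_eq (h : SysEq ψ Φ D₁ D₂) (k : ℕ) (U : Finset F₁) :
    Φ (D₁.H k U) = D₂.H k (U.image ψ) := h.H_of_K (h.K_eq k) U

theorem A_eq (h : SysEq ψ Φ D₁ D₂) (k : ℕ) (U : Finset F₁) :
    Φ (D₁.A k U) = D₂.A k (U.image ψ) := (h.e k).AA_eq h.vac (h.H_eq k) U

theorem B_eq (h : SysEq ψ Φ D₁ D₂) (k : ℕ) (U : Finset F₁) :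
    Φ (D₁.B k U) = D₂.B k (U.image ψ) := (h.e k).BB_eq h.vac (h.H_eq k) U

theorem vac_eq (h : SysEq ψ Φ D₁ D₂) (k : ℕ) (U : Finset F₁) :
    Φ (D₁.vac (D₁.H k U)) = D₂.vac (D₂.H k (U.image ψ)) := by rw [h.vac, h.H_eq]

theorem ct_eq (h : SysEq ψ Φ D₁ D₂) (k : ℕ) (U : Finset F₁) :
    ctG (D₂.H k (U.image ψ)) = ctG (D₁.H k U) := by rw [← h.H_eq, ctG_hom]

/-- the terms with at least two items -/
theorem Q_eq (h : SysEq ψ Φ D₁ D₂) (k : ℕ) {W : Finset F₁} (hW : W.Nonempty) :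
    Φ (D₁.Q k W) = D₂.Q k (W.image ψ) := by
  have e1 := D₁.K_succ_eq k hW
  have e2 := D₂.K_succ_eq k (hW.image ψ)
  have e3 : D₁.Q k W = D₁.K (k + 1) W - D₁.H k W - D₁.B k W := by rw [e1]; ring
  have e4 : D₂.Q k (W.image ψ) =
      D₂.K (k + 1) (W.image ψ) - D₂.H k (W.image ψ) - D₂.B k (W.image ψ) := by rw [e2]; ring
  rw [e3, e4, map_sub, map_sub, h.K_eq, h.H_eq, h.B_eq]

end SysEq

/-! ### extraction at single faces -/

section ex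

open Crest.Agent.R165.PStepx417

variable {G : Type} [CommRing G] [CN G] [DecidableEq G] {H : Type} [CommRing H] [CN H]
  [DecidableEq H] {w : BW G} {v : BW H}

/-- equivalence of two extractions at single faces -/
theorem extrEq_exF (c : GIso w v) {p : G × G → Prop} [DecidablePred p] {q : H × H → Prop}
    [DecidablePred q] (hpq : ∀ f, q (c.φ f) ↔ p f) {Lo : G × G → Ge (Fld G) →ₗ[ℝ] Ge (Fld G)}
    {Lo' : H × H → Ge (Fld H) →ₗ[ℝ] Ge (Fld H)}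
    (hL : ∀ f, p f → ∀ a, c.Φ (Lo f a) = Lo' (c.φ f) (c.Φ a)) (r : ℕ) :
    ExtrEq c.φ c.Φ (exF p Lo r) (exF q Lo' r) where
  out U T := by
    show T.image c.φ ∈ exOut q r (U.image c.φ) ↔ T ∈ exOut p r U
    rw [mem_exOut, mem_exOut, c.size_image]
    refine and_congr Iff.rfl ?_
    constructor
    · rintro ⟨f, hf, hq, he⟩
      obtain ⟨g, hg, rfl⟩ := Finset.mem_image.1 hf
      refine ⟨g, hg, (hpq g).1 hq, ?_⟩
      refine image_injective c.φ ?_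
      show T.image c.φ = ({g} : Finset (G × G)).image c.φ
      rw [he, Finset.image_singleton]
    · rintro ⟨f, hf, hp, rfl⟩
      exact ⟨c.φ f, Finset.mem_image_of_mem _ hf, (hpq f).2 hp, Finset.image_singleton _ _⟩
  X U T hT a := by
    obtain ⟨_, f, _, hp, rfl⟩ := (mem_exOut p r).1 hT
    rw [Finset.image_singleton, exF_X, exF_X, Finset.sum_singleton, Finset.sum_singleton, map_smul,
      hL f hp, Finset.card_image_of_injective _ c.φ.injective]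

theorem hom_vac0 {V : Type*} [AddCommGroup V] [Module ℝ V] {V' : Type*} [AddCommGroup V']
    [Module ℝ V'] (Φ : Ge V →ₐ[ℝ] Ge V') (a : Ge V) : Φ (vac0 V a) = vac0 V' (Φ a) := by
  rw [vac0_apply, vac0_apply, ctG_hom, AlgHom.commutes]

end ex

/-! ### the plane -/

section plane

open Crest.Agent.R165.PStepx417 Crest.Agent.R165.PlaneModesx901 Crest.Agent.R165.PlaneSumx901
  Crest.Agent.R165.PlaneCovx901 Crest.Agent.R165.PlaneLocx901 Crest.Agent.R165.FRDPolyx439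
  Crest.Agent.R165.FRDLatx439

/-- the slices of the plane are invariant -/
theorem symS_SopC {Λ : ℝ} {M K : ℕ} (D : FRD Λ M K) (a b : ℕ) : SymS (SopC D (wPl ℤ) a b) where
  tau t x y := by
    have := (gTau t).SopC_psh D a b x y
    rw [show (gTau t).ε = 1 from rfl, one_mul] at this
    exact this
  rho z x y := by
    have := (gRho z).SopC_psh D a b x y
    rw [show (gRho z).ε = 1 from rfl, one_mul] at this
    exact this
  sig z x y := by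
    have := (gSig z).SopC_psh D a b x y
    rw [show (gSig z).ε = -1 from rfl, neg_one_mul] at this
    exact this

theorem SymS.psh {S : Cov (Fld ℤ)} (h : SymS S) {c : GIso (wPl ℤ) (wPl ℤ)} (hc : PlGen c)
    (x y : Fld ℤ) : S.b (c.psh x) (c.psh y) = c.ε * S.b x y := by
  rcases hc with ⟨t, rfl⟩ | rfl | rfl
  · rw [show (gTau t).ε = 1 from rfl, one_mul]; exact h.tau t x y
  · rw [show (gRho 0).ε = 1 from rfl, one_mul]; exact h.rho 0 x y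
  · rw [show (gSig 0).ε = -1 from rfl, neg_one_mul]; exact h.sig 0 x y

theorem SymS.Φ_cvG {S : Cov (Fld ℤ)} (h : SymS S) {c : GIso (wPl ℤ) (wPl ℤ)} (hc : PlGen c)
    (a : Ge (Fld ℤ)) : c.Φ (cvG S a) = cvG S (c.Φ a) := c.Φ_cvG (SymS.psh h hc) a

theorem SymS.zero : SymS 0 := ⟨fun _ _ _ => rfl, fun _ _ _ => rfl, fun _ _ _ => by
  show (0 : ℝ) = -0; rw [neg_zero]⟩

theorem SymS.add {S T : Cov (Fld ℤ)} (hS : SymS S) (hT : SymS T) : SymS (S + T) where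
  tau t x y := by
    simp only [Cov.add_b, LinearMap.add_apply]; rw [hS.tau, hT.tau]
  rho z x y := by
    simp only [Cov.add_b, LinearMap.add_apply]; rw [hS.rho, hT.rho]
  sig z x y := by
    simp only [Cov.add_b, LinearMap.add_apply]; rw [hS.sig, hT.sig]; ring

/-- covariance of a localisation -/
theorem Φ_Loc {Lo : Fc → Ge (Fld ℤ) →ₗ[ℝ] Ge (Fld ℤ)}
    (hLo : ∀ f a, ((Lo f a : Ge (Fld ℤ)) : Gr (Fld ℤ)) = LocAt f (a : Gr (Fld ℤ)))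
    {c : GIso (wPl ℤ) (wPl ℤ)} (hc : PlGen c) (f : Fc) (a : Ge (Fld ℤ)) :
    c.Φ (Lo f a) = Lo (c.φ f) (c.Φ a) := by
  refine ge_ext ?_
  rcases hc with ⟨t, rfl⟩ | rfl | rfl
  · rw [coe_gTau_Φ, hLo, hLo, coe_gTau_Φ, gTau_φ, LocAt_tau]
  · rw [coe_gRho_Φ, hLo, hLo, coe_gRho_Φ, gRho_φ, LocAt_rho]
  · rw [coe_gSig_Φ, hLo, hLo, coe_gSig_Φ, gSig_φ, LocAt_sig]

/-- systems with the symmetries of the plane -/
structure PlSys (D : Sys Fc (Fld ℤ)) : Prop where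
  S : ∀ k, SymS (D.S k)
  near : ∀ k c, PlGen c → ∀ a b, D.near k (c.φ a) (c.φ b) ↔ D.near k a b
  e : ∀ k c, PlGen c → ExtrEq c.φ c.Φ (D.e k) (D.e k)
  vac : ∀ c, PlGen c → ∀ a, c.Φ (D.vac a) = D.vac (c.Φ a)

/-- the standard plane system -/
theorem PlSys.of {D : Sys Fc (Fld ℤ)} (hS : ∀ k, SymS (D.S k)) {R : ℕ → ℕ}
    (hnear : ∀ k a b, D.near k a b ↔ fd a b ≤ R k) {p : ℕ → Fc → Prop}
    [∀ k, DecidablePred (p k)] (hp : ∀ k f, p k f) {Lo : ℕ → Fc → Ge (Fld ℤ) →ₗ[ℝ] Ge (Fld ℤ)}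
    (hLo : ∀ k f a, ((Lo k f a : Ge (Fld ℤ)) : Gr (Fld ℤ)) = LocAt f (a : Gr (Fld ℤ)))
    {r : ℕ → ℕ} (he : ∀ k, D.e k = exF (p k) (Lo k) (r k)) (hvac : D.vac = vac0 (Fld ℤ)) :
    PlSys D where
  S := hS
  near k c _ a b := by rw [hnear, hnear, c.iso]
  e k c hc := by
    rw [he k]
    exact extrEq_exF c (fun f => iff_of_true (hp k _) (hp k f))
      (fun f _ a => Φ_Loc (hLo k) hc f a) (r k)
  vac c _ a := by rw [hvac, hom_vac0]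

theorem PlSys.sysEq {D : Sys Fc (Fld ℤ)} (h : PlSys D)
    (h0 : PlSym fun U => (D.K0 U : Gr (Fld ℤ))) {c : GIso (wPl ℤ) (wPl ℤ)} (hc : PlGen c) :
    SysEq c.φ c.Φ D D where
  K0 := plSym_iff.1 h0 c hc
  S k a := SymS.Φ_cvG (h.S k) hc a
  near k a b := h.near k c hc a b
  e k := h.e k c hc
  vac := h.vac c hc

/-- **the activities of the plane are covariant under translations, rotations, reflections** -/
theorem PlSys.plSym_K {D : Sys Fc (Fld ℤ)} (h : PlSys D)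
    (h0 : PlSym fun U => (D.K0 U : Gr (Fld ℤ))) (k : ℕ) :
    PlSym fun U => (D.K k U : Gr (Fld ℤ)) :=
  plSym_iff.2 fun _ hc U => (h.sysEq h0 hc).K_eq k U

theorem PlSys.plSym_H {D : Sys Fc (Fld ℤ)} (h : PlSys D)
    (h0 : PlSym fun U => (D.K0 U : Gr (Fld ℤ))) (k : ℕ) :
    PlSym fun U => (D.H k U : Gr (Fld ℤ)) :=
  plSym_iff.2 fun _ hc U => (h.sysEq h0 hc).H_eq k U

theorem PlSys.plSym_A {D : Sys Fc (Fld ℤ)} (h : PlSys D)
    (h0 : PlSym fun U => (D.K0 U : Gr (Fld ℤ))) (k : ℕ) :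
    PlSym fun U => (D.A k U : Gr (Fld ℤ)) :=
  plSym_iff.2 fun _ hc U => (h.sysEq h0 hc).A_eq k U

theorem PlSys.plSym_B {D : Sys Fc (Fld ℤ)} (h : PlSys D)
    (h0 : PlSym fun U => (D.K0 U : Gr (Fld ℤ))) (k : ℕ) :
    PlSym fun U => (D.B k U : Gr (Fld ℤ)) :=
  plSym_iff.2 fun _ hc U => (h.sysEq h0 hc).B_eq k U

/-! #### one-step versions -/

theorem plSym_cvG {S : Cov (Fld ℤ)} (hS : SymS S) {K : Finset Fc → Ge (Fld ℤ)}
    (hK : PlSym fun U => (K U : Gr (Fld ℤ))) : PlSym fun U => (cvG S (K U) : Gr (Fld ℤ)) := by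
  have h := plSym_iff.1 hK
  refine (plSym_iff (K := fun U => cvG S (K U))).2 fun c hc U => ?_
  rw [SymS.Φ_cvG hS hc, h c hc U]

theorem plSym_AA {e : Extr Fc (Fld ℤ)} (he : ∀ c, PlGen c → ExtrEq c.φ c.Φ e e)
    {vac : Ge (Fld ℤ) →ₗ[ℝ] Ge (Fld ℤ)} (hv : ∀ c, PlGen c → ∀ a, c.Φ (vac a) = vac (c.Φ a))
    {K : Finset Fc → Ge (Fld ℤ)} (hK : PlSym fun U => (K U : Gr (Fld ℤ))) :
    PlSym fun U => (AA vac e K U : Gr (Fld ℤ)) :=
  plSym_iff.2 fun c hc U => (he c hc).AA_eq (hv c hc) (plSym_iff.1 hK c hc) U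

theorem plSym_BB {e : Extr Fc (Fld ℤ)} (he : ∀ c, PlGen c → ExtrEq c.φ c.Φ e e)
    {vac : Ge (Fld ℤ) →ₗ[ℝ] Ge (Fld ℤ)} (hv : ∀ c, PlGen c → ∀ a, c.Φ (vac a) = vac (c.Φ a))
    {K : Finset Fc → Ge (Fld ℤ)} (hK : PlSym fun U => (K U : Gr (Fld ℤ))) :
    PlSym fun U => (BB vac e K U : Gr (Fld ℤ)) :=
  plSym_iff.2 fun c hc U => (he c hc).BB_eq (hv c hc) (plSym_iff.1 hK c hc) U

theorem extrEq_plane (r : ℕ) {p : Fc → Prop} [DecidablePred p] (hp : ∀ f, p f)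
    {Lo : Fc → Ge (Fld ℤ) →ₗ[ℝ] Ge (Fld ℤ)}
    (hLo : ∀ f a, ((Lo f a : Ge (Fld ℤ)) : Gr (Fld ℤ)) = LocAt f (a : Gr (Fld ℤ)))
    (c : GIso (wPl ℤ) (wPl ℤ)) (hc : PlGen c) :
    ExtrEq c.φ c.Φ (exF p Lo r) (exF p Lo r) :=
  extrEq_exF c (fun f => iff_of_true (hp _) (hp f)) (fun f _ a => Φ_Loc hLo hc f a) r

theorem plSym_KK {n n' : Fc → Fc → Prop}
    (hn : ∀ c, PlGen c → ∀ a b, n (c.φ a) (c.φ b) ↔ n a b)
    (hn' : ∀ c, PlGen c → ∀ a b, n' (c.φ a) (c.φ b) ↔ n' a b) {K B : Finset Fc → Ge (Fld ℤ)}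
    (hK : PlSym fun U => (K U : Gr (Fld ℤ))) (hB : PlSym fun U => (B U : Gr (Fld ℤ))) :
    PlSym fun U => ((KK n n' K B U : Ge (Fld ℤ)) : Gr (Fld ℤ)) :=
  plSym_iff.2 fun c hc U => KK_equiv (hn c hc) (hn' c hc) (plSym_iff.1 hK c hc)
    (plSym_iff.1 hB c hc) U

/-- the norm of the activities of the plane at scale `k` is a sum over the sets near one face -/
theorem PlSys.NK_K {D : Sys Fc (Fld ℤ)} (h : PlSys D)
    (h0 : PlSym fun U => (D.K0 U : Gr (Fld ℤ))) (k : ℕ) {q : Finset Fc → Prop}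
    (hq : ∀ t U, q (U.image (· + t)) ↔ q U) (a : ℝ) (r : ℕ) (Γ : ℝ≥0∞) (f : Fc) :
    open Classical in
    NK (wPl ℤ) a r Γ q (fun U => (D.K k U : Gr (Fld ℤ))) =
      ∑' U : Finset Fc, if Near r f U ∧ q U then
        Γ ^ size r U * PNormx417.pnorm (wU (wPl ℤ) a r U) (D.K k U : Gr (Fld ℤ)) else 0 :=
  NK_eq_at (h.plSym_K h0 k).tau hq a r Γ f

end plane

end Crest.Agent.R165.FlowD4x898
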