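import Crest.Agent.R165.PNorm_417

/-!
# Row 165 (S0250), block G: homogeneous components, Pauli lemma, one step bounds
-/

set_option autoImplicit false
set_option linter.unusedSectionVars false

noncomputable section

namespace Crest.Agent.R165.PNormx417

open Crest.Agent.R165.Gr0x606
open scoped ENNReal

variable {V : Type*} [AddCommGroup V] [Module ℝ V]
variable {W : Type*} [AddCommGroup W] [Module ℝ W]

/-! ### homogeneous components -/

/-- homogeneous component of degree `n` -/
def hom (n : ℕ) : Gr V →ₗ[ℝ] Gr V := GradedAlgebra.proj (fun i : ℕ => ⋀[ℝ]^i V) n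

theorem mono_mem (L : List V) : mono L ∈ (⋀[ℝ]^L.length V : Submodule ℝ (Gr V)) := by
  induction L with
  | nil => simp [Submodule.mem_one]
  | cons x L ih =>
    rw [mono_cons, List.length_cons]
    have h : (⋀[ℝ]^(L.length + 1) V : Submodule ℝ (Gr V)) =
        LinearMap.range (ExteriorAlgebra.ι ℝ (M := V)) * ⋀[ℝ]^L.length V := pow_succ' _ _
    rw [h]
    exact Submodule.mul_mem_mul ⟨x, rfl⟩ ih

theorem hom_of_mem {n : ℕ} {F : Gr V} (h : F ∈ (⋀[ℝ]^n V : Submodule ℝ (Gr V))) :
    hom n F = F := by
  rw [hom, GradedAlgebra.proj_apply]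
  exact DirectSum.decompose_of_mem_same _ h

theorem hom_of_mem_ne {n m : ℕ} {F : Gr V} (h : F ∈ (⋀[ℝ]^n V : Submodule ℝ (Gr V)))
    (hnm : n ≠ m) : hom m F = 0 := by
  rw [hom, GradedAlgebra.proj_apply]
  exact DirectSum.decompose_of_mem_ne _ h hnm

theorem hom_mem (n : ℕ) (F : Gr V) : hom n F ∈ (⋀[ℝ]^n V : Submodule ℝ (Gr V)) := by
  rw [hom, GradedAlgebra.proj_apply]
  exact SetLike.coe_mem _

theorem hom_mono (n : ℕ) (L : List V) : hom n (mono L) = if L.length = n then mono L else 0 := by
  split_ifs with h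
  · subst h; exact hom_of_mem (mono_mem L)
  · exact hom_of_mem_ne (mono_mem L) h

theorem hom_hom (n m : ℕ) (F : Gr V) : hom n (hom m F) = if m = n then hom n F else 0 := by
  split_ifs with h
  · subst h; exact hom_of_mem (hom_mem _ _)
  · exact hom_of_mem_ne (hom_mem _ _) h

/-- every element is the finite sum of its components -/
theorem exists_sum_hom (F : Gr V) : ∃ s : Finset ℕ, (∀ n ∉ s, hom n F = 0) ∧
    F = ∑ n ∈ s, hom n F := by
  classical
  refine ⟨(DirectSum.decompose (fun i : ℕ => ⋀[ℝ]^i V) F).support, fun n hn => ?_, ?_⟩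
  · rw [hom, GradedAlgebra.proj_apply]
    rw [DFinsupp.mem_support_iff, not_not] at hn
    rw [hn]; rfl
  · conv_lhs => rw [← DirectSum.sum_support_decompose (fun i : ℕ => ⋀[ℝ]^i V) F]
    rfl

/-- induction principle: linear identities can be checked on monomials -/
theorem linear_ext {X : Type*} [AddCommGroup X] [Module ℝ X] {S T : Gr V →ₗ[ℝ] X}
    (h : ∀ L : List V, S (mono L) = T (mono L)) (F : Gr V) : S F = T F := by
  have hspan : F ∈ Submodule.span ℝ (Set.range (mono (V := V))) := by
    induction F using Gr.induction with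
    | h0 r =>
      rw [Algebra.algebraMap_eq_smul_one]
      exact Submodule.smul_mem _ _ (Submodule.subset_span ⟨[], rfl⟩)
    | h1 x a ih =>
      have : ∀ y ∈ Submodule.span ℝ (Set.range (mono (V := V))),
          fi x * y ∈ Submodule.span ℝ (Set.range (mono (V := V))) := by
        intro y hy
        induction hy using Submodule.span_induction with
        | mem y hy =>
          obtain ⟨L, rfl⟩ := hy
          exact Submodule.subset_span ⟨x :: L, mono_cons x L⟩
        | zero => rw [mul_zero]; exact Submodule.zero_mem _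
        | add y z _ _ hy hz => rw [mul_add]; exact Submodule.add_mem _ hy hz
        | smul c y _ hy => rw [mul_smul_comm]; exact Submodule.smul_mem _ _ hy
      exact this _ ih
    | h2 a b iha ihb => exact Submodule.add_mem _ iha ihb
  induction hspan using Submodule.span_induction with
  | mem y hy => obtain ⟨L, rfl⟩ := hy; exact h L
  | zero => rw [map_zero, map_zero]
  | add y z _ _ hy hz => rw [map_add, map_add, hy, hz]
  | smul c y _ hy => rw [map_smul, map_smul, hy]

theorem inv'_hom (n : ℕ) (F : Gr V) : inv' (hom n F) = (-1 : ℝ) ^ n • hom n F := by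
  have h := linear_ext (S := (inv' (V := V)).toLinearMap ∘ₗ hom n) (T := ((-1 : ℝ) ^ n) • hom n)
    (fun L => by
      simp only [LinearMap.comp_apply, AlgHom.toLinearMap_apply, LinearMap.smul_apply, hom_mono]
      split_ifs with h
      · subst h; exact inv'_mono L
      · simp) F
  exact h

theorem hom_inv' (n : ℕ) (F : Gr V) : hom n (inv' F) = (-1 : ℝ) ^ n • hom n F := by
  have h := linear_ext (S := hom n ∘ₗ (inv' (V := V)).toLinearMap) (T := ((-1 : ℝ) ^ n) • hom n)
    (fun L => by
      simp only [LinearMap.comp_apply, AlgHom.toLinearMap_apply, LinearMap.smul_apply, inv'_mono,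
        map_smul, hom_mono]
      split_ifs with h
      · subst h; rfl
      · simp) F
  exact h

theorem IsEv.hom_odd {F : Gr V} (hF : IsEv F) {n : ℕ} (hn : Odd n) : hom n F = 0 := by
  have h := hom_inv' n F
  rw [hF, hn.neg_one_pow, neg_one_smul] at h
  have h2 : (2 : ℝ) • hom n F = 0 := by rw [two_smul]; nth_rw 1 [h]; simp
  exact (smul_eq_zero.1 h2).resolve_left (by norm_num)

theorem isEv_hom_even {F : Gr V} {n : ℕ} (hn : Even n) : IsEv (hom n F) := by
  rw [IsEv, inv'_hom, hn.neg_one_pow, one_smul]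

theorem hom_zero_eq (F : Gr V) : hom 0 F = algebraMap ℝ _ (ct F) := by
  have h := linear_ext (S := hom 0) (T := (Algebra.linearMap ℝ (Gr V)) ∘ₗ (ct (V := V)).toLinearMap)
    (fun L => by
      rw [hom_mono]
      cases L with
      | nil => simp
      | cons x L => simp) F
  exact h

theorem ct_hom_zero (F : Gr V) : ct (hom 0 F) = ct F := by rw [hom_zero_eq, ct_algebraMap]

theorem hom_mp (f : V →ₗ[ℝ] W) (n : ℕ) (F : Gr V) : hom n (mp f F) = mp f (hom n F) := by
  have h := linear_ext (S := hom n ∘ₗ (mp f).toLinearMap) (T := (mp f).toLinearMap ∘ₗ hom n)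
    (fun L => by
      simp only [LinearMap.comp_apply, AlgHom.toLinearMap_apply, mp_mono, hom_mono,
        List.length_map]
      split_ifs with h
      · rw [mp_mono]
      · simp) F
  exact h

theorem pnorm_hom_le (w : V → ℝ≥0∞) (n : ℕ) (F : Gr V) : pnorm w (hom n F) ≤ pnorm w F :=
  bound_of_mono_one (pnorm_semi w) (hom n) (fun L _ => by
    rw [hom_mono]
    split_ifs
    · exact pnorm_mono_le _ _
    · simp) F

/-- the projective norm is the sum of the projective norms of the homogeneous components -/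
theorem tsum_pnorm_hom (w : V → ℝ≥0∞) (F : Gr V) : ∑' n, pnorm w (hom n F) = pnorm w F := by
  apply le_antisymm
  · refine semi_le_of_mono_one (N := fun F => ∑' n, pnorm w (hom n F))
      (ESemi.tsum fun n => (pnorm_semi w).comp (hom n)) (fun L _ => ?_) F
    have : ∀ n, pnorm w (hom n (mono L)) = if n = L.length then pnorm w (mono L) else 0 := by
      intro n
      rw [hom_mono]
      split_ifs with h h' h'
      · rfl
      · exact absurd h.symm h'
      · exact absurd h'.symm h
      · simp
    simp only [this, tsum_ite_eq]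
    exact pnorm_mono_le _ _
  · obtain ⟨s, hs, hF⟩ := exists_sum_hom F
    calc pnorm w F = pnorm w (∑ n ∈ s, hom n F) := by rw [← hF]
      _ ≤ ∑ n ∈ s, pnorm w (hom n F) := pnorm_sum_le _ _ _
      _ ≤ _ := ENNReal.sum_le_tsum s

/-- **master lemma with degree dependent constants** -/
theorem bound_deg {X : Type*} [AddCommGroup X] [Module ℝ X] {N : X → ℝ≥0∞} (hN : ESemi N)
    (T : Gr V →ₗ[ℝ] X) {w : V → ℝ≥0∞} {C : ℕ → ℝ≥0∞} (hC : ∀ n, C n ≠ ∞)
    (h : ∀ L : List V, mwt w L ≠ ∞ → N (T (mono L)) ≤ C L.length * mwt w L) {F : Gr V}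
    (hF : pnorm w F ≠ ∞) : N (T F) ≤ ∑' n, C n * pnorm w (hom n F) := by
  obtain ⟨s, hs, hsF⟩ := exists_sum_hom F
  have h1 : ∀ n, N (T (hom n F)) ≤ C n * pnorm w (hom n F) := by
    intro n
    have h2 := bound_of_mono hN (T ∘ₗ hom n) (w := w) (hC n) (fun L hL => by
      rw [LinearMap.comp_apply, hom_mono]
      split_ifs with h'
      · subst h'; exact h L hL
      · simp [hN.zero]) (F := hom n F)
      (ne_top_of_le_ne_top hF (pnorm_hom_le w n F))
    simpa [hom_hom] using h2
  calc N (T F) = N (∑ n ∈ s, T (hom n F)) := by rw [← map_sum, ← hsF]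
    _ ≤ ∑ n ∈ s, N (T (hom n F)) := hN.finset_sum _ _
    _ ≤ ∑ n ∈ s, C n * pnorm w (hom n F) := Finset.sum_le_sum fun n _ => h1 n
    _ ≤ _ := ENNReal.sum_le_tsum s

/-- master lemma with degree dependent constants, uniform bound on the degrees present -/
theorem bound_deg_sup {X : Type*} [AddCommGroup X] [Module ℝ X] {N : X → ℝ≥0∞} (hN : ESemi N)
    (T : Gr V →ₗ[ℝ] X) {w : V → ℝ≥0∞} {C : ℕ → ℝ≥0∞} {K : ℝ≥0∞} (hC : ∀ n, C n ≠ ∞)
    (h : ∀ L : List V, mwt w L ≠ ∞ → N (T (mono L)) ≤ C L.length * mwt w L) {F : Gr V}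
    (hF : pnorm w F ≠ ∞) (hK : ∀ n, hom n F ≠ 0 → C n ≤ K) : N (T F) ≤ K * pnorm w F := by
  refine (bound_deg hN T hC h hF).trans ?_
  rw [← tsum_pnorm_hom w F, ← ENNReal.tsum_mul_left]
  refine ENNReal.tsum_le_tsum fun n => ?_
  by_cases hn : hom n F = 0
  · simp [hn]
  · exact mul_le_mul_left (hK n hn) _

/-! ### scaling of the weights -/

theorem mwt_const_mul (c : ℝ≥0∞) (w : V → ℝ≥0∞) (L : List V) :
    mwt (fun l => c * w l) L = c ^ L.length * mwt w L := by
  induction L with
  | nil => simp
  | cons x L ih => rw [mwt_cons, ih, mwt_cons, List.length_cons, pow_succ]; ring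

/-- if all degrees of `F` are at least `m` and the weights shrink by a factor `c ≤ 1` then the
norm shrinks by the factor `c ^ m` -/
theorem pnorm_scale {w w' : V → ℝ≥0∞} {c : ℝ≥0∞} (hc : c ≤ 1) (h : ∀ l, w' l ≤ c * w l)
    {F : Gr V} {m : ℕ} (hm : ∀ n < m, hom n F = 0) (hF : pnorm w F ≠ ∞) :
    pnorm w' F ≤ c ^ m * pnorm w F := by
  have hc' : c ≠ ∞ := ne_top_of_le_ne_top ENNReal.one_ne_top hc
  refine bound_deg_sup (pnorm_semi w') LinearMap.id (C := fun n => c ^ n)
    (fun n => ENNReal.pow_ne_top hc') (fun L _ => ?_) hF (fun n hn => ?_)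
  · rw [LinearMap.id_apply, ← mwt_const_mul]
    exact (pnorm_mono_le _ _).trans (mwt_mono h L)
  · exact pow_le_pow_right_of_le_one' hc (not_lt.1 fun h' => hn (hm n h'))

/-! ### counting splittings -/

theorem splits_length (L : List V) : ∀ s ∈ splits L, s.2.1.length + s.2.2.length = L.length := by
  induction L with
  | nil => intro s hs; simp only [splits, List.mem_singleton] at hs; subst hs; rfl
  | cons x L ih =>
    intro s hs
    simp only [splits, List.mem_append, List.mem_map] at hs
    rcases hs with ⟨t, ht, rfl⟩ | ⟨t, ht, rfl⟩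
    · have := ih t ht; simp only [List.length_cons]; omega
    · have := ih t ht; simp only [List.length_cons]; omega

theorem splits_mwt (w : V → ℝ≥0∞) (L : List V) :
    ∀ s ∈ splits L, mwt w s.2.1 * mwt w s.2.2 = mwt w L := by
  induction L with
  | nil => intro s hs; simp only [splits, List.mem_singleton] at hs; subst hs; simp
  | cons x L ih =>
    intro s hs
    simp only [splits, List.mem_append, List.mem_map] at hs
    rcases hs with ⟨t, ht, rfl⟩ | ⟨t, ht, rfl⟩
    · simp only [mwt_cons, ← ih t ht]; ring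
    · simp only [mwt_cons, ← ih t ht]; ring

/-- Pascal: sum over the splittings of a function of the length of the first part -/
theorem sum_splits_card (f : ℕ → ℝ≥0∞) (L : List V) :
    ((splits L).map fun s => f s.2.1.length).sum =
      ∑ i ∈ Finset.range (L.length + 1), (L.length.choose i : ℝ≥0∞) * f i := by
  induction L generalizing f with
  | nil => simp [splits]
  | cons x L ih =>
    rw [splits, List.map_append, List.sum_append, List.map_map, List.map_map]
    have h1 : ((splits L).map ((fun s => f s.2.1.length) ∘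
        fun s => (s.1, x :: s.2.1, s.2.2))).sum =
        ((splits L).map fun s => (fun i => f (i + 1)) s.2.1.length).sum := rfl
    have h2 : ((splits L).map ((fun s => f s.2.1.length) ∘
        fun s => (s.1 * (-1) ^ s.2.1.length, s.2.1, x :: s.2.2))).sum =
        ((splits L).map fun s => f s.2.1.length).sum := rfl
    rw [h1, h2, ih f, ih (fun i => f (i + 1)), List.length_cons]
    set n := L.length
    have e1 : ∑ i ∈ Finset.range (n + 1 + 1), ((n + 1).choose i : ℝ≥0∞) * f i =
        ∑ i ∈ Finset.range (n + 1), ((n + 1).choose (i + 1) : ℝ≥0∞) * f (i + 1) + f 0 := by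
      rw [Finset.sum_range_succ']; simp
    have e2 : ∑ i ∈ Finset.range (n + 1), (n.choose i : ℝ≥0∞) * f i =
        ∑ i ∈ Finset.range (n + 1), (n.choose (i + 1) : ℝ≥0∞) * f (i + 1) + f 0 := by
      rw [Finset.sum_range_succ' (n := n)]
      rw [Finset.sum_range_succ (n := n) (f := fun i => (n.choose (i + 1) : ℝ≥0∞) * f (i + 1))]
      simp
    rw [e1, e2, ← add_assoc, ← Finset.sum_add_distrib]
    congr 1
    refine Finset.sum_congr rfl fun i _ => ?_
    rw [Nat.choose_succ_succ]
    push_cast
    ring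

/-- sum over the splittings of `f(|A|) w(A) w(B)` -/
theorem sum_splits_mwt (f : ℕ → ℝ≥0∞) (w : V → ℝ≥0∞) (L : List V) :
    ((splits L).map fun s => f s.2.1.length * (mwt w s.2.1 * mwt w s.2.2)).sum =
      (∑ i ∈ Finset.range (L.length + 1), (L.length.choose i : ℝ≥0∞) * f i) * mwt w L := by
  rw [← sum_splits_card, ← List.sum_map_mul_right]
  refine congrArg List.sum (List.map_congr_left fun s hs => ?_)
  rw [splits_mwt w L s hs]

/-! ### Pauli principle -/

/-- a monomial in more than `r` fields of a space of dimension `≤ r` vanishes -/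
theorem mono_eq_zero_of_rank (U : Submodule ℝ V) [FiniteDimensional ℝ U] (L : List V)
    (hL : ∀ l ∈ L, l ∈ U) (h : Module.finrank ℝ U < L.length) : mono L = 0 := by
  have h1 : mono L = ExteriorAlgebra.ιMulti ℝ L.length (fun i => L.get i) := by
    rw [ExteriorAlgebra.ιMulti_apply]
    rw [mono]
    congr 1
    conv_lhs => rw [← List.ofFn_get L]
    rw [List.map_ofFn]
    rfl
  rw [h1]
  refine AlternatingMap.map_linearDependent _ _ ?_
  intro hli
  -- the family lies in U
  let v : Fin L.length → U := fun i => ⟨L.get i, hL _ (List.get_mem L i)⟩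
  have hv : LinearIndependent ℝ v := by
    refine LinearIndependent.of_comp U.subtype ?_
    exact hli
  have := hv.fintype_card_le_finrank
  simp only [Fintype.card_fin] at this
  omega

/-- the counting function of the Pauli lemma:
`paul r p q m = ∑_{i ≤ r} C(m,i) p^i q^(m-i)` -/
def paul (r : ℕ) (p q : ℝ≥0∞) (m : ℕ) : ℝ≥0∞ :=
  ∑ i ∈ Finset.range (m + 1), if i ≤ r then (m.choose i : ℝ≥0∞) * (p ^ i * q ^ (m - i)) else 0

/-- **Pauli lemma** on monomials: `P` of rank at most `r`, `w'(P l) ≤ p w(l)`,
`w'(l - P l) ≤ q w(l)` -/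
theorem pnorm_mono_pauli (P : V →ₗ[ℝ] V) (r : ℕ) [FiniteDimensional ℝ (LinearMap.range P)]
    (hr : Module.finrank ℝ (LinearMap.range P) ≤ r) {w w' : V → ℝ≥0∞} {p q : ℝ≥0∞}
    (hp : ∀ l, w' (P l) ≤ p * w l) (hq : ∀ l, w' (l - P l) ≤ q * w l) (L : List V) :
    pnorm w' (mono L) ≤ paul r p q L.length * mwt w L := by
  have h0 : mono L = mp (P + (LinearMap.id - P)) (mono L) := by
    have : P + (LinearMap.id - P) = LinearMap.id := by abel
    rw [this, mp_mono]
    simp
  rw [h0, mp_add_mono]
  have hA : ∀ A : List V, mwt w' (A.map P) ≤ p ^ A.length * mwt w A := by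
    intro A
    induction A with
    | nil => simp
    | cons x A ih =>
      rw [List.map_cons, mwt_cons, mwt_cons, List.length_cons, pow_succ]
      calc w' (P x) * mwt w' (A.map P) ≤ (p * w x) * (p ^ A.length * mwt w A) :=
            mul_le_mul' (hp x) ih
        _ = _ := by ring
  have hB : ∀ B : List V, mwt w' (B.map (LinearMap.id - P : V →ₗ[ℝ] V)) ≤
      q ^ B.length * mwt w B := by
    intro A
    induction A with
    | nil => simp
    | cons x A ih =>
      rw [List.map_cons, mwt_cons, mwt_cons, List.length_cons, pow_succ]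
      calc w' ((LinearMap.id - P : V →ₗ[ℝ] V) x) * mwt w' (A.map (LinearMap.id - P : V →ₗ[ℝ] V)) ≤
          (q * w x) * (q ^ A.length * mwt w A) :=
            mul_le_mul' (hq x) ih
        _ = _ := by ring
  refine ((pnorm_semi w').list_sum _).trans ?_
  rw [List.map_map]
  have hpaul : paul r p q L.length * mwt w L =
      ((splits L).map fun s => (if s.2.1.length ≤ r then
        p ^ s.2.1.length * q ^ (L.length - s.2.1.length) else 0) *
          (mwt w s.2.1 * mwt w s.2.2)).sum := by
    rw [sum_splits_mwt (fun i => if i ≤ r then p ^ i * q ^ (L.length - i) else 0)]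
    congr 1
    unfold paul
    refine Finset.sum_congr rfl fun i _ => ?_
    split_ifs <;> simp
  rw [hpaul]
  refine List.sum_le_sum fun s hs => ?_
  simp only [Function.comp]
  refine (pnorm_smul_le _ _ _).trans ?_
  rw [splits_sign L s hs, one_mul]
  by_cases hlen : s.2.1.length ≤ r
  · rw [if_pos hlen, ← mono_append]
    refine (pnorm_mono_le _ _).trans ?_
    rw [mwt_append]
    have hl : L.length - s.2.1.length = s.2.2.length := by
      have := splits_length L s hs; omega
    rw [hl]
    calc mwt w' (s.2.1.map P) * mwt w' (s.2.2.map (LinearMap.id - P : V →ₗ[ℝ] V)) ≤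
        (p ^ s.2.1.length * mwt w s.2.1) * (q ^ s.2.2.length * mwt w s.2.2) :=
          mul_le_mul' (hA _) (hB _)
      _ = _ := by ring
  · rw [if_neg hlen, zero_mul]
    have hz : mono (s.2.1.map P) = 0 := by
      refine mono_eq_zero_of_rank (LinearMap.range P) _ (fun l hl => ?_) ?_
      · obtain ⟨y, _, rfl⟩ := List.mem_map.1 hl
        exact LinearMap.mem_range_self P y
      · rw [List.length_map]; omega
    rw [hz, zero_mul, pnorm_zero]

theorem paul_ne_top {r : ℕ} {p q : ℝ≥0∞} (hp : p ≠ ∞) (hq : q ≠ ∞) (m : ℕ) :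
    paul r p q m ≠ ∞ := by
  unfold paul
  refine ENNReal.sum_ne_top.2 fun i _ => ?_
  split_ifs
  · exact ENNReal.mul_ne_top (ENNReal.natCast_ne_top _)
      (ENNReal.mul_ne_top (ENNReal.pow_ne_top hp) (ENNReal.pow_ne_top hq))
  · exact ENNReal.zero_ne_top

/-- **Pauli lemma**: sum over the degrees -/
theorem pnorm_pauli (P : V →ₗ[ℝ] V) (r : ℕ) [FiniteDimensional ℝ (LinearMap.range P)]
    (hr : Module.finrank ℝ (LinearMap.range P) ≤ r) {w w' : V → ℝ≥0∞} {p q : ℝ≥0∞}
    (hpt : p ≠ ∞) (hqt : q ≠ ∞)
    (hp : ∀ l, w' (P l) ≤ p * w l) (hq : ∀ l, w' (l - P l) ≤ q * w l) {F : Gr V}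
    (hF : pnorm w F ≠ ∞) :
    pnorm w' F ≤ ∑' m, paul r p q m * pnorm w (hom m F) :=
  bound_deg (pnorm_semi w') LinearMap.id (fun m => paul_ne_top hpt hqt m)
    (fun L _ => pnorm_mono_pauli P r hr hp hq L) hF

/-! ### components of the Gaussian convolution -/

theorem hom_conv_mono (S : Cov V) (m : ℕ) (L : List V) :
    hom m (conv S (mono L)) =
      ((splits L).map fun s => if s.2.1.length = m then
        s.1 • (EE S (mono s.2.2) • mono s.2.1) else 0).sum := by
  rw [conv_mono, map_list_sum, List.map_map]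
  refine congrArg List.sum (List.map_congr_left fun s _ => ?_)
  simp only [Function.comp, map_smul, hom_mono]
  split_ifs <;> simp

/-- the Gaussian convolution lowers the degree -/
theorem hom_conv_eq_zero (S : Cov V) (m : ℕ) (F : Gr V) (h : ∀ n, m ≤ n → hom n F = 0) :
    hom m (conv S F) = 0 := by
  obtain ⟨s, hs, hF⟩ := exists_sum_hom F
  have key : ∀ n < m, ∀ F : Gr V, hom m (conv S (hom n F)) = 0 := by
    intro n hn F
    have := linear_ext (S := hom m ∘ₗ conv S ∘ₗ hom n) (T := 0) (fun L => by
      simp only [LinearMap.comp_apply, LinearMap.zero_apply, hom_mono]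
      split_ifs with h'
      · rw [hom_conv_mono]
        refine List.sum_eq_zero fun x hx => ?_
        obtain ⟨t, ht, rfl⟩ := List.mem_map.1 hx
        have := splits_length L t ht
        rw [if_neg (by omega)]
      · simp) F
    exact this
  rw [hF, map_sum, map_sum]
  refine Finset.sum_eq_zero fun n _ => ?_
  by_cases hn : n < m
  · exact key n hn F
  · rw [h n (not_lt.1 hn)]; simp

/-- combined bound on monomials: the degree `m` part of the convolution, measured with any
extended seminorm `N` with `N (mono A) ≤ κ * mwt w A` for `|A| = m`. -/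
theorem semi_hom_conv_mono_le {N : Gr V → ℝ≥0∞} (hN : ESemi N) {S : Cov V} {g w : V → ℝ≥0∞}
    (hg : Gram S g) {a κ : ℝ≥0∞} (ha : ∀ l, g l ≤ a * w l) {m : ℕ}
    (hκ : ∀ A : List V, A.length = m → N (mono A) ≤ κ * mwt w A) (L : List V) :
    N (hom m (conv S (mono L))) ≤
      (L.length.choose m : ℝ≥0∞) * a ^ (L.length - m) * κ * mwt w L := by
  rw [hom_conv_mono]
  refine (hN.list_sum _).trans ?_
  rw [List.map_map]
  have h1 : (L.length.choose m : ℝ≥0∞) * a ^ (L.length - m) * κ * mwt w L =
      ((splits L).map fun s => (if s.2.1.length = m then a ^ (L.length - m) * κ else 0) *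
          (mwt w s.2.1 * mwt w s.2.2)).sum := by
    rw [sum_splits_mwt (fun i => if i = m then a ^ (L.length - m) * κ else 0)]
    congr 1
    by_cases hm : m ≤ L.length
    · rw [Finset.sum_eq_single m]
      · simp [mul_assoc]
      · intro b _ hb; simp [hb]
      · intro hm'; exact absurd (Finset.mem_range.2 (by omega)) hm'
    · rw [Nat.choose_eq_zero_of_lt (by omega)]
      rw [Finset.sum_eq_zero]
      · simp
      · intro i hi
        have := Finset.mem_range.1 hi
        rw [if_neg (by omega), mul_zero]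
  rw [h1]
  refine List.sum_le_sum fun s hs => ?_
  simp only [Function.comp]
  split_ifs with hm
  · refine (hN.smul _ _).trans ?_
    rw [splits_sign L s hs, one_mul]
    refine (hN.smul _ _).trans ?_
    have hB : ‖EE S (mono s.2.2)‖ₑ ≤ a ^ (L.length - m) * mwt w s.2.2 := by
      have hl : L.length - m = s.2.2.length := by
        have := splits_length L s hs; omega
      rw [hl, ← mwt_const_mul]
      exact (hg _).trans (mwt_mono ha _)
    calc ‖EE S (mono s.2.2)‖ₑ * N (mono s.2.1) ≤
        (a ^ (L.length - m) * mwt w s.2.2) * (κ * mwt w s.2.1) := mul_le_mul' hB (hκ _ hm)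
      _ = _ := by ring
  · simp [hN.zero]

/-- **degree `m` part of the convolution** -/
theorem semi_hom_conv_le {N : Gr V → ℝ≥0∞} (hN : ESemi N) {S : Cov V} {g w : V → ℝ≥0∞}
    (hg : Gram S g) {a κ : ℝ≥0∞} (hat : a ≠ ∞) (hκt : κ ≠ ∞) (ha : ∀ l, g l ≤ a * w l) {m : ℕ}
    (hκ : ∀ A : List V, A.length = m → N (mono A) ≤ κ * mwt w A) {F : Gr V}
    (hF : pnorm w F ≠ ∞) :
    N (hom m (conv S F)) ≤
      ∑' n, (n.choose m : ℝ≥0∞) * a ^ (n - m) * κ * pnorm w (hom n F) :=
  bound_deg hN (hom m ∘ₗ conv S) (C := fun n => (n.choose m : ℝ≥0∞) * a ^ (n - m) * κ)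
    (fun n => ENNReal.mul_ne_top (ENNReal.mul_ne_top (ENNReal.natCast_ne_top _)
      (ENNReal.pow_ne_top hat)) hκt) (fun L _ => semi_hom_conv_mono_le hN hg ha hκ L) hF

end Crest.Agent.R165.PNormx417
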