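import Crest.Agent.R165.Lat_683
import Crest.Agent.R165.PNorm2_417
import Crest.Agent.R165.FRDPoly_439

/-!
# Row 165 (S0250), block G: frozen definitions of TEXT G v2 (note 1028)

* `CN G` : size function on the coordinate group (`ℤ`, `ZMod M`); `fd` = sup distance of faces
* `l2`, `nn` : test norms; `wt` : the LOCAL weight of a field at a face; `wU` : weight relative to a
  set of faces; `size` : `|U|_r`; `NK` : the norm of a family of activities
* `Qop`, `slop`, `Sop`, `Sker` : slices of the covariance as finite-range operators on `HE G → ℝ`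
* `Emb` : the background is plane (up to an isometry and a gauge) near a set of faces
-/

set_option autoImplicit false

noncomputable section

open scoped ENNReal
open Crest.Agent.R165.Gr0x606 Crest.Agent.R165.Latx683 Crest.Agent.R165.PNormx417

namespace Crest.Agent.R165.GDefx387

/-! ### distance on faces -/

/-- size function on the coordinate group -/
class CN (G : Type) [CommRing G] where
  /-- the size of a coordinate -/
  cn : G → ℕ
  cn_zero : cn 0 = 0
  cn_neg : ∀ a, cn (-a) = cn a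
  cn_add : ∀ a b, cn (a + b) ≤ cn a + cn b
  eq_zero : ∀ a, cn a = 0 → a = 0
  cn_one : cn 1 ≤ 1
  fin : ∀ r : ℕ, {a : G | cn a ≤ r}.Finite

export CN (cn)

instance : CN ℤ where
  cn a := a.natAbs
  cn_zero := rfl
  cn_neg a := Int.natAbs_neg a
  cn_add a b := Int.natAbs_add_le a b
  eq_zero a h := Int.natAbs_eq_zero.1 h
  cn_one := le_rfl
  fin r := by
    refine (Set.finite_Icc (-(r : ℤ)) r).subset fun a ha => ?_
    simp only [Set.mem_ofPred_eq] at ha
    simp only [Set.mem_Icc]
    omega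

section zmod

variable (M : ℕ) [NeZero M]

instance : CN (ZMod M) where
  cn a := a.valMinAbs.natAbs
  cn_zero := by simp
  cn_neg a := ZMod.natAbs_valMinAbs_neg a
  cn_add a b := ZMod.natAbs_valMinAbs_add_le a b |>.trans (Int.natAbs_add_le _ _)
  eq_zero a h := by
    have h1 : a.valMinAbs = 0 := Int.natAbs_eq_zero.1 h
    exact (ZMod.valMinAbs_eq_zero a).1 h1
  cn_one := by
    rcases Nat.lt_or_ge 1 M with h | h
    · have : Fact (1 < M) := ⟨h⟩
      have h1 : (1 : ZMod M) = ((1 : ℤ) : ZMod M) := by simp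
      have h2 := ZMod.valMinAbs_spec (1 : ZMod M) 1
      by_cases hM : M = 2
      · subst hM; decide
      · have : (1 : ZMod M).valMinAbs = 1 := h2.2 ⟨by simp, by constructor <;> push_cast <;> omega⟩
        rw [this]; decide
    · have : M = 1 := le_antisymm h (Nat.one_le_iff_ne_zero.2 (NeZero.ne M))
      subst this; decide
  fin r := Set.toFinite _

end zmod

section lattice

variable {G : Type} [CommRing G] [CN G]

/-- sup distance of faces -/
def fd (f f' : G × G) : ℕ := max (cn (f.1 - f'.1)) (cn (f.2 - f'.2))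

theorem cn_sub_comm (a b : G) : cn (a - b) = cn (b - a) := by
  rw [← CN.cn_neg (a - b), neg_sub]

@[simp] theorem fd_self (f : G × G) : fd f f = 0 := by simp [fd, CN.cn_zero]

theorem fd_comm (f f' : G × G) : fd f f' = fd f' f := by
  unfold fd
  rw [cn_sub_comm f.1, cn_sub_comm f.2]

theorem fd_triangle (f g h : G × G) : fd f h ≤ fd f g + fd g h := by
  unfold fd
  have h1 : cn (f.1 - h.1) ≤ cn (f.1 - g.1) + cn (g.1 - h.1) := by
    have := CN.cn_add (f.1 - g.1) (g.1 - h.1)
    rwa [sub_add_sub_cancel] at this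
  have h2 : cn (f.2 - h.2) ≤ cn (f.2 - g.2) + cn (g.2 - h.2) := by
    have := CN.cn_add (f.2 - g.2) (g.2 - h.2)
    rwa [sub_add_sub_cancel] at this
  omega

theorem eq_of_fd {f g : G × G} (h : fd f g = 0) : f = g := by
  unfold fd at h
  have h1 : cn (f.1 - g.1) = 0 := by omega
  have h2 : cn (f.2 - g.2) = 0 := by omega
  exact Prod.ext (sub_eq_zero.1 (CN.eq_zero _ h1)) (sub_eq_zero.1 (CN.eq_zero _ h2))

/-- ball of faces -/
def ball (x : G × G) (r : ℕ) : Set (G × G) := {f | fd x f ≤ r}

theorem mem_ball {x f : G × G} {r : ℕ} : f ∈ ball x r ↔ fd x f ≤ r := Iff.rfl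

theorem ball_finite (x : G × G) (r : ℕ) : (ball x r).Finite := by
  have h := (CN.fin (G := G) r).prod (CN.fin (G := G) r)
  refine ((h.image fun p => (x.1 - p.1, x.2 - p.2))).subset fun f hf => ?_
  rw [mem_ball, fd] at hf
  exact ⟨(x.1 - f.1, x.2 - f.2), ⟨by simp only [Set.mem_ofPred_eq]; omega,
    by simp only [Set.mem_ofPred_eq]; omega⟩, by simp⟩

/-- the test function lives on the faces of `Z` -/
def SuppF (Z : Set (G × G)) (f : HE G → ℝ) : Prop := ∀ h, f h ≠ 0 → h.1 ∈ Z

/-- the field lives on the faces of `Z` -/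
def SuppL (Z : Set (G × G)) (l : Fld G) : Prop := ∀ h, l h ≠ 0 → h.1 ∈ Z

/-- pairing of a field with a test function -/
def pair (l : Fld G) (f : HE G → ℝ) : ℝ := l.sum fun h c => c * f h

/-- Euclidean norm -/
def l2 (f : HE G → ℝ) : ℝ := Real.sqrt (∑' h, f h ^ 2)

/-- number of derivatives in the test norm -/
def MM : ℕ := 6

/-- radius (in units of the scale) of the supports of atoms -/
def s0 : ℕ := 8

/-- radius (in units of the scale) of the balls on which test functions are measured -/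
def s1 : ℕ := 64

/-- radius (in units of the scale) of the region in which a background must be plane -/
def s2 : ℕ := 128

/-- global test norm at scale `r` -/
def nn (w : BW G) (r : ℕ) (f : HE G → ℝ) : ℝ :=
  ∑ n ∈ Finset.range (MM + 1), (r : ℝ) ^ n * l2 ((Aop w)^[n] f)

open Classical in
/-- restriction of a test function to the faces of `Z` -/
def restr (Z : Set (G × G)) (f : HE G → ℝ) : HE G → ℝ := fun h => if h.1 ∈ Z then f h else 0

/-- **local test seminorm** at scale `r` around `x` (no cut-off of `f`: only the norms of `Aⁿ f`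
are restricted to the ball) -/
def nnB (w : BW G) (r : ℕ) (x : G × G) (f : HE G → ℝ) : ℝ :=
  ∑ n ∈ Finset.range (MM + 1), (r : ℝ) ^ n * l2 (restr (ball x (s1 * r)) ((Aop w)^[n] f))

/-- **local weight** of the field `l` at the face `x`, scale `r`, amplitude `a` -/
def wt (w : BW G) (a : ℝ) (r : ℕ) (x : G × G) (l : Fld G) : ℝ≥0∞ :=
  ENNReal.ofReal (a * Real.sqrt r) *
    ⨆ f : {f : HE G → ℝ // nnB w r x f ≤ 1}, ENNReal.ofReal |pair l f.1|

/-- the operator `P` maps atoms at `x`, scale `r`, to atoms at `x'`, scale `r'`, with factor `q` -/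
def WLe (w : BW G) (a a' : ℝ) (r r' : ℕ) (x x' : G × G) (P : Fld G →ₗ[ℝ] Fld G) (q : ℝ≥0∞) : Prop :=
  ∀ l, SuppL (ball x (s0 * r)) l →
    SuppL (ball x' (s0 * r')) (P l) ∧ wt w a' r' x' (P l) ≤ q * wt w a r x l

open Classical in
/-- weight of an atom relative to a set of faces; `∞` = not allowed -/
def wU (w : BW G) (a : ℝ) (r : ℕ) (U : Finset (G × G)) (l : Fld G) : ℝ≥0∞ :=
  ⨅ x ∈ U, if SuppL (ball x (s0 * r)) l then wt w a r x l else ∞

theorem wU_anti (w : BW G) (a : ℝ) (r : ℕ) {U U' : Finset (G × G)} (h : U ⊆ U') (l : Fld G) :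
    wU w a r U' l ≤ wU w a r U l := by
  classical
  unfold wU
  exact le_iInf₂ fun x hx => iInf₂_le x (h hx)

open Classical in
/-- `|U|_r`: maximal number of points of `U` at pairwise distance `> r` -/
def size (r : ℕ) (U : Finset (G × G)) : ℕ :=
  (U.powerset.filter fun P => ∀ a ∈ P, ∀ b ∈ P, a ≠ b → r < fd a b).sup Finset.card

/-- `U` comes within distance `r` of `f` -/
def Near (r : ℕ) (f : G × G) (U : Finset (G × G)) : Prop := ∃ u ∈ U, fd f u ≤ r

open Classical in
/-- norm of a family of activities restricted to the sets with property `p` -/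
def NK (w : BW G) (a : ℝ) (r : ℕ) (Γ : ℝ≥0∞) (p : Finset (G × G) → Prop)
    (K : Finset (G × G) → Gr (Fld G)) : ℝ≥0∞ :=
  ⨆ f : G × G, ∑' U : Finset (G × G),
    if Near r f U ∧ p U then Γ ^ size r U * pnorm (wU w a r U) (K U) else 0

/-- touching at range `R` -/
def touch (R : ℕ) (U U' : Finset (G × G)) : Prop := ∃ u ∈ U, ∃ u' ∈ U', fd u u' ≤ R

/-! ### slices -/

/-- `Q = -A²` -/
def Qop (w : BW G) : Module.End ℝ (HE G → ℝ) := -(Aop w * Aop w : Module.End ℝ (HE G → ℝ))

/-- `A w_j(Q)` -/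
def slop (w : BW G) (p : Polynomial ℝ) : Module.End ℝ (HE G → ℝ) :=
  (Aop w : Module.End ℝ (HE G → ℝ)) * Polynomial.aeval (Qop w) p

/-- sum of the slices `a ≤ j < b` -/
def Sop (w : BW G) {Λ : ℝ} {M K : ℕ} (D : Crest.Agent.R165.FRDPolyx439.FRD Λ M K) (a b : ℕ) :
    Module.End ℝ (HE G → ℝ) := ∑ j ∈ Finset.Ico a b, slop w (D.w j)

/-- kernel of an operator -/
def ker (T : Module.End ℝ (HE G → ℝ)) [DecidableEq G] (h h' : HE G) : ℝ :=
  T (Pi.single h' 1) h

/-! ### plane-like regions -/

/-- the region `Z` of the background `w` is plane: isometric translation-type chart `τ` and gauge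
`s`, all bonds between neighbouring faces of `Z` carry `s s' x_c` -/
structure PlaneLike (w : BW G) (Z : Set (G × G)) where
  /-- chart -/
  τ : G × G → ℤ × ℤ
  /-- gauge -/
  s : G × G → ℝ
  sq : ∀ f, s f * s f = 1
  iso : ∀ f ∈ Z, ∀ g ∈ Z, fd (τ f) (τ g) = fd f g
  e1 : ∀ f ∈ Z, (f.1 + 1, f.2) ∈ Z → τ (f.1 + 1, f.2) = ((τ f).1 + 1, (τ f).2)
  e2 : ∀ f ∈ Z, (f.1, f.2 + 1) ∈ Z → τ (f.1, f.2 + 1) = ((τ f).1, (τ f).2 + 1)
  wE : ∀ f ∈ Z, (f.1 + 1, f.2) ∈ Z → yE w f = s f * s (f.1 + 1, f.2) * xc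
  wN : ∀ f ∈ Z, (f.1, f.2 + 1) ∈ Z → yN w f = s f * s (f.1, f.2 + 1) * xc

/-- faces within distance `r` of `U` -/
def nbhd (r : ℕ) (U : Finset (G × G)) : Set (G × G) := {f | ∃ u ∈ U, fd u f ≤ r}

/-- the background is plane around `U` at scale `r` -/
def Emb (w : BW G) (r : ℕ) (U : Finset (G × G)) : Prop := Nonempty (PlaneLike w (nbhd (s2 * r) U))

end lattice

end Crest.Agent.R165.GDefx387
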