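import Crest.Agent.R165.GLin_336
import Crest.Agent.R165.GDef_387

/-!
# Row 165 (S0250), block G: per-polymer linear factors on the frozen definitions (helper336)

Instances of `GLin_336` for the local weights `wt`, `wU` of `GDef_387`.  The hypotheses are in the
form `WLe w a a' r r' x x' P q` (one inequality per centre `x` of a leg):

* `W0`          : the Gram weight is `≤ ε` times the new local weight (so `≤ ε wU`);
* `defect_small`: small polymer near the boundary or a branch point, one rank-one projection;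
* `cluster_small`: small polymer, all legs decay by `p`;
* `any_large`   : any polymer, legs typed by the position of their centre: factor
  `(1 + 2 (1+ε) p) ^ (number of branch points near U)`;
* `large_gain`  : the same with the `Γ` weights: factor `a²/Γ`.
-/

set_option autoImplicit false
set_option linter.unusedSectionVars false

noncomputable section

namespace Crest.Agent.R165.GLinx336

open Crest.Agent.R165.Gr0x606 Crest.Agent.R165.PNormx417 Crest.Agent.R165.Packx915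
open Crest.Agent.R165.Latx683 Crest.Agent.R165.GDefx387
open scoped ENNReal Classical

/-! ### large polymers, typed by the centre of the leg -/

section abstract_typed

variable {X V : Type*} [AddCommGroup V] [Module ℝ V]
variable {In In' : V → X → Prop} {wt wt' : X → V → ℝ≥0∞} {U U' : Finset X}

/-- **any polymer**, legs typed by the position of their centre: `ty x = none` away from the branch
points, `ty x = some i` near the branch point `i`. -/
theorem typed_centre {S : Cov V} {g : V → ℝ≥0∞} (hg : Gram S g) {ι : Type*} (s : Finset ι)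
    (ty : X → Option ι) (P : ι → V →ₗ[ℝ] V)
    (hfin : ∀ i, FiniteDimensional ℝ (LinearMap.range (P i)))
    (hr : ∀ i, Module.finrank ℝ (LinearMap.range (P i)) ≤ 1)
    {ε p q : ℝ≥0∞} (hgw : ∀ l, g l ≤ ε * wU In' wt' U l) (hεt : ε ≠ ∞) (hpt : p ≠ ∞)
    (hq4 : (1 + ε) * q ≤ 1 / 4) (hqp : q ≤ p) {p0 : ℝ≥0∞} (hp0 : (1 + ε) * p0 ≤ 1)
    (hw0 : ∀ l, ∀ x ∈ U, In l x → wt x l = 0 → l = 0)
    (hs : ∀ x ∈ U, ∀ i, ty x = some i → i ∈ s)
    (h0 : ∀ x ∈ U, ty x = none → ∀ l, In l x → ∃ x' ∈ U, In' l x' ∧ wt' x' l ≤ p0 * wt x l)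
    (hp : ∀ x ∈ U, ∀ i, ty x = some i → ∀ l, In l x →
      ∃ x' ∈ U, In' (P i l) x' ∧ wt' x' (P i l) ≤ p * wt x l)
    (hq : ∀ x ∈ U, ∀ i, ty x = some i → ∀ l, In l x →
      ∃ x' ∈ U, In' (l - P i l) x' ∧ wt' x' (l - P i l) ≤ q * wt x l)
    {K : Gr V} (hK : pnorm (wU In wt U) K ≠ ∞) :
    pnorm (wU In' wt' U) (conv S K) ≤
      (1 + 2 * ((1 + ε) * p)) ^ s.card * pnorm (wU In wt U) K := by
  -- the centre of a leg: a minimiser
  have hex : ∀ l, wU In wt U l ≠ ∞ → ∃ x ∈ U, In l x ∧ wU In wt U l = wt x l := fun l hl =>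
    (wU_cases In wt U l).resolve_left hl
  have hc : (1 + 2 * ((1 + ε) * p)) ≠ ∞ := ENNReal.add_ne_top.2 ⟨ENNReal.one_ne_top,
    ENNReal.mul_ne_top (by norm_num) (ENNReal.mul_ne_top
      (ENNReal.add_ne_top.2 ⟨ENNReal.one_ne_top, hεt⟩) hpt)⟩
  let c : V → Option X := fun l => if h : wU In wt U l ≠ ∞ then some (hex l h).choose else none
  have hcs : ∀ l, wU In wt U l ≠ ∞ → ∃ x ∈ U, In l x ∧ wU In wt U l = wt x l ∧ c l = some x := by
    intro l hl
    refine ⟨(hex l hl).choose, (hex l hl).choose_spec.1, (hex l hl).choose_spec.2.1,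
      (hex l hl).choose_spec.2.2, ?_⟩
    simp only [c, dif_pos hl]
  have h := typed_step (S := S) (g := g) hg (ty := fun l => (c l).bind ty) P hfin (fun _ => 1) hr
    (w := wU In wt U) (w' := wU In' wt' U) (p := fun _ => (1 + ε) * p) (q := fun _ => (1 + ε) * q)
    (c := fun _ => 1 + 2 * ((1 + ε) * p)) (fun _ => hc) s
    (fun _ _ n => paul_one_le_all hq4 (by gcongr) n)
    (fun l hl => by
      rcases wU_cases In wt U l with h' | ⟨x, hx, hl', he⟩
      · rw [hl] at h'; exact absurd h' (by simp)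
      · exact hw0 l x hx hl' (he ▸ hl))
    (fun l hl hty => by
      obtain ⟨x, hx, hlx, he, hcl⟩ := hcs l hl
      have hty' : ty x = none := by simpa [hcl] using hty
      obtain ⟨x', hx', hlx', hle⟩ := h0 x hx hty' l hlx
      have h1 : wU In' wt' U l ≤ p0 * wU In wt U l := by
        rw [he]; exact (wU_le hx' hlx').trans hle
      calc wU In' wt' U l + g l ≤ (1 + ε) * p0 * wU In wt U l := add_gram_le hgw h1
        _ ≤ wU In wt U l := mul_le_of_le_one_left zero_le hp0)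
    (fun l hl i hty => by
      obtain ⟨x, hx, hlx, he, hcl⟩ := hcs l hl
      have hty' : ty x = some i := by simpa [hcl] using hty
      refine ⟨hs x hx i hty', ?_, ?_⟩
      · obtain ⟨x', hx', hlx', hle⟩ := hp x hx i hty' l hlx
        exact add_gram_le hgw (by rw [he]; exact (wU_le hx' hlx').trans hle)
      · obtain ⟨x', hx', hlx', hle⟩ := hq x hx i hty' l hlx
        exact add_gram_le hgw (by rw [he]; exact (wU_le hx' hlx').trans hle))
    hK
  simpa using h

end abstract_typed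

/-! ### instances on `GDef_387` -/

variable {G : Type} [CommRing G] [CN G]

theorem fd_PD : PD (fd : G × G → G × G → ℕ) := ⟨fd_self, fd_comm, fd_triangle⟩

theorem size_eq_pack (r : ℕ) (U : Finset (G × G)) : size r U = pack fd r U := by
  unfold size pack
  congr 1
  exact Finset.filter_congr fun x _ => Iff.rfl

/-- `wU` of `GDef_387` is the abstract one -/
theorem wU_eq (w : BW G) (a : ℝ) (r : ℕ) (U : Finset (G × G)) (l : Fld G) :
    GDefx387.wU w a r U l = wU (fun l x => SuppL (ball x (s0 * r)) l) (GDefx387.wt w a r) U l := by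
  refine le_antisymm ?_ ?_
  · refine le_wU fun x hx hl => ?_
    refine (iInf₂_le x hx).trans ?_
    rw [if_pos hl]
  · refine le_iInf₂ fun x hx => ?_
    split_ifs with hl
    · exact wU_le hx hl
    · exact le_top

theorem wU_eq' (w : BW G) (a : ℝ) (r : ℕ) (U : Finset (G × G)) :
    GDefx387.wU w a r U = wU (fun l x => SuppL (ball x (s0 * r)) l) (GDefx387.wt w a r) U :=
  funext (wU_eq w a r U)

/-- (W0), consumer form: the Gram weight is dominated by `ε` times the new local weight -/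
def W0 (w : BW G) (g : Fld G → ℝ≥0∞) (a' : ℝ) (r' : ℕ) (ε : ℝ≥0∞) (U : Finset (G × G)) : Prop :=
  ∀ x ∈ U, ∀ l, SuppL (ball x (s0 * r')) l → g l ≤ ε * GDefx387.wt w a' r' x l

theorem W0.wU {w : BW G} {g : Fld G → ℝ≥0∞} {a' : ℝ} {r' : ℕ} {ε : ℝ≥0∞} {U : Finset (G × G)}
    (h : W0 w g a' r' ε U) (hε : ε ≠ 0) (l : Fld G) :
    g l ≤ ε * GLinx336.wU (fun l x => SuppL (ball x (s0 * r')) l) (GDefx387.wt w a' r') U l := by
  rcases wU_cases (fun l x => SuppL (ball x (s0 * r')) l) (GDefx387.wt w a' r') U l with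
    h' | ⟨x, hx, hl, he⟩
  · rw [h', ENNReal.mul_top hε]; exact le_top
  · rw [he]; exact h x hx l hl

variable {w : BW G} {a a' : ℝ} {r r' : ℕ} {U : Finset (G × G)} {S : Cov (Fld G)}
  {g : Fld G → ℝ≥0∞}

/-- **small polymer near the boundary or near a branch point**: one rank-one projection `P` for all
the legs, `z ∈ U` arbitrary. -/
theorem defect_small (hg : Gram S g) (P : Fld G →ₗ[ℝ] Fld G)
    (hfin : FiniteDimensional ℝ (LinearMap.range P))
    (hr : Module.finrank ℝ (LinearMap.range P) ≤ 1) {ε p q : ℝ≥0∞} (h0 : W0 w g a' r' ε U)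
    (hε : ε ≠ 0) (hεt : ε ≠ ∞) (hpt : p ≠ ∞) (hq0 : q ≠ 0) (hq4 : (1 + ε) * q ≤ 1 / 4)
    (hqp : q ≤ p)
    (hp : ∀ x ∈ U, ∃ x' ∈ U, WLe w a a' r r' x x' P p)
    (hq : ∀ x ∈ U, ∃ x' ∈ U, WLe w a a' r r' x x' (LinearMap.id - P) q)
    {K : Gr (Fld G)} (hev : IsEv K) (hK : pnorm (GDefx387.wU w a r U) K ≠ ∞) :
    pnorm (GDefx387.wU w a' r' U) (noct (conv S K)) ≤
      3 * (((1 + ε) * p) * ((1 + ε) * q)) * pnorm (GDefx387.wU w a r U) K := by
  rw [wU_eq'] at hK
  rw [wU_eq', wU_eq']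
  refine small_oneMode hg P hr (fun l => h0.wU hε l) hεt hpt hq0 hq4 hqp ?_ ?_ hev hK
  · intro l x hx hl
    obtain ⟨x', hx', h⟩ := hp x hx
    exact ⟨x', hx', h l hl⟩
  · intro l x hx hl
    obtain ⟨x', hx', h⟩ := hq x hx
    exact ⟨x', hx', h l hl⟩

/-- **small polymer all of whose legs decay** (cluster) -/
theorem cluster_small (hg : Gram S g) {ε p : ℝ≥0∞} (h0 : W0 w g a' r' ε U) (hε : ε ≠ 0)
    (hp0 : p ≠ 0) (hp1 : (1 + ε) * p ≤ 1)
    (hp : ∀ x ∈ U, ∃ x' ∈ U, WLe w a a' r r' x x' LinearMap.id p)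
    {K : Gr (Fld G)} (hev : IsEv K) (hK : pnorm (GDefx387.wU w a r U) K ≠ ∞) :
    pnorm (GDefx387.wU w a' r' U) (noct (conv S K)) ≤
      ((1 + ε) * p) ^ 2 * pnorm (GDefx387.wU w a r U) K := by
  rw [wU_eq'] at hK
  rw [wU_eq', wU_eq']
  refine decay hg (fun l => h0.wU hε l) hp1 (fun l => wU_map (T := id) hp0 ?_ l) hev hK
  intro l x hx hl
  obtain ⟨x', hx', h⟩ := hp x hx
  exact ⟨x', hx', h l hl⟩

/-- **no growth**: all legs away from the branch points -/
theorem any_small (hg : Gram S g) {ε p : ℝ≥0∞} (h0 : W0 w g a' r' ε U) (hε : ε ≠ 0)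
    (hp0 : p ≠ 0) (hp1 : (1 + ε) * p ≤ 1)
    (hp : ∀ x ∈ U, ∃ x' ∈ U, WLe w a a' r r' x x' LinearMap.id p) (K : Gr (Fld G)) :
    pnorm (GDefx387.wU w a' r' U) (conv S K) ≤ pnorm (GDefx387.wU w a r U) K := by
  rw [wU_eq', wU_eq']
  refine any_decay hg (fun l => h0.wU hε l) hp1 (fun l => wU_map (T := id) hp0 ?_ l) K
  intro l x hx hl
  obtain ⟨x', hx', h⟩ := hp x hx
  exact ⟨x', hx', h l hl⟩

/-- the local weights are definite: `wt x l = 0` only for `l = 0` -/
theorem wt_eq_zero {x : G × G} {l : Fld G} (ha : 0 < a) (hr : 0 < r)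
    (h : GDefx387.wt w a r x l = 0) : l = 0 := by
  unfold GDefx387.wt at h
  rw [mul_eq_zero] at h
  rcases h with h | h
  · exfalso
    rw [ENNReal.ofReal_eq_zero] at h
    have : 0 < a * Real.sqrt r := mul_pos ha (Real.sqrt_pos.2 (by exact_mod_cast hr))
    linarith
  · rw [ENNReal.iSup_eq_zero] at h
    ext h'
    by_contra hne
    -- the test function `c δ_{h'}`
    set e : HE G → ℝ := Pi.single h' 1 with he
    have hn0 : 0 ≤ nnB w r x e := by
      unfold nnB
      exact Finset.sum_nonneg fun n _ => mul_nonneg (by positivity) (Real.sqrt_nonneg _)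
    set c : ℝ := (1 + nnB w r x e)⁻¹ with hc
    have hc0 : 0 < c := by rw [hc]; positivity
    have hsmul : nnB w r x (c • e) = c * nnB w r x e := by
      unfold nnB
      rw [Finset.mul_sum]
      refine Finset.sum_congr rfl fun n _ => ?_
      have h1 : (Aop w)^[n] (c • e) = c • (Aop w)^[n] e := by
        rw [← Module.End.coe_pow, map_smul]
      have h2 : ∀ (Z : Set (G × G)) (u : HE G → ℝ), restr Z (c • u) = c • restr Z u := by
        intro Z u
        funext k
        simp only [restr, Pi.smul_apply, smul_eq_mul]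
        split_ifs <;> simp
      have h3 : ∀ u : HE G → ℝ, l2 (c • u) = c * l2 u := by
        intro u
        unfold l2
        have : ∀ k, (c • u) k ^ 2 = c ^ 2 * u k ^ 2 := fun k => by
          simp only [Pi.smul_apply, smul_eq_mul]; ring
        simp only [this]
        rw [tsum_mul_left, Real.sqrt_mul (sq_nonneg c), Real.sqrt_sq hc0.le]
      rw [h1, h2, h3]
      ring
    have hle : nnB w r x (c • e) ≤ 1 := by
      rw [hsmul, hc, inv_mul_le_iff₀ (by positivity)]
      linarith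
    have h1 := h ⟨c • e, hle⟩
    rw [ENNReal.ofReal_eq_zero] at h1
    have h2 : pair l (c • e) = c * l h' := by
      unfold pair
      rw [Finsupp.sum]
      have h3 : ∀ k ∈ l.support, l k * (c • e) k = if k = h' then c * l h' else 0 := by
        intro k _
        simp only [he, Pi.smul_apply, smul_eq_mul]
        split_ifs with hk
        · subst hk; simp; ring
        · simp [hk]
      rw [Finset.sum_congr rfl h3, Finset.sum_ite_eq' l.support h']
      rw [if_pos (Finsupp.mem_support_iff.2 hne)]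
    have h4 : |pair l (c • e)| = 0 := le_antisymm h1 (abs_nonneg _)
    rw [abs_eq_zero, h2] at h4
    rcases mul_eq_zero.1 h4 with h5 | h5
    · exact absurd h5 hc0.ne'
    · exact hne h5

/-- **any polymer**: legs typed by the position of their centre -/
theorem any_large (hg : Gram S g) {ι : Type*} (s : Finset ι) (ty : G × G → Option ι)
    (P : ι → Fld G →ₗ[ℝ] Fld G) (hfin : ∀ i, FiniteDimensional ℝ (LinearMap.range (P i)))
    (hr : ∀ i, Module.finrank ℝ (LinearMap.range (P i)) ≤ 1)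
    {ε p q p0 : ℝ≥0∞} (ha : 0 < a) (hrp : 0 < r) (h0 : W0 w g a' r' ε U) (hε : ε ≠ 0)
    (hεt : ε ≠ ∞) (hpt : p ≠ ∞) (hq4 : (1 + ε) * q ≤ 1 / 4) (hqp : q ≤ p)
    (hp0 : (1 + ε) * p0 ≤ 1) (hs : ∀ x ∈ U, ∀ i, ty x = some i → i ∈ s)
    (hfar : ∀ x ∈ U, ty x = none → ∃ x' ∈ U, WLe w a a' r r' x x' LinearMap.id p0)
    (hp : ∀ x ∈ U, ∀ i, ty x = some i → ∃ x' ∈ U, WLe w a a' r r' x x' (P i) p)
    (hq : ∀ x ∈ U, ∀ i, ty x = some i → ∃ x' ∈ U, WLe w a a' r r' x x' (LinearMap.id - P i) q)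
    {K : Gr (Fld G)} (hK : pnorm (GDefx387.wU w a r U) K ≠ ∞) :
    pnorm (GDefx387.wU w a' r' U) (conv S K) ≤
      (1 + 2 * ((1 + ε) * p)) ^ s.card * pnorm (GDefx387.wU w a r U) K := by
  rw [wU_eq'] at hK
  rw [wU_eq', wU_eq']
  refine typed_centre hg s ty P hfin hr (fun l => h0.wU hε l) hεt hpt hq4 hqp hp0
    (fun l x _ _ h => wt_eq_zero ha hrp h) hs ?_ ?_ ?_ hK
  · intro x hx hty l hl
    obtain ⟨x', hx', h⟩ := hfar x hx hty
    exact ⟨x', hx', h l hl⟩
  · intro x hx i hty l hl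
    obtain ⟨x', hx', h⟩ := hp x hx i hty
    exact ⟨x', hx', h l hl⟩
  · intro x hx i hty l hl
    obtain ⟨x', hx', h⟩ := hq x hx i hty
    exact ⟨x', hx', h l hl⟩

/-- **large polymers with the `Γ` weights**: `R`-connected, not small; `loc i` is the position of the
branch point `i`, `ty x = some i` only within distance `ρ` of it, branch points are
`> 2ρ + r` apart. -/
theorem large_gain (hg : Gram S g) {ι : Type*} [Fintype ι] (ty : G × G → Option ι)
    (loc : ι → G × G) {ρ R : ℕ} (P : ι → Fld G →ₗ[ℝ] Fld G)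
    (hfin : ∀ i, FiniteDimensional ℝ (LinearMap.range (P i)))
    (hr : ∀ i, Module.finrank ℝ (LinearMap.range (P i)) ≤ 1)
    {ε p q p0 Γ : ℝ≥0∞} (ha : 0 < a) (hrp : 0 < r) (h0 : W0 w g a' r' ε U) (hε : ε ≠ 0)
    (hεt : ε ≠ ∞) (hpt : p ≠ ∞) (hq4 : (1 + ε) * q ≤ 1 / 4) (hqp : q ≤ p)
    (hp0 : (1 + ε) * p0 ≤ 1) (hloc : ∀ x ∈ U, ∀ i, ty x = some i → fd x (loc i) ≤ ρ)
    (hsep : ∀ i j, i ≠ j → 2 * ρ + r < fd (loc i) (loc j))
    (hfar : ∀ x ∈ U, ty x = none → ∃ x' ∈ U, WLe w a a' r r' x x' LinearMap.id p0)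
    (hp : ∀ x ∈ U, ∀ i, ty x = some i → ∃ x' ∈ U, WLe w a a' r r' x x' (P i) p)
    (hq : ∀ x ∈ U, ∀ i, ty x = some i → ∃ x' ∈ U, WLe w a a' r r' x x' (LinearMap.id - P i) q)
    (hU : Packx915.Conn fd R U) (hR : 4 * R + 3 * r + 2 ≤ r') (h2 : 2 ≤ size r U)
    (hΓt : Γ ≠ ∞) (hΓ : (1 + 2 * ((1 + ε) * p)) ^ 2 ≤ Γ)
    {K : Gr (Fld G)} (hK : pnorm (GDefx387.wU w a r U) K ≠ ∞) :
    Γ ^ size r' U * pnorm (GDefx387.wU w a' r' U) (conv S K) ≤
      ((1 + 2 * ((1 + ε) * p)) ^ 2 * Γ⁻¹) * (Γ ^ size r U * pnorm (GDefx387.wU w a r U) K) := by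
  set s : Finset ι := Finset.univ.filter fun i => ∃ x ∈ U, ty x = some i with hs
  have hcard : s.card ≤ pack fd r U := by
    refine card_le_pack_of_near fd_PD s loc (ρ := ρ) (fun i hi => ?_)
      (fun i _ j _ hij => hsep i j hij)
    obtain ⟨x, hx, hty⟩ := (Finset.mem_filter.1 hi).2
    exact ⟨x, hx, hloc x hx i hty⟩
  rw [size_eq_pack] at h2 ⊢
  rw [size_eq_pack]
  refine large_weighted (d := fd) fd_PD hU hR h2 (a := 1 + 2 * ((1 + ε) * p)) le_self_add hΓt hΓ
    hcard ?_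
  exact any_large hg s ty P hfin hr ha hrp h0 hε hεt hpt hq4 hqp hp0
    (fun x hx i hty => Finset.mem_filter.2 ⟨Finset.mem_univ _, x, hx, hty⟩) hfar hp hq hK

end Crest.Agent.R165.GLinx336
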