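import Crest.Agent.R165.Bridge_915
import Crest.Agent.R165.DefStep_915

/-!
# Row 165, block G: the linear step of the defect norm on `GDef_387` (helper915)

`NK_defect_step` : `p` = defect polymers at the old scale, `p'` = defect polymers at the new scale.
-/

set_option autoImplicit false

open scoped ENNReal
open Crest.Agent.R165.Gr0x606 Crest.Agent.R165.Latx683 Crest.Agent.R165.PNormx417
open Crest.Agent.R165.GDefx387 Crest.Agent.R165.Packx915 Crest.Agent.R165.NSumx915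
open Crest.Agent.R165.Bridgex915 Crest.Agent.R165.DefStepx915

namespace Crest.Agent.R165.NKDefx915

variable {G : Type} [CommRing G] [CN G]

theorem NK_mono {w : BW G} {a : ℝ} {r : ℕ} {Γ : ℝ≥0∞} {p p' : Finset (G × G) → Prop}
    {K K' : Finset (G × G) → Gr (Fld G)}
    (h : ∀ U, p U → p' U ∧ pnorm (wU w a r U) (K U) ≤ pnorm (wU w a r U) (K' U)) :
    NK w a r Γ p K ≤ NK w a r Γ p' K' := by
  rw [NK_eq_NN, NK_eq_NN]
  refine NN_mono fun U => ?_
  by_cases hp : p U
  · rw [act_of hp, act_of (h U hp).1]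
    exact (h U hp).2
  · rw [act_not hp]
    exact zero_le

theorem NK_add_le (w : BW G) (a : ℝ) (r : ℕ) (Γ : ℝ≥0∞) (p : Finset (G × G) → Prop)
    (K K' : Finset (G × G) → Gr (Fld G)) :
    NK w a r Γ p (fun U => K U + K' U) ≤ NK w a r Γ p K + NK w a r Γ p K' := by
  rw [NK_eq_NN, NK_eq_NN, NK_eq_NN]
  refine le_trans (NN_mono fun U => ?_) (NN_add_le _ _)
  by_cases hp : p U
  · rw [act_of hp, act_of hp, act_of hp]
    exact pnorm_add_le _ _ _
  · rw [act_not hp]
    exact zero_le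

/-- splitting the polymers by a property -/
theorem NK_split (w : BW G) (a : ℝ) (r : ℕ) (Γ : ℝ≥0∞) (p q : Finset (G × G) → Prop)
    (K : Finset (G × G) → Gr (Fld G)) :
    NK w a r Γ p K ≤ NK w a r Γ (fun U => p U ∧ q U) K + NK w a r Γ (fun U => p U ∧ ¬ q U) K := by
  rw [NK_eq_NN, NK_eq_NN, NK_eq_NN]
  refine le_trans (NN_mono fun U => ?_) (NN_add_le _ _)
  by_cases hp : p U
  · by_cases hq : q U
    · rw [act_of hp, act_of (p := fun U => p U ∧ q U) ⟨hp, hq⟩]
      exact le_self_add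
    · rw [act_of hp, act_of (p := fun U => p U ∧ ¬ q U) ⟨hp, hq⟩]
      exact le_add_self
  · rw [act_not hp]
    exact zero_le

/-- **linear step of the defect norm.**  A defect polymer at the new scale is either an old defect
polymer of size `≥ 2` (gain `qL`), or an old plane-like polymer (source, factor `qT`), or an old
small defect polymer within `m i` of the defect set `A i` (gain `q i`). -/
theorem NK_defect_step [GoodG G] {w : BW G} {a a' : ℝ} {r r' : ℕ} {Γ : ℝ≥0∞} (hr : 0 < r)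
    (hrr : r ≤ r') {κ : Type*} [Fintype κ] (A : κ → Set (G × G)) (m N : κ → ℕ) (q : κ → ℝ≥0∞)
    (qL qT : ℝ≥0∞) (hN : ∀ i, DCount fd (A i) (r' + m i) r (N i))
    (p p' : Finset (G × G) → Prop) (K K' : Finset (G × G) → Gr (Fld G))
    (hcls : ∀ U, p' U → pnorm (wU w a' r' U) (K' U) ≠ 0 →
      (p U ∧ Γ ^ size r' U * pnorm (wU w a' r' U) (K' U) ≤
        qL * (Γ ^ size r U * pnorm (wU w a r U) (K U))) ∨
      (¬ p U ∧ Γ ^ size r' U * pnorm (wU w a' r' U) (K' U) ≤
        qT * (Γ ^ size r U * pnorm (wU w a r U) (K U))) ∨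
      ∃ i, p U ∧ U.Nonempty ∧ size r U ≤ 1 ∧ (∀ u ∈ U, ∃ x ∈ A i, fd u x ≤ m i) ∧
        pnorm (wU w a' r' U) (K' U) ≤ q i * pnorm (wU w a r U) (K U)) :
    NK w a' r' Γ p' K' ≤
      (qL * (((2 * (r' / r) + 3) ^ 2 : ℕ) : ℝ≥0∞) +
        ∑ i, q i * ((N i * (2 * ((m i + r) / r) + 3) ^ 2 : ℕ) : ℝ≥0∞)) * NK w a r Γ p K
      + qT * (((2 * (r' / r) + 3) ^ 2 : ℕ) : ℝ≥0∞) * NK w a r Γ (fun U => ¬ p U) K := by
  rw [NK_eq_NN, NK_eq_NN, NK_eq_NN]
  refine defect_step (d := fd) pd_fd A m N (fun i => (2 * ((m i + r) / r) + 3) ^ 2) q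
    ((2 * (r' / r) + 3) ^ 2) qL qT _ _ _ (cov_fd hr r') (fun i => cov_fd hr (m i + r)) hN ?_
  intro U hU
  have hp' : p' U := by
    by_contra hcon
    exact hU (act_not hcon)
  rw [act_of hp'] at hU ⊢
  simp only [← size_eq_pack]
  rcases hcls U hp' hU with ⟨h1, h2⟩ | ⟨h1, h2⟩ | ⟨i, h1, hne, h2, h3, h4⟩
  · left
    rw [act_of h1]
    exact h2
  · right; left
    rw [act_of (p := fun U => ¬ p U) h1]
    exact h2
  · right; right
    refine ⟨i, h3, ?_⟩
    rw [act_of h1, size_eq_pack, size_eq_pack]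
    rw [size_eq_pack] at h2
    rw [size_small hne h2 hrr]
    calc Γ ^ pack fd r U * pnorm (wU w a' r' U) (K' U)
        ≤ Γ ^ pack fd r U * (q i * pnorm (wU w a r U) (K U)) := mul_le_mul_right h4 _
      _ = q i * (Γ ^ pack fd r U * pnorm (wU w a r U) (K U)) := by ring

end Crest.Agent.R165.NKDefx915
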