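import Crest.Agent.R165.Wt_898
import Crest.Agent.R165.PlaneLoc_901

/-!
# Row 165 (S0250), block G2: the bulk weight inequalities (W2) (helper812)

`T0 y f`, `T1 y f`: constant and linear parts of a test function at the face `y` (with the local
functionals `phiA, phiB, qU, qV, qS, qT` of PlaneLoc_901).  `BkReg C`: the regularity input (bulk
Taylor expansion from the local test seminorm).  Output: `WLe` for `(md y).P0`, `(md y).P1` and
`id - (md y).P0 - (md y).P1` with the factors `(r/r')^j`, `j = 1, 2, 3`, times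
`a' √r' / (a √r)`.
-/

set_option autoImplicit false

noncomputable section

open scoped ENNReal
open Crest.Agent.R165.Gr0x606 Crest.Agent.R165.Latx683 Crest.Agent.R165.Locx901
  Crest.Agent.R165.PlaneModesx901 Crest.Agent.R165.PlaneLocx901 Crest.Agent.R165.GDefx387
  Crest.Agent.R165.Wtx898

namespace Crest.Agent.R165.W2x812

/-! ### duality between the projections on fields and on test functions -/

/-- the constant part of a test function at the face `y` -/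
def T0 (y : Fc) (f : Tst) : Tst := m0 (ev f (phiA y)) (ev f (phiB y))

/-- the linear part of a test function at the face `y` -/
def T1 (y : Fc) (f : Tst) : Tst := m1 y (ev f (qU y)) (ev f (qV y)) (ev f (qS y)) (ev f (qT y))

theorem pair_eq_ev (l : Fld ℤ) (f : Tst) : pair l f = ev f l := by
  rw [ev_apply, pair, Finsupp.sum]

theorem ev_P0 (y : Fc) (f : Tst) (l : Fld ℤ) : ev f ((md y).P0 l) = ev (T0 y f) l := by
  rw [Modes.P0_apply, map_sum, Fin.sum_univ_two, map_smul, map_smul, T0, m0_eq, ev_add, ev_smul,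
    ev_smul]
  simp only [md, Matrix.cons_val_zero, Matrix.cons_val_one, smul_eq_mul,
    LinearMap.add_apply, LinearMap.smul_apply]
  ring

theorem ev_P1 (y : Fc) (f : Tst) (l : Fld ℤ) : ev f ((md y).P1 l) = ev (T1 y f) l := by
  rw [Modes.P1_apply, map_sum, Fin.sum_univ_four, map_smul, map_smul, map_smul, map_smul, T1, m1_eq,
    ev_add, ev_add, ev_add, ev_smul, ev_smul, ev_smul, ev_smul]
  simp only [md, Matrix.cons_val, smul_eq_mul, LinearMap.add_apply, LinearMap.smul_apply]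
  ring

theorem pair_P0 (y : Fc) (f : Tst) (l : Fld ℤ) : pair ((md y).P0 l) f = pair l (T0 y f) := by
  rw [pair_eq_ev, pair_eq_ev, ev_P0]

theorem pair_P1 (y : Fc) (f : Tst) (l : Fld ℤ) : pair ((md y).P1 l) f = pair l (T1 y f) := by
  rw [pair_eq_ev, pair_eq_ev, ev_P1]

theorem pair_rest (y : Fc) (f : Tst) (l : Fld ℤ) :
    pair (((LinearMap.id : Fld ℤ →ₗ[ℝ] Fld ℤ) - (md y).P0 - (md y).P1) l) f =
      pair l (f - T0 y f - T1 y f) := by
  rw [pair_sub_right, pair_sub_right, ← pair_P0, ← pair_P1, ← pair_sub_left, ← pair_sub_left]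
  rfl

/-! ### supports -/

theorem suppL_single {Z : Set Fc} (h : HE ℤ) (c : ℝ) (hZ : h.1 ∈ Z) :
    SuppL Z (Finsupp.single h c : Fld ℤ) := by
  intro x hx
  by_cases h1 : x = h
  · rw [h1]; exact hZ
  · exact absurd (Finsupp.single_eq_of_ne h1) hx

theorem suppL_phiA {Z : Set Fc} {y : Fc} (h : y ∈ Z) : SuppL Z (phiA y) :=
  suppL_smul (suppL_sub (suppL_add (suppL_smul (suppL_single _ _ h) _) (suppL_single _ _ h))
    (suppL_smul (suppL_single _ _ h) _)) _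

theorem suppL_phiB {Z : Set Fc} {y : Fc} (h : y ∈ Z) : SuppL Z (phiB y) :=
  suppL_smul (suppL_sub (suppL_add (suppL_smul (suppL_single _ _ h) _)
    (suppL_smul (suppL_single _ _ h) _)) (suppL_single _ _ h)) _

theorem fd_int (x y : Fc) : fd x y = max (x.1 - y.1).natAbs (x.2 - y.2).natAbs := rfl

theorem ball_one_mem (y : Fc) : (y.1 + 1, y.2) ∈ ball y 1 ∧ (y.1 - 1, y.2) ∈ ball y 1 ∧
    (y.1, y.2 + 1) ∈ ball y 1 ∧ (y.1, y.2 - 1) ∈ ball y 1 := by
  simp only [mem_ball, fd_int]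
  refine ⟨?_, ?_, ?_, ?_⟩ <;> simp

theorem suppL_D1 {g : Fc → Fld ℤ} (hg : ∀ (Z : Set Fc) x, x ∈ Z → SuppL Z (g x)) (y : Fc) :
    SuppL (ball y 1) (D1 g y) :=
  suppL_smul (suppL_sub (hg _ _ (ball_one_mem y).1) (hg _ _ (ball_one_mem y).2.1)) _

theorem suppL_D2 {g : Fc → Fld ℤ} (hg : ∀ (Z : Set Fc) x, x ∈ Z → SuppL Z (g x)) (y : Fc) :
    SuppL (ball y 1) (D2 g y) :=
  suppL_smul (suppL_sub (hg _ _ (ball_one_mem y).2.2.1) (hg _ _ (ball_one_mem y).2.2.2)) _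

theorem suppL_P0 (y : Fc) (l : Fld ℤ) (r : ℕ) : SuppL (ball y r) ((md y).P0 l) := by
  have hy : y ∈ ball y r := by rw [mem_ball, fd_self]; exact Nat.zero_le _
  rw [Modes.P0_apply, Fin.sum_univ_two]
  exact suppL_add (suppL_smul (suppL_phiA hy) _) (suppL_smul (suppL_phiB hy) _)

theorem suppL_P1 (y : Fc) (l : Fld ℤ) {r : ℕ} (hr : 1 ≤ r) : SuppL (ball y r) ((md y).P1 l) := by
  have ha : ∀ (Z : Set Fc) x, x ∈ Z → SuppL Z (phiA x) := fun Z x h => suppL_phiA h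
  have hb : ∀ (Z : Set Fc) x, x ∈ Z → SuppL Z (phiB x) := fun Z x h => suppL_phiB h
  refine suppL_mono (ball_mono y hr) ?_
  rw [Modes.P1_apply, Fin.sum_univ_four]
  refine suppL_add (suppL_add (suppL_add ?_ ?_) ?_) ?_ <;> refine suppL_smul (suppL_smul ?_ _) _
  · exact suppL_add (suppL_D1 ha y) (suppL_D2 hb y)
  · exact suppL_sub (suppL_D1 hb y) (suppL_D2 ha y)
  · exact suppL_sub (suppL_D1 ha y) (suppL_D2 hb y)
  · exact suppL_add (suppL_D1 hb y) (suppL_D2 ha y)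

/-! ### `l²` norms on balls of the plane -/

theorem ball_eq_Icc (x : Fc) (R : ℕ) : ball x R =
    ((Finset.Icc (x.1 - R) (x.1 + R) ×ˢ Finset.Icc (x.2 - R) (x.2 + R) : Finset Fc) : Set Fc) := by
  ext f
  simp only [mem_ball, fd_int, Finset.coe_product, Finset.coe_Icc, Set.mem_prod, Set.mem_Icc]
  omega

theorem card_ball (x : Fc) (R : ℕ) : (ball_finite x R).toFinset.card = (2 * R + 1) ^ 2 := by
  have h : (ball_finite x R).toFinset =
      Finset.Icc (x.1 - R) (x.1 + R) ×ˢ Finset.Icc (x.2 - R) (x.2 + R) := by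
    apply Finset.coe_injective
    rw [Set.Finite.coe_toFinset, ball_eq_Icc]
  rw [h, Finset.card_product, Int.card_Icc, Int.card_Icc]
  have h1 : (x.1 + R + 1 - (x.1 - R)).toNat = 2 * R + 1 := by omega
  have h2 : (x.2 + R + 1 - (x.2 - R)).toNat = 2 * R + 1 := by omega
  rw [h1, h2]; ring

/-- `l²` norm from a pointwise bound -/
theorem L2on_le_sup (x : Fc) (R : ℕ) (f : Tst) {B : ℝ} (hB : 0 ≤ B)
    (h : ∀ e : HE ℤ, e.1 ∈ ball x R → |f e| ≤ B) : L2on (ball x R) f ≤ 2 * (2 * R + 1) * B := by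
  apply le_of_sq_le_sq _ (by positivity)
  rw [L2on_sq (ball_finite x R)]
  calc ∑ e ∈ (ball_finite x R).toFinset ×ˢ (Finset.univ : Finset (Fin 4)), f e ^ 2
      ≤ ∑ e ∈ (ball_finite x R).toFinset ×ˢ (Finset.univ : Finset (Fin 4)), B ^ 2 := by
        refine Finset.sum_le_sum fun e he => ?_
        rw [Finset.mem_product] at he
        have := h e ((ball_finite x R).mem_toFinset.1 he.1)
        rw [← sq_abs]
        exact pow_le_pow_left₀ (abs_nonneg _) this 2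
    _ = (2 * (2 * R + 1) * B) ^ 2 := by
        rw [Finset.sum_const, Finset.card_product, card_ball, Finset.card_univ, Fintype.card_fin,
          nsmul_eq_mul]
        push_cast; ring

/-! ### norms of the modes -/

theorem r2_le : r2 ≤ 2 := by
  have h := r2_sq
  have h1 := r2_pos
  nlinarith

theorem xc_le : xc ≤ 1 := by rw [xc_eq]; have := r2_le; linarith

theorem abs_lt_le {a b : Fc → ℝ} {K : ℝ} {x : Fc} (ha : |a x| ≤ K) (hb : |b x| ≤ K) (d : Fin 4) :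
    |lt a b (x, d)| ≤ 2 * K := by
  have hK : 0 ≤ K := (abs_nonneg _).trans ha
  have h2 := r2_le
  have h0 := r2_pos
  have hab : |a x + b x| ≤ 2 * K := (abs_add_le _ _).trans (by linarith)
  have hba : |b x - a x| ≤ 2 * K := (abs_sub _ _).trans (by linarith)
  fin_cases d
  · show |-(r2 / 2) * (a x + b x)| ≤ _
    rw [abs_mul, abs_neg, abs_of_pos (by linarith : (0 : ℝ) < r2 / 2)]
    calc r2 / 2 * |a x + b x| ≤ 1 * (2 * K) :=
          mul_le_mul (by linarith) hab (abs_nonneg _) (by norm_num)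
      _ = _ := one_mul _
  · show |a x| ≤ _
    linarith
  · show |(r2 / 2) * (b x - a x)| ≤ _
    rw [abs_mul, abs_of_pos (by linarith : (0 : ℝ) < r2 / 2)]
    calc r2 / 2 * |b x - a x| ≤ 1 * (2 * K) :=
          mul_le_mul (by linarith) hba (abs_nonneg _) (by norm_num)
      _ = _ := one_mul _
  · show |-b x| ≤ _
    rw [abs_neg]; linarith

theorem abs_hv_le {a b : Fc → ℝ} {K : ℝ} {x : Fc} (ha : |a x| ≤ K) (hb : |b x| ≤ K) (d : Fin 4) :
    |hv a b (x, d)| ≤ 2 * K := by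
  have hK : 0 ≤ K := (abs_nonneg _).trans ha
  have h2 := r2_le
  have h0 := r2_pos
  fin_cases d
  · show |a x - b x| ≤ _
    exact (abs_sub _ _).trans (by linarith)
  · show |r2 * a x| ≤ _
    rw [abs_mul, abs_of_pos h0]
    exact mul_le_mul h2 ha (abs_nonneg _) (by norm_num)
  · show |a x + b x| ≤ _
    exact (abs_add_le _ _).trans (by linarith)
  · show |r2 * b x| ≤ _
    rw [abs_mul, abs_of_pos h0]
    exact mul_le_mul h2 hb (abs_nonneg _) (by norm_num)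

theorem abs_m0_le {a b K : ℝ} (ha : |a| ≤ K) (hb : |b| ≤ K) (e : HE ℤ) : |m0 a b e| ≤ 2 * K :=
  abs_lt_le (a := fun _ => a) (b := fun _ => b) (x := e.1) ha hb e.2

theorem abs_m1_le {y : Fc} {u v s t K : ℝ} {D : ℕ} (hu : |u| ≤ K) (hv' : |v| ≤ K) (hs : |s| ≤ K)
    (ht : |t| ≤ K) (e : HE ℤ) (he : e.1 ∈ ball y D) : |m1 y u v s t e| ≤ 9 * (D + 1) * K := by
  have hK : 0 ≤ K := (abs_nonneg _).trans hu
  have h0 := xc_pos
  have h1 := xc_le
  obtain ⟨x, d⟩ := e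
  have he' : max (y.1 - x.1).natAbs (y.2 - x.2).natAbs ≤ D := he
  have hX : |((x.1 - y.1 : ℤ) : ℝ)| ≤ D := by
    rw [← Int.cast_abs]
    have : |x.1 - y.1| ≤ (D : ℤ) := by rw [Int.abs_eq_natAbs]; omega
    exact_mod_cast this
  have hY : |((x.2 - y.2 : ℤ) : ℝ)| ≤ D := by
    rw [← Int.cast_abs]
    have : |x.2 - y.2| ≤ (D : ℤ) := by rw [Int.abs_eq_natAbs]; omega
    exact_mod_cast this
  have hlin : ∀ p q : ℝ, |p| ≤ 2 * K → |q| ≤ 2 * K →
      |p * (x.1 - y.1 : ℤ) + q * (x.2 - y.2 : ℤ)| ≤ 4 * D * K := by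
    intro p q hp hq
    refine (abs_add_le _ _).trans ?_
    rw [abs_mul, abs_mul]
    have e1 := mul_le_mul hp hX (abs_nonneg _) (by positivity)
    have e2 := mul_le_mul hq hY (abs_nonneg _) (by positivity)
    linarith
  have ha : |(u + s) * (x.1 - y.1 : ℤ) + (t - v) * (x.2 - y.2 : ℤ)| ≤ 4 * D * K :=
    hlin _ _ ((abs_add_le _ _).trans (by linarith)) ((abs_sub _ _).trans (by linarith))
  have hb : |(v + t) * (x.1 - y.1 : ℤ) + (u - s) * (x.2 - y.2 : ℤ)| ≤ 4 * D * K :=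
    hlin _ _ ((abs_add_le _ _).trans (by linarith)) ((abs_sub _ _).trans (by linarith))
  have e1 := abs_lt_le
    (a := fun x : Fc => (u + s) * (x.1 - y.1 : ℤ) + (t - v) * (x.2 - y.2 : ℤ))
    (b := fun x : Fc => (v + t) * (x.1 - y.1 : ℤ) + (u - s) * (x.2 - y.2 : ℤ)) (x := x) ha hb d
  have e2 := abs_hv_le (a := fun _ => u) (b := fun _ => v) (x := x) hu hv' d
  rw [m1, Pi.add_apply, Pi.smul_apply, smul_eq_mul]
  refine (abs_add_le _ _).trans ?_
  rw [abs_mul, abs_of_pos (by linarith : (0 : ℝ) < xc / 4)]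
  have e3 : xc / 4 * |hv (fun _ => u) (fun _ => v) (x, d)| ≤ 1 / 4 * (2 * K) :=
    mul_le_mul (by linarith) e2 (abs_nonneg _) (by norm_num)
  have hD : (0 : ℝ) ≤ D := Nat.cast_nonneg _
  have : 0 ≤ D * K := by positivity
  linarith

theorem iter_zero' (n : ℕ) : (Apl)^[n] (0 : Tst) = 0 := by
  rw [← Module.End.pow_apply, map_zero]

theorem iter_m0 (a b : ℝ) (n : ℕ) : (Apl)^[n + 1] (m0 a b) = 0 := by
  rw [Function.iterate_succ_apply, Apl_m0, iter_zero']

theorem iter_m1 (y : Fc) (u v s t : ℝ) (n : ℕ) : (Apl)^[n + 2] (m1 y u v s t) = 0 := by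
  rw [Function.iterate_succ_apply, Apl_m1, iter_smul, iter_m0, smul_zero]

theorem L2on_zero (Z : Set Fc) (hZ : Z.Finite) : L2on Z (0 : Tst) = 0 := by
  have := L2on_smul hZ 0 (0 : Tst)
  rwa [zero_smul, abs_zero, zero_mul] at this

theorem nnB_m0_le {a b K : ℝ} (ha : |a| ≤ K) (hb : |b| ≤ K) (x : Fc) {r : ℕ} (hr : 1 ≤ r) :
    nnB (wPl ℤ) r x (m0 a b) ≤ 516 * r * K := by
  have hK : 0 ≤ K := (abs_nonneg _).trans ha
  have hr' : (1 : ℝ) ≤ r := by exact_mod_cast hr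
  rw [nnB_eq, Finset.sum_range_succ']
  have h0 : ∑ n ∈ Finset.range MM, (r : ℝ) ^ (n + 1) *
      L2on (ball x (s1 * r)) ((Aop (wPl ℤ))^[n + 1] (m0 a b)) = 0 := by
    refine Finset.sum_eq_zero fun n _ => ?_
    rw [iter_m0, L2on_zero _ (ball_finite _ _), mul_zero]
  rw [h0, zero_add, pow_zero, one_mul, Function.iterate_zero, id]
  refine (L2on_le_sup x (s1 * r) _ (by positivity) fun e _ => abs_m0_le ha hb e).trans ?_
  have e : ((s1 * r : ℕ) : ℝ) = 64 * r := by unfold s1; push_cast; ring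
  rw [e]
  nlinarith

theorem nnB_m1_le {x y : Fc} {u v s t K : ℝ} {r : ℕ} (hr : 1 ≤ r) (hxy : fd x y ≤ r)
    (hu : |u| ≤ K) (hv' : |v| ≤ K) (hs : |s| ≤ K) (ht : |t| ≤ K) :
    nnB (wPl ℤ) r x (m1 y u v s t) ≤ 160000 * r ^ 2 * K := by
  have hK : 0 ≤ K := (abs_nonneg _).trans hu
  have hr' : (1 : ℝ) ≤ r := by exact_mod_cast hr
  have h0 := xc_pos
  have h1 := xc_le
  have e : ((s1 * r : ℕ) : ℝ) = 64 * r := by unfold s1; push_cast; ring
  rw [nnB_eq, show MM + 1 = 5 + 1 + 1 from rfl, Finset.sum_range_succ', Finset.sum_range_succ']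
  have h0' : ∑ n ∈ Finset.range 5, (r : ℝ) ^ (n + 1 + 1) *
      L2on (ball x (s1 * r)) ((Aop (wPl ℤ))^[n + 1 + 1] (m1 y u v s t)) = 0 := by
    refine Finset.sum_eq_zero fun n _ => ?_
    rw [iter_m1, L2on_zero _ (ball_finite _ _), mul_zero]
  rw [h0', zero_add, pow_zero, one_mul, Function.iterate_zero, id, zero_add, pow_one,
    Function.iterate_one, Apl_m1]
  -- first derivative
  have b1 : L2on (ball x (s1 * r)) (-xc • m0 t s) ≤ 516 * r * K := by
    rw [L2on_smul (ball_finite _ _), abs_neg, abs_of_pos h0]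
    have hh := L2on_le_sup x (s1 * r) (m0 t s) (B := 2 * K) (by positivity)
      fun e _ => abs_m0_le ht hs e
    rw [e] at hh
    have : xc * L2on (ball x (s1 * r)) (m0 t s) ≤ 1 * (2 * (2 * (64 * r) + 1) * (2 * K)) :=
      mul_le_mul h1 hh (L2on_nonneg _ _) (by norm_num)
    nlinarith
  -- function
  have b0 : L2on (ball x (s1 * r)) (m1 y u v s t) ≤ 258 * r * (9 * (66 * r) * K) := by
    have hsub : ∀ e : HE ℤ, e.1 ∈ ball x (s1 * r) → |m1 y u v s t e| ≤ 9 * (66 * r) * K := by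
      intro e he
      have he' : e.1 ∈ ball y (65 * r) := by
        rw [mem_ball] at he ⊢
        have := fd_triangle y x e.1
        rw [fd_comm y x] at this
        unfold s1 at he
        omega
      refine (abs_m1_le hu hv' hs ht e he').trans ?_
      push_cast
      have : (65 * (r : ℝ) + 1) ≤ 66 * r := by linarith
      have := mul_le_mul_of_nonneg_right this hK
      nlinarith
    refine (L2on_le_sup x (s1 * r) _ (by positivity) hsub).trans ?_
    rw [e]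
    have : (2 * (2 * (64 * (r : ℝ)) + 1)) ≤ 258 * r := by linarith
    exact mul_le_mul_of_nonneg_right this (by positivity)
  have hr2 : 0 ≤ (r : ℝ) ^ 2 * K := by positivity
  have b1' : (r : ℝ) * L2on (ball x (s1 * r)) (-xc • m0 t s) ≤ r * (516 * r * K) :=
    mul_le_mul_of_nonneg_left b1 (by positivity)
  nlinarith

/-! ### the regularity input and the weight inequalities -/

/-- **bulk regularity**: bounds of the local functionals and Taylor expansion of second order, from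
the local test seminorm -/
structure BkReg (C : ℝ) : Prop where
  amp : ∀ (y : Fc) (ρ : ℕ), 1 ≤ ρ → ∀ f : Tst, nnB (wPl ℤ) ρ y f ≤ 1 →
    |ev f (phiA y)| ≤ C / ρ ∧ |ev f (phiB y)| ≤ C / ρ
  slope : ∀ (y : Fc) (ρ : ℕ), 1 ≤ ρ → ∀ f : Tst, nnB (wPl ℤ) ρ y f ≤ 1 →
    |ev f (qU y)| ≤ C / ρ ^ 2 ∧ |ev f (qV y)| ≤ C / ρ ^ 2 ∧ |ev f (qS y)| ≤ C / ρ ^ 2 ∧
      |ev f (qT y)| ≤ C / ρ ^ 2
  taylor : ∀ (y : Fc) (r ρ : ℕ), 1 ≤ r → 16 * r ≤ ρ → ∀ f : Tst, nnB (wPl ℤ) ρ y f ≤ 1 →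
    ∀ n < 3, (r : ℝ) ^ n * L2on (ball y (65 * r)) ((Aop (wPl ℤ))^[n] (f - T0 y f - T1 y f)) ≤
      C * ((r : ℝ) / ρ) ^ 3

variable {C : ℝ}

theorem BkReg.nonneg (h : BkReg C) : 0 ≤ C := by
  have := (h.amp 0 1 le_rfl 0 (by
    have := nnB_smul (wPl ℤ) 1 0 0 (0 : Tst)
    rw [zero_smul, abs_zero, zero_mul] at this
    rw [this]; exact zero_le_one)).1
  have h1 := (abs_nonneg _).trans this
  simpa using h1

theorem BkReg.nnB_T0 (h : BkReg C) {x y : Fc} {r ρ : ℕ} (hr : 1 ≤ r) (hρ : 1 ≤ ρ) {f : Tst}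
    (hf : nnB (wPl ℤ) ρ y f ≤ 1) : nnB (wPl ℤ) r x (T0 y f) ≤ 516 * C * ((r : ℝ) / ρ) := by
  obtain ⟨h1, h2⟩ := h.amp y ρ hρ f hf
  refine (nnB_m0_le h1 h2 x hr).trans (le_of_eq ?_)
  ring

theorem BkReg.nnB_T1 (h : BkReg C) {x y : Fc} {r ρ : ℕ} (hr : 1 ≤ r) (hρ : 1 ≤ ρ)
    (hxy : fd x y ≤ r) {f : Tst} (hf : nnB (wPl ℤ) ρ y f ≤ 1) :
    nnB (wPl ℤ) r x (T1 y f) ≤ 160000 * C * ((r : ℝ) / ρ) ^ 2 := by
  obtain ⟨h1, h2, h3, h4⟩ := h.slope y ρ hρ f hf
  refine (nnB_m1_le hr hxy h1 h2 h3 h4).trans (le_of_eq ?_)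
  ring

theorem BkReg.nnB_rest (h : BkReg C) {x y : Fc} {r ρ : ℕ} (hr : 1 ≤ r) (hρ : 16 * r ≤ ρ)
    (hxy : fd x y ≤ r) {f : Tst} (hf : nnB (wPl ℤ) ρ y f ≤ 1) :
    nnB (wPl ℤ) r x (f - T0 y f - T1 y f) ≤ (170000 * C + 1) * ((r : ℝ) / ρ) ^ 3 := by
  have hC := h.nonneg
  have hρ1 : 1 ≤ ρ := by omega
  have hb : ball x (s1 * r) ⊆ ball y (s1 * ρ) := by
    apply ball_subset_ball
    rw [fd_comm]
    unfold s1; omega
  have hb65 : ball x (s1 * r) ⊆ ball y (65 * r) := by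
    apply ball_subset_ball
    rw [fd_comm]
    unfold s1; omega
  have h0 := nnB_split (w := wPl ℤ) (r := r) (x := x) (r' := ρ) (x' := y) (by omega) (by omega) hb
    (m := 3) (by unfold MM; norm_num) (f - T0 y f - T1 y f)
  have hρ0 : (0 : ℝ) < ρ := by exact_mod_cast (by omega : 0 < ρ)
  have hg : nnB (wPl ℤ) ρ y (f - T0 y f - T1 y f) ≤ 1 + 516 * C + 160000 * C := by
    have e1 := h.nnB_T0 (x := y) (r := ρ) hρ1 hρ1 hf
    have e2 := h.nnB_T1 (x := y) (r := ρ) hρ1 hρ1 (by rw [fd_self]; exact Nat.zero_le _) hf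
    rw [div_self hρ0.ne', mul_one] at e1
    rw [div_self hρ0.ne', one_pow, mul_one] at e2
    refine (nnB_sub_le _ _ _ _ _).trans ?_
    refine (add_le_add (nnB_sub_le _ _ _ _ _) le_rfl).trans ?_
    linarith
  have hq : (0 : ℝ) ≤ ((r : ℝ) / ρ) ^ 3 := by positivity
  have hs : ∑ n ∈ Finset.range 3, (r : ℝ) ^ n *
      L2on (ball x (s1 * r)) ((Aop (wPl ℤ))^[n] (f - T0 y f - T1 y f)) ≤
        3 * (C * ((r : ℝ) / ρ) ^ 3) := by
    refine (Finset.sum_le_card_nsmul _ _ (C * ((r : ℝ) / ρ) ^ 3) fun n hn => ?_).trans ?_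
    · refine le_trans ?_ (h.taylor y r ρ hr hρ f hf n (Finset.mem_range.1 hn))
      exact mul_le_mul_of_nonneg_left (L2on_mono hb65 (ball_finite _ _) _) (by positivity)
    · rw [Finset.card_range, nsmul_eq_mul]; push_cast; exact le_rfl
  have h1 : ((r : ℝ) / ρ) ^ 3 * nnB (wPl ℤ) ρ y (f - T0 y f - T1 y f) ≤
      ((r : ℝ) / ρ) ^ 3 * (1 + 516 * C + 160000 * C) := mul_le_mul_of_nonneg_left hg hq
  have h2 : 0 ≤ C * ((r : ℝ) / ρ) ^ 3 := by positivity
  nlinarith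

variable {a a' : ℝ} {r r' : ℕ} {x y : Fc}

/-- **(W2), order zero** -/
theorem W2_P0 (h : BkReg C) (ha : 0 < a) (ha' : 0 ≤ a') (hr : 1 ≤ r) (hr' : 1 ≤ r') :
    WLe (wPl ℤ) a a' r r' x y (md y).P0
      (ENNReal.ofReal (a' * Real.sqrt r' / (a * Real.sqrt r) * (516 * C * ((r : ℝ) / r')))) :=
  WLe_of_dual ha (by omega) ha' _ (T0 y) (fun l _ => suppL_P0 y l _)
    (fun l _ f _ => (congrArg abs (pair_P0 y f l)).le) fun _ hf => h.nnB_T0 hr hr' hf

/-- **(W2), order one** -/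
theorem W2_P1 (h : BkReg C) (ha : 0 < a) (ha' : 0 ≤ a') (hr : 1 ≤ r) (hr' : 1 ≤ r')
    (hxy : fd x y ≤ r) : WLe (wPl ℤ) a a' r r' x y (md y).P1
      (ENNReal.ofReal (a' * Real.sqrt r' / (a * Real.sqrt r) *
        (160000 * C * ((r : ℝ) / r') ^ 2))) :=
  WLe_of_dual ha (by omega) ha' _ (T1 y) (fun l _ => suppL_P1 y l (by unfold s0; omega))
    (fun l _ f _ => (congrArg abs (pair_P1 y f l)).le) fun _ hf => h.nnB_T1 hr hr' hxy hf

/-- **(W2), remainder** -/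
theorem W2_rest (h : BkReg C) (ha : 0 < a) (ha' : 0 ≤ a') (hr : 1 ≤ r) (hr' : 16 * r ≤ r')
    (hxy : fd x y ≤ r) :
    WLe (wPl ℤ) a a' r r' x y (LinearMap.id - (md y).P0 - (md y).P1)
      (ENNReal.ofReal (a' * Real.sqrt r' / (a * Real.sqrt r) *
        ((170000 * C + 1) * ((r : ℝ) / r') ^ 3))) := by
  refine WLe_of_dual ha (by omega) ha' _ (fun f => f - T0 y f - T1 y f) (fun l hl => ?_)
    (fun l _ f _ => (congrArg abs (pair_rest y f l)).le) fun _ hf => h.nnB_rest hr hr' hxy hf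
  have h1 : SuppL (ball y (s0 * r')) l := by
    refine suppL_mono (ball_subset_ball ?_) hl
    rw [fd_comm]
    unfold s0; omega
  exact suppL_sub (suppL_sub h1 (suppL_P0 y l _)) (suppL_P1 y l (by unfold s0; omega))

/-- difference `id - P0` (order zero removed): it is `P1` plus the remainder -/
theorem W2_id_sub_P0 (h : BkReg C) (ha : 0 < a) (ha' : 0 ≤ a') (hr : 1 ≤ r) (hr' : 16 * r ≤ r')
    (hxy : fd x y ≤ r) : WLe (wPl ℤ) a a' r r' x y (LinearMap.id - (md y).P0)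
      (ENNReal.ofReal (a' * Real.sqrt r' / (a * Real.sqrt r) *
        ((330000 * C + 1) * ((r : ℝ) / r') ^ 2))) := by
  have hC := h.nonneg
  have hρ1 : 1 ≤ r' := by omega
  have hρ0 : (0 : ℝ) < r' := by exact_mod_cast (by omega : 0 < r')
  refine WLe_of_dual ha (by omega) ha' _ (fun f => f - T0 y f) (fun l hl => ?_)
    (fun l _ f _ => ?_) fun f hf => ?_
  · have h1 : SuppL (ball y (s0 * r')) l := by
      refine suppL_mono (ball_subset_ball ?_) hl
      rw [fd_comm]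
      unfold s0; omega
    exact suppL_sub h1 (suppL_P0 y l _)
  · refine (congrArg abs ?_).le
    rw [pair_sub_right, ← pair_P0, ← pair_sub_left]
    rfl
  · have e1 := h.nnB_rest hr hr' hxy hf
    have e2 := h.nnB_T1 hr hρ1 hxy hf
    have e3 : f - T0 y f = (f - T0 y f - T1 y f) + T1 y f := by abel
    rw [e3]
    refine (nnB_add_le _ _ _ _ _).trans ?_
    have hq : (r : ℝ) / r' ≤ 1 := by
      rw [div_le_one hρ0]
      exact_mod_cast (by omega : r ≤ r')
    have hq0 : (0 : ℝ) ≤ (r : ℝ) / r' := by positivity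
    have hq3 : ((r : ℝ) / r') ^ 3 ≤ ((r : ℝ) / r') ^ 2 :=
      pow_le_pow_of_le_one hq0 hq (by norm_num)
    have := mul_le_mul_of_nonneg_left hq3 (by positivity : (0 : ℝ) ≤ 170000 * C + 1)
    linarith

end Crest.Agent.R165.W2x812
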