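import Crest.Agent.R165.Gr0_606

/-!
# Row 165 (S0250), block G5: the bilinear form of a Grassmann element, reversal, localisation

* `form a l m = ct (dd m (dd l a))`, the degree-2 part of `a` as an alternating form
* `rev'` : reversal; it multiplies degree `2k` by `(-1)^k` (this is the "division by `i`" of the
  complex lattice reflection), an automorphism on even elements, `conv S ∘ rev' = rev' ∘ conv (-S)`
* `Loc M` : localisation of the quadratic part on a system of modes
-/

set_option autoImplicit false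

noncomputable section

namespace Crest.Agent.R165.Locx901

open CliffordAlgebra
open Crest.Agent.R165.Gr0x606

variable {V : Type*} [AddCommGroup V] [Module ℝ V]

/-! ### the form of an element -/

/-- the alternating form carried by the degree-2 part -/
def form (a : Gr V) (l m : Module.Dual ℝ V) : ℝ := ct (dd m (dd l a))

theorem form_add_left (a : Gr V) (l l' m : Module.Dual ℝ V) :
    form a (l + l') m = form a l m + form a l' m := by
  simp only [form, dd_add_left, map_add]

theorem form_smul_left (a : Gr V) (c : ℝ) (l m : Module.Dual ℝ V) :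
    form a (c • l) m = c * form a l m := by
  simp only [form, dd_smul_left, map_smul, smul_eq_mul]

theorem form_add_right (a : Gr V) (l m m' : Module.Dual ℝ V) :
    form a l (m + m') = form a l m + form a l m' := by
  simp only [form, dd_add_left, map_add]

theorem form_smul_right (a : Gr V) (c : ℝ) (l m : Module.Dual ℝ V) :
    form a l (c • m) = c * form a l m := by
  simp only [form, dd_smul_left, map_smul, smul_eq_mul]

theorem form_self (a : Gr V) (l : Module.Dual ℝ V) : form a l l = 0 := by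
  simp only [form, dd_dd_self, map_zero]

theorem form_swap (a : Gr V) (l m : Module.Dual ℝ V) : form a l m = -form a m l := by
  simp only [form]
  rw [dd_dd_anti, map_neg]

theorem form_add (a b : Gr V) (l m : Module.Dual ℝ V) :
    form (a + b) l m = form a l m + form b l m := by
  simp only [form, map_add]

theorem form_smul (c : ℝ) (a : Gr V) (l m : Module.Dual ℝ V) :
    form (c • a) l m = c * form a l m := by
  simp only [form, map_smul, smul_eq_mul]

theorem form_zero (l m : Module.Dual ℝ V) : form (0 : Gr V) l m = 0 := by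
  simp only [form, map_zero]

theorem form_algebraMap (r : ℝ) (l m : Module.Dual ℝ V) : form (algebraMap ℝ (Gr V) r) l m = 0 := by
  simp only [form, dd_algebraMap, map_zero]

theorem form_fi_fi (x y : V) (l m : Module.Dual ℝ V) :
    form (fi x * fi y) l m = l x * m y - l y * m x := by
  simp only [form]
  rw [dd_fi_mul, dd_fi, map_sub, map_smul, dd_fi, ← Algebra.commutes, ← Algebra.smul_def,
    map_smul, dd_fi, map_sub, map_smul, map_smul, ct_algebraMap, ct_algebraMap, smul_eq_mul,
    smul_eq_mul]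

/-- as a linear map in the element -/
def formL (l m : Module.Dual ℝ V) : Gr V →ₗ[ℝ] ℝ where
  toFun a := form a l m
  map_add' a b := form_add a b l m
  map_smul' c a := form_smul c a l m

theorem formL_apply (l m : Module.Dual ℝ V) (a : Gr V) : formL l m a = form a l m := rfl

/-- as a bilinear map on the dual -/
def formB (a : Gr V) : Module.Dual ℝ V →ₗ[ℝ] Module.Dual ℝ V →ₗ[ℝ] ℝ :=
  LinearMap.mk₂ ℝ (fun l m => form a l m) (form_add_left a) (fun c l m => form_smul_left a c l m)
    (form_add_right a) (fun c l m => form_smul_right a c l m)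

@[simp] theorem formB_apply (a : Gr V) (l m : Module.Dual ℝ V) : formB a l m = form a l m := rfl

variable {W : Type*} [AddCommGroup W] [Module ℝ W]

theorem form_mp (f : V →ₗ[ℝ] W) (a : Gr V) (l m : Module.Dual ℝ W) :
    form (mp f a) l m = form a (l ∘ₗ f) (m ∘ₗ f) := by
  simp only [form]
  rw [← mp_dd, ← mp_dd, ct_mp]

/-- products of at least three fields have no form -/
theorem form_three (x y z : V) (a : Gr V) (l m : Module.Dual ℝ V) :
    form (fi x * (fi y * (fi z * a))) l m = 0 := by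
  simp only [form, dd_fi_mul, map_sub, map_smul, map_mul, ct_fi, zero_mul, smul_zero, sub_zero,
    mul_sub, mul_smul_comm, sub_self]

theorem form_one_field (x : V) (l m : Module.Dual ℝ V) : form (fi x) l m = 0 := by
  simp only [form, dd_fi, dd_algebraMap, map_zero]

/-! ### reversal -/

/-- reversal: `x₁ ⋯ xₙ ↦ xₙ ⋯ x₁` -/
def rev' : Gr V →ₗ[ℝ] Gr V := CliffordAlgebra.reverse

@[simp] theorem rev'_fi (x : V) : rev' (fi x) = fi x := CliffordAlgebra.reverse_ι x

@[simp] theorem rev'_algebraMap (r : ℝ) : rev' (algebraMap ℝ (Gr V) r) = algebraMap ℝ _ r :=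
  CliffordAlgebra.reverse.commutes r

@[simp] theorem rev'_one : rev' (1 : Gr V) = 1 := by
  simpa using rev'_algebraMap (V := V) 1

theorem rev'_mul (a b : Gr V) : rev' (a * b) = rev' b * rev' a :=
  CliffordAlgebra.reverse.map_mul a b

@[simp] theorem rev'_rev' (a : Gr V) : rev' (rev' a) = a := CliffordAlgebra.reverse_reverse a

theorem rev'_inv' (a : Gr V) : rev' (inv' a) = inv' (rev' a) :=
  (CliffordAlgebra.reverse_involute (Q := (0 : QuadraticForm ℝ V)) a)

theorem IsEv.rev' {a : Gr V} (ha : IsEv a) : IsEv (rev' a) := by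
  rw [IsEv, ← rev'_inv', ha]

theorem rev'_mul_ev {a b : Gr V} (ha : IsEv a) (_hb : IsEv b) :
    rev' (a * b) = rev' a * rev' b := by
  rw [rev'_mul, (IsEv.rev' ha).comm]

theorem dd_rev' (l : Module.Dual ℝ V) (a : Gr V) : dd l (rev' a) = rev' (inv' (dd l a)) := by
  induction a using Gr.induction with
  | h0 r => simp
  | h1 x a ih =>
    rw [rev'_mul, rev'_fi, dd_mul, ih, dd_fi, dd_fi_mul, map_sub, map_sub, map_mul, inv'_fi,
      rev'_mul, map_neg, rev'_fi, map_smul, map_smul, ← rev'_inv', Algebra.smul_def,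
      ← Algebra.commutes]
    noncomm_ring
  | h2 a b iha ihb => simp only [map_add, iha, ihb]

theorem ct_inv' (a : Gr V) : ct (inv' a) = ct a := by
  induction a using Gr.induction with
  | h0 r => simp
  | h1 x a ih => simp
  | h2 a b iha ihb => simp only [map_add, iha, ihb]

theorem ct_rev' (a : Gr V) : ct (rev' a) = ct a := by
  induction a using Gr.induction with
  | h0 r => simp
  | h1 x a ih => rw [rev'_mul, rev'_fi, map_mul, map_mul, ct_fi, zero_mul, mul_zero]
  | h2 a b iha ihb => simp only [map_add, iha, ihb]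

theorem form_rev' (a : Gr V) (l m : Module.Dual ℝ V) : form (rev' a) l m = -form a l m := by
  simp only [form]
  rw [dd_rev', dd_rev', dd_inv', map_neg, inv'_inv', ct_rev', map_neg]

theorem conv_rev' (S : Cov V) (a : Gr V) : conv S (rev' a) = rev' (conv (-S) a) := by
  induction a using Gr.induction with
  | h0 r => simp
  | h1 x a ih =>
    rw [rev'_mul, rev'_fi, ← inv'_inv' (rev' a), ← fi_mul_comm, conv_fi_mul, conv_inv', ih,
      dd_inv', dd_rev', conv_fi_mul, map_add, rev'_mul, rev'_fi, Cov.neg_b, LinearMap.neg_apply,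
      dd_neg_left, map_neg, ← inv'_inv' (rev' (conv (-S) a)), ← fi_mul_comm]
    rw [rev'_inv', inv'_inv', inv'_inv']
  | h2 a b iha ihb => simp only [map_add, iha, ihb]

theorem mp_rev' (f : V →ₗ[ℝ] W) (a : Gr V) : mp f (rev' a) = rev' (mp f a) := by
  induction a using Gr.induction with
  | h0 r => simp
  | h1 x a ih => rw [rev'_mul, rev'_fi, map_mul, map_mul, ih, mp_fi, rev'_mul, rev'_fi]
  | h2 a b iha ihb => simp only [map_add, iha, ihb]

/-! ### localisation on a system of modes -/

/-- modes of order zero and one, with local functionals dual to them -/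
structure Modes (V : Type*) [AddCommGroup V] [Module ℝ V] (ι κ : Type*) where
  /-- modes of order zero -/
  m : ι → Module.Dual ℝ V
  /-- local functionals of order zero -/
  p : ι → V
  /-- modes of order one -/
  n : κ → Module.Dual ℝ V
  /-- local functionals of order one -/
  q : κ → V

variable {ι κ : Type*} [Fintype ι] [Fintype κ]

/-- order-zero part of a field -/
def Modes.P0 (M : Modes V ι κ) : V →ₗ[ℝ] V := ∑ i, (M.m i).smulRight (M.p i)

/-- order-one part of a field -/
def Modes.P1 (M : Modes V ι κ) : V →ₗ[ℝ] V := ∑ j, (M.n j).smulRight (M.q j)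

theorem Modes.P0_apply (M : Modes V ι κ) (x : V) : M.P0 x = ∑ i, M.m i x • M.p i := by
  simp [Modes.P0]

theorem Modes.P1_apply (M : Modes V ι κ) (x : V) : M.P1 x = ∑ j, M.n j x • M.q j := by
  simp [Modes.P1]

/-- localisation of the quadratic part -/
def Loc (M : Modes V ι κ) : Gr V →ₗ[ℝ] Gr V :=
  (∑ i, ∑ i', (1 / 2 : ℝ) • (formL (M.m i) (M.m i')).smulRight (fi (M.p i) * fi (M.p i'))) +
    ∑ i, ∑ j, (formL (M.m i) (M.n j)).smulRight (fi (M.p i) * fi (M.q j))

theorem Loc_apply (M : Modes V ι κ) (a : Gr V) : Loc M a =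
    (∑ i, ∑ i', ((1 / 2 : ℝ) * form a (M.m i) (M.m i')) • (fi (M.p i) * fi (M.p i'))) +
      ∑ i, ∑ j, form a (M.m i) (M.n j) • (fi (M.p i) * fi (M.q j)) := by
  simp only [Loc, LinearMap.add_apply, LinearMap.sum_apply, LinearMap.smul_apply,
    LinearMap.smulRight_apply, formL_apply, smul_smul]

theorem fi_sum_smul {σ : Type*} (s : Finset σ) (c : σ → ℝ) (x : σ → V) :
    fi (∑ i ∈ s, c i • x i) = ∑ i ∈ s, c i • fi (x i) := by
  simp [fi, map_sum]

theorem Loc_fi_fi (M : Modes V ι κ) (x y : V) : Loc M (fi x * fi y) =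
    fi (M.P0 x) * fi (M.P0 y) + fi (M.P0 x) * fi (M.P1 y) + fi (M.P1 x) * fi (M.P0 y) := by
  have e1 : fi (M.P0 x) * fi (M.P0 y) =
      ∑ i, ∑ i', (M.m i x * M.m i' y) • (fi (M.p i) * fi (M.p i')) := by
    rw [M.P0_apply, M.P0_apply, fi_sum_smul, fi_sum_smul, Finset.sum_mul_sum]
    simp only [smul_mul_smul_comm]
  have e1' : fi (M.P0 y) * fi (M.P0 x) =
      ∑ i, ∑ i', (M.m i y * M.m i' x) • (fi (M.p i) * fi (M.p i')) := by
    rw [M.P0_apply, M.P0_apply, fi_sum_smul, fi_sum_smul, Finset.sum_mul_sum]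
    simp only [smul_mul_smul_comm]
  have e2 : fi (M.P0 x) * fi (M.P1 y) =
      ∑ i, ∑ j, (M.m i x * M.n j y) • (fi (M.p i) * fi (M.q j)) := by
    rw [M.P0_apply, M.P1_apply, fi_sum_smul, fi_sum_smul, Finset.sum_mul_sum]
    simp only [smul_mul_smul_comm]
  have e3 : fi (M.P0 y) * fi (M.P1 x) =
      ∑ i, ∑ j, (M.m i y * M.n j x) • (fi (M.p i) * fi (M.q j)) := by
    rw [M.P0_apply, M.P1_apply, fi_sum_smul, fi_sum_smul, Finset.sum_mul_sum]
    simp only [smul_mul_smul_comm]
  have h1 : fi (M.P0 x) * fi (M.P0 y) =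
      (1 / 2 : ℝ) • (fi (M.P0 x) * fi (M.P0 y) - fi (M.P0 y) * fi (M.P0 x)) := by
    rw [fi_anti (M.P0 y), sub_neg_eq_add, ← two_smul ℝ, smul_smul]
    norm_num
  rw [fi_anti (M.P1 x) (M.P0 y), e2, e3, h1, e1, e1', Loc_apply]
  simp only [form_fi_fi]
  rw [add_assoc, ← sub_eq_add_neg, ← Finset.sum_sub_distrib, ← Finset.sum_sub_distrib,
    Finset.smul_sum]
  congr 1
  · refine Finset.sum_congr rfl fun i _ => ?_
    rw [← Finset.sum_sub_distrib, Finset.smul_sum]
    refine Finset.sum_congr rfl fun i' _ => ?_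
    rw [← sub_smul, smul_smul]
  · refine Finset.sum_congr rfl fun i _ => ?_
    rw [← Finset.sum_sub_distrib]
    refine Finset.sum_congr rfl fun j _ => ?_
    rw [← sub_smul]

theorem Loc_three (M : Modes V ι κ) (x y z : V) (a : Gr V) :
    Loc M (fi x * (fi y * (fi z * a))) = 0 := by
  rw [Loc_apply]
  simp only [form_three, mul_zero, zero_smul, Finset.sum_const_zero, add_zero]

theorem Loc_algebraMap (M : Modes V ι κ) (r : ℝ) : Loc M (algebraMap ℝ _ r) = 0 := by
  rw [Loc_apply]
  simp only [form_algebraMap, mul_zero, zero_smul, Finset.sum_const_zero, add_zero]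

theorem Loc_one (M : Modes V ι κ) : Loc M (1 : Gr V) = 0 := by
  simpa using Loc_algebraMap M 1

theorem Loc_fi (M : Modes V ι κ) (x : V) : Loc M (fi x) = 0 := by
  rw [Loc_apply]
  simp only [form_one_field, mul_zero, zero_smul, Finset.sum_const_zero, add_zero]

/-- the remainder of a quadratic monomial after localisation -/
theorem sub_Loc_fi_fi (M : Modes V ι κ) (x y : V) :
    fi x * fi y - Loc M (fi x * fi y) =
      fi (M.P0 x) * fi (y - M.P0 y - M.P1 y) + fi (x - M.P0 x - M.P1 x) * fi (M.P0 y) +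
      fi (x - M.P0 x) * fi (y - M.P0 y) := by
  rw [Loc_fi_fi]
  have hx : fi x = fi (M.P0 x) + fi (M.P1 x) + fi (x - M.P0 x - M.P1 x) := by
    rw [← fi_add, ← fi_add]; congr 1; abel
  have hy : fi y = fi (M.P0 y) + fi (M.P1 y) + fi (y - M.P0 y - M.P1 y) := by
    rw [← fi_add, ← fi_add]; congr 1; abel
  have hx' : fi (x - M.P0 x) = fi (M.P1 x) + fi (x - M.P0 x - M.P1 x) := by
    rw [← fi_add]; congr 1; abel
  have hy' : fi (y - M.P0 y) = fi (M.P1 y) + fi (y - M.P0 y - M.P1 y) := by
    rw [← fi_add]; congr 1; abel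
  rw [hx', hy']
  nth_rewrite 1 [hx]
  nth_rewrite 1 [hy]
  noncomm_ring

/-- the biorthogonality relations -/
structure Modes.Dual (M : Modes V ι κ) [DecidableEq ι] [DecidableEq κ] : Prop where
  mp : ∀ i i', M.m i (M.p i') = if i = i' then 1 else 0
  mq : ∀ i j, M.m i (M.q j) = 0
  np : ∀ j i, M.n j (M.p i) = 0
  nq : ∀ j j', M.n j (M.q j') = if j = j' then 1 else 0

/-- an element whose form vanishes on the modes has no local part -/
theorem Loc_eq_zero (M : Modes V ι κ) (a : Gr V) (h0 : ∀ i i', form a (M.m i) (M.m i') = 0)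
    (h1 : ∀ i j, form a (M.m i) (M.n j) = 0) : Loc M a = 0 := by
  rw [Loc_apply]
  simp only [h0, h1, mul_zero, zero_smul, Finset.sum_const_zero, add_zero]

theorem sum4_comm {α β γ δ E : Type*} [Fintype α] [Fintype β] [Fintype γ] [Fintype δ]
    [AddCommMonoid E] (F : α → β → γ → δ → E) :
    ∑ a, ∑ b, ∑ c, ∑ d, F a b c d = ∑ c, ∑ d, ∑ a, ∑ b, F a b c d := by
  have h1 : ∀ a, ∑ b, ∑ c, ∑ d, F a b c d = ∑ c, ∑ b, ∑ d, F a b c d := fun a => Finset.sum_comm
  simp only [h1]
  rw [Finset.sum_comm]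
  refine Finset.sum_congr rfl fun c _ => ?_
  have h2 : ∀ a, ∑ b, ∑ d, F a b c d = ∑ d, ∑ b, F a b c d := fun a => Finset.sum_comm
  simp only [h2]
  rw [Finset.sum_comm]

theorem form_sum_left {σ : Type*} (a : Gr V) (s : Finset σ) (c : σ → ℝ)
    (l : σ → Module.Dual ℝ V) (m : Module.Dual ℝ V) :
    form a (∑ i ∈ s, c i • l i) m = ∑ i ∈ s, c i * form a (l i) m := by
  rw [← formB_apply, map_sum, LinearMap.sum_apply]
  refine Finset.sum_congr rfl fun i _ => ?_
  rw [map_smul, LinearMap.smul_apply, smul_eq_mul, formB_apply]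

theorem form_sum_right {σ : Type*} (a : Gr V) (s : Finset σ) (c : σ → ℝ)
    (l : Module.Dual ℝ V) (m : σ → Module.Dual ℝ V) :
    form a l (∑ i ∈ s, c i • m i) = ∑ i ∈ s, c i * form a l (m i) := by
  rw [← formB_apply, map_sum]
  refine Finset.sum_congr rfl fun i _ => ?_
  rw [map_smul, smul_eq_mul, formB_apply]

theorem Loc_mp_aux {σ τ : Type*} [Fintype σ] [Fintype τ] (g : V →ₗ[ℝ] V) (c : ℝ)
    (m p : σ → _) (n q : τ → _)
    (G : σ → σ → ℝ) (H : τ → τ → ℝ)
    (hm : ∀ i, (m i : Module.Dual ℝ V) ∘ₗ g = ∑ i', G i i' • m i')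
    (hn : ∀ j, (n j : Module.Dual ℝ V) ∘ₗ g = ∑ j', H j j' • n j')
    (hp : ∀ i', g (p i') = ∑ i, G i i' • p i) (hq : ∀ j', g (q j') = ∑ j, H j j' • q j)
    (a : Gr V) :
    ∑ i, ∑ j, (c * form (mp g a) (m i) (n j)) • (fi (p i) * fi (q j)) =
      mp g (∑ i, ∑ j, (c * form a (m i) (n j)) • (fi (p i) * fi (q j))) := by
  have e1 : ∀ i, mp g (∑ i', (c * form a (m i) (n i')) •
      (fi (p i) * fi (q i'))) = ∑ i', ∑ j, ∑ j', (c * (G j i * (H j' i' *
        form a (m i) (n i')))) • (fi (p j) * fi (q j')) := by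
    intro i
    rw [map_sum]
    refine Finset.sum_congr rfl fun i' _ => ?_
    rw [map_smul, map_mul, mp_fi, mp_fi, hp, hq, fi_sum_smul, fi_sum_smul, Finset.sum_mul_sum,
      Finset.smul_sum]
    refine Finset.sum_congr rfl fun j _ => ?_
    rw [Finset.smul_sum]
    refine Finset.sum_congr rfl fun j' _ => ?_
    rw [smul_mul_smul_comm, smul_smul]
    congr 1; ring
  have e2 : ∀ j j', (c * form (mp g a) (m j) (n j')) •
      (fi (p j) * fi (q j')) = ∑ i, ∑ i', (c * (G j i * (H j' i' *
        form a (m i) (n i')))) • (fi (p j) * fi (q j')) := by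
    intro j j'
    rw [form_mp, hm, hn, form_sum_left]
    simp only [form_sum_right, Finset.mul_sum, Finset.sum_smul]
  rw [map_sum]
  simp only [e1, e2]
  exact sum4_comm _

/-- covariance of the localisation -/
theorem Loc_mp (M : Modes V ι κ) (g : V →ₗ[ℝ] V) (G : ι → ι → ℝ) (H : κ → κ → ℝ)
    (hm : ∀ i, M.m i ∘ₗ g = ∑ i', G i i' • M.m i') (hn : ∀ j, M.n j ∘ₗ g = ∑ j', H j j' • M.n j')
    (hp : ∀ i', g (M.p i') = ∑ i, G i i' • M.p i) (hq : ∀ j', g (M.q j') = ∑ j, H j j' • M.q j)
    (a : Gr V) : Loc M (mp g a) = mp g (Loc M a) := by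
  have h1 := Loc_mp_aux g (1 / 2) M.m M.p M.m M.p G G hm hm hp hp a
  have h2 := Loc_mp_aux g 1 M.m M.p M.n M.q G H hm hn hp hq a
  simp only [one_mul] at h2
  rw [Loc_apply, Loc_apply, map_add, h1, h2]

/-- localisation commutes with reversal -/
theorem Loc_rev' (M : Modes V ι κ) (a : Gr V) : Loc M (rev' a) = -Loc M a := by
  rw [Loc_apply, Loc_apply]
  simp only [form_rev', mul_neg, neg_smul, Finset.sum_neg_distrib, neg_add]

end Crest.Agent.R165.Locx901
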