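import Crest.Agent.R165.Lat_683
import Crest.Agent.R165.Loc_901

/-!
# Row 165 (S0250), block G5: modes, D4 and translation symmetries on the half-edge lattice of 683

Test functions are arbitrary functions on `HE ℤ`; `ev f` the functional they define on `Fld ℤ`.
* `m0 a b` constant modes, `m1 y u v s t` linear modes (affine light fields) about the face `y`
* `push φ s`, `pull φ s` : signed maps of half-edges acting on fields and test functions
* `tauV, rhoV, sigV` : translations, rotation, (real form of the) reflection, and their action on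
  the critical operator `Aop (wPl ℤ)` and on the modes
-/

set_option autoImplicit false

noncomputable section

namespace Crest.Agent.R165.PlaneModesx901

open Crest.Agent.R165.Gr0x606
open Crest.Agent.R165.Latx683
open Crest.Agent.R165.Locx901

/-- abbreviation for `√2` -/
def r2 : ℝ := Real.sqrt 2

theorem r2_sq : r2 * r2 = 2 := Real.mul_self_sqrt (by norm_num)
theorem r2_pos : 0 < r2 := Real.sqrt_pos.2 (by norm_num)
theorem xc_eq : xc = r2 - 1 := rfl
theorem r2_ne : r2 ≠ 0 := r2_pos.ne'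
theorem xc_sq : xc * xc = 1 - 2 * xc := by
  have := r2_sq
  rw [xc_eq]; nlinarith
theorem xc_pos : 0 < xc := by
  have h := r2_sq
  have := r2_pos
  rw [xc_eq]
  nlinarith [sq_nonneg (r2 - 1)]

/-- faces of the plane -/
abbrev Fc := ℤ × ℤ

/-- test functions -/
abbrev Tst := HE ℤ → ℝ

/-- the light field with components `c = a + i b` -/
def lt (a b : Fc → ℝ) : Tst := fun h =>
  ![-(r2 / 2) * (a h.1 + b h.1), a h.1, (r2 / 2) * (b h.1 - a h.1), -b h.1] h.2

/-- the heavy field with parameter `α = u + i v` -/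
def hv (u v : Fc → ℝ) : Tst := fun h =>
  ![u h.1 - v h.1, r2 * u h.1, u h.1 + v h.1, r2 * v h.1] h.2

theorem lt_S (a b : Fc → ℝ) (x : Fc) : lt a b (x, 0) = -(r2 / 2) * (a x + b x) := rfl
theorem lt_E (a b : Fc → ℝ) (x : Fc) : lt a b (x, 1) = a x := rfl
theorem lt_N (a b : Fc → ℝ) (x : Fc) : lt a b (x, 2) = (r2 / 2) * (b x - a x) := rfl
theorem lt_W (a b : Fc → ℝ) (x : Fc) : lt a b (x, 3) = -b x := rfl
theorem hv_S (a b : Fc → ℝ) (x : Fc) : hv a b (x, 0) = a x - b x := rfl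
theorem hv_E (a b : Fc → ℝ) (x : Fc) : hv a b (x, 1) = r2 * a x := rfl
theorem hv_N (a b : Fc → ℝ) (x : Fc) : hv a b (x, 2) = a x + b x := rfl
theorem hv_W (a b : Fc → ℝ) (x : Fc) : hv a b (x, 3) = r2 * b x := rfl

/-- constant modes -/
def m0 (a b : ℝ) : Tst := lt (fun _ => a) (fun _ => b)

/-- linear modes centred at `y`: `c = α z + β zbar`, `z = (x - y)` -/
def m1 (y : Fc) (u v s t : ℝ) : Tst :=
  lt (fun x => (u + s) * (x.1 - y.1 : ℤ) + (t - v) * (x.2 - y.2 : ℤ))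
     (fun x => (v + t) * (x.1 - y.1 : ℤ) + (u - s) * (x.2 - y.2 : ℤ)) +
  (xc / 4) • hv (fun _ => u) (fun _ => v)

/-- two test functions are equal if they agree in the four directions -/
theorem tst_ext {f g : Tst} (h0 : ∀ x, f (x, 0) = g (x, 0)) (h1 : ∀ x, f (x, 1) = g (x, 1))
    (h2 : ∀ x, f (x, 2) = g (x, 2)) (h3 : ∀ x, f (x, 3) = g (x, 3)) : f = g := by
  funext ⟨x, d⟩
  fin_cases d
  · exact h0 x
  · exact h1 x
  · exact h2 x
  · exact h3 x

/-- the critical operator of the plane -/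
abbrev Apl : Tst →ₗ[ℝ] Tst := Aop (wPl ℤ)

theorem Apl_S (f : Tst) (x : Fc) :
    Apl f (x, 0) = f (x, 1) + f (x, 2) + f (x, 3) + xc * f ((x.1, x.2 - 1), 2) := rfl
theorem Apl_E (f : Tst) (x : Fc) :
    Apl f (x, 1) = -f (x, 0) + f (x, 2) + f (x, 3) + xc * f ((x.1 + 1, x.2), 3) := rfl
theorem Apl_N (f : Tst) (x : Fc) :
    Apl f (x, 2) = -f (x, 0) - f (x, 1) + f (x, 3) - xc * f ((x.1, x.2 + 1), 0) := rfl
theorem Apl_W (f : Tst) (x : Fc) :
    Apl f (x, 3) = -f (x, 0) - f (x, 1) - f (x, 2) - xc * f ((x.1 - 1, x.2), 1) := rfl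

theorem Apl_m0 (a b : ℝ) : Apl (m0 a b) = 0 := by
  have h2 := r2_sq
  refine tst_ext ?_ ?_ ?_ ?_ <;> intro x
  · rw [Apl_S]; simp only [m0, lt_E, lt_N, lt_W, Pi.zero_apply, xc_eq]
    linear_combination (b - a) / 2 * h2
  · rw [Apl_E]; simp only [m0, lt_S, lt_N, lt_W, Pi.zero_apply, xc_eq]; ring
  · rw [Apl_N]; simp only [m0, lt_S, lt_E, lt_W, Pi.zero_apply, xc_eq]
    linear_combination (a + b) / 2 * h2
  · rw [Apl_W]; simp only [m0, lt_S, lt_E, lt_N, Pi.zero_apply, xc_eq]; ring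

/-- `A m1(α, β) = - x m0 (i conj β)` -/
theorem Apl_m1 (y : Fc) (u v s t : ℝ) : Apl (m1 y u v s t) = -xc • m0 t s := by
  have h2 := r2_sq
  refine tst_ext ?_ ?_ ?_ ?_ <;> intro x
  · rw [Apl_S]
    simp only [m1, m0, lt_S, lt_E, lt_N, lt_W, hv_S, hv_E, hv_N, hv_W, Pi.add_apply, Pi.smul_apply,
      smul_eq_mul, xc_eq, Int.cast_sub, Int.cast_one]
    grind
  · rw [Apl_E]
    simp only [m1, m0, lt_S, lt_E, lt_N, lt_W, hv_S, hv_E, hv_N, hv_W, Pi.add_apply, Pi.smul_apply,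
      smul_eq_mul, xc_eq, Int.cast_sub, Int.cast_add, Int.cast_one]
    grind
  · rw [Apl_N]
    simp only [m1, m0, lt_S, lt_E, lt_N, lt_W, hv_S, hv_E, hv_N, hv_W, Pi.add_apply, Pi.smul_apply,
      smul_eq_mul, xc_eq, Int.cast_sub, Int.cast_add, Int.cast_one]
    grind
  · rw [Apl_W]
    simp only [m1, m0, lt_S, lt_E, lt_N, lt_W, hv_S, hv_E, hv_N, hv_W, Pi.add_apply, Pi.smul_apply,
      smul_eq_mul, xc_eq, Int.cast_sub, Int.cast_one]
    grind

/-! ### signed maps of half-edges -/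

section signed

variable {G H K : Type}

/-- the functional of a test function -/
def ev (f : HE G → ℝ) : Module.Dual ℝ (Fld G) := Finsupp.linearCombination ℝ f

@[simp] theorem ev_single (f : HE G → ℝ) (h : HE G) (c : ℝ) :
    ev f (Finsupp.single h c) = c * f h := by
  simp [ev]

theorem ev_apply (f : HE G → ℝ) (v : Fld G) : ev f v = ∑ h ∈ v.support, v h * f h := by
  simp [ev, Finsupp.linearCombination_apply, Finsupp.sum]

theorem ev_add (f g : HE G → ℝ) : ev (f + g) = ev f + ev g := by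
  ext h; simp [mul_add]

theorem ev_smul (c : ℝ) (f : HE G → ℝ) : ev (c • f) = c • ev f := by
  ext h; simp

theorem ev_zero : ev (0 : HE G → ℝ) = 0 := by
  ext h; simp

/-- `ev` as a linear map -/
def evL : (HE G → ℝ) →ₗ[ℝ] Module.Dual ℝ (Fld G) where
  toFun := ev
  map_add' := ev_add
  map_smul' := ev_smul

@[simp] theorem evL_apply (f : HE G → ℝ) : evL f = ev f := rfl

theorem ev_congr {f g : HE G → ℝ} {v : Fld G} (h : ∀ x ∈ v.support, f x = g x) : ev f v = ev g v := by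
  rw [ev_apply, ev_apply]
  exact Finset.sum_congr rfl fun x hx => by rw [h x hx]

/-- action of a signed map on fields -/
def push (p : HE G → HE H) (s : HE G → ℝ) : Fld G →ₗ[ℝ] Fld H :=
  Finsupp.linearCombination ℝ fun h => s h • Finsupp.single (p h) (1 : ℝ)

/-- pull-back of test functions by a signed map -/
def pull (p : HE G → HE H) (s : HE G → ℝ) : (HE H → ℝ) →ₗ[ℝ] (HE G → ℝ) where
  toFun f h := s h * f (p h)
  map_add' f g := by funext h; simp [mul_add]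
  map_smul' c f := by funext h; simp only [Pi.smul_apply, smul_eq_mul, RingHom.id_apply]; ring

@[simp] theorem push_single (p : HE G → HE H) (s : HE G → ℝ) (h : HE G) :
    push p s (Finsupp.single h 1) = s h • Finsupp.single (p h) 1 := by
  simp [push]

theorem pull_apply (p : HE G → HE H) (s : HE G → ℝ) (f : HE H → ℝ) (h : HE G) :
    pull p s f h = s h * f (p h) := rfl

theorem ev_comp_push (p : HE G → HE H) (s : HE G → ℝ) (f : HE H → ℝ) :
    ev f ∘ₗ push p s = ev (pull p s f) := by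
  ext h
  simp [pull_apply]

theorem push_comp (p : HE G → HE H) (s : HE G → ℝ) (q : HE H → HE K) (t : HE H → ℝ) :
    push q t ∘ₗ push p s = push (q ∘ p) (fun h => s h * t (p h)) := by
  refine Finsupp.lhom_ext' fun h => LinearMap.ext_ring ?_
  simp only [LinearMap.comp_apply, Finsupp.lsingle_apply, push_single, map_smul,
    Function.comp_apply, smul_smul]

theorem push_id : push (id : HE G → HE G) (fun _ => 1) = LinearMap.id := by
  refine Finsupp.lhom_ext' fun h => LinearMap.ext_ring ?_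
  simp only [LinearMap.comp_apply, Finsupp.lsingle_apply, push_single, one_smul, id,
    LinearMap.id_apply]

theorem push_ph (p : HE G → HE H) (s : HE G → ℝ) (h : HE G) :
    mp (push p s) (ph h) = s h • ph (p h) := by
  rw [ph, mp_fi, push_single, ph, fi, fi, map_smul]

end signed

/-! ### lattice symmetries -/

/-- rotation by a right angle about the centre of the face `y` -/
def rot (y x : Fc) : Fc := (y.1 - (x.2 - y.2), y.2 + (x.1 - y.1))

/-- reflection `x₁ ↦ -x₁` about the centre of the face `y` -/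
def ref (y x : Fc) : Fc := (y.1 - (x.1 - y.1), x.2)

/-- translation of half-edges -/
def tauH (t : Fc) (h : HE ℤ) : HE ℤ := (h.1 + t, h.2)

/-- rotation of half-edges -/
def rhoH (y : Fc) (h : HE ℤ) : HE ℤ := (rot y h.1, ![1, 2, 3, 0] h.2)

/-- reflection of half-edges -/
def sigH (y : Fc) (h : HE ℤ) : HE ℤ := (ref y h.1, ![0, 3, 2, 1] h.2)

/-- signs of the rotation -/
def rhoSgn (h : HE ℤ) : ℝ := ![1, 1, 1, -1] h.2

/-- signs of the reflection -/
def sigSgn (h : HE ℤ) : ℝ := ![1, -1, -1, -1] h.2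

/-- translation pull-back -/
def tauS (t : Fc) : Tst →ₗ[ℝ] Tst := pull (tauH t) fun _ => 1

/-- rotation pull-back -/
def rhoS (y : Fc) : Tst →ₗ[ℝ] Tst := pull (rhoH y) rhoSgn

/-- reflection pull-back (the real form of the complex reflection, i.e. divided by `i`) -/
def sigS (y : Fc) : Tst →ₗ[ℝ] Tst := pull (sigH y) sigSgn

/-- translation of fields -/
def tauV (t : Fc) : Fld ℤ →ₗ[ℝ] Fld ℤ := push (tauH t) fun _ => 1

/-- rotation of fields -/
def rhoV (y : Fc) : Fld ℤ →ₗ[ℝ] Fld ℤ := push (rhoH y) rhoSgn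

/-- reflection of fields -/
def sigV (y : Fc) : Fld ℤ →ₗ[ℝ] Fld ℤ := push (sigH y) sigSgn

theorem ev_tauV (t : Fc) (f : Tst) : ev f ∘ₗ tauV t = ev (tauS t f) := ev_comp_push _ _ _
theorem ev_rhoV (y : Fc) (f : Tst) : ev f ∘ₗ rhoV y = ev (rhoS y f) := ev_comp_push _ _ _
theorem ev_sigV (y : Fc) (f : Tst) : ev f ∘ₗ sigV y = ev (sigS y f) := ev_comp_push _ _ _

theorem tauS_apply (t : Fc) (f : Tst) (h : HE ℤ) : tauS t f h = f (h.1 + t, h.2) := by
  simp [tauS, pull_apply, tauH]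

theorem rhoS_S (y : Fc) (f : Tst) (x : Fc) : rhoS y f (x, 0) = f (rot y x, 1) := by
  show rhoSgn (x, 0) * f (rhoH y (x, 0)) = _
  simp [rhoSgn, rhoH]
theorem rhoS_E (y : Fc) (f : Tst) (x : Fc) : rhoS y f (x, 1) = f (rot y x, 2) := by
  show rhoSgn (x, 1) * f (rhoH y (x, 1)) = _
  simp [rhoSgn, rhoH]
theorem rhoS_N (y : Fc) (f : Tst) (x : Fc) : rhoS y f (x, 2) = f (rot y x, 3) := by
  show rhoSgn (x, 2) * f (rhoH y (x, 2)) = _
  simp [rhoSgn, rhoH]
theorem rhoS_W (y : Fc) (f : Tst) (x : Fc) : rhoS y f (x, 3) = -f (rot y x, 0) := by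
  show rhoSgn (x, 3) * f (rhoH y (x, 3)) = _
  simp [rhoSgn, rhoH]
theorem sigS_S (y : Fc) (f : Tst) (x : Fc) : sigS y f (x, 0) = f (ref y x, 0) := by
  show sigSgn (x, 0) * f (sigH y (x, 0)) = _
  simp [sigSgn, sigH]
theorem sigS_E (y : Fc) (f : Tst) (x : Fc) : sigS y f (x, 1) = -f (ref y x, 3) := by
  show sigSgn (x, 1) * f (sigH y (x, 1)) = _
  simp [sigSgn, sigH]
theorem sigS_N (y : Fc) (f : Tst) (x : Fc) : sigS y f (x, 2) = -f (ref y x, 2) := by
  show sigSgn (x, 2) * f (sigH y (x, 2)) = _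
  simp [sigSgn, sigH]
theorem sigS_W (y : Fc) (f : Tst) (x : Fc) : sigS y f (x, 3) = -f (ref y x, 1) := by
  show sigSgn (x, 3) * f (sigH y (x, 3)) = _
  simp [sigSgn, sigH]

theorem Apl_tauS (t : Fc) (f : Tst) : Apl (tauS t f) = tauS t (Apl f) := by
  have e1 : ∀ x : Fc, ((x.1, x.2 - 1) : Fc) + t = ((x + t).1, (x + t).2 - 1) := fun x => by
    ext <;> simp [sub_add_eq_add_sub]
  have e2 : ∀ x : Fc, ((x.1 + 1, x.2) : Fc) + t = ((x + t).1 + 1, (x + t).2) := fun x => by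
    ext <;> simp [add_right_comm]
  have e3 : ∀ x : Fc, ((x.1, x.2 + 1) : Fc) + t = ((x + t).1, (x + t).2 + 1) := fun x => by
    ext <;> simp [add_right_comm]
  have e4 : ∀ x : Fc, ((x.1 - 1, x.2) : Fc) + t = ((x + t).1 - 1, (x + t).2) := fun x => by
    ext <;> simp [sub_add_eq_add_sub]
  refine tst_ext ?_ ?_ ?_ ?_ <;> intro x
  · simp only [tauS_apply, Apl_S, e1]
  · simp only [tauS_apply, Apl_E, e2]
  · simp only [tauS_apply, Apl_N, e3]
  · simp only [tauS_apply, Apl_W, e4]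

theorem rot_sub2 (y x : Fc) : rot y (x.1, x.2 - 1) = ((rot y x).1 + 1, (rot y x).2) := by
  ext <;> simp [rot] <;> ring
theorem rot_add1 (y x : Fc) : rot y (x.1 + 1, x.2) = ((rot y x).1, (rot y x).2 + 1) := by
  ext <;> simp [rot] <;> ring
theorem rot_add2 (y x : Fc) : rot y (x.1, x.2 + 1) = ((rot y x).1 - 1, (rot y x).2) := by
  ext <;> simp [rot] <;> ring
theorem rot_sub1 (y x : Fc) : rot y (x.1 - 1, x.2) = ((rot y x).1, (rot y x).2 - 1) := by
  ext <;> simp [rot] <;> ring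
theorem ref_sub2 (y x : Fc) : ref y (x.1, x.2 - 1) = ((ref y x).1, (ref y x).2 - 1) := by
  ext <;> simp [ref]
theorem ref_add2 (y x : Fc) : ref y (x.1, x.2 + 1) = ((ref y x).1, (ref y x).2 + 1) := by
  ext <;> simp [ref]
theorem ref_add1 (y x : Fc) : ref y (x.1 + 1, x.2) = ((ref y x).1 - 1, (ref y x).2) := by
  ext <;> simp [ref] <;> ring
theorem ref_sub1 (y x : Fc) : ref y (x.1 - 1, x.2) = ((ref y x).1 + 1, (ref y x).2) := by
  ext <;> simp [ref] <;> ring

theorem Apl_rhoS (y : Fc) (f : Tst) : Apl (rhoS y f) = rhoS y (Apl f) := by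
  refine tst_ext ?_ ?_ ?_ ?_ <;> intro x
  · rw [Apl_S, rhoS_S, rhoS_E, rhoS_N, rhoS_W, rhoS_N, Apl_E, rot_sub2]; ring
  · rw [Apl_E, rhoS_S, rhoS_E, rhoS_N, rhoS_W, rhoS_W, Apl_N, rot_add1]; ring
  · rw [Apl_N, rhoS_S, rhoS_E, rhoS_N, rhoS_W, rhoS_S, Apl_W, rot_add2]; ring
  · rw [Apl_W, rhoS_S, rhoS_E, rhoS_N, rhoS_W, rhoS_E, Apl_S, rot_sub1]; ring

theorem Apl_sigS (y : Fc) (f : Tst) : Apl (sigS y f) = -sigS y (Apl f) := by
  refine tst_ext ?_ ?_ ?_ ?_ <;> intro x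
  · rw [Pi.neg_apply, Apl_S, sigS_S, sigS_E, sigS_N, sigS_W, sigS_N, Apl_S, ref_sub2]; ring
  · rw [Pi.neg_apply, Apl_E, sigS_S, sigS_E, sigS_N, sigS_W, sigS_W, Apl_W, ref_add1]; ring
  · rw [Pi.neg_apply, Apl_N, sigS_S, sigS_E, sigS_N, sigS_W, sigS_S, Apl_N, ref_add2]; ring
  · rw [Pi.neg_apply, Apl_W, sigS_S, sigS_E, sigS_N, sigS_W, sigS_E, Apl_E, ref_sub1]; ring

/-! ### transformation of the modes -/

theorem tauS_m0 (t : Fc) (a b : ℝ) : tauS t (m0 a b) = m0 a b := by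
  funext h; rw [tauS_apply]; rfl

theorem tauS_m1 (t y : Fc) (u v s w : ℝ) : tauS t (m1 (y + t) u v s w) = m1 y u v s w := by
  refine tst_ext ?_ ?_ ?_ ?_ <;> intro x <;>
  simp only [tauS_apply, m1, lt_S, lt_E, lt_N, lt_W, hv_S, hv_E, hv_N, hv_W, Pi.add_apply,
    Pi.smul_apply, smul_eq_mul, Prod.fst_add, Prod.snd_add, add_sub_add_right_eq_sub]

theorem rhoS_m0 (y : Fc) (a b : ℝ) :
    rhoS y (m0 a b) = m0 ((r2 / 2) * (b - a)) (-(r2 / 2) * (a + b)) := by
  have h2 := r2_sq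
  refine tst_ext ?_ ?_ ?_ ?_ <;> intro x
  · rw [rhoS_S]; simp only [m0, lt_S, lt_E]; grind
  · rw [rhoS_E]; simp only [m0, lt_E, lt_N]
  · rw [rhoS_N]; simp only [m0, lt_N, lt_W]; grind
  · rw [rhoS_W]; simp only [m0, lt_W, lt_S]

theorem sigS_m0 (y : Fc) (a b : ℝ) : sigS y (m0 a b) = m0 b a := by
  refine tst_ext ?_ ?_ ?_ ?_ <;> intro x
  · rw [sigS_S]; simp only [m0, lt_S]; ring
  · rw [sigS_E]; simp only [m0, lt_E, lt_W]; ring
  · rw [sigS_N]; simp only [m0, lt_N]; ring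
  · rw [sigS_W]; simp only [m0, lt_W, lt_E]

/-- `α ↦ e^{-iπ/4} α`, `β ↦ e^{3iπ/4} β` -/
theorem rhoS_m1 (y : Fc) (u v s t : ℝ) :
    rhoS y (m1 y u v s t) = m1 y ((r2 / 2) * (u + v)) ((r2 / 2) * (v - u))
      (-(r2 / 2) * (s + t)) ((r2 / 2) * (s - t)) := by
  have h2 := r2_sq
  refine tst_ext ?_ ?_ ?_ ?_ <;> intro x
  · rw [rhoS_S]
    simp only [m1, lt_S, lt_E, hv_S, hv_E, Pi.add_apply, Pi.smul_apply, smul_eq_mul, rot]
    push_cast
    grind
  · rw [rhoS_E]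
    simp only [m1, lt_N, lt_E, hv_N, hv_E, Pi.add_apply, Pi.smul_apply, smul_eq_mul, rot]
    push_cast
    grind
  · rw [rhoS_N]
    simp only [m1, lt_N, lt_W, hv_N, hv_W, Pi.add_apply, Pi.smul_apply, smul_eq_mul, rot]
    push_cast
    grind
  · rw [rhoS_W]
    simp only [m1, lt_S, lt_W, hv_S, hv_W, Pi.add_apply, Pi.smul_apply, smul_eq_mul, rot]
    push_cast
    grind

/-- `α ↦ -i conj α`, `β ↦ -i conj β` -/
theorem sigS_m1 (y : Fc) (u v s t : ℝ) :
    sigS y (m1 y u v s t) = m1 y (-v) (-u) (-t) (-s) := by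
  refine tst_ext ?_ ?_ ?_ ?_ <;> intro x
  · rw [sigS_S]
    simp only [m1, lt_S, hv_S, Pi.add_apply, Pi.smul_apply, smul_eq_mul, ref]
    push_cast
    ring
  · rw [sigS_E]
    simp only [m1, lt_E, lt_W, hv_E, hv_W, Pi.add_apply, Pi.smul_apply, smul_eq_mul, ref]
    push_cast
    ring
  · rw [sigS_N]
    simp only [m1, lt_N, hv_N, Pi.add_apply, Pi.smul_apply, smul_eq_mul, ref]
    push_cast
    ring
  · rw [sigS_W]
    simp only [m1, lt_E, lt_W, hv_E, hv_W, Pi.add_apply, Pi.smul_apply, smul_eq_mul, ref]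
    push_cast
    ring

/-! ### classification of the invariant bilinear forms -/

theorem m0_eq (a b : ℝ) : m0 a b = a • m0 1 0 + b • m0 0 1 := by
  refine tst_ext ?_ ?_ ?_ ?_ <;> intro x <;>
    simp only [m0, lt_S, lt_E, lt_N, lt_W, Pi.add_apply, Pi.smul_apply, smul_eq_mul] <;> ring

theorem m1_eq (y : Fc) (u v s t : ℝ) : m1 y u v s t =
    u • m1 y 1 0 0 0 + v • m1 y 0 1 0 0 + s • m1 y 0 0 1 0 + t • m1 y 0 0 0 1 := by
  refine tst_ext ?_ ?_ ?_ ?_ <;> intro x <;>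
    simp only [m1, lt_S, lt_E, lt_N, lt_W, hv_S, hv_E, hv_N, hv_W, Pi.add_apply, Pi.smul_apply,
      smul_eq_mul] <;> ring

/-- an alternating form on the constant modes is a multiple of `Im (conj c c')` -/
theorem form_m0 (K : Tst →ₗ[ℝ] Tst →ₗ[ℝ] ℝ) (hK : ∀ f, K f f = 0) (a b a' b' : ℝ) :
    K (m0 a b) (m0 a' b') = (a * b' - b * a') * K (m0 1 0) (m0 0 1) := by
  have h : K (m0 0 1) (m0 1 0) = -K (m0 1 0) (m0 0 1) := by
    have := hK (m0 1 0 + m0 0 1)
    simp only [map_add, LinearMap.add_apply, hK, zero_add, add_zero] at this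
    linarith
  rw [m0_eq a b, m0_eq a' b']
  simp only [map_add, LinearMap.add_apply, map_smul, LinearMap.smul_apply, hK, smul_eq_mul, h]
  ring

/-- **classification**: a D4-covariant form is, on constant × linear modes, a multiple of
`Im (c β)` -/
theorem form_m1 (K : Tst →ₗ[ℝ] Tst →ₗ[ℝ] ℝ) (y : Fc)
    (hr : ∀ f g, K (rhoS y f) (rhoS y g) = K f g)
    (hs : ∀ f g, K (sigS y f) (sigS y g) = -K f g) (a b u v s t : ℝ) :
    K (m0 a b) (m1 y u v s t) = (a * t + b * s) * K (m0 1 0) (m1 y 0 0 0 1) := by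
  have h2 := r2_sq
  have e1 := hr (m0 1 0) (m1 y 1 0 0 0)
  have e2 := hr (m0 1 0) (m1 y 0 1 0 0)
  have e3 := hr (m0 1 0) (m1 y 0 0 1 0)
  have e4 := hr (m0 1 0) (m1 y 0 0 0 1)
  have e5 := hr (m0 0 1) (m1 y 1 0 0 0)
  have e6 := hr (m0 0 1) (m1 y 0 1 0 0)
  have e7 := hr (m0 0 1) (m1 y 0 0 1 0)
  have e8 := hr (m0 0 1) (m1 y 0 0 0 1)
  have g3 := hs (m0 1 0) (m1 y 0 0 1 0)
  have g4 := hs (m0 1 0) (m1 y 0 0 0 1)
  have g7 := hs (m0 0 1) (m1 y 0 0 1 0)
  have g8 := hs (m0 0 1) (m1 y 0 0 0 1)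
  rw [rhoS_m0, rhoS_m1, m0_eq, m1_eq] at e1 e2 e3 e4 e5 e6 e7 e8
  rw [sigS_m0, sigS_m1, m0_eq, m1_eq] at g3 g4 g7 g8
  rw [m0_eq a b, m1_eq y u v s t]
  simp only [map_add, LinearMap.add_apply, map_smul, LinearMap.smul_apply, smul_eq_mul] at *
  generalize K (m0 1 0) (m1 y 1 0 0 0) = k1 at *
  generalize K (m0 1 0) (m1 y 0 1 0 0) = k2 at *
  generalize K (m0 1 0) (m1 y 0 0 1 0) = k3 at *
  generalize K (m0 1 0) (m1 y 0 0 0 1) = k4 at *
  generalize K (m0 0 1) (m1 y 1 0 0 0) = l1 at *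
  generalize K (m0 0 1) (m1 y 0 1 0 0) = l2 at *
  generalize K (m0 0 1) (m1 y 0 0 1 0) = l3 at *
  generalize K (m0 0 1) (m1 y 0 0 0 1) = l4 at *
  have hh : (r2 / 2) * (r2 / 2) = 1 / 2 := by linear_combination h2 / 4
  have q1 : k1 = 0 := by grind
  have q2 : k2 = 0 := by grind
  have q5 : l1 = 0 := by grind
  have q6 : l2 = 0 := by grind
  have q3 : k3 = 0 := by grind
  have q8 : l4 = 0 := by grind
  have q7 : l3 = k4 := by grind
  rw [q1, q2, q5, q6, q3, q8, q7]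
  ring

end Crest.Agent.R165.PlaneModesx901
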