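import Crest.Agent.R165.Wt_898
import Crest.Agent.R165.Bridge_915
import Crest.Agent.R165.PlaneModes_901
import Crest.Agent.R165.GrLoc_337

/-!
# Row 165 (S0250), block G: the weights are invariant under local isometries and gauges (helper898)

`LCh w v Z τ s` : the chart `τ` (isometric, compatible with the unit steps) and the gauge `s` carry
the background `w` on the faces of `Z` to the background `v`. (`PlaneLike w Z` is the case
`v = wPl ℤ`: `LCh.of_planeLike`.)

* `Aop_pull`, `iter_pull` : `Aⁿ` commutes with the pull-back of test functions inside `Z`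
* `surj_ball` : balls inside `Z` are mapped onto balls
* `L2on_pull`, `nnB_pull` : equality of the local test norms
* `LCh.inv` : the inverse chart
* `dn_push`, `wt_push` : **equality of the weights**
* `wU_push_le`, `wU_pull_le`, `pnorm_push` : **equality of the norms of the activities**
-/

set_option autoImplicit false
set_option linter.unusedSectionVars false

noncomputable section

open scoped ENNReal
open Crest.Agent.R165.Gr0x606 Crest.Agent.R165.Latx683 Crest.Agent.R165.PNormx417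
  Crest.Agent.R165.GDefx387 Crest.Agent.R165.Wtx898 Crest.Agent.R165.PlaneModesx901
  Crest.Agent.R165.Bridgex915 Crest.Agent.R165.GrLocx337

namespace Crest.Agent.R165.WtIsox898

variable {G : Type} [CommRing G] [CN G] {H : Type} [CommRing H] [CN H]

/-! ### steps -/

theorem cn_one_nat (n : ℕ) : cn (n : G) ≤ n := by
  induction n with
  | zero => rw [Nat.cast_zero, CN.cn_zero]
  | succ n ih =>
    rw [Nat.cast_succ]
    exact (CN.cn_add _ _).trans (add_le_add ih CN.cn_one)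

theorem cn_int_le (i : ℤ) : cn (i : G) ≤ i.natAbs := by
  rcases Int.natAbs_eq i with h | h
  · have := cn_one_nat (G := G) i.natAbs
    rwa [← Int.cast_natCast, ← h] at this
  · have := cn_one_nat (G := G) i.natAbs
    rw [← CN.cn_neg, ← Int.cast_natCast, ← Int.cast_neg, ← h] at this
    exact this

theorem fd_add_int_le (f : G × G) (i j : ℤ) {n : ℕ} (hi : i.natAbs ≤ n) (hj : j.natAbs ≤ n) :
    fd f (f.1 + i, f.2 + j) ≤ n := by
  unfold fd
  refine max_le ?_ ?_
  · have : f.1 - (f.1 + i) = -(i : G) := by ring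
    rw [this, CN.cn_neg]; exact (cn_int_le i).trans hi
  · have : f.2 - (f.2 + j) = -(j : G) := by ring
    rw [this, CN.cn_neg]; exact (cn_int_le j).trans hj

theorem step_e1 (f : G × G) : (f.1 + 1, f.2) ∈ ball f 1 := by
  have := fd_add_int_le f 1 0 (n := 1) (by simp) (by simp)
  simpa [mem_ball] using this

theorem step_e2 (f : G × G) : (f.1, f.2 + 1) ∈ ball f 1 := by
  have := fd_add_int_le f 0 1 (n := 1) (by simp) (by simp)
  simpa [mem_ball] using this

theorem step_e1' (f : G × G) : (f.1 - 1, f.2) ∈ ball f 1 := by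
  have := fd_add_int_le f (-1) 0 (n := 1) (by simp) (by simp)
  simpa [mem_ball, sub_eq_add_neg] using this

theorem step_e2' (f : G × G) : (f.1, f.2 - 1) ∈ ball f 1 := by
  have := fd_add_int_le f 0 (-1) (n := 1) (by simp) (by simp)
  simpa [mem_ball, sub_eq_add_neg] using this

theorem self_mem_ball (f : G × G) (n : ℕ) : f ∈ ball f n := by rw [mem_ball, fd_self]; omega

/-- `A` only sees the neighbouring faces -/
theorem Aop_congr (w : BW G) {φ ψ : HE G → ℝ} {f : G × G}
    (h : ∀ g ∈ ball f 1, ∀ d, φ (g, d) = ψ (g, d)) (d : Fin 4) :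
    Aop w φ (f, d) = Aop w ψ (f, d) := by
  have h0 := h f (self_mem_ball f 1)
  have h1 := h _ (step_e1 f)
  have h2 := h _ (step_e2 f)
  have h3 := h _ (step_e1' f)
  have h4 := h _ (step_e2' f)
  fin_cases d
  · show Aop w φ (f, 0) = Aop w ψ (f, 0)
    rw [Aop_S, Aop_S, h0, h0, h0, h4]
  · show Aop w φ (f, 1) = Aop w ψ (f, 1)
    rw [Aop_E, Aop_E, h0, h0, h0, h1]
  · show Aop w φ (f, 2) = Aop w ψ (f, 2)
    rw [Aop_N, Aop_N, h0, h0, h0, h2]
  · show Aop w φ (f, 3) = Aop w ψ (f, 3)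
    rw [Aop_W, Aop_W, h0, h0, h0, h3]

/-! ### local charts -/

/-- local isometry and gauge between two backgrounds -/
structure LCh (w : BW G) (v : BW H) (Z : Set (G × G)) (τ : G × G → H × H) (s : G × G → ℝ) :
    Prop where
  sq : ∀ f ∈ Z, s f * s f = 1
  iso : ∀ f ∈ Z, ∀ g ∈ Z, fd (τ f) (τ g) = fd f g
  e1 : ∀ f ∈ Z, (f.1 + 1, f.2) ∈ Z → τ (f.1 + 1, f.2) = ((τ f).1 + 1, (τ f).2)
  e2 : ∀ f ∈ Z, (f.1, f.2 + 1) ∈ Z → τ (f.1, f.2 + 1) = ((τ f).1, (τ f).2 + 1)
  wE : ∀ f ∈ Z, (f.1 + 1, f.2) ∈ Z → yE w f = s f * s (f.1 + 1, f.2) * yE v (τ f)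
  wN : ∀ f ∈ Z, (f.1, f.2 + 1) ∈ Z → yN w f = s f * s (f.1, f.2 + 1) * yN v (τ f)

theorem LCh.of_planeLike {w : BW G} {Z : Set (G × G)} (p : PlaneLike w Z) :
    LCh w (wPl ℤ) Z p.τ p.s where
  sq f _ := p.sq f
  iso := p.iso
  e1 := p.e1
  e2 := p.e2
  wE := p.wE
  wN := p.wN

/-- the map of half-edges of a map of faces -/
def hm (τ : G × G → H × H) : HE G → HE H := fun h => (τ h.1, h.2)

/-- the signs of half-edges of a gauge -/
def hs (s : G × G → ℝ) : HE G → ℝ := fun h => s h.1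

section chart

variable {w : BW G} {v : BW H} {Z : Set (G × G)} {τ : G × G → H × H} {s : G × G → ℝ}

theorem LCh.mono (c : LCh w v Z τ s) {Z' : Set (G × G)} (h : Z' ⊆ Z) : LCh w v Z' τ s where
  sq f hf := c.sq f (h hf)
  iso f hf g hg := c.iso f (h hf) g (h hg)
  e1 f hf hg := c.e1 f (h hf) (h hg)
  e2 f hf hg := c.e2 f (h hf) (h hg)
  wE f hf hg := c.wE f (h hf) (h hg)
  wN f hf hg := c.wN f (h hf) (h hg)

theorem LCh.inj (c : LCh w v Z τ s) {f g : G × G} (hf : f ∈ Z) (hg : g ∈ Z) (h : τ f = τ g) :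
    f = g := by
  refine eq_of_fd ?_
  rw [← c.iso f hf g hg, h, fd_self]

theorem LCh.e1' (c : LCh w v Z τ s) {f : G × G} (hf : f ∈ Z) (hg : (f.1 - 1, f.2) ∈ Z) :
    τ (f.1 - 1, f.2) = ((τ f).1 - 1, (τ f).2) := by
  have h := c.e1 _ hg (by simpa using hf)
  simp only [sub_add_cancel] at h
  rw [show (f.1, f.2) = f from rfl] at h
  rw [h]; simp

theorem LCh.e2' (c : LCh w v Z τ s) {f : G × G} (hf : f ∈ Z) (hg : (f.1, f.2 - 1) ∈ Z) :
    τ (f.1, f.2 - 1) = ((τ f).1, (τ f).2 - 1) := by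
  have h := c.e2 _ hg (by simpa using hf)
  simp only [sub_add_cancel] at h
  rw [show (f.1, f.2) = f from rfl] at h
  rw [h]; simp

theorem LCh.wE' (c : LCh w v Z τ s) {f : G × G} (hf : f ∈ Z) (hg : (f.1 - 1, f.2) ∈ Z) :
    yE w (f.1 - 1, f.2) = s (f.1 - 1, f.2) * s f * yE v ((τ f).1 - 1, (τ f).2) := by
  have h := c.wE _ hg (by simpa using hf)
  simp only [sub_add_cancel] at h
  rw [show (f.1, f.2) = f from rfl, c.e1' hf hg] at h
  exact h

theorem LCh.wN' (c : LCh w v Z τ s) {f : G × G} (hf : f ∈ Z) (hg : (f.1, f.2 - 1) ∈ Z) :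
    yN w (f.1, f.2 - 1) = s (f.1, f.2 - 1) * s f * yN v ((τ f).1, (τ f).2 - 1) := by
  have h := c.wN _ hg (by simpa using hf)
  simp only [sub_add_cancel] at h
  rw [show (f.1, f.2) = f from rfl, c.e2' hf hg] at h
  exact h

/-- `A` commutes with the pull-back of test functions -/
theorem LCh.Aop_pull (c : LCh w v Z τ s) (F : HE H → ℝ) {f : G × G} (hf : ball f 1 ⊆ Z)
    (d : Fin 4) : Aop w (pull (hm τ) (hs s) F) (f, d) = s f * Aop v F (τ f, d) := by
  have h0 : f ∈ Z := hf (self_mem_ball f 1)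
  have hp : ∀ (g : G × G) (e : Fin 4), pull (hm τ) (hs s) F (g, e) = s g * F (τ g, e) :=
    fun g e => rfl
  fin_cases d
  · show Aop w _ (f, 0) = s f * Aop v F (τ f, 0)
    have h4 := hf (step_e2' f)
    have hs4 := c.sq _ h4
    rw [Aop_S, Aop_S, hp, hp, hp, hp, c.wN' h0 h4, c.e2' h0 h4]
    linear_combination (s f * yN v ((τ f).1, (τ f).2 - 1) * F (((τ f).1, (τ f).2 - 1), 2)) * hs4
  · show Aop w _ (f, 1) = s f * Aop v F (τ f, 1)
    have h4 := hf (step_e1 f)
    have hs4 := c.sq _ h4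
    rw [Aop_E, Aop_E, hp, hp, hp, hp, c.wE _ h0 h4, c.e1 _ h0 h4]
    linear_combination (s f * yE v (τ f) * F (((τ f).1 + 1, (τ f).2), 3)) * hs4
  · show Aop w _ (f, 2) = s f * Aop v F (τ f, 2)
    have h4 := hf (step_e2 f)
    have hs4 := c.sq _ h4
    rw [Aop_N, Aop_N, hp, hp, hp, hp, c.wN _ h0 h4, c.e2 _ h0 h4]
    linear_combination (-(s f * yN v (τ f) * F (((τ f).1, (τ f).2 + 1), 0))) * hs4
  · show Aop w _ (f, 3) = s f * Aop v F (τ f, 3)
    have h4 := hf (step_e1' f)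
    have hs4 := c.sq _ h4
    rw [Aop_W, Aop_W, hp, hp, hp, hp, c.wE' h0 h4, c.e1' h0 h4]
    linear_combination (-(s f * yE v ((τ f).1 - 1, (τ f).2) * F (((τ f).1 - 1, (τ f).2), 1))) * hs4

theorem LCh.iter_pull (c : LCh w v Z τ s) (F : HE H → ℝ) (n : ℕ) {f : G × G} (hf : ball f n ⊆ Z)
    (d : Fin 4) : (Aop w)^[n] (pull (hm τ) (hs s) F) (f, d) = s f * (Aop v)^[n] F (τ f, d) := by
  induction n generalizing f d with
  | zero => rfl
  | succ n ih =>
    rw [Function.iterate_succ_apply', Function.iterate_succ_apply',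
      ← c.Aop_pull ((Aop v)^[n] F) (fun g hg => hf (ball_mono f (by omega) hg)) d]
    refine Aop_congr w (fun g hg e => ?_) d
    refine ih (fun k hk => hf ?_) e
    rw [mem_ball] at hg hk ⊢
    exact (fd_triangle f g k).trans (by omega)

/-- the chart is a translation on balls -/
theorem LCh.tau_add (c : LCh w v Z τ s) {x : G × G} {R : ℕ} (hx : ball x R ⊆ Z) (i j : ℤ)
    (hi : i.natAbs ≤ R) (hj : j.natAbs ≤ R) :
    τ (x.1 + i, x.2 + j) = ((τ x).1 + i, (τ x).2 + j) := by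
  -- first along the first coordinate
  have key1 : ∀ n : ℕ, n ≤ R → τ (x.1 + (n : ℤ), x.2) = ((τ x).1 + (n : ℤ), (τ x).2) ∧
      τ (x.1 + (-(n : ℤ) : ℤ), x.2) = ((τ x).1 + (-(n : ℤ) : ℤ), (τ x).2) := by
    intro n
    induction n with
    | zero => intro _; simp
    | succ n ih =>
      intro hn
      obtain ⟨h1, h2⟩ := ih (by omega)
      have m1 : (x.1 + ((n : ℤ) : G), x.2) ∈ Z := by
        have := fd_add_int_le x n 0 (n := R) (by simp; omega) (by simp)
        exact hx (by simpa [mem_ball] using this)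
      have m2 : (x.1 + ((-(n : ℤ) : ℤ) : G), x.2) ∈ Z := by
        have := fd_add_int_le x (-n) 0 (n := R) (by simp; omega) (by simp)
        exact hx (by simpa [mem_ball] using this)
      have m1' : (x.1 + ((n : ℤ) : G) + 1, x.2) ∈ Z := by
        have := fd_add_int_le x (n + 1) 0 (n := R) (by omega) (by simp)
        exact hx (by simpa [mem_ball, add_assoc] using this)
      have m2' : (x.1 + ((-(n : ℤ) : ℤ) : G) - 1, x.2) ∈ Z := by
        have := fd_add_int_le x (-(n + 1)) 0 (n := R) (by omega) (by simp)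
        exact hx (by simpa [mem_ball, add_assoc, sub_eq_add_neg, add_comm] using this)
      constructor
      · have := c.e1 _ m1 m1'
        rw [h1] at this
        simpa [add_assoc] using this
      · have := c.e1' m2 m2'
        rw [h2] at this
        simpa [add_assoc, sub_eq_add_neg, add_comm] using this
  have key1' : τ (x.1 + i, x.2) = ((τ x).1 + i, (τ x).2) := by
    rcases Int.natAbs_eq i with h | h
    · rw [h]; exact (key1 i.natAbs hi).1
    · rw [h]; exact (key1 i.natAbs hi).2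
  have key2 : ∀ n : ℕ, n ≤ R →
      τ (x.1 + i, x.2 + (n : ℤ)) = ((τ x).1 + i, (τ x).2 + (n : ℤ)) ∧
      τ (x.1 + i, x.2 + (-(n : ℤ) : ℤ)) = ((τ x).1 + i, (τ x).2 + (-(n : ℤ) : ℤ)) := by
    intro n
    induction n with
    | zero => intro _; simpa using key1'
    | succ n ih =>
      intro hn
      obtain ⟨h1, h2⟩ := ih (by omega)
      have m1 : (x.1 + i, x.2 + ((n : ℤ) : G)) ∈ Z :=
        hx (fd_add_int_le x i n (n := R) hi (by simp; omega))
      have m2 : (x.1 + i, x.2 + ((-(n : ℤ) : ℤ) : G)) ∈ Z :=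
        hx (fd_add_int_le x i (-n) (n := R) hi (by simp; omega))
      have m1' : (x.1 + i, x.2 + ((n : ℤ) : G) + 1) ∈ Z := by
        have := fd_add_int_le x i (n + 1) (n := R) hi (by omega)
        exact hx (by simpa [mem_ball, add_assoc] using this)
      have m2' : (x.1 + i, x.2 + ((-(n : ℤ) : ℤ) : G) - 1) ∈ Z := by
        have := fd_add_int_le x i (-(n + 1)) (n := R) hi (by omega)
        exact hx (by simpa [mem_ball, add_assoc, sub_eq_add_neg, add_comm] using this)
      constructor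
      · have := c.e2 _ m1 m1'
        rw [h1] at this
        simpa [add_assoc] using this
      · have := c.e2' m2 m2'
        rw [h2] at this
        simpa [add_assoc, sub_eq_add_neg, add_comm] using this
  rcases Int.natAbs_eq j with h | h
  · rw [h]; exact (key2 j.natAbs hj).1
  · rw [h]; exact (key2 j.natAbs hj).2

/-- balls inside `Z` are mapped onto balls -/
theorem LCh.surj_ball [GoodG H] (c : LCh w v Z τ s) {x : G × G} {R : ℕ} (hx : ball x R ⊆ Z)
    {g : H × H} (hg : g ∈ ball (τ x) R) : ∃ f ∈ ball x R, τ f = g := by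
  rw [mem_ball, fd_eq_dG, MetGx723.dG_comm] at hg
  obtain ⟨i, j, hi, hj, rfl⟩ := MetGx723.exists_disp hg
  exact ⟨(x.1 + i, x.2 + j), fd_add_int_le x i j hi hj, c.tau_add hx i j hi hj⟩

theorem LCh.map_ball (c : LCh w v Z τ s) {x f : G × G} {R : ℕ} (hx : x ∈ Z) (hf : f ∈ Z) :
    τ f ∈ ball (τ x) R ↔ f ∈ ball x R := by
  rw [mem_ball, mem_ball, c.iso x hx f hf]

theorem LCh.L2on_pull [GoodG H] (c : LCh w v Z τ s) {x : G × G} {R : ℕ} (hx : ball x R ⊆ Z)
    (F : HE H → ℝ) : L2on (ball x R) (pull (hm τ) (hs s) F) = L2on (ball (τ x) R) F := by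
  have hxZ : x ∈ Z := hx (self_mem_ball x R)
  rw [← abs_of_nonneg (L2on_nonneg (ball x R) _), ← abs_of_nonneg (L2on_nonneg (ball (τ x) R) F)]
  refine (sq_eq_sq_iff_abs_eq_abs _ _).1 ?_
  rw [L2on_sq (ball_finite x R), L2on_sq (ball_finite (τ x) R)]
  refine Finset.sum_bij (fun h _ => hm τ h) ?_ ?_ ?_ ?_
  · intro h hh
    rw [Finset.mem_product, Set.Finite.mem_toFinset] at hh ⊢
    exact ⟨(c.map_ball hxZ (hx hh.1)).2 hh.1, Finset.mem_univ _⟩
  · intro h hh h' hh' e
    rw [Finset.mem_product, Set.Finite.mem_toFinset] at hh hh'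
    have e1 : τ h.1 = τ h'.1 := congrArg (fun q : HE H => q.1) e
    have e2 : h.2 = h'.2 := congrArg (fun q : HE H => q.2) e
    exact Prod.ext (c.inj (hx hh.1) (hx hh'.1) e1) e2
  · intro g hg
    rw [Finset.mem_product, Set.Finite.mem_toFinset] at hg
    obtain ⟨f, hf, hfg⟩ := c.surj_ball hx hg.1
    refine ⟨(f, g.2), ?_, ?_⟩
    · rw [Finset.mem_product, Set.Finite.mem_toFinset]; exact ⟨hf, Finset.mem_univ _⟩
    · exact Prod.ext hfg rfl
  · intro h hh
    rw [Finset.mem_product, Set.Finite.mem_toFinset] at hh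
    rw [pull_apply, mul_pow]
    have : hs s h ^ 2 = 1 := by rw [pow_two]; exact c.sq _ (hx hh.1)
    rw [this, one_mul]

/-- **equality of the local test norms** -/
theorem LCh.nnB_pull [GoodG H] (c : LCh w v Z τ s) {x : G × G} {r : ℕ}
    (hx : ball x (s1 * r + MM) ⊆ Z) (F : HE H → ℝ) :
    nnB w r x (pull (hm τ) (hs s) F) = nnB v r (τ x) F := by
  rw [nnB_eq, nnB_eq]
  refine Finset.sum_congr rfl fun n hn => ?_
  have hn' : n ≤ MM := by have := Finset.mem_range.1 hn; omega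
  have hb : ball x (s1 * r) ⊆ Z := (ball_mono x (by omega)).trans hx
  rw [← c.L2on_pull hb ((Aop v)^[n] F)]
  congr 1
  refine L2on_congr fun e he => ?_
  obtain ⟨f, d⟩ := e
  rw [c.iter_pull F n (f := f) (d := d)]
  · rfl
  · refine (ball_subset_ball ?_).trans hx
    have : fd x f ≤ s1 * r := he
    omega

theorem pair_eq_ev (l : Fld G) (f : HE G → ℝ) : pair l f = ev f l := by
  rw [ev_apply, pair_eq_sum]

theorem pair_push (p : HE G → HE H) (σ : HE G → ℝ) (l : Fld G) (F : HE H → ℝ) :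
    pair (push p σ l) F = pair l (pull p σ F) := by
  rw [pair_eq_ev, pair_eq_ev, ← ev_comp_push]; rfl

/-- the inverse chart -/
theorem LCh.inv [GoodG H] (c : LCh w v Z τ s) {τ' : H × H → G × G} (hτ : ∀ f ∈ Z, τ' (τ f) = f)
    {x : G × G} {R : ℕ} (hx : ball x (R + 1) ⊆ Z) :
    LCh v w (ball (τ x) R) τ' (fun g => s (τ' g)) := by
  have hR : ball x R ⊆ Z := (ball_mono x (by omega)).trans hx
  have hs1 : ∀ f ∈ ball x R, (f.1 + 1, f.2) ∈ Z := fun f hf => hx (by
    have h1 := step_e1 f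
    rw [mem_ball] at hf h1 ⊢
    exact (fd_triangle x f _).trans (by omega))
  have hs2 : ∀ f ∈ ball x R, (f.1, f.2 + 1) ∈ Z := fun f hf => hx (by
    have h1 := step_e2 f
    rw [mem_ball] at hf h1 ⊢
    exact (fd_triangle x f _).trans (by omega))
  refine ⟨?_, ?_, ?_, ?_, ?_, ?_⟩
  · intro f' hf'
    obtain ⟨f, hf, rfl⟩ := c.surj_ball hR hf'
    simp only [hτ f (hR hf)]
    exact c.sq f (hR hf)
  · intro f' hf' g' hg'
    obtain ⟨f, hf, rfl⟩ := c.surj_ball hR hf'
    obtain ⟨g, hg, rfl⟩ := c.surj_ball hR hg'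
    rw [hτ f (hR hf), hτ g (hR hg), c.iso f (hR hf) g (hR hg)]
  · intro f' hf' _
    obtain ⟨f, hf, rfl⟩ := c.surj_ball hR hf'
    rw [← c.e1 f (hR hf) (hs1 f hf), hτ f (hR hf), hτ _ (hs1 f hf)]
  · intro f' hf' _
    obtain ⟨f, hf, rfl⟩ := c.surj_ball hR hf'
    rw [← c.e2 f (hR hf) (hs2 f hf), hτ f (hR hf), hτ _ (hs2 f hf)]
  · intro f' hf' _
    obtain ⟨f, hf, rfl⟩ := c.surj_ball hR hf'
    rw [← c.e1 f (hR hf) (hs1 f hf)]
    simp only [hτ f (hR hf), hτ _ (hs1 f hf)]
    rw [c.wE f (hR hf) (hs1 f hf)]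
    linear_combination (-(yE v (τ f)) * (s (f.1 + 1, f.2) * s (f.1 + 1, f.2))) * c.sq f (hR hf) -
      yE v (τ f) * c.sq _ (hs1 f hf)
  · intro f' hf' _
    obtain ⟨f, hf, rfl⟩ := c.surj_ball hR hf'
    rw [← c.e2 f (hR hf) (hs2 f hf)]
    simp only [hτ f (hR hf), hτ _ (hs2 f hf)]
    rw [c.wN f (hR hf) (hs2 f hf)]
    linear_combination (-(yN v (τ f)) * (s (f.1, f.2 + 1) * s (f.1, f.2 + 1))) * c.sq f (hR hf) -
      yN v (τ f) * c.sq _ (hs2 f hf)

/-- one half of the equality of the dual norms, no support condition -/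
theorem LCh.dn_push_le [GoodG H] (c : LCh w v Z τ s) {x : G × G} {r : ℕ}
    (hx : ball x (s1 * r + MM) ⊆ Z) (l : Fld G) :
    dn v r (τ x) (push (hm τ) (hs s) l) ≤ dn w r x l :=
  dn_le fun F hF => by
    rw [pair_push]
    exact le_dn (by rw [c.nnB_pull hx]; exact hF) l

theorem LCh.pull_pull (c : LCh w v Z τ s) {τ' : H × H → G × G} (hτ : ∀ f ∈ Z, τ' (τ f) = f)
    (F : HE G → ℝ) {h : HE G} (hh : h.1 ∈ Z) :
    pull (hm τ) (hs s) (pull (hm τ') (hs fun g => s (τ' g)) F) h = F h := by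
  rw [pull_apply, pull_apply]
  have h1 : hm τ' (hm τ h) = h := Prod.ext (hτ _ hh) rfl
  have h2 : hs (fun g => s (τ' g)) (hm τ h) = s h.1 := by
    show s (τ' (τ h.1)) = s h.1
    rw [hτ _ hh]
  rw [h1, h2]
  have := c.sq _ hh
  show s h.1 * (s h.1 * F h) = F h
  rw [← mul_assoc, this, one_mul]

/-- **equality of the dual norms** -/
theorem LCh.dn_push [GoodG G] [GoodG H] (c : LCh w v Z τ s) {τ' : H × H → G × G}
    (hτ : ∀ f ∈ Z, τ' (τ f) = f) {x : G × G} {r : ℕ} (hx : ball x (s1 * r + MM + 1) ⊆ Z)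
    {l : Fld G} (hl : SuppL Z l) : dn v r (τ x) (push (hm τ) (hs s) l) = dn w r x l := by
  have hx' : ball x (s1 * r + MM) ⊆ Z := (ball_mono x (by omega)).trans hx
  refine le_antisymm (c.dn_push_le hx' l) (dn_le fun f hf => ?_)
  have c' := c.inv hτ hx
  have hxZ : x ∈ Z := hx (self_mem_ball x _)
  have h1 : nnB v r (τ x) (pull (hm τ') (hs fun g => s (τ' g)) f) ≤ 1 := by
    rw [c'.nnB_pull (x := τ x) subset_rfl, hτ x hxZ]; exact hf
  have h2 := le_dn h1 (push (hm τ) (hs s) l)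
  rw [pair_push] at h2
  refine le_trans (le_of_eq ?_) h2
  congr 2
  exact (pair_congr hl fun e he => c.pull_pull hτ f he).symm

/-- **equality of the weights** under a local isometry and a gauge -/
theorem LCh.wt_push [GoodG G] [GoodG H] (c : LCh w v Z τ s) {τ' : H × H → G × G}
    (hτ : ∀ f ∈ Z, τ' (τ f) = f) {x : G × G} {r : ℕ} (hx : ball x (s1 * r + MM + 1) ⊆ Z)
    {l : Fld G} (hl : SuppL Z l) (a : ℝ) :
    wt v a r (τ x) (push (hm τ) (hs s) l) = wt w a r x l := by
  rw [wt_eq, wt_eq, c.dn_push hτ hx hl]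

theorem LCh.wt_push_le [GoodG H] (c : LCh w v Z τ s) {x : G × G} {r : ℕ}
    (hx : ball x (s1 * r + MM) ⊆ Z) (l : Fld G) (a : ℝ) :
    wt v a r (τ x) (push (hm τ) (hs s) l) ≤ wt w a r x l := by
  rw [wt_eq, wt_eq]; gcongr; exact c.dn_push_le hx l

/-! ### supports -/

theorem push_apply_support (p : HE G → HE H) (σ : HE G → ℝ) (l : Fld G) (h' : HE H)
    (hne : push p σ l h' ≠ 0) : ∃ h ∈ l.support, p h = h' := by
  classical
  by_contra hcon
  push Not at hcon
  apply hne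
  unfold push
  rw [Finsupp.linearCombination_apply, Finsupp.sum, Finsupp.finsetSum_apply]
  refine Finset.sum_eq_zero fun h hh => ?_
  rw [Finsupp.smul_apply, Finsupp.smul_apply, Finsupp.single_apply, if_neg (hcon h hh), smul_zero,
    smul_zero]

theorem LCh.suppL_push (c : LCh w v Z τ s) {x : G × G} {R : ℕ} (hx : ball x R ⊆ Z) {l : Fld G}
    (hl : SuppL (ball x R) l) : SuppL (ball (τ x) R) (push (hm τ) (hs s) l) := by
  intro h' hne
  obtain ⟨h, hh, rfl⟩ := push_apply_support _ _ _ _ hne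
  have h1 := hl h (Finsupp.mem_support_iff.1 hh)
  exact (c.map_ball (hx (self_mem_ball x R)) (hx h1)).2 h1

/-- push forward and back is the identity on the fields living on `Z` -/
theorem LCh.push_push (c : LCh w v Z τ s) {τ' : H × H → G × G} (hτ : ∀ f ∈ Z, τ' (τ f) = f)
    {l : Fld G} (hl : SuppL Z l) :
    push (hm τ') (hs fun g => s (τ' g)) (push (hm τ) (hs s) l) = l := by
  have h0 := congrArg (fun T => T l) (push_comp (hm τ) (hs s) (hm τ') (hs fun g => s (τ' g)))
  refine h0.trans ?_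
  unfold push
  rw [Finsupp.linearCombination_apply]
  conv_rhs => rw [← Finsupp.sum_single l]
  refine Finsupp.sum_congr fun h hh => ?_
  have hZ : h.1 ∈ Z := hl h (Finsupp.mem_support_iff.1 hh)
  have h1 : (hm τ' ∘ hm τ) h = h := Prod.ext (hτ _ hZ) rfl
  have h2 : hs s h * hs (fun g => s (τ' g)) (hm τ h) = 1 := by
    show s h.1 * s (τ' (τ h.1)) = 1
    rw [hτ _ hZ]; exact c.sq _ hZ
  show l h • ((hs s h * hs (fun g => s (τ' g)) (hm τ h)) •
    Finsupp.single ((hm τ' ∘ hm τ) h) (1 : ℝ)) = Finsupp.single h (l h)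
  rw [h1, h2, one_smul, Finsupp.smul_single, smul_eq_mul, mul_one]

/-- the fields living on `Z` -/
def subZ (Z : Set (G × G)) : Submodule ℝ (Fld G) where
  carrier := {l | SuppL Z l}
  add_mem' := suppL_add
  zero_mem' := suppL_zero Z
  smul_mem' c _ h := suppL_smul h c

theorem mem_subZ {Z : Set (G × G)} {l : Fld G} : l ∈ subZ Z ↔ SuppL Z l := Iff.rfl

/-! ### weights relative to a set of faces, norms of activities -/

theorem wU_le {w : BW G} {a : ℝ} {r : ℕ} {U : Finset (G × G)} {x : G × G} (hx : x ∈ U) {l : Fld G}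
    (hl : SuppL (ball x (s0 * r)) l) : wU w a r U l ≤ wt w a r x l := by
  classical
  unfold wU
  refine (iInf₂_le x hx).trans ?_
  rw [if_pos hl]

theorem le_wU {w : BW G} {a : ℝ} {r : ℕ} {U : Finset (G × G)} {l : Fld G} {C : ℝ≥0∞}
    (h : ∀ x ∈ U, SuppL (ball x (s0 * r)) l → C ≤ wt w a r x l) : C ≤ wU w a r U l := by
  classical
  unfold wU
  refine le_iInf₂ fun x hx => ?_
  split_ifs with hl
  · exact h x hx hl
  · exact le_top

open Classical in
theorem LCh.wU_push_le [GoodG H] (c : LCh w v Z τ s) {r : ℕ} {U : Finset (G × G)}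
    (hU : ∀ x ∈ U, ball x (s1 * r + MM) ⊆ Z) (a : ℝ) (l : Fld G) :
    wU v a r (U.image τ) (push (hm τ) (hs s) l) ≤ wU w a r U l := by
  refine le_wU fun x hx hl => ?_
  have hb : ball x (s0 * r) ⊆ Z :=
    (ball_mono x (by have : s0 * r ≤ s1 * r := Nat.mul_le_mul_right _ (by decide)
                     omega)).trans (hU x hx)
  exact (wU_le (Finset.mem_image_of_mem τ hx) (c.suppL_push hb hl)).trans
    (c.wt_push_le (hU x hx) l a)

open Classical in
theorem LCh.wU_pull_le [GoodG G] [GoodG H] (c : LCh w v Z τ s) {τ' : H × H → G × G}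
    (hτ : ∀ f ∈ Z, τ' (τ f) = f) {r : ℕ} {U : Finset (G × G)}
    (hU : ∀ x ∈ U, ball x (s1 * r + MM + 1) ⊆ Z) (a : ℝ) (l : Fld H) :
    wU w a r U (push (hm τ') (hs fun g => s (τ' g)) l) ≤ wU v a r (U.image τ) l := by
  refine le_wU fun x' hx' hl => ?_
  obtain ⟨x, hx, rfl⟩ := Finset.mem_image.1 hx'
  have hxZ : x ∈ Z := hU x hx (self_mem_ball x _)
  have c' := c.inv hτ (hU x hx)
  have hb : ball (τ x) (s0 * r) ⊆ ball (τ x) (s1 * r + MM) :=
    ball_mono _ (by have : s0 * r ≤ s1 * r := Nat.mul_le_mul_right _ (by decide)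
                    omega)
  have h1 := c'.suppL_push hb hl
  have h2 := c'.wt_push_le (x := τ x) subset_rfl l a
  rw [hτ x hxZ] at h1 h2
  exact (wU_le hx h1).trans h2

open Classical in
/-- **equality of the norms of the activities** -/
theorem LCh.pnorm_push [GoodG G] [GoodG H] (c : LCh w v Z τ s) {τ' : H × H → G × G}
    (hτ : ∀ f ∈ Z, τ' (τ f) = f) {r : ℕ} {U : Finset (G × G)}
    (hU : ∀ x ∈ U, ball x (s1 * r + MM + 1) ⊆ Z) (a : ℝ) {F : Gr (Fld G)} (hF : F ∈ gr (subZ Z)) :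
    pnorm (wU v a r (U.image τ)) (mp (push (hm τ) (hs s)) F) = pnorm (wU w a r U) F := by
  refine le_antisymm (pnorm_mp_le _ (c.wU_push_le (fun x hx =>
    (ball_mono x (by omega)).trans (hU x hx)) a) F) ?_
  have h1 : mp (push (hm τ') (hs fun g => s (τ' g))) (mp (push (hm τ) (hs s)) F) = F :=
    mp_left_inv (fun l hl => c.push_push hτ hl) hF
  conv_lhs => rw [← h1]
  exact pnorm_mp_le _ (c.wU_pull_le hτ hU a) _

end chart

/-! ### plane-like regions -/

/-- a left inverse of the chart of a plane-like region -/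
theorem exists_inv {w : BW G} {v : BW H} {Z : Set (G × G)} {τ : G × G → H × H} {s : G × G → ℝ}
    (c : LCh w v Z τ s) : ∃ τ' : H × H → G × G, ∀ f ∈ Z, τ' (τ f) = f := by
  classical
  refine ⟨fun g => if h : ∃ f ∈ Z, τ f = g then h.choose else (0, 0), fun f hf => ?_⟩
  have h : ∃ f' ∈ Z, τ f' = τ f := ⟨f, hf, rfl⟩
  simp only [dif_pos h]
  exact c.inj h.choose_spec.1 hf h.choose_spec.2

end Crest.Agent.R165.WtIsox898
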