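import Crest.Agent.R165.PlaneSum_901
import Crest.Agent.R165.W2_812
import Crest.Agent.R165.WtIso_898
import Crest.Agent.R165.NKDef_915
import Crest.Agent.R165.GLinI_336

/-!
# Row 165 (S0250), block G5: bounds of the extracted coefficients and of the local forms

* `enorm_cMass_le`, `enorm_cKin_le` : coefficients of one small polymer
* `tau_pnorm` : translation invariance of the norms in the plane
* `sum_polyAt_le` : `r² ∑_{U ∋ f small} |U|⁻¹ ‖K U‖ ≤ N_r(K)`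
* `alK_conv_le`, `beK_conv_le` : `r |al| + |be| ≤ C a⁻² N_r(K)` for the convolved activities
* `pnorm_mass_le`, `pnorm_kin_le`, `NK_base_le` : size of the local forms
-/

set_option autoImplicit false

noncomputable section

namespace Crest.Agent.R165.PlaneCoefx901

open scoped ENNReal
open Crest.Agent.R165.Gr0x606
open Crest.Agent.R165.Latx683
open Crest.Agent.R165.Locx901
open Crest.Agent.R165.PlaneModesx901
open Crest.Agent.R165.PlaneLocx901
open Crest.Agent.R165.PlaneCovx901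
open Crest.Agent.R165.PlaneSumx901
open Crest.Agent.R165.PNormx417
open Crest.Agent.R165.GDefx387
open Crest.Agent.R165.Wtx898
open Crest.Agent.R165.W2x812
open Crest.Agent.R165.NSumx915
open Crest.Agent.R165.Bridgex915

section general

variable {G : Type} [CommRing G] [CN G]

theorem enorm_pair_le {w : BW G} {a : ℝ} {r : ℕ} {x : G × G} (ha : 0 < a) (hr : 0 < r)
    {l : Fld G} (hl : SuppL (ball x (s0 * r)) l) {f : HE G → ℝ} {B : ℝ}
    (hf : nnB w r x f ≤ B) :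
    ‖pair l f‖ₑ ≤ ENNReal.ofReal (B / (a * Real.sqrt r)) * wt w a r x l := by
  have hs : 0 < a * Real.sqrt r := mul_pos ha (Real.sqrt_pos.2 (by exact_mod_cast hr))
  have hB : 0 ≤ B := (nnB_nonneg w r x f).trans hf
  have hl' : SuppL (ball x (s1 * r)) l :=
    suppL_mono (ball_mono x (Nat.mul_le_mul_right _ (by decide))) hl
  rw [Real.enorm_eq_ofReal_abs]
  refine (pair_le_dn (w := w) hl' f).trans ?_
  rw [wt_eq, ← mul_assoc, ← ENNReal.ofReal_mul (by positivity), div_mul_cancel₀ _ hs.ne', mul_comm]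
  gcongr

end general

/-- radius one of the tests -/
abbrev w₀ : BW ℤ := wPl ℤ

theorem enorm_of_wU {a : ℝ} {r : ℕ} {U : Finset Fc} {l : Fld ℤ} {f : Tst} {c : ℝ≥0∞}
    (h : ∀ x ∈ U, SuppL (ball x (s0 * r)) l → ‖pair l f‖ₑ ≤ c * wt w₀ a r x l)
    (hl : wU w₀ a r U l ≠ ∞) : ‖ev f l‖ₑ ≤ c * wU w₀ a r U l := by
  rw [GLinx336.wU_eq] at hl ⊢
  rcases GLinx336.wU_cases (fun l x => SuppL (ball x (s0 * r)) l) (wt w₀ a r) U l with
    h' | ⟨x, hx, hlx, he⟩
  · exact absurd h' hl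
  · rw [he, ← W2x812.pair_eq_ev]
    exact h x hx hlx

theorem enorm_ev_m0_le {a K p q : ℝ} {r : ℕ} {U : Finset Fc} (ha : 0 < a) (hr : 1 ≤ r)
    (hp : |p| ≤ K) (hq : |q| ≤ K) {l : Fld ℤ} (hl : wU w₀ a r U l ≠ ∞) :
    ‖ev (m0 p q) l‖ₑ ≤ ENNReal.ofReal (516 * r * K / (a * Real.sqrt r)) * wU w₀ a r U l :=
  enorm_of_wU (fun x _ hlx => enorm_pair_le ha (by omega) hlx (nnB_m0_le hp hq x hr)) hl

theorem enorm_ev_m1_le {a K u v s t : ℝ} {r : ℕ} {U : Finset Fc} {f : Fc} (ha : 0 < a) (hr : 1 ≤ r)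
    (hf : f ∈ U) (hU : Small r U) (hu : |u| ≤ K) (hv : |v| ≤ K) (hs : |s| ≤ K) (ht : |t| ≤ K)
    {l : Fld ℤ} (hl : wU w₀ a r U l ≠ ∞) :
    ‖ev (m1 f u v s t) l‖ₑ ≤
      ENNReal.ofReal (160000 * r ^ 2 * K / (a * Real.sqrt r)) * wU w₀ a r U l :=
  enorm_of_wU (fun x hx hlx => enorm_pair_le ha (by omega) hlx
    (nnB_m1_le hr (hU x hx f hf) hu hv hs ht)) hl

theorem form_hom2 {V : Type*} [AddCommGroup V] [Module ℝ V] (F : Gr V) (m m' : Module.Dual ℝ V) :
    form (hom 2 F) m m' = form F m m' := by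
  refine linear_ext (S := formL m m' ∘ₗ hom 2) (T := formL m m') (fun L => ?_) F
  rw [LinearMap.comp_apply, hom_mono, formL_apply, formL_apply]
  split_ifs with h
  · rfl
  · rw [form_zero, form_mono_ne_two L h]

theorem sqrt_cancel {a r : ℝ} (ha : 0 < a) (hr : 0 < r) (c d : ℝ) :
    c / (a * Real.sqrt r) * (d / (a * Real.sqrt r)) = c * d / (a ^ 2 * r) := by
  rw [div_mul_div_comm]
  congr 1
  rw [show a * Real.sqrt r * (a * Real.sqrt r) = a ^ 2 * (Real.sqrt r * Real.sqrt r) by ring,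
    Real.mul_self_sqrt hr.le]

/-- constant of the mass coefficient -/
def cM : ℝ := 2 * 516 ^ 2
/-- constant of the kinetic coefficient -/
def cK : ℝ := 2 * 516 * 160000

theorem enorm_form_m0_m0 {a : ℝ} {r : ℕ} {U : Finset Fc} (ha : 0 < a) (hr : 1 ≤ r)
    {F : Gr (Fld ℤ)} (hF : pnorm (wU w₀ a r U) F ≠ ∞) :
    ‖cMass F‖ₑ ≤ ENNReal.ofReal (cM / a ^ 2 * r) * pnorm (wU w₀ a r U) F := by
  have hr' : (0 : ℝ) < r := by exact_mod_cast hr
  have h := form_le (w := wU w₀ a r U) ENNReal.ofReal_ne_top ENNReal.ofReal_ne_top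
    (ev (m0 1 0)) (ev (m0 0 1))
    (fun l hl => enorm_ev_m0_le (K := 1) ha hr (by simp) (by simp) hl)
    (fun l hl => enorm_ev_m0_le (K := 1) ha hr (by simp) (by simp) hl) hF
  refine h.trans (mul_le_mul_left ?_ _)
  rw [mul_assoc, ← ENNReal.ofReal_mul (by positivity), sqrt_cancel ha hr',
    show (2 : ℝ≥0∞) = ENNReal.ofReal 2 by simp, ← ENNReal.ofReal_mul (by norm_num)]
  refine ENNReal.ofReal_le_ofReal (le_of_eq ?_)
  unfold cM
  field_simp

theorem enorm_form_m0_m1 {a : ℝ} {r : ℕ} {U : Finset Fc} {f : Fc} (ha : 0 < a) (hr : 1 ≤ r)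
    (hf : f ∈ U) (hU : Small r U) {F : Gr (Fld ℤ)} (hF : pnorm (wU w₀ a r U) F ≠ ∞) :
    ‖cKin f F‖ₑ ≤ ENNReal.ofReal (cK / a ^ 2 * r ^ 2) * pnorm (wU w₀ a r U) F := by
  have hr' : (0 : ℝ) < r := by exact_mod_cast hr
  have h := form_le (w := wU w₀ a r U) ENNReal.ofReal_ne_top ENNReal.ofReal_ne_top
    (ev (m0 1 0)) (ev (m1 f 0 0 0 1))
    (fun l hl => enorm_ev_m0_le (K := 1) ha hr (by simp) (by simp) hl)
    (fun l hl => enorm_ev_m1_le (K := 1) ha hr hf hU (by simp) (by simp) (by simp) (by simp) hl) hF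
  refine h.trans (mul_le_mul_left ?_ _)
  rw [mul_assoc, ← ENNReal.ofReal_mul (by positivity), sqrt_cancel ha hr',
    show (2 : ℝ≥0∞) = ENNReal.ofReal 2 by simp, ← ENNReal.ofReal_mul (by norm_num)]
  refine ENNReal.ofReal_le_ofReal (le_of_eq ?_)
  unfold cK
  field_simp

/-! ### translation invariance of the norms -/

theorem LCh_tau (t : Fc) : WtIsox898.LCh w₀ w₀ Set.univ (fun f => f + t) (fun _ => 1) where
  sq _ _ := by norm_num
  iso f _ g _ := fd_add f g t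
  e1 f _ _ := (PlaneCovx901.fc_add1 f t)
  e2 f _ _ := (PlaneCovx901.fc_add2 f t)
  wE f _ _ := by simp [yE, wPl]
  wN f _ _ := by simp [yN, wPl]

theorem tauV_eq_push (t : Fc) :
    tauV t = push (WtIsox898.hm fun f : Fc => f + t) (WtIsox898.hs fun _ : Fc => (1 : ℝ)) := rfl

theorem wU_tau_le (a : ℝ) (r : ℕ) (U : Finset Fc) (t : Fc) (l : Fld ℤ) :
    wU w₀ a r (U.image (· + t)) (tauV t l) ≤ wU w₀ a r U l := by
  have h := (LCh_tau t).wU_push_le (r := r) (U := U) (fun _ _ => Set.subset_univ _) a l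
  rw [tauV_eq_push]
  refine le_trans (le_of_eq ?_) h
  congr 1
  ext x
  simp only [Finset.mem_image]

theorem pnorm_tau_le (a : ℝ) (r : ℕ) (U : Finset Fc) (t : Fc) (F : Gr (Fld ℤ)) :
    pnorm (wU w₀ a r (U.image (· + t))) (mp (tauV t) F) ≤ pnorm (wU w₀ a r U) F :=
  pnorm_mp_le (tauV t) (fun l => wU_tau_le a r U t l) F

theorem tauV_tauV (s t : Fc) (l : Fld ℤ) : tauV s (tauV t l) = tauV (t + s) l := by
  have h : tauV s ∘ₗ tauV t = tauV (t + s) := by
    rw [tauV, tauV, tauV, push_comp]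
    congr 1
    · funext h
      simp [tauH, add_assoc]
    · funext h; simp
  exact congrArg (fun T => T l) h

theorem tauV_zero : tauV 0 = LinearMap.id := by
  rw [tauV, ← push_id]
  congr 1
  funext h
  simp [tauH]

theorem mp_tau_tau (s t : Fc) (F : Gr (Fld ℤ)) :
    mp (tauV s) (mp (tauV t) F) = mp (tauV (t + s)) F := by
  rw [mp_mp']
  congr 2
  exact LinearMap.ext fun l => tauV_tauV s t l

theorem pnorm_tau (a : ℝ) (r : ℕ) (U : Finset Fc) (t : Fc) (F : Gr (Fld ℤ)) :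
    pnorm (wU w₀ a r (U.image (· + t))) (mp (tauV t) F) = pnorm (wU w₀ a r U) F := by
  refine le_antisymm (pnorm_tau_le a r U t F) ?_
  have h := pnorm_tau_le a r (U.image (· + t)) (-t) (mp (tauV t) F)
  rw [mp_tau_tau, add_neg_cancel, tauV_zero, mp_id', Finset.image_image] at h
  have e : ((fun x : Fc => x + -t) ∘ fun x : Fc => x + t) = id := by
    funext x; simp
  rw [e, Finset.image_id] at h
  exact h

/-! ### the sum over the small polymers containing a face -/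

/-- `∑_{U ∋ f small} |U|⁻¹ ‖K U‖` -/
def sAt (a : ℝ) (r : ℕ) (K : Finset Fc → Gr (Fld ℤ)) (f : Fc) : ℝ≥0∞ :=
  ∑ U ∈ polyAt r f, ENNReal.ofReal ((U.card : ℝ)⁻¹) * pnorm (wU w₀ a r U) (K U)

theorem sAt_tau (a : ℝ) (r : ℕ) {K : Finset Fc → Gr (Fld ℤ)} (h : PlSym K) (f : Fc) :
    sAt a r K f = sAt a r K 0 := by
  have hinj : Function.Injective fun x : Fc => x + f := add_left_injective f
  have e := polyAt_image r 0 (· + f) (· - f) (fun a b => fd_add a b f)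
    (fun a => sub_add_cancel a f) (fun a => add_sub_cancel_right a f)
  simp only [zero_add] at e
  rw [sAt, e, Finset.sum_image, sAt]
  · refine Finset.sum_congr rfl fun U _ => ?_
    rw [Finset.card_image_of_injective _ hinj, h.tau, pnorm_tau]
  · intro U _ U' _ h
    exact Finset.image_injective hinj h

theorem sum_sAt_le (a : ℝ) (r : ℕ) {Γ : ℝ≥0∞} (hΓ : 1 ≤ Γ) (K : Finset Fc → Gr (Fld ℤ)) :
    ∑ f ∈ (ball_finite (0 : Fc) r).toFinset, sAt a r K f ≤ NK w₀ a r Γ (fun _ => True) K := by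
  classical
  rw [NK_eq_NN]
  refine le_trans ?_ (bs_le_NN _ (0 : Fc))
  have e1 : ∀ f : Fc, sAt a r K f = ∑' U : Finset Fc, Set.indicator (↑(polyAt r f))
      (fun U => ENNReal.ofReal ((U.card : ℝ)⁻¹) * pnorm (wU w₀ a r U) (K U)) U := fun f =>
    sum_eq_tsum_indicator _ _
  simp only [e1]
  rw [← Summable.tsum_finsetSum fun _ _ => ENNReal.summable]
  unfold bs
  refine ENNReal.tsum_le_tsum fun U => ?_
  by_cases hU : ∃ f ∈ (ball_finite (0 : Fc) r).toFinset, U ∈ polyAt r f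
  · obtain ⟨f0, hf0, hf0U⟩ := hU
    have hmem := mem_polyAt.1 hf0U
    have hne : U.Nonempty := ⟨f0, hmem.1⟩
    have hnear : U ∈ {U : Finset Fc | near fd r 0 U} :=
      ⟨f0, hmem.1, by rw [Set.Finite.mem_toFinset, mem_ball] at hf0; exact hf0⟩
    rw [Set.indicator_of_mem hnear, act_of trivial]
    calc ∑ f ∈ (ball_finite (0 : Fc) r).toFinset, Set.indicator (↑(polyAt r f))
          (fun U => ENNReal.ofReal ((U.card : ℝ)⁻¹) * pnorm (wU w₀ a r U) (K U)) U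
        ≤ ∑ f ∈ U, ENNReal.ofReal ((U.card : ℝ)⁻¹) * pnorm (wU w₀ a r U) (K U) := by
          rw [← Finset.sum_filter_add_sum_filter_not (ball_finite (0 : Fc) r).toFinset (· ∈ U)]
          have h2 : ∑ f ∈ (ball_finite (0 : Fc) r).toFinset with f ∉ U,
              Set.indicator (↑(polyAt r f)) (fun U => ENNReal.ofReal ((U.card : ℝ)⁻¹) *
                pnorm (wU w₀ a r U) (K U)) U = 0 := by
            refine Finset.sum_eq_zero fun f hf => ?_
            refine Set.indicator_of_notMem (fun h => ?_) _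
            exact (Finset.mem_filter.1 hf).2 (mem_polyAt.1 h).1
          rw [h2, add_zero]
          refine (Finset.sum_le_sum fun f hf => Set.indicator_le_self' (fun _ _ => zero_le) _).trans ?_
          exact Finset.sum_le_sum_of_subset fun f hf => (Finset.mem_filter.1 hf).2
      _ = pnorm (wU w₀ a r U) (K U) := by
          rw [Finset.sum_const, nsmul_eq_mul, ← mul_assoc]
          have hc : (U.card : ℝ) ≠ 0 := by exact_mod_cast hne.card_ne_zero
          have : (U.card : ℝ≥0∞) = ENNReal.ofReal (U.card : ℝ) := (ENNReal.ofReal_natCast _).symm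
          rw [this, ← ENNReal.ofReal_mul (Nat.cast_nonneg _), mul_inv_cancel₀ hc,
            ENNReal.ofReal_one, one_mul]
      _ ≤ Γ ^ Packx915.pack fd r U * pnorm (wU w₀ a r U) (K U) :=
          le_mul_of_one_le_left zero_le (one_le_pow₀ hΓ)
  · refine le_trans (le_of_eq (Finset.sum_eq_zero fun f hf => ?_)) zero_le
    exact Set.indicator_of_notMem (fun h => hU ⟨f, hf, h⟩) _

theorem r_sq_sAt_le (a : ℝ) (r : ℕ) {Γ : ℝ≥0∞} (hΓ : 1 ≤ Γ) {K : Finset Fc → Gr (Fld ℤ)}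
    (h : PlSym K) : ENNReal.ofReal ((r : ℝ) ^ 2) * sAt a r K 0 ≤
      NK w₀ a r Γ (fun _ => True) K := by
  refine le_trans ?_ (sum_sAt_le a r hΓ K)
  simp only [sAt_tau a r h]
  rw [Finset.sum_const, nsmul_eq_mul, card_ball]
  gcongr
  rw [← ENNReal.ofReal_natCast]
  refine ENNReal.ofReal_le_ofReal ?_
  push_cast
  have : (0 : ℝ) ≤ r := Nat.cast_nonneg r
  nlinarith

/-! ### the extracted coefficients -/

theorem pnorm_ne_top_of_NK {a : ℝ} {r : ℕ} {Γ : ℝ≥0∞} (hΓ : 1 ≤ Γ)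
    {K : Finset Fc → Gr (Fld ℤ)} (hK : NK w₀ a r Γ (fun _ => True) K ≠ ∞) {U : Finset Fc}
    (hU : U.Nonempty) : pnorm (wU w₀ a r U) (K U) ≠ ∞ := by
  rw [NK_eq_NN] at hK
  have h := le_NN (Γ := Γ) (r := r) pd_fd (act w₀ a r (fun _ => True) K) hU
  rw [act_of trivial] at h
  have h1 : pnorm (wU w₀ a r U) (K U) ≤ Γ ^ Packx915.pack fd r U * pnorm (wU w₀ a r U) (K U) :=
    le_mul_of_one_le_left zero_le (one_le_pow₀ hΓ)
  exact ne_top_of_le_ne_top hK (h1.trans h)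

theorem enorm_avg_le {a : ℝ} {r : ℕ} {K : Finset Fc → Gr (Fld ℤ)} (T : Gr (Fld ℤ) →ₗ[ℝ] ℝ)
    {c : ℝ≥0∞} {f : Fc}
    (hT : ∀ U ∈ polyAt r f, ‖T (K U)‖ₑ ≤ c * pnorm (wU w₀ a r U) (K U)) :
    ‖T (avgAt r K f)‖ₑ ≤ c * sAt a r K f := by
  rw [avgAt, map_sum, sAt, Finset.mul_sum]
  refine (enorm_sum_le _ _).trans (Finset.sum_le_sum fun U hU => ?_)
  rw [map_smul, smul_eq_mul, enorm_mul, Real.enorm_eq_ofReal (by positivity)]
  calc ENNReal.ofReal ((U.card : ℝ)⁻¹) * ‖T (K U)‖ₑ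
      ≤ ENNReal.ofReal ((U.card : ℝ)⁻¹) * (c * pnorm (wU w₀ a r U) (K U)) := by
        gcongr; exact hT U hU
    _ = _ := by ring

theorem cMass_hom2 (F : Gr (Fld ℤ)) : cMass (hom 2 F) = cMass F := form_hom2 _ _ _
theorem cKin_hom2 (f : Fc) (F : Gr (Fld ℤ)) : cKin f (hom 2 F) = cKin f F := form_hom2 _ _ _

section conv

variable {a : ℝ} {r : ℕ} {Γ ε : ℝ≥0∞} {S : Cov (Fld ℤ)} {g : Fld ℤ → ℝ≥0∞}
  {K : Finset Fc → Gr (Fld ℤ)}

theorem avgAt_conv_T (ha : 0 < a) (hr : 1 ≤ r) (hΓ : 1 ≤ Γ) (hg : Gram S g)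
    (hε : ε ≤ 1 / 4) (hgw : ∀ U : Finset Fc, ∀ l, g l ≤ ε * wU w₀ a r U l)
    (hK : NK w₀ a r Γ (fun _ => True) K ≠ ∞) (T : Gr (Fld ℤ) →ₗ[ℝ] ℝ)
    (hT2 : ∀ F, T (hom 2 F) = T F) {c : ℝ≥0∞}
    (hT : ∀ U : Finset Fc, (0 : Fc) ∈ U → Small r U → ∀ F, pnorm (wU w₀ a r U) F ≠ ∞ →
      ‖T F‖ₑ ≤ c * pnorm (wU w₀ a r U) F) :
    ‖T (avgAt r (fun U => conv S (K U)) 0)‖ₑ ≤ c * sAt a r K 0 := by
  rw [avgAt, map_sum, sAt, Finset.mul_sum]
  refine (enorm_sum_le _ _).trans (Finset.sum_le_sum fun U hU => ?_)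
  have hmem := mem_polyAt.1 hU
  have hfin := pnorm_ne_top_of_NK hΓ hK ⟨_, hmem.1⟩
  have h2 := hom2_conv_le hg hε (hgw U) hfin
  rw [map_smul, smul_eq_mul, enorm_mul, Real.enorm_eq_ofReal (by positivity)]
  calc ENNReal.ofReal ((U.card : ℝ)⁻¹) * ‖T (conv S (K U))‖ₑ
      ≤ ENNReal.ofReal ((U.card : ℝ)⁻¹) * (c * pnorm (wU w₀ a r U) (K U)) := by
        gcongr
        rw [← hT2]
        refine (hT U hmem.1 hmem.2 _ (ne_top_of_le_ne_top hfin h2)).trans ?_
        gcongr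
    _ = _ := by ring

/-- **bound of the mass coefficient** -/
theorem alK_conv_le (ha : 0 < a) (hr : 1 ≤ r) (hΓ : 1 ≤ Γ) (hg : Gram S g)
    (hε : ε ≤ 1 / 4) (hgw : ∀ U : Finset Fc, ∀ l, g l ≤ ε * wU w₀ a r U l)
    (hsym : PlSym K) (hK : NK w₀ a r Γ (fun _ => True) K ≠ ∞) :
    ENNReal.ofReal r * ‖alK r fun U => conv S (K U)‖ₑ ≤
      ENNReal.ofReal (cM / a ^ 2) * NK w₀ a r Γ (fun _ => True) K := by
  have hr' : (0 : ℝ) < r := by exact_mod_cast hr
  have h1 := avgAt_conv_T ha hr hΓ hg hε hgw hK cMass cMass_hom2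
    (fun U _ _ F hF => enorm_form_m0_m0 ha hr hF)
  have h2 := r_sq_sAt_le a r hΓ hsym
  calc ENNReal.ofReal r * ‖alK r fun U => conv S (K U)‖ₑ
      ≤ ENNReal.ofReal r * (ENNReal.ofReal (cM / a ^ 2 * r) * sAt a r K 0) := by
        gcongr; exact h1
    _ = ENNReal.ofReal (cM / a ^ 2) * (ENNReal.ofReal ((r : ℝ) ^ 2) * sAt a r K 0) := by
        rw [← mul_assoc, ← mul_assoc, ← ENNReal.ofReal_mul hr'.le,
          ← ENNReal.ofReal_mul (by unfold cM; positivity)]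
        congr 2
        ring
    _ ≤ _ := by gcongr

/-- **bound of the kinetic coefficient** -/
theorem beK_conv_le (ha : 0 < a) (hr : 1 ≤ r) (hΓ : 1 ≤ Γ) (hg : Gram S g)
    (hε : ε ≤ 1 / 4) (hgw : ∀ U : Finset Fc, ∀ l, g l ≤ ε * wU w₀ a r U l)
    (hsym : PlSym K) (hK : NK w₀ a r Γ (fun _ => True) K ≠ ∞) :
    ‖beK r fun U => conv S (K U)‖ₑ ≤
      ENNReal.ofReal (cK / a ^ 2) * NK w₀ a r Γ (fun _ => True) K := by
  have hr' : (0 : ℝ) < r := by exact_mod_cast hr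
  have h1 := avgAt_conv_T ha hr hΓ hg hε hgw hK (cKin 0) (cKin_hom2 0)
    (fun U h0 hU F hF => enorm_form_m0_m1 ha hr h0 hU hF)
  have h2 := r_sq_sAt_le a r hΓ hsym
  calc ‖beK r fun U => conv S (K U)‖ₑ ≤ ENNReal.ofReal (cK / a ^ 2 * r ^ 2) * sAt a r K 0 := h1
    _ = ENNReal.ofReal (cK / a ^ 2) * (ENNReal.ofReal ((r : ℝ) ^ 2) * sAt a r K 0) := by
        rw [← mul_assoc, ← ENNReal.ofReal_mul (by unfold cK; positivity)]
    _ ≤ _ := by gcongr

end conv

/-! ### the size of the local forms -/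

theorem wt_of_test {C a : ℝ} {r : ℕ} (ha : 0 ≤ a) {x : Fc} {l : Fld ℤ}
    (h : ∀ f : Tst, nnB w₀ r x f ≤ 1 → |ev f l| ≤ C) :
    wt w₀ a r x l ≤ ENNReal.ofReal (a * Real.sqrt r * C) := by
  have h0 : dn w₀ r x l ≤ ENNReal.ofReal C := dn_le_ofReal fun f hf => by
    rw [W2x812.pair_eq_ev]; exact h f hf
  rw [wt_eq, ENNReal.ofReal_mul (p := a * Real.sqrt r) (by positivity)]
  exact mul_le_mul' le_rfl h0

theorem wU_single_le {a : ℝ} {r : ℕ} {x : Fc} {l : Fld ℤ} (hl : SuppL (ball x (s0 * r)) l) :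
    wU w₀ a r {x} l ≤ wt w₀ a r x l := WtIsox898.wU_le (Finset.mem_singleton_self x) hl

theorem suppL_of_fldN {x : Fc} {l : Fld ℤ} (h : l ∈ fldN 1 {x}) {r : ℕ} (hr : 1 ≤ r) :
    SuppL (ball x (s0 * r)) l := by
  intro e he
  have h1 := (Finsupp.mem_supported ℝ l).1 h (Finsupp.mem_support_iff.2 he)
  obtain ⟨u, hu, hd⟩ := h1
  rw [Finset.mem_singleton] at hu
  subst hu
  rw [mem_ball]
  exact hd.trans (by unfold s0; omega)

section size

variable {C a : ℝ} {r : ℕ}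

theorem wU_phiA (h : BkReg C) (ha : 0 ≤ a) (hr : 1 ≤ r) (x : Fc) :
    wU w₀ a r {x} (phiA x) ≤ ENNReal.ofReal (a * Real.sqrt r * (C / r)) :=
  (wU_single_le (suppL_of_fldN (phiA_mem (by simp) (by simp)) hr)).trans
    (wt_of_test ha fun f hf => (h.amp x r hr f hf).1)

theorem wU_phiB (h : BkReg C) (ha : 0 ≤ a) (hr : 1 ≤ r) (x : Fc) :
    wU w₀ a r {x} (phiB x) ≤ ENNReal.ofReal (a * Real.sqrt r * (C / r)) :=
  (wU_single_le (suppL_of_fldN (phiB_mem (by simp) (by simp)) hr)).trans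
    (wt_of_test ha fun f hf => (h.amp x r hr f hf).2)

theorem wU_qS (h : BkReg C) (ha : 0 ≤ a) (hr : 1 ≤ r) (x : Fc) :
    wU w₀ a r {x} (qS x) ≤ ENNReal.ofReal (a * Real.sqrt r * (C / r ^ 2)) :=
  (wU_single_le (suppL_of_fldN (q_mem x 2) hr)).trans
    (wt_of_test ha fun f hf => (h.slope x r hr f hf).2.2.1)

theorem wU_qT (h : BkReg C) (ha : 0 ≤ a) (hr : 1 ≤ r) (x : Fc) :
    wU w₀ a r {x} (qT x) ≤ ENNReal.ofReal (a * Real.sqrt r * (C / r ^ 2)) :=
  (wU_single_le (suppL_of_fldN (q_mem x 3) hr)).trans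
    (wt_of_test ha fun f hf => (h.slope x r hr f hf).2.2.2)

theorem pnorm_two_le {V : Type*} [AddCommGroup V] [Module ℝ V] {w : V → ℝ≥0∞} {x y : V} {p q : ℝ}
    (hp : 0 ≤ p) (hx : w x ≤ ENNReal.ofReal p) (hy : w y ≤ ENNReal.ofReal q) :
    pnorm w (fi x * fi y) ≤ ENNReal.ofReal (p * q) := by
  have h := pnorm_mono_le w [x, y]
  rw [mono_cons, mono_singleton, mwt_cons, mwt_cons, mwt_nil, mul_one] at h
  rw [ENNReal.ofReal_mul hp]
  exact h.trans (mul_le_mul' hx hy)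

theorem pnorm_mass_le (h : BkReg C) (ha : 0 ≤ a) (hr : 1 ≤ r) (x : Fc) :
    pnorm (wU w₀ a r {x}) (mass x) ≤ ENNReal.ofReal (a ^ 2 * C ^ 2 / r) := by
  have hr' : (0 : ℝ) < r := by exact_mod_cast hr
  have hC := h.nonneg
  refine (pnorm_two_le (by positivity) (wU_phiA h ha hr x) (wU_phiB h ha hr x)).trans
    (ENNReal.ofReal_le_ofReal (le_of_eq ?_))
  have hs := Real.mul_self_sqrt hr'.le
  field_simp
  linear_combination a ^ 2 * C ^ 2 * hs

theorem pnorm_kin_le (h : BkReg C) (ha : 0 ≤ a) (hr : 1 ≤ r) (x : Fc) :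
    pnorm (wU w₀ a r {x}) (kin x) ≤ ENNReal.ofReal (2 * (a ^ 2 * C ^ 2 / r ^ 2)) := by
  have hr' : (0 : ℝ) < r := by exact_mod_cast hr
  have hC := h.nonneg
  have h1 := pnorm_two_le (by positivity) (wU_phiA h ha hr x) (wU_qT h ha hr x)
  have h2 := pnorm_two_le (by positivity) (wU_phiB h ha hr x) (wU_qS h ha hr x)
  refine (pnorm_add_le _ _ _).trans ((add_le_add h1 h2).trans ?_)
  rw [← ENNReal.ofReal_add (by positivity) (by positivity)]
  refine ENNReal.ofReal_le_ofReal (le_of_eq ?_)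
  have hs := Real.mul_self_sqrt hr'.le
  field_simp
  linear_combination 2 * a ^ 2 * C ^ 2 * hs

/-- the family of local forms -/
def base (ν z : ℝ) (U : Finset Fc) : Gr (Fld ℤ) :=
  ∑ f ∈ U, if U = {f} then ν • mass f + z • kin f else 0

theorem base_single (ν z : ℝ) (f : Fc) : base ν z {f} = ν • mass f + z • kin f := by
  rw [base, Finset.sum_singleton, if_pos rfl]

theorem base_of_ne (ν z : ℝ) {U : Finset Fc} (h : ∀ f, U ≠ {f}) : base ν z U = 0 := by
  rw [base]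
  exact Finset.sum_eq_zero fun f _ => if_neg (h f)

/-- **the size of the family of local forms** -/
theorem NK_base_le (h : BkReg C) (ha : 0 ≤ a) (hr : 1 ≤ r) (Γ : ℝ≥0∞) (ν z : ℝ) :
    NK w₀ a r Γ (fun _ => True) (base ν z) ≤
      Γ * ENNReal.ofReal (9 * a ^ 2 * C ^ 2 * (|ν| * r + 2 * |z|)) := by
  classical
  have hr' : (0 : ℝ) < r := by exact_mod_cast hr
  have hr1 : (1 : ℝ) ≤ r := by exact_mod_cast hr
  have hC := h.nonneg
  have hone : ∀ x : Fc, pnorm (wU w₀ a r {x}) (base ν z {x}) ≤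
      ENNReal.ofReal (|ν| * (a ^ 2 * C ^ 2 / r) + |z| * (2 * (a ^ 2 * C ^ 2 / r ^ 2))) := by
    intro x
    rw [base_single]
    refine (pnorm_add_le _ _ _).trans ?_
    rw [ENNReal.ofReal_add (by positivity) (by positivity), ENNReal.ofReal_mul (abs_nonneg _),
      ENNReal.ofReal_mul (abs_nonneg _)]
    refine add_le_add ((pnorm_smul_le _ _ _).trans ?_) ((pnorm_smul_le _ _ _).trans ?_)
    · rw [Real.enorm_eq_ofReal_abs]; gcongr; exact pnorm_mass_le h ha hr x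
    · rw [Real.enorm_eq_ofReal_abs]; gcongr; exact pnorm_kin_le h ha hr x
  rw [NK]
  refine iSup_le fun f => ?_
  -- only the singletons of the ball contribute
  have hsum : (∑' U : Finset Fc, if Near r f U ∧ True then
      Γ ^ size r U * pnorm (wU w₀ a r U) (base ν z U) else 0) ≤
      ∑ x ∈ (ball_finite f r).toFinset, Γ ^ size r {x} *
        pnorm (wU w₀ a r {x}) (base ν z {x}) := by
    rw [tsum_eq_sum (s := ((ball_finite f r).toFinset).image fun x => ({x} : Finset Fc))]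
    · rw [Finset.sum_image (fun x _ y _ hxy => Finset.singleton_injective hxy)]
      refine Finset.sum_le_sum fun x _ => ?_
      split_ifs
      · exact le_rfl
      · exact zero_le
    · intro U hU
      by_cases hU1 : ∃ x, U = {x}
      · obtain ⟨x, rfl⟩ := hU1
        rw [if_neg]
        rintro ⟨⟨u, hu, hd⟩, _⟩
        rw [Finset.mem_singleton] at hu
        subst hu
        exact hU (Finset.mem_image_of_mem _ (by rw [Set.Finite.mem_toFinset, mem_ball]; exact hd))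
      · push Not at hU1
        rw [base_of_ne ν z hU1, pnorm_zero, mul_zero, ite_self]
  refine le_trans (le_of_eq (tsum_congr fun U => ?_)) (hsum.trans ?_)
  · congr
  have hsize : ∀ x : Fc, size r {x} = 1 := by
    intro x
    rw [size_eq_pack, Packx915.pack_singleton]
  calc ∑ x ∈ (ball_finite f r).toFinset, Γ ^ size r {x} * pnorm (wU w₀ a r {x}) (base ν z {x})
      ≤ ∑ x ∈ (ball_finite f r).toFinset, Γ *
        ENNReal.ofReal (|ν| * (a ^ 2 * C ^ 2 / r) + |z| * (2 * (a ^ 2 * C ^ 2 / r ^ 2))) := by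
        refine Finset.sum_le_sum fun x _ => ?_
        rw [hsize, pow_one]
        gcongr
        exact hone x
    _ = Γ * (ENNReal.ofReal (((2 * r + 1) ^ 2 : ℕ) : ℝ) *
        ENNReal.ofReal (|ν| * (a ^ 2 * C ^ 2 / r) + |z| * (2 * (a ^ 2 * C ^ 2 / r ^ 2)))) := by
        rw [Finset.sum_const, nsmul_eq_mul, card_ball, ENNReal.ofReal_natCast]
        ring
    _ ≤ _ := by
        rw [← ENNReal.ofReal_mul (by positivity)]
        refine mul_le_mul' le_rfl (ENNReal.ofReal_le_ofReal ?_)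
        push_cast
        have e1 : ((2 : ℝ) * r + 1) ^ 2 ≤ 9 * r ^ 2 := by nlinarith
        calc ((2 : ℝ) * r + 1) ^ 2 *
              (|ν| * (a ^ 2 * C ^ 2 / r) + |z| * (2 * (a ^ 2 * C ^ 2 / r ^ 2)))
            ≤ 9 * r ^ 2 * (|ν| * (a ^ 2 * C ^ 2 / r) + |z| * (2 * (a ^ 2 * C ^ 2 / r ^ 2))) :=
              mul_le_mul_of_nonneg_right e1 (by positivity)
          _ = 9 * a ^ 2 * C ^ 2 * (|ν| * r + 2 * |z|) := by field_simp

end size

end Crest.Agent.R165.PlaneCoefx901
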