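import Crest.Agent.R165.Extr_417
import Crest.Agent.R165.PlaneCoef_901

/-!
# Row 165 (S0250), block G: the identity of the plane step (helper901)

The state at one scale is `K = baseG ν z + Q`.  With `H U = conv S (K U)` and the extraction `exF`:

* `LocG`, `massG`, `kinG`, `baseG` : the local forms on the even ring
* `HA_eq` : `H U + A U = baseG (ν + al) (z + be) U + QlG U`
* `A_eq`  : `A U = baseG al be U - (constant part of baseG) U + (QlG U - cvG S (Q U))`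
* `KK_step_eq` : the new state
-/

set_option autoImplicit false

noncomputable section

namespace Crest.Agent.R165.PStepIdx901

open scoped ENNReal
open Crest.Agent.R165.Gr0x606 Crest.Agent.R165.Gr1x606
open Crest.Agent.R165.Latx683
open Crest.Agent.R165.Locx901
open Crest.Agent.R165.PlaneModesx901
open Crest.Agent.R165.PlaneLocx901
open Crest.Agent.R165.PlaneCovx901
open Crest.Agent.R165.PlaneSumx901
open Crest.Agent.R165.PlaneCoefx901
open Crest.Agent.R165.PNormx417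
open Crest.Agent.R165.GDefx387
open Crest.Agent.R165.GrLocx337
open Crest.Agent.R165.GeOpsx337
open Crest.Agent.R165.KFlowx337
open Crest.Agent.R165.PStepx417

/-! ### the local forms on the even ring -/

/-- the local part at `f` on the even ring -/
def LocG (f : Fc) : Ge (Fld ℤ) →ₗ[ℝ] Ge (Fld ℤ) where
  toFun a := ⟨LocAt f a, isEv_LocAt f a⟩
  map_add' a b := ge_ext (by simp)
  map_smul' c a := ge_ext (by simp)

@[simp] theorem coe_LocG (f : Fc) (a : Ge (Fld ℤ)) :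
    ((LocG f a : Ge (Fld ℤ)) : Gr (Fld ℤ)) = LocAt f a := rfl

/-- the mass form on the even ring -/
def massG (f : Fc) : Ge (Fld ℤ) := ⟨mass f, isEv_mass f⟩

/-- the kinetic form on the even ring -/
def kinG (f : Fc) : Ge (Fld ℤ) := ⟨kin f, isEv_kin f⟩

@[simp] theorem coe_massG (f : Fc) : ((massG f : Ge (Fld ℤ)) : Gr (Fld ℤ)) = mass f := rfl

@[simp] theorem coe_kinG (f : Fc) : ((kinG f : Ge (Fld ℤ)) : Gr (Fld ℤ)) = kin f := rfl

theorem isEv_base (ν z : ℝ) (U : Finset Fc) : IsEv (base ν z U) := by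
  unfold base
  rw [IsEv, map_sum]
  refine Finset.sum_congr rfl fun f _ => ?_
  split_ifs
  · rw [map_add, map_smul, map_smul, isEv_mass f, isEv_kin f]
  · rw [map_zero]

/-- the family of local forms on the even ring -/
def baseG (ν z : ℝ) (U : Finset Fc) : Ge (Fld ℤ) := ⟨base ν z U, isEv_base ν z U⟩

@[simp] theorem coe_baseG (ν z : ℝ) (U : Finset Fc) :
    ((baseG ν z U : Ge (Fld ℤ)) : Gr (Fld ℤ)) = base ν z U := rfl

theorem baseG_single (ν z : ℝ) (f : Fc) : baseG ν z {f} = ν • massG f + z • kinG f :=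
  ge_ext (by simp [base_single])

theorem baseG_of_ne (ν z : ℝ) {U : Finset Fc} (h : ∀ f, U ≠ {f}) : baseG ν z U = 0 :=
  ge_ext (by simp [base_of_ne _ _ h])

/-! ### convolution of the local forms -/

theorem conv_two {V : Type*} [AddCommGroup V] [Module ℝ V] (S : Cov V) (x y : V) :
    conv S (fi x * fi y) = fi x * fi y + algebraMap ℝ (Gr V) (S.b x y) := by
  rw [conv_fi_mul, conv_fi, dd_fi]

theorem conv_ct_two {V : Type*} [AddCommGroup V] [Module ℝ V] (S : Cov V) (x y : V) :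
    conv S (fi x * fi y) = fi x * fi y + algebraMap ℝ (Gr V) (EE S (fi x * fi y)) := by
  rw [conv_two]
  congr 2
  rw [EE_apply, conv_two, map_add, ct_algebraMap]
  simp

theorem conv_mass (S : Cov (Fld ℤ)) (f : Fc) :
    conv S (mass f) = mass f + algebraMap ℝ (Gr (Fld ℤ)) (EE S (mass f)) := conv_ct_two S _ _

theorem conv_kin (S : Cov (Fld ℤ)) (f : Fc) :
    conv S (kin f) = kin f + algebraMap ℝ (Gr (Fld ℤ)) (EE S (kin f)) := by
  unfold kin
  rw [map_add, map_add, conv_ct_two, conv_ct_two, map_add]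
  abel

theorem conv_base (S : Cov (Fld ℤ)) (ν z : ℝ) (U : Finset Fc) :
    conv S (base ν z U) = base ν z U + algebraMap ℝ (Gr (Fld ℤ)) (EE S (base ν z U)) := by
  by_cases h : ∃ f, U = {f}
  · obtain ⟨f, rfl⟩ := h
    have e : ∀ (c x : ℝ), algebraMap ℝ (Gr (Fld ℤ)) (c * x) = c • algebraMap ℝ (Gr (Fld ℤ)) x :=
      fun c x => by rw [map_mul, Algebra.smul_def]
    rw [base_single, map_add, map_add, map_smul, map_smul, map_smul, map_smul, conv_mass,
      conv_kin, smul_eq_mul, smul_eq_mul, map_add, e, e, smul_add, smul_add]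
    abel
  · push Not at h
    rw [base_of_ne ν z h]
    simp

theorem cvG_baseG (S : Cov (Fld ℤ)) (ν z : ℝ) (U : Finset Fc) :
    cvG S (baseG ν z U) = baseG ν z U + algebraMap ℝ (Ge (Fld ℤ)) (EEG S (baseG ν z U)) :=
  ge_ext (by
    rw [coe_cvG, coe_baseG, conv_base, Ge.coe_add, ge_coe_algebraMap, coe_baseG, EEG_apply,
      coe_baseG])

theorem LocG_algebraMap (f : Fc) (c : ℝ) : LocG f (algebraMap ℝ (Ge (Fld ℤ)) c) = 0 :=
  ge_ext (by
    rw [coe_LocG, ge_coe_algebraMap, LocAt, Loc_algebraMap]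
    rfl)

theorem LocG_baseG (ν z : ℝ) (f : Fc) : LocG f (baseG ν z {f}) = baseG ν z {f} :=
  ge_ext (by
    rw [coe_LocG, coe_baseG, base_single, map_add, map_smul, map_smul, LocAt_mass, LocAt_kin])

/-! ### symmetric families -/

/-- the convolution of a symmetric family -/
theorem PlSym.conv {S : Cov (Fld ℤ)} (hS : SymS S) {K : Finset Fc → Gr (Fld ℤ)} (h : PlSym K) :
    PlSym fun U => Gr0x606.conv S (K U) where
  tau t U := by
    rw [h.tau, mp_conv (tauV t) S S fun x y => (hS.tau t x y).symm]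
  rho U := by
    rw [h.rho, mp_conv (rhoV 0) S S fun x y => (hS.rho 0 x y).symm]
  sig U := by
    rw [h.sig, conv_rev', mp_conv (sigV 0) S (-S) fun x y => ?_]
    rw [Cov.neg_b, LinearMap.neg_apply, LinearMap.neg_apply, hS.sig, neg_neg]

/-- the reversal on the even ring -/
def revG : Ge (Fld ℤ) →ₐ[ℝ] Ge (Fld ℤ) where
  toFun a := ⟨rev' a, by
    have h := a.2
    change inv' (rev' (a : Gr (Fld ℤ))) = rev' (a : Gr (Fld ℤ))
    rw [← rev'_inv', show inv' (a : Gr (Fld ℤ)) = a from h]⟩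
  map_one' := ge_ext (by
    change rev' (1 : Gr (Fld ℤ)) = 1
    rw [← map_one (algebraMap ℝ (Gr (Fld ℤ)))]; simp)
  map_mul' a b := by
    rw [mul_comm a b]
    exact ge_ext (by
      change rev' ((b * a : Ge (Fld ℤ)) : Gr (Fld ℤ)) = _
      rw [Ge.coe_mul, rev'_mul]; rfl)
  map_zero' := ge_ext (map_zero rev')
  map_add' a b := ge_ext (map_add rev' _ _)
  commutes' r := ge_ext (by
    change rev' ((algebraMap ℝ (Ge (Fld ℤ)) r : Ge (Fld ℤ)) : Gr (Fld ℤ)) = _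
    rw [ge_coe_algebraMap]; simp)

@[simp] theorem coe_revG (a : Ge (Fld ℤ)) : ((revG a : Ge (Fld ℤ)) : Gr (Fld ℤ)) = rev' a := rfl

/-- a symmetry of the plane acting on the faces and on the even ring -/
structure GSym (ψ φ : Fc → Fc) (Φ : Ge (Fld ℤ) →ₐ[ℝ] Ge (Fld ℤ)) : Prop where
  iso : ∀ a b, fd (ψ a) (ψ b) = fd a b
  left : ∀ a, φ (ψ a) = a
  right : ∀ a, ψ (φ a) = a
  ct : ∀ a, ctG (Φ a) = ctG a
  loc : ∀ f a, LocG (ψ f) (Φ a) = Φ (LocG f a)
  mass : ∀ f, Φ (massG f) = massG (ψ f)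
  kin : ∀ f, Φ (kinG f) = kinG (ψ f)
  cv : ∀ S : Cov (Fld ℤ), SymS S → ∀ a, Φ (cvG S a) = cvG S (Φ a)

/-- covariant families -/
def Cv (ψ : Fc → Fc) (Φ : Ge (Fld ℤ) →ₐ[ℝ] Ge (Fld ℤ)) (K : Finset Fc → Ge (Fld ℤ)) : Prop :=
  ∀ U, K (U.image ψ) = Φ (K U)

theorem gsym_tau (t : Fc) : GSym (· + t) (· - t) (mpG (tauV t)) where
  iso a b := fd_add a b t
  left a := add_sub_cancel_right a t
  right a := sub_add_cancel a t
  ct a := ctG_mpG _ a
  loc f a := ge_ext (by simp [LocAt_tau])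
  mass f := ge_ext (by simp [mp_tau_mass])
  kin f := ge_ext (by simp [mp_tau_kin])
  cv S hS a := ge_ext (by
    rw [coe_mpG, coe_cvG, coe_cvG, coe_mpG, mp_conv (tauV t) S S fun x y => (hS.tau t x y).symm])

theorem gsym_rho (z : Fc) :
    GSym (rot z) (fun x => rot z (rot z (rot z x))) (mpG (rhoV z)) where
  iso a b := fd_rot z a b
  left a := by ext <;> simp [rot]
  right a := by ext <;> simp [rot]
  ct a := ctG_mpG _ a
  loc f a := ge_ext (by simp [LocAt_rho])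
  mass f := ge_ext (by simp [mp_rho_mass])
  kin f := ge_ext (by simp [mp_rho_kin])
  cv S hS a := ge_ext (by
    rw [coe_mpG, coe_cvG, coe_cvG, coe_mpG, mp_conv (rhoV z) S S fun x y => (hS.rho z x y).symm])

theorem gsym_sig (z : Fc) : GSym (ref z) (ref z) (revG.comp (mpG (sigV z))) where
  iso a b := fd_ref z a b
  left a := by ext <;> simp [ref]
  right a := by ext <;> simp [ref]
  ct a := by
    rw [AlgHom.comp_apply, ctG_apply, coe_revG, ct_rev', coe_mpG, ct_mp, ctG_apply]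
  loc f a := ge_ext (by
    rw [coe_LocG, AlgHom.comp_apply, AlgHom.comp_apply, coe_revG, coe_revG, coe_mpG, coe_mpG,
      coe_LocG, LocAt_sig])
  mass f := ge_ext (by
    rw [AlgHom.comp_apply, coe_revG, coe_mpG, coe_massG, mp_sig_mass, coe_massG])
  kin f := ge_ext (by
    rw [AlgHom.comp_apply, coe_revG, coe_mpG, coe_kinG, mp_sig_kin, coe_kinG])
  cv S hS a := ge_ext (by
    rw [AlgHom.comp_apply, AlgHom.comp_apply, coe_revG, coe_mpG, coe_cvG, coe_cvG, coe_revG,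
      coe_mpG, conv_rev', mp_conv (sigV z) S (-S) fun x y => ?_]
    rw [Cov.neg_b, LinearMap.neg_apply, LinearMap.neg_apply, hS.sig, neg_neg])

/-- covariance under the symmetries of the plane, on the even ring -/
def PlS (K : Finset Fc → Ge (Fld ℤ)) : Prop := PlSym fun U => (K U : Gr (Fld ℤ))

theorem plS_iff {K : Finset Fc → Ge (Fld ℤ)} : PlS K ↔
    (∀ t, Cv (· + t) (mpG (tauV t)) K) ∧ Cv (rot 0) (mpG (rhoV 0)) K ∧
      Cv (ref 0) (revG.comp (mpG (sigV 0))) K := by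
  constructor
  · intro h
    exact ⟨fun t U => ge_ext (h.tau t U), fun U => ge_ext (h.rho U), fun U => ge_ext (h.sig U)⟩
  · rintro ⟨h1, h2, h3⟩
    exact ⟨fun t U => congrArg Subtype.val (h1 t U), fun U => congrArg Subtype.val (h2 U),
      fun U => congrArg Subtype.val (h3 U)⟩

/-- constructions which commute with all symmetries preserve covariance -/
theorem PlS.map {K K' : Finset Fc → Ge (Fld ℤ)} (h : PlS K)
    (h' : ∀ ψ φ Φ, GSym ψ φ Φ → Cv ψ Φ K → Cv ψ Φ K') : PlS K' := by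
  rw [plS_iff] at h ⊢
  exact ⟨fun t => h' _ _ _ (gsym_tau t) (h.1 t), h' _ _ _ (gsym_rho 0) h.2.1,
    h' _ _ _ (gsym_sig 0) h.2.2⟩

theorem PlS.map2 {K K' K'' : Finset Fc → Ge (Fld ℤ)} (h : PlS K) (h2 : PlS K')
    (h' : ∀ ψ φ Φ, GSym ψ φ Φ → Cv ψ Φ K → Cv ψ Φ K' → Cv ψ Φ K'') : PlS K'' := by
  rw [plS_iff] at h h2 ⊢
  exact ⟨fun t => h' _ _ _ (gsym_tau t) (h.1 t) (h2.1 t), h' _ _ _ (gsym_rho 0) h.2.1 h2.2.1,
    h' _ _ _ (gsym_sig 0) h.2.2 h2.2.2⟩

theorem plS_of {K : Finset Fc → Ge (Fld ℤ)} (h' : ∀ ψ φ Φ, GSym ψ φ Φ → Cv ψ Φ K) : PlS K := by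
  rw [plS_iff]
  exact ⟨fun t => h' _ _ _ (gsym_tau t), h' _ _ _ (gsym_rho 0), h' _ _ _ (gsym_sig 0)⟩

section closure

variable {ψ φ : Fc → Fc} {Φ : Ge (Fld ℤ) →ₐ[ℝ] Ge (Fld ℤ)}

theorem GSym.inj (g : GSym ψ φ Φ) : Function.Injective ψ := inj_of_iso g.iso

theorem GSym.card (g : GSym ψ φ Φ) (U : Finset Fc) : (U.image ψ).card = U.card :=
  Finset.card_image_of_injective _ g.inj

theorem GSym.size (g : GSym ψ φ Φ) (r : ℕ) (U : Finset Fc) :
    size r (U.image ψ) ≤ 1 ↔ size r U ≤ 1 := by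
  rw [size_le_one_iff, size_le_one_iff]
  constructor
  · intro h x hx f hf
    rw [← g.iso]
    exact h _ (Finset.mem_image_of_mem ψ hx) _ (Finset.mem_image_of_mem ψ hf)
  · intro h x hx f hf
    obtain ⟨x', hx', rfl⟩ := Finset.mem_image.1 hx
    obtain ⟨f', hf', rfl⟩ := Finset.mem_image.1 hf
    rw [g.iso]
    exact h _ hx' _ hf'

theorem GSym.image_image (g : GSym ψ φ Φ) (U : Finset Fc) : (U.image ψ).image φ = U := by
  rw [Finset.image_image, show φ ∘ ψ = id from funext g.left, Finset.image_id]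

theorem GSym.image_image' (g : GSym ψ φ Φ) (U : Finset Fc) : (U.image φ).image ψ = U := by
  rw [Finset.image_image, show ψ ∘ φ = id from funext g.right, Finset.image_id]

theorem Cv.add {K K' : Finset Fc → Ge (Fld ℤ)} (h : Cv ψ Φ K) (h' : Cv ψ Φ K') :
    Cv ψ Φ fun U => K U + K' U := fun U => by
  show K _ + K' _ = Φ (K U + K' U)
  rw [h U, h' U, map_add]

theorem Cv.sub {K K' : Finset Fc → Ge (Fld ℤ)} (h : Cv ψ Φ K) (h' : Cv ψ Φ K') :
    Cv ψ Φ fun U => K U - K' U := fun U => by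
  show K _ - K' _ = Φ (K U - K' U)
  rw [h U, h' U, map_sub]

theorem Cv.smul {K : Finset Fc → Ge (Fld ℤ)} (h : Cv ψ Φ K) (c : ℝ) :
    Cv ψ Φ fun U => c • K U := fun U => by
  show c • K _ = Φ (c • K U)
  rw [h U, map_smul]

theorem Cv.cv (g : GSym ψ φ Φ) {S : Cov (Fld ℤ)} (hS : SymS S) {K : Finset Fc → Ge (Fld ℤ)}
    (h : Cv ψ Φ K) : Cv ψ Φ fun U => cvG S (K U) := fun U => by
  show cvG S (K _) = Φ (cvG S (K U))
  rw [h U, g.cv S hS]

theorem Cv.vac (g : GSym ψ φ Φ) {K : Finset Fc → Ge (Fld ℤ)} (h : Cv ψ Φ K) :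
    Cv ψ Φ fun U => vac0 (Fld ℤ) (K U) := fun U => by
  show vac0 _ (K _) = Φ (vac0 _ (K U))
  rw [h U, vac0_apply, vac0_apply, AlgHom.commutes, g.ct]

theorem cv_baseG (g : GSym ψ φ Φ) (ν z : ℝ) : Cv ψ Φ (baseG ν z) := fun U => by
  by_cases h : ∃ f, U = {f}
  · obtain ⟨f, rfl⟩ := h
    rw [Finset.image_singleton, baseG_single, baseG_single, map_add, map_smul, map_smul, g.mass,
      g.kin]
  · push Not at h
    rw [baseG_of_ne ν z h, map_zero, baseG_of_ne]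
    intro f hf
    refine h (φ f) ?_
    rw [← g.image_image U, hf, Finset.image_singleton]

/-- the family of averages of local parts -/
def lcG (r : ℕ) (K : Finset Fc → Ge (Fld ℤ)) (U : Finset Fc) : Ge (Fld ℤ) :=
  if size r U ≤ 1 then (U.card : ℝ)⁻¹ • ∑ f ∈ U, LocG f (K U) else 0

theorem Cv.lcG (g : GSym ψ φ Φ) (r : ℕ) {K : Finset Fc → Ge (Fld ℤ)} (h : Cv ψ Φ K) :
    Cv ψ Φ (lcG r K) := fun U => by
  unfold PStepIdx901.lcG
  by_cases hs : GDefx387.size r U ≤ 1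
  · rw [if_pos hs, if_pos ((g.size r U).2 hs), g.card, map_smul, map_sum,
      Finset.sum_image fun a _ b _ hab => g.inj hab]
    congr 1
    refine Finset.sum_congr rfl fun f _ => ?_
    rw [h U, g.loc]
  · rw [if_neg hs, if_neg (fun h' => hs ((g.size r U).1 h')), map_zero]

/-- extraction data of the plane -/
def eP (r : ℕ) : Extr Fc (Fld ℤ) := exF (fun _ => True) LocG r

theorem GSym.inS (g : GSym ψ φ Φ) (r : ℕ) (f : Fc) :
    inS r (ψ f) = (inS r f).image fun U => U.image ψ := by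
  ext U
  rw [mem_inS, Finset.mem_image]
  constructor
  · rintro ⟨h1, h2⟩
    refine ⟨U.image φ, mem_inS.2 ⟨?_, ?_⟩, g.image_image' U⟩
    · rw [← g.left f]; exact Finset.mem_image_of_mem φ h1
    · rw [← g.size, g.image_image']; exact h2
  · rintro ⟨W, hW, rfl⟩
    rw [mem_inS] at hW
    exact ⟨Finset.mem_image_of_mem ψ hW.1, (g.size r W).2 hW.2⟩

theorem Cv.gain (g : GSym ψ φ Φ) (r : ℕ) {K : Finset Fc → Ge (Fld ℤ)} (h : Cv ψ Φ K) :
    Cv ψ Φ ((eP r).gain K) := fun U => by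
  by_cases hs : ∃ f, U = {f}
  · obtain ⟨f, rfl⟩ := hs
    rw [Finset.image_singleton, eP, gain_exF _ _ r K trivial, gain_exF _ _ r K trivial, g.inS,
      map_sum, Finset.sum_image fun a _ b _ hab => Finset.image_injective g.inj hab]
    refine Finset.sum_congr rfl fun W _ => ?_
    rw [map_smul, h W, g.card, g.loc]
  · push Not at hs
    rw [eP, gain_exF_zero _ _ r K (fun f _ => hs f), map_zero, gain_exF_zero]
    intro f _ hf
    refine hs (φ f) ?_
    rw [← g.image_image U, hf, Finset.image_singleton]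

theorem lost_eP (r : ℕ) (K : Finset Fc → Ge (Fld ℤ)) (U : Finset Fc) :
    (eP r).lost K U = lcG r K U := by
  rw [eP, lost_exF, lcG, Finset.filter_true]

theorem Cv.AA (g : GSym ψ φ Φ) (r : ℕ) {K : Finset Fc → Ge (Fld ℤ)} (h : Cv ψ Φ K) :
    Cv ψ Φ (KFlowx337.AA (vac0 (Fld ℤ)) (eP r) K) := fun U => by
  have h1 := (h.lcG g r) U
  rw [← lost_eP, ← lost_eP] at h1
  rw [KFlowx337.AA, KFlowx337.AA, (h.gain g r) U, h1, map_sub, map_sub]
  congr 1
  exact (h.vac g) U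

theorem Cv.gexp (g : GSym ψ φ Φ) {K : Finset Fc → Ge (Fld ℤ)} (h : Cv ψ Φ K) :
    Cv ψ Φ fun U => ExpGx337.gexp (K U) := fun U => by
  show ExpGx337.gexp (K _) = Φ (ExpGx337.gexp (K U))
  rw [h U]
  obtain ⟨k, hk⟩ := ExpGx337.nl_nil (K U)
  have e : Φ (ExpGx337.nl (K U)) = ExpGx337.nl (Φ (K U)) := by
    rw [ExpGx337.nl, ExpGx337.nl, map_sub, AlgHom.commutes, g.ct]
  have hk' : Φ (ExpGx337.nl (K U)) ^ k = 0 := by rw [← map_pow, hk, map_zero]
  rw [ExpGx337.gexp, ExpGx337.gexp, map_smul, g.ct, ← e, ExpGx337.nexp_eq_sum hk,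
    ExpGx337.nexp_eq_sum hk', map_sum]
  congr 1
  exact (Finset.sum_congr rfl fun i _ => by rw [map_smul, map_pow])

theorem Cv.BB (g : GSym ψ φ Φ) (r : ℕ) {K : Finset Fc → Ge (Fld ℤ)} (h : Cv ψ Φ K) :
    Cv ψ Φ (KFlowx337.BB (vac0 (Fld ℤ)) (eP r) K) := fun U => by
  have h1 := ((h.AA g r).gexp g) U
  rw [KFlowx337.BB, KFlowx337.BB, map_sub, map_one]
  exact congrArg (· - 1) h1

/-- the touching relation of the plane -/
def nearD (R : ℕ) (f g : Fc) : Prop := fd f g ≤ R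

theorem Cv.KK (g : GSym ψ φ Φ) {near near' : Fc → Fc → Prop}
    (hn : ∀ a b, near (ψ a) (ψ b) ↔ near a b) (hn' : ∀ a b, near' (ψ a) (ψ b) ↔ near' a b)
    {K B : Finset Fc → Ge (Fld ℤ)} (hK : Cv ψ Φ K) (hB : Cv ψ Φ B) :
    Cv ψ Φ (KStepx892.KK near near' K B) := fun U => by
  refine (KMapx892.KK_map (near₁ := near) (near₁' := near') (near₂ := near) (near₂' := near')
    (W := U) (ψ := ψ) (φ := φ) ⟨fun a _ => g.left a, fun a _ b _ => (hn a b).symm,
      fun a _ b _ => (hn' a b).symm⟩ (Φ : Ge (Fld ℤ) →+* Ge (Fld ℤ)) ?_ ?_).symm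
  · intro W _ _; exact (hK W).symm
  · intro W _ _; exact (hB W).symm

end closure

/-! ### the identity of the step -/

/-- the linear part of the new remainder, on the even ring -/
def QlG (S : Cov (Fld ℤ)) (r : ℕ) (Q : Finset Fc → Ge (Fld ℤ)) (U : Finset Fc) : Ge (Fld ℤ) :=
  cvG S (Q U) - vac0 (Fld ℤ) (cvG S (Q U)) - lcG r (fun U => cvG S (Q U)) U

theorem coe_lcG (r : ℕ) (K : Finset Fc → Ge (Fld ℤ)) (U : Finset Fc) :
    ((lcG r K U : Ge (Fld ℤ)) : Gr (Fld ℤ)) =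
      if size r U ≤ 1 then (U.card : ℝ)⁻¹ • ∑ f ∈ U, LocAt f (K U) else 0 := by
  unfold lcG
  split_ifs
  · rw [Ge.coe_smul, ge_coe_sum]
    rfl
  · rfl

theorem coe_QlG (S : Cov (Fld ℤ)) (r : ℕ) (Q : Finset Fc → Ge (Fld ℤ)) (U : Finset Fc) :
    ((QlG S r Q U : Ge (Fld ℤ)) : Gr (Fld ℤ)) =
      GBulkx417.Qlin S LocAt r (fun U => (Q U : Gr (Fld ℤ))) U := by
  rw [QlG, GBulkx417.Qlin, Ge.coe_sub, Ge.coe_sub, coe_lcG, coe_vac0, coe_cvG]

/-- the mass coefficient of the step -/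
def alQ (S : Cov (Fld ℤ)) (r : ℕ) (Q : Finset Fc → Ge (Fld ℤ)) : ℝ :=
  alK r fun U => conv S (Q U : Gr (Fld ℤ))

/-- the kinetic coefficient of the step -/
def beQ (S : Cov (Fld ℤ)) (r : ℕ) (Q : Finset Fc → Ge (Fld ℤ)) : ℝ :=
  beK r fun U => conv S (Q U : Gr (Fld ℤ))

theorem inS_eq_polyAt (r : ℕ) (f : Fc) : inS r f = polyAt r f := by
  ext U
  rw [mem_inS, mem_polyAt, size_le_one_iff]
  rfl

theorem gain_cv_eq {S : Cov (Fld ℤ)} (hS : SymS S) (r : ℕ) {Q : Finset Fc → Ge (Fld ℤ)}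
    (hQ : PlS Q) (f : Fc) :
    (eP r).gain (fun U => cvG S (Q U)) {f} = baseG (alQ S r Q) (beQ S r Q) {f} := by
  rw [eP, gain_exF _ _ r _ trivial, inS_eq_polyAt]
  apply ge_ext
  have h := moveAt_eq r (PStepIdx901.PlSym.conv hS hQ) f
  rw [coe_baseG, base_single, ge_coe_sum]
  exact h

/-- the state -/
def stK (ν z : ℝ) (Q : Finset Fc → Ge (Fld ℤ)) (U : Finset Fc) : Ge (Fld ℤ) := baseG ν z U + Q U

theorem cv_stK (S : Cov (Fld ℤ)) (ν z : ℝ) (Q : Finset Fc → Ge (Fld ℤ)) (U : Finset Fc) :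
    cvG S (stK ν z Q U) = baseG ν z U + algebraMap ℝ (Ge (Fld ℤ)) (EEG S (baseG ν z U)) +
      cvG S (Q U) := by
  rw [stK, map_add, cvG_baseG]

theorem ctG_two {V : Type*} [AddCommGroup V] [Module ℝ V] (x y : V) :
    ct (fi x * fi y) = 0 := by
  simp

theorem ctG_baseG (ν z : ℝ) (U : Finset Fc) : ctG (baseG ν z U) = 0 := by
  rw [ctG_apply, coe_baseG]
  by_cases h : ∃ f, U = {f}
  · obtain ⟨f, rfl⟩ := h
    rw [base_single, mass, kin]
    simp only [map_add, map_smul, ctG_two]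
    simp
  · push Not at h
    rw [base_of_ne ν z h, map_zero]

theorem vac_stK (S : Cov (Fld ℤ)) (ν z : ℝ) (Q : Finset Fc → Ge (Fld ℤ)) (U : Finset Fc) :
    vac0 (Fld ℤ) (cvG S (stK ν z Q U)) =
      algebraMap ℝ (Ge (Fld ℤ)) (EEG S (baseG ν z U)) + vac0 (Fld ℤ) (cvG S (Q U)) := by
  rw [cv_stK, map_add, map_add, vac0_apply, vac0_apply, ctG_baseG, map_zero, zero_add, vac0_apply]
  congr 2
  rw [AlgHom.commutes]
  rfl

theorem LocG_cv_stK (S : Cov (Fld ℤ)) (ν z : ℝ) (Q : Finset Fc → Ge (Fld ℤ)) (f : Fc) :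
    LocG f (cvG S (stK ν z Q {f})) = baseG ν z {f} + LocG f (cvG S (Q {f})) := by
  rw [cv_stK, map_add, map_add, LocG_baseG, LocG_algebraMap, add_zero]

theorem size_singleton_le (r : ℕ) (f : Fc) : size r ({f} : Finset Fc) ≤ 1 := by
  rw [size_le_one_iff]; simp

theorem lcG_single (r : ℕ) (K : Finset Fc → Ge (Fld ℤ)) (f : Fc) :
    lcG r K {f} = LocG f (K {f}) := by
  rw [lcG, if_pos (size_singleton_le r f), Finset.sum_singleton, Finset.card_singleton,
    Nat.cast_one, inv_one, one_smul]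

theorem lcG_stK (S : Cov (Fld ℤ)) (r : ℕ) (ν z : ℝ) (Q : Finset Fc → Ge (Fld ℤ))
    (U : Finset Fc) :
    lcG r (fun U => cvG S (stK ν z Q U)) U = baseG ν z U + lcG r (fun U => cvG S (Q U)) U := by
  by_cases h : ∃ f, U = {f}
  · obtain ⟨f, rfl⟩ := h
    rw [lcG_single, lcG_single, LocG_cv_stK]
  · push Not at h
    have e : cvG S (stK ν z Q U) = cvG S (Q U) := by
      rw [cv_stK, baseG_of_ne ν z h, map_zero, map_zero, zero_add, zero_add]
    rw [baseG_of_ne ν z h, zero_add, lcG, lcG, e]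

theorem gain_eP_single (r : ℕ) (K : Finset Fc → Ge (Fld ℤ)) (f : Fc) :
    (eP r).gain K {f} =
      LocG f (K {f}) + ∑ U ∈ (inS r f).erase {f}, (U.card : ℝ)⁻¹ • LocG f (K U) := by
  have hf : ({f} : Finset Fc) ∈ inS r f :=
    mem_inS.2 ⟨Finset.mem_singleton_self f, size_singleton_le r f⟩
  have h := Finset.add_sum_erase (inS r f) (fun U => (U.card : ℝ)⁻¹ • LocG f (K U)) hf
  rw [eP, gain_exF _ _ r _ trivial, ← h]
  simp only [Finset.card_singleton, Nat.cast_one, inv_one, one_smul]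

theorem gain_stK (S : Cov (Fld ℤ)) (r : ℕ) (ν z : ℝ) (Q : Finset Fc → Ge (Fld ℤ))
    (U : Finset Fc) :
    (eP r).gain (fun U => cvG S (stK ν z Q U)) U =
      baseG ν z U + (eP r).gain (fun U => cvG S (Q U)) U := by
  by_cases h : ∃ f, U = {f}
  · obtain ⟨f, rfl⟩ := h
    rw [gain_eP_single, gain_eP_single, LocG_cv_stK, add_assoc]
    refine congrArg (fun x => baseG ν z {f} + (LocG f (cvG S (Q {f})) + x))
      (Finset.sum_congr rfl fun U hU => ?_)
    have hU' : ∀ g, U ≠ {g} := by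
      rintro g rfl
      rw [Finset.mem_erase, mem_inS, Finset.mem_singleton] at hU
      exact hU.1 (by rw [hU.2.1])
    rw [cv_stK, baseG_of_ne ν z hU', map_zero, map_zero, zero_add, zero_add]
  · push Not at h
    rw [eP, gain_exF_zero _ _ r _ (fun f _ => h f), gain_exF_zero _ _ r _ (fun f _ => h f),
      baseG_of_ne ν z h, zero_add]

/-- **the exponent of the step** -/
theorem AA_stK {S : Cov (Fld ℤ)} (hS : SymS S) (r : ℕ) (ν z : ℝ) {Q : Finset Fc → Ge (Fld ℤ)}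
    (hQ : PlS Q) (U : Finset Fc) :
    AA (vac0 (Fld ℤ)) (eP r) (fun U => cvG S (stK ν z Q U)) U =
      baseG (alQ S r Q) (beQ S r Q) U - algebraMap ℝ (Ge (Fld ℤ)) (EEG S (baseG ν z U)) -
        vac0 (Fld ℤ) (cvG S (Q U)) - lcG r (fun U => cvG S (Q U)) U := by
  have hg : (eP r).gain (fun U => cvG S (Q U)) U = baseG (alQ S r Q) (beQ S r Q) U := by
    by_cases h : ∃ f, U = {f}
    · obtain ⟨f, rfl⟩ := h
      exact gain_cv_eq hS r hQ f
    · push Not at h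
      rw [eP, gain_exF_zero _ _ r _ (fun f _ => h f), baseG_of_ne _ _ h]
  rw [AA, lost_eP, gain_stK, lcG_stK, hg]
  have := vac_stK S ν z Q U
  rw [this]
  abel

/-- **(I1)**: the linear part of the step -/
theorem HA_eq {S : Cov (Fld ℤ)} (hS : SymS S) (r : ℕ) (ν z : ℝ) {Q : Finset Fc → Ge (Fld ℤ)}
    (hQ : PlS Q) (U : Finset Fc) :
    cvG S (stK ν z Q U) + AA (vac0 (Fld ℤ)) (eP r) (fun U => cvG S (stK ν z Q U)) U =
      baseG (ν + alQ S r Q) (z + beQ S r Q) U + QlG S r Q U := by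
  rw [AA_stK hS r ν z hQ, cv_stK, QlG]
  have e : baseG (ν + alQ S r Q) (z + beQ S r Q) U =
      baseG ν z U + baseG (alQ S r Q) (beQ S r Q) U := by
    by_cases h : ∃ f, U = {f}
    · obtain ⟨f, rfl⟩ := h
      rw [baseG_single, baseG_single, baseG_single, add_smul, add_smul]
      abel
    · push Not at h
      rw [baseG_of_ne _ _ h, baseG_of_ne _ _ h, baseG_of_ne _ _ h, add_zero]
  rw [e]
  abel

/-! ### the one-step map -/

/-- the convolved state -/
def stH (S : Cov (Fld ℤ)) (ν z : ℝ) (Q : Finset Fc → Ge (Fld ℤ)) (U : Finset Fc) : Ge (Fld ℤ) :=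
  cvG S (stK ν z Q U)

/-- the exponent -/
def stA (S : Cov (Fld ℤ)) (r : ℕ) (ν z : ℝ) (Q : Finset Fc → Ge (Fld ℤ)) (U : Finset Fc) :
    Ge (Fld ℤ) := AA (vac0 (Fld ℤ)) (eP r) (stH S ν z Q) U

/-- the extraction activity -/
def stB (S : Cov (Fld ℤ)) (r : ℕ) (ν z : ℝ) (Q : Finset Fc → Ge (Fld ℤ)) (U : Finset Fc) :
    Ge (Fld ℤ) := BB (vac0 (Fld ℤ)) (eP r) (stH S ν z Q) U

theorem stB_eq (S : Cov (Fld ℤ)) (r : ℕ) (ν z : ℝ) (Q : Finset Fc → Ge (Fld ℤ))
    (U : Finset Fc) : stB S r ν z Q U = ExpGx337.gexp (stA S r ν z Q U) - 1 := rfl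

/-- the new activities -/
def stN (near near' : Fc → Fc → Prop) (S : Cov (Fld ℤ)) (r : ℕ) (ν z : ℝ)
    (Q : Finset Fc → Ge (Fld ℤ)) (U : Finset Fc) : Ge (Fld ℤ) :=
  KStepx892.KK near near' (stH S ν z Q) (stB S r ν z Q) U

/-- the new remainder -/
def stQ (near near' : Fc → Fc → Prop) (S : Cov (Fld ℤ)) (r : ℕ) (ν z : ℝ)
    (Q : Finset Fc → Ge (Fld ℤ)) (U : Finset Fc) : Ge (Fld ℤ) :=
  stN near near' S r ν z Q U - baseG (ν + alQ S r Q) (z + beQ S r Q) U

/-- the new state -/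
theorem stN_eq (near near' : Fc → Fc → Prop) (S : Cov (Fld ℤ)) (r : ℕ) (ν z : ℝ)
    (Q : Finset Fc → Ge (Fld ℤ)) :
    stN near near' S r ν z Q =
      stK (ν + alQ S r Q) (z + beQ S r Q) (stQ near near' S r ν z Q) := by
  funext U
  rw [stK, stQ]
  abel

/-- **the new remainder** -/
theorem stQ_eq (near near' : Fc → Fc → Prop) {S : Cov (Fld ℤ)} (hS : SymS S) (r : ℕ) (ν z : ℝ)
    {Q : Finset Fc → Ge (Fld ℤ)} (hQ : PlS Q) (U : Finset Fc) :
    stQ near near' S r ν z Q U = QlG S r Q U +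
      (stN near near' S r ν z Q U - stH S ν z Q U - stA S r ν z Q U) := by
  have h : stH S ν z Q U + stA S r ν z Q U =
      baseG (ν + alQ S r Q) (z + beQ S r Q) U + QlG S r Q U := HA_eq hS r ν z hQ U
  rw [stQ]
  have h' : baseG (ν + alQ S r Q) (z + beQ S r Q) U =
      stH S ν z Q U + stA S r ν z Q U - QlG S r Q U := eq_sub_of_add_eq h.symm
  rw [h']
  abel

/-- the exponent in terms of the data -/
theorem stA_eq {S : Cov (Fld ℤ)} (hS : SymS S) (r : ℕ) (ν z : ℝ) {Q : Finset Fc → Ge (Fld ℤ)}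
    (hQ : PlS Q) (U : Finset Fc) :
    stA S r ν z Q U =
      baseG (alQ S r Q) (beQ S r Q) U - algebraMap ℝ (Ge (Fld ℤ)) (EEG S (baseG ν z U)) -
        vac0 (Fld ℤ) (cvG S (Q U)) - lcG r (fun U => cvG S (Q U)) U := AA_stK hS r ν z hQ U

theorem stH_eq (S : Cov (Fld ℤ)) (ν z : ℝ) (Q : Finset Fc → Ge (Fld ℤ)) (U : Finset Fc) :
    stH S ν z Q U = baseG ν z U + algebraMap ℝ (Ge (Fld ℤ)) (EEG S (baseG ν z U)) +
      cvG S (Q U) := cv_stK S ν z Q U

theorem stN_empty (near near' : Fc → Fc → Prop) (S : Cov (Fld ℤ)) (r : ℕ) (ν z : ℝ)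
    (Q : Finset Fc → Ge (Fld ℤ)) : stN near near' S r ν z Q ∅ = 0 := KMapx892.KK_empty _ _ _ _

theorem stQ_empty (near near' : Fc → Fc → Prop) (S : Cov (Fld ℤ)) (r : ℕ) (ν z : ℝ)
    (Q : Finset Fc → Ge (Fld ℤ)) : stQ near near' S r ν z Q ∅ = 0 := by
  rw [stQ, stN_empty, baseG_of_ne, sub_zero]
  intro f h
  exact Finset.singleton_ne_empty f h.symm

/-- nearness relations invariant under the isometries -/
def NInv (near : Fc → Fc → Prop) : Prop :=
  ∀ ψ : Fc → Fc, (∀ a b, fd (ψ a) (ψ b) = fd a b) → ∀ a b, near (ψ a) (ψ b) ↔ near a b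

theorem nInv_fd (R : ℕ) : NInv fun a b => fd a b ≤ R := fun ψ h a b => by
  show fd (ψ a) (ψ b) ≤ R ↔ fd a b ≤ R
  rw [h]

section sym

variable {S : Cov (Fld ℤ)} {Q : Finset Fc → Ge (Fld ℤ)}

theorem plS_stK (ν z : ℝ) (hQ : PlS Q) : PlS (stK ν z Q) :=
  hQ.map fun _ _ _ g h => (cv_baseG g ν z).add h

theorem plS_stH (hS : SymS S) (ν z : ℝ) (hQ : PlS Q) : PlS (stH S ν z Q) :=
  (plS_stK ν z hQ).map fun _ _ _ g h => h.cv g hS

theorem plS_stA (hS : SymS S) (r : ℕ) (ν z : ℝ) (hQ : PlS Q) : PlS (stA S r ν z Q) :=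
  (plS_stH hS ν z hQ).map fun _ _ _ g h => h.AA g r

theorem plS_stB (hS : SymS S) (r : ℕ) (ν z : ℝ) (hQ : PlS Q) : PlS (stB S r ν z Q) :=
  (plS_stH hS ν z hQ).map fun _ _ _ g h => h.BB g r

theorem plS_stN {near near' : Fc → Fc → Prop} (hn : NInv near) (hn' : NInv near')
    (hS : SymS S) (r : ℕ) (ν z : ℝ) (hQ : PlS Q) : PlS (stN near near' S r ν z Q) :=
  (plS_stH hS ν z hQ).map2 (plS_stB hS r ν z hQ) fun _ _ _ g h h' =>
    h.KK g (hn _ g.iso) (hn' _ g.iso) h'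

theorem plS_baseG (ν z : ℝ) : PlS (baseG ν z) := plS_of fun _ _ _ g => cv_baseG g ν z

/-- **(I3)** -/
theorem plS_stQ {near near' : Fc → Fc → Prop} (hn : NInv near) (hn' : NInv near')
    (hS : SymS S) (r : ℕ) (ν z : ℝ) (hQ : PlS Q) : PlS (stQ near near' S r ν z Q) :=
  (plS_stN hn hn' hS r ν z hQ).map2 (plS_baseG _ _) fun _ _ _ _ h h' => h.sub h'

end sym

/-! ### the flow of a plane system -/

/-- the activities of a system whose extraction is `eP`, in one step -/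
theorem sys_step (D : Sys Fc (Fld ℤ)) (k : ℕ) {r : ℕ} (hv : D.vac = vac0 (Fld ℤ))
    (he : D.e k = eP r) (ν z : ℝ) (Q : Finset Fc → Ge (Fld ℤ)) (hK : D.K k = stK ν z Q) :
    D.K (k + 1) = stK (ν + alQ (D.S k) r Q) (z + beQ (D.S k) r Q)
      (stQ (D.near k) (D.near (k + 1)) (D.S k) r ν z Q) := by
  rw [← stN_eq]
  funext U
  have h1 : D.H k = stH (D.S k) ν z Q := by
    funext U
    rw [Sys.H, hK, stH]
  have h2 : D.B k = stB (D.S k) r ν z Q := by
    funext U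
    rw [Sys.B, h1, hv, he]
    rfl
  rw [Sys.K_succ, h1, h2]
  rfl

end Crest.Agent.R165.PStepIdx901
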