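import Crest.Agent.R165.Comp2_889
import Crest.Agent.R165.PStepId_901
import Crest.Agent.R165.FlowD4_898
import Crest.Agent.R165.BulkPl_812
import Crest.Agent.R165.Crude_386

/-!
# Row 165, block F, leaf P8: the plane flow with growing amplitudes (helper889)

Input: the bound `Y k` of the plane activities with the constant amplitude `A₀` (leaf P7).
Output: the bound `X k` with the growing amplitudes `a k`.  No decomposition of the activities is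
needed: the linear bound of the bulk step is applied to the full activities.

* `PlD`       : plane systems (extraction at every face)
* `HA_coe`    : `H + A = Qlin (K) + base al be`
* `NK_HA_le`  : its norm
* `plane_rec` : `X (k+1) ≤ κ X k + Cg (a(k+1)/A₀)² Y k + CR X(k)²`
* `plane_all` : all scales
-/

set_option autoImplicit false
set_option linter.unusedSectionVars false

noncomputable section

open scoped ENNReal

namespace Crest.Agent.R165.Compx889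

open Crest.Agent.R165.Gr0x606 Crest.Agent.R165.Gr1x606 Crest.Agent.R165.GeOpsx337
  Crest.Agent.R165.ExpGx337 Crest.Agent.R165.KFlowx337
open Crest.Agent.R165.Latx683 Crest.Agent.R165.PNormx417
open Crest.Agent.R165.GDefx387 Crest.Agent.R165.Packx915 Crest.Agent.R165.NSumx915
open Crest.Agent.R165.Bridgex915 Crest.Agent.R165.NKDefx915 Crest.Agent.R165.DefRecx915
open Crest.Agent.R165.Locx901 Crest.Agent.R165.PlaneModesx901 Crest.Agent.R165.PlaneLocx901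
  Crest.Agent.R165.PlaneCovx901 Crest.Agent.R165.PlaneSumx901 Crest.Agent.R165.PlaneCoefx901
  Crest.Agent.R165.PStepx417 Crest.Agent.R165.GBulkx417 Crest.Agent.R165.W2x812

/-- plane systems: extraction of the local part at every face, vacuum = constant part -/
structure PlD (D : Sys Fc (Fld ℤ)) (r : ℕ → ℕ) : Prop where
  e : ∀ k, ∃ Lo : Fc → Ge (Fld ℤ) →ₗ[ℝ] Ge (Fld ℤ),
    (∀ f a, ((Lo f a : Ge (Fld ℤ)) : Gr (Fld ℤ)) = LocAt f (a : Gr (Fld ℤ))) ∧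
      D.e k = exF (fun _ => True) Lo (r k)
  vac : D.vac = vac0 (Fld ℤ)
  S : ∀ k, SymS (D.S k)

/-- the mass coefficient of the step `k` -/
def al (D : Sys Fc (Fld ℤ)) (r : ℕ → ℕ) (k : ℕ) : ℝ :=
  alK (r k) fun U => conv (D.S k) (D.K k U : Gr (Fld ℤ))

/-- the kinetic coefficient of the step `k` -/
def be (D : Sys Fc (Fld ℤ)) (r : ℕ → ℕ) (k : ℕ) : ℝ :=
  beK (r k) fun U => conv (D.S k) (D.K k U : Gr (Fld ℤ))

/-- **the linear part of the step** -/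
theorem HA_coe {D : Sys Fc (Fld ℤ)} {r : ℕ → ℕ} (h : PlD D r) (k : ℕ)
    (hK : PlSym fun U => (D.K k U : Gr (Fld ℤ))) (U : Finset Fc) :
    ((D.H k U + D.A k U : Ge (Fld ℤ)) : Gr (Fld ℤ)) =
      Qlin (D.S k) LocAt (r k) (fun U => (D.K k U : Gr (Fld ℤ))) U +
        base (al D r k) (be D r k) U := by
  obtain ⟨Lo, hLo, he⟩ := h.e k
  have hgain : (((D.e k).gain (D.H k) U : Ge (Fld ℤ)) : Gr (Fld ℤ)) =
      base (al D r k) (be D r k) U := by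
    by_cases hs : ∃ f, U = {f}
    · obtain ⟨f, rfl⟩ := hs
      have hm := moveAt_eq (r k) (PStepIdx901.PlSym.conv (h.S k) hK) f
      rw [he, gain_exF _ _ _ _ trivial, PStepIdx901.inS_eq_polyAt, base_single, ge_coe_sum]
      refine Eq.trans (Finset.sum_congr rfl fun W _ => ?_) hm
      rw [Ge.coe_smul, hLo]
      rfl
    · push Not at hs
      rw [he, gain_exF_zero _ _ _ _ (fun f _ => hs f), base_of_ne _ _ hs]
      rfl
  have hlost : (((D.e k).lost (D.H k) U : Ge (Fld ℤ)) : Gr (Fld ℤ)) =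
      if size (r k) U ≤ 1 then (U.card : ℝ)⁻¹ • ∑ f ∈ U, LocAt f (conv (D.S k)
        (D.K k U : Gr (Fld ℤ))) else 0 := by
    rw [he, lost_exF]
    split_ifs with hs
    · rw [Ge.coe_smul, ge_coe_sum, Finset.filter_true]
      congr 1
      exact Finset.sum_congr rfl fun f _ => hLo f _
    · rfl
  rw [Sys.A, AA, Ge.coe_add, Ge.coe_sub, Ge.coe_sub, hgain, hlost, h.vac, coe_vac0, Qlin]
  have hH : ((D.H k U : Ge (Fld ℤ)) : Gr (Fld ℤ)) = conv (D.S k) (D.K k U : Gr (Fld ℤ)) := rfl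
  rw [hH]
  abel

theorem Loc_md (f : Fc) : (LocAt f : Gr (Fld ℤ) →ₗ[ℝ] Gr (Fld ℤ)) =
    loc2 (md f).P0 (md f).P1 :=
  LinearMap.ext fun F => Loc_eq_loc2 (md f) F

/-- the constant of the generated local forms -/
def Cg (C : ℝ) (r r' : ℕ) : ℝ :=
  9 * C ^ 2 * (PlaneCoefx901.cM * ((r' : ℝ) / r) + 2 * PlaneCoefx901.cK)

theorem cM_nonneg : 0 ≤ PlaneCoefx901.cM := by
  unfold PlaneCoefx901.cM
  positivity

theorem cK_nonneg : 0 ≤ PlaneCoefx901.cK := by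
  unfold PlaneCoefx901.cK
  positivity

theorem Cg_nonneg {C : ℝ} (r r' : ℕ) : 0 ≤ Cg C r r' := by
  have h1 := cM_nonneg
  have h2 := cK_nonneg
  unfold Cg
  positivity

/-- size of the generated local forms: coefficients from the amplitude `A₀`, norm with the
amplitude `a'` -/
theorem NK_base_al_le {D : Sys Fc (Fld ℤ)} {r : ℕ → ℕ} {k : ℕ} {C A₀ a' : ℝ} {Γ : ℝ≥0∞}
    (hC : BkReg C) (hA₀ : 0 < A₀) (ha' : 0 ≤ a') (hr : 1 ≤ r k) (hrr : r k ≤ r (k + 1))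
    (hΓ : 1 ≤ Γ) {g : Fld ℤ → ℝ≥0∞} {q : ℝ≥0∞} (hg : Gram (D.S k) g) (hq : q ≤ 1 / 4)
    (hgw : ∀ U : Finset Fc, ∀ l, g l ≤ q * wU (wPl ℤ) A₀ (r k) U l)
    (hK : PlSym fun U => (D.K k U : Gr (Fld ℤ)))
    (hfin : NK (wPl ℤ) A₀ (r k) Γ allP (fun U => (D.K k U : Gr (Fld ℤ))) ≠ ∞) :
    NK (wPl ℤ) a' (r (k + 1)) Γ allP (base (al D r k) (be D r k)) ≤
      Γ * ENNReal.ofReal (Cg C (r k) (r (k + 1)) * (a' / A₀) ^ 2) *
        NK (wPl ℤ) A₀ (r k) Γ allP (fun U => (D.K k U : Gr (Fld ℤ))) := by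
  set Y := NK (wPl ℤ) A₀ (r k) Γ allP (fun U => (D.K k U : Gr (Fld ℤ))) with hY
  have h1 := alK_conv_le (S := D.S k) (K := fun U => (D.K k U : Gr (Fld ℤ))) hA₀ hr hΓ hg hq hgw
    hK hfin
  have h2 := beK_conv_le (S := D.S k) (K := fun U => (D.K k U : Gr (Fld ℤ))) hA₀ hr hΓ hg hq hgw
    hK hfin
  have h3 := NK_base_le (C := C) hC ha' (hr.trans hrr) Γ (al D r k) (be D r k)
  have hrp : (0 : ℝ) < r k := by exact_mod_cast hr
  have hrp' : (0 : ℝ) < r (k + 1) := by exact_mod_cast hr.trans hrr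
  have hcM : 0 ≤ PlaneCoefx901.cM := cM_nonneg
  have hcK : 0 ≤ PlaneCoefx901.cK := cK_nonneg
  refine h3.trans ?_
  rw [mul_assoc Γ]
  refine mul_le_mul' le_rfl ?_
  -- real form of the bounds
  have e1 : ENNReal.ofReal (|al D r k| * r (k + 1)) ≤
      ENNReal.ofReal (PlaneCoefx901.cM / A₀ ^ 2 * ((r (k + 1) : ℝ) / r k)) * Y := by
    have e : |al D r k| * (r (k + 1) : ℝ) = ((r (k + 1) : ℝ) / r k) * (r k * |al D r k|) := by
      field_simp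
    rw [e, ENNReal.ofReal_mul (by positivity), ENNReal.ofReal_mul hrp.le,
      ← Real.enorm_eq_ofReal_abs]
    calc ENNReal.ofReal ((r (k + 1) : ℝ) / r k) * (ENNReal.ofReal (r k) * ‖al D r k‖ₑ)
        ≤ ENNReal.ofReal ((r (k + 1) : ℝ) / r k) * (ENNReal.ofReal (PlaneCoefx901.cM / A₀ ^ 2) * Y) :=
          mul_le_mul' le_rfl h1
      _ = _ := by
          rw [← mul_assoc, ← ENNReal.ofReal_mul (by positivity), mul_comm (PlaneCoefx901.cM / A₀ ^ 2)]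
  have e2 : ENNReal.ofReal |be D r k| ≤ ENNReal.ofReal (PlaneCoefx901.cK / A₀ ^ 2) * Y := by
    rw [← Real.enorm_eq_ofReal_abs]
    exact h2
  calc ENNReal.ofReal (9 * a' ^ 2 * C ^ 2 * (|al D r k| * (r (k + 1) : ℝ) + 2 * |be D r k|))
      = ENNReal.ofReal (9 * a' ^ 2 * C ^ 2) * (ENNReal.ofReal (|al D r k| * (r (k + 1) : ℝ)) +
          2 * ENNReal.ofReal |be D r k|) := by
        rw [ENNReal.ofReal_mul (by positivity), ENNReal.ofReal_add (by positivity) (by positivity),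
          ENNReal.ofReal_mul (by norm_num : (0 : ℝ) ≤ 2)]
        simp
    _ ≤ ENNReal.ofReal (9 * a' ^ 2 * C ^ 2) *
          (ENNReal.ofReal (PlaneCoefx901.cM / A₀ ^ 2 * ((r (k + 1) : ℝ) / r k)) * Y +
            2 * (ENNReal.ofReal (PlaneCoefx901.cK / A₀ ^ 2) * Y)) := by gcongr
    _ = ENNReal.ofReal (9 * a' ^ 2 * C ^ 2) *
          ENNReal.ofReal (PlaneCoefx901.cM / A₀ ^ 2 * ((r (k + 1) : ℝ) / r k) + 2 * (PlaneCoefx901.cK / A₀ ^ 2)) * Y := by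
        rw [ENNReal.ofReal_add (by positivity) (by positivity),
          ENNReal.ofReal_mul (by norm_num : (0 : ℝ) ≤ 2)]
        simp only [ENNReal.ofReal_ofNat]
        ring
    _ = _ := by
        rw [← ENNReal.ofReal_mul (by positivity)]
        congr 2
        unfold Cg
        field_simp

/-- the numerical hypotheses of the bulk step in the plane -/
def PlStep (D : Sys Fc (Fld ℤ)) (Γ : ℝ≥0∞) (k : ℕ) (a a' : ℝ) (r r' : ℕ) (κ₀ : ℝ≥0∞) : Prop :=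
  ∃ (g : Fld ℤ → ℝ≥0∞) (p0 p1 q2 q0 C : ℝ≥0∞),
    BulkHyp (wPl ℤ) a a' r r' g (fun f => (md f).P0) (fun f => (md f).P1) p0 p1 q2 q0 C ∧
      BulkNum p0 p1 q2 q0 C ∧ Gram (D.S k) g ∧
      (((2 * (r' / r) + 3) ^ 2 : ℕ) : ℝ≥0∞) * (kap p0 p1 q2 q0 C + Γ⁻¹) ≤ κ₀

/-- **linear part of the step, growing amplitudes** -/
theorem NK_HA_le {D : Sys Fc (Fld ℤ)} {r R : ℕ → ℕ} (hD : PlD D r) {k : ℕ} {C A₀ a a' : ℝ}
    {Γ κ₀ : ℝ≥0∞} (hC : BkReg C) (hA₀ : 0 < A₀) (ha' : 0 ≤ a') (hr : 1 ≤ r k)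
    (hrr : r k ≤ r (k + 1)) (hΓ : 1 ≤ Γ) (hΓt : Γ ≠ ∞) {g : Fld ℤ → ℝ≥0∞} {q : ℝ≥0∞}
    (hg : Gram (D.S k) g) (hq : q ≤ 1 / 4)
    (hgw : ∀ U : Finset Fc, ∀ l, g l ≤ q * wU (wPl ℤ) A₀ (r k) U l)
    (hK : PlSym fun U => (D.K k U : Gr (Fld ℤ))) (hK0 : D.K k ∅ = 0)
    (hconn : ∀ U, D.K k U ≠ 0 → Packx915.Conn fd (R k) U) (hR : R k + 2 * r k ≤ r (k + 1))
    (hP : PlStep D Γ k a a' (r k) (r (k + 1)) κ₀)
    (hfin : NK (wPl ℤ) A₀ (r k) Γ allP (fun U => (D.K k U : Gr (Fld ℤ))) ≠ ∞) :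
    NK (wPl ℤ) a' (r (k + 1)) Γ allP
        (fun U => ((D.H k U + D.A k U : Ge (Fld ℤ)) : Gr (Fld ℤ))) ≤
      κ₀ * NK (wPl ℤ) a (r k) Γ allP (fun U => (D.K k U : Gr (Fld ℤ))) +
        Γ * ENNReal.ofReal (Cg C (r k) (r (k + 1)) * (a' / A₀) ^ 2) *
          NK (wPl ℤ) A₀ (r k) Γ allP (fun U => (D.K k U : Gr (Fld ℤ))) := by
  obtain ⟨g', p0, p1, q2, q0, C', H, N, hg', hκ⟩ := hP
  have h1 : NK (wPl ℤ) a' (r (k + 1)) Γ allP
      (Qlin (D.S k) (fun f => loc2 (md f).P0 (md f).P1) (r k)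
        (fun U => (D.K k U : Gr (Fld ℤ)))) ≤
      κ₀ * NK (wPl ℤ) a (r k) Γ allP (fun U => (D.K k U : Gr (Fld ℤ))) := by
    refine (NK_Qlin_le H N hg' (fun f => inferInstance)
      (fun f => (finrank_range_P0 (md f)).trans (by simp)) (fun U => (D.K k U).2)
      (by rw [hK0]; rfl) (fun U hU => hconn U fun h => hU (by rw [h]; rfl)) hr hR hΓ hΓt
      allP).trans ?_
    exact mul_le_mul_left hκ _
  have h2 := NK_base_al_le hC hA₀ ha' hr hrr hΓ hg hq hgw hK hfin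
  have e : (fun U => ((D.H k U + D.A k U : Ge (Fld ℤ)) : Gr (Fld ℤ))) = fun U =>
      Qlin (D.S k) (fun f => loc2 (md f).P0 (md f).P1) (r k)
        (fun U => (D.K k U : Gr (Fld ℤ))) U + base (al D r k) (be D r k) U := by
    funext U
    rw [HA_coe hD k hK U]
    congr 2
    funext f
    exact Loc_md f
  rw [e]
  exact (NK_add_le _ _ _ _ _ _ _).trans (add_le_add h1 h2)

/-- **one step of the plane flow with growing amplitudes** -/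
theorem plane_rec {D : Sys Fc (Fld ℤ)} {r R : ℕ → ℕ} (hD : PlD D r) {k : ℕ} {C A₀ a a' : ℝ}
    {Γ κ₀ κ₁ CF n3 : ℝ≥0∞} (hC : BkReg C) (hA₀ : 0 < A₀) (ha' : 0 ≤ a') (hr : 1 ≤ r k)
    (hrr : r k ≤ r (k + 1)) (hΓ : 1 ≤ Γ) (hΓt : Γ ≠ ∞) {g : Fld ℤ → ℝ≥0∞} {q : ℝ≥0∞}
    (hg : Gram (D.S k) g) (hq : q ≤ 1 / 4)
    (hgw : ∀ U : Finset Fc, ∀ l, g l ≤ q * wU (wPl ℤ) A₀ (r k) U l)
    (hK : PlSym fun U => (D.K k U : Gr (Fld ℤ))) (hK0 : D.K k ∅ = 0)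
    (hconn : ∀ U, D.K k U ≠ 0 → Packx915.Conn fd (R k) U) (hR : R k + 2 * r k ≤ r (k + 1))
    (hP : PlStep D Γ k a a' (r k) (r (k + 1)) κ₀)
    {ac em em' : Finset Fc → Prop} (hnear : D.near (k + 1) = fun x y => fd x y ≤ R (k + 1))
    (hac : ∀ U, D.K k U ≠ 0 → ac U) (hne : ∀ U, ac U → U.Nonempty)
    (hvac : VacCt D) (he : EmbExtr (r k) em' (D.e k))
    (hStep : StepOK D (wPl ℤ) Γ k a a' (r k) (r (k + 1)) ac em κ₁ CF)
    (hn3 : (nn3 (r (k + 1)) (R (k + 1)) : ℝ≥0∞) ≤ n3) (hCF : CF ≠ ∞)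
    (hfin : NK (wPl ℤ) A₀ (r k) Γ allP (fun U => (D.K k U : Gr (Fld ℤ))) ≠ ∞)
    (hs : NK (wPl ℤ) a (r k) Γ allP (fun U => (D.K k U : Gr (Fld ℤ))) ≤ eta n3 CF) :
    NK (wPl ℤ) a' (r (k + 1)) Γ allP (fun U => (D.K (k + 1) U : Gr (Fld ℤ))) ≤
      κ₀ * NK (wPl ℤ) a (r k) Γ allP (fun U => (D.K k U : Gr (Fld ℤ))) +
        Γ * ENNReal.ofReal (Cg C (r k) (r (k + 1)) * (a' / A₀) ^ 2) *
          NK (wPl ℤ) A₀ (r k) Γ allP (fun U => (D.K k U : Gr (Fld ℤ))) +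
        CR n3 CF * (NK (wPl ℤ) a (r k) Γ allP (fun U => (D.K k U : Gr (Fld ℤ)))) ^ 2 := by
  have h1 := NK_HA_le (R := R) hD hC hA₀ ha' hr hrr hΓ hΓt hg hq hgw hK hK0 hconn hR hP hfin
  obtain ⟨κ, _, A, m, N, q', qL, qT, CX, H, hX, hκ, hF⟩ := hStep
  set X := NK (wPl ℤ) a (r k) Γ allP (fun U => (D.K k U : Gr (Fld ℤ))) with hXdef
  have h2 := NK_quad (R' := R (k + 1)) (X := X) D k H hr hrr hΓ hnear hac hne hvac he hX le_rfl
    (by
      calc (nn3 (r (k + 1)) (R (k + 1)) : ℝ≥0∞) * (3 * (cF (r k) (r (k + 1)) qL qT CX * X))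
          ≤ n3 * (3 * (CF * eta n3 CF)) := by gcongr
        _ = 3 * n3 * CF * eta n3 CF := by ring
        _ ≤ 1 := eta_mul _ _)
    (ENNReal.mul_ne_top (ne_top_of_le_ne_top hCF hF)
      (ne_top_of_le_ne_top ENNReal.one_ne_top (hs.trans (eta_le_one _ _))))
  have h3 : cQ (r k) (r (k + 1)) (R (k + 1)) qL qT CX ≤ CR n3 CF := by
    refine le_trans ?_ (le_add_self : 10 * n3 * CF ^ 2 ≤ CR n3 CF)
    rw [cQ]
    gcongr
  have h4 := h2.trans (mul_le_mul_left h3 _)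
  refine le_trans ?_ (add_le_add h1 h4)
  have h5 : NK (wPl ℤ) a' (r (k + 1)) Γ allP (fun U => (D.K (k + 1) U : Gr (Fld ℤ))) ≤
      NK (wPl ℤ) a' (r (k + 1)) Γ (fun U => U.Nonempty)
      (fun U => ((D.H k U + D.A k U : Ge (Fld ℤ)) : Gr (Fld ℤ)) +
        ((D.B k U - D.A k U + D.Q k U : Ge (Fld ℤ)) : Gr (Fld ℤ))) := by
    rw [NK_eq_NN, NK_eq_NN]
    refine NN_mono fun U => ?_
    rw [act_of (p := allP) trivial]
    by_cases hU : U.Nonempty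
    · rw [act_of (p := fun U : Finset Fc => U.Nonempty) hU]
      refine le_of_eq ?_
      congr 1
      rw [D.K_succ_eq k hU, ← Ge.coe_add]
      congr 1
      ring
    · rw [Finset.not_nonempty_iff_eq_empty.1 hU, D.K_empty k]
      simp
  refine h5.trans ((NK_add_le _ _ _ _ _ _ _).trans (add_le_add ?_ le_rfl))
  exact NK_mono fun U _ => ⟨trivial, le_rfl⟩

/-- the hypotheses of the plane flow up to step `K` -/
structure PlFlow (D : Sys Fc (Fld ℤ)) (a : ℕ → ℝ) (A₀ : ℝ) (r R : ℕ → ℕ) (Γ : ℝ≥0∞)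
    (ac em : ℕ → Finset Fc → Prop) (K : ℕ) (κ₀ CF n3 : ℝ≥0∞) : Prop where
  pl : PlD D r
  str : Str D r R Γ ac em K
  sym : ∀ k, PlSym fun U => (D.K k U : Gr (Fld ℤ))
  empty : D.K 0 ∅ = 0
  conn : ∀ k, k < K → ∀ U, D.K k U ≠ 0 → Packx915.Conn fd (R k) U
  range : ∀ k, k < K → R k + 2 * r k ≤ r (k + 1)
  amp_nonneg : ∀ k, 0 ≤ a k
  A_pos : 0 < A₀
  Γt : Γ ≠ ∞
  gram : ∀ k, k < K → ∃ (g : Fld ℤ → ℝ≥0∞) (q : ℝ≥0∞), Gram (D.S k) g ∧ q ≤ 1 / 4 ∧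
    ∀ U : Finset Fc, ∀ l, g l ≤ q * wU (wPl ℤ) A₀ (r k) U l
  lin : ∀ k, k < K → PlStep D Γ k (a k) (a (k + 1)) (r k) (r (k + 1)) κ₀
  step : ∀ k, k < K → ∃ κ₁, StepOK D (wPl ℤ) Γ k (a k) (a (k + 1)) (r k) (r (k + 1)) (ac k) (em k)
    κ₁ CF
  n3 : ∀ k, k < K → (nn3 (r (k + 1)) (R (k + 1)) : ℝ≥0∞) ≤ n3

/-- the norm of the plane activities with the constant amplitude -/
def NY (D : Sys Fc (Fld ℤ)) (A₀ : ℝ) (r : ℕ → ℕ) (Γ : ℝ≥0∞) (k : ℕ) : ℝ≥0∞ :=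
  NK (wPl ℤ) A₀ (r k) Γ allP (fun U => (D.K k U : Gr (Fld ℤ)))

/-- one step -/
theorem PlFlow.next {D : Sys Fc (Fld ℤ)} {a : ℕ → ℝ} {A₀ : ℝ} {r R : ℕ → ℕ} {Γ : ℝ≥0∞}
    {ac em : ℕ → Finset Fc → Prop} {K : ℕ} {κ₀ CF n3 : ℝ≥0∞}
    (h : PlFlow D a A₀ r R Γ ac em K κ₀ CF n3) {C : ℝ} (hC : BkReg C) (hCF : CF ≠ ∞) {k : ℕ}
    (hk : k < K) (hY : NY D A₀ r Γ k ≠ ∞) (hs : NP D (wPl ℤ) a r Γ allP k ≤ eta n3 CF) :
    NP D (wPl ℤ) a r Γ allP (k + 1) ≤ κ₀ * NP D (wPl ℤ) a r Γ allP k +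
      Γ * ENNReal.ofReal (Cg C (r k) (r (k + 1)) * (a (k + 1) / A₀) ^ 2) * NY D A₀ r Γ k +
        CR n3 CF * NP D (wPl ℤ) a r Γ allP k ^ 2 := by
  obtain ⟨g, q, hg, hq, hgw⟩ := h.gram k hk
  obtain ⟨κ₁, hst⟩ := h.step k hk
  have hK0 : D.K k ∅ = 0 := by
    cases k with
    | zero => exact h.empty
    | succ k => exact D.K_empty k
  exact plane_rec (R := R) h.pl hC h.A_pos (h.amp_nonneg _) (h.str.r_pos k) (h.str.r_mono k)
    h.str.Γ1 h.Γt hg hq hgw (h.sym k) hK0 (h.conn k hk) (h.range k hk) (h.lin k hk)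
    (h.str.near k hk) (h.str.hac k hk) (h.str.ne k hk) h.str.vac (h.str.ext k hk) hst
    (h.n3 k hk) hCF hY hs

/-- **(P8), the plane with growing amplitudes**, abstract decay -/
theorem plane_all (CF n3 CG m : ℝ≥0∞) (hCF : CF ≠ ∞) (hn3 : n3 ≠ ∞) (hCG : CG ≠ ∞) (hm : m ≠ ∞) :
    ∃ M₀ ε₀ : ℝ≥0∞, M₀ ≠ ∞ ∧ ε₀ ≠ 0 ∧
      ∀ (D : Sys Fc (Fld ℤ)) (a : ℕ → ℝ) (A₀ : ℝ) (r R : ℕ → ℕ) (Γ : ℝ≥0∞)
        (ac em : ℕ → Finset Fc → Prop) (K : ℕ) (κ₀ : ℝ≥0∞) (C : ℝ) (ε q : ℝ≥0∞),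
        PlFlow D a A₀ r R Γ ac em K κ₀ CF n3 → BkReg C → κ₀ ≤ 1 / 4 → 1 / 2 ≤ q → q ≤ 1 →
        ε ≤ ε₀ → (∀ k, k < K → NY D A₀ r Γ k ≠ ∞) →
        (∀ k, k < K → Γ * ENNReal.ofReal (Cg C (r k) (r (k + 1)) * (a (k + 1) / A₀) ^ 2) *
          NY D A₀ r Γ k ≤ CG * (ε * q ^ k)) →
        NP D (wPl ℤ) a r Γ allP 0 ≤ m * ε →
        ∀ k, k ≤ K → NP D (wPl ℤ) a r Γ allP k ≤ M₀ * (ε * q ^ k) := by
  obtain ⟨M₀, ε₀, hM₀, hε₀, h0⟩ := exists_good (CG + CR n3 CF) m (eta n3 CF)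
    (ENNReal.add_ne_top.2 ⟨hCG, CR_ne_top hn3 hCF⟩) hm (eta_ne_zero hn3 hCF)
  refine ⟨M₀, ε₀, hM₀, hε₀, ?_⟩
  intro D a A₀ r R Γ ac em K κ₀ C ε q h hC hκ hq hq1 hε hY hG hc0
  refine (h0 κ₀ q ε hκ hq hq1 hε (fun k => ε * q ^ k) (fun k => NP D (wPl ℤ) a r Γ allP k) K
    (fun k _ => le_rfl) hc0 fun k hk hs => ?_).1
  have h1 := h.next hC hCF hk (hY k hk) (le_add_self.trans hs)
  refine h1.trans ?_
  refine add_le_add (add_le_add le_rfl ((hG k hk).trans (mul_le_mul_left le_self_add _))) ?_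
  exact mul_le_mul' le_add_self (pow_le_pow_left' le_add_self 2)

/-! ### real form, amplitudes `A₀ (1 + δ k)` -/

/-- `(a(k+1)/A₀)² ≤ 2^(k+1)` -/
theorem amp_sq_le {A₀ δ : ℝ} (hA : 0 < A₀) (hδ : 0 ≤ δ) (hδ2 : (1 + δ) ^ 2 ≤ 2) {x : ℝ} {k : ℕ}
    (hx0 : 0 ≤ x) (hx : x ≤ amp A₀ δ k) : (x / A₀) ^ 2 ≤ 2 ^ k := by
  have h1 : x / A₀ ≤ (1 + δ) ^ k := by
    rw [div_le_iff₀ hA, mul_comm]
    exact hx.trans (amp_le_pow hA.le hδ k)
  calc (x / A₀) ^ 2 ≤ ((1 + δ) ^ k) ^ 2 := by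
        exact pow_le_pow_left₀ (by positivity) h1 2
    _ = ((1 + δ) ^ 2) ^ k := by rw [← pow_mul, ← pow_mul, mul_comm]
    _ ≤ 2 ^ k := pow_le_pow_left₀ (by positivity) hδ2 k

/-- **(P8), the plane with growing amplitudes**: from the rate `1/4` with constant amplitude to the
rate `1/2` with growing amplitudes -/
theorem plane_amp (CF n3 : ℝ≥0∞) (hCF : CF ≠ ∞) (hn3 : n3 ≠ ∞) (Γ : ℝ≥0∞) (hΓ : Γ ≠ ∞) (L : ℕ)
    (C : ℝ) (hC : BkReg C) (N : ℝ) :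
    ∃ M ε₀ : ℝ, 0 < M ∧ 0 < ε₀ ∧
      ∀ (D : Sys Fc (Fld ℤ)) (a : ℕ → ℝ) (A₀ δ : ℝ) (r R : ℕ → ℕ)
        (ac em : ℕ → Finset Fc → Prop) (K : ℕ) (t : ℝ),
        PlFlow D a A₀ r R Γ ac em K (1 / 4) CF n3 → (∀ k, r (k + 1) = L * r k) → 0 ≤ δ →
        (1 + δ) ^ 2 ≤ 2 → (∀ k, a k ≤ amp A₀ δ k) → 0 ≤ t → t ≤ ε₀ →
        (∀ k, k ≤ K → NY D A₀ r Γ k ≤ ENNReal.ofReal (N * t * (1 / 4) ^ k)) →
        ∀ k, k ≤ K → NP D (wPl ℤ) a r Γ allP k ≤ ENNReal.ofReal (M * t * (1 / 2) ^ k) := by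
  have hcM : 0 ≤ PlaneCoefx901.cM := cM_nonneg
  have hcK : 0 ≤ PlaneCoefx901.cK := cK_nonneg
  set g : ℝ := 9 * C ^ 2 * (PlaneCoefx901.cM * L + 2 * PlaneCoefx901.cK) with hg
  have hg0 : 0 ≤ g := by positivity
  obtain ⟨M₀, e₀, hM₀, he₀, h0⟩ := plane_all CF n3 (Γ * ENNReal.ofReal (2 * g * |N|))
    (ENNReal.ofReal |N|) hCF hn3 (ENNReal.mul_ne_top hΓ ENNReal.ofReal_ne_top)
    ENNReal.ofReal_ne_top
  -- a real threshold
  obtain ⟨ε₀, hε₀, hle⟩ : ∃ ε₀ : ℝ, 0 < ε₀ ∧ ENNReal.ofReal ε₀ ≤ e₀ := by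
    rcases eq_or_ne e₀ ∞ with h | h
    · exact ⟨1, one_pos, by rw [h]; exact le_top⟩
    · exact ⟨e₀.toReal, ENNReal.toReal_pos he₀ h, by rw [ENNReal.ofReal_toReal h]⟩
  refine ⟨M₀.toReal + 1, ε₀, by positivity, hε₀, ?_⟩
  intro D a A₀ δ r R ac em K t h hr hδ hδ2 ha ht htε hY k hk
  have hA := h.A_pos
  have half : (1 / 2 : ℝ≥0∞) = ENNReal.ofReal (1 / 2) := by
    rw [ENNReal.ofReal_div_of_pos (by norm_num)]; simp
  have key := h0 D a A₀ r R Γ ac em K (1 / 4) C (ENNReal.ofReal t) (1 / 2) h hC le_rfl le_rfl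
    (by rw [one_div]; exact ENNReal.inv_le_one.2 (by norm_num))
    ((ENNReal.ofReal_le_ofReal htε).trans hle)
    (fun k hk => ne_top_of_le_ne_top ENNReal.ofReal_ne_top (hY k hk.le))
    (fun k hk => by
      have hrk : (0 : ℝ) < r k := by exact_mod_cast h.str.r_pos k
      have e1 : Cg C (r k) (r (k + 1)) = g := by
        rw [Cg, hg, hr k]
        push_cast
        field_simp
      have e2 := amp_sq_le hA hδ hδ2 (h.amp_nonneg (k + 1)) (ha (k + 1))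
      rw [e1]
      have e3 : ENNReal.ofReal (g * (a (k + 1) / A₀) ^ 2) * NY D A₀ r Γ k ≤
          ENNReal.ofReal (2 * g * |N|) * (ENNReal.ofReal t * (1 / 2) ^ k) := by
        calc ENNReal.ofReal (g * (a (k + 1) / A₀) ^ 2) * NY D A₀ r Γ k
            ≤ ENNReal.ofReal (g * 2 ^ (k + 1)) * ENNReal.ofReal (|N| * t * (1 / 4) ^ k) := by
              refine mul_le_mul' (ENNReal.ofReal_le_ofReal (mul_le_mul_of_nonneg_left e2 hg0))
                ((hY k hk.le).trans (ENNReal.ofReal_le_ofReal ?_))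
              have : (0 : ℝ) ≤ t * (1 / 4) ^ k := by positivity
              have h2 := mul_le_mul_of_nonneg_right (le_abs_self N) this
              linarith
          _ = ENNReal.ofReal (2 * g * |N| * (t * (1 / 2) ^ k)) := by
              rw [← ENNReal.ofReal_mul (by positivity)]
              congr 1
              have : ((1 : ℝ) / 4) ^ k = (1 / 2) ^ k * (1 / 2) ^ k := by
                rw [← mul_pow]; norm_num
              have h2 : (2 : ℝ) ^ k * (1 / 2) ^ k = 1 := by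
                rw [← mul_pow]; norm_num
              rw [this, pow_succ]
              linear_combination (2 * g * |N| * t * (1 / 2) ^ k) * h2
          _ = _ := by
              rw [ENNReal.ofReal_mul (by positivity), ENNReal.ofReal_mul ht,
                ENNReal.ofReal_pow (by norm_num), half]
      calc Γ * ENNReal.ofReal (g * (a (k + 1) / A₀) ^ 2) * NY D A₀ r Γ k
          = Γ * (ENNReal.ofReal (g * (a (k + 1) / A₀) ^ 2) * NY D A₀ r Γ k) := mul_assoc _ _ _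
        _ ≤ Γ * (ENNReal.ofReal (2 * g * |N|) * (ENNReal.ofReal t * (1 / 2) ^ k)) :=
            mul_le_mul_right e3 _
        _ = _ := (mul_assoc _ _ _).symm)
    (by
      have h2 : NP D (wPl ℤ) a r Γ allP 0 ≤ NY D A₀ r Γ 0 := by
        have ha0 : a 0 ≤ A₀ := by
          have := ha 0
          rwa [amp_zero] at this
        unfold NP NY
        exact Crudex386.NK_amp_mono _ ha0 _ _ _ _
      refine h2.trans ((hY 0 (Nat.zero_le _)).trans ?_)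
      rw [pow_zero, mul_one, ← ENNReal.ofReal_mul (abs_nonneg _)]
      exact ENNReal.ofReal_le_ofReal (mul_le_mul_of_nonneg_right (le_abs_self N) ht)) k hk
  refine key.trans ?_
  rw [ENNReal.ofReal_mul (by positivity), ENNReal.ofReal_mul (by positivity),
    ENNReal.ofReal_pow (by norm_num), ← half, mul_assoc]
  refine mul_le_mul_left ?_ _
  calc M₀ = ENNReal.ofReal M₀.toReal := (ENNReal.ofReal_toReal hM₀).symm
    _ ≤ _ := ENNReal.ofReal_le_ofReal (by linarith)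

end Crest.Agent.R165.Compx889
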