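import Crest.Agent.R165.Rec_915

/-!
# Row 165, block F, leaf P8 (scalar part): iteration of the norm recursions (helper889)

`b k` = norm of the plane-like activities, `c k` = norm of the defect activities at scale `k`.

* `cr good k`      : number of crude steps before `k` (a step `k` is crude if `¬ good k`)
* `sched`          : contracting steps at the good scales, crude steps (constant `C'`) at the others;
  both recursions are only assumed as long as `b k + c k ≤ η`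
* `exists_sched`   : choice of constants; `M₀, ε₀` do not see the crude steps
* `exists_good`    : no crude steps
* `plane_sched`    : the plane flow with growing weights
* `amp`            : the amplitudes `A₀ (1 + δ k)`
-/

set_option autoImplicit false

open scoped ENNReal

namespace Crest.Agent.R165.Compx889

open Crest.Agent.R165.Recx915

open Classical in
/-- number of crude steps before `k` -/
noncomputable def cr (good : ℕ → Prop) (k : ℕ) : ℕ :=
  ((Finset.range k).filter fun i => ¬ good i).card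

@[simp] theorem cr_zero (good : ℕ → Prop) : cr good 0 = 0 := by simp [cr]

theorem cr_succ_good {good : ℕ → Prop} {k : ℕ} (h : good k) : cr good (k + 1) = cr good k := by
  classical
  rw [cr, Finset.range_add_one, Finset.filter_insert, if_neg (not_not.2 h), cr]

theorem cr_succ_bad {good : ℕ → Prop} {k : ℕ} (h : ¬ good k) :
    cr good (k + 1) = cr good k + 1 := by
  classical
  rw [cr, Finset.range_add_one, Finset.filter_insert, if_pos h, Finset.card_insert_of_notMem, cr]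
  simp

theorem cr_mono {good : ℕ → Prop} {k k' : ℕ} (h : k ≤ k') : cr good k ≤ cr good k' := by
  classical
  unfold cr
  exact Finset.card_le_card (Finset.filter_subset_filter _ (Finset.range_mono h))

theorem cr_eq_zero {good : ℕ → Prop} {k : ℕ} : cr good k = 0 ↔ ∀ i < k, good i := by
  classical
  rw [cr, Finset.card_eq_zero, Finset.filter_eq_empty_iff]
  simp

theorem exists_bad {good : ℕ → Prop} {k : ℕ} (h : cr good k ≠ 0) : ∃ i < k, ¬ good i := by
  by_contra hcon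
  push Not at hcon
  exact h (cr_eq_zero.2 hcon)

/-- **iteration of the norm recursions** along a schedule of contracting and crude steps -/
theorem sched {b c η : ℕ → ℝ≥0∞} {κ C C' ε q : ℝ≥0∞} {M : ℕ → ℝ≥0∞} {K : ℕ} (good : ℕ → Prop)
    (hb : ∀ k, k < K → b k ≤ ε * q ^ k) (hc0 : c 0 ≤ M 0 * ε)
    (hη : ∀ k, k < K → (1 + M (cr good k)) * (ε * q ^ k) ≤ η k)
    (hgood : ∀ k, k < K → good k →
      κ * M (cr good k) + C + C * (1 + M (cr good k)) ^ 2 * (ε * q ^ k) ≤ M (cr good k) * q)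
    (hcrude : ∀ k, k < K → ¬ good k → C' * (1 + M (cr good k)) ≤ M (cr good k + 1) * q)
    (hrec : ∀ k, k < K → good k → b k + c k ≤ η k →
      c (k + 1) ≤ κ * c k + C * b k + C * (b k + c k) ^ 2)
    (hrec' : ∀ k, k < K → ¬ good k → b k + c k ≤ η k → c (k + 1) ≤ C' * (b k + c k)) :
    ∀ k, k ≤ K → c k ≤ M (cr good k) * (ε * q ^ k) := by
  intro k
  induction k with
  | zero => intro _; simpa using hc0
  | succ k ih =>
    intro hk
    have hck := ih (by omega)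
    have hbk := hb k (by omega)
    have hbc : b k + c k ≤ (1 + M (cr good k)) * (ε * q ^ k) := by
      rw [add_mul, one_mul]
      exact add_le_add hbk hck
    have hsm : b k + c k ≤ η k := hbc.trans (hη k (by omega))
    by_cases hg : good k
    · rw [cr_succ_good hg]
      set j := cr good k
      have h1 : (b k + c k) ^ 2 ≤ (1 + M j) ^ 2 * (ε * q ^ k) * (ε * q ^ k) := by
        calc (b k + c k) ^ 2 ≤ ((1 + M j) * (ε * q ^ k)) ^ 2 := pow_le_pow_left' hbc 2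
          _ = _ := by ring
      calc c (k + 1) ≤ κ * c k + C * b k + C * (b k + c k) ^ 2 := hrec k (by omega) hg hsm
        _ ≤ κ * (M j * (ε * q ^ k)) + C * (ε * q ^ k) +
            C * ((1 + M j) ^ 2 * (ε * q ^ k) * (ε * q ^ k)) := by gcongr
        _ = (κ * M j + C + C * (1 + M j) ^ 2 * (ε * q ^ k)) * (ε * q ^ k) := by ring
        _ ≤ (M j * q) * (ε * q ^ k) := mul_le_mul_left (hgood k (by omega) hg) _
        _ = M j * (ε * q ^ (k + 1)) := by rw [pow_succ]; ring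
    · rw [cr_succ_bad hg]
      set j := cr good k
      calc c (k + 1) ≤ C' * (b k + c k) := hrec' k (by omega) hg hsm
        _ ≤ C' * ((1 + M j) * (ε * q ^ k)) := mul_le_mul_right hbc _
        _ = (C' * (1 + M j)) * (ε * q ^ k) := by ring
        _ ≤ (M (j + 1) * q) * (ε * q ^ k) := mul_le_mul_left (hcrude k (by omega) hg) _
        _ = M (j + 1) * (ε * q ^ (k + 1)) := by rw [pow_succ]; ring

/-- the constants after `j` crude steps -/
noncomputable def Mj (M₀ C' : ℝ≥0∞) : ℕ → ℝ≥0∞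
  | 0 => M₀
  | j + 1 => Mj M₀ C' j + 2 * C' * (1 + Mj M₀ C' j)

theorem Mj_mono (M₀ C' : ℝ≥0∞) : Monotone (Mj M₀ C') :=
  monotone_nat_of_le_succ fun _ => le_self_add

theorem Mj_ne_top {M₀ C' : ℝ≥0∞} (h : M₀ ≠ ∞) (h' : C' ≠ ∞) (j : ℕ) : Mj M₀ C' j ≠ ∞ := by
  induction j with
  | zero => exact h
  | succ j ih =>
    exact ENNReal.add_ne_top.2 ⟨ih, ENNReal.mul_ne_top (ENNReal.mul_ne_top (by norm_num) h')
      (ENNReal.add_ne_top.2 ⟨ENNReal.one_ne_top, ih⟩)⟩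

/-- threshold: `e ≤ thr M η` implies `(1+M)² e ≤ 1` and `(1+M) e ≤ η` -/
noncomputable def thr (M η : ℝ≥0∞) : ℝ≥0∞ := min ((1 + M) ^ 2)⁻¹ (η * (1 + M)⁻¹)

theorem thr_ne_zero {M η : ℝ≥0∞} (hM : M ≠ ∞) (hη : η ≠ 0) : thr M η ≠ 0 := by
  have h1 : (1 + M) ≠ ∞ := ENNReal.add_ne_top.2 ⟨ENNReal.one_ne_top, hM⟩
  unfold thr
  intro h
  rcases min_eq_iff.1 h with ⟨h2, -⟩ | ⟨h2, -⟩
  · exact ENNReal.inv_ne_zero.2 (ENNReal.pow_ne_top h1) h2
  · rcases mul_eq_zero.1 h2 with h3 | h3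
    · exact hη h3
    · exact ENNReal.inv_ne_zero.2 h1 h3

theorem thr_sq {M η e : ℝ≥0∞} (he : e ≤ thr M η) : (1 + M) ^ 2 * e ≤ 1 :=
  (mul_le_mul_right (he.trans (min_le_left _ _)) _).trans (ENNReal.mul_inv_le_one _)

theorem thr_lin {M η e : ℝ≥0∞} (he : e ≤ thr M η) : (1 + M) * e ≤ η :=
  calc (1 + M) * e ≤ (1 + M) * (η * (1 + M)⁻¹) := mul_le_mul_right (he.trans (min_le_right _ _)) _
    _ = ((1 + M) * (1 + M)⁻¹) * η := by ring
    _ ≤ 1 * η := mul_le_mul_left (ENNReal.mul_inv_le_one _) _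
    _ = η := one_mul _

theorem thr_mono {M η η' : ℝ≥0∞} (h : η ≤ η') : thr M η ≤ thr M η' := by
  unfold thr
  gcongr

theorem thr_anti {M M' η : ℝ≥0∞} (h : M ≤ M') : thr M' η ≤ thr M η := by
  unfold thr
  gcongr

/-- **choice of constants.**  `M₀, ε₀` depend only on `C, m, η`; the crude steps (constant `C'`, at
most `J` of them) have to happen at scales where `ε q^k ≤ eJ`. -/
theorem exists_sched (C m η : ℝ≥0∞) (hC : C ≠ ∞) (hm : m ≠ ∞) (hη : η ≠ 0) :
    ∃ M₀ ε₀ : ℝ≥0∞, M₀ ≠ ∞ ∧ ε₀ ≠ 0 ∧ ∀ (C' η' : ℝ≥0∞) (J : ℕ), C' ≠ ∞ → η' ≠ 0 →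
      ∃ MJ eJ : ℝ≥0∞, MJ ≠ ∞ ∧ eJ ≠ 0 ∧ ∀ (κ q ε : ℝ≥0∞), κ ≤ 1 / 4 → 1 / 2 ≤ q → q ≤ 1 → ε ≤ ε₀ →
        ∀ (good : ℕ → Prop) (b c : ℕ → ℝ≥0∞) (K : ℕ), cr good K ≤ J →
          (∀ k, k < K → ¬ good k → ε * q ^ k ≤ eJ) →
          (∀ k, k < K → b k ≤ ε * q ^ k) → c 0 ≤ m * ε →
          (∀ k, k < K → good k → b k + c k ≤ η →
            c (k + 1) ≤ κ * c k + C * b k + C * (b k + c k) ^ 2) →
          (∀ k, k < K → ¬ good k → b k + c k ≤ η' → c (k + 1) ≤ C' * (b k + c k)) →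
          (∀ k, k ≤ K → c k ≤ MJ * (ε * q ^ k)) ∧
          (∀ k, k ≤ K → (∀ i, i < k → good i) → c k ≤ M₀ * (ε * q ^ k)) ∧
          (∀ k, k < K → b k + c k ≤ η) ∧ (∀ k, k < K → ¬ good k → b k + c k ≤ η') := by
  have hM0 : 8 * C + m ≠ ∞ := ENNReal.add_ne_top.2 ⟨ENNReal.mul_ne_top (by norm_num) hC, hm⟩
  refine ⟨8 * C + m, thr (8 * C + m) η, hM0, thr_ne_zero hM0 hη, fun C' η' J hC' hη' => ?_⟩
  set M : ℕ → ℝ≥0∞ := Mj (8 * C + m) C' with hMdef
  have hMJ : M J ≠ ∞ := Mj_ne_top hM0 hC' J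
  refine ⟨M J, thr (M J) (min η η'), hMJ, thr_ne_zero hMJ (fun h => by
    rcases min_eq_iff.1 h with ⟨h, -⟩ | ⟨h, -⟩
    · exact hη h
    · exact hη' h), ?_⟩
  intro κ q ε hκ hq hq1 hε good b c K hJ hbad hb hc0 hrec hrec'
  have h8 : ∀ j, 8 * C ≤ M j := fun j =>
    le_trans le_self_add (Mj_mono (8 * C + m) C' (Nat.zero_le j))
  -- the size of `ε q^k` at each scale
  have hthr : thr (M J) (min η η') ≤ thr (M J) η := thr_mono (min_le_left _ _)
  have hsize : ∀ k, k < K → ε * q ^ k ≤ thr (M (cr good k)) η := by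
    intro k hk
    by_cases h0 : cr good k = 0
    · rw [h0]
      calc ε * q ^ k ≤ ε * 1 := mul_le_mul_right (pow_le_one' hq1 k) _
        _ ≤ thr (8 * C + m) η := by rw [mul_one]; exact hε
    · obtain ⟨i, hi, hgi⟩ := exists_bad h0
      calc ε * q ^ k ≤ ε * q ^ i := mul_le_mul_right (pow_le_pow_right_of_le_one' hq1 hi.le) _
        _ ≤ thr (M J) η := (hbad i (by omega) hgi).trans hthr
        _ ≤ thr (M (cr good k)) η :=
          thr_anti (Mj_mono _ _ ((cr_mono hk.le).trans hJ))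
  have hsize' : ∀ k, k < K → ¬ good k → ε * q ^ k ≤ thr (M (cr good k)) η' := by
    intro k hk hg
    calc ε * q ^ k ≤ thr (M J) (min η η') := hbad k hk hg
      _ ≤ thr (M J) η' := thr_mono (min_le_right _ _)
      _ ≤ thr (M (cr good k)) η' := thr_anti (Mj_mono _ _ ((cr_mono hk.le).trans hJ))
  classical
  have key := sched (M := M) (C := C) (C' := C') (κ := κ) (q := q) (ε := ε)
    (η := fun k => if good k then η else η') (K := K)
    good hb (hc0.trans (mul_le_mul_left (le_add_self) _))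
    (fun k hk => by
      by_cases hg : good k
      · simp only [if_pos hg]; exact thr_lin (hsize k hk)
      · simp only [if_neg hg]; exact thr_lin (hsize' k hk hg))
    (fun k hk _ => by
      have := rec_num (κ := κ) (C := C) (ε := ε * q ^ k) hκ hq (h8 (cr good k))
        (thr_sq (hsize k hk))
      exact this)
    (fun k hk _ => by
      have h2 : (1 : ℝ≥0∞) ≤ 2 * q := by
        calc (1 : ℝ≥0∞) = 2 * (1 / 2) := by
              rw [one_div, ENNReal.mul_inv_cancel (by norm_num) (by norm_num)]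
          _ ≤ 2 * q := mul_le_mul_right hq _
      calc C' * (1 + M (cr good k)) = C' * (1 + M (cr good k)) * 1 := (mul_one _).symm
        _ ≤ C' * (1 + M (cr good k)) * (2 * q) := mul_le_mul_right h2 _
        _ = (2 * C' * (1 + M (cr good k))) * q := by ring
        _ ≤ M (cr good k + 1) * q := mul_le_mul_left (by
          show _ ≤ M (cr good k) + 2 * C' * (1 + M (cr good k))
          exact le_add_self) _)
    (fun k hk hg h => hrec k hk hg (by simpa only [if_pos hg] using h))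
    (fun k hk hg h => hrec' k hk hg (by simpa only [if_neg hg] using h))
  have hsum : ∀ k, k < K → b k + c k ≤ (1 + M (cr good k)) * (ε * q ^ k) := fun k hk => by
    rw [add_mul, one_mul]
    exact add_le_add (hb k hk) (key k hk.le)
  refine ⟨fun k hk => (key k hk).trans (mul_le_mul_left (Mj_mono _ _ ((cr_mono hk).trans hJ)) _),
    fun k hk hg => ?_, fun k hk => (hsum k hk).trans (thr_lin (hsize k hk)),
    fun k hk hg => (hsum k hk).trans (thr_lin (hsize' k hk hg))⟩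
  have h := key k hk
  rw [cr_eq_zero.2 hg] at h
  exact h

/-- no crude steps -/
theorem exists_good (C m η : ℝ≥0∞) (hC : C ≠ ∞) (hm : m ≠ ∞) (hη : η ≠ 0) :
    ∃ M ε₀ : ℝ≥0∞, M ≠ ∞ ∧ ε₀ ≠ 0 ∧ ∀ (κ q ε : ℝ≥0∞), κ ≤ 1 / 4 → 1 / 2 ≤ q → q ≤ 1 → ε ≤ ε₀ →
      ∀ (b c : ℕ → ℝ≥0∞) (K : ℕ), (∀ k, k < K → b k ≤ ε * q ^ k) → c 0 ≤ m * ε →
        (∀ k, k < K → b k + c k ≤ η → c (k + 1) ≤ κ * c k + C * b k + C * (b k + c k) ^ 2) →
        (∀ k, k ≤ K → c k ≤ M * (ε * q ^ k)) ∧ (∀ k, k < K → b k + c k ≤ η) := by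
  obtain ⟨M, ε₀, hM, hε₀, h⟩ := exists_sched C m η hC hm hη
  refine ⟨M, ε₀, hM, hε₀, fun κ q ε hκ hq hq1 hε b c K hb hc0 hrec => ?_⟩
  obtain ⟨_, _, _, _, h⟩ := h 0 η 0 (by norm_num) hη
  have h' := h κ q ε hκ hq hq1 hε (fun _ => True) b c K
    (by rw [cr_eq_zero.2 fun _ _ => trivial]) (fun k _ hk => absurd trivial hk) hb hc0
    (fun k hk _ => hrec k hk) (fun k _ hk => absurd trivial hk)
  exact ⟨fun k hk => h'.2.1 k hk fun _ _ => trivial, h'.2.2.1⟩

/-- bound of the total norm -/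
theorem total_le {b c : ℕ → ℝ≥0∞} {ε q M : ℝ≥0∞} {k : ℕ} (hb : b k ≤ ε * q ^ k)
    (hc : c k ≤ M * (ε * q ^ k)) : b k + c k ≤ (1 + M) * (ε * q ^ k) := by
  rw [add_mul, one_mul]
  exact add_le_add hb hc

/-! ### growing amplitudes -/

/-- the amplitudes `A₀ (1 + δ k)` (decision D18) -/
noncomputable def amp (A₀ δ : ℝ) (k : ℕ) : ℝ := A₀ * (1 + δ * k)

theorem amp_zero (A₀ δ : ℝ) : amp A₀ δ 0 = A₀ := by simp [amp]

theorem amp_mono {A₀ δ : ℝ} (hA : 0 ≤ A₀) (hδ : 0 ≤ δ) (k : ℕ) : amp A₀ δ k ≤ amp A₀ δ (k + 1) := by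
  unfold amp
  refine mul_le_mul_of_nonneg_left ?_ hA
  push_cast
  nlinarith

theorem amp_succ_le {A₀ δ : ℝ} (hA : 0 ≤ A₀) (hδ : 0 ≤ δ) (k : ℕ) :
    amp A₀ δ (k + 1) ≤ (1 + δ) * amp A₀ δ k := by
  unfold amp
  have hk : (0 : ℝ) ≤ k := Nat.cast_nonneg k
  have h : 1 + δ * ((k + 1 : ℕ) : ℝ) ≤ (1 + δ) * (1 + δ * k) := by
    push_cast
    nlinarith [mul_nonneg (mul_nonneg hδ hδ) hk]
  calc A₀ * (1 + δ * ((k + 1 : ℕ) : ℝ)) ≤ A₀ * ((1 + δ) * (1 + δ * k)) :=
        mul_le_mul_of_nonneg_left h hA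
    _ = _ := by ring

theorem amp_ge {A₀ δ : ℝ} (hA : 0 ≤ A₀) (hδ : 0 ≤ δ) (k : ℕ) : A₀ ≤ amp A₀ δ k := by
  unfold amp
  have hk : (0 : ℝ) ≤ k := Nat.cast_nonneg k
  nlinarith [mul_nonneg hA (mul_nonneg hδ hk)]

theorem amp_pos {A₀ δ : ℝ} (hA : 0 < A₀) (hδ : 0 ≤ δ) (k : ℕ) : 0 < amp A₀ δ k :=
  hA.trans_le (amp_ge hA.le hδ k)

theorem amp_le_pow {A₀ δ : ℝ} (hA : 0 ≤ A₀) (hδ : 0 ≤ δ) (k : ℕ) :
    amp A₀ δ k ≤ A₀ * (1 + δ) ^ k := by
  induction k with
  | zero => simp [amp]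
  | succ k ih =>
    calc amp A₀ δ (k + 1) ≤ (1 + δ) * amp A₀ δ k := amp_succ_le hA hδ k
      _ ≤ (1 + δ) * (A₀ * (1 + δ) ^ k) := mul_le_mul_of_nonneg_left ih (by linarith)
      _ = A₀ * (1 + δ) ^ (k + 1) := by ring

theorem amp_tendsto {A₀ δ : ℝ} (hA : 0 < A₀) (hδ : 0 < δ) :
    Filter.Tendsto (amp A₀ δ) Filter.atTop Filter.atTop := by
  unfold amp
  refine Filter.Tendsto.const_mul_atTop hA ?_
  refine Filter.tendsto_atTop_add_const_left _ _ ?_
  exact Filter.Tendsto.const_mul_atTop hδ tendsto_natCast_atTop_atTop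

/-- powers of the amplitudes are killed by any geometric factor -/
theorem amp_pow_mul_tendsto (A₀ δ : ℝ) {q : ℝ} (hq0 : 0 ≤ q) (hq1 : q < 1) (m : ℕ) :
    Filter.Tendsto (fun k : ℕ => amp A₀ δ k ^ m * q ^ k) Filter.atTop (nhds 0) := by
  have h1 : ∀ j : ℕ, Filter.Tendsto (fun k : ℕ => (k : ℝ) ^ j * q ^ k) Filter.atTop (nhds 0) :=
    fun j => tendsto_pow_const_mul_const_pow_of_lt_one j hq0 hq1
  have h2 : ∀ k : ℕ, amp A₀ δ k ^ m * q ^ k =
      ∑ j ∈ Finset.range (m + 1), (A₀ ^ m * δ ^ j * (m.choose j : ℝ)) * ((k : ℝ) ^ j * q ^ k) := by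
    intro k
    unfold amp
    rw [mul_pow, add_comm (1 : ℝ), add_pow, Finset.mul_sum, Finset.sum_mul]
    refine Finset.sum_congr rfl fun j _ => ?_
    rw [one_pow, mul_pow]
    ring
  simp only [h2]
  have h3 := tendsto_finsetSum (Finset.range (m + 1)) fun j _ =>
    (h1 j).const_mul (A₀ ^ m * δ ^ j * (m.choose j : ℝ))
  simpa using h3

end Crest.Agent.R165.Compx889
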