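import Crest.Prelude.Def_PerturbedIsing

/-!
# Row 165 (S0250), block U5: configuration spaces of planar domains are connected (helper641)

* `Conf n D`      : injective `n`-tuples of points of `D`
* `isPreconnected_sdiff_singleton` : an open preconnected subset of `ℂ` minus a point is preconnected
* `isPreconnected_sdiff_finset`
* `Conf.isOpen`, `Conf.isPreconnected`
-/

set_option autoImplicit false

noncomputable section

open Filter Topology Set

namespace Crest.Agent.R165.ConfTopx641

/-- punctured discs are preconnected -/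
theorem isPreconnected_punctured_ball (p : ℂ) (r : ℝ) :
    IsPreconnected (Metric.ball p r \ {p}) := by
  have h : Metric.ball p r \ {p} =
      (fun q : ℝ × ℝ => p + q.1 * Complex.exp (q.2 * Complex.I)) '' (Ioo 0 r ×ˢ univ) := by
    ext z
    constructor
    · rintro ⟨hz, hzp⟩
      have hne : z - p ≠ 0 := sub_ne_zero.2 hzp
      refine ⟨(‖z - p‖, Complex.arg (z - p)), ⟨⟨norm_pos_iff.2 hne, ?_⟩, mem_univ _⟩, ?_⟩
      · rw [Metric.mem_ball, dist_eq_norm] at hz; exact hz
      · simp only
        rw [Complex.norm_mul_exp_arg_mul_I]; ring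
    · rintro ⟨⟨ρ, θ⟩, ⟨⟨h0, hr⟩, _⟩, rfl⟩
      simp only at h0 hr ⊢
      have hn : ‖(ρ : ℂ) * Complex.exp (θ * Complex.I)‖ = ρ := by
        rw [norm_mul, Complex.norm_exp_ofReal_mul_I, mul_one, Complex.norm_real,
          Real.norm_of_nonneg h0.le]
      refine ⟨?_, ?_⟩
      · rw [Metric.mem_ball, dist_eq_norm, add_sub_cancel_left, hn]; exact hr
      · intro h
        have h1 : (ρ : ℂ) * Complex.exp (θ * Complex.I) = 0 := by
          have : p + (ρ : ℂ) * Complex.exp (θ * Complex.I) = p := h
          simpa using this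
        rw [h1, norm_zero] at hn
        exact h0.ne hn
  rw [h]
  refine IsPreconnected.image ?_ _ ?_
  · exact isPreconnected_Ioo.prod isPreconnected_univ
  · refine Continuous.continuousOn ?_
    fun_prop

/-- an open preconnected set minus a point is preconnected -/
theorem isPreconnected_sdiff_singleton {U : Set ℂ} (hU : IsOpen U) (hc : IsPreconnected U) (p : ℂ) :
    IsPreconnected (U \ {p}) := by
  by_cases hp : p ∈ U
  swap
  · rwa [sdiff_singleton_eq_self hp]
  obtain ⟨r, hr, hball⟩ := Metric.isOpen_iff.1 hU p hp
  rw [isPreconnected_iff_subset_of_disjoint]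
  intro u v hu hv huv hdis
  -- the punctured ball is in one of them
  have key : ∀ u v : Set ℂ, IsOpen u → IsOpen v → U \ {p} ⊆ u ∪ v → (U \ {p}) ∩ (u ∩ v) = ∅ →
      Metric.ball p r \ {p} ⊆ u → (U \ {p}) ⊆ u := by
    intro u v hu hv huv hdis hb
    by_contra hcon
    obtain ⟨y, hyU, hyu⟩ := not_subset.1 hcon
    have hyv : y ∈ v := (huv hyU).resolve_left hyu
    have h1 := hc (u ∪ Metric.ball p r) (v ∩ {p}ᶜ) (hu.union Metric.isOpen_ball)
      (hv.inter isOpen_compl_singleton) ?_ ⟨p, hp, Or.inr (Metric.mem_ball_self hr)⟩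
      ⟨y, hyU.1, hyv, hyU.2⟩
    · obtain ⟨z, hzU, hz1, hz2⟩ := h1
      have hzU' : z ∈ U \ {p} := ⟨hzU, hz2.2⟩
      have hzu : z ∈ u := by
        rcases hz1 with h | h
        · exact h
        · exact hb ⟨h, hz2.2⟩
      have : z ∈ (U \ {p}) ∩ (u ∩ v) := ⟨hzU', hzu, hz2.1⟩
      rw [hdis] at this
      exact this
    · intro z hz
      by_cases hzp : z = p
      · exact Or.inl (Or.inr (hzp ▸ Metric.mem_ball_self hr))
      · rcases huv ⟨hz, hzp⟩ with h | h
        · exact Or.inl (Or.inl h)
        · exact Or.inr ⟨h, hzp⟩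
  have hsub : Metric.ball p r \ {p} ⊆ U \ {p} := sdiff_subset_sdiff_left hball
  have hpb := isPreconnected_iff_subset_of_disjoint.1 (isPreconnected_punctured_ball p r) u v hu hv
    (hsub.trans huv) (by
      apply subset_empty_iff.1
      rw [← hdis]
      exact inter_subset_inter_left _ hsub)
  rcases hpb with h | h
  · exact Or.inl (key u v hu hv huv hdis h)
  · exact Or.inr (key v u hv hu (by rwa [union_comm]) (by rwa [inter_comm v u]) h)

/-- an open preconnected set minus a finite set is preconnected -/
theorem isPreconnected_sdiff_finset {U : Set ℂ} (hU : IsOpen U) (hc : IsPreconnected U)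
    (F : Finset ℂ) : IsOpen (U \ F) ∧ IsPreconnected (U \ (F : Set ℂ)) := by
  classical
  induction F using Finset.induction_on with
  | empty => simpa using ⟨hU, hc⟩
  | insert a s _ ih =>
    have e : U \ (insert a s : Finset ℂ) = (U \ (s : Set ℂ)) \ {a} := by
      ext z; simp only [Finset.coe_insert, Set.mem_sdiff, mem_insert_iff, mem_singleton_iff, not_or]
      tauto
    rw [e]
    exact ⟨ih.1.sdiff isClosed_singleton, isPreconnected_sdiff_singleton ih.1 ih.2 a⟩

/-- the configuration space -/
def Conf (n : ℕ) (D : Set ℂ) : Set (Fin n → ℂ) := {x | (∀ i, x i ∈ D) ∧ Function.Injective x}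

theorem Conf.isOpen (n : ℕ) {D : Set ℂ} (hD : IsOpen D) : IsOpen (Conf n D) := by
  have h : Conf n D = (⋂ i, {x : Fin n → ℂ | x i ∈ D}) ∩
      (⋂ i, ⋂ j, {x : Fin n → ℂ | i ≠ j → x i ≠ x j}) := by
    ext x
    simp only [Conf, mem_ofPred_eq, mem_inter_iff, mem_iInter, Function.Injective]
    refine and_congr Iff.rfl ⟨fun h i j hij hx => hij (h hx), fun h i j hx => ?_⟩
    by_contra hij
    exact h i j hij hx
  rw [h]
  refine (isOpen_iInter_of_finite fun i => hD.preimage (continuous_apply i)).inter
    (isOpen_iInter_of_finite fun i => isOpen_iInter_of_finite fun j => ?_)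
  by_cases hij : i = j
  · simp [hij]
  · have : {x : Fin n → ℂ | i ≠ j → x i ≠ x j} = {x : Fin n → ℂ | x i ≠ x j} := by
      ext x; simp [hij]
    rw [this]
    exact isOpen_ne_fun (continuous_apply i) (continuous_apply j)

/-- the mixture of two configurations: coordinates in `S` from `y`, others from `x` -/
def mix {n : ℕ} (S : Finset (Fin n)) (x y : Fin n → ℂ) : Fin n → ℂ := fun i => if i ∈ S then y i else x i

theorem mix_mem_conf {n : ℕ} {D : Set ℂ} {x y : Fin n → ℂ} (hx : x ∈ Conf n D) (hy : y ∈ Conf n D)
    (hxy : ∀ i j, x i ≠ y j) (S : Finset (Fin n)) : mix S x y ∈ Conf n D := by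
  refine ⟨fun i => ?_, fun i j hij => ?_⟩
  · simp only [mix]; split_ifs
    · exact hy.1 i
    · exact hx.1 i
  · simp only [mix] at hij
    split_ifs at hij with h1 h2 h2
    · exact hy.2 hij
    · exact absurd hij.symm (hxy _ _)
    · exact absurd hij (hxy _ _)
    · exact hx.2 hij

/-- infinitely many points: a configuration avoiding a finite set -/
theorem exists_avoid (n : ℕ) {D : Set ℂ} (hD : IsOpen D) (hne : D.Nonempty) (F : Finset ℂ) :
    ∃ w ∈ Conf n D, ∀ i, w i ∉ F := by
  have hinf : D.Infinite := by
    obtain ⟨p, hp⟩ := hne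
    exact infinite_of_mem_nhds p (hD.mem_nhds hp)
  have hinf' : (D \ (F : Set ℂ)).Infinite := hinf.sdiff F.finite_toSet
  let f := hinf'.natEmbedding
  refine ⟨fun i => (f i : ℂ), ⟨fun i => (f i).2.1, fun i j hij => ?_⟩, fun i => (f i).2.2⟩
  have : f i = f j := Subtype.ext hij
  exact Fin.ext (f.injective this)

/-- moving one coordinate inside a connected fibre: an equivalence relation which is locally
trivial on `Conf n D` is preserved -/
theorem rel_of_local {n : ℕ} {D : Set ℂ} (hD : IsOpen D) (hc : IsPreconnected D)
    (P : (Fin n → ℂ) → (Fin n → ℂ) → Prop)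
    (hloc : ∀ x ∈ Conf n D, ∀ᶠ y in 𝓝 x, P x y)
    (htr : ∀ x y z, x ∈ Conf n D → y ∈ Conf n D → z ∈ Conf n D → P x y → P y z → P x z)
    (hsy : ∀ x y, x ∈ Conf n D → y ∈ Conf n D → P x y → P y x)
    {x y : Fin n → ℂ} (hx : x ∈ Conf n D) (hy : y ∈ Conf n D) : P x y := by
  classical
  have hrefl : ∀ x ∈ Conf n D, P x x := fun x hx => (hloc x hx).self_of_nhds
  -- one coordinate
  have one : ∀ x ∈ Conf n D, ∀ i : Fin n, ∀ z : ℂ, Function.update x i z ∈ Conf n D →
      P x (Function.update x i z) := by
    intro x hx i z hz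
    let F : Finset ℂ := (Finset.univ.erase i).image x
    obtain ⟨hFo, hFc⟩ := isPreconnected_sdiff_finset hD hc F
    have hmem : ∀ w, w ∈ D \ (F : Set ℂ) ↔ Function.update x i w ∈ Conf n D := by
      intro w
      constructor
      · rintro ⟨hwD, hwF⟩
        have hne : ∀ j, j ≠ i → x j ≠ w := by
          intro j hj e
          apply hwF
          simp only [F, Finset.coe_image, mem_image, Finset.mem_coe, Finset.mem_erase,
            Finset.mem_univ, and_true]
          exact ⟨j, hj, e⟩
        refine ⟨fun j => ?_, fun j k hjk => ?_⟩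
        · by_cases hj : j = i
          · subst hj; simpa using hwD
          · rw [Function.update_of_ne hj]; exact hx.1 j
        · by_cases hj : j = i
          · by_cases hk : k = i
            · rw [hj, hk]
            · exfalso
              subst hj
              rw [Function.update_self, Function.update_of_ne hk] at hjk
              exact hne k hk hjk.symm
          · by_cases hk : k = i
            · exfalso
              subst hk
              rw [Function.update_self, Function.update_of_ne hj] at hjk
              exact hne j hj hjk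
            · rw [Function.update_of_ne hj, Function.update_of_ne hk] at hjk
              exact hx.2 hjk
      · intro hw
        refine ⟨by simpa using hw.1 i, ?_⟩
        simp only [F, Finset.coe_image, mem_image, Finset.mem_coe, Finset.mem_erase,
          Finset.mem_univ, and_true, not_exists, not_and]
        intro j hj e
        apply hj
        apply hw.2
        rw [Function.update_of_ne hj, Function.update_self, e]
    have hxi : x i ∈ D \ (F : Set ℂ) := by
      rw [hmem, Function.update_eq_self]; exact hx
    have hzi : z ∈ D \ (F : Set ℂ) := (hmem z).2 hz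
    have := hFc.induction₂ (fun w w' => P (Function.update x i w) (Function.update x i w'))
      (fun w hw => by
        have hcont : Tendsto (fun w' : ℂ => Function.update x i w') (𝓝 w)
            (𝓝 (Function.update x i w)) := by
          have : Continuous fun w' : ℂ => Function.update x i w' :=
            continuous_const.update i continuous_id
          exact this.tendsto w
        exact (hcont.eventually (hloc _ ((hmem w).1 hw))).filter_mono nhdsWithin_le_nhds)
      (fun a b c ha hb hcc => htr _ _ _ ((hmem a).1 ha) ((hmem b).1 hb) ((hmem c).1 hcc))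
      (fun a b ha hb => hsy _ _ ((hmem a).1 ha) ((hmem b).1 hb)) hxi hzi
    simpa using this
  -- disjoint configurations
  have disj : ∀ x ∈ Conf n D, ∀ w ∈ Conf n D, (∀ i j, x i ≠ w j) → P x w := by
    intro x hx w hw hxw
    have hS : ∀ S : Finset (Fin n), P x (mix S x w) := by
      intro S
      induction S using Finset.induction_on with
      | empty =>
        have : mix ∅ x w = x := by funext i; simp [mix]
        rw [this]; exact hrefl x hx
      | insert a s ha ih =>
        have e : mix (insert a s) x w = Function.update (mix s x w) a (w a) := by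
          funext j
          by_cases hj : j = a
          · subst hj; simp [mix]
          · rw [Function.update_of_ne hj]; simp [mix, hj]
        have h1 := mix_mem_conf hx hw hxw s
        have h2 := mix_mem_conf hx hw hxw (insert a s)
        refine htr _ _ _ hx h1 h2 ih ?_
        rw [e] at h2 ⊢
        exact one _ h1 a _ h2
    have := hS Finset.univ
    have e : mix Finset.univ x w = w := by funext i; simp [mix]
    rwa [e] at this
  rcases n.eq_zero_or_pos with hn | hn
  · subst hn
    have : x = y := Subsingleton.elim _ _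
    rw [this]; exact hrefl y hy
  obtain ⟨w, hw, hwF⟩ := exists_avoid n hD ⟨x ⟨0, hn⟩, hx.1 _⟩
    (Finset.univ.image x ∪ Finset.univ.image y)
  have h1 : ∀ i j, x i ≠ w j := by
    intro i j e
    apply hwF j
    rw [Finset.mem_union]; left
    exact Finset.mem_image.2 ⟨i, Finset.mem_univ _, e⟩
  have h2 : ∀ i j, y i ≠ w j := by
    intro i j e
    apply hwF j
    rw [Finset.mem_union]; right
    exact Finset.mem_image.2 ⟨i, Finset.mem_univ _, e⟩
  exact htr _ _ _ hx hw hy (disj x hx w hw h1) (hsy _ _ hy hw (disj y hy w hw h2))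

/-- **configuration spaces of connected open planar sets are preconnected** -/
theorem Conf.isPreconnected (n : ℕ) {D : Set ℂ} (hD : IsOpen D) (hc : IsPreconnected D) :
    IsPreconnected (Conf n D) := by
  intro u v hu hv huv ⟨x, hx, hxu⟩ ⟨y, hy, hyv⟩
  by_contra hcon
  have hdis : ∀ z ∈ Conf n D, z ∈ u → z ∉ v := fun z hz h1 h2 => hcon ⟨z, hz, h1, h2⟩
  have := rel_of_local hD hc (fun a b => (a ∈ u → b ∈ u) ∧ (b ∈ u → a ∈ u)) (n := n) ?_ ?_ ?_ hx hy
  · exact hdis y hy (this.1 hxu) hyv
  · intro z hz
    rcases huv hz with h | h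
    · filter_upwards [hu.mem_nhds h] with b hb
      exact ⟨fun _ => hb, fun _ => h⟩
    · filter_upwards [hv.mem_nhds h, (Conf.isOpen n hD).mem_nhds hz] with b hb hbc
      exact ⟨fun h' => absurd h (hdis z hz h'), fun h' => absurd hb (hdis b hbc h')⟩
  · rintro a b c - - - ⟨h1, h2⟩ ⟨h3, h4⟩
    exact ⟨fun h => h3 (h1 h), fun h => h2 (h4 h)⟩
  · rintro a b - - ⟨h1, h2⟩
    exact ⟨h2, h1⟩

end Crest.Agent.R165.ConfTopx641
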