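import Crest.Agent.R165.FRDLat_439

/-!
# Row 165, block G: the last covariance on the half-edge lattice

* `SFof S hfin` : the operator on finitely supported fields of a kernel with finitely supported columns
* `IsNegInv (AopF w) (SFof S hfin)` from `IsCov w S`
* `restC` : the covariance left after the slices `j < J`; `covS S = SopC D w 0 J + restC`
* Gram bound of `restC` against the local weight, under the gap `m |f| ≤ |A f|`
* version with zero modes (`restZ`): `A S = S A = -(1 - Π)`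
-/

set_option autoImplicit false
set_option linter.unusedSectionVars false

noncomputable section

namespace Crest.Agent.R165.FRDRestx439

open scoped ENNReal
open Polynomial Crest.Agent.R165.Gr0x606 Crest.Agent.R165.Latx683 Crest.Agent.R165.PNormx417
  Crest.Agent.R165.GDefx387 Crest.Agent.R165.FRDAbsx439 Crest.Agent.R165.FRDPolyx439
  Crest.Agent.R165.FRDInfx439 Crest.Agent.R165.FRDLatx439

/-! ### zero modes: abstract part -/

section zero

variable {V : Type*} [AddCommGroup V] [Module ℝ V] {P : Pre V} {A : V →ₗ[ℝ] V}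

/-- `S = -A⁻¹` off the zero modes: `Π` is the orthogonal projection on the zero modes -/
structure IsNegInvZ (P : Pre V) (A S Z : V →ₗ[ℝ] V) : Prop where
  right : ∀ x, A (S x) = -(x - Z x)
  left : ∀ x, S (A x) = -(x - Z x)
  idem : ∀ x, Z (Z x) = Z x
  symm : ∀ x y, P.ip (Z x) y = P.ip x (Z y)
  AZ : ∀ x, A (Z x) = 0
  ZS : ∀ x, Z (S x) = 0

variable {S Z : V →ₗ[ℝ] V}

theorem IsNegInvZ.ZA (hS : IsNegInvZ P A S Z) (hA : Asy P A) (x : V) : Z (A x) = 0 := by
  have h : ∀ y, P.ip (Z (A x)) y = 0 := by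
    intro y
    rw [hS.symm, hA, hS.AZ, map_zero, neg_zero]
  by_contra hne
  exact (P.pos _ hne).ne' (h _)

theorem IsNegInvZ.SZ (hS : IsNegInvZ P A S Z) (x : V) : S (Z x) = 0 := by
  -- `S Z x = y`, then `A y = -(Z x - Z Z x) = 0` and `y = -S(A y) + Z y = Z y = Z S (Z x) = 0`
  have h1 : A (S (Z x)) = 0 := by rw [hS.right, hS.idem, sub_self, neg_zero]
  have h2 := hS.left (S (Z x))
  rw [h1, map_zero, hS.ZS, sub_zero] at h2
  exact neg_eq_zero.mp h2.symm

theorem IsNegInvZ.asy (hS : IsNegInvZ P A S Z) (hA : Asy P A) : Asy P S := by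
  intro x y
  -- ⟨S x, y⟩ = ⟨S x, y - Z y⟩ = -⟨S x, A S y⟩ = ⟨A S x, S y⟩ = -⟨x - Z x, S y⟩ = -⟨x, S y⟩
  have h1 : P.ip (S x) (Z y) = 0 := by rw [← hS.symm, hS.ZS, map_zero, LinearMap.zero_apply]
  have h2 : P.ip (Z x) (S y) = 0 := by rw [hS.symm, hS.ZS, map_zero]
  have h3 : P.ip (S x) y = -P.ip (S x) (A (S y)) := by
    rw [hS.right, map_neg, map_sub, h1]; ring
  have h4 := hA (S x) (S y)
  rw [hS.right, map_neg, LinearMap.neg_apply, map_sub, LinearMap.sub_apply, h2] at h4
  linarith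

theorem IsNegInvZ.comm_QA (hS : IsNegInvZ P A S Z) (hA : Asy P A) (x : V) :
    S (QA A x) = QA A (S x) := by
  rw [QA_apply, QA_apply, map_neg, hS.left, hS.ZA hA, sub_zero, hS.right, map_neg, map_sub, hS.AZ,
    sub_zero]

theorem IsNegInvZ.aeval (hS : IsNegInvZ P A S Z) (hA : Asy P A) (p : ℝ[X]) (x : V) :
    S (Polynomial.aeval (QA A) p x) = Polynomial.aeval (QA A) p (S x) := by
  have hpow : ∀ (n : ℕ) (x : V), S ((QA A ^ n) x) = (QA A ^ n) (S x) := by
    intro n
    induction n with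
    | zero => intro x; simp
    | succ n ih =>
      intro x
      rw [pow_succ', Module.End.mul_apply, Module.End.mul_apply, hS.comm_QA hA, ih]
  rw [aeval_apply_sum (QA A) p le_rfl, aeval_apply_sum (QA A) p le_rfl, map_sum]
  exact Finset.sum_congr rfl fun k _ => by rw [map_smul, hpow]

/-- the covariance `⟨x, S p(Q) y⟩` -/
def restZ (hA : Asy P A) (hS : IsNegInvZ P A S Z) (p : ℝ[X]) : Cov V where
  b := P.ip.compl₁₂ LinearMap.id (S ∘ₗ Polynomial.aeval (QA A) p)
  alt := by
    intro x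
    show P.ip x (S (Polynomial.aeval (QA A) p x)) = 0
    have h1 : P.ip x (S (Polynomial.aeval (QA A) p x)) =
        -P.ip x (S (Polynomial.aeval (QA A) p x)) := by
      conv_lhs => rw [← neg_neg (P.ip x (S (Polynomial.aeval (QA A) p x))), ← hS.asy hA,
        ← hA.sy.aeval p, ← hS.aeval hA, P.symm]
    linarith

theorem restZ_apply (hA : Asy P A) (hS : IsNegInvZ P A S Z) (p : ℝ[X]) (x y : V) :
    (restZ hA hS p).b x y = P.ip x (S (Polynomial.aeval (QA A) p y)) := rfl

variable {L : ℝ} {M K : ℕ} (D : FRD L M K)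

/-- decomposition of `S` in slices and rest, with zero modes -/
theorem sum_slice_add_restZ (hA : Asy P A) (hS : IsNegInvZ P A S Z) (J : ℕ) :
    ∑ j ∈ Finset.range J, FRDInfx439.slice D hA j + restZ hA hS (D.r J) = restZ hA hS 1 := by
  unfold FRDInfx439.slice
  rw [← SP_sum]
  apply Cov.ext
  ext x y
  rw [Cov.add_b, LinearMap.add_apply, LinearMap.add_apply, SP_apply, restZ_apply, restZ_apply,
    ← map_add]
  congr 1
  have h1 : ∀ z, A z = S (QA A z) := by
    intro z
    rw [QA_apply, map_neg, hS.left, hS.ZA hA, sub_zero, neg_neg]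
  have h2 : QA A (Polynomial.aeval (QA A) (∑ j ∈ Finset.range J, D.w j) y) =
      Polynomial.aeval (QA A) (X * ∑ j ∈ Finset.range J, D.w j) y := by
    rw [map_mul, aeval_X, Module.End.mul_apply]
  rw [h1, h2, D.X_mul_sum, ← map_add S, ← LinearMap.add_apply, ← map_add, sub_add_cancel]

theorem QA_Z (hS : IsNegInvZ P A S Z) (x : V) : QA A (Z x) = 0 := by
  rw [QA_apply, hS.AZ, map_zero, neg_zero]

/-- gap off the zero modes, Gram bound of `⟨x, S p(Q) y⟩` -/
theorem restZ_le (hA : Asy P A) (hS : IsNegInvZ P A S Z) {m b : ℝ} (hm : 0 < m) (hmb : m ^ 2 ≤ b)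
    (h : ABtw P A 0 b) (hgap : ∀ x, m ^ 2 * P.ip (x - Z x) (x - Z x) ≤ P.ip (A x) (A x))
    (p : ℝ[X]) (hp : ∀ t, 0 ≤ t → t ≤ b → 0 ≤ p.eval t) (x y : V) :
    |(restZ hA hS p).b x y| ≤
      √((m⁻¹ • BP P (QA A) p) x x) * √((m⁻¹ • BP P (QA A) p) y y) := by
  have h1 : (restZ hA hS p).b x y = BP P (QA A) p x (S y) := by
    rw [restZ_apply, BP_apply, hS.aeval hA]
  have h2 := BP_abs_le hA.sy (h.btw hA) p hp x (S y)
  -- the modified operator `Q' = Q + m² Π`
  let Q' : V →ₗ[ℝ] V := QA A + m ^ 2 • Z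
  have hQ's : Sy P Q' := by
    intro x y
    show P.ip (QA A x + m ^ 2 • Z x) y = P.ip x (QA A y + m ^ 2 • Z y)
    rw [map_add, LinearMap.add_apply, map_add, hA.sy, map_smul, LinearMap.smul_apply, map_smul,
      hS.symm]
  have hsplit : ∀ x, P.ip x x = P.ip (x - Z x) (x - Z x) + P.ip (Z x) (Z x) := by
    intro x
    have e1 : P.ip (Z x) x = P.ip (Z x) (Z x) := by
      have := hS.symm (Z x) x
      rwa [hS.idem] at this
    have e2 : P.ip x (Z x) = P.ip (Z x) (Z x) := by rw [P.symm, e1]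
    simp only [map_sub, LinearMap.sub_apply]
    rw [e1, e2]; ring
  have hQ'b : Btw P Q' (m ^ 2) b := by
    intro x
    have e1 : P.ip (Z x) x = P.ip (Z x) (Z x) := by
      have := hS.symm (Z x) x
      rwa [hS.idem] at this
    have e3 : P.ip (Q' x) x = P.ip (A x) (A x) + m ^ 2 * P.ip (Z x) (Z x) := by
      show P.ip (QA A x + m ^ 2 • Z x) x = _
      rw [map_add, LinearMap.add_apply, map_smul, LinearMap.smul_apply, smul_eq_mul, e1,
        hA.sy x x, hA.ip_QA]
    rw [e3]
    have g1 := hgap x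
    have g2 := (h (x - Z x)).2
    rw [map_sub A, hS.AZ, sub_zero] at g2
    have g3 := P.nonneg (Z x)
    have g4 := P.nonneg (x - Z x)
    rw [hsplit x]
    constructor
    · linarith
    · nlinarith
  have hpow : ∀ (n : ℕ) (z : V), Z z = 0 → (Q' ^ n) z = (QA A ^ n) z ∧ Z ((QA A ^ n) z) = 0 := by
    intro n
    induction n with
    | zero => intro z hz; simpa using hz
    | succ n ih =>
      intro z hz
      obtain ⟨i1, i2⟩ := ih z hz
      rw [pow_succ', pow_succ', Module.End.mul_apply, Module.End.mul_apply, i1]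
      constructor
      · show QA A ((QA A ^ n) z) + m ^ 2 • Z ((QA A ^ n) z) = _
        rw [i2, smul_zero, add_zero]
      · rw [QA_apply, map_neg, hS.ZA hA, neg_zero]
  have hae : ∀ (q : ℝ[X]) (z : V), Z z = 0 →
      Polynomial.aeval Q' q z = Polynomial.aeval (QA A) q z := by
    intro q z hz
    rw [aeval_apply_sum Q' q le_rfl, aeval_apply_sum (QA A) q le_rfl]
    exact Finset.sum_congr rfl fun k _ => by rw [(hpow k z hz).1]
  have hZSy : Z (S y) = 0 := hS.ZS y
  have h3 : m ^ 2 * BP P (QA A) p (S y) (S y) ≤ BP P (QA A) p y y := by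
    have h4 : BP P (QA A) (X * p) (S y) (S y) ≤ BP P (QA A) p y y := by
      rw [← BP_A_A hA, hS.right]
      -- `⟨y - Zy, p(Q)(y - Zy)⟩ ≤ ⟨y, p(Q) y⟩`
      have e5 : ∀ q : ℝ[X], Polynomial.aeval (QA A) q (Z y) = q.eval 0 • Z y := by
        intro q
        rw [aeval_apply_sum (QA A) q le_rfl, eval_eq_sum_range, Finset.sum_smul]
        apply Finset.sum_congr rfl
        intro k _
        rcases Nat.eq_zero_or_pos k with hk | hk
        · subst hk; simp
        · have : (QA A ^ k) (Z y) = 0 := by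
            obtain ⟨n, rfl⟩ : ∃ n, k = n + 1 := ⟨k - 1, by omega⟩
            rw [pow_succ, Module.End.mul_apply, QA_Z hS, map_zero]
          rw [this, zero_pow hk.ne', mul_zero, zero_smul, smul_zero]
      have e6 : P.ip (y - Z y) (Z y) = 0 := by
        have : P.ip (Z (y - Z y)) y = 0 := by
          rw [map_sub, hS.idem, sub_self, map_zero, LinearMap.zero_apply]
        rw [hS.symm] at this
        exact this
      have e7 : BP P (QA A) p (y - Z y) (Z y) = 0 := by
        rw [BP_apply, e5, map_smul, e6, smul_zero]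
      have e8 : BP P (QA A) p (Z y) (Z y) = p.eval 0 * P.ip (Z y) (Z y) := by
        rw [BP_apply, e5, map_smul, smul_eq_mul]
      have e9 : BP P (QA A) p y y = BP P (QA A) p (y - Z y) (y - Z y) + BP P (QA A) p (Z y) (Z y) := by
        have hy : y = (y - Z y) + Z y := by abel
        conv_lhs => rw [hy]
        have hyx : BP P (QA A) p (Z y) (y - Z y) = 0 := by rw [BP_symm hA.sy, e7]
        simp only [map_add, LinearMap.add_apply] at *
        rw [e7, hyx]; ring
      have e10 : 0 ≤ p.eval 0 * P.ip (Z y) (Z y) :=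
        mul_nonneg (hp 0 le_rfl ((sq_nonneg m).trans hmb)) (P.nonneg _)
      rw [e9, e8]
      simp only [map_neg, LinearMap.neg_apply, neg_neg]
      linarith
    refine le_trans ?_ h4
    rw [← BP_smul, BP_apply, BP_apply, ← hae _ _ hZSy, ← hae _ _ hZSy]
    refine poly_mono hQ's hQ'b (C (m ^ 2) * p) (X * p) ?_ (S y)
    intro t h5 h6
    simp only [eval_mul, eval_C, eval_X]
    exact mul_le_mul_of_nonneg_right h5 (hp t ((sq_nonneg m).trans h5) h6)
  have hx := BP_nonneg hA.sy (h.btw hA) p hp x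
  have hy := BP_nonneg hA.sy (h.btw hA) p hp y
  have h5 : √(BP P (QA A) p (S y) (S y)) ≤ m⁻¹ * √(BP P (QA A) p y y) := by
    have h6 : m⁻¹ * √(BP P (QA A) p y y) = √((m⁻¹) ^ 2 * BP P (QA A) p y y) := by
      rw [Real.sqrt_mul (by positivity), Real.sqrt_sq (by positivity)]
    rw [h6]
    apply Real.sqrt_le_sqrt
    rw [inv_pow, inv_mul_eq_div, le_div_iff₀ (by positivity)]
    linarith
  rw [h1]
  simp only [LinearMap.smul_apply, smul_eq_mul]
  rw [Real.sqrt_mul (by positivity), Real.sqrt_mul (by positivity)]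
  calc |BP P (QA A) p x (S y)| ≤ √(BP P (QA A) p x x) * (m⁻¹ * √(BP P (QA A) p y y)) :=
        h2.trans (mul_le_mul_of_nonneg_left h5 (Real.sqrt_nonneg _))
    _ = (√m⁻¹ * √m⁻¹) * (√(BP P (QA A) p x x) * √(BP P (QA A) p y y)) := by
        rw [Real.mul_self_sqrt (by positivity)]; ring
    _ = _ := by ring

end zero

/-! ### on the lattice -/

section lattice

variable {G : Type} [CommRing G]

/-- operator of a kernel with finitely supported columns -/
def SFof (S : HE G → HE G → ℝ) (hfin : ∀ h', {h | S h h' ≠ 0}.Finite) : Fld G →ₗ[ℝ] Fld G :=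
  Finsupp.lsum ℝ fun h' => (LinearMap.toSpanSingleton ℝ (Fld G)
    (Finsupp.ofSupportFinite (fun h => S h h') (hfin h')))

theorem SFof_single (S : HE G → HE G → ℝ) (hfin : ∀ h', {h | S h h' ≠ 0}.Finite) (h' : HE G) (c : ℝ) :
    SFof S hfin (Finsupp.single h' c) = c • Finsupp.ofSupportFinite (fun h => S h h') (hfin h') := by
  unfold SFof
  rw [Finsupp.lsum_apply, Finsupp.sum_single_index (by simp)]
  rfl

theorem SFof_single_apply (S : HE G → HE G → ℝ) (hfin : ∀ h', {h | S h h' ≠ 0}.Finite)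
    (h h' : HE G) : SFof S hfin (Finsupp.single h' 1) h = S h h' := by
  rw [SFof_single, one_smul]; rfl

theorem SFof_coe_single (S : HE G → HE G → ℝ) (hfin : ∀ h', {h | S h h' ≠ 0}.Finite) (h' : HE G) :
    (SFof S hfin (Finsupp.single h' 1) : HE G → ℝ) = fun h => S h h' :=
  funext fun h => SFof_single_apply S hfin h h'

theorem dotF_SFof (S : HE G → HE G → ℝ) (hfin : ∀ h', {h | S h h' ≠ 0}.Finite) (l m : Fld G) :
    dotF (HE G) l (SFof S hfin m) = formS S l m := by
  have key : (dotF (HE G)).compl₁₂ LinearMap.id (SFof S hfin) = formS S := by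
    apply Finsupp.lhom_ext
    intro h c
    apply Finsupp.lhom_ext
    intro h' c'
    have e1 : ∀ (h : HE G) (c : ℝ), (Finsupp.single h c : Fld G) = c • Finsupp.single h 1 := by
      intro h c; rw [Finsupp.smul_single, smul_eq_mul, mul_one]
    rw [e1 h c, e1 h' c']
    simp only [map_smul, LinearMap.smul_apply, LinearMap.compl₁₂_apply, LinearMap.id_apply]
    rw [formS_single, dotF_single, one_mul, SFof_single_apply]
  exact congrArg (fun B => B l m) key

theorem SFof_asy (S : HE G → HE G → ℝ) (hfin : ∀ h', {h | S h h' ≠ 0}.Finite)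
    (hskew : ∀ h h', S h h' = -S h' h) : Asy (preF (HE G)) (SFof S hfin) := by
  intro x y
  rw [preF_ip, preF_ip, dotF_symm, dotF_SFof, dotF_SFof]
  have := Cov.skew (covS S hskew) y x
  exact this

variable [DecidableEq G]

/-- `S = -A⁻¹` on finitely supported fields -/
theorem isNegInv {w : BW G} {S : HE G → HE G → ℝ} (hskew : ∀ h h', S h h' = -S h' h)
    (hinv : ∀ g h', Aop w (fun h => S h h') g = -(Pi.single h' 1 : HE G → ℝ) g)
    (hfin : ∀ h', {h | S h h' ≠ 0}.Finite) : IsNegInv (AopF w) (SFof S hfin) := by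
  have hr : ∀ x, AopF w (SFof S hfin x) = -x := by
    intro x
    have key : AopF w ∘ₗ SFof S hfin = -LinearMap.id := by
      apply Finsupp.lhom_ext
      intro h' c
      have e1 : (Finsupp.single h' c : Fld G) = c • Finsupp.single h' 1 := by
        rw [Finsupp.smul_single, smul_eq_mul, mul_one]
      rw [e1, map_smul, map_smul]
      congr 1
      ext g
      rw [LinearMap.comp_apply, AopF_coe, SFof_coe_single, hinv, ← single_coe]
      simp
    have := congrArg (fun f => f x) key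
    exact this
  have hA := AopF_asy w
  have hS := SFof_asy S hfin hskew
  refine ⟨hr, fun x => ?_⟩
  have h : ∀ y, (preF (HE G)).ip (SFof S hfin (AopF w x) + x) y = 0 := by
    intro y
    rw [map_add, LinearMap.add_apply, hS, hA, hr, map_neg, neg_neg]
    ring
  have h0 : SFof S hfin (AopF w x) + x = 0 := by
    by_contra hne
    exact ((preF (HE G)).pos _ hne).ne' (h _)
  exact eq_neg_of_add_eq_zero_left h0

variable {Λ : ℝ} {M K : ℕ} (D : FRD Λ M K) {w : BW G} {S : HE G → HE G → ℝ}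

/-- the covariance left after the slices `j < J` -/
def restC (hS : ∀ h h', S h h' = -S h' h)
    (hinv : ∀ g h', Aop w (fun h => S h h') g = -(Pi.single h' 1 : HE G → ℝ) g)
    (hfin : ∀ h', {h | S h h' ≠ 0}.Finite) (J : ℕ) : Cov (Fld G) :=
  restS (AopF_asy w) (isNegInv hS hinv hfin) (D.r J)

variable (hS : ∀ h h', S h h' = -S h' h)
    (hinv : ∀ g h', Aop w (fun h => S h h') g = -(Pi.single h' 1 : HE G → ℝ) g)
    (hfin : ∀ h', {h | S h h' ≠ 0}.Finite)

/-- **decomposition of the covariance** -/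
theorem covS_eq (J : ℕ) : covS S hS = SopC D w 0 J + restC D hS hinv hfin J := by
  have h := sum_slice_add_rest D (AopF_asy w) (isNegInv hS hinv hfin) J
  have h1 : SopC D w 0 J = ∑ j ∈ Finset.range J, FRDInfx439.slice D (AopF_asy w) j := by
    unfold SopC; rw [Nat.Ico_zero_eq_range]
  unfold restC
  rw [h1, h]
  apply Cov.ext
  refine LinearMap.ext fun x => LinearMap.ext fun y => ?_
  show formS S x y = (preF (HE G)).ip x (SFof S hfin (Polynomial.aeval (QA (AopF w)) 1 y))
  rw [map_one, preF_ip, ← dotF_SFof S hfin]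
  rfl

theorem SopC_add (a b c : ℕ) (hab : a ≤ b) (hbc : b ≤ c) :
    SopC D w a b + SopC D w b c = SopC D w a c := by
  unfold SopC
  rw [Finset.sum_Ico_consecutive _ hab hbc]

/-- Gram weight of the last covariance -/
def gr (D : FRD Λ M K) (w : BW G) (m : ℝ) (J : ℕ) (l : Fld G) : ℝ≥0∞ :=
  ENNReal.ofReal √((m⁻¹ • BP (preF (HE G)) (QA (AopF w)) (D.r J)) l l)

theorem restC_gram {m : ℝ} (hm : 0 < m) (h : ABtw (preF (HE G)) (AopF w) (m ^ 2) Λ) (J : ℕ) :
    Gram (restC D hS hinv hfin J) (gr D w m J) := by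
  intro L
  have h1 := EE_restS_le (AopF_asy w) (isNegInv hS hinv hfin) hm h (D.r J)
    (fun t h1 h2 => D.r_nonneg J t ((sq_nonneg m).trans h1) h2) L
  unfold gr
  rw [mwt_ofReal (fun l => √((m⁻¹ • BP (preF (HE G)) (QA (AopF w)) (D.r J)) l l))
    (fun l => Real.sqrt_nonneg _), Real.enorm_eq_ofReal_abs]
  exact ENNReal.ofReal_le_ofReal h1

variable [CN G]

/-- Gram weight of the last covariance against the local weight -/
theorem gr_le_wt (hM : MM ≤ M) {m : ℝ} (hm : 0 < m)
    (h : ABtw (preF (HE G)) (AopF w) 0 Λ) (J r : ℕ) (hr1 : 1 ≤ r)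
    (hr : r ≤ 2 ^ J) {A : ℝ} (hA : 0 < A) (x : G × G) (l : Fld G) :
    gr D w m J l ≤ ENNReal.ofReal (7 * √(D.C / (m * r)) / A) * wt w A r x l := by
  have hC := D.C_pos
  have hr0 : (0 : ℝ) < r := by exact_mod_cast hr1
  have h1 := BP_le_RD (AopF_asy w) h (a := 4 ^ J) (by positivity) (M := M) (D.r J) hC.le
    (fun t h1 h2 => D.r_nonneg J t h1 h2) (fun t h1 h2 => D.r_le J t h1 h2) l
  have hR := RD_nonneg (AopF_asy w) (a := (r : ℝ) ^ 2) (by positivity) MM l
  have h2 : RD (preF (HE G)) (AopF w) (4 ^ J) M l ≤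
      RD (preF (HE G)) (AopF w) ((r : ℝ) ^ 2) MM l := by
    refine (RD_anti (AopF_asy w) (a := (r : ℝ) ^ 2) (by positivity) ?_ M l).trans
      (RD_pow_anti (AopF_asy w) (by positivity) hM l)
    have : ((r : ℝ)) ≤ 2 ^ J := by exact_mod_cast hr
    calc (r : ℝ) ^ 2 ≤ ((2 : ℝ) ^ J) ^ 2 := by gcongr
      _ = 4 ^ J := by rw [← pow_mul, mul_comm, pow_mul]; norm_num
  set R := RD (preF (HE G)) (AopF w) ((r : ℝ) ^ 2) MM l
  have h3 : √((m⁻¹ • BP (preF (HE G)) (QA (AopF w)) (D.r J)) l l) ≤ √(D.C / m) * R := by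
    have h4 : (m⁻¹ • BP (preF (HE G)) (QA (AopF w)) (D.r J)) l l ≤ D.C / m * R ^ 2 := by
      simp only [LinearMap.smul_apply, smul_eq_mul]
      have h5 : RD (preF (HE G)) (AopF w) (4 ^ J) M l ^ 2 ≤ R ^ 2 :=
        pow_le_pow_left₀ (RD_nonneg (AopF_asy w) (by positivity) M l) h2 2
      calc m⁻¹ * BP (preF (HE G)) (QA (AopF w)) (D.r J) l l
          ≤ m⁻¹ * (D.C * RD (preF (HE G)) (AopF w) (4 ^ J) M l ^ 2) :=
            mul_le_mul_of_nonneg_left h1 (by positivity)
        _ ≤ m⁻¹ * (D.C * R ^ 2) := by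
            apply mul_le_mul_of_nonneg_left _ (by positivity)
            exact mul_le_mul_of_nonneg_left h5 hC.le
        _ = _ := by rw [div_eq_mul_inv]; ring
    calc √((m⁻¹ • BP (preF (HE G)) (QA (AopF w)) (D.r J)) l l) ≤ √(D.C / m * R ^ 2) :=
          Real.sqrt_le_sqrt h4
      _ = _ := by rw [Real.sqrt_mul (by positivity), Real.sqrt_sq hR]
  have h6 : √(D.C / m) = √(D.C / (m * r)) * √r := by
    rw [← Real.sqrt_mul' _ hr0.le]
    congr 1
    field_simp
  rw [wt_eq, ← mul_assoc]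
  calc gr D w m J l ≤ ENNReal.ofReal (√(D.C / m) * R) := ENNReal.ofReal_le_ofReal h3
    _ = ENNReal.ofReal (√(D.C / (m * r)) * √r) * ENNReal.ofReal R := by
        rw [h6, ENNReal.ofReal_mul (by positivity)]
    _ ≤ ENNReal.ofReal (√(D.C / (m * r)) * √r) * (7 * sup1 w r x l) := by
        gcongr
        exact RD_le_sup1 w r x l
    _ = ENNReal.ofReal (7 * √(D.C / (m * r)) / A) * ENNReal.ofReal (A * √r) * sup1 w r x l := by
        rw [← ENNReal.ofReal_mul (by positivity), ← mul_assoc]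
        congr 1
        have h7 : (7 : ℝ≥0∞) = ENNReal.ofReal 7 := by norm_num
        rw [h7, ← ENNReal.ofReal_mul (by positivity)]
        congr 1
        field_simp

end lattice

end Crest.Agent.R165.FRDRestx439
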