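import Crest.Agent.R165.FRDLat_439
import Crest.Agent.R165.GramH_439

/-!
# Row 165, block G: finite range of the slices on the half-edge lattice

* `Rng n T` : `T f h` only depends on `f` on the faces within distance `n` of `h`
* `rng_Aop`, `rng_slop`, `rng_Sop` : range of the slices
* `SopC_eq_zero` : the block of slices `a ≤ j < b` vanishes between fields whose faces are
  further apart than `2 ^ (b - 1) / K`
-/

set_option autoImplicit false
set_option linter.unusedSectionVars false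

noncomputable section

namespace Crest.Agent.R165.GRangex439

open scoped ENNReal
open Polynomial Crest.Agent.R165.Gr0x606 Crest.Agent.R165.Latx683 Crest.Agent.R165.PNormx417
  Crest.Agent.R165.GDefx387 Crest.Agent.R165.FRDAbsx439 Crest.Agent.R165.FRDPolyx439
  Crest.Agent.R165.FRDInfx439 Crest.Agent.R165.FRDLatx439

variable {G : Type} [CommRing G] [CN G]

/-- `T` has range `n` -/
def Rng (n : ℕ) (T : Module.End ℝ (HE G → ℝ)) : Prop :=
  ∀ (f : HE G → ℝ) (h : HE G), (∀ h' : HE G, fd h.1 h'.1 ≤ n → f h' = 0) → T f h = 0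

theorem Rng.mono {n m : ℕ} {T : Module.End ℝ (HE G → ℝ)} (h : Rng n T) (hnm : n ≤ m) : Rng m T :=
  fun f x hx => h f x fun x' hx' => hx x' (hx'.trans hnm)

theorem Rng.one : Rng 0 (1 : Module.End ℝ (HE G → ℝ)) := fun f h hf => by
  rw [Module.End.one_apply]
  exact hf h (by simp)

theorem Rng.zero : Rng 0 (0 : Module.End ℝ (HE G → ℝ)) := fun _ _ _ => rfl

theorem Rng.add {n : ℕ} {T S : Module.End ℝ (HE G → ℝ)} (hT : Rng n T) (hS : Rng n S) :
    Rng n (T + S) := fun f h hf => by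
  rw [LinearMap.add_apply, Pi.add_apply, hT f h hf, hS f h hf, add_zero]

theorem Rng.neg {n : ℕ} {T : Module.End ℝ (HE G → ℝ)} (hT : Rng n T) : Rng n (-T) :=
  fun f h hf => by rw [LinearMap.neg_apply, Pi.neg_apply, hT f h hf, neg_zero]

theorem Rng.smul {n : ℕ} {T : Module.End ℝ (HE G → ℝ)} (hT : Rng n T) (c : ℝ) : Rng n (c • T) :=
  fun f h hf => by rw [LinearMap.smul_apply, Pi.smul_apply, hT f h hf, smul_zero]

theorem Rng.mul {n m : ℕ} {T S : Module.End ℝ (HE G → ℝ)} (hT : Rng n T) (hS : Rng m S) :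
    Rng (n + m) (T * S) := fun f h hf => by
  rw [Module.End.mul_apply]
  refine hT _ _ fun h' hh' => hS _ _ fun h'' hh'' => hf _ ?_
  exact (fd_triangle _ _ _).trans (add_le_add hh' hh'')

theorem Rng.pow {n : ℕ} {T : Module.End ℝ (HE G → ℝ)} (hT : Rng n T) (k : ℕ) :
    Rng (k * n) (T ^ k) := by
  induction k with
  | zero => simpa using Rng.one
  | succ k ih =>
    rw [pow_succ', Nat.succ_mul, add_comm]
    exact hT.mul ih

theorem Rng.sum {ι : Type*} {n : ℕ} (s : Finset ι) (T : ι → Module.End ℝ (HE G → ℝ))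
    (h : ∀ i ∈ s, Rng n (T i)) : Rng n (∑ i ∈ s, T i) := by
  classical
  induction s using Finset.induction_on with
  | empty => rw [Finset.sum_empty]; exact Rng.zero.mono (Nat.zero_le _)
  | insert a s ha ih =>
    rw [Finset.sum_insert ha]
    exact (h a (Finset.mem_insert_self _ _)).add
      (ih fun i hi => h i (Finset.mem_insert_of_mem hi))

theorem Rng.aeval {n : ℕ} {T : Module.End ℝ (HE G → ℝ)} (hT : Rng n T) (p : ℝ[X]) :
    Rng (p.natDegree * n) (Polynomial.aeval T p) := by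
  rw [aeval_eq_sum_range]
  refine Rng.sum _ _ fun k hk => Rng.smul (Rng.mono (hT.pow k) ?_) _
  rw [Finset.mem_range] at hk
  exact Nat.mul_le_mul_right _ (by omega)

theorem fd_nb5 {f g : G × G} (h : g ∈ nb5 f) : fd f g ≤ 1 := by
  have h1 := CN.cn_one (G := G)
  have h0 := CN.cn_zero (G := G)
  have hn : cn (-1 : G) ≤ 1 := by rw [CN.cn_neg]; exact h1
  unfold nb5 at h
  simp only [Set.mem_insert_iff, Set.mem_singleton_iff] at h
  unfold fd
  rcases h with rfl | rfl | rfl | rfl | rfl <;> simp [h0, h1, hn]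

theorem rng_Aop (w : BW G) : Rng 1 (Aop w) := fun f h hf =>
  Aop_eq_zero_of w f h fun g hg => hf g (fd_nb5 hg)

theorem rng_Qop (w : BW G) : Rng 2 (Qop w) := ((rng_Aop w).mul (rng_Aop w)).neg

theorem rng_slop (w : BW G) (p : ℝ[X]) : Rng (2 * p.natDegree + 1) (slop w p) := by
  have h := (rng_Aop w).mul ((rng_Qop w).aeval p)
  exact h.mono (by omega)

theorem slop_zero (w : BW G) : slop w (0 : ℝ[X]) = 0 := by
  unfold slop; rw [map_zero, mul_zero]

variable {Λ : ℝ} {M K : ℕ} (D : FRD Λ M K)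

theorem rng_Sop (hK : 0 < K) (w : BW G) (a b : ℕ) : Rng (2 ^ (b - 1) / K) (Sop w D a b) := by
  unfold Sop
  refine Rng.sum _ _ fun j hj => ?_
  by_cases h0 : D.w j = 0
  · rw [h0, slop_zero]; exact Rng.zero.mono (Nat.zero_le _)
  · refine (rng_slop w (D.w j)).mono ?_
    rw [Nat.le_div_iff_mul_le hK, mul_comm]
    refine (D.deg_w j h0).trans (Nat.pow_le_pow_right (by norm_num) ?_)
    rw [Finset.mem_Ico] at hj
    omega

/-- pairing of far apart fields -/
theorem pair_eq_zero {n : ℕ} {T : Module.End ℝ (HE G → ℝ)} (hT : Rng n T) {l m : Fld G}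
    (h : ∀ x y : HE G, l x ≠ 0 → m y ≠ 0 → n < fd x.1 y.1) : pair l (T (m : HE G → ℝ)) = 0 := by
  unfold pair
  refine Finset.sum_eq_zero fun x hx => ?_
  show l x * T (m : HE G → ℝ) x = 0
  rw [hT _ x fun y hy => ?_, mul_zero]
  by_contra hm
  exact absurd (h x y (Finsupp.mem_support_iff.1 hx) hm) (not_lt.2 hy)

/-- **finite range of a block of slices** -/
theorem SopC_eq_zero (hK : 0 < K) (w : BW G) (a b : ℕ) {l m : Fld G}
    (h : ∀ x y : HE G, l x ≠ 0 → m y ≠ 0 → 2 ^ (b - 1) / K < fd x.1 y.1) :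
    (SopC D w a b).b l m = 0 := by
  rw [SopC_apply]
  exact pair_eq_zero (rng_Sop D hK w a b) h

/-- support form -/
theorem SopC_eq_zero_supp (hK : 0 < K) (w : BW G) (a b : ℕ) {Z Z' : Set (G × G)} {l m : Fld G}
    (hl : SuppL Z l) (hm : SuppL Z' m) (h : ∀ x ∈ Z, ∀ y ∈ Z', 2 ^ (b - 1) / K < fd x y) :
    (SopC D w a b).b l m = 0 :=
  SopC_eq_zero D hK w a b fun x y hx hy => h _ (hl x hx) _ (hm y hy)

end Crest.Agent.R165.GRangex439
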