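import Crest.Agent.R165.GSys_387
import Crest.Agent.R165.GRange_439
import Crest.Agent.R165.FRDRest_439
import Crest.Agent.R165.ChartU_432

/-!
# Row 165, block G: `Sys.OK` for the concrete systems `sys`, `sysS` of `GSys_387`

* `slC_range` : finite range of the covariance of step `n` (`5 ≤ l * (k0 + 1)`)
* `LocG_mem` : `LocG w f a` lives on the faces within distance `1` of `f`
* `sys_OK`, `sysS_OK` : the algebraic hypotheses of the flow
* `sum_slC`, `covS_split`, `covS_split0` : the full covariance = the first `N` steps + the rest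
* `slC_gram`, `ext0_gram`, `gw_le_wt_gen`, `gw_step_le`, `gw_step_le_wU`, `gr_step_le_wU` : Gram weights
* `total_sys` : the exact identity for the system without sources, last covariance `restC`
-/

set_option autoImplicit false
set_option linter.unusedSectionVars false

noncomputable section

open scoped ENNReal
open Crest.Agent.R165.Gr0x606 Crest.Agent.R165.Gr1x606 Crest.Agent.R165.Latx683
open Crest.Agent.R165.PNormx417
open Crest.Agent.R165.GDefx387 Crest.Agent.R165.GeOpsx337 Crest.Agent.R165.KFlowx337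
open Crest.Agent.R165.GrLocx337
open Crest.Agent.R165.FRDPolyx439 Crest.Agent.R165.FRDLatx439 Crest.Agent.R165.BgIsox432
open Crest.Agent.R165.FRDAbsx439 Crest.Agent.R165.FRDInfx439
open Crest.Agent.R165.PlaneModesx901 Crest.Agent.R165.PlaneLocx901 Crest.Agent.R165.Locx901
open Crest.Agent.R165.PStepx417 Crest.Agent.R165.SrcDefx991 Crest.Agent.R165.GSysx387
open Crest.Agent.R165.GRangex439

namespace Crest.Agent.R165.GSysOKx439

section lattice

variable {G : Type} [CommRing G] [CN G]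

/-! ### fields -/

theorem fldU_mono {U W : Finset (G × G)} (h : U ⊆ W) : fldU U ≤ fldU W := by
  refine fldS_mono fun f hf => ?_
  obtain ⟨u, hu, hd⟩ := hf
  exact ⟨u, h hu, hd⟩

theorem fldUS_mono {m : ℕ} (sf : Fin m → Finset (G × G)) {U W : Finset (G × G)} (h : U ⊆ W) :
    fldUS sf U ≤ fldUS sf W := by
  rintro x ⟨h1, h2⟩
  refine ⟨fldU_mono h h1, fun i hi => ?_⟩
  obtain ⟨f, hf, hfU⟩ := h2 i hi
  exact ⟨f, hf, h hfU⟩

/-! ### finite range -/

theorem range_num {l k0 n K : ℕ} (h : 5 ≤ l * (k0 + 1)) (hK : 16 ≤ K) {d : ℕ}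
    (hd : nearR l k0 n < d) : 2 ^ (hi l k0 n - 1) / K + 2 < d := by
  have h5 : 5 ≤ hi l k0 n := by
    unfold hi
    exact h.trans (Nat.mul_le_mul_left _ (by omega))
  obtain ⟨m, hm⟩ : ∃ m, hi l k0 n = m + 5 := ⟨hi l k0 n - 5, by omega⟩
  have e1 : rr l k0 (n + 1) = 2 ^ m * 32 := by
    rw [← hi_eq, hm, pow_add]; norm_num
  have e2 : 2 ^ (hi l k0 n - 1) = 2 ^ m * 16 := by
    rw [hm, show m + 5 - 1 = m + 4 by omega, pow_add]; norm_num
  have e3 : nearR l k0 n = 2 ^ m * 4 := by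
    unfold nearR
    rw [e1, show 2 ^ m * 32 = (2 ^ m * 4) * 8 by ring, Nat.mul_div_cancel _ (by norm_num)]
  have e4 : 2 ^ (hi l k0 n - 1) / K ≤ 2 ^ m := by
    rw [e2]
    calc 2 ^ m * 16 / K ≤ 2 ^ m * 16 / 16 := Nat.div_le_div_left hK (by norm_num)
      _ = 2 ^ m := Nat.mul_div_cancel _ (by norm_num)
  have e5 : 1 ≤ 2 ^ m := Nat.one_le_two_pow
  omega

/-- **finite range of the covariance of a step** -/
theorem slC_range {M K : ℕ} (D : FRD 16 M K) (hK : 16 ≤ K) (w : BW G) {l k0 : ℕ}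
    (h : 5 ≤ l * (k0 + 1)) (n : ℕ) {U W : Finset (G × G)}
    (hUW : ¬ KStepx892.touch (near l k0 n) U W) {x y : Fld G} (hx : x ∈ fldU U)
    (hy : y ∈ fldU W) : (slC D w l k0 n).b x y = 0 := by
  refine SopC_eq_zero D (by omega) w _ _ fun a b ha hb => ?_
  obtain ⟨u, hu, hua⟩ := hx a ha
  obtain ⟨v, hv, hvb⟩ := hy b hb
  have h1 : nearR l k0 n < fd u v := by
    by_contra hcon
    exact hUW ⟨u, hu, v, hv, not_lt.1 hcon⟩
  have h2 := range_num (K := K) h hK h1
  have h3 : fd u v ≤ fd u a.1 + (fd a.1 b.1 + fd b.1 v) :=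
    (fd_triangle u a.1 v).trans (Nat.add_le_add_left (fd_triangle a.1 b.1 v) _)
  rw [fd_comm b.1 v] at h3
  omega

/-! ### the localisation is local -/

section chart

variable [CNZ G]

theorem chQ_mem (w : BW G) (f : G × G) {x : Fld ℤ} (hx : x ∈ fldS (ball (0, 0) 1)) :
    chQ w f x ∈ fldS (nbhd 1 {f}) := by
  refine fldS_ind (P := fun x => chQ w f x ∈ fldS (nbhd 1 {f})) ?_ ?_ ?_ hx
  · rw [map_zero]; exact zero_mem _
  · intro h hh c
    rw [chQ_single]
    refine Submodule.smul_mem _ _ (Submodule.smul_mem _ _ (single_mem_fldS ?_ 1))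
    refine ⟨f, Finset.mem_singleton_self f, ?_⟩
    show fd f (psiC f h.1) ≤ 1
    unfold psiC
    refine (fd_add_int f h.1.1 h.1.2).trans ?_
    have h1 : fd ((0, 0) : ℤ × ℤ) h.1 ≤ 1 := hh
    unfold fd at h1
    have e1 : cn ((0 : ℤ) - h.1.1) = h.1.1.natAbs := by
      rw [zero_sub, CN.cn_neg]; rfl
    have e2 : cn ((0 : ℤ) - h.1.2) = h.1.2.natAbs := by
      rw [zero_sub, CN.cn_neg]; rfl
    simp only [e1, e2] at h1
    exact h1
  · intro a b ha hb
    rw [map_add]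
    exact add_mem ha hb

/-- **the localised part lives near the face** -/
theorem LocG_mem (w : BW G) (f : G × G) (a : Ge (Fld G)) : LocG w f a ∈ grG (fldU {f}) := by
  rw [LocG_apply]
  refine mpG_mem (chQ w f) (W := fldS (ball (0, 0) 1)) (fun x hx => chQ_mem w f hx) ?_
  rw [mem_grG, coe_LocE]
  exact BgIsox432.LocAt_mem (0, 0) _

variable [DecidableEq G]

theorem bulk_mem (w : BW G) (mk : Finset (G × G)) (l k0 n : ℕ) (U : Finset (G × G))
    (T : Finset (G × G)) (a : Ge (Fld G)) :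
    (bulk w mk l k0 n).X U T a ∈ grG (fldU T) := by
  classical
  unfold bulk
  rw [exF_X]
  refine Subalgebra.smul_mem _ (Subalgebra.sum_mem _ fun f hf => ?_) _
  exact grG_mono (fldU_mono (Finset.singleton_subset_iff.2 hf)) (LocG_mem w f a)

/-! ### the algebraic hypotheses -/

theorem near_mono' (l k0 n : ℕ) (a b : G × G) (h : near l k0 n a b) : near l k0 (n + 1) a b :=
  le_trans h (nearR_mono l k0 (Nat.le_succ n))

theorem near_symm' (l k0 n : ℕ) (a b : G × G) (h : near l k0 n a b) : near l k0 n b a := by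
  unfold near at *; rwa [fd_comm]

theorem near_refl' (l k0 n : ℕ) (a : G × G) : near l k0 n a a := by
  unfold near; simp

theorem ge_mem_top {V : Type*} [AddCommGroup V] [Module ℝ V] (a : Ge V) :
    a ∈ grG (⊤ : Submodule ℝ V) := by
  rw [mem_grG]
  refine Gr.induction (P := fun a => a ∈ gr (⊤ : Submodule ℝ V)) ?_ ?_ ?_ (a : Gr V)
  · intro r; exact Subalgebra.algebraMap_mem _ _
  · intro x a ih; exact mul_mem (fi_mem_gr trivial) ih
  · intro a b iha ihb; exact add_mem iha ihb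

/-- **`Sys.OK` for the system without sources** (every background) -/
theorem sys_OK {M K : ℕ} (D : FRD 16 M K) (hK : 16 ≤ K) (w : BW G) (mk : Finset (G × G)) {l k0 : ℕ}
    (h : 5 ≤ l * (k0 + 1)) {K0 : Finset (G × G) → Ge (Fld G)}
    (hK0 : ∀ U, K0 U ∈ grG (fldU U)) : (sys D w mk l k0 K0).OK ⊥ where
  near_mono := near_mono' l k0
  near_symm := near_symm' l k0
  near_refl := near_refl' l k0
  fld_mono _ _ := fldU_mono
  range n _ _ hUW _ hx _ hy := slC_range D hK w h n hUW hx hy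
  K0_mem := hK0
  X_mem n U T _ a _ := bulk_mem w mk l k0 n U T a
  vac_mem U a _ := by
    show vac0 (Fld G) a ∈ _
    rw [vac0_apply]
    exact Subalgebra.algebraMap_mem _ _
  vac_src a := by
    show vac0 (Fld G) a ∈ _
    rw [vac0_apply]
    exact Subalgebra.algebraMap_mem _ _
  src_S n x hx y := by
    rw [(Submodule.mem_bot ℝ).1 hx]
    simp

theorem inG_mem_fldUS {m : ℕ} (sf : Fin m → Finset (G × G)) {U : Finset (G × G)} {a : Ge (Fld G)}
    (ha : a ∈ grG (fldU U)) : inG m a ∈ grG (fldUS sf U) := by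
  refine mpG_mem _ (W := fldU U) (fun x hx => ?_) ha
  exact ⟨hx, fun i hi => absurd rfl hi⟩

/-- **`Sys.OK` for the system with sources** -/
theorem sysS_OK {M K m : ℕ} (D : FRD 16 M K) (hK : 16 ≤ K) (w : BW G) (mk : Finset (G × G))
    {l k0 : ℕ} (h : 5 ≤ l * (k0 + 1)) (sf : Fin m → Finset (G × G))
    {e2 : ℕ → Extr (G × G) (VS (Fld G) m)}
    (he2 : ∀ n U, ∀ T ∈ (e2 n).out U, ∀ a ∈ grG (fldUS sf U), (e2 n).X U T a ∈ grG (fldUS sf T))
    {K0 : Finset (G × G) → Ge (VS (Fld G) m)} (hK0 : ∀ U, K0 U ∈ grG (fldUS sf U)) :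
    (sysS D w mk l k0 sf e2 K0).OK (srcW (Fld G) m) where
  near_mono := near_mono' l k0
  near_symm := near_symm' l k0
  near_refl := near_refl' l k0
  fld_mono _ _ := fldUS_mono sf
  range n _ _ hUW _ hx _ hy := by
    show (ext0 m (slC D w l k0 n)).b _ _ = 0
    rw [ext0_b]
    exact slC_range D hK w h n hUW hx.1 hy.1
  K0_mem := hK0
  X_mem n U T _ a ha := by
    show ((if T ∈ (liftE m (bulk w mk l k0 n)).out U then (liftE m (bulk w mk l k0 n)).X U T else 0) +
      (if T ∈ (e2 n).out U then (e2 n).X U T else 0)) a ∈ _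
    rw [LinearMap.add_apply]
    refine add_mem ?_ ?_
    · split_ifs with hT
      · rw [liftE_X]
        exact inG_mem_fldUS sf (bulk_mem w mk l k0 n U T _)
      · exact zero_mem _
    · split_ifs with hT
      · exact he2 n U T hT a ha
      · exact zero_mem _
  vac_mem U a ha := by
    show vacH a ∈ _
    refine mpG_mem _ (W := fldUS sf U) (fun x hx => ?_) ha
    exact ⟨zero_mem _, hx.2⟩
  vac_src a := by
    show vacH a ∈ _
    refine mpG_mem _ (W := ⊤) (fun x _ => ?_) (ge_mem_top a)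
    show ((LinearMap.inr ℝ (Fld G) (Src m) ∘ₗ LinearMap.snd ℝ (Fld G) (Src m)) x : VS (Fld G) m) ∈
      LinearMap.ker (LinearMap.fst ℝ (Fld G) (Src m))
    simp
  src_S n x hx y := by
    show (ext0 m (slC D w l k0 n)).b x y = 0
    have h1 : x.1 = 0 := hx
    rw [ext0_b, h1]
    simp

end chart

/-! ### the sum of the covariances of the steps -/

theorem lo_le_hi (l k0 n : ℕ) : lo l k0 n ≤ hi l k0 n := by
  unfold lo hi
  split_ifs
  · exact Nat.zero_le _
  · exact Nat.mul_le_mul_left _ (by omega)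

variable {M K : ℕ} (D : FRD 16 M K)

theorem sum_slC (w : BW G) (l k0 N : ℕ) :
    ∑ n ∈ Finset.range N, slC D w l k0 n = SopC D w 0 (lo l k0 N) := by
  induction N with
  | zero =>
    rw [Finset.sum_range_zero, lo_zero]
    unfold SopC
    simp
  | succ n ih =>
    rw [Finset.sum_range_succ, ih, lo_succ]
    unfold slC SopC
    rw [Finset.sum_Ico_consecutive _ (Nat.zero_le _) (lo_le_hi l k0 n)]

section rest

variable [DecidableEq G] {w : BW G} {S : HE G → HE G → ℝ}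
  (hS : ∀ h h', S h h' = -S h' h)
  (hinv : ∀ g h', Aop w (fun h => S h h') g = -(Pi.single h' 1 : HE G → ℝ) g)
  (hfin : ∀ h', {h | S h h' ≠ 0}.Finite)

/-- the full covariance is the sum of the first `N` steps and the rest -/
theorem covS_split (l k0 N : ℕ) : covS S hS =
    FRDRestx439.restC D hS hinv hfin (lo l k0 N) + ∑ n ∈ Finset.range N, slC D w l k0 n := by
  rw [sum_slC, FRDRestx439.covS_eq D hS hinv hfin (lo l k0 N), add_comm]

end rest

/-! ### Gram weights -/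

/-- Gram bound of a step, `|w| ≤ 1` -/
theorem slC_gram (w : BW G) (hw : ∀ z j, |w z j| ≤ 1) (l k0 n : ℕ) :
    Gram (slC D w l k0 n) (gw D w (lo l k0 n) (hi l k0 n)) :=
  SopC_gram D w (AopF_bdd w hw) _ _

/-- Gram bound of a covariance extended by zero to the sources -/
theorem ext0_gram {V : Type*} [AddCommGroup V] [Module ℝ V] {S : Cov V} {g : V → ℝ≥0∞}
    (h : Gram S g) (m : ℕ) : Gram (ext0 m S) (fun x : VS V m => g x.1) := by
  intro L
  have h1 := EE_mp (LinearMap.fst ℝ V (Src m)) (ext0 m S) S (fun x y => by simp) (mono L)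
  have h2 : mp (LinearMap.fst ℝ V (Src m)) (mono L) = mono (L.map Prod.fst) := by
    induction L with
    | nil => simp [mono]
    | cons x L ih =>
      have e1 : (mono (x :: L) : Gr (VS V m)) = fi x * mono L := by simp [mono]
      have e2 : (mono (x.1 :: L.map Prod.fst) : Gr V) = fi x.1 * mono (L.map Prod.fst) := by
        simp [mono]
      have ih' := ih (EE_mp (LinearMap.fst ℝ V (Src m)) (ext0 m S) S (fun x y => by simp) (mono L))
      rw [e1, map_mul, mp_fi, ih', List.map_cons, e2]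
      rfl
  rw [← h1, h2]
  refine (h (L.map Prod.fst)).trans (le_of_eq ?_)
  clear h1 h2
  induction L with
  | nil => simp [mwt]
  | cons x L ih => simp only [List.map_cons, mwt, List.map_map, List.prod_cons] at *; rw [ih]

/-- **(W0), general form**: `r ≤ Q 2^a`, `2^b ≤ N r` -/
theorem gw_le_wt_gen {Λ : ℝ} {M K : ℕ} (D : FRD Λ M K) (hM : MM + 1 ≤ M) (w : BW G)
    (h : ABtw (preF (HE G)) (AopF w) 0 Λ)
    (a b r : ℕ) (N Q : ℝ) (hr1 : 1 ≤ r) (hQ1 : 1 ≤ Q) (hr : (r : ℝ) ≤ Q * 2 ^ a)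
    (hN : (2 : ℝ) ^ b ≤ N * r) {A : ℝ} (hA : 0 < A) (x : G × G) (l : Fld G) :
    gw D w a b l ≤ ENNReal.ofReal (7 * √(D.C * N) * Q ^ MM / A) * wt w A r x l := by
  have hC := D.C_pos
  have hr1' : (1 : ℝ) ≤ r := by exact_mod_cast hr1
  have hr0 : (0 : ℝ) < r := by linarith
  have h1 := sum_gform_le D (AopF_asy w) h hM a b l
  have hR := RD_nonneg (AopF_asy w) (a := (r : ℝ) ^ 2) (by positivity) MM l
  -- pass to the scale `r / Q`
  have hrQ : (0 : ℝ) < r / Q := by positivity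
  have hs1 : RD (preF (HE G)) (AopF w) (4 ^ a) MM l ≤
      RD (preF (HE G)) (AopF w) ((r / Q) ^ 2) MM l := by
    apply RD_anti (AopF_asy w) (by positivity)
    have h2 : (r : ℝ) / Q ≤ 2 ^ a := by rw [div_le_iff₀ (by linarith), mul_comm]; exact hr
    calc ((r : ℝ) / Q) ^ 2 ≤ ((2 : ℝ) ^ a) ^ 2 := by gcongr
      _ = 4 ^ a := by rw [← pow_mul, mul_comm, pow_mul]; norm_num
  have hs2 : RD (preF (HE G)) (AopF w) ((r / Q) ^ 2) MM l ≤
      Q ^ MM * RD (preF (HE G)) (AopF w) ((r : ℝ) ^ 2) MM l := by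
    have h3 := RD_scale (AopF_asy w) (a := (r / Q) ^ 2) (a' := (r : ℝ) ^ 2) (by positivity)
      (by
        have : (r : ℝ) / Q ≤ r := div_le_self hr0.le hQ1
        gcongr) MM l
    refine h3.trans (le_of_eq ?_)
    congr 1
    have e : (r : ℝ) ^ 2 / (r / Q) ^ 2 = Q ^ 2 := by field_simp
    rw [e, ← pow_mul, mul_comm 2 MM, pow_mul, Real.sqrt_sq (by positivity)]
  have h2 := hs1.trans hs2
  have hN0 : 0 ≤ N * r := (by positivity : (0 : ℝ) ≤ 2 ^ b).trans hN
  set R := RD (preF (HE G)) (AopF w) ((r : ℝ) ^ 2) MM l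
  have hQM : (0 : ℝ) ≤ Q ^ MM := by positivity
  have h3 : √(gB D w a b l l) ≤ √(D.C * (N * r)) * (Q ^ MM * R) := by
    have h4 : gB D w a b l l ≤ D.C * (N * r) * (Q ^ MM * R) ^ 2 := by
      refine h1.trans ?_
      have h5 : RD (preF (HE G)) (AopF w) (4 ^ a) MM l ^ 2 ≤ (Q ^ MM * R) ^ 2 :=
        pow_le_pow_left₀ (RD_nonneg (AopF_asy w) (by positivity) MM l) h2 2
      exact mul_le_mul (mul_le_mul_of_nonneg_left hN hC.le) h5 (sq_nonneg _)
        (mul_nonneg hC.le hN0)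
    calc √(gB D w a b l l) ≤ √(D.C * (N * r) * (Q ^ MM * R) ^ 2) := Real.sqrt_le_sqrt h4
      _ = _ := by
        rw [Real.sqrt_mul (mul_nonneg hC.le hN0), Real.sqrt_sq (mul_nonneg hQM hR)]
  have h6 : √(D.C * (N * r)) = √(D.C * N) * √r := by
    rw [← mul_assoc, Real.sqrt_mul' _ (by positivity)]
  rw [wt_eq, ← mul_assoc]
  calc gw D w a b l ≤ ENNReal.ofReal ((√(D.C * N) * √r * Q ^ MM) * R) := by
        apply ENNReal.ofReal_le_ofReal
        refine h3.trans (le_of_eq ?_)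
        rw [h6]; ring
    _ = ENNReal.ofReal (√(D.C * N) * √r * Q ^ MM) * ENNReal.ofReal R :=
        ENNReal.ofReal_mul (by positivity)
    _ ≤ ENNReal.ofReal (√(D.C * N) * √r * Q ^ MM) * (7 * sup1 w r x l) := by
        gcongr
        exact RD_le_sup1 w r x l
    _ = ENNReal.ofReal (7 * √(D.C * N) * Q ^ MM / A) * ENNReal.ofReal (A * √r) *
        sup1 w r x l := by
        rw [← ENNReal.ofReal_mul (by positivity), ← mul_assoc]
        congr 1
        have h7 : (7 : ℝ≥0∞) = ENNReal.ofReal 7 := by norm_num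
        rw [h7, ← ENNReal.ofReal_mul (by positivity)]
        congr 1
        field_simp

/-- the constant of (W0) for all steps -/
def c0 (C : ℝ) (l k0 : ℕ) : ℝ := 7 * √(C * 2 ^ l) * (rr l k0 1 : ℝ) ^ MM

theorem c0_pos {C : ℝ} (hC : 0 < C) (l k0 : ℕ) : 0 < c0 C l k0 := by
  have := rr_pos l k0 1
  unfold c0; positivity

/-- **(W0) at every step**, new scale -/
theorem gw_step_le_new (hM : MM + 1 ≤ M) (w : BW G) (hw : ∀ z j, |w z j| ≤ 1) (l k0 n : ℕ) {A : ℝ}
    (hA : 0 < A) (x : G × G) (y : Fld G) :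
    gw D w (lo l k0 n) (hi l k0 n) y ≤
      ENNReal.ofReal (c0 D.C l k0 / A) * wt w A (rr l k0 (n + 1)) x y := by
  have hC := D.C_pos
  have hpos : (0 : ℝ) < 2 ^ l := by positivity
  have h1l : (1 : ℝ) ≤ 2 ^ l := one_le_pow₀ (by norm_num)
  have hr1 : (1 : ℝ) ≤ (rr l k0 1 : ℝ) := by exact_mod_cast rr_pos l k0 1
  have hle : (2 : ℝ) ^ l ≤ (rr l k0 1 : ℝ) := by
    have : 2 ^ l ≤ rr l k0 1 := by
      unfold rr
      exact Nat.pow_le_pow_right (by norm_num) (Nat.le_mul_of_pos_right _ (by omega))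
    exact_mod_cast this
  have hN : (2 : ℝ) ^ hi l k0 n ≤ 1 * (rr l k0 (n + 1) : ℝ) := by
    rw [one_mul]
    exact_mod_cast (le_of_eq (hi_eq l k0 n))
  refine (gw_le_wt_gen D hM w (AopF_bdd w hw) (lo l k0 n) (hi l k0 n) (rr l k0 (n + 1)) 1
    (rr l k0 1 : ℝ) (rr_pos l k0 (n + 1)) hr1 ?_ hN hA x y).trans ?_
  · unfold lo
    split_ifs with h0
    · subst h0; simp
    · have e : (rr l k0 (n + 1) : ℝ) = 2 ^ l * 2 ^ (l * (k0 + n)) := by
        have : rr l k0 (n + 1) = 2 ^ l * 2 ^ (l * (k0 + n)) := rr_succ l k0 n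
        exact_mod_cast this
      rw [e]
      gcongr
  · gcongr
    unfold c0
    gcongr

/-- **(W0) at every step**, old scale -/
theorem gw_step_le_old (hM : MM + 1 ≤ M) (w : BW G) (hw : ∀ z j, |w z j| ≤ 1) (l k0 n : ℕ) {A : ℝ}
    (hA : 0 < A) (x : G × G) (y : Fld G) :
    gw D w (lo l k0 n) (hi l k0 n) y ≤
      ENNReal.ofReal (c0 D.C l k0 / A) * wt w A (rr l k0 n) x y := by
  have hC := D.C_pos
  have h1l : (1 : ℝ) ≤ 2 ^ l := one_le_pow₀ (by norm_num)
  have hr1 : (1 : ℝ) ≤ (rr l k0 1 : ℝ) := by exact_mod_cast rr_pos l k0 1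
  have h01 : (rr l k0 0 : ℝ) ≤ (rr l k0 1 : ℝ) := by
    exact_mod_cast rr_mono l k0 (Nat.zero_le 1)
  have hN : (2 : ℝ) ^ hi l k0 n ≤ 2 ^ l * (rr l k0 n : ℝ) := by
    have : 2 ^ hi l k0 n ≤ 2 ^ l * rr l k0 n := le_of_eq ((hi_eq l k0 n).trans (rr_succ l k0 n))
    exact_mod_cast this
  refine (gw_le_wt_gen D hM w (AopF_bdd w hw) (lo l k0 n) (hi l k0 n) (rr l k0 n) (2 ^ l)
    (rr l k0 1 : ℝ) (rr_pos l k0 n) hr1 ?_ hN hA x y).trans ?_
  · unfold lo
    split_ifs with h0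
    · subst h0; simpa using h01
    · have e : (rr l k0 n : ℝ) = 2 ^ (l * (k0 + n)) := by
        unfold rr; push_cast; rfl
      rw [e]
      exact le_mul_of_one_le_left (by positivity) hr1
  · gcongr
    unfold c0
    exact le_rfl

/-- the Gram weight against the weight relative to a set -/
theorem le_wU {g : Fld G → ℝ≥0∞} {w : BW G} {A : ℝ} {r : ℕ} {ε : ℝ≥0∞} (hε : ε ≠ 0) (hε' : ε ≠ ∞)
    {y : Fld G} (h : ∀ x, g y ≤ ε * wt w A r x y) (U : Finset (G × G)) : g y ≤ ε * wU w A r U y := by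
  classical
  unfold wU
  rw [ENNReal.mul_iInf_of_ne hε hε']
  refine le_iInf fun x => ?_
  rw [ENNReal.mul_iInf_of_ne hε hε']
  refine le_iInf fun _ => ?_
  split_ifs
  · exact h x
  · rw [ENNReal.mul_top hε]; exact le_top

theorem c0_ne {C : ℝ} (hC : 0 < C) (l k0 : ℕ) {A : ℝ} (hA : 0 < A) :
    ENNReal.ofReal (c0 C l k0 / A) ≠ 0 := by
  have := c0_pos hC l k0
  rw [Ne, ENNReal.ofReal_eq_zero, not_le]
  positivity

/-- (W0) against `wU`, new scale -/
theorem gw_step_le_wU_new (hM : MM + 1 ≤ M) (w : BW G) (hw : ∀ z j, |w z j| ≤ 1) (l k0 n : ℕ)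
    {A : ℝ} (hA : 0 < A) (U : Finset (G × G)) (y : Fld G) :
    gw D w (lo l k0 n) (hi l k0 n) y ≤
      ENNReal.ofReal (c0 D.C l k0 / A) * wU w A (rr l k0 (n + 1)) U y :=
  le_wU (c0_ne D.C_pos l k0 hA) ENNReal.ofReal_ne_top
    (fun x => gw_step_le_new D hM w hw l k0 n hA x y) U

/-- (W0) against `wU`, old scale -/
theorem gw_step_le_wU_old (hM : MM + 1 ≤ M) (w : BW G) (hw : ∀ z j, |w z j| ≤ 1) (l k0 n : ℕ)
    {A : ℝ} (hA : 0 < A) (U : Finset (G × G)) (y : Fld G) :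
    gw D w (lo l k0 n) (hi l k0 n) y ≤
      ENNReal.ofReal (c0 D.C l k0 / A) * wU w A (rr l k0 n) U y :=
  le_wU (c0_ne D.C_pos l k0 hA) ENNReal.ofReal_ne_top
    (fun x => gw_step_le_old D hM w hw l k0 n hA x y) U

theorem rr_eq_lo {l k0 n : ℕ} (hn : n ≠ 0) : rr l k0 n = 2 ^ lo l k0 n := by
  unfold rr lo; rw [if_neg hn]

/-- the last Gram weight (gap `m`) against the weight at scale `rr n`, after `n ≥ 1` steps -/
theorem gr_step_le [DecidableEq G] (hM : MM ≤ M) {w : BW G} (hw : ∀ z j, |w z j| ≤ 1) {m : ℝ} (hm : 0 < m)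
    {l k0 n : ℕ} (hn : n ≠ 0) {A : ℝ} (hA : 0 < A) (x : G × G) (y : Fld G) :
    FRDRestx439.gr D w m (lo l k0 n) y ≤
      ENNReal.ofReal (7 * √(D.C / (m * rr l k0 n)) / A) * wt w A (rr l k0 n) x y :=
  FRDRestx439.gr_le_wt D hM hm (AopF_bdd w hw) (lo l k0 n) (rr l k0 n) (rr_pos l k0 n)
    (le_of_eq (rr_eq_lo hn)) hA x y

theorem gr_step_le_wU [DecidableEq G] (hM : MM ≤ M) {w : BW G} (hw : ∀ z j, |w z j| ≤ 1) {m : ℝ} (hm : 0 < m)
    {l k0 n : ℕ} (hn : n ≠ 0) {A : ℝ} (hA : 0 < A) (U : Finset (G × G)) (y : Fld G) :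
    FRDRestx439.gr D w m (lo l k0 n) y ≤
      ENNReal.ofReal (7 * √(D.C / (m * rr l k0 n)) / A) * wU w A (rr l k0 n) U y := by
  refine le_wU ?_ ENNReal.ofReal_ne_top (fun x => gr_step_le D hM hw hm hn hA x y) U
  have hC := D.C_pos
  have hr : (0 : ℝ) < rr l k0 n := by exact_mod_cast rr_pos l k0 n
  rw [Ne, ENNReal.ofReal_eq_zero, not_le]
  positivity

/-! ### the exact identity -/

theorem ext0_add {V : Type*} [AddCommGroup V] [Module ℝ V] (m : ℕ) (S T : Cov V) :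
    ext0 m (S + T) = ext0 m S + ext0 m T := by
  apply Cov.ext
  rfl

theorem ext0_zero {V : Type*} [AddCommGroup V] [Module ℝ V] (m : ℕ) :
    ext0 m (0 : Cov V) = 0 := by
  apply Cov.ext
  rfl

theorem ext0_sum {V : Type*} [AddCommGroup V] [Module ℝ V] (m : ℕ) {ι : Type*} (s : Finset ι)
    (S : ι → Cov V) : ext0 m (∑ i ∈ s, S i) = ∑ i ∈ s, ext0 m (S i) := by
  classical
  induction s using Finset.induction_on with
  | empty => simp [ext0_zero]
  | insert a s ha ih => rw [Finset.sum_insert ha, Finset.sum_insert ha, ext0_add, ih]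

section total

variable [CNZ G] [DecidableEq G] {w : BW G} {S : HE G → HE G → ℝ}
  (hS : ∀ h h', S h h' = -S h' h)
  (hinv : ∀ g h', Aop w (fun h => S h h') g = -(Pi.single h' 1 : HE G → ℝ) g)
  (hfin : ∀ h', {h | S h h' ≠ 0}.Finite)

/-- **the exact identity without sources** -/
theorem total_sys (hK : 16 ≤ K) (mk : Finset (G × G)) {l k0 : ℕ} (h : 5 ≤ l * (k0 + 1))
    {K0 : Finset (G × G) → Ge (Fld G)} (hK0 : ∀ U, K0 U ∈ grG (fldU U)) {Λ : Finset (G × G)}
    (h0 : ∀ U, ¬ U ⊆ Λ → K0 U = 0) (N : ℕ) :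
    EEG (covS S hS) (KStepx892.ZZ (near l k0 0) Λ K0) =
      Real.exp (ctG ((sys D w mk l k0 K0).E Λ N)) *
        EEG (FRDRestx439.restC D hS hinv hfin (lo l k0 N))
          (KStepx892.ZZ (near l k0 N) Λ ((sys D w mk l k0 K0).K N)) :=
  Sys.total_real (D := sys D w mk l k0 K0) (sys_OK D hK w mk h hK0) h0 N (covS S hS) _
    (covS_split D hS hinv hfin l k0 N)
    (fun x hx y => by rw [(Submodule.mem_bot ℝ).1 hx]; simp)

/-- **the exact identity with sources** -/
theorem total_sysS {m : ℕ} (hK : 16 ≤ K) (mk : Finset (G × G)) {l k0 : ℕ} (h : 5 ≤ l * (k0 + 1))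
    (sf : Fin m → Finset (G × G)) {e2 : ℕ → Extr (G × G) (VS (Fld G) m)}
    (he2 : ∀ n U, ∀ T ∈ (e2 n).out U, ∀ a ∈ grG (fldUS sf U), (e2 n).X U T a ∈ grG (fldUS sf T))
    {K0 : Finset (G × G) → Ge (VS (Fld G) m)} (hK0 : ∀ U, K0 U ∈ grG (fldUS sf U))
    {Λ : Finset (G × G)} (h0 : ∀ U, ¬ U ⊆ Λ → K0 U = 0) (N : ℕ) :
    cvG (ext0 m (covS S hS)) (KStepx892.ZZ (near l k0 0) Λ K0) =
      ExpGx337.gexp ((sysS D w mk l k0 sf e2 K0).E Λ N) *
        cvG (ext0 m (FRDRestx439.restC D hS hinv hfin (lo l k0 N)))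
          (KStepx892.ZZ (near l k0 N) Λ ((sysS D w mk l k0 sf e2 K0).K N)) := by
  refine Sys.total' (D := sysS D w mk l k0 sf e2 K0) (sysS_OK D hK w mk h sf he2 hK0) h0 N _ _ ?_ ?_
  · rw [covS_split D hS hinv hfin l k0 N, ext0_add, ext0_sum]
    rfl
  · intro x hx y
    have h1 : x.1 = 0 := hx
    rw [ext0_b, h1]
    simp

end total

end lattice

end Crest.Agent.R165.GSysOKx439
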