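import Crest.Agent.R165.FreeReg_485
import Crest.Agent.R165.Bridge_386

/-!
# Row 165 (S0250), blocks R/G: the background of a domain with insertions on boxes (helper65)

`w = wl (wX (wDom T b) X)`, any site set `T`, `b = false` plus, `b = true` free.

* `wl_apply`, `wl_wX`, `wl_ray`: the lifted weights
* `Inn`, `Out`, `Mix`: the corners of a face are all in `T` / all outside `T` / neither
* `IntV x r v`: the vertex `v` is interior to the box `bx x r`; `gauge_prod`: insertions which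
  are not interior are pure gauge
* `planeOn`, `branchOn`, `zeroOn`, `oneOn`, `isPlusOn`, `isFreeOn`, `plusFlat`, `freeFlat`
* `inn_or_out`, `trich`, `trich'`: a box without mixed face (without point of `bdS T`)
* `branch_sep`: insertions approximating distinct points of an open set
-/

set_option autoImplicit false

noncomputable section

open Crest.ProbabilityR.IsingModel
open Crest.Agent.R165.Latx683 Crest.Agent.R165.GDefx387 Crest.Agent.R165.Bridgex386
  Crest.Agent.R165.RIfx891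
open Crest.Agent.R165.Tr1x40 (nb)

namespace Crest.Agent.R165.RFlatx65

/-! ### the lifted weights -/

theorem wl_S (w : BW ℤ) (f : Face) : wl w f 0 = w f 0 := by
  simp [wl, Tr1x40.ofEN, yN, pf]

theorem wl_E (w : BW ℤ) (f : Face) : wl w f 1 = w (f.1 + 1, f.2) 1 := by
  simp [wl, Tr1x40.ofEN, yE, pf]

theorem wl_N (w : BW ℤ) (f : Face) : wl w f 2 = w (f.1, f.2 + 1) 0 := by
  simp [wl, Tr1x40.ofEN, yN, pf]

theorem wl_W (w : BW ℤ) (f : Face) : wl w f 3 = w f 1 := by
  simp [wl, Tr1x40.ofEN, yE, pf]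

theorem rayw_0 (v f : Face) : rayw v f 0 = if v.2 = f.2 ∧ v.1 ≤ f.1 then -1 else 1 :=
  if_congr (by simp [eq_comm]) rfl rfl

theorem rayw_1 (v f : Face) : rayw v f 1 = 1 := by simp [rayw]

theorem rayw_2 (v f : Face) : rayw v f 2 = if v.2 = f.2 + 1 ∧ v.1 ≤ f.1 then -1 else 1 :=
  if_congr (by simp [eq_comm]) rfl rfl

theorem rayw_3 (v f : Face) : rayw v f 3 = 1 := by simp [rayw]

theorem wl_wX {n : ℕ} (w : BW ℤ) (X : Fin n → ℤ × ℤ) (f : Face) (k : Fin 4) :
    wl (wX w X) f k = (∏ i, rayw (X i) f k) * wl w f k := by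
  fin_cases k
  · simp only [Fin.zero_eta, wl_S, rayw_0]
    unfold wX ray
    congr 1
    exact Finset.prod_congr rfl fun i _ => if_congr (by simp) rfl rfl
  · simp only [Fin.mk_one, wl_E, rayw_1]
    unfold wX ray
    congr 1
  · simp only [Fin.reduceFinMk, wl_N, rayw_2]
    unfold wX ray
    congr 1
    exact Finset.prod_congr rfl fun i _ => if_congr (by simp) rfl rfl
  · simp only [Fin.reduceFinMk, wl_W, rayw_3]
    unfold wX ray
    congr 1

/-! ### insertions which are not interior are pure gauge -/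

/-- the vertex `v` is interior to the box `bx x r` (its four faces belong to the box) -/
def IntV (x : Face) (r : ℝ) (v : ℤ × ℤ) : Prop :=
  x.1 - ⌊r⌋ < v.1 ∧ v.1 ≤ x.1 + ⌊r⌋ ∧ x.2 - ⌊r⌋ < v.2 ∧ v.2 ≤ x.2 + ⌊r⌋

theorem gauge_ite (p : Face → Prop) [DecidablePred p] :
    Gauge (fun f => if p f then (-1 : ℝ) else 1) := fun f => by
  dsimp only
  split_ifs <;> norm_num

theorem ite_xor {c p q : Prop} [Decidable c] [Decidable p] [Decidable q]
    (h : c ↔ (p ∧ ¬ q) ∨ (¬ p ∧ q)) :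
    (if c then (-1 : ℝ) else 1) = (if p then -1 else 1) * (if q then -1 else 1) := by
  by_cases hp : p <;> by_cases hq : q <;> simp [h, hp, hq]

theorem ite_same {p q : Prop} [Decidable p] [Decidable q] (h : p ↔ q) :
    (1 : ℝ) = (if p then -1 else 1) * (if q then -1 else 1) := by
  by_cases hp : p
  · have hq : q := h.1 hp
    simp [hp, hq]
  · have hq : ¬ q := fun h' => hp (h.2 h')
    simp [hp, hq]

theorem rayw_gauge {x : Face} {r : ℝ} {v : ℤ × ℤ} (hv : ¬ IntV x r v) :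
    ∃ s : Face → ℝ, Gauge s ∧ ∀ f ∈ bx x r, ∀ k, rayw v f k = s f * s (nb f k) := by
  unfold IntV at hv
  by_cases h1 : v.1 ≤ x.1 - ⌊r⌋
  · refine ⟨fun f => if v.2 ≤ f.2 then -1 else 1, gauge_ite (fun f => v.2 ≤ f.2), ?_⟩
    intro f hf k
    rw [mem_bx, abs_le, abs_le] at hf
    match k with
    | 0 => rw [rayw_0]; exact ite_xor (by simp only [nb]; omega)
    | 1 => rw [rayw_1]; exact ite_same (by simp only [nb])
    | 2 => rw [rayw_2]; exact ite_xor (by simp only [nb]; omega)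
    | 3 => rw [rayw_3]; exact ite_same (by simp only [nb])
  by_cases h2 : x.1 + ⌊r⌋ < v.1
  · refine ⟨fun _ => 1, fun f => by norm_num, ?_⟩
    intro f hf k
    rw [mem_bx, abs_le, abs_le] at hf
    match k with
    | 0 => rw [rayw_0, if_neg (by omega)]; norm_num
    | 1 => rw [rayw_1]; norm_num
    | 2 => rw [rayw_2, if_neg (by omega)]; norm_num
    | 3 => rw [rayw_3]; norm_num
  by_cases h3 : x.2 + ⌊r⌋ < v.2
  · refine ⟨fun f => if v.2 ≤ f.2 ∧ v.1 ≤ f.1 then -1 else 1,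
      gauge_ite (fun f => v.2 ≤ f.2 ∧ v.1 ≤ f.1), ?_⟩
    intro f hf k
    rw [mem_bx, abs_le, abs_le] at hf
    match k with
    | 0 => rw [rayw_0]; exact ite_xor (by simp only [nb]; omega)
    | 1 => rw [rayw_1]; exact ite_same (by simp only [nb]; omega)
    | 2 => rw [rayw_2]; exact ite_xor (by simp only [nb]; omega)
    | 3 => rw [rayw_3]; exact ite_same (by simp only [nb]; omega)
  · refine ⟨fun f => if f.2 < v.2 ∧ v.1 ≤ f.1 then -1 else 1,
      gauge_ite (fun f => f.2 < v.2 ∧ v.1 ≤ f.1), ?_⟩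
    intro f hf k
    rw [mem_bx, abs_le, abs_le] at hf
    match k with
    | 0 => rw [rayw_0]; exact ite_xor (by simp only [nb]; omega)
    | 1 => rw [rayw_1]; exact ite_same (by simp only [nb]; omega)
    | 2 => rw [rayw_2]; exact ite_xor (by simp only [nb]; omega)
    | 3 => rw [rayw_3]; exact ite_same (by simp only [nb]; omega)

/-- any finite family of non interior insertions is pure gauge -/
theorem gauge_prod {n : ℕ} {x : Face} {r : ℝ} (X : Fin n → ℤ × ℤ) (I : Finset (Fin n)) :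
    (∀ i ∈ I, ¬ IntV x r (X i)) →
    ∃ s : Face → ℝ, Gauge s ∧ ∀ f ∈ bx x r, ∀ k, ∏ i ∈ I, rayw (X i) f k = s f * s (nb f k) := by
  classical
  induction I using Finset.induction_on with
  | empty =>
    intro _
    exact ⟨fun _ => 1, fun f => by norm_num, fun f _ k => by simp⟩
  | insert i I hi ih =>
    intro h
    obtain ⟨s, hs, h1⟩ := ih fun j hj => h j (Finset.mem_insert_of_mem hj)
    obtain ⟨t, ht, h2⟩ := rayw_gauge (h i (Finset.mem_insert_self i I))
    refine ⟨fun f => t f * s f, fun f => by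
      show (t f * s f) ^ 2 = 1
      rw [mul_pow, ht f, hs f, one_mul], fun f hf k => ?_⟩
    rw [Finset.prod_insert hi, h1 f hf k, h2 f hf k]
    ring

/-! ### faces and site sets -/

/-- all corners of the face in `T` -/
def Inn (T : Set (ℤ × ℤ)) (f : Face) : Prop :=
  f ∈ T ∧ (f.1 + 1, f.2) ∈ T ∧ (f.1, f.2 + 1) ∈ T ∧ (f.1 + 1, f.2 + 1) ∈ T

/-- all corners of the face outside `T` -/
def Out (T : Set (ℤ × ℤ)) (f : Face) : Prop :=
  f ∉ T ∧ (f.1 + 1, f.2) ∉ T ∧ (f.1, f.2 + 1) ∉ T ∧ (f.1 + 1, f.2 + 1) ∉ T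

/-- mixed faces -/
def Mix (T : Set (ℤ × ℤ)) (f : Face) : Prop := ¬ Inn T f ∧ ¬ Out T f

theorem uv0 (z : ℤ × ℤ) : z + unitVec 0 = (z.1 + 1, z.2) := by
  ext <;> simp [unitVec]

theorem uv1 (z : ℤ × ℤ) : z + unitVec 1 = (z.1, z.2 + 1) := by
  ext <;> simp [unitVec]

section dom

variable {T : Set (ℤ × ℤ)} {f : Face}

theorem wDom_inn {z : ℤ × ℤ} {j : Fin 2} (h1 : z ∈ T) (h2 : z + unitVec j ∈ T) (b : Bool) :
    wDom T b z j = Tr1x40.xc := by
  cases b <;> simp only [wDom, h1, h2, or_self, and_self, if_true, Bool.false_eq_true, if_false] <;>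
    rfl

theorem wDom_out {z : ℤ × ℤ} {j : Fin 2} (h1 : z ∉ T) (h2 : z + unitVec j ∉ T) :
    wDom T false z j = 0 := by
  simp only [wDom, h1, h2, or_self, and_self, Bool.false_eq_true, if_false]

theorem wDom_out' {z : ℤ × ℤ} {j : Fin 2} (h1 : z ∉ T) :
    wDom T true z j = 1 := by
  simp only [wDom, h1, false_and, if_true, if_false]

theorem wl_inn (h : Inn T f) (b : Bool) (k : Fin 4) : wl (wDom T b) f k = Tr1x40.xc := by
  obtain ⟨h1, h2, h3, h4⟩ := h
  match k with
  | 0 => rw [wl_S]; exact wDom_inn h1 (by rw [uv0]; exact h2) b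
  | 1 => rw [wl_E]; exact wDom_inn h2 (by rw [uv1]; exact h4) b
  | 2 => rw [wl_N]; exact wDom_inn h3 (by rw [uv0]; exact h4) b
  | 3 => rw [wl_W]; exact wDom_inn h1 (by rw [uv1]; exact h3) b

theorem wl_out_plus (h : Out T f) (k : Fin 4) : wl (wDom T false) f k = 0 := by
  obtain ⟨h1, h2, h3, h4⟩ := h
  match k with
  | 0 => rw [wl_S]; exact wDom_out h1 (by rw [uv0]; exact h2)
  | 1 => rw [wl_E]; exact wDom_out h2 (by rw [uv1]; exact h4)
  | 2 => rw [wl_N]; exact wDom_out h3 (by rw [uv0]; exact h4)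
  | 3 => rw [wl_W]; exact wDom_out h1 (by rw [uv1]; exact h3)

theorem wl_out_free (h : Out T f) (k : Fin 4) : wl (wDom T true) f k = 1 := by
  obtain ⟨h1, h2, h3, h4⟩ := h
  match k with
  | 0 => rw [wl_S]; exact wDom_out' h1
  | 1 => rw [wl_E]; exact wDom_out' h2
  | 2 => rw [wl_N]; exact wDom_out' h3
  | 3 => rw [wl_W]; exact wDom_out' h1

theorem wDom_plus (z : ℤ × ℤ) (j : Fin 2) :
    wDom T false z j = Tr1x40.xc ∨ wDom T false z j = 0 := by
  classical
  by_cases h : z ∈ T ∨ z + unitVec j ∈ T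
  · left; simp only [wDom, Bool.false_eq_true, if_false]; rw [if_pos h]; rfl
  · right; simp only [wDom, Bool.false_eq_true, if_false]; rw [if_neg h]

theorem wDom_free (z : ℤ × ℤ) (j : Fin 2) :
    wDom T true z j = Tr1x40.xc ∨ wDom T true z j = 1 := by
  classical
  by_cases h : z ∈ T ∧ z + unitVec j ∈ T
  · left; simp only [wDom, if_true]; rw [if_pos h]; rfl
  · right; simp only [wDom, if_true]; rw [if_neg h]

theorem wl_plus (f : Face) (k : Fin 4) :
    wl (wDom T false) f k = Tr1x40.xc ∨ wl (wDom T false) f k = 0 := by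
  fin_cases k
  · simp only [Fin.zero_eta, wl_S]; exact wDom_plus _ _
  · simp only [Fin.mk_one, wl_E]; exact wDom_plus _ _
  · simp only [Fin.reduceFinMk, wl_N]; exact wDom_plus _ _
  · simp only [Fin.reduceFinMk, wl_W]; exact wDom_plus _ _

theorem wl_free (f : Face) (k : Fin 4) :
    wl (wDom T true) f k = Tr1x40.xc ∨ wl (wDom T true) f k = 1 := by
  fin_cases k
  · simp only [Fin.zero_eta, wl_S]; exact wDom_free _ _
  · simp only [Fin.mk_one, wl_E]; exact wDom_free _ _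
  · simp only [Fin.reduceFinMk, wl_N]; exact wDom_free _ _
  · simp only [Fin.reduceFinMk, wl_W]; exact wDom_free _ _

end dom

/-! ### background classes on boxes -/

section classes

variable {n : ℕ} {T : Set (ℤ × ℤ)} {b : Bool} {X : Fin n → ℤ × ℤ} {x : Face} {r : ℝ}

/-- plane background on a box of inner faces without interior insertion -/
theorem planeOn (h : ∀ f ∈ bx x r, Inn T f) (hX : ∀ i, ¬ IntV x r (X i)) :
    ∃ s, PlaneOn (wl (wX (wDom T b) X)) s x r := by
  obtain ⟨s, hs, H⟩ := gauge_prod X Finset.univ (fun i _ => hX i)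
  exact ⟨s, sym_wl _, hs, fun f hf k => by rw [wl_wX, H f hf k, wl_inn (h f hf)]⟩

/-- one branch vertex -/
theorem branchOn {i : Fin n} (h : ∀ f ∈ bx (X i) r, Inn T f)
    (hX : ∀ j ≠ i, ¬ IntV (X i) r (X j)) :
    ∃ s, BranchOn (wl (wX (wDom T b) X)) s (X i) r := by
  classical
  obtain ⟨s, hs, H⟩ := gauge_prod (x := X i) (r := r) X (Finset.univ.erase i)
    (fun j hj => hX j (Finset.ne_of_mem_erase hj))
  refine ⟨s, sym_wl _, hs, fun f hf k => ?_⟩
  rw [wl_wX, ← Finset.mul_prod_erase Finset.univ _ (Finset.mem_univ i), H f hf k,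
    wl_inn (h f hf)]
  ring

/-- zero background -/
theorem zeroOn (h : ∀ f ∈ bx x r, Out T f) :
    ∀ f ∈ bx x r, ∀ k, wl (wX (wDom T false) X) f k = 0 := fun f hf k => by
  rw [wl_wX, wl_out_plus (h f hf), mul_zero]

/-- weight-one background -/
theorem oneOn (h : ∀ f ∈ bx x r, Out T f) (hX : ∀ i, ¬ IntV x r (X i)) :
    ∃ s, Gauge s ∧ ∀ f ∈ bx x r, ∀ k, wl (wX (wDom T true) X) f k = s f * s (nb f k) := by
  obtain ⟨s, hs, H⟩ := gauge_prod X Finset.univ (fun i _ => hX i)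
  exact ⟨s, hs, fun f hf k => by rw [wl_wX, H f hf k, wl_out_free (h f hf), mul_one]⟩

theorem prod_rayw_sq (I : Finset (Fin n)) (f : Face) (k : Fin 4) :
    (∏ i ∈ I, rayw (X i) f k) ^ 2 = 1 := by
  rw [← Finset.prod_pow]
  exact Finset.prod_eq_one fun i _ => rayw_sq _ _ _

/-- the plus background of any site set, with any insertions -/
theorem isPlusOn (x : Face) (r : ℝ) : IsPlusOn (wl (wX (wDom T false) X)) x r := by
  intro f _ k
  rw [wl_wX]
  rcases wl_plus (T := T) f k with h | h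
  · left; rw [h, mul_pow, prod_rayw_sq, one_mul]
  · right; rw [h, mul_zero]

/-- the free background of any site set, no interior insertion -/
theorem isFreeOn (hX : ∀ i, ¬ IntV x r (X i)) :
    ∃ s, FreeRegx485.IsFreeOn (wl (wX (wDom T true) X)) s x r := by
  obtain ⟨s, hs, H⟩ := gauge_prod X Finset.univ (fun i _ => hX i)
  refine ⟨s, sym_wl _, hs, fun f hf k => ?_⟩
  rw [wl_wX, H f hf k]
  rcases wl_free (T := T) f k with h | h
  · left; rw [h]
  · right; rw [h, mul_one]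

/-- plus boundary from the geometry -/
theorem plusFlat {m : ℂ} {ε : ℝ}
    (hin : ∀ f ∈ bx x r, dotn m x f ≤ -(ε * r) → Inn T f)
    (hout : ∀ f ∈ bx x r, ε * r ≤ dotn m x f → Out T f) (hX : ∀ i, ¬ IntV x r (X i)) :
    ∃ s, PlusFlat (wl (wX (wDom T false) X)) s x r m ε := by
  obtain ⟨s, hs, H⟩ := gauge_prod X Finset.univ (fun i _ => hX i)
  refine ⟨s, sym_wl _, hs, isPlusOn x r, fun f hf hd k => ?_, fun f hf hd k => ?_⟩
  · rw [wl_wX, H f hf k, wl_inn (hin f hf hd)]
  · rw [wl_wX, wl_out_plus (hout f hf hd), mul_zero]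

/-- free boundary from the geometry -/
theorem freeFlat {m : ℂ} {ε : ℝ}
    (hin : ∀ f ∈ bx x r, dotn m x f ≤ -(ε * r) → Inn T f)
    (hout : ∀ f ∈ bx x r, ε * r ≤ dotn m x f → Out T f) (hX : ∀ i, ¬ IntV x r (X i)) :
    ∃ s, FreeRegx485.FreeFlat (wl (wX (wDom T true) X)) s x r m ε := by
  obtain ⟨s, hs, H⟩ := gauge_prod X Finset.univ (fun i _ => hX i)
  refine ⟨s, sym_wl _, hs, fun f hf k => ?_, fun f hf hd k => ?_, fun f hf hd k => ?_⟩
  · rw [wl_wX, H f hf k]
    rcases wl_free (T := T) f k with h | h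
    · left; rw [h]
    · right; rw [h, mul_one]
  · rw [wl_wX, H f hf k, wl_inn (hin f hf hd)]
  · rw [wl_wX, H f hf k, wl_out_free (hout f hf hd), mul_one]

end classes

/-! ### boxes without mixed face -/

theorem line_iff {P : ℤ → Prop} {m : ℤ} (h : ∀ k : ℤ, |k| ≤ m → |k + 1| ≤ m → (P k ↔ P (k + 1))) :
    ∀ k : ℤ, |k| ≤ m → (P k ↔ P 0) := by
  have h1 : ∀ n : ℕ, (n : ℤ) ≤ m → (P n ↔ P 0) := by
    intro n
    induction n with
    | zero => intro _; simp
    | succ n ih =>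
      intro hn
      push_cast at hn
      have := h n (by rw [abs_of_nonneg (by omega)]; omega) (by rw [abs_of_nonneg (by omega)]; omega)
      rw [Nat.cast_succ, ← this]
      exact ih (by omega)
  have h2 : ∀ n : ℕ, (n : ℤ) ≤ m → (P (-n) ↔ P 0) := by
    intro n
    induction n with
    | zero => intro _; simp
    | succ n ih =>
      intro hn
      push_cast at hn
      have := h (-(n + 1)) (by rw [abs_of_nonpos (by omega)]; omega)
        (by rw [abs_of_nonpos (by omega)]; omega)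
      rw [Nat.cast_succ, this, show -((n : ℤ) + 1) + 1 = -n by ring]
      exact ih (by omega)
  intro k hk
  rcases le_total 0 k with h0 | h0
  · obtain ⟨n, rfl⟩ := Int.eq_ofNat_of_zero_le h0
    exact h1 n (by rwa [abs_of_nonneg h0] at hk)
  · obtain ⟨n, hn⟩ := Int.eq_ofNat_of_zero_le (neg_nonneg.2 h0)
    have : k = -n := by omega
    subst this
    exact h2 n (by rw [abs_of_nonpos h0] at hk; omega)

/-- a box without mixed face consists of inner faces or of outer faces -/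
theorem inn_or_out {T : Set (ℤ × ℤ)} {x : Face} {r : ℝ} (h : ∀ f ∈ bx x r, ¬ Mix T f) :
    (∀ f ∈ bx x r, Inn T f) ∨ (∀ f ∈ bx x r, Out T f) := by
  have dich : ∀ f ∈ bx x r, Inn T f ∨ Out T f := fun f hf => by
    have := h f hf
    unfold Mix at this
    tauto
  have s1 : ∀ f ∈ bx x r, (f.1 + 1, f.2) ∈ bx x r → (Inn T f ↔ Inn T (f.1 + 1, f.2)) := by
    intro f hf hf'
    have d1 := dich f hf
    have d2 := dich _ hf'
    unfold Inn Out at *
    dsimp only at *
    tauto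
  have s2 : ∀ f ∈ bx x r, (f.1, f.2 + 1) ∈ bx x r → (Inn T f ↔ Inn T (f.1, f.2 + 1)) := by
    intro f hf hf'
    have d1 := dich f hf
    have d2 := dich _ hf'
    unfold Inn Out at *
    dsimp only at *
    tauto
  have key : ∀ f ∈ bx x r, (Inn T f ↔ Inn T x) := by
    intro f hf
    rw [mem_bx] at hf
    have hm : (0 : ℤ) ≤ ⌊r⌋ := (abs_nonneg _).trans hf.1
    have e1 := line_iff (P := fun k => Inn T (x.1 + k, f.2)) (m := ⌊r⌋) (by
      intro k hk hk'
      have := s1 (x.1 + k, f.2) (by rw [mem_bx]; exact ⟨by simpa using hk, hf.2⟩)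
        (by rw [mem_bx]; exact ⟨by simpa [add_assoc] using hk', hf.2⟩)
      dsimp only at this ⊢
      rw [this, add_assoc]) (f.1 - x.1) hf.1
    have e2 := line_iff (P := fun k => Inn T (x.1, x.2 + k)) (m := ⌊r⌋) (by
      intro k hk hk'
      have := s2 (x.1, x.2 + k) (by rw [mem_bx]; exact ⟨by simpa using hm, by simpa using hk⟩)
        (by rw [mem_bx]; exact ⟨by simpa using hm, by simpa [add_assoc] using hk'⟩)
      dsimp only at this ⊢
      rw [this, add_assoc]) (f.2 - x.2) hf.2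
    rw [add_sub_cancel, add_zero] at e1 e2
    exact e1.trans e2
  by_cases hx : Inn T x
  · exact Or.inl fun f hf => (key f hf).2 hx
  · exact Or.inr fun f hf => (dich f hf).resolve_left fun hi => hx ((key f hf).1 hi)

/-! ### the trichotomy -/

theorem fd_int (x y : ℤ × ℤ) : fd x y = max (x.1 - y.1).natAbs (x.2 - y.2).natAbs := rfl

theorem lt_fd_iff {x y : ℤ × ℤ} {R : ℕ} :
    R < fd x y ↔ (R : ℤ) < |x.1 - y.1| ∨ (R : ℤ) < |x.2 - y.2| := by
  rw [fd_int, lt_max_iff, Int.abs_eq_natAbs, Int.abs_eq_natAbs, Nat.cast_lt, Nat.cast_lt]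

theorem not_intV {x : Face} {v : ℤ × ℤ} {R : ℕ} (h : R < fd x v) : ¬ IntV x (R : ℝ) v := by
  rw [lt_fd_iff, lt_abs, lt_abs] at h
  unfold IntV
  rw [Int.floor_natCast]
  omega

theorem mem_bx_iff_fd {x f : Face} {R : ℕ} : f ∈ bx x (R : ℝ) ↔ fd x f ≤ R := by
  have h := @lt_fd_iff x f R
  rw [mem_bx_nat, abs_sub_comm f.1, abs_sub_comm f.2]
  constructor
  · rintro ⟨h1, h2⟩
    by_contra hc
    rcases h.1 (not_le.1 hc) with h3 | h3 <;> linarith
  · intro hc
    have h3 := mt h.2 (not_lt.2 hc)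
    rw [not_or, not_lt, not_lt] at h3
    exact h3

/-- the three classes of boxes without defect: plane, zero, weight one -/
def Cls (w : Tr1x40.Fld) (x : Face) (R : ℕ) : Prop :=
  (∃ s, PlaneOn w s x R) ∨ (∀ f ∈ bx x (R : ℝ), ∀ k, w f k = 0) ∨
    (∃ s, Gauge s ∧ ∀ f ∈ bx x (R : ℝ), ∀ k, w f k = s f * s (nb f k))

theorem Cls.mono {w : Tr1x40.Fld} {x : Face} {R R' : ℕ} (h : R' ≤ R) (H : Cls w x R) :
    Cls w x R' := by
  have h' : (R' : ℝ) ≤ R := by exact_mod_cast h
  rcases H with ⟨s, H⟩ | H | ⟨s, hs, H⟩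
  · exact Or.inl ⟨s, H.mono h'⟩
  · exact Or.inr (Or.inl fun f hf => H f (bx_mono x h' hf))
  · exact Or.inr (Or.inr ⟨s, hs, fun f hf => H f (bx_mono x h' hf)⟩)

section trich

variable {n : ℕ} {T : Set (ℤ × ℤ)} {b : Bool} {X : Fin n → ℤ × ℤ} {x : Face} {R : ℕ}

/-- **trichotomy**: a box without mixed face and without insertion -/
theorem trich (hB : ∀ f, Mix T f → R < fd x f) (hX : ∀ i, R < fd x (X i)) :
    Cls (wl (wX (wDom T b) X)) x R := by
  have h0 : ∀ f ∈ bx x (R : ℝ), ¬ Mix T f := fun f hf hm =>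
    absurd (hB f hm) (not_lt.2 (mem_bx_iff_fd.1 hf))
  rcases inn_or_out h0 with h | h
  · exact Or.inl (planeOn h fun i => not_intV (hX i))
  · cases b
    · exact Or.inr (Or.inl (zeroOn h))
    · exact Or.inr (Or.inr (oneOn h fun i => not_intV (hX i)))

/-- a face and its nearest defect (mixed face or insertion) -/
theorem trich_nearest (T : Set (ℤ × ℤ)) (b : Bool) (X : Fin n → ℤ × ℤ) (x : Face) (R0 : ℕ) :
    Cls (wl (wX (wDom T b) X)) x R0 ∨
    ∃ y, (Mix T y ∨ ∃ i, y = X i) ∧ fd y x ≤ R0 ∧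
      ∀ R, R < fd y x → Cls (wl (wX (wDom T b) X)) x R := by
  classical
  by_cases h : ∃ y, (Mix T y ∨ ∃ i, y = X i) ∧ fd y x ≤ R0
  · right
    obtain ⟨y', hy', hR⟩ := h
    have h' : ∃ d, ∃ y, (Mix T y ∨ ∃ i, y = X i) ∧ fd y x = d := ⟨_, y', hy', rfl⟩
    obtain ⟨y, hy, hd⟩ := Nat.find_spec h'
    have hmin : ∀ z, (Mix T z ∨ ∃ i, z = X i) → fd y x ≤ fd z x := fun z hz => by
      rw [hd]; exact Nat.find_min' h' ⟨z, hz, rfl⟩
    refine ⟨y, hy, (hmin y' hy').trans hR, fun R hRy => trich (fun f hf => ?_) fun i => ?_⟩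
    · rw [fd_comm]; exact hRy.trans_le (hmin f (Or.inl hf))
    · rw [fd_comm]; exact hRy.trans_le (hmin _ (Or.inr ⟨i, rfl⟩))
  · left
    push Not at h
    refine trich (fun f hf => ?_) fun i => ?_
    · rw [fd_comm]; exact h f (Or.inl hf)
    · rw [fd_comm]; exact h _ (Or.inr ⟨i, rfl⟩)

end trich

/-! ### the insertions of a domain -/

theorem norm_meshPoint_sub_le {a : ℝ} (ha : 0 ≤ a) {u v : ℤ × ℤ} {R : ℝ}
    (h1 : |(u.1 : ℝ) - v.1| ≤ R) (h2 : |(u.2 : ℝ) - v.2| ≤ R) :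
    ‖meshPoint a u - meshPoint a v‖ ≤ 2 * (a * R) := by
  refine (Complex.norm_le_abs_re_add_abs_im _).trans ?_
  have e1 : (meshPoint a u - meshPoint a v).re = a * ((u.1 : ℝ) - v.1) := by
    simp only [meshPoint, Complex.sub_re]; ring
  have e2 : (meshPoint a u - meshPoint a v).im = a * ((u.2 : ℝ) - v.2) := by
    simp only [meshPoint, Complex.sub_im]; ring
  rw [e1, e2, abs_mul, abs_mul, abs_of_nonneg ha]
  have := mul_le_mul_of_nonneg_left h1 ha
  have := mul_le_mul_of_nonneg_left h2 ha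
  linarith

theorem norm_meshIndex_sub_le {a : ℝ} (ha : 0 < a) (x : ℂ) :
    ‖meshPoint a (meshIndex a x) - x‖ ≤ 2 * a := by
  refine (Complex.norm_le_abs_re_add_abs_im _).trans ?_
  have key : ∀ u : ℝ, |a * (⌊u / a⌋ : ℝ) - u| ≤ a := by
    intro u
    have h1 := Int.floor_le (u / a)
    have h2 := Int.lt_floor_add_one (u / a)
    have h3 : a * (⌊u / a⌋ : ℝ) ≤ u := by
      calc a * (⌊u / a⌋ : ℝ) ≤ a * (u / a) := mul_le_mul_of_nonneg_left h1 ha.le
        _ = u := by field_simp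
    have h4 : u ≤ a * ((⌊u / a⌋ : ℝ) + 1) := by
      calc u = a * (u / a) := by field_simp
        _ ≤ _ := mul_le_mul_of_nonneg_left h2.le ha.le
    rw [abs_le]
    constructor <;> linarith
  have h1 := key x.re
  have h2 := key x.im
  simp only [meshPoint, meshIndex, Complex.sub_re, Complex.sub_im]
  linarith

/-- **insertions near distinct points of an open set**: inner boxes, other insertions outside -/
theorem branch_sep {D : Set ℂ} (hD : IsOpen D) {n : ℕ} {x : Fin n → ℂ} (hx : ∀ i, x i ∈ D)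
    (hinj : Function.Injective x) : ∃ δ > 0, ∀ a : ℝ, 0 < a → ∀ X : Fin n → ℤ × ℤ,
      (∀ i, ‖meshPoint a (X i) - x i‖ ≤ 2 * δ) → ∀ R : ℕ, 1 ≤ R → a * R ≤ δ → ∀ i,
        (∀ f ∈ bx (X i) (R : ℝ), Inn (domainSites D a) f) ∧ ∀ j ≠ i, R < fd (X i) (X j) := by
  have h1 : ∀ᶠ δ in nhdsWithin (0 : ℝ) (Set.Ioi 0), ∀ i, Metric.ball (x i) (7 * δ) ⊆ D := by
    rw [Filter.eventually_all]
    intro i
    obtain ⟨ρ, hρ, hb⟩ := Metric.isOpen_iff.1 hD _ (hx i)
    filter_upwards [Ioo_mem_nhdsGT (show (0 : ℝ) < ρ / 7 by positivity)] with δ hδ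
    exact (Metric.ball_subset_ball (by linarith [hδ.2])).trans hb
  have h2 : ∀ᶠ δ in nhdsWithin (0 : ℝ) (Set.Ioi 0), ∀ i j, i ≠ j → 6 * δ < ‖x i - x j‖ := by
    rw [Filter.eventually_all]
    intro i
    rw [Filter.eventually_all]
    intro j
    by_cases hij : i = j
    · filter_upwards with δ h
      exact absurd hij h
    · have h0 : 0 < ‖x i - x j‖ := norm_pos_iff.2 (sub_ne_zero.2 fun h => hij (hinj h))
      filter_upwards [Ioo_mem_nhdsGT (show (0 : ℝ) < ‖x i - x j‖ / 6 by positivity)] with δ hδ _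
      linarith [hδ.2]
  obtain ⟨δ, hb, hs, hδ⟩ := (h1.and (h2.and self_mem_nhdsWithin)).exists
  have hδ0 : (0 : ℝ) < δ := hδ
  refine ⟨δ, hδ0, fun a ha X hX R hR haR i => ?_⟩
  have hR1 : (1 : ℝ) ≤ R := by exact_mod_cast hR
  have haR1 : a ≤ δ := by nlinarith
  constructor
  · intro f hf
    rw [mem_bx_real] at hf
    have key : ∀ c : ℤ × ℤ, |(c.1 : ℝ) - f.1| ≤ 1 → |(c.2 : ℝ) - f.2| ≤ 1 →
        c ∈ domainSites D a := by
      intro c hc1 hc2
      have e1 : |(c.1 : ℝ) - (X i).1| ≤ R + 1 := by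
        have := abs_sub_le (c.1 : ℝ) f.1 (X i).1
        linarith [hf.1]
      have e2 : |(c.2 : ℝ) - (X i).2| ≤ R + 1 := by
        have := abs_sub_le (c.2 : ℝ) f.2 (X i).2
        linarith [hf.2]
      have e3 := norm_meshPoint_sub_le ha.le e1 e2
      apply hb i
      rw [Metric.mem_ball, dist_eq_norm]
      have e4 := norm_sub_le_norm_sub_add_norm_sub (meshPoint a c) (meshPoint a (X i)) (x i)
      have e5 := hX i
      nlinarith
    refine ⟨key _ (by simp) (by simp), key _ ?_ ?_, key _ ?_ ?_, key _ ?_ ?_⟩ <;> simp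
  · intro j hj
    by_contra hc
    have hc' := mem_bx_iff_fd.2 (not_lt.1 hc)
    rw [mem_bx_real] at hc'
    have e3 := norm_meshPoint_sub_le ha.le hc'.1 hc'.2
    have e4 : ‖x i - x j‖ ≤ ‖meshPoint a (X i) - x i‖ + ‖meshPoint a (X j) - x j‖ +
        ‖meshPoint a (X j) - meshPoint a (X i)‖ := by
      have : x i - x j = -(meshPoint a (X i) - x i) + (meshPoint a (X j) - x j) -
          (meshPoint a (X j) - meshPoint a (X i)) := by ring
      rw [this]
      refine (norm_sub_le _ _).trans ?_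
      gcongr
      refine (norm_add_le _ _).trans ?_
      rw [norm_neg]
    have e5 := hs i j hj.symm
    have e6 := hX i
    have e7 := hX j
    linarith

/-- **the insertions are branch vertices up to the radius `δ / a`** -/
theorem branch_dom' {D : Set ℂ} (hD : IsOpen D) {n : ℕ} {x : Fin n → ℂ} (hx : ∀ i, x i ∈ D)
    (hinj : Function.Injective x) : ∃ δ > 0, ∀ a : ℝ, 0 < a → ∀ X : Fin n → ℤ × ℤ,
      (∀ i, ‖meshPoint a (X i) - x i‖ ≤ 2 * δ) → ∀ R : ℕ, 1 ≤ R → a * R ≤ δ → ∀ i (b : Bool),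
        ∃ s, BranchOn (wl (wX (wDom (domainSites D a) b) X)) s (X i) (R : ℝ) := by
  obtain ⟨δ, hδ, H⟩ := branch_sep hD hx hinj
  refine ⟨δ, hδ, fun a ha X hX R hR haR i b => ?_⟩
  obtain ⟨h1, h2⟩ := H a ha X hX R hR haR i
  exact branchOn h1 fun j hj => not_intV (h2 j hj)

theorem branch_dom {D : Set ℂ} (hD : IsOpen D) {n : ℕ} {x : Fin n → ℂ} (hx : ∀ i, x i ∈ D)
    (hinj : Function.Injective x) : ∃ δ > 0, ∀ a : ℝ, 0 < a → ∀ R : ℕ, 1 ≤ R → a * R ≤ δ →
      ∀ i (b : Bool), ∃ s, BranchOn (wl (wX (wDom (domainSites D a) b)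
        (fun i => meshIndex a (x i)))) s (meshIndex a (x i)) (R : ℝ) := by
  obtain ⟨δ, hδ, H⟩ := branch_dom' hD hx hinj
  refine ⟨δ, hδ, fun a ha R hR haR i b => ?_⟩
  have hR1 : (1 : ℝ) ≤ R := by exact_mod_cast hR
  have haR1 : a ≤ δ := by nlinarith
  exact H a ha (fun i => meshIndex a (x i))
    (fun i => (norm_meshIndex_sub_le ha (x i)).trans (by linarith)) R hR haR i b

end Crest.Agent.R165.RFlatx65
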