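import Crest.Agent.R165.RegI_485
import Crest.Agent.R165.RegG_893
import Crest.Agent.R165.BridgeReg_386

/-!
# Row 165 (S0250), block G2: free boundary and exterior classes on the objects of block G
(helper485)

* `reg1_of`, `reg2_of` : from the statements on `ℤ × ℤ` (`RegI_485`) to 893's `Reg1`, `Reg2`, any
  coordinate ring `G` in which the box is embedded
* `rd_freeFlat` : `RD` at a centre with `FreeFlat` at all radii; `rd_plusFlat`, `rx_branchOn`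
* `rb_zero`, `rb_one` : `RB` in a ball of zero background / weight-one background
-/

set_option autoImplicit false
set_option linter.unusedSectionVars false

noncomputable section

open Crest.Agent.R165.Gr0x606 Crest.Agent.R165.Latx683 Crest.Agent.R165.GDefx387
  Crest.Agent.R165.NWidthx386 Crest.Agent.R165.RankOnex386 Crest.Agent.R165.Bridgex386
  Crest.Agent.R165.RIfx891 Crest.Agent.R165.Campx891 Crest.Agent.R165.BridgeRegx386
  Crest.Agent.R165.RegGx893 Crest.Agent.R165.FreeRegx485 Crest.Agent.R165.RegIx485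
  Crest.Agent.R165.Wtx898

namespace Crest.Agent.R165.RegFx485

section transfer

variable {G : Type} [CommRing G] [CN G] [CNL G]

theorem u3_lift {w : BW G} {X : Face} {R : ℕ} (hR : 1 ≤ R) (hI : Inj G R) {f : HE G → ℝ}
    (h : RegGx893.U3 w (pf X) R f) : RegIx485.U3 (wl w) X R (lift f) := ub_lift hR hI h

theorem reg1_of {w : BW G} {X : Face} {r R : ℕ} {c : ℝ} (hR : 1 ≤ R) (hI : Inj G R)
    (H : Reg1T (wl w) X r R c) : Reg1 w (pf X) r R c := fun f hf =>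
  (l2_le_NB X r f).trans (H _ (u3_lift hR hI hf))

theorem reg2_of {w : BW G} {X : Face} {r R : ℕ} {c : ℝ} {u : FR} (hR : 1 ≤ R) (hI : Inj G R)
    (hr : r ≤ R) (H : Reg2T (wl w) X r R u c) : Reg2 w (pf X) r R (desc X u) c := fun f hf => by
  obtain ⟨κ, hκ⟩ := H _ (u3_lift hR hI hf)
  refine ⟨κ, (l2_le_NB X r _).trans ?_⟩
  rw [NB_lift_sub_desc X (hI.mono hr)]
  exact hκ

/-- zero background: exterior of a plus domain -/
theorem rb_zero {w : BW G} {X : Face} {R0 : ℕ} (hI : Inj G R0)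
    (hw : ∀ f ∈ bx X (R0 : ℝ), ∀ h, wl w f h = 0) (Λ : ℕ) : RB w (pf X) 3 Λ 1 R0 := by
  intro r R h1 h2 _ h4
  have hR : (R : ℝ) ≤ R0 := by exact_mod_cast h4
  exact reg1_of (h1.trans h2) (hI.mono h4)
    (rb_ext_plus (by exact_mod_cast h1) (by exact_mod_cast h2)
      fun f hf h => hw f (bx_mono X hR hf) h)

/-- weight-one background: exterior of a free domain -/
theorem rb_one {w : BW G} {s : Face → ℝ} {X : Face} {R0 : ℕ} (hI : Inj G R0) (hs : Gauge s)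
    (hw : ∀ f ∈ bx X (R0 : ℝ), ∀ h, wl w f h = s f * s (Tr1x40.nb f h)) (Λ : ℕ) :
    RB w (pf X) 24 Λ 1 R0 := by
  intro r R h1 h2 _ h4
  have hR : (R : ℝ) ≤ R0 := by exact_mod_cast h4
  have hr0 : (1 : ℝ) ≤ r := by exact_mod_cast h1
  rcases Nat.lt_or_ge R (r + 2) with h | h
  · intro f hf
    have hf1 : L2on (ball (pf X) r) f ≤ 1 :=
      (L2on_mono (ball_mono _ h2) (ball_finite _ _) f).trans hf.1
    have hRp : (0 : ℝ) < R := by exact_mod_cast lt_of_lt_of_le h1 h2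
    have hRr : (R : ℝ) ≤ 3 * r := by
      have : R ≤ 3 * r := by omega
      exact_mod_cast this
    have : (1 : ℝ) ≤ 24 * (r / R) := by
      rw [← mul_div_assoc, le_div_iff₀ hRp]
      nlinarith
    linarith
  · exact reg1_of (h1.trans h2) (hI.mono h4)
      (rb_ext_free hr0 (by exact_mod_cast h) (sym_wl w) hs
        fun f hf h => hw f (bx_mono X hR hf) h)

end transfer

/-- the conjugate of a complex number is a square -/
theorem exists_sq (n : ℂ) : ∃ c : ℂ, c ^ 2 = (starRingEnd ℂ) n := by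
  obtain ⟨c, hc⟩ := IsAlgClosed.exists_pow_nat_eq ((starRingEnd ℂ) n) (n := 2) (by norm_num)
  exact ⟨c, hc⟩

theorem rpow_three_halves {t : ℝ} (ht : 0 ≤ t) : t ^ (3 / 2 : ℝ) = t * Real.sqrt t := by
  rcases ht.eq_or_lt with h | h
  · rw [← h, Real.zero_rpow (by norm_num), zero_mul]
  · rw [show (3 / 2 : ℝ) = 1 + 1 / 2 by norm_num, Real.rpow_add h, Real.rpow_one,
      Real.sqrt_eq_rpow]

/-- constant of the free boundary -/
def CF (C Cs : ℝ) : ℝ := 3 * K2 (16 * C + 1) (16 * Cs)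

/-- constant of the plus boundary and of the branch vertex -/
def CP (C Cs : ℝ) : ℝ := 3 * K2 C Cs

/-- **RD at a flat free boundary** -/
theorem rd_freeFlat {C Cs : ℝ} (hC : 0 ≤ C) (hCs : 0 ≤ Cs) (hG : GapU Cs) (hE : EXb C) (Λ : ℕ) :
    ∃ (r0 : ℕ) (ε0 : ℝ), 1 ≤ r0 ∧ 0 < ε0 ∧ ∀ (G : Type) [CommRing G] [CN G] [CNL G] (w : BW G)
      (X : Face) (R0 : ℕ), Inj G R0 →
      (∀ R : ℕ, r0 ≤ R → R ≤ R0 → ∃ (s : Face → ℝ) (n : ℂ), ‖n‖ = 1 ∧
        FreeFlat (wl w) s X R n ε0) →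
      RD w (pf X) (CF C Cs) Λ r0 R0 := by
  obtain ⟨r1, ε1, hr1, hε1, H⟩ := rd_free hC hCs hG hE Λ
  refine ⟨⌈r1⌉₊, ε1, Nat.one_le_iff_ne_zero.2 (by
    intro h; rw [Nat.ceil_eq_zero] at h; linarith), hε1, ?_⟩
  intro G _ _ _ w X R0 hI hF r R h1 h2 h3 h4
  obtain ⟨s, n, hn, hFF⟩ := hF R (h1.trans h2) h4
  obtain ⟨c, hc⟩ := exists_sq n
  have h1' : r1 ≤ r := (Nat.le_ceil r1).trans (by exact_mod_cast h1)
  have h2' : (r : ℝ) ≤ R := by exact_mod_cast h2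
  have h3' : (R : ℝ) ≤ Λ * r := by exact_mod_cast h3
  obtain ⟨a, b⟩ := H (wl w) s X r R n c h1' h2' h3' hn hc hFF
  have hR1 : 1 ≤ R := by
    have : (1 : ℝ) ≤ R := hr1.trans (h1'.trans h2')
    exact_mod_cast this
  have hK : 0 ≤ K2 (16 * C + 1) (16 * Cs) := RegIx485.K2_nonneg (by positivity) (by positivity)
  have ht : (0 : ℝ) ≤ (r : ℝ) / R := by positivity
  refine ⟨(reg1_of hR1 (hI.mono h4) a).mono ?_, desc X (modeF (wl w) s X n c),
    (reg2_of hR1 (hI.mono h4) h2 b).mono ?_⟩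
  · unfold CF; nlinarith
  · rw [rpow_three_halves ht]; unfold CF; exact le_rfl

/-- **RD at a flat plus boundary** -/
theorem rd_plusFlat {C Cs : ℝ} (hC : 0 ≤ C) (hCs : 0 ≤ Cs) (hG : GapU Cs) (hE : EXb C) (Λ : ℕ) :
    ∃ (r0 : ℕ) (ε0 : ℝ), 1 ≤ r0 ∧ 0 < ε0 ∧ ∀ (G : Type) [CommRing G] [CN G] [CNL G] (w : BW G)
      (X : Face) (R0 : ℕ), Inj G R0 →
      (∀ R : ℕ, r0 ≤ R → R ≤ R0 → ∃ (s : Face → ℝ) (n : ℂ), ‖n‖ = 1 ∧
        PlusFlat (wl w) s X R n ε0) →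
      RD w (pf X) (CP C Cs) Λ r0 R0 := by
  obtain ⟨r1, ε1, hr1, hε1, H⟩ := rd_plus hC hCs hG hE Λ
  refine ⟨⌈r1⌉₊, ε1, Nat.one_le_iff_ne_zero.2 (by
    intro h; rw [Nat.ceil_eq_zero] at h; linarith), hε1, ?_⟩
  intro G _ _ _ w X R0 hI hF r R h1 h2 h3 h4
  obtain ⟨s, n, hn, hFF⟩ := hF R (h1.trans h2) h4
  obtain ⟨c, hc⟩ := exists_sq n
  have h1' : r1 ≤ r := (Nat.le_ceil r1).trans (by exact_mod_cast h1)
  have h2' : (r : ℝ) ≤ R := by exact_mod_cast h2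
  have h3' : (R : ℝ) ≤ Λ * r := by exact_mod_cast h3
  obtain ⟨a, b⟩ := H (wl w) s X r R n c h1' h2' h3' hn hc hFF
  have hR1 : 1 ≤ R := by
    have : (1 : ℝ) ≤ R := hr1.trans (h1'.trans h2')
    exact_mod_cast this
  have hK : 0 ≤ K2 C Cs := RegIx485.K2_nonneg hC hCs
  have ht : (0 : ℝ) ≤ (r : ℝ) / R := by positivity
  refine ⟨(reg1_of hR1 (hI.mono h4) a).mono ?_, desc X (modeB s X n c),
    (reg2_of hR1 (hI.mono h4) h2 b).mono ?_⟩
  · unfold CP; nlinarith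
  · rw [rpow_three_halves ht]; unfold CP; exact le_rfl

/-- **RX at a branch vertex** -/
theorem rx_branchOn {C Cs : ℝ} (hC : 0 ≤ C) (hCs : 0 ≤ Cs) (hG : GapU Cs) (hE : EXbr C) (Λ : ℕ) :
    ∃ r0 : ℕ, 1 ≤ r0 ∧ ∀ (G : Type) [CommRing G] [CN G] [CNL G] (w : BW G)
      (X : Face) (R0 : ℕ), Inj G R0 →
      (∀ R : ℕ, r0 ≤ R → R ≤ R0 → ∃ s : Face → ℝ, BranchOn (wl w) s X R) →
      RX w (pf X) (CP C Cs) Λ r0 R0 := by
  obtain ⟨r1, hr1, H⟩ := rx_branch hC hCs hG hE Λ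
  refine ⟨⌈r1⌉₊, Nat.one_le_iff_ne_zero.2 (by
    intro h; rw [Nat.ceil_eq_zero] at h; linarith), ?_⟩
  intro G _ _ _ w X R0 hI hF r R h1 h2 h3 h4
  obtain ⟨s, hFF⟩ := hF R (h1.trans h2) h4
  have h1' : r1 ≤ r := (Nat.le_ceil r1).trans (by exact_mod_cast h1)
  have h2' : (r : ℝ) ≤ R := by exact_mod_cast h2
  have h3' : (R : ℝ) ≤ Λ * r := by exact_mod_cast h3
  obtain ⟨a, b⟩ := H (wl w) s X r R h1' h2' h3' hFF
  have hR1 : 1 ≤ R := by
    have : (1 : ℝ) ≤ R := hr1.trans (h1'.trans h2')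
    exact_mod_cast this
  have hK : 0 ≤ K2 C Cs := RegIx485.K2_nonneg hC hCs
  have ht : (0 : ℝ) ≤ (r : ℝ) / R := by positivity
  refine ⟨(reg1_of hR1 (hI.mono h4) a).mono ?_, desc X (modeBr s X),
    (reg2_of hR1 (hI.mono h4) h2 b).mono ?_⟩
  · rw [← Real.sqrt_eq_rpow]
    have : 0 ≤ Real.sqrt ((r : ℝ) / R) := Real.sqrt_nonneg _
    unfold CP; nlinarith
  · unfold CP; nlinarith

end Crest.Agent.R165.RegFx485
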