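import Crest.Agent.R165.Flat_838
import Crest.Agent.R165.RegF_485
import Crest.Agent.R165.BridgeRB2_386
import Crest.Agent.R165.RFlat_65

/-!
# Row 165 (S0250): regularity classes of the domain backgrounds (helper838)

* `flat_unif`: `CD.flat` with the threshold `r0` independent of the domain, any lattice
  approximations `X i` of the points `x i`
* `rd_dom`: boundary faces are of class `RD`, both boundary conditions
* `geo_dom`: all faces of a domain: `RD` at the mixed faces, `RX` at the insertions, `RB` at every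
  face up to the scale `R0` or to the distance to the nearest defect
-/

set_option autoImplicit false

noncomputable section

open Complex Metric
open Crest.ProbabilityR.IsingModel
open Crest.Agent.R165.Geo
open Crest.Agent.R165.Latx683 (BW wDom wX ray yE yN)
open Crest.Agent.R165.RIfx891 (bx mem_bx_real dotn PlusFlat PlaneOn BranchOn Gauge IsPlusOn GapU EXb
  EXbr)
open Crest.Agent.R165.Tr1x40 (nb op xc)
open Crest.Agent.R165.Bridgex386 (wl sym_wl pf inj_int)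
open Crest.Agent.R165.FreeRegx485 (FreeFlat IsFreeOn)
open Crest.Agent.R165.RegGx893 (RB RD RX)
open Crest.Agent.R165.RegFx485 (CF CP rd_plusFlat rd_freeFlat rx_branchOn rb_zero rb_one)
open Crest.Agent.R165.Flatx838

namespace Crest.Agent.R165.GeoRDx838

section Dom

variable {D : Set ℂ} {r M : ℝ}

open Crest.Agent.R165.GeoGx65 in
/-- the insertions are outside the boxes near the frontier, any lattice approximations -/
theorem farX_app {a η B R δ : ℝ} (ha : 0 < a) (hδ : 5 * δ < η) (hR : B + 4 ≤ R)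
    (haR : a * R ≤ δ) {p ξ : ℂ} (hp : η ≤ ‖p - ξ‖) {y : Face} (hy : ‖meshPoint a y - p‖ ≤ B * a)
    (hR0 : 0 ≤ R) {X : ℤ × ℤ} (h2 : ‖meshPoint a X - ξ‖ ≤ 2 * δ) : FarX y R X := by
  by_contra hc
  unfold FarX at hc
  push Not at hc
  have h1 : ‖pos (X - y)‖ ≤ 3 / 2 * (R + 1) := by
    apply norm_le_of_sq (by linarith)
    rw [pos_re, pos_im]
    have b1 : (((X - y).1 : ℤ) : ℝ) ^ 2 ≤ (R + 1) ^ 2 := by
      rw [← sq_abs, Prod.fst_sub]; push_cast
      exact pow_le_pow_left₀ (abs_nonneg _) hc.1 2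
    have b2 : (((X - y).2 : ℤ) : ℝ) ^ 2 ≤ (R + 1) ^ 2 := by
      rw [← sq_abs, Prod.snd_sub]; push_cast
      exact pow_le_pow_left₀ (abs_nonneg _) hc.2 2
    nlinarith
  have h3 : ‖meshPoint a X - meshPoint a y‖ ≤ a * (3 / 2 * (R + 1)) := by
    rw [norm_meshPoint_sub ha]
    exact mul_le_mul_of_nonneg_left h1 ha.le
  have h4 : ‖p - ξ‖ ≤ 2 * δ + a * (3 / 2 * (R + 1)) + B * a := by
    have e : p - ξ = (meshPoint a X - ξ) + (-(meshPoint a X - meshPoint a y)) +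
        (-(meshPoint a y - p)) := by ring
    rw [e]
    refine (norm_add_le _ _).trans (add_le_add ((norm_add_le _ _).trans (add_le_add h2 ?_)) ?_)
    · rwa [norm_neg]
    · rwa [norm_neg]
  have h5 : a * (3 / 2 * (R + 1)) + B * a ≤ 3 * (a * R) := by
    have : a * (B + 4) ≤ a * R := mul_le_mul_of_nonneg_left hR ha.le
    nlinarith [mul_nonneg ha.le hR0]
  linarith

/-- **flat strips of the domain backgrounds**, threshold independent of the domain -/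
theorem flat_unif (h : CD D r M) {m : ℕ} {x : Fin m → ℂ} (hx : ∀ i, x i ∈ D) {ε B : ℝ} (hε : 0 < ε)
    (hB : 0 ≤ B) :
    ∃ δ > 0, ∀ p ∈ frontier D, ∃ n : ℂ, ‖n‖ = 1 ∧ ∀ a : ℝ, 0 < a → ∀ X : Fin m → ℤ × ℤ,
      (∀ i, ‖meshPoint a (X i) - x i‖ ≤ 2 * δ) →
      ∀ y : Face, ‖meshPoint a y - p‖ ≤ B * a → ∀ R : ℝ, 4 * B + 20 ≤ R → 4 * (B + 2) ≤ ε * R →
      a * R ≤ δ →
      (∀ i, FarX y R (X i)) ∧
      PlusFlat (wl (wX (wDom (domainSites D a) false) X)) (rg X y) y R n ε ∧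
      FreeFlat (wl (wX (wDom (domainSites D a) true) X)) (rg X y) y R n ε := by
  obtain ⟨η, hη, hfar⟩ := exists_far h.isOpen hx
  have hr := h.r_pos
  have hM := h.M_nonneg
  set ρ : ℝ := min (r / 2) (1 / (2 * (M + 1))) with hρ
  have hρ0 : 0 < ρ := lt_min (by positivity) (by positivity)
  have hρr : 2 * ρ ≤ r := by have := min_le_left (r / 2) (1 / (2 * (M + 1))); linarith
  have hρM : 2 * M * ρ ≤ 1 := by
    have h4 : ρ ≤ 1 / (2 * (M + 1)) := min_le_right _ _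
    rw [le_div_iff₀ (by positivity)] at h4
    nlinarith
  refine ⟨min (η / 6) (ε * ρ / 8), lt_min (by positivity) (by positivity), fun p hp => ?_⟩
  obtain ⟨n, hn, H⟩ := CD.siteFlat h hp
  refine ⟨n, hn, fun a ha X hXx y hy R hR1 hR2 haR => ?_⟩
  have hR3 : 8 * (a * R) ≤ ε * ρ := by
    have := haR.trans (min_le_right _ _)
    linarith
  have hF := H a B ρ y ha hρ0 hρr hρM hB hy ε R hR1 hR2 hR3
  have hX : ∀ i, FarX y R (X i) := fun i =>
    farX_app ha (δ := η / 6) (by linarith) (by linarith) (haR.trans (min_le_left _ _))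
      (hfar i p hp) hy (by linarith)
      ((hXx i).trans (mul_le_mul_of_nonneg_left (min_le_left _ _) (by norm_num)))
  exact ⟨hX, plusFlat_of (by linarith) hX hF, freeFlat_of (by linarith) hX hF⟩

end Dom

theorem pf_int (y : Face) : (pf y : ℤ × ℤ) = y := by
  ext <;> simp [pf]

open Crest.Agent.R165.Bridgex386 Crest.Agent.R165.RegFx485 Crest.Agent.R165.RegIx485
  Crest.Agent.R165.RegGx893 Crest.Agent.R165.RIfx891 Crest.Agent.R165.GDefx387 in
/-- **RD at a flat plus boundary**, any larger threshold (`rd_plusFlat` of helper485) -/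
theorem rd_plus_thr {C Cs : ℝ} (hC : 0 ≤ C) (hCs : 0 ≤ Cs) (hG : GapU Cs) (hE : EXb C) (Λ : ℕ) :
    ∃ (r0 : ℕ) (ε0 : ℝ), 1 ≤ r0 ∧ 0 < ε0 ∧ ∀ (r1 : ℕ), r0 ≤ r1 → ∀ (G : Type) [CommRing G] [CN G]
      [CNL G] (w : BW G) (X : Flatx838.Face) (R0 : ℕ), Inj G R0 →
      (∀ R : ℕ, r1 ≤ R → R ≤ R0 → ∃ (s : Flatx838.Face → ℝ) (n : ℂ), ‖n‖ = 1 ∧
        PlusFlat (wl w) s X R n ε0) →
      RD w (pf X) (CP C Cs) Λ r1 R0 := by
  obtain ⟨r1, ε1, hr1, hε1, H⟩ := rd_plus hC hCs hG hE Λ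
  refine ⟨⌈r1⌉₊, ε1, Nat.one_le_iff_ne_zero.2 (by
    intro h; rw [Nat.ceil_eq_zero] at h; linarith), hε1, ?_⟩
  intro r2 hr2 G _ _ _ w X R0 hI hF r R h1 h2 h3 h4
  obtain ⟨s, n, hn, hFF⟩ := hF R (h1.trans h2) h4
  obtain ⟨c, hc⟩ := exists_sq n
  have h1' : r1 ≤ r := (Nat.le_ceil r1).trans (by exact_mod_cast hr2.trans h1)
  have h2' : (r : ℝ) ≤ R := by exact_mod_cast h2
  have h3' : (R : ℝ) ≤ Λ * r := by exact_mod_cast h3
  obtain ⟨a, b⟩ := H (wl w) s X r R n c h1' h2' h3' hn hc hFF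
  have hR1 : 1 ≤ R := by
    have : (1 : ℝ) ≤ R := hr1.trans (h1'.trans h2')
    exact_mod_cast this
  have hK : 0 ≤ Crest.Agent.R165.Campx891.K2 C Cs := RegIx485.K2_nonneg hC hCs
  have ht : (0 : ℝ) ≤ (r : ℝ) / R := by positivity
  refine ⟨(reg1_of hR1 (hI.mono h4) a).mono ?_, desc X (modeB s X n c),
    (reg2_of hR1 (hI.mono h4) h2 b).mono ?_⟩
  · unfold CP; nlinarith
  · rw [rpow_three_halves ht]; unfold CP; exact le_rfl

open Crest.Agent.R165.Bridgex386 Crest.Agent.R165.RegFx485 Crest.Agent.R165.RegIx485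
  Crest.Agent.R165.RegGx893 Crest.Agent.R165.RIfx891 Crest.Agent.R165.GDefx387
  Crest.Agent.R165.FreeRegx485 in
/-- **RD at a flat free boundary**, any larger threshold (`rd_freeFlat` of helper485) -/
theorem rd_free_thr {C Cs : ℝ} (hC : 0 ≤ C) (hCs : 0 ≤ Cs) (hG : GapU Cs) (hE : EXb C) (Λ : ℕ) :
    ∃ (r0 : ℕ) (ε0 : ℝ), 1 ≤ r0 ∧ 0 < ε0 ∧ ∀ (r1 : ℕ), r0 ≤ r1 → ∀ (G : Type) [CommRing G] [CN G]
      [CNL G] (w : BW G) (X : Flatx838.Face) (R0 : ℕ), Inj G R0 →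
      (∀ R : ℕ, r1 ≤ R → R ≤ R0 → ∃ (s : Flatx838.Face → ℝ) (n : ℂ), ‖n‖ = 1 ∧
        FreeFlat (wl w) s X R n ε0) →
      RD w (pf X) (CF C Cs) Λ r1 R0 := by
  obtain ⟨r1, ε1, hr1, hε1, H⟩ := rd_free hC hCs hG hE Λ
  refine ⟨⌈r1⌉₊, ε1, Nat.one_le_iff_ne_zero.2 (by
    intro h; rw [Nat.ceil_eq_zero] at h; linarith), hε1, ?_⟩
  intro r2 hr2 G _ _ _ w X R0 hI hF r R h1 h2 h3 h4
  obtain ⟨s, n, hn, hFF⟩ := hF R (h1.trans h2) h4
  obtain ⟨c, hc⟩ := exists_sq n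
  have h1' : r1 ≤ r := (Nat.le_ceil r1).trans (by exact_mod_cast hr2.trans h1)
  have h2' : (r : ℝ) ≤ R := by exact_mod_cast h2
  have h3' : (R : ℝ) ≤ Λ * r := by exact_mod_cast h3
  obtain ⟨a, b⟩ := H (wl w) s X r R n c h1' h2' h3' hn hc hFF
  have hR1 : 1 ≤ R := by
    have : (1 : ℝ) ≤ R := hr1.trans (h1'.trans h2')
    exact_mod_cast this
  have hK : 0 ≤ Crest.Agent.R165.Campx891.K2 (16 * C + 1) (16 * Cs) :=
    RegIx485.K2_nonneg (by positivity) (by positivity)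
  have ht : (0 : ℝ) ≤ (r : ℝ) / R := by positivity
  refine ⟨(reg1_of hR1 (hI.mono h4) a).mono ?_, desc X (modeF (wl w) s X n c),
    (reg2_of hR1 (hI.mono h4) h2 b).mono ?_⟩
  · unfold CF; nlinarith
  · rw [rpow_three_halves ht]; unfold CF; exact le_rfl

/-- the constant of the boundary class -/
def KD (C Cs : ℝ) : ℝ := max (CP C Cs) (CF C Cs)

/-- **boundary faces are of class `RD`**: the threshold depends on `Λ` only -/
theorem rd_dom {C Cs : ℝ} (hC : 0 ≤ C) (hCs : 0 ≤ Cs) (hG : GapU Cs) (hE : EXb C) (Λ : ℕ) :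
    ∃ r0 : ℕ, 1 ≤ r0 ∧ ∀ (D : Set ℂ) (r M : ℝ), CD D r M → ∀ (m : ℕ) (x : Fin m → ℂ),
      (∀ i, x i ∈ D) → ∃ δ > 0, ∀ a : ℝ, 0 < a → ∀ X : Fin m → ℤ × ℤ,
      (∀ i, ‖meshPoint a (X i) - x i‖ ≤ 2 * δ) → ∀ (b : Bool) (y : Face),
      (∃ p ∈ frontier D, ‖meshPoint a y - p‖ ≤ 3 / 2 * a) → ∀ R0 : ℕ, a * R0 ≤ δ →
      RD (wX (wDom (domainSites D a) b) X) y (KD C Cs) Λ r0 R0 := by
  obtain ⟨rp, εp, hrp, hεp, Hp⟩ := rd_plus_thr hC hCs hG hE Λ
  obtain ⟨rf, εf, hrf, hεf, Hf⟩ := rd_free_thr hC hCs hG hE Λ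
  set ε := min εp εf with hεdef
  have hε : 0 < ε := lt_min hεp hεf
  set r1 : ℕ := max 26 ⌈14 / ε⌉₊ with hr1
  refine ⟨max r1 (max rp rf), ?_, ?_⟩
  · exact le_max_of_le_right (le_max_of_le_left hrp)
  intro D r M h m x hx
  obtain ⟨δ, hδ, H⟩ := flat_unif h hx hε (B := 3 / 2) (by norm_num)
  refine ⟨δ, hδ, fun a ha X hX b y hy R0 hR0 => ?_⟩
  obtain ⟨p, hp, hyp⟩ := hy
  obtain ⟨n, hn, Hn⟩ := H p hp
  have key : ∀ R : ℕ, max r1 (max rp rf) ≤ R → R ≤ R0 →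
      PlusFlat (wl (wX (wDom (domainSites D a) false) X)) (rg X y) y R n ε ∧
      FreeFlat (wl (wX (wDom (domainSites D a) true) X)) (rg X y) y R n ε :=
    fun R h1 h2 => (Hn a ha X hX y hyp R
    (by
      have : (26 : ℝ) ≤ R := by exact_mod_cast (le_max_left _ _).trans ((le_max_left _ _).trans h1)
      linarith)
    (by
      have h3 : ((⌈14 / ε⌉₊ : ℕ) : ℝ) ≤ R := by
        exact_mod_cast (le_max_right _ _).trans ((le_max_left _ _).trans h1)
      have h4 : 14 / ε ≤ R := (Nat.le_ceil _).trans h3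
      rw [div_le_iff₀ hε] at h4
      linarith)
    ((mul_le_mul_of_nonneg_left (by exact_mod_cast h2) ha.le).trans hR0)).2
  cases b
  · have h6 := Hp (max r1 (max rp rf)) (le_max_of_le_right (le_max_left _ _)) ℤ
      (wX (wDom (domainSites D a) false) X) y R0 (inj_int R0) (by
        intro R h1 h2
        exact ⟨_, n, hn, (key R h1 h2).1.mono le_rfl
          (mul_le_mul_of_nonneg_right (min_le_left _ _) (Nat.cast_nonneg R))⟩)
    rw [pf_int] at h6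
    exact h6.mono (le_max_left _ _) le_rfl le_rfl le_rfl
  · have h6 := Hf (max r1 (max rp rf)) (le_max_of_le_right (le_max_right _ _)) ℤ
      (wX (wDom (domainSites D a) true) X) y R0 (inj_int R0) (by
        intro R h1 h2
        exact ⟨_, n, hn, (key R h1 h2).2.mono le_rfl
          (mul_le_mul_of_nonneg_right (min_le_right _ _) (Nat.cast_nonneg R))⟩)
    rw [pf_int] at h6
    exact h6.mono (le_max_right _ _) le_rfl le_rfl le_rfl

/-! ### mixed faces -/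

open Crest.Agent.R165.RFlatx65

/-- mixed faces are near the frontier -/
theorem near_of_mix {D : Set ℂ} {r M : ℝ} (h : CD D r M) {a : ℝ} (ha : 0 < a) {y : Flatx838.Face}
    (hy : Mix (domainSites D a) y) : ∃ p ∈ frontier D, ‖meshPoint a y - p‖ ≤ 3 / 2 * a := by
  have hc : ∀ i j : ℤ, (i = 0 ∨ i = 1) → (j = 0 ∨ j = 1) →
      ‖pos ((y.1 + i, y.2 + j) - y : ℤ × ℤ)‖ ≤ 3 / 2 := by
    intro i j hi hj
    apply norm_le_of_sq (by norm_num)
    have e1 : ((y.1 + i, y.2 + j) - y : ℤ × ℤ).1 = i := by simp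
    have e2 : ((y.1 + i, y.2 + j) - y : ℤ × ℤ).2 = j := by simp
    rw [pos_re, pos_im, e1, e2]
    rcases hi with rfl | rfl <;> rcases hj with rfl | rfl <;> norm_num
  have h00 : ‖pos (y - y : ℤ × ℤ)‖ ≤ 3 / 2 := by simpa using hc 0 0 (Or.inl rfl) (Or.inl rfl)
  have h10 : ‖pos ((y.1 + 1, y.2) - y : ℤ × ℤ)‖ ≤ 3 / 2 := by
    simpa using hc 1 0 (Or.inr rfl) (Or.inl rfl)
  have h01 : ‖pos ((y.1, y.2 + 1) - y : ℤ × ℤ)‖ ≤ 3 / 2 := by
    simpa using hc 0 1 (Or.inl rfl) (Or.inr rfl)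
  have h11 : ‖pos ((y.1 + 1, y.2 + 1) - y : ℤ × ℤ)‖ ≤ 3 / 2 := hc 1 1 (Or.inr rfl) (Or.inr rfl)
  have hin : ∃ z : ℤ × ℤ, ‖pos (z - y)‖ ≤ 3 / 2 ∧ z ∈ domainSites D a := by
    have h2 := hy.2
    unfold Out at h2
    by_contra hc'
    push Not at hc'
    exact h2 ⟨hc' _ h00, hc' _ h10, hc' _ h01, hc' _ h11⟩
  have hout : ∃ z : ℤ × ℤ, ‖pos (z - y)‖ ≤ 3 / 2 ∧ z ∉ domainSites D a := by
    have h2 := hy.1
    unfold Inn at h2
    by_contra hc'
    push Not at hc'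
    exact h2 ⟨hc' _ h00, hc' _ h10, hc' _ h01, hc' _ h11⟩
  obtain ⟨z, hz, hz'⟩ := hin
  obtain ⟨u, hu, hu'⟩ := hout
  exact CD.near_of_mixed h ha hz hu hz' hu'

/-- class `RB` in a box without defect -/
theorem rb_of_cls {w : BW ℤ} {f : Flatx838.Face} {R : ℕ} (h : Cls (wl w) f R) (Λ : ℕ) :
    RB w f (max BridgeRBx386.CRB 24) Λ 1 R := by
  rcases h with ⟨s, hs⟩ | h0 | ⟨s, hs, h1⟩
  · have := BridgeRBx386.rb_plane (inj_int R) hs Λ
    rw [pf_int] at this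
    exact this.mono (le_max_left _ _) le_rfl le_rfl le_rfl
  · have := rb_zero (inj_int R) h0 Λ
    rw [pf_int] at this
    exact this.mono (le_trans (by norm_num) (le_max_right _ _)) le_rfl le_rfl le_rfl
  · have := rb_one (inj_int R) hs h1 Λ
    rw [pf_int] at this
    exact this.mono (le_max_right _ _) le_rfl le_rfl le_rfl

/-- the constant of all classes -/
def KG (C C' Cs : ℝ) : ℝ := max (KD C Cs) (max (CP C' Cs) (max BridgeRBx386.CRB 24))

theorem one_le_KG (C C' Cs : ℝ) : 1 ≤ KG C C' Cs :=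
  le_trans (by norm_num) ((le_max_right _ _).trans ((le_max_right _ _).trans (le_max_right _ _)))

/-- **the classes of the faces of a domain with insertions**.  The constant `KG` is absolute, the
threshold `r0` depends on `Λ` only, `δ` on the domain and the points. -/
theorem geo_dom {C C' Cs : ℝ} (hC : 0 ≤ C) (hC' : 0 ≤ C') (hCs : 0 ≤ Cs) (hG : GapU Cs)
    (hE : EXb C) (hE' : EXbr C') (Λ : ℕ) :
    ∃ r0 : ℕ, 1 ≤ r0 ∧ ∀ (D : Set ℂ) (r M : ℝ), CD D r M → ∀ (m : ℕ) (x : Fin m → ℂ),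
      (∀ i, x i ∈ D) → Function.Injective x → ∃ δ > 0, ∀ a : ℝ, 0 < a → ∀ X : Fin m → ℤ × ℤ,
      (∀ i, ‖meshPoint a (X i) - x i‖ ≤ 2 * δ) → ∀ (b : Bool) (R0 : ℕ), a * R0 ≤ δ →
      (∀ y, Mix (domainSites D a) y →
        RD (wX (wDom (domainSites D a) b) X) y (KG C C' Cs) Λ r0 R0) ∧
      (∀ i, RX (wX (wDom (domainSites D a) b) X) (X i) (KG C C' Cs) Λ r0 R0) ∧
      (∀ f, RB (wX (wDom (domainSites D a) b) X) f (KG C C' Cs) Λ r0 R0 ∨
        ∃ y, (Mix (domainSites D a) y ∨ ∃ i, y = X i) ∧ GDefx387.fd y f ≤ R0 ∧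
          RB (wX (wDom (domainSites D a) b) X) f (KG C C' Cs) Λ r0 (GDefx387.fd y f - 1)) := by
  obtain ⟨r1, hr1, H1⟩ := rd_dom hC hCs hG hE Λ
  obtain ⟨r2, hr2, H2⟩ := rx_branchOn hC' hCs hG hE' Λ
  refine ⟨max r1 r2, le_max_of_le_left hr1, ?_⟩
  intro D r M h m x hx hinj
  obtain ⟨δ1, hδ1, G1⟩ := H1 D r M h m x hx
  obtain ⟨δ2, hδ2, G2⟩ := branch_dom' h.isOpen hx hinj
  refine ⟨min δ1 δ2, lt_min hδ1 hδ2, fun a ha X hX b R0 hR0 => ?_⟩
  have hX1 : ∀ i, ‖meshPoint a (X i) - x i‖ ≤ 2 * δ1 := fun i =>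
    (hX i).trans (mul_le_mul_of_nonneg_left (min_le_left _ _) (by norm_num))
  have hX2 : ∀ i, ‖meshPoint a (X i) - x i‖ ≤ 2 * δ2 := fun i =>
    (hX i).trans (mul_le_mul_of_nonneg_left (min_le_right _ _) (by norm_num))
  have hRB : ∀ (f : Flatx838.Face) (R : ℕ), Cls (wl (wX (wDom (domainSites D a) b) X)) f R →
      RB (wX (wDom (domainSites D a) b) X) f (KG C C' Cs) Λ (max r1 r2) R := fun f R hc =>
    (rb_of_cls hc Λ).mono ((le_max_right _ _).trans (le_max_right _ _)) le_rfl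
      (le_max_of_le_left hr1) le_rfl
  refine ⟨fun y hy => ?_, fun i => ?_, fun f => ?_⟩
  · exact (G1 a ha X hX1 b y (near_of_mix h ha hy) R0 (hR0.trans (min_le_left _ _))).mono
      (le_max_left _ _) le_rfl (le_max_left _ _) le_rfl
  · have h3 := H2 ℤ (wX (wDom (domainSites D a) b) X) (X i) R0 (inj_int R0) (by
      intro R h1 h2
      refine G2 a ha X hX2 R (hr2.trans h1) ?_ i b
      exact (mul_le_mul_of_nonneg_left (by exact_mod_cast h2) ha.le).trans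
        (hR0.trans (min_le_right _ _)))
    rw [pf_int] at h3
    exact h3.mono ((le_max_left _ _).trans (le_max_right _ _)) le_rfl (le_max_right _ _) le_rfl
  · rcases trich_nearest (domainSites D a) b X f R0 with h3 | ⟨y, hy, hfd, h3⟩
    · exact Or.inl (hRB f R0 h3)
    · refine Or.inr ⟨y, hy, hfd, ?_⟩
      rcases Nat.eq_zero_or_pos (GDefx387.fd y f) with h4 | h4
      · rw [h4]
        intro r' R' h5 h6 h7 h8
        exfalso
        have : 1 ≤ r' := (le_max_of_le_left hr1).trans h5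
        omega
      · exact hRB f _ (h3 _ (by omega))

end Crest.Agent.R165.GeoRDx838
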