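import Crest.Agent.R165.GeoLat3_416

/-!
R165, block GEO, lattice part 4: number of boundary sites in a box, local connectivity of `T` and of its
complement, from a lattice chart.
-/

set_option autoImplicit false

namespace Crest.Agent.R165.Geo

open Complex Set
open Crest.ProbabilityR.IsingModel

/-- two-sided boundary: sites having a neighbour on the other side -/
def bdS (T : Set (ℤ × ℤ)) : Set (ℤ × ℤ) := {w | ∃ u, nn w u ∧ ((w ∈ T ∧ u ∉ T) ∨ (w ∉ T ∧ u ∈ T))}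

theorem finite_sn (z : ℤ × ℤ) (s : ℤ) : {w : ℤ × ℤ | sn (w - z) ≤ s}.Finite := by
  apply ((Set.finite_Icc (z.1 - s) (z.1 + s)).prod (Set.finite_Icc (z.2 - s) (z.2 + s))).subset
  intro w hw
  simp only [mem_ofPred_eq, sn_le, Prod.fst_sub, Prod.snd_sub, abs_le] at hw
  simp only [mem_prod, mem_Icc]
  omega

section Epi

variable {T : Set (ℤ × ℤ)} {z : ℤ × ℤ} {ρ κ : ℝ} {k : ℕ} {G G' : ℝ → ℝ}

theorem LocEpi.bd_near (h : LocEpi T z ρ κ k G G') {m : ℕ} (hm : ∀ x, rotate^[k] (rotate^[m] x) = x)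
    {w : ℤ × ℤ} (hw : (sn (w - z) : ℝ) + 1 ≤ ρ) (hb : w ∈ bdS T) :
    |((rotate^[m] (w - z)).2 : ℝ) - G (rotate^[m] (w - z)).1| ≤ 3/2 := by
  obtain ⟨u, hwu, hdiff⟩ := hb
  have hu : (sn (u - z) : ℝ) ≤ ρ := by
    have h1 : sn (u - z) ≤ sn (w - z) + 1 := by
      have : u - z = (w - z) + (u - w) := by ring
      rw [this]
      refine (sn_add _ _).trans ?_
      rw [sn_nn hwu.symm]
    have : (sn (u - z) : ℝ) ≤ (sn (w - z) : ℝ) + 1 := by exact_mod_cast h1
    linarith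
  have hw1 := h.mem_T hm (u := w) (by linarith)
  have hu1 := h.mem_T hm (u := u) hu
  have hn : nn (rotate^[m] (w - z)) (rotate^[m] (u - z)) := by
    rw [nn_rotate_iter, sub_eq_add_neg, sub_eq_add_neg, add_comm u, add_comm w, nn_add]
    exact hwu
  set x := rotate^[m] (w - z) with hx
  set y := rotate^[m] (u - z) with hy
  have hl := h.lipG (y.1 : ℝ) x.1
  rcases hn with ⟨h1, h2⟩ | ⟨h1, h2⟩
  · have e1 : |(y.1:ℝ) - x.1| = 1 := by rw [abs_sub_comm]; exact_mod_cast h2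
    rw [e1] at hl
    have hl' := abs_le.1 hl
    rw [← h1] at hu1
    rw [abs_le]
    rcases hdiff with ⟨ha, hb⟩ | ⟨ha, hb⟩
    · rw [hw1] at ha; rw [hu1] at hb; push Not at hb; constructor <;> linarith
    · rw [hw1] at ha; rw [hu1] at hb; push Not at ha; constructor <;> linarith
  · have e2 : |(x.2:ℝ) - y.2| = 1 := by exact_mod_cast h2
    have e2' := abs_le.1 e2.le
    rw [← h1] at hu1
    rw [abs_le]
    rcases hdiff with ⟨ha, hb⟩ | ⟨ha, hb⟩
    · rw [hw1] at ha; rw [hu1] at hb; push Not at hb; constructor <;> linarith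
    · rw [hw1] at ha; rw [hu1] at hb; push Not at ha; constructor <;> linarith

/-- number of boundary sites in a box -/
theorem LocEpi.card_bd (h : LocEpi T z ρ κ k G G') (s : ℕ) (hs : (s:ℝ) + 1 ≤ ρ) :
    {w | sn (w - z) ≤ s ∧ w ∈ bdS T}.ncard ≤ 4 * (2 * s + 1) := by
  obtain ⟨m, hm', hm⟩ := rotate_iter_inv k
  set S : Set (ℤ × ℤ) := {w | sn (w - z) ≤ s ∧ w ∈ bdS T} with hS
  let F : Finset (ℤ × ℤ) := (Finset.Icc (-(s:ℤ)) s ×ˢ Finset.Icc (0:ℤ) 3).image
    (fun p => z + rotate^[k] (p.1, ⌈G p.1 - 3/2⌉ + p.2))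
  have hsub : S ⊆ F := by
    intro w hw
    have h1 := h.bd_near hm (w := w) (by
      have : (sn (w - z) : ℝ) ≤ s := by exact_mod_cast hw.1
      linarith) hw.2
    set v := rotate^[m] (w - z) with hv
    have hvs : sn v ≤ s := by rw [hv, sn_rotate_iter]; exact hw.1
    rw [sn_le, abs_le, abs_le] at hvs
    rw [abs_le] at h1
    simp only [F, Finset.coe_image, Finset.coe_product, Finset.coe_Icc, mem_image, mem_prod, mem_Icc,
      Prod.exists]
    refine ⟨v.1, v.2 - ⌈G v.1 - 3/2⌉, ⟨⟨hvs.1.1, hvs.1.2⟩, ?_, ?_⟩, ?_⟩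
    · have : ⌈G v.1 - 3/2⌉ ≤ v.2 := Int.ceil_le.2 (by linarith)
      omega
    · have h2 : G (v.1:ℝ) - 3/2 ≤ (⌈G v.1 - 3/2⌉ : ℝ) := Int.le_ceil _
      have h3 : ((v.2 - ⌈G v.1 - 3/2⌉ : ℤ) : ℝ) ≤ 3 := by push_cast; linarith
      exact_mod_cast h3
    · have : (v.1, ⌈G (v.1:ℝ) - 3/2⌉ + (v.2 - ⌈G (v.1:ℝ) - 3/2⌉)) = v := by
        ext <;> simp
      rw [this, hv, hm]; ring
  calc S.ncard ≤ (F : Set (ℤ × ℤ)).ncard := Set.ncard_le_ncard hsub F.finite_toSet
    _ = F.card := Set.ncard_coe_finset F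
    _ ≤ (Finset.Icc (-(s:ℤ)) s ×ˢ Finset.Icc (0:ℤ) 3).card := Finset.card_image_le
    _ = 4 * (2 * s + 1) := by
        rw [Finset.card_product, Int.card_Icc, Int.card_Icc]
        have : ((s:ℤ) + 1 - -(s:ℤ)).toNat = 2 * s + 1 := by omega
        have h4 : ((3:ℤ) + 1 - 0).toNat = 4 := rfl
        rw [this, h4]; ring

/-- local connectivity of `T`: two sites of `T` in the box of radius `s` are joined inside `T` and inside the
box of radius `4 s`, with at most `12 s` steps. -/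
theorem LocEpi.join (h : LocEpi T z ρ κ k G G') (s : ℕ) (hs : 4 * (s:ℝ) ≤ ρ) {u v : ℤ × ℤ}
    (hu : u ∈ T) (hv : v ∈ T) (hus : sn (u - z) ≤ s) (hvs : sn (v - z) ≤ s) :
    ∃ n ≤ 12 * s, PathIn (T ∩ {w | sn (w - z) ≤ 4 * s}) u v n := by
  obtain ⟨m, hm', hm⟩ := rotate_iter_inv k
  -- the rotated set
  set T' : Set (ℤ × ℤ) := {w | G w.1 < w.2 ∧ sn w ≤ 4 * s} with hT'
  have hmap : ∀ x ∈ T', z + rotate^[k] x ∈ T ∩ {w | sn (w - z) ≤ 4 * s} := by
    intro x hx
    have hb := (sn_le_real (w := x) (b := ρ)).1 (by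
      have : (sn x : ℝ) ≤ 4 * s := by exact_mod_cast hx.2
      linarith)
    refine ⟨(h.mem x hb.1 hb.2).2 hx.1, ?_⟩
    simp only [mem_ofPred_eq, add_sub_cancel_left, sn_rotate_iter]
    exact hx.2
  -- from a point go up to the level `4 s`
  have hup : ∀ x : ℤ × ℤ, sn x ≤ s → G x.1 < x.2 → PathIn T' x (x.1, 4 * (s:ℤ)) (4 * (s:ℤ) - x.2).natAbs := by
    intro x hx hGx
    rw [sn_le, abs_le, abs_le] at hx
    have := PathIn.vert' (T := T') (x := x.1) (y := x.2) (y' := 4 * (s:ℤ)) (by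
      intro i hi1 hi2
      rw [min_eq_left (by omega)] at hi1
      rw [max_eq_right (by omega)] at hi2
      refine ⟨?_, ?_⟩
      · have : (x.2 : ℝ) ≤ i := by exact_mod_cast hi1
        simpa using lt_of_lt_of_le hGx this
      · rw [sn_le, abs_le, abs_le]; simp only; omega)
    exact this
  have hlev : ∀ x : ℤ × ℤ, sn x ≤ s → G x.1 < x.2 → ∀ i : ℤ, |i| ≤ s → (i, 4 * (s:ℤ)) ∈ T' := by
    intro x hx hGx i hi
    rw [sn_le, abs_le, abs_le] at hx
    rw [abs_le] at hi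
    refine ⟨?_, ?_⟩
    · have h1 := (abs_le.1 (h.lipG (i:ℝ) x.1)).2
      have h2 : |(i:ℝ) - x.1| ≤ 2 * s := by
        have : |i - x.1| ≤ 2 * (s:ℤ) := by rw [abs_le]; omega
        exact_mod_cast this
      have h3 : (x.2:ℝ) ≤ s := by exact_mod_cast hx.2.2
      have h4 : (((i, 4 * (s:ℤ)) : ℤ × ℤ).2 : ℝ) = 4 * s := by push_cast; ring
      rw [h4]
      show G (i:ℝ) < 4 * s
      nlinarith
    · rw [sn_le, abs_le, abs_le]; simp only; omega
  set u' := rotate^[m] (u - z) with hu'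
  set v' := rotate^[m] (v - z) with hv'
  have eu : z + rotate^[k] u' = u := by rw [hu', hm]; ring
  have ev : z + rotate^[k] v' = v := by rw [hv', hm]; ring
  have hus' : sn u' ≤ s := by rw [hu', sn_rotate_iter]; exact hus
  have hvs' : sn v' ≤ s := by rw [hv', sn_rotate_iter]; exact hvs
  have hs0 : (0:ℝ) ≤ s := Nat.cast_nonneg _
  have hGu : G u'.1 < u'.2 := (h.mem_T hm (by
    have : (sn (u - z) : ℝ) ≤ s := by exact_mod_cast hus
    linarith)).1 hu
  have hGv : G v'.1 < v'.2 := (h.mem_T hm (by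
    have : (sn (v - z) : ℝ) ≤ s := by exact_mod_cast hvs
    linarith)).1 hv
  have p1 := hup u' hus' hGu
  have p3 := (hup v' hvs' hGv).symm
  have bu := hus'
  have bv := hvs'
  rw [sn_le, abs_le, abs_le] at bu bv
  have p2 : PathIn T' (u'.1, 4 * (s:ℤ)) (v'.1, 4 * (s:ℤ)) (v'.1 - u'.1).natAbs := by
    apply PathIn.horiz'
    intro i h1 h2
    apply hlev u' hus' hGu
    rw [abs_le]
    constructor
    · exact le_trans (le_min (by omega) (by omega)) h1
    · exact le_trans h2 (max_le (by omega) (by omega))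
  have p := (p1.trans p2).trans p3
  have := p.map (T' := T ∩ {w | sn (w - z) ≤ 4 * s}) (f := fun x => z + rotate^[k] x)
    (fun x y hxy => by rw [nn_add, nn_rotate_iter]; exact hxy) hmap
  simp only [eu, ev] at this
  exact ⟨_, by omega, this⟩

/-- local connectivity of the complement -/
theorem LocEpi.join_compl (h : LocEpi T z ρ κ k G G') (s : ℕ) (hs : 4 * (s:ℝ) ≤ ρ) {u v : ℤ × ℤ}
    (hu : u ∉ T) (hv : v ∉ T) (hus : sn (u - z) ≤ s) (hvs : sn (v - z) ≤ s) :
    ∃ n ≤ 12 * s, PathIn (Tᶜ ∩ {w | sn (w - z) ≤ 4 * s}) u v n := by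
  obtain ⟨m, hm', hm⟩ := rotate_iter_inv k
  -- the rotated set
  set T' : Set (ℤ × ℤ) := {w | (w.2:ℝ) ≤ G w.1 ∧ sn w ≤ 4 * s} with hT'
  have hmap : ∀ x ∈ T', z + rotate^[k] x ∈ Tᶜ ∩ {w | sn (w - z) ≤ 4 * s} := by
    intro x hx
    have hb := (sn_le_real (w := x) (b := ρ)).1 (by
      have : (sn x : ℝ) ≤ 4 * s := by exact_mod_cast hx.2
      linarith)
    refine ⟨?_, ?_⟩
    · rw [mem_compl_iff, h.mem x hb.1 hb.2]; push Not; exact hx.1
    · simp only [mem_ofPred_eq, add_sub_cancel_left, sn_rotate_iter]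
      exact hx.2
  have hdn : ∀ x : ℤ × ℤ, sn x ≤ s → (x.2:ℝ) ≤ G x.1 →
      PathIn T' x (x.1, -(4 * (s:ℤ))) (-(4 * (s:ℤ)) - x.2).natAbs := by
    intro x hx hGx
    rw [sn_le, abs_le, abs_le] at hx
    have := PathIn.vert' (T := T') (x := x.1) (y := x.2) (y' := -(4 * (s:ℤ))) (by
      intro i hi1 hi2
      rw [min_eq_right (by omega)] at hi1
      rw [max_eq_left (by omega)] at hi2
      refine ⟨?_, ?_⟩
      · have : (i : ℝ) ≤ x.2 := by exact_mod_cast hi2
        simpa using le_trans this hGx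
      · rw [sn_le, abs_le, abs_le]; simp only; omega)
    exact this
  have hlev : ∀ x : ℤ × ℤ, sn x ≤ s → (x.2:ℝ) ≤ G x.1 → ∀ i : ℤ, |i| ≤ s → (i, -(4 * (s:ℤ))) ∈ T' := by
    intro x hx hGx i hi
    rw [sn_le, abs_le, abs_le] at hx
    rw [abs_le] at hi
    refine ⟨?_, ?_⟩
    · have h1 := (abs_le.1 (h.lipG (i:ℝ) x.1)).1
      have h2 : |(i:ℝ) - x.1| ≤ 2 * s := by
        have : |i - x.1| ≤ 2 * (s:ℤ) := by rw [abs_le]; omega
        exact_mod_cast this
      have h3 : -(s:ℝ) ≤ (x.2:ℝ) := by exact_mod_cast hx.2.1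
      have h4 : (((i, -(4 * (s:ℤ))) : ℤ × ℤ).2 : ℝ) = -(4 * s) := by push_cast; ring
      rw [h4]
      show -(4 * (s:ℝ)) ≤ G (i:ℝ)
      have : (0:ℝ) ≤ s := Nat.cast_nonneg _
      nlinarith
    · rw [sn_le, abs_le, abs_le]; simp only; omega
  set u' := rotate^[m] (u - z) with hu'
  set v' := rotate^[m] (v - z) with hv'
  have eu : z + rotate^[k] u' = u := by rw [hu', hm]; ring
  have ev : z + rotate^[k] v' = v := by rw [hv', hm]; ring
  have hus' : sn u' ≤ s := by rw [hu', sn_rotate_iter]; exact hus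
  have hvs' : sn v' ≤ s := by rw [hv', sn_rotate_iter]; exact hvs
  have hs0 : (0:ℝ) ≤ s := Nat.cast_nonneg _
  have hGu : (u'.2:ℝ) ≤ G u'.1 := by
    have := (h.mem_T hm (u := u) (by
      have : (sn (u - z) : ℝ) ≤ s := by exact_mod_cast hus
      linarith)).not.1 hu
    push Not at this; exact this
  have hGv : (v'.2:ℝ) ≤ G v'.1 := by
    have := (h.mem_T hm (u := v) (by
      have : (sn (v - z) : ℝ) ≤ s := by exact_mod_cast hvs
      linarith)).not.1 hv
    push Not at this; exact this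
  have p1 := hdn u' hus' hGu
  have p3 := (hdn v' hvs' hGv).symm
  have bu := hus'
  have bv := hvs'
  rw [sn_le, abs_le, abs_le] at bu bv
  have p2 : PathIn T' (u'.1, -(4 * (s:ℤ))) (v'.1, -(4 * (s:ℤ))) (v'.1 - u'.1).natAbs := by
    apply PathIn.horiz'
    intro i h1 h2
    apply hlev u' hus' hGu
    rw [abs_le]
    constructor
    · exact le_trans (le_min (by omega) (by omega)) h1
    · exact le_trans h2 (max_le (by omega) (by omega))
  have p := (p1.trans p2).trans p3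
  have := p.map (T' := Tᶜ ∩ {w | sn (w - z) ≤ 4 * s}) (f := fun x => z + rotate^[k] x)
    (fun x y hxy => by rw [nn_add, nn_rotate_iter]; exact hxy) hmap
  simp only [eu, ev] at this
  exact ⟨_, by omega, this⟩

end Epi

end Crest.Agent.R165.Geo
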