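import Crest.Agent.R165.RFlat_65
import Crest.Agent.R165.GeoLat4_416

/-!
# Row 165 (S0250): mixed faces and the two-sided boundary `bdS`; classes of boxes from `fd`
(helper65)

Everything for an arbitrary site set `T`.
-/

set_option autoImplicit false

noncomputable section

open Crest.ProbabilityR.IsingModel
open Crest.Agent.R165.Latx683 Crest.Agent.R165.GDefx387 Crest.Agent.R165.Bridgex386
  Crest.Agent.R165.RIfx891
open Crest.Agent.R165.Tr1x40 (nb)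

namespace Crest.Agent.R165.RFlatx65

theorem bdS_of {T : Set (ℤ × ℤ)} {u v : ℤ × ℤ} (h : Geo.nn u v) (h' : ¬ (u ∈ T ↔ v ∈ T)) :
    u ∈ Geo.bdS T := ⟨v, h, by tauto⟩

/-- a mixed face has a corner in `bdS T` -/
theorem Mix.exists_bdS {T : Set (ℤ × ℤ)} {y : Face} (h : Mix T y) :
    ∃ z ∈ Geo.bdS T, fd y z ≤ 1 := by
  by_cases e1 : (y ∈ T ↔ (y.1 + 1, y.2) ∈ T)
  · by_cases e2 : (y ∈ T ↔ (y.1, y.2 + 1) ∈ T)
    · by_cases e3 : ((y.1 + 1, y.2) ∈ T ↔ (y.1 + 1, y.2 + 1) ∈ T)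
      · exfalso
        obtain ⟨h1, h2⟩ := h
        unfold Inn at h1
        unfold Out at h2
        tauto
      · refine ⟨(y.1 + 1, y.2), bdS_of (v := (y.1 + 1, y.2 + 1)) (Or.inr ⟨rfl, by simp⟩) e3, ?_⟩
        rw [fd_int]
        dsimp only
        exact max_le (by omega) (by omega)
    · refine ⟨y, bdS_of (v := (y.1, y.2 + 1)) (Or.inr ⟨rfl, by simp⟩) e2, by simp⟩
  · exact ⟨y, bdS_of (v := (y.1 + 1, y.2)) (Or.inl ⟨rfl, by simp⟩) e1, by simp⟩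

/-- distance to the mixed faces from the distance to `bdS T` -/
theorem mix_far {T : Set (ℤ × ℤ)} {x : Face} {R : ℕ} (h : ∀ z ∈ Geo.bdS T, R + 1 < fd x z) :
    ∀ f, Mix T f → R < fd x f := by
  intro f hf
  obtain ⟨z, hz, h1⟩ := hf.exists_bdS
  have h2 := h z hz
  have h3 := fd_triangle x f z
  omega

/-- all faces of a box centred at a point of `T` away from the boundary are inner -/
theorem inn_of_fd {T : Set (ℤ × ℤ)} {x : Face} {R : ℕ} (hx : x ∈ T)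
    (h : ∀ f, Mix T f → R < fd x f) : ∀ f ∈ bx x (R : ℝ), Inn T f := by
  have h0 : ∀ f ∈ bx x (R : ℝ), ¬ Mix T f := fun f hf hm =>
    absurd (h f hm) (not_lt.2 (mem_bx_iff_fd.1 hf))
  rcases inn_or_out h0 with h | h
  · exact h
  · exact absurd hx (h x (mem_bx_iff_fd.2 (by simp))).1

theorem out_of_fd {T : Set (ℤ × ℤ)} {x : Face} {R : ℕ} (hx : x ∉ T)
    (h : ∀ f, Mix T f → R < fd x f) : ∀ f ∈ bx x (R : ℝ), Out T f := by
  have h0 : ∀ f ∈ bx x (R : ℝ), ¬ Mix T f := fun f hf hm =>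
    absurd (h f hm) (not_lt.2 (mem_bx_iff_fd.1 hf))
  rcases inn_or_out h0 with h | h
  · exact absurd (h x (mem_bx_iff_fd.2 (by simp))).1 hx
  · exact h

section classes

variable {n : ℕ} {T : Set (ℤ × ℤ)} {b : Bool} {X : Fin n → ℤ × ℤ} {x : Face} {R : ℕ}

/-- branch vertex in the interior -/
theorem branchOn_fd {i : Fin n} (hi : X i ∈ T) (hB : ∀ f, Mix T f → R < fd (X i) f)
    (hX : ∀ j ≠ i, R < fd (X i) (X j)) :
    ∃ s, BranchOn (wl (wX (wDom T b) X)) s (X i) (R : ℝ) :=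
  branchOn (inn_of_fd hi hB) fun j hj => not_intV (hX j hj)

/-- the same with the distance to `bdS T` -/
theorem branchOn_bdS {i : Fin n} (hi : X i ∈ T) (hB : ∀ z ∈ Geo.bdS T, R + 1 < fd (X i) z)
    (hX : ∀ j ≠ i, R < fd (X i) (X j)) :
    ∃ s, BranchOn (wl (wX (wDom T b) X)) s (X i) (R : ℝ) :=
  branchOn_fd hi (mix_far hB) hX

theorem planeOn_fd (hx : x ∈ T) (hB : ∀ f, Mix T f → R < fd x f)
    (hX : ∀ i, R < fd x (X i)) : ∃ s, PlaneOn (wl (wX (wDom T b) X)) s x (R : ℝ) :=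
  planeOn (inn_of_fd hx hB) fun i => not_intV (hX i)

theorem planeOn_bdS (hx : x ∈ T) (hB : ∀ z ∈ Geo.bdS T, R + 1 < fd x z)
    (hX : ∀ i, R < fd x (X i)) : ∃ s, PlaneOn (wl (wX (wDom T b) X)) s x (R : ℝ) :=
  planeOn_fd hx (mix_far hB) hX

/-- trichotomy, distance to `bdS T` -/
theorem trich_bdS (hB : ∀ z ∈ Geo.bdS T, R + 1 < fd x z) (hX : ∀ i, R < fd x (X i)) :
    Cls (wl (wX (wDom T b) X)) x R := trich (mix_far hB) hX

/-- the nearest defect among `bdS T` and the insertions -/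
theorem trich_nearest_bdS (T : Set (ℤ × ℤ)) (b : Bool) (X : Fin n → ℤ × ℤ) (x : Face) (R0 : ℕ) :
    Cls (wl (wX (wDom T b) X)) x R0 ∨
    ∃ y, (y ∈ Geo.bdS T ∨ ∃ i, y = X i) ∧ fd y x ≤ R0 + 1 ∧
      ∀ R, R + 1 < fd y x → Cls (wl (wX (wDom T b) X)) x R := by
  classical
  by_cases h : ∃ y, (y ∈ Geo.bdS T ∨ ∃ i, y = X i) ∧ fd y x ≤ R0 + 1
  · right
    obtain ⟨y', hy', hR⟩ := h
    have h' : ∃ d, ∃ y, (y ∈ Geo.bdS T ∨ ∃ i, y = X i) ∧ fd y x = d := ⟨_, y', hy', rfl⟩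
    obtain ⟨y, hy, hd⟩ := Nat.find_spec h'
    have hmin : ∀ z, (z ∈ Geo.bdS T ∨ ∃ i, z = X i) → fd y x ≤ fd z x := fun z hz => by
      rw [hd]; exact Nat.find_min' h' ⟨z, hz, rfl⟩
    refine ⟨y, hy, (hmin y' hy').trans hR, fun R hRy => trich_bdS (fun f hf => ?_) fun i => ?_⟩
    · rw [fd_comm]; exact hRy.trans_le (hmin f (Or.inl hf))
    · rw [fd_comm]; exact (Nat.lt_of_succ_lt hRy).trans_le (hmin _ (Or.inr ⟨i, rfl⟩))
  · left
    push Not at h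
    refine trich_bdS (fun f hf => ?_) fun i => ?_
    · rw [fd_comm]; exact h f (Or.inl hf)
    · rw [fd_comm]; exact Nat.lt_of_succ_lt (h _ (Or.inr ⟨i, rfl⟩))

end classes

end Crest.Agent.R165.RFlatx65
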