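import Crest.Agent.R165.GSys_387
import Crest.Agent.R165.GLinI_336

/-!
# Row 165, block G: (W0) on every background for the slices of `GSys_387` (helper897)

* `gw_le_wt_new` : Gram weight of a block of slices against the local weight at the NEW scale
* `gwS D w l k0 n` : Gram weight of the step `n`; `gramS`; `cW0`; `w0S`
* `gramS_ext0`, `gwE` : the same with sources
-/

set_option autoImplicit false
set_option linter.unusedSectionVars false
set_option linter.unusedVariables false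

noncomputable section

open scoped ENNReal
open Crest.Agent.R165.Gr0x606 Crest.Agent.R165.Gr1x606 Crest.Agent.R165.GeOpsx337
open Crest.Agent.R165.Latx683 Crest.Agent.R165.PNormx417
open Crest.Agent.R165.GDefx387 Crest.Agent.R165.GLinx336
open Crest.Agent.R165.FRDPolyx439 Crest.Agent.R165.FRDAbsx439 Crest.Agent.R165.FRDInfx439
  Crest.Agent.R165.FRDLatx439 Crest.Agent.R165.GSysx387 Crest.Agent.R165.SrcDefx991

namespace Crest.Agent.R165.W0Sx897

variable {G : Type} [CommRing G] [CN G]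

/-! ### (W0) at the new scale -/

section W0new

variable {Λ : ℝ} {M K : ℕ} (D : FRD Λ M K)

/-- block `a ≤ j < b` of slices, `2^a ≤ r'`, `2^b ≤ N r'`; weight at the scale `r'` -/
theorem gw_le_wt_new (hM : MM + 1 ≤ M) (w : BW G) (h : ABtw (preF (HE G)) (AopF w) 0 Λ)
    (a b r' : ℕ) (N : ℝ) (hr : 2 ^ a ≤ r') (hN : (2 : ℝ) ^ b ≤ N * r') {A : ℝ} (hA : 0 < A)
    (x : G × G) (l : Fld G) :
    gw D w a b l ≤ ENNReal.ofReal (7 * √(D.C * N) * ((r' : ℝ) / 2 ^ a) ^ MM / A) *
      wt w A r' x l := by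
  have hC := D.C_pos
  have h2a : (0 : ℝ) < 2 ^ a := by positivity
  have hr1 : (2 : ℝ) ^ a ≤ r' := by exact_mod_cast hr
  have h1 := sum_gform_le D (AopF_asy w) h hM a b l
  have hR := RD_nonneg (AopF_asy w) (a := (r' : ℝ) ^ 2) (by positivity) MM l
  have hq : 1 ≤ (r' : ℝ) / 2 ^ a := by rw [le_div_iff₀ h2a, one_mul]; exact hr1
  have h2 : RD (preF (HE G)) (AopF w) (4 ^ a) MM l ≤
      ((r' : ℝ) / 2 ^ a) ^ MM * RD (preF (HE G)) (AopF w) ((r' : ℝ) ^ 2) MM l := by
    have e4 : (4 : ℝ) ^ a = (2 ^ a) ^ 2 := by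
      rw [← pow_mul, mul_comm, pow_mul]; norm_num
    have h3 := RD_scale (AopF_asy w) (a := 4 ^ a) (a' := (r' : ℝ) ^ 2) (by positivity)
      (by rw [e4]; exact pow_le_pow_left₀ h2a.le hr1 2) MM l
    refine h3.trans (le_of_eq ?_)
    congr 1
    rw [e4, ← div_pow, ← pow_mul, mul_comm 2 MM, pow_mul, Real.sqrt_sq (by positivity)]
  have hN0 : 0 ≤ N * r' := (by positivity : (0 : ℝ) ≤ 2 ^ b).trans hN
  set R := RD (preF (HE G)) (AopF w) ((r' : ℝ) ^ 2) MM l
  set t : ℝ := ((r' : ℝ) / 2 ^ a) ^ MM with ht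
  have ht0 : 0 ≤ t := by positivity
  have h3 : √(gB D w a b l l) ≤ √(D.C * (N * r')) * (t * R) := by
    have h4 : gB D w a b l l ≤ D.C * (N * r') * (t * R) ^ 2 := by
      refine h1.trans ?_
      have h5 : RD (preF (HE G)) (AopF w) (4 ^ a) MM l ^ 2 ≤ (t * R) ^ 2 :=
        pow_le_pow_left₀ (RD_nonneg (AopF_asy w) (by positivity) MM l) h2 2
      exact mul_le_mul (mul_le_mul_of_nonneg_left hN hC.le) h5 (sq_nonneg _)
        (mul_nonneg hC.le hN0)
    calc √(gB D w a b l l) ≤ √(D.C * (N * r') * (t * R) ^ 2) := Real.sqrt_le_sqrt h4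
      _ = _ := by
        rw [Real.sqrt_mul (mul_nonneg hC.le hN0), Real.sqrt_sq (mul_nonneg ht0 hR)]
  have h6 : √(D.C * (N * r')) = √(D.C * N) * √r' := by
    rw [← mul_assoc, Real.sqrt_mul' _ (by positivity)]
  rw [wt_eq, ← mul_assoc]
  calc gw D w a b l ≤ ENNReal.ofReal ((√(D.C * N) * √r' * t) * R) := by
        apply ENNReal.ofReal_le_ofReal
        refine h3.trans (le_of_eq ?_)
        rw [h6]; ring
    _ = ENNReal.ofReal (√(D.C * N) * √r' * t) * ENNReal.ofReal R :=
        ENNReal.ofReal_mul (by positivity)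
    _ ≤ ENNReal.ofReal (√(D.C * N) * √r' * t) * (7 * sup1 w r' x l) := by
        gcongr
        exact RD_le_sup1 w r' x l
    _ = ENNReal.ofReal (7 * √(D.C * N) * t / A) * ENNReal.ofReal (A * √r') * sup1 w r' x l := by
        rw [← ENNReal.ofReal_mul (by positivity), ← mul_assoc]
        congr 1
        have h7 : (7 : ℝ≥0∞) = ENNReal.ofReal 7 := by norm_num
        rw [h7, ← ENNReal.ofReal_mul (by positivity)]
        congr 1
        field_simp

end W0new

/-! ### the slices of `GSys_387` -/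

section slices

variable {M K : ℕ} (D : FRD 16 M K)

/-- Gram weight of the step `n` -/
def gwS (w : BW G) (l k0 n : ℕ) : Fld G → ℝ≥0∞ := gw D w (lo l k0 n) (hi l k0 n)

/-- the constant of (W0) -/
def cW0 (l k0 n : ℕ) : ℝ :=
  7 * √D.C * (if n = 0 then ((rr l k0 1 : ℕ) : ℝ) ^ MM else ((2 : ℝ) ^ l) ^ MM)

theorem cW0_pos (l k0 n : ℕ) : 0 < cW0 D l k0 n := by
  have := D.C_pos
  have h := rr_pos l k0 1
  unfold cW0
  split_ifs <;> positivity

/-- `n ≥ 1`: the constant does not depend on `k0`, `n` -/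
theorem cW0_succ (l k0 n : ℕ) : cW0 D l k0 (n + 1) = 7 * √D.C * ((2 : ℝ) ^ l) ^ MM := by
  unfold cW0; rw [if_neg (Nat.succ_ne_zero n)]

theorem cW0_zero (l k0 : ℕ) : cW0 D l k0 0 = 7 * √D.C * ((rr l k0 1 : ℕ) : ℝ) ^ MM := by
  unfold cW0; rw [if_pos rfl]

/-- the constant of all steps is at most the one of the first step -/
theorem cW0_le_zero (l k0 n : ℕ) : cW0 D l k0 n ≤ cW0 D l k0 0 := by
  rcases n with _ | n
  · exact le_rfl
  · rw [cW0_succ, cW0_zero]
    refine mul_le_mul_of_nonneg_left ?_ (by positivity)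
    refine pow_le_pow_left₀ (by positivity) ?_ _
    have h1 := rr_succ l k0 0
    have h2 := rr_pos l k0 0
    have h3 : 2 ^ l ≤ rr l k0 1 := by
      rw [h1]
      exact Nat.le_mul_of_pos_right _ h2
    exact_mod_cast h3

/-- **Gram bound of the covariance of step `n`** -/
theorem gramS (w : BW G) (hw : ∀ z j, |w z j| ≤ 1) (l k0 n : ℕ) :
    Gram (slC D w l k0 n) (gwS D w l k0 n) :=
  SopC_gram D w (AopF_bdd w hw) _ _

/-- Gram weight of the step `n` against the local weight at the new scale -/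
theorem gwS_le (hM : MM + 1 ≤ M) (w : BW G) (hw : ∀ z j, |w z j| ≤ 1) (l k0 n : ℕ) {A : ℝ}
    (hA : cW0 D l k0 n ≤ A) (x : G × G) (m : Fld G) :
    gwS D w l k0 n m ≤ wt w A (rr l k0 (n + 1)) x m := by
  have hA0 : 0 < A := (cW0_pos D l k0 n).trans_le hA
  have hC := D.C_pos
  have key : ∀ t : ℝ, 7 * √(D.C * 1) * t ≤ A → ∀ y : ℝ≥0∞,
      ENNReal.ofReal (7 * √(D.C * 1) * t / A) * y ≤ y := by
    intro t ht y
    have h1 : 7 * √(D.C * 1) * t / A ≤ 1 := by rw [div_le_one hA0]; exact ht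
    calc ENNReal.ofReal (7 * √(D.C * 1) * t / A) * y ≤ 1 * y := by
          gcongr
          exact ENNReal.ofReal_le_one.2 h1
      _ = y := one_mul _
  rcases n with _ | n
  · rw [cW0_zero] at hA
    have h := gw_le_wt_first D hM w (AopF_bdd w hw) (hi l k0 0) (rr l k0 (0 + 1)) 1
      (rr_pos l k0 _) (by rw [one_mul, ← hi_eq]; push_cast; exact le_rfl) hA0 x m
    unfold gwS
    rw [lo_zero]
    refine h.trans (key _ ?_ _)
    rw [mul_one]
    exact hA
  · rw [cW0_succ] at hA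
    have hlo : 2 ^ lo l k0 (n + 1) = rr l k0 (n + 1) := by rw [lo_succ, hi_eq]
    have h := gw_le_wt_new D hM w (AopF_bdd w hw) (lo l k0 (n + 1)) (hi l k0 (n + 1))
      (rr l k0 (n + 1 + 1)) 1 (by rw [hlo]; exact rr_mono l k0 (by omega))
      (by rw [one_mul, ← hi_eq]; push_cast; exact le_rfl) hA0 x m
    refine h.trans (key _ ?_ _)
    rw [mul_one]
    refine le_trans (le_of_eq ?_) hA
    congr 2
    have e : ((2 : ℝ) ^ lo l k0 (n + 1)) = ((rr l k0 (n + 1) : ℕ) : ℝ) := by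
      rw [← hlo]; push_cast; rfl
    rw [e, rr_succ l k0 (n + 1)]
    have h0 : ((rr l k0 (n + 1) : ℕ) : ℝ) ≠ 0 := by
      have := rr_pos l k0 (n + 1)
      positivity
    push_cast
    rw [mul_div_assoc, div_self h0, mul_one]

/-- **(W0) on every background**, `ε = 1` -/
theorem w0S (hM : MM + 1 ≤ M) (w : BW G) (hw : ∀ z j, |w z j| ≤ 1) (l k0 n : ℕ) {A : ℝ}
    (hA : cW0 D l k0 n ≤ A) (U : Finset (G × G)) :
    W0 w (gwS D w l k0 n) A (rr l k0 (n + 1)) 1 U := by
  intro x _ m _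
  rw [one_mul]
  exact gwS_le D hM w hw l k0 n hA x m

end slices

/-! ### with sources -/

section src

variable {V : Type*} [AddCommGroup V] [Module ℝ V] {m : ℕ}

/-- Gram bound of the covariance extended by zero -/
theorem gram_ext0 {S : Cov V} {g : V → ℝ≥0∞} (h : Gram S g) :
    Gram (ext0 m S) (fun v => g v.1) := by
  intro L
  have h1 := EE_mp (LinearMap.fst ℝ V (Src m)) (ext0 m S) S (fun x y => rfl) (mono L)
  rw [← h1, mp_mono]
  refine (h _).trans (le_of_eq ?_)
  unfold mwt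
  rw [List.map_map]
  rfl

end src

end Crest.Agent.R165.W0Sx897
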