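import Crest.Agent.R165.RegI_893
import Crest.Agent.R165.Comp2_889
import Crest.Agent.R165.GeoRD_838
import Crest.Agent.R165.W0S_897
import Crest.Agent.R165.RFlat2_65

/-!
# Row 165 (S0250), block G2: WPack, the linear step on composite backgrounds (helper893)

* `dcount_near`, `dcount_mix` : counting of the boundary faces
* `geo_of` : the structure `Geo` of `RegI_893` from the output of `GeoRD_838`, marks included
* `GamOK`, `CFc` : the condition on `Γ`, the constant of the first order quantities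
* `stepOK_of_geo` : `StepOK` of `Comp2_889` for the systems of `GSys_387`
-/

set_option autoImplicit false
set_option linter.unusedSectionVars false

noncomputable section

open scoped ENNReal
open Crest.Agent.R165.Gr0x606 Crest.Agent.R165.Gr1x606 Crest.Agent.R165.Latx683
  Crest.Agent.R165.PNormx417 Crest.Agent.R165.GDefx387 Crest.Agent.R165.Wtx898
  Crest.Agent.R165.RegGx893 Crest.Agent.R165.RegIx893 Crest.Agent.R165.Packx915
  Crest.Agent.R165.NSumx915 Crest.Agent.R165.DefRecx915 Crest.Agent.R165.GeOpsx337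
  Crest.Agent.R165.KFlowx337 Crest.Agent.R165.GSysx387 Crest.Agent.R165.FRDPolyx439
  Crest.Agent.R165.Compx889

namespace Crest.Agent.R165.WPackx893

/-! ### counting -/

/-- a set whose points are within distance `1` of `A` -/
theorem dcount_near {G : Type} [CommRing G] [CN G] {A A' : Set (G × G)} {R r N : ℕ}
    (h : ∀ x ∈ A', ∃ z ∈ A, fd x z ≤ 1) (hr : 2 ≤ r) (hN : DCount fd A (R + 1) (r - 2) N) :
    DCount fd A' R r N := by
  classical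
  intro f S hS hs
  choose z hzA hz using h
  have hcl : ∀ x ∈ S, ∀ y ∈ S, ∀ (hx : x ∈ A') (hy : y ∈ A'), x ≠ y →
      r - 2 < fd (z x hx) (z y hy) := by
    intro x hx y hy hx' hy' hne
    have h1 := hs x hx y hy hne
    have h2 := fd_triangle x (z x hx') y
    have h3 := fd_triangle (z x hx') (z y hy') y
    have h4 := hz x hx'
    have h5 := hz y hy'
    rw [fd_comm] at h5
    omega
  let φ : S → G × G := fun x => z x.1 (hS x.1 x.2).1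
  have hinj : Function.Injective φ := by
    intro x y hxy
    by_contra hne
    have hne' : x.1 ≠ y.1 := fun h => hne (Subtype.ext h)
    have h1 := hcl x.1 x.2 y.1 y.2 (hS x.1 x.2).1 (hS y.1 y.2).1 hne'
    have h2 : z x.1 (hS x.1 x.2).1 = z y.1 (hS y.1 y.2).1 := hxy
    rw [h2, fd_self] at h1
    omega
  have hc : S.card = (Finset.univ.image φ).card := by
    rw [Finset.card_image_of_injective _ hinj, Finset.card_univ, Fintype.card_coe]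
  rw [hc]
  refine hN f _ (fun y hy => ?_) ?_
  · obtain ⟨x, -, rfl⟩ := Finset.mem_image.1 hy
    refine ⟨hzA _ _, ?_⟩
    have h1 := (hS x.1 x.2).2
    have h2 := fd_triangle f x.1 (φ x)
    have h3 := hz x.1 (hS x.1 x.2).1
    have h3' : fd x.1 (φ x) ≤ 1 := h3
    omega
  · intro y hy y' hy' hne
    obtain ⟨x, -, rfl⟩ := Finset.mem_image.1 hy
    obtain ⟨x', -, rfl⟩ := Finset.mem_image.1 hy'
    refine hcl x.1 x.2 x'.1 x'.2 _ _ fun h => hne ?_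
    have : x = x' := Subtype.ext h
    rw [this]

/-- the set of mixed faces -/
def MixS (T : Set (ℤ × ℤ)) : Set (ℤ × ℤ) := {y | RFlatx65.Mix T y}

/-- **number of separated mixed faces in a ball** -/
theorem dcount_mix {T : Set (ℤ × ℤ)} {ρ κ : ℝ} (h : Geo.LatReg T ρ κ) {L D r : ℕ}
    (hρ : ((L * r + D * r + 1 : ℕ) : ℝ) + 1 ≤ ρ) (hr : 32 ≤ r) (hL : 1 ≤ L) :
    DCount fd (MixS T) (L * r + D * r) r (8 * (L + D) + 1) := by
  refine dcount_near (A := Geo.bdS T) (fun x hx => RFlatx65.Mix.exists_bdS hx) (by omega) ?_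
  refine (DBdx915.dcount_bd h (R := L * r + D * r + 1) (r := r - 2) hρ (by omega)).mono
    (Set.Subset.refl _) le_rfl le_rfl ?_
  refine Nat.add_le_add_right (Nat.div_le_of_le_mul ?_) 1
  obtain ⟨n, hn⟩ : ∃ n, n = (r - 2) / 3 := ⟨_, rfl⟩
  rw [← hn]
  have h3 : r ≤ 3 * n + 4 := by omega
  have h4 : 10 ≤ n := by omega
  have h5 : 1 ≤ L + D := by omega
  calc 2 * (L * r + D * r + 1) = 2 * (L + D) * r + 2 := by ring
    _ ≤ 2 * (L + D) * (3 * n + 4) + 2 * (L + D) := by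
        refine Nat.add_le_add (Nat.mul_le_mul_left _ h3) (by omega)
    _ = (L + D) * (6 * n + 10) := by ring
    _ ≤ (L + D) * (8 * n) := Nat.mul_le_mul_left _ (by omega)
    _ = n * (8 * (L + D)) := by ring

/-! ### the structure `Geo` -/

section geo

variable {G : Type} [CommRing G] [CN G] {ι : Type*} {w : BW G} {C : ℝ} {Λ r0 R0 : ℕ}
  {loc : ι → G × G} {B Z : Set (G × G)}

/-- from the output of `GeoRD_838.geo_dom`; the marks are at distance `> R0` of all the defects -/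
theorem geo_of (hC : 1 ≤ C) (hB : ∀ y ∈ B, RD w y C Λ r0 R0) (hX : ∀ i, RX w (loc i) C Λ r0 R0)
    (hcov : ∀ f, RB w f C Λ r0 R0 ∨
      ∃ y, (y ∈ B ∨ ∃ i, y = loc i) ∧ fd y f ≤ R0 ∧ RB w f C Λ r0 (fd y f - 1))
    (hZB : ∀ z ∈ Z, ∀ y ∈ B, R0 < fd y z) (hZX : ∀ z ∈ Z, ∀ i, R0 < fd (loc i) z) :
    Geo w C Λ r0 R0 loc B Z Set.univ where
  one_le := hC
  bd := hB
  br := hX
  mrk z hz := by
    rcases hcov z with h | ⟨y, hy, hfd, -⟩
    · exact h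
    · exfalso
      rcases hy with hy | ⟨i, rfl⟩
      · exact absurd (hZB z hz y hy) (not_lt.2 hfd)
      · exact absurd (hZX z hz i) (not_lt.2 hfd)
  cov x _ := by
    rcases hcov x with h | ⟨y, hy, -, h⟩
    · exact Or.inl h
    · have h' : RB w x C Λ r0 (fd y x / 2) := h.mono le_rfl le_rfl le_rfl (by omega)
      rcases hy with hy | ⟨i, rfl⟩
      · exact Or.inr (Or.inl ⟨y, Or.inl hy, h'⟩)
      · exact Or.inr (Or.inr ⟨i, h'⟩)

end geo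

/-! ### the condition on `Γ` and the first order constant -/

/-- condition on `Γ` -/
def GamOK (C : ℝ) (D L : ℕ) (Γ : ℝ≥0∞) : Prop :=
  Γ ≠ ∞ ∧ 8 * ((3 * ENNReal.ofReal (1 + 4 * EE C D)) ^ 2 * (((2 * L + 3) ^ 2 : ℕ) : ℝ≥0∞)) ≤ Γ

/-- constant of the first order quantities -/
def CFc (C : ℝ) (D L : ℕ) (CX : ℝ≥0∞) : ℝ≥0∞ :=
  (1 + 3 * ENNReal.ofReal (1 + 4 * EE C D) + 2 * (3 * CX)) * (((2 * L + 3) ^ 2 : ℕ) : ℝ≥0∞)

theorem CFc_ne_top {C : ℝ} {D L : ℕ} {CX : ℝ≥0∞} (h : CX ≠ ∞) : CFc C D L CX ≠ ∞ := by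
  unfold CFc
  refine ENNReal.mul_ne_top (ENNReal.add_ne_top.2 ⟨ENNReal.add_ne_top.2 ⟨ENNReal.one_ne_top,
    ENNReal.mul_ne_top (by norm_num) ENNReal.ofReal_ne_top⟩, ENNReal.mul_ne_top (by norm_num)
    (ENNReal.mul_ne_top (by norm_num) h)⟩) (ENNReal.natCast_ne_top _)

theorem GamOK.mono {C : ℝ} {D L : ℕ} {Γ Γ' : ℝ≥0∞} (h : GamOK C D L Γ) (hΓ : Γ ≤ Γ')
    (ht : Γ' ≠ ∞) : GamOK C D L Γ' := ⟨ht, h.2.trans hΓ⟩

theorem GamOK.sq_le {C : ℝ} {D L : ℕ} {Γ : ℝ≥0∞} (h : GamOK C D L Γ) :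
    (3 * ENNReal.ofReal (1 + 4 * EE C D)) ^ 2 ≤ Γ := by
  refine le_trans ?_ h.2
  have h1 : (1 : ℝ≥0∞) ≤ (((2 * L + 3) ^ 2 : ℕ) : ℝ≥0∞) := by
    exact_mod_cast Nat.one_le_pow _ _ (by omega)
  calc (3 * ENNReal.ofReal (1 + 4 * EE C D)) ^ 2
      = 1 * ((3 * ENNReal.ofReal (1 + 4 * EE C D)) ^ 2 * 1) := by ring
    _ ≤ _ := mul_le_mul' (by norm_num) (mul_le_mul' le_rfl h1)

theorem GamOK.small {C : ℝ} {D L : ℕ} {Γ : ℝ≥0∞} (h : GamOK C D L Γ) :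
    (3 * ENNReal.ofReal (1 + 4 * EE C D)) ^ 2 * Γ⁻¹ * (((2 * L + 3) ^ 2 : ℕ) : ℝ≥0∞) ≤ 1 / 8 := by
  have h3 : (3 * ENNReal.ofReal (1 + 4 * EE C D)) ^ 2 * (((2 * L + 3) ^ 2 : ℕ) : ℝ≥0∞) ≤
      Γ * (1 / 8) := by
    calc (3 * ENNReal.ofReal (1 + 4 * EE C D)) ^ 2 * (((2 * L + 3) ^ 2 : ℕ) : ℝ≥0∞)
        = (8 * (1 / 8)) * ((3 * ENNReal.ofReal (1 + 4 * EE C D)) ^ 2 *
          (((2 * L + 3) ^ 2 : ℕ) : ℝ≥0∞)) := by
          rw [one_div, ENNReal.mul_inv_cancel (by norm_num) (by norm_num), one_mul]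
      _ = 8 * ((3 * ENNReal.ofReal (1 + 4 * EE C D)) ^ 2 *
          (((2 * L + 3) ^ 2 : ℕ) : ℝ≥0∞)) * (1 / 8) := by ring
      _ ≤ _ := mul_le_mul' h.2 le_rfl
  calc (3 * ENNReal.ofReal (1 + 4 * EE C D)) ^ 2 * Γ⁻¹ * (((2 * L + 3) ^ 2 : ℕ) : ℝ≥0∞)
      = ((3 * ENNReal.ofReal (1 + 4 * EE C D)) ^ 2 * (((2 * L + 3) ^ 2 : ℕ) : ℝ≥0∞)) * Γ⁻¹ := by
        ring
    _ ≤ (Γ * (1 / 8)) * Γ⁻¹ := mul_le_mul' h3 le_rfl
    _ = Γ * Γ⁻¹ * (1 / 8) := by ring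
    _ ≤ 1 * (1 / 8) := mul_le_mul' (ENNReal.mul_inv_le_one _) le_rfl
    _ = 1 / 8 := one_mul _

/-- the condition on `Γ` holds for large `Γ` -/
theorem exists_gam (C : ℝ) (D L : ℕ) :
    ∃ Γ0 : ℝ≥0∞, Γ0 ≠ ∞ ∧ ∀ Γ, Γ0 ≤ Γ → Γ ≠ ∞ → GamOK C D L Γ :=
  ⟨8 * ((3 * ENNReal.ofReal (1 + 4 * EE C D)) ^ 2 * (((2 * L + 3) ^ 2 : ℕ) : ℝ≥0∞)),
    ENNReal.mul_ne_top (by norm_num) (ENNReal.mul_ne_top (ENNReal.pow_ne_top
      (ENNReal.mul_ne_top (by norm_num) ENNReal.ofReal_ne_top)) (ENNReal.natCast_ne_top _)),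
    fun _ h ht => ⟨ht, h⟩⟩

/-! ### `StepOK` -/

section step

variable {G : Type} [CommRing G] [CN G] [DecidableEq G] {ι : Type*}
variable {w : BW G} {C : ℝ} {Λ r0 R0 D l k0 n : ℕ} {loc : ι → G × G} {B Z Ac : Set (G × G)}
  {a a' : ℝ}

/-- **`StepOK` of `Comp2_889`** for a system whose covariance is `slC`, on a composite background -/
theorem stepOK_of_geo [Fintype ι] {Nm : ℕ} (hL : BigL C D Nm (1 / 8) (2 ^ l))
    (H : Geo w C Λ r0 R0 loc B Z Ac) {M K : ℕ} (F : FRD 16 M K) (hM : MM + 1 ≤ M)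
    (hw : ∀ z j, |w z j| ≤ 1) {S : Sys (G × G) (Fld G)} (hS : S.S n = slC F w l k0 n)
    {Γ CX : ℝ≥0∞} (hΓ : GamOK C D (2 ^ l) Γ) {ac em : Finset (G × G) → Prop}
    {Rc : ℕ} (hLΛ : 2 ^ l ≤ Λ) (hr0 : r0 ≤ rr l k0 n) (hR : 32 * rr l k0 (n + 1) ≤ R0)
    (ha : 0 < a) (ha2 : a' ≤ 2 * a) (hcW : W0Sx897.cW0 F l k0 n ≤ a')
    (hact : ∀ U, ac U → ∀ x ∈ U, x ∈ Ac)
    (hcon : ∀ U, ac U → Packx915.Conn fd Rc U)
    (hRc : 4 * Rc + 3 * rr l k0 n + 2 ≤ rr l k0 (n + 1))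
    (hsep : ∀ i j, i ≠ j → 2 * (rr l k0 (n + 1) + D * rr l k0 n) < fd (loc i) (loc j))
    (hnear : ∀ U, ac U → size (rr l k0 n) U ≤ 1 → ¬ em U → ∃ x ∈ U,
      (∃ y ∈ B, fd y x + rr l k0 n ≤ D * rr l k0 n) ∨
      (∃ z ∈ Z, fd z x + rr l k0 n ≤ D * rr l k0 n) ∨
      ∃ i, fd (loc i) x + rr l k0 n ≤ D * rr l k0 n)
    (hNb : DCount fd B (rr l k0 (n + 1) + D * rr l k0 n) (rr l k0 n) (8 * (2 ^ l + D) + 1))
    (hNm : DCount fd Z (rr l k0 (n + 1) + D * rr l k0 n) (rr l k0 n) Nm)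
    (hX : XBd w a a' (rr l k0 n) (rr l k0 (n + 1)) ac S n CX) :
    StepOK S w Γ n a a' (rr l k0 n) (rr l k0 (n + 1)) ac em (1 / 4) (CFc C D (2 ^ l) CX) := by
  have hr : 0 < rr l k0 n := rr_pos l k0 n
  have hcp : 0 < W0Sx897.cW0 F l k0 n := W0Sx897.cW0_pos F l k0 n
  have ha' : 0 < a' := lt_of_lt_of_le hcp hcW
  have hE := EE_pos H.one_le D
  have hc3 : (1 : ℝ≥0∞) ≤ 3 := by norm_num
  have hdiv : rr l k0 (n + 1) / rr l k0 n = 2 ^ l := by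
    rw [rr_succ]; exact Nat.mul_div_cancel _ hr
  refine ⟨Kd, inferInstance, dset loc B Z, fun _ => D * rr l k0 n,
    dN (8 * (2 ^ l + D) + 1) Nm, dq (EE C D) (Real.sqrt (1 / (2 ^ l : ℕ))),
    (3 * ENNReal.ofReal (1 + 4 * EE C D)) ^ 2 * Γ⁻¹, ENNReal.ofReal (1 + 4 * EE C D), CX, ?_, hX,
    ?_, ?_⟩
  · rw [hS, rr_succ]
    rw [rr_succ] at hR hRc hNb hNm
    refine RegIx893.Geo.dstepL hL H (W0Sx897.gramS F w hw l k0 n) hLΛ hr0 hR hr ha ha'.le ha2 (fun U _ => ?_)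
      hact hcon hRc (fun i j hij => ?_) hnear hNb hNm hΓ.1 hc3 hΓ.sq_le
    · rw [← rr_succ]
      exact W0Sx897.w0S F hM w hw l k0 n hcW U
    · rw [← rr_succ]
      exact hsep i j hij
  · unfold kapD nn2
    rw [hdiv]
    have h1 := hΓ.small
    have h2 := hL.sum_le (r := rr l k0 n) (Nb := 8 * (2 ^ l + D) + 1) H.one_le hr le_rfl
    refine (add_le_add h1 h2).trans (le_of_eq ?_)
    rw [ENNReal.ofReal_div_of_pos (by norm_num), ENNReal.ofReal_one, ENNReal.ofReal_ofNat,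
      ← ENNReal.add_div, ENNReal.div_eq_div_iff (by norm_num) (by norm_num) (by norm_num)
      (by norm_num)]
    norm_num
  · unfold cF nn2 CFc
    rw [hdiv]
    refine mul_le_mul' (add_le_add (add_le_add ?_ le_rfl) le_rfl) le_rfl
    calc (3 * ENNReal.ofReal (1 + 4 * EE C D)) ^ 2 * Γ⁻¹ ≤ Γ * Γ⁻¹ := mul_le_mul' hΓ.sq_le le_rfl
      _ ≤ 1 := ENNReal.mul_inv_le_one _

end step

end Crest.Agent.R165.WPackx893
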