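import Crest.Agent.R165.KMap_892
import Crest.Agent.R165.Pack_915

/-!
# Row 165: K-representation, part 5 : supports of the reclustered activity (helper892)

* `wt_ne_zero`, `exists_item_set` : where `KK W ≠ 0` comes from
* `KK_conn` : activities supported on `R'`-connected sets stay so after reclustering
* `KK_mem` : `KK W` lies in any localisation class containing the activities of the subsets of `W`
* `ZZ_mem`
* `KK_add_smul` style congruences: `KK_zero`
-/

set_option autoImplicit false
set_option linter.unusedSectionVars false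
set_option linter.unusedVariables false

open Finset

namespace Crest.Agent.R165.KConnx892

open KCompx892 KStepx892 KMapx892

variable {F : Type*} [DecidableEq F] {R : Type*} [CommRing R]

lemma wt_ne_zero {near : F → F → Prop} {K B : Finset F → R}
    {T : Finset (Finset F ⊕ Finset F)} (h : wt near K B T ≠ 0) :
    Good near T ∧ ∀ t ∈ T, Sum.elim K B t ≠ 0 := by
  classical
  unfold wt at h
  by_cases hg : Good near T
  · rw [if_pos hg] at h
    refine ⟨hg, fun t ht h0 => h ?_⟩
    exact Finset.prod_eq_zero ht h0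
  · rw [if_neg hg] at h
    exact absurd rfl h

lemma exists_item_set {near near' : F → F → Prop} {K B : Finset F → R} {W : Finset F}
    (h : KK near near' K B W ≠ 0) :
    ∃ T : Finset (Finset F ⊕ Finset F), T ⊆ itm W ∧ Conn (itr near') T ∧ spp T = W ∧
      Good near T ∧ ∀ t ∈ T, Sum.elim K B t ≠ 0 := by
  classical
  unfold KK at h
  obtain ⟨T, hT, hne⟩ := Finset.exists_ne_zero_of_sum_ne_zero h
  rw [Finset.mem_filter, Finset.mem_powerset] at hT
  have := wt_ne_zero hne
  exact ⟨T, hT.1, hT.2.1, hT.2.2, this.1, this.2⟩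

/-- activities supported on `R'`-connected sets stay so after reclustering at range `R'` -/
theorem KK_conn {d : F → F → ℕ} {R' : ℕ} {near : F → F → Prop} {K B : Finset F → R}
    (hK : ∀ U : Finset F, U.Nonempty → K U ≠ 0 → Packx915.Conn d R' U)
    (hB : ∀ U : Finset F, U.Nonempty → B U ≠ 0 → Packx915.Conn d R' U) {W : Finset F}
    (h : KK near (fun a b => d a b ≤ R') K B W ≠ 0) : Packx915.Conn d R' W := by
  classical
  obtain ⟨T, hTW, hconn, hspp, hg, hne⟩ := exists_item_set h
  have hTT : ∀ t ∈ T, Packx915.Conn d R' (sp t) := by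
    intro t ht
    have h1 := hne t ht
    have h2 := hg.ne t ht
    rcases t with U | U
    · exact hK U h2 h1
    · exact hB U h2 h1
  have := Packx915.conn_biUnion (d := d) (R := R') T sp hTT ?_
  · have e : T.biUnion sp = W := hspp
    convert this using 1
    rw [← e]
    congr
    exact Subsingleton.elim _ _
  · intro J hJ hJne hJT
    by_contra hcon
    push Not at hcon
    refine hJT (hconn.2 J hJ hJne ?_)
    rintro i hi j hj ⟨a, ha, b, hb, hab⟩
    rw [Finset.mem_sdiff] at hj
    have := hcon i hi j hj.1 hj.2 a ha b hb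
    omega

/-- **localisation classes**: `G U` monotone family of subrings -/
theorem KK_mem {near near' : F → F → Prop} {K B : Finset F → R} (G : Finset F → Subring R)
    (hG : ∀ U W : Finset F, U ⊆ W → G U ≤ G W) {W : Finset F}
    (hK : ∀ U ⊆ W, U.Nonempty → K U ∈ G U) (hB : ∀ U ⊆ W, U.Nonempty → B U ∈ G U) :
    KK near near' K B W ∈ G W := by
  classical
  unfold KK
  refine Subring.sum_mem _ fun T hT => ?_
  rw [Finset.mem_filter, Finset.mem_powerset] at hT
  unfold wt
  split_ifs with hg
  · refine Subring.prod_mem _ fun t ht => ?_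
    have h := mem_itm.1 (hT.1 ht)
    rcases t with U | U
    · exact hG U W h.1 (hK U h.1 h.2)
    · exact hG U W h.1 (hB U h.1 h.2)
  · exact Subring.zero_mem _

/-- membership with respect to one fixed subring -/
theorem KK_mem' {near near' : F → F → Prop} {K B : Finset F → R} (S : Subring R) {W : Finset F}
    (hK : ∀ U ⊆ W, U.Nonempty → K U ∈ S) (hB : ∀ U ⊆ W, U.Nonempty → B U ∈ S) :
    KK near near' K B W ∈ S :=
  KK_mem (fun _ => S) (fun _ _ _ => le_rfl) hK hB

theorem ZZ_mem {near : F → F → Prop} {K : Finset F → R} (S : Subring R) {Λ : Finset F}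
    (hK : ∀ U ⊆ Λ, U.Nonempty → K U ∈ S) : ZZ near Λ K ∈ S := by
  classical
  unfold ZZ
  refine Subring.sum_mem _ fun P hP => Subring.prod_mem _ fun U hU => ?_
  rw [Finset.mem_filter, Finset.mem_powerset] at hP
  exact hK U (Finset.mem_powerset.1 (hP.1 hU)) (hP.2.ne U hU)

/-- the polymer gas without activities -/
theorem ZZ_zero {near : F → F → Prop} {K : Finset F → R} {Λ : Finset F}
    (hK : ∀ U ⊆ Λ, U.Nonempty → K U = 0) : ZZ near Λ K = 1 := by
  classical
  unfold ZZ
  rw [Finset.sum_eq_single (∅ : Finset (Finset F))]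
  · simp
  · intro P hP hne
    rw [Finset.mem_filter, Finset.mem_powerset] at hP
    obtain ⟨U, hU⟩ := Finset.nonempty_iff_ne_empty.2 hne
    exact Finset.prod_eq_zero hU (hK U (Finset.mem_powerset.1 (hP.1 hU)) (hP.2.ne U hU))
  · intro h
    refine absurd (Finset.mem_filter.2 ⟨Finset.empty_mem_powerset _, ?_⟩) h
    exact ⟨fun U hU => absurd hU (Finset.notMem_empty _),
      fun U hU => absurd hU (Finset.notMem_empty _)⟩

/-- the partition function only sees the polymers with nonzero activity: the volume may be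
enlarged or reduced -/
theorem ZZ_volume {near : F → F → Prop} {K : Finset F → R} {Λ Λ' : Finset F} (h : Λ ⊆ Λ')
    (hK : ∀ U ⊆ Λ', U.Nonempty → ¬ U ⊆ Λ → K U = 0) : ZZ near Λ' K = ZZ near Λ K := by
  classical
  unfold ZZ
  symm
  refine Finset.sum_subset ?_ ?_
  · intro P hP
    rw [Finset.mem_filter, Finset.mem_powerset] at hP ⊢
    exact ⟨hP.1.trans (Finset.powerset_mono.2 h), hP.2⟩
  · intro P hP hP'
    rw [Finset.mem_filter, Finset.mem_powerset] at hP hP'
    have : ∃ U ∈ P, ¬ U ⊆ Λ := by
      by_contra hcon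
      push Not at hcon
      exact hP' ⟨fun U hU => Finset.mem_powerset.2 (hcon U hU), hP.2⟩
    obtain ⟨U, hU, hUΛ⟩ := this
    exact Finset.prod_eq_zero hU
      (hK U (Finset.mem_powerset.1 (hP.1 hU)) (hP.2.ne U hU) hUΛ)

end Crest.Agent.R165.KConnx892
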