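import Crest.Agent.R165.LinStep2_417
import Crest.Agent.R165.Loc_901

/-!
# Row 165 (S0250), block G: `loc2` of LinStep_417 is `Loc` of Loc_901; rank of the mode projections
-/

set_option autoImplicit false
set_option linter.unusedSectionVars false

noncomputable section

namespace Crest.Agent.R165.PNormx417

open Crest.Agent.R165.Gr0x606 Crest.Agent.R165.Locx901
open scoped ENNReal

variable {V : Type*} [AddCommGroup V] [Module ℝ V]
variable {ι κ : Type*} [Fintype ι] [Fintype κ]

theorem loc2_eq_Loc (M : Modes V ι κ) (F : Gr V) : loc2 M.P0 M.P1 F = Loc M F := by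
  refine linear_ext (fun L => ?_) F
  match L with
  | [] =>
    rw [mono_nil, Loc_one, loc2, LinearMap.comp_apply, ← mono_nil, hom_mono, if_neg (by simp),
      map_zero]
  | [x] =>
    rw [mono_singleton, Loc_fi, loc2, LinearMap.comp_apply, ← mono_singleton, hom_mono,
      if_neg (by simp), map_zero]
  | [x, y] =>
    rw [loc2_mono, mono_cons, mono_singleton, Loc_fi_fi]
  | x :: y :: z :: L =>
    rw [mono_cons, mono_cons, mono_cons, Loc_three, ← mono_cons, ← mono_cons, ← mono_cons, loc2,
      LinearMap.comp_apply, hom_mono, if_neg (by simp), map_zero]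

theorem range_P0_le (M : Modes V ι κ) :
    LinearMap.range M.P0 ≤ Submodule.span ℝ (Set.range M.p) := by
  rintro _ ⟨x, rfl⟩
  rw [M.P0_apply]
  exact Submodule.sum_mem _ fun i _ => Submodule.smul_mem _ _ (Submodule.subset_span ⟨i, rfl⟩)

theorem range_P1_le (M : Modes V ι κ) :
    LinearMap.range M.P1 ≤ Submodule.span ℝ (Set.range M.q) := by
  rintro _ ⟨x, rfl⟩
  rw [M.P1_apply]
  exact Submodule.sum_mem _ fun i _ => Submodule.smul_mem _ _ (Submodule.subset_span ⟨i, rfl⟩)

instance finDim_range_P0 (M : Modes V ι κ) : FiniteDimensional ℝ (LinearMap.range M.P0) := by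
  haveI : FiniteDimensional ℝ (Submodule.span ℝ (Set.range M.p)) :=
    FiniteDimensional.span_of_finite ℝ (Set.finite_range _)
  exact Submodule.finiteDimensional_of_le (range_P0_le M)

theorem finrank_range_P0 (M : Modes V ι κ) :
    Module.finrank ℝ (LinearMap.range M.P0) ≤ Fintype.card ι := by
  haveI : FiniteDimensional ℝ (Submodule.span ℝ (Set.range M.p)) :=
    FiniteDimensional.span_of_finite ℝ (Set.finite_range _)
  exact (Submodule.finrank_mono (range_P0_le M)).trans (finrank_range_le_card M.p)

end Crest.Agent.R165.PNormx417
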