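import Crest.Agent.R165.QuadB_915
import Crest.Agent.R165.ChartU_432
import Crest.Agent.R165.GSys2_387
import Crest.Agent.R165.GSysOK_439
import Crest.Agent.R165.W2_812
import Crest.Agent.R165.LocBridge_417
import Crest.Agent.R165.BoxRay_432
import Crest.Agent.R165.CmpA_432
import Crest.Agent.R165.KConn_892

/-!
# Row 165, block G/P: the extraction maps of a composite background are bounded (helper915)

* `WLe.transport` : weight inequalities of the plane hold in every background at plane-like faces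
* `LocC_eq_loc2` : localisation through a chart is `loc2` of the transported mode projections
* `pnorm_loc2_conv` : `‖loc2 (conv S F)‖' ≤ 12 p² ‖F‖`
* `xloc_le` : the localised part of a small polymer at a deep face
* `xbd_sys`, `vacCt_sys`, `embExtr_sys`, `deep_sys`, `near_sys`, `ac_sys` : the hypotheses of
  `step_all` for the concrete system `sys D w mk l k0 K0` of `GSys_387`
* `step_sys` : **one step of the concrete flow**; `ct_sys` : the constants of a step
-/

set_option autoImplicit false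
set_option linter.unusedSectionVars false

open scoped ENNReal
open Crest.Agent.R165.Gr0x606 Crest.Agent.R165.Gr1x606 Crest.Agent.R165.GeOpsx337
  Crest.Agent.R165.ExpGx337 Crest.Agent.R165.KFlowx337 Crest.Agent.R165.GrLocx337
open Crest.Agent.R165.Latx683 Crest.Agent.R165.PNormx417
open Crest.Agent.R165.GDefx387 Crest.Agent.R165.Packx915 Crest.Agent.R165.NSumx915
open Crest.Agent.R165.Bridgex915 Crest.Agent.R165.DefStepx915 Crest.Agent.R165.NKDefx915
open Crest.Agent.R165.BgIsox432 Crest.Agent.R165.PlaneModesx901 Crest.Agent.R165.PlaneLocx901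
open Crest.Agent.R165.Locx901 Crest.Agent.R165.DefRecx915

namespace Crest.Agent.R165.XBdx915

variable {G : Type} [CommRing G] [CN G]

/-! ### transport of weight inequalities -/

/-- **transport**: a weight inequality of the background `w'` holds for the background `w` near faces
where `w` is isomorphic to `w'` -/
theorem WLe.transport [CNZ G] {G' : Type} [CommRing G'] [CN G'] [CNZ G'] {w : BW G} {w' : BW G'}
    {Z : Set (G × G)} (b : BgIso w w' Z)
    {a a' : ℝ} {r r' : ℕ} {x f : G × G} (hx : ball x (s1 * r + MM) ⊆ Z)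
    (hf : ball f (s1 * r' + MM) ⊆ Z) {P : Fld G' →ₗ[ℝ] Fld G'} {p : ℝ≥0∞}
    (h : WLe w' a a' r r' (b.τ x) (b.τ f) P p) :
    WLe w a a' r r' x f (b.pull ∘ₗ P ∘ₗ b.push) p := by
  intro l hl
  have hs : SuppL (ball (b.τ x) (s0 * r)) (b.push l) := by
    refine b.push_mem (fun g hg => ?_) hl
    rw [mem_ball, b.iso x (hx (mem_ball_self x _)) g (hx (ball_mono x (s0_le_s1 r) hg))]
    exact hg
  obtain ⟨h1, h2⟩ := h (b.push l) hs
  have h0 : ball f (s0 * r') ⊆ Z := (ball_mono f (s0_le_s1 r')).trans hf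
  have hm : P (b.push l) ∈ fldS (b.τ '' ball f (s0 * r')) := by
    rw [b.image_ball h0]; exact h1
  have hs' : SuppL (ball f (s0 * r')) (b.pull (P (b.push l))) := b.pull_mem h0 hm
  refine ⟨hs', ?_⟩
  show wt w a' r' f (b.pull (P (b.push l))) ≤ p * wt w a r x l
  rw [← wt_push b a' hf (fldS_mono (ball_mono f (s0_le_s1 r')) hs'),
    b.push_pull (fldS_mono (Set.image_mono h0) hm)]
  refine h2.trans (le_of_eq ?_)
  rw [wt_push b a hx (fldS_mono (ball_mono x (s0_le_s1 r)) hl)]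

/-! ### localisation through a chart -/

/-- localisation through a chart is `loc2` of the transported projections -/
theorem LocC_eq_loc2 {w : BW G} {Z : Set (G × G)} (b : BgIso w (wPl ℤ) Z) (f : G × G)
    (a : Gr (Fld G)) : b.LocC f a =
      loc2 (b.pull ∘ₗ (md (b.τ f)).P0 ∘ₗ b.push) (b.pull ∘ₗ (md (b.τ f)).P1 ∘ₗ b.push) a := by
  rw [b.LocC_apply]
  have h1 : LocAt (b.τ f) (mp b.push a) =
      loc2 (md (b.τ f)).P0 (md (b.τ f)).P1 (mp b.push a) :=
    (loc2_eq_Loc (md (b.τ f)) (mp b.push a)).symm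
  have e : b.pull ∘ₗ ((md (b.τ f)).P0 + (md (b.τ f)).P1) ∘ₗ b.push =
      b.pull ∘ₗ (md (b.τ f)).P0 ∘ₗ b.push + b.pull ∘ₗ (md (b.τ f)).P1 ∘ₗ b.push := by
    rw [LinearMap.add_comp, LinearMap.comp_add]
  rw [h1]
  unfold loc2
  simp only [LinearMap.comp_apply, LinearMap.sub_apply, AlgHom.toLinearMap_apply, map_sub]
  rw [hom_mp, mp_mp, mp_mp, mp_mp, mp_mp, ← e]
  rfl

/-! ### the bound -/

/-- `loc2` after a convolution is bounded -/
theorem pnorm_loc2_conv {V : Type*} [AddCommGroup V] [Module ℝ V] {S : Cov V} {g : V → ℝ≥0∞}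
    (hg : Gram S g) (Q0 Q1 : V →ₗ[ℝ] V) {w w' : V → ℝ≥0∞} {p : ℝ≥0∞} (hpt : p ≠ ∞) (hp0 : p ≠ 0)
    (hgw : ∀ l, g l ≤ 1 / 2 * w l) (h0 : ∀ l, w' (Q0 l) ≤ p * w l) (h1 : ∀ l, w' (Q1 l) ≤ p * w l)
    (F : Gr V) : pnorm w' (loc2 Q0 Q1 (conv S F)) ≤ 12 * p ^ 2 * pnorm w F := by
  by_cases hF : pnorm w F = ∞
  · rw [hF, ENNReal.mul_top]
    · exact le_top
    · exact mul_ne_zero (by norm_num) (pow_ne_zero _ hp0)
  set v : V → ℝ≥0∞ := fun l => 1 / 2 * w l with hv
  have hconv : pnorm v (conv S F) ≤ pnorm w F := by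
    refine pnorm_conv_le hg (fun l => ?_) F
    calc v l + g l ≤ 1 / 2 * w l + 1 / 2 * w l := add_le_add le_rfl (hgw l)
      _ = w l := by rw [← add_mul, ENNReal.add_halves, one_mul]
  have hfin : pnorm v (conv S F) ≠ ∞ := ne_top_of_le_ne_top hF hconv
  have h2p : ∀ l, p * w l = (2 * p) * v l := by
    intro l
    have h22 : (2 : ℝ≥0∞) * (1 / 2) = 1 := ENNReal.mul_div_cancel (by norm_num) (by norm_num)
    calc p * w l = (2 * (1 / 2)) * (p * w l) := by rw [h22, one_mul]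
      _ = (2 * p) * v l := by simp only [hv]; ring
  have key := bound_of_mono (pnorm_semi w') (loc2 Q0 Q1) (w := v) (C := 12 * p ^ 2)
    (F := conv S F) (ENNReal.mul_ne_top (by norm_num) (ENNReal.pow_ne_top hpt)) (fun L _ => by
      by_cases hlen : L.length = 2
      · obtain ⟨x, y, rfl⟩ := List.length_eq_two.1 hlen
        rw [loc2_mono]
        have hm : ∀ a b : V, pnorm w' (fi a * fi b) ≤ w' a * w' b := fun a b => by
          have := pnorm_mono_le w' [a, b]
          simpa using this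
        have hb : ∀ {a b : V}, w' a ≤ p * w x → w' b ≤ p * w y →
            pnorm w' (fi a * fi b) ≤ ((2 * p) * v x) * ((2 * p) * v y) := fun {a b} ha hb => by
          rw [← h2p, ← h2p]
          exact (hm a b).trans (mul_le_mul' ha hb)
        refine (pnorm_add_le _ _ _).trans (le_trans (add_le_add ((pnorm_add_le _ _ _).trans
          (add_le_add (hb (h0 x) (h0 y)) (hb (h0 x) (h1 y)))) (hb (h1 x) (h0 y))) ?_)
        rw [mwt_cons, mwt_cons, mwt_nil]
        refine le_of_eq ?_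
        ring
      · have : loc2 Q0 Q1 (mono L) = 0 := by
          rw [← loc2_of_hom, hom_mono, if_neg hlen, map_zero]
        rw [this, pnorm_zero]
        exact zero_le) hfin
  exact key.trans (mul_le_mul' le_rfl hconv)

/-! ### the localised legs -/

open Classical in
/-- factor of the localised legs -/
noncomputable def pX (C a a' : ℝ) (r r' : ℕ) : ℝ≥0∞ :=
  ENNReal.ofReal (a' * Real.sqrt r' / (a * Real.sqrt r) * (160000 * C * ((r : ℝ) / r')))

theorem pX_ne_top (C a a' : ℝ) (r r' : ℕ) : pX C a a' r r' ≠ ∞ := ENNReal.ofReal_ne_top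

theorem pX_ne_zero {C a a' : ℝ} {r r' : ℕ} (hC : 0 < C) (ha : 0 < a) (ha' : 0 < a') (hr : 1 ≤ r)
    (hr' : 1 ≤ r') : pX C a a' r r' ≠ 0 := by
  have h1 : (0 : ℝ) < r := by exact_mod_cast hr
  have h2 : (0 : ℝ) < r' := by exact_mod_cast hr'
  unfold pX
  rw [Ne, ENNReal.ofReal_eq_zero, not_le]
  positivity

section legs

variable [CNZ G] {w : BW G} {Z : Set (G × G)} {C a a' : ℝ} {r r' : ℕ}

theorem wle_P0 (hC : W2x812.BkReg C) (b : BgIso w (wPl ℤ) Z) (ha : 0 < a) (ha' : 0 ≤ a')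
    (hr : 1 ≤ r) (hrr : r ≤ r') {x f : G × G} (hx : ball x (s1 * r + MM) ⊆ Z)
    (hf : ball f (s1 * r' + MM) ⊆ Z) :
    WLe w a a' r r' x f (b.pull ∘ₗ (md (b.τ f)).P0 ∘ₗ b.push) (pX C a a' r r') := by
  have hC0 := hC.nonneg
  have h1 : (0 : ℝ) < r := by exact_mod_cast hr
  have h2 : (0 : ℝ) < r' := by exact_mod_cast (hr.trans hrr)
  refine WLe.transport b hx hf (Wtx898.WLe.mono (W2x812.W2_P0 hC ha ha' hr (hr.trans hrr)) ?_)
  refine ENNReal.ofReal_le_ofReal (mul_le_mul_of_nonneg_left ?_ (by positivity))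
  have : 0 ≤ C * ((r : ℝ) / r') := by positivity
  nlinarith

theorem wle_P1 (hC : W2x812.BkReg C) (b : BgIso w (wPl ℤ) Z) (ha : 0 < a) (ha' : 0 ≤ a')
    (hr : 1 ≤ r) (hrr : r ≤ r') {x f : G × G} (hxf : fd x f ≤ r)
    (hx : ball x (s1 * r + MM) ⊆ Z) (hf : ball f (s1 * r' + MM) ⊆ Z) :
    WLe w a a' r r' x f (b.pull ∘ₗ (md (b.τ f)).P1 ∘ₗ b.push) (pX C a a' r r') := by
  have hC0 := hC.nonneg
  have h1 : (0 : ℝ) < r := by exact_mod_cast hr
  have h2 : (0 : ℝ) < r' := by exact_mod_cast (hr.trans hrr)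
  have hd : fd (b.τ x) (b.τ f) ≤ r := by
    rw [b.iso x (hx (mem_ball_self x _)) f (hf (mem_ball_self f _))]
    exact hxf
  refine WLe.transport b hx hf (Wtx898.WLe.mono (W2x812.W2_P1 hC ha ha' hr (hr.trans hrr) hd) ?_)
  refine ENNReal.ofReal_le_ofReal (mul_le_mul_of_nonneg_left ?_ (by positivity))
  have hq0 : 0 ≤ (r : ℝ) / r' := by positivity
  have hq : (r : ℝ) / r' ≤ 1 := by
    rw [div_le_one h2]; exact_mod_cast hrr
  have : ((r : ℝ) / r') ^ 2 ≤ (r : ℝ) / r' := by nlinarith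
  have h3 : 0 ≤ 160000 * C := by positivity
  exact mul_le_mul_of_nonneg_left this h3

/-- weights relative to a polymer from weights at its faces -/
theorem wU_le_of_wle {P : Fld G →ₗ[ℝ] Fld G} {p : ℝ≥0∞} (hp : p ≠ 0) {U : Finset (G × G)}
    {f : G × G} (h : ∀ x ∈ U, WLe w a a' r r' x f P p) (l : Fld G) :
    wU w a' r' {f} (P l) ≤ p * wU w a r U l :=
  GBulkx417.le_mul_wU hp fun x hx hl =>
    (GBulkx417.wU_le (Finset.mem_singleton_self f) (h x hx l hl).1).trans (h x hx l hl).2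

/-- **the localised part of a small polymer is small** (every background, at deep faces) -/
theorem xloc_le [DecidableEq G] [GoodG G] (hC : W2x812.BkReg C) (hC0 : 0 < C) (ha : 0 < a) (ha' : 0 < a')
    (hr : 1 ≤ r) (hrr : r ≤ r') {S : Cov (Fld G)} {g : Fld G → ℝ≥0∞} (hg : Gram S g)
    {U : Finset (G × G)} {f : G × G} (hf : f ∈ U) (hs : size r U ≤ 1) (he : Emb w r' {f})
    (hW : GLinx336.W0 w g a r (1 / 2) U) {K : Ge (Fld G)} (hK : K ∈ grG (GSysx387.fldU U)) :
    pG (wU w a' r' {f}) (GSysx387.LocG w f (cvG S K)) ≤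
      12 * pX C a a' r r' ^ 2 * pG (wU w a r U) K := by
  obtain ⟨p⟩ := he
  rw [nbhd_single] at p
  have hd := PStepx417.size_le_one_iff.1 hs
  have e1 : s1 = 64 := rfl
  have e2 : s2 = 128 := rfl
  have e3 : MM = 6 := rfl
  -- geometry
  have hZ : ∀ u ∈ U, ball u (s1 * r + MM) ⊆ ball f (s2 * r') := by
    intro u hu
    refine ball_subset_ball ?_
    have := hd f hf u hu
    rw [e1, e2, e3]
    omega
  have hf' : ball f (s1 * r' + MM) ⊆ ball f (s2 * r') := by
    refine ball_mono f ?_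
    rw [e1, e2, e3]
    omega
  have hloc : cvG S K ∈ grG (fldS (ball f (s2 * r'))) := by
    refine cvG_mem _ (grG_mono (fldS_mono ?_) hK)
    rintro z ⟨u, hu, hz⟩
    rw [mem_ball]
    have h1 := hd f hf u hu
    have h2 := fd_triangle f u z
    rw [e2]
    omega
  have hR : 1 ≤ s2 * r' := by rw [e2]; omega
  rw [GSysx387.LocG_eq (ofPlane p) hR subset_rfl hloc, pG_def, pG_def]
  show pnorm _ ((ofPlane p).LocC f ((cvG S K : Ge (Fld G)) : Gr (Fld G))) ≤ _
  rw [LocC_eq_loc2, coe_cvG]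
  have hp0 := pX_ne_zero (a := a) (a' := a') (r := r) (r' := r') hC0 ha ha' hr (hr.trans hrr)
  refine pnorm_loc2_conv hg _ _ (pX_ne_top C a a' r r') hp0 (fun l => ?_) (fun l => ?_)
    (fun l => ?_) _
  · exact GBulkx417.le_mul_wU (by simp) fun x hx hl => hW x hx l hl
  · exact wU_le_of_wle hp0 (fun x hx => wle_P0 hC _ ha ha'.le hr hrr (hZ x hx) hf') l
  · exact wU_le_of_wle hp0 (fun x hx => wle_P1 hC _ ha ha'.le hr hrr (hd x hx f hf) (hZ x hx) hf') l

end legs

/-! ### the extraction of `GSys_387` -/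

section sysx

variable [DecidableEq G]

/-- extraction at single faces is bounded as soon as the localisations are -/
theorem xbd_exF (p : G × G → Prop) [DecidablePred p] (Lo : G × G → Ge (Fld G) →ₗ[ℝ] Ge (Fld G))
    {w : BW G} {a a' : ℝ} {r r' : ℕ} {U : Finset (G × G)} {H K : Ge (Fld G)} {CX : ℝ≥0∞}
    (h : size r U ≤ 1 → ∀ f ∈ U, p f → pG (wU w a' r' {f}) (Lo f H) ≤ CX * pG (wU w a r U) K) :
    ∑ T ∈ (PStepx417.exF p Lo r).out U, pG (wU w a' r' T) ((PStepx417.exF p Lo r).X U T H) ≤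
      CX * pG (wU w a r U) K := by
  show ∑ T ∈ PStepx417.exOut p r U, _ ≤ _
  unfold PStepx417.exOut
  split_ifs with hs
  · rw [Finset.sum_image (fun a _ b _ hab => Finset.singleton_injective hab)]
    have h1 : ∀ f ∈ U.filter p, pG (wU w a' r' {f}) ((PStepx417.exF p Lo r).X U {f} H) ≤
        ‖(U.card : ℝ)⁻¹‖ₑ * (CX * pG (wU w a r U) K) := by
      intro f hf
      rw [Finset.mem_filter] at hf
      rw [PStepx417.exF_X, Finset.sum_singleton]
      exact (pG_smul_le _ _ _).trans (mul_le_mul' le_rfl (h hs f hf.1 hf.2))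
    refine (Finset.sum_le_sum h1).trans ?_
    rw [Finset.sum_const, nsmul_eq_mul, ← mul_assoc]
    refine mul_le_of_le_one_left zero_le ?_
    rcases U.eq_empty_or_nonempty with h0 | h0
    · subst h0; simp
    · have hc : 0 < U.card := h0.card_pos
      have hc' : (0 : ℝ) < U.card := by exact_mod_cast hc
      calc ((U.filter p).card : ℝ≥0∞) * ‖(U.card : ℝ)⁻¹‖ₑ
          ≤ (U.card : ℝ≥0∞) * ‖(U.card : ℝ)⁻¹‖ₑ :=
            mul_le_mul' (Nat.cast_le.2 (Finset.card_filter_le _ _)) le_rfl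
        _ = ENNReal.ofReal (U.card * (U.card : ℝ)⁻¹) := by
            rw [Real.enorm_eq_ofReal (by positivity), ENNReal.ofReal_mul (by positivity),
              ENNReal.ofReal_natCast]
        _ = 1 := by rw [mul_inv_cancel₀ hc'.ne', ENNReal.ofReal_one]
  · rw [Finset.sum_empty]
    exact zero_le

variable [CNZ G] {w : BW G} {M K : ℕ} (D : FRDPolyx439.FRD 16 M K) {mk : Finset (G × G)}
  {l k0 : ℕ} {K0 : Finset (G × G) → Ge (Fld G)}

/-- **the extraction maps are bounded**: hypothesis `XBd` of `step_all` -/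
theorem xbd_sys [GoodG G] {C a a' : ℝ} (hC : W2x812.BkReg C) (hC0 : 0 < C) (ha : 0 < a)
    (ha' : 0 < a') {n : ℕ} (hOK : (GSysx387.sys D w mk l k0 K0).OK ⊥)
    {g : Fld G → ℝ≥0∞} (hg : Gram (GSysx387.slC D w l k0 n) g) {ac : Finset (G × G) → Prop}
    (hW : ∀ U, ac U → size (GSysx387.rr l k0 n) U ≤ 1 →
      GLinx336.W0 w g a (GSysx387.rr l k0 n) (1 / 2) U) :
    XBd w a a' (GSysx387.rr l k0 n) (GSysx387.rr l k0 (n + 1)) ac (GSysx387.sys D w mk l k0 K0) n
      (12 * pX C a a' (GSysx387.rr l k0 n) (GSysx387.rr l k0 (n + 1)) ^ 2) := by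
  classical
  intro U hU
  refine xbd_exF (GSysx387.deep w mk l k0 n) (GSysx387.LocG w) fun hs f hf hdeep => ?_
  exact xloc_le hC hC0 ha ha' (GSysx387.rr_pos l k0 n) (GSysx387.rr_mono l k0 (Nat.le_succ n)) hg hf
    hs hdeep.1 (hW U hU hs) (Sys.K_mem hOK n U)

theorem vacCt_sys : VacCt (GSysx387.sys D w mk l k0 K0) := fun x => PStepx417.vac0_apply x

/-- `deep` of `GSys_387` is `emM` of `DefRec_915` -/
theorem deep_iff_emM {n : ℕ} {f : G × G} : GSysx387.deep w mk l k0 n f ↔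
    emM w (mk : Set (G × G)) (GSysx387.rr l k0 (n + 1)) {f} := by
  unfold GSysx387.deep emM
  simp

theorem embExtr_sys (n : ℕ) : EmbExtr (GSysx387.rr l k0 n)
    (emM w (mk : Set (G × G)) (GSysx387.rr l k0 (n + 1))) ((GSysx387.sys D w mk l k0 K0).e n) := by
  intro U T hT
  obtain ⟨hs, f, hf, hd, rfl⟩ := GSysx387.mem_bulk_out.1 hT
  exact ⟨hs, f, hf, rfl, deep_iff_emM.1 hd⟩

theorem deep_sys [GoodG G] (hl : 1 ≤ l) (n : ℕ) :
    Deep (GSysx387.rr l k0 n) (emM w (mk : Set (G × G)) (GSysx387.rr l k0 n))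
      (emM w (mk : Set (G × G)) (GSysx387.rr l k0 (n + 1))) := by
  refine deep_emM w _ ?_
  rw [GSysx387.rr_succ]
  have h2 : 2 ≤ 2 ^ l := by
    calc 2 = 2 ^ 1 := rfl
      _ ≤ 2 ^ l := Nat.pow_le_pow_right (by norm_num) hl
  have e2 : s2 = 128 := rfl
  have := Nat.mul_le_mul_right (GSysx387.rr l k0 n) h2
  rw [e2]
  omega

theorem near_sys (k : ℕ) : (GSysx387.sys D w mk l k0 K0).near k =
    fun x y => fd x y ≤ GSysx387.nearR l k0 k := rfl

end sysx

/-! ### the polymers which occur -/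

section supp

variable {F V : Type*} [DecidableEq F] [AddCommGroup V] [Module ℝ V]

/-- connected at range `R`, inside `Λ` -/
def acS {X : Type*} (d : X → X → ℕ) (R : ℕ) (Λ : Set X) (U : Finset X) : Prop :=
  U.Nonempty ∧ Packx915.Conn d R U ∧ (U : Set X) ⊆ Λ

theorem KK_acS {d : F → F → ℕ} {R' : ℕ} {Λ : Set F} {near : F → F → Prop} {A : Type*} [CommRing A]
    {K B : Finset F → A} (hK : ∀ U, K U ≠ 0 → acS d R' Λ U) (hB : ∀ U, B U ≠ 0 → acS d R' Λ U)
    {W : Finset F} (hW : W.Nonempty)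
    (h : KStepx892.KK near (fun a b => d a b ≤ R') K B W ≠ 0) : acS d R' Λ W := by
  classical
  refine ⟨hW, KConnx892.KK_conn (fun U _ h => (hK U h).2.1) (fun U _ h => (hB U h).2.1) h, ?_⟩
  obtain ⟨T, hTW, hconn, hspp, hg, hne⟩ := KConnx892.exists_item_set h
  intro x hx
  have hx' : x ∈ KStepx892.spp T := by rw [hspp]; exact hx
  obtain ⟨t, ht, hxt⟩ := KStepx892.mem_spp.1 hx'
  have h1 := hne t ht
  rcases t with U | U
  · exact (hK U h1).2.2 hxt
  · exact (hB U h1).2.2 hxt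

/-- **the polymers of the flow**: connected at the range of the scale, inside `Λ` -/
theorem K_acS (D : Sys F V) {d : F → F → ℕ} {R : ℕ → ℕ} (hR : Monotone R)
    (hnear : ∀ k, D.near k = fun x y => d x y ≤ R k) {Λ : Set F}
    (h0 : ∀ U, D.K0 U ≠ 0 → acS d (R 0) Λ U)
    (hsing : ∀ k U, ∀ T ∈ (D.e k).out U, ∃ f ∈ U, T = {f}) :
    ∀ k U, D.K k U ≠ 0 → acS d (R k) Λ U := by
  intro k
  induction k with
  | zero => exact h0
  | succ k ih =>
    intro W hW
    have hRk : R k ≤ R (k + 1) := hR (Nat.le_succ k)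
    have hH : ∀ U, D.H k U ≠ 0 → acS d (R (k + 1)) Λ U := by
      intro U hU
      have hK : D.K k U ≠ 0 := fun h => hU (by rw [Sys.H, h, map_zero])
      obtain ⟨h1, h2, h3⟩ := ih U hK
      exact ⟨h1, h2.mono hRk, h3⟩
    have hB : ∀ U, D.B k U ≠ 0 → acS d (R (k + 1)) Λ U := by
      intro U hU
      by_cases hHU : D.H k U = 0
      · -- only gain
        have hg : (D.e k).gain (D.H k) U ≠ 0 := by
          intro hg
          apply hU
          have hl : (D.e k).lost (D.H k) U = 0 := by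
            rw [Extr.lost]
            exact Finset.sum_eq_zero fun T _ => by rw [hHU, map_zero]
          rw [Sys.B_eq, Sys.A, AA, hg, hl, hHU, map_zero, sub_zero, sub_zero, gexp_zero, sub_self]
        rw [Extr.gain] at hg
        obtain ⟨U', hU', hne⟩ := Finset.exists_ne_zero_of_sum_ne_zero hg
        have hH' : D.H k U' ≠ 0 := fun h => hne (by rw [h, map_zero])
        obtain ⟨f, hf, rfl⟩ := hsing k U' U (((D.e k).mem_iff U' U).2 hU')
        obtain ⟨-, -, h3⟩ := hH U' hH'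
        refine ⟨Finset.singleton_nonempty f, Packx915.conn_singleton f, ?_⟩
        intro x hx
        rw [Finset.coe_singleton, Set.mem_singleton_iff] at hx
        rw [hx]
        exact h3 hf
      · exact hH U hHU
    have hWne : W.Nonempty := by
      rw [Finset.nonempty_iff_ne_empty]
      intro h0
      rw [h0] at hW
      exact hW (D.K_empty k)
    rw [D.K_succ, hnear (k + 1)] at hW
    exact KK_acS hH hB hWne hW

end supp

/-- the polymers of the flow of `GSys_387` -/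
theorem ac_sys [DecidableEq G] [CNZ G] {w : BW G} {M K : ℕ} (D : FRDPolyx439.FRD 16 M K)
    {mk : Finset (G × G)} {l k0 : ℕ} {K0 : Finset (G × G) → Ge (Fld G)} {Λ : Set (G × G)}
    (h0 : ∀ U, K0 U ≠ 0 → acS fd (GSysx387.nearR l k0 0) Λ U) (k : ℕ) (U : Finset (G × G))
    (hU : (GSysx387.sys D w mk l k0 K0).K k U ≠ 0) : acS fd (GSysx387.nearR l k0 k) Λ U := by
  refine K_acS (GSysx387.sys D w mk l k0 K0) (R := GSysx387.nearR l k0)
    (fun _ _ h => GSysx387.nearR_mono l k0 h) (fun _ => rfl) h0 (fun k U T hT => ?_) k U hU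
  obtain ⟨_, f, hf, _, rfl⟩ := GSysx387.mem_bulk_out.1 hT
  exact ⟨f, hf, rfl⟩

/-! ### one step of the concrete flow -/

section stepsys

variable [DecidableEq G] [CNZ G] [GoodG G] {w : BW G} {M K : ℕ} (D : FRDPolyx439.FRD 16 M K)
  {mk : Finset (G × G)} {l k0 : ℕ} {K0 : Finset (G × G) → Ge (Fld G)} {Λ : Set (G × G)}
  {κ : Type*} [Fintype κ] {A : κ → Set (G × G)} {m N : κ → ℕ} {q : κ → ℝ≥0∞} {qL qT Γ : ℝ≥0∞}
  {C a a' : ℝ} {n : ℕ}

/-- bound of the extraction maps -/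
noncomputable def cX (C a a' : ℝ) (r r' : ℕ) : ℝ≥0∞ := 12 * pX C a a' r r' ^ 2

/-- **ONE STEP OF THE CONCRETE FLOW, DEFECT NORM** (every background, marks `mk`): `b` the norm of
the plane-like polymers, `c` the norm of the defect polymers -/
theorem step_sys (hC : W2x812.BkReg C) (hC0 : 0 < C) (ha : 0 < a) (ha' : 0 < a') (hl : 1 ≤ l)
    (hOK : (GSysx387.sys D w mk l k0 K0).OK ⊥) (hΓ : 1 ≤ Γ)
    (h0 : ∀ U, K0 U ≠ 0 → acS fd (GSysx387.nearR l k0 0) Λ U)
    (H : DStep w a a' (GSysx387.rr l k0 n) (GSysx387.rr l k0 (n + 1)) Γ (3 * Γ)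
      (GSysx387.slC D w l k0 n) (acS fd (GSysx387.nearR l k0 n) Λ)
      (emM w (mk : Set (G × G)) (GSysx387.rr l k0 n)) A m N q qL qT)
    {g : Fld G → ℝ≥0∞} (hg : Gram (GSysx387.slC D w l k0 n) g)
    (hW : ∀ U, acS fd (GSysx387.nearR l k0 n) Λ U → size (GSysx387.rr l k0 n) U ≤ 1 →
      GLinx336.W0 w g a (GSysx387.rr l k0 n) (1 / 2) U)
    {b c : ℝ≥0∞}
    (hb : NK w a (GSysx387.rr l k0 n) Γ (fun U => emM w (mk : Set (G × G)) (GSysx387.rr l k0 n) U)
      (fun U => (((GSysx387.sys D w mk l k0 K0).K n U : Ge (Fld G)) : Gr (Fld G))) ≤ b)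
    (hc : NK w a (GSysx387.rr l k0 n) Γ
      (fun U => ¬ emM w (mk : Set (G × G)) (GSysx387.rr l k0 n) U)
      (fun U => (((GSysx387.sys D w mk l k0 K0).K n U : Ge (Fld G)) : Gr (Fld G))) ≤ c)
    (hs : nn3 (GSysx387.rr l k0 (n + 1)) (GSysx387.nearR l k0 (n + 1)) * (3 * (cF
      (GSysx387.rr l k0 n) (GSysx387.rr l k0 (n + 1)) qL qT
        (cX C a a' (GSysx387.rr l k0 n) (GSysx387.rr l k0 (n + 1))) * (b + c))) ≤ 1)
    (hXt : cF (GSysx387.rr l k0 n) (GSysx387.rr l k0 (n + 1)) qL qT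
        (cX C a a' (GSysx387.rr l k0 n) (GSysx387.rr l k0 (n + 1))) * (b + c) ≠ ∞) :
    NK w a' (GSysx387.rr l k0 (n + 1)) Γ
      (fun U => ¬ emM w (mk : Set (G × G)) (GSysx387.rr l k0 (n + 1)) U)
      (fun U => (((GSysx387.sys D w mk l k0 K0).K (n + 1) U : Ge (Fld G)) : Gr (Fld G))) ≤
    kapD (GSysx387.rr l k0 n) (GSysx387.rr l k0 (n + 1)) m N q qL * c +
      (qL + (qT + cX C a a' (GSysx387.rr l k0 n) (GSysx387.rr l k0 (n + 1)))) *
        nn2 (GSysx387.rr l k0 n) (GSysx387.rr l k0 (n + 1)) * b +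
      cQ (GSysx387.rr l k0 n) (GSysx387.rr l k0 (n + 1)) (GSysx387.nearR l k0 (n + 1)) qL qT
        (cX C a a' (GSysx387.rr l k0 n) (GSysx387.rr l k0 (n + 1))) * (b + c) ^ 2 :=
  step_all (GSysx387.sys D w mk l k0 K0) n H (GSysx387.rr_pos l k0 n)
    (GSysx387.rr_mono l k0 (Nat.le_succ n)) (deep_sys hl n) hΓ (near_sys D (n + 1))
    (ac_sys D h0 n) (fun _ h => h.1) (vacCt_sys D) (embExtr_sys D n)
    (xbd_sys D hC hC0 ha ha' hOK hg hW) hb hc hs hXt

/-- **the constants of a step** (free energy contributions), measured at the new scale -/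
theorem ct_sys (hΓ : 1 ≤ Γ) (h0 : ∀ U, K0 U ≠ 0 → acS fd (GSysx387.nearR l k0 0) Λ U)
    (H : DStep w a a' (GSysx387.rr l k0 n) (GSysx387.rr l k0 (n + 1)) Γ (3 * Γ)
      (GSysx387.slC D w l k0 n) (acS fd (GSysx387.nearR l k0 n) Λ)
      (emM w (mk : Set (G × G)) (GSysx387.rr l k0 n)) A m N q qL qT)
    {b c : ℝ≥0∞}
    (hb : NK w a (GSysx387.rr l k0 n) Γ (fun U => emM w (mk : Set (G × G)) (GSysx387.rr l k0 n) U)
      (fun U => (((GSysx387.sys D w mk l k0 K0).K n U : Ge (Fld G)) : Gr (Fld G))) ≤ b)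
    (hc : NK w a (GSysx387.rr l k0 n) Γ
      (fun U => ¬ emM w (mk : Set (G × G)) (GSysx387.rr l k0 n) U)
      (fun U => (((GSysx387.sys D w mk l k0 K0).K n U : Ge (Fld G)) : Gr (Fld G))) ≤ c) :
    NN fd (GSysx387.rr l k0 (n + 1)) Γ
      (fun U => ENNReal.ofReal |ctG ((GSysx387.sys D w mk l k0 K0).H n U)|) ≤
    (qL + 3 * qT) * (nn2 (GSysx387.rr l k0 n) (GSysx387.rr l k0 (n + 1)) * (b + c)) := by
  have h1 := NK_H_le (Γ' := 3 * Γ) (c := 3) (GSysx387.sys D w mk l k0 K0) n H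
    (GSysx387.rr_pos l k0 n) (GSysx387.rr_mono l k0 (Nat.le_succ n)) hΓ le_rfl
    (ac_sys D h0 n) (fun _ h => h.1)
  have h2 : NN fd (GSysx387.rr l k0 (n + 1)) Γ
      (fun U => ENNReal.ofReal |ctG ((GSysx387.sys D w mk l k0 K0).H n U)|) ≤
      NK w a' (GSysx387.rr l k0 (n + 1)) (3 * Γ) allP
        (fun U => (((GSysx387.sys D w mk l k0 K0).H n U : Ge (Fld G)) : Gr (Fld G))) := by
    rw [NK_eq_NN]
    refine iSup_mono fun f => ENNReal.tsum_le_tsum fun U => ?_
    refine Set.indicator_le_indicator ?_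
    rw [act_of (p := allP) trivial, ← pG_def]
    refine mul_le_mul' (pow_le_pow_left' (le_mul_of_one_le_left' (by norm_num)) _) ?_
    have := Crest.Agent.R165.ExpNx337.pG_split (wU w a' (GSysx387.rr l k0 (n + 1)) U)
      ((GSysx387.sys D w mk l k0 K0).H n U)
    show ENNReal.ofReal |ctG ((GSysx387.sys D w mk l k0 K0).H n U)| ≤ _
    rw [← Real.enorm_eq_ofReal_abs]
    exact (le_self_add).trans this
  refine h2.trans (h1.trans (mul_le_mul' le_rfl (mul_le_mul' le_rfl ?_)))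
  exact (NK_all_le _ _).trans (add_le_add hb hc)

end stepsys

end Crest.Agent.R165.XBdx915
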