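import Crest.Agent.R165.Const_891
import Crest.Agent.R165.WPack_893
import Crest.Agent.R165.XBd_915
import Crest.Agent.R165.GSysOK_439
import Crest.Agent.R165.BkFin_806

/-!
# Row 165 (S0250): constants of the renormalisation group, part 2 (helper891)

`StepOK` (helper889) for the systems `sys` of `GSys_387` on every composite background `Geo`
(helper893), extraction bound `XBd` (helper915) included, with all numerical conditions discharged
in the form `EvC` (helper683).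

* `SNum F C D Nm r0f c` : the numerical facts; `ev_sNum`
* `CFs` : the first order constant, `CFs_ne_top`;  `n3c` : the covering number
* `SNum.stepOK` : one step;  `ev_stepOK` : for almost all constants
-/

set_option autoImplicit false
set_option linter.unusedSectionVars false

noncomputable section

open Filter Topology
open scoped ENNReal
open Crest.Agent.R165.Gr0x606 Crest.Agent.R165.Gr1x606 Crest.Agent.R165.Latx683
  Crest.Agent.R165.PNormx417 Crest.Agent.R165.GDefx387 Crest.Agent.R165.Packx915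
  Crest.Agent.R165.NSumx915 Crest.Agent.R165.DefRecx915 Crest.Agent.R165.GeOpsx337
  Crest.Agent.R165.ExpGx337 Crest.Agent.R165.KFlowx337 Crest.Agent.R165.RegGx893
  Crest.Agent.R165.RegIx893 Crest.Agent.R165.Compx889 Crest.Agent.R165.PEndx683
  Crest.Agent.R165.GSysx387 Crest.Agent.R165.FRDPolyx439 Crest.Agent.R165.FRDLatx439
  Crest.Agent.R165.BgIsox432 Crest.Agent.R165.Bridgex915

namespace Crest.Agent.R165.Constx891

/-! ### the numerical facts -/

/-- covering number of the output balls -/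
def n3c (c : Cst) : ℕ := (2 * (2 ^ c.p + 1) + 3) ^ 2

theorem nn3_rr_le (c : Cst) (n : ℕ) :
    nn3 (rr c.p c.k0 (n + 1)) (nearR c.p c.k0 (n + 1)) ≤ n3c c := by
  unfold nn3 n3c
  have := near_div c.p c.k0 n
  gcongr

/-- first order constant of the composite backgrounds -/
def CFs (C Cb : ℝ) (D : ℕ) (c : Cst) : ℝ≥0∞ :=
  WPackx893.CFc C D (2 ^ c.p) (ENNReal.ofReal (12 * (2 * (160000 * Cb)) ^ 2))

theorem CFs_ne_top (C Cb : ℝ) (D : ℕ) (c : Cst) : CFs C Cb D c ≠ ∞ :=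
  WPackx893.CFc_ne_top ENNReal.ofReal_ne_top

/-- the numerical facts about the constants `c` used in one step of a composite background with the
constants `C`, `D`, `Nm`, first radius `r0f (2 ^ p)` -/
structure SNum {M K : ℕ} (F : FRD 16 M K) (C : ℝ) (D Nm : ℕ) (r0f : ℕ → ℕ) (c : Cst) : Prop where
  std : Std c
  big : BigL C D Nm (1 / 8) (2 ^ c.p)
  gam : WPackx893.GamOK C D (2 ^ c.p) (ENNReal.ofReal c.Γ)
  r0_le : ∀ n, r0f (2 ^ c.p) ≤ rr c.p c.k0 n
  cW : ∀ n, W0Sx897.cW0 F c.p c.k0 n ≤ c.A0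
  cO : 2 * GSysOKx439.c0 F.C c.p c.k0 ≤ c.A0

theorem ev_sNum {M K : ℕ} (F : FRD 16 M K) {C : ℝ} {D : ℕ}
    (hD : 2 * (K2 C * Real.sqrt (1 / (D + 1))) ≤ 1 / 4) (Nm : ℕ) (r0f : ℕ → ℕ) :
    EvC (SNum F C D Nm r0f) := by
  have h1 : EvC fun c => BigL C D Nm (1 / 8) (2 ^ c.p) := by
    refine ev_p (P := fun p => BigL C D Nm (1 / 8) (2 ^ p)) ?_
    have h := ev_bigL hD Nm (η := 1 / 8) (by norm_num)
    exact (tendsto_pow_atTop_atTop_of_one_lt (by norm_num : 1 < 2)).eventually h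
  have h2 : EvC fun c => WPackx893.GamOK C D (2 ^ c.p) (ENNReal.ofReal c.Γ) := by
    choose Γ0 hΓ0 hΓ using fun L => WPackx893.exists_gam C D L
    refine (ev_Γ_ge' fun p => (Γ0 (2 ^ p)).toReal).mono fun c hc => ?_
    refine hΓ (2 ^ c.p) _ ?_ ENNReal.ofReal_ne_top
    rw [← ENNReal.ofReal_toReal (hΓ0 (2 ^ c.p))]
    exact ENNReal.ofReal_le_ofReal hc
  have h3 := ev_rr_ge fun p _ => r0f (2 ^ p)
  have h4 := ev_A0_ge fun p _ k0 => W0Sx897.cW0 F p k0 0
  have h5 := ev_A0_ge fun p _ k0 => 2 * GSysOKx439.c0 F.C p k0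
  refine (((((ev_std.and h1).and h2).and h3).and h4).and h5).mono fun c hc => ?_
  exact ⟨hc.1.1.1.1.1, hc.1.1.1.1.2, hc.1.1.1.2, hc.1.1.2,
    fun n => (W0Sx897.cW0_le_zero F c.p c.k0 n).trans hc.1.2, hc.2⟩

/-! ### the extraction bound -/

theorem XBd.mono {G : Type} [CommRing G] [CN G] [DecidableEq G] {w : BW G} {a a' : ℝ} {r r' : ℕ}
    {ac : Finset (G × G) → Prop} {S : Sys (G × G) (Fld G)} {k : ℕ} {CX CX' : ℝ≥0∞}
    (h : XBd w a a' r r' ac S k CX) (hC : CX ≤ CX') : XBd w a a' r r' ac S k CX' := fun U hU =>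
  (h U hU).trans (mul_le_mul' hC le_rfl)

theorem pX_le {Cb a a' : ℝ} (hCb : 0 < Cb) (ha : 0 < a) (ha2 : a' ≤ 2 * a) (_ha' : 0 ≤ a')
    {r r' : ℕ} (hr : 0 < r) (hrr : r ≤ r') :
    XBdx915.pX Cb a a' r r' ≤ ENNReal.ofReal (2 * (160000 * Cb)) := by
  refine ENNReal.ofReal_le_ofReal ?_
  have hr0 : (0 : ℝ) < r := by exact_mod_cast hr
  have hr1 : (r : ℝ) ≤ r' := by exact_mod_cast hrr
  have hr'0 : (0 : ℝ) < r' := hr0.trans_le hr1
  have s0 : 0 < Real.sqrt r := Real.sqrt_pos.2 hr0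
  have s1 : 0 < Real.sqrt r' := Real.sqrt_pos.2 hr'0
  have hle : Real.sqrt r ≤ Real.sqrt r' := Real.sqrt_le_sqrt hr1
  have e1 : (r : ℝ) = Real.sqrt r * Real.sqrt r := (Real.mul_self_sqrt hr0.le).symm
  have e2 : (r' : ℝ) = Real.sqrt r' * Real.sqrt r' := (Real.mul_self_sqrt hr'0.le).symm
  have e3 : a' * Real.sqrt r' / (a * Real.sqrt r) * (160000 * Cb * ((r : ℝ) / r')) =
      (a' / a) * (Real.sqrt r / Real.sqrt r') * (160000 * Cb) := by
    conv_lhs => rw [show (r : ℝ) / r' = (Real.sqrt r * Real.sqrt r) / (Real.sqrt r' * Real.sqrt r') by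
      rw [← e1, ← e2]]
    field_simp
  rw [e3]
  have h1 : a' / a ≤ 2 := by rw [div_le_iff₀ ha]; exact ha2
  have h2 : Real.sqrt r / Real.sqrt r' ≤ 1 := by rw [div_le_one s1]; exact hle
  have h3 : (a' / a) * (Real.sqrt r / Real.sqrt r') ≤ 2 * 1 := by
    refine mul_le_mul h1 h2 (by positivity) (by norm_num)
  calc (a' / a) * (Real.sqrt r / Real.sqrt r') * (160000 * Cb) ≤ 2 * 1 * (160000 * Cb) :=
        mul_le_mul_of_nonneg_right h3 (by positivity)
    _ = _ := by ring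

section xbd

variable {G : Type} [CommRing G] [CN G] [CNZ G] [DecidableEq G] [GoodG G]
variable {M K : ℕ} (F : FRD 16 M K) {C : ℝ} {D Nm : ℕ} {r0f : ℕ → ℕ} {c : Cst}

/-- **`XBd` at the scales of the flow**, constant independent of the step -/
theorem SNum.xbd (H : SNum F C D Nm r0f c) (hM : MM + 1 ≤ M) {Cb : ℝ} (hBk : W2x812.BkReg Cb)
    (hCb : 0 < Cb) {w : BW G} (hw : ∀ z j, |w z j| ≤ 1) {mk : Finset (G × G)}
    {K0 : Finset (G × G) → Ge (Fld G)} (hOK : (sys F w mk c.p c.k0 K0).OK ⊥) {n : ℕ} {a a' : ℝ}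
    (ha : c.A0 ≤ a) (ha' : c.A0 ≤ a') (ha2 : a' ≤ 2 * a) (ac : Finset (G × G) → Prop) :
    XBd w a a' (rr c.p c.k0 n) (rr c.p c.k0 (n + 1)) ac (sys F w mk c.p c.k0 K0) n
      (ENNReal.ofReal (12 * (2 * (160000 * Cb)) ^ 2)) := by
  have hA : 0 < c.A0 := one_pos.trans_le H.std.A0_ge
  have ha0 : 0 < a := hA.trans_le ha
  have ha0' : 0 < a' := hA.trans_le ha'
  have h1 := XBdx915.xbd_sys (w := w) (mk := mk) (l := c.p) (k0 := c.k0) (K0 := K0) F hBk hCb ha0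
    ha0' (n := n) hOK (GSysOKx439.slC_gram F w hw c.p c.k0 n) (ac := ac) (fun U _ _ x _ l _ => by
      refine (GSysOKx439.gw_step_le_old F hM w hw c.p c.k0 n ha0 x l).trans ?_
      refine mul_le_mul' ?_ le_rfl
      have e : (1 / 2 : ℝ≥0∞) = ENNReal.ofReal (1 / 2) := by
        rw [ENNReal.ofReal_div_of_pos (by norm_num)]
        norm_num
      rw [e]
      refine ENNReal.ofReal_le_ofReal ?_
      rw [div_le_iff₀ ha0]
      have := H.cO
      linarith)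
  refine XBd.mono h1 ?_
  have h2 := pX_le hCb ha0 ha2 ha0'.le (rr_pos c.p c.k0 n) (rr_le_succ c.p c.k0 n)
  rw [ENNReal.ofReal_mul (by norm_num), ENNReal.ofReal_pow (by positivity),
    ENNReal.ofReal_ofNat]
  exact mul_le_mul' le_rfl (pow_le_pow_left' h2 2)

/-- **one step of a composite background**, all numbers discharged -/
theorem SNum.stepOK (H : SNum F C D Nm r0f c) (hM : MM + 1 ≤ M) {Cb : ℝ} (hBk : W2x812.BkReg Cb)
    (hCb : 0 < Cb) {ι : Type*} [Fintype ι] {w : BW G} (hw : ∀ z j, |w z j| ≤ 1)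
    {mk : Finset (G × G)} {K0 : Finset (G × G) → Ge (Fld G)}
    (hOK : (sys F w mk c.p c.k0 K0).OK ⊥) {R0 : ℕ} {loc : ι → G × G} {B Z Ac : Set (G × G)}
    (hG : Geo w C (2 ^ c.p) (r0f (2 ^ c.p)) R0 loc B Z Ac) {n : ℕ} {a a' : ℝ} (ha : c.A0 ≤ a)
    (ha' : c.A0 ≤ a') (ha2 : a' ≤ 2 * a) (hR : 32 * rr c.p c.k0 (n + 1) ≤ R0)
    {ac em : Finset (G × G) → Prop} (hact : ∀ U, ac U → ∀ x ∈ U, x ∈ Ac)
    (hcon : ∀ U, ac U → Packx915.Conn fd (nearR c.p c.k0 n) U)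
    (hsep : ∀ i j, i ≠ j → 2 * (rr c.p c.k0 (n + 1) + D * rr c.p c.k0 n) < fd (loc i) (loc j))
    (hnear : ∀ U, ac U → size (rr c.p c.k0 n) U ≤ 1 → ¬ em U → ∃ x ∈ U,
      (∃ y ∈ B, fd y x + rr c.p c.k0 n ≤ D * rr c.p c.k0 n) ∨
      (∃ z ∈ Z, fd z x + rr c.p c.k0 n ≤ D * rr c.p c.k0 n) ∨
      ∃ i, fd (loc i) x + rr c.p c.k0 n ≤ D * rr c.p c.k0 n)
    (hNb : DCount fd B (rr c.p c.k0 (n + 1) + D * rr c.p c.k0 n) (rr c.p c.k0 n)
      (8 * (2 ^ c.p + D) + 1))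
    (hNm : DCount fd Z (rr c.p c.k0 (n + 1) + D * rr c.p c.k0 n) (rr c.p c.k0 n) Nm) :
    StepOK (sys F w mk c.p c.k0 K0) w (ENNReal.ofReal c.Γ) n a a' (rr c.p c.k0 n)
      (rr c.p c.k0 (n + 1)) ac em (1 / 4) (CFs C Cb D c) := by
  have hA : 0 < c.A0 := one_pos.trans_le H.std.A0_ge
  exact WPackx893.stepOK_of_geo H.big hG F hM hw rfl H.gam (Rc := nearR c.p c.k0 n) le_rfl
    (H.r0_le n) hR (hA.trans_le ha) ha2 ((H.cW n).trans ha') hact hcon
    (near_rr H.std.p_pos c.k0 n) hsep hnear hNb hNm (H.xbd F hM hBk hCb hw hOK ha ha' ha2 ac)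

end xbd

/-- **`StepOK` for every composite background**, for almost all constants; `D0` = any prescribed
lower bound of `D`, `r0f` = the first radius of the classes as a function of the ratio `Λ` -/
theorem ev_stepOK (C : ℝ) (D0 Nm : ℕ) (r0f : ℕ → ℕ) {M K : ℕ} (F : FRD 16 M K) :
    ∃ D : ℕ, D0 ≤ D ∧ EvC (SNum F C D Nm r0f) := by
  obtain ⟨D, hD0, hD⟩ := exists_D C D0
  exact ⟨D, hD0, ev_sNum F hD Nm r0f⟩

end Crest.Agent.R165.Constx891
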