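import Crest.Agent.R165.SR_541

/-!
# Row 165 (S0250), block F: end of the universality half (helper683)

CONTRACT OF CONSTANTS (note of helper683): `Cst` = the tuple (p, Γ, k0, A0, δ), `L = 2^p`;
`EvC P` = "for all large p, all large Γ, all large k0, all large A0, all small δ".

`PFlow_of` : the output `PFlow` of `SR_541` from
* (P7) functions `β(lam)`, `z(lam)` for which the plane flow `PF` is controlled
* the six asymptotic statements, each for ALL parameters `(lam, β, z)` with controlled plane flow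

`PF C c lam β z` (plane flow controlled with constant `C`), the functions `Zs Ze eb` are parameters.
-/

set_option autoImplicit false

noncomputable section

open Filter Topology
open Crest.ProbabilityR.IsingModel

namespace Crest.Agent.R165.PEndx683

open Crest.Agent.R165.Topx683 Crest.Agent.R165.Centx541 Crest.Agent.R165.Redx541
  Crest.Agent.R165.Symx541 Crest.Agent.R165.Red2x541 Crest.Agent.R165.Mastx541
  Crest.Agent.R165.SRx541

/-- the tuple of constants of the renormalisation group -/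
structure Cst where
  /-- `L = 2 ^ p` -/
  p : ℕ
  /-- size parameter -/
  Γ : ℝ
  /-- first scale -/
  k0 : ℕ
  /-- amplitude of the weights -/
  A0 : ℝ
  /-- growth of the amplitudes -/
  δ : ℝ

/-- for all large `p`, all large `Γ`, all large `k0`, all large `A0`, all small `δ > 0` -/
def EvC (P : Cst → Prop) : Prop :=
  ∀ᶠ p : ℕ in atTop, ∀ᶠ Γ : ℝ in atTop, ∀ᶠ k0 : ℕ in atTop, ∀ᶠ A0 : ℝ in atTop,
    ∀ᶠ δ : ℝ in 𝓝[>] 0, P ⟨p, Γ, k0, A0, δ⟩

theorem EvC.mono {P Q : Cst → Prop} (h : EvC P) (hPQ : ∀ c, P c → Q c) : EvC Q :=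
  Eventually.mono h fun _ h => h.mono fun _ h => h.mono fun _ h => h.mono fun _ h =>
    h.mono fun _ h => hPQ _ h

theorem EvC.and {P Q : Cst → Prop} (h : EvC P) (h' : EvC Q) : EvC fun c => P c ∧ Q c := by
  filter_upwards [h, h'] with p h h'
  filter_upwards [h, h'] with Γ h h'
  filter_upwards [h, h'] with k0 h h'
  filter_upwards [h, h'] with A0 h h'
  filter_upwards [h, h'] with δ h h'
  exact ⟨h, h'⟩

theorem EvC.of_forall {P : Cst → Prop} (h : ∀ c, P c) : EvC P :=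
  Eventually.of_forall fun _ => Eventually.of_forall fun _ => Eventually.of_forall fun _ =>
    Eventually.of_forall fun _ => Eventually.of_forall fun _ => h _

theorem EvC.exists {P : Cst → Prop} (h : EvC P) : ∃ c, P c := by
  obtain ⟨p, h⟩ := Eventually.exists h
  obtain ⟨Γ, h⟩ := h.exists
  obtain ⟨k0, h⟩ := h.exists
  obtain ⟨A0, h⟩ := h.exists
  obtain ⟨δ, h⟩ := h.exists
  exact ⟨_, h⟩

/-- the parameters are close to the unperturbed critical point -/
def NearP (J C lam β z : ℝ) : Prop := |β - criticalBeta J| + |z| ≤ C * |lam|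

/-- "for all constants, all small `lam` and all parameters with controlled plane flow" -/
def ForP (J : ℝ) (PF : ℝ → Cst → ℝ → ℝ → ℝ → Prop) (Q : Cst → ℝ → ℝ → ℝ → Prop) : Prop :=
  EvC fun c => ∀ C : ℝ, ∃ ε > 0, ∀ lam β z : ℝ, |lam| < ε → NearP J C lam β z →
    PF C c lam β z → Q c lam β z

theorem ForP.and {J : ℝ} {PF : ℝ → Cst → ℝ → ℝ → ℝ → Prop} {Q Q' : Cst → ℝ → ℝ → ℝ → Prop}
    (h : ForP J PF Q) (h' : ForP J PF Q') :
    ForP J PF fun c lam β z => Q c lam β z ∧ Q' c lam β z := by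
  refine (EvC.and h h').mono fun c hc C => ?_
  obtain ⟨ε, hε, h1⟩ := hc.1 C
  obtain ⟨ε', hε', h2⟩ := hc.2 C
  exact ⟨min ε ε', lt_min hε hε', fun lam β z hl hn hp =>
    ⟨h1 lam β z (hl.trans_le (min_le_left _ _)) hn hp,
      h2 lam β z (hl.trans_le (min_le_right _ _)) hn hp⟩⟩

/-- a quantity is `1 + O(lam)` -/
def OneP (J : ℝ) (PF : ℝ → Cst → ℝ → ℝ → ℝ → Prop) (Z : Cst → ℝ → ℝ → ℝ → ℝ) : Prop :=
  EvC fun c => ∀ C : ℝ, ∃ ε > 0, ∃ C' : ℝ, ∀ lam β z : ℝ, |lam| < ε → NearP J C lam β z →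
    PF C c lam β z → |Z c lam β z - 1| ≤ C' * |lam|

/-- the flow output for fixed `J`, `R`, `V` -/
def PFlowAt (J : ℝ) (R : ℕ) (V : Finset (ℤ × ℤ) → ℝ) : Prop :=
  ∃ lam₀ : ℝ, 0 < lam₀ ∧ ∃ (βc Zs Ze : ℝ → ℝ) (eb : ℝ → Fin 2 → ℝ),
      ContinuousAt βc 0 ∧ ContinuousAt Zs 0 ∧ ContinuousAt Ze 0 ∧
      βc 0 = criticalBeta J ∧ Zs 0 = 1 ∧ Ze 0 = 1 ∧
      ∀ lam : ℝ, |lam| < lam₀ →
        (0 < βc lam ∧ Zs lam ≠ 0 ∧ Ze lam ≠ 0) ∧
        SRD J lam R V (βc lam) (Zs lam) ∧ ERD J lam R V (βc lam) (Ze lam) (eb lam) ∧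
        SRP J lam R V (βc lam) (Zs lam) ∧ ERP J lam R V (βc lam) (Ze lam) (eb lam) ∧
        DiscLim J lam R V (βc lam) ∧
        (∀ j : Fin 2, Tendsto (fun L : ℕ => torBonds L J lam R V (βc lam) {((0, 0), j)}) atTop
          (𝓝 (eb lam j)))

theorem PFlow_iff : PFlow ↔ ∀ J : ℝ, 0 < J → ∀ (R : ℕ) (V : Finset (ℤ × ℤ) → ℝ), VHyp R V →
    PFlowAt J R V := Iff.rfl

/-- everything the flow has to deliver, for fixed `J`, `R`, `V` -/
structure FlowOut (J : ℝ) (R : ℕ) (V : Finset (ℤ × ℤ) → ℝ) where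
  /-- plane flow controlled with constant `C` -/
  PF : ℝ → Cst → ℝ → ℝ → ℝ → Prop
  /-- spin renormalisation -/
  Zs : Cst → ℝ → ℝ → ℝ → ℝ
  /-- energy renormalisation -/
  Ze : Cst → ℝ → ℝ → ℝ → ℝ
  /-- bond mean -/
  eb : Cst → ℝ → ℝ → ℝ → Fin 2 → ℝ
  /-- (P7) shooting -/
  p7 : EvC fun c => ∃ C : ℝ, ∃ ε > 0, ∃ β z : ℝ → ℝ, ∀ lam : ℝ, |lam| < ε →
    NearP J C lam (β lam) (z lam) ∧ PF C c lam (β lam) (z lam)
  zs : OneP J PF Zs
  ze : OneP J PF Ze
  /-- (P8)-(P10), domains -/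
  srd : ForP J PF fun c lam β z => SRD J lam R V β (Zs c lam β z)
  /-- (P11), domains -/
  erd : ForP J PF fun c lam β z => ERD J lam R V β (Ze c lam β z) (eb c lam β z)
  /-- (P14), discs -/
  srp : ForP J PF fun c lam β z => SRP J lam R V β (Zs c lam β z)
  /-- (P14), discs -/
  erp : ForP J PF fun c lam β z => ERP J lam R V β (Ze c lam β z) (eb c lam β z)
  /-- (P13) torus and discs have the same limit -/
  dl : ForP J PF fun _ lam β _ => DiscLim J lam R V β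
  /-- (P13) the bond mean -/
  bm : ForP J PF fun c lam β z => ∀ j : Fin 2,
    Tendsto (fun L : ℕ => torBonds L J lam R V β {((0, 0), j)}) atTop (𝓝 (eb c lam β z j))

theorem continuousAt_of_lip {f : ℝ → ℝ} {v C ε : ℝ} (hε : 0 < ε)
    (h : ∀ x, |x| < ε → |f x - v| ≤ C * |x|) : ContinuousAt f 0 ∧ f 0 = v := by
  have h0 : f 0 = v := by
    have := h 0 (by simpa using hε)
    rw [abs_zero, mul_zero] at this
    exact sub_eq_zero.1 (abs_eq_zero.1 (le_antisymm this (abs_nonneg _)))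
  refine ⟨?_, h0⟩
  rw [ContinuousAt, h0, tendsto_iff_dist_tendsto_zero]
  have h1 : Tendsto (fun x : ℝ => C * |x|) (𝓝 0) (𝓝 0) := by
    have : Tendsto (fun x : ℝ => C * |x|) (𝓝 0) (𝓝 (C * |0|)) :=
      (continuous_const.mul continuous_abs).tendsto 0
    simpa using this
  refine squeeze_zero' (Eventually.of_forall fun _ => dist_nonneg) ?_ h1
  filter_upwards [Metric.ball_mem_nhds (0 : ℝ) hε] with x hx
  rw [Metric.mem_ball, dist_zero_right, Real.norm_eq_abs] at hx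
  exact h x hx

/-- **the end of the universality half** -/
theorem FlowOut.pflowAt {J : ℝ} (hJ : 0 < criticalBeta J) {R : ℕ} {V : Finset (ℤ × ℤ) → ℝ}
    (h : FlowOut J R V) : PFlowAt J R V := by
  have hall := (((((h.srd.and h.erd).and h.srp).and h.erp).and h.dl).and h.bm)
  obtain ⟨c, ⟨⟨⟨hp7, hzs⟩, hze⟩, hc⟩⟩ := (((h.p7.and h.zs).and h.ze).and hall).exists
  obtain ⟨C, ε₁, hε₁, β, z, hβ⟩ := hp7
  obtain ⟨ε₂, hε₂, Cs, hs⟩ := hzs C
  obtain ⟨ε₃, hε₃, Ce, he⟩ := hze C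
  obtain ⟨ε₄, hε₄, hA⟩ := hc C
  -- positivity of the constants
  set C' := |C| + |Cs| + |Ce| + 1 with hC'
  have hC'pos : 0 < C' := by positivity
  set m := min 1 (criticalBeta J) with hm
  have hmpos : 0 < m := lt_min one_pos hJ
  have hβ1 : ∀ lam, |lam| < ε₁ → |β lam - criticalBeta J| ≤ C * |lam| := by
    intro lam hl
    have := (hβ lam hl).1
    unfold NearP at this
    linarith [abs_nonneg (z lam)]
  set Zs : ℝ → ℝ := fun lam => h.Zs c lam (β lam) (z lam) with hZs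
  set Ze : ℝ → ℝ := fun lam => h.Ze c lam (β lam) (z lam) with hZe
  have hs1 : ∀ lam, |lam| < min ε₁ ε₂ → |Zs lam - 1| ≤ Cs * |lam| := fun lam hl =>
    hs lam _ _ (hl.trans_le (min_le_right _ _)) (hβ lam (hl.trans_le (min_le_left _ _))).1
      (hβ lam (hl.trans_le (min_le_left _ _))).2
  have he1 : ∀ lam, |lam| < min ε₁ ε₃ → |Ze lam - 1| ≤ Ce * |lam| := fun lam hl =>
    he lam _ _ (hl.trans_le (min_le_right _ _)) (hβ lam (hl.trans_le (min_le_left _ _))).1
      (hβ lam (hl.trans_le (min_le_left _ _))).2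
  obtain ⟨cβ, vβ⟩ := continuousAt_of_lip hε₁ hβ1
  obtain ⟨cs, vs⟩ := continuousAt_of_lip (lt_min hε₁ hε₂) hs1
  obtain ⟨ce, ve⟩ := continuousAt_of_lip (lt_min hε₁ hε₃) he1
  refine ⟨min (min (min ε₁ ε₂) (min ε₃ ε₄)) (m / C'),
    lt_min (lt_min (lt_min hε₁ hε₂) (lt_min hε₃ hε₄)) (div_pos hmpos hC'pos), β, Zs, Ze,
    fun lam => h.eb c lam (β lam) (z lam), cβ, cs, ce, vβ, vs, ve, fun lam hl => ?_⟩
  have l5 : |lam| < m / C' := hl.trans_le (min_le_right _ _)
  have l0 := hl.trans_le (min_le_left _ _)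
  have l12 := l0.trans_le (min_le_left _ _)
  have l34 := l0.trans_le (min_le_right _ _)
  have l1 : |lam| < ε₁ := l12.trans_le (min_le_left _ _)
  have l2 : |lam| < ε₂ := l12.trans_le (min_le_right _ _)
  have l3 : |lam| < ε₃ := l34.trans_le (min_le_left _ _)
  have l4 : |lam| < ε₄ := l34.trans_le (min_le_right _ _)
  have lm : C' * |lam| < m := by
    rw [lt_div_iff₀ hC'pos] at l5
    linarith
  have key : ∀ D : ℝ, D ≤ C' → D * |lam| < m := fun D hD =>
    (mul_le_mul_of_nonneg_right hD (abs_nonneg _)).trans_lt lm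
  have hC1 : C ≤ C' := by rw [hC']; linarith [le_abs_self C, abs_nonneg Cs, abs_nonneg Ce]
  have hC2 : Cs ≤ C' := by rw [hC']; linarith [le_abs_self Cs, abs_nonneg C, abs_nonneg Ce]
  have hC3 : Ce ≤ C' := by rw [hC']; linarith [le_abs_self Ce, abs_nonneg C, abs_nonneg Cs]
  obtain ⟨⟨⟨⟨⟨a1, a2⟩, a3⟩, a4⟩, a5⟩, a6⟩ := hA lam (β lam) (z lam) l4 (hβ lam l1).1 (hβ lam l1).2
  refine ⟨⟨?_, ?_, ?_⟩, a1, a2, a3, a4, a5, a6⟩
  · have h1 := (hβ1 lam l1).trans_lt ((key C hC1).trans_le (min_le_right _ _))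
    have h2 := (abs_lt.1 h1).1
    linarith
  · intro h0
    have h1 := (hs1 lam (lt_min l1 l2)).trans_lt ((key Cs hC2).trans_le (min_le_left _ _))
    rw [h0] at h1
    norm_num at h1
  · intro h0
    have h1 := (he1 lam (lt_min l1 l3)).trans_lt ((key Ce hC3).trans_le (min_le_left _ _))
    rw [h0] at h1
    norm_num at h1

theorem criticalBeta_pos {J : ℝ} (hJ : 0 < J) : 0 < criticalBeta J := by
  unfold criticalBeta
  have h1 : (1 : ℝ) < 1 + Real.sqrt 2 := by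
    have := Real.sqrt_pos.2 (show (0 : ℝ) < 2 by norm_num)
    linarith
  have h2 := Real.log_pos h1
  positivity

/-- **`PFlow` from the flow outputs** -/
theorem pflow_of (h : ∀ J : ℝ, 0 < J → ∀ (R : ℕ) (V : Finset (ℤ × ℤ) → ℝ), VHyp R V →
    Nonempty (FlowOut J R V)) : PFlow := by
  intro J hJ R V hV
  obtain ⟨f⟩ := h J hJ R V hV
  exact f.pflowAt (criticalBeta_pos hJ)

end Crest.Agent.R165.PEndx683
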