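import Crest.Agent.R165.PStep2_417
import Crest.Agent.R165.GSysOK_439
import Crest.Agent.R165.BulkPl_812
import Crest.Agent.R165.PEnd_683

/-!
# Row 165 (S0250), block G: constants of the bulk step (helper729)

* `t p = 1 / √(2^p)`; elementary facts `ev_t`, `ev_pow`
* `kapR`, `kap_ofReal`, `kapR_le` : the contraction factor as a real number
* `v0 .. v3`, `vC` : the constants of `BkReg.bulkHyp` at the scales of `GSys_387`
* `StepNum`, `stepNum_ev` : all numerical side conditions of one bulk step, in `EvC` form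
* `bulkHyp_rr`, `StepNum.pstep` : the hypotheses `BulkHyp`, `PStep` of the plane step
-/

set_option autoImplicit false
set_option linter.unusedSectionVars false
set_option linter.unusedVariables false

noncomputable section

open scoped ENNReal NNReal
open Filter Topology
open Crest.Agent.R165.Gr0x606 Crest.Agent.R165.Gr1x606 Crest.Agent.R165.Latx683
open Crest.Agent.R165.PNormx417 Crest.Agent.R165.GDefx387 Crest.Agent.R165.GeOpsx337
open Crest.Agent.R165.KFlowx337 Crest.Agent.R165.Packx915 Crest.Agent.R165.Bridgex915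
open Crest.Agent.R165.NSumx915 Crest.Agent.R165.FRDPolyx439 Crest.Agent.R165.FRDLatx439
open Crest.Agent.R165.PlaneModesx901 Crest.Agent.R165.PlaneLocx901 Crest.Agent.R165.PlaneCovx901
open Crest.Agent.R165.PlaneSumx901 Crest.Agent.R165.PlaneCoefx901 Crest.Agent.R165.W2x812
open Crest.Agent.R165.Locx901 Crest.Agent.R165.GBulkx417 Crest.Agent.R165.PStepx417
open Crest.Agent.R165.GSysx387 Crest.Agent.R165.GSysOKx439 Crest.Agent.R165.PEndx683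

namespace Crest.Agent.R165.ConstAx729

/-! ### real numbers -/

/-- `L ^ (-1/2)`, `L = 2 ^ p` -/
def tp (p : ℕ) : ℝ := 1 / √(2 ^ p)

theorem tp_pos (p : ℕ) : 0 < tp p := by unfold tp; positivity

theorem tp_sq (p : ℕ) : tp p ^ 2 = 1 / 2 ^ p := by
  unfold tp
  rw [div_pow, one_pow, Real.sq_sqrt (by positivity)]

theorem tp_le_one (p : ℕ) : tp p ≤ 1 := by
  unfold tp
  rw [div_le_one (Real.sqrt_pos.2 (by positivity))]
  exact Real.one_le_sqrt.2 (one_le_pow₀ (by norm_num))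

theorem tp_tendsto : Tendsto tp atTop (𝓝 0) := by
  have h1 : Tendsto (fun p : ℕ => (2 : ℝ) ^ p) atTop atTop :=
    tendsto_pow_atTop_atTop_of_one_lt (by norm_num)
  have h2 : Tendsto (fun p : ℕ => √((2 : ℝ) ^ p)) atTop atTop := Real.tendsto_sqrt_atTop.comp h1
  refine h2.inv_tendsto_atTop.congr fun p => ?_
  rw [tp, one_div, Pi.inv_apply]

/-- `C * L ^ (-1/2)` is small for large `p` -/
theorem ev_t (C : ℝ) {η : ℝ} (hη : 0 < η) : ∀ᶠ p : ℕ in atTop, C * tp p ≤ η := by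
  have h : Tendsto (fun p => C * tp p) atTop (𝓝 (C * 0)) := tp_tendsto.const_mul C
  rw [mul_zero] at h
  exact (h.eventually (gt_mem_nhds hη)).mono fun p hp => hp.le

/-- the same for every power -/
theorem ev_pow {C : ℝ} (hC : 0 ≤ C) {k : ℕ} (hk : k ≠ 0) {η : ℝ} (hη : 0 < η) :
    ∀ᶠ p : ℕ in atTop, C * tp p ^ k ≤ η :=
  (ev_t C hη).mono fun p hp => le_trans (mul_le_mul_of_nonneg_left
    (pow_le_of_le_one (tp_pos p).le (tp_le_one p) hk) hC) hp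

/-- real form of `kap` -/
def kapR (x0 x1 x2 x3 c : ℝ) : ℝ :=
  11 * ((x0 + x3 * c) ^ 2 * (x1 + x2 + x3 + x3 * c) ^ 2) + (x1 ^ 2 + 2 * (x0 + x1) * x2 + x2 ^ 2)

theorem kap_ofReal {x0 x1 x2 x3 c : ℝ} (h0 : 0 ≤ x0) (h1 : 0 ≤ x1) (h2 : 0 ≤ x2) (h3 : 0 ≤ x3)
    (hc : 0 ≤ c) : kap (ENNReal.ofReal x0) (ENNReal.ofReal x1) (ENNReal.ofReal x2)
      (ENNReal.ofReal x3) (ENNReal.ofReal c) = ENNReal.ofReal (kapR x0 x1 x2 x3 c) := by
  lift x0 to ℝ≥0 using h0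
  lift x1 to ℝ≥0 using h1
  lift x2 to ℝ≥0 using h2
  lift x3 to ℝ≥0 using h3
  lift c to ℝ≥0 using hc
  have e : kapR x0 x1 x2 x3 c = ((11 * ((x0 + x3 * c) ^ 2 * (x1 + x2 + x3 + x3 * c) ^ 2) +
    (x1 ^ 2 + 2 * (x0 + x1) * x2 + x2 ^ 2) : ℝ≥0) : ℝ) := by
    unfold kapR; push_cast; rfl
  rw [e]
  simp only [ENNReal.ofReal_coe_nnreal]
  unfold kap
  push_cast
  rfl

theorem kapR_nonneg {x0 x1 x2 x3 c : ℝ} (h0 : 0 ≤ x0) (h1 : 0 ≤ x1) (h2 : 0 ≤ x2) (h3 : 0 ≤ x3)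
    (hc : 0 ≤ c) : 0 ≤ kapR x0 x1 x2 x3 c := by unfold kapR; positivity

/-- **the size of the contraction factor** -/
theorem kapR_le {M t x0 x1 x2 x3 c : ℝ} (hM : 1 ≤ M) (ht : 0 ≤ t) (ht1 : t ≤ 1) (h0 : 0 ≤ x0)
    (h1 : 0 ≤ x1) (h2 : 0 ≤ x2) (h3 : 0 ≤ x3) (hc : 0 ≤ c) (b0 : x0 ≤ M * t) (b1 : x1 ≤ M * t ^ 3)
    (b2 : x2 ≤ M * t ^ 5) (b3 : x3 * (1 + c) ≤ t ^ 5) :
    kapR x0 x1 x2 x3 c ≤ 402 * M ^ 4 * t ^ 6 := by
  have hM0 : 0 ≤ M := by linarith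
  have t51 : t ^ 5 ≤ t := pow_le_of_le_one ht ht1 (by norm_num)
  have t53 : t ^ 5 ≤ t ^ 3 := pow_le_pow_of_le_one ht ht1 (by norm_num)
  have t86 : t ^ 8 ≤ t ^ 6 := pow_le_pow_of_le_one ht ht1 (by norm_num)
  have t106 : t ^ 10 ≤ t ^ 6 := pow_le_pow_of_le_one ht ht1 (by norm_num)
  have t31 : t ^ 3 ≤ t := pow_le_of_le_one ht ht1 (by norm_num)
  have m2 : M ^ 2 ≤ M ^ 4 := pow_le_pow_right₀ hM (by norm_num)
  have x3c : x3 * c ≤ t ^ 5 := by nlinarith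
  have e3 : x3 + x3 * c ≤ t ^ 5 := by linarith [b3, mul_add x3 1 c, mul_one x3]
  have mt : t ≤ M * t := le_mul_of_one_le_left ht hM
  have mt3 : t ^ 3 ≤ M * t ^ 3 := le_mul_of_one_le_left (by positivity) hM
  have hp : x0 + x3 * c ≤ 2 * M * t := by linarith
  have hq : x1 + x2 + x3 + x3 * c ≤ 3 * M * t ^ 3 := by
    have := mul_le_mul_of_nonneg_left t53 hM0
    linarith
  have hp0 : 0 ≤ x0 + x3 * c := by positivity
  have hq0 : 0 ≤ x1 + x2 + x3 + x3 * c := by positivity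
  have s1 : (x0 + x3 * c) ^ 2 * (x1 + x2 + x3 + x3 * c) ^ 2 ≤ 36 * M ^ 4 * t ^ 6 := by
    calc (x0 + x3 * c) ^ 2 * (x1 + x2 + x3 + x3 * c) ^ 2
        ≤ (2 * M * t) ^ 2 * (3 * M * t ^ 3) ^ 2 := by gcongr
      _ = 36 * M ^ 4 * t ^ 8 := by ring
      _ ≤ 36 * M ^ 4 * t ^ 6 := by gcongr
  have s2 : x1 ^ 2 ≤ M ^ 4 * t ^ 6 := by
    calc x1 ^ 2 ≤ (M * t ^ 3) ^ 2 := by gcongr
      _ = M ^ 2 * t ^ 6 := by ring
      _ ≤ _ := by gcongr
  have s3 : 2 * (x0 + x1) * x2 ≤ 4 * M ^ 4 * t ^ 6 := by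
    calc 2 * (x0 + x1) * x2 ≤ 2 * (M * t + M * t ^ 3) * (M * t ^ 5) := by gcongr
      _ ≤ 2 * (M * t + M * t) * (M * t ^ 5) := by gcongr
      _ = 4 * M ^ 2 * t ^ 6 := by ring
      _ ≤ _ := by gcongr
  have s4 : x2 ^ 2 ≤ M ^ 4 * t ^ 6 := by
    calc x2 ^ 2 ≤ (M * t ^ 5) ^ 2 := by gcongr
      _ = M ^ 2 * t ^ 10 := by ring
      _ ≤ _ := by gcongr
  unfold kapR
  linarith

/-! ### the constants at the scales of the system -/

/-- `p0` of `BkReg.bulkHyp` -/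
def v0 (C a a' : ℝ) (p k0 n : ℕ) : ℝ≥0∞ := ENNReal.ofReal
  (a' * Real.sqrt (rr p k0 (n + 1)) / (a * Real.sqrt (rr p k0 n)) *
    ((340000 * C + 1) * ((rr p k0 n : ℝ) / rr p k0 (n + 1))))

/-- `p1` of `BkReg.bulkHyp` -/
def v1 (C a a' : ℝ) (p k0 n : ℕ) : ℝ≥0∞ := ENNReal.ofReal
  (a' * Real.sqrt (rr p k0 (n + 1)) / (a * Real.sqrt (rr p k0 n)) *
    ((160000 * C + 1) * ((rr p k0 n : ℝ) / rr p k0 (n + 1)) ^ 2))

/-- `q2` of `BkReg.bulkHyp` -/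
def v2 (C a a' : ℝ) (p k0 n : ℕ) : ℝ≥0∞ := ENNReal.ofReal
  (a' * Real.sqrt (rr p k0 (n + 1)) / (a * Real.sqrt (rr p k0 n)) *
    ((170000 * C + 1) * ((rr p k0 n : ℝ) / rr p k0 (n + 1)) ^ 3))

/-- `q0` : the Gram constant at every step, also the first one -/
def v3 (Dc a : ℝ) (p k0 : ℕ) : ℝ≥0∞ := ENNReal.ofReal (c0 Dc p k0 / a)

/-- `C` of `BkReg.bulkHyp` -/
def vC (C : ℝ) : ℝ≥0∞ := ENNReal.ofReal (516 * C + 1)

theorem rr_real (p k0 n : ℕ) : (rr p k0 (n + 1) : ℝ) = 2 ^ p * rr p k0 n := by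
  have := rr_succ p k0 n
  exact_mod_cast this

theorem ratio_eq (p k0 n : ℕ) : (rr p k0 n : ℝ) / rr p k0 (n + 1) = tp p ^ 2 := by
  have h : (0 : ℝ) < rr p k0 n := by exact_mod_cast rr_pos p k0 n
  rw [rr_real, tp_sq]
  field_simp

theorem sqrt_eq (a a' : ℝ) (p k0 n : ℕ) :
    a' * Real.sqrt (rr p k0 (n + 1)) / (a * Real.sqrt (rr p k0 n)) = a' / a * (1 / tp p) := by
  have h : (0 : ℝ) < rr p k0 n := by exact_mod_cast rr_pos p k0 n
  have h' : √(rr p k0 n : ℝ) ≠ 0 := (Real.sqrt_pos.2 h).ne'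
  rw [rr_real, Real.sqrt_mul (by positivity), tp, one_div_one_div]
  by_cases ha : a = 0
  · simp [ha]
  · field_simp

theorem v0_eq (C a a' : ℝ) (p k0 n : ℕ) :
    v0 C a a' p k0 n = ENNReal.ofReal (a' / a * (340000 * C + 1) * tp p) := by
  have ht := tp_pos p
  rw [v0, ratio_eq, sqrt_eq]
  congr 1
  field_simp

theorem v1_eq (C a a' : ℝ) (p k0 n : ℕ) :
    v1 C a a' p k0 n = ENNReal.ofReal (a' / a * (160000 * C + 1) * tp p ^ 3) := by
  have ht := tp_pos p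
  rw [v1, ratio_eq, sqrt_eq]
  congr 1
  field_simp

theorem v2_eq (C a a' : ℝ) (p k0 n : ℕ) :
    v2 C a a' p k0 n = ENNReal.ofReal (a' / a * (170000 * C + 1) * tp p ^ 5) := by
  have ht := tp_pos p
  rw [v2, ratio_eq, sqrt_eq]
  congr 1
  field_simp

/-- **all numerical side conditions of one bulk step**; `Dc` = constant of the decomposition,
`C` = constant of `BkReg`, `η` = contraction -/
structure StepNum (Dc C η Γ : ℝ) (p k0 n : ℕ) (a a' : ℝ) : Prop where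
  a_pos : 0 < a
  a_pos' : 0 < a'
  num : BulkNum (v0 C a a' p k0 n) (v1 C a a' p k0 n) (v2 C a a' p k0 n) (v3 Dc a p k0) (vC C)
  kap_le : kap (v0 C a a' p k0 n) (v1 C a a' p k0 n) (v2 C a a' p k0 n) (v3 Dc a p k0) (vC C) ≤ 1
  ke_le : κe (rr p k0 n) (rr p k0 (n + 1)) (ENNReal.ofReal Γ) (v0 C a a' p k0 n)
    (v1 C a a' p k0 n) (v2 C a a' p k0 n) (v3 Dc a p k0) (vC C) ≤ ENNReal.ofReal η
  v0_le : v0 C a a' p k0 n ≤ 1
  v0_le_η : v0 C a a' p k0 n ≤ ENNReal.ofReal η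
  v3_le : v3 Dc a p k0 ≤ ENNReal.ofReal η
  p_ge : 4 ≤ p
  Γ_ge : 3 ≤ ENNReal.ofReal Γ
  hr16 : 16 * rr p k0 n ≤ rr p k0 (n + 1)
  hR : 4 * nearR p k0 n + 3 * rr p k0 n + 2 ≤ rr p k0 (n + 1)
  hRR : nearR p k0 n ≤ nearR p k0 (n + 1)
  range : nearR p k0 (n + 1) ≤ 2 ^ p * rr p k0 (n + 1)

theorem geo (p k0 n : ℕ) (hp : 4 ≤ p) : 16 * rr p k0 n ≤ rr p k0 (n + 1) ∧
    4 * nearR p k0 n + 3 * rr p k0 n + 2 ≤ rr p k0 (n + 1) ∧
    nearR p k0 n ≤ nearR p k0 (n + 1) ∧ nearR p k0 (n + 1) ≤ 2 ^ p * rr p k0 (n + 1) := by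
  have h1 : 16 * rr p k0 n ≤ rr p k0 (n + 1) := by
    rw [rr_succ]
    refine Nat.mul_le_mul_right _ ?_
    calc 16 = 2 ^ 4 := by norm_num
      _ ≤ 2 ^ p := Nat.pow_le_pow_right (by norm_num) hp
  have hr := rr_pos p k0 n
  refine ⟨h1, ?_, nearR_mono p k0 (Nat.le_succ n), ?_⟩
  · have : nearR p k0 n * 8 ≤ rr p k0 (n + 1) := Nat.div_mul_le_self _ _
    omega
  · unfold nearR
    refine (Nat.div_le_self _ _).trans ?_
    rw [rr_succ]

theorem nS_real (p : ℕ) : (((2 * 2 ^ p + 3) ^ 2 : ℕ) : ℝ) * tp p ^ 4 ≤ 25 := by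
  have h1 : (1 : ℝ) ≤ 2 ^ p := one_le_pow₀ (by norm_num)
  have h2 : tp p ^ 4 = 1 / (2 ^ p) ^ 2 := by
    calc tp p ^ 4 = (tp p ^ 2) ^ 2 := by ring
      _ = _ := by rw [tp_sq]; ring
  rw [h2]
  push_cast
  rw [mul_one_div, div_le_iff₀ (by positivity)]
  nlinarith

/-- the numerical conditions from explicit real inequalities -/
theorem stepNum_of {Dc C η Γ a a' : ℝ} {p k0 n : ℕ} (hD : 0 < Dc) (hC : 0 ≤ C) (hη : 0 < η)
    (hp : 4 ≤ p) (ha : 0 < a) (h1 : a ≤ 2 * a') (h2 : a' ≤ 2 * a)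
    (hpη : 20100 * (680000 * C + 2) ^ 4 * tp p ≤ min η 1)
    (hΓ3 : 3 ≤ Γ) (hΓ : 2 * (((2 * 2 ^ p + 3) ^ 2 : ℕ) : ℝ) / η ≤ Γ)
    (hA : c0 Dc p k0 * (516 * C + 2) / tp p ^ 5 ≤ a) : StepNum Dc C η Γ p k0 n a a' := by
  have ha' : 0 < a' := by linarith
  have ht := tp_pos p
  have ht1 := tp_le_one p
  set t := tp p with htd
  set M : ℝ := 680000 * C + 2 with hMd
  have hM : 1 ≤ M := by linarith
  have hM0 : 0 ≤ M := by linarith
  have hθ : a' / a ≤ 2 := by rw [div_le_iff₀ ha]; exact h2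
  have hθ' : 1 / 2 ≤ a' / a := by rw [le_div_iff₀ ha]; linarith
  have hθ0 : 0 < a' / a := by positivity
  have hc0 := c0_pos hD p k0
  set x0 : ℝ := a' / a * (340000 * C + 1) * t with hx0
  set x1 : ℝ := a' / a * (160000 * C + 1) * t ^ 3 with hx1
  set x2 : ℝ := a' / a * (170000 * C + 1) * t ^ 5 with hx2
  set x3 : ℝ := c0 Dc p k0 / a with hx3
  set c : ℝ := 516 * C + 1 with hcd
  have hc : 0 ≤ c := by positivity
  have p0 : 0 < x0 := by positivity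
  have p1 : 0 < x1 := by positivity
  have p2 : 0 < x2 := by positivity
  have p3 : 0 < x3 := by positivity
  have b0 : x0 ≤ M * t := by
    have : a' / a * (340000 * C + 1) ≤ 2 * (340000 * C + 1) := by gcongr
    calc x0 ≤ 2 * (340000 * C + 1) * t := by rw [hx0]; gcongr
      _ = M * t := by rw [hMd]; ring
  have b1 : x1 ≤ M * t ^ 3 := by
    calc x1 ≤ 2 * (160000 * C + 1) * t ^ 3 := by rw [hx1]; gcongr
      _ ≤ M * t ^ 3 := by gcongr; rw [hMd]; linarith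
  have b2 : x2 ≤ M * t ^ 5 := by
    calc x2 ≤ 2 * (170000 * C + 1) * t ^ 5 := by rw [hx2]; gcongr
      _ ≤ M * t ^ 5 := by gcongr; rw [hMd]; linarith
  have t5 : 0 < t ^ 5 := by positivity
  have b3 : x3 * (1 + c) ≤ t ^ 5 := by
    rw [div_le_iff₀ t5] at hA
    rw [hx3, div_mul_eq_mul_div, div_le_iff₀ ha]
    calc c0 Dc p k0 * (1 + c) = c0 Dc p k0 * (516 * C + 2) := by rw [hcd]; ring
      _ ≤ a * t ^ 5 := hA
      _ = _ := by ring
  have hκ := kapR_le hM ht.le ht1 p0.le p1.le p2.le p3.le hc b0 b1 b2 b3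
  have hM4 : M ≤ M ^ 4 := le_self_pow₀ hM (by norm_num)
  have hM41 : 1 ≤ M ^ 4 := one_le_pow₀ hM
  have m1 : 20100 * M ^ 4 * t ≤ 1 := hpη.trans (min_le_right _ _)
  have mη : 20100 * M ^ 4 * t ≤ η := hpη.trans (min_le_left _ _)
  have hMt : 20100 * (M * t) ≤ 1 := by
    refine le_trans ?_ m1
    calc 20100 * (M * t) = 20100 * M * t := by ring
      _ ≤ 20100 * M ^ 4 * t := by gcongr
  have hMtη : 20100 * (M * t) ≤ η := by
    refine le_trans ?_ mη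
    calc 20100 * (M * t) = 20100 * M * t := by ring
      _ ≤ 20100 * M ^ 4 * t := by gcongr
  have t31 : t ^ 3 ≤ t := pow_le_of_le_one ht.le ht1 (by norm_num)
  have t51 : t ^ 5 ≤ t := pow_le_of_le_one ht.le ht1 (by norm_num)
  have t53 : t ^ 5 ≤ t ^ 3 := pow_le_pow_of_le_one ht.le ht1 (by norm_num)
  have t61 : t ^ 6 ≤ t := pow_le_of_le_one ht.le ht1 (by norm_num)
  have mt : t ≤ M * t := le_mul_of_one_le_left ht.le hM
  have hx3' : x3 ≤ t ^ 5 := by nlinarith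
  have x3c : x3 + x3 * c ≤ t ^ 5 := by linarith [b3, mul_add x3 1 c, mul_one x3]
  have Mt3 : M * t ^ 3 ≤ M * t := by gcongr
  have Mt5 : M * t ^ 5 ≤ M * t := by gcongr
  have e0 : v0 C a a' p k0 n = ENNReal.ofReal x0 := v0_eq C a a' p k0 n
  have e1 : v1 C a a' p k0 n = ENNReal.ofReal x1 := v1_eq C a a' p k0 n
  have e2 : v2 C a a' p k0 n = ENNReal.ofReal x2 := v2_eq C a a' p k0 n
  have e3 : v3 Dc a p k0 = ENNReal.ofReal x3 := rfl
  have eC : vC C = ENNReal.ofReal c := rfl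
  have ek : kap (v0 C a a' p k0 n) (v1 C a a' p k0 n) (v2 C a a' p k0 n) (v3 Dc a p k0) (vC C) =
      ENNReal.ofReal (kapR x0 x1 x2 x3 c) := by
    rw [e0, e1, e2, e3, eC]
    exact kap_ofReal p0.le p1.le p2.le p3.le hc
  have one : (1 : ℝ≥0∞) = ENNReal.ofReal 1 := ENNReal.ofReal_one.symm
  have quarter : (1 / 4 : ℝ≥0∞) = ENNReal.ofReal (1 / 4) := by
    rw [ENNReal.ofReal_div_of_pos (by norm_num)]; simp
  have s1 : v1 C a a' p k0 n + v2 C a a' p k0 n + v3 Dc a p k0 + v3 Dc a p k0 * vC C =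
      ENNReal.ofReal (x1 + x2 + x3 + x3 * c) := by
    rw [e1, e2, e3, eC, ← ENNReal.ofReal_mul p3.le, ← ENNReal.ofReal_add p1.le p2.le,
      ← ENNReal.ofReal_add (by positivity) p3.le, ← ENNReal.ofReal_add (by positivity)
        (by positivity)]
  obtain ⟨g1, g2, g3, g4⟩ := geo p k0 n hp
  have hΓ0 : 0 < Γ := by linarith
  refine ⟨ha, ha', ⟨?_, ?_, ?_, ?_, ?_, ?_, ?_, ?_, ?_, ?_⟩, ?_, ?_, ?_, ?_, ?_, hp, ?_, g1, g2, g3,
    g4⟩
  · rw [e0]; exact (ENNReal.ofReal_pos.2 p0).ne'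
  · rw [e1]; exact (ENNReal.ofReal_pos.2 p1).ne'
  · rw [e2]; exact (ENNReal.ofReal_pos.2 p2).ne'
  · rw [e3]; exact (ENNReal.ofReal_pos.2 p3).ne'
  · rw [e0]; exact ENNReal.ofReal_ne_top
  · rw [eC]; exact ENNReal.ofReal_ne_top
  · rw [e3, quarter]
    exact ENNReal.ofReal_le_ofReal (by linarith)
  · rw [s1, quarter]
    exact ENNReal.ofReal_le_ofReal (by linarith)
  · rw [s1, e0, e3, eC, ← ENNReal.ofReal_mul p3.le, ← ENNReal.ofReal_add p0.le (by positivity)]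
    refine ENNReal.ofReal_le_ofReal ?_
    have h3 : x1 + x2 + x3 ≤ 3 * M * t ^ 3 := by
      have i1 : M * t ^ 5 ≤ M * t ^ 3 := by gcongr
      have i2 : t ^ 3 ≤ M * t ^ 3 := le_mul_of_one_le_left (by positivity) hM
      linarith
    have h4 : 3 * M * t ^ 3 ≤ 1 / 2 * t := by
      have i3 : M * t * t ≤ 1 / 20100 := by
        have : M * t * t ≤ M * t * 1 := by gcongr
        linarith
      calc 3 * M * t ^ 3 = 3 * (M * t * t) * t := by ring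
        _ ≤ 3 * (1 / 20100) * t := by gcongr
        _ ≤ 1 / 2 * t := by gcongr; norm_num
    have h5 : 1 / 2 * t ≤ x0 := by
      rw [hx0]
      have : 1 / 2 ≤ a' / a * (340000 * C + 1) := by nlinarith
      gcongr
    linarith
  · rw [e0, e3, ← ENNReal.ofReal_add p0.le p3.le, one]
    exact ENNReal.ofReal_le_ofReal (by linarith)
  · rw [ek, one]
    refine ENNReal.ofReal_le_ofReal (hκ.trans ?_)
    calc 402 * M ^ 4 * t ^ 6 ≤ 20100 * M ^ 4 * t := by gcongr; norm_num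
      _ ≤ 1 := m1
  · -- the contraction
    have er : rr p k0 (n + 1) / rr p k0 n = 2 ^ p := by
      rw [rr_succ, Nat.mul_div_cancel _ (rr_pos p k0 n)]
    unfold κe
    rw [ek, er]
    set N : ℝ := (((2 * 2 ^ p + 3) ^ 2 : ℕ) : ℝ) with hN
    have hN0 : 0 < N := by rw [hN]; positivity
    have eN : ((((2 * 2 ^ p + 3) ^ 2 : ℕ) : ℕ) : ℝ≥0∞) = ENNReal.ofReal N := by
      rw [hN, ENNReal.ofReal_natCast]
    rw [eN, ← ENNReal.ofReal_inv_of_pos hΓ0, ← ENNReal.ofReal_add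
      (kapR_nonneg p0.le p1.le p2.le p3.le hc) (by positivity), ← ENNReal.ofReal_mul hN0.le]
    refine ENNReal.ofReal_le_ofReal ?_
    have hNt : N * t ^ 4 ≤ 25 := nS_real p
    have i1 : N * kapR x0 x1 x2 x3 c ≤ η / 2 := by
      calc N * kapR x0 x1 x2 x3 c ≤ N * (402 * M ^ 4 * t ^ 6) := by gcongr
        _ = 402 * M ^ 4 * (N * t ^ 4) * t ^ 2 := by ring
        _ ≤ 402 * M ^ 4 * 25 * t ^ 2 := by gcongr
        _ ≤ 402 * M ^ 4 * 25 * t := by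
          have : t ^ 2 ≤ t := pow_le_of_le_one ht.le ht1 (by norm_num)
          gcongr
        _ = (20100 * M ^ 4 * t) / 2 := by ring
        _ ≤ η / 2 := by gcongr
    have i2 : N * Γ⁻¹ ≤ η / 2 := by
      rw [← div_eq_mul_inv, div_le_iff₀ hΓ0]
      rw [div_le_iff₀ hη] at hΓ
      linarith
    rw [mul_add]
    linarith
  · rw [e0, one]; exact ENNReal.ofReal_le_ofReal (by linarith)
  · rw [e0]; exact ENNReal.ofReal_le_ofReal (by linarith)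
  · rw [e3]; exact ENNReal.ofReal_le_ofReal (by linarith)
  · have : (3 : ℝ≥0∞) = ENNReal.ofReal 3 := by simp
    rw [this]
    exact ENNReal.ofReal_le_ofReal hΓ3

/-- **all numerical side conditions of the bulk steps**, for all steps `n` and all amplitudes -/
theorem stepNum_ev {Dc C η : ℝ} (hD : 0 < Dc) (hC : 0 ≤ C) (hη : 0 < η) :
    EvC fun c => 4 ≤ c.p ∧ 3 ≤ c.Γ ∧ 1 ≤ c.A0 ∧ 0 < c.δ ∧ c.δ ≤ 1 ∧
      ∀ (n : ℕ) (a a' : ℝ), c.A0 ≤ a → a ≤ 2 * a' → a' ≤ 2 * a →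
        StepNum Dc C η c.Γ c.p c.k0 n a a' := by
  have h1 : ∀ᶠ p : ℕ in atTop, 20100 * (680000 * C + 2) ^ 4 * tp p ≤ min η 1 :=
    ev_t _ (lt_min hη one_pos)
  unfold EvC
  filter_upwards [h1, eventually_ge_atTop 4] with p hp1 hp4
  filter_upwards [eventually_ge_atTop (3 : ℝ),
    eventually_ge_atTop (2 * (((2 * 2 ^ p + 3) ^ 2 : ℕ) : ℝ) / η)] with Γ hΓ3 hΓ
  filter_upwards with k0
  filter_upwards [eventually_ge_atTop (1 : ℝ),
    eventually_ge_atTop (c0 Dc p k0 * (516 * C + 2) / tp p ^ 5)] with A0 hA1 hA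
  have hδ : ∀ᶠ δ : ℝ in 𝓝[>] 0, δ ≤ 1 :=
    (eventually_le_nhds (a := (0 : ℝ)) (b := 1) one_pos).filter_mono nhdsWithin_le_nhds
  filter_upwards [hδ, self_mem_nhdsWithin] with δ hδ1 hδ0
  exact ⟨hp4, hΓ3, hA1, hδ0, hδ1, fun n a a' ha h1 h2 =>
    stepNum_of hD hC hη hp4 (lt_of_lt_of_le one_pos (hA1.trans ha)) h1 h2 hp1 hΓ3 hΓ (hA.trans ha)⟩

/-! ### the hypotheses of the plane step -/

section plane

variable {M K : ℕ} (D : FRD 16 M K) {C a a' η Γ : ℝ} {p k0 n : ℕ}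

/-- **the weight hypotheses of the plane step at the scales of the system** (every step, also the
first one) -/
theorem bulkHyp_rr (h : BkReg C) (hM : MM + 1 ≤ M) (ha : 0 < a) (ha' : 0 < a')
    (hr' : 16 * rr p k0 n ≤ rr p k0 (n + 1)) :
    BulkHyp (wPl ℤ) a a' (rr p k0 n) (rr p k0 (n + 1))
      (gw D (wPl ℤ) (lo p k0 n) (hi p k0 n)) (fun f => (md f).P0) (fun f => (md f).P1)
      (v0 C a a' p k0 n) (v1 C a a' p k0 n) (v2 C a a' p k0 n) (v3 D.C a p k0) (vC C) := by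
  have hr := rr_pos p k0 n
  have h0 := h.bulkHyp (a := a) (a' := a') (r := rr p k0 n) (r' := rr p k0 (n + 1)) D hM ha ha' hr
    hr' (j₁ := rr p k0 n) (j₂ := 0) (N := 1) Nat.lt_two_pow_self.le (by
      rw [pow_zero, one_mul]; exact_mod_cast hr)
  exact
    { g_semi := gw_semi D _ (AopF_bdd _ wPl_le) _ _
      W0 := fun x l _ => gw_step_le_old D hM _ wPl_le p k0 n ha x l
      W1 := h0.W1
      W2a := h0.W2a
      W2b := h0.W2b
      W2c := h0.W2c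
      W2d := h0.W2d }

/-- **the hypotheses of the plane step** -/
theorem StepNum.pstep (N : StepNum D.C C η Γ p k0 n a a) (h : BkReg C) (hM : MM + 1 ≤ M) :
    PStep a (2 ^ p) (rr p k0 n) (rr p k0 (n + 1)) (nearR p k0 n) (nearR p k0 (n + 1))
      (ENNReal.ofReal Γ) (slC D (wPl ℤ) p k0 n) (gw D (wPl ℤ) (lo p k0 n) (hi p k0 n))
      (v0 C a a p k0 n) (v1 C a a p k0 n) (v2 C a a p k0 n) (v3 D.C a p k0) (vC C) C where
  a_pos := N.a_pos
  r_pos := rr_pos p k0 n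
  hR := N.hR
  hRR := N.hRR
  Γ_ge := N.Γ_ge
  Γ_top := ENNReal.ofReal_ne_top
  gram := slC_gram D _ wPl_le p k0 n
  blk := bulkHyp_rr D h hM N.a_pos N.a_pos N.hr16
  num := N.num
  kap_le := N.kap_le
  reg := h
  ratio := rr_succ p k0 n
  range := N.range

/-- **the plane step for all constants** -/
theorem pstep_ev (h : BkReg C) (hM : MM + 1 ≤ M) (hη : 0 < η) :
    EvC fun c => 4 ≤ c.p ∧ 3 ≤ c.Γ ∧ 1 ≤ c.A0 ∧ 0 < c.δ ∧ c.δ ≤ 1 ∧
      ∀ (n : ℕ) (a : ℝ), c.A0 ≤ a → StepNum D.C C η c.Γ c.p c.k0 n a a ∧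
        PStep a (2 ^ c.p) (rr c.p c.k0 n) (rr c.p c.k0 (n + 1)) (nearR c.p c.k0 n)
          (nearR c.p c.k0 (n + 1)) (ENNReal.ofReal c.Γ) (slC D (wPl ℤ) c.p c.k0 n)
          (gw D (wPl ℤ) (lo c.p c.k0 n) (hi c.p c.k0 n)) (v0 C a a c.p c.k0 n)
          (v1 C a a c.p c.k0 n) (v2 C a a c.p c.k0 n) (v3 D.C a c.p c.k0) (vC C) C :=
  (stepNum_ev D.C_pos h.nonneg hη).mono fun c hc => by
    obtain ⟨h1, h2, h3, h4, h5, h6⟩ := hc
    refine ⟨h1, h2, h3, h4, h5, fun n a ha => ?_⟩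
    have ha0 : 0 < a := lt_of_lt_of_le one_pos (h3.trans ha)
    have N := h6 n a a ha (by linarith) (by linarith)
    exact ⟨N, N.pstep D h hM⟩

end plane

end Crest.Agent.R165.ConstAx729
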