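import Crest.Agent.R165.KFlow_337

/-!
# Row 165 (S0250), block G/P, leaf P11: sources (helper991)

* `VS V m = V × (Fin m → ℝ × ℝ)` : fields with `m` pairs of source generators `θ_i, θ_i'`
* `tau i = θ_i θ_i'`, `tauP I = ∏_{i ∈ I} tau i`
* `ext0 S` : the covariance extended by zero; `inG`, `noS`, `vacS` : inclusion of the source free
  elements, projection on the source free part, projection on the part without fields
* `cpair i` : coefficient of `tau i`; `coP I` : coefficient of `tauP I` (an element of `Ge V`)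
* `GS` : the subalgebra generated by the source free elements and the `tau i`
* `wS w v` : weights on `VS V m`
-/

set_option autoImplicit false
set_option linter.unusedSectionVars false

noncomputable section

namespace Crest.Agent.R165.SrcDefx991

open Crest.Agent.R165.Gr0x606 Crest.Agent.R165.Gr1x606 Crest.Agent.R165.GeOpsx337
  Crest.Agent.R165.ExpGx337 Crest.Agent.R165.PNormx417 Crest.Agent.R165.KFlowx337
  Crest.Agent.R165.GrLocx337
open scoped ENNReal

variable {V : Type*} [AddCommGroup V] [Module ℝ V] {m : ℕ}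

/-- the space of source generators -/
abbrev Src (m : ℕ) : Type := Fin m → ℝ × ℝ

/-- fields and sources -/
abbrev VS (V : Type*) (m : ℕ) : Type _ := V × Src m

/-- source generator -/
def th (i : Fin m) : VS V m := (0, Pi.single i (1, 0))

/-- source generator -/
def th' (i : Fin m) : VS V m := (0, Pi.single i (0, 1))

/-- the even source variable, of square zero -/
def tau (i : Fin m) : Ge (VS V m) := bi (th i) (th' i)

theorem tau_sq (i : Fin m) : (tau i : Ge (VS V m)) * tau i = 0 := bi_mul_self _ _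

/-- products of source variables -/
def tauP (I : Finset (Fin m)) : Ge (VS V m) := ∏ i ∈ I, tau i

@[simp] theorem tauP_empty : (tauP ∅ : Ge (VS V m)) = 1 := by simp [tauP]

theorem tauP_insert {i : Fin m} {I : Finset (Fin m)} (h : i ∉ I) :
    (tauP (insert i I) : Ge (VS V m)) = tau i * tauP I := by
  rw [tauP, Finset.prod_insert h]; rfl

theorem tau_mul_tauP {i : Fin m} {I : Finset (Fin m)} (h : i ∈ I) :
    (tau i : Ge (VS V m)) * tauP I = 0 := by
  rw [tauP, ← Finset.mul_prod_erase I _ h, ← mul_assoc, tau_sq, zero_mul]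

theorem tauP_mul (I J : Finset (Fin m)) :
    (tauP I : Ge (VS V m)) * tauP J = if Disjoint I J then tauP (I ∪ J) else 0 := by
  split_ifs with h
  · rw [tauP, tauP, tauP, Finset.prod_union h]
  · rw [Finset.not_disjoint_iff] at h
    obtain ⟨i, hi, hj⟩ := h
    rw [tauP, ← Finset.prod_erase_mul I _ hi, mul_assoc, tau_mul_tauP hj, mul_zero]

/-- covariance extended by zero on the sources -/
def ext0 (m : ℕ) (S : Cov V) : Cov (VS V m) :=
  ⟨S.b.compl₁₂ (LinearMap.fst ℝ V (Src m)) (LinearMap.fst ℝ V (Src m)), fun x => by simp [S.alt]⟩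

@[simp] theorem ext0_b (S : Cov V) (x y : VS V m) : (ext0 m S).b x y = S.b x.1 y.1 := rfl

/-- inclusion of the source free elements -/
def inG (m : ℕ) : Ge V →ₐ[ℝ] Ge (VS V m) := mpG (LinearMap.inl ℝ V (Src m))

/-- projection on the source free part -/
def noS : Ge (VS V m) →ₐ[ℝ] Ge V := mpG (LinearMap.fst ℝ V (Src m))

/-- the part without fields (an algebra homomorphism) -/
def vacH : Ge (VS V m) →ₐ[ℝ] Ge (VS V m) :=
  mpG (LinearMap.inr ℝ V (Src m) ∘ₗ LinearMap.snd ℝ V (Src m))

/-- the vacuum part, as used in `Sys.vac` -/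
def vacS : Ge (VS V m) →ₗ[ℝ] Ge (VS V m) := vacH.toLinearMap

@[simp] theorem vacS_apply (a : Ge (VS V m)) : vacS a = vacH a := rfl

theorem mpG_id (a : Ge V) : mpG (LinearMap.id : V →ₗ[ℝ] V) a = a := by
  apply ge_ext
  rw [coe_mpG]
  have : mp (LinearMap.id : V →ₗ[ℝ] V) = AlgHom.id ℝ _ := ExteriorAlgebra.map_id
  rw [this]; rfl

@[simp] theorem noS_inG (a : Ge V) : noS (inG m a) = a := by
  rw [noS, inG, mpG_mpG]
  have : (LinearMap.fst ℝ V (Src m)) ∘ₗ (LinearMap.inl ℝ V (Src m)) = LinearMap.id := by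
    ext x; rfl
  rw [this, mpG_id]

theorem noS_tau (i : Fin m) : noS (tau i : Ge (VS V m)) = 0 := by
  rw [noS, tau, mpG_bi]
  apply ge_ext
  rw [coe_bi]
  simp [th, th']

theorem cvG_inG (S : Cov V) (a : Ge V) : cvG (ext0 m S) (inG m a) = inG m (cvG S a) := by
  apply ge_ext
  rw [inG, coe_cvG, coe_mpG, coe_mpG, coe_cvG]
  exact (mp_conv _ S (ext0 m S) (fun x y => by simp) _).symm

theorem noS_cvG (S : Cov V) (a : Ge (VS V m)) : noS (cvG (ext0 m S) a) = cvG S (noS a) := by
  apply ge_ext
  rw [noS, coe_cvG, coe_mpG, coe_mpG, coe_cvG]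
  exact mp_conv _ (ext0 m S) S (fun x y => by simp) _

/-- the expectation only sees the source free part -/
theorem EEG_ext0 (S : Cov V) (a : Ge (VS V m)) : EEG (ext0 m S) a = EEG S (noS a) := by
  rw [EEG_apply, EEG_apply, noS, coe_mpG]
  exact (EE_mp _ (ext0 m S) S (fun x y => by simp) _).symm

/-! ### coefficients -/

/-- dual source functional -/
def dth (i : Fin m) : Module.Dual ℝ (VS V m) :=
  LinearMap.fst ℝ ℝ ℝ ∘ₗ LinearMap.proj i ∘ₗ LinearMap.snd ℝ V (Src m)

/-- dual source functional -/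
def dth' (i : Fin m) : Module.Dual ℝ (VS V m) :=
  LinearMap.snd ℝ ℝ ℝ ∘ₗ LinearMap.proj i ∘ₗ LinearMap.snd ℝ V (Src m)

@[simp] theorem dth_th (i j : Fin m) : dth (V := V) i (th j) = if j = i then 1 else 0 := by
  by_cases h : j = i
  · subst h; simp [dth, th]
  · simp [dth, th, h]

@[simp] theorem dth_th' (i j : Fin m) : dth (V := V) i (th' j) = 0 := by
  by_cases h : j = i
  · subst h; simp [dth, th']
  · simp [dth, th', Pi.single_eq_of_ne' h]

@[simp] theorem dth'_th (i j : Fin m) : dth' (V := V) i (th j) = 0 := by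
  by_cases h : j = i
  · subst h; simp [dth', th]
  · simp [dth', th, Pi.single_eq_of_ne' h]

@[simp] theorem dth'_th' (i j : Fin m) : dth' (V := V) i (th' j) = if j = i then 1 else 0 := by
  by_cases h : j = i
  · subst h; simp [dth', th']
  · simp [dth', th', h]

/-- coefficient of `tau i` (the other sources are kept) -/
def cpair (i : Fin m) : Ge (VS V m) →ₗ[ℝ] Ge (VS V m) where
  toFun a := ⟨dd (dth' i) (dd (dth i) (a : Gr (VS V m))), (IsEv.dd a.2 _).dd _⟩
  map_add' a b := ge_ext (by simp)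
  map_smul' c a := ge_ext (by simp)

@[simp] theorem coe_cpair (i : Fin m) (a : Ge (VS V m)) :
    ((cpair i a : Ge (VS V m)) : Gr (VS V m)) = dd (dth' i) (dd (dth i) (a : Gr (VS V m))) := rfl

theorem dd_four (a b c d : Module.Dual ℝ V) (x : Gr V) :
    dd a (dd b (dd c (dd d x))) = dd c (dd d (dd a (dd b x))) := by
  have h1 : ∀ y : Gr V, dd b (dd c y) = -dd c (dd b y) := fun y => dd_dd_anti _ _ _
  have h2 : ∀ y : Gr V, dd b (dd d y) = -dd d (dd b y) := fun y => dd_dd_anti _ _ _
  have h3 : ∀ y : Gr V, dd a (dd c y) = -dd c (dd a y) := fun y => dd_dd_anti _ _ _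
  have h4 : ∀ y : Gr V, dd a (dd d y) = -dd d (dd a y) := fun y => dd_dd_anti _ _ _
  rw [h1, map_neg, h3, h2, map_neg, map_neg, h4, map_neg]
  simp

theorem cpair_comm (i j : Fin m) (a : Ge (VS V m)) : cpair i (cpair j a) = cpair j (cpair i a) := by
  apply ge_ext
  simp only [coe_cpair]
  exact dd_four _ _ _ _ _

/-- coefficient of `tauP I` -/
def coP (I : Finset (Fin m)) : Ge (VS V m) →ₗ[ℝ] Ge V :=
  noS.toLinearMap ∘ₗ (((I.sort (· ≤ ·)).map cpair).prod : Module.End ℝ (Ge (VS V m)))

@[simp] theorem coP_empty (a : Ge (VS V m)) : coP ∅ a = noS a := by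
  simp [coP]

/-- derivations kill the source free elements -/
theorem dd_inG (l : Module.Dual ℝ (VS V m)) (hl : ∀ x : V, l (x, 0) = 0) (a : Ge V) :
    dd l ((inG m a : Ge (VS V m)) : Gr (VS V m)) = 0 := by
  rw [inG, coe_mpG, ← mp_dd]
  have : l ∘ₗ LinearMap.inl ℝ V (Src m) = 0 := by
    ext x; exact hl x
  rw [this, dd_zero_left, map_zero]

theorem dth_inl (i : Fin m) (x : V) : dth i ((x, 0) : VS V m) = 0 := by simp [dth]
theorem dth'_inl (i : Fin m) (x : V) : dth' i ((x, 0) : VS V m) = 0 := by simp [dth']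

/-- `cpair i` is linear over the elements killed by the two derivations -/
theorem cpair_mul_left {i : Fin m} {a : Ge (VS V m)} (h1 : dd (dth i) (a : Gr (VS V m)) = 0)
    (h2 : dd (dth' i) (a : Gr (VS V m)) = 0) (b : Ge (VS V m)) :
    cpair i (a * b) = a * cpair i b := by
  apply ge_ext
  rw [coe_cpair, Ge.coe_mul, dd_mul, h1, zero_mul, zero_add, Ge.isEv a, dd_mul, h2, zero_mul,
    zero_add, Ge.isEv a, Ge.coe_mul, coe_cpair]

theorem cpair_inG_mul (i : Fin m) (a : Ge V) (b : Ge (VS V m)) :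
    cpair i (inG m a * b) = inG m a * cpair i b :=
  cpair_mul_left (dd_inG _ (dth_inl i) a) (dd_inG _ (dth'_inl i) a) b

theorem dd_tau (l : Module.Dual ℝ (VS V m)) (j : Fin m) :
    dd l ((tau j : Ge (VS V m)) : Gr (VS V m)) = l (th j) • fi (th' j) - l (th' j) • fi (th j) := by
  rw [tau, coe_bi, dd_fi_mul, dd_fi, ← Algebra.commutes, ← Algebra.smul_def]

theorem cpair_tau_mul_ne {i j : Fin m} (h : j ≠ i) (b : Ge (VS V m)) :
    cpair i (tau j * b) = tau j * cpair i b := by
  refine cpair_mul_left ?_ ?_ b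
  · rw [dd_tau]; simp [h]
  · rw [dd_tau]; simp [h]

/-- the coefficient of `tau i` in `tau i * b`, `b` without `i`-sources -/
theorem cpair_tau_mul_self {i : Fin m} {b : Ge (VS V m)} (h1 : dd (dth i) (b : Gr (VS V m)) = 0)
    (h2 : dd (dth' i) (b : Gr (VS V m)) = 0) : cpair i (tau i * b) = b := by
  apply ge_ext
  rw [coe_cpair, Ge.coe_mul, dd_mul, h1, mul_zero, add_zero, dd_tau, dth_th, dth_th', if_pos rfl,
    one_smul, zero_smul, sub_zero, dd_fi_mul, h2, mul_zero, sub_zero, dth'_th', if_pos rfl, one_smul]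

/-! ### the algebra of sources -/

/-- the subalgebra generated by the source free elements and the `tau i` -/
def GS (V : Type*) [AddCommGroup V] [Module ℝ V] (m : ℕ) : Subalgebra ℝ (Ge (VS V m)) :=
  Algebra.adjoin ℝ (Set.range (inG (V := V) m) ∪ Set.range (tau (V := V) (m := m)))

theorem inG_mem (a : Ge V) : inG m a ∈ GS V m :=
  Algebra.subset_adjoin (Or.inl ⟨a, rfl⟩)

theorem tau_mem (i : Fin m) : tau i ∈ GS V m := Algebra.subset_adjoin (Or.inr ⟨i, rfl⟩)

theorem tauP_mem (I : Finset (Fin m)) : tauP I ∈ GS V m :=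
  Subalgebra.prod_mem _ fun i _ => tau_mem i

/-- every element of `GS` is `∑_I tauP I * a_I` -/
theorem GS_rep {a : Ge (VS V m)} (ha : a ∈ GS V m) :
    ∃ c : Finset (Fin m) → Ge V, a = ∑ I, tauP I * inG m (c I) := by
  classical
  induction ha using Algebra.adjoin_induction with
  | mem x hx =>
    rcases hx with ⟨y, rfl⟩ | ⟨i, rfl⟩
    · refine ⟨fun I => if I = ∅ then y else 0, ?_⟩
      rw [Finset.sum_eq_single ∅]
      · simp
      · intro I _ hI; simp [hI]
      · simp
    · refine ⟨fun I => if I = {i} then 1 else 0, ?_⟩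
      rw [Finset.sum_eq_single {i}]
      · simp [tauP]
      · intro I _ hI; simp [hI]
      · simp
  | algebraMap r =>
    refine ⟨fun I => if I = ∅ then algebraMap ℝ _ r else 0, ?_⟩
    rw [Finset.sum_eq_single ∅]
    · simp
    · intro I _ hI; simp [hI]
    · simp
  | add x y _ _ hx hy =>
    obtain ⟨c, rfl⟩ := hx
    obtain ⟨d, rfl⟩ := hy
    refine ⟨fun I => c I + d I, ?_⟩
    simp only [map_add, mul_add, Finset.sum_add_distrib]
  | mul x y _ _ hx hy =>
    obtain ⟨c, rfl⟩ := hx
    obtain ⟨d, rfl⟩ := hy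
    refine ⟨fun I => ∑ J, ∑ J', if Disjoint J J' ∧ J ∪ J' = I then c J * d J' else 0, ?_⟩
    rw [Finset.sum_mul_sum]
    simp only [map_sum, Finset.mul_sum]
    rw [Finset.sum_comm]
    conv_rhs => rw [Finset.sum_comm]
    rw [Finset.sum_comm]
    refine Finset.sum_congr rfl fun J _ => ?_
    conv_rhs => rw [Finset.sum_comm]
    refine Finset.sum_congr rfl fun J' _ => ?_
    by_cases h : Disjoint J J'
    · rw [Finset.sum_eq_single (J ∪ J')]
      · rw [if_pos ⟨h, rfl⟩, map_mul]
        have := tauP_mul (V := V) J J'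
        rw [if_pos h] at this
        rw [← this]; ring
      · intro I _ hI
        rw [if_neg fun hh => hI hh.2.symm, map_zero, mul_zero]
      · simp
    · have := tauP_mul (V := V) J J'
      rw [if_neg h] at this
      rw [Finset.sum_eq_zero]
      · calc tauP J * inG m (c J) * (tauP J' * inG m (d J'))
            = (tauP J * tauP J') * (inG m (c J) * inG m (d J')) := by ring
          _ = 0 := by rw [this, zero_mul]
      · intro I _
        rw [if_neg fun hh => h hh.1, map_zero, mul_zero]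

/-! ### weights -/

/-- weight of the source part -/
def vS (v : Fin m → ℝ≥0∞) (a : Src m) : ℝ≥0∞ := ∑ i, v i * (‖(a i).1‖ₑ + ‖(a i).2‖ₑ)

/-- weights on fields and sources: `v i` is the weight of `θ_i` and of `θ_i'` -/
def wS (w : V → ℝ≥0∞) (v : Fin m → ℝ≥0∞) (p : VS V m) : ℝ≥0∞ := w p.1 + vS v p.2

end Crest.Agent.R165.SrcDefx991
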