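import Crest.Agent.R165.Extr_417
import Crest.Agent.R165.SrcDef_991
import Crest.Agent.R165.FRDLat_439
import Crest.Agent.R165.PlaneCov_901
import Crest.Agent.R165.BgIso2_432

/-!
# Row 165 (S0250), block G: the concrete flow (D16), instance of `KFlow_337.Sys`

* `rr l k0 n = 2^(l*(k0+n))` : the scales;  `lo`, `hi` : the dyadic slices integrated at step `n`;
  `nearR`, `near` : touching;  `slC` : the covariance of step `n`;  `fldU U` : fields of `U`
* `lft`, `tauC`, `psiC` : the canonical chart at a face;  `gpZ`, `gp` : the canonical gauge (product of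
  the bond signs along the L-path);  `chP`, `chQ` : the field maps of the chart
* `LocC w f`, `LocG w f` : localisation at the face `f` of the background `w`
* `deep`, `bulk` : the extraction (`exF` of 417);  `sys` : **the system** without sources; `mk` =
  marked faces (723), near which nothing is extracted; `mk = ∅` is the standard case
* `liftE m e`, `union e₁ e₂` : extractions;  `fldUS`;  `sysS` : **the system** with `m` sources, fields
  `VS (Fld G) m` of 991
-/

set_option autoImplicit false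
set_option linter.unusedSectionVars false

noncomputable section

open scoped ENNReal
open Crest.Agent.R165.Gr0x606 Crest.Agent.R165.Gr1x606 Crest.Agent.R165.Latx683
open Crest.Agent.R165.GDefx387 Crest.Agent.R165.GeOpsx337 Crest.Agent.R165.KFlowx337
open Crest.Agent.R165.FRDPolyx439 Crest.Agent.R165.FRDLatx439 Crest.Agent.R165.BgIsox432
open Crest.Agent.R165.PlaneModesx901 Crest.Agent.R165.PlaneLocx901 Crest.Agent.R165.Locx901
open Crest.Agent.R165.PStepx417 Crest.Agent.R165.SrcDefx991

namespace Crest.Agent.R165.GSysx387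

/-! ### scales -/

/-- the scale of step `n`: `L^(k0+n)`, `L = 2^l` -/
def rr (l k0 n : ℕ) : ℕ := 2 ^ (l * (k0 + n))

/-- first dyadic slice of step `n` -/
def lo (l k0 n : ℕ) : ℕ := if n = 0 then 0 else l * (k0 + n)

/-- end of the dyadic slices of step `n` -/
def hi (l k0 n : ℕ) : ℕ := l * (k0 + n + 1)

/-- range of touching at step `n` -/
def nearR (l k0 n : ℕ) : ℕ := rr l k0 (n + 1) / 8

theorem rr_pos (l k0 n : ℕ) : 0 < rr l k0 n := by unfold rr; positivity

theorem rr_succ (l k0 n : ℕ) : rr l k0 (n + 1) = 2 ^ l * rr l k0 n := by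
  unfold rr
  rw [← pow_add]
  congr 1
  ring

theorem rr_mono (l k0 : ℕ) {n m : ℕ} (h : n ≤ m) : rr l k0 n ≤ rr l k0 m := by
  unfold rr
  exact Nat.pow_le_pow_right (by norm_num) (Nat.mul_le_mul_left _ (by omega))

theorem hi_eq (l k0 n : ℕ) : 2 ^ hi l k0 n = rr l k0 (n + 1) := rfl

theorem lo_succ (l k0 n : ℕ) : lo l k0 (n + 1) = hi l k0 n := by
  unfold lo hi
  rw [if_neg (by omega)]
  congr 1

theorem lo_zero (l k0 : ℕ) : lo l k0 0 = 0 := if_pos rfl

theorem nearR_mono (l k0 : ℕ) {n m : ℕ} (h : n ≤ m) : nearR l k0 n ≤ nearR l k0 m :=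
  Nat.div_le_div_right (rr_mono l k0 (by omega))

section lattice

variable {G : Type} [CommRing G] [CN G]

/-- touching of faces at step `n` -/
def near (l k0 n : ℕ) (f g : G × G) : Prop := fd f g ≤ nearR l k0 n

/-- the covariance of step `n` -/
def slC {M K : ℕ} (D : FRD 16 M K) (w : BW G) (l k0 n : ℕ) : Cov (Fld G) :=
  SopC D w (lo l k0 n) (hi l k0 n)

/-- the fields of a set of faces -/
def fldU (U : Finset (G × G)) : Submodule ℝ (Fld G) := fldS (nbhd 1 U)

/-! ### the canonical chart and the canonical gauge at a face -/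

section chart

variable [CNZ G]

/-- integer representative of minimal absolute value -/
def lft (a : G) : ℤ := (CNZ.lift a).choose

theorem lft_abs (a : G) : (lft a).natAbs = cn a := (CNZ.lift a).choose_spec.1

@[simp] theorem lft_cast (a : G) : ((lft a : ℤ) : G) = a := (CNZ.lift a).choose_spec.2

@[simp] theorem lft_int (a : ℤ) : lft a = a := by
  have h := lft_cast (G := ℤ) a
  rwa [Int.cast_id] at h

/-- the canonical chart at `f` -/
def tauC (f g : G × G) : ℤ × ℤ := (lft (g.1 - f.1), lft (g.2 - f.2))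

/-- inverse of the canonical chart at `f` -/
def psiC (f : G × G) (v : ℤ × ℤ) : G × G := (f.1 + (v.1 : G), f.2 + (v.2 : G))

@[simp] theorem psiC_tauC (f g : G × G) : psiC f (tauC f g) = g := by
  unfold psiC tauC
  simp only [lft_cast]
  ext <;> simp

/-- the sign of a bond weight (`1` for weight zero) -/
def bs (y : ℝ) : ℝ := if y < 0 then -1 else 1

theorem bs_sq (y : ℝ) : bs y * bs y = 1 := by unfold bs; split_ifs <;> norm_num

/-- horizontal part of the gauge -/
def gh (w : BW G) (f : G × G) : ℤ → ℝ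
  | Int.ofNat k => ∏ i ∈ Finset.range k, bs (yE w (f.1 + (i : G), f.2))
  | Int.negSucc k => ∏ i ∈ Finset.range (k + 1), bs (yE w (f.1 - ((i + 1 : ℕ) : G), f.2))

/-- vertical part of the gauge -/
def gv (w : BW G) (f : G × G) : ℤ → ℝ
  | Int.ofNat k => ∏ i ∈ Finset.range k, bs (yN w (f.1, f.2 + (i : G)))
  | Int.negSucc k => ∏ i ∈ Finset.range (k + 1), bs (yN w (f.1, f.2 - ((i + 1 : ℕ) : G)))

/-- the canonical gauge at `f`, in the chart: horizontal path first, then vertical -/
def gpZ (w : BW G) (f : G × G) (v : ℤ × ℤ) : ℝ := gh w f v.1 * gv w (f.1 + (v.1 : G), f.2) v.2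

/-- the canonical gauge at `f` -/
def gp (w : BW G) (f g : G × G) : ℝ := gpZ w f (tauC f g)

theorem prod_sq_one {ι : Type*} (s : Finset ι) (u : ι → ℝ) (h : ∀ i ∈ s, u i * u i = 1) :
    (∏ i ∈ s, u i) * ∏ i ∈ s, u i = 1 := by
  rw [← Finset.prod_mul_distrib]
  exact Finset.prod_eq_one h

theorem gh_sq (w : BW G) (f : G × G) (n : ℤ) : gh w f n * gh w f n = 1 := by
  cases n <;> exact prod_sq_one _ _ fun _ _ => bs_sq _

theorem gv_sq (w : BW G) (f : G × G) (n : ℤ) : gv w f n * gv w f n = 1 := by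
  cases n <;> exact prod_sq_one _ _ fun _ _ => bs_sq _

theorem gpZ_sq (w : BW G) (f : G × G) (v : ℤ × ℤ) : gpZ w f v * gpZ w f v = 1 := by
  unfold gpZ
  calc _ = (gh w f v.1 * gh w f v.1) *
        (gv w (f.1 + (v.1 : G), f.2) v.2 * gv w (f.1 + (v.1 : G), f.2) v.2) := by ring
    _ = 1 := by rw [gh_sq, gv_sq, one_mul]

theorem gp_sq (w : BW G) (f g : G × G) : gp w f g * gp w f g = 1 := gpZ_sq w f _

/-- the field map of the canonical chart at `f` -/
def chP (w : BW G) (f : G × G) : Fld G →ₗ[ℝ] Fld ℤ :=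
  push (fun h : HE G => (tauC f h.1, h.2)) fun h => gp w f h.1

/-- the field map of the inverse chart at `f` -/
def chQ (w : BW G) (f : G × G) : Fld ℤ →ₗ[ℝ] Fld G :=
  push (fun h : HE ℤ => (psiC f h.1, h.2)) fun h => gpZ w f h.1

theorem chP_single (w : BW G) (f : G × G) (h : HE G) (c : ℝ) :
    chP w f (Finsupp.single h c) = c • (gp w f h.1 • Finsupp.single (tauC f h.1, h.2) 1) := by
  unfold chP push
  rw [Finsupp.linearCombination_single]

theorem chQ_single (w : BW G) (f : G × G) (h : HE ℤ) (c : ℝ) :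
    chQ w f (Finsupp.single h c) = c • (gpZ w f h.1 • Finsupp.single (psiC f h.1, h.2) 1) := by
  unfold chQ push
  rw [Finsupp.linearCombination_single]

/-! ### localisation -/

/-- localisation at a face of the plane, on even elements -/
def LocE (y : Fc) : Ge (Fld ℤ) →ₗ[ℝ] Ge (Fld ℤ) where
  toFun a := ⟨LocAt y a, by
    unfold LocAt
    rw [Loc_apply]
    exact IsEv.add (IsEv.sum fun i _ => IsEv.sum fun j _ => (isEv_fi_fi _ _).smul _)
      (IsEv.sum fun i _ => IsEv.sum fun j _ => (isEv_fi_fi _ _).smul _)⟩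
  map_add' a b := ge_ext (by simp)
  map_smul' c a := ge_ext (by simp)

@[simp] theorem coe_LocE (y : Fc) (a : Ge (Fld ℤ)) : ((LocE y a : Ge (Fld ℤ)) : Gr _) = LocAt y a :=
  rfl

/-- localisation at the face `f` of the background `w`, through the canonical chart -/
def LocC (w : BW G) (f : G × G) : Gr (Fld G) →ₗ[ℝ] Gr (Fld G) :=
  (mp (chQ w f)).toLinearMap ∘ₗ LocAt (0, 0) ∘ₗ (mp (chP w f)).toLinearMap

theorem LocC_apply (w : BW G) (f : G × G) (a : Gr (Fld G)) :
    LocC w f a = mp (chQ w f) (LocAt (0, 0) (mp (chP w f) a)) := rfl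

/-- the same on even elements -/
def LocG (w : BW G) (f : G × G) : Ge (Fld G) →ₗ[ℝ] Ge (Fld G) :=
  (mpG (chQ w f)).toLinearMap ∘ₗ LocE (0, 0) ∘ₗ (mpG (chP w f)).toLinearMap

theorem LocG_apply (w : BW G) (f : G × G) (a : Ge (Fld G)) :
    LocG w f a = mpG (chQ w f) (LocE (0, 0) (mpG (chP w f) a)) := rfl

@[simp] theorem coe_LocG (w : BW G) (f : G × G) (a : Ge (Fld G)) :
    ((LocG w f a : Ge (Fld G)) : Gr (Fld G)) = LocC w f a := rfl

/-! ### the extraction -/

/-- the face `f` is deep at step `n`: the background is plane and there are no marks in the ball of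
radius `s2 * rr (n+1)` -/
def deep (w : BW G) (mk : Finset (G × G)) (l k0 n : ℕ) (f : G × G) : Prop :=
  Emb w (rr l k0 (n + 1)) {f} ∧ ∀ m ∈ mk, s2 * rr l k0 (n + 1) < fd f m

variable [DecidableEq G]

open Classical in
/-- the extraction of step `n`: `(1/#U) LocG w f (H U)` is moved from the small sets `U` to their deep
faces `f` -/
def bulk (w : BW G) (mk : Finset (G × G)) (l k0 n : ℕ) : Extr (G × G) (Fld G) :=
  exF (deep w mk l k0 n) (LocG w) (rr l k0 n)

/-- **THE SYSTEM** of the background `w` (no sources; `mk` marked faces) -/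
def sys {M K : ℕ} (D : FRD 16 M K) (w : BW G) (mk : Finset (G × G)) (l k0 : ℕ)
    (K0 : Finset (G × G) → Ge (Fld G)) : Sys (G × G) (Fld G) where
  S := slC D w l k0
  near := near l k0
  fld := fldU
  vac := vac0 (Fld G)
  e := bulk w mk l k0
  K0 := K0

/-! ### sources -/

variable {V : Type} [AddCommGroup V] [Module ℝ V]

/-- an extraction acting on the source-free part only -/
def liftE {F : Type} [DecidableEq F] (m : ℕ) (e : Extr F V) : Extr F (VS V m) where
  out := e.out
  inn := e.inn
  mem_iff := e.mem_iff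
  sub := e.sub
  ne := e.ne
  X U T := (inG m).toLinearMap ∘ₗ e.X U T ∘ₗ (noS (m := m)).toLinearMap

@[simp] theorem liftE_X {F : Type} [DecidableEq F] (m : ℕ) (e : Extr F V) (U T : Finset F)
    (a : Ge (VS V m)) : (liftE m e).X U T a = inG m (e.X U T (noS a)) := rfl

theorem liftE_lost {F : Type} [DecidableEq F] (m : ℕ) (e : Extr F V) (H : Finset F → Ge (VS V m))
    (U : Finset F) : (liftE m e).lost H U = inG m (e.lost (fun U => noS (H U)) U) := by
  unfold Extr.lost
  rw [map_sum]
  rfl

theorem liftE_gain {F : Type} [DecidableEq F] (m : ℕ) (e : Extr F V) (H : Finset F → Ge (VS V m))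
    (T : Finset F) : (liftE m e).gain H T = inG m (e.gain (fun U => noS (H U)) T) := by
  unfold Extr.gain
  rw [map_sum]
  rfl

/-- union of two extractions -/
def union {F : Type} [DecidableEq F] {V : Type*} [AddCommGroup V] [Module ℝ V] (e₁ e₂ : Extr F V) :
    Extr F V where
  out U := e₁.out U ∪ e₂.out U
  inn T := e₁.inn T ∪ e₂.inn T
  mem_iff U T := by rw [Finset.mem_union, Finset.mem_union, e₁.mem_iff, e₂.mem_iff]
  sub U T hT := (Finset.mem_union.1 hT).elim (e₁.sub U T) (e₂.sub U T)
  ne U T hT := (Finset.mem_union.1 hT).elim (e₁.ne U T) (e₂.ne U T)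
  X U T := (if T ∈ e₁.out U then e₁.X U T else 0) + (if T ∈ e₂.out U then e₂.X U T else 0)

section union

variable {F : Type} [DecidableEq F] {V : Type*} [AddCommGroup V] [Module ℝ V] (e₁ e₂ : Extr F V)

theorem union_lost (H : Finset F → Ge V) (U : Finset F) :
    (union e₁ e₂).lost H U = e₁.lost H U + e₂.lost H U := by
  classical
  unfold Extr.lost
  have h : ∀ (e : Extr F V) (s : Finset (Finset F)), e.out U ⊆ s →
      ∑ T ∈ s, (if T ∈ e.out U then e.X U T else 0) (H U) = ∑ T ∈ e.out U, e.X U T (H U) := by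
    intro e s hs
    rw [← Finset.sum_subset hs (fun T _ hT => by rw [if_neg hT, LinearMap.zero_apply])]
    exact Finset.sum_congr rfl fun T hT => by rw [if_pos hT]
  show ∑ T ∈ e₁.out U ∪ e₂.out U, ((if T ∈ e₁.out U then e₁.X U T else 0) +
    (if T ∈ e₂.out U then e₂.X U T else 0)) (H U) = _
  simp only [LinearMap.add_apply, Finset.sum_add_distrib]
  rw [h e₁ _ Finset.subset_union_left, h e₂ _ Finset.subset_union_right]

theorem union_gain (H : Finset F → Ge V) (T : Finset F) :
    (union e₁ e₂).gain H T = e₁.gain H T + e₂.gain H T := by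
  classical
  unfold Extr.gain
  have h : ∀ (e : Extr F V) (s : Finset (Finset F)), e.inn T ⊆ s →
      ∑ U ∈ s, (if T ∈ e.out U then e.X U T else 0) (H U) = ∑ U ∈ e.inn T, e.X U T (H U) := by
    intro e s hs
    rw [← Finset.sum_subset hs (fun U _ hU => by
      rw [if_neg (fun h => hU ((e.mem_iff U T).1 h)), LinearMap.zero_apply])]
    exact Finset.sum_congr rfl fun U hU => by rw [if_pos ((e.mem_iff U T).2 hU)]
  show ∑ U ∈ e₁.inn T ∪ e₂.inn T, ((if T ∈ e₁.out U then e₁.X U T else 0) +
    (if T ∈ e₂.out U then e₂.X U T else 0)) (H U) = _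
  simp only [LinearMap.add_apply, Finset.sum_add_distrib]
  rw [h e₁ _ Finset.subset_union_left, h e₂ _ Finset.subset_union_right]

end union

/-- the fields of a set of faces, with the sources `i` whose faces `sf i` meet `U` -/
def fldUS {m : ℕ} (sf : Fin m → Finset (G × G)) (U : Finset (G × G)) :
    Submodule ℝ (VS (Fld G) m) where
  carrier := {x | x.1 ∈ fldU U ∧ ∀ i, x.2 i ≠ 0 → ∃ f ∈ sf i, f ∈ U}
  add_mem' {x y} hx hy := by
    refine ⟨add_mem hx.1 hy.1, fun i h => ?_⟩
    by_cases hxi : x.2 i = 0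
    · refine hy.2 i fun hyi => h ?_
      show x.2 i + y.2 i = 0
      rw [hxi, hyi, add_zero]
    · exact hx.2 i hxi
  zero_mem' := ⟨zero_mem _, fun _ h => absurd rfl h⟩
  smul_mem' c x hx := by
    refine ⟨Submodule.smul_mem _ c hx.1, fun i h => hx.2 i fun h0 => h ?_⟩
    show c • x.2 i = 0
    rw [h0, smul_zero]

/-- the source fields -/
def srcW (V : Type) [AddCommGroup V] [Module ℝ V] (m : ℕ) : Submodule ℝ (VS V m) :=
  LinearMap.ker (LinearMap.fst ℝ V (Src m))

/-- **THE SYSTEM WITH SOURCES**; `sf i` = the faces of the insertion `i`, `e2` = the extraction of the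
source terms -/
def sysS {M K m : ℕ} (D : FRD 16 M K) (w : BW G) (mk : Finset (G × G)) (l k0 : ℕ)
    (sf : Fin m → Finset (G × G)) (e2 : ℕ → Extr (G × G) (VS (Fld G) m))
    (K0 : Finset (G × G) → Ge (VS (Fld G) m)) : Sys (G × G) (VS (Fld G) m) where
  S n := ext0 m (slC D w l k0 n)
  near := near l k0
  fld := fldUS sf
  vac := vacS
  e n := union (liftE m (bulk w mk l k0 n)) (e2 n)
  K0 := K0

end chart

end lattice

end Crest.Agent.R165.GSysx387
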