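import Crest.Agent.R165.PEnd_683
import Crest.Agent.R165.GSys_387

/-!
# Row 165 (S0250): constants of the renormalisation group, part 1 (helper891)

The order of the choices is `p` (`L = 2^p`), `Γ`, `k0`, `A0`, `δ` (contract of helper683).

* `EvC.of_p`, `of_Γ`, `of_k0`, `of_A0`, `of_δ` : `EvC` from a statement which only needs the first
  choices; `EvC.and3` .. ; `EvC.ball` : finitely many statements
* `ev_pos` : the elementary positivity facts
* `Amp` : admissible amplitude sequences;  `Amp.ratio_le`, `Amp.const`, `Amp.lin`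
* arithmetic of the scales `rr p k0 n`, `nearR p k0 n` of `GSys_387`
-/

set_option autoImplicit false

noncomputable section

open Filter Topology
open Crest.Agent.R165.PEndx683 Crest.Agent.R165.GSysx387

namespace Crest.Agent.R165.Constx891

/-! ### combinators -/

section comb

theorem ev_p {P : ℕ → Prop} (h : ∀ᶠ p : ℕ in atTop, P p) : EvC fun c => P c.p := by
  filter_upwards [h] with p hp
  exact Eventually.of_forall fun _ => Eventually.of_forall fun _ => Eventually.of_forall fun _ =>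
    Eventually.of_forall fun _ => hp

theorem ev_Γ {P : ℕ → ℝ → Prop} (h : ∀ᶠ p : ℕ in atTop, ∀ᶠ Γ : ℝ in atTop, P p Γ) :
    EvC fun c => P c.p c.Γ := by
  filter_upwards [h] with p hp
  filter_upwards [hp] with Γ hΓ
  exact Eventually.of_forall fun _ => Eventually.of_forall fun _ =>
    Eventually.of_forall fun _ => hΓ

theorem ev_k0 {P : ℕ → ℝ → ℕ → Prop}
    (h : ∀ᶠ p : ℕ in atTop, ∀ᶠ Γ : ℝ in atTop, ∀ᶠ k0 : ℕ in atTop, P p Γ k0) :
    EvC fun c => P c.p c.Γ c.k0 := by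
  filter_upwards [h] with p hp
  filter_upwards [hp] with Γ hΓ
  filter_upwards [hΓ] with k0 hk
  exact Eventually.of_forall fun _ => Eventually.of_forall fun _ => hk

theorem ev_A0 {P : ℕ → ℝ → ℕ → ℝ → Prop}
    (h : ∀ᶠ p : ℕ in atTop, ∀ᶠ Γ : ℝ in atTop, ∀ᶠ k0 : ℕ in atTop, ∀ᶠ A0 : ℝ in atTop,
      P p Γ k0 A0) : EvC fun c => P c.p c.Γ c.k0 c.A0 := by
  filter_upwards [h] with p hp
  filter_upwards [hp] with Γ hΓ
  filter_upwards [hΓ] with k0 hk
  filter_upwards [hk] with A0 hA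
  exact Eventually.of_forall fun _ => hA

theorem ev_δ {P : ℕ → ℝ → ℕ → ℝ → ℝ → Prop}
    (h : ∀ᶠ p : ℕ in atTop, ∀ᶠ Γ : ℝ in atTop, ∀ᶠ k0 : ℕ in atTop, ∀ᶠ A0 : ℝ in atTop,
      ∀ᶠ δ : ℝ in 𝓝[>] 0, P p Γ k0 A0 δ) : EvC fun c => P c.p c.Γ c.k0 c.A0 c.δ := h

/-- `k0` and later choices, from a statement about `k0` for ALL `Γ` -/
theorem ev_k0' {P : ℕ → ℕ → Prop} (h : ∀ᶠ p : ℕ in atTop, ∀ᶠ k0 : ℕ in atTop, P p k0) :
    EvC fun c => P c.p c.k0 :=
  ev_k0 (P := fun p _ k0 => P p k0) (h.mono fun _ hp => Eventually.of_forall fun _ => hp)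

/-- `A0` after `p`, `k0` -/
theorem ev_A0' {P : ℕ → ℕ → ℝ → Prop} (h : ∀ p k0, ∀ᶠ A0 : ℝ in atTop, P p k0 A0) :
    EvC fun c => P c.p c.k0 c.A0 :=
  ev_A0 (P := fun p _ k0 A0 => P p k0 A0) (Eventually.of_forall fun p => Eventually.of_forall
    fun _ => Eventually.of_forall fun k0 => h p k0)

/-- `δ` after all the others -/
theorem ev_δ' {P : ℕ → ℝ → ℕ → ℝ → ℝ → Prop} (h : ∀ p Γ k0 A0, ∀ᶠ δ : ℝ in 𝓝[>] 0, P p Γ k0 A0 δ) :
    EvC fun c => P c.p c.Γ c.k0 c.A0 c.δ :=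
  ev_δ (P := P) (Eventually.of_forall fun p => Eventually.of_forall fun Γ => Eventually.of_forall
    fun k0 => Eventually.of_forall fun A0 => h p Γ k0 A0)

theorem ev_mono2 {P Q R : Cst → Prop} (h : EvC P) (h' : EvC Q) (hR : ∀ c, P c → Q c → R c) :
    EvC R := (h.and h').mono fun c hc => hR c hc.1 hc.2

theorem ev_mono3 {P Q R S : Cst → Prop} (h : EvC P) (h' : EvC Q) (h'' : EvC R)
    (hS : ∀ c, P c → Q c → R c → S c) : EvC S :=
  ((h.and h').and h'').mono fun c hc => hS c hc.1.1 hc.1.2 hc.2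

theorem ev_all {ι : Type*} [Finite ι] {P : ι → Cst → Prop} (h : ∀ i, EvC (P i)) :
    EvC fun c => ∀ i, P i c := by
  filter_upwards [eventually_all.2 h] with p h
  filter_upwards [eventually_all.2 h] with Γ h
  filter_upwards [eventually_all.2 h] with k0 h
  filter_upwards [eventually_all.2 h] with A0 h
  exact eventually_all.2 h

end comb

/-! ### elementary facts -/

theorem ev_p_ge (N : ℕ) : EvC fun c => N ≤ c.p := ev_p (eventually_ge_atTop N)

theorem ev_Γ_ge (x : ℝ) : EvC fun c => x ≤ c.Γ :=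
  ev_Γ (P := fun _ Γ => x ≤ Γ) (Eventually.of_forall fun _ => eventually_ge_atTop x)

/-- `Γ` larger than any function of `p` -/
theorem ev_Γ_ge' (f : ℕ → ℝ) : EvC fun c => f c.p ≤ c.Γ :=
  ev_Γ (P := fun p Γ => f p ≤ Γ) (Eventually.of_forall fun p => eventually_ge_atTop (f p))

/-- `k0` larger than any function of `p`, `Γ` -/
theorem ev_k0_ge (f : ℕ → ℝ → ℕ) : EvC fun c => f c.p c.Γ ≤ c.k0 :=
  ev_k0 (P := fun p Γ k0 => f p Γ ≤ k0) (Eventually.of_forall fun p => Eventually.of_forall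
    fun Γ => eventually_ge_atTop (f p Γ))

/-- `A0` larger than any function of `p`, `Γ`, `k0` -/
theorem ev_A0_ge (f : ℕ → ℝ → ℕ → ℝ) : EvC fun c => f c.p c.Γ c.k0 ≤ c.A0 :=
  ev_A0 (P := fun p Γ k0 A0 => f p Γ k0 ≤ A0) (Eventually.of_forall fun p => Eventually.of_forall
    fun Γ => Eventually.of_forall fun k0 => eventually_ge_atTop (f p Γ k0))

theorem ev_δ_pos : EvC fun c => 0 < c.δ :=
  ev_δ (P := fun _ _ _ _ δ => 0 < δ) (Eventually.of_forall fun _ => Eventually.of_forall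
    fun _ => Eventually.of_forall fun _ => Eventually.of_forall fun _ => self_mem_nhdsWithin)

/-- `δ` smaller than any positive function of the other constants -/
theorem ev_δ_le (f : ℕ → ℝ → ℕ → ℝ → ℝ) (hf : ∀ p Γ k0 A0, 0 < f p Γ k0 A0) :
    EvC fun c => c.δ ≤ f c.p c.Γ c.k0 c.A0 :=
  ev_δ (P := fun p Γ k0 A0 δ => δ ≤ f p Γ k0 A0) (Eventually.of_forall fun p =>
    Eventually.of_forall fun Γ => Eventually.of_forall fun k0 => Eventually.of_forall fun A0 => by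
      have h : Set.Ioc 0 (f p Γ k0 A0) ∈ 𝓝[>] (0 : ℝ) := Ioc_mem_nhdsGT (hf p Γ k0 A0)
      filter_upwards [h] with δ hδ
      exact hδ.2)

/-- the standing facts -/
structure Std (c : Cst) : Prop where
  p_pos : 4 ≤ c.p
  Γ_ge : 3 ≤ c.Γ
  k0_pos : 1 ≤ c.k0
  A0_ge : 1 ≤ c.A0
  δ_pos : 0 < c.δ
  δ_le : c.δ ≤ 1

theorem ev_std : EvC Std := by
  have h1 := ev_p_ge 4
  have h2 := ev_Γ_ge 3
  have h3 := ev_k0_ge fun _ _ => 1
  have h4 := ev_A0_ge fun _ _ _ => 1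
  have h5 := ev_δ_pos
  have h6 := ev_δ_le (fun _ _ _ _ => 1) fun _ _ _ _ => one_pos
  exact (((((h1.and h2).and h3).and h4).and h5).and h6).mono fun c hc =>
    ⟨hc.1.1.1.1.1, hc.1.1.1.1.2, hc.1.1.1.2, hc.1.1.2, hc.1.2, hc.2⟩

/-! ### amplitudes -/

/-- admissible amplitude sequences (contract (4), decision D19; not monotone) -/
structure Amp (c : Cst) (a : ℕ → ℝ) : Prop where
  ge : ∀ n, c.A0 ≤ a n
  le : ∀ n : ℕ, a n ≤ c.A0 * (1 + c.δ * n)
  succ_le : ∀ n, a (n + 1) ≤ (1 + c.δ) * a n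

namespace Amp

variable {c : Cst} {a : ℕ → ℝ}

theorem pos (hc : Std c) (h : Amp c a) (n : ℕ) : 0 < a n :=
  (one_pos.trans_le hc.A0_ge).trans_le (h.ge n)

theorem ratio_le (hc : Std c) (h : Amp c a) (n : ℕ) : a (n + 1) / a n ≤ 1 + c.δ := by
  rw [div_le_iff₀ (h.pos hc n)]
  exact h.succ_le n

theorem le_two (hc : Std c) (h : Amp c a) (n : ℕ) : a (n + 1) ≤ 2 * a n := by
  have h1 := h.succ_le n
  have h2 := h.pos hc n
  have h3 := hc.δ_le
  nlinarith

/-- constant amplitudes -/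
theorem const (hc : Std c) : Amp c fun _ => c.A0 where
  ge _ := le_rfl
  le n := by
    have h1 := hc.A0_ge
    have h2 := hc.δ_pos
    have hn : (0 : ℝ) ≤ n := Nat.cast_nonneg n
    nlinarith [mul_nonneg (mul_nonneg (by linarith : (0 : ℝ) ≤ c.A0) h2.le) hn]
  succ_le _ := by
    have h1 := hc.A0_ge
    have h2 := hc.δ_pos
    nlinarith

/-- linearly growing amplitudes -/
theorem lin (hc : Std c) : Amp c fun n : ℕ => c.A0 * (1 + c.δ * n) where
  ge n := by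
    have h1 := hc.A0_ge
    have h2 := hc.δ_pos
    have hn : (0 : ℝ) ≤ n := Nat.cast_nonneg n
    nlinarith [mul_nonneg (mul_nonneg (by linarith : (0 : ℝ) ≤ c.A0) h2.le) hn]
  le n := le_rfl
  succ_le n := by
    have h1 := hc.A0_ge
    have h2 := hc.δ_pos
    have hn : (0 : ℝ) ≤ n := Nat.cast_nonneg n
    have h3 : (1 : ℝ) + c.δ * ((n + 1 : ℕ) : ℝ) ≤ (1 + c.δ) * (1 + c.δ * n) := by
      push_cast
      nlinarith [mul_nonneg (mul_nonneg h2.le h2.le) hn]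
    calc c.A0 * (1 + c.δ * ((n + 1 : ℕ) : ℝ)) ≤ c.A0 * ((1 + c.δ) * (1 + c.δ * n)) :=
          mul_le_mul_of_nonneg_left h3 (by linarith)
      _ = _ := by ring

end Amp

/-! ### the scales -/

section scales

variable {p k0 : ℕ}

theorem rr_div (p k0 n : ℕ) : rr p k0 (n + 1) / rr p k0 n = 2 ^ p := by
  rw [rr_succ, Nat.mul_div_cancel _ (rr_pos p k0 n)]

theorem sixteen_rr (hp : 4 ≤ p) (k0 n : ℕ) : 16 * rr p k0 n ≤ rr p k0 (n + 1) := by
  rw [rr_succ]
  refine Nat.mul_le_mul_right _ ?_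
  calc 16 = 2 ^ 4 := by norm_num
    _ ≤ 2 ^ p := Nat.pow_le_pow_right (by norm_num) hp

theorem rr_le_succ (p k0 n : ℕ) : rr p k0 n ≤ rr p k0 (n + 1) := rr_mono p k0 (Nat.le_succ n)

/-- `4 R + 3 r + 2 ≤ r'` -/
theorem near_rr (hp : 4 ≤ p) (k0 n : ℕ) :
    4 * nearR p k0 n + 3 * rr p k0 n + 2 ≤ rr p k0 (n + 1) := by
  have h1 := sixteen_rr hp k0 n
  have h2 := rr_pos p k0 n
  unfold nearR
  omega

theorem near_le (p k0 n : ℕ) : nearR p k0 n ≤ nearR p k0 (n + 1) := nearR_mono p k0 (Nat.le_succ n)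

theorem near_le_rr (p k0 n : ℕ) : nearR p k0 n ≤ rr p k0 (n + 1) := Nat.div_le_self _ _

theorem near_succ_le (p k0 n : ℕ) : nearR p k0 (n + 1) ≤ 2 ^ p * rr p k0 (n + 1) := by
  rw [← rr_succ]
  exact near_le_rr p k0 (n + 1)

/-- the covering number at the output scale -/
theorem near_div (p k0 n : ℕ) :
    (rr p k0 (n + 1) + nearR p k0 (n + 1)) / rr p k0 (n + 1) ≤ 2 ^ p + 1 := by
  have h := near_succ_le p k0 n
  have hr := rr_pos p k0 (n + 1)
  rw [Nat.div_le_iff_le_mul_add_pred hr]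
  have e : rr p k0 (n + 1) * (2 ^ p + 1) = 2 ^ p * rr p k0 (n + 1) + rr p k0 (n + 1) := by ring
  omega

theorem cast_rr (p k0 n : ℕ) : ((rr p k0 n : ℕ) : ℝ) = 2 ^ (p * (k0 + n)) := by
  unfold rr; push_cast; rfl

theorem ratio_rr (p k0 n : ℕ) : ((rr p k0 n : ℕ) : ℝ) / (rr p k0 (n + 1) : ℕ) = ((2 : ℝ) ^ p)⁻¹ := by
  have h := rr_pos p k0 n
  have h' : (0 : ℝ) < (rr p k0 n : ℕ) := by exact_mod_cast h
  rw [rr_succ]
  push_cast
  field_simp

/-- the first scale is as large as we want -/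
theorem ev_rr_ge (f : ℕ → ℝ → ℕ) : EvC fun c => ∀ n, f c.p c.Γ ≤ rr c.p c.k0 n := by
  have h1 := ev_k0_ge f
  have h2 := ev_std
  refine ev_mono2 h1 h2 fun c hc hs n => hc.trans ?_
  have h3 : c.k0 < 2 ^ c.k0 := Nat.lt_two_pow_self
  calc c.k0 ≤ 2 ^ c.k0 := h3.le
    _ ≤ rr c.p c.k0 n := by
      unfold rr
      refine Nat.pow_le_pow_right (by norm_num) ?_
      have := hs.p_pos
      nlinarith

end scales

end Crest.Agent.R165.Constx891
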