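import Mathlib

/-!
Row 165, block J3 (helper922).  Half-edge field `(S, E, N, W)` on the faces `(i, j)` of `ℤ²`,
signed edge weights `yE i j` (vertical primal edge between the faces `(i, j)` and `(i+1, j)`) and
`yN i j` (horizontal primal edge between the faces `(i, j)` and `(i, j+1)`).  Rows of the half-edge
operator, corner values, the function `H` (existence, closedness), sub/superharmonicity in the bulk and
at the (rough) boundary with the exact boundary conductance `2 x`.
-/

set_option autoImplicit false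

namespace Crest.Agent.R165.CornerHx922

/-- A half-edge field on the faces of `ℤ²` together with signed edge weights. -/
structure Fld where
  yE : ℤ → ℤ → ℝ
  yN : ℤ → ℤ → ℝ
  S : ℤ → ℤ → ℝ
  E : ℤ → ℤ → ℝ
  N : ℤ → ℤ → ℝ
  W : ℤ → ℤ → ℝ

namespace Fld

variable (F : Fld)

/-- Row `S` of `A φ` at the face `(i, j)`. -/
def rS (i j : ℤ) : ℝ := F.E i j + F.N i j + F.W i j + F.yN i (j - 1) * F.N i (j - 1)
/-- Row `E` of `A φ` at the face `(i, j)`. -/
def rE (i j : ℤ) : ℝ := -F.S i j + F.N i j + F.W i j + F.yE i j * F.W (i + 1) j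
/-- Row `N` of `A φ` at the face `(i, j)`. -/
def rN (i j : ℤ) : ℝ := -F.S i j - F.E i j + F.W i j - F.yN i j * F.S i (j + 1)
/-- Row `W` of `A φ` at the face `(i, j)`. -/
def rW (i j : ℤ) : ℝ := -F.S i j - F.E i j - F.N i j - F.yE (i - 1) j * F.E (i - 1) j

/-- Corner value at the south-east corner `(i+1, j)` of the face `(i, j)`. -/
def cSE (i j : ℤ) : ℝ := F.E i j - F.yE i j * F.W (i + 1) j
/-- Corner value at the north-east corner `(i+1, j+1)` of the face `(i, j)`. -/
def cNE (i j : ℤ) : ℝ := F.E i j + F.yE i j * F.W (i + 1) j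
/-- Corner value at the north-west corner `(i, j+1)` of the face `(i, j)`. -/
def cNW (i j : ℤ) : ℝ := F.W i j + F.yE (i - 1) j * F.E (i - 1) j
/-- Corner value at the south-west corner `(i, j)` of the face `(i, j)`. -/
def cSW (i j : ℤ) : ℝ := F.W i j - F.yE (i - 1) j * F.E (i - 1) j

theorem rep_SE (i j : ℤ) :
    F.S i j + F.yN i (j - 1) * F.N i (j - 1) = -F.cSE i j + (F.rS i j - F.rE i j) := by
  unfold cSE rS rE; ring

theorem rep_NE (i j : ℤ) :
    F.N i j + F.yN i j * F.S i (j + 1) = -F.cNE i j + (F.rE i j - F.rN i j) := by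
  unfold cNE rE rN; ring

theorem rep_NW (i j : ℤ) :
    F.N i j - F.yN i j * F.S i (j + 1) = -F.cNW i j + (F.rN i j - F.rW i j) := by
  unfold cNW rN rW; ring

theorem rep_SW (i j : ℤ) :
    F.S i j - F.yN i (j - 1) * F.N i (j - 1) = F.cSW i j - (F.rS i j + F.rW i j) := by
  unfold cSW rS rW; ring

/-- All four rows vanish at the face `(i, j)`. -/
def Sol (i j : ℤ) : Prop := F.rS i j = 0 ∧ F.rE i j = 0 ∧ F.rN i j = 0 ∧ F.rW i j = 0

theorem Sol.se {F : Fld} {i j : ℤ} (h : F.Sol i j) :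
    F.S i j + F.yN i (j - 1) * F.N i (j - 1) = -F.cSE i j := by
  rw [rep_SE, h.1, h.2.1]; ring

theorem Sol.ne {F : Fld} {i j : ℤ} (h : F.Sol i j) :
    F.N i j + F.yN i j * F.S i (j + 1) = -F.cNE i j := by
  rw [rep_NE, h.2.1, h.2.2.1]; ring

theorem Sol.nw {F : Fld} {i j : ℤ} (h : F.Sol i j) :
    F.N i j - F.yN i j * F.S i (j + 1) = -F.cNW i j := by
  rw [rep_NW, h.2.2.1, h.2.2.2]; ring

theorem Sol.sw {F : Fld} {i j : ℤ} (h : F.Sol i j) :
    F.S i j - F.yN i (j - 1) * F.N i (j - 1) = F.cSW i j := by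
  rw [rep_SW, h.1, h.2.2.2]; ring

/-- Increment of `H` along the horizontal primal edge `(i, j) → (i+1, j)`. -/
def dHx (i j : ℤ) : ℝ := 4 * F.yN i (j - 1) * F.N i (j - 1) * F.S i j
/-- Increment of `H` along the vertical primal edge `(i, j) → (i, j+1)`. -/
def dHy (i j : ℤ) : ℝ := 4 * F.yE (i - 1) j * F.E (i - 1) j * F.W i j

/-- The pairing `⟨φ, A φ⟩` restricted to the face `(i, j)`. -/
def pair (i j : ℤ) : ℝ :=
  F.S i j * F.rS i j + F.E i j * F.rE i j + F.N i j * F.rN i j + F.W i j * F.rW i j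

/-- Circulation of `dH` around the face `(i, j)` (counterclockwise) is `4 ⟨φ, A φ⟩` at the face. -/
theorem circ (i j : ℤ) :
    F.dHx i j + F.dHy (i + 1) j - F.dHx i (j + 1) - F.dHy i j = 4 * F.pair i j := by
  unfold dHx dHy pair rS rE rN rW
  simp only [add_sub_cancel_right]
  ring

end Fld

/-- Discrete Poincaré lemma on `ℤ²`. -/
theorem exists_potential (a b : ℤ → ℤ → ℝ)
    (h : ∀ i j, a i j + b (i + 1) j - a i (j + 1) - b i j = 0) :
    ∃ H : ℤ → ℤ → ℝ, (∀ i j, H (i + 1) j - H i j = a i j) ∧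
      (∀ i j, H i (j + 1) - H i j = b i j) := by
  -- one dimensional primitive
  have prim : ∀ c : ℤ → ℝ, ∃ G : ℤ → ℝ, ∀ k, G (k + 1) - G k = c k := by
    intro c
    refine ⟨fun k => (∑ m ∈ Finset.range k.toNat, c m) -
      ∑ m ∈ Finset.range (-k).toNat, c (-(m : ℤ) - 1), fun k => ?_⟩
    rcases lt_or_ge k 0 with hk | hk
    · obtain ⟨n, rfl⟩ : ∃ n : ℕ, k = -(n : ℤ) - 1 := ⟨(-k - 1).toNat, by omega⟩
      have h1 : (-(n : ℤ) - 1 + 1).toNat = 0 := by omega
      have h2 : (-(n : ℤ) - 1).toNat = 0 := by omega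
      have h3 : (-(-(n : ℤ) - 1 + 1)).toNat = n := by omega
      have h4 : (-(-(n : ℤ) - 1)).toNat = n + 1 := by omega
      simp only [h1, h2, h3, h4, Finset.sum_range_succ, Finset.range_zero, Finset.sum_empty]
      ring
    · obtain ⟨n, rfl⟩ : ∃ n : ℕ, k = (n : ℤ) := ⟨k.toNat, by omega⟩
      have h1 : ((n : ℤ) + 1).toNat = n + 1 := by omega
      have h2 : ((n : ℤ)).toNat = n := by omega
      have h3 : (-((n : ℤ) + 1)).toNat = 0 := by omega
      have h4 : (-(n : ℤ)).toNat = 0 := by omega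
      simp only [h1, h2, h3, h4, Finset.sum_range_succ, Finset.range_zero, Finset.sum_empty]
      ring
  obtain ⟨G, hG⟩ := prim (fun i => a i 0)
  choose K hK using fun i => prim (fun j => b i j)
  refine ⟨fun i j => G i + (K i j - K i 0), ?_, ?_⟩
  · intro i j
    have key : ∀ j : ℤ, (K (i + 1) j - K (i + 1) 0) - (K i j - K i 0) = a i j - a i 0 := by
      intro j
      induction j using Int.induction_on with
      | zero => ring
      | succ n ih =>
        have e1 := hK (i + 1) n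
        have e2 := hK i n
        have e3 := h i n
        linarith
      | pred n ih =>
        have e1 := hK (i + 1) (-(n : ℤ) - 1)
        have e2 := hK i (-(n : ℤ) - 1)
        have e3 := h i (-(n : ℤ) - 1)
        rw [show (-(n : ℤ) - 1 + 1) = -(n : ℤ) by ring] at e1 e2 e3
        linarith
    have := key j
    have g := hG i
    simp only
    linarith
  · intro i j
    have := hK i j
    simp only
    linarith

namespace Fld

variable (F : Fld)

/-- `H` on primal vertices: primitive of `dH`. -/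
def IsHV (HV : ℤ → ℤ → ℝ) : Prop :=
  (∀ i j, HV (i + 1) j - HV i j = F.dHx i j) ∧ (∀ i j, HV i (j + 1) - HV i j = F.dHy i j)

/-- Global existence of `H` on the primal vertices, provided `⟨φ, A φ⟩ = 0` at every face
(for instance `A φ = δ_h` with `φ_h = 0`). -/
theorem exists_HV (h : ∀ i j, F.pair i j = 0) : ∃ HV : ℤ → ℤ → ℝ, F.IsHV HV := by
  obtain ⟨H, h1, h2⟩ := exists_potential F.dHx F.dHy (fun i j => by rw [F.circ, h]; ring)
  exact ⟨H, h1, h2⟩

/-- `HV`, `HF` are compatible with the corner values at the face `(i, j)`: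
`HV v - HF f = c(f,v)²` at its four corners. -/
structure IsHAt (HV HF : ℤ → ℤ → ℝ) (i j : ℤ) : Prop where
  se : HV (i + 1) j - HF i j = F.cSE i j ^ 2
  ne : HV (i + 1) (j + 1) - HF i j = F.cNE i j ^ 2
  nw : HV i (j + 1) - HF i j = F.cNW i j ^ 2
  sw : HV i j - HF i j = F.cSW i j ^ 2

/-- At a face where all rows vanish the four corners give the same value of `H`. -/
theorem isHAt_of_sol {F : Fld} {HV : ℤ → ℤ → ℝ} (hV : F.IsHV HV) {HF : ℤ → ℤ → ℝ} {i j : ℤ}
    (hs : F.Sol i j) (hF : HF i j = HV i j - F.cSW i j ^ 2) : F.IsHAt HV HF i j := by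
  have ex := hV.1 i j
  have ex' := hV.1 i (j + 1)
  have ey := hV.2 i j
  have ey' := hV.2 (i + 1) j
  have h1 := hs.se
  have h2 := hs.sw
  unfold dHx at ex ex'
  unfold dHy at ey ey'
  simp only [add_sub_cancel_right] at ex' ey'
  have sw : HV i j - HF i j = F.cSW i j ^ 2 := by rw [hF]; ring
  have se : HV (i + 1) j - HF i j = F.cSE i j ^ 2 := by
    have : F.cSE i j ^ 2 - F.cSW i j ^ 2 = 4 * F.yN i (j - 1) * F.N i (j - 1) * F.S i j := by
      rw [show F.cSE i j = -(F.S i j + F.yN i (j - 1) * F.N i (j - 1)) by rw [h1]; ring, ← h2]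
      ring
    linarith
  refine ⟨se, ?_, ?_, sw⟩
  · have : F.cNE i j ^ 2 - F.cSE i j ^ 2 = 4 * F.yE i j * F.E i j * F.W (i + 1) j := by
      unfold cNE cSE; ring
    linarith
  · have : F.cNW i j ^ 2 - F.cSW i j ^ 2 = 4 * F.yE (i - 1) j * F.E (i - 1) j * F.W i j := by
      unfold cNW cSW; ring
    linarith

/-- Existence of `H` on vertices and faces. -/
theorem exists_H (h : ∀ i j, F.pair i j = 0) :
    ∃ HV HF : ℤ → ℤ → ℝ, F.IsHV HV ∧ ∀ i j, F.Sol i j → F.IsHAt HV HF i j := by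
  obtain ⟨HV, hV⟩ := F.exists_HV h
  exact ⟨HV, fun i j => HV i j - F.cSW i j ^ 2, hV, fun i j hs => isHAt_of_sol hV hs rfl⟩

/-- Face increment across the vertical primal edge between `(i, j)` and `(i+1, j)`. -/
theorem diffE {F : Fld} {HV HF : ℤ → ℤ → ℝ} {i j : ℤ} (h : F.IsHAt HV HF i j)
    (h' : F.IsHAt HV HF (i + 1) j) :
    HF (i + 1) j - HF i j = (1 - F.yE i j ^ 2) * (F.E i j ^ 2 - F.W (i + 1) j ^ 2) := by
  have a := h.ne
  have b := h'.nw
  unfold cNE at a
  unfold cNW at b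
  simp only [add_sub_cancel_right] at b
  linear_combination a - b

/-- Face increment across the horizontal primal edge between `(i, j)` and `(i, j+1)`. -/
theorem diffN {F : Fld} {HV HF : ℤ → ℤ → ℝ} {i j : ℤ} (h : F.IsHAt HV HF i j)
    (h' : F.IsHAt HV HF i (j + 1)) (hs : F.Sol i j) (hs' : F.Sol i (j + 1)) :
    HF i (j + 1) - HF i j = (1 - F.yN i j ^ 2) * (F.N i j ^ 2 - F.S i (j + 1) ^ 2) := by
  have a := h.nw
  have b := h'.sw
  have e1 := hs.nw
  have e2 := hs'.sw
  simp only [add_sub_cancel_right] at e2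
  rw [show F.cNW i j = -(F.N i j - F.yN i j * F.S i (j + 1)) by rw [e1]; ring] at a
  rw [← e2] at b
  linear_combination a - b

end Fld

end Crest.Agent.R165.CornerHx922
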