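import Crest.Agent.R165.CornerH_922

/-!
Row 165, block J3 (helper922), part 2.  Superharmonicity of `H` on faces and subharmonicity of `H` on
vertices (sign convention `HV v - HF f = c(f,v)²`), with the exact boundary conductance `2 x`,
`x = √2 - 1`, for edges of weight `0` (plus) resp. `±1` (free).  All statements are local.
-/

set_option autoImplicit false

namespace Crest.Agent.R165.CornerHx922

namespace Fld

variable {F : Fld} {HV HF : ℤ → ℤ → ℝ} {x : ℝ}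

/-- Contribution of the `E` edge of the face `(i, j)`: critical edge, or weight-zero edge replaced by the
conductance `2 x` to the (outside) end vertices. -/
def ContrE (F : Fld) (x : ℝ) (HV HF : ℤ → ℤ → ℝ) (i j : ℤ) (c : ℝ) : Prop :=
  (F.yE i j ^ 2 = x ^ 2 ∧ F.IsHAt HV HF (i + 1) j ∧ c = HF (i + 1) j - HF i j) ∨
    (F.yE i j = 0 ∧ c = 2 * x * (HV (i + 1) j - HF i j))

/-- Contribution of the `W` edge of the face `(i, j)`. -/
def ContrW (F : Fld) (x : ℝ) (HV HF : ℤ → ℤ → ℝ) (i j : ℤ) (c : ℝ) : Prop :=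
  (F.yE (i - 1) j ^ 2 = x ^ 2 ∧ F.IsHAt HV HF (i - 1) j ∧ c = HF (i - 1) j - HF i j) ∨
    (F.yE (i - 1) j = 0 ∧ c = 2 * x * (HV i j - HF i j))

/-- Contribution of the `N` edge of the face `(i, j)`. -/
def ContrN (F : Fld) (x : ℝ) (HV HF : ℤ → ℤ → ℝ) (i j : ℤ) (c : ℝ) : Prop :=
  (F.yN i j ^ 2 = x ^ 2 ∧ F.IsHAt HV HF i (j + 1) ∧ F.Sol i (j + 1) ∧
      c = HF i (j + 1) - HF i j) ∨
    (F.yN i j = 0 ∧ c = 2 * x * (HV i (j + 1) - HF i j))

/-- Contribution of the `S` edge of the face `(i, j)`. -/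
def ContrS (F : Fld) (x : ℝ) (HV HF : ℤ → ℤ → ℝ) (i j : ℤ) (c : ℝ) : Prop :=
  (F.yN i (j - 1) ^ 2 = x ^ 2 ∧ F.IsHAt HV HF i (j - 1) ∧ F.Sol i (j - 1) ∧
      c = HF i (j - 1) - HF i j) ∨
    (F.yN i (j - 1) = 0 ∧ c = 2 * x * (HV i j - HF i j))

theorem contrE_eq (hx : x ^ 2 + 2 * x - 1 = 0) {i j : ℤ} {c : ℝ}
    (h : F.IsHAt HV HF i j) (hs : F.Sol i j) (hc : F.ContrE x HV HF i j c) :
    x ^ 2 * c = (1 - x ^ 2) * (x ^ 2 * F.E i j ^ 2 - (-F.S i j + F.N i j + F.W i j) ^ 2) := by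
  have row : -F.S i j + F.N i j + F.W i j = -(F.yE i j * F.W (i + 1) j) := by
    have := hs.2.1; unfold rE at this; linarith
  rcases hc with ⟨hy, h', rfl⟩ | ⟨hy, rfl⟩
  · rw [diffE h h', row]
    linear_combination ((1 - x ^ 2) * F.W (i + 1) j ^ 2 - x ^ 2 * (F.E i j ^ 2 -
      F.W (i + 1) j ^ 2)) * hy
  · have a := h.se
    unfold cSE at a
    rw [hy] at a row
    rw [a, row]
    linear_combination (-(x ^ 2 * F.E i j ^ 2)) * (-hx)

theorem contrW_eq (hx : x ^ 2 + 2 * x - 1 = 0) {i j : ℤ} {c : ℝ}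
    (h : F.IsHAt HV HF i j) (hs : F.Sol i j) (hc : F.ContrW x HV HF i j c) :
    x ^ 2 * c = (1 - x ^ 2) * (x ^ 2 * F.W i j ^ 2 - (-F.S i j - F.E i j - F.N i j) ^ 2) := by
  have row : -F.S i j - F.E i j - F.N i j = F.yE (i - 1) j * F.E (i - 1) j := by
    have := hs.2.2.2; unfold rW at this; linarith
  rcases hc with ⟨hy, h', rfl⟩ | ⟨hy, rfl⟩
  · have h'' : F.IsHAt HV HF (i - 1 + 1) j := by rw [sub_add_cancel]; exact h
    have d := diffE h' h''
    rw [sub_add_cancel] at d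
    rw [row]
    linear_combination (-x ^ 2) * d + ((1 - x ^ 2) * F.E (i - 1) j ^ 2 -
      x ^ 2 * (F.W i j ^ 2 - F.E (i - 1) j ^ 2)) * hy
  · have a := h.sw
    unfold cSW at a
    rw [hy] at a row
    rw [a, row]
    linear_combination (x ^ 2 * F.W i j ^ 2) * hx

theorem contrN_eq (hx : x ^ 2 + 2 * x - 1 = 0) {i j : ℤ} {c : ℝ}
    (h : F.IsHAt HV HF i j) (hs : F.Sol i j) (hc : F.ContrN x HV HF i j c) :
    x ^ 2 * c = (1 - x ^ 2) * (x ^ 2 * F.N i j ^ 2 - (-F.S i j - F.E i j + F.W i j) ^ 2) := by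
  have row : -F.S i j - F.E i j + F.W i j = F.yN i j * F.S i (j + 1) := by
    have := hs.2.2.1; unfold rN at this; linarith
  rcases hc with ⟨hy, h', hs', rfl⟩ | ⟨hy, rfl⟩
  · rw [diffN h h' hs hs', row]
    linear_combination ((1 - x ^ 2) * F.S i (j + 1) ^ 2 - x ^ 2 * (F.N i j ^ 2 -
      F.S i (j + 1) ^ 2)) * hy
  · have a := h.nw
    have e := hs.nw
    rw [hy] at e row
    have e' : F.cNW i j = -F.N i j := by linarith
    rw [e'] at a
    rw [a, row]
    linear_combination (x ^ 2 * F.N i j ^ 2) * hx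

theorem contrS_eq (hx : x ^ 2 + 2 * x - 1 = 0) {i j : ℤ} {c : ℝ}
    (h : F.IsHAt HV HF i j) (hs : F.Sol i j) (hc : F.ContrS x HV HF i j c) :
    x ^ 2 * c = (1 - x ^ 2) * (x ^ 2 * F.S i j ^ 2 - (F.E i j + F.N i j + F.W i j) ^ 2) := by
  have row : F.E i j + F.N i j + F.W i j = -(F.yN i (j - 1) * F.N i (j - 1)) := by
    have := hs.1; unfold rS at this; linarith
  rcases hc with ⟨hy, h', hs', rfl⟩ | ⟨hy, rfl⟩
  · have h'' : F.IsHAt HV HF i (j - 1 + 1) := by rw [sub_add_cancel]; exact h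
    have s'' : F.Sol i (j - 1 + 1) := by rw [sub_add_cancel]; exact hs
    have d := diffN h' h'' hs' s''
    rw [sub_add_cancel] at d
    rw [row]
    linear_combination (-x ^ 2) * d + ((1 - x ^ 2) * F.N i (j - 1) ^ 2 -
      x ^ 2 * (F.S i j ^ 2 - F.N i (j - 1) ^ 2)) * hy
  · have a := h.sw
    have e := hs.sw
    rw [hy] at e row
    have e' : F.cSW i j = F.S i j := by linarith
    rw [e'] at a
    rw [a, row]
    linear_combination (x ^ 2 * F.S i j ^ 2) * hx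

/-- The intra-face matrix `A₀` satisfies `|A₀ φ|² ≥ x² |φ|²`, `x = √2 - 1` (exact sum of squares). -/
theorem intra_sq (hx : x ^ 2 + 2 * x - 1 = 0) (S E N W : ℝ) :
    (E + N + W) ^ 2 + (-S + N + W) ^ 2 + (-S - E + W) ^ 2 + (-S - E - N) ^ 2 -
        x ^ 2 * (S ^ 2 + E ^ 2 + N ^ 2 + W ^ 2) =
      2 * (1 + x) * ((S + (1 + x) / 2 * (E - W)) ^ 2 + (N + (1 + x) / 2 * (E + W)) ^ 2) := by
  linear_combination (-(S ^ 2 + N ^ 2 + 2 * (S * E - S * W + N * E + N * W) +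
    (2 + x) * (E ^ 2 + W ^ 2))) * hx

/-- The Laplacian of `H` at a face, in closed form. -/
theorem face_laplacian (hx : x ^ 2 + 2 * x - 1 = 0) {i j : ℤ} {cS cE cN cW : ℝ}
    (h : F.IsHAt HV HF i j) (hs : F.Sol i j)
    (hS : F.ContrS x HV HF i j cS) (hE : F.ContrE x HV HF i j cE)
    (hN : F.ContrN x HV HF i j cN) (hW : F.ContrW x HV HF i j cW) :
    x ^ 2 * (cS + cE + cN + cW) = -(2 * x * (2 * (1 + x) *
      ((F.S i j + (1 + x) / 2 * (F.E i j - F.W i j)) ^ 2 +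
        (F.N i j + (1 + x) / 2 * (F.E i j + F.W i j)) ^ 2))) := by
  have e1 := contrS_eq hx h hs hS
  have e2 := contrE_eq hx h hs hE
  have e3 := contrN_eq hx h hs hN
  have e4 := contrW_eq hx h hs hW
  have e5 := intra_sq hx (F.S i j) (F.E i j) (F.N i j) (F.W i j)
  rw [← e5]
  linear_combination e1 + e2 + e3 + e4 + ((F.E i j + F.N i j + F.W i j) ^ 2 +
    (-F.S i j + F.N i j + F.W i j) ^ 2 + (-F.S i j - F.E i j + F.W i j) ^ 2 +
    (-F.S i j - F.E i j - F.N i j) ^ 2 - x ^ 2 * (F.S i j ^ 2 + F.E i j ^ 2 + F.N i j ^ 2 +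
      F.W i j ^ 2)) * hx

/-- `H` is superharmonic at a face (all boundary cases of plus type included). -/
theorem face_superharmonic (hx : x ^ 2 + 2 * x - 1 = 0) (hx0 : 0 < x) {i j : ℤ}
    {cS cE cN cW : ℝ} (h : F.IsHAt HV HF i j) (hs : F.Sol i j)
    (hS : F.ContrS x HV HF i j cS) (hE : F.ContrE x HV HF i j cE)
    (hN : F.ContrN x HV HF i j cN) (hW : F.ContrW x HV HF i j cW) :
    cS + cE + cN + cW ≤ 0 := by
  have e := face_laplacian hx h hs hS hE hN hW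
  have h2 : 0 < x ^ 2 := by positivity
  have h3 : 0 ≤ 2 * x * (2 * (1 + x) *
      ((F.S i j + (1 + x) / 2 * (F.E i j - F.W i j)) ^ 2 +
        (F.N i j + (1 + x) / 2 * (F.E i j + F.W i j)) ^ 2)) := by positivity
  by_contra hc
  push Not at hc
  have := mul_pos h2 hc
  linarith

/-! ### Vertices -/

/-- A single edge at a vertex: `a = p - y q`, `b = q - y p`, weight `y = ± x` or `± 1`. -/
theorem edge_term (hx : x ^ 2 + 2 * x - 1 = 0) {y s p q a b : ℝ}
    (ha : a = p - y * q) (hb : b = q - y * p) (hs : s ^ 2 = 1) (hy : y = s * x) :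
    4 * y * p * q = a ^ 2 + b ^ 2 + 2 * (1 + x) * s * (a * b) := by
  subst ha hb hy
  have hx2 : x ^ 2 = 1 - 2 * x := by linarith
  have h3 : s ^ 3 = s := by rw [pow_succ, hs, one_mul]
  have key : (p - s * x * q) ^ 2 + (q - s * x * p) ^ 2 + 2 * (1 + x) * s *
      ((p - s * x * q) * (q - s * x * p)) = 4 * (s * x) * p * q +
      (p ^ 2 + q ^ 2) * ((1 + s ^ 2 * x ^ 2) - 2 * (1 + x) * s ^ 2 * x) +
      p * q * s * (2 * (1 + x) * (1 + s ^ 2 * x ^ 2) - 8 * x) := by ring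
  rw [key, hs]
  have e1 : (1 : ℝ) + 1 * x ^ 2 - 2 * (1 + x) * 1 * x = 0 := by linear_combination (-1 : ℝ) * hx
  have e2 : 2 * (1 + x) * (1 + 1 * x ^ 2) - 8 * x = 0 := by linear_combination 2 * (x - 1) * hx
  rw [e1, e2]; ring

theorem edge_term_one {s p q a b : ℝ}
    (ha : a = p - s * q) (hb : b = q - s * p) (hs : s ^ 2 = 1) :
    -(2 * x * a ^ 2) = a ^ 2 + b ^ 2 + 2 * (1 + x) * s * (a * b) ∧ b ^ 2 = a ^ 2 := by
  have hb' : b = -s * a := by rw [ha, hb]; linear_combination (-q) * hs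
  have hb2 : b ^ 2 = a ^ 2 := by rw [hb']; linear_combination a ^ 2 * hs
  refine ⟨?_, hb2⟩
  rw [hb2, hb']
  linear_combination (-(2 * (1 + x) * a ^ 2)) * (-hs)

/-- The antiperiodic form is an exact sum of two squares. -/
theorem cyc_sq (hx : x ^ 2 + 2 * x - 1 = 0) (u1 u2 u3 u4 : ℝ) :
    u1 ^ 2 + u2 ^ 2 + u3 ^ 2 + u4 ^ 2 + (1 + x) * (u1 * u2 + u2 * u3 + u3 * u4 - u4 * u1) =
      (u1 + (1 + x) / 2 * (u2 - u4)) ^ 2 + (u3 + (1 + x) / 2 * (u2 + u4)) ^ 2 := by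
  linear_combination (-(1 / 2) * (u2 ^ 2 + u4 ^ 2)) * hx

/-- Contribution of an edge at the vertex `v`: the neighbour vertex value `Hv'` for a critical edge
(`y = s x`), or the conductance `2 x` to the value `Hf` of an adjacent face for `y = s`. -/
def ContrV (x y s Hv Hv' Hf c : ℝ) : Prop :=
  s ^ 2 = 1 ∧ ((y = s * x ∧ c = Hv' - Hv) ∨ (y = s ∧ c = 2 * x * (Hf - Hv)))

/-- Laplacian of `H` at the vertex `(i, j)` in closed form. -/
theorem vertex_laplacian (hx : x ^ 2 + 2 * x - 1 = 0) {i j : ℤ}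
    {sn ss se sw cn cs ce cw : ℝ} (hV : F.IsHV HV)
    (sNE : F.Sol i j) (hNE : F.IsHAt HV HF i j)
    (sNW : F.Sol (i - 1) j)
    (sSW : F.Sol (i - 1) (j - 1)) (hSW : F.IsHAt HV HF (i - 1) (j - 1))
    (sSE : F.Sol i (j - 1))
    (hn : ContrV x (F.yE (i - 1) j) sn (HV i j) (HV i (j + 1)) (HF i j) cn)
    (hs : ContrV x (F.yE (i - 1) (j - 1)) ss (HV i j) (HV i (j - 1)) (HF (i - 1) (j - 1)) cs)
    (he : ContrV x (F.yN i (j - 1)) se (HV i j) (HV (i + 1) j) (HF i j) ce)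
    (hw : ContrV x (F.yN (i - 1) (j - 1)) sw (HV i j) (HV (i - 1) j) (HF (i - 1) (j - 1)) cw) :
    cn + cs + ce + cw = 2 * (F.cSW i j ^ 2 + F.cSE (i - 1) j ^ 2 + F.cNE (i - 1) (j - 1) ^ 2 +
      F.cNW i (j - 1) ^ 2) + 2 * (1 + x) * (sn * (F.cSE (i - 1) j * F.cSW i j) -
        ss * (F.cNE (i - 1) (j - 1) * F.cNW i (j - 1)) -
        se * (F.cNW i (j - 1) * F.cSW i j) -
        sw * (F.cNE (i - 1) (j - 1) * F.cSE (i - 1) j)) := by
  -- north edge
  have an : F.cSE (i - 1) j = F.E (i - 1) j - F.yE (i - 1) j * F.W i j := by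
    unfold cSE; rw [sub_add_cancel]
  have bn : F.cSW i j = F.W i j - F.yE (i - 1) j * F.E (i - 1) j := rfl
  have as : F.cNE (i - 1) (j - 1) = F.E (i - 1) (j - 1) + F.yE (i - 1) (j - 1) * F.W i (j - 1) := by
    unfold cNE; rw [sub_add_cancel]
  have bs : F.cNW i (j - 1) = F.W i (j - 1) + F.yE (i - 1) (j - 1) * F.E (i - 1) (j - 1) := rfl
  have ae : F.cNW i (j - 1) = -(F.N i (j - 1) - F.yN i (j - 1) * F.S i j) := by
    have := sSE.nw; rw [sub_add_cancel] at this; linarith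
  have be : F.cSW i j = F.S i j - F.yN i (j - 1) * F.N i (j - 1) := sNE.sw.symm
  have aw : F.cNE (i - 1) (j - 1) = -(F.N (i - 1) (j - 1) + F.yN (i - 1) (j - 1) * F.S (i - 1) j) := by
    have := sSW.ne; rw [sub_add_cancel] at this; linarith
  have bw : F.cSE (i - 1) j = -(F.S (i - 1) j + F.yN (i - 1) (j - 1) * F.N (i - 1) (j - 1)) := by
    have := sNW.se; linarith
  have dn : HV i (j + 1) - HV i j = 4 * F.yE (i - 1) j * F.E (i - 1) j * F.W i j := hV.2 i j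
  have ds : HV i (j - 1) - HV i j =
      -(4 * F.yE (i - 1) (j - 1) * F.E (i - 1) (j - 1) * F.W i (j - 1)) := by
    have := hV.2 i (j - 1); unfold dHy at this; rw [sub_add_cancel] at this; linarith
  have de : HV (i + 1) j - HV i j = 4 * F.yN i (j - 1) * F.N i (j - 1) * F.S i j := hV.1 i j
  have dw : HV (i - 1) j - HV i j =
      -(4 * F.yN (i - 1) (j - 1) * F.N (i - 1) (j - 1) * F.S (i - 1) j) := by
    have := hV.1 (i - 1) j; unfold dHx at this; rw [sub_add_cancel] at this; linarith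
  have fNE : HF i j - HV i j = -(F.cSW i j ^ 2) := by have := hNE.sw; linarith
  have fSW : HF (i - 1) (j - 1) - HV i j = -(F.cNE (i - 1) (j - 1) ^ 2) := by
    have := hSW.ne; rw [sub_add_cancel, sub_add_cancel] at this; linarith
  -- the four edges
  have tn : cn = F.cSE (i - 1) j ^ 2 + F.cSW i j ^ 2 +
      2 * (1 + x) * sn * (F.cSE (i - 1) j * F.cSW i j) := by
    obtain ⟨h1, ⟨hy, rfl⟩ | ⟨hy, rfl⟩⟩ := hn
    · rw [dn]; exact edge_term hx an bn h1 hy
    · rw [hy] at an bn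
      obtain ⟨e, e'⟩ := edge_term_one (x := x) an bn h1
      rw [fNE, ← e, e']; ring
  have ts : cs = F.cNE (i - 1) (j - 1) ^ 2 + F.cNW i (j - 1) ^ 2 -
      2 * (1 + x) * ss * (F.cNE (i - 1) (j - 1) * F.cNW i (j - 1)) := by
    obtain ⟨h1, ⟨hy, rfl⟩ | ⟨hy, rfl⟩⟩ := hs
    · have h1' : (-ss) ^ 2 = 1 := by rw [neg_sq]; exact h1
      have := edge_term hx (y := -F.yE (i - 1) (j - 1)) (s := -ss)
        (p := F.E (i - 1) (j - 1)) (q := F.W i (j - 1)) (a := F.cNE (i - 1) (j - 1))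
        (b := F.cNW i (j - 1)) (by rw [as]; ring) (by rw [bs]; ring) h1' (by rw [hy]; ring)
      rw [ds]; linear_combination this
    · have h1' : (-ss) ^ 2 = 1 := by rw [neg_sq]; exact h1
      obtain ⟨e, e'⟩ := edge_term_one (x := x) (s := -ss)
        (p := F.E (i - 1) (j - 1)) (q := F.W i (j - 1)) (a := F.cNE (i - 1) (j - 1))
        (b := F.cNW i (j - 1)) (by rw [as, hy]; ring) (by rw [bs, hy]; ring) h1'
      rw [fSW]; linear_combination e
  have te : ce = F.cNW i (j - 1) ^ 2 + F.cSW i j ^ 2 -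
      2 * (1 + x) * se * (F.cNW i (j - 1) * F.cSW i j) := by
    obtain ⟨h1, ⟨hy, rfl⟩ | ⟨hy, rfl⟩⟩ := he
    · have := edge_term hx (y := F.yN i (j - 1)) (s := se)
        (p := F.N i (j - 1)) (q := F.S i j) (a := -F.cNW i (j - 1))
        (b := F.cSW i j) (by rw [ae]; ring) (by rw [be]) h1 hy
      rw [de]; linear_combination this
    · obtain ⟨e, e'⟩ := edge_term_one (x := x) (s := se)
        (p := F.N i (j - 1)) (q := F.S i j) (a := -F.cNW i (j - 1))
        (b := F.cSW i j) (by rw [ae, hy]; ring) (by rw [be, hy]) h1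
      rw [fNE]; linear_combination e - 2 * x * e'
  have tw : cw = F.cNE (i - 1) (j - 1) ^ 2 + F.cSE (i - 1) j ^ 2 -
      2 * (1 + x) * sw * (F.cNE (i - 1) (j - 1) * F.cSE (i - 1) j) := by
    obtain ⟨h1, ⟨hy, rfl⟩ | ⟨hy, rfl⟩⟩ := hw
    · have h1' : (-sw) ^ 2 = 1 := by rw [neg_sq]; exact h1
      have := edge_term hx (y := -F.yN (i - 1) (j - 1)) (s := -sw)
        (p := F.N (i - 1) (j - 1)) (q := F.S (i - 1) j) (a := -F.cNE (i - 1) (j - 1))
        (b := -F.cSE (i - 1) j) (by rw [aw]; ring) (by rw [bw]; ring) h1' (by rw [hy]; ring)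
      rw [dw]; linear_combination this
    · have h1' : (-sw) ^ 2 = 1 := by rw [neg_sq]; exact h1
      obtain ⟨e, e'⟩ := edge_term_one (x := x) (s := -sw)
        (p := F.N (i - 1) (j - 1)) (q := F.S (i - 1) j) (a := -F.cNE (i - 1) (j - 1))
        (b := -F.cSE (i - 1) j) (by rw [aw, hy]; ring) (by rw [bw, hy]; ring) h1'
      rw [fSW]; linear_combination e
  rw [tn, ts, te, tw]; ring

/-- `H` is subharmonic at an unbranched vertex (all boundary cases of free type included). -/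
theorem vertex_subharmonic (hx : x ^ 2 + 2 * x - 1 = 0) {i j : ℤ}
    {sn ss se sw cn cs ce cw : ℝ} (hV : F.IsHV HV)
    (sNE : F.Sol i j) (hNE : F.IsHAt HV HF i j)
    (sNW : F.Sol (i - 1) j)
    (sSW : F.Sol (i - 1) (j - 1)) (hSW : F.IsHAt HV HF (i - 1) (j - 1))
    (sSE : F.Sol i (j - 1))
    (hn : ContrV x (F.yE (i - 1) j) sn (HV i j) (HV i (j + 1)) (HF i j) cn)
    (hs : ContrV x (F.yE (i - 1) (j - 1)) ss (HV i j) (HV i (j - 1)) (HF (i - 1) (j - 1)) cs)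
    (he : ContrV x (F.yN i (j - 1)) se (HV i j) (HV (i + 1) j) (HF i j) ce)
    (hw : ContrV x (F.yN (i - 1) (j - 1)) sw (HV i j) (HV (i - 1) j) (HF (i - 1) (j - 1)) cw)
    (hprod : sn * ss * se * sw = 1) :
    0 ≤ cn + cs + ce + cw := by
  rw [vertex_laplacian hx hV sNE hNE sNW sSW hSW sSE hn hs he hw]
  have n2 := hn.1
  have s2 := hs.1
  have e2 := he.1
  have w2 := hw.1
  set a := F.cSW i j
  set b := F.cSE (i - 1) j
  set c := F.cNE (i - 1) (j - 1)
  set d := F.cNW i (j - 1)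
  have key := cyc_sq hx a (sn * b) (-(sn * sw * c)) (sn * sw * ss * d)
  have e1 : sn * sw * ss = se := by
    have : sn * sw * ss * se = 1 := by rw [← hprod]; ring
    calc sn * sw * ss = sn * sw * ss * se ^ 2 := by rw [e2]; ring
      _ = (sn * sw * ss * se) * se := by ring
      _ = se := by rw [this]; ring
  have hpos : 0 ≤ (a + (1 + x) / 2 * (sn * b - sn * sw * ss * d)) ^ 2 +
      (-(sn * sw * c) + (1 + x) / 2 * (sn * b + sn * sw * ss * d)) ^ 2 := by positivity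
  rw [← key] at hpos
  have f1 : (sn * b) ^ 2 = b ^ 2 := by rw [mul_pow, n2]; ring
  have f2 : (-(sn * sw * c)) ^ 2 = c ^ 2 := by rw [neg_sq, mul_pow, mul_pow, n2, w2]; ring
  have f3 : (sn * sw * ss * d) ^ 2 = d ^ 2 := by rw [e1, mul_pow, e2]; ring
  have f4 : sn * b * -(sn * sw * c) = -(sw * (c * b)) := by linear_combination (-(sw * b * c)) * n2
  have f5 : -(sn * sw * c) * (sn * sw * ss * d) = -(ss * (c * d)) := by
    linear_combination (-(ss * c * d)) * (sw ^ 2 * n2 + w2)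
  have f6 : sn * sw * ss * d * a = se * (d * a) := by rw [e1]; ring
  rw [f1, f2, f3, f4, f5, f6] at hpos
  nlinarith [hpos]

/-- Modulus of the field on an edge from the two increments of `H` (critical edge). -/
theorem edge_modulus (hx : x ^ 2 + 2 * x - 1 = 0) {y p q dV dF : ℝ} (hy : y ^ 2 = x ^ 2)
    (hV : dV = 4 * y * p * q) (hF : dF = (1 - y ^ 2) * (p ^ 2 - q ^ 2)) :
    dV ^ 2 + dF ^ 2 = (2 * x * (p ^ 2 + q ^ 2)) ^ 2 := by
  have h1 : 1 - y ^ 2 = 2 * x := by rw [hy]; linarith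
  rw [hV, hF, h1]
  linear_combination (16 * p ^ 2 * q ^ 2) * hy

end Fld

end Crest.Agent.R165.CornerHx922
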