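import Crest.Agent.R165.J2b_606

/-!
# Row 165 (S0250), block J, (J2) part c: spins, spin insertions, bonds

* `sig N z`, `eps N e` : spins and bond variables of the configuration with minus set `N`
* `sgr x`, `cut xs` : sign cuts (horizontal rays to `+∞`) of spin insertions
* `Zs T w xs B` : `Σ_{N ⊆ T} σ_X ε_B ∏_{walls} w`
* `Zs_eq` : its Grassmann form;  `PP_flip`
* `J2_plus` : `Zs T w xs B = Zs T w xs ∅ * EE (covOf S) (∏_{e ∈ B} (1 - 2 v_e b_e))`, `v = w * cut xs`
-/

set_option autoImplicit false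

noncomputable section

namespace Crest.Agent.R165.J2cx606

open Crest.Agent.R165.Gr0x606 Crest.Agent.R165.Gr1x606 Crest.Agent.R165.J1ax606
  Crest.Agent.R165.J1bx606 Crest.Agent.R165.J1cx606 Crest.Agent.R165.J2ax606
  Crest.Agent.R165.J2bx606

section gen
variable {G : Type*} [CommRing G] [DecidableEq G]

omit [CommRing G] in
/-- spin of the configuration with minus set `N` -/
def sig (N : Finset (G × G)) (z : G × G) : ℝ := if z ∈ N then -1 else 1

/-- bond variable -/
def eps (N : Finset (G × G)) (e : EG G) : ℝ := sig N e.1 * sig N (e.1 + uv e.2)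

theorem eps_eq (N : Finset (G × G)) (e : EG G) : eps N e = if e ∈ walls N then -1 else 1 := by
  unfold eps sig
  have h := mem_walls (N := N) (e := e)
  by_cases h1 : e.1 ∈ N <;> by_cases h2 : e.1 + uv e.2 ∈ N <;> simp [h, h1, h2]

omit [CommRing G] in
/-- multiplicativity of sign products under toggling -/
theorem prod_symmDiff_single (s : EG G → ℝ) (hs : ∀ e, s e * s e = 1) (S : Finset (EG G)) (e : EG G) :
    ∏ x ∈ symmDiff S {e}, s x = (∏ x ∈ S, s x) * s e := by
  by_cases he : e ∈ S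
  · have h1 : symmDiff S {e} = S.erase e := by
      ext x; simp only [Finset.mem_symmDiff, Finset.mem_singleton, Finset.mem_erase]
      by_cases hx : x = e
      · subst hx; simp [he]
      · simp [hx]
    rw [h1, ← Finset.mul_prod_erase S s he]
    rw [mul_comm (s e), mul_assoc, hs, mul_one]
  · have h1 : symmDiff S {e} = insert e S := by
      ext x; simp only [Finset.mem_symmDiff, Finset.mem_singleton, Finset.mem_insert]
      by_cases hx : x = e
      · subst hx; simp [he]
      · simp [hx]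
    rw [h1, Finset.prod_insert he, mul_comm]

theorem prod_sstar (s : EG G → ℝ) (hs : ∀ e, s e * s e = 1) (S : Finset (EG G)) (v : G × G) :
    ∏ x ∈ sstar S v, s x =
      (∏ x ∈ S, s x) * (s (v - (1, 0), 0) * s (v, 1) * s (v, 0) * s (v - (0, 1), 1)) := by
  unfold sstar
  rw [prod_symmDiff_single s hs, prod_symmDiff_single s hs, prod_symmDiff_single s hs,
    prod_symmDiff_single s hs]
  ring

/-- the product of signs over the walls: sign charge of the minus sites -/
theorem prod_walls (s : EG G → ℝ) (hs : ∀ e, s e * s e = 1) (N : Finset (G × G)) :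
    ∏ e ∈ walls N, s e =
      ∏ v ∈ N, (s (v - (1, 0), 0) * s (v, 1) * s (v, 0) * s (v - (0, 1), 1)) := by
  induction N using Finset.induction_on with
  | empty => simp
  | insert v N hv ih =>
    rw [walls_insert hv, prod_sstar s hs, ih, Finset.prod_insert hv, mul_comm]

omit [DecidableEq G] in
/-- flipping weights in the edge product -/
theorem PP_mul_flip (v : EG G → ℝ) :
    ∀ e, (1 + v e • bb e) * (1 - (2 * v e) • bb e) = (1 + (-v e) • bb e : Ge (VI (HE G))) := by
  intro e
  have h3 : (v e • bb e) * (v e • bb e) = (0 : Ge (VI (HE G))) := by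
    rw [smul_mul_smul_comm, bb_mul_self, smul_zero]
  have h4 : ((2 * v e) • bb e : Ge (VI (HE G))) = v e • bb e + v e • bb e := by
    rw [two_mul, add_smul]
  rw [h4, neg_smul]
  have : (1 + v e • bb e) * (1 - (v e • bb e + v e • bb e)) =
      (1 - v e • bb e) - (2 : ℝ) • ((v e • bb e) * (v e • bb e)) := by
    rw [two_smul]; ring
  rw [this, h3, smul_zero]
  ring

/-- `∏_{e ∈ B} (1 - 2 v_e b_e)` -/
def BB (v : EG G → ℝ) (B : Finset (EG G)) : Ge (VI (HE G)) := ∏ e ∈ B, (1 - (2 * v e) • bb e)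

theorem PP_flip (v : EG G → ℝ) (A B : Finset (EG G)) (hv : ∀ e, e ∉ A → v e = 0) :
    PP (fun e => v e * if e ∈ B then -1 else 1) A = PP v A * BB v B := by
  have h1 : BB v B = ∏ e ∈ A, (if e ∈ B then (1 - (2 * v e) • bb e) else 1) := by
    have h2 : BB v B = ∏ e ∈ B, (if e ∈ A then (1 - (2 * v e) • bb e) else 1) := by
      refine Finset.prod_congr rfl fun e _ => ?_
      split_ifs with h
      · rfl
      · rw [hv e h, mul_zero, zero_smul, sub_zero]
    rw [h2, Finset.prod_ite_mem, Finset.prod_ite_mem, Finset.inter_comm]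
  rw [h1, PP, PP, ← Finset.prod_mul_distrib]
  refine Finset.prod_congr rfl fun e _ => ?_
  split_ifs with h
  · rw [PP_mul_flip v, mul_neg, mul_one]
  · rw [mul_one, mul_one]

end gen

section plane

/-- sign cut: horizontal ray from `x` to the right -/
def sgr (x : ℤ × ℤ) (e : EG ℤ) : ℝ :=
  if e.2 = 0 ∧ e.1.2 = x.2 ∧ x.1 ≤ e.1.1 then -1 else 1

theorem sgr_sq (x : ℤ × ℤ) (e : EG ℤ) : sgr x e * sgr x e = 1 := by
  unfold sgr; split_ifs <;> norm_num

/-- the product of the sign cut over the walls is the spin -/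
theorem prod_walls_sgr (x : ℤ × ℤ) (N : Finset (ℤ × ℤ)) : ∏ e ∈ walls N, sgr x e = sig N x := by
  rw [prod_walls _ (sgr_sq x)]
  have h : ∀ v : ℤ × ℤ, sgr x (v - (1, 0), 0) * sgr x (v, 1) * sgr x (v, 0) *
      sgr x (v - (0, 1), 1) = if v = x then -1 else 1 := by
    rintro ⟨i, j⟩
    obtain ⟨x1, x2⟩ := x
    simp only [sgr, Prod.mk_sub_mk, sub_zero, one_ne_zero, false_and, if_false, mul_one, true_and,
      Prod.mk.injEq]
    by_cases h2 : j = x2
    · rcases lt_trichotomy i x1 with h1 | h1 | h1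
      · rw [if_neg (by omega), if_neg (by omega), if_neg (by omega)]; norm_num
      · rw [if_neg (by omega), if_pos (by omega), if_pos (by omega)]; norm_num
      · rw [if_pos (by omega), if_pos (by omega), if_neg (by omega)]; norm_num
    · rw [if_neg (by omega), if_neg (by omega), if_neg (by omega)]; norm_num
  simp only [h]
  rw [Finset.prod_ite_eq' N x]
  rfl

/-- sign cut of a family of spin insertions -/
def cut {n : ℕ} (xs : Fin n → ℤ × ℤ) (e : EG ℤ) : ℝ := ∏ i, sgr (xs i) e

theorem prod_walls_cut {n : ℕ} (xs : Fin n → ℤ × ℤ) (N : Finset (ℤ × ℤ)) :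
    ∏ e ∈ walls N, cut xs e = ∏ i, sig N (xs i) := by
  unfold cut
  rw [Finset.prod_comm]
  exact Finset.prod_congr rfl fun i _ => prod_walls_sgr _ _

theorem prod_eps (N : Finset (ℤ × ℤ)) (B : Finset (EG ℤ)) :
    ∏ e ∈ B, eps N e = ∏ e ∈ walls N, if e ∈ B then -1 else 1 := by
  simp only [eps_eq]
  rw [Finset.prod_ite_mem, Finset.prod_ite_mem, Finset.inter_comm]

/-- spin sum with insertions and bonds -/
def Zs (T : Finset (ℤ × ℤ)) (w : EG ℤ → ℝ) {n : ℕ} (xs : Fin n → ℤ × ℤ) (B : Finset (EG ℤ)) : ℝ :=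
  ∑ N ∈ T.powerset, (∏ i, sig N (xs i)) * (∏ e ∈ B, eps N e) * ∏ e ∈ walls N, w e

/-- Grassmann form of the spin sum -/
theorem Zs_eq (T : Finset (ℤ × ℤ)) (hT : NoHole T) (w : EG ℤ → ℝ) {n : ℕ} (xs : Fin n → ℤ × ℤ)
    (B : Finset (EG ℤ)) :
    Zs T w xs B = E0 (PP (fun e => w e * cut xs e * if e ∈ B then -1 else 1) (touch T) :
      Gr (VI (HE ℤ))) := by
  rw [PP, ← J1 T hT]
  refine Finset.sum_congr rfl fun N _ => ?_
  rw [Finset.prod_mul_distrib, Finset.prod_mul_distrib, prod_walls_cut, prod_eps]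
  ring

/-- **(J2)**, plus boundary conditions (weights supported on the edges touching `T`) -/
theorem J2_plus (T : Finset (ℤ × ℤ)) (hT : NoHole T) (w : EG ℤ → ℝ)
    (hw : ∀ e, e ∉ touch T → w e = 0) {n : ℕ} (xs : Fin n → ℤ × ℤ) {S : HE ℤ → HE ℤ → ℝ}
    (hS : IsInv (fun e => w e * cut xs e) S) (B : Finset (EG ℤ)) :
    Zs T w xs B = Zs T w xs ∅ * EE (covOf S hS.anti)
      (BB (fun e => w e * cut xs e) B : Gr (VI (HE ℤ))) := by
  have hv : ∀ e, e ∉ touch T → w e * cut xs e = 0 := fun e he => by rw [hw e he, zero_mul]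
  rw [Zs_eq T hT, Zs_eq T hT, PP_flip (fun e => w e * cut xs e) (touch T) B hv, Ge.coe_mul,
    E0_PP hS (touch T) hv]
  simp

/-- existence of the covariance, plus boundary conditions -/
theorem exists_finv_plus (T : Finset (ℤ × ℤ)) (hT : NoHole T) (w : EG ℤ → ℝ)
    (hw : ∀ e, e ∉ touch T → w e = 0) {n : ℕ} (xs : Fin n → ℤ × ℤ) (hZ : Zs T w xs ∅ ≠ 0) :
    ∃ S, FInv (fun e => w e * cut xs e) S := by
  have hv : ∀ e, e ∉ touch T → w e * cut xs e = 0 := fun e he => by rw [hw e he, zero_mul]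
  have h1 := exists_finv (finv_K0 (G := ℤ)) (fun e => w e * cut xs e) (touch T) hv
    (by
      rw [Zs_eq T hT] at hZ
      simpa [E0, S0] using hZ)
  obtain ⟨S, hS⟩ := h1
  refine ⟨S, ?_⟩
  have e1 : (fun e : EG ℤ => w e * cut xs e) = (fun _ => (0 : ℝ)) + fun e => w e * cut xs e := by
    funext e; simp
  rw [e1]; exact hS

end plane

end Crest.Agent.R165.J2cx606
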