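import Crest.Agent.R165.Lat_683
import Crest.Agent.R165.J2c_606

/-!
# Row 165 (S0250), block J (task 50, helper359): bridge between `Lat_683` and `J2a-c_606`

* `un w : EG G → ℝ` : the uncurried weight of a background `w : BW G`
* `Aop_un` : both half-edge operators agree;  `covS_eq` : both covariances agree
* `bb_eq`, `mon'`...: both bilinears agree
* `isCov_of_finv`, `IsCov.isInv`, `IsCov.unique_of_finv`
* `un_wX` : insertions = `cut`
-/

set_option autoImplicit false

noncomputable section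

open Filter Topology
open Crest.Agent.R165.Gr0x606

namespace Crest.Agent.R165.Covx359

open Crest.Agent.R165

section gen
variable {G : Type} [CommRing G]

/-- the uncurried weight -/
def un (w : Latx683.BW G) : J1ax606.EG G → ℝ := fun e => w e.1 e.2

omit [CommRing G] in
@[simp] theorem un_apply (w : Latx683.BW G) (z : G × G) (j : Fin 2) : un w (z, j) = w z j := rfl

/-- both half-edge operators agree -/
theorem Aop_un (w : Latx683.BW G) (φ : Latx683.HE G → ℝ) (h : Latx683.HE G) :
    J2ax606.Aop (un w) φ h = Latx683.Aop w φ h := by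
  obtain ⟨⟨i, j⟩, d⟩ := h
  fin_cases d
  · simp [J2ax606.Aop, J2ax606.a4, J2ax606.sg, J2ax606.ed, J2ax606.bar, Fin.sum_univ_four,
      Latx683.yN, un]
  · simp [J2ax606.Aop, J2ax606.a4, J2ax606.sg, J2ax606.ed, J2ax606.bar, Fin.sum_univ_four,
      Latx683.yE, un]
  · simp [J2ax606.Aop, J2ax606.a4, J2ax606.sg, J2ax606.ed, J2ax606.bar, Fin.sum_univ_four,
      Latx683.yN, un]
    ring
  · simp [J2ax606.Aop, J2ax606.a4, J2ax606.sg, J2ax606.ed, J2ax606.bar, Fin.sum_univ_four,
      Latx683.yE, un]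
    ring

theorem pe_eq (z : G × G) (j : Fin 2) : J1ax606.pe (z, j) = Latx683.hp z j := by
  fin_cases j
  · rfl
  · simp [J1ax606.pe, Latx683.hp, Prod.ext_iff]

theorem qe_eq (z : G × G) (j : Fin 2) : J1ax606.qe (z, j) = Latx683.hq z j := by
  fin_cases j
  · simp [J1ax606.qe, Latx683.hq, Prod.ext_iff]
  · rfl

omit [CommRing G] in
theorem ph_eq (h : Latx683.HE G) : Gr1x606.ph h = Latx683.ph h := rfl

/-- both bilinears agree -/
theorem bb_eq (z : G × G) (j : Fin 2) :
    ((J1ax606.bb (z, j) : Gr1x606.Ge (Gr1x606.VI (J1ax606.HE G))) :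
      Gr (Gr1x606.VI (J1ax606.HE G))) = Latx683.bb z j := by
  rw [J1ax606.coe_bb, pe_eq, qe_eq]
  rfl

omit [CommRing G] in
/-- both forms agree -/
theorem formS_eq (S : Latx683.HE G → Latx683.HE G → ℝ) : Latx683.formS S = Gr1x606.formOf S := by
  apply J1bx606.form_ext
  intro i j
  rw [Latx683.formS_single, Gr1x606.formOf_single]

omit [CommRing G] in
/-- both covariances agree -/
theorem covS_eq (S : Latx683.HE G → Latx683.HE G → ℝ) (hS : ∀ h h', S h h' = -S h' h) :
    Latx683.covS S hS = Gr1x606.covOf S hS := by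
  apply Cov.ext
  exact formS_eq S

variable [DecidableEq G]

theorem finv_zero {w : J1ax606.EG G → ℝ} {S : J1ax606.HE G → J1ax606.HE G → ℝ}
    (hS : J2bx606.FInv w S) (k : J1ax606.HE G) : Tendsto (fun h => S h k) cofinite (𝓝 0) := by
  apply tendsto_nhds_of_eventually_eq
  rw [Filter.eventually_cofinite]
  exact hS.fin k

theorem isCov_of_isInv {w : Latx683.BW G} {S : Latx683.HE G → Latx683.HE G → ℝ}
    (hS : J2ax606.IsInv (un w) S) (h0 : ∀ k, Tendsto (fun h => S h k) cofinite (𝓝 0)) :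
    Latx683.IsCov w S := by
  refine ⟨hS.anti, h0, fun g k => ?_⟩
  have := hS.inv g k
  rw [Aop_un] at this
  rw [this, Pi.single_apply]
  split_ifs <;> simp

/-- an inverse kernel with finite columns is a covariance -/
theorem isCov_of_finv {w : Latx683.BW G} {S : Latx683.HE G → Latx683.HE G → ℝ}
    (hS : J2bx606.FInv (un w) S) : Latx683.IsCov w S :=
  isCov_of_isInv hS.toIsInv (finv_zero hS)

/-- a covariance is an inverse kernel -/
theorem isInv_of_isCov {w : Latx683.BW G} {S : Latx683.HE G → Latx683.HE G → ℝ}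
    (hS : Latx683.IsCov w S) : J2ax606.IsInv (un w) S := by
  refine ⟨hS.skew, fun h k => ?_⟩
  have := hS.inv h k
  rw [← Aop_un] at this
  rw [this, Pi.single_apply]
  split_ifs <;> simp

/-- uniqueness of the covariance when an inverse with finite columns exists -/
theorem isCov_eq_of_finv {w : Latx683.BW G} {S S' : Latx683.HE G → Latx683.HE G → ℝ}
    (hS : J2bx606.FInv (un w) S) (hS' : Latx683.IsCov w S') : S' = S :=
  hS.unique_inv (isInv_of_isCov hS')

/-- a covariance has finite columns when an inverse with finite columns exists -/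
theorem finv_of_isCov {w : Latx683.BW G} {S S' : Latx683.HE G → Latx683.HE G → ℝ}
    (hS : J2bx606.FInv (un w) S) (hS' : Latx683.IsCov w S') : J2bx606.FInv (un w) S' := by
  rw [isCov_eq_of_finv hS hS']; exact hS

/-! ### finitely supported weights -/

/-- **existence**, finitely supported weights (any `G`, in particular tori with `A = univ`) -/
theorem exists_finv_of_Z {w : J1ax606.EG G → ℝ} (A : Finset (J1ax606.EG G))
    (hw : ∀ e, e ∉ A → w e = 0)
    (hZ : J1ax606.E0 (J2ax606.PP w A : Gr (Gr1x606.VI (J1ax606.HE G))) ≠ 0) :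
    ∃ S, J2bx606.FInv w S := by
  obtain ⟨S, hS⟩ := J2bx606.exists_finv (J2bx606.finv_K0 (G := G)) w A hw hZ
  refine ⟨S, ?_⟩
  have e1 : w = (fun _ => (0 : ℝ)) + w := by funext e; simp
  rw [e1]; exact hS

/-- every inverse kernel of finitely supported weights has finite columns -/
theorem finv_of_isInv {w : J1ax606.EG G → ℝ} (A : Finset (J1ax606.EG G))
    (hw : ∀ e, e ∉ A → w e = 0) {S : J1ax606.HE G → J1ax606.HE G → ℝ} (hS : J2ax606.IsInv w S) :
    J2bx606.FInv w S := by
  obtain ⟨S', hS'⟩ := exists_finv_of_Z A hw (J2ax606.Z_ne_zero_of_inv hS A hw)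
  rw [hS'.unique_inv hS]; exact hS'

/-- **uniqueness** of the covariance, finitely supported weights -/
theorem isCov_unique {w : Latx683.BW G} (A : Finset (J1ax606.EG G))
    (hw : ∀ e, e ∉ A → un w e = 0) {S S' : Latx683.HE G → Latx683.HE G → ℝ}
    (hS : Latx683.IsCov w S) (hS' : Latx683.IsCov w S') : S = S' :=
  (isInv_of_isCov hS).unique (isInv_of_isCov hS') A hw

/-- existence of the covariance, finitely supported weights with nonvanishing partition function -/
theorem exists_isCov_of_Z {w : Latx683.BW G} (A : Finset (J1ax606.EG G))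
    (hw : ∀ e, e ∉ A → un w e = 0)
    (hZ : J1ax606.E0 (J2ax606.PP (un w) A : Gr (Gr1x606.VI (J1ax606.HE G))) ≠ 0) :
    ∃ S, Latx683.IsCov w S ∧ J2bx606.FInv (un w) S := by
  obtain ⟨S, hS⟩ := exists_finv_of_Z A hw hZ
  exact ⟨S, isCov_of_finv hS, hS⟩

/-- **reweighting**: the state of the background `w` is Gaussian with covariance `S` -/
theorem E0_PP_isCov {w : Latx683.BW G} {S : Latx683.HE G → Latx683.HE G → ℝ}
    (hS : Latx683.IsCov w S) (A : Finset (J1ax606.EG G)) (hw : ∀ e, e ∉ A → un w e = 0)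
    (F : Gr (Latx683.Fld G)) :
    J1ax606.E0 ((J2ax606.PP (un w) A : Gr (Gr1x606.VI (J1ax606.HE G))) * F) =
      J1ax606.E0 (J2ax606.PP (un w) A : Gr (Gr1x606.VI (J1ax606.HE G))) *
        EE (Latx683.covS S hS.skew) F := by
  rw [covS_eq]
  exact J2ax606.E0_PP (isInv_of_isCov hS) A hw F

/-- the partition function does not vanish if a covariance exists -/
theorem Z_ne_zero_of_isCov {w : Latx683.BW G} {S : Latx683.HE G → Latx683.HE G → ℝ}
    (hS : Latx683.IsCov w S) (A : Finset (J1ax606.EG G)) (hw : ∀ e, e ∉ A → un w e = 0) :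
    J1ax606.E0 (J2ax606.PP (un w) A : Gr (Gr1x606.VI (J1ax606.HE G))) ≠ 0 :=
  J2ax606.Z_ne_zero_of_inv (isInv_of_isCov hS) A hw

end gen

/-! ### the plane: insertions, domain weights -/

/-- the rays of `Lat_683` are the cuts of `J2c_606` -/
theorem ray_eq {n : ℕ} (X : Fin n → ℤ × ℤ) (z : ℤ × ℤ) (j : Fin 2) :
    Latx683.ray X z j = J2cx606.cut X (z, j) := by
  unfold Latx683.ray J2cx606.cut J2cx606.sgr
  refine Finset.prod_congr rfl fun i _ => ?_
  by_cases h : j = 0 ∧ (X i).2 = z.2 ∧ (X i).1 ≤ z.1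
  · rw [if_pos h, if_pos ⟨h.1, h.2.1.symm, h.2.2⟩]
  · rw [if_neg h, if_neg]
    rintro ⟨h1, h2, h3⟩
    exact h ⟨h1, h2.symm, h3⟩

theorem un_wX {n : ℕ} (w : Latx683.BW ℤ) (X : Fin n → ℤ × ℤ) :
    un (Latx683.wX w X) = fun e => un w e * J2cx606.cut X e := by
  funext e
  obtain ⟨z, j⟩ := e
  rw [un_apply, Latx683.wX, ray_eq, un_apply, mul_comm]

/-- unit vectors agree -/
theorem uv_eq (j : Fin 2) :
    (J1ax606.uv j : ℤ × ℤ) = Crest.ProbabilityR.IsingModel.unitVec j := by
  fin_cases j <;> rfl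

/-- plus weights of a finite site set are supported on the bonds touching it -/
theorem wDom_plus_eq (T : Finset (ℤ × ℤ)) (e : J1ax606.EG ℤ) :
    un (Latx683.wDom (T : Set (ℤ × ℤ)) false) e =
      if e ∈ J1bx606.touch T then Latx683.xc else 0 := by
  obtain ⟨z, j⟩ := e
  rw [un_apply, Latx683.wDom]
  simp only [Bool.false_eq_true, if_false, Finset.mem_coe, J1bx606.mem_touch, uv_eq]

theorem wDom_plus_out (T : Finset (ℤ × ℤ)) (e : J1ax606.EG ℤ) (he : e ∉ J1bx606.touch T) :
    un (Latx683.wDom (T : Set (ℤ × ℤ)) false) e = 0 := by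
  rw [wDom_plus_eq, if_neg he]

theorem wDom_plus_in (T : Finset (ℤ × ℤ)) (e : J1ax606.EG ℤ) (he : e ∈ J1bx606.touch T) :
    un (Latx683.wDom (T : Set (ℤ × ℤ)) false) e = Latx683.xc := by
  rw [wDom_plus_eq, if_pos he]

/-- free weights of a finite site set -/
theorem wDom_free_eq (T : Finset (ℤ × ℤ)) (e : J1ax606.EG ℤ) :
    un (Latx683.wDom (T : Set (ℤ × ℤ)) true) e =
      if e.1 ∈ T ∧ e.1 + J1ax606.uv e.2 ∈ T then Latx683.xc else 1 := by
  obtain ⟨z, j⟩ := e
  rw [un_apply, Latx683.wDom]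
  simp only [if_true, Finset.mem_coe, uv_eq]

end Crest.Agent.R165.Covx359
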