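import Crest.Agent.R165.Cov1_359

/-!
# Row 165 (S0250), block J (task 50, helper359): positivity of partition functions in the plane

* `E0_mon_eq` : `E0 (mon S) = 1` if `S` is even at every face, `0` otherwise
* `E0_PP_sign_nonneg` : `0 ≤ E0 (PP s A)` for signs `s`
* `PP_affine` : `PP y A` is a convex combination of the sign products
* `E0_PP_nonneg` : `|y| ≤ 1` on `A`  ⟹  `0 ≤ E0 (PP y A)`
* `E0_PP_pos_of_flat` : strict positivity, if some flat sign pattern `s` has `-1 < y s` on `A`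
* `E0_PP_pos` : `-1 < y ≤ 1` on `A`  ⟹  `0 < E0 (PP y A)`  (any finite edge set `A`)
* `exists_finv_of_lt` : finitely supported `w` with `|w| < 1`: the covariance exists
* `exists_isCov_plus` : plus backgrounds, any finite `T`, any insertions `X`
* `Zs_plus_pos` : `Σ_{N ⊆ T} σ_X ∏_{walls} w > 0` for `|w| < 1`
-/

set_option autoImplicit false

noncomputable section

open Filter Topology
open Crest.Agent.R165.Gr0x606

namespace Crest.Agent.R165.Covx359

open Crest.Agent.R165
open Crest.Agent.R165.Gr1x606 (Ge VI)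
open Crest.Agent.R165.J1ax606 (EG HE E0 mon bb)
open Crest.Agent.R165.J1bx606 (EvAt ind walls touch)
open Crest.Agent.R165.J1cx606 (NoHole)
open Crest.Agent.R165.J2ax606 (PP)

/-! ### even sets -/

theorem ind_symmDiff (S S' : Finset (EG ℤ)) (e : EG ℤ) :
    ind (symmDiff S S') e = ind S e + ind S' e := by
  unfold ind
  by_cases h : e ∈ S <;> by_cases h' : e ∈ S' <;> simp [Finset.mem_symmDiff, h, h']
  decide

theorem EvAt.symmDiff {S S' : Finset (EG ℤ)} {f : ℤ × ℤ} (h : EvAt S f) (h' : EvAt S' f) :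
    EvAt (symmDiff S S') f := by
  unfold EvAt at *
  simp only [ind_symmDiff]
  linear_combination h + h'

theorem evAt_empty (f : ℤ × ℤ) : EvAt (∅ : Finset (EG ℤ)) f := by
  simp [EvAt, ind]

/-- values of the one-face state on monomials -/
theorem E0_mon_eq [∀ S : Finset (EG ℤ), Decidable (∀ f, EvAt S f)] (S : Finset (EG ℤ)) :
    E0 (mon S : Gr (VI (HE ℤ))) = if ∀ f, EvAt S f then 1 else 0 := by
  split_ifs with h
  · obtain ⟨N, rfl⟩ := J1cx606.exists_walls S h
    exact J1bx606.E0_mon_walls N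
  · push Not at h
    obtain ⟨f, hf⟩ := h
    exact J1bx606.E0_mon_odd S f hf

theorem E0_mon_nonneg (S : Finset (EG ℤ)) : 0 ≤ E0 (mon S : Gr (VI (HE ℤ))) := by
  classical
  rw [E0_mon_eq]
  split_ifs <;> norm_num

/-- the partition function as a sum over even sets -/
theorem E0_PP_eq (A : Finset (EG ℤ)) (y : EG ℤ → ℝ)
    [DecidablePred fun S : Finset (EG ℤ) => ∀ f, EvAt S f] :
    E0 (PP y A : Gr (VI (HE ℤ))) =
      ∑ S ∈ A.powerset.filter (fun S => ∀ f, EvAt S f), ∏ e ∈ S, y e := by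
  rw [PP, J1cx606.E0_prod, Finset.sum_filter]
  refine Finset.sum_congr rfl fun S _ => ?_
  rw [E0_mon_eq]
  split_ifs <;> simp

theorem prod_symmDiff_sign (s : EG ℤ → ℝ) (hs : ∀ e, s e * s e = 1) (S R : Finset (EG ℤ)) :
    ∏ e ∈ symmDiff S R, s e = (∏ e ∈ S, s e) * ∏ e ∈ R, s e := by
  induction R using Finset.induction_on with
  | empty => rw [Finset.prod_empty, mul_one, ← Finset.bot_eq_empty, symmDiff_bot]
  | insert e R he ih =>
    have h1 : insert e R = symmDiff R {e} := by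
      ext x; simp only [Finset.mem_symmDiff, Finset.mem_singleton, Finset.mem_insert]
      by_cases hx : x = e
      · subst hx; simp [he]
      · simp [hx]
    rw [Finset.prod_insert he, h1, ← symmDiff_assoc, J2cx606.prod_symmDiff_single s hs, ih]
    ring

/-- signs: the partition function is nonnegative -/
theorem E0_PP_sign_nonneg (A : Finset (EG ℤ)) (s : EG ℤ → ℝ) (hs : ∀ e, s e * s e = 1) :
    0 ≤ E0 (PP s A : Gr (VI (HE ℤ))) := by
  classical
  rw [E0_PP_eq]
  by_cases h : ∀ S ∈ A.powerset.filter (fun S => ∀ f, EvAt S f), ∏ e ∈ S, s e = 1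
  · rw [Finset.sum_congr rfl h]
    simp
  · push Not at h
    obtain ⟨R, hR, hR1⟩ := h
    have hR2 : ∏ e ∈ R, s e = -1 := by
      have h2 : (∏ e ∈ R, s e) * ∏ e ∈ R, s e = 1 := by
        rw [← Finset.prod_mul_distrib]
        exact Finset.prod_eq_one fun e _ => hs e
      rcases mul_self_eq_one_iff.1 h2 with h3 | h3
      · exact absurd h3 hR1
      · exact h3
    rw [Finset.mem_filter, Finset.mem_powerset] at hR
    have hmem : ∀ S ∈ A.powerset.filter (fun S => ∀ f, EvAt S f),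
        symmDiff S R ∈ A.powerset.filter (fun S => ∀ f, EvAt S f) := by
      intro S hS
      rw [Finset.mem_filter, Finset.mem_powerset] at hS ⊢
      refine ⟨?_, fun f => EvAt.symmDiff (hS.2 f) (hR.2 f)⟩
      intro e he
      rw [Finset.mem_symmDiff] at he
      rcases he with he | he
      · exact hS.1 he.1
      · exact hR.1 he.1
    have hinv : ∀ S : Finset (EG ℤ), symmDiff (symmDiff S R) R = S := fun S => by
      rw [symmDiff_assoc, symmDiff_self, symmDiff_bot]
    have key : ∑ S ∈ A.powerset.filter (fun S => ∀ f, EvAt S f), ∏ e ∈ S, s e =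
        ∑ S ∈ A.powerset.filter (fun S => ∀ f, EvAt S f), -∏ e ∈ S, s e := by
      refine Finset.sum_nbij' (fun S => symmDiff S R) (fun S => symmDiff S R) hmem hmem
        (fun S _ => hinv S) (fun S _ => hinv S) fun S _ => ?_
      rw [prod_symmDiff_sign s hs, hR2]
      ring
    rw [Finset.sum_neg_distrib] at key
    linarith

/-- flat signs: the partition function is positive -/
theorem E0_PP_flat_pos (A : Finset (EG ℤ)) (s : EG ℤ → ℝ)
    (hf : ∀ N : Finset (ℤ × ℤ), walls N ⊆ A → ∏ e ∈ walls N, s e = 1) :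
    0 < E0 (PP s A : Gr (VI (HE ℤ))) := by
  classical
  rw [E0_PP_eq]
  have h : ∀ S ∈ A.powerset.filter (fun S => ∀ f, EvAt S f), ∏ e ∈ S, s e = 1 := by
    intro S hS
    rw [Finset.mem_filter, Finset.mem_powerset] at hS
    obtain ⟨N, rfl⟩ := J1cx606.exists_walls S hS.2
    exact hf N hS.1
  rw [Finset.sum_congr rfl h, Finset.sum_const, nsmul_eq_mul, mul_one, Nat.cast_pos,
    Finset.card_pos]
  exact ⟨∅, by simp [evAt_empty]⟩

/-! ### multi-affine expansion -/

/-- the sign pattern of a set -/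
def sR (R : Finset (EG ℤ)) (e : EG ℤ) : ℝ := if e ∈ R then 1 else -1

theorem sR_sq (R : Finset (EG ℤ)) (e : EG ℤ) : sR R e * sR R e = 1 := by
  unfold sR; split_ifs <;> norm_num

/-- `PP y A` is an affine combination of the sign products -/
theorem PP_affine (A : Finset (EG ℤ)) (y : EG ℤ → ℝ) :
    PP y A = ∑ R ∈ A.powerset, ((∏ e ∈ R, (1 + y e) / 2) * ∏ e ∈ A \ R, (1 - y e) / 2) •
      PP (sR R) A := by
  have h1 : ∀ e : EG ℤ, (1 + y e • bb e : Ge (VI (HE ℤ))) =
      ((1 + y e) / 2) • (1 + bb e) + ((1 - y e) / 2) • (1 + (-1 : ℝ) • bb e) := by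
    intro e
    module
  rw [PP, Finset.prod_congr rfl fun e _ => h1 e, Finset.prod_add]
  refine Finset.sum_congr rfl fun R hR => ?_
  rw [Finset.prod_smul, Finset.prod_smul, smul_mul_smul_comm]
  congr 1
  rw [PP, ← Finset.prod_sdiff (Finset.mem_powerset.1 hR), mul_comm]
  congr 1
  · refine Finset.prod_congr rfl fun e he => ?_
    rw [sR, if_neg (Finset.mem_sdiff.1 he).2]
  · refine Finset.prod_congr rfl fun e he => ?_
    rw [sR, if_pos he, one_smul]

theorem E0_PP_affine (A : Finset (EG ℤ)) (y : EG ℤ → ℝ) :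
    E0 (PP y A : Gr (VI (HE ℤ))) = ∑ R ∈ A.powerset,
      ((∏ e ∈ R, (1 + y e) / 2) * ∏ e ∈ A \ R, (1 - y e) / 2) *
        E0 (PP (sR R) A : Gr (VI (HE ℤ))) := by
  rw [PP_affine A y]
  have h2 : ((∑ R ∈ A.powerset, ((∏ e ∈ R, (1 + y e) / 2) * ∏ e ∈ A \ R, (1 - y e) / 2) •
      PP (sR R) A : Ge (VI (HE ℤ))) : Gr (VI (HE ℤ))) =
      ∑ R ∈ A.powerset, ((∏ e ∈ R, (1 + y e) / 2) * ∏ e ∈ A \ R, (1 - y e) / 2) •
        (PP (sR R) A : Gr (VI (HE ℤ))) := by
    exact map_sum (Ge (VI (HE ℤ))).val (fun R => ((∏ e ∈ R, (1 + y e) / 2) *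
      ∏ e ∈ A \ R, (1 - y e) / 2) • PP (sR R) A) A.powerset
  rw [h2, map_sum]
  refine Finset.sum_congr rfl fun R _ => ?_
  rw [map_smul, smul_eq_mul]

/-- nonnegativity for weights in `[-1, 1]` -/
theorem E0_PP_nonneg (A : Finset (EG ℤ)) (y : EG ℤ → ℝ) (h1 : ∀ e ∈ A, -1 ≤ y e)
    (h2 : ∀ e ∈ A, y e ≤ 1) : 0 ≤ E0 (PP y A : Gr (VI (HE ℤ))) := by
  rw [E0_PP_affine]
  refine Finset.sum_nonneg fun R hR => ?_
  refine mul_nonneg (mul_nonneg ?_ ?_) (E0_PP_sign_nonneg A _ (sR_sq R))
  · refine Finset.prod_nonneg fun e he => ?_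
    have := h1 e (Finset.mem_powerset.1 hR he)
    linarith
  · refine Finset.prod_nonneg fun e he => ?_
    have := h2 e (Finset.mem_sdiff.1 he).1
    linarith

/-- **positivity**: weights in `[-1, 1]` and a flat sign pattern `s` with `y s > -1` -/
theorem E0_PP_pos_of_flat (A : Finset (EG ℤ)) (y s : EG ℤ → ℝ) (hs : ∀ e, s e * s e = 1)
    (hf : ∀ N : Finset (ℤ × ℤ), walls N ⊆ A → ∏ e ∈ walls N, s e = 1)
    (h1 : ∀ e ∈ A, -1 ≤ y e) (h2 : ∀ e ∈ A, y e ≤ 1) (h3 : ∀ e ∈ A, -1 < y e * s e) :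
    0 < E0 (PP y A : Gr (VI (HE ℤ))) := by
  classical
  rw [E0_PP_affine]
  set R0 : Finset (EG ℤ) := A.filter fun e => s e = 1 with hR0
  have hs' : ∀ e, s e = 1 ∨ s e = -1 := fun e => mul_self_eq_one_iff.1 (hs e)
  refine Finset.sum_pos' (fun R hR => ?_) ⟨R0, Finset.mem_powerset.2 (Finset.filter_subset _ _), ?_⟩
  · refine mul_nonneg (mul_nonneg ?_ ?_) (E0_PP_sign_nonneg A _ (sR_sq R))
    · refine Finset.prod_nonneg fun e he => ?_
      have := h1 e (Finset.mem_powerset.1 hR he)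
      linarith
    · refine Finset.prod_nonneg fun e he => ?_
      have := h2 e (Finset.mem_sdiff.1 he).1
      linarith
  · refine mul_pos (mul_pos ?_ ?_) ?_
    · refine Finset.prod_pos fun e he => ?_
      rw [hR0, Finset.mem_filter] at he
      have := h3 e he.1
      rw [he.2] at this
      linarith
    · refine Finset.prod_pos fun e he => ?_
      rw [Finset.mem_sdiff, hR0, Finset.mem_filter, not_and] at he
      have h4 := h3 e he.1
      rcases hs' e with h5 | h5
      · exact absurd h5 (he.2 he.1)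
      · rw [h5] at h4; linarith
    · apply E0_PP_flat_pos
      intro N hN
      rw [← hf N hN]
      refine Finset.prod_congr rfl fun e he => ?_
      unfold sR
      rcases hs' e with h5 | h5
      · rw [if_pos (by rw [hR0, Finset.mem_filter]; exact ⟨hN he, h5⟩), h5]
      · rw [if_neg, h5]
        rw [hR0, Finset.mem_filter, h5]
        norm_num

/-- **positivity** for weights in `(-1, 1]`, any finite edge set -/
theorem E0_PP_pos (A : Finset (EG ℤ)) (y : EG ℤ → ℝ) (h1 : ∀ e ∈ A, -1 < y e)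
    (h2 : ∀ e ∈ A, y e ≤ 1) : 0 < E0 (PP y A : Gr (VI (HE ℤ))) :=
  E0_PP_pos_of_flat A y (fun _ => 1) (fun _ => by norm_num) (fun N _ => by simp)
    (fun e he => (h1 e he).le) h2 (fun e he => by rw [mul_one]; exact h1 e he)

/-! ### consequences -/

/-- finitely supported weights of absolute value `< 1`: the inverse exists -/
theorem exists_finv_of_lt {w : EG ℤ → ℝ} (A : Finset (EG ℤ)) (hw : ∀ e, e ∉ A → w e = 0)
    (h : ∀ e ∈ A, |w e| < 1) : ∃ S, J2bx606.FInv w S :=
  exists_finv_of_Z A hw (E0_PP_pos A w (fun e he => (abs_lt.1 (h e he)).1)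
    (fun e he => (abs_lt.1 (h e he)).2.le)).ne'

/-- **existence and uniqueness** of the covariance: finitely supported weights, `|w| < 1` -/
theorem existsUnique_isCov_of_lt (w : Latx683.BW ℤ) (A : Finset (EG ℤ))
    (hw : ∀ e, e ∉ A → un w e = 0) (h : ∀ e ∈ A, |un w e| < 1) : ∃! S, Latx683.IsCov w S := by
  obtain ⟨S, hS⟩ := exists_finv_of_lt A hw h
  exact ⟨S, isCov_of_finv hS, fun S' hS' => isCov_eq_of_finv hS hS'⟩

/-- `|cut| = 1` -/
theorem abs_cut {n : ℕ} (X : Fin n → ℤ × ℤ) (e : EG ℤ) : |J2cx606.cut X e| = 1 := by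
  unfold J2cx606.cut
  rw [Finset.abs_prod]
  refine Finset.prod_eq_one fun i _ => ?_
  unfold J2cx606.sgr
  split_ifs <;> simp

theorem cut_sq {n : ℕ} (X : Fin n → ℤ × ℤ) (e : EG ℤ) : J2cx606.cut X e * J2cx606.cut X e = 1 := by
  rw [← abs_mul_abs_self, abs_cut, one_mul]

theorem xc_pos : 0 < Latx683.xc := by
  have : (1 : ℝ) < Real.sqrt 2 := by
    rw [show (1 : ℝ) = Real.sqrt 1 by simp]
    exact Real.sqrt_lt_sqrt (by norm_num) (by norm_num)
  unfold Latx683.xc; linarith

theorem xc_lt_one : Latx683.xc < 1 := by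
  have : Real.sqrt 2 < 2 := by
    rw [show (2 : ℝ) = Real.sqrt 4 by
      rw [show (4 : ℝ) = 2 ^ 2 by norm_num, Real.sqrt_sq (by norm_num)]]
    exact Real.sqrt_lt_sqrt (by norm_num) (by norm_num)
  unfold Latx683.xc; linarith

theorem abs_wX_plus_lt {n : ℕ} (T : Finset (ℤ × ℤ)) (X : Fin n → ℤ × ℤ) (e : EG ℤ) :
    |un (Latx683.wX (Latx683.wDom (T : Set (ℤ × ℤ)) false) X) e| < 1 := by
  rw [un_wX]
  simp only
  rw [abs_mul, abs_cut, mul_one, wDom_plus_eq]
  split_ifs
  · rw [abs_of_pos xc_pos]; exact xc_lt_one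
  · simp

theorem wX_plus_out {n : ℕ} (T : Finset (ℤ × ℤ)) (X : Fin n → ℤ × ℤ) (e : EG ℤ)
    (he : e ∉ touch T) : un (Latx683.wX (Latx683.wDom (T : Set (ℤ × ℤ)) false) X) e = 0 := by
  rw [un_wX]
  simp only
  rw [wDom_plus_out T e he, zero_mul]

/-- **plus boundary conditions**: the covariance exists, for every finite site set `T` and all
insertions `X`; it has finite columns and it is the unique covariance -/
theorem exists_isCov_plus {n : ℕ} (T : Finset (ℤ × ℤ)) (X : Fin n → ℤ × ℤ) :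
    ∃ S, Latx683.IsCov (Latx683.wX (Latx683.wDom (T : Set (ℤ × ℤ)) false) X) S ∧
      J2bx606.FInv (un (Latx683.wX (Latx683.wDom (T : Set (ℤ × ℤ)) false) X)) S ∧
      ∀ S', Latx683.IsCov (Latx683.wX (Latx683.wDom (T : Set (ℤ × ℤ)) false) X) S' → S' = S := by
  obtain ⟨S, hS⟩ := exists_finv_of_lt (touch T) (wX_plus_out T X)
    (fun e _ => abs_wX_plus_lt T X e)
  exact ⟨S, isCov_of_finv hS, hS, fun S' hS' => isCov_eq_of_finv hS hS'⟩

/-- the spin sums of plus boundary conditions are positive -/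
theorem Zs_plus_pos (T : Finset (ℤ × ℤ)) (hT : NoHole T) (w : EG ℤ → ℝ)
    (hw : ∀ e ∈ touch T, |w e| < 1) {n : ℕ} (xs : Fin n → ℤ × ℤ) :
    0 < J2cx606.Zs T w xs ∅ := by
  rw [J2cx606.Zs_eq T hT]
  have h1 : ∀ e ∈ touch T, |w e * J2cx606.cut xs e * if e ∈ (∅ : Finset (EG ℤ)) then -1 else 1| < 1 := by
    intro e he
    simp only [Finset.notMem_empty, if_false, mul_one]
    rw [abs_mul, abs_cut, mul_one]
    exact hw e he
  exact E0_PP_pos _ _ (fun e he => (abs_lt.1 (h1 e he)).1) (fun e he => (abs_lt.1 (h1 e he)).2.le)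

/-! ### free boundary conditions: positivity by a pairing of the insertions -/

/-- the spins of the insertions are paired by the edge set `P`: `∏ σ_{x_i} = ∏_{e ∈ P} ε_e` -/
def Paired {n : ℕ} (xs : Fin n → ℤ × ℤ) (P : Finset (EG ℤ)) : Prop :=
  ∀ N : Finset (ℤ × ℤ), ∏ i, J2cx606.sig N (xs i) = ∏ e ∈ P, J2cx606.eps N e

/-- positivity of the partition function with insertions `xs`, paired inside an edge set where the
weights are `< 1` in absolute value; elsewhere `0 ≤ w ≤ 1` is enough -/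
theorem E0_PP_cut_pos {n : ℕ} (xs : Fin n → ℤ × ℤ) (P A : Finset (EG ℤ)) (hP : Paired xs P)
    (w : EG ℤ → ℝ) (h0 : ∀ e ∈ A, -1 < w e) (h1 : ∀ e ∈ A, w e ≤ 1)
    (h2 : ∀ e ∈ A, e ∈ P → w e < 1) :
    0 < E0 (PP (fun e => w e * J2cx606.cut xs e) A : Gr (VI (HE ℤ))) := by
  have hc : ∀ e, J2cx606.cut xs e = 1 ∨ J2cx606.cut xs e = -1 := fun e =>
    mul_self_eq_one_iff.1 (cut_sq xs e)
  refine E0_PP_pos_of_flat A _ (fun e => J2cx606.cut xs e * if e ∈ P then -1 else 1) ?_ ?_ ?_ ?_ ?_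
  · intro e
    have := cut_sq xs e
    split_ifs
    · linear_combination this
    · linear_combination this
  · intro N _
    rw [Finset.prod_mul_distrib, J2cx606.prod_walls_cut, ← J2cx606.prod_eps, hP N,
      ← Finset.prod_mul_distrib]
    refine Finset.prod_eq_one fun e _ => ?_
    rw [J2cx606.eps_eq]
    split_ifs <;> norm_num
  · intro e he
    have a := h0 e he
    have b := h1 e he
    rcases hc e with h | h <;> rw [h] <;> linarith
  · intro e he
    have a := h0 e he
    have b := h1 e he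
    rcases hc e with h | h <;> rw [h] <;> linarith
  · intro e he
    have h3 : w e * J2cx606.cut xs e * (J2cx606.cut xs e * if e ∈ P then -1 else 1) =
        w e * if e ∈ P then -1 else 1 := by
      have := cut_sq xs e
      split_ifs
      · linear_combination (-w e) * this
      · linear_combination (w e) * this
    rw [h3]
    split_ifs with h4
    · have := h2 e he h4
      linarith
    · have := h0 e he
      linarith

end Crest.Agent.R165.Covx359
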