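import Crest.Agent.R165.SpC_583

/-!
# Row 165 (S0250), block J (task 50, helper359): uniqueness of the plane covariance

* `TT_row` : `adj A · A = det A` (position space, any weight)
* `harm_zero` : harmonic functions on `ℤ²` tending to zero vanish
* `plane_null` : `A φ = 0`, `φ → 0` in the critical plane implies `φ = 0`
* `isCov_wPl_iff` : `IsCov (wPl ℤ) S ↔ S = Spl`
-/

set_option autoImplicit false

noncomputable section

open Filter Topology

namespace Crest.Agent.R165.Covx359

open Crest.Agent.R165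
open Crest.Agent.R165.Spx583 (row TT detP SP Spl)

/-- `adj A · A = det A`, position space, any weight `x`, any field `F` -/
theorem TT_row (x : ℝ) (F : Fin 4 → ℤ → ℤ → ℝ) (b : Fin 4) (m n : ℤ) :
    ∑ c : Fin 4, TT x (row x F c) b c m n = detP x (F b) m n := by
  fin_cases b <;>
    simp only [Fin.sum_univ_four, row, TT, detP, Fin.zero_eta, Fin.mk_one, Fin.reduceFinMk,
      Fin.isValue, add_sub_cancel_right, sub_add_cancel] <;> ring

/-- harmonic functions tending to zero are nonpositive -/
theorem harm_le (P : ℤ × ℤ → ℝ)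
    (hh : ∀ p : ℤ × ℤ, P (p.1 + 1, p.2) + P (p.1 - 1, p.2) + P (p.1, p.2 + 1) + P (p.1, p.2 - 1) =
      4 * P p)
    (h0 : Tendsto P cofinite (𝓝 0)) (q : ℤ × ℤ) : P q ≤ 0 := by
  by_contra hq
  push Not at hq
  have hfin : {p : ℤ × ℤ | P q ≤ P p}.Finite := by
    have h1 := (h0.eventually (gt_mem_nhds hq))
    rw [Filter.eventually_cofinite] at h1
    refine h1.subset fun p hp => ?_
    simp only [Set.mem_ofPred_eq, not_lt] at hp ⊢
    exact hp
  set K : Finset (ℤ × ℤ) := hfin.toFinset with hK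
  have hmem : ∀ p, p ∈ K ↔ P q ≤ P p := fun p => by
    rw [hK, Set.Finite.mem_toFinset]; rfl
  obtain ⟨p₀, hp₀, hmax⟩ := K.exists_max_image P ⟨q, (hmem q).2 le_rfl⟩
  set K' := K.filter fun p => P p = P p₀ with hK'
  obtain ⟨p, hp, hpm⟩ := K'.exists_max_image (fun p => p.1)
    ⟨p₀, Finset.mem_filter.2 ⟨hp₀, rfl⟩⟩
  rw [hK', Finset.mem_filter] at hp
  have hle : ∀ p' : ℤ × ℤ, P p' ≤ P p₀ := by
    intro p'
    by_cases h : p' ∈ K
    · exact hmax p' h
    · rw [hmem, not_le] at h
      exact h.le.trans ((hmem p₀).1 hp₀)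
  have h1 := hh p
  have a1 := hle (p.1 + 1, p.2)
  have a2 := hle (p.1 - 1, p.2)
  have a3 := hle (p.1, p.2 + 1)
  have a4 := hle (p.1, p.2 - 1)
  have h2 : P (p.1 + 1, p.2) = P p₀ := by
    rw [hp.2] at h1; linarith
  have h3 : ((p.1 + 1, p.2) : ℤ × ℤ) ∈ K' := by
    rw [hK', Finset.mem_filter, hmem]
    exact ⟨by rw [h2]; exact (hmem p₀).1 hp₀, h2⟩
  have := hpm _ h3
  simp only at this
  omega

/-- harmonic functions tending to zero vanish -/
theorem harm_zero (P : ℤ × ℤ → ℝ)
    (hh : ∀ p : ℤ × ℤ, P (p.1 + 1, p.2) + P (p.1 - 1, p.2) + P (p.1, p.2 + 1) + P (p.1, p.2 - 1) =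
      4 * P p)
    (h0 : Tendsto P cofinite (𝓝 0)) : P = 0 := by
  funext q
  apply le_antisymm (harm_le P hh h0 q)
  have h := harm_le (fun p => -P p) (fun p => by linarith [hh p]) (by simpa using h0.neg) q
  linarith

theorem tendsto_face {φ : Latx683.HE ℤ → ℝ} (h0 : Tendsto φ cofinite (𝓝 0)) (b : Fin 4) :
    Tendsto (fun p : ℤ × ℤ => φ (p, b)) cofinite (𝓝 0) := by
  refine h0.comp ?_
  apply Function.Injective.tendsto_cofinite
  intro p p' h
  exact (Prod.mk.inj h).1

/-- **no null vectors tending to zero in the critical plane** -/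
theorem plane_null (φ : Latx683.HE ℤ → ℝ) (h0 : Tendsto φ cofinite (𝓝 0))
    (hA : ∀ h, Latx683.Aop (Latx683.wPl ℤ) φ h = 0) : φ = 0 := by
  set F : Fin 4 → ℤ → ℤ → ℝ := fun b m n => φ ((m, n), b) with hF
  have hrow : ∀ (c : Fin 4) (m n : ℤ), row Spx583.xc F c m n = 0 := by
    intro c m n
    have h := hA ((m, n), c)
    fin_cases c
    · simpa [row, F, Latx683.yN, Latx683.wPl, Spx583.xc_eq683] using h
    · simpa [row, F, Latx683.yE, Latx683.wPl, Spx583.xc_eq683] using h
    · simpa [row, F, Latx683.yN, Latx683.wPl, Spx583.xc_eq683] using h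
    · simpa [row, F, Latx683.yE, Latx683.wPl, Spx583.xc_eq683] using h
  have hrow' : ∀ c : Fin 4, row Spx583.xc F c = fun _ _ => 0 := by
    intro c; funext m n; exact hrow c m n
  have hz : ∀ b : Fin 4, (fun p : ℤ × ℤ => φ (p, b)) = 0 := by
    intro b
    apply harm_zero _ _ (tendsto_face h0 b)
    rintro ⟨m, n⟩
    have h1 := TT_row Spx583.xc F b m n
    have h2 : ∑ c : Fin 4, TT Spx583.xc (row Spx583.xc F c) b c m n = 0 := by
      simp only [hrow']
      fin_cases b <;> simp [Fin.sum_univ_four, TT]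
    rw [h2, Spx583.detP_crit Spx583.xc_rel] at h1
    have hx := Spx583.xc_pos
    have h3 : F b (m + 1) n + F b (m - 1) n + F b m (n + 1) + F b m (n - 1) - 4 * F b m n = 0 := by
      rcases mul_eq_zero.1 h1.symm with h | h
      · exfalso
        have : (0 : ℝ) < 2 * Spx583.xc ^ 2 := by positivity
        linarith
      · exact h
    simp only [hF] at h3
    simp only
    linarith
  funext h
  have := congrFun (hz h.2) h.1
  simpa using this

/-- **the plane covariance is unique** -/
theorem isCov_wPl_iff (S : Latx683.HE ℤ → Latx683.HE ℤ → ℝ) :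
    Latx683.IsCov (Latx683.wPl ℤ) S ↔ S = Spl := by
  constructor
  · intro hS
    have hP := Spx583.isCov_Spl
    funext h h'
    have h1 : (fun g => S g h' - Spl g h') = 0 := by
      apply plane_null
      · simpa using (hS.zero h').sub (hP.zero h')
      · intro g
        have h2 : (fun g => S g h' - Spl g h') = (fun g => S g h') - fun g => Spl g h' := rfl
        rw [h2, map_sub, Pi.sub_apply, hS.inv, hP.inv, sub_self]
    have := congrFun h1 h
    simp only [Pi.zero_apply] at this
    linarith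
  · rintro rfl
    exact Spx583.isCov_Spl

end Crest.Agent.R165.Covx359
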