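import Mathlib
import Crest.Agent.R165.Gr0_606

/-!
Row 165, leaf E (helper599): products of bilinears centred by constants, as Pfaffians of a
modified matrix; homogeneity and continuity in the entries.
-/

set_option autoImplicit false

noncomputable section

namespace Crest.Agent.R165.Enx599

open Crest.Agent.R165.Gr0x606 Filter Topology

variable {V : Type*} [AddCommGroup V] [Module ℝ V]

/-- ordered product of fields -/
def fpr (L : List V) : Gr V := (L.map fi).prod

@[simp] theorem fpr_nil : fpr ([] : List V) = 1 := rfl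
@[simp] theorem fpr_cons (x : V) (L : List V) : fpr (x :: L) = fi x * fpr L := by
  simp [fpr]
theorem fpr_append (L L' : List V) : fpr (L ++ L') = fpr L * fpr L' := by
  simp [fpr]

theorem dd_fpr (l : Module.Dual ℝ V) (L : List V) :
    dd l (fpr L) = ∑ i : Fin L.length, ((-1:ℝ) ^ (i:ℕ) * l (L.get i)) • fpr (L.eraseIdx i) := by
  induction L with
  | nil => simp
  | cons x L ih =>
    rw [fpr_cons, dd_fi_mul, ih]
    have key : ∑ i : Fin (x :: L).length,
        ((-1:ℝ) ^ (i:ℕ) * l ((x :: L).get i)) • fpr ((x :: L).eraseIdx i)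
        = l x • fpr L + ∑ i : Fin L.length,
          ((-1:ℝ) ^ ((i:ℕ) + 1) * l (L.get i)) • (fi x * fpr (L.eraseIdx i)) := by
      refine (Fin.sum_univ_succ (n := L.length) _).trans ?_
      simp
    rw [key, sub_eq_add_neg, Finset.mul_sum, ← Finset.sum_neg_distrib]
    congr 1
    refine Finset.sum_congr rfl fun i _ => ?_
    rw [mul_smul_comm, ← neg_smul, pow_succ]
    congr 1; ring

theorem EE_fpr_cons (S : Cov V) (x : V) (L : List V) :
    EE S (fpr (x :: L)) = ∑ i : Fin L.length,
      (-1:ℝ) ^ (i:ℕ) * S.b x (L.get i) * EE S (fpr (L.eraseIdx i)) := by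
  rw [fpr_cons, EE_fi_mul, dd_fpr, map_sum]
  refine Finset.sum_congr rfl fun i _ => ?_
  rw [map_smul, smul_eq_mul]

/-- Pfaffian-type recursion along a list of indices (with fuel). -/
def pfl {ι : Type*} (M : ι → ι → ℝ) : ℕ → List ι → ℝ
  | _, [] => 1
  | 0, _ :: _ => 0
  | n + 1, x :: L => ∑ i : Fin L.length,
      (-1:ℝ) ^ (i:ℕ) * M x (L.get i) * pfl M n (L.eraseIdx i)

theorem pfl_nil {ι : Type*} (M : ι → ι → ℝ) (n : ℕ) : pfl M n [] = 1 := by
  cases n <;> rfl

omit [AddCommGroup V] [Module ℝ V] in
theorem map_eraseIdx {ι : Type*} (f : ι → V) (L : List ι) (i : ℕ) :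
    (L.map f).eraseIdx i = (L.eraseIdx i).map f := by
  rw [List.eraseIdx_map]

theorem EE_fpr_map {ι : Type*} (S : Cov V) (f : ι → V) (n : ℕ) (L : List ι) (h : L.length ≤ n) :
    EE S (fpr (L.map f)) = pfl (fun i j => S.b (f i) (f j)) n L := by
  induction n generalizing L with
  | zero =>
    have : L = [] := List.length_eq_zero_iff.1 (Nat.le_zero.1 h)
    subst this; simp [pfl]
  | succ n ih =>
    cases L with
    | nil => simp [pfl]
    | cons x L =>
      rw [List.map_cons, EE_fpr_cons, pfl]
      have hlen : (L.map f).length = L.length := List.length_map _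
      refine Fintype.sum_equiv (finCongr hlen) _ _ fun i => ?_
      simp only [finCongr_apply, Fin.val_cast, List.get_eq_getElem, List.getElem_map]
      congr 1
      rw [map_eraseIdx]
      refine ih _ ?_
      have := i.2
      have h2 : (i:ℕ) < L.length := by omega
      rw [List.length_eraseIdx_of_lt h2]
      simp only [List.length_cons] at h
      omega

/-- homogeneity -/
theorem pfl_smul {ι : Type*} (M : ι → ι → ℝ) (t : ℝ) (n m : ℕ) (L : List ι)
    (h : L.length = 2 * m) (h' : L.length ≤ n) :
    pfl (fun i j => t * M i j) n L = t ^ m * pfl M n L := by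
  induction n generalizing L m with
  | zero =>
    have : L = [] := List.length_eq_zero_iff.1 (Nat.le_zero.1 h')
    subst this
    have : m = 0 := by simp at h; omega
    subst this; simp [pfl]
  | succ n ih =>
    cases L with
    | nil =>
      have : m = 0 := by simp at h; omega
      subst this; simp [pfl]
    | cons x L =>
      simp only [List.length_cons] at h h'
      obtain ⟨m', rfl⟩ : ∃ m', m = m' + 1 := ⟨m - 1, by omega⟩
      rw [pfl, pfl, Finset.mul_sum]
      refine Finset.sum_congr rfl fun i _ => ?_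
      rcases i with ⟨i, hi⟩
      cases n with
      | zero => exfalso; omega
      | succ n =>
        have hl : (L.eraseIdx i).length = L.length - 1 := List.length_eraseIdx_of_lt hi
        rw [ih m' (L.eraseIdx i) (by rw [hl]; omega) (by rw [hl]; omega)]
        rw [pow_succ]; ring

/-- continuity -/
theorem tendsto_pfl {ι α : Type*} {F : Filter α} (M : α → ι → ι → ℝ) (M0 : ι → ι → ℝ)
    (n : ℕ) (L : List ι) (h : ∀ i ∈ L, ∀ j ∈ L, Tendsto (fun a => M a i j) F (𝓝 (M0 i j))) :
    Tendsto (fun a => pfl (M a) n L) F (𝓝 (pfl M0 n L)) := by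
  induction n generalizing L with
  | zero =>
    cases L with
    | nil => simp only [pfl_nil]; exact tendsto_const_nhds
    | cons x L => simp only [pfl]; exact tendsto_const_nhds
  | succ n ih =>
    cases L with
    | nil => simp only [pfl_nil]; exact tendsto_const_nhds
    | cons x L =>
      simp only [pfl]
      refine tendsto_finsetSum _ fun i _ => ?_
      refine Tendsto.mul (Tendsto.mul tendsto_const_nhds ?_) ?_
      · exact h x (by simp) _ (by simp)
      · refine ih _ fun i' hi' j' hj' => h i' ?_ j' ?_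
        · exact List.mem_cons_of_mem _ (List.mem_of_mem_eraseIdx hi')
        · exact List.mem_cons_of_mem _ (List.mem_of_mem_eraseIdx hj')

/-! ### centring -/

variable {κ : Type*}

/-- flattened index list -/
def idx (K : List κ) : List (κ × Fin 2) := K.flatMap fun k => [(k, 0), (k, 1)]

theorem length_idx (K : List κ) : (idx K).length = 2 * K.length := by
  induction K with
  | nil => rfl
  | cons k K ih => simp only [idx, List.flatMap_cons, List.length_append, List.length_cons] at *
                   simp only [List.length_nil]; omega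

/-- product of bilinears centred by constants -/
def cpr (p : κ → Fin 2 → V) (c : κ → ℝ) (K : List κ) : Gr V :=
  (K.map fun k => fi (p k 0) * fi (p k 1) - algebraMap ℝ (Gr V) (c k)).prod

/-- the matrix with modified diagonal blocks -/
def cmat [DecidableEq κ] (S : Cov V) (p : κ → Fin 2 → V) (c : κ → ℝ) (i j : κ × Fin 2) : ℝ :=
  S.b (p i.1 i.2) (p j.1 j.2) -
    if i.1 = j.1 then (if i.2 = 0 ∧ j.2 = 1 then c i.1 else if i.2 = 1 ∧ j.2 = 0 then -c i.1 else 0)
      else 0

theorem cpr_zero (p : κ → Fin 2 → V) (K : List κ) :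
    cpr p (fun _ => 0) K = fpr ((idx K).map fun i => p i.1 i.2) := by
  induction K with
  | nil => rfl
  | cons k K ih =>
    simp only [cpr, List.map_cons, List.prod_cons, idx, List.flatMap_cons, List.map_append] at *
    rw [ih, fpr_append]
    simp

/-- rank-two covariance -/
def wedge (l m : Module.Dual ℝ V) : Cov V where
  b := l.smulRight m - m.smulRight l
  alt := fun x => by simp [mul_comm]

theorem wedge_b (l m : Module.Dual ℝ V) (x y : V) : (wedge l m).b x y = l x * m y - m x * l y := by
  simp [wedge]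

/-- the underlying forms, additively -/
def bHom (V : Type*) [AddCommGroup V] [Module ℝ V] : Cov V →+ LinearMap.BilinForm ℝ V where
  toFun S := S.b
  map_zero' := rfl
  map_add' _ _ := rfl

theorem sum_b {α : Type*} (s : Finset α) (f : α → Cov V) : (∑ i ∈ s, f i).b = ∑ i ∈ s, (f i).b :=
  map_sum (bHom V) f s

section free

variable [DecidableEq κ] [Fintype κ]

/-- coordinates -/
def sg (i : κ × Fin 2) : (κ × Fin 2 →₀ ℝ) := Finsupp.single i 1

/-- the pairing covariance `-c` on the free space -/
def pairCov (c : κ → ℝ) : Cov (κ × Fin 2 →₀ ℝ) :=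
  ∑ k : κ, wedge (-(c k) • Finsupp.lapply (k, (0 : Fin 2))) (Finsupp.lapply (k, (1 : Fin 2)))

theorem pairCov_b (c : κ → ℝ) (i j : κ × Fin 2) : (pairCov c).b (sg i) (sg j) =
    - if i.1 = j.1 then (if i.2 = 0 ∧ j.2 = 1 then c i.1 else if i.2 = 1 ∧ j.2 = 0 then -c i.1 else 0)
      else 0 := by
  rcases i with ⟨k, i⟩
  rcases j with ⟨k', j⟩
  simp only [pairCov, sum_b, LinearMap.sum_apply, wedge_b, sg]
  rw [Finset.sum_eq_single k]
  · by_cases hk : k = k'
    · subst hk
      fin_cases i <;> fin_cases j <;> simp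
    · simp [hk, Finsupp.single_apply]
  · intro b _ hb
    have : ¬ k = b := fun h => hb h.symm
    simp [Finsupp.single_apply, this]
  · intro h; exact absurd (Finset.mem_univ _) h

/-- the free product of bilinears -/
theorem conv_pair (c : κ → ℝ) (K : List κ) (hK : K.Nodup) :
    conv (pairCov c) (cpr (fun k i => sg (k, i)) (fun _ => 0) K)
      = cpr (fun k i => sg (k, i)) c K := by
  induction K with
  | nil => simp [cpr]
  | cons k K ih =>
    have hk : k ∉ K := (List.nodup_cons.1 hK).1
    have hK' : K.Nodup := (List.nodup_cons.1 hK).2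
    have e1 : cpr (fun k i => sg (k, i)) (fun _ => 0) (k :: K)
        = (fi (sg (k, (0 : Fin 2))) * fi (sg (k, (1 : Fin 2)))) *
          cpr (fun k i => sg (k, i)) (fun _ => 0) K := by
      simp [cpr]
    have e2 : cpr (fun k i => sg (k, i)) c (k :: K)
        = (fi (sg (k, (0 : Fin 2))) * fi (sg (k, (1 : Fin 2))) - algebraMap ℝ _ (c k)) *
          cpr (fun k i => sg (k, i)) c K := by
      simp [cpr]
    rw [e1, e2, ← ih hK']
    rw [conv_mul (pairCov c) {x | ∃ i : Fin 2, x = sg (k, i)}]
    · congr 1
      rw [conv_fi_mul, conv_fi, dd_fi, pairCov_b]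
      simp [sub_eq_add_neg]
    · refine Subalgebra.mul_mem _ (Algebra.subset_adjoin ⟨_, ⟨0, rfl⟩, rfl⟩)
        (Algebra.subset_adjoin ⟨_, ⟨1, rfl⟩, rfl⟩)
    · rintro x ⟨i, rfl⟩
      apply dd_eq_zero_of_mem (U := {x | ∃ j ∈ K, ∃ i : Fin 2, x = sg (j, i)})
      · rintro y ⟨j, hj, i', rfl⟩
        rw [pairCov_b]
        have : k ≠ j := fun h => hk (h ▸ hj)
        simp [this]
      · rw [cpr_zero]
        clear e1 e2 ih hK hK' hk
        induction K with
        | nil => exact Subalgebra.one_mem _
        | cons j K ih' =>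
          simp only [idx, List.flatMap_cons, List.map_append] at *
          rw [fpr_append]
          refine Subalgebra.mul_mem _ ?_ ?_
          · simp only [List.map_cons, List.map_nil, fpr_cons, fpr_nil, mul_one]
            refine Subalgebra.mul_mem _ (Algebra.subset_adjoin ⟨_, ⟨j, by simp, 0, rfl⟩, rfl⟩)
              (Algebra.subset_adjoin ⟨_, ⟨j, by simp, 1, rfl⟩, rfl⟩)
          · refine Algebra.adjoin_mono ?_ ih'
            refine Set.image_mono ?_
            rintro y ⟨j', hj', i', rfl⟩
            exact ⟨j', List.mem_cons_of_mem _ hj', i', rfl⟩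

/-- **centred products of bilinears are Pfaffians of the modified matrix** -/
theorem EE_cpr (S : Cov V) (p : κ → Fin 2 → V) (c : κ → ℝ) (K : List κ) (hK : K.Nodup)
    (n : ℕ) (hn : 2 * K.length ≤ n) :
    EE S (cpr p c K) = pfl (cmat S p c) n (idx K) := by
  let f : (κ × Fin 2 →₀ ℝ) →ₗ[ℝ] V := Finsupp.linearCombination ℝ (fun i : κ × Fin 2 => p i.1 i.2)
  have hf : ∀ i : κ × Fin 2, f (sg i) = p i.1 i.2 := by
    intro i; simp [f, sg, Finsupp.linearCombination_single]
  let SW : Cov (κ × Fin 2 →₀ ℝ) := ⟨S.b.compl₁₂ f f, fun x => by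
    rw [LinearMap.compl₁₂_apply]; exact S.alt _⟩
  have hSW : ∀ x y, SW.b x y = S.b (f x) (f y) := fun x y => rfl
  have h1 : mp f (cpr (fun k i => sg (k, i)) c K) = cpr p c K := by
    clear hn hK
    induction K with
    | nil => simp [cpr]
    | cons k K ih =>
      simp only [cpr, List.map_cons, List.prod_cons, map_mul, map_sub, mp_fi, hf,
        AlgHom.commutes] at *
      rw [ih]
  rw [← h1, EE_mp f SW S hSW, ← conv_pair c K hK, EE_conv, cpr_zero, EE_fpr_map _ _ n]
  · congr 1
    funext i j
    rw [Cov.add_b, LinearMap.add_apply, LinearMap.add_apply, pairCov_b, hSW, hf, hf, cmat]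
    ring
  · rw [length_idx]; exact hn

/-- **limit of centred products of bilinears**, each bilinear rescaled by `1/s`. -/
theorem tendsto_EE_cpr {α : Type*} {F : Filter α} {W : α → Type*} [∀ a, AddCommGroup (W a)]
    [∀ a, Module ℝ (W a)] (S : ∀ a, Cov (W a)) (p : ∀ a, κ → Fin 2 → W a) (c : α → κ → ℝ)
    (s : α → ℝ) (K : List κ) (hK : K.Nodup) (M0 : κ × Fin 2 → κ × Fin 2 → ℝ)
    (h : ∀ i ∈ idx K, ∀ j ∈ idx K,
      Tendsto (fun a => (s a)⁻¹ * cmat (S a) (p a) (c a) i j) F (𝓝 (M0 i j))) :
    Tendsto (fun a => ((s a)⁻¹) ^ K.length * EE (S a) (cpr (p a) (c a) K)) F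
      (𝓝 (pfl M0 (2 * K.length) (idx K))) := by
  have h1 : (fun a => ((s a)⁻¹) ^ K.length * EE (S a) (cpr (p a) (c a) K))
      = fun a => pfl (fun i j => (s a)⁻¹ * cmat (S a) (p a) (c a) i j) (2 * K.length) (idx K) := by
    funext a
    rw [pfl_smul _ _ _ K.length _ (length_idx K) (length_idx K).le,
      EE_cpr (S a) (p a) (c a) K hK _ le_rfl]
  rw [h1]
  exact tendsto_pfl _ _ _ _ h

end free

end Crest.Agent.R165.Enx599
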