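import Mathlib
import Crest.Agent.R165.Gr0_606

/-!
Row 165, leaf T2/T3 (helper599): matrix covariances, reweighting by one bilinear exponential,
`E₀[e^Q]² det A₀ = det (A₀ + Y)`, positivity along a path, and the exact formula for a
two-dimensional kernel (zero modes).
-/

set_option autoImplicit false
set_option linter.unusedSectionVars false

noncomputable section

namespace Crest.Agent.R165.Pfx599

open Crest.Agent.R165.Gr0x606 Matrix

variable {ι : Type*} [Fintype ι] [DecidableEq ι]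

/-- covariance with matrix `(B - Bᵀ)/2` -/
def cv (B : Matrix ι ι ℝ) : Cov (ι → ℝ) where
  b := Matrix.toBilin' ((1/2 : ℝ) • (B - Bᵀ))
  alt := fun x => by
    rw [Matrix.toBilin'_apply']
    rw [Matrix.smul_mulVec, Matrix.sub_mulVec, dotProduct_smul, dotProduct_sub]
    have : x ⬝ᵥ Bᵀ *ᵥ x = x ⬝ᵥ B *ᵥ x := by
      rw [Matrix.mulVec_transpose, dotProduct_comm, Matrix.dotProduct_mulVec]
    rw [this]; simp

theorem cv_b {B : Matrix ι ι ℝ} (hB : Bᵀ = -B) (x y : ι → ℝ) : (cv B).b x y = x ⬝ᵥ B *ᵥ y := by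
  show Matrix.toBilin' ((1/2 : ℝ) • (B - Bᵀ)) x y = _
  rw [Matrix.toBilin'_apply', hB]
  congr 2
  ext i j
  simp; ring

/-- the antisymmetric rank-two matrix `u wᵀ - w uᵀ` -/
def r2 (u w : ι → ℝ) : Matrix ι ι ℝ := vecMulVec u w - vecMulVec w u

theorem r2_t (u w : ι → ℝ) : (r2 u w)ᵀ = -r2 u w := by
  simp [r2, Matrix.transpose_vecMulVec]

theorem r2_mulVec (u w v : ι → ℝ) : r2 u w *ᵥ v = (w ⬝ᵥ v) • u - (u ⬝ᵥ v) • w := by
  simp [r2, Matrix.sub_mulVec, Matrix.vecMulVec_mulVec]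

theorem inv_anti {A : Matrix ι ι ℝ} (hA : Aᵀ = -A) : (A⁻¹)ᵀ = -A⁻¹ := by
  rw [Matrix.transpose_nonsing_inv, hA]
  by_cases h : IsUnit A.det
  · have h1 : (-A) * (-A⁻¹) = 1 := by rw [neg_mul_neg, Matrix.mul_nonsing_inv A h]
    exact Matrix.inv_eq_right_inv h1
  · have h2 : ¬ IsUnit (-A).det := by
      rw [Matrix.det_neg]
      intro h3
      exact h ((IsUnit.mul_iff.1 h3).2)
    rw [Matrix.nonsing_inv_apply_not_isUnit _ h, Matrix.nonsing_inv_apply_not_isUnit _ h2, neg_zero]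

/-- covariance `-A⁻¹` -/
def cI (A : Matrix ι ι ℝ) : Cov (ι → ℝ) := cv (-A⁻¹)

theorem cI_b {A : Matrix ι ι ℝ} (hA : Aᵀ = -A) (x y : ι → ℝ) :
    (cI A).b x y = -(x ⬝ᵥ A⁻¹ *ᵥ y) := by
  have h : (-A⁻¹)ᵀ = -(-A⁻¹) := by rw [Matrix.transpose_neg, inv_anti hA]
  rw [cI, cv_b h, Matrix.neg_mulVec, dotProduct_neg]

theorem cI_b' {A : Matrix ι ι ℝ} (hA : Aᵀ = -A) (x y : ι → ℝ) :
    (cI A).b x y = (A⁻¹ *ᵥ x) ⬝ᵥ y := by
  rw [cI_b hA, Matrix.dotProduct_mulVec, ← Matrix.mulVec_transpose, inv_anti hA,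
    Matrix.neg_mulVec, neg_dotProduct, neg_neg]

/-- one bilinear exponential -/
theorem reweight_one {A : Matrix ι ι ℝ} (hA : Aᵀ = -A) (hd : A.det ≠ 0) (y : ℝ) (u w : ι → ℝ)
    (hd' : (A + y • r2 u w).det ≠ 0) (F : Gr (ι → ℝ)) :
    EE (cI A) ((1 + y • (fi u * fi w)) * F)
      = EE (cI A) (1 + y • (fi u * fi w)) * EE (cI (A + y • r2 u w)) F := by
  have hA' : (A + y • r2 u w)ᵀ = -(A + y • r2 u w) := by
    rw [Matrix.transpose_add, hA, Matrix.transpose_smul, r2_t]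
    rw [smul_neg, neg_add]
  have hu : IsUnit A.det := isUnit_iff_ne_zero.2 hd
  have hu' : IsUnit (A + y • r2 u w).det := isUnit_iff_ne_zero.2 hd'
  refine reweight (cI A) (cI (A + y • r2 u w)) (y • (fi u * fi w)) _ (IsExp.bil y u w)
    (fun l => (y * l u) • w - (y * l w) • u) ?_ ?_ F
  · intro l
    rw [map_smul, dd_fi_mul, dd_fi, ← Algebra.commutes, ← Algebra.smul_def]
    rw [show fi ((y * l u) • w - (y * l w) • u) = (y * l u) • fi w - (y * l w) • fi u by
      simp [fi, map_sub, map_smul]]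
    rw [smul_sub, smul_smul, smul_smul]
  · intro z
    set v : ι → ℝ := (A + y • r2 u w)⁻¹ *ᵥ z with hv
    have hz : (A + y • r2 u w) *ᵥ v = z := by
      rw [hv, Matrix.mulVec_mulVec, Matrix.mul_nonsing_inv _ hu', Matrix.one_mulVec]
    refine ⟨A *ᵥ v, ?_, ?_⟩
    · have h1 : A⁻¹ *ᵥ (A *ᵥ v) = v := by
        rw [Matrix.mulVec_mulVec, Matrix.nonsing_inv_mul _ hu, Matrix.one_mulVec]
      rw [cI_b' hA, cI_b' hA, h1]
      rw [← hz, Matrix.add_mulVec, Matrix.smul_mulVec, r2_mulVec]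
      rw [dotProduct_comm v u, dotProduct_comm v w]
      rw [smul_sub, smul_smul, smul_smul]
      abel
    · ext i
      simp only [LinearMap.comp_apply]
      rw [cI_b' hA', cI_b' hA]
      congr 1
      rw [Matrix.mulVec_mulVec, Matrix.nonsing_inv_mul _ hu, Matrix.one_mulVec]

theorem det_r2 {A : Matrix ι ι ℝ} (hA : Aᵀ = -A) (hd : A.det ≠ 0) (y : ℝ) (u w : ι → ℝ) :
    (A + y • r2 u w).det = A.det * (1 + y * (cI A).b u w) ^ 2 := by
  have hu : IsUnit A.det := isUnit_iff_ne_zero.2 hd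
  -- factor
  let P : Matrix ι (Fin 2) ℝ := Matrix.of fun i j => if j = 0 then u i else w i
  let R : Matrix (Fin 2) ι ℝ := Matrix.of fun j i => if j = 0 then w i else -u i
  have hPR : P * R = r2 u w := by
    ext i j
    simp [P, R, r2, Matrix.mul_apply, Fin.sum_univ_two, vecMulVec_apply]
    ring
  have h1 : A + y • r2 u w = A * (1 + (y • (A⁻¹ * P)) * R) := by
    rw [Matrix.mul_add, Matrix.mul_one, Matrix.smul_mul, Matrix.mul_smul, Matrix.mul_assoc, hPR,
      ← Matrix.mul_assoc, Matrix.mul_nonsing_inv _ hu, Matrix.one_mul]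
  rw [h1, Matrix.det_mul, Matrix.det_one_add_mul_comm]
  congr 1
  have hs : ∀ x : ι → ℝ, x ⬝ᵥ A⁻¹ *ᵥ x = 0 := by
    intro x
    have := (cI A).alt x
    rw [cI_b hA] at this
    linarith
  have hsk : w ⬝ᵥ A⁻¹ *ᵥ u = -(u ⬝ᵥ A⁻¹ *ᵥ w) := by
    have := (cI A).skew w u
    rw [cI_b hA, cI_b hA] at this
    linarith
  have hM : R * (y • (A⁻¹ * P)) = Matrix.of ![![y * (w ⬝ᵥ A⁻¹ *ᵥ u), 0], ![0, y * (w ⬝ᵥ A⁻¹ *ᵥ u)]] := by
    have e : ∀ (a b : Fin 2), (R * (y • (A⁻¹ * P))) a b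
        = y * ((fun i => R a i) ⬝ᵥ A⁻¹ *ᵥ (fun i => P i b)) := by
      intro a b
      rw [Matrix.mul_smul, Matrix.smul_apply, smul_eq_mul, ← Matrix.mul_assoc]
      congr 1
      rw [Matrix.mul_assoc]
      simp only [Matrix.mul_apply, dotProduct, Matrix.mulVec]
    ext a b
    rw [e]
    fin_cases a <;> fin_cases b
    · simp [P, R]
    · have : w ⬝ᵥ A⁻¹ *ᵥ w = 0 := hs w
      simp [P, R, this]
    · have : (-u) ⬝ᵥ A⁻¹ *ᵥ u = 0 := by rw [neg_dotProduct, hs u, neg_zero]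
      have h2 : (fun i => -u i) = -u := rfl
      simp [P, R, h2, hs u]
    · have h2 : (fun i => -u i) = -u := rfl
      simp [P, R, h2, hsk]
  rw [hM, cI_b hA]
  rw [hsk]
  simp [Matrix.det_fin_two, Matrix.add_apply]
  ring

/-- ordered product of bilinear exponentials -/
def bE (L : List (ℝ × (ι → ℝ) × (ι → ℝ))) : Gr (ι → ℝ) :=
  (L.map fun t => 1 + t.1 • (fi t.2.1 * fi t.2.2)).prod

/-- accumulated matrix -/
def aL (A : Matrix ι ι ℝ) (L : List (ℝ × (ι → ℝ) × (ι → ℝ))) : Matrix ι ι ℝ :=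
  A + (L.map fun t => t.1 • r2 t.2.1 t.2.2).sum

omit [DecidableEq ι] [Fintype ι] in
@[simp] theorem bE_nil : bE ([] : List (ℝ × (ι → ℝ) × (ι → ℝ))) = 1 := rfl
omit [DecidableEq ι] [Fintype ι] in
theorem bE_cons (t : ℝ × (ι → ℝ) × (ι → ℝ)) (L : List (ℝ × (ι → ℝ) × (ι → ℝ))) :
    bE (t :: L) = (1 + t.1 • (fi t.2.1 * fi t.2.2)) * bE L := by simp [bE]
omit [DecidableEq ι] [Fintype ι] in
theorem aL_nil (A : Matrix ι ι ℝ) : aL A [] = A := by simp [aL]
omit [DecidableEq ι] [Fintype ι] in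
theorem aL_cons (A : Matrix ι ι ℝ) (t : ℝ × (ι → ℝ) × (ι → ℝ)) (L : List (ℝ × (ι → ℝ) × (ι → ℝ))) :
    aL A (t :: L) = aL (A + t.1 • r2 t.2.1 t.2.2) L := by
  simp [aL, add_assoc]

theorem anti_add {A : Matrix ι ι ℝ} (hA : Aᵀ = -A) (y : ℝ) (u w : ι → ℝ) :
    (A + y • r2 u w)ᵀ = -(A + y • r2 u w) := by
  rw [Matrix.transpose_add, hA, Matrix.transpose_smul, r2_t, smul_neg, neg_add]

theorem continuous_aL (A N : Matrix ι ι ℝ) (L : List (ℝ × (ι → ℝ) × (ι → ℝ))) :
    Continuous fun y : ℝ => (aL (A + y • N) L).det := by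
  apply Continuous.matrix_det
  unfold aL
  fun_prop

/-- **Pfaffian squared is the determinant.** -/
theorem pf_sq {A : Matrix ι ι ℝ} (hA : Aᵀ = -A) (hd : A.det ≠ 0)
    (L : List (ℝ × (ι → ℝ) × (ι → ℝ))) :
    (EE (cI A) (bE L)) ^ 2 * A.det = (aL A L).det := by
  induction L generalizing A with
  | nil => simp [aL_nil]
  | cons t L ih =>
    obtain ⟨y0, u, w⟩ := t
    rw [aL_cons, bE_cons]
    simp only
    -- both sides are continuous functions of `y0`
    let f : ℝ → ℝ := fun y => (EE (cI A) ((1 + y • (fi u * fi w)) * bE L)) ^ 2 * A.det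
    let g : ℝ → ℝ := fun y => (aL (A + y • r2 u w) L).det
    have hf : Continuous f := by
      have : f = fun y => (EE (cI A) (bE L) + y * EE (cI A) (fi u * fi w * bE L)) ^ 2 * A.det := by
        funext y
        simp only [f]
        rw [add_mul, one_mul, smul_mul_assoc, map_add, map_smul, smul_eq_mul]
      rw [this]
      fun_prop
    have hg : Continuous g := continuous_aL A _ L
    have hs : ∀ y : ℝ, EE (cI A) (1 + y • (fi u * fi w)) = 1 + y * (cI A).b u w := by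
      intro y
      rw [map_add, EE_one, map_smul, EE_fi_fi, smul_eq_mul]
    have heq : ∀ y : ℝ, 1 + y * (cI A).b u w ≠ 0 → f y = g y := by
      intro y hy
      have hd' : (A + y • r2 u w).det ≠ 0 := by
        rw [det_r2 hA hd]; exact mul_ne_zero hd (pow_ne_zero 2 hy)
      simp only [f, g]
      rw [reweight_one hA hd y u w hd', ← ih (anti_add hA y u w) hd', det_r2 hA hd, hs]
      ring
    have hdense : Dense {y : ℝ | 1 + y * (cI A).b u w ≠ 0} := by
      by_cases h0 : (cI A).b u w = 0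
      · simp [h0]
      · have : {y : ℝ | 1 + y * (cI A).b u w ≠ 0} = {-(1 / (cI A).b u w)}ᶜ := by
          ext y
          simp only [Set.mem_ofPred_eq, Set.mem_compl_iff, Set.mem_singleton_iff, ne_eq, not_iff_not]
          constructor
          · intro h; field_simp; linarith
          · intro h; rw [h]; field_simp; ring
        rw [this]
        exact dense_compl_singleton _
    have : f = g := Continuous.ext_on hdense hf hg (fun y hy => heq y hy)
    exact congrFun this y0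

/-- scaling of the list -/
def sc (t : ℝ) (L : List (ℝ × (ι → ℝ) × (ι → ℝ))) : List (ℝ × (ι → ℝ) × (ι → ℝ)) :=
  L.map fun a => (t * a.1, a.2)

omit [DecidableEq ι] [Fintype ι] in
theorem continuous_EE_sc (S : Cov (ι → ℝ)) (L : List (ℝ × (ι → ℝ) × (ι → ℝ))) (G : Gr (ι → ℝ)) :
    Continuous fun t : ℝ => EE S (G * bE (sc t L)) := by
  induction L generalizing G with
  | nil => simpa [sc] using continuous_const
  | cons a L ih =>
    have : (fun t : ℝ => EE S (G * bE (sc t (a :: L))))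
        = fun t => EE S (G * bE (sc t L)) + t * (a.1 * EE S (G * (fi a.2.1 * fi a.2.2) * bE (sc t L))) := by
      funext t
      have : sc t (a :: L) = (t * a.1, a.2) :: sc t L := rfl
      rw [this, bE_cons]
      simp only
      rw [← mul_assoc G, mul_add, mul_one, add_mul, map_add, mul_smul_comm, smul_mul_assoc,
        map_smul, smul_eq_mul]
      ring
    rw [this]
    have h1 := ih G
    have h2 := ih (G * (fi a.2.1 * fi a.2.2))
    fun_prop

omit [DecidableEq ι] [Fintype ι] in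
theorem sc_one (L : List (ℝ × (ι → ℝ) × (ι → ℝ))) : sc 1 L = L := by
  simp [sc]

omit [DecidableEq ι] [Fintype ι] in
theorem bE_sc_zero (L : List (ℝ × (ι → ℝ) × (ι → ℝ))) : bE (sc 0 L) = 1 := by
  induction L with
  | nil => rfl
  | cons a L ih =>
    have : sc 0 (a :: L) = (0 * a.1, a.2) :: sc 0 L := rfl
    rw [this, bE_cons, ih]; simp

/-- positivity along a path of nonsingular matrices -/
theorem EE_bE_pos {A : Matrix ι ι ℝ} (hA : Aᵀ = -A) (hd : A.det ≠ 0)
    (L : List (ℝ × (ι → ℝ) × (ι → ℝ))) (h : ∀ t ∈ Set.Icc (0:ℝ) 1, (aL A (sc t L)).det ≠ 0) :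
    0 < EE (cI A) (bE L) := by
  let f : ℝ → ℝ := fun t => EE (cI A) (bE (sc t L))
  have hf : Continuous f := by
    have := continuous_EE_sc (cI A) L 1
    simpa [f] using this
  have h0 : f 0 = 1 := by simp [f, bE_sc_zero]
  have h1 : f 1 = EE (cI A) (bE L) := by simp [f, sc_one]
  have hne : ∀ t ∈ Set.Icc (0:ℝ) 1, f t ≠ 0 := by
    intro t ht h2
    have := pf_sq hA hd (sc t L)
    simp only [f] at h2
    rw [h2] at this
    exact h t ht (by rw [← this]; ring)
  rw [← h1]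
  by_contra hcon
  have hle : f 1 ≤ 0 := not_lt.1 hcon
  have : (0:ℝ) ∈ f '' Set.Icc (0:ℝ) 1 := by
    have := intermediate_value_Icc' (show (0:ℝ) ≤ 1 by norm_num) hf.continuousOn
    exact this ⟨hle, by rw [h0]; norm_num⟩
  obtain ⟨t, ht, h3⟩ := this
  exact hne t ht h3

end Crest.Agent.R165.Pfx599
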