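import Mathlib
import Crest.Agent.R165.Pf_599
import Crest.Agent.R165.En_599

/-!
Row 165, leaf T3 (helper599): reweighting by a list of bilinear exponentials and the exact
formula when the total matrix has a two-dimensional kernel.
-/

set_option autoImplicit false
set_option linter.unusedSectionVars false

noncomputable section

namespace Crest.Agent.R165.PfZx599

open Crest.Agent.R165.Gr0x606 Crest.Agent.R165.Pfx599 Crest.Agent.R165.Enx599 Matrix

variable {ι : Type*} [Fintype ι] [DecidableEq ι]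

/-- the quadratic form of the list -/
def qL (L : List (ℝ × (ι → ℝ) × (ι → ℝ))) : Gr (ι → ℝ) :=
  (L.map fun t => t.1 • (fi t.2.1 * fi t.2.2)).sum

theorem isExp_bE (L : List (ℝ × (ι → ℝ) × (ι → ℝ))) : IsExp (qL L) (bE L) := by
  induction L with
  | nil => exact IsExp.one
  | cons t L ih =>
    rw [bE_cons]
    have : qL (t :: L) = t.1 • (fi t.2.1 * fi t.2.2) + qL L := by simp [qL]
    rw [this]
    exact IsExp.mul (IsExp.bil _ _ _) ih

/-- the accumulated antisymmetric matrix -/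
def mL (L : List (ℝ × (ι → ℝ) × (ι → ℝ))) : Matrix ι ι ℝ :=
  (L.map fun t => t.1 • r2 t.2.1 t.2.2).sum

theorem aL_eq (A : Matrix ι ι ℝ) (L : List (ℝ × (ι → ℝ) × (ι → ℝ))) : aL A L = A + mL L := rfl

theorem mL_t (L : List (ℝ × (ι → ℝ) × (ι → ℝ))) : (mL L)ᵀ = -mL L := by
  induction L with
  | nil => simp [mL]
  | cons t L ih =>
    have : mL (t :: L) = t.1 • r2 t.2.1 t.2.2 + mL L := by simp [mL]
    rw [this, Matrix.transpose_add, ih, Matrix.transpose_smul, r2_t, smul_neg, neg_add]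

theorem aL_t {A : Matrix ι ι ℝ} (hA : Aᵀ = -A) (L : List (ℝ × (ι → ℝ) × (ι → ℝ))) :
    (aL A L)ᵀ = -aL A L := by
  rw [aL_eq, Matrix.transpose_add, hA, mL_t, neg_add]

/-- derivative field of the quadratic form -/
def yL (L : List (ℝ × (ι → ℝ) × (ι → ℝ))) (l : Module.Dual ℝ (ι → ℝ)) : ι → ℝ :=
  (L.map fun t => (t.1 * l t.2.1) • t.2.2 - (t.1 * l t.2.2) • t.2.1).sum

theorem dd_qL (L : List (ℝ × (ι → ℝ) × (ι → ℝ))) (l : Module.Dual ℝ (ι → ℝ)) :
    dd l (qL L) = fi (yL L l) := by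
  induction L with
  | nil => simp [qL, yL]
  | cons t L ih =>
    have h1 : qL (t :: L) = t.1 • (fi t.2.1 * fi t.2.2) + qL L := by simp [qL]
    have h2 : yL (t :: L) l = ((t.1 * l t.2.1) • t.2.2 - (t.1 * l t.2.2) • t.2.1) + yL L l := by
      simp [yL]
    rw [h1, h2, map_add, ih, fi_add]
    congr 1
    rw [map_smul, dd_fi_mul, dd_fi, ← Algebra.commutes, ← Algebra.smul_def]
    rw [show fi ((t.1 * l t.2.1) • t.2.2 - (t.1 * l t.2.2) • t.2.1)
        = (t.1 * l t.2.1) • fi t.2.2 - (t.1 * l t.2.2) • fi t.2.1 by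
      simp [fi, map_sub, map_smul]]
    rw [smul_sub, smul_smul, smul_smul]

/-- dual functional `x ↦ v ⬝ x` -/
def dl (v : ι → ℝ) : Module.Dual ℝ (ι → ℝ) := dotProductBilin ℝ ℝ v

@[simp] theorem dl_apply (v x : ι → ℝ) : dl v x = v ⬝ᵥ x := rfl

theorem yL_dl (L : List (ℝ × (ι → ℝ) × (ι → ℝ))) (l : Module.Dual ℝ (ι → ℝ)) (v : ι → ℝ)
    (hl : ∀ x, l x = v ⬝ᵥ x) : yL L l = -(mL L *ᵥ v) := by
  induction L with
  | nil => simp [yL, mL]
  | cons t L ih =>
    have h1 : mL (t :: L) = t.1 • r2 t.2.1 t.2.2 + mL L := by simp [mL]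
    have h2 : yL (t :: L) l = ((t.1 * l t.2.1) • t.2.2 - (t.1 * l t.2.2) • t.2.1) + yL L l := by
      simp [yL]
    rw [h1, h2, ih, Matrix.add_mulVec, Matrix.smul_mulVec, r2_mulVec, neg_add, hl, hl,
      dotProduct_comm v, dotProduct_comm v, smul_sub, smul_smul, smul_smul]
    abel

/-- **reweighting by the whole list** -/
theorem reweight_list {A : Matrix ι ι ℝ} (hA : Aᵀ = -A) (hd : A.det ≠ 0)
    (L : List (ℝ × (ι → ℝ) × (ι → ℝ))) (hd' : (aL A L).det ≠ 0) (F : Gr (ι → ℝ)) :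
    EE (cI A) (bE L * F) = EE (cI A) (bE L) * EE (cI (aL A L)) F := by
  have hA' := aL_t hA L
  have hu : IsUnit A.det := isUnit_iff_ne_zero.2 hd
  have hu' : IsUnit (aL A L).det := isUnit_iff_ne_zero.2 hd'
  refine reweight (cI A) (cI (aL A L)) (qL L) _ (isExp_bE L) (yL L) (dd_qL L) ?_ F
  intro z
  set v : ι → ℝ := (aL A L)⁻¹ *ᵥ z with hv
  have hz : (aL A L) *ᵥ v = z := by
    rw [hv, Matrix.mulVec_mulVec, Matrix.mul_nonsing_inv _ hu', Matrix.one_mulVec]
  have h1 : A⁻¹ *ᵥ (A *ᵥ v) = v := by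
    rw [Matrix.mulVec_mulVec, Matrix.nonsing_inv_mul _ hu, Matrix.one_mulVec]
  refine ⟨A *ᵥ v, ?_, ?_⟩
  · rw [yL_dl L _ v (fun x => by rw [cI_b' hA, h1]), ← hz, aL_eq, Matrix.add_mulVec, sub_neg_eq_add]
  · ext i
    simp only [LinearMap.comp_apply]
    rw [cI_b' hA', cI_b' hA, h1]

/-- Gaussian convolution with a rank-two covariance -/
theorem conv_wedge (l m : Module.Dual ℝ (ι → ℝ)) (F : Gr (ι → ℝ)) :
    conv (wedge l m) F = F + dd m (dd l F) := by
  induction F using Gr.induction with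
  | h0 r => simp
  | h1 x a ih =>
    have hb : (wedge l m).b x = l x • m - m x • l := by
      ext i; simp [wedge]
    rw [conv_fi_mul, ih, hb, dd_fi_mul, map_sub, map_smul, dd_fi_mul]
    have e1 : ∀ c : Gr (ι → ℝ), dd (l x • m - m x • l) c = l x • dd m c - m x • dd l c := by
      intro c; simp [dd, sub_eq_add_neg]
    rw [e1, map_add, map_add, dd_dd_self m, dd_dd_anti l m (dd l a), dd_dd_self l a]
    simp only [add_zero, map_zero, neg_zero, mul_add]
    abel
  | h2 a b iha ihb => simp only [map_add, iha, ihb]; abel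

/-- data of a two-dimensional kernel with a pseudo-inverse -/
structure Ker2 (A B : Matrix ι ι ℝ) (u1 u2 : ι → ℝ) : Prop where
  anti : Aᵀ = -A
  banti : Bᵀ = -B
  a1 : A *ᵥ u1 = 0
  a2 : A *ᵥ u2 = 0
  b1 : B *ᵥ u1 = 0
  b2 : B *ᵥ u2 = 0
  n1 : u1 ⬝ᵥ u1 = 1
  n2 : u2 ⬝ᵥ u2 = 1
  o : u1 ⬝ᵥ u2 = 0
  ab : A * B = 1 - vecMulVec u1 u1 - vecMulVec u2 u2

theorem Ker2.mul_inv {A B : Matrix ι ι ℝ} {u1 u2 : ι → ℝ} (h : Ker2 A B u1 u2) {t : ℝ}
    (ht : t ≠ 0) : (A + t • r2 u1 u2) * (B + t⁻¹ • r2 u2 u1) = 1 := by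
  have e1 : A * r2 u2 u1 = 0 := by
    rw [r2, Matrix.mul_sub, Matrix.mul_vecMulVec, Matrix.mul_vecMulVec, h.a1, h.a2]
    ext i j; simp
  have e2 : r2 u1 u2 * B = 0 := by
    have hb : ∀ u : ι → ℝ, B *ᵥ u = 0 → u ᵥ* B = 0 := by
      intro u hu
      rw [← Matrix.mulVec_transpose, h.banti, Matrix.neg_mulVec, hu, neg_zero]
    rw [r2, Matrix.sub_mul, Matrix.vecMulVec_mul, Matrix.vecMulVec_mul, hb _ h.b1, hb _ h.b2]
    ext i j; simp
  have e3 : r2 u1 u2 * r2 u2 u1 = vecMulVec u1 u1 + vecMulVec u2 u2 := by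
    have h21 : u2 ⬝ᵥ u1 = 0 := by rw [dotProduct_comm]; exact h.o
    simp only [r2, Matrix.sub_mul, Matrix.mul_sub, Matrix.vecMulVec_mul_vecMulVec, h.n1, h.n2, h.o,
      h21]
    simp
  rw [Matrix.add_mul, Matrix.mul_add, Matrix.mul_add, Matrix.mul_smul, e1, smul_zero,
    Matrix.smul_mul, e2, smul_zero, Matrix.smul_mul, Matrix.mul_smul, smul_smul,
    mul_inv_cancel₀ ht, one_smul, e3, h.ab]
  abel

/-- **the exact formula in the presence of two zero modes.** -/
theorem zero_mode {A0 : Matrix ι ι ℝ} (hA0 : A0ᵀ = -A0) (hd0 : A0.det ≠ 0)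
    (L : List (ℝ × (ι → ℝ) × (ι → ℝ))) {B : Matrix ι ι ℝ} {u1 u2 : ι → ℝ}
    (h : Ker2 (aL A0 L) B u1 u2) (F : Gr (ι → ℝ)) :
    EE (cI A0) (bE L * F)
      = EE (cI A0) (bE L * (fi u1 * fi u2)) * EE (cv (-B)) (dd (dl u2) (dd (dl u1) F)) := by
  -- vanishing of the partition function
  have hdet : (aL A0 L).det = 0 := by
    by_contra hne
    have hun : IsUnit (aL A0 L).det := isUnit_iff_ne_zero.2 hne
    have : u1 = 0 := by
      have := congrArg (fun v => (aL A0 L)⁻¹ *ᵥ v) h.a1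
      simp only [Matrix.mulVec_mulVec, Matrix.nonsing_inv_mul _ hun, Matrix.one_mulVec,
        Matrix.mulVec_zero] at this
      exact this
    have h1 := h.n1
    rw [this] at h1
    simp at h1
  have hZ0 : EE (cI A0) (bE L) = 0 := by
    have := pf_sq hA0 hd0 L
    rw [hdet] at this
    have := (mul_eq_zero.1 this).resolve_right hd0
    exact pow_eq_zero_iff (two_ne_zero) |>.1 this
  -- the perturbed identity
  have key : ∀ t : ℝ, t ≠ 0 →
      EE (cI A0) (bE L * F) + t * EE (cI A0) (bE L * (fi u1 * fi u2) * F)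
        = t * EE (cI A0) (bE L * (fi u1 * fi u2)) * EE (cv (-B)) F
          + EE (cI A0) (bE L * (fi u1 * fi u2)) * EE (cv (-B)) (dd (dl u2) (dd (dl u1) F)) := by
    intro t ht
    have hmi := h.mul_inv ht
    have hdt : (aL A0 (L ++ [(t, u1, u2)])).det ≠ 0 := by
      have e : aL A0 (L ++ [(t, u1, u2)]) = aL A0 L + t • r2 u1 u2 := by
        simp [aL, add_assoc]
      rw [e]
      have := congrArg Matrix.det hmi
      rw [Matrix.det_mul, Matrix.det_one] at this
      exact left_ne_zero_of_mul_eq_one this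
    have e : aL A0 (L ++ [(t, u1, u2)]) = aL A0 L + t • r2 u1 u2 := by
      simp [aL, add_assoc]
    have e2 : bE (L ++ [(t, u1, u2)]) = bE L * (1 + t • (fi u1 * fi u2)) := by
      simp [bE]
    have h1 := reweight_list hA0 hd0 (L ++ [(t, u1, u2)]) hdt F
    have hcov : cI (aL A0 (L ++ [(t, u1, u2)])) = cv (-B) + wedge (t⁻¹ • dl u1) (dl u2) := by
      have hanti : (aL A0 (L ++ [(t, u1, u2)]))ᵀ = -aL A0 (L ++ [(t, u1, u2)]) := aL_t hA0 _
      have hinv : (aL A0 (L ++ [(t, u1, u2)]))⁻¹ = B + t⁻¹ • r2 u2 u1 := by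
        rw [e]; exact Matrix.inv_eq_right_inv hmi
      have hnb : (-B)ᵀ = -(-B) := by rw [Matrix.transpose_neg, h.banti]
      apply Cov.ext
      refine LinearMap.ext₂ fun x y => ?_
      rw [cI_b hanti, hinv, Cov.add_b, LinearMap.add_apply, LinearMap.add_apply, cv_b hnb,
        wedge_b, Matrix.add_mulVec, Matrix.smul_mulVec, r2_mulVec, Matrix.neg_mulVec]
      simp only [dotProduct_add, dotProduct_neg, dotProduct_smul, dotProduct_sub, smul_eq_mul,
        LinearMap.smul_apply, dl_apply]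
      rw [dotProduct_comm x u1, dotProduct_comm x u2]
      ring
    rw [hcov, e2, ← EE_conv, conv_wedge] at h1
    rw [mul_add (bE L), mul_one, add_mul, map_add, mul_smul_comm, smul_mul_assoc, map_smul,
      map_add, map_smul, hZ0, zero_add, smul_eq_mul, smul_eq_mul, map_add] at h1
    rw [h1]
    have hs : dd (dl u2) (dd (t⁻¹ • dl u1) F) = t⁻¹ • dd (dl u2) (dd (dl u1) F) := by
      rw [dd_smul_left, map_smul]
    rw [hs, map_smul, smul_eq_mul]
    field_simp
  have k1 := key 1 one_ne_zero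
  have k2 := key 2 two_ne_zero
  linarith

/-- the square of the reduced partition function -/
theorem zero_mode_sq {A0 : Matrix ι ι ℝ} (hA0 : A0ᵀ = -A0) (hd0 : A0.det ≠ 0)
    (L : List (ℝ × (ι → ℝ) × (ι → ℝ))) {B : Matrix ι ι ℝ} {u1 u2 : ι → ℝ}
    (h : Ker2 (aL A0 L) B u1 u2) (t : ℝ) :
    t ^ 2 * (EE (cI A0) (bE L * (fi u1 * fi u2))) ^ 2 * A0.det
      = (aL A0 L + t • r2 u1 u2).det := by
  have hdet : (aL A0 L).det = 0 := by
    by_contra hne
    have hun : IsUnit (aL A0 L).det := isUnit_iff_ne_zero.2 hne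
    have : u1 = 0 := by
      have := congrArg (fun v => (aL A0 L)⁻¹ *ᵥ v) h.a1
      simp only [Matrix.mulVec_mulVec, Matrix.nonsing_inv_mul _ hun, Matrix.one_mulVec,
        Matrix.mulVec_zero] at this
      exact this
    have h1 := h.n1
    rw [this] at h1
    simp at h1
  have hZ0 : EE (cI A0) (bE L) = 0 := by
    have := pf_sq hA0 hd0 L
    rw [hdet] at this
    have := (mul_eq_zero.1 this).resolve_right hd0
    exact pow_eq_zero_iff (two_ne_zero) |>.1 this
  have e : aL A0 (L ++ [(t, u1, u2)]) = aL A0 L + t • r2 u1 u2 := by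
    simp [aL, add_assoc]
  have e2 : bE (L ++ [(t, u1, u2)]) = bE L * (1 + t • (fi u1 * fi u2)) := by
    simp [bE]
  have h1 := pf_sq hA0 hd0 (L ++ [(t, u1, u2)])
  rw [e, e2, mul_add (bE L), mul_one, mul_smul_comm, map_add, map_smul, hZ0, zero_add,
    smul_eq_mul] at h1
  rw [← h1]; ring

end Crest.Agent.R165.PfZx599
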