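import Mathlib

/-!
Row 165, leaf T2b (helper599): the half-edge matrix on the torus `ZMod M × ZMod M` in the four
sectors, its Fourier block form and determinant.
-/

set_option autoImplicit false
set_option linter.unusedSectionVars false
set_option linter.unusedVariables false

noncomputable section

namespace Crest.Agent.R165.TorDetx599

open Matrix Complex

/-- half-edges over a group: face, direction (0,1,2,3 = S,E,N,W) -/
abbrev HE (G : Type*) : Type _ := (G × G) × Fin 4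

/-- intra-face antisymmetric matrix `+1` above the diagonal -/
def sgn4 (a b : Fin 4) : ℝ := if a < b then 1 else if b < a then -1 else 0

variable {G : Type*} [AddCommGroupWithOne G] [DecidableEq G]

/-- the half-edge matrix with signed bond weights `w z j`
(`j = 1`: vertical primal bond at `z`, between the faces `z - e₁` and `z`;
`j = 0`: horizontal primal bond at `z`, between the faces `z - e₂` and `z`). -/
def hA (w : G × G → Fin 2 → ℝ) : Matrix (HE G) (HE G) ℝ := Matrix.of fun h k =>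
  (if h.1 = k.1 then sgn4 h.2 k.2 else 0)
  + ((if h.2 = 1 ∧ k.2 = 3 ∧ k.1 = h.1 + (1, 0) then w k.1 1 else 0)
    - (if h.2 = 3 ∧ k.2 = 1 ∧ h.1 = k.1 + (1, 0) then w h.1 1 else 0))
  + ((if h.2 = 0 ∧ k.2 = 2 ∧ h.1 = k.1 + (0, 1) then w h.1 0 else 0)
    - (if h.2 = 2 ∧ k.2 = 0 ∧ k.1 = h.1 + (0, 1) then w k.1 0 else 0))

theorem hA_t (w : G × G → Fin 2 → ℝ) : (hA w)ᵀ = -hA w := by
  ext h k
  simp only [Matrix.transpose_apply, hA, Matrix.of_apply, Matrix.neg_apply]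
  have e1 : (if k.1 = h.1 then sgn4 k.2 h.2 else 0) = -(if h.1 = k.1 then sgn4 h.2 k.2 else 0) := by
    by_cases hh : h.1 = k.1
    · rw [if_pos hh, if_pos hh.symm]
      unfold sgn4
      rcases lt_trichotomy h.2 k.2 with h1 | h1 | h1
      · simp [h1, not_lt.2 h1.le]
      · simp [h1]
      · simp [h1, not_lt.2 h1.le]
    · rw [if_neg hh, if_neg (fun h' => hh h'.symm), neg_zero]
  rw [e1]
  have c1 : (k.2 = 1 ∧ h.2 = 3 ∧ h.1 = k.1 + (1, 0)) ↔ (h.2 = 3 ∧ k.2 = 1 ∧ h.1 = k.1 + (1, 0)) := by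
    tauto
  have c2 : (k.2 = 3 ∧ h.2 = 1 ∧ k.1 = h.1 + (1, 0)) ↔ (h.2 = 1 ∧ k.2 = 3 ∧ k.1 = h.1 + (1, 0)) := by
    tauto
  have c3 : (k.2 = 0 ∧ h.2 = 2 ∧ k.1 = h.1 + (0, 1)) ↔ (h.2 = 2 ∧ k.2 = 0 ∧ k.1 = h.1 + (0, 1)) := by
    tauto
  have c4 : (k.2 = 2 ∧ h.2 = 0 ∧ h.1 = k.1 + (0, 1)) ↔ (h.2 = 0 ∧ k.2 = 2 ∧ h.1 = k.1 + (0, 1)) := by
    tauto
  simp only [c1, c2, c3, c4]
  ring

/-- the symbol -/
def symb (x : ℝ) (z z' w w' : ℂ) : Matrix (Fin 4) (Fin 4) ℂ :=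
  !![0, 1, 1 + x * w', 1;
     -1, 0, 1, 1 + x * z;
     -(1 + x * w), -1, 0, 1;
     -1, -(1 + x * z'), -1, 0]

theorem det_symb (x : ℝ) (z z' w w' : ℂ) (hz : z * z' = 1) (hw : w * w' = 1) :
    (symb x z z' w w').det = (1 + x ^ 2) ^ 2 - x * (1 - x ^ 2) * (z + z' + (w + w')) := by
  have h : (symb x z z' w w').det = 4 - ((1 + x * z) + (1 + x * z')) * ((1 + x * w) + (1 + x * w'))
      + ((1 + x * z) * (1 + x * z')) * ((1 + x * w) * (1 + x * w')) := by
    have a1 : Fin.succAbove (1 : Fin 4) (2 : Fin 3) = 3 := rfl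
    have a2 : Fin.succAbove (2 : Fin 4) (2 : Fin 3) = 3 := rfl
    have a3 : Fin.succAbove (3 : Fin 4) (2 : Fin 3) = 2 := rfl
    simp [symb, Matrix.det_succ_row_zero, Fin.sum_univ_succ, a1, a2, a3]
    ring
  rw [h]
  have e1 : (1 + (x:ℂ) * z) * (1 + x * z') = 1 + x * (z + z') + x ^ 2 := by
    linear_combination (x:ℂ) ^ 2 * hz
  have e2 : (1 + (x:ℂ) * w) * (1 + x * w') = 1 + x * (w + w') + x ^ 2 := by
    linear_combination (x:ℂ) ^ 2 * hw
  rw [e1, e2]; ring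

variable (M : ℕ) [NeZero M]

/-- sector weights: seam signs `ε₁` (first coordinate), `ε₂` (second coordinate) -/
def wS (x ε₁ ε₂ : ℝ) (z : ZMod M × ZMod M) (j : Fin 2) : ℝ :=
  x * (if j = 1 then (if z.1 = 0 then ε₁ else 1) else (if z.2 = 0 then ε₂ else 1))

/-- twisted plane wave -/
def pw (θ : ℝ) (k i : ZMod M) : ℂ := Complex.exp (((2 * Real.pi * k.val + θ) / M * i.val : ℝ) * I)

/-- its multiplier -/
def ph (θ : ℝ) (k : ZMod M) : ℂ := Complex.exp (((2 * Real.pi * k.val + θ) / M : ℝ) * I)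

theorem ph_ne (θ : ℝ) (k : ZMod M) : ph M θ k ≠ 0 := Complex.exp_ne_zero _

theorem pw_ne (θ : ℝ) (k i : ZMod M) : pw M θ k i ≠ 0 := Complex.exp_ne_zero _

/-- seam sign -/
def sm (ε : ℝ) (i : ZMod M) : ℝ := if i = 0 then ε else 1

theorem val_add_one (i : ZMod M) : (i + 1).val = if i + 1 = 0 then 0 else i.val + 1 := by
  split_ifs with h
  · rw [h, ZMod.val_zero]
  · rcases Nat.lt_or_ge 1 M with hM | hM
    · have : Fact (1 < M) := ⟨hM⟩
      have h1 : (1 : ZMod M).val = 1 := ZMod.val_one M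
      have : i.val + (1 : ZMod M).val < M := by
        rw [h1]
        by_contra hcon
        have hi := ZMod.val_lt i
        have e : i.val + 1 = M := by omega
        apply h
        have : ((i.val + 1 : ℕ) : ZMod M) = 0 := by rw [e]; simp
        simpa using this
      rw [ZMod.val_add_of_lt this, h1]
    · exfalso
      have : M = 1 := by
        have := NeZero.pos M; omega
      subst this
      exact h (Subsingleton.elim _ _)

theorem val_neg_one_of (i : ZMod M) (h : i + 1 = 0) : i.val + 1 = M := by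
  have h1 : ((i.val + 1 : ℕ) : ZMod M) = 0 := by simpa using h
  have h2 : M ∣ i.val + 1 := (ZMod.natCast_eq_zero_iff _ _).1 h1
  have h3 := ZMod.val_lt i
  have h4 := Nat.le_of_dvd (Nat.succ_pos _) h2
  omega

/-- shift relation -/
theorem pw_succ (θ ε : ℝ) (hε : Complex.exp (θ * I) = ε) (hε2 : ε * ε = 1) (k i : ZMod M) :
    (sm M ε (i + 1) : ℂ) * pw M θ k (i + 1) = ph M θ k * pw M θ k i := by
  have hM : (M:ℂ) ≠ 0 := by exact_mod_cast NeZero.ne M
  unfold sm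
  split_ifs with h
  · have h1 := val_neg_one_of M i h
    have h2 : (i + 1).val = 0 := by rw [h, ZMod.val_zero]
    have h3 : (i.val : ℂ) = M - 1 := by
      have : (i.val : ℂ) + 1 = M := by exact_mod_cast h1
      linear_combination this
    rw [pw, ph, pw, h2, ← Complex.exp_add]
    have e : (((2 * Real.pi * k.val + θ) / M : ℝ) * I + ((2 * Real.pi * k.val + θ) / M * i.val : ℝ) * I : ℂ)
        = (k.val : ℕ) * (2 * Real.pi * I) + θ * I := by
      push_cast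
      rw [h3]
      field_simp
      ring
    rw [e, Complex.exp_add, Complex.exp_nat_mul_two_pi_mul_I, hε]
    simp
  · have h2 : (i + 1).val = i.val + 1 := by rw [val_add_one, if_neg h]
    rw [pw, ph, pw, h2, ← Complex.exp_add]
    rw [show ((1:ℝ):ℂ) = 1 by simp, one_mul]
    congr 1
    push_cast; ring

/-- inverse shift relation -/
theorem pw_pred (θ ε : ℝ) (hε : Complex.exp (θ * I) = ε) (hε2 : ε * ε = 1) (k i : ZMod M) :
    (sm M ε i : ℂ) * pw M θ k (i - 1) = (ph M θ k)⁻¹ * pw M θ k i := by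
  have h := pw_succ M θ ε hε hε2 k (i - 1)
  rw [sub_add_cancel] at h
  have hs : (sm M ε i : ℂ) * (sm M ε i : ℂ) = 1 := by
    unfold sm
    split_ifs
    · exact_mod_cast hε2
    · simp
  have h1 : pw M θ k (i - 1) = (ph M θ k)⁻¹ * ((sm M ε i : ℂ) * pw M θ k i) := by
    rw [h, ← mul_assoc, inv_mul_cancel₀ (ph_ne M θ k), one_mul]
  rw [h1]
  linear_combination ((ph M θ k)⁻¹ * pw M θ k i) * hs

/-- orthogonality in the position variables -/
theorem sum_pw (θ : ℝ) (i j : ZMod M) :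
    ∑ k : ZMod M, pw M θ k i * (pw M θ k j)⁻¹ = if i = j then (M:ℂ) else 0 := by
  split_ifs with h
  · subst h
    simp [mul_inv_cancel₀ (pw_ne M θ _ i), ZMod.card]
  · have hM : (M:ℂ) ≠ 0 := by exact_mod_cast NeZero.ne M
    -- multiplier
    set r : ℂ := Complex.exp ((2 * Real.pi * ((i.val:ℝ) - j.val) / M : ℝ) * I) with hr
    have e : ∀ k : ZMod M, pw M θ k i * (pw M θ k j)⁻¹
        = Complex.exp ((θ * ((i.val:ℝ) - j.val) / M : ℝ) * I) * r ^ k.val := by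
      intro k
      rw [pw, pw, ← Complex.exp_neg, ← Complex.exp_add, hr, ← Complex.exp_nat_mul, ← Complex.exp_add]
      congr 1
      push_cast
      ring
    rw [Finset.sum_congr rfl fun k _ => e k, ← Finset.mul_sum]
    have hsum : ∑ k : ZMod M, r ^ k.val = ∑ k ∈ Finset.range M, r ^ k := by
      refine Finset.sum_nbij (fun k : ZMod M => k.val) ?_ ?_ ?_ ?_
      · intro k _; exact Finset.mem_range.2 (ZMod.val_lt k)
      · intro a _ b _ hab; exact ZMod.val_injective M hab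
      · intro k hk
        have hk' : k < M := by simpa using hk
        exact ⟨(k : ZMod M), by simp, ZMod.val_cast_of_lt hk'⟩
      · intro k _; rfl
    have hr1 : r ≠ 1 := by
      intro h1
      rw [hr, Complex.exp_eq_one_iff] at h1
      obtain ⟨n, hn⟩ := h1
      have h2 : ((i.val:ℝ) - j.val) = n * M := by
        have hpi : (Real.pi : ℂ) ≠ 0 := by exact_mod_cast Real.pi_ne_zero
        have hI := Complex.I_ne_zero
        have : (((i.val:ℝ) - j.val : ℝ) : ℂ) = ((n * M : ℝ) : ℂ) := by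
          push_cast at hn ⊢
          field_simp at hn
          have h3 : (2 * (Real.pi:ℂ)) ≠ 0 := mul_ne_zero two_ne_zero hpi
          linear_combination hn
        exact_mod_cast this
      have h3 : (i.val : ℤ) - j.val = n * M := by exact_mod_cast h2
      apply h
      have h4 : (((i.val : ℤ) - j.val : ℤ) : ZMod M) = 0 := by
        rw [h3]; push_cast; simp
      push_cast at h4
      rw [ZMod.natCast_zmod_val, ZMod.natCast_zmod_val] at h4
      exact sub_eq_zero.1 h4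
    have hrM : r ^ M = 1 := by
      rw [hr, ← Complex.exp_nat_mul]
      have : (M:ℂ) * ((2 * Real.pi * ((i.val:ℝ) - j.val) / M : ℝ) * I)
          = ((i.val : ℤ) - (j.val : ℤ) : ℤ) * (2 * Real.pi * I) := by
        push_cast; field_simp
      rw [this, Complex.exp_int_mul_two_pi_mul_I]
    have hg := mul_neg_geom_sum r M
    rw [hrM, sub_self] at hg
    have hz : ∑ k ∈ Finset.range M, r ^ k = 0 := by
      rcases mul_eq_zero.1 hg with h1 | h1
      · exact absurd (sub_eq_zero.1 h1).symm hr1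
      · exact h1
    rw [hsum, hz, mul_zero]

/-- one-dimensional wave matrix -/
def U1 (θ : ℝ) : Matrix (ZMod M) (ZMod M) ℂ := Matrix.of fun i k => pw M θ k i

theorem det_U1 (θ : ℝ) : (U1 M θ).det ≠ 0 := by
  have hM : (M:ℂ) ≠ 0 := by exact_mod_cast NeZero.ne M
  have h : U1 M θ * (Matrix.of fun k j => (pw M θ k j)⁻¹) = (M:ℂ) • (1 : Matrix (ZMod M) (ZMod M) ℂ) := by
    ext i j
    simp only [U1, Matrix.mul_apply, Matrix.of_apply, Matrix.smul_apply, Matrix.one_apply]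
    rw [sum_pw]
    split_ifs <;> simp
  have := congrArg Matrix.det h
  rw [Matrix.det_mul, Matrix.det_smul, Matrix.det_one, mul_one] at this
  intro h0
  rw [h0, zero_mul] at this
  exact pow_ne_zero _ hM this.symm

/-- wave matrix on half-edges -/
def U4 (θ₁ θ₂ : ℝ) : Matrix (HE (ZMod M)) (HE (ZMod M)) ℂ := Matrix.of fun h k =>
  if h.2 = k.2 then pw M θ₁ k.1.1 h.1.1 * pw M θ₂ k.1.2 h.1.2 else 0

theorem U4_eq (θ₁ θ₂ : ℝ) : U4 M θ₁ θ₂
    = Matrix.kroneckerMap (· * ·) (Matrix.kroneckerMap (· * ·) (U1 M θ₁) (U1 M θ₂))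
      (1 : Matrix (Fin 4) (Fin 4) ℂ) := by
  ext h k
  simp only [U4, Matrix.of_apply, Matrix.kroneckerMap_apply, U1, Matrix.one_apply]
  split_ifs <;> simp

theorem det_U4 (θ₁ θ₂ : ℝ) : (U4 M θ₁ θ₂).det ≠ 0 := by
  rw [U4_eq]
  rw [Matrix.det_kronecker, Matrix.det_kronecker, Matrix.det_one, one_pow, mul_one]
  exact pow_ne_zero _ (mul_ne_zero (pow_ne_zero _ (det_U1 M θ₁)) (pow_ne_zero _ (det_U1 M θ₂)))

/-- block matrix in Fourier space -/
def blk (T : ZMod M × ZMod M → Matrix (Fin 4) (Fin 4) ℂ) : Matrix (HE (ZMod M)) (HE (ZMod M)) ℂ :=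
  Matrix.of fun h k => if h.1 = k.1 then T h.1 h.2 k.2 else 0

theorem det_blk (T : ZMod M × ZMod M → Matrix (Fin 4) (Fin 4) ℂ) :
    (blk M T).det = ∏ p : ZMod M × ZMod M, (T p).det := by
  rw [← Matrix.det_blockDiagonal T]
  rw [← Matrix.det_submatrix_equiv_self (Equiv.prodComm (ZMod M × ZMod M) (Fin 4))
    (Matrix.blockDiagonal T)]
  congr 1

/-- determinant from an intertwining relation -/
theorem det_of_intertwine (θ₁ θ₂ : ℝ) (A : Matrix (HE (ZMod M)) (HE (ZMod M)) ℂ)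
    (T : ZMod M × ZMod M → Matrix (Fin 4) (Fin 4) ℂ) (h : A * U4 M θ₁ θ₂ = U4 M θ₁ θ₂ * blk M T) :
    A.det = ∏ p : ZMod M × ZMod M, (T p).det := by
  have := congrArg Matrix.det h
  rw [Matrix.det_mul, Matrix.det_mul, mul_comm] at this
  rw [← det_blk]
  exact mul_left_cancel₀ (det_U4 M θ₁ θ₂) this

theorem U4_mul_blk (θ₁ θ₂ : ℝ) (T : ZMod M × ZMod M → Matrix (Fin 4) (Fin 4) ℂ)
    (h k : HE (ZMod M)) : (U4 M θ₁ θ₂ * blk M T) h k
      = pw M θ₁ k.1.1 h.1.1 * pw M θ₂ k.1.2 h.1.2 * T k.1 h.2 k.2 := by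
  rw [Matrix.mul_apply, Fintype.sum_prod_type, Finset.sum_eq_single k.1]
  · rw [Finset.sum_eq_single h.2]
    · simp [U4, blk]
    · intro b _ hb; simp [U4]
      intro h'; exact absurd h'.symm hb
    · intro h'; exact absurd (Finset.mem_univ _) h'
  · intro p _ hp
    refine Finset.sum_eq_zero fun a _ => ?_
    simp [blk, hp]
  · intro h'; exact absurd (Finset.mem_univ _) h'

theorem mul_U4 (θ₁ θ₂ : ℝ) (A : Matrix (HE (ZMod M)) (HE (ZMod M)) ℂ)
    (h k : HE (ZMod M)) : (A * U4 M θ₁ θ₂) h k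
      = ∑ f : ZMod M × ZMod M, A h (f, k.2) * (pw M θ₁ k.1.1 f.1 * pw M θ₂ k.1.2 f.2) := by
  rw [Matrix.mul_apply, Fintype.sum_prod_type]
  refine Finset.sum_congr rfl fun f _ => ?_
  rw [Finset.sum_eq_single k.2]
  · simp [U4]
  · intro b _ hb; simp [U4, hb]
  · intro h'; exact absurd (Finset.mem_univ _) h'

/-- the sector symbol -/
def sS (x θ₁ θ₂ : ℝ) (p : ZMod M × ZMod M) : Matrix (Fin 4) (Fin 4) ℂ :=
  symb x (ph M θ₁ p.1) (ph M θ₁ p.1)⁻¹ (ph M θ₂ p.2) (ph M θ₂ p.2)⁻¹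

theorem intertwine (x θ₁ θ₂ ε₁ ε₂ : ℝ) (h1 : Complex.exp (θ₁ * I) = ε₁) (h1' : ε₁ * ε₁ = 1)
    (h2 : Complex.exp (θ₂ * I) = ε₂) (h2' : ε₂ * ε₂ = 1) :
    (hA (wS M x ε₁ ε₂)).map ((↑) : ℝ → ℂ) * U4 M θ₁ θ₂ = U4 M θ₁ θ₂ * blk M (sS M x θ₁ θ₂) := by
  ext h k
  rw [mul_U4, U4_mul_blk]
  obtain ⟨⟨i, j⟩, a⟩ := h
  obtain ⟨⟨p, q⟩, b⟩ := k
  set P := pw M θ₁ p with hP
  set Q := pw M θ₂ q with hQ
  simp only [Matrix.map_apply, hA, Matrix.of_apply]
  have s1 := pw_succ M θ₁ ε₁ h1 h1' p i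
  have s2 := pw_pred M θ₁ ε₁ h1 h1' p i
  have s3 := pw_succ M θ₂ ε₂ h2 h2' q j
  have s4 := pw_pred M θ₂ ε₂ h2 h2' q j
  -- split the sum in five parts
  have hsplit : ∀ f : ZMod M × ZMod M,
      (((if (i, j) = f then sgn4 a b else 0)
        + ((if a = 1 ∧ b = 3 ∧ f = (i, j) + (1, 0) then wS M x ε₁ ε₂ f 1 else 0)
          - (if a = 3 ∧ b = 1 ∧ (i, j) = f + (1, 0) then wS M x ε₁ ε₂ (i, j) 1 else 0))
        + ((if a = 0 ∧ b = 2 ∧ (i, j) = f + (0, 1) then wS M x ε₁ ε₂ (i, j) 0 else 0)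
          - (if a = 2 ∧ b = 0 ∧ f = (i, j) + (0, 1) then wS M x ε₁ ε₂ f 0 else 0)) : ℝ) : ℂ)
        * (P f.1 * Q f.2)
      = (if f = (i, j) then (sgn4 a b : ℂ) * (P i * Q j) else 0)
        + (if f = (i + 1, j) then (if a = 1 ∧ b = 3 then (x:ℂ) * ((sm M ε₁ (i + 1) : ℂ) * P (i + 1)) * Q j else 0) else 0)
        - (if f = (i - 1, j) then (if a = 3 ∧ b = 1 then (x:ℂ) * ((sm M ε₁ i : ℂ) * P (i - 1)) * Q j else 0) else 0)
        + (if f = (i, j - 1) then (if a = 0 ∧ b = 2 then (x:ℂ) * ((sm M ε₂ j : ℂ) * Q (j - 1)) * P i else 0) else 0)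
        - (if f = (i, j + 1) then (if a = 2 ∧ b = 0 then (x:ℂ) * ((sm M ε₂ (j + 1) : ℂ) * Q (j + 1)) * P i else 0) else 0) := by
    intro f
    obtain ⟨f1, f2⟩ := f
    have c1 : ((i, j) = (f1, f2)) ↔ ((f1, f2) = (i, j)) := eq_comm
    have c2 : ((f1, f2) = (i, j) + (1, 0)) ↔ ((f1, f2) = (i + 1, j)) := by simp
    have c3 : ((i, j) = (f1, f2) + (1, 0)) ↔ ((f1, f2) = (i - 1, j)) := by
      simp only [Prod.mk_add_mk, add_zero, Prod.mk.injEq]
      constructor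
      · rintro ⟨h1, h2⟩; exact ⟨by rw [h1]; ring, h2.symm⟩
      · rintro ⟨h1, h2⟩; exact ⟨by rw [h1]; ring, h2.symm⟩
    have c4 : ((i, j) = (f1, f2) + (0, 1)) ↔ ((f1, f2) = (i, j - 1)) := by
      simp only [Prod.mk_add_mk, add_zero, Prod.mk.injEq]
      constructor
      · rintro ⟨h1, h2⟩; exact ⟨h1.symm, by rw [h2]; ring⟩
      · rintro ⟨h1, h2⟩; exact ⟨h1.symm, by rw [h2]; ring⟩
    have c5 : ((f1, f2) = (i, j) + (0, 1)) ↔ ((f1, f2) = (i, j + 1)) := by simp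
    simp only [c1, c2, c3, c4, c5]
    simp only [Complex.ofReal_add, Complex.ofReal_sub, apply_ite Complex.ofReal, Complex.ofReal_zero]
    have t0 : ((if (f1, f2) = (i, j) then ((sgn4 a b : ℝ) : ℂ) else 0)) * (P f1 * Q f2)
        = (if (f1, f2) = (i, j) then (sgn4 a b : ℂ) * (P i * Q j) else 0) := by
      split_ifs with hh
      · simp only [Prod.mk.injEq] at hh; rw [hh.1, hh.2]
      · simp
    have t1 : ((if a = 1 ∧ b = 3 ∧ (f1, f2) = (i + 1, j) then ((wS M x ε₁ ε₂ (f1, f2) 1 : ℝ) : ℂ) else 0))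
        * (P f1 * Q f2) = (if (f1, f2) = (i + 1, j) then (if a = 1 ∧ b = 3 then (x:ℂ) * ((sm M ε₁ (i + 1) : ℂ) * P (i + 1)) * Q j else 0) else 0) := by
      by_cases hh : (f1, f2) = (i + 1, j)
      · have hh' := hh
        simp only [Prod.mk.injEq] at hh'
        by_cases hab : a = 1 ∧ b = 3
        · simp only [hab, and_self, if_true, hh'.1, hh'.2, wS, sm]
          push_cast; ring
        · have : ¬ (a = 1 ∧ b = 3 ∧ (f1, f2) = (i + 1, j)) := fun h => hab ⟨h.1, h.2.1⟩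
          rw [if_neg this, if_pos hh, if_neg hab, zero_mul]
      · have : ¬ (a = 1 ∧ b = 3 ∧ (f1, f2) = (i + 1, j)) := fun h => hh h.2.2
        rw [if_neg this, if_neg hh, zero_mul]
    have t2 : ((if a = 3 ∧ b = 1 ∧ (f1, f2) = (i - 1, j) then ((wS M x ε₁ ε₂ (i, j) 1 : ℝ) : ℂ) else 0))
        * (P f1 * Q f2) = (if (f1, f2) = (i - 1, j) then (if a = 3 ∧ b = 1 then (x:ℂ) * ((sm M ε₁ i : ℂ) * P (i - 1)) * Q j else 0) else 0) := by
      by_cases hh : (f1, f2) = (i - 1, j)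
      · have hh' := hh
        simp only [Prod.mk.injEq] at hh'
        by_cases hab : a = 3 ∧ b = 1
        · simp only [hab, and_self, if_true, hh'.1, hh'.2, wS, sm]
          push_cast; ring
        · have : ¬ (a = 3 ∧ b = 1 ∧ (f1, f2) = (i - 1, j)) := fun h => hab ⟨h.1, h.2.1⟩
          rw [if_neg this, if_pos hh, if_neg hab, zero_mul]
      · have : ¬ (a = 3 ∧ b = 1 ∧ (f1, f2) = (i - 1, j)) := fun h => hh h.2.2
        rw [if_neg this, if_neg hh, zero_mul]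
    have t3 : ((if a = 0 ∧ b = 2 ∧ (f1, f2) = (i, j - 1) then ((wS M x ε₁ ε₂ (i, j) 0 : ℝ) : ℂ) else 0))
        * (P f1 * Q f2) = (if (f1, f2) = (i, j - 1) then (if a = 0 ∧ b = 2 then (x:ℂ) * ((sm M ε₂ j : ℂ) * Q (j - 1)) * P i else 0) else 0) := by
      by_cases hh : (f1, f2) = (i, j - 1)
      · have hh' := hh
        simp only [Prod.mk.injEq] at hh'
        by_cases hab : a = 0 ∧ b = 2
        · simp only [hab, and_self, if_true, hh'.1, hh'.2, wS, sm]
          simp [apply_ite Complex.ofReal]; ring_nf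
        · have : ¬ (a = 0 ∧ b = 2 ∧ (f1, f2) = (i, j - 1)) := fun h => hab ⟨h.1, h.2.1⟩
          rw [if_neg this, if_pos hh, if_neg hab, zero_mul]
      · have : ¬ (a = 0 ∧ b = 2 ∧ (f1, f2) = (i, j - 1)) := fun h => hh h.2.2
        rw [if_neg this, if_neg hh, zero_mul]
    have t4 : ((if a = 2 ∧ b = 0 ∧ (f1, f2) = (i, j + 1) then ((wS M x ε₁ ε₂ (f1, f2) 0 : ℝ) : ℂ) else 0))
        * (P f1 * Q f2) = (if (f1, f2) = (i, j + 1) then (if a = 2 ∧ b = 0 then (x:ℂ) * ((sm M ε₂ (j + 1) : ℂ) * Q (j + 1)) * P i else 0) else 0) := by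
      by_cases hh : (f1, f2) = (i, j + 1)
      · have hh' := hh
        simp only [Prod.mk.injEq] at hh'
        by_cases hab : a = 2 ∧ b = 0
        · simp only [hab, and_self, if_true, hh'.1, hh'.2, wS, sm]
          simp [apply_ite Complex.ofReal]; ring_nf
        · have : ¬ (a = 2 ∧ b = 0 ∧ (f1, f2) = (i, j + 1)) := fun h => hab ⟨h.1, h.2.1⟩
          rw [if_neg this, if_pos hh, if_neg hab, zero_mul]
      · have : ¬ (a = 2 ∧ b = 0 ∧ (f1, f2) = (i, j + 1)) := fun h => hh h.2.2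
        rw [if_neg this, if_neg hh, zero_mul]
    rw [← t0, ← t1, ← t2, ← t3, ← t4]
    ring
  rw [Finset.sum_congr rfl fun f _ => hsplit f]
  rw [Finset.sum_sub_distrib, Finset.sum_add_distrib, Finset.sum_sub_distrib, Finset.sum_add_distrib]
  simp only [Finset.sum_ite_eq', Finset.mem_univ, if_true]
  rw [s1, s2, s3, s4]
  fin_cases a <;> fin_cases b <;> simp [sS, symb, sgn4] <;> ring

/-- **determinant of the sector matrix** -/
theorem det_sector (x θ₁ θ₂ ε₁ ε₂ : ℝ) (h1 : Complex.exp (θ₁ * I) = ε₁) (h1' : ε₁ * ε₁ = 1)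
    (h2 : Complex.exp (θ₂ * I) = ε₂) (h2' : ε₂ * ε₂ = 1) :
    (hA (wS M x ε₁ ε₂)).det = ∏ p : ZMod M × ZMod M,
      ((1 + x ^ 2) ^ 2 - 2 * x * (1 - x ^ 2) * (Real.cos ((2 * Real.pi * p.1.val + θ₁) / M)
        + Real.cos ((2 * Real.pi * p.2.val + θ₂) / M))) := by
  have h := det_of_intertwine M θ₁ θ₂ _ _ (intertwine M x θ₁ θ₂ ε₁ ε₂ h1 h1' h2 h2')
  have hcos : ∀ (θ : ℝ) (k : ZMod M), ph M θ k + (ph M θ k)⁻¹
      = ((2 * Real.cos ((2 * Real.pi * k.val + θ) / M) : ℝ) : ℂ) := by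
    intro θ k
    rw [ph, ← Complex.exp_neg, Complex.ofReal_mul, Complex.ofReal_cos, Complex.cos]
    push_cast
    rw [neg_mul]
    ring
  have hdet : ((hA (wS M x ε₁ ε₂)).map ((↑) : ℝ → ℂ)).det = (((hA (wS M x ε₁ ε₂)).det : ℝ) : ℂ) := by
    have := (RingHom.map_det Complex.ofRealHom (hA (wS M x ε₁ ε₂))).symm
    exact this
  rw [hdet] at h
  have h3 : ∀ p : ZMod M × ZMod M, (sS M x θ₁ θ₂ p).det
      = (((1 + x ^ 2) ^ 2 - 2 * x * (1 - x ^ 2) * (Real.cos ((2 * Real.pi * p.1.val + θ₁) / M)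
        + Real.cos ((2 * Real.pi * p.2.val + θ₂) / M)) : ℝ) : ℂ) := by
    intro p
    rw [sS, det_symb x _ _ _ _ (mul_inv_cancel₀ (ph_ne M θ₁ p.1)) (mul_inv_cancel₀ (ph_ne M θ₂ p.2)),
      hcos, hcos]
    push_cast; ring
  rw [Finset.prod_congr rfl fun p _ => h3 p, ← Complex.ofReal_prod] at h
  exact_mod_cast h

end Crest.Agent.R165.TorDetx599
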