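import Mathlib

/-!
Row 165, leaf T1 (helper599): one- and two-dimensional cosine products on the torus, and the
comparison of the doubly periodic grid (zero mode removed) with the doubly antiperiodic grid.
-/

set_option autoImplicit false

namespace Crest.Agent.R165.TorProdx599

open Finset Real

/-- The one-dimensional mass `γ(p)` with `cosh γ(p) = 2 - cos p`. -/
noncomputable def gam (p : ℝ) : ℝ := 2 * Real.arsinh (Real.sin (p / 2))

theorem cosh_gam (p : ℝ) : Real.cosh (gam p) = 2 - Real.cos p := by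
  have h1 : Real.cosh (2 * Real.arsinh (Real.sin (p / 2)))
      = 1 + 2 * Real.sinh (Real.arsinh (Real.sin (p / 2))) ^ 2 := by
    rw [Real.cosh_two_mul]
    have := Real.cosh_sq (Real.arsinh (Real.sin (p / 2)))
    rw [this]; ring
  have h2 : Real.cos p = 1 - 2 * Real.sin (p / 2) ^ 2 := by
    have h3 : Real.cos (2 * (p / 2)) = 1 - 2 * Real.sin (p / 2) ^ 2 := by
      rw [Real.cos_two_mul]
      have := Real.sin_sq_add_cos_sq (p / 2)
      nlinarith
    rw [← h3]; congr 1; ring
  rw [gam, h1, Real.sinh_arsinh, h2]; ring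

theorem gam_nonneg {p : ℝ} (h0 : 0 ≤ p) (h1 : p ≤ 2 * π) : 0 ≤ gam p := by
  have h : 0 ≤ Real.sin (p / 2) :=
    Real.sin_nonneg_of_nonneg_of_le_pi (by linarith) (by linarith)
  have := Real.arsinh_nonneg_iff.2 h
  unfold gam; linarith

theorem gam_zero : gam 0 = 0 := by simp [gam]

theorem gam_two_pi : gam (2 * π) = 0 := by
  have : (2 * π / 2) = π := by ring
  simp [gam, this]

theorem concave_arsinh : ConcaveOn ℝ (Set.Ici (0:ℝ)) Real.arsinh := by
  apply AntitoneOn.concaveOn_of_deriv (convex_Ici 0)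
  · exact Real.continuous_arsinh.continuousOn
  · exact Real.differentiable_arsinh.differentiableOn
  · intro x hx y hy hxy
    rw [interior_Ici] at hx hy
    simp only [Set.mem_Ioi] at hx hy
    rw [(Real.hasDerivAt_arsinh x).deriv, (Real.hasDerivAt_arsinh y).deriv]
    apply inv_anti₀
    · positivity
    · apply Real.sqrt_le_sqrt
      nlinarith

theorem concave_gam : ConcaveOn ℝ (Set.Icc (0:ℝ) (2 * π)) gam := by
  have hs : ConcaveOn ℝ (Set.Icc (0:ℝ) (2 * π)) (fun p => Real.sin (p / 2)) := by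
    refine ⟨convex_Icc _ _, ?_⟩
    intro x hx y hy a b ha hb hab
    have := strictConcaveOn_sin_Icc.concaveOn.2 (x := x / 2) (y := y / 2)
      ⟨by linarith [hx.1], by linarith [hx.2]⟩ ⟨by linarith [hy.1], by linarith [hy.2]⟩ ha hb hab
    simp only [smul_eq_mul] at this ⊢
    have e : (a * x + b * y) / 2 = a * (x / 2) + b * (y / 2) := by ring
    rw [e]; exact this
  refine ⟨convex_Icc _ _, ?_⟩
  intro x hx y hy a b ha hb hab
  have h1 := hs.2 hx hy ha hb hab
  have hx0 : 0 ≤ Real.sin (x / 2) :=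
    Real.sin_nonneg_of_nonneg_of_le_pi (by linarith [hx.1]) (by linarith [hx.2])
  have hy0 : 0 ≤ Real.sin (y / 2) :=
    Real.sin_nonneg_of_nonneg_of_le_pi (by linarith [hy.1]) (by linarith [hy.2])
  have h2 := concave_arsinh.2 (x := Real.sin (x / 2)) (y := Real.sin (y / 2)) hx0 hy0 ha hb hab
  have h3 := Real.arsinh_le_arsinh.2 h1
  simp only [smul_eq_mul, gam] at *
  nlinarith

/-- midpoint rule dominates the trapezoidal rule for the concave function `γ`. -/
theorem sum_gam_le (n : ℕ) (hn : 0 < n) :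
    ∑ k ∈ range n, gam (2 * π * k / n) ≤ ∑ k ∈ range n, gam ((2 * π * k + π) / n) := by
  have hn' : (0:ℝ) < n := by exact_mod_cast hn
  have h1 : ∑ k ∈ range n, gam (2 * π * (k + 1 : ℕ) / n) = ∑ k ∈ range n, gam (2 * π * k / n) := by
    have a := Finset.sum_range_succ' (fun k : ℕ => gam (2 * π * k / n)) n
    have b := Finset.sum_range_succ (fun k : ℕ => gam (2 * π * k / n)) n
    rw [a] at b
    have c : gam (2 * π * (n:ℝ) / n) = 0 := by
      rw [mul_div_assoc, div_self hn'.ne', mul_one, gam_two_pi]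
    simp only [Nat.cast_zero, mul_zero, zero_div, gam_zero, add_zero, c] at b
    exact b
  have h2 : ∑ k ∈ range n, gam (2 * π * k / n)
      = ∑ k ∈ range n, ((1/2 : ℝ) * gam (2 * π * k / n) + (1/2 : ℝ) * gam (2 * π * (k + 1 : ℕ) / n)) := by
    rw [Finset.sum_add_distrib, ← Finset.mul_sum, ← Finset.mul_sum, h1]; ring
  rw [h2]
  apply Finset.sum_le_sum
  intro k hk
  have hk' : (k:ℝ) + 1 ≤ n := by
    have := Finset.mem_range.1 hk
    exact_mod_cast this
  have hk0 : (0:ℝ) ≤ k := Nat.cast_nonneg k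
  have hp := Real.pi_pos
  have m1 : 2 * π * (k:ℝ) / n ∈ Set.Icc (0:ℝ) (2 * π) := by
    constructor
    · positivity
    · rw [div_le_iff₀ hn']; nlinarith
  have m2 : 2 * π * ((k + 1 : ℕ):ℝ) / n ∈ Set.Icc (0:ℝ) (2 * π) := by
    push_cast
    constructor
    · positivity
    · rw [div_le_iff₀ hn']; nlinarith
  have := concave_gam.2 m1 m2 (by norm_num : (0:ℝ) ≤ 1/2) (by norm_num : (0:ℝ) ≤ 1/2) (by norm_num)
  simp only [smul_eq_mul] at this
  refine this.trans (le_of_eq ?_)
  congr 1
  push_cast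
  field_simp
  ring

/-- the one-dimensional product. -/
theorem prod_cosh_cos (n : ℕ) (hn : 0 < n) (g θ : ℝ) :
    ∏ k ∈ range n, (2 * Real.cosh g - 2 * Real.cos ((2 * π * k + θ) / n))
      = 2 * Real.cosh (n * g) - 2 * Real.cos θ := by
  have hn0 : n ≠ 0 := hn.ne'
  have hnC : (n:ℂ) ≠ 0 := by exact_mod_cast hn0
  set ζ : ℂ := Complex.exp (2 * π * Complex.I / n) with hζ
  have hprim : IsPrimitiveRoot ζ n := Complex.isPrimitiveRoot_exp n hn0
  set α : ℂ := Complex.exp (θ * Complex.I / n) with hα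
  have hαn : α ^ n = Complex.exp (θ * Complex.I) := by
    rw [hα, ← Complex.exp_nat_mul]; congr 1; field_simp
  have hα'n : (α⁻¹) ^ n = Complex.exp (-(θ * Complex.I)) := by
    rw [inv_pow, hαn, Complex.exp_neg]
  have h1 : ∀ x : ℂ, ∏ k ∈ range n, (x - ζ ^ k * α) = x ^ n - Complex.exp (θ * Complex.I) := by
    intro x
    have := congrArg (Polynomial.eval x) (X_pow_sub_C_eq_prod hprim hn hαn)
    simp only [Polynomial.eval_sub, Polynomial.eval_pow, Polynomial.eval_X, Polynomial.eval_C,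
      Polynomial.eval_prod] at this
    exact this.symm
  have h2 : ∀ x : ℂ, ∏ k ∈ range n, (x - (ζ⁻¹) ^ k * α⁻¹)
      = x ^ n - Complex.exp (-(θ * Complex.I)) := by
    intro x
    have := congrArg (Polynomial.eval x) (X_pow_sub_C_eq_prod hprim.inv hn hα'n)
    simp only [Polynomial.eval_sub, Polynomial.eval_pow, Polynomial.eval_X, Polynomial.eval_C,
      Polynomial.eval_prod] at this
    exact this.symm
  have h3 : ∀ k ∈ range n, ((2 * Real.cosh g - 2 * Real.cos ((2 * π * k + θ) / n) : ℝ) : ℂ)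
      = Complex.exp (-g) * ((Complex.exp g - ζ ^ k * α) * (Complex.exp g - (ζ⁻¹) ^ k * α⁻¹)) := by
    intro k _
    have e1 : ζ ^ k * α = Complex.exp (((2 * π * k + θ) / n : ℝ) * Complex.I) := by
      rw [hζ, hα, ← Complex.exp_nat_mul, ← Complex.exp_add]; congr 1; push_cast; ring
    have e2 : (ζ⁻¹) ^ k * α⁻¹ = Complex.exp (-(((2 * π * k + θ) / n : ℝ) * Complex.I)) := by
      rw [inv_pow, ← mul_inv, e1, Complex.exp_neg]
    rw [e1, e2]
    set φ : ℝ := (2 * π * k + θ) / n
    have c1 : ((Real.cosh g : ℝ) : ℂ) = (Complex.exp g + Complex.exp (-g)) / 2 := by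
      rw [Complex.ofReal_cosh, Complex.cosh]
    have c2 : ((Real.cos φ : ℝ) : ℂ) = (Complex.exp (φ * Complex.I) + Complex.exp (-(φ * Complex.I))) / 2 := by
      rw [Complex.ofReal_cos, Complex.cos]; congr 2; rw [neg_mul]
    have hE : Complex.exp (-(g:ℂ)) * Complex.exp g = 1 := by
      rw [← Complex.exp_add]; simp
    have hF : Complex.exp (φ * Complex.I) * Complex.exp (-(φ * Complex.I)) = 1 := by
      rw [← Complex.exp_add]; simp
    push_cast
    rw [← Complex.ofReal_cosh, ← Complex.ofReal_cos, c1, c2]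
    generalize Complex.exp (-(g:ℂ)) = A at *
    generalize Complex.exp (g:ℂ) = B at *
    generalize Complex.exp (φ * Complex.I) = U at *
    generalize Complex.exp (-(φ * Complex.I)) = V at *
    have : A * ((B - U) * (B - V)) = (A * B) * B - (A * B) * (U + V) + A * (U * V) := by ring
    rw [this, hE, hF]; ring
  have h4 : ((∏ k ∈ range n, (2 * Real.cosh g - 2 * Real.cos ((2 * π * k + θ) / n)) : ℝ) : ℂ)
      = ((2 * Real.cosh (n * g) - 2 * Real.cos θ : ℝ) : ℂ) := by
    rw [Complex.ofReal_prod, Finset.prod_congr rfl h3, Finset.prod_mul_distrib,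
      Finset.prod_mul_distrib, h1, h2, Finset.prod_const, Finset.card_range,
      ← Complex.exp_nat_mul, ← Complex.exp_nat_mul]
    have c1 : ((Real.cosh (n * g) : ℝ) : ℂ) = (Complex.exp (n * g) + Complex.exp (-(n * g))) / 2 := by
      rw [Complex.ofReal_cosh, Complex.cosh]; push_cast; ring_nf
    have c2 : ((Real.cos θ : ℝ) : ℂ) = (Complex.exp (θ * Complex.I) + Complex.exp (-(θ * Complex.I))) / 2 := by
      rw [Complex.ofReal_cos, Complex.cos]; congr 2; rw [neg_mul]
    have hE : Complex.exp (-((n:ℂ) * g)) * Complex.exp (n * g) = 1 := by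
      rw [← Complex.exp_add]; simp
    have hF : Complex.exp (θ * Complex.I) * Complex.exp (-(θ * Complex.I)) = 1 := by
      rw [← Complex.exp_add]; simp
    rw [Complex.ofReal_sub, Complex.ofReal_mul, Complex.ofReal_mul, c1, c2]
    rw [show (n:ℂ) * -(g:ℂ) = -((n:ℂ) * g) by ring]
    generalize Complex.exp (-((n:ℂ) * g)) = A at *
    generalize Complex.exp ((n:ℂ) * g) = B at *
    generalize Complex.exp (θ * Complex.I) = U at *
    generalize Complex.exp (-(θ * Complex.I)) = V at *
    have : A * ((B - U) * (B - V)) = (A * B) * B - (A * B) * (U + V) + A * (U * V) := by ring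
    rw [this, hE, hF]; push_cast; ring
  exact_mod_cast h4

/-- the one-dimensional product with the zero mode removed. -/
theorem prod_two_sub_cos (n : ℕ) (hn : 0 < n) :
    ∏ k ∈ (range n).erase 0, (2 - 2 * Real.cos (2 * π * k / n)) = (n:ℝ) ^ 2 := by
  obtain ⟨m, rfl⟩ : ∃ m, n = m + 1 := ⟨n - 1, by omega⟩
  have e0 : (range (m + 1)).erase 0 = (range m).image (· + 1) := by
    ext x; simp only [mem_erase, mem_range, mem_image]
    constructor
    · rintro ⟨h1, h2⟩; exact ⟨x - 1, by omega, by omega⟩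
    · rintro ⟨y, h1, rfl⟩; omega
  rw [e0, Finset.prod_image (by intro a _ b _ h; simpa using h)]
  have hnC : ((m + 1 : ℕ):ℂ) ≠ 0 := by exact_mod_cast (Nat.succ_ne_zero m)
  set ζ : ℂ := Complex.exp (2 * π * Complex.I / (m + 1 : ℕ)) with hζ
  have hprim : IsPrimitiveRoot ζ (m + 1) := Complex.isPrimitiveRoot_exp _ (Nat.succ_ne_zero m)
  have h1 := IsPrimitiveRoot.prod_one_sub_pow_eq_order hprim
  have h2 := IsPrimitiveRoot.prod_one_sub_pow_eq_order hprim.inv
  have h3 : ∀ k ∈ range m, ((2 - 2 * Real.cos (2 * π * ((k + 1 : ℕ):ℝ) / (m + 1 : ℕ)) : ℝ) : ℂ)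
      = (1 - ζ ^ (k + 1)) * (1 - (ζ⁻¹) ^ (k + 1)) := by
    intro k _
    have e1 : ζ ^ (k + 1) = Complex.exp (((2 * π * ((k + 1 : ℕ):ℝ) / (m + 1 : ℕ)) : ℝ) * Complex.I) := by
      rw [hζ, ← Complex.exp_nat_mul]; congr 1; push_cast; ring
    have e2 : (ζ⁻¹) ^ (k + 1) = Complex.exp (-(((2 * π * ((k + 1 : ℕ):ℝ) / (m + 1 : ℕ)) : ℝ) * Complex.I)) := by
      rw [inv_pow, e1, Complex.exp_neg]
    rw [e1, e2]
    set φ : ℝ := 2 * π * ((k + 1 : ℕ):ℝ) / (m + 1 : ℕ)
    have c2 : ((Real.cos φ : ℝ) : ℂ) = (Complex.exp (φ * Complex.I) + Complex.exp (-(φ * Complex.I))) / 2 := by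
      rw [Complex.ofReal_cos, Complex.cos]; congr 2; rw [neg_mul]
    have hF : Complex.exp (φ * Complex.I) * Complex.exp (-(φ * Complex.I)) = 1 := by
      rw [← Complex.exp_add]; simp
    rw [Complex.ofReal_sub, Complex.ofReal_mul, c2]
    generalize Complex.exp (φ * Complex.I) = U at *
    generalize Complex.exp (-(φ * Complex.I)) = V at *
    have : (1 - U) * (1 - V) = 1 - (U + V) + U * V := by ring
    rw [this, hF]; push_cast; ring
  have h4 : ((∏ k ∈ range m, (2 - 2 * Real.cos (2 * π * ((k + 1 : ℕ):ℝ) / (m + 1 : ℕ))) : ℝ) : ℂ)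
      = (((m + 1 : ℕ):ℝ) ^ 2 : ℝ) := by
    rw [Complex.ofReal_prod, Finset.prod_congr rfl h3, Finset.prod_mul_distrib, h1, h2]
    push_cast; ring
  exact_mod_cast h4

/-- `4 - 2 cos p - 2 cos q` in hyperbolic form. -/
theorem four_sub (p q : ℝ) : 4 - 2 * Real.cos p - 2 * Real.cos q
    = 2 * Real.cosh (gam p) - 2 * Real.cos q := by rw [cosh_gam]; ring

/-- row product, periodic in the second direction. -/
theorem row_P (n : ℕ) (hn : 0 < n) (p : ℝ) :
    ∏ l ∈ range n, (4 - 2 * Real.cos p - 2 * Real.cos (2 * π * l / n))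
      = 2 * Real.cosh (n * gam p) - 2 := by
  have := prod_cosh_cos n hn (gam p) 0
  simp only [add_zero, Real.cos_zero, mul_one] at this
  rw [← this]
  exact Finset.prod_congr rfl fun l _ => four_sub p _

/-- row product, antiperiodic in the second direction. -/
theorem row_A (n : ℕ) (hn : 0 < n) (p : ℝ) :
    ∏ l ∈ range n, (4 - 2 * Real.cos p - 2 * Real.cos ((2 * π * l + π) / n))
      = 2 * Real.cosh (n * gam p) + 2 := by
  have := prod_cosh_cos n hn (gam p) π
  rw [Real.cos_pi] at this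
  have e : 2 * Real.cosh (n * gam p) + 2 = 2 * Real.cosh (n * gam p) - 2 * (-1) := by ring
  rw [e, ← this]
  exact Finset.prod_congr rfl fun l _ => four_sub p _

/-- The comparison: periodic-periodic grid without the zero mode against the
antiperiodic-antiperiodic grid. -/
theorem PP_le_AA (n : ℕ) (hn : 0 < n) :
    ∏ kl ∈ (range n ×ˢ range n).erase (0, 0),
        (4 - 2 * Real.cos (2 * π * kl.1 / n) - 2 * Real.cos (2 * π * kl.2 / n))
      ≤ (n:ℝ) ^ 2 * ∏ kl ∈ range n ×ˢ range n,
        (4 - 2 * Real.cos ((2 * π * kl.1 + π) / n) - 2 * Real.cos ((2 * π * kl.2 + π) / n)) := by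
  have hn' : (0:ℝ) < n := by exact_mod_cast hn
  -- left side
  have hL : ∏ kl ∈ (range n ×ˢ range n).erase (0, 0),
        (4 - 2 * Real.cos (2 * π * kl.1 / n) - 2 * Real.cos (2 * π * kl.2 / n))
      = (n:ℝ) ^ 2 * ∏ k ∈ (range n).erase 0, (2 * Real.cosh (n * gam (2 * π * k / n)) - 2) := by
    have hsplit : (range n ×ˢ range n).erase (0, 0)
        = ({0} ×ˢ (range n).erase 0) ∪ ((range n).erase 0 ×ˢ range n) := by
      ext ⟨a, b⟩
      simp only [mem_erase, mem_product, mem_range, mem_union, mem_singleton, ne_eq, Prod.mk.injEq]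
      constructor
      · rintro ⟨h1, h2, h3⟩
        by_cases ha : a = 0
        · left; exact ⟨ha, fun hb => h1 ⟨ha, hb⟩, h3⟩
        · right; exact ⟨⟨ha, h2⟩, h3⟩
      · rintro (⟨h1, h2, h3⟩ | ⟨⟨h1, h2⟩, h3⟩)
        · exact ⟨fun h => h2 h.2, by omega, h3⟩
        · exact ⟨fun h => h1 h.1, h2, h3⟩
    have hdisj : Disjoint (({0} : Finset ℕ) ×ˢ (range n).erase 0) ((range n).erase 0 ×ˢ range n) := by
      rw [Finset.disjoint_left]
      rintro ⟨a, b⟩ h1 h2
      simp only [mem_erase, mem_product, mem_range, mem_singleton, ne_eq] at h1 h2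
      exact h2.1.1 h1.1
    rw [hsplit, Finset.prod_union hdisj, Finset.prod_product, Finset.prod_product,
      Finset.prod_singleton]
    have ha : ∏ l ∈ (range n).erase 0,
        (4 - 2 * Real.cos (2 * π * ((0:ℕ):ℝ) / n) - 2 * Real.cos (2 * π * (l:ℝ) / n)) = (n:ℝ) ^ 2 := by
      rw [← prod_two_sub_cos n hn]
      refine Finset.prod_congr rfl fun l _ => ?_
      simp only [Nat.cast_zero, mul_zero, zero_div, Real.cos_zero]
      ring
    have hb : ∏ k ∈ (range n).erase 0, ∏ l ∈ range n,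
        (4 - 2 * Real.cos (2 * π * (k:ℝ) / n) - 2 * Real.cos (2 * π * (l:ℝ) / n))
        = ∏ k ∈ (range n).erase 0, (2 * Real.cosh (n * gam (2 * π * k / n)) - 2) :=
      Finset.prod_congr rfl fun k _ => row_P n hn (2 * π * k / n)
    rw [← hb, ← ha]
  have hR : ∏ kl ∈ range n ×ˢ range n,
        (4 - 2 * Real.cos ((2 * π * kl.1 + π) / n) - 2 * Real.cos ((2 * π * kl.2 + π) / n))
      = ∏ k ∈ range n, (2 * Real.cosh (n * gam ((2 * π * k + π) / n)) + 2) := by
    rw [Finset.prod_product]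
    have hb : ∏ k ∈ range n, ∏ l ∈ range n,
        (4 - 2 * Real.cos ((2 * π * (k:ℝ) + π) / n) - 2 * Real.cos ((2 * π * (l:ℝ) + π) / n))
        = ∏ k ∈ range n, (2 * Real.cosh (n * gam ((2 * π * k + π) / n)) + 2) :=
      Finset.prod_congr rfl fun k _ => row_A n hn ((2 * π * k + π) / n)
    rw [← hb]
  rw [hL, hR]
  apply mul_le_mul_of_nonneg_left _ (by positivity)
  have hpi := Real.pi_pos
  have hk1 : ∀ k ∈ range n, 0 ≤ gam (2 * π * k / n) := by
    intro k hk
    have : (k:ℝ) ≤ n := by exact_mod_cast (Finset.mem_range.1 hk).le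
    refine gam_nonneg (by positivity) ?_
    rw [div_le_iff₀ hn']; nlinarith
  have step1 : ∏ k ∈ (range n).erase 0, (2 * Real.cosh (n * gam (2 * π * k / n)) - 2)
      ≤ ∏ k ∈ (range n).erase 0, Real.exp (n * gam (2 * π * k / n)) := by
    apply Finset.prod_le_prod
    · intro k _
      have := Real.one_le_cosh (n * gam (2 * π * k / n))
      linarith
    · intro k hk
      have hg := hk1 k (Finset.mem_of_mem_erase hk)
      have h0 : 0 ≤ n * gam (2 * π * k / n) := by positivity
      have : Real.exp (-(n * gam (2 * π * k / n))) ≤ 1 := Real.exp_le_one_iff.2 (by linarith)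
      rw [Real.cosh_eq]; linarith
  have step2 : ∏ k ∈ (range n).erase 0, Real.exp (n * gam (2 * π * k / n))
      = Real.exp (n * ∑ k ∈ range n, gam (2 * π * k / n)) := by
    rw [← Real.exp_sum, ← Finset.mul_sum]
    congr 2
    rw [Finset.sum_erase]; simp [gam_zero]
  have step3 : ∏ k ∈ range n, Real.exp (n * gam ((2 * π * k + π) / n))
      ≤ ∏ k ∈ range n, (2 * Real.cosh (n * gam ((2 * π * k + π) / n)) + 2) := by
    apply Finset.prod_le_prod
    · intro k _; positivity
    · intro k _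
      rw [Real.cosh_eq]
      have := Real.exp_pos (-(n * gam ((2 * π * k + π) / n)))
      linarith
  have step4 : ∏ k ∈ range n, Real.exp (n * gam ((2 * π * k + π) / n))
      = Real.exp (n * ∑ k ∈ range n, gam ((2 * π * k + π) / n)) := by
    rw [← Real.exp_sum, ← Finset.mul_sum]
  rw [step4] at step3
  rw [step2] at step1
  have step5 : Real.exp (n * ∑ k ∈ range n, gam (2 * π * k / n))
      ≤ Real.exp (n * ∑ k ∈ range n, gam ((2 * π * k + π) / n)) :=
    Real.exp_le_exp.2 (mul_le_mul_of_nonneg_left (sum_gam_le n hn) hn'.le)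
  exact step1.trans (step5.trans step3)

end Crest.Agent.R165.TorProdx599
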