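import Mathlib
import Crest.Agent.R165.TorDet_599
import Crest.Agent.R165.TorProd_599
import Crest.Agent.R165.PfZ_599

/-!
Row 165, leaf T (helper599): the four torus sectors.  Positivity of the sector partition
functions, their squares as products, and the exact formula and bound for the doubly periodic
sector at the critical weight.
-/

set_option autoImplicit false
set_option linter.unusedSectionVars false

noncomputable section

namespace Crest.Agent.R165.TorSecx599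

open Crest.Agent.R165.Gr0x606 Crest.Agent.R165.Pfx599 Crest.Agent.R165.PfZx599
open Crest.Agent.R165.TorDetx599 Crest.Agent.R165.TorProdx599 Matrix

/-! ### bonds -/

variable {G : Type*} [AddCommGroupWithOne G] [DecidableEq G]

/-- first half-edge of a bond -/
def hp (b : (G × G) × Fin 2) : HE G := if b.2 = 1 then (b.1 - (1, 0), 1) else (b.1, 0)

/-- second half-edge of a bond -/
def hq (b : (G × G) × Fin 2) : HE G := if b.2 = 1 then (b.1, 3) else (b.1 - (0, 1), 2)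

/-- basis field of a half-edge -/
def bs (h : HE G) : HE G → ℝ := Pi.single h 1

/-- list of bond terms -/
def bl [Fintype G] (w : G × G → Fin 2 → ℝ) : List (ℝ × (HE G → ℝ) × (HE G → ℝ)) :=
  (Finset.univ : Finset ((G × G) × Fin 2)).toList.map fun b => (w b.1 b.2, bs (hp b), bs (hq b))

theorem r2_bs (h k a b : HE G) : r2 (bs h) (bs k) a b
    = (if a = h ∧ b = k then 1 else 0) - (if a = k ∧ b = h then 1 else 0) := by
  simp only [r2, bs, Matrix.sub_apply, vecMulVec_apply, Pi.single_apply]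
  congr 1
  · by_cases h1 : a = h <;> by_cases h2 : b = k <;> simp [h1, h2]
  · by_cases h1 : a = k <;> by_cases h2 : b = h <;> simp [h1, h2]

theorem mL_bl [Fintype G] (w : G × G → Fin 2 → ℝ) :
    mL (bl w) = ∑ b : (G × G) × Fin 2, w b.1 b.2 • r2 (bs (hp b)) (bs (hq b)) := by
  rw [mL, bl, List.map_map]
  have := Finset.sum_map_toList (Finset.univ : Finset ((G × G) × Fin 2))
    (fun b => w b.1 b.2 • r2 (bs (hp b)) (bs (hq b)))
  rw [← this]
  rfl

theorem hA_eq [Fintype G] (w : G × G → Fin 2 → ℝ) : hA w = aL (hA 0) (bl w) := by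
  rw [aL_eq, mL_bl]
  ext h k
  obtain ⟨h, a⟩ := h
  obtain ⟨k, b⟩ := k
  rw [Matrix.add_apply, Matrix.sum_apply]
  simp only [Matrix.smul_apply, smul_eq_mul, r2_bs]
  rw [Fintype.sum_prod_type]
  simp only [Fin.sum_univ_two, Finset.sum_add_distrib]
  have j0 : ∀ z : G × G, hp (z, (0 : Fin 2)) = (z, 0) := fun z => rfl
  have j1 : ∀ z : G × G, hp (z, (1 : Fin 2)) = (z - (1, 0), 1) := fun z => rfl
  have j2 : ∀ z : G × G, hq (z, (0 : Fin 2)) = (z - (0, 1), 2) := fun z => rfl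
  have j3 : ∀ z : G × G, hq (z, (1 : Fin 2)) = (z, 3) := fun z => rfl
  simp only [j0, j1, j2, j3, Prod.mk.injEq]
  have k1 : ∑ z : G × G, w z 1 * ((if ((h = z - (1, 0) ∧ a = 1) ∧ k = z ∧ b = 3) then (1:ℝ) else 0)
      - (if ((h = z ∧ a = 3) ∧ k = z - (1, 0) ∧ b = 1) then 1 else 0))
      = (if a = 1 ∧ b = 3 ∧ k = h + (1, 0) then w k 1 else 0)
        - (if a = 3 ∧ b = 1 ∧ h = k + (1, 0) then w h 1 else 0) := by
    simp only [mul_sub, Finset.sum_sub_distrib]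
    congr 1
    · rw [Finset.sum_eq_single k]
      · have : ((h = k - (1, 0) ∧ a = 1) ∧ k = k ∧ b = 3) ↔ (a = 1 ∧ b = 3 ∧ k = h + (1, 0)) := by
          constructor
          · rintro ⟨⟨h1, h2⟩, _, h3⟩; exact ⟨h2, h3, by rw [h1]; abel⟩
          · rintro ⟨h1, h2, h3⟩; exact ⟨⟨by rw [h3]; abel, h1⟩, rfl, h2⟩
        rw [if_congr this rfl rfl]
        split_ifs <;> simp
      · intro z _ hz
        have : ¬ ((h = z - (1, 0) ∧ a = 1) ∧ k = z ∧ b = 3) := fun hh => hz hh.2.1.symm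
        rw [if_neg this, mul_zero]
      · intro h'; exact absurd (Finset.mem_univ _) h'
    · rw [Finset.sum_eq_single h]
      · have : ((h = h ∧ a = 3) ∧ k = h - (1, 0) ∧ b = 1) ↔ (a = 3 ∧ b = 1 ∧ h = k + (1, 0)) := by
          constructor
          · rintro ⟨⟨_, h2⟩, h3, h4⟩; exact ⟨h2, h4, by rw [h3]; abel⟩
          · rintro ⟨h1, h2, h3⟩; exact ⟨⟨rfl, h1⟩, by rw [h3]; abel, h2⟩
        rw [if_congr this rfl rfl]
        split_ifs <;> simp
      · intro z _ hz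
        have : ¬ ((h = z ∧ a = 3) ∧ k = z - (1, 0) ∧ b = 1) := fun hh => hz hh.1.1.symm
        rw [if_neg this, mul_zero]
      · intro h'; exact absurd (Finset.mem_univ _) h'
  have k0 : ∑ z : G × G, w z 0 * ((if ((h = z ∧ a = 0) ∧ k = z - (0, 1) ∧ b = 2) then (1:ℝ) else 0)
      - (if ((h = z - (0, 1) ∧ a = 2) ∧ k = z ∧ b = 0) then 1 else 0))
      = (if a = 0 ∧ b = 2 ∧ h = k + (0, 1) then w h 0 else 0)
        - (if a = 2 ∧ b = 0 ∧ k = h + (0, 1) then w k 0 else 0) := by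
    simp only [mul_sub, Finset.sum_sub_distrib]
    congr 1
    · rw [Finset.sum_eq_single h]
      · have : ((h = h ∧ a = 0) ∧ k = h - (0, 1) ∧ b = 2) ↔ (a = 0 ∧ b = 2 ∧ h = k + (0, 1)) := by
          constructor
          · rintro ⟨⟨_, h2⟩, h3, h4⟩; exact ⟨h2, h4, by rw [h3]; abel⟩
          · rintro ⟨h1, h2, h3⟩; exact ⟨⟨rfl, h1⟩, by rw [h3]; abel, h2⟩
        rw [if_congr this rfl rfl]
        split_ifs <;> simp
      · intro z _ hz
        have : ¬ ((h = z ∧ a = 0) ∧ k = z - (0, 1) ∧ b = 2) := fun hh => hz hh.1.1.symm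
        rw [if_neg this, mul_zero]
      · intro h'; exact absurd (Finset.mem_univ _) h'
    · rw [Finset.sum_eq_single k]
      · have : ((h = k - (0, 1) ∧ a = 2) ∧ k = k ∧ b = 0) ↔ (a = 2 ∧ b = 0 ∧ k = h + (0, 1)) := by
          constructor
          · rintro ⟨⟨h1, h2⟩, _, h3⟩; exact ⟨h2, h3, by rw [h1]; abel⟩
          · rintro ⟨h1, h2, h3⟩; exact ⟨⟨by rw [h3]; abel, h1⟩, rfl, h2⟩
        rw [if_congr this rfl rfl]
        split_ifs <;> simp
      · intro z _ hz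
        have : ¬ ((h = z - (0, 1) ∧ a = 2) ∧ k = z ∧ b = 0) := fun hh => hz hh.2.1.symm
        rw [if_neg this, mul_zero]
      · intro h'; exact absurd (Finset.mem_univ _) h'
  rw [k0, k1]
  simp only [hA, Matrix.of_apply, Pi.zero_apply, ite_self, sub_zero, add_zero]
  ring

/-! ### sectors -/

variable (M : ℕ) [NeZero M]

theorem sc_bl (t x ε₁ ε₂ : ℝ) : sc t (bl (wS M x ε₁ ε₂)) = bl (wS M (t * x) ε₁ ε₂) := by
  rw [sc, bl, bl, List.map_map]
  congr 1
  funext b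
  simp only [Function.comp_apply, wS, mul_assoc]

theorem wS_zero (ε₁ ε₂ : ℝ) : wS M 0 ε₁ ε₂ = 0 := by
  funext z j; simp [wS]

theorem det_hA_zero : (hA (0 : ZMod M × ZMod M → Fin 2 → ℝ)).det = 1 := by
  have := det_sector M 0 0 0 1 1 (by simp) (by norm_num) (by simp) (by norm_num)
  rw [wS_zero] at this
  rw [this]; simp

/-- sector partition function -/
def ZZ (x ε₁ ε₂ : ℝ) : ℝ := EE (cI (hA (0 : ZMod M × ZMod M → Fin 2 → ℝ))) (bE (bl (wS M x ε₁ ε₂)))

theorem ZZ_sq (x ε₁ ε₂ : ℝ) : (ZZ M x ε₁ ε₂) ^ 2 = (hA (wS M x ε₁ ε₂)).det := by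
  have := pf_sq (hA_t (0 : ZMod M × ZMod M → Fin 2 → ℝ)) (by rw [det_hA_zero]; norm_num)
    (bl (wS M x ε₁ ε₂))
  rw [det_hA_zero, mul_one, ← hA_eq] at this
  exact this

theorem factor_ge (x a b : ℝ) :
    (x ^ 2 + 2 * x - 1) ^ 2 + 2 * x * (1 - x ^ 2) * (2 - a - b)
      = (1 + x ^ 2) ^ 2 - 2 * x * (1 - x ^ 2) * (a + b) := by ring

theorem factor_pos {x a b : ℝ} (hx : 0 ≤ x) (hx1 : x < Real.sqrt 2 - 1) (ha : a ≤ 1) (hb : b ≤ 1) :
    0 < (1 + x ^ 2) ^ 2 - 2 * x * (1 - x ^ 2) * (a + b) := by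
  have h2 : Real.sqrt 2 ^ 2 = 2 := Real.sq_sqrt (by norm_num)
  have hs : Real.sqrt 2 < 2 := by nlinarith [Real.sqrt_nonneg 2]
  have hx2 : x < 1 := by linarith
  rw [← factor_ge]
  have h3 : x ^ 2 + 2 * x - 1 < 0 := by
    have : (x + 1) ^ 2 < 2 := by
      have : x + 1 < Real.sqrt 2 := by linarith
      nlinarith [Real.sqrt_nonneg 2]
    nlinarith
  have h4 : 0 < (x ^ 2 + 2 * x - 1) ^ 2 := by nlinarith
  have h5 : 0 ≤ 2 * x * (1 - x ^ 2) * (2 - a - b) := by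
    have : 0 ≤ 1 - x ^ 2 := by nlinarith
    have : 0 ≤ 2 - a - b := by linarith
    positivity
  linarith

theorem cos_lt_one_of_odd (k : ℕ) (hk : k < M) :
    Real.cos ((2 * Real.pi * k + Real.pi) / M) < 1 := by
  have hM : (0:ℝ) < M := by exact_mod_cast NeZero.pos M
  have hk' : (k:ℝ) + 1 ≤ M := by exact_mod_cast hk
  have hk0 : (0:ℝ) ≤ k := Nat.cast_nonneg k
  have hpi := Real.pi_pos
  set α := (2 * Real.pi * k + Real.pi) / M with hα
  have h1 : 0 < α := by positivity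
  have h2 : α < 2 * Real.pi := by
    rw [hα, div_lt_iff₀ hM]; nlinarith
  rcases lt_or_eq_of_le (Real.cos_le_one α) with h | h
  · exact h
  · exfalso
    rw [Real.cos_eq_one_iff_of_lt_of_lt (by linarith) h2] at h
    linarith

/-- the critical weight -/
def xc : ℝ := Real.sqrt 2 - 1

theorem xc_pos : 0 < xc := by
  have : (1:ℝ) < Real.sqrt 2 := by
    rw [Real.lt_sqrt (by norm_num)]; norm_num
  unfold xc; linarith

theorem xc_lt : xc < 1 := by
  have h2 : Real.sqrt 2 ^ 2 = 2 := Real.sq_sqrt (by norm_num)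
  have hs : Real.sqrt 2 < 2 := by nlinarith [Real.sqrt_nonneg 2]
  unfold xc; linarith

theorem xc_eq : xc ^ 2 + 2 * xc - 1 = 0 := by
  have h2 : Real.sqrt 2 ^ 2 = 2 := Real.sq_sqrt (by norm_num)
  unfold xc; nlinarith

theorem factor_crit (a b : ℝ) : (1 + xc ^ 2) ^ 2 - 2 * xc * (1 - xc ^ 2) * (a + b)
    = 2 * xc ^ 2 * (4 - 2 * a - 2 * b) := by
  have h := xc_eq
  have h1 : xc ^ 2 = 1 - 2 * xc := by linarith
  have h2 : 1 - xc ^ 2 = 2 * xc := by linarith
  rw [h2]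
  have h3 : (1 + xc ^ 2) ^ 2 = 8 * xc ^ 2 := by
    rw [h1]; nlinarith
  rw [h3]; ring

/-- admissible boundary twist: `θ ∈ {0, π}` with sign `ε` -/
structure Tw (θ ε : ℝ) : Prop where
  e : Complex.exp (θ * Complex.I) = ε
  s : ε * ε = 1

theorem tw_P : Tw 0 1 := ⟨by simp, by norm_num⟩
theorem tw_A : Tw Real.pi (-1) := ⟨by rw [Complex.exp_pi_mul_I]; simp, by norm_num⟩

theorem ZZ_sq' {θ₁ θ₂ ε₁ ε₂ : ℝ} (h1 : Tw θ₁ ε₁) (h2 : Tw θ₂ ε₂) (x : ℝ) :
    (ZZ M x ε₁ ε₂) ^ 2 = ∏ p : ZMod M × ZMod M,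
      ((1 + x ^ 2) ^ 2 - 2 * x * (1 - x ^ 2) * (Real.cos ((2 * Real.pi * p.1.val + θ₁) / M)
        + Real.cos ((2 * Real.pi * p.2.val + θ₂) / M))) := by
  rw [ZZ_sq, det_sector M x θ₁ θ₂ ε₁ ε₂ h1.e h1.s h2.e h2.s]

/-- positivity below the critical weight, every sector -/
theorem ZZ_pos_sub {θ₁ θ₂ ε₁ ε₂ : ℝ} (h1 : Tw θ₁ ε₁) (h2 : Tw θ₂ ε₂) {x : ℝ} (hx : 0 ≤ x)
    (hx1 : x < xc) : 0 < ZZ M x ε₁ ε₂ := by
  refine EE_bE_pos (hA_t _) (by rw [det_hA_zero]; norm_num) _ ?_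
  intro t ht
  rw [sc_bl, ← hA_eq, det_sector M (t * x) θ₁ θ₂ ε₁ ε₂ h1.e h1.s h2.e h2.s]
  refine (Finset.prod_pos fun p _ => ?_).ne'
  refine factor_pos (mul_nonneg ht.1 hx) ?_ (Real.cos_le_one _) (Real.cos_le_one _)
  have : t * x ≤ x := by nlinarith [ht.1, ht.2]
  exact lt_of_le_of_lt this hx1

theorem det_crit_pos {θ₁ θ₂ ε₁ ε₂ : ℝ} (h1 : Tw θ₁ ε₁) (h2 : Tw θ₂ ε₂)
    (hne : θ₁ = Real.pi ∨ θ₂ = Real.pi) : 0 < (hA (wS M xc ε₁ ε₂)).det := by
  rw [det_sector M xc θ₁ θ₂ ε₁ ε₂ h1.e h1.s h2.e h2.s]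
  refine Finset.prod_pos fun p _ => ?_
  rw [factor_crit]
  have hx := xc_pos
  have hc1 := Real.cos_le_one ((2 * Real.pi * p.1.val + θ₁) / M)
  have hc2 := Real.cos_le_one ((2 * Real.pi * p.2.val + θ₂) / M)
  rcases hne with h | h
  · subst h
    have := cos_lt_one_of_odd M p.1.val (ZMod.val_lt _)
    have h3 : 0 < 4 - 2 * Real.cos ((2 * Real.pi * p.1.val + Real.pi) / M)
      - 2 * Real.cos ((2 * Real.pi * p.2.val + θ₂) / M) := by linarith
    positivity
  · subst h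
    have := cos_lt_one_of_odd M p.2.val (ZMod.val_lt _)
    have h3 : 0 < 4 - 2 * Real.cos ((2 * Real.pi * p.1.val + θ₁) / M)
      - 2 * Real.cos ((2 * Real.pi * p.2.val + Real.pi) / M) := by linarith
    positivity

/-- positivity at the critical weight in the three sectors with an antiperiodic direction -/
theorem ZZ_pos_crit {θ₁ θ₂ ε₁ ε₂ : ℝ} (h1 : Tw θ₁ ε₁) (h2 : Tw θ₂ ε₂)
    (hne : θ₁ = Real.pi ∨ θ₂ = Real.pi) : 0 < ZZ M xc ε₁ ε₂ := by
  refine EE_bE_pos (hA_t _) (by rw [det_hA_zero]; norm_num) _ ?_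
  intro t ht
  rw [sc_bl, ← hA_eq]
  rcases eq_or_lt_of_le ht.2 with h | h
  · rw [h, one_mul]; exact (det_crit_pos M h1 h2 hne).ne'
  · rw [det_sector M (t * xc) θ₁ θ₂ ε₁ ε₂ h1.e h1.s h2.e h2.s]
    refine (Finset.prod_pos fun p _ => ?_).ne'
    refine factor_pos (mul_nonneg ht.1 xc_pos.le) ?_ (Real.cos_le_one _) (Real.cos_le_one _)
    have : t * xc < xc := by nlinarith [ht.1, ht.2, xc_pos]
    exact this

/-! ### the doubly periodic sector -/

/-- first zero mode on a face -/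
def m1 : Fin 4 → ℝ := ![-(Real.sqrt 2 / 2), 1, -(Real.sqrt 2 / 2), 0]
/-- second zero mode on a face -/
def m2 : Fin 4 → ℝ := ![-(Real.sqrt 2 / 2), 0, Real.sqrt 2 / 2, -1]

/-- normalised zero modes -/
def u1 (h : HE (ZMod M)) : ℝ := m1 h.2 / (Real.sqrt 2 * M)
/-- normalised zero modes -/
def u2 (h : HE (ZMod M)) : ℝ := m2 h.2 / (Real.sqrt 2 * M)

theorem hA_mulVec_face (w : ZMod M × ZMod M → Fin 2 → ℝ) (φ : HE (ZMod M) → ℝ)
    (f : ZMod M × ZMod M) (a : Fin 4) : (hA w *ᵥ φ) (f, a)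
      = (∑ b : Fin 4, sgn4 a b * φ (f, b))
        + ((if a = 1 then w (f + (1, 0)) 1 * φ (f + (1, 0), 3) else 0)
          - (if a = 3 then w f 1 * φ (f - (1, 0), 1) else 0))
        + ((if a = 0 then w f 0 * φ (f - (0, 1), 2) else 0)
          - (if a = 2 then w (f + (0, 1)) 0 * φ (f + (0, 1), 0) else 0)) := by
  rw [Matrix.mulVec, dotProduct, Fintype.sum_prod_type]
  simp only [hA, Matrix.of_apply, add_mul, sub_mul, Finset.sum_add_distrib, Finset.sum_sub_distrib]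
  have e0 : ∑ g : ZMod M × ZMod M, ∑ b : Fin 4, (if f = g then sgn4 a b else 0) * φ (g, b)
      = ∑ b : Fin 4, sgn4 a b * φ (f, b) := by
    rw [Finset.sum_eq_single f]
    · simp
    · intro g _ hg; simp
      intro h; exact absurd h.symm hg
    · intro h; exact absurd (Finset.mem_univ _) h
  have e1 : ∑ g : ZMod M × ZMod M, ∑ b : Fin 4,
      (if a = 1 ∧ b = 3 ∧ g = f + (1, 0) then w g 1 else 0) * φ (g, b)
      = if a = 1 then w (f + (1, 0)) 1 * φ (f + (1, 0), 3) else 0 := by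
    rw [Finset.sum_eq_single (f + (1, 0))]
    · rw [Finset.sum_eq_single 3]
      · by_cases h : a = 1 <;> simp [h]
      · intro b _ hb; simp [hb]
      · intro h; exact absurd (Finset.mem_univ _) h
    · intro g _ hg; simp [hg]
    · intro h; exact absurd (Finset.mem_univ _) h
  have e2 : ∑ g : ZMod M × ZMod M, ∑ b : Fin 4,
      (if a = 3 ∧ b = 1 ∧ f = g + (1, 0) then w f 1 else 0) * φ (g, b)
      = if a = 3 then w f 1 * φ (f - (1, 0), 1) else 0 := by
    rw [Finset.sum_eq_single (f - (1, 0))]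
    · rw [Finset.sum_eq_single 1]
      · by_cases h : a = 3 <;> simp [h]
      · intro b _ hb; simp [hb]
      · intro h; exact absurd (Finset.mem_univ _) h
    · intro g _ hg
      have : ¬ (f = g + (1, 0)) := fun h => hg (by rw [h]; abel)
      simp [this]
    · intro h; exact absurd (Finset.mem_univ _) h
  have e3 : ∑ g : ZMod M × ZMod M, ∑ b : Fin 4,
      (if a = 0 ∧ b = 2 ∧ f = g + (0, 1) then w f 0 else 0) * φ (g, b)
      = if a = 0 then w f 0 * φ (f - (0, 1), 2) else 0 := by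
    rw [Finset.sum_eq_single (f - (0, 1))]
    · rw [Finset.sum_eq_single 2]
      · by_cases h : a = 0 <;> simp [h]
      · intro b _ hb; simp [hb]
      · intro h; exact absurd (Finset.mem_univ _) h
    · intro g _ hg
      have : ¬ (f = g + (0, 1)) := fun h => hg (by rw [h]; abel)
      simp [this]
    · intro h; exact absurd (Finset.mem_univ _) h
  have e4 : ∑ g : ZMod M × ZMod M, ∑ b : Fin 4,
      (if a = 2 ∧ b = 0 ∧ g = f + (0, 1) then w g 0 else 0) * φ (g, b)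
      = if a = 2 then w (f + (0, 1)) 0 * φ (f + (0, 1), 0) else 0 := by
    rw [Finset.sum_eq_single (f + (0, 1))]
    · rw [Finset.sum_eq_single 0]
      · by_cases h : a = 2 <;> simp [h]
      · intro b _ hb; simp [hb]
      · intro h; exact absurd (Finset.mem_univ _) h
    · intro g _ hg; simp [hg]
    · intro h; exact absurd (Finset.mem_univ _) h
  rw [e0, e1, e2, e3, e4]

theorem wS_PP (x : ℝ) (z : ZMod M × ZMod M) (j : Fin 2) : wS M x 1 1 z j = x := by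
  simp [wS]

theorem hA_u1 : hA (wS M xc 1 1) *ᵥ u1 M = 0 := by
  have hs : Real.sqrt 2 ^ 2 = 2 := Real.sq_sqrt (by norm_num)
  have hM : (M:ℝ) ≠ 0 := by exact_mod_cast NeZero.ne M
  ext ⟨f, a⟩
  rw [hA_mulVec_face]
  simp only [wS_PP, u1, Pi.zero_apply, Fin.sum_univ_four]
  have hden : Real.sqrt 2 * (M:ℝ) ≠ 0 := by positivity
  fin_cases a <;> simp [m1, sgn4, xc] <;> field_simp <;> nlinarith

theorem hA_u2 : hA (wS M xc 1 1) *ᵥ u2 M = 0 := by
  have hs : Real.sqrt 2 ^ 2 = 2 := Real.sq_sqrt (by norm_num)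
  have hM : (M:ℝ) ≠ 0 := by exact_mod_cast NeZero.ne M
  ext ⟨f, a⟩
  rw [hA_mulVec_face]
  simp only [wS_PP, u2, Pi.zero_apply, Fin.sum_univ_four]
  have hden : Real.sqrt 2 * (M:ℝ) ≠ 0 := by positivity
  fin_cases a <;> simp [m2, sgn4, xc] <;> field_simp <;> nlinarith

theorem dot_u (m n : Fin 4 → ℝ) :
    (fun h : HE (ZMod M) => m h.2 / (Real.sqrt 2 * M)) ⬝ᵥ (fun h => n h.2 / (Real.sqrt 2 * M))
      = (∑ a, m a * n a) / 2 := by
  have hs : Real.sqrt 2 ^ 2 = 2 := Real.sq_sqrt (by norm_num)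
  have hM : (M:ℝ) ≠ 0 := by exact_mod_cast NeZero.ne M
  rw [dotProduct, Fintype.sum_prod_type]
  simp only [Finset.sum_const, Finset.card_univ, Fintype.card_prod, ZMod.card, nsmul_eq_mul]
  have : ∀ a : Fin 4, m a / (Real.sqrt 2 * M) * (n a / (Real.sqrt 2 * M)) = m a * n a * (1 / (2 * M ^ 2)) := by
    intro a; field_simp; rw [hs]; ring
  rw [Finset.sum_congr rfl fun a _ => this a, ← Finset.sum_mul]
  push_cast; field_simp

theorem n1 : u1 M ⬝ᵥ u1 M = 1 := by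
  have hs : Real.sqrt 2 ^ 2 = 2 := Real.sq_sqrt (by norm_num)
  have := dot_u M m1 m1
  refine this.trans ?_
  simp [m1, Fin.sum_univ_four]; nlinarith

theorem n2 : u2 M ⬝ᵥ u2 M = 1 := by
  have hs : Real.sqrt 2 ^ 2 = 2 := Real.sq_sqrt (by norm_num)
  have := dot_u M m2 m2
  refine this.trans ?_
  simp [m2, Fin.sum_univ_four]; nlinarith

theorem n12 : u1 M ⬝ᵥ u2 M = 0 := by
  have := dot_u M m1 m2
  refine this.trans ?_
  simp [m1, m2, Fin.sum_univ_four]

/-- pseudo-inverse from a regularised inverse -/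
theorem ker2_of {ι : Type*} [Fintype ι] [DecidableEq ι] {A : Matrix ι ι ℝ} (hA : Aᵀ = -A)
    {a b : ι → ℝ} (ha : A *ᵥ a = 0) (hb : A *ᵥ b = 0) (haa : a ⬝ᵥ a = 1) (hbb : b ⬝ᵥ b = 1)
    (hab : a ⬝ᵥ b = 0) (hd : (A + r2 a b).det ≠ 0) :
    Ker2 A ((A + r2 a b)⁻¹ - r2 b a) a b := by
  have hba : b ⬝ᵥ a = 0 := by rw [dotProduct_comm]; exact hab
  set A1 := A + r2 a b with hA1
  have hA1t : A1ᵀ = -A1 := by rw [hA1, Matrix.transpose_add, hA, r2_t, neg_add]
  have hu : IsUnit A1.det := isUnit_iff_ne_zero.2 hd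
  have e1 : A1 *ᵥ a = -b := by
    rw [hA1, Matrix.add_mulVec, ha, r2_mulVec, haa, hba]; simp
  have e2 : A1 *ᵥ b = a := by
    rw [hA1, Matrix.add_mulVec, hb, r2_mulVec, hbb, hab]; simp
  have i1 : A1⁻¹ *ᵥ b = -a := by
    have := congrArg (fun v => A1⁻¹ *ᵥ v) e1
    simp only [Matrix.mulVec_mulVec, Matrix.nonsing_inv_mul _ hu, Matrix.one_mulVec,
      Matrix.mulVec_neg] at this
    rw [this, neg_neg]
  have i2 : A1⁻¹ *ᵥ a = b := by
    have := congrArg (fun v => A1⁻¹ *ᵥ v) e2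
    simp only [Matrix.mulVec_mulVec, Matrix.nonsing_inv_mul _ hu, Matrix.one_mulVec] at this
    exact this.symm
  have hit : (A1⁻¹)ᵀ = -A1⁻¹ := inv_anti hA1t
  have j1 : b ᵥ* A1⁻¹ = a := by
    rw [← Matrix.mulVec_transpose, hit, Matrix.neg_mulVec, i1, neg_neg]
  have j2 : a ᵥ* A1⁻¹ = -b := by
    rw [← Matrix.mulVec_transpose, hit, Matrix.neg_mulVec, i2]
  refine ⟨hA, ?_, ha, hb, ?_, ?_, haa, hbb, hab, ?_⟩
  · rw [Matrix.transpose_sub, hit, r2_t]; abel
  · rw [Matrix.sub_mulVec, i2, r2_mulVec, haa, hba]; simp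
  · rw [Matrix.sub_mulVec, i1, r2_mulVec, hab, hbb]; simp
  · have hAe : A = A1 - r2 a b := by rw [hA1]; abel
    have t1 : A1 * r2 b a = vecMulVec a a + vecMulVec b b := by
      rw [r2, Matrix.mul_sub, Matrix.mul_vecMulVec, Matrix.mul_vecMulVec, e1, e2]
      ext i j; simp [vecMulVec_apply]
    have t2 : r2 a b * A1⁻¹ = vecMulVec a a + vecMulVec b b := by
      rw [r2, Matrix.sub_mul, Matrix.vecMulVec_mul, Matrix.vecMulVec_mul, j1, j2]
      ext i j; simp [vecMulVec_apply]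
    have t3 : r2 a b * r2 b a = vecMulVec a a + vecMulVec b b := by
      simp only [r2, Matrix.sub_mul, Matrix.mul_sub, Matrix.vecMulVec_mul_vecMulVec, haa, hbb, hab,
        hba]
      simp
    rw [hAe, Matrix.sub_mul, Matrix.mul_sub, Matrix.mul_sub, Matrix.mul_nonsing_inv _ hu, t1, t2, t3]
    abel

theorem pw_symm (k i : ZMod M) : pw M 0 k i = pw M 0 i k := by
  rw [pw, pw]; congr 2; push_cast; ring

theorem sum_pw0 (k : ZMod M) : ∑ i : ZMod M, pw M 0 k i = if k = 0 then (M:ℂ) else 0 := by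
  have h := sum_pw M 0 k 0
  rw [← h]
  refine Finset.sum_congr rfl fun i _ => ?_
  have : pw M 0 i 0 = 1 := by rw [pw, ZMod.val_zero]; simp
  rw [this, pw_symm]; simp

/-- Fourier block form of the rank-two regularisation -/
theorem r2_intertwine : (r2 (u1 M) (u2 M)).map ((↑) : ℝ → ℂ) * U4 M 0 0
    = U4 M 0 0 * blk M (fun p => if p = 0 then ((1/2 : ℝ) • r2 m1 m2).map ((↑) : ℝ → ℂ) else 0) := by
  have hs : Real.sqrt 2 ^ 2 = 2 := Real.sq_sqrt (by norm_num)
  have hM : (M:ℝ) ≠ 0 := by exact_mod_cast NeZero.ne M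
  have hMC : (M:ℂ) ≠ 0 := by exact_mod_cast NeZero.ne M
  ext h k
  rw [mul_U4, U4_mul_blk]
  obtain ⟨⟨i, j⟩, a⟩ := h
  obtain ⟨⟨p, q⟩, b⟩ := k
  have e : ∀ f : ZMod M × ZMod M, (r2 (u1 M) (u2 M)).map ((↑) : ℝ → ℂ) ((i, j), a) (f, b)
      = ((r2 m1 m2 a b / (2 * M ^ 2) : ℝ) : ℂ) := by
    intro f
    rw [Matrix.map_apply]
    congr 1
    simp only [r2, Matrix.sub_apply, vecMulVec_apply, u1, u2]
    field_simp
    rw [hs]; ring
  simp only [e]
  rw [← Finset.mul_sum, Fintype.sum_prod_type]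
  have e2 : ∑ x : ZMod M, ∑ y : ZMod M, pw M 0 p x * pw M 0 q y
      = (if p = 0 then (M:ℂ) else 0) * (if q = 0 then (M:ℂ) else 0) := by
    rw [← sum_pw0, ← sum_pw0, Finset.sum_mul_sum]
  rw [e2]
  by_cases hp : p = 0
  · by_cases hq : q = 0
    · subst hp; subst hq
      have h0 : ∀ i : ZMod M, pw M 0 0 i = 1 := by
        intro i; rw [pw_symm, pw, ZMod.val_zero]; simp
      simp only [h0, if_true]
      rw [if_pos (by rfl : ((0:ZMod M), (0:ZMod M)) = 0)]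
      simp only [Matrix.map_apply, Matrix.smul_apply, smul_eq_mul]
      push_cast
      field_simp
    · have : ¬ ((p, q) = (0 : ZMod M × ZMod M)) := fun h => hq (congrArg Prod.snd h)
      simp [hq, this]
  · have : ¬ ((p, q) = (0 : ZMod M × ZMod M)) := fun h => hp (congrArg Prod.fst h)
    simp [hp, this]

theorem det_block0 (t : ℝ) : (symb xc 1 1 1 1 + (t:ℂ) • ((1/2 : ℝ) • r2 m1 m2).map ((↑) : ℝ → ℂ)).det
    = 8 * t ^ 2 := by
  have hs : ((Real.sqrt 2 : ℝ) : ℂ) ^ 2 = 2 := by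
    rw [← Complex.ofReal_pow, Real.sq_sqrt (by norm_num)]; simp
  set s : ℂ := ((Real.sqrt 2 : ℝ) : ℂ) with hsdef
  have hM : (symb xc 1 1 1 1 + (t:ℂ) • ((1/2 : ℝ) • r2 m1 m2).map ((↑) : ℝ → ℂ))
      = !![0, 1 + t * (s / 4), s - t / 2, 1 + t * (s / 4);
           -(1 + t * (s / 4)), 0, 1 + t * (s / 4), s - t / 2;
           -(s - t / 2), -(1 + t * (s / 4)), 0, 1 + t * (s / 4);
           -(1 + t * (s / 4)), -(s - t / 2), -(1 + t * (s / 4)), 0] := by
    ext a b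
    fin_cases a <;> fin_cases b <;>
      simp [symb, xc, r2, m1, m2] <;> (try ring_nf) <;> (try simp only [← hsdef]) <;>
      (try simp only [hs]) <;> (try ring_nf) <;> (try simp)
  rw [hM]
  have a1 : Fin.succAbove (1 : Fin 4) (2 : Fin 3) = 3 := rfl
  have a2 : Fin.succAbove (2 : Fin 4) (2 : Fin 3) = 3 := rfl
  have a3 : Fin.succAbove (3 : Fin 4) (2 : Fin 3) = 2 := rfl
  have key : ∀ a b : ℂ, (!![0, a, b, a; -a, 0, a, b; -b, -a, 0, a; -a, -b, -a, 0] : Matrix (Fin 4) (Fin 4) ℂ).det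
      = (2 * a ^ 2 - b ^ 2) ^ 2 := by
    intro a b
    simp [Matrix.det_succ_row_zero, Fin.sum_univ_succ, a1, a2, a3]
    ring
  rw [key]
  have : 2 * (1 + t * (s / 4)) ^ 2 - (s - t / 2) ^ 2 = 2 * s * t := by
    linear_combination (t ^ 2 / 8 - 1) * hs
  rw [this]
  linear_combination (4 * t ^ 2) * hs

/-- determinant of the regularised doubly periodic matrix -/
theorem det_PP (t : ℝ) : (hA (wS M xc 1 1) + t • r2 (u1 M) (u2 M)).det
    = 8 * t ^ 2 * ∏ p ∈ (Finset.univ : Finset (ZMod M × ZMod M)).erase 0,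
      (2 * xc ^ 2 * (4 - 2 * Real.cos (2 * Real.pi * p.1.val / M)
        - 2 * Real.cos (2 * Real.pi * p.2.val / M))) := by
  have hT : (hA (wS M xc 1 1) + t • r2 (u1 M) (u2 M)).map ((↑) : ℝ → ℂ) * U4 M 0 0
      = U4 M 0 0 * blk M (fun p => sS M xc 0 0 p
        + (t:ℂ) • (if p = 0 then ((1/2 : ℝ) • r2 m1 m2).map ((↑) : ℝ → ℂ) else 0)) := by
    have e1 : (hA (wS M xc 1 1) + t • r2 (u1 M) (u2 M)).map ((↑) : ℝ → ℂ)
        = (hA (wS M xc 1 1)).map ((↑) : ℝ → ℂ) + (t:ℂ) • (r2 (u1 M) (u2 M)).map ((↑) : ℝ → ℂ) := by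
      ext a b; simp
    have e2 : blk M (fun p => sS M xc 0 0 p
        + (t:ℂ) • (if p = 0 then ((1/2 : ℝ) • r2 m1 m2).map ((↑) : ℝ → ℂ) else 0))
        = blk M (sS M xc 0 0) + (t:ℂ) • blk M (fun p => if p = 0 then
          ((1/2 : ℝ) • r2 m1 m2).map ((↑) : ℝ → ℂ) else 0) := by
      ext a b
      simp only [blk, Matrix.of_apply, Matrix.add_apply, Matrix.smul_apply]
      split_ifs <;> simp
    rw [e1, e2, Matrix.add_mul, Matrix.mul_add, Matrix.smul_mul, Matrix.mul_smul, r2_intertwine,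
      intertwine M xc 0 0 1 1 (by simp) (by norm_num) (by simp) (by norm_num)]
  have h := det_of_intertwine M 0 0 _ _ hT
  have hdet : ((hA (wS M xc 1 1) + t • r2 (u1 M) (u2 M)).map ((↑) : ℝ → ℂ)).det
      = (((hA (wS M xc 1 1) + t • r2 (u1 M) (u2 M)).det : ℝ) : ℂ) :=
    (RingHom.map_det Complex.ofRealHom _).symm
  rw [hdet] at h
  rw [← Finset.mul_prod_erase Finset.univ _ (Finset.mem_univ (0 : ZMod M × ZMod M))] at h
  have h0 : (sS M xc 0 0 0 + (t:ℂ) • (if (0 : ZMod M × ZMod M) = 0 then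
      ((1/2 : ℝ) • r2 m1 m2).map ((↑) : ℝ → ℂ) else 0)).det = 8 * t ^ 2 := by
    rw [if_pos rfl]
    have : sS M xc 0 0 0 = symb xc 1 1 1 1 := by
      simp [sS, ph]
    rw [this, det_block0]
  have h1 : ∀ p ∈ (Finset.univ : Finset (ZMod M × ZMod M)).erase 0,
      (sS M xc 0 0 p + (t:ℂ) • (if p = 0 then
        ((1/2 : ℝ) • r2 m1 m2).map ((↑) : ℝ → ℂ) else 0)).det
      = ((2 * xc ^ 2 * (4 - 2 * Real.cos (2 * Real.pi * p.1.val / M)
        - 2 * Real.cos (2 * Real.pi * p.2.val / M)) : ℝ) : ℂ) := by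
    intro p hp
    rw [if_neg (Finset.ne_of_mem_erase hp), smul_zero, add_zero, sS,
      det_symb xc _ _ _ _ (mul_inv_cancel₀ (ph_ne M 0 p.1)) (mul_inv_cancel₀ (ph_ne M 0 p.2))]
    have hcos : ∀ (k : ZMod M), ph M 0 k + (ph M 0 k)⁻¹
        = ((2 * Real.cos (2 * Real.pi * k.val / M) : ℝ) : ℂ) := by
      intro k
      rw [ph, ← Complex.exp_neg, Complex.ofReal_mul, Complex.ofReal_cos, Complex.cos]
      push_cast
      rw [neg_mul, add_zero]
      ring
    rw [hcos, hcos, ← factor_crit]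
    push_cast; ring
  rw [h0, Finset.prod_congr rfl h1, ← Complex.ofReal_prod] at h
  exact_mod_cast h

theorem sum_range_zmod (f : ℕ × ℕ → ℝ) :
    ∏ p : ZMod M × ZMod M, f (p.1.val, p.2.val) = ∏ kl ∈ Finset.range M ×ˢ Finset.range M, f kl := by
  refine Finset.prod_nbij (fun p : ZMod M × ZMod M => (p.1.val, p.2.val)) ?_ ?_ ?_ ?_
  · intro p _; simp [ZMod.val_lt]
  · intro a _ b _ hab
    simp only [Prod.mk.injEq] at hab
    exact Prod.ext (ZMod.val_injective M hab.1) (ZMod.val_injective M hab.2)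
  · rintro ⟨k, l⟩ hkl
    have hkl' : k < M ∧ l < M := by simpa using hkl
    exact ⟨((k : ZMod M), (l : ZMod M)), by simp,
      by simp [ZMod.val_cast_of_lt hkl'.1, ZMod.val_cast_of_lt hkl'.2]⟩
  · intro p _; rfl

theorem prod_erase_zmod (f : ℕ × ℕ → ℝ) :
    ∏ p ∈ (Finset.univ : Finset (ZMod M × ZMod M)).erase 0, f (p.1.val, p.2.val)
      = ∏ kl ∈ (Finset.range M ×ˢ Finset.range M).erase (0, 0), f kl := by
  refine Finset.prod_nbij (fun p : ZMod M × ZMod M => (p.1.val, p.2.val)) ?_ ?_ ?_ ?_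
  · intro p hp
    have hp' := Finset.ne_of_mem_erase hp
    simp only [Finset.mem_erase, ne_eq, Prod.mk.injEq, Finset.mem_product, Finset.mem_range,
      ZMod.val_lt, and_self, and_true, ZMod.val_eq_zero]
    intro h; exact hp' (Prod.ext h.1 h.2)
  · intro a _ b _ hab
    simp only [Prod.mk.injEq] at hab
    exact Prod.ext (ZMod.val_injective M hab.1) (ZMod.val_injective M hab.2)
  · rintro ⟨k, l⟩ hkl
    have hkl'' : (k < M ∧ l < M) ∧ (k = 0 → ¬l = 0) := by simpa using hkl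
    have hkl' : ¬ (k = 0 ∧ l = 0) ∧ k < M ∧ l < M :=
      ⟨fun h => hkl''.2 h.1 h.2, hkl''.1.1, hkl''.1.2⟩
    refine ⟨((k : ZMod M), (l : ZMod M)), ?_,
      by simp [ZMod.val_cast_of_lt hkl'.2.1, ZMod.val_cast_of_lt hkl'.2.2]⟩
    simp only [Finset.coe_erase, Finset.coe_univ, Set.mem_sdiff, Set.mem_univ, true_and,
      Set.mem_singleton_iff]
    intro h0
    apply hkl'.1
    have h1 : ((k : ZMod M)) = 0 := congrArg Prod.fst h0
    have h2 : ((l : ZMod M)) = 0 := congrArg Prod.snd h0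
    have h3 := congrArg ZMod.val h1
    have h4 := congrArg ZMod.val h2
    rw [ZMod.val_cast_of_lt hkl'.2.1, ZMod.val_zero] at h3
    rw [ZMod.val_cast_of_lt hkl'.2.2, ZMod.val_zero] at h4
    exact ⟨h3, h4⟩
  · intro p _; rfl

/-- the reduced doubly periodic partition function -/
def ZP : ℝ := EE (cI (hA (0 : ZMod M × ZMod M → Fin 2 → ℝ)))
  (bE (bl (wS M xc 1 1)) * (fi (u1 M) * fi (u2 M)))

/-- the pseudo-inverse in the doubly periodic sector -/
def BP : Matrix (HE (ZMod M)) (HE (ZMod M)) ℝ :=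
  (hA (wS M xc 1 1) + r2 (u1 M) (u2 M))⁻¹ - r2 (u2 M) (u1 M)

theorem prod_PP_pos : 0 < ∏ p ∈ (Finset.univ : Finset (ZMod M × ZMod M)).erase 0,
      (2 * xc ^ 2 * (4 - 2 * Real.cos (2 * Real.pi * p.1.val / M)
        - 2 * Real.cos (2 * Real.pi * p.2.val / M))) := by
  refine Finset.prod_pos fun p hp => ?_
  have hp' := Finset.ne_of_mem_erase hp
  have hM : (0:ℝ) < M := by exact_mod_cast NeZero.pos M
  have hpi := Real.pi_pos
  have hcos : ∀ k : ZMod M, k ≠ 0 → Real.cos (2 * Real.pi * k.val / M) < 1 := by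
    intro k hk
    have hk0 : 0 < k.val := Nat.pos_of_ne_zero (fun h => hk ((ZMod.val_eq_zero k).1 h))
    have hk0' : (0:ℝ) < k.val := by exact_mod_cast hk0
    have hkM : (k.val : ℝ) < M := by exact_mod_cast ZMod.val_lt k
    set α := 2 * Real.pi * (k.val:ℝ) / M with hα
    have h1 : 0 < α := by positivity
    have h2 : α < 2 * Real.pi := by rw [hα, div_lt_iff₀ hM]; nlinarith
    rcases lt_or_eq_of_le (Real.cos_le_one α) with h | h
    · exact h
    · exfalso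
      rw [Real.cos_eq_one_iff_of_lt_of_lt (by linarith) h2] at h
      linarith
  have hx := xc_pos
  have c1 := Real.cos_le_one (2 * Real.pi * p.1.val / M)
  have c2 := Real.cos_le_one (2 * Real.pi * p.2.val / M)
  have h3 : 0 < 4 - 2 * Real.cos (2 * Real.pi * p.1.val / M)
      - 2 * Real.cos (2 * Real.pi * p.2.val / M) := by
    by_cases h1 : p.1 = 0
    · have h2 : p.2 ≠ 0 := fun h => hp' (Prod.ext h1 h)
      have := hcos _ h2; linarith
    · have := hcos _ h1; linarith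
  positivity

theorem ker2_PP : Ker2 (hA (wS M xc 1 1)) (BP M) (u1 M) (u2 M) := by
  refine ker2_of (hA_t _) (hA_u1 M) (hA_u2 M) (n1 M) (n2 M) (n12 M) ?_
  have := det_PP M 1
  rw [one_smul] at this
  rw [this]
  have := prod_PP_pos M
  positivity

/-- **exact formula in the doubly periodic sector** -/
theorem PP_formula (F : Gr (HE (ZMod M) → ℝ)) :
    EE (cI (hA (0 : ZMod M × ZMod M → Fin 2 → ℝ))) (bE (bl (wS M xc 1 1)) * F)
      = ZP M * EE (cv (-(BP M))) (dd (dl (u2 M)) (dd (dl (u1 M)) F)) := by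
  refine zero_mode (hA_t _) (by rw [det_hA_zero]; norm_num) (bl (wS M xc 1 1)) (B := BP M) ?_ F
  rw [← hA_eq]; exact ker2_PP M

theorem ZP_sq : (ZP M) ^ 2 = 8 * ∏ p ∈ (Finset.univ : Finset (ZMod M × ZMod M)).erase 0,
      (2 * xc ^ 2 * (4 - 2 * Real.cos (2 * Real.pi * p.1.val / M)
        - 2 * Real.cos (2 * Real.pi * p.2.val / M))) := by
  have h := zero_mode_sq (hA_t (0 : ZMod M × ZMod M → Fin 2 → ℝ)) (by rw [det_hA_zero]; norm_num)
    (bl (wS M xc 1 1)) (B := BP M) (u1 := u1 M) (u2 := u2 M) (by rw [← hA_eq]; exact ker2_PP M) 1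
  rw [← hA_eq, det_hA_zero, det_PP] at h
  simpa [ZP] using h

/-- **the doubly periodic sector against the doubly antiperiodic one** -/
theorem ZP_le : |ZP M| ≤ (2 / xc) * M * ZZ M xc (-1) (-1) := by
  have hx := xc_pos
  have hM : (0:ℝ) < M := by exact_mod_cast NeZero.pos M
  have hAA := ZZ_pos_crit M tw_A tw_A (Or.inl rfl)
  have h1 := ZP_sq M
  have h2 : (ZZ M xc (-1) (-1)) ^ 2 = ∏ p : ZMod M × ZMod M,
      (2 * xc ^ 2 * (4 - 2 * Real.cos ((2 * Real.pi * p.1.val + Real.pi) / M)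
        - 2 * Real.cos ((2 * Real.pi * p.2.val + Real.pi) / M))) := by
    rw [ZZ_sq' M tw_A tw_A]
    exact Finset.prod_congr rfl fun p _ => factor_crit _ _
  have h3 := PP_le_AA M (NeZero.pos M)
  rw [Finset.prod_mul_distrib, Finset.prod_const, Finset.card_erase_of_mem (Finset.mem_univ _),
    Finset.card_univ, Fintype.card_prod, ZMod.card] at h1
  rw [Finset.prod_mul_distrib, Finset.prod_const, Finset.card_univ, Fintype.card_prod,
    ZMod.card] at h2
  have e1 := prod_erase_zmod M (fun kl => 4 - 2 * Real.cos (2 * Real.pi * kl.1 / M)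
        - 2 * Real.cos (2 * Real.pi * kl.2 / M))
  have e2 := sum_range_zmod M (fun kl => 4 - 2 * Real.cos ((2 * Real.pi * kl.1 + Real.pi) / M)
        - 2 * Real.cos ((2 * Real.pi * kl.2 + Real.pi) / M))
  simp only at e1 e2
  rw [← e1, ← e2] at h3
  set X := ∏ p ∈ (Finset.univ : Finset (ZMod M × ZMod M)).erase 0,
    (4 - 2 * Real.cos (2 * Real.pi * p.1.val / M) - 2 * Real.cos (2 * Real.pi * p.2.val / M)) with hX
  set Y := ∏ p : ZMod M × ZMod M, (4 - 2 * Real.cos ((2 * Real.pi * p.1.val + Real.pi) / M)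
        - 2 * Real.cos ((2 * Real.pi * p.2.val + Real.pi) / M)) with hY
  have hMM : M * M = (M * M - 1) + 1 := by
    have : 0 < M * M := Nat.mul_pos (NeZero.pos M) (NeZero.pos M)
    omega
  have h4 : (ZP M) ^ 2 ≤ ((2 / xc) * M * ZZ M xc (-1) (-1)) ^ 2 := by
    have e5 : ((2 / xc) * M * ZZ M xc (-1) (-1)) ^ 2
        = (2 / xc) ^ 2 * M ^ 2 * ((2 * xc ^ 2) ^ (M * M - 1) * (2 * xc ^ 2) * Y) := by
      rw [mul_pow, mul_pow, h2, ← pow_succ, ← hMM]
    rw [h1, e5]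
    have hp : 0 ≤ (2 * xc ^ 2) ^ (M * M - 1) := by positivity
    have : 8 * ((2 * xc ^ 2) ^ (M * M - 1) * X) ≤ 8 * ((2 * xc ^ 2) ^ (M * M - 1) * (M ^ 2 * Y)) := by
      have := mul_le_mul_of_nonneg_left h3 hp
      linarith
    refine this.trans (le_of_eq ?_)
    field_simp
    ring
  exact abs_le_of_sq_le_sq h4 (by positivity)

end Crest.Agent.R165.TorSecx599
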