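import Crest.Agent.R165.J1a_606

/-!
# Row 165 (S0250), block J, (J1) part b: walls of spin configurations and parity at faces
-/

set_option autoImplicit false

noncomputable section

namespace Crest.Agent.R165.J1bx606

open Crest.Agent.R165.Gr0x606 Crest.Agent.R165.Gr1x606 Crest.Agent.R165.J1ax606

/-! ### diagonal rescaling -/

section dil
variable {ι : Type*}

/-- diagonal rescaling of the fields -/
def dil (σ : ι → ℝ) : VI ι →ₗ[ℝ] VI ι :=
  Finsupp.linearCombination ℝ (fun i => σ i • Finsupp.single i (1 : ℝ))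

@[simp] theorem dil_single (σ : ι → ℝ) (i : ι) :
    dil σ (Finsupp.single i 1) = σ i • Finsupp.single i 1 := by
  rw [dil, Finsupp.linearCombination_single, one_smul]

@[simp] theorem mp_dil_ph (σ : ι → ℝ) (i : ι) : mp (dil σ) (ph i) = σ i • ph i := by
  rw [ph, mp_fi, dil_single, fi_smul]

/-- forms are determined by their kernels -/
theorem form_ext {B C : LinearMap.BilinForm ℝ (VI ι)}
    (h : ∀ i j, B (Finsupp.single i 1) (Finsupp.single j 1) =
      C (Finsupp.single i 1) (Finsupp.single j 1)) : B = C := by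
  apply Finsupp.lhom_ext'
  intro i
  apply LinearMap.ext_ring
  apply Finsupp.lhom_ext'
  intro j
  apply LinearMap.ext_ring
  exact h i j

/-- rescaling of a Gaussian state -/
theorem EE_dil (K K' : ι → ι → ℝ) (hK : ∀ i j, K i j = -K j i) (hK' : ∀ i j, K' i j = -K' j i)
    (σ : ι → ℝ) (h : ∀ i j, K' i j = σ i * σ j * K i j) (a : Gr (VI ι)) :
    EE (covOf K hK) (mp (dil σ) a) = EE (covOf K' hK') a := by
  apply EE_mp
  have : formOf K' = (formOf K).compl₁₂ (dil σ) (dil σ) := by
    apply form_ext
    intro i j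
    rw [formOf_single, LinearMap.compl₁₂_apply, dil_single, dil_single, map_smul, map_smul,
      LinearMap.smul_apply, formOf_single, h, smul_eq_mul, smul_eq_mul]
    ring
  intro x y
  rw [covOf_b, covOf_b, this, LinearMap.compl₁₂_apply]

end dil

section par
variable {G : Type*} [CommRing G] [DecidableEq G]

theorem mp_dil_mon (σ : HE G → ℝ) (S : Finset (EG G)) :
    mp (dil σ) (mon S : Gr (VI (HE G))) =
      (∏ e ∈ S, σ (pe e) * σ (qe e)) • (mon S : Gr (VI (HE G))) := by
  induction S using Finset.induction_on with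
  | empty => simp
  | insert e S he ih =>
    rw [mon_insert he, Ge.coe_mul, map_mul, ih, coe_bb, map_mul, mp_dil_ph, mp_dil_ph,
      Finset.prod_insert he, smul_mul_smul_comm, smul_mul_smul_comm]

/-- the four edges around a face -/
def fstar (f : G × G) : Finset (EG G) := {(f, 0), (f + (1, 0), 1), (f + (0, 1), 0), (f, 1)}

/-- indicator with values in `ZMod 2` -/
def ind (S : Finset (EG G)) (e : EG G) : ZMod 2 := if e ∈ S then 1 else 0

omit [CommRing G] in
theorem ind_eq_one {S : Finset (EG G)} {e : EG G} : ind S e = 1 ↔ e ∈ S := by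
  unfold ind; split_ifs with h <;> simp [h]

omit [CommRing G] in
theorem ind_eq_zero {S : Finset (EG G)} {e : EG G} : ind S e = 0 ↔ e ∉ S := by
  unfold ind; split_ifs with h <;> simp [h]

/-- a set of edges is even at the face `f` -/
def EvAt (S : Finset (EG G)) (f : G × G) : Prop :=
  ind S (f, 0) + ind S (f + (1, 0), 1) + (ind S (f + (0, 1), 0) + ind S (f, 1)) = 0

theorem card_pe (S : Finset (EG G)) (f : G × G) :
    (((S.filter fun e => (pe e).1 = f).card : ℕ) : ZMod 2) = ind S (f, 0) + ind S (f + (1, 0), 1) := by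
  have h : S.filter (fun e => (pe e).1 = f) = S.filter (fun e => e = (f, 0)) ∪
      S.filter (fun e => e = (f + (1, 0), 1)) := by
    ext ⟨z, j⟩
    simp only [Finset.mem_filter, Finset.mem_union, ← and_or_left]
    refine and_congr_right fun _ => ?_
    fin_cases j
    · simp [pe]
    · simp [pe, sub_eq_iff_eq_add]
  have hd : Disjoint (S.filter (fun e => e = (f, 0))) (S.filter (fun e => e = (f + (1, 0), 1))) := by
    rw [Finset.disjoint_filter]
    rintro ⟨z, j⟩ _ h1 h2
    rw [h1] at h2
    exact absurd (Prod.mk.inj h2).2 (by decide)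
  rw [h, Finset.card_union_of_disjoint hd, Nat.cast_add]
  congr 1
  · unfold ind
    rw [Finset.filter_eq']
    split_ifs <;> simp
  · unfold ind
    rw [Finset.filter_eq']
    split_ifs <;> simp

theorem card_qe (S : Finset (EG G)) (f : G × G) :
    (((S.filter fun e => (qe e).1 = f).card : ℕ) : ZMod 2) = ind S (f + (0, 1), 0) + ind S (f, 1) := by
  have h : S.filter (fun e => (qe e).1 = f) = S.filter (fun e => e = (f + (0, 1), 0)) ∪
      S.filter (fun e => e = (f, 1)) := by
    ext ⟨z, j⟩
    simp only [Finset.mem_filter, Finset.mem_union, ← and_or_left]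
    refine and_congr_right fun _ => ?_
    fin_cases j
    · simp [qe, sub_eq_iff_eq_add]
    · simp [qe]
  have hd : Disjoint (S.filter (fun e => e = (f + (0, 1), 0))) (S.filter (fun e => e = (f, 1))) := by
    rw [Finset.disjoint_filter]
    rintro ⟨z, j⟩ _ h1 h2
    rw [h1] at h2
    exact absurd (Prod.mk.inj h2).2 (by decide)
  rw [h, Finset.card_union_of_disjoint hd, Nat.cast_add]
  congr 1
  · unfold ind
    rw [Finset.filter_eq']
    split_ifs <;> simp
  · unfold ind
    rw [Finset.filter_eq']
    split_ifs <;> simp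

/-- **parity**: the one-face state kills edge sets which are odd at some face -/
theorem E0_mon_odd (S : Finset (EG G)) (f : G × G) (h : ¬EvAt S f) :
    E0 (mon S : Gr (VI (HE G))) = 0 := by
  set σ : HE G → ℝ := fun h => if h.1 = f then -1 else 1 with hσ
  have h1 : E0 (mp (dil σ) (mon S : Gr (VI (HE G)))) = E0 (mon S : Gr (VI (HE G))) := by
    refine EE_dil K0 K0 K0_anti K0_anti σ ?_ _
    intro i j
    by_cases e : i.1 = j.1
    · have : σ i * σ j = 1 := by
        simp only [hσ, e]; split_ifs <;> norm_num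
      rw [this, one_mul]
    · have : K0 i j = 0 := if_neg e
      rw [this, mul_zero]
  rw [mp_dil_mon, map_smul, smul_eq_mul, Finset.prod_mul_distrib] at h1
  have h2 : ∏ e ∈ S, σ (pe e) = (-1) ^ (S.filter fun e => (pe e).1 = f).card := by
    rw [hσ]; dsimp only; rw [Finset.prod_ite, Finset.prod_const, Finset.prod_const_one, mul_one]
  have h3 : ∏ e ∈ S, σ (qe e) = (-1) ^ (S.filter fun e => (qe e).1 = f).card := by
    rw [hσ]; dsimp only; rw [Finset.prod_ite, Finset.prod_const, Finset.prod_const_one, mul_one]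
  rw [h2, h3, ← pow_add] at h1
  have h4 : Odd ((S.filter fun e => (pe e).1 = f).card + (S.filter fun e => (qe e).1 = f).card) := by
    rw [← Nat.not_even_iff_odd, ← ZMod.natCast_eq_zero_iff_even, Nat.cast_add, card_pe, card_qe]
    exact h
  rw [h4.neg_one_pow] at h1
  linarith

end par

/-! ### walls -/

section walls
variable {G : Type*} [CommRing G] [DecidableEq G]

/-- the four edges at a site -/
def star (v : G × G) : Finset (EG G) := {(v, 0), (v - (1, 0), 0), (v, 1), (v - (0, 1), 1)}

theorem mem_star {v : G × G} {e : EG G} : e ∈ star v ↔ e.1 = v ∨ e.1 + uv e.2 = v := by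
  obtain ⟨z, j⟩ := e
  fin_cases j
  · simp [star, uv, eq_sub_iff_add_eq]
  · simp [star, uv, eq_sub_iff_add_eq]

/-- edges with at least one endpoint in `T` -/
def touch (T : Finset (G × G)) : Finset (EG G) := T.biUnion star

theorem mem_touch {T : Finset (G × G)} {e : EG G} : e ∈ touch T ↔ e.1 ∈ T ∨ e.1 + uv e.2 ∈ T := by
  simp only [touch, Finset.mem_biUnion, mem_star]
  constructor
  · rintro ⟨v, hv, rfl | rfl⟩
    · exact Or.inl hv
    · exact Or.inr hv
  · rintro (h | h)
    · exact ⟨_, h, Or.inl rfl⟩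
    · exact ⟨_, h, Or.inr rfl⟩

/-- the walls of the set `N` of minus spins -/
def walls (N : Finset (G × G)) : Finset (EG G) :=
  (touch N).filter fun e => ¬(e.1 ∈ N ∧ e.1 + uv e.2 ∈ N)

theorem mem_walls {N : Finset (G × G)} {e : EG G} :
    e ∈ walls N ↔ ¬(e.1 ∈ N ↔ e.1 + uv e.2 ∈ N) := by
  rw [walls, Finset.mem_filter, mem_touch]
  tauto

@[simp] theorem walls_empty : walls (∅ : Finset (G × G)) = ∅ := by
  ext e; simp [mem_walls]

theorem mem_sstar {S : Finset (EG G)} {v : G × G} {e : EG G} :
    e ∈ sstar S v ↔ Xor (Xor (e ∈ S) (e.1 = v)) (e.1 + uv e.2 = v) := by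
  obtain ⟨z, j⟩ := e
  fin_cases j
  · simp only [sstar, Finset.mem_symmDiff, Finset.mem_singleton, Prod.mk.injEq, uv, Xor,
      Fin.zero_eta, Fin.isValue, eq_sub_iff_add_eq, zero_ne_one, and_false, and_true,
      if_true]
    tauto
  · simp only [sstar, Finset.mem_symmDiff, Finset.mem_singleton, Prod.mk.injEq, uv, Xor,
      Fin.mk_one, Fin.isValue, eq_sub_iff_add_eq, one_ne_zero, and_false, and_true,
      if_false]
    tauto

theorem walls_insert {N : Finset (G × G)} {v : G × G} (hv : v ∉ N) :
    walls (insert v N) = sstar (walls N) v := by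
  ext e
  rw [mem_sstar, mem_walls, mem_walls, Finset.mem_insert, Finset.mem_insert]
  have h1 : e.1 = v → e.1 ∉ N := fun h => h ▸ hv
  have h2 : e.1 + uv e.2 = v → e.1 + uv e.2 ∉ N := fun h => h ▸ hv
  unfold Xor
  tauto

/-- **walls have weight one** -/
theorem E0_mon_walls (N : Finset (G × G)) : E0 (mon (walls N) : Gr (VI (HE G))) = 1 := by
  induction N using Finset.induction_on with
  | empty => simp [E0]
  | insert v N hv ih => rw [walls_insert hv, E0_mon_sstar, ih]

end walls

end Crest.Agent.R165.J1bx606
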