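import Crest.Agent.R165.TorusComb_922
import Crest.Agent.R165.J1b_606
import Crest.Prelude.Def_PerturbedIsing

/-!
Row 165, block J (helper922): (J1) on the torus. On top of `J1b_606` (generic group, here `ZMod L`) and
`TorusComb_922`.

* `J1T` : `Σ_σ Π_{walls σ} y = ½ Σ_{a,b = ±1} E0 [Π_e (1 + seam_{ab}(e) y_e b_e)]`
* `J1T_ins` : the same with the insertion `Π_{e ∈ Γ} ε_e`, which becomes
  `Π_{e ∈ Γ} (1 - 2 seam_{ab}(e) y_e b_e)` in each sector.
-/

set_option autoImplicit false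
set_option linter.all false

noncomputable section

open Finset
open Crest.ProbabilityR.IsingModel

namespace Crest.Agent.R165.TorusJ1x922

open Crest.Agent.R165.Gr0x606 Crest.Agent.R165.Gr1x606 Crest.Agent.R165.J1ax606
open Crest.Agent.R165.TorusCombx922

variable {L : ℕ} [NeZero L]

/-- The one-face state of the monomial of an edge set. -/
def kap (S : Finset (Ed L)) : ℝ := E0 (mon S : Gr (VI (HE (ZMod L))))

theorem kap_empty : kap (∅ : Finset (Ed L)) = 1 := by
  simp [kap, E0]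

theorem tgt_eq (e : Ed L) : tgt e = e.1 + uv e.2 := by
  obtain ⟨⟨i, j⟩, k⟩ := e
  have hk : k = 0 ∨ k = 1 := by omega
  rcases hk with rfl | rfl
  · simp [tgt, uv]
  · simp [tgt, uv]

theorem sstar_eq (hL : 2 ≤ L) (S : Finset (Ed L)) (v : Vx L) :
    sstar S v = symmDiff S (starSet v) := by
  ext e
  rw [J1bx606.mem_sstar, Finset.mem_symmDiff, mem_starSet hL, ← tgt_eq]
  have : e.1 = v → tgt e = v → e.1 = tgt e := fun h h' => h.trans h'.symm
  have hne : e.1 ≠ tgt e := by
    have h1 : (1 : ZMod L) ≠ 0 := by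
      haveI : Fact (1 < L) := ⟨by omega⟩
      exact one_ne_zero
    obtain ⟨⟨i, j⟩, k⟩ := e
    intro h
    by_cases hk : k = 0
    · simp only [tgt, hk, if_true, Prod.mk.injEq] at h
      exact h1 (by simpa using h.1)
    · simp only [tgt, hk, if_false, Prod.mk.injEq] at h
      exact h1 (by simpa using h.2)
  unfold Xor
  tauto

theorem kap_toggle (hL : 2 ≤ L) (S : Finset (Ed L)) (v : Vx L) :
    kap (symmDiff S (starSet v)) = kap S := by
  rw [← sstar_eq hL, kap, kap, E0_mon_sstar]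

theorem kap_odd (S : Finset (Ed L)) (i j : ZMod L) (h : ¬ EvenAt S i j) : kap S = 0 := by
  refine J1bx606.E0_mon_odd S (i, j) fun h' => h ?_
  unfold J1bx606.EvAt at h'
  unfold EvenAt
  simp only [Prod.mk_add_mk, add_zero] at h'
  have e : ∀ e : Ed L, J1bx606.ind S e = ind S e := fun _ => rfl
  simp only [e] at h'
  rw [← h']
  ring

/-- Expansion of the product over all edges. -/
theorem E0_prod_univ (y : Ed L → ℝ) :
    E0 ((∏ e : Ed L, (1 + y e • bb e) : Ge (VI (HE (ZMod L)))) : Gr (VI (HE (ZMod L)))) =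
      ∑ S : Finset (Ed L), (∏ e ∈ S, y e) * kap S := by
  rw [Finset.prod_one_add, Finset.powerset_univ]
  have : ∀ S : Finset (Ed L), ∏ e ∈ S, y e • bb e = (∏ e ∈ S, y e) • mon S := by
    intro S
    rw [mon, Finset.prod_smul]
  simp only [this]
  have h2 : ((∑ S : Finset (Ed L), (∏ e ∈ S, y e) • mon S : Ge (VI (HE (ZMod L)))) :
      Gr (VI (HE (ZMod L)))) =
      ∑ S : Finset (Ed L), (∏ e ∈ S, y e) • (mon S : Gr (VI (HE (ZMod L)))) := by
    have := map_sum (Ge (VI (HE (ZMod L)))).val (fun S => (∏ e ∈ S, y e) • mon S) univ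
    exact this
  rw [h2, map_sum]
  refine Finset.sum_congr rfl fun S _ => ?_
  rw [map_smul, smul_eq_mul]
  rfl

/-- The four sectors. -/
def sec (s : Fin 2 × Fin 2) (e : Ed L) : ℝ :=
  seam (if s.1 = 0 then 1 else -1) (if s.2 = 0 then 1 else -1) e

/-- The product `Π_e (1 + y_e b_e)`. -/
def PE (y : Ed L → ℝ) : Ge (VI (HE (ZMod L))) := ∏ e : Ed L, (1 + y e • bb e)

/-- The unnormalised weight of an even element in a sector. -/
def ZE (y : Ed L → ℝ) (X : Ge (VI (HE (ZMod L)))) : ℝ :=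
  E0 ((PE y * X : Ge (VI (HE (ZMod L)))) : Gr (VI (HE (ZMod L))))

/-- **(J1) on the torus**, all four signs plus. -/
theorem J1T (hL : 2 ≤ L) (y : Ed L → ℝ) :
    ∑ σ : Vx L → Bool, ∏ e ∈ walls σ, y e =
      (1 / 2) * ∑ s : Fin 2 × Fin 2, ZE (fun e => sec s e * y e) 1 := by
  rw [torus_sectors hL kap kap_empty (kap_toggle hL) kap_odd y]
  rw [Fintype.sum_prod_type]
  simp only [Fin.sum_univ_two]
  unfold ZE PE
  simp only [mul_one]
  rw [E0_prod_univ, E0_prod_univ, E0_prod_univ, E0_prod_univ]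
  simp only [sec]
  simp only [if_true, one_ne_zero, if_false]
  ring

/-- The bond variable on the torus. -/
def epsT (σ : Vx L → Bool) (e : Ed L) : ℝ := spinSign (σ e.1) * spinSign (σ (tgt e))

theorem epsT_eq (σ : Vx L → Bool) (e : Ed L) : epsT σ e = if e ∈ walls σ then -1 else 1 := by
  unfold epsT walls
  simp only [mem_filter, mem_univ, true_and]
  cases σ e.1 <;> cases σ (tgt e) <;> simp [spinSign]

/-- Insertions change the signs of the weights. -/
theorem prod_ins (σ : Vx L → Bool) (Γ : Finset (Ed L)) (y : Ed L → ℝ) :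
    (∏ e ∈ Γ, epsT σ e) * ∏ e ∈ walls σ, y e =
      ∏ e ∈ walls σ, (if e ∈ Γ then -1 else 1) * y e := by
  rw [Finset.prod_mul_distrib]
  congr 1
  simp only [epsT_eq]
  rw [Finset.prod_ite, Finset.prod_ite]
  simp only [Finset.prod_const, Finset.prod_const_one, mul_one]
  have : (Γ.filter fun e => e ∈ walls σ) = (walls σ).filter fun e => e ∈ Γ := by
    ext e
    simp only [mem_filter]
    tauto
  rw [this, one_pow, one_pow]

theorem one_sub_eq (c : ℝ) (e : Ed L) :
    ((1 : Ge (VI (HE (ZMod L)))) + c • bb e) * (1 - (2 * c) • bb e) = 1 + (-c) • bb e := by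
  have h : bb e * bb e = 0 := bb_mul_self e
  rw [mul_sub, mul_one, add_mul, one_mul, smul_mul_smul_comm, h, smul_zero, add_zero]
  module

/-- `Π_{e ∈ Γ} (1 - 2 y_e b_e)` -/
def TH (y : Ed L → ℝ) (Γ : Finset (Ed L)) : Ge (VI (HE (ZMod L))) :=
  ∏ e ∈ Γ, (1 - (2 * y e) • bb e)

theorem PE_TH (y : Ed L → ℝ) (Γ : Finset (Ed L)) :
    PE y * TH y Γ = PE fun e => (if e ∈ Γ then -1 else 1) * y e := by
  unfold PE TH
  have : ∏ e ∈ Γ, (1 - (2 * y e) • bb e) =
      ∏ e : Ed L, (if e ∈ Γ then (1 - (2 * y e) • bb e) else (1 : Ge (VI (HE (ZMod L))))) := by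
    rw [Finset.prod_ite_mem, Finset.univ_inter]
  rw [this, ← Finset.prod_mul_distrib]
  refine Finset.prod_congr rfl fun e _ => ?_
  by_cases he : e ∈ Γ
  · simp only [he, if_true]
    rw [one_sub_eq]
    congr 2
    ring
  · simp only [he, if_false, mul_one, one_mul]

/-- **(J1) on the torus with bond insertions.** -/
theorem J1T_ins (hL : 2 ≤ L) (y : Ed L → ℝ) (Γ : Finset (Ed L)) :
    ∑ σ : Vx L → Bool, (∏ e ∈ Γ, epsT σ e) * ∏ e ∈ walls σ, y e =
      (1 / 2) * ∑ s : Fin 2 × Fin 2,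
        ZE (fun e => sec s e * y e) (TH (fun e => sec s e * y e) Γ) := by
  simp only [prod_ins]
  rw [J1T hL]
  congr 1
  refine Finset.sum_congr rfl fun s _ => ?_
  unfold ZE
  rw [PE_TH, mul_one]
  congr 3
  funext e
  ring

end Crest.Agent.R165.TorusJ1x922
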