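import Mathlib
import Crest.Agent.R165.TorSec_599
import Crest.Agent.R165.TorusJ1_922

/-!
Row 165 (helper599): bridge between the matrix form of the torus sectors (`TorSec_599`) and the
weights `ZE` of `TorusJ1_922` / `E0` of `J1a_606`.
-/

set_option autoImplicit false
set_option linter.unusedSectionVars false

noncomputable section

namespace Crest.Agent.R165.TorBrx599

open Crest.Agent.R165.Gr0x606 Crest.Agent.R165.Gr1x606 Crest.Agent.R165.J1ax606
open Crest.Agent.R165.Pfx599 Crest.Agent.R165.PfZx599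
open Crest.Agent.R165.TorDetx599 hiding HE
open Crest.Agent.R165.TorSecx599
open Crest.Agent.R165.TorusCombx922 Crest.Agent.R165.TorusJ1x922
open Matrix

variable (M : ℕ) [NeZero M]

/-- the half-edge index type of the torus -/
abbrev HT : Type := (ZMod M × ZMod M) × Fin 4

/-- the fields as functions -/
def kp : VI (HT M) →ₗ[ℝ] (HT M → ℝ) :=
  (Finsupp.linearEquivFunOnFinite ℝ ℝ (HT M)).toLinearMap

theorem kp_single (h : HT M) : kp M (Finsupp.single h 1) = bs h := by
  funext k
  simp only [kp, LinearEquiv.coe_coe, Finsupp.linearEquivFunOnFinite_single, bs]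

theorem kp_apply (x : VI (HT M)) (h : HT M) : kp M x h = x h := rfl

/-- forms on finitely supported functions from their values on the basis -/
theorem form_ext {B B' : LinearMap.BilinForm ℝ (VI (HT M))}
    (h : ∀ i j, B (Finsupp.single i 1) (Finsupp.single j 1)
      = B' (Finsupp.single i 1) (Finsupp.single j 1)) : B = B' := by
  refine Finsupp.lhom_ext fun i a => ?_
  refine Finsupp.lhom_ext fun j b => ?_
  have e1 : (Finsupp.single i a : VI (HT M)) = a • Finsupp.single i 1 := by simp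
  have e2 : (Finsupp.single j b : VI (HT M)) = b • Finsupp.single j 1 := by simp
  rw [e1, e2]
  simp only [map_smul, LinearMap.smul_apply, h]

theorem hA0_apply (h k : HT M) : hA (0 : ZMod M × ZMod M → Fin 2 → ℝ) h k
    = if h.1 = k.1 then sgn4 h.2 k.2 else 0 := by
  simp [hA]

/-- inverse of the intra-face matrix -/
theorem hA0_mul : hA (0 : ZMod M × ZMod M → Fin 2 → ℝ) * (Matrix.of fun h k : HT M => K0 h k)
    = -1 := by
  ext h k
  obtain ⟨f, a⟩ := h
  obtain ⟨g, b⟩ := k
  rw [Matrix.mul_apply, Fintype.sum_prod_type, Finset.sum_eq_single f]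
  · simp only [hA0_apply, Matrix.of_apply, K0]
    by_cases hfg : f = g
    · subst hfg
      simp only [if_true, Fin.sum_univ_four]
      fin_cases a <;> fin_cases b <;> simp [sgn4, k4]
    · simp [hfg]
  · intro f' _ hf'
    refine Finset.sum_eq_zero fun c _ => ?_
    rw [hA0_apply, if_neg (fun h => hf' (Eq.symm h)), zero_mul]
  · intro h; exact absurd (Finset.mem_univ _) h

theorem hA0_inv : -(hA (0 : ZMod M × ZMod M → Fin 2 → ℝ))⁻¹ = Matrix.of fun h k : HT M => K0 h k := by
  have h1 : hA (0 : ZMod M × ZMod M → Fin 2 → ℝ) * -(Matrix.of fun h k : HT M => K0 h k) = 1 := by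
    rw [Matrix.mul_neg, hA0_mul, neg_neg]
  rw [Matrix.inv_eq_right_inv h1, neg_neg]

theorem dot_single {ι : Type*} [Fintype ι] [DecidableEq ι] (B : Matrix ι ι ℝ) (i j : ι) :
    (Pi.single i 1 : ι → ℝ) ⬝ᵥ B *ᵥ (Pi.single j 1) = B i j := by
  rw [single_one_dotProduct, Matrix.mulVec_single_one]
  rfl

/-- the covariance of the one-face state -/
theorem cov0 (x y : VI (HT M)) : (S0 : Cov (VI (HT M))).b x y
    = (cI (hA (0 : ZMod M × ZMod M → Fin 2 → ℝ))).b (kp M x) (kp M y) := by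
  have : (S0 : Cov (VI (HT M))).b
      = (cI (hA (0 : ZMod M × ZMod M → Fin 2 → ℝ))).b.compl₁₂ (kp M) (kp M) := by
    apply form_ext
    intro i j
    rw [LinearMap.compl₁₂_apply, kp_single, kp_single, cI_b (hA_t _), ← dotProduct_neg,
      ← Matrix.neg_mulVec, hA0_inv, bs, bs, dot_single]
    show formOf K0 _ _ = _
    rw [formOf_single]; rfl
  rw [this]; rfl

/-- `E0` through the matrix covariance -/
theorem E0_eq (X : Gr (VI (HT M))) : E0 X
    = EE (cI (hA (0 : ZMod M × ZMod M → Fin 2 → ℝ))) (mp (kp M) X) := by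
  rw [E0_apply, EE_mp (kp M) S0 _ (cov0 M)]

theorem mp_PE (y : Ed M → ℝ) : mp (kp M) ((PE y : Ge (VI (HT M))) : Gr (VI (HT M)))
    = bE (bl fun z j => y (z, j)) := by
  have h1 : ((PE y : Ge (VI (HT M))) : Gr (VI (HT M)))
      = ((Finset.univ : Finset (Ed M)).toList.map
        fun e => (1 + y e • (ph (pe e) * ph (qe e)) : Gr (VI (HT M)))).prod := by
    have : PE y = ((Finset.univ : Finset (Ed M)).toList.map fun e => (1 + y e • bb e)).prod := by
      rw [PE, Finset.prod_map_toList]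
    rw [this]
    have := map_list_prod (Ge (VI (HT M))).val
      ((Finset.univ : Finset (Ed M)).toList.map fun e => (1 + y e • bb e))
    refine this.trans ?_
    rw [List.map_map]
    rfl
  rw [h1, map_list_prod, bE, bl, List.map_map, List.map_map]
  congr 2
  funext e
  simp only [Function.comp_apply, map_add, map_one, map_smul, map_mul, Gr1x606.ph, mp_fi, kp_single]
  have e1 : (pe e : HT M) = hp e := by
    obtain ⟨z, j⟩ := e
    fin_cases j <;> rfl
  have e2 : (qe e : HT M) = hq e := by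
    obtain ⟨z, j⟩ := e
    fin_cases j <;> rfl
  rw [e1, e2]

/-- `ZE` through the matrix covariance -/
theorem ZE_eq (y : Ed M → ℝ) (X : Ge (VI (HT M))) : ZE y X
    = EE (cI (hA (0 : ZMod M × ZMod M → Fin 2 → ℝ)))
      (bE (bl fun z j => y (z, j)) * mp (kp M) (X : Gr (VI (HT M)))) := by
  rw [ZE, E0_eq, Ge.coe_mul, map_mul, mp_PE]

/-- covariance of a matrix on the finitely supported fields -/
def cF (B : Matrix (HT M) (HT M) ℝ) : Cov (VI (HT M)) where
  b := (cv B).b.compl₁₂ (kp M) (kp M)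
  alt _ := (cv B).alt _

theorem cF_b (B : Matrix (HT M) (HT M) ℝ) (x y : VI (HT M)) :
    (cF M B).b x y = (cv B).b (kp M x) (kp M y) := rfl

theorem cF_single {B : Matrix (HT M) (HT M) ℝ} (hB : Bᵀ = -B) (h k : HT M) :
    (cF M B).b (Finsupp.single h 1) (Finsupp.single k 1) = B h k := by
  rw [cF_b, kp_single, kp_single, cv_b hB, bs, bs, dot_single]

theorem EE_cF (B : Matrix (HT M) (HT M) ℝ) (X : Gr (VI (HT M))) :
    EE (cv B) (mp (kp M) X) = EE (cF M B) X := EE_mp (kp M) (cF M B) (cv B) (cF_b M B) X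

/-- nonsingular backgrounds: reweighting -/
theorem ZE_reweight (y : Ed M → ℝ) (hd : (hA fun z j => y (z, j)).det ≠ 0)
    (X : Ge (VI (HT M))) : ZE y X
    = ZE y 1 * EE (cF M (-(hA fun z j => y (z, j))⁻¹)) (X : Gr (VI (HT M))) := by
  have h0 : (hA (0 : ZMod M × ZMod M → Fin 2 → ℝ)).det ≠ 0 := by rw [det_hA_zero]; norm_num
  have h1 := hA_eq (fun z j => y (z, j) : ZMod M × ZMod M → Fin 2 → ℝ)
  have hd' : (aL (hA 0) (bl fun z j => y (z, j))).det ≠ 0 := by rw [← h1]; exact hd
  rw [ZE_eq, ZE_eq, reweight_list (hA_t _) h0 _ hd', ← h1]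
  congr 1
  · simp
  · exact EE_cF M _ _

/-- sector weights in both notations -/
theorem sec_eq (s : Fin 2 × Fin 2) (x : ℝ) : (fun (z : ZMod M × ZMod M) (j : Fin 2) => sec s (z, j) * x)
    = wS M x (if s.2 = 0 then 1 else -1) (if s.1 = 0 then 1 else -1) := by
  funext z j
  have hj : j = 0 ∨ j = 1 := by omega
  rcases hj with rfl | rfl
  · simp [sec, seam, wS, mul_comm]
  · simp [sec, seam, wS, mul_comm]

/-- twist angle -/
def ang (i : Fin 2) : ℝ := if i = 0 then 0 else Real.pi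

theorem tw_ang (i : Fin 2) : Tw (ang i) (if i = 0 then 1 else -1) := by
  unfold ang
  split_ifs
  · exact tw_P
  · exact tw_A

theorem ZE_one (s : Fin 2 × Fin 2) (x : ℝ) : ZE (fun e : Ed M => sec s e * x) 1
    = ZZ M x (if s.2 = 0 then 1 else -1) (if s.1 = 0 then 1 else -1) := by
  rw [ZE_eq]
  have := sec_eq M s x
  simp only [this, Ge.coe_one, map_one, mul_one, ZZ]

/-- positivity at the critical weight -/
theorem ZE_pos (s : Fin 2 × Fin 2) (hs : s ≠ (0, 0)) :
    0 < ZE (fun e : Ed M => sec s e * xc) 1 := by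
  rw [ZE_one]
  refine ZZ_pos_crit M (tw_ang s.2) (tw_ang s.1) ?_
  by_cases h2 : s.2 = 0
  · right
    have h1 : s.1 ≠ 0 := fun h => hs (Prod.ext h h2)
    simp [ang, h1]
  · left; simp [ang, h2]

theorem det_sec_ne (s : Fin 2 × Fin 2) (hs : s ≠ (0, 0)) :
    (hA fun (z : ZMod M × ZMod M) (j : Fin 2) => sec s (z, j) * xc).det ≠ 0 := by
  rw [sec_eq]
  refine (det_crit_pos M (tw_ang s.2) (tw_ang s.1) ?_).ne'
  by_cases h2 : s.2 = 0
  · right
    have h1 : s.1 ≠ 0 := fun h => hs (Prod.ext h h2)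
    simp [ang, h1]
  · left; simp [ang, h2]

/-- the three nonsingular sectors -/
theorem ZE_sector (s : Fin 2 × Fin 2) (hs : s ≠ (0, 0)) (X : Ge (VI (HT M))) :
    ZE (fun e : Ed M => sec s e * xc) X
    = ZE (fun e : Ed M => sec s e * xc) 1
      * EE (cF M (-(hA fun z j => sec s (z, j) * xc)⁻¹)) (X : Gr (VI (HT M))) :=
  ZE_reweight M (fun e : Ed M => sec s e * xc) (det_sec_ne M s hs) X

/-- first zero mode as a functional on the fields -/
def z1 : Module.Dual ℝ (VI (HT M)) := dl (u1 M) ∘ₗ kp M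
/-- second zero mode as a functional on the fields -/
def z2 : Module.Dual ℝ (VI (HT M)) := dl (u2 M) ∘ₗ kp M

theorem z1_single (h : HT M) : z1 M (Finsupp.single h 1) = u1 M h := by
  show (dl (u1 M)) (kp M _) = _
  rw [kp_single, dl_apply, bs, dotProduct_single_one]

theorem z2_single (h : HT M) : z2 M (Finsupp.single h 1) = u2 M h := by
  show (dl (u2 M)) (kp M _) = _
  rw [kp_single, dl_apply, bs, dotProduct_single_one]

/-- **the doubly periodic sector** -/
theorem ZE_PP (X : Ge (VI (HT M))) :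
    ZE (fun e : Ed M => sec (0, 0) e * xc) X
    = ZP M * EE (cF M (-(BP M))) (dd (z2 M) (dd (z1 M) (X : Gr (VI (HT M))))) := by
  rw [ZE_eq]
  have h := sec_eq M (0, 0) xc
  simp only [if_true] at h
  rw [h, PP_formula, ← EE_cF]
  congr 2
  rw [z1, z2, mp_dd, mp_dd]

/-- comparison of the doubly periodic and doubly antiperiodic sectors -/
theorem ZP_le' : |ZP M| ≤ (2 / xc) * M * ZE (fun e : Ed M => sec (1, 1) e * xc) 1 := by
  rw [ZE_one]
  simpa using ZP_le M

theorem abs_u1_le (h : HT M) : |u1 M h| ≤ 1 / M := by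
  have hs : Real.sqrt 2 ^ 2 = 2 := Real.sq_sqrt (by norm_num)
  have hs1 : 1 ≤ Real.sqrt 2 := by
    rw [Real.le_sqrt (by norm_num) (by norm_num)]; norm_num
  have hM : (0:ℝ) < M := by exact_mod_cast NeZero.pos M
  obtain ⟨f, a⟩ := h
  have hm : |m1 a| ≤ 1 := by
    have : Real.sqrt 2 / 2 ≤ 1 := by nlinarith
    have h0 : 0 ≤ Real.sqrt 2 / 2 := by positivity
    fin_cases a
    · show |-(Real.sqrt 2 / 2)| ≤ 1
      rw [abs_neg, abs_of_nonneg h0]; exact this
    · show |(1:ℝ)| ≤ 1
      simp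
    · show |-(Real.sqrt 2 / 2)| ≤ 1
      rw [abs_neg, abs_of_nonneg h0]; exact this
    · show |(0:ℝ)| ≤ 1
      simp
  show |m1 a / (Real.sqrt 2 * M)| ≤ 1 / M
  rw [abs_div, abs_of_pos (by positivity : (0:ℝ) < Real.sqrt 2 * M)]
  rw [div_le_div_iff₀ (by positivity) hM]
  nlinarith

theorem abs_u2_le (h : HT M) : |u2 M h| ≤ 1 / M := by
  have hs : Real.sqrt 2 ^ 2 = 2 := Real.sq_sqrt (by norm_num)
  have hs1 : 1 ≤ Real.sqrt 2 := by
    rw [Real.le_sqrt (by norm_num) (by norm_num)]; norm_num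
  have hM : (0:ℝ) < M := by exact_mod_cast NeZero.pos M
  obtain ⟨f, a⟩ := h
  have hm : |m2 a| ≤ 1 := by
    have : Real.sqrt 2 / 2 ≤ 1 := by nlinarith
    have h0 : 0 ≤ Real.sqrt 2 / 2 := by positivity
    fin_cases a
    · show |-(Real.sqrt 2 / 2)| ≤ 1
      rw [abs_neg, abs_of_nonneg h0]; exact this
    · show |(0:ℝ)| ≤ 1
      simp
    · show |(Real.sqrt 2 / 2)| ≤ 1
      rw [abs_of_nonneg h0]; exact this
    · show |(-1:ℝ)| ≤ 1
      simp
  show |m2 a / (Real.sqrt 2 * M)| ≤ 1 / M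
  rw [abs_div, abs_of_pos (by positivity : (0:ℝ) < Real.sqrt 2 * M)]
  rw [div_le_div_iff₀ (by positivity) hM]
  nlinarith

end Crest.Agent.R165.TorBrx599
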