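import Crest.Agent.R165.Cov1_359
import Crest.Agent.R165.TorBr_599

/-!
# Row 165 (S0250), block J (task 50, helper359): covariances of the torus sectors

* `wT M s : BW (ZMod M)` : critical weights with the seam signs of the sector `s`
* `ZE_eq_PP` : `ZE y X = E0 (PP y univ * X)`
* `exists_isCov_torus` : `s ≠ (0, 0)`: the covariance exists (with `FInv`) and is unique
* `ZE_isInv`, `ZE_isCov` : `ZE y X = ZE y 1 * EE (covS S) X` for ANY inverse / covariance
* `isInv_eq_hA` : the inverse is `-(hA w)⁻¹`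
-/

set_option autoImplicit false

noncomputable section

open Filter Topology
open Crest.Agent.R165.Gr0x606

namespace Crest.Agent.R165.Covx359

open Crest.Agent.R165
open Crest.Agent.R165.Gr1x606 (Ge VI covOf formOf)
open Crest.Agent.R165.J1ax606 (EG HE E0 mon bb)
open Crest.Agent.R165.J2ax606 (PP IsInv)
open Crest.Agent.R165.J2bx606 (FInv)
open Crest.Agent.R165.TorusJ1x922 (ZE PE sec)
open Crest.Agent.R165.TorDetx599 (hA hA_t)
open Matrix

section
variable (M : ℕ) [NeZero M]

/-- critical weights of the torus sector `s` -/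
def wT (s : Fin 2 × Fin 2) : Latx683.BW (ZMod M) := fun z j => sec s (z, j) * Latx683.xc

omit [NeZero M] in
theorem un_wT (s : Fin 2 × Fin 2) : un (wT M s) = fun e => sec s e * TorSecx599.xc := by
  funext e; rfl

theorem ZE_eq_PP (y : EG (ZMod M) → ℝ) (X : Ge (VI (HE (ZMod M)))) :
    ZE y X = E0 ((PP y Finset.univ : Gr (VI (HE (ZMod M)))) * (X : Gr (VI (HE (ZMod M))))) := rfl

theorem ZE_one_eq (y : EG (ZMod M) → ℝ) :
    ZE y 1 = E0 (PP y Finset.univ : Gr (VI (HE (ZMod M)))) := by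
  rw [ZE_eq_PP, Ge.coe_one, mul_one]

/-- the torus sectors: reweighting with any inverse -/
theorem ZE_isInv {y : EG (ZMod M) → ℝ} {S : HE (ZMod M) → HE (ZMod M) → ℝ} (hS : IsInv y S)
    (X : Ge (VI (HE (ZMod M)))) :
    ZE y X = ZE y 1 * EE (covOf S hS.anti) (X : Gr (VI (HE (ZMod M)))) := by
  rw [ZE_eq_PP, ZE_one_eq]
  exact J2ax606.E0_PP hS Finset.univ (fun e he => absurd (Finset.mem_univ e) he) _

/-- the torus sectors: reweighting with any covariance -/
theorem ZE_isCov {w : Latx683.BW (ZMod M)} {S : Latx683.HE (ZMod M) → Latx683.HE (ZMod M) → ℝ}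
    (hS : Latx683.IsCov w S) (X : Ge (VI (HE (ZMod M)))) :
    ZE (un w) X = ZE (un w) 1 * EE (Latx683.covS S hS.skew) (X : Gr (VI (HE (ZMod M)))) := by
  rw [covS_eq]
  exact ZE_isInv M (isInv_of_isCov hS) X

/-- the inverse of a nonsingular background is the matrix inverse -/
theorem isInv_eq_hA {y : EG (ZMod M) → ℝ} {S : HE (ZMod M) → HE (ZMod M) → ℝ} (hS : IsInv y S)
    (hd : (hA fun z j => y (z, j)).det ≠ 0) (h k : HE (ZMod M)) :
    S h k = (-(hA fun z j => y (z, j))⁻¹) h k := by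
  have h0 : ZE y 1 ≠ 0 := by
    rw [ZE_one_eq]
    exact J2ax606.Z_ne_zero_of_inv hS Finset.univ (fun e he => absurd (Finset.mem_univ e) he)
  have h1 := ZE_isInv M hS (Gr1x606.bi (Finsupp.single h 1) (Finsupp.single k 1))
  have h2 := TorBrx599.ZE_reweight M y hd (Gr1x606.bi (Finsupp.single h 1) (Finsupp.single k 1))
  have h3 := mul_left_cancel₀ h0 (h1.symm.trans h2)
  rw [Gr1x606.coe_bi, EE_fi_fi, EE_fi_fi] at h3
  have hB : (-(hA fun z j => y (z, j))⁻¹)ᵀ = -(-(hA fun z j => y (z, j))⁻¹) := by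
    rw [Matrix.transpose_neg, Pfx599.inv_anti (hA_t _)]
  rw [TorBrx599.cF_single M hB, Gr1x606.covOf_b, Gr1x606.formOf_single] at h3
  exact h3

/-- **torus sectors**: existence and uniqueness of the covariance -/
theorem exists_isCov_torus (s : Fin 2 × Fin 2) (hs : s ≠ (0, 0)) :
    ∃ S, Latx683.IsCov (wT M s) S ∧ FInv (un (wT M s)) S ∧
      ∀ S', Latx683.IsCov (wT M s) S' → S' = S := by
  have hZ : E0 (PP (un (wT M s)) Finset.univ : Gr (VI (HE (ZMod M)))) ≠ 0 := by
    rw [← ZE_one_eq]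
    exact (TorBrx599.ZE_pos M s hs).ne'
  obtain ⟨S, hS⟩ := exists_finv_of_Z (w := un (wT M s)) Finset.univ
    (fun e he => absurd (Finset.mem_univ e) he) hZ
  exact ⟨S, isCov_of_finv hS, hS, fun S' hS' => isCov_eq_of_finv hS hS'⟩

/-- on a torus every inverse is a covariance -/
theorem isCov_torus_of_isInv {w : Latx683.BW (ZMod M)}
    {S : Latx683.HE (ZMod M) → Latx683.HE (ZMod M) → ℝ} (hS : IsInv (un w) S) :
    Latx683.IsCov w S :=
  isCov_of_finv (finv_of_isInv Finset.univ (fun e he => absurd (Finset.mem_univ e) he) hS)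

/-- the critical sectors: the covariance is the inverse matrix -/
theorem isCov_torus_eq {s : Fin 2 × Fin 2} (hs : s ≠ (0, 0))
    {S : Latx683.HE (ZMod M) → Latx683.HE (ZMod M) → ℝ} (hS : Latx683.IsCov (wT M s) S)
    (h k : Latx683.HE (ZMod M)) :
    S h k = (-(hA fun z j => sec s (z, j) * TorSecx599.xc)⁻¹) h k :=
  isInv_eq_hA M (isInv_of_isCov hS) (TorBrx599.det_sec_ne M s hs) h k

end

end Crest.Agent.R165.Covx359
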