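import Crest.Agent.R165.Bridge_915
import Crest.Agent.R165.GeoLat4_416

/-!
# Row 165, block G: counting the boundary of a regular lattice domain (helper915)

* `bdS_hit`   : between a site of `T` and a site outside `T` there is a boundary site
* `dcount_bd` : `DCount fd (bdS T) R r (2 R / (r / 3) + 1)` for regular `T` (`R + 1 ≤ ρ`, `6 ≤ r`)
* `close_bd`  : small polymers touching `T` and close to the complement are close to `bdS T`
-/

set_option autoImplicit false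

open Crest.ProbabilityR.IsingModel
open Crest.Agent.R165.GDefx387 Crest.Agent.R165.Packx915 Crest.Agent.R165.NSumx915
open Crest.Agent.R165.Bridgex915 Crest.Agent.R165.Geo

namespace Crest.Agent.R165.DBdx915

theorem fd_int (f g : ℤ × ℤ) : fd f g = max (f.1 - g.1).natAbs (f.2 - g.2).natAbs := rfl

theorem fd_sn (f g : ℤ × ℤ) : (fd f g : ℤ) = sn (g - f) := by
  rw [fd_int, sn, Prod.fst_sub, Prod.snd_sub, Int.abs_eq_natAbs, Int.abs_eq_natAbs]
  omega

/-- one-dimensional intermediate value principle -/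
theorem exists_switch {P : ℕ → Prop} {n : ℕ} (h0 : P 0) (hn : ¬ P n) : ∃ i < n, P i ∧ ¬ P (i + 1) := by
  induction n with
  | zero => exact absurd h0 hn
  | succ n ih =>
    by_cases h : P n
    · exact ⟨n, by omega, h, hn⟩
    · obtain ⟨i, hi, h1⟩ := ih h
      exact ⟨i, by omega, h1⟩

theorem hit_h {T : Set (ℤ × ℤ)} {x x' y : ℤ} (hu : (x, y) ∈ T) (hv : (x', y) ∉ T) :
    ∃ w ∈ bdS T, w.2 = y ∧ (w.1 - x).natAbs ≤ (x' - x).natAbs := by
  obtain ⟨ε, hε, hx⟩ : ∃ ε : ℤ, (ε = 1 ∨ ε = -1) ∧ x' = x + ε * (x' - x).natAbs := by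
    rcases le_total x x' with h | h
    · exact ⟨1, Or.inl rfl, by omega⟩
    · exact ⟨-1, Or.inr rfl, by omega⟩
  obtain ⟨i, hi, h1, h2⟩ := exists_switch (P := fun i : ℕ => (x + ε * i, y) ∈ T)
    (n := (x' - x).natAbs) (by simpa using hu) (by rw [← hx]; exact hv)
  refine ⟨(x + ε * i, y), ⟨(x + ε * ((i + 1 : ℕ) : ℤ), y), ?_, Or.inl ⟨h1, h2⟩⟩, rfl, ?_⟩
  · left
    refine ⟨rfl, ?_⟩
    push_cast
    rcases hε with rfl | rfl
    · have : x + 1 * (i : ℤ) - (x + 1 * ((i : ℤ) + 1)) = -1 := by ring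
      rw [this]; rfl
    · have : x + -1 * (i : ℤ) - (x + -1 * ((i : ℤ) + 1)) = 1 := by ring
      rw [this]; rfl
  · simp only
    rcases hε with rfl | rfl
    · omega
    · omega

theorem hit_v {T : Set (ℤ × ℤ)} {x y y' : ℤ} (hu : (x, y) ∈ T) (hv : (x, y') ∉ T) :
    ∃ w ∈ bdS T, w.1 = x ∧ (w.2 - y).natAbs ≤ (y' - y).natAbs := by
  obtain ⟨ε, hε, hy⟩ : ∃ ε : ℤ, (ε = 1 ∨ ε = -1) ∧ y' = y + ε * (y' - y).natAbs := by
    rcases le_total y y' with h | h
    · exact ⟨1, Or.inl rfl, by omega⟩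
    · exact ⟨-1, Or.inr rfl, by omega⟩
  obtain ⟨i, hi, h1, h2⟩ := exists_switch (P := fun i : ℕ => (x, y + ε * i) ∈ T)
    (n := (y' - y).natAbs) (by simpa using hu) (by rw [← hy]; exact hv)
  refine ⟨(x, y + ε * i), ⟨(x, y + ε * ((i + 1 : ℕ) : ℤ)), ?_, Or.inl ⟨h1, h2⟩⟩, rfl, ?_⟩
  · right
    refine ⟨rfl, ?_⟩
    push_cast
    rcases hε with rfl | rfl
    · have : y + 1 * (i : ℤ) - (y + 1 * ((i : ℤ) + 1)) = -1 := by ring
      rw [this]; rfl
    · have : y + -1 * (i : ℤ) - (y + -1 * ((i : ℤ) + 1)) = 1 := by ring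
      rw [this]; rfl
  · simp only
    rcases hε with rfl | rfl
    · omega
    · omega

/-- between a site of `T` and a site outside `T` there is a boundary site, no further away -/
theorem bdS_hit {T : Set (ℤ × ℤ)} {u v : ℤ × ℤ} (hu : u ∈ T) (hv : v ∉ T) :
    ∃ w ∈ bdS T, fd u w ≤ fd u v := by
  by_cases h : (v.1, u.2) ∈ T
  · obtain ⟨w, hw, h1, h2⟩ := hit_v (x := v.1) (y := u.2) (y' := v.2) h hv
    refine ⟨w, hw, ?_⟩
    rw [fd_int, fd_int]
    omega
  · obtain ⟨w, hw, h1, h2⟩ := hit_h (x := u.1) (x' := v.1) (y := u.2) hu h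
    refine ⟨w, hw, ?_⟩
    rw [fd_int, fd_int]
    omega

/-- counting separated boundary sites in a box -/
theorem LocEpi.card_sep {T : Set (ℤ × ℤ)} {z : ℤ × ℤ} {ρ κ : ℝ} {k : ℕ} {G G' : ℝ → ℝ}
    (h : LocEpi T z ρ κ k G G') {s r : ℕ} (hs : (s : ℝ) + 1 ≤ ρ) (hr : 6 ≤ r)
    {S : Finset (ℤ × ℤ)} (hS : ∀ w ∈ S, w ∈ bdS T ∧ fd z w ≤ s) (hsep : Packx915.Sep fd r S) :
    S.card ≤ 2 * s / (r / 3) + 1 := by
  classical
  obtain ⟨m, hm', hm⟩ := rotate_iter_inv k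
  have hnear : ∀ w ∈ S, |((rotate^[m] (w - z)).2 : ℝ) - G (rotate^[m] (w - z)).1| ≤ 3 / 2 := by
    intro w hw
    refine h.bd_near hm ?_ (hS w hw).1
    have h1 : (sn (w - z) : ℝ) ≤ s := by
      have := (hS w hw).2
      have h2 := fd_sn z w
      have h3 : sn (w - z) ≤ (s : ℤ) := by rw [← h2]; exact_mod_cast this
      exact_mod_cast h3
    linarith
  have hbound : ∀ w ∈ S, |(rotate^[m] (w - z)).1| ≤ (s : ℤ) := by
    intro w hw
    have h1 : sn (rotate^[m] (w - z)) ≤ (s : ℤ) := by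
      rw [sn_rotate_iter, ← fd_sn]
      exact_mod_cast (hS w hw).2
    exact (sn_le.1 h1).1
  -- first coordinates are separated
  have hfar : ∀ w ∈ S, ∀ w' ∈ S, w ≠ w' →
      ((r / 3 : ℕ) : ℤ) ≤ |(rotate^[m] (w - z)).1 - (rotate^[m] (w' - z)).1| := by
    intro w hw w' hw' hne
    by_contra hlt
    rw [not_le] at hlt
    have h1 := hsep w hw w' hw' hne
    have h2 : (fd w w' : ℤ) = sn (rotate^[m] (w - z) - rotate^[m] (w' - z)) := by
      rw [fd_comm, fd_sn, ← sn_rotate_iter m (w - w')]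
      congr 1
      have h3 := rotate_iter_add m (w - w') (w' - z)
      rw [show w - w' + (w' - z) = w - z by ring] at h3
      rw [h3]; ring
    set v := rotate^[m] (w - z) with hv
    set v' := rotate^[m] (w' - z) with hv'
    have h4 := abs_le.1 (hnear w hw)
    have h5 := abs_le.1 (hnear w' hw')
    have h6 := h.lipG (v.1 : ℝ) v'.1
    have h7 : (|(v.1 : ℝ) - v'.1|) < ((r / 3 : ℕ) : ℝ) := by
      have : ((|v.1 - v'.1| : ℤ) : ℝ) < (((r / 3 : ℕ) : ℤ) : ℝ) := Int.cast_lt.2 hlt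
      rw [Int.cast_abs, Int.cast_sub, Int.cast_natCast] at this
      exact this
    have h8 : ((r / 3 : ℕ) : ℝ) ≤ (r : ℝ) / 3 := Nat.cast_div_le
    have h9 := abs_le.1 h6
    have hr' : (6 : ℝ) ≤ r := by exact_mod_cast hr
    have h10 : |(v.2 : ℝ) - v'.2| ≤ r := by
      rw [abs_le]
      constructor <;> nlinarith
    have h11 : |(v.1 : ℝ) - v'.1| ≤ r := by linarith
    have h12 : sn (v - v') ≤ (r : ℤ) := by
      rw [sn_le, Prod.fst_sub, Prod.snd_sub]
      constructor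
      · have : ((|v.1 - v'.1| : ℤ) : ℝ) ≤ ((r : ℤ) : ℝ) := by push_cast; exact h11
        exact_mod_cast this
      · have : ((|v.2 - v'.2| : ℤ) : ℝ) ≤ ((r : ℤ) : ℝ) := by push_cast; exact h10
        exact_mod_cast this
    rw [← h2] at h12
    have : (fd w w') ≤ r := by exact_mod_cast h12
    omega
  -- pigeonhole
  set q : ℤ := ((r / 3 : ℕ) : ℤ) with hq
  have hqpos : 0 < q := by
    have : 0 < r / 3 := by omega
    rw [hq]; exact_mod_cast this
  let φ : ℤ × ℤ → ℤ := fun w => ((rotate^[m] (w - z)).1 + s) / q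
  have hmaps : ∀ w ∈ S, φ w ∈ Finset.Icc (0 : ℤ) ((2 * s / (r / 3) : ℕ) : ℤ) := by
    intro w hw
    have h1 := abs_le.1 (hbound w hw)
    rw [Finset.mem_Icc]
    refine ⟨Int.ediv_nonneg (by omega) hqpos.le, ?_⟩
    have h2 : φ w ≤ (2 * (s : ℤ)) / q := Int.ediv_le_ediv hqpos (by omega)
    refine h2.trans (le_of_eq ?_)
    rw [hq]
    push_cast
    rfl
  have hinj : Set.InjOn φ (S : Set (ℤ × ℤ)) := by
    intro w hw w' hw' he
    by_contra hne
    have h1 := hfar w hw w' hw' hne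
    have e1 := Int.mul_ediv_add_emod ((rotate^[m] (w - z)).1 + s) q
    have e2 := Int.mul_ediv_add_emod ((rotate^[m] (w' - z)).1 + s) q
    have e3 := Int.emod_nonneg ((rotate^[m] (w - z)).1 + s) hqpos.ne'
    have e4 := Int.emod_nonneg ((rotate^[m] (w' - z)).1 + s) hqpos.ne'
    have e5 := Int.emod_lt_of_pos ((rotate^[m] (w - z)).1 + s) hqpos
    have e6 := Int.emod_lt_of_pos ((rotate^[m] (w' - z)).1 + s) hqpos
    have he' : ((rotate^[m] (w - z)).1 + s) / q = ((rotate^[m] (w' - z)).1 + s) / q := he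
    rw [he'] at e1
    have h2 : |(rotate^[m] (w - z)).1 - (rotate^[m] (w' - z)).1| < q := by
      rw [abs_lt]
      constructor <;> linarith
    exact absurd h1 (not_le.2 h2)
  have hcard := Finset.card_le_card_of_injOn φ hmaps hinj
  rw [Int.card_Icc] at hcard
  refine hcard.trans (le_of_eq ?_)
  generalize 2 * s / (r / 3) = N
  omega

theorem dcount_bd {T : Set (ℤ × ℤ)} {ρ κ : ℝ} (h : LatReg T ρ κ) {R r : ℕ}
    (hR : (R : ℝ) + 1 ≤ ρ) (hr : 6 ≤ r) :
    DCount fd (bdS T) R r (2 * R / (r / 3) + 1) := by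
  intro f S hS hs
  obtain ⟨k, G, G', hE⟩ := h f
  exact LocEpi.card_sep hE hR hr hS hs

/-- small polymers which touch `T` and are close to the complement of `T` are close to `bdS T` -/
theorem close_bd {T : Set (ℤ × ℤ)} {U : Finset (ℤ × ℤ)} {r s : ℕ} (hU : pack fd r U ≤ 1)
    (ht : ∃ u ∈ U, ∃ t ∈ T, fd u t ≤ 1) (hp : ∃ u ∈ U, ∃ p ∉ T, fd u p ≤ s) :
    ∀ u ∈ U, ∃ w ∈ bdS T, fd u w ≤ 2 * r + s + 2 := by
  obtain ⟨u₀, hu₀, t, htT, h1⟩ := ht
  obtain ⟨u₁, hu₁, p, hpT, h2⟩ := hp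
  obtain ⟨w, hw, h3⟩ := bdS_hit htT hpT
  intro u hu
  refine ⟨w, hw, ?_⟩
  have e1 := (pack_le_one_iff pd_fd).1 hU u hu u₀ hu₀
  have e2 := (pack_le_one_iff pd_fd).1 hU u₀ hu₀ u₁ hu₁
  have e3 := fd_triangle u u₀ w
  have e4 := fd_triangle u₀ t w
  have e5 := fd_triangle t u₀ p
  have e6 := fd_triangle u₀ u₁ p
  have e7 := fd_comm t u₀
  omega

end Crest.Agent.R165.DBdx915
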