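import Crest.Agent.R165.KFlow_337
import Crest.Agent.R165.NKDef_915
import Crest.Agent.R165.GLinI_336
import Crest.Agent.R165.DBd_915

/-!
# Row 165, block G/P: one step of the defect norm of a composite background (helper915)

* `PlaneLike.mono`, `emb_anti`, `emb_of_deep` : geometry of the plane-like class
* `EmbExtr` : extraction only from small polymers, only at faces that are plane-like at the new scale
* `DStep` : per-polymer linear bounds in a background with finitely many types of defects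
* `NK_lin_le`, `NK_defect` : the defect norm after one step of the flow of `KFlow_337`
-/

set_option autoImplicit false
set_option linter.unusedSectionVars false

open scoped ENNReal
open Crest.Agent.R165.Gr0x606 Crest.Agent.R165.Gr1x606 Crest.Agent.R165.GeOpsx337
  Crest.Agent.R165.ExpGx337 Crest.Agent.R165.KFlowx337
open Crest.Agent.R165.Latx683 Crest.Agent.R165.PNormx417
open Crest.Agent.R165.GDefx387 Crest.Agent.R165.Packx915 Crest.Agent.R165.NSumx915
open Crest.Agent.R165.Bridgex915 Crest.Agent.R165.DefStepx915 Crest.Agent.R165.NKDefx915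

namespace Crest.Agent.R165.DefRecx915

variable {G : Type} [CommRing G] [CN G] [DecidableEq G]

/-! ### plane-like regions -/

/-- restriction of a plane-like chart -/
def plMono {w : BW G} {Z Z' : Set (G × G)} (p : PlaneLike w Z) (h : Z' ⊆ Z) : PlaneLike w Z' where
  τ := p.τ
  s := p.s
  sq := p.sq
  iso f hf g hg := p.iso f (h hf) g (h hg)
  e1 f hf hf' := p.e1 f (h hf) (h hf')
  e2 f hf hf' := p.e2 f (h hf) (h hf')
  wE f hf hf' := p.wE f (h hf) (h hf')
  wN f hf hf' := p.wN f (h hf) (h hf')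

theorem emb_of_subset {w : BW G} {r r' : ℕ} {U U' : Finset (G × G)}
    (h : nbhd (s2 * r) U ⊆ nbhd (s2 * r') U') (he : Emb w r' U') : Emb w r U :=
  he.map fun p => plMono p h

/-- the plane-like class is antitone in the scale -/
theorem emb_anti {w : BW G} {r r' : ℕ} {U : Finset (G × G)} (h : r ≤ r') (he : Emb w r' U) :
    Emb w r U :=
  emb_of_subset (fun _ ⟨u, hu, hd⟩ => ⟨u, hu, hd.trans (Nat.mul_le_mul_left _ h)⟩) he

/-- subsets of plane-like sets are plane-like -/
theorem emb_sub {w : BW G} {r : ℕ} {U U' : Finset (G × G)} (h : U ⊆ U') (he : Emb w r U') :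
    Emb w r U :=
  emb_of_subset (fun _ ⟨u, hu, hd⟩ => ⟨u, h hu, hd⟩) he

/-- a small polymer containing a face which is plane-like at the next scale is plane-like -/
theorem emb_of_deep [GoodG G] {w : BW G} {r r' : ℕ} {U : Finset (G × G)} {f : G × G}
    (hr : (s2 + 1) * r ≤ s2 * r') (hf : f ∈ U) (hs : size r U ≤ 1) (he : Emb w r' {f}) :
    Emb w r U := by
  rw [Bridgex915.size_eq_pack] at hs
  have hd := (pack_le_one_iff pd_fd).1 hs
  refine emb_of_subset ?_ he
  rintro g ⟨u, hu, hg⟩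
  refine ⟨f, Finset.mem_singleton_self f, ?_⟩
  have h1 := fd_triangle f u g
  have h2 := hd f hf u hu
  calc fd f g ≤ r + s2 * r := by omega
    _ = (s2 + 1) * r := by ring
    _ ≤ _ := hr

/-- plane-like and away from the marked faces (D17) -/
def emM (w : BW G) (mk : Set (G × G)) (r : ℕ) (U : Finset (G × G)) : Prop :=
  Emb w r U ∧ ∀ u ∈ U, ∀ x ∈ mk, s2 * r < fd u x

/-- the plane-like predicates at two consecutive scales -/
def Deep (r : ℕ) (em em' : Finset (G × G) → Prop) : Prop :=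
  ∀ U, ∀ f ∈ U, size r U ≤ 1 → em' {f} → em U

theorem deep_emb [GoodG G] (w : BW G) {r r' : ℕ} (hr : (s2 + 1) * r ≤ s2 * r') :
    Deep r (Emb w r) (Emb w r') := fun _ _ hf hs he => emb_of_deep hr hf hs he

theorem deep_emM [GoodG G] (w : BW G) (mk : Set (G × G)) {r r' : ℕ}
    (hr : (s2 + 1) * r ≤ s2 * r') : Deep r (emM w mk r) (emM w mk r') := by
  intro U f hf hs he
  refine ⟨emb_of_deep hr hf hs he.1, fun u hu x hx => ?_⟩
  rw [Bridgex915.size_eq_pack] at hs
  have hd := (pack_le_one_iff pd_fd).1 hs f hf u hu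
  have h1 := he.2 f (Finset.mem_singleton_self f) x hx
  have h2 := fd_triangle f u x
  have h3 : (s2 + 1) * r = s2 * r + r := by ring
  omega

/-! ### extraction -/

/-- extraction only from small polymers, moved to faces that are plane-like at the new scale -/
def EmbExtr (r : ℕ) (em' : Finset (G × G) → Prop) (e : Extr (G × G) (Fld G)) : Prop :=
  ∀ U, ∀ T ∈ e.out U, size r U ≤ 1 ∧ ∃ f ∈ U, T = {f} ∧ em' {f}

variable {w : BW G} {a a' : ℝ} {r r' : ℕ} {Γ Γ' : ℝ≥0∞} {em em' : Finset (G × G) → Prop}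

theorem EmbExtr.gain_eq_zero {e : Extr (G × G) (Fld G)} (he : EmbExtr r em' e)
    (H : Finset (G × G) → Ge (Fld G)) {U : Finset (G × G)} (hU : ¬ em' U) :
    e.gain H U = 0 := by
  rw [Extr.gain]
  refine Finset.sum_eq_zero fun U' hU' => ?_
  exfalso
  obtain ⟨_, f, _, hT, hf⟩ := he U' U ((e.mem_iff U' U).2 hU')
  rw [hT] at hU
  exact hU hf

theorem EmbExtr.lost_eq_zero {e : Extr (G × G) (Fld G)} (he : EmbExtr r em' e)
    (hdeep : Deep r em em') (H : Finset (G × G) → Ge (Fld G)) {U : Finset (G × G)}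
    (hU : ¬ em U) : e.lost H U = 0 := by
  rw [Extr.lost]
  refine Finset.sum_eq_zero fun T hT => ?_
  exfalso
  obtain ⟨hs, f, hfU, _, hf⟩ := he U T hT
  exact hU (hdeep U f hfU hs hf)

theorem EmbExtr.lost_large {e : Extr (G × G) (Fld G)} (he : EmbExtr r em' e)
    (H : Finset (G × G) → Ge (Fld G)) {U : Finset (G × G)}
    (hU : 2 ≤ size r U) : e.lost H U = 0 := by
  rw [Extr.lost]
  refine Finset.sum_eq_zero fun T hT => ?_
  exfalso
  obtain ⟨hs, _⟩ := he U T hT
  omega

/-! ### per-polymer linear bounds -/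

/-- linear bounds for the active polymers `ac` of a background with defect types `κ`:
`A i` = defect set, `m i` = distance of the small defect polymers from it, `N i` = number of
`r`-separated points of `A i` in a ball, `q i` = gain of the small polymers of type `i`;
`qL` = gain of the large polymers (with room: `Γ' ≥ Γ` at the new scale), `qT` = factor of the
small polymers -/
structure DStep (w : BW G) (a a' : ℝ) (r r' : ℕ) (Γ Γ' : ℝ≥0∞) (S : Cov (Fld G))
    (ac em : Finset (G × G) → Prop) {κ : Type*} (A : κ → Set (G × G)) (m N : κ → ℕ)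
    (q : κ → ℝ≥0∞) (qL qT : ℝ≥0∞) : Prop where
  count : ∀ i, DCount fd (A i) (r' + m i) r (N i)
  q_ne : ∀ i, q i ≠ 0
  qL_ne : qL ≠ 0
  qT_ne : qT ≠ 0
  large : ∀ U, ac U → 2 ≤ size r U → ∀ K : Ge (Fld G), pG (wU w a r U) K ≠ ∞ →
    Γ' ^ size r' U * pG (wU w a' r' U) (cvG S K) ≤ qL * (Γ ^ size r U * pG (wU w a r U) K)
  small : ∀ U, ac U → size r U ≤ 1 → ¬ em U →
    ∃ i, (∀ u ∈ U, ∃ x ∈ A i, fd u x ≤ m i) ∧ ∀ K : Ge (Fld G), pG (wU w a r U) K ≠ ∞ →
      pG (wU w a' r' U) (nl (cvG S K)) ≤ q i * pG (wU w a r U) K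
  any : ∀ U, ac U → size r U ≤ 1 → ∀ K : Ge (Fld G), pG (wU w a r U) K ≠ ∞ →
    pG (wU w a' r' U) (cvG S K) ≤ qT * pG (wU w a r U) K

theorem pG_nl_le (v : Fld G → ℝ≥0∞) (x : Ge (Fld G)) : pG v (nl x) ≤ pG v x := by
  have h : ((nl x : Ge (Fld G)) : Gr (Fld G)) = GLinx336.noct (x : Gr (Fld G)) := by
    rw [nl, Ge.coe_sub, ge_coe_algebraMap, GLinx336.noct, ctG_apply]
  rw [pG_def, h]
  exact GLinx336.pnorm_noct_le v _

/-- the vacuum part of the flow is the constant part -/
def VacCt (D : Sys (G × G) (Fld G)) : Prop := ∀ x, D.vac x = algebraMap ℝ _ (ctG x)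

section step

variable {κ : Type*} [Fintype κ] {A : κ → Set (G × G)} {m N : κ → ℕ} {q : κ → ℝ≥0∞} {qL qT CX : ℝ≥0∞}
  {ac : Finset (G × G) → Prop}

/-- **linear part of the step**, defect norm -/
theorem NK_lin_le [GoodG G] (D : Sys (G × G) (Fld G)) (k : ℕ)
    (H : DStep w a a' r r' Γ Γ' (D.S k) ac em A m N q qL qT) (hr : 0 < r) (hrr : r ≤ r')
    (hdeep : Deep r em em') (hΓ : 1 ≤ Γ) (hΓΓ : Γ ≤ Γ')
    (hac : ∀ U, D.K k U ≠ 0 → ac U) (hne : ∀ U, ac U → U.Nonempty)
    (hvac : VacCt D) (he : EmbExtr r em' (D.e k))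
    (hlost : ∀ U, ac U → em U → ¬ em' U → size r U ≤ 1 →
      pG (wU w a' r' U) ((D.e k).lost (D.H k) U) ≤ CX * pG (wU w a r U) (D.K k U)) :
    NK w a' r' Γ (fun U => ¬ em' U)
        (fun U => ((D.H k U + D.A k U : Ge (Fld G)) : Gr (Fld G))) ≤
      (qL * (((2 * (r' / r) + 3) ^ 2 : ℕ) : ℝ≥0∞) +
        ∑ i, q i * ((N i * (2 * ((m i + r) / r) + 3) ^ 2 : ℕ) : ℝ≥0∞)) *
          NK w a r Γ (fun U => ¬ em U) (fun U => ((D.K k U : Ge (Fld G)) : Gr (Fld G)))
      + (qL + (qT + CX)) * (((2 * (r' / r) + 3) ^ 2 : ℕ) : ℝ≥0∞) *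
          NK w a r Γ (fun U => em U) (fun U => ((D.K k U : Ge (Fld G)) : Gr (Fld G))) := by
  classical
  have key := NK_defect_step (w := w) (a := a) (a' := a') (r := r) (r' := r') (Γ := Γ) hr hrr A m N q
    qL (qL + (qT + CX)) H.count (fun U => ¬ em U) (fun U => ¬ em' U)
    (fun U => ((D.K k U : Ge (Fld G)) : Gr (Fld G)))
    (fun U => ((D.H k U + D.A k U : Ge (Fld G)) : Gr (Fld G))) ?_
  · simpa only [not_not] using key
  intro U hp' hne0
  -- the linear part vanishes if the activity vanishes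
  have hgain : (D.e k).gain (D.H k) U = 0 := he.gain_eq_zero _ hp'
  have hlin : D.H k U + D.A k U = nl (D.H k U) - (D.e k).lost (D.H k) U := by
    rw [Sys.A, AA, hgain, hvac, nl]; ring
  have hK0 : D.K k U ≠ 0 := by
    intro h0
    apply hne0
    have hH : D.H k U = 0 := by rw [Sys.H, h0, map_zero]
    have hl : (D.e k).lost (D.H k) U = 0 := by
      rw [Extr.lost]
      exact Finset.sum_eq_zero fun T _ => by rw [hH, map_zero]
    rw [hlin, hl, hH]
    simp [nl]
  have hacU := hac U hK0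
  have hUne := hne U hacU
  simp only [hlin]
  by_cases hfin : pG (wU w a r U) (D.K k U) = ∞
  · -- infinite activity: trivial
    have hΓ0 : Γ ^ size r U ≠ 0 := pow_ne_zero _ (lt_of_lt_of_le one_pos hΓ).ne'
    by_cases hE : em U
    · right; left
      refine ⟨not_not.2 hE, ?_⟩
      rw [← pG_def (wU w a r U), hfin, ENNReal.mul_top hΓ0, ENNReal.mul_top]
      · exact le_top
      · intro h
        exact H.qL_ne (add_eq_zero.1 h).1
    · left
      refine ⟨hE, ?_⟩
      rw [← pG_def (wU w a r U), hfin, ENNReal.mul_top hΓ0, ENNReal.mul_top H.qL_ne]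
      exact le_top
  by_cases hs : size r U ≤ 1
  · by_cases hE : em U
    · right; left
      refine ⟨not_not.2 hE, ?_⟩
      have h1 : pG (wU w a' r' U) (nl (D.H k U) - (D.e k).lost (D.H k) U) ≤
          (qT + CX) * pG (wU w a r U) (D.K k U) := by
        refine (pG_sub_le _ _ _).trans ?_
        rw [add_mul]
        exact add_le_add ((pG_nl_le _ _).trans (H.any U hacU hs _ hfin))
          (hlost U hacU hE hp' hs)
      have h2 : Γ ^ size r' U ≤ Γ ^ size r U := by
        rw [Bridgex915.size_eq_pack, Bridgex915.size_eq_pack]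
        exact pow_le_pow_right₀ hΓ (pack_anti hrr)
      calc Γ ^ size r' U * pnorm (wU w a' r' U)
            ((nl (D.H k U) - (D.e k).lost (D.H k) U : Ge (Fld G)) : Gr (Fld G))
          ≤ Γ ^ size r U * ((qT + CX) * pG (wU w a r U) (D.K k U)) := mul_le_mul' h2 h1
        _ = (qT + CX) * (Γ ^ size r U * pG (wU w a r U) (D.K k U)) := by ring
        _ ≤ (qL + (qT + CX)) * (Γ ^ size r U * pG (wU w a r U) (D.K k U)) :=
          mul_le_mul' le_add_self le_rfl
    · right; right
      obtain ⟨i, hi1, hi2⟩ := H.small U hacU hs hE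
      refine ⟨i, hE, hUne, hs, hi1, ?_⟩
      rw [he.lost_eq_zero hdeep _ hE, sub_zero]
      exact hi2 _ hfin
  · have hs' : 2 ≤ size r U := by omega
    have h1 : Γ ^ size r' U * pG (wU w a' r' U) (nl (D.H k U) - (D.e k).lost (D.H k) U) ≤
        qL * (Γ ^ size r U * pG (wU w a r U) (D.K k U)) := by
      rw [he.lost_large _ hs', sub_zero]
      exact (mul_le_mul' (pow_le_pow_left₀ zero_le hΓΓ _) (pG_nl_le _ _)).trans
        (H.large U hacU hs' _ hfin)
    by_cases hE : em U
    · right; left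
      exact ⟨not_not.2 hE, h1.trans (mul_le_mul' le_self_add le_rfl)⟩
    · left
      exact ⟨hE, h1⟩

/-- **one step of the defect norm** (P6-DEFECT): old defect norm with the factor of the linear
step, plus the plane-like norm, plus the quadratic remainder -/
theorem NK_defect [GoodG G] (D : Sys (G × G) (Fld G)) (k : ℕ)
    (H : DStep w a a' r r' Γ Γ' (D.S k) ac em A m N q qL qT) (hr : 0 < r) (hrr : r ≤ r')
    (hdeep : Deep r em em') (hΓ : 1 ≤ Γ) (hΓΓ : Γ ≤ Γ')
    (hac : ∀ U, D.K k U ≠ 0 → ac U) (hne : ∀ U, ac U → U.Nonempty)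
    (hvac : VacCt D) (he : EmbExtr r em' (D.e k))
    (hlost : ∀ U, ac U → em U → ¬ em' U → size r U ≤ 1 →
      pG (wU w a' r' U) ((D.e k).lost (D.H k) U) ≤ CX * pG (wU w a r U) (D.K k U))
    {Y : ℝ≥0∞} (hquad : NK w a' r' Γ (fun U => U.Nonempty)
      (fun U => ((D.B k U - D.A k U + D.Q k U : Ge (Fld G)) : Gr (Fld G))) ≤ Y) :
    NK w a' r' Γ (fun U => ¬ em' U) (fun U => ((D.K (k + 1) U : Ge (Fld G)) : Gr (Fld G))) ≤
      (qL * (((2 * (r' / r) + 3) ^ 2 : ℕ) : ℝ≥0∞) +
        ∑ i, q i * ((N i * (2 * ((m i + r) / r) + 3) ^ 2 : ℕ) : ℝ≥0∞)) *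
          NK w a r Γ (fun U => ¬ em U) (fun U => ((D.K k U : Ge (Fld G)) : Gr (Fld G)))
      + (qL + (qT + CX)) * (((2 * (r' / r) + 3) ^ 2 : ℕ) : ℝ≥0∞) *
          NK w a r Γ (fun U => em U) (fun U => ((D.K k U : Ge (Fld G)) : Gr (Fld G)))
      + Y := by
  have hlin := NK_lin_le (CX := CX) D k H hr hrr hdeep hΓ hΓΓ hac hne hvac he hlost
  refine le_trans ?_ (add_le_add hlin hquad)
  have h1 : NK w a' r' Γ (fun U => ¬ em' U)
      (fun U => ((D.K (k + 1) U : Ge (Fld G)) : Gr (Fld G))) ≤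
      NK w a' r' Γ (fun U => ¬ em' U ∧ U.Nonempty)
      (fun U => ((D.H k U + D.A k U : Ge (Fld G)) : Gr (Fld G)) +
        ((D.B k U - D.A k U + D.Q k U : Ge (Fld G)) : Gr (Fld G))) := by
    rw [NK_eq_NN, NK_eq_NN]
    refine NN_mono fun U => ?_
    by_cases hp : ¬ em' U
    · by_cases hU : U.Nonempty
      · rw [act_of hp, act_of (p := fun U => ¬ em' U ∧ U.Nonempty) ⟨hp, hU⟩]
        refine le_of_eq ?_
        congr 1
        rw [D.K_succ_eq k hU, ← Ge.coe_add]
        congr 1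
        ring
      · rw [act_of hp]
        rw [Finset.not_nonempty_iff_eq_empty.1 hU, D.K_empty k]
        simp
    · rw [act_not hp]
      exact zero_le
  refine h1.trans ((NK_add_le _ _ _ _ _ _ _).trans (add_le_add ?_ ?_))
  · exact NK_mono fun U hU => ⟨hU.1, le_rfl⟩
  · exact NK_mono fun U hU => ⟨hU.2, le_rfl⟩

end step

end Crest.Agent.R165.DefRecx915
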