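import Crest.Prelude.Def_PerturbedIsing

/-!
# Row 165 (S0250): top wiring (helper683)

* `VHyp`          : the hypotheses on the potential
* `UD, UT, UP, U2, UC` : the five statements about the UNPERTURBED model (`lam = 0`, `J = 1`, `V = 0`):
  domain limits, torus limits, plane scaling limits, plane two-point function, covariance
* `ULim`          : their conjunction
* `PRatio`        : universality as a comparison of the perturbed model with the unperturbed one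
* `top`           : `ULim → PRatio → S0250`

Everything here is wiring; no analysis.
-/

set_option autoImplicit false

noncomputable section

open Filter Topology
open Crest.ProbabilityR.IsingModel

namespace Crest.Agent.R165.Topx683

/-- hypotheses of S0250 on the potential -/
structure VHyp (R : ℕ) (V : Finset (ℤ × ℤ) → ℝ) : Prop where
  even : ∀ A, V A ≠ 0 → Even A.card
  range : ∀ A, V A ≠ 0 → ∀ x ∈ A, ∀ y ∈ A, |x.1 - y.1| ≤ (R : ℤ) ∧ |x.2 - y.2| ≤ (R : ℤ)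
  trans : ∀ A (z : ℤ × ℤ), V (A.image fun x => x + z) = V A
  rot : ∀ A, V (A.image rotate) = V A
  refl : ∀ A, V (A.image reflect) = V A

/-- unperturbed critical domain correlation (`J = 1`, `V = 0`) -/
def D0 (D : Set ℂ) (a : ℝ) (b : BoundaryCondition) {n m : ℕ} (x : Fin n → ℂ) (y : Fin m → ℂ)
    (j : Fin m → Fin 2) : ℝ :=
  domainMixedCorr D a b 1 0 0 (fun _ => 0) (criticalBeta 1) x y j

/-- unperturbed critical torus correlation -/
def T0 (L : ℕ) {n m : ℕ} (us : Fin n → ℤ × ℤ) (vs : Fin m → ℤ × ℤ) (js : Fin m → Fin 2) : ℝ :=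
  latticeMixedCorr L 1 0 0 (fun _ => 0) (criticalBeta 1) us vs js

/-- unperturbed critical plane correlation -/
def P0 {n m : ℕ} (us : Fin n → ℤ × ℤ) (vs : Fin m → ℤ × ℤ) (js : Fin m → Fin 2) : ℝ :=
  planeMixedCorr 1 0 0 (fun _ => 0) (criticalBeta 1) us vs js

/-- the rescaling factor -/
def scl (n m : ℕ) (a : ℝ) : ℝ := a ^ (-((n : ℝ) / 8 + m))

/-- domain limits, `lam = 0` (Chelkak–Hongler–Izyurov) -/
def UD : Prop :=
  ∀ D : Set ℂ, IsC2JordanDomain D → ∀ (b : BoundaryCondition) (n m : ℕ), 1 ≤ n + m →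
    ∀ (x : Fin n → ℂ) (y : Fin m → ℂ) (j : Fin m → Fin 2),
      (∀ i, x i ∈ D) → (∀ k, y k ∈ D) → Function.Injective (Fin.append x y) →
      ∃ F : ℝ, Tendsto (fun a : ℝ => scl n m a * D0 D a b x y j) (𝓝[>] 0) (𝓝 F)

/-- torus limits, `lam = 0` -/
def UT : Prop :=
  ∀ (n m : ℕ) (us : Fin n → ℤ × ℤ) (vs : Fin m → ℤ × ℤ) (js : Fin m → Fin 2),
    Tendsto (fun L : ℕ => T0 L us vs js) atTop (𝓝 (P0 us vs js))

/-- plane scaling limits, `lam = 0` -/
def UP : Prop :=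
  ∀ (n m : ℕ), 1 ≤ n + m → ∀ (x : Fin n → ℂ) (y : Fin m → ℂ) (j : Fin m → Fin 2),
    Function.Injective (Fin.append x y) →
    ∃ F : ℝ, Tendsto (fun a : ℝ => scl n m a *
        P0 (fun i => meshIndex a (x i)) (fun k => meshIndex a (y k)) j) (𝓝[>] 0) (𝓝 F)

/-- plane two-point function, `lam = 0` -/
def U2 : Prop :=
  ∃ C₀ : ℝ, C₀ ≠ 0 ∧ ∀ x y : ℂ, x ≠ y →
    Tendsto (fun a : ℝ => a ^ (-(1 : ℝ) / 4) * P0 ![meshIndex a x, meshIndex a y] ![] ![])
      (𝓝[>] 0) (𝓝 (C₀ * ‖x - y‖ ^ (-(1 : ℝ) / 4)))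

/-- conformal covariance, `lam = 0` -/
def UC : Prop :=
  ∀ D D' : Set ℂ, IsC2JordanDomain D → IsC2JordanDomain D' → ∀ φ : ℂ → ℂ,
    DifferentiableOn ℂ φ D → Set.BijOn φ D D' →
    ∀ (b : BoundaryCondition) (n m : ℕ), 1 ≤ n + m →
    ∀ (x : Fin n → ℂ) (y : Fin m → ℂ) (j : Fin m → Fin 2),
      (∀ i, x i ∈ D) → (∀ k, y k ∈ D) → Function.Injective (Fin.append x y) →
      ∃ F F' : ℝ,
        Tendsto (fun a : ℝ => scl n m a * D0 D a b x y j) (𝓝[>] 0) (𝓝 F) ∧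
        Tendsto (fun a : ℝ => scl n m a * D0 D' a b (fun i => φ (x i)) (fun k => φ (y k)) j)
          (𝓝[>] 0) (𝓝 F') ∧
        F = (∏ i, ‖deriv φ (x i)‖ ^ ((1 : ℝ) / 8)) * (∏ k, ‖deriv φ (y k)‖) * F'

/-- everything about the unperturbed model -/
structure ULim : Prop where
  ud : UD
  ut : UT
  up : UP
  u2 : U2
  uc : UC

/-- universality: comparison of the perturbed and the unperturbed critical models -/
def PRatio : Prop :=
  ∀ (J : ℝ), 0 < J → ∀ (R : ℕ) (V : Finset (ℤ × ℤ) → ℝ), VHyp R V →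
    ∃ lam₀ : ℝ, 0 < lam₀ ∧ ∃ βc Zs Ze : ℝ → ℝ,
      ContinuousAt βc 0 ∧ ContinuousAt Zs 0 ∧ ContinuousAt Ze 0 ∧
      βc 0 = criticalBeta J ∧ Zs 0 = 1 ∧ Ze 0 = 1 ∧
      ∀ lam : ℝ, |lam| < lam₀ →
        (0 < βc lam ∧ Zs lam ≠ 0 ∧ Ze lam ≠ 0) ∧
        (∀ D : Set ℂ, IsC2JordanDomain D → ∀ (b : BoundaryCondition) (n m : ℕ), 1 ≤ n + m →
          ∀ (x : Fin n → ℂ) (y : Fin m → ℂ) (j : Fin m → Fin 2),
            (∀ i, x i ∈ D) → (∀ k, y k ∈ D) → Function.Injective (Fin.append x y) →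
            Tendsto (fun a : ℝ => scl n m a *
              (domainMixedCorr D a b J lam R V (βc lam) x y j
                - Zs lam ^ n * Ze lam ^ m * D0 D a b x y j)) (𝓝[>] 0) (𝓝 0)) ∧
        (∀ (n m : ℕ) (us : Fin n → ℤ × ℤ) (vs : Fin m → ℤ × ℤ) (js : Fin m → Fin 2),
          ∃ l : ℝ, Tendsto (fun L : ℕ => latticeMixedCorr L J lam R V (βc lam) us vs js) atTop (𝓝 l)) ∧
        (∀ (n m : ℕ), 1 ≤ n + m → ∀ (x : Fin n → ℂ) (y : Fin m → ℂ) (j : Fin m → Fin 2),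
          Function.Injective (Fin.append x y) →
          Tendsto (fun a : ℝ => scl n m a *
            (planeMixedCorr J lam R V (βc lam) (fun i => meshIndex a (x i))
                (fun k => meshIndex a (y k)) j
              - Zs lam ^ n * Ze lam ^ m * P0 (fun i => meshIndex a (x i))
                (fun k => meshIndex a (y k)) j)) (𝓝[>] 0) (𝓝 0))

/-- adding the comparison to the unperturbed limit -/
theorem tend_of (n m : ℕ) (f g : ℝ → ℝ) (c F : ℝ)
    (hg : Tendsto (fun a : ℝ => scl n m a * g a) (𝓝[>] 0) (𝓝 F))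
    (h : Tendsto (fun a : ℝ => scl n m a * (f a - c * g a)) (𝓝[>] 0) (𝓝 0)) :
    Tendsto (fun a : ℝ => scl n m a * f a) (𝓝[>] 0) (𝓝 (c * F)) := by
  have h1 := h.add (hg.const_mul c)
  rw [zero_add] at h1
  refine h1.congr fun a => ?_
  ring

/-- **the top wiring** -/
theorem top (U : ULim) (P : PRatio)
    (J : ℝ) (hJ : 0 < J) (R : ℕ) (V : Finset (ℤ × ℤ) → ℝ)
    (hVeven : ∀ A, V A ≠ 0 → Even A.card)
    (hVrange : ∀ A, V A ≠ 0 → ∀ x ∈ A, ∀ y ∈ A, |x.1 - y.1| ≤ (R : ℤ) ∧ |x.2 - y.2| ≤ (R : ℤ))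
    (hVtrans : ∀ A (z : ℤ × ℤ), V (A.image fun x => x + z) = V A)
    (hVrot : ∀ A, V (A.image rotate) = V A) (hVrefl : ∀ A, V (A.image reflect) = V A) :
    ∃ lam₀ : ℝ, 0 < lam₀ ∧ ∃ βc Zs Ze : ℝ → ℝ,
      ContinuousAt βc 0 ∧ ContinuousAt Zs 0 ∧ ContinuousAt Ze 0 ∧
      βc 0 = criticalBeta J ∧ Zs 0 = 1 ∧ Ze 0 = 1 ∧
      (∀ lam : ℝ, |lam| < lam₀ → 0 < βc lam ∧ Zs lam ≠ 0 ∧ Ze lam ≠ 0) ∧
      (∀ D : Set ℂ, IsC2JordanDomain D → ∀ (b : BoundaryCondition) (n m : ℕ), 1 ≤ n + m →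
        ∀ (x : Fin n → ℂ) (y : Fin m → ℂ) (j : Fin m → Fin 2),
          (∀ i, x i ∈ D) → (∀ k, y k ∈ D) → Function.Injective (Fin.append x y) →
          ∃ F : ℝ, ∀ lam : ℝ, |lam| < lam₀ →
            Filter.Tendsto
              (fun a : ℝ => a ^ (-((n : ℝ) / 8 + m)) * domainMixedCorr D a b J lam R V (βc lam) x y j)
              (nhdsWithin 0 (Set.Ioi 0)) (nhds (Zs lam ^ n * Ze lam ^ m * F))) ∧
      (∀ lam : ℝ, |lam| < lam₀ → ∀ (n m : ℕ) (us : Fin n → ℤ × ℤ) (vs : Fin m → ℤ × ℤ)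
          (js : Fin m → Fin 2),
        Filter.Tendsto (fun L : ℕ => latticeMixedCorr L J lam R V (βc lam) us vs js) Filter.atTop
          (nhds (planeMixedCorr J lam R V (βc lam) us vs js))) ∧
      (∀ (n m : ℕ), 1 ≤ n + m → ∀ (x : Fin n → ℂ) (y : Fin m → ℂ) (j : Fin m → Fin 2),
        Function.Injective (Fin.append x y) →
        ∃ F : ℝ, ∀ lam : ℝ, |lam| < lam₀ →
          Filter.Tendsto
            (fun a : ℝ => a ^ (-((n : ℝ) / 8 + m)) *
              planeMixedCorr J lam R V (βc lam) (fun i => meshIndex a (x i))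
                (fun k => meshIndex a (y k)) j)
            (nhdsWithin 0 (Set.Ioi 0)) (nhds (Zs lam ^ n * Ze lam ^ m * F))) ∧
      (∃ C₀ : ℝ, C₀ ≠ 0 ∧ ∀ x y : ℂ, x ≠ y → ∀ lam : ℝ, |lam| < lam₀ →
        Filter.Tendsto
          (fun a : ℝ => a ^ (-(1 : ℝ) / 4) *
            planeMixedCorr J lam R V (βc lam) ![meshIndex a x, meshIndex a y] ![] ![])
          (nhdsWithin 0 (Set.Ioi 0))
          (nhds (Zs lam ^ 2 * C₀ * ‖x - y‖ ^ (-(1 : ℝ) / 4)))) ∧
      (∀ D D' : Set ℂ, IsC2JordanDomain D → IsC2JordanDomain D' → ∀ φ : ℂ → ℂ,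
        DifferentiableOn ℂ φ D → Set.BijOn φ D D' →
        ∀ (b : BoundaryCondition) (n m : ℕ), 1 ≤ n + m →
        ∀ (x : Fin n → ℂ) (y : Fin m → ℂ) (j : Fin m → Fin 2),
          (∀ i, x i ∈ D) → (∀ k, y k ∈ D) → Function.Injective (Fin.append x y) →
          ∀ lam : ℝ, |lam| < lam₀ → ∃ F F' : ℝ,
            Filter.Tendsto
              (fun a : ℝ => a ^ (-((n : ℝ) / 8 + m)) * domainMixedCorr D a b J lam R V (βc lam) x y j)
              (nhdsWithin 0 (Set.Ioi 0)) (nhds F) ∧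
            Filter.Tendsto
              (fun a : ℝ => a ^ (-((n : ℝ) / 8 + m)) *
                domainMixedCorr D' a b J lam R V (βc lam) (fun i => φ (x i)) (fun k => φ (y k)) j)
              (nhdsWithin 0 (Set.Ioi 0)) (nhds F') ∧
            F = (∏ i, ‖deriv φ (x i)‖ ^ ((1 : ℝ) / 8)) * (∏ k, ‖deriv φ (y k)‖) * F') := by
  obtain ⟨lam₀, hlam₀, βc, Zs, Ze, hβ, hZs, hZe, hβ0, hZs0, hZe0, H⟩ :=
    P J hJ R V ⟨hVeven, hVrange, hVtrans, hVrot, hVrefl⟩
  refine ⟨lam₀, hlam₀, βc, Zs, Ze, hβ, hZs, hZe, hβ0, hZs0, hZe0, fun lam hl => (H lam hl).1,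
    ?_, ?_, ?_, ?_, ?_⟩
  · intro D hD b n m hnm x y j hx hy hinj
    obtain ⟨F, hF⟩ := U.ud D hD b n m hnm x y j hx hy hinj
    exact ⟨F, fun lam hl => tend_of n m _ _ _ F hF ((H lam hl).2.1 D hD b n m hnm x y j hx hy hinj)⟩
  · intro lam hl n m us vs js
    obtain ⟨l, h⟩ := (H lam hl).2.2.1 n m us vs js
    have : planeMixedCorr J lam R V (βc lam) us vs js = l := h.limUnder_eq
    rw [this]; exact h
  · intro n m hnm x y j hinj
    obtain ⟨F, hF⟩ := U.up n m hnm x y j hinj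
    exact ⟨F, fun lam hl => tend_of n m _ _ _ F hF ((H lam hl).2.2.2 n m hnm x y j hinj)⟩
  · obtain ⟨C₀, hC₀, h2⟩ := U.u2
    refine ⟨C₀, hC₀, fun x y hxy lam hl => ?_⟩
    have hinj : Function.Injective (Fin.append ![x, y] (![] : Fin 0 → ℂ)) := by
      intro i j hij
      have e : ∀ k : Fin (2 + 0), Fin.append ![x, y] (![] : Fin 0 → ℂ) k = ![x, y] k := by
        intro k
        exact Fin.append_left ![x, y] (![] : Fin 0 → ℂ) (k : Fin 2)
      rw [e, e] at hij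
      fin_cases i <;> fin_cases j <;> simp_all
    have hP := (H lam hl).2.2.2 2 0 (by norm_num) ![x, y] ![] ![] hinj
    have es : ∀ a : ℝ, scl 2 0 a = a ^ (-(1 : ℝ) / 4) := by
      intro a; unfold scl; congr 1; norm_num
    have e1 : ∀ a : ℝ, (fun i => meshIndex a (![x, y] i)) = ![meshIndex a x, meshIndex a y] := by
      intro a; funext i; fin_cases i <;> rfl
    have e2 : ∀ a : ℝ, (fun k : Fin 0 => meshIndex a ((![] : Fin 0 → ℂ) k)) = ![] := by
      intro a; funext k; exact k.elim0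
    have h2' : Tendsto (fun a : ℝ => scl 2 0 a * P0 ![meshIndex a x, meshIndex a y] ![] ![])
        (𝓝[>] 0) (𝓝 (C₀ * ‖x - y‖ ^ (-(1 : ℝ) / 4))) := by
      simp only [es]; exact h2 x y hxy
    simp only [e1, e2] at hP
    have hT := tend_of 2 0 _ _ _ _ h2' hP
    simp only [es] at hT
    convert hT using 2
    ring
  · intro D D' hD hD' φ hφ hbij b n m hnm x y j hx hy hinj lam hl
    obtain ⟨F, F', hF, hF', hFF'⟩ := U.uc D D' hD hD' φ hφ hbij b n m hnm x y j hx hy hinj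
    have hinj' : Function.Injective (Fin.append (fun i => φ (x i)) (fun k => φ (y k))) := by
      have e : (Fin.append (fun i => φ (x i)) (fun k => φ (y k))) = φ ∘ (Fin.append x y) := by
        funext i
        refine Fin.addCases (fun i => ?_) (fun i => ?_) i <;> simp
      have hmem : ∀ i, Fin.append x y i ∈ D := by
        intro i
        refine Fin.addCases (fun i => ?_) (fun i => ?_) i
        · simpa using hx i
        · simpa using hy i
      rw [e]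
      intro i j hij
      exact hinj (hbij.injOn (hmem i) (hmem j) hij)
    refine ⟨Zs lam ^ n * Ze lam ^ m * F, Zs lam ^ n * Ze lam ^ m * F',
      tend_of n m _ _ _ F hF ((H lam hl).2.1 D hD b n m hnm x y j hx hy hinj),
      tend_of n m _ _ _ F' hF' ((H lam hl).2.1 D' hD' b n m hnm _ _ j
        (fun i => hbij.mapsTo (hx i)) (fun k => hbij.mapsTo (hy k)) hinj'), ?_⟩
    rw [hFF']; ring

end Crest.Agent.R165.Topx683
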