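import Mathlib
import Crest.Prelude.Def_PerturbedIsing
import Crest.Agent.R165.Top_683
import Crest.Agent.R165.Cent_541

/-!
# Row 165 (S0250): constant-centred leaves imply the own-centred ones (helper541)

`UDc, UTc, UPc, UCc, PRatioC` (constant centring, `√2/2` at `lam = 0`, the plane mean `eb` for
`lam ≠ 0`) imply `UD, UT, UP, UC, PRatio` of `Top_683`.
-/

set_option autoImplicit false

noncomputable section

open Filter Topology Finset
open Crest.ProbabilityR.IsingModel

namespace Crest.Agent.R165.Redx541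

open Crest.Agent.R165.Centx541
open Crest.Agent.R165.Topx683

/-! ### `C²` Jordan domains are bounded -/

theorem isPreconnected_far (M : ℝ) (h : 0 ≤ M) : IsPreconnected {z : ℂ | M < ‖z‖} := by
  have h1 : {z : ℂ | M < ‖z‖} =
      (fun p : ℝ × ℝ => (p.1 : ℂ) * Complex.exp (p.2 * Complex.I)) ''
        (Set.Ioi M ×ˢ Set.univ) := by
    ext z
    constructor
    · intro hz
      refine ⟨(‖z‖, Complex.arg z), ⟨hz, Set.mem_univ _⟩, Complex.norm_mul_exp_arg_mul_I z⟩
    · rintro ⟨⟨r, t⟩, ⟨hr, -⟩, rfl⟩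
      have hr' : M < r := hr
      simp only [Set.mem_ofPred_eq, norm_mul, Complex.norm_exp_ofReal_mul_I, mul_one,
        Complex.norm_real]
      rwa [Real.norm_of_nonneg (h.trans hr'.le)]
  rw [h1]
  refine IsPreconnected.image ?_ _ ?_
  · exact isPreconnected_Ioi.prod isPreconnected_univ
  · fun_prop

theorem not_isBounded_far (M : ℝ) : ¬ Bornology.IsBounded {z : ℂ | M < ‖z‖} := by
  intro h
  obtain ⟨R, hR⟩ := h.exists_norm_le
  have h1 : ((|M| + |R| + 1 : ℝ) : ℂ) ∈ {z : ℂ | M < ‖z‖} := by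
    simp only [Set.mem_ofPred_eq, Complex.norm_real]
    rw [Real.norm_of_nonneg (by positivity)]
    have := le_abs_self M
    have := abs_nonneg R
    linarith
  have h2 := hR _ h1
  rw [Complex.norm_real, Real.norm_of_nonneg (by positivity)] at h2
  have := abs_nonneg M
  have := le_abs_self R
  linarith

theorem periodic_range_bounded {γ : ℝ → ℂ} (hc : Continuous γ) (hp : Function.Periodic γ 1) :
    Bornology.IsBounded (Set.range γ) := by
  have h1 : Set.range γ = γ '' Set.Icc 0 1 := by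
    ext z
    constructor
    · rintro ⟨t, rfl⟩
      refine ⟨Int.fract t, ⟨Int.fract_nonneg t, (Int.fract_lt_one t).le⟩, ?_⟩
      have h2 := hp.sub_int_mul_eq (x := t) ⌊t⌋
      rw [mul_one] at h2
      exact h2
    · rintro ⟨t, -, rfl⟩
      exact ⟨t, rfl⟩
  rw [h1]
  exact (isCompact_Icc.image hc).isBounded

/-- a `C²` Jordan domain is bounded -/
theorem bounded_of_C2 {D : Set ℂ} (hD : IsC2JordanDomain D) : Bornology.IsBounded D := by
  obtain ⟨γ, hγ, hper, -, -, rfl⟩ := hD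
  obtain ⟨M, hM⟩ := (periodic_range_bounded hγ.continuous hper).exists_norm_le
  have hM0 : 0 ≤ |M| := abs_nonneg M
  have hsub : {z : ℂ | |M| < ‖z‖} ⊆ (Set.range γ)ᶜ := by
    intro z hz hz'
    have := hM z hz'
    have h3 : |M| < ‖z‖ := hz
    have := le_abs_self M
    linarith
  refine (Metric.isBounded_closedBall (x := (0 : ℂ)) (r := |M|)).subset ?_
  rintro z ⟨hz1, hz2⟩
  rw [Metric.mem_closedBall, dist_zero_right]
  by_contra hcon
  push Not at hcon
  have h4 : {z : ℂ | |M| < ‖z‖} ⊆ connectedComponentIn (Set.range γ)ᶜ z :=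
    (isPreconnected_far _ hM0).subset_connectedComponentIn hcon hsub
  exact not_isBounded_far _ (hz2.subset h4)

/-- the site set of a bounded domain is finite -/
theorem domainSites_finite {D : Set ℂ} (hD : Bornology.IsBounded D) {a : ℝ} (ha : 0 < a) :
    (domainSites D a).Finite := by
  obtain ⟨M, hM⟩ := hD.exists_norm_le
  have hsub : domainSites D a ⊆
      (Set.Icc (-⌈|M| / a⌉) ⌈|M| / a⌉ : Set ℤ) ×ˢ (Set.Icc (-⌈|M| / a⌉) ⌈|M| / a⌉ : Set ℤ) := by
    intro z hz
    have h1 : ‖meshPoint a z‖ ≤ M := hM _ hz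
    have hM' : M ≤ |M| := le_abs_self M
    have key : ∀ t : ℤ, |a * (t : ℝ)| ≤ |M| → t ∈ (Set.Icc (-⌈|M| / a⌉) ⌈|M| / a⌉ : Set ℤ) := by
      intro t ht
      rw [abs_mul, abs_of_pos ha] at ht
      have h2 : |(t : ℝ)| ≤ |M| / a := by
        rw [le_div_iff₀ ha]; linarith
      have h3 : |M| / a ≤ (⌈|M| / a⌉ : ℝ) := Int.le_ceil _
      have h4 := abs_le.1 (h2.trans h3)
      constructor
      · have : (((-⌈|M| / a⌉ : ℤ)) : ℝ) ≤ (t : ℝ) := by push_cast; exact h4.1
        exact_mod_cast this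
      · exact_mod_cast h4.2
    constructor
    · refine key z.1 ?_
      have := Complex.abs_re_le_norm (meshPoint a z)
      simp only [meshPoint] at this h1
      linarith
    · refine key z.2 ?_
      have := Complex.abs_im_le_norm (meshPoint a z)
      simp only [meshPoint] at this h1
      linarith
  exact ((Set.finite_Icc _ _).prod (Set.finite_Icc _ _)).subset hsub

/-! ### The scaling factor -/

theorem scl_zero_zero (a : ℝ) : scl 0 0 a = 1 := by
  unfold scl; simp

theorem scl_split (n : ℕ) {m : ℕ} (S : Finset (Fin m)) {a : ℝ} (ha : 0 < a) :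
    scl n m a = scl n S.card a * ∏ _k ∈ Sᶜ, scl 0 1 a := by
  unfold scl
  rw [Finset.prod_const, Finset.card_compl, Fintype.card_fin, ← Real.rpow_natCast,
    ← Real.rpow_mul ha.le, ← Real.rpow_add ha]
  congr 1
  have h1 : S.card ≤ m := by
    have := Finset.card_le_univ S
    rwa [Fintype.card_fin] at this
  rw [Nat.cast_sub h1]
  push_cast
  ring

/-- own-centred scaling limit from constant-centred ones: domain -/
theorem own_limit_domain {D : Set ℂ} (hD : Bornology.IsBounded D) (b : BoundaryCondition)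
    (J lam : ℝ) (R : ℕ) (V : Finset (ℤ × ℤ) → ℝ) (β : ℝ) {n m : ℕ}
    (x : Fin n → ℂ) (y : Fin m → ℂ) (j : Fin m → Fin 2) (c : Fin m → ℝ)
    (G : Finset (Fin m) → ℝ) (g : Fin m → ℝ)
    (hG : ∀ S : Finset (Fin m), Tendsto (fun a : ℝ => scl n S.card a *
      domMom D a b J lam R V β x (fun i => y (en S i)) (fun i => j (en S i))
        (fun i => c (en S i))) (𝓝[>] 0) (𝓝 (G S)))
    (hg : ∀ k, Tendsto (fun a : ℝ => scl 0 1 a *
      domMom D a b J lam R V β ![] (fun _ : Fin 1 => y k) (fun _ => j k) (fun _ => c k))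
        (𝓝[>] 0) (𝓝 (g k))) :
    Tendsto (fun a : ℝ => scl n m a * domainMixedCorr D a b J lam R V β x y j) (𝓝[>] 0)
      (𝓝 (∑ S : Finset (Fin m), G S * ∏ k ∈ Sᶜ, (-g k))) := by
  have h1 : Tendsto (fun a : ℝ => ∑ S : Finset (Fin m),
      (scl n S.card a * domMom D a b J lam R V β x (fun i => y (en S i)) (fun i => j (en S i))
        (fun i => c (en S i))) * ∏ k ∈ Sᶜ, (-(scl 0 1 a *
        domMom D a b J lam R V β ![] (fun _ : Fin 1 => y k) (fun _ => j k) (fun _ => c k))))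
      (𝓝[>] 0) (𝓝 (∑ S : Finset (Fin m), G S * ∏ k ∈ Sᶜ, (-g k))) := by
    refine tendsto_finsetSum _ fun S _ => ?_
    exact (hG S).mul (tendsto_finsetProd _ fun k _ => (hg k).neg)
  refine h1.congr' ?_
  filter_upwards [self_mem_nhdsWithin] with a ha
  have ha' : (0 : ℝ) < a := ha
  rw [domainMixedCorr_expand D a b J lam R V β (domainSites_finite hD ha') x y j c, Finset.mul_sum]
  refine Finset.sum_congr rfl fun S _ => ?_
  rw [scl_split n S ha']
  simp only [← mul_neg]
  rw [Finset.prod_mul_distrib]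
  ring

/-! ### The constant-centred leaves -/

/-- centring constant of the unperturbed critical model -/
def e0 : ℝ := Real.sqrt 2 / 2

/-- unperturbed critical domain moment, constant centring -/
def D0c (D : Set ℂ) (a : ℝ) (b : BoundaryCondition) {n m : ℕ} (x : Fin n → ℂ) (y : Fin m → ℂ)
    (j : Fin m → Fin 2) : ℝ :=
  domMom D a b 1 0 0 (fun _ => 0) (criticalBeta 1) x y j (fun _ => e0)

/-- unperturbed critical torus moment, constant centring -/
def T0c (L : ℕ) {n m : ℕ} (us : Fin n → ℤ × ℤ) (vs : Fin m → ℤ × ℤ) (js : Fin m → Fin 2) : ℝ :=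
  torMom L 1 0 0 (fun _ => 0) (criticalBeta 1) us vs js (fun _ => e0)

/-- plane moment with constant centring -/
def plMom (J lam : ℝ) (R : ℕ) (V : Finset (ℤ × ℤ) → ℝ) (β : ℝ) {n m : ℕ}
    (us : Fin n → ℤ × ℤ) (vs : Fin m → ℤ × ℤ) (js : Fin m → Fin 2) (c : Fin m → ℝ) : ℝ :=
  limUnder atTop (fun L : ℕ => torMom L J lam R V β us vs js c)

/-- unperturbed critical plane moment, constant centring -/
def P0c {n m : ℕ} (us : Fin n → ℤ × ℤ) (vs : Fin m → ℤ × ℤ) (js : Fin m → Fin 2) : ℝ :=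
  plMom 1 0 0 (fun _ => 0) (criticalBeta 1) us vs js (fun _ => e0)

/-- domain limits, `lam = 0`, constant centring -/
def UDc : Prop :=
  ∀ D : Set ℂ, IsC2JordanDomain D → ∀ (b : BoundaryCondition) (n m : ℕ), 1 ≤ n + m →
    ∀ (x : Fin n → ℂ) (y : Fin m → ℂ) (j : Fin m → Fin 2),
      (∀ i, x i ∈ D) → (∀ k, y k ∈ D) → Function.Injective (Fin.append x y) →
      ∃ F : ℝ, Tendsto (fun a : ℝ => scl n m a * D0c D a b x y j) (𝓝[>] 0) (𝓝 F)

/-- torus limits, `lam = 0`, constant centring; the torus bond means tend to `√2/2` -/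
def UTc : Prop :=
  (∀ (n m : ℕ) (us : Fin n → ℤ × ℤ) (vs : Fin m → ℤ × ℤ) (js : Fin m → Fin 2),
    ∃ l : ℝ, Tendsto (fun L : ℕ => T0c L us vs js) atTop (𝓝 l)) ∧
  (∀ (v : ℤ × ℤ) (j : Fin 2),
    Tendsto (fun L : ℕ => T0c L (![] : Fin 0 → ℤ × ℤ) (fun _ : Fin 1 => v) (fun _ => j)) atTop
      (𝓝 0))

/-- plane scaling limits, `lam = 0`, constant centring -/
def UPc : Prop :=
  ∀ (n m : ℕ), 1 ≤ n + m → ∀ (x : Fin n → ℂ) (y : Fin m → ℂ) (j : Fin m → Fin 2),
    Function.Injective (Fin.append x y) →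
    ∃ F : ℝ, Tendsto (fun a : ℝ => scl n m a *
        P0c (fun i => meshIndex a (x i)) (fun k => meshIndex a (y k)) j) (𝓝[>] 0) (𝓝 F)

/-- plane two-point function, `lam = 0` -/
def U2c : Prop :=
  ∃ C₀ : ℝ, C₀ ≠ 0 ∧ ∀ x y : ℂ, x ≠ y →
    Tendsto (fun a : ℝ => a ^ (-(1 : ℝ) / 4) * P0c ![meshIndex a x, meshIndex a y]
      (![] : Fin 0 → ℤ × ℤ) ![])
      (𝓝[>] 0) (𝓝 (C₀ * ‖x - y‖ ^ (-(1 : ℝ) / 4)))

/-- conformal covariance, `lam = 0`, constant centring -/
def UCc : Prop :=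
  ∀ D D' : Set ℂ, IsC2JordanDomain D → IsC2JordanDomain D' → ∀ φ : ℂ → ℂ,
    DifferentiableOn ℂ φ D → Set.BijOn φ D D' →
    ∀ (b : BoundaryCondition) (n m : ℕ), 1 ≤ n + m →
    ∀ (x : Fin n → ℂ) (y : Fin m → ℂ) (j : Fin m → Fin 2),
      (∀ i, x i ∈ D) → (∀ k, y k ∈ D) → Function.Injective (Fin.append x y) →
      ∃ F F' : ℝ,
        Tendsto (fun a : ℝ => scl n m a * D0c D a b x y j) (𝓝[>] 0) (𝓝 F) ∧
        Tendsto (fun a : ℝ => scl n m a * D0c D' a b (fun i => φ (x i)) (fun k => φ (y k)) j)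
          (𝓝[>] 0) (𝓝 F') ∧
        F = (∏ i, ‖deriv φ (x i)‖ ^ ((1 : ℝ) / 8)) * (∏ k, ‖deriv φ (y k)‖) * F'

/-- universality with constant centring; `eb lam j` is the bond mean of the plane state -/
def PRatioC : Prop :=
  ∀ (J : ℝ), 0 < J → ∀ (R : ℕ) (V : Finset (ℤ × ℤ) → ℝ), VHyp R V →
    ∃ lam₀ : ℝ, 0 < lam₀ ∧ ∃ (βc Zs Ze : ℝ → ℝ) (eb : ℝ → Fin 2 → ℝ),
      ContinuousAt βc 0 ∧ ContinuousAt Zs 0 ∧ ContinuousAt Ze 0 ∧
      βc 0 = criticalBeta J ∧ Zs 0 = 1 ∧ Ze 0 = 1 ∧
      ∀ lam : ℝ, |lam| < lam₀ →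
        (0 < βc lam ∧ Zs lam ≠ 0 ∧ Ze lam ≠ 0) ∧
        (∀ D : Set ℂ, IsC2JordanDomain D → ∀ (b : BoundaryCondition) (n m : ℕ), 1 ≤ n + m →
          ∀ (x : Fin n → ℂ) (y : Fin m → ℂ) (j : Fin m → Fin 2),
            (∀ i, x i ∈ D) → (∀ k, y k ∈ D) → Function.Injective (Fin.append x y) →
            Tendsto (fun a : ℝ => scl n m a *
              (domMom D a b J lam R V (βc lam) x y j (fun k => eb lam (j k))
                - Zs lam ^ n * Ze lam ^ m * D0c D a b x y j)) (𝓝[>] 0) (𝓝 0)) ∧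
        (∀ (n m : ℕ) (us : Fin n → ℤ × ℤ) (vs : Fin m → ℤ × ℤ) (js : Fin m → Fin 2),
          ∃ l : ℝ, Tendsto (fun L : ℕ => torMom L J lam R V (βc lam) us vs js
            (fun k => eb lam (js k))) atTop (𝓝 l)) ∧
        (∀ (v : ℤ × ℤ) (j : Fin 2),
          Tendsto (fun L : ℕ => torMom L J lam R V (βc lam) (![] : Fin 0 → ℤ × ℤ)
            (fun _ : Fin 1 => v) (fun _ => j) (fun _ => eb lam j)) atTop (𝓝 0)) ∧
        (∀ (n m : ℕ), 1 ≤ n + m → ∀ (x : Fin n → ℂ) (y : Fin m → ℂ) (j : Fin m → Fin 2),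
          Function.Injective (Fin.append x y) →
          Tendsto (fun a : ℝ => scl n m a *
            (plMom J lam R V (βc lam) (fun i => meshIndex a (x i))
                (fun k => meshIndex a (y k)) j (fun k => eb lam (j k))
              - Zs lam ^ n * Ze lam ^ m * P0c (fun i => meshIndex a (x i))
                (fun k => meshIndex a (y k)) j)) (𝓝[>] 0) (𝓝 0))

/-! ### Torus: own-centred limit = constant-centred limit when the constant is the plane mean -/

theorem own_limit_torus (J lam : ℝ) (R : ℕ) (V : Finset (ℤ × ℤ) → ℝ) (β : ℝ) {n m : ℕ}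
    (us : Fin n → ℤ × ℤ) (vs : Fin m → ℤ × ℤ) (js : Fin m → Fin 2) (c : Fin m → ℝ)
    (hG : ∀ S : Finset (Fin m), ∃ l : ℝ, Tendsto (fun L : ℕ =>
      torMom L J lam R V β us (fun i => vs (en S i)) (fun i => js (en S i))
        (fun i => c (en S i))) atTop (𝓝 l))
    (hfull : ∃ l : ℝ, Tendsto (fun L : ℕ => torMom L J lam R V β us vs js c) atTop (𝓝 l))
    (hg : ∀ k, Tendsto (fun L : ℕ =>
      torMom L J lam R V β ![] (fun _ : Fin 1 => vs k) (fun _ => js k) (fun _ => c k))
        atTop (𝓝 0)) :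
    Tendsto (fun L : ℕ => latticeMixedCorr L J lam R V β us vs js) atTop
      (𝓝 (plMom J lam R V β us vs js c)) := by
  obtain ⟨l, hl⟩ := hfull
  have e1 : plMom J lam R V β us vs js c = l := hl.limUnder_eq
  rw [e1]
  -- the difference tends to zero
  have h2 : ∀ S ∈ (Finset.univ : Finset (Finset (Fin m))).erase Finset.univ,
      Tendsto (fun L : ℕ => torMom L J lam R V β us (fun i => vs (en S i)) (fun i => js (en S i))
        (fun i => c (en S i)) * ∏ k ∈ Sᶜ, (-torMom L J lam R V β ![] (fun _ : Fin 1 => vs k)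
          (fun _ => js k) (fun _ => c k))) atTop (𝓝 0) := by
    intro S hS
    obtain ⟨lS, hlS⟩ := hG S
    have hne : S ≠ Finset.univ := (Finset.mem_erase.1 hS).1
    obtain ⟨k, hk⟩ : ∃ k, k ∈ Sᶜ := by
      by_contra hcon
      push Not at hcon
      apply hne
      ext k
      have := hcon k
      simpa using this
    have h3 : Tendsto (fun L : ℕ => ∏ k ∈ Sᶜ, (-torMom L J lam R V β ![] (fun _ : Fin 1 => vs k)
          (fun _ => js k) (fun _ => c k))) atTop (𝓝 (∏ _k ∈ Sᶜ, (-0 : ℝ))) :=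
      tendsto_finsetProd _ fun k _ => (hg k).neg
    have h4 : (∏ _k ∈ Sᶜ, (-0 : ℝ)) = 0 := by
      rw [neg_zero]
      exact Finset.prod_eq_zero hk rfl
    rw [h4] at h3
    have := hlS.mul h3
    rwa [mul_zero] at this
  have h5 := tendsto_finsetSum _ h2
  simp only [Finset.sum_const_zero] at h5
  have h6 : ∀ L : ℕ, latticeMixedCorr L J lam R V β us vs js =
      torMom L J lam R V β us vs js c +
      ∑ S ∈ (Finset.univ : Finset (Finset (Fin m))).erase Finset.univ,
        torMom L J lam R V β us (fun i => vs (en S i)) (fun i => js (en S i))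
        (fun i => c (en S i)) * ∏ k ∈ Sᶜ, (-torMom L J lam R V β ![] (fun _ : Fin 1 => vs k)
          (fun _ => js k) (fun _ => c k)) := by
    intro L
    rw [latticeMixedCorr_expand L J lam R V β us vs js c,
      ← Finset.add_sum_erase _ _ (Finset.mem_univ (Finset.univ : Finset (Fin m)))]
    congr 1
    rw [Finset.compl_univ, Finset.prod_empty, mul_one]
    -- the full set: enumeration of `univ` is a permutation (in fact the identity)
    unfold torMom
    congr 1
    funext σ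
    congr 1
    rw [prod_en Finset.univ (fun k => spinSign (σ (toTorus (L + 1) (vs k))) *
        spinSign (σ (toTorus (L + 1) (vs k) + toTorus (L + 1) (unitVec (js k)))) - c k)]
  have h7 := hl.add h5
  rw [add_zero] at h7
  exact h7.congr fun L => (h6 L).symm

theorem plane_own_eq (J lam : ℝ) (R : ℕ) (V : Finset (ℤ × ℤ) → ℝ) (β : ℝ) (eb : Fin 2 → ℝ)
    (hconv : ∀ (n m : ℕ) (us : Fin n → ℤ × ℤ) (vs : Fin m → ℤ × ℤ) (js : Fin m → Fin 2),
          ∃ l : ℝ, Tendsto (fun L : ℕ => torMom L J lam R V β us vs js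
            (fun k => eb (js k))) atTop (𝓝 l))
    (hmean : ∀ (v : ℤ × ℤ) (j : Fin 2),
          Tendsto (fun L : ℕ => torMom L J lam R V β (![] : Fin 0 → ℤ × ℤ)
            (fun _ : Fin 1 => v) (fun _ => j) (fun _ => eb j)) atTop (𝓝 0))
    {n m : ℕ} (us : Fin n → ℤ × ℤ) (vs : Fin m → ℤ × ℤ) (js : Fin m → Fin 2) :
    Tendsto (fun L : ℕ => latticeMixedCorr L J lam R V β us vs js) atTop
      (𝓝 (plMom J lam R V β us vs js (fun k => eb (js k)))) ∧
    planeMixedCorr J lam R V β us vs js = plMom J lam R V β us vs js (fun k => eb (js k)) := by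
  have h := own_limit_torus J lam R V β us vs js (fun k => eb (js k))
    (fun S => hconv n S.card us (fun i => vs (en S i)) (fun i => js (en S i)))
    (hconv n m us vs js) (fun k => hmean (vs k) (js k))
  exact ⟨h, h.limUnder_eq⟩

/-! ### Reductions -/

theorem inj_sub {n m : ℕ} {x : Fin n → ℂ} {y : Fin m → ℂ}
    (h : Function.Injective (Fin.append x y)) (S : Finset (Fin m)) :
    Function.Injective (Fin.append x (fun i => y (en S i))) := by
  rw [Fin.append_injective_iff] at h ⊢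
  refine ⟨h.1, h.2.1.comp (en_injective S), fun i k => h.2.2 i (en S k)⟩

theorem inj_one {y : ℂ} :
    Function.Injective (Fin.append (![] : Fin 0 → ℂ) (fun _ : Fin 1 => y)) := by
  rw [Fin.append_injective_iff]
  exact ⟨fun i => i.elim0, fun i k _ => Subsingleton.elim i k, fun i => i.elim0⟩

/-- limits of all sub-moments in a domain -/
theorem subs_of {D : Set ℂ} (hD : Bornology.IsBounded D) (b : BoundaryCondition)
    (J lam : ℝ) (R : ℕ) (V : Finset (ℤ × ℤ) → ℝ) (β : ℝ) (x : Fin 0 → ℂ) (y : Fin 0 → ℂ)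
    (j : Fin 0 → Fin 2) (c : Fin 0 → ℝ) :
    Tendsto (fun a : ℝ => scl 0 0 a * domMom D a b J lam R V β x y j c) (𝓝[>] 0) (𝓝 1) := by
  refine tendsto_const_nhds.congr' ?_
  filter_upwards [self_mem_nhdsWithin] with a ha
  have ha' : (0 : ℝ) < a := ha
  rw [scl_zero_zero, domMom_zero_zero D a b J lam R V β (domainSites_finite hD ha'), mul_one]

/-- own-centred limit from a family of constant-centred limits -/
theorem own_limit_of_all {D : Set ℂ} (hD : IsC2JordanDomain D) (b : BoundaryCondition)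
    (J lam : ℝ) (R : ℕ) (V : Finset (ℤ × ℤ) → ℝ) (β : ℝ) (eb : Fin 2 → ℝ)
    (LL : ∀ {n m : ℕ}, (Fin n → ℂ) → (Fin m → ℂ) → (Fin m → Fin 2) → ℝ)
    (h : ∀ (n m : ℕ), 1 ≤ n + m → ∀ (x : Fin n → ℂ) (y : Fin m → ℂ) (j : Fin m → Fin 2),
            (∀ i, x i ∈ D) → (∀ k, y k ∈ D) → Function.Injective (Fin.append x y) →
            Tendsto (fun a : ℝ => scl n m a *
              domMom D a b J lam R V β x y j (fun k => eb (j k))) (𝓝[>] 0) (𝓝 (LL x y j)))
    (n m : ℕ) (x : Fin n → ℂ) (y : Fin m → ℂ) (j : Fin m → Fin 2)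
    (hx : ∀ i, x i ∈ D) (hy : ∀ k, y k ∈ D) (hinj : Function.Injective (Fin.append x y)) :
    Tendsto (fun a : ℝ => scl n m a * domainMixedCorr D a b J lam R V β x y j) (𝓝[>] 0)
      (𝓝 (∑ S : Finset (Fin m),
        (if 1 ≤ n + S.card then LL x (fun i => y (en S i)) (fun i => j (en S i)) else 1) *
          ∏ k ∈ Sᶜ, (-LL (![] : Fin 0 → ℂ) (fun _ : Fin 1 => y k) (fun _ => j k)))) := by
  refine own_limit_domain (bounded_of_C2 hD) b J lam R V β x y j (fun k => eb (j k))
    (fun S => if 1 ≤ n + S.card then LL x (fun i => y (en S i)) (fun i => j (en S i)) else 1)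
    (fun k => LL (![] : Fin 0 → ℂ) (fun _ : Fin 1 => y k) (fun _ => j k)) ?_ ?_
  · intro S
    by_cases hS : 1 ≤ n + S.card
    · simp only [hS, if_true]
      exact h n S.card hS x (fun i => y (en S i)) (fun i => j (en S i)) hx (fun i => hy _)
        (inj_sub hinj S)
    · simp only [hS, if_false]
      have hn : n = 0 := by omega
      have hc : S.card = 0 := by omega
      subst hn
      refine tendsto_const_nhds.congr' ?_
      filter_upwards [self_mem_nhdsWithin] with a ha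
      have ha' : (0 : ℝ) < a := ha
      have hfin := domainSites_finite (bounded_of_C2 hD) ha'
      have e1 : scl 0 S.card a = 1 := by rw [hc]; exact scl_zero_zero a
      rw [e1, one_mul]
      rw [← domainExpect_one D a b J lam R V β hfin]
      unfold domMom
      congr 1
      funext s
      unfold obs
      have h0 : ∀ (k : ℕ) (hk : k = 0) (f : Fin k → ℝ), ∏ i, f i = 1 := by
        intro k hk f; subst hk; simp
      rw [h0 0 rfl, h0 S.card hc, mul_one]
  · intro k
    exact h 0 1 (by norm_num) _ _ _ (fun i => i.elim0) (fun _ => hy k) inj_one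

/-- `UDc → UD` -/
theorem UD_of (h : UDc) : UD := by
  intro D hD b n m _hnm x y j hx hy hinj
  classical
  -- choose limits
  let LL : ∀ {n m : ℕ}, (Fin n → ℂ) → (Fin m → ℂ) → (Fin m → Fin 2) → ℝ :=
    fun {n m} x y j => limUnder (𝓝[>] (0 : ℝ)) (fun a : ℝ => scl n m a * D0c D a b x y j)
  refine ⟨_, own_limit_of_all hD b 1 0 0 (fun _ => 0) (criticalBeta 1) (fun _ => e0) LL ?_ n m x y j
    hx hy hinj⟩
  intro n m hnm x y j hx hy hinj
  obtain ⟨F, hF⟩ := h D hD b n m hnm x y j hx hy hinj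
  have : LL x y j = F := hF.limUnder_eq
  rw [this]
  exact hF

theorem UC_of (h : UCc) : UC := by
  intro D D' hD hD' φ hφ hbij b n m _hnm x y j hx hy hinj
  classical
  have hmap : ∀ {n m : ℕ} {x : Fin n → ℂ} {y : Fin m → ℂ}, (∀ i, x i ∈ D) → (∀ k, y k ∈ D) →
      Function.Injective (Fin.append x y) →
      Function.Injective (Fin.append (fun i => φ (x i)) (fun k => φ (y k))) := by
    intro n m x y hx hy hinj
    rw [Fin.append_injective_iff] at hinj ⊢
    refine ⟨fun i i' hi => hinj.1 (hbij.injOn (hx _) (hx _) hi),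
      fun i i' hi => hinj.2.1 (hbij.injOn (hy _) (hy _) hi), fun i k hik => ?_⟩
    exact hinj.2.2 i k (hbij.injOn (hx _) (hy _) hik)
  let LL : ∀ {n m : ℕ}, (Fin n → ℂ) → (Fin m → ℂ) → (Fin m → Fin 2) → ℝ :=
    fun {n m} x y j => limUnder (𝓝[>] (0 : ℝ)) (fun a : ℝ => scl n m a * D0c D a b x y j)
  let LL' : ∀ {n m : ℕ}, (Fin n → ℂ) → (Fin m → ℂ) → (Fin m → Fin 2) → ℝ :=
    fun {n m} x y j => limUnder (𝓝[>] (0 : ℝ)) (fun a : ℝ => scl n m a * D0c D' a b x y j)
  -- facts
  have hLL : ∀ (n m : ℕ), 1 ≤ n + m → ∀ (x : Fin n → ℂ) (y : Fin m → ℂ) (j : Fin m → Fin 2),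
            (∀ i, x i ∈ D) → (∀ k, y k ∈ D) → Function.Injective (Fin.append x y) →
            Tendsto (fun a : ℝ => scl n m a * D0c D a b x y j) (𝓝[>] 0) (𝓝 (LL x y j)) := by
    intro n m hnm x y j hx hy hinj
    obtain ⟨F, F', hF, hF', hFF'⟩ := h D D' hD hD' φ hφ hbij b n m hnm x y j hx hy hinj
    have : LL x y j = F := hF.limUnder_eq
    rw [this]
    exact hF
  have hcov : ∀ (n m : ℕ), 1 ≤ n + m → ∀ (x : Fin n → ℂ) (y : Fin m → ℂ) (j : Fin m → Fin 2),
            (∀ i, x i ∈ D) → (∀ k, y k ∈ D) → Function.Injective (Fin.append x y) →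
            LL x y j = (∏ i, ‖deriv φ (x i)‖ ^ ((1 : ℝ) / 8)) * (∏ k, ‖deriv φ (y k)‖) *
              LL' (fun i => φ (x i)) (fun k => φ (y k)) j := by
    intro n m hnm x y j hx hy hinj
    obtain ⟨F, F', hF, hF', hFF'⟩ := h D D' hD hD' φ hφ hbij b n m hnm x y j hx hy hinj
    have e1 : LL x y j = F := hF.limUnder_eq
    have e2 : LL' (fun i => φ (x i)) (fun k => φ (y k)) j = F' := hF'.limUnder_eq
    rw [e1, e2]
    exact hFF'
  -- the inverse map gives limits on `D'` for all configurations, but we only need images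
  have own1 := own_limit_of_all hD b 1 0 0 (fun _ => 0) (criticalBeta 1) (fun _ => e0) LL hLL
    n m x y j hx hy hinj
  have own2 : Tendsto (fun a : ℝ => scl n m a *
      D0 D' a b (fun i => φ (x i)) (fun k => φ (y k)) j) (𝓝[>] 0)
      (𝓝 (∑ S : Finset (Fin m),
        (if 1 ≤ n + S.card then LL' (fun i => φ (x i)) (fun i => φ (y (en S i)))
          (fun i => j (en S i)) else 1) *
          ∏ k ∈ Sᶜ, (-LL' (![] : Fin 0 → ℂ) (fun _ : Fin 1 => φ (y k)) (fun _ => j k)))) := by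
    refine own_limit_of_all hD' b 1 0 0 (fun _ => 0) (criticalBeta 1) (fun _ => e0) LL' ?_
      n m _ _ j (fun i => hbij.mapsTo (hx i)) (fun k => hbij.mapsTo (hy k)) (hmap hx hy hinj)
    intro n m hnm x' y' j hx' hy' hinj'
    obtain ⟨x, hx2⟩ : ∃ x : Fin n → ℂ, ∀ i, x i ∈ D ∧ φ (x i) = x' i :=
      ⟨fun i => (hbij.surjOn (hx' i)).choose, fun i => (hbij.surjOn (hx' i)).choose_spec⟩
    obtain ⟨y, hy2⟩ : ∃ y : Fin m → ℂ, ∀ i, y i ∈ D ∧ φ (y i) = y' i :=
      ⟨fun i => (hbij.surjOn (hy' i)).choose, fun i => (hbij.surjOn (hy' i)).choose_spec⟩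
    have ex : (fun i => φ (x i)) = x' := funext fun i => (hx2 i).2
    have ey : (fun i => φ (y i)) = y' := funext fun i => (hy2 i).2
    have hinj0 : Function.Injective (Fin.append x y) := by
      rw [← ex, ← ey] at hinj'
      rw [Fin.append_injective_iff] at hinj' ⊢
      refine ⟨fun i i' hi => hinj'.1 (by simp only [hi]),
        fun i i' hi => hinj'.2.1 (by simp only [hi]), fun i k hik => hinj'.2.2 i k (by simp only [hik])⟩
    obtain ⟨F, F', hF, hF', hFF'⟩ := h D D' hD hD' φ hφ hbij b n m hnm x y j (fun i => (hx2 i).1)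
      (fun i => (hy2 i).1) hinj0
    rw [ex, ey] at hF'
    have e2 : LL' x' y' j = F' := hF'.limUnder_eq
    rw [e2]
    exact hF'
  refine ⟨_, _, own1, own2, ?_⟩
  rw [Finset.mul_sum]
  refine Finset.sum_congr rfl fun S _ => ?_
  have hsingle : ∀ k, LL (![] : Fin 0 → ℂ) (fun _ : Fin 1 => y k) (fun _ => j k) =
      ‖deriv φ (y k)‖ * LL' (![] : Fin 0 → ℂ) (fun _ : Fin 1 => φ (y k)) (fun _ => j k) := by
    intro k
    have := hcov 0 1 (by norm_num) ![] (fun _ : Fin 1 => y k) (fun _ => j k) (fun i => i.elim0)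
      (fun _ => hy k) inj_one
    simp only [Finset.univ_eq_empty, Finset.prod_empty, Finset.univ_unique, Finset.prod_const,
      Finset.card_singleton, pow_one, one_mul] at this
    rw [this]
    congr 2
    funext i; exact i.elim0
  have hmain : (if 1 ≤ n + S.card then LL x (fun i => y (en S i)) (fun i => j (en S i)) else 1) =
      (∏ i, ‖deriv φ (x i)‖ ^ ((1 : ℝ) / 8)) * (∏ k ∈ S, ‖deriv φ (y k)‖) *
      (if 1 ≤ n + S.card then LL' (fun i => φ (x i)) (fun i => φ (y (en S i)))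
          (fun i => j (en S i)) else 1) := by
    by_cases hS : 1 ≤ n + S.card
    · simp only [hS, if_true]
      rw [hcov n S.card hS x (fun i => y (en S i)) (fun i => j (en S i)) hx (fun i => hy _)
        (inj_sub hinj S), prod_en S (fun k => ‖deriv φ (y k)‖)]
    · simp only [hS, if_false]
      have hn : n = 0 := by omega
      have hc : S = ∅ := Finset.card_eq_zero.1 (by omega)
      subst hn
      rw [hc]
      simp
  have h10 : ∏ k ∈ Sᶜ, (-LL (![] : Fin 0 → ℂ) (fun _ : Fin 1 => y k) (fun _ => j k)) =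
      ∏ k ∈ Sᶜ, (-(‖deriv φ (y k)‖ *
      LL' (![] : Fin 0 → ℂ) (fun _ : Fin 1 => φ (y k)) (fun _ => j k))) :=
    Finset.prod_congr rfl (fun k _ => by rw [hsingle k])
  rw [hmain, h10]
  have hsplit : (∏ k, ‖deriv φ (y k)‖) = (∏ k ∈ S, ‖deriv φ (y k)‖) * ∏ k ∈ Sᶜ, ‖deriv φ (y k)‖ :=
    (Finset.prod_mul_prod_compl S _).symm
  rw [hsplit]
  have h9 : ∏ k ∈ Sᶜ, (-(‖deriv φ (y k)‖ *
      LL' (![] : Fin 0 → ℂ) (fun _ : Fin 1 => φ (y k)) (fun _ => j k))) =
      (∏ k ∈ Sᶜ, ‖deriv φ (y k)‖) *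
        ∏ k ∈ Sᶜ, (-LL' (![] : Fin 0 → ℂ) (fun _ : Fin 1 => φ (y k)) (fun _ => j k)) := by
    rw [← Finset.prod_mul_distrib]
    refine Finset.prod_congr rfl fun k _ => by ring
  rw [h9]
  ring

theorem T0c_all (h : UTc) {n m : ℕ} (us : Fin n → ℤ × ℤ) (vs : Fin m → ℤ × ℤ)
    (js : Fin m → Fin 2) :
    Tendsto (fun L : ℕ => T0 L us vs js) atTop (𝓝 (P0c us vs js)) ∧ P0 us vs js = P0c us vs js :=
  plane_own_eq 1 0 0 (fun _ => 0) (criticalBeta 1) (fun _ => e0) h.1 h.2 us vs js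

theorem UT_of (h : UTc) : UT := by
  intro n m us vs js
  have := T0c_all h us vs js
  rw [this.2]
  exact this.1

theorem UP_of (hT : UTc) (h : UPc) : UP := by
  intro n m hnm x y j hinj
  obtain ⟨F, hF⟩ := h n m hnm x y j hinj
  refine ⟨F, hF.congr fun a => ?_⟩
  rw [(T0c_all hT _ _ _).2]

theorem U2_of (hT : UTc) (h : U2c) : U2 := by
  obtain ⟨C₀, hC₀, h2⟩ := h
  refine ⟨C₀, hC₀, fun x y hxy => (h2 x y hxy).congr fun a => ?_⟩
  rw [(T0c_all hT _ _ _).2]

theorem PRatio_of (hD : UDc) (hT : UTc) (h : PRatioC) : PRatio := by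
  intro J hJ R V hV
  obtain ⟨lam₀, hlam₀, βc, Zs, Ze, eb, hβ, hZs, hZe, hβ0, hZs0, hZe0, H⟩ := h J hJ R V hV
  refine ⟨lam₀, hlam₀, βc, Zs, Ze, hβ, hZs, hZe, hβ0, hZs0, hZe0, fun lam hl => ?_⟩
  obtain ⟨h1, h2, h3, h4, h5⟩ := H lam hl
  refine ⟨h1, ?_, ?_, ?_⟩
  · intro D hDD b n m hnm x y j hx hy hinj
    classical
    let LL : ∀ {n m : ℕ}, (Fin n → ℂ) → (Fin m → ℂ) → (Fin m → Fin 2) → ℝ :=
      fun {n m} x y j => limUnder (𝓝[>] (0 : ℝ)) (fun a : ℝ => scl n m a * D0c D a b x y j)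
    have hLL : ∀ (n m : ℕ), 1 ≤ n + m → ∀ (x : Fin n → ℂ) (y : Fin m → ℂ) (j : Fin m → Fin 2),
            (∀ i, x i ∈ D) → (∀ k, y k ∈ D) → Function.Injective (Fin.append x y) →
            Tendsto (fun a : ℝ => scl n m a * D0c D a b x y j) (𝓝[>] 0) (𝓝 (LL x y j)) := by
      intro n m hnm x y j hx hy hinj
      obtain ⟨F, hF⟩ := hD D hDD b n m hnm x y j hx hy hinj
      have : LL x y j = F := hF.limUnder_eq
      rw [this]
      exact hF
    let LL2 : ∀ {n m : ℕ}, (Fin n → ℂ) → (Fin m → ℂ) → (Fin m → Fin 2) → ℝ :=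
      fun {n m} x y j => Zs lam ^ n * Ze lam ^ m * LL x y j
    have hLL2 : ∀ (n m : ℕ), 1 ≤ n + m → ∀ (x : Fin n → ℂ) (y : Fin m → ℂ) (j : Fin m → Fin 2),
            (∀ i, x i ∈ D) → (∀ k, y k ∈ D) → Function.Injective (Fin.append x y) →
            Tendsto (fun a : ℝ => scl n m a * domMom D a b J lam R V (βc lam) x y j
              (fun k => eb lam (j k))) (𝓝[>] 0) (𝓝 (LL2 x y j)) := by
      intro n m hnm x y j hx hy hinj
      exact tend_of n m _ _ _ _ (hLL n m hnm x y j hx hy hinj)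
        (h2 D hDD b n m hnm x y j hx hy hinj)
    have own1 := own_limit_of_all hDD b 1 0 0 (fun _ => 0) (criticalBeta 1) (fun _ => e0) LL hLL
      n m x y j hx hy hinj
    have own2 := own_limit_of_all hDD b J lam R V (βc lam) (eb lam) LL2 hLL2
      n m x y j hx hy hinj
    have e1 : (∑ S : Finset (Fin m),
        (if 1 ≤ n + S.card then LL2 x (fun i => y (en S i)) (fun i => j (en S i)) else 1) *
          ∏ k ∈ Sᶜ, (-LL2 (![] : Fin 0 → ℂ) (fun _ : Fin 1 => y k) (fun _ => j k))) =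
        Zs lam ^ n * Ze lam ^ m * ∑ S : Finset (Fin m),
        (if 1 ≤ n + S.card then LL x (fun i => y (en S i)) (fun i => j (en S i)) else 1) *
          ∏ k ∈ Sᶜ, (-LL (![] : Fin 0 → ℂ) (fun _ : Fin 1 => y k) (fun _ => j k)) := by
      rw [Finset.mul_sum]
      refine Finset.sum_congr rfl fun S _ => ?_
      have hmain : (if 1 ≤ n + S.card then LL2 x (fun i => y (en S i)) (fun i => j (en S i)) else 1)
          = Zs lam ^ n * Ze lam ^ S.card *
          (if 1 ≤ n + S.card then LL x (fun i => y (en S i)) (fun i => j (en S i)) else 1) := by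
        by_cases hS : 1 ≤ n + S.card
        · simp only [hS, if_true]
          rfl
        · simp only [hS, if_false]
          have hn : n = 0 := by omega
          have hc : S.card = 0 := by omega
          rw [hn, hc]
          simp
      have hsing : ∏ k ∈ Sᶜ, (-LL2 (![] : Fin 0 → ℂ) (fun _ : Fin 1 => y k) (fun _ => j k)) =
          Ze lam ^ (Sᶜ.card) *
          ∏ k ∈ Sᶜ, (-LL (![] : Fin 0 → ℂ) (fun _ : Fin 1 => y k) (fun _ => j k)) := by
        rw [← Finset.prod_const, ← Finset.prod_mul_distrib]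
        refine Finset.prod_congr rfl fun k _ => ?_
        simp only [LL2, pow_zero, pow_one, one_mul]
        ring
      have hcard : Ze lam ^ m = Ze lam ^ S.card * Ze lam ^ (Sᶜ.card) := by
        rw [← pow_add]
        congr 1
        rw [Finset.card_compl, Fintype.card_fin]
        have : S.card ≤ m := by
          have := Finset.card_le_univ S
          rwa [Fintype.card_fin] at this
        omega
      rw [hmain, hsing, hcard]
      ring
    rw [e1] at own2
    have h6 := own2.sub (own1.const_mul (Zs lam ^ n * Ze lam ^ m))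
    rw [sub_self] at h6
    refine h6.congr fun a => ?_
    show scl n m a * _ - _ * (scl n m a * _) = _
    unfold D0
    ring
  · intro n m us vs js
    exact ⟨_, (plane_own_eq J lam R V (βc lam) (eb lam) h3 h4 us vs js).1⟩
  · intro n m hnm x y j hinj
    refine (h5 n m hnm x y j hinj).congr fun a => ?_
    rw [(plane_own_eq J lam R V (βc lam) (eb lam) h3 h4 _ _ _).2, (T0c_all hT _ _ _).2]

/-- everything about the unperturbed model, constant centring -/
structure ULimC : Prop where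
  ud : UDc
  ut : UTc
  up : UPc
  u2 : U2c
  uc : UCc

theorem ULim_of (h : ULimC) : ULim :=
  ⟨UD_of h.ud, UT_of h.ut, UP_of h.ut h.up, U2_of h.ut h.u2, UC_of h.uc⟩

/-- **constant-centred leaves imply the statement** -/
theorem leaves (h : ULimC) (hP : PRatioC) : ULim ∧ PRatio :=
  ⟨ULim_of h, PRatio_of h.ud h.ut hP⟩

end Crest.Agent.R165.Redx541
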