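import Mathlib
import Crest.Prelude.Def_PerturbedIsing
import Crest.Agent.R165.Top_683
import Crest.Agent.R165.Cent_541
import Crest.Agent.R165.Red_541

/-!
# Row 165 (S0250): exact symmetries (helper541)

* `domMom_minus` : minus boundary condition = `(-1)^n` plus
* `domMom_free_odd` : free, odd number of spins: `0`
* `torMom_odd` : torus, odd number of spins: `0`
* `torusExpect_shift` : translation invariance on the torus
* `torMom_conv_of_bonds`, `torMean_of_bonds` : torus clauses from convergence of `⟨∏_{e ∈ S} ε_e⟩`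
-/

set_option autoImplicit false

noncomputable section

open Filter Topology Finset
open Crest.ProbabilityR.IsingModel

namespace Crest.Agent.R165.Symx541

open Crest.Agent.R165.Centx541
open Crest.Agent.R165.Redx541
open Crest.Agent.R165.Topx683

theorem spinSign_not (b : Bool) : spinSign (!b) = -spinSign b := by
  cases b <;> simp [spinSign]

theorem spinSign_sq (b : Bool) : spinSign b * spinSign b = 1 := by
  cases b <;> simp [spinSign]

theorem prod_neg_even {ι : Type*} (A : Finset ι) (f : ι → ℝ) (h : Even A.card) :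
    ∏ x ∈ A, (-f x) = ∏ x ∈ A, f x := by
  rw [Finset.prod_neg]
  simp [h.neg_one_pow]

/-! ### Domain energy -/

/-- the global flip does not change the energy -/
theorem domainEnergy_not (T : Finset (ℤ × ℤ)) (b : BoundaryCondition) (J lam : ℝ) (R : ℕ)
    (V : Finset (ℤ × ℤ) → ℝ) (hV : ∀ A, V A ≠ 0 → Even A.card) (s : ℤ × ℤ → Bool) :
    domainEnergy T b J lam R V (fun z => !s z) = domainEnergy T b J lam R V s := by
  unfold domainEnergy
  simp only [spinSign_not, neg_mul_neg]
  congr 2
  refine Finset.sum_congr rfl fun z _ => Finset.sum_congr rfl fun A _ => ?_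
  by_cases hA : V A = 0
  · simp [hA]
  · rw [prod_neg_even A _ (hV A hA)]

/-- plus and minus have the same energy function -/
theorem domainEnergy_plus_minus (T : Finset (ℤ × ℤ)) (J lam : ℝ) (R : ℕ)
    (V : Finset (ℤ × ℤ) → ℝ) (s : ℤ × ℤ → Bool) :
    domainEnergy T .minus J lam R V s = domainEnergy T .plus J lam R V s := by
  unfold domainEnergy
  simp

/-- the free energy function only reads the sites of `T` -/
theorem domainEnergy_free_congr (T : Finset (ℤ × ℤ)) (J lam : ℝ) (R : ℕ)
    (V : Finset (ℤ × ℤ) → ℝ) (s s' : ℤ × ℤ → Bool) (h : ∀ z ∈ T, s z = s' z) :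
    domainEnergy T .free J lam R V s = domainEnergy T .free J lam R V s' := by
  unfold domainEnergy
  congr 1
  · congr 1
    congr 1
    · refine Finset.sum_congr rfl fun z hz => Finset.sum_congr rfl fun j _ => ?_
      split_ifs with h1
      · rfl
      · have h2 : z + unitVec j ∈ T := by
          by_contra h3
          exact h1 ⟨rfl, h3⟩
        rw [h z hz, h _ h2]
  · congr 1
    refine Finset.sum_congr rfl fun z hz => Finset.sum_congr rfl fun A _ => ?_
    simp only [if_true]
    split_ifs with h1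
    · congr 1
      refine Finset.prod_congr rfl fun x hx => ?_
      rw [h _ (h1 x hx)]
    · rfl

/-- flip of a configuration -/
def flipE {α : Type*} : (α → Bool) ≃ (α → Bool) where
  toFun σ := fun z => !σ z
  invFun σ := fun z => !σ z
  left_inv σ := by funext z; simp
  right_inv σ := by funext z; simp

theorem extend_minus_flip (T : Finset (ℤ × ℤ)) (σ : T → Bool) :
    extendConfig T .minus (flipE σ) = fun z => !(extendConfig T .plus σ z) := by
  funext z
  unfold extendConfig flipE
  split_ifs with h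
  · rfl
  · rfl

theorem extend_free_flip (T : Finset (ℤ × ℤ)) (σ : T → Bool) (z : ℤ × ℤ) (hz : z ∈ T) :
    extendConfig T .free (flipE σ) z = !(extendConfig T .free σ z) := by
  unfold extendConfig flipE
  simp [hz]

theorem obs_not {n m : ℕ} (us : Fin n → ℤ × ℤ) (vs : Fin m → ℤ × ℤ) (js : Fin m → Fin 2)
    (c : Fin m → ℝ) (s : ℤ × ℤ → Bool) :
    obs us vs js c (fun z => !s z) = (-1) ^ n * obs us vs js c s := by
  unfold obs
  simp only [spinSign_not, neg_mul_neg]
  rw [Finset.prod_neg]
  simp only [Finset.card_univ, Fintype.card_fin]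
  ring

/-- `domainExpect` under the flip -/
theorem domainExpect_minus (D : Set ℂ) (a : ℝ) (J lam : ℝ) (R : ℕ)
    (V : Finset (ℤ × ℤ) → ℝ) (hV : ∀ A, V A ≠ 0 → Even A.card) (β : ℝ)
    (f : (ℤ × ℤ → Bool) → ℝ) :
    domainExpect D a .minus J lam R V β f =
      domainExpect D a .plus J lam R V β (fun s => f (fun z => !s z)) := by
  unfold domainExpect
  split_ifs with h
  · have key : ∀ F : (ℤ × ℤ → Bool) → ℝ,
        ∑ σ : h.toFinset → Bool, F (extendConfig h.toFinset .minus σ) =
          ∑ σ : h.toFinset → Bool, F (fun z => !(extendConfig h.toFinset .plus σ z)) := by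
      intro F
      rw [← (flipE (α := h.toFinset)).sum_comp]
      refine Finset.sum_congr rfl fun σ _ => ?_
      rw [extend_minus_flip]
    have e : ∀ s : ℤ × ℤ → Bool, domainEnergy h.toFinset .minus J lam R V (fun z => !s z) =
        domainEnergy h.toFinset .plus J lam R V s := by
      intro s
      rw [domainEnergy_not _ _ _ _ _ _ hV, domainEnergy_plus_minus]
    rw [key (fun s => f s * Real.exp (-β * domainEnergy h.toFinset .minus J lam R V s)),
      key (fun s => Real.exp (-β * domainEnergy h.toFinset .minus J lam R V s))]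
    simp only [e]
  · rfl

/-- **minus = `(-1)^n` plus** -/
theorem domMom_minus (D : Set ℂ) (a : ℝ) (J lam : ℝ) (R : ℕ)
    (V : Finset (ℤ × ℤ) → ℝ) (hV : ∀ A, V A ≠ 0 → Even A.card) (β : ℝ) {n m : ℕ}
    (xs : Fin n → ℂ) (ys : Fin m → ℂ) (js : Fin m → Fin 2) (c : Fin m → ℝ) :
    domMom D a .minus J lam R V β xs ys js c =
      (-1) ^ n * domMom D a .plus J lam R V β xs ys js c := by
  unfold domMom
  rw [domainExpect_minus D a J lam R V hV β]
  have h1 : (fun s : ℤ × ℤ → Bool => obs (fun i => meshIndex a (xs i))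
      (fun k => meshIndex a (ys k)) js c (fun z => !s z)) =
      ((-1 : ℝ) ^ n) • obs (fun i => meshIndex a (xs i)) (fun k => meshIndex a (ys k)) js c := by
    funext s
    rw [obs_not]
    rfl
  rw [h1, ← domE_apply, map_smul, domE_apply, smul_eq_mul]

/-- **free, odd number of spins: zero** -/
theorem domMom_free_odd (D : Set ℂ) (a : ℝ) (J lam : ℝ) (R : ℕ)
    (V : Finset (ℤ × ℤ) → ℝ) (hV : ∀ A, V A ≠ 0 → Even A.card) (β : ℝ) {n m : ℕ}
    (hn : Odd n) (xs : Fin n → ℂ) (ys : Fin m → ℂ) (js : Fin m → Fin 2) (c : Fin m → ℝ)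
    (hx : ∀ i, meshIndex a (xs i) ∈ domainSites D a)
    (hy : ∀ k, meshIndex a (ys k) ∈ domainSites D a)
    (hy' : ∀ k, meshIndex a (ys k) + unitVec (js k) ∈ domainSites D a) :
    domMom D a .free J lam R V β xs ys js c = 0 := by
  unfold domMom domainExpect
  split_ifs with h
  · set O := obs (fun i => meshIndex a (xs i)) (fun k => meshIndex a (ys k)) js c with hO
    set T := h.toFinset with hT
    have hmem : ∀ z, z ∈ T ↔ z ∈ domainSites D a := fun z => by rw [hT, Set.Finite.mem_toFinset]
    have h1 : ∑ σ : T → Bool, O (extendConfig T .free σ) *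
        Real.exp (-β * domainEnergy T .free J lam R V (extendConfig T .free σ)) =
        -∑ σ : T → Bool, O (extendConfig T .free σ) *
        Real.exp (-β * domainEnergy T .free J lam R V (extendConfig T .free σ)) := by
      conv_lhs => rw [← (flipE (α := T)).sum_comp]
      rw [← Finset.sum_neg_distrib]
      refine Finset.sum_congr rfl fun σ _ => ?_
      have e1 : domainEnergy T .free J lam R V (extendConfig T .free (flipE σ)) =
          domainEnergy T .free J lam R V (extendConfig T .free σ) := by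
        rw [← domainEnergy_not T .free J lam R V hV (extendConfig T .free σ)]
        exact domainEnergy_free_congr T J lam R V _ _ fun z hz => extend_free_flip T σ z hz
      have e2 : O (extendConfig T .free (flipE σ)) = -O (extendConfig T .free σ) := by
        have e3 : O (extendConfig T .free (flipE σ)) =
            O (fun z => !(extendConfig T .free σ z)) := by
          rw [hO]
          unfold obs
          congr 1
          · refine Finset.prod_congr rfl fun i _ => ?_
            rw [extend_free_flip T σ _ ((hmem _).2 (hx i))]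
          · refine Finset.prod_congr rfl fun k _ => ?_
            rw [extend_free_flip T σ _ ((hmem _).2 (hy k)),
              extend_free_flip T σ _ ((hmem _).2 (hy' k))]
        rw [e3, hO, obs_not, hn.neg_one_pow]
        ring
      rw [e1, e2]
      ring
    have h2 : ∑ σ : T → Bool, O (extendConfig T .free σ) *
        Real.exp (-β * domainEnergy T .free J lam R V (extendConfig T .free σ)) = 0 := by
      linarith
    rw [h2, zero_div]
  · rfl

/-! ### Torus -/

theorem energy_not (L : ℕ) [NeZero L] (J lam : ℝ) (R : ℕ) (V : Finset (ℤ × ℤ) → ℝ)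
    (hV : ∀ A, V A ≠ 0 → Even A.card) (σ : TorusConfig L) :
    energy L J lam R V (fun z => !σ z) = energy L J lam R V σ := by
  unfold energy
  simp only [spinSign_not, neg_mul_neg]
  congr 2
  refine Finset.sum_congr rfl fun z _ => Finset.sum_congr rfl fun A _ => ?_
  by_cases hA : V A = 0
  · simp [hA]
  · rw [prod_neg_even A _ (hV A hA)]

theorem torusExpect_not (L : ℕ) [NeZero L] (J lam : ℝ) (R : ℕ) (V : Finset (ℤ × ℤ) → ℝ)
    (hV : ∀ A, V A ≠ 0 → Even A.card) (β : ℝ) (f : TorusConfig L → ℝ) :
    torusExpect L J lam R V β (fun σ => f (fun z => !σ z)) = torusExpect L J lam R V β f := by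
  unfold torusExpect
  congr 1
  rw [← (flipE (α := ZMod L × ZMod L)).sum_comp
    (fun σ => f σ * Real.exp (-β * energy L J lam R V σ))]
  refine Finset.sum_congr rfl fun σ _ => ?_
  have : energy L J lam R V (flipE σ) = energy L J lam R V σ := energy_not L J lam R V hV σ
  rw [this]
  rfl

/-- **torus, odd number of spins: zero** -/
theorem torMom_odd (L : ℕ) (J lam : ℝ) (R : ℕ) (V : Finset (ℤ × ℤ) → ℝ)
    (hV : ∀ A, V A ≠ 0 → Even A.card) (β : ℝ) {n m : ℕ} (hn : Odd n)
    (us : Fin n → ℤ × ℤ) (vs : Fin m → ℤ × ℤ) (js : Fin m → Fin 2) (c : Fin m → ℝ) :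
    torMom L J lam R V β us vs js c = 0 := by
  have h1 : torMom L J lam R V β us vs js c = -torMom L J lam R V β us vs js c := by
    conv_lhs => unfold torMom
    rw [← torusExpect_not (L + 1) J lam R V hV β]
    have h2 : (fun σ : TorusConfig (L + 1) => (∏ i, spinSign (!σ (toTorus (L + 1) (us i)))) *
      ∏ k, (spinSign (!σ (toTorus (L + 1) (vs k))) *
        spinSign (!σ (toTorus (L + 1) (vs k) + toTorus (L + 1) (unitVec (js k)))) - c k)) =
      (-1 : ℝ) • fun σ : TorusConfig (L + 1) => (∏ i, spinSign (σ (toTorus (L + 1) (us i)))) *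
      ∏ k, (spinSign (σ (toTorus (L + 1) (vs k))) *
        spinSign (σ (toTorus (L + 1) (vs k) + toTorus (L + 1) (unitVec (js k)))) - c k) := by
      funext σ
      simp only [spinSign_not, neg_mul_neg, Pi.smul_apply, smul_eq_mul]
      rw [Finset.prod_neg]
      simp only [Finset.card_univ, Fintype.card_fin, hn.neg_one_pow]
      ring
    rw [h2, ← torE_apply, map_smul, torE_apply, smul_eq_mul]
    unfold torMom
    ring
  linarith

/-- shift of a torus configuration -/
def shiftE {L : ℕ} (t : ZMod L × ZMod L) : TorusConfig L ≃ TorusConfig L where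
  toFun σ := fun z => σ (z + t)
  invFun σ := fun z => σ (z - t)
  left_inv σ := by funext z; simp
  right_inv σ := by funext z; simp

theorem energy_shift (L : ℕ) [NeZero L] (J lam : ℝ) (R : ℕ) (V : Finset (ℤ × ℤ) → ℝ)
    (σ : TorusConfig L) (t : ZMod L × ZMod L) :
    energy L J lam R V (shiftE t σ) = energy L J lam R V σ := by
  unfold energy shiftE
  simp only [Equiv.coe_fn_mk]
  congr 1
  · congr 1
    rw [← Equiv.sum_comp (Equiv.addRight t) (fun u : ZMod L × ZMod L =>
      spinSign (σ u) * spinSign (σ (u.1 + 1, u.2)) + spinSign (σ u) * spinSign (σ (u.1, u.2 + 1)))]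
    refine Finset.sum_congr rfl fun u _ => ?_
    have e1 : ((u.1 + 1, u.2) : ZMod L × ZMod L) + t = ((u + t).1 + 1, (u + t).2) := by
      ext <;> simp [add_right_comm]
    have e2 : ((u.1, u.2 + 1) : ZMod L × ZMod L) + t = ((u + t).1, (u + t).2 + 1) := by
      ext <;> simp [add_right_comm]
    rw [e1, e2]
    rfl
  · congr 1
    rw [← Equiv.sum_comp (Equiv.addRight t) (fun u : ZMod L × ZMod L =>
      ∑ A ∈ anchoredShapes R, V A / A.card * ∏ x ∈ A, spinSign (σ (u + toTorus L x)))]
    refine Finset.sum_congr rfl fun u _ => Finset.sum_congr rfl fun A _ => ?_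
    congr 1
    refine Finset.prod_congr rfl fun x _ => ?_
    simp only [Equiv.coe_addRight]
    rw [add_right_comm]

/-- **translation invariance on the torus** -/
theorem torusExpect_shift (L : ℕ) [NeZero L] (J lam : ℝ) (R : ℕ) (V : Finset (ℤ × ℤ) → ℝ)
    (β : ℝ) (f : TorusConfig L → ℝ) (t : ZMod L × ZMod L) :
    torusExpect L J lam R V β (fun σ => f (shiftE t σ)) = torusExpect L J lam R V β f := by
  unfold torusExpect
  congr 1
  rw [← (shiftE t).sum_comp (fun σ => f σ * Real.exp (-β * energy L J lam R V σ))]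
  refine Finset.sum_congr rfl fun σ _ => ?_
  rw [energy_shift]

/-! ### Bond sets -/

/-- the bond variable -/
def ep (e : (ℤ × ℤ) × Fin 2) (s : ℤ × ℤ → Bool) : ℝ :=
  spinSign (s e.1) * spinSign (s (e.1 + unitVec e.2))

theorem ep_sq (e : (ℤ × ℤ) × Fin 2) (s : ℤ × ℤ → Bool) : ep e s * ep e s = 1 := by
  unfold ep
  calc spinSign (s e.1) * spinSign (s (e.1 + unitVec e.2)) *
        (spinSign (s e.1) * spinSign (s (e.1 + unitVec e.2)))
      = (spinSign (s e.1) * spinSign (s e.1)) *
        (spinSign (s (e.1 + unitVec e.2)) * spinSign (s (e.1 + unitVec e.2))) := by ring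
    _ = 1 := by rw [spinSign_sq, spinSign_sq, one_mul]

/-- functions of the spins which are products of bond variables -/
def IsB (g : (ℤ × ℤ → Bool) → ℝ) : Prop :=
  ∃ S : Finset ((ℤ × ℤ) × Fin 2), ∀ s, g s = ∏ e ∈ S, ep e s

theorem isB_one : IsB (fun _ => 1) := ⟨∅, fun s => by simp⟩

theorem IsB.mul {g h : (ℤ × ℤ → Bool) → ℝ} (hg : IsB g) (hh : IsB h) :
    IsB (fun s => g s * h s) := by
  classical
  obtain ⟨S, hS⟩ := hg
  obtain ⟨T, hT⟩ := hh
  refine ⟨symmDiff S T, fun s => ?_⟩
  show g s * h s = _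
  rw [hS s, hT s]
  have h1 : ∏ e ∈ S, ep e s = (∏ e ∈ S \ T, ep e s) * ∏ e ∈ S ∩ T, ep e s := by
    rw [← Finset.prod_union (Finset.disjoint_sdiff_inter S T), Finset.sdiff_union_inter]
  have h2 : ∏ e ∈ T, ep e s = (∏ e ∈ T \ S, ep e s) * ∏ e ∈ S ∩ T, ep e s := by
    rw [Finset.inter_comm, ← Finset.prod_union (Finset.disjoint_sdiff_inter T S),
      Finset.sdiff_union_inter]
  have h3 : (∏ e ∈ S ∩ T, ep e s) * ∏ e ∈ S ∩ T, ep e s = 1 := by
    rw [← Finset.prod_mul_distrib]
    exact Finset.prod_eq_one fun e _ => ep_sq e s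
  have h4 : ∏ e ∈ symmDiff S T, ep e s = (∏ e ∈ S \ T, ep e s) * ∏ e ∈ T \ S, ep e s := by
    have : symmDiff S T = (S \ T) ∪ (T \ S) := rfl
    rw [this, Finset.prod_union disjoint_sdiff_sdiff]
  rw [h1, h2, h4]
  calc _ = ((∏ e ∈ S \ T, ep e s) * ∏ e ∈ T \ S, ep e s) *
        ((∏ e ∈ S ∩ T, ep e s) * ∏ e ∈ S ∩ T, ep e s) := by ring
    _ = _ := by rw [h3, mul_one]

theorem isB_ep (e : (ℤ × ℤ) × Fin 2) : IsB (fun s => ep e s) := ⟨{e}, fun s => by simp⟩

theorem isB_prod {ι : Type*} (A : Finset ι) (g : ι → (ℤ × ℤ → Bool) → ℝ)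
    (h : ∀ i ∈ A, IsB (g i)) : IsB (fun s => ∏ i ∈ A, g i s) := by
  classical
  induction A using Finset.induction_on with
  | empty => simpa using isB_one
  | insert i A hi ih =>
    have h1 := (h i (Finset.mem_insert_self i A)).mul
      (ih fun j hj => h j (Finset.mem_insert_of_mem hj))
    have h2 : (fun s => ∏ j ∈ insert i A, g j s) = fun s => g i s * ∏ j ∈ A, g j s := by
      funext s
      rw [Finset.prod_insert hi]
    rw [h2]
    exact h1

/-- two spins -/
def Eqv (u v : ℤ × ℤ) : Prop := IsB (fun s => spinSign (s u) * spinSign (s v))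

theorem Eqv.refl (u : ℤ × ℤ) : Eqv u u := by
  have : (fun s : ℤ × ℤ → Bool => spinSign (s u) * spinSign (s u)) = fun _ => 1 := by
    funext s; exact spinSign_sq _
  unfold Eqv
  rw [this]
  exact isB_one

theorem Eqv.symm {u v : ℤ × ℤ} (h : Eqv u v) : Eqv v u := by
  unfold Eqv at h ⊢
  simpa only [mul_comm] using h

theorem Eqv.trans {u v w : ℤ × ℤ} (h : Eqv u v) (h' : Eqv v w) : Eqv u w := by
  have h1 := IsB.mul h h'
  unfold Eqv
  have h2 : (fun s : ℤ × ℤ → Bool => spinSign (s u) * spinSign (s v) *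
      (spinSign (s v) * spinSign (s w))) = fun s => spinSign (s u) * spinSign (s w) := by
    funext s
    calc _ = spinSign (s u) * spinSign (s w) * (spinSign (s v) * spinSign (s v)) := by ring
      _ = _ := by rw [spinSign_sq, mul_one]
  rwa [h2] at h1

theorem eqv_step (u : ℤ × ℤ) (j : Fin 2) : Eqv u (u + unitVec j) := isB_ep (u, j)

theorem eqv_all (u : ℤ × ℤ) : Eqv u (0, 0) := by
  have h1 : ∀ (a : ℤ) (b : ℤ), Eqv (a, b) (0, b) := by
    intro a b
    induction a using Int.induction_on with
    | zero => exact Eqv.refl _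
    | succ i ih =>
      have := eqv_step ((i : ℤ), b) 0
      simp only [unitVec, if_true, Prod.mk_add_mk, add_zero] at this
      exact this.symm.trans ih
    | pred i ih =>
      have := eqv_step ((-(i : ℤ) - 1), b) 0
      simp only [unitVec, if_true, Prod.mk_add_mk, add_zero, sub_add_cancel] at this
      exact this.trans ih
  have h2 : ∀ b : ℤ, Eqv (0, b) (0, 0) := by
    intro b
    induction b using Int.induction_on with
    | zero => exact Eqv.refl _
    | succ i ih =>
      have := eqv_step ((0 : ℤ), (i : ℤ)) 1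
      simp only [unitVec, one_ne_zero, if_false, Prod.mk_add_mk, add_zero] at this
      exact this.symm.trans ih
    | pred i ih =>
      have := eqv_step ((0 : ℤ), (-(i : ℤ) - 1)) 1
      simp only [unitVec, one_ne_zero, if_false, Prod.mk_add_mk, add_zero, sub_add_cancel] at this
      exact this.trans ih
  exact (h1 u.1 u.2).trans (h2 u.2)

/-- an even number of spins is a product of bond variables -/
theorem isB_even {n : ℕ} (hn : Even n) (us : Fin n → ℤ × ℤ) :
    IsB (fun s => ∏ i, spinSign (s (us i))) := by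
  have h1 := isB_prod (Finset.univ : Finset (Fin n))
    (fun i s => spinSign (s (us i)) * spinSign (s (0, 0))) (fun i _ => eqv_all (us i))
  have h2 : (fun s : ℤ × ℤ → Bool => ∏ i, (spinSign (s (us i)) * spinSign (s (0, 0)))) =
      fun s => ∏ i, spinSign (s (us i)) := by
    funext s
    rw [Finset.prod_mul_distrib, Finset.prod_const, Finset.card_univ, Fintype.card_fin]
    obtain ⟨k, rfl⟩ := hn
    rw [pow_add, ← mul_pow, spinSign_sq, one_pow, mul_one]
  rwa [h2] at h1

/-- torus expectation of a finite set of bonds (torus of side `L + 1`) -/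
def torBonds (L : ℕ) (J lam : ℝ) (R : ℕ) (V : Finset (ℤ × ℤ) → ℝ) (β : ℝ)
    (S : Finset ((ℤ × ℤ) × Fin 2)) : ℝ :=
  torusExpect (L + 1) J lam R V β fun σ => ∏ e ∈ S, ep e fun z => σ (toTorus (L + 1) z)

theorem toTorus_add (L : ℕ) (u v : ℤ × ℤ) : toTorus L (u + v) = toTorus L u + toTorus L v := by
  unfold toTorus
  ext <;> simp

theorem torMom_eq (L : ℕ) (J lam : ℝ) (R : ℕ) (V : Finset (ℤ × ℤ) → ℝ) (β : ℝ) {n m : ℕ}
    (us : Fin n → ℤ × ℤ) (vs : Fin m → ℤ × ℤ) (js : Fin m → Fin 2) (c : Fin m → ℝ) :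
    torMom L J lam R V β us vs js c =
      torusExpect (L + 1) J lam R V β fun σ => obs us vs js c fun z => σ (toTorus (L + 1) z) := by
  unfold torMom obs
  simp only [toTorus_add]

/-- **all torus moments converge as soon as all bond sets do** -/
theorem torMom_conv_of_bonds (J lam : ℝ) (R : ℕ) (V : Finset (ℤ × ℤ) → ℝ)
    (hV : ∀ A, V A ≠ 0 → Even A.card) (β : ℝ)
    (h : ∀ S : Finset ((ℤ × ℤ) × Fin 2), ∃ l : ℝ,
      Tendsto (fun L : ℕ => torBonds L J lam R V β S) atTop (𝓝 l))
    {n m : ℕ} (us : Fin n → ℤ × ℤ) (vs : Fin m → ℤ × ℤ) (js : Fin m → Fin 2) (c : Fin m → ℝ) :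
    ∃ l : ℝ, Tendsto (fun L : ℕ => torMom L J lam R V β us vs js c) atTop (𝓝 l) := by
  classical
  rcases Nat.even_or_odd n with hn | hn
  · -- expand
    have h1 : ∀ T : Finset (Fin m), ∃ S : Finset ((ℤ × ℤ) × Fin 2), ∀ s : ℤ × ℤ → Bool,
        (∏ i, spinSign (s (us i))) * ∏ k ∈ T, (spinSign (s (vs k)) *
          spinSign (s (vs k + unitVec (js k)))) = ∏ e ∈ S, ep e s := by
      intro T
      exact (isB_even hn us).mul (isB_prod T _ fun k _ => isB_ep (vs k, js k))
    choose S hS using h1
    have h2 : ∀ L : ℕ, torMom L J lam R V β us vs js c =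
        ∑ T : Finset (Fin m), (∏ k ∈ Tᶜ, (-c k)) * torBonds L J lam R V β (S T) := by
      intro L
      rw [torMom_eq, ← torE_apply]
      have e1 : (fun σ : TorusConfig (L + 1) => obs us vs js c fun z => σ (toTorus (L + 1) z)) =
          ∑ T : Finset (Fin m), (∏ k ∈ Tᶜ, (-c k)) • fun σ : TorusConfig (L + 1) =>
            ∏ e ∈ S T, ep e fun z => σ (toTorus (L + 1) z) := by
        funext σ
        simp only [Finset.sum_apply, Pi.smul_apply, smul_eq_mul, ← hS]
        unfold obs
        simp only [sub_eq_add_neg]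
        rw [Finset.prod_add, Finset.powerset_univ, Finset.mul_sum]
        refine Finset.sum_congr rfl fun T _ => ?_
        rw [Finset.compl_eq_univ_sdiff]
        ring
      rw [e1, map_sum]
      refine Finset.sum_congr rfl fun T _ => ?_
      rw [map_smul, smul_eq_mul, torE_apply]
      rfl
    choose l hl using h
    refine ⟨∑ T : Finset (Fin m), (∏ k ∈ Tᶜ, (-c k)) * l (S T), ?_⟩
    simp only [h2]
    exact tendsto_finsetSum _ fun T _ => (hl (S T)).const_mul _
  · refine ⟨0, ?_⟩
    simp only [torMom_odd _ J lam R V hV β hn]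
    exact tendsto_const_nhds

/-- the bond mean does not depend on the position -/
theorem torMom_single_shift (L : ℕ) (J lam : ℝ) (R : ℕ) (V : Finset (ℤ × ℤ) → ℝ) (β : ℝ)
    (v : ℤ × ℤ) (j : Fin 2) (c : ℝ) :
    torMom L J lam R V β (![] : Fin 0 → ℤ × ℤ) (fun _ : Fin 1 => v) (fun _ => j) (fun _ => c) =
      torBonds L J lam R V β {((0, 0), j)} - c := by
  rw [torMom_single]
  congr 1
  unfold torusTwoPoint torBonds
  rw [← torusExpect_shift (L + 1) J lam R V β (fun σ => ∏ e ∈ {((0, 0), j)},
    ep e fun z => σ (toTorus (L + 1) z)) (toTorus (L + 1) v)]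
  congr 1
  funext σ
  unfold ep shiftE
  simp only [Equiv.coe_fn_mk, Finset.prod_singleton]
  have e0 : toTorus (L + 1) (0, 0) = 0 := by unfold toTorus; ext <;> simp
  have e1 : toTorus (L + 1) ((0, 0) + unitVec j) = toTorus (L + 1) (unitVec j) := by
    rw [toTorus_add, e0, zero_add]
  rw [e0, e1, zero_add, add_comm (toTorus (L + 1) v)]

/-- **bond means converge to one constant per direction** -/
theorem torMean_of_bonds (J lam : ℝ) (R : ℕ) (V : Finset (ℤ × ℤ) → ℝ) (β : ℝ) (eb : Fin 2 → ℝ)
    (h : ∀ j, Tendsto (fun L : ℕ => torBonds L J lam R V β {((0, 0), j)}) atTop (𝓝 (eb j)))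
    (v : ℤ × ℤ) (j : Fin 2) :
    Tendsto (fun L : ℕ => torMom L J lam R V β (![] : Fin 0 → ℤ × ℤ)
      (fun _ : Fin 1 => v) (fun _ => j) (fun _ => eb j)) atTop (𝓝 0) := by
  simp only [torMom_single_shift]
  have := (h j).sub_const (eb j)
  rwa [sub_self] at this

end Crest.Agent.R165.Symx541
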