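import Mathlib
import Crest.Prelude.Def_PerturbedIsing
import Crest.Agent.R165.Top_683
import Crest.Agent.R165.Cent_541
import Crest.Agent.R165.Red_541
import Crest.Agent.R165.Sym_541

/-!
# Row 165 (S0250): minimal leaves (helper541)

`ULimB`, `PRatioB` : only plus (all `n`) and free (`n` even) domains, the torus clause as convergence
of `⟨∏_{e ∈ S} ε_e⟩` for every finite set of bonds `S`, the plane only for `n` even.
`leavesB : ULimB → PRatioB → ULim ∧ PRatio`.
-/

set_option autoImplicit false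

noncomputable section

open Filter Topology Finset
open Crest.ProbabilityR.IsingModel

namespace Crest.Agent.R165.Red2x541

open Crest.Agent.R165.Centx541
open Crest.Agent.R165.Redx541
open Crest.Agent.R165.Symx541
open Crest.Agent.R165.Topx683

/-- a `C²` Jordan domain is open -/
theorem isOpen_of_C2 {D : Set ℂ} (hD : IsC2JordanDomain D) : IsOpen D := by
  obtain ⟨γ, hγ, hper, -, -, rfl⟩ := hD
  have hcl : IsClosed (Set.range γ) := by
    have h1 : Set.range γ = γ '' Set.Icc 0 1 := by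
      ext z
      constructor
      · rintro ⟨t, rfl⟩
        refine ⟨Int.fract t, ⟨Int.fract_nonneg t, (Int.fract_lt_one t).le⟩, ?_⟩
        have h2 := hper.sub_int_mul_eq (x := t) ⌊t⌋
        rw [mul_one] at h2
        exact h2
      · rintro ⟨t, -, rfl⟩
        exact ⟨t, rfl⟩
    rw [h1]
    exact (isCompact_Icc.image hγ.continuous).isClosed
  have hU : IsOpen (Set.range γ)ᶜ := hcl.isOpen_compl
  rw [isOpen_iff_mem_nhds]
  rintro z ⟨hz1, hz2⟩
  have h3 : IsOpen (connectedComponentIn (Set.range γ)ᶜ z) := hU.connectedComponentIn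
  refine Filter.mem_of_superset (h3.mem_nhds (mem_connectedComponentIn hz1)) ?_
  intro w hw
  refine ⟨connectedComponentIn_subset _ _ hw, ?_⟩
  rw [← connectedComponentIn_eq hw]
  exact hz2

theorem meshPoint_index_dist (a : ℝ) (ha : 0 < a) (x : ℂ) :
    dist (meshPoint a (meshIndex a x)) x ≤ 2 * a := by
  have key : ∀ t : ℝ, |a * (⌊t / a⌋ : ℝ) - t| ≤ a := by
    intro t
    have h1 := Int.floor_le (t / a)
    have h2 := Int.lt_floor_add_one (t / a)
    have h3 : a * (⌊t / a⌋ : ℝ) ≤ t := by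
      have := mul_le_mul_of_nonneg_left h1 ha.le
      rwa [mul_div_cancel₀ _ ha.ne'] at this
    have h4 : t ≤ a * (⌊t / a⌋ : ℝ) + a := by
      have := mul_le_mul_of_nonneg_left h2.le ha.le
      rw [mul_div_cancel₀ _ ha.ne'] at this
      linarith
    rw [abs_le]
    constructor <;> linarith
  rw [dist_eq_norm]
  refine (Complex.norm_le_abs_re_add_abs_im _).trans ?_
  have h1 : |(meshPoint a (meshIndex a x) - x).re| ≤ a := by
    simpa [meshPoint, meshIndex] using key x.re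
  have h2 : |(meshPoint a (meshIndex a x) - x).im| ≤ a := by
    simpa [meshPoint, meshIndex] using key x.im
  linarith

theorem meshPoint_index_dist' (a : ℝ) (ha : 0 < a) (x : ℂ) (j : Fin 2) :
    dist (meshPoint a (meshIndex a x + unitVec j)) x ≤ 3 * a := by
  have h1 := meshPoint_index_dist a ha x
  have h2 : dist (meshPoint a (meshIndex a x + unitVec j)) (meshPoint a (meshIndex a x)) ≤ a := by
    rw [dist_eq_norm]
    refine (Complex.norm_le_abs_re_add_abs_im _).trans ?_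
    fin_cases j
    · simp only [meshPoint, unitVec, Fin.zero_eta, Fin.isValue, if_true, Prod.fst_add,
        Prod.snd_add, Complex.sub_re, Complex.sub_im]
      push_cast
      have e1 : a * ((meshIndex a x).1 + 1 : ℝ) - a * ((meshIndex a x).1 : ℝ) = a := by ring
      rw [e1, abs_of_pos ha]
      simp
    · simp only [meshPoint, unitVec, Fin.mk_one, Fin.isValue, one_ne_zero, if_false, Prod.fst_add,
        Prod.snd_add, Complex.sub_re, Complex.sub_im]
      push_cast
      have e1 : a * ((meshIndex a x).2 + 1 : ℝ) - a * ((meshIndex a x).2 : ℝ) = a := by ring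
      rw [e1, abs_of_pos ha]
      simp
  calc _ ≤ _ := dist_triangle _ (meshPoint a (meshIndex a x)) _
    _ ≤ a + 2 * a := add_le_add h2 h1
    _ = _ := by ring

theorem eventually_mem {D : Set ℂ} (hD : IsOpen D) {x : ℂ} (hx : x ∈ D) (j : Fin 2) :
    ∀ᶠ a : ℝ in 𝓝[>] 0, meshIndex a x ∈ domainSites D a ∧
      meshIndex a x + unitVec j ∈ domainSites D a := by
  obtain ⟨ε, hε, hball⟩ := Metric.isOpen_iff.1 hD x hx
  have h1 : ∀ᶠ a : ℝ in 𝓝[>] 0, a < ε / 3 :=
    mem_nhdsWithin_of_mem_nhds (Iio_mem_nhds (by positivity))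
  filter_upwards [self_mem_nhdsWithin, h1] with a ha ha2
  have ha' : (0 : ℝ) < a := ha
  constructor
  · apply hball
    rw [Metric.mem_ball]
    have := meshPoint_index_dist a ha' x
    linarith
  · apply hball
    rw [Metric.mem_ball]
    have := meshPoint_index_dist' a ha' x j
    linarith

/-- free, odd number of spins, small mesh -/
theorem free_odd_eventually {D : Set ℂ} (hD : IsOpen D) (J lam : ℝ) (R : ℕ)
    (V : Finset (ℤ × ℤ) → ℝ) (hV : ∀ A, V A ≠ 0 → Even A.card) (β : ℝ) {n m : ℕ}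
    (hn : Odd n) (xs : Fin n → ℂ) (ys : Fin m → ℂ) (js : Fin m → Fin 2) (c : Fin m → ℝ)
    (hx : ∀ i, xs i ∈ D) (hy : ∀ k, ys k ∈ D) :
    ∀ᶠ a : ℝ in 𝓝[>] 0, domMom D a .free J lam R V β xs ys js c = 0 := by
  have h1 : ∀ᶠ a : ℝ in 𝓝[>] 0, ∀ i, meshIndex a (xs i) ∈ domainSites D a :=
    eventually_all.2 fun i => (eventually_mem hD (hx i) 0).mono fun a h => h.1
  have h2 : ∀ᶠ a : ℝ in 𝓝[>] 0, ∀ k, meshIndex a (ys k) ∈ domainSites D a ∧
      meshIndex a (ys k) + unitVec (js k) ∈ domainSites D a :=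
    eventually_all.2 fun k => eventually_mem hD (hy k) (js k)
  filter_upwards [h1, h2] with a h1 h2
  exact domMom_free_odd D a J lam R V hV β hn xs ys js c h1 (fun k => (h2 k).1) fun k => (h2 k).2

/-! ### The minimal leaves, `lam = 0` -/

/-- the boundary conditions and spin numbers which really matter -/
def Rel (b : BoundaryCondition) (n : ℕ) : Prop :=
  b = .plus ∨ (b = .free ∧ Even n)

def UDb : Prop :=
  ∀ D : Set ℂ, IsC2JordanDomain D → ∀ (b : BoundaryCondition) (n m : ℕ), 1 ≤ n + m → Rel b n →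
    ∀ (x : Fin n → ℂ) (y : Fin m → ℂ) (j : Fin m → Fin 2),
      (∀ i, x i ∈ D) → (∀ k, y k ∈ D) → Function.Injective (Fin.append x y) →
      ∃ F : ℝ, Tendsto (fun a : ℝ => scl n m a * D0c D a b x y j) (𝓝[>] 0) (𝓝 F)

def UTb : Prop :=
  (∀ S : Finset ((ℤ × ℤ) × Fin 2), ∃ l : ℝ,
    Tendsto (fun L : ℕ => torBonds L 1 0 0 (fun _ => 0) (criticalBeta 1) S) atTop (𝓝 l)) ∧
  (∀ j : Fin 2, Tendsto (fun L : ℕ => torBonds L 1 0 0 (fun _ => 0) (criticalBeta 1)
    {((0, 0), j)}) atTop (𝓝 e0))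

def UPb : Prop :=
  ∀ (n m : ℕ), 1 ≤ n + m → Even n → ∀ (x : Fin n → ℂ) (y : Fin m → ℂ) (j : Fin m → Fin 2),
    Function.Injective (Fin.append x y) →
    ∃ F : ℝ, Tendsto (fun a : ℝ => scl n m a *
        P0c (fun i => meshIndex a (x i)) (fun k => meshIndex a (y k)) j) (𝓝[>] 0) (𝓝 F)

def UCb : Prop :=
  ∀ D D' : Set ℂ, IsC2JordanDomain D → IsC2JordanDomain D' → ∀ φ : ℂ → ℂ,
    DifferentiableOn ℂ φ D → Set.BijOn φ D D' →
    ∀ (b : BoundaryCondition) (n m : ℕ), 1 ≤ n + m → Rel b n →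
    ∀ (x : Fin n → ℂ) (y : Fin m → ℂ) (j : Fin m → Fin 2),
      (∀ i, x i ∈ D) → (∀ k, y k ∈ D) → Function.Injective (Fin.append x y) →
      ∃ F F' : ℝ,
        Tendsto (fun a : ℝ => scl n m a * D0c D a b x y j) (𝓝[>] 0) (𝓝 F) ∧
        Tendsto (fun a : ℝ => scl n m a * D0c D' a b (fun i => φ (x i)) (fun k => φ (y k)) j)
          (𝓝[>] 0) (𝓝 F') ∧
        F = (∏ i, ‖deriv φ (x i)‖ ^ ((1 : ℝ) / 8)) * (∏ k, ‖deriv φ (y k)‖) * F'

structure ULimB : Prop where
  ud : UDb
  ut : UTb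
  up : UPb
  u2 : U2c
  uc : UCb

theorem V0_even : ∀ A : Finset (ℤ × ℤ), (fun _ : Finset (ℤ × ℤ) => (0 : ℝ)) A ≠ 0 →
    Even A.card := fun _ h => absurd rfl h

theorem D0c_minus (D : Set ℂ) (a : ℝ) {n m : ℕ} (x : Fin n → ℂ) (y : Fin m → ℂ)
    (j : Fin m → Fin 2) : D0c D a .minus x y j = (-1) ^ n * D0c D a .plus x y j :=
  domMom_minus D a 1 0 0 _ V0_even _ x y j _

theorem D0c_free_odd {D : Set ℂ} (hD : IsC2JordanDomain D) {n m : ℕ} (hn : Odd n)
    (x : Fin n → ℂ) (y : Fin m → ℂ) (j : Fin m → Fin 2) (hx : ∀ i, x i ∈ D)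
    (hy : ∀ k, y k ∈ D) :
    Tendsto (fun a : ℝ => scl n m a * D0c D a .free x y j) (𝓝[>] 0) (𝓝 0) := by
  refine tendsto_const_nhds.congr' ?_
  filter_upwards [free_odd_eventually (isOpen_of_C2 hD) 1 0 0 _ V0_even (criticalBeta 1) hn x y j
    (fun _ => e0) hx hy] with a h
  show 0 = scl n m a * domMom D a .free 1 0 0 _ _ x y j _
  rw [h, mul_zero]

theorem UDc_of (h : UDb) : UDc := by
  intro D hD b n m hnm x y j hx hy hinj
  cases b with
  | plus => exact h D hD .plus n m hnm (Or.inl rfl) x y j hx hy hinj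
  | minus =>
    obtain ⟨F, hF⟩ := h D hD .plus n m hnm (Or.inl rfl) x y j hx hy hinj
    refine ⟨(-1) ^ n * F, (hF.const_mul ((-1) ^ n)).congr fun a => ?_⟩
    rw [D0c_minus]
    ring
  | free =>
    rcases Nat.even_or_odd n with hn | hn
    · exact h D hD .free n m hnm (Or.inr ⟨rfl, hn⟩) x y j hx hy hinj
    · exact ⟨0, D0c_free_odd hD hn x y j hx hy⟩

theorem UTc_of (h : UTb) : UTc :=
  ⟨fun _ _ us vs js => torMom_conv_of_bonds 1 0 0 _ V0_even (criticalBeta 1) h.1 us vs js _,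
    fun v j => torMean_of_bonds 1 0 0 _ (criticalBeta 1) (fun _ => e0) h.2 v j⟩

theorem plMom_odd (J lam : ℝ) (R : ℕ) (V : Finset (ℤ × ℤ) → ℝ)
    (hV : ∀ A, V A ≠ 0 → Even A.card) (β : ℝ) {n m : ℕ} (hn : Odd n)
    (us : Fin n → ℤ × ℤ) (vs : Fin m → ℤ × ℤ) (js : Fin m → Fin 2) (c : Fin m → ℝ) :
    plMom J lam R V β us vs js c = 0 := by
  unfold plMom
  simp only [torMom_odd _ J lam R V hV β hn]
  exact tendsto_const_nhds.limUnder_eq

theorem UPc_of (h : UPb) : UPc := by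
  intro n m hnm x y j hinj
  rcases Nat.even_or_odd n with hn | hn
  · exact h n m hnm hn x y j hinj
  · refine ⟨0, ?_⟩
    unfold P0c
    simp only [plMom_odd 1 0 0 _ V0_even _ hn, mul_zero]
    exact tendsto_const_nhds

theorem UCc_of (h : UCb) : UCc := by
  intro D D' hD hD' φ hφ hbij b n m hnm x y j hx hy hinj
  cases b with
  | plus => exact h D D' hD hD' φ hφ hbij .plus n m hnm (Or.inl rfl) x y j hx hy hinj
  | minus =>
    obtain ⟨F, F', hF, hF', hFF'⟩ :=
      h D D' hD hD' φ hφ hbij .plus n m hnm (Or.inl rfl) x y j hx hy hinj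
    refine ⟨(-1) ^ n * F, (-1) ^ n * F', (hF.const_mul ((-1) ^ n)).congr fun a => ?_,
      (hF'.const_mul ((-1) ^ n)).congr fun a => ?_, ?_⟩
    · rw [D0c_minus]; ring
    · rw [D0c_minus]; ring
    · rw [hFF']; ring
  | free =>
    rcases Nat.even_or_odd n with hn | hn
    · exact h D D' hD hD' φ hφ hbij .free n m hnm (Or.inr ⟨rfl, hn⟩) x y j hx hy hinj
    · exact ⟨0, 0, D0c_free_odd hD hn x y j hx hy,
        D0c_free_odd hD' hn _ _ j (fun i => hbij.mapsTo (hx i)) (fun k => hbij.mapsTo (hy k)),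
        by ring⟩

theorem ULimC_of (h : ULimB) : ULimC :=
  ⟨UDc_of h.ud, UTc_of h.ut, UPc_of h.up, h.u2, UCc_of h.uc⟩

/-! ### The minimal leaf, `lam ≠ 0` -/

/-- universality, minimal form; `eb lam j` is the bond mean of the plane state -/
def PRatioB : Prop :=
  ∀ (J : ℝ), 0 < J → ∀ (R : ℕ) (V : Finset (ℤ × ℤ) → ℝ), VHyp R V →
    ∃ lam₀ : ℝ, 0 < lam₀ ∧ ∃ (βc Zs Ze : ℝ → ℝ) (eb : ℝ → Fin 2 → ℝ),
      ContinuousAt βc 0 ∧ ContinuousAt Zs 0 ∧ ContinuousAt Ze 0 ∧
      βc 0 = criticalBeta J ∧ Zs 0 = 1 ∧ Ze 0 = 1 ∧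
      ∀ lam : ℝ, |lam| < lam₀ →
        (0 < βc lam ∧ Zs lam ≠ 0 ∧ Ze lam ≠ 0) ∧
        (∀ D : Set ℂ, IsC2JordanDomain D → ∀ (b : BoundaryCondition) (n m : ℕ), 1 ≤ n + m →
          Rel b n → ∀ (x : Fin n → ℂ) (y : Fin m → ℂ) (j : Fin m → Fin 2),
            (∀ i, x i ∈ D) → (∀ k, y k ∈ D) → Function.Injective (Fin.append x y) →
            Tendsto (fun a : ℝ => scl n m a *
              (domMom D a b J lam R V (βc lam) x y j (fun k => eb lam (j k))
                - Zs lam ^ n * Ze lam ^ m * D0c D a b x y j)) (𝓝[>] 0) (𝓝 0)) ∧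
        (∀ S : Finset ((ℤ × ℤ) × Fin 2), ∃ l : ℝ,
          Tendsto (fun L : ℕ => torBonds L J lam R V (βc lam) S) atTop (𝓝 l)) ∧
        (∀ j : Fin 2, Tendsto (fun L : ℕ => torBonds L J lam R V (βc lam) {((0, 0), j)}) atTop
          (𝓝 (eb lam j))) ∧
        (∀ (n m : ℕ), 1 ≤ n + m → Even n →
          ∀ (x : Fin n → ℂ) (y : Fin m → ℂ) (j : Fin m → Fin 2),
          Function.Injective (Fin.append x y) →
          Tendsto (fun a : ℝ => scl n m a *
            (plMom J lam R V (βc lam) (fun i => meshIndex a (x i))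
                (fun k => meshIndex a (y k)) j (fun k => eb lam (j k))
              - Zs lam ^ n * Ze lam ^ m * P0c (fun i => meshIndex a (x i))
                (fun k => meshIndex a (y k)) j)) (𝓝[>] 0) (𝓝 0))

theorem PRatioC_of (h : PRatioB) : PRatioC := by
  intro J hJ R V hV
  obtain ⟨lam₀, hlam₀, βc, Zs, Ze, eb, hβ, hZs, hZe, hβ0, hZs0, hZe0, H⟩ := h J hJ R V hV
  refine ⟨lam₀, hlam₀, βc, Zs, Ze, eb, hβ, hZs, hZe, hβ0, hZs0, hZe0, fun lam hl => ?_⟩
  obtain ⟨h1, h2, h3, h4, h5⟩ := H lam hl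
  refine ⟨h1, ?_, ?_, ?_, ?_⟩
  · intro D hD b n m hnm x y j hx hy hinj
    cases b with
    | plus => exact h2 D hD .plus n m hnm (Or.inl rfl) x y j hx hy hinj
    | minus =>
      have h6 := (h2 D hD .plus n m hnm (Or.inl rfl) x y j hx hy hinj).const_mul ((-1 : ℝ) ^ n)
      rw [mul_zero] at h6
      refine h6.congr fun a => ?_
      rw [D0c_minus, domMom_minus D a J lam R V hV.even]
      ring
    | free =>
      rcases Nat.even_or_odd n with hn | hn
      · exact h2 D hD .free n m hnm (Or.inr ⟨rfl, hn⟩) x y j hx hy hinj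
      · refine tendsto_const_nhds.congr' ?_
        filter_upwards [free_odd_eventually (isOpen_of_C2 hD) J lam R V hV.even (βc lam) hn x y j
          (fun k => eb lam (j k)) hx hy, free_odd_eventually (isOpen_of_C2 hD) 1 0 0 _ V0_even
          (criticalBeta 1) hn x y j (fun _ => e0) hx hy] with a e1 e2
        have e3 : D0c D a .free x y j = 0 := e2
        rw [e1, e3]
        ring
  · intro n m us vs js
    exact torMom_conv_of_bonds J lam R V hV.even (βc lam) h3 us vs js _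
  · exact torMean_of_bonds J lam R V (βc lam) (eb lam) h4
  · intro n m hnm x y j hinj
    rcases Nat.even_or_odd n with hn | hn
    · exact h5 n m hnm hn x y j hinj
    · unfold P0c
      simp only [plMom_odd J lam R V hV.even _ hn, plMom_odd 1 0 0 _ V0_even _ hn, mul_zero,
        sub_zero]
      exact tendsto_const_nhds

/-- **minimal leaves imply everything** -/
theorem leavesB (h : ULimB) (hP : PRatioB) : ULim ∧ PRatio :=
  leaves (ULimC_of h) (PRatioC_of hP)

end Crest.Agent.R165.Red2x541
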