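import Mathlib
import Crest.Prelude.Def_PerturbedIsing
import Crest.Agent.R165.Top_683
import Crest.Agent.R165.Cent_541
import Crest.Agent.R165.Red_541
import Crest.Agent.R165.Sym_541
import Crest.Agent.R165.Red2_541

/-!
# Row 165 (S0250): the universality leaf from "master estimates" (helper541)

* `MasterD` : comparison of perturbed and unperturbed moments in `C²` domains, relative error
* `MasterP` : the same in large plus discs, uniformly in the radius
* `DiscLim` : torus and plus-disc expectations of every finite bond set have the same limit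
* `PRatioB_of` : these imply `PRatioB`
-/

set_option autoImplicit false

noncomputable section

open Filter Topology Finset
open Crest.ProbabilityR.IsingModel

namespace Crest.Agent.R165.Mastx541

open Crest.Agent.R165.Centx541
open Crest.Agent.R165.Redx541
open Crest.Agent.R165.Symx541
open Crest.Agent.R165.Red2x541
open Crest.Agent.R165.Topx683

/-- the error scale: `a^m |⟨σ_X⟩_0| + |⟨σ_X ∏(ε - e0)⟩_0|` -/
def errS (D : Set ℂ) (a : ℝ) (b : BoundaryCondition) {n m : ℕ} (x : Fin n → ℂ) (y : Fin m → ℂ)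
    (j : Fin m → Fin 2) : ℝ :=
  a ^ m * |D0c D a b x (![] : Fin 0 → ℂ) ![]| + |D0c D a b x y j|

/-- the discrepancy -/
def disc (J lam : ℝ) (R : ℕ) (V : Finset (ℤ × ℤ) → ℝ) (β Zs Ze : ℝ) (eb : Fin 2 → ℝ)
    (D : Set ℂ) (a : ℝ) (b : BoundaryCondition) {n m : ℕ} (x : Fin n → ℂ) (y : Fin m → ℂ)
    (j : Fin m → Fin 2) : ℝ :=
  domMom D a b J lam R V β x y j (fun k => eb (j k)) - Zs ^ n * Ze ^ m * D0c D a b x y j

/-- master estimate in `C²` domains -/
def MasterD (J lam : ℝ) (R : ℕ) (V : Finset (ℤ × ℤ) → ℝ) (β Zs Ze : ℝ) (eb : Fin 2 → ℝ) : Prop :=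
  ∀ D : Set ℂ, IsC2JordanDomain D → ∀ (b : BoundaryCondition) (n m : ℕ), 1 ≤ n + m →
    Rel b n → ∀ (x : Fin n → ℂ) (y : Fin m → ℂ) (j : Fin m → Fin 2),
      (∀ i, x i ∈ D) → (∀ k, y k ∈ D) → Function.Injective (Fin.append x y) →
      ∀ ε > 0, ∀ᶠ a : ℝ in 𝓝[>] 0,
        |disc J lam R V β Zs Ze eb D a b x y j| ≤ ε * errS D a b x y j

/-- master estimate in large plus discs: for small mesh, uniformly for large radius -/
def MasterP (J lam : ℝ) (R : ℕ) (V : Finset (ℤ × ℤ) → ℝ) (β Zs Ze : ℝ) (eb : Fin 2 → ℝ) : Prop :=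
  ∀ (n m : ℕ), 1 ≤ n + m → Even n → ∀ (x : Fin n → ℂ) (y : Fin m → ℂ) (j : Fin m → Fin 2),
      Function.Injective (Fin.append x y) →
      ∀ ε > 0, ∀ᶠ a : ℝ in 𝓝[>] 0, ∀ᶠ B : ℝ in atTop,
        |disc J lam R V β Zs Ze eb (Metric.ball 0 B) a .plus x y j| ≤
          ε * errS (Metric.ball 0 B) a .plus x y j

/-- expectation of a finite bond set in the lattice disc of radius `B`, plus boundary condition -/
def discBonds (B : ℝ) (J lam : ℝ) (R : ℕ) (V : Finset (ℤ × ℤ) → ℝ) (β : ℝ)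
    (S : Finset ((ℤ × ℤ) × Fin 2)) : ℝ :=
  domainExpect (Metric.ball 0 B) 1 .plus J lam R V β fun s => ∏ e ∈ S, ep e s

/-- torus and disc have the same limit -/
def DiscLim (J lam : ℝ) (R : ℕ) (V : Finset (ℤ × ℤ) → ℝ) (β : ℝ) : Prop :=
  ∀ S : Finset ((ℤ × ℤ) × Fin 2), ∃ l : ℝ,
    Tendsto (fun L : ℕ => torBonds L J lam R V β S) atTop (𝓝 l) ∧
    Tendsto (fun B : ℝ => discBonds B J lam R V β S) atTop (𝓝 l)

/-! ### plane moments as disc limits -/

theorem domainSites_ball (B a : ℝ) (ha : 0 < a) :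
    domainSites (Metric.ball (0 : ℂ) B) a = domainSites (Metric.ball (0 : ℂ) (B / a)) 1 := by
  ext z
  have h1 : meshPoint a z = (a : ℂ) * meshPoint 1 z := by
    apply Complex.ext <;> simp [meshPoint]
  show meshPoint a z ∈ Metric.ball 0 B ↔ meshPoint 1 z ∈ Metric.ball 0 (B / a)
  rw [mem_ball_zero_iff, mem_ball_zero_iff, h1, norm_mul, Complex.norm_real,
    Real.norm_of_nonneg ha.le, lt_div_iff₀ ha, mul_comm]

theorem domainExpect_ball (B a : ℝ) (ha : 0 < a) (b : BoundaryCondition) (J lam : ℝ) (R : ℕ)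
    (V : Finset (ℤ × ℤ) → ℝ) (β : ℝ) (f : (ℤ × ℤ → Bool) → ℝ) :
    domainExpect (Metric.ball (0 : ℂ) B) a b J lam R V β f =
      domainExpect (Metric.ball (0 : ℂ) (B / a)) 1 b J lam R V β f := by
  have h := domainSites_ball B a ha
  have h1 : (domainSites (Metric.ball (0 : ℂ) B) a).Finite := by
    exact domainSites_finite Metric.isBounded_ball ha
  have h2 : (domainSites (Metric.ball (0 : ℂ) (B / a)) 1).Finite :=
    domainSites_finite Metric.isBounded_ball one_pos
  have h3 : h1.toFinset = h2.toFinset := by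
    ext z
    rw [Set.Finite.mem_toFinset, Set.Finite.mem_toFinset, h]
  unfold domainExpect
  rw [dif_pos h1, dif_pos h2, h3]

/-- general expansion of an observable with an even number of spins in bond sets -/
theorem obs_expand {n m : ℕ} (hn : Even n) (us : Fin n → ℤ × ℤ) (vs : Fin m → ℤ × ℤ)
    (js : Fin m → Fin 2) (c : Fin m → ℝ) :
    ∃ S : Finset (Fin m) → Finset ((ℤ × ℤ) × Fin 2), ∀ s : ℤ × ℤ → Bool,
      obs us vs js c s = ∑ T : Finset (Fin m), (∏ k ∈ Tᶜ, (-c k)) * ∏ e ∈ S T, ep e s := by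
  classical
  have h1 : ∀ T : Finset (Fin m), ∃ S : Finset ((ℤ × ℤ) × Fin 2), ∀ s : ℤ × ℤ → Bool,
      (∏ i, spinSign (s (us i))) * ∏ k ∈ T, (spinSign (s (vs k)) *
        spinSign (s (vs k + unitVec (js k)))) = ∏ e ∈ S, ep e s := by
    intro T
    exact (isB_even hn us).mul (isB_prod T _ fun k _ => isB_ep (vs k, js k))
  choose S hS using h1
  refine ⟨S, fun s => ?_⟩
  simp only [← hS]
  unfold obs
  simp only [sub_eq_add_neg]
  rw [Finset.prod_add, Finset.powerset_univ, Finset.mul_sum]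
  refine Finset.sum_congr rfl fun T _ => ?_
  rw [Finset.compl_eq_univ_sdiff]
  ring

/-- even moments: torus and disc have the same limit -/
theorem moments_lim {J lam : ℝ} {R : ℕ} {V : Finset (ℤ × ℤ) → ℝ} {β : ℝ}
    (h : DiscLim J lam R V β) {n m : ℕ} (hn : Even n) (us : Fin n → ℤ × ℤ)
    (vs : Fin m → ℤ × ℤ) (js : Fin m → Fin 2) (c : Fin m → ℝ) :
    ∃ l : ℝ, Tendsto (fun L : ℕ => torMom L J lam R V β us vs js c) atTop (𝓝 l) ∧
      Tendsto (fun B : ℝ => domainExpect (Metric.ball 0 B) 1 .plus J lam R V β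
        (obs us vs js c)) atTop (𝓝 l) := by
  classical
  obtain ⟨S, hS⟩ := obs_expand hn us vs js c
  choose l hl using h
  refine ⟨∑ T : Finset (Fin m), (∏ k ∈ Tᶜ, (-c k)) * l (S T), ?_, ?_⟩
  · have h2 : ∀ L : ℕ, torMom L J lam R V β us vs js c =
        ∑ T : Finset (Fin m), (∏ k ∈ Tᶜ, (-c k)) * torBonds L J lam R V β (S T) := by
      intro L
      rw [torMom_eq, ← torE_apply]
      have e1 : (fun σ : TorusConfig (L + 1) => obs us vs js c fun z => σ (toTorus (L + 1) z)) =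
          ∑ T : Finset (Fin m), (∏ k ∈ Tᶜ, (-c k)) • fun σ : TorusConfig (L + 1) =>
            ∏ e ∈ S T, ep e fun z => σ (toTorus (L + 1) z) := by
        funext σ
        simp only [Finset.sum_apply, Pi.smul_apply, smul_eq_mul, hS]
      rw [e1, map_sum]
      refine Finset.sum_congr rfl fun T _ => ?_
      rw [map_smul, smul_eq_mul, torE_apply]
      rfl
    simp only [h2]
    exact tendsto_finsetSum _ fun T _ => (hl (S T)).1.const_mul _
  · have h2 : ∀ B : ℝ, domainExpect (Metric.ball 0 B) 1 .plus J lam R V β (obs us vs js c) =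
        ∑ T : Finset (Fin m), (∏ k ∈ Tᶜ, (-c k)) * discBonds B J lam R V β (S T) := by
      intro B
      rw [← domE_apply]
      have e1 : obs us vs js c = ∑ T : Finset (Fin m), (∏ k ∈ Tᶜ, (-c k)) •
          fun s : ℤ × ℤ → Bool => ∏ e ∈ S T, ep e s := by
        funext s
        simp only [Finset.sum_apply, Pi.smul_apply, smul_eq_mul, hS]
      rw [e1, map_sum]
      refine Finset.sum_congr rfl fun T _ => ?_
      rw [map_smul, smul_eq_mul, domE_apply]
      rfl
    simp only [h2]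
    exact tendsto_finsetSum _ fun T _ => (hl (S T)).2.const_mul _

/-- plane moment with an even number of spins = limit of disc moments -/
theorem plMom_lim {J lam : ℝ} {R : ℕ} {V : Finset (ℤ × ℤ) → ℝ} {β : ℝ}
    (h : DiscLim J lam R V β) {n m : ℕ} (hn : Even n) (x : Fin n → ℂ)
    (y : Fin m → ℂ) (js : Fin m → Fin 2) (c : Fin m → ℝ) {a : ℝ} (ha : 0 < a) :
    Tendsto (fun B : ℝ => domMom (Metric.ball 0 B) a .plus J lam R V β x y js c) atTop
      (𝓝 (plMom J lam R V β (fun i => meshIndex a (x i)) (fun k => meshIndex a (y k)) js c)) := by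
  obtain ⟨l, h1, h2⟩ := moments_lim h hn (fun i => meshIndex a (x i))
    (fun k => meshIndex a (y k)) js c
  have e1 : plMom J lam R V β (fun i => meshIndex a (x i)) (fun k => meshIndex a (y k)) js c = l :=
    h1.limUnder_eq
  rw [e1]
  have h3 : Tendsto (fun B : ℝ => B / a) atTop atTop := tendsto_id.atTop_div_const ha
  refine (h2.comp h3).congr fun B => ?_
  unfold domMom
  rw [domainExpect_ball B a ha]
  rfl

/-! ### The reduction -/

/-- everything the renormalisation group has to deliver -/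
def PMaster : Prop :=
  ∀ (J : ℝ), 0 < J → ∀ (R : ℕ) (V : Finset (ℤ × ℤ) → ℝ), VHyp R V →
    ∃ lam₀ : ℝ, 0 < lam₀ ∧ ∃ (βc Zs Ze : ℝ → ℝ) (eb : ℝ → Fin 2 → ℝ),
      ContinuousAt βc 0 ∧ ContinuousAt Zs 0 ∧ ContinuousAt Ze 0 ∧
      βc 0 = criticalBeta J ∧ Zs 0 = 1 ∧ Ze 0 = 1 ∧
      ∀ lam : ℝ, |lam| < lam₀ →
        (0 < βc lam ∧ Zs lam ≠ 0 ∧ Ze lam ≠ 0) ∧
        MasterD J lam R V (βc lam) (Zs lam) (Ze lam) (eb lam) ∧
        MasterP J lam R V (βc lam) (Zs lam) (Ze lam) (eb lam) ∧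
        DiscLim J lam R V (βc lam) ∧
        (∀ j : Fin 2, Tendsto (fun L : ℕ => torBonds L J lam R V (βc lam) {((0, 0), j)}) atTop
          (𝓝 (eb lam j)))

theorem scl_pos (n m : ℕ) {a : ℝ} (ha : 0 < a) : 0 < scl n m a := Real.rpow_pos_of_pos ha _

theorem scl_mul_pow (n m : ℕ) {a : ℝ} (ha : 0 < a) : scl n m a * a ^ m = scl n 0 a := by
  unfold scl
  rw [← Real.rpow_natCast, ← Real.rpow_add ha]
  congr 1
  push_cast
  ring

/-- an error bound with bounded error scale gives convergence to zero -/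
theorem tendsto_zero_of_master {f g : ℝ → ℝ} {C : ℝ}
    (h : ∀ ε > 0, ∀ᶠ a : ℝ in 𝓝[>] 0, |f a| ≤ ε * g a) (hg : ∀ᶠ a : ℝ in 𝓝[>] 0, g a ≤ C) :
    Tendsto f (𝓝[>] 0) (𝓝 0) := by
  rw [Metric.tendsto_nhds]
  intro ε hε
  have hC : 0 < |C| + 1 := by positivity
  have h1 := h (ε / (2 * (|C| + 1))) (by positivity)
  filter_upwards [h1, hg] with a h1 h2
  rw [dist_zero_right, Real.norm_eq_abs]
  have h3 : g a ≤ |C| + 1 := h2.trans ((le_abs_self C).trans (by linarith))
  calc |f a| ≤ ε / (2 * (|C| + 1)) * g a := h1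
    _ ≤ ε / (2 * (|C| + 1)) * (|C| + 1) := mul_le_mul_of_nonneg_left h3 (by positivity)
    _ = ε / 2 := by field_simp
    _ < ε := by linarith

theorem bdd_of_tendsto {f : ℝ → ℝ} {F : ℝ} (h : Tendsto f (𝓝[>] 0) (𝓝 F)) :
    ∀ᶠ a : ℝ in 𝓝[>] 0, |f a| ≤ |F| + 1 := by
  have h1 := h.abs
  have h2 : ∀ᶠ t : ℝ in 𝓝 |F|, t ≤ |F| + 1 := by
    filter_upwards [Iio_mem_nhds (show |F| < |F| + 1 by linarith)] with t ht
    exact le_of_lt ht
  exact h1.eventually h2

/-- one spin-only rescaled moment is bounded (also for `n = 0`) -/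
theorem spin_bdd (hU : UDb) {D : Set ℂ} (hD : IsC2JordanDomain D) {b : BoundaryCondition}
    {n : ℕ} (hR : Rel b n) {m : ℕ} (x : Fin n → ℂ) (y : Fin m → ℂ) (hx : ∀ i, x i ∈ D)
    (hinj : Function.Injective (Fin.append x y)) :
    ∃ C, ∀ᶠ a : ℝ in 𝓝[>] 0, |scl n 0 a * D0c D a b x (![] : Fin 0 → ℂ) ![]| ≤ C := by
  have hinj0 : Function.Injective (Fin.append x (![] : Fin 0 → ℂ)) := by
    rw [Fin.append_injective_iff] at hinj ⊢
    exact ⟨hinj.1, fun i => i.elim0, fun i k => k.elim0⟩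
  rcases Nat.eq_zero_or_pos n with hn | hn
  · subst hn
    exact ⟨|1| + 1, bdd_of_tendsto (F := 1)
      (subs_of (bounded_of_C2 hD) b 1 0 0 (fun _ => 0) (criticalBeta 1) x ![] ![] (fun _ => e0))⟩
  · obtain ⟨F, hF⟩ := hU D hD b n 0 (by omega) hR x ![] ![] hx (fun k => k.elim0) hinj0
    exact ⟨|F| + 1, bdd_of_tendsto hF⟩

theorem clause_domain (hU : UDb) {J lam : ℝ} {R : ℕ} {V : Finset (ℤ × ℤ) → ℝ} {β Zs Ze : ℝ}
    {eb : Fin 2 → ℝ} (hM : MasterD J lam R V β Zs Ze eb)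
    {D : Set ℂ} (hD : IsC2JordanDomain D) (b : BoundaryCondition) (n m : ℕ) (hnm : 1 ≤ n + m)
    (hR : Rel b n) (x : Fin n → ℂ) (y : Fin m → ℂ) (j : Fin m → Fin 2)
    (hx : ∀ i, x i ∈ D) (hy : ∀ k, y k ∈ D) (hinj : Function.Injective (Fin.append x y)) :
    Tendsto (fun a : ℝ => scl n m a *
      (domMom D a b J lam R V β x y j (fun k => eb (j k))
        - Zs ^ n * Ze ^ m * D0c D a b x y j)) (𝓝[>] 0) (𝓝 0) := by
  obtain ⟨C₁, hC₁⟩ := spin_bdd hU hD hR x y hx hinj
  obtain ⟨F, hF⟩ := hU D hD b n m hnm hR x y j hx hy hinj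
  have hC₂ := bdd_of_tendsto hF
  refine tendsto_zero_of_master (g := fun a => scl n m a * errS D a b x y j)
    (C := C₁ + (|F| + 1)) ?_ ?_
  · intro ε hε
    filter_upwards [hM D hD b n m hnm hR x y j hx hy hinj ε hε, self_mem_nhdsWithin] with a h ha
    have ha' : (0 : ℝ) < a := ha
    have hs := scl_pos n m ha'
    rw [abs_mul, abs_of_pos hs]
    have := mul_le_mul_of_nonneg_left h hs.le
    unfold disc at this
    linarith
  · filter_upwards [hC₁, hC₂, self_mem_nhdsWithin] with a h1 h2 ha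
    have ha' : (0 : ℝ) < a := ha
    have hs := scl_pos n m ha'
    have hs0 := scl_pos n 0 ha'
    unfold errS
    rw [mul_add, ← mul_assoc, scl_mul_pow n m ha']
    rw [abs_mul, abs_of_pos hs0] at h1
    rw [abs_mul, abs_of_pos hs] at h2
    linarith

/-- the spin-only plane moment, rescaled, is bounded -/
theorem plane_spin_bdd (hU : UPb) {n : ℕ} (hn : Even n) {m : ℕ} (x : Fin n → ℂ) (y : Fin m → ℂ)
    (hinj : Function.Injective (Fin.append x y)) :
    ∃ C, ∀ᶠ a : ℝ in 𝓝[>] 0,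
      |scl n 0 a * P0c (fun i => meshIndex a (x i))
        (fun k => meshIndex a ((![] : Fin 0 → ℂ) k)) ![]| ≤ C := by
  have hinj0 : Function.Injective (Fin.append x (![] : Fin 0 → ℂ)) := by
    rw [Fin.append_injective_iff] at hinj ⊢
    exact ⟨hinj.1, fun i => i.elim0, fun i k => k.elim0⟩
  rcases Nat.eq_zero_or_pos n with h0 | h0
  · subst h0
    refine ⟨1, Eventually.of_forall fun a => ?_⟩
    have h1 : P0c (fun i => meshIndex a (x i)) (fun k => meshIndex a ((![] : Fin 0 → ℂ) k)) ![] =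
        1 := by
      unfold P0c plMom
      simp only [torMom_zero_zero]
      exact tendsto_const_nhds.limUnder_eq
    rw [h1, scl_zero_zero]
    simp
  · obtain ⟨F, hF⟩ := hU n 0 (by omega) hn x ![] ![] hinj0
    exact ⟨|F| + 1, bdd_of_tendsto hF⟩

theorem clause_plane (hU : UPb) (h0 : DiscLim 1 0 0 (fun _ => 0) (criticalBeta 1))
    {J lam : ℝ} {R : ℕ} {V : Finset (ℤ × ℤ) → ℝ}
    {β Zs Ze : ℝ} {eb : Fin 2 → ℝ} (hM : MasterP J lam R V β Zs Ze eb) (hL : DiscLim J lam R V β)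
    (n m : ℕ) (hnm : 1 ≤ n + m) (hn : Even n) (x : Fin n → ℂ) (y : Fin m → ℂ)
    (j : Fin m → Fin 2) (hinj : Function.Injective (Fin.append x y)) :
    Tendsto (fun a : ℝ => scl n m a *
      (plMom J lam R V β (fun i => meshIndex a (x i)) (fun k => meshIndex a (y k)) j
          (fun k => eb (j k))
        - Zs ^ n * Ze ^ m * P0c (fun i => meshIndex a (x i)) (fun k => meshIndex a (y k)) j))
      (𝓝[>] 0) (𝓝 0) := by
  obtain ⟨C₁, hC₁⟩ := plane_spin_bdd hU hn x y hinj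
  obtain ⟨F, hF⟩ := hU n m hnm hn x y j hinj
  have hC₂ := bdd_of_tendsto hF
  refine tendsto_zero_of_master (g := fun a => scl n m a *
    (a ^ m * |P0c (fun i => meshIndex a (x i)) (fun k => meshIndex a ((![] : Fin 0 → ℂ) k)) ![]| +
      |P0c (fun i => meshIndex a (x i)) (fun k => meshIndex a (y k)) j|))
    (C := C₁ + (|F| + 1)) ?_ ?_
  · intro ε hε
    filter_upwards [hM n m hnm hn x y j hinj ε hε, self_mem_nhdsWithin] with a h ha
    have ha' : (0 : ℝ) < a := ha
    have hs := scl_pos n m ha'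
    have t1 := plMom_lim hL hn x y j (fun k => eb (j k)) ha'
    have t2 : Tendsto (fun B : ℝ => D0c (Metric.ball 0 B) a .plus x y j) atTop
        (𝓝 (P0c (fun i => meshIndex a (x i)) (fun k => meshIndex a (y k)) j)) :=
      plMom_lim h0 hn x y j (fun _ => e0) ha'
    have t3 : Tendsto (fun B : ℝ => D0c (Metric.ball 0 B) a .plus x (![] : Fin 0 → ℂ) ![]) atTop
        (𝓝 (P0c (fun i => meshIndex a (x i)) (fun k => meshIndex a ((![] : Fin 0 → ℂ) k)) ![])) :=
      plMom_lim h0 hn x ![] ![] (fun _ => e0) ha'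
    have t4 := (t1.sub (t2.const_mul (Zs ^ n * Ze ^ m))).abs
    have t5 := (((t3.abs).const_mul (a ^ m)).add t2.abs).const_mul ε
    have h6 := le_of_tendsto_of_tendsto t4 t5 h
    rw [abs_mul, abs_of_pos hs]
    have := mul_le_mul_of_nonneg_left h6 hs.le
    linarith
  · filter_upwards [hC₁, hC₂, self_mem_nhdsWithin] with a h1 h2 ha
    have ha' : (0 : ℝ) < a := ha
    have hs := scl_pos n m ha'
    have hs0 := scl_pos n 0 ha'
    rw [mul_add, ← mul_assoc, scl_mul_pow n m ha']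
    rw [abs_mul, abs_of_pos hs0] at h1
    rw [abs_mul, abs_of_pos hs] at h2
    linarith

/-- **the master estimates imply the universality leaf** (with the unperturbed limits) -/
theorem PRatioB_of (hD : UDb) (hP : UPb) (h0 : DiscLim 1 0 0 (fun _ => 0) (criticalBeta 1))
    (h : PMaster) : PRatioB := by
  intro J hJ R V hV
  obtain ⟨lam₀, hlam₀, βc, Zs, Ze, eb, hβ, hZs, hZe, hβ0, hZs0, hZe0, H⟩ := h J hJ R V hV
  refine ⟨lam₀, hlam₀, βc, Zs, Ze, eb, hβ, hZs, hZe, hβ0, hZs0, hZe0, fun lam hl => ?_⟩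
  obtain ⟨h1, h2, h3, h4, h5⟩ := H lam hl
  refine ⟨h1, ?_, ?_, h5, ?_⟩
  · intro D hDD b n m hnm hR x y j hx hy hinj
    exact clause_domain hD h2 hDD b n m hnm hR x y j hx hy hinj
  · intro S
    obtain ⟨l, hl, -⟩ := h4 S
    exact ⟨l, hl⟩
  · intro n m hnm hn x y j hinj
    exact clause_plane hP h0 h3 h4 n m hnm hn x y j hinj

end Crest.Agent.R165.Mastx541
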