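import Mathlib
import Crest.Prelude.Def_PerturbedIsing
import Crest.Agent.R165.Top_683
import Crest.Agent.R165.Cent_541
import Crest.Agent.R165.Red_541
import Crest.Agent.R165.Sym_541
import Crest.Agent.R165.Red2_541
import Crest.Agent.R165.Mast_541

/-!
# Row 165 (S0250): master estimates from spin ratios and conditional energy ratios (helper541)

* `SRD`, `ERD` : `⟨σ_X⟩_λ/⟨σ_X⟩_0 → Zs^n`,
  `⟨σ_X ∏(ε - eb)⟩_λ/⟨σ_X⟩_λ - Ze^m ⟨σ_X ∏(ε - e0)⟩_0/⟨σ_X⟩_0 = o(a^m)` in `C²` domains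
* `SRP`, `ERP` : the same in large plus discs
* `PFlow` : the conjunction with the continuity data; `PMaster_of : PFlow → PMaster`
-/

set_option autoImplicit false

noncomputable section

open Filter Topology Finset
open Crest.ProbabilityR.IsingModel

namespace Crest.Agent.R165.SRx541

open Crest.Agent.R165.Centx541
open Crest.Agent.R165.Redx541
open Crest.Agent.R165.Symx541
open Crest.Agent.R165.Red2x541
open Crest.Agent.R165.Mastx541
open Crest.Agent.R165.Topx683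

/-- spin-only moment -/
def spm (D : Set ℂ) (a : ℝ) (b : BoundaryCondition) (J lam : ℝ) (R : ℕ)
    (V : Finset (ℤ × ℤ) → ℝ) (β : ℝ) {n : ℕ} (x : Fin n → ℂ) : ℝ :=
  domMom D a b J lam R V β x (![] : Fin 0 → ℂ) ![] ![]

/-- unperturbed spin-only moment -/
def spm0 (D : Set ℂ) (a : ℝ) (b : BoundaryCondition) {n : ℕ} (x : Fin n → ℂ) : ℝ :=
  spm D a b 1 0 0 (fun _ => 0) (criticalBeta 1) x

theorem spm0_eq (D : Set ℂ) (a : ℝ) (b : BoundaryCondition) {n : ℕ} (x : Fin n → ℂ) :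
    D0c D a b x (![] : Fin 0 → ℂ) ![] = spm0 D a b x := by
  unfold D0c spm0 spm
  congr 1
  funext k
  exact k.elim0

/-- the elementary algebra -/
theorem alg {n m : ℕ} {Zs Ze a ε ε' m0 M0 ml Ml : ℝ} (h0 : m0 ≠ 0) (hl : ml ≠ 0)
    (ha : 0 < a) (h1 : |ml / m0 - Zs ^ n| * |Ze ^ m| ≤ ε)
    (h2 : |Ml / ml - Ze ^ m * (M0 / m0)| ≤ ε' * a ^ m) (h3 : |ml / m0| * ε' ≤ ε) :
    |Ml - Zs ^ n * Ze ^ m * M0| ≤ ε * (a ^ m * |m0| + |M0|) := by
  have e1 : Ml - Zs ^ n * Ze ^ m * M0 = (ml / m0 - Zs ^ n) * Ze ^ m * M0 +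
      (ml / m0) * (Ml / ml - Ze ^ m * (M0 / m0)) * m0 := by
    field_simp
    ring
  rw [e1]
  refine (abs_add_le _ _).trans ?_
  rw [abs_mul, abs_mul, abs_mul, abs_mul]
  have h4 : |ml / m0 - Zs ^ n| * |Ze ^ m| * |M0| ≤ ε * |M0| :=
    mul_le_mul_of_nonneg_right h1 (abs_nonneg _)
  have h5 : |ml / m0| * |Ml / ml - Ze ^ m * (M0 / m0)| * |m0| ≤ ε * (a ^ m * |m0|) := by
    have h6 : |ml / m0| * |Ml / ml - Ze ^ m * (M0 / m0)| ≤ ε * a ^ m := by
      calc _ ≤ |ml / m0| * (ε' * a ^ m) := mul_le_mul_of_nonneg_left h2 (abs_nonneg _)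
        _ = |ml / m0| * ε' * a ^ m := by ring
        _ ≤ ε * a ^ m := mul_le_mul_of_nonneg_right h3 (by positivity)
    calc _ ≤ ε * a ^ m * |m0| := mul_le_mul_of_nonneg_right h6 (abs_nonneg _)
      _ = _ := by ring
  linarith

/-- unperturbed spin moments do not vanish (Griffiths), domains and discs -/
structure SPos : Prop where
  dom : ∀ D : Set ℂ, IsC2JordanDomain D → ∀ (b : BoundaryCondition) (n : ℕ), Rel b n →
    ∀ x : Fin n → ℂ, (∀ i, x i ∈ D) → Function.Injective x →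
      ∀ᶠ a : ℝ in 𝓝[>] 0, spm0 D a b x ≠ 0
  pl : ∀ (n : ℕ), Even n → ∀ x : Fin n → ℂ, Function.Injective x →
    ∀ᶠ a : ℝ in 𝓝[>] 0, ∀ᶠ B : ℝ in atTop, spm0 (Metric.ball 0 B) a .plus x ≠ 0

/-- spin ratios in domains -/
def SRD (J lam : ℝ) (R : ℕ) (V : Finset (ℤ × ℤ) → ℝ) (β Zs : ℝ) : Prop :=
  ∀ D : Set ℂ, IsC2JordanDomain D → ∀ (b : BoundaryCondition) (n : ℕ), 1 ≤ n → Rel b n →
    ∀ x : Fin n → ℂ, (∀ i, x i ∈ D) → Function.Injective x →
      ∀ ε > 0, ∀ᶠ a : ℝ in 𝓝[>] 0, |spm D a b J lam R V β x / spm0 D a b x - Zs ^ n| ≤ ε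

/-- spin ratios in large plus discs -/
def SRP (J lam : ℝ) (R : ℕ) (V : Finset (ℤ × ℤ) → ℝ) (β Zs : ℝ) : Prop :=
  ∀ (n : ℕ), 1 ≤ n → Even n → ∀ x : Fin n → ℂ, Function.Injective x →
      ∀ ε > 0, ∀ᶠ a : ℝ in 𝓝[>] 0, ∀ᶠ B : ℝ in atTop,
        |spm (Metric.ball 0 B) a .plus J lam R V β x / spm0 (Metric.ball 0 B) a .plus x -
          Zs ^ n| ≤ ε

/-- conditional energies in domains -/
def ERD (J lam : ℝ) (R : ℕ) (V : Finset (ℤ × ℤ) → ℝ) (β Ze : ℝ) (eb : Fin 2 → ℝ) : Prop :=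
  ∀ D : Set ℂ, IsC2JordanDomain D → ∀ (b : BoundaryCondition) (n m : ℕ), 1 ≤ m → Rel b n →
    ∀ (x : Fin n → ℂ) (y : Fin m → ℂ) (j : Fin m → Fin 2),
      (∀ i, x i ∈ D) → (∀ k, y k ∈ D) → Function.Injective (Fin.append x y) →
      ∀ ε > 0, ∀ᶠ a : ℝ in 𝓝[>] 0,
        |domMom D a b J lam R V β x y j (fun k => eb (j k)) / spm D a b J lam R V β x -
          Ze ^ m * (D0c D a b x y j / spm0 D a b x)| ≤ ε * a ^ m

/-- conditional energies in large plus discs -/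
def ERP (J lam : ℝ) (R : ℕ) (V : Finset (ℤ × ℤ) → ℝ) (β Ze : ℝ) (eb : Fin 2 → ℝ) : Prop :=
  ∀ (n m : ℕ), 1 ≤ m → Even n → ∀ (x : Fin n → ℂ) (y : Fin m → ℂ) (j : Fin m → Fin 2),
      Function.Injective (Fin.append x y) →
      ∀ ε > 0, ∀ᶠ a : ℝ in 𝓝[>] 0, ∀ᶠ B : ℝ in atTop,
        |domMom (Metric.ball 0 B) a .plus J lam R V β x y j (fun k => eb (j k)) /
            spm (Metric.ball 0 B) a .plus J lam R V β x -
          Ze ^ m * (D0c (Metric.ball 0 B) a .plus x y j / spm0 (Metric.ball 0 B) a .plus x)| ≤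
        ε * a ^ m

theorem spm_zero {D : Set ℂ} (hD : Bornology.IsBounded D) {a : ℝ} (ha : 0 < a)
    (b : BoundaryCondition) (J lam : ℝ) (R : ℕ) (V : Finset (ℤ × ℤ) → ℝ) (β : ℝ)
    (x : Fin 0 → ℂ) : spm D a b J lam R V β x = 1 :=
  domMom_zero_zero D a b J lam R V β (domainSites_finite hD ha) x _ _ _

/-- pointwise combination: spin ratio and conditional energy ratio give the master estimate -/
theorem comb {n m : ℕ} {Zs Ze : ℝ} (hZs : Zs ≠ 0) (ε : ℝ) (hε : 0 < ε) :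
    ∃ δ > 0, ∀ {a m0 M0 ml Ml : ℝ}, 0 < a → m0 ≠ 0 → |ml / m0 - Zs ^ n| ≤ δ →
      |Ml / ml - Ze ^ m * (M0 / m0)| ≤ δ * a ^ m →
      |Ml - Zs ^ n * Ze ^ m * M0| ≤ ε * (a ^ m * |m0| + |M0|) := by
  have hZn : 0 < |Zs ^ n| := abs_pos.2 (pow_ne_zero _ hZs)
  refine ⟨min (ε / (|Ze ^ m| + 1)) (min (|Zs ^ n| / 2) (ε / (2 * |Zs ^ n|))),
    lt_min (by positivity) (lt_min (by positivity) (by positivity)), ?_⟩
  intro a m0 M0 ml Ml ha h0 h1 h2
  set δ := min (ε / (|Ze ^ m| + 1)) (min (|Zs ^ n| / 2) (ε / (2 * |Zs ^ n|))) with hδ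
  have d1 : δ ≤ ε / (|Ze ^ m| + 1) := min_le_left _ _
  have d2 : δ ≤ |Zs ^ n| / 2 := (min_le_right _ _).trans (min_le_left _ _)
  have d3 : δ ≤ ε / (2 * |Zs ^ n|) := (min_le_right _ _).trans (min_le_right _ _)
  have dpos : 0 < δ := lt_min (by positivity) (lt_min (by positivity) (by positivity))
  have hl : ml ≠ 0 := by
    intro hl
    rw [hl, zero_div, zero_sub, abs_neg] at h1
    linarith
  have hρ : |ml / m0| ≤ 2 * |Zs ^ n| := by
    have := abs_sub_abs_le_abs_sub (ml / m0) (Zs ^ n)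
    linarith
  refine alg (ε' := δ) h0 hl ha ?_ h2 ?_
  · calc |ml / m0 - Zs ^ n| * |Ze ^ m| ≤ ε / (|Ze ^ m| + 1) * |Ze ^ m| :=
          mul_le_mul_of_nonneg_right (h1.trans d1) (abs_nonneg _)
      _ ≤ ε / (|Ze ^ m| + 1) * (|Ze ^ m| + 1) :=
          mul_le_mul_of_nonneg_left (by linarith) (by positivity)
      _ = ε := by field_simp
  · calc |ml / m0| * δ ≤ 2 * |Zs ^ n| * (ε / (2 * |Zs ^ n|)) :=
          mul_le_mul hρ d3 dpos.le (by positivity)
      _ = ε := by field_simp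

theorem domMom_m_zero (D : Set ℂ) (a : ℝ) (b : BoundaryCondition) (J lam : ℝ) (R : ℕ)
    (V : Finset (ℤ × ℤ) → ℝ) (β : ℝ) {n : ℕ} (x : Fin n → ℂ) (y : Fin 0 → ℂ)
    (j : Fin 0 → Fin 2) (c : Fin 0 → ℝ) :
    domMom D a b J lam R V β x y j c = spm D a b J lam R V β x := by
  unfold spm
  congr 1 <;> · funext k; exact k.elim0

theorem D0c_m_zero (D : Set ℂ) (a : ℝ) (b : BoundaryCondition) {n : ℕ} (x : Fin n → ℂ)
    (y : Fin 0 → ℂ) (j : Fin 0 → Fin 2) : D0c D a b x y j = spm0 D a b x :=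
  domMom_m_zero D a b 1 0 0 _ _ x y j _

theorem masterD_of (hpos : SPos) {J lam : ℝ} {R : ℕ} {V : Finset (ℤ × ℤ) → ℝ} {β Zs Ze : ℝ}
    {eb : Fin 2 → ℝ} (hZs : Zs ≠ 0) (hS : SRD J lam R V β Zs) (hE : ERD J lam R V β Ze eb) :
    MasterD J lam R V β Zs Ze eb := by
  intro D hD b n m hnm hR x y j hx hy hinj ε hε
  have hinjx : Function.Injective x := (Fin.append_injective_iff.1 hinj).1
  obtain ⟨δ, hδ, hcomb⟩ := comb (n := n) (m := m) (Ze := Ze) hZs ε hε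
  have hs : ∀ᶠ a : ℝ in 𝓝[>] 0, |spm D a b J lam R V β x / spm0 D a b x - Zs ^ n| ≤ δ := by
    rcases Nat.eq_zero_or_pos n with hn | hn
    · subst hn
      filter_upwards [self_mem_nhdsWithin] with a ha
      have ha' : (0 : ℝ) < a := ha
      unfold spm0
      rw [spm_zero (bounded_of_C2 hD) ha', spm_zero (bounded_of_C2 hD) ha']
      simpa using hδ.le
    · exact hS D hD b n hn hR x hx hinjx δ hδ
  have he : ∀ᶠ a : ℝ in 𝓝[>] 0,
      |domMom D a b J lam R V β x y j (fun k => eb (j k)) / spm D a b J lam R V β x -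
        Ze ^ m * (D0c D a b x y j / spm0 D a b x)| ≤ δ * a ^ m := by
    rcases Nat.eq_zero_or_pos m with hm | hm
    · subst hm
      have hs2 : ∀ᶠ a : ℝ in 𝓝[>] 0,
          |spm D a b J lam R V β x / spm0 D a b x - Zs ^ n| < |Zs ^ n| := by
        have hZn : 0 < |Zs ^ n| := abs_pos.2 (pow_ne_zero _ hZs)
        rcases Nat.eq_zero_or_pos n with hn | hn
        · omega
        · filter_upwards [hS D hD b n hn hR x hx hinjx (|Zs ^ n| / 2) (by positivity)] with a h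
          linarith
      filter_upwards [hpos.dom D hD b n hR x hx hinjx, hs2, self_mem_nhdsWithin] with a h0 h2 ha
      have hl : spm D a b J lam R V β x ≠ 0 := by
        intro hl
        rw [hl, zero_div, zero_sub, abs_neg] at h2
        exact lt_irrefl _ h2
      rw [domMom_m_zero, D0c_m_zero, div_self h0, div_self hl]
      simpa using hδ.le
    · exact hE D hD b n m hm hR x y j hx hy hinj δ hδ
  filter_upwards [hs, he, hpos.dom D hD b n hR x hx hinjx, self_mem_nhdsWithin] with a h1 h2 h3 ha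
  have ha' : (0 : ℝ) < a := ha
  unfold disc errS
  rw [spm0_eq]
  exact hcomb ha' h3 h1 h2

theorem masterP_of (hpos : SPos) {J lam : ℝ} {R : ℕ} {V : Finset (ℤ × ℤ) → ℝ} {β Zs Ze : ℝ}
    {eb : Fin 2 → ℝ} (hZs : Zs ≠ 0) (hS : SRP J lam R V β Zs) (hE : ERP J lam R V β Ze eb) :
    MasterP J lam R V β Zs Ze eb := by
  intro n m hnm hev x y j hinj ε hε
  have hinjx : Function.Injective x := (Fin.append_injective_iff.1 hinj).1
  obtain ⟨δ, hδ, hcomb⟩ := comb (n := n) (m := m) (Ze := Ze) hZs ε hε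
  have hs : ∀ δ > 0, ∀ᶠ a : ℝ in 𝓝[>] 0, ∀ᶠ B : ℝ in atTop,
      |spm (Metric.ball 0 B) a .plus J lam R V β x / spm0 (Metric.ball 0 B) a .plus x -
        Zs ^ n| ≤ δ := by
    intro δ hδ
    rcases Nat.eq_zero_or_pos n with hn | hn
    · subst hn
      filter_upwards [self_mem_nhdsWithin] with a ha
      have ha' : (0 : ℝ) < a := ha
      refine Eventually.of_forall fun B => ?_
      unfold spm0
      rw [spm_zero Metric.isBounded_ball ha', spm_zero Metric.isBounded_ball ha']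
      simpa using hδ.le
    · exact hS n hn hev x hinjx δ hδ
  have he : ∀ᶠ a : ℝ in 𝓝[>] 0, ∀ᶠ B : ℝ in atTop,
      |domMom (Metric.ball 0 B) a .plus J lam R V β x y j (fun k => eb (j k)) /
          spm (Metric.ball 0 B) a .plus J lam R V β x -
        Ze ^ m * (D0c (Metric.ball 0 B) a .plus x y j / spm0 (Metric.ball 0 B) a .plus x)| ≤
        δ * a ^ m := by
    rcases Nat.eq_zero_or_pos m with hm | hm
    · subst hm
      have hZn : 0 < |Zs ^ n| := abs_pos.2 (pow_ne_zero _ hZs)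
      filter_upwards [hpos.pl n hev x hinjx, hs (|Zs ^ n| / 2) (by positivity)] with a h1 h2
      filter_upwards [h1, h2] with B h0 h2
      have hl : spm (Metric.ball 0 B) a .plus J lam R V β x ≠ 0 := by
        intro hl
        rw [hl, zero_div, zero_sub, abs_neg] at h2
        linarith
      rw [domMom_m_zero, D0c_m_zero, div_self h0, div_self hl]
      simpa using hδ.le
    · exact hE n m hm hev x y j hinj δ hδ
  filter_upwards [hs δ hδ, he, hpos.pl n hev x hinjx, self_mem_nhdsWithin] with a h1 h2 h3 ha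
  have ha' : (0 : ℝ) < a := ha
  filter_upwards [h1, h2, h3] with B h1 h2 h3
  unfold disc errS
  rw [spm0_eq]
  exact hcomb ha' h3 h1 h2

/-- what the renormalisation group has to deliver, ratio form -/
def PFlow : Prop :=
  ∀ (J : ℝ), 0 < J → ∀ (R : ℕ) (V : Finset (ℤ × ℤ) → ℝ), VHyp R V →
    ∃ lam₀ : ℝ, 0 < lam₀ ∧ ∃ (βc Zs Ze : ℝ → ℝ) (eb : ℝ → Fin 2 → ℝ),
      ContinuousAt βc 0 ∧ ContinuousAt Zs 0 ∧ ContinuousAt Ze 0 ∧
      βc 0 = criticalBeta J ∧ Zs 0 = 1 ∧ Ze 0 = 1 ∧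
      ∀ lam : ℝ, |lam| < lam₀ →
        (0 < βc lam ∧ Zs lam ≠ 0 ∧ Ze lam ≠ 0) ∧
        SRD J lam R V (βc lam) (Zs lam) ∧ ERD J lam R V (βc lam) (Ze lam) (eb lam) ∧
        SRP J lam R V (βc lam) (Zs lam) ∧ ERP J lam R V (βc lam) (Ze lam) (eb lam) ∧
        DiscLim J lam R V (βc lam) ∧
        (∀ j : Fin 2, Tendsto (fun L : ℕ => torBonds L J lam R V (βc lam) {((0, 0), j)}) atTop
          (𝓝 (eb lam j)))

theorem PMaster_of (hpos : SPos) (h : PFlow) : PMaster := by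
  intro J hJ R V hV
  obtain ⟨lam₀, hlam₀, βc, Zs, Ze, eb, hβ, hZs, hZe, hβ0, hZs0, hZe0, H⟩ := h J hJ R V hV
  refine ⟨lam₀, hlam₀, βc, Zs, Ze, eb, hβ, hZs, hZe, hβ0, hZs0, hZe0, fun lam hl => ?_⟩
  obtain ⟨h1, h2, h3, h4, h5, h6, h7⟩ := H lam hl
  exact ⟨h1, masterD_of hpos h1.2.1 h2 h3, masterP_of hpos h1.2.1 h4 h5, h6, h7⟩

/-- `PMaster` contains the unperturbed disc limit -/
theorem discLim_zero (h : PMaster) : DiscLim 1 0 0 (fun _ => 0) (criticalBeta 1) := by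
  obtain ⟨lam₀, hlam₀, βc, Zs, Ze, eb, hβ, hZs, hZe, hβ0, hZs0, hZe0, H⟩ :=
    h 1 one_pos 0 (fun _ => 0) ⟨fun _ h => absurd rfl h, fun _ h => absurd rfl h,
      fun _ _ => rfl, fun _ => rfl, fun _ => rfl⟩
  have := (H 0 (by simpa using hlam₀)).2.2.2.1
  rwa [hβ0] at this

/-- **summary**: unperturbed leaves + positivity + flow outputs imply everything -/
theorem all_of (hU : ULimB) (hpos : SPos) (h : PFlow) : ULim ∧ PRatio :=
  leavesB hU (PRatioB_of hU.ud hU.up (discLim_zero (PMaster_of hpos h)) (PMaster_of hpos h))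

end Crest.Agent.R165.SRx541
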