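import Crest.Agent.R165.Disc_892
import Crest.Agent.R165.SR_541

/-!
# Row 165, block F: spin ratios and bond expectations in discs from the flow constants (helper892)

* `ScaleData` : geometry of the scales (ranges, coverings, summable bounds)
* `SpinData` : everything the flow delivers for the ratio with / without `n` insertions, for an
  arbitrary filter; `SpinData.tendsto` : the ratio tends to `(exp ∑ ζ) ^ n`
* `srd_of`, `srp_of` : the leaves `SRD`, `SRP` of `SR_541`
* `SrcData` : everything the flow delivers for one source; `SrcData.tendsto`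
* `discLim_of` : torus half + disc half give `DiscLim`
-/

set_option autoImplicit false

noncomputable section

namespace Crest.Agent.R165.DiscDatax892

open Finset Filter Topology
open scoped ENNReal
open Crest.ProbabilityR.IsingModel
open Crest.Agent.R165.Packx915 Crest.Agent.R165.NSumx915 Crest.Agent.R165.Spinx930
open Crest.Agent.R165.Discx892
open Crest.Agent.R165.Centx541 Crest.Agent.R165.Redx541 Crest.Agent.R165.Symx541
open Crest.Agent.R165.Red2x541 Crest.Agent.R165.Mastx541 Crest.Agent.R165.Topx683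
open Crest.Agent.R165.SRx541

variable {X : Type*}

/-- geometry of the scales and the summable bound of the norms of the constants -/
structure ScaleData (d : X → X → ℕ) where
  /-- scale -/
  r : ℕ → ℕ
  /-- range of connectedness of the polymers -/
  R : ℕ → ℕ
  /-- range at which the background is seen -/
  R' : ℕ → ℕ
  /-- covering numbers -/
  cn : ℕ → ℕ → ℕ
  /-- covering constant -/
  A : ℕ
  /-- large polymer factor -/
  Γ : ℝ≥0∞
  /-- bounds of the constants -/
  E : ℕ → ℝ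
  pd : PD d
  Γ4 : 4 ≤ Γ
  Γt : Γ ≠ ∞
  hcn : ∀ k m, cn k m ≤ A * 2 ^ m
  hcov : ∀ k m, Cov d ((R k + r k + 1) * m + R' k) (r k) (cn k m)
  E0 : ∀ k, 0 ≤ E k
  Es : Summable E

/-- what the flow delivers for the ratio `g` = (with `n` insertions) / (without) -/
structure SpinData {d : X → X → ℕ} (G : ScaleData d) {α : Type*} (l : Filter α) (n : ℕ)
    (g : α → ℝ) (ζ : ℕ → ℝ) where
  /-- first coarse scale -/
  K : α → ℕ
  /-- final scale -/
  Kf : α → ℕ
  /-- radius of the one-point neighbourhoods -/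
  ρ : α → ℕ
  /-- insertions -/
  x : α → Fin n → X
  /-- constants with the insertions -/
  c1 : α → ℕ → Finset X → ℝ
  /-- constants without insertions -/
  c2 : α → ℕ → Finset X → ℝ
  /-- constants with one insertion in the plane -/
  cB : α → ℕ → Fin n → Finset X → ℝ
  /-- plane constants -/
  cP : ℕ → Finset X → ℝ
  /-- remaining expectation with insertions -/
  e1 : α → ℝ
  /-- remaining expectation without insertions -/
  e2 : α → ℝ
  hK : Tendsto K l atTop
  hρ : Tendsto ρ l atTop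
  hKf : ∀ᶠ a in l, K a ≤ Kf a
  fine : ∀ᶠ a in l, ∀ k < K a, SD d (G.r k) (G.R k) (G.R' k) (ρ a) G.Γ (ENNReal.ofReal (G.E k))
    (x a) (c1 a k) (c2 a k) (cP k) (cB a k)
  coarse : ∀ᶠ a in l, ∀ k < Kf a, K a ≤ k →
    SC d (G.r k) (G.R k) (G.R' k) G.Γ (ENNReal.ofReal (G.E k)) (x a) (c1 a k) (c2 a k)
  hz : ∀ᶠ a in l, ∀ k < K a, ∀ i, ∑' U, (cB a k i U - cP k U) = ζ k
  /-- the constants are summable (finite support) -/
  sum2 : ∀ᶠ a in l, ∀ k < Kf a, Summable (c2 a k)
  he1 : Tendsto e1 l (𝓝 1)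
  he2 : Tendsto e2 l (𝓝 1)
  hg : ∀ᶠ a in l, g a =
    (Real.exp (∑ k ∈ range (Kf a), ∑' U, c1 a k U) * e1 a) /
      (Real.exp (∑ k ∈ range (Kf a), ∑' U, c2 a k U) * e2 a)

/-- **spin ratio** -/
theorem SpinData.tendsto {d : X → X → ℕ} {G : ScaleData d} {α : Type*} {l : Filter α} {n : ℕ}
    {g : α → ℝ} {ζ : ℕ → ℝ} (hζ : Summable ζ) (D : SpinData G l n g ζ) :
    Tendsto g l (𝓝 (Real.exp (∑' k, ζ k) ^ n)) := by
  have h1 := limit_all G.pd G.Γ4 G.Γt D.hK D.hρ D.hKf G.hcn G.hcov G.E0 G.Es D.x D.c1 D.c2 D.cB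
    D.cP D.fine D.coarse hζ D.hz
  rw [Fintype.card_fin] at h1
  have h2 : Tendsto (fun a => ∑ k ∈ range (D.Kf a), ∑' U, D.c1 a k U -
      ∑ k ∈ range (D.Kf a), ∑' U, D.c2 a k U) l (𝓝 (n * ∑' k, ζ k)) := by
    refine h1.congr' ?_
    filter_upwards [D.fine, D.coarse, D.sum2] with a hf hc hs
    rw [← Finset.sum_sub_distrib]
    refine Finset.sum_congr rfl fun k hk => ?_
    rw [Finset.mem_range] at hk
    have hsum : Summable fun U => D.c1 a k U - D.c2 a k U := by
      by_cases hkK : k < D.K a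
      · exact ((SD.toSC (hf k hkK)).bound G.pd G.Γ4 G.Γt (G.hcn k) (G.hcov k) (G.E0 k)).1
      · exact ((hc k hk (not_lt.1 hkK)).bound G.pd G.Γ4 G.Γt (G.hcn k) (G.hcov k) (G.E0 k)).1
    have h3 := hs k hk
    have h4 : Summable (D.c1 a k) := by
      have := hsum.add h3
      simpa using this
    exact h4.tsum_sub h3
  have h3 := ratio_limit (g1 := fun a => Real.exp (∑ k ∈ range (D.Kf a), ∑' U, D.c1 a k U) *
      D.e1 a) (g2 := fun a => Real.exp (∑ k ∈ range (D.Kf a), ∑' U, D.c2 a k U) * D.e2 a)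
    (Eventually.of_forall fun _ => rfl) (Eventually.of_forall fun _ => rfl) D.he1 D.he2 h2
  rw [Real.exp_nat_mul] at h3
  exact h3.congr' (D.hg.mono fun a ha => ha.symm)

/-- domains -/
theorem srd_of {J lam : ℝ} {R : ℕ} {V : Finset (ℤ × ℤ) → ℝ} {β : ℝ} {d : X → X → ℕ}
    {G : ScaleData d} {ζ : ℕ → ℝ} (hζ : Summable ζ)
    (h : ∀ D : Set ℂ, IsC2JordanDomain D → ∀ (b : BoundaryCondition) (n : ℕ), 1 ≤ n → Rel b n →
      ∀ x : Fin n → ℂ, (∀ i, x i ∈ D) → Function.Injective x →
        Nonempty (SpinData G (𝓝[>] (0 : ℝ)) n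
          (fun a => spm D a b J lam R V β x / spm0 D a b x) ζ)) :
    SRD J lam R V β (Real.exp (∑' k, ζ k)) := by
  intro D hD b n hn hR x hx hinj ε hε
  obtain ⟨S⟩ := h D hD b n hn hR x hx hinj
  have h1 := (S.tendsto hζ).eventually (Metric.closedBall_mem_nhds _ hε)
  filter_upwards [h1] with a ha
  rwa [Real.dist_eq] at ha

/-- large plus discs -/
theorem srp_of {J lam : ℝ} {R : ℕ} {V : Finset (ℤ × ℤ) → ℝ} {β : ℝ} {d : X → X → ℕ}
    {G : ScaleData d} {ζ : ℕ → ℝ} (hζ : Summable ζ)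
    (h : ∀ (n : ℕ), 1 ≤ n → Even n → ∀ x : Fin n → ℂ, Function.Injective x →
        Nonempty (SpinData G ((𝓝[>] (0 : ℝ)).curry (atTop : Filter ℝ)) n
          (fun p => spm (Metric.ball 0 p.2) p.1 .plus J lam R V β x /
            spm0 (Metric.ball 0 p.2) p.1 .plus x) ζ)) :
    SRP J lam R V β (Real.exp (∑' k, ζ k)) := by
  intro n hn hev x hinj ε hε
  obtain ⟨S⟩ := h n hn hev x hinj
  have h1 := (S.tendsto hζ).eventually (Metric.closedBall_mem_nhds _ hε)
  rw [eventually_curry_iff] at h1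
  refine h1.mono fun a ha => ha.mono fun B hB => ?_
  rwa [Real.dist_eq] at hB

/-! ### one source -/

/-- what the flow delivers for the expectation `g` of one local observable -/
structure SrcData {d : X → X → ℕ} (G : ScaleData d) {α : Type*} (l : Filter α) (y : X)
    (g : α → ℝ) (sP : ℕ → Finset X → ℝ) where
  /-- final scale -/
  Kf : α → ℕ
  /-- radius of the plane neighbourhood of the source -/
  ρ : α → ℕ
  /-- source constants -/
  s : α → ℕ → Finset X → ℝ
  /-- error of the final step -/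
  e : α → ℝ
  hK : Tendsto Kf l atTop
  hρ : Tendsto ρ l atTop
  hs : ∀ᶠ a in l, ∀ k < Kf a, SS d (G.r k) (G.R k) (ρ a) G.Γ (ENNReal.ofReal (G.E k)) y
    (s a k) (sP k)
  he : Tendsto e l (𝓝 0)
  hg : ∀ᶠ a in l, g a = ∑ k ∈ range (Kf a), ∑' U, s a k U + e a

theorem SrcData.tendsto {d : X → X → ℕ} {G : ScaleData d} {α : Type*} {l : Filter α} [l.NeBot]
    {y : X} {g : α → ℝ} {sP : ℕ → Finset X → ℝ} (D : SrcData G l y g sP) :
    Tendsto g l (𝓝 (∑' k, ∑' U, sP k U)) := by
  have h1 := (source_limit G.pd (le_trans (by norm_num) G.Γ4) G.Γt D.hK D.hρ G.E0 G.Es y D.s sP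
    D.hs).2
  have h2 := h1.add D.he
  rw [add_zero] at h2
  exact h2.congr' (D.hg.mono fun a ha => ha.symm)

/-- **`DiscLim`** from the two halves: the same plane constants `sP` -/
theorem discLim_of {J lam : ℝ} {R : ℕ} {V : Finset (ℤ × ℤ) → ℝ} {β : ℝ} {d : X → X → ℕ}
    (h : ∀ S : Finset ((ℤ × ℤ) × Fin 2), ∃ (G : ScaleData d) (y : X) (sP : ℕ → Finset X → ℝ),
      Tendsto (fun L : ℕ => torBonds L J lam R V β S) atTop (𝓝 (∑' k, ∑' U, sP k U)) ∧
      Nonempty (SrcData G (atTop : Filter ℝ) y (fun B => discBonds B J lam R V β S) sP)) :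
    DiscLim J lam R V β := by
  intro S
  obtain ⟨G, y, sP, h1, ⟨h2⟩⟩ := h S
  exact ⟨_, h1, h2.tendsto⟩

end Crest.Agent.R165.DiscDatax892
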