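import Crest.Agent.R165.DiscPh_892

/-!
# Row 165 (S0250), large discs: the steps where the phases change (helper892)

Parameters `P = (a, B)`: mesh `a`, radius `B`; filter `dl = (𝓝[>] 0).curry atTop`.

* `k1 p k0 u a` : first crude step, `rr k ≤ u / a` for `k ≤ k1`
* `k2 p k0 v a` : first coarse step, `v / a < rr k` for `k2 ≤ k`
* `kf p k0 c P` : number of steps, `rr k ≤ c B / a` for `k ≤ kf`
* `k2_sub_k1`, `k1_tendsto`, `kf_tendsto`, `kf_sub_tendsto`, `aD_tendsto`, `small_k1`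
-/

set_option autoImplicit false

noncomputable section

open Filter Topology

namespace Crest.Agent.R165.DiscKx892

open Crest.Agent.R165.Compx889 Crest.Agent.R165.Scalex900 Crest.Agent.R165.GSysx387
  Crest.Agent.R165.DiscPhx892

/-- the filter: first `B → ∞`, then `a → 0+` -/
abbrev dl : Filter (ℝ × ℝ) := (𝓝[>] (0 : ℝ)).curry (atTop : Filter ℝ)

/-- first crude step -/
def k1 (p k0 : ℕ) (u a : ℝ) : ℕ := lastK p k0 (u / a)

/-- first coarse step -/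
def k2 (p k0 : ℕ) (v a : ℝ) : ℕ := lastK p k0 (v / a) + 1

/-- number of steps -/
def kf (p k0 : ℕ) (c : ℝ) (P : ℝ × ℝ) : ℕ := lastK p k0 (c * P.2 / P.1)

/-! ### filters -/

theorem ev_a {q : ℝ → Prop} (h : ∀ᶠ a in 𝓝[>] (0 : ℝ), q a) : ∀ᶠ P in dl, q P.1 :=
  eventually_curry_iff.2 (h.mono fun _ ha => Eventually.of_forall fun _ => ha)

theorem ev_aB {q : ℝ × ℝ → Prop} (h : ∀ a : ℝ, 0 < a → ∀ᶠ B in (atTop : Filter ℝ), q (a, B)) :
    ∀ᶠ P in dl, q P :=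
  eventually_curry_iff.2 (mem_of_superset self_mem_nhdsWithin fun a ha => h a ha)

theorem ev_pos : ∀ᶠ P in dl, 0 < P.1 := ev_a self_mem_nhdsWithin

theorem tendsto_a {β : Type*} {m : Filter β} {f : ℝ → β} (h : Tendsto f (𝓝[>] (0 : ℝ)) m) :
    Tendsto (fun P : ℝ × ℝ => f P.1) dl m := fun _ hs => ev_a (h hs)

theorem tendsto_aB {β : Type*} {m : Filter β} {f : ℝ × ℝ → β}
    (h : ∀ a : ℝ, 0 < a → Tendsto (fun B => f (a, B)) atTop m) : Tendsto f dl m :=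
  fun _ hs => ev_aB fun a ha => h a ha hs

instance : dl.NeBot := by
  unfold dl
  refine ⟨fun h => ?_⟩
  have h1 : ∀ᶠ P in dl, False := by rw [dl, h]; exact eventually_bot
  rw [eventually_curry_iff] at h1
  obtain ⟨a, ha⟩ := h1.exists
  exact (ha.exists).elim fun _ h => h

/-! ### the scales -/

theorem rr_cast (p k0 k : ℕ) : (rr p k0 k : ℝ) = 2 ^ (p * (k0 + k)) := by
  unfold rr; push_cast; rfl

theorem rr_le_k1 {p k0 : ℕ} {u a : ℝ} (h : (2 : ℝ) ^ (p * k0) ≤ u / a) {k : ℕ}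
    (hk : k ≤ k1 p k0 u a) : (rr p k0 k : ℝ) ≤ u / a := by
  rw [rr_cast]
  refine le_trans ?_ (lastK_le h)
  exact pow_le_pow_right₀ (by norm_num) (Nat.mul_le_mul_left _ (by unfold k1 at hk; omega))

theorem lt_rr_k1 {p k0 : ℕ} (hp : 1 ≤ p) (u a : ℝ) {k : ℕ} (hk : k1 p k0 u a < k) :
    u / a < rr p k0 k := by
  rw [rr_cast]
  refine (lt_lastK (k0 := k0) hp (u / a)).trans_le ?_
  exact pow_le_pow_right₀ (by norm_num) (Nat.mul_le_mul_left _ (by unfold k1 at hk; omega))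

theorem lt_rr_k2 {p k0 : ℕ} (hp : 1 ≤ p) (v a : ℝ) {k : ℕ} (hk : k2 p k0 v a ≤ k) :
    v / a < rr p k0 k := by
  rw [rr_cast]
  refine (lt_lastK (k0 := k0) hp (v / a)).trans_le ?_
  exact pow_le_pow_right₀ (by norm_num) (Nat.mul_le_mul_left _ (by unfold k2 at hk; omega))

theorem rr_lt_k2 {p k0 : ℕ} {v a : ℝ} (h : (2 : ℝ) ^ (p * k0) ≤ v / a) {k : ℕ}
    (hk : k < k2 p k0 v a) : (rr p k0 k : ℝ) ≤ v / a := by
  rw [rr_cast]
  refine le_trans ?_ (lastK_le h)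
  exact pow_le_pow_right₀ (by norm_num) (Nat.mul_le_mul_left _ (by unfold k2 at hk; omega))

theorem rr_le_kf {p k0 : ℕ} {c : ℝ} {P : ℝ × ℝ} (h : (2 : ℝ) ^ (p * k0) ≤ c * P.2 / P.1) {k : ℕ}
    (hk : k ≤ kf p k0 c P) : (rr p k0 k : ℝ) ≤ c * P.2 / P.1 := by
  rw [rr_cast]
  refine le_trans ?_ (lastK_le h)
  exact pow_le_pow_right₀ (by norm_num) (Nat.mul_le_mul_left _ (by unfold kf at hk; omega))

theorem lt_rr_kf {p k0 : ℕ} (hp : 1 ≤ p) (c : ℝ) (P : ℝ × ℝ) :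
    c * P.2 / P.1 < rr p k0 (kf p k0 c P + 1) := by
  rw [rr_cast]
  exact lt_lastK (k0 := k0) hp (c * P.2 / P.1)

theorem k1_le_k2 {p k0 : ℕ} {u v a : ℝ} (ha : 0 < a) (huv : u ≤ v) : k1 p k0 u a ≤ k2 p k0 v a := by
  unfold k1 k2
  exact (lastK_mono (by gcongr)).trans (Nat.le_succ _)

theorem k1_lt_k2 {p k0 : ℕ} {u v a : ℝ} (ha : 0 < a) (huv : u ≤ v) : k1 p k0 u a < k2 p k0 v a := by
  unfold k1 k2
  exact Nat.lt_succ_of_le (lastK_mono (by gcongr))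

/-- bound of the number of crude steps -/
theorem exists_J {u v : ℝ} (hu : 0 < u) : ∃ J : ℕ, ∀ p k0 : ℕ, 1 ≤ p → ∀ a : ℝ, 0 < a →
    (2 : ℝ) ^ (p * k0) ≤ v / a → k2 p k0 v a - k1 p k0 u a ≤ J := by
  obtain ⟨m, hm⟩ := pow_unbounded_of_one_lt (v / u) (by norm_num : (1 : ℝ) < 2)
  refine ⟨m + 2, fun p k0 hp a ha h => ?_⟩
  have h1 : v / a ≤ 2 ^ m * (u / a) := by
    rw [div_lt_iff₀ hu] at hm
    rw [← mul_div_assoc]
    gcongr
  have := lastK_gap hp h h1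
  unfold k1 k2
  omega

theorem k1_tendsto {p : ℕ} (hp : 1 ≤ p) (k0 : ℕ) {u : ℝ} (hu : 0 < u) :
    Tendsto (k1 p k0 u) (𝓝[>] 0) atTop := lastK_div_tendsto hp k0 hu

theorem k1_tendsto_dl {p : ℕ} (hp : 1 ≤ p) (k0 : ℕ) {u : ℝ} (hu : 0 < u) :
    Tendsto (fun P : ℝ × ℝ => k1 p k0 u P.1) dl atTop := tendsto_a (k1_tendsto hp k0 hu)

theorem kf_tendsto_B {p : ℕ} (hp : 1 ≤ p) (k0 : ℕ) {c a : ℝ} (hc : 0 < c) (ha : 0 < a) :
    Tendsto (fun B : ℝ => kf p k0 c (a, B)) atTop atTop := by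
  unfold kf
  refine lastK_tendsto k0 hp ?_
  have h : Tendsto (fun B : ℝ => c / a * B) atTop atTop :=
    Tendsto.const_mul_atTop (by positivity) tendsto_id
  refine h.congr fun B => ?_
  simp only
  ring

theorem kf_tendsto {p : ℕ} (hp : 1 ≤ p) (k0 : ℕ) {c : ℝ} (hc : 0 < c) :
    Tendsto (kf p k0 c) dl atTop := tendsto_aB fun _ ha => kf_tendsto_B hp k0 hc ha

theorem kf_sub_tendsto {p : ℕ} (hp : 1 ≤ p) (k0 : ℕ) {c : ℝ} (hc : 0 < c) (g : ℝ → ℕ) :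
    Tendsto (fun P : ℝ × ℝ => kf p k0 c P - g P.1) dl atTop :=
  tendsto_aB fun a ha => (tendsto_sub_atTop_nat (g a)).comp (kf_tendsto_B hp k0 hc ha)

theorem k2_le_kf {p : ℕ} (hp : 1 ≤ p) (k0 : ℕ) {c : ℝ} (hc : 0 < c) (v : ℝ) :
    ∀ᶠ P in dl, k2 p k0 v P.1 ≤ kf p k0 c P :=
  ev_aB fun a ha => (kf_tendsto_B hp k0 hc ha).eventually_ge_atTop (k2 p k0 v a)

theorem k1_le_kf {p : ℕ} (hp : 1 ≤ p) (k0 : ℕ) {c : ℝ} (hc : 0 < c) (u : ℝ) :
    ∀ᶠ P in dl, k1 p k0 u P.1 ≤ kf p k0 c P :=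
  ev_aB fun a ha => (kf_tendsto_B hp k0 hc ha).eventually_ge_atTop (k1 p k0 u a)

/-- the lower bound of the scales, eventually -/
theorem ev_div {u M : ℝ} (hu : 0 < u) : ∀ᶠ a in 𝓝[>] (0 : ℝ), M ≤ u / a := by
  have h : Tendsto (fun a : ℝ => u / a) (𝓝[>] 0) atTop :=
    Tendsto.const_mul_atTop hu tendsto_inv_nhdsGT_zero
  exact h.eventually_ge_atTop M

theorem ev_divB {c M : ℝ} (hc : 0 < c) : ∀ᶠ P : ℝ × ℝ in dl, M ≤ c * P.2 / P.1 := by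
  refine ev_aB fun a ha => ?_
  have h : Tendsto (fun B : ℝ => c / a * B) atTop atTop :=
    Tendsto.const_mul_atTop (by positivity) tendsto_id
  filter_upwards [h.eventually_ge_atTop M] with B hB
  refine hB.trans (le_of_eq ?_)
  ring

/-- ratio of the radius of the disc to a function of the mesh -/
theorem ev_ratio {c : ℝ} (hc : 0 < c) (g : ℝ → ℝ) : ∀ᶠ P : ℝ × ℝ in dl, g P.1 ≤ c * P.2 / P.1 := by
  refine ev_aB fun a ha => ?_
  have h : Tendsto (fun B : ℝ => c / a * B) atTop atTop :=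
    Tendsto.const_mul_atTop (by positivity) tendsto_id
  filter_upwards [h.eventually_ge_atTop (g a)] with B hB
  refine hB.trans (le_of_eq ?_)
  ring

/-! ### the amplitudes -/

/-- the growth up to `k₁` beats the `J` crude steps -/
theorem ev_hJ {p : ℕ} (hp : 1 ≤ p) (k0 : ℕ) {u v δ q : ℝ} (hu : 0 < u) (hv : 0 < v)
    (hδ : 0 < δ) (hq : 1 ≤ q) :
    ∀ᶠ a in 𝓝[>] (0 : ℝ), q ^ (k2 p k0 v a - k1 p k0 u a) ≤ 1 + δ * k1 p k0 u a := by
  obtain ⟨J, hJ⟩ := exists_J (v := v) hu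
  have h1 : Tendsto (fun a : ℝ => 1 + δ * (k1 p k0 u a : ℝ)) (𝓝[>] 0) atTop := by
    refine tendsto_atTop_add_const_left _ _ ?_
    exact Tendsto.const_mul_atTop hδ (tendsto_natCast_atTop_atTop.comp (k1_tendsto hp k0 hu))
  filter_upwards [h1.eventually_ge_atTop (q ^ J), ev_div (M := (2 : ℝ) ^ (p * k0)) hv,
    self_mem_nhdsWithin] with a h2 h3 ha
  exact (pow_le_pow_right₀ hq (hJ p k0 hp a ha h3)).trans h2

/-- the amplitude of the last scale tends to infinity -/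
theorem aD_tendsto {p : ℕ} (hp : 1 ≤ p) (k0 : ℕ) {u v c A₀ δ q : ℝ} (huv : u ≤ v) (hc : 0 < c)
    (hA : 0 < A₀) (hδ : 0 < δ) (hq : 0 < q) :
    Tendsto (fun P : ℝ × ℝ => aD A₀ δ q (k1 p k0 u P.1) (k2 p k0 v P.1) (kf p k0 c P)) dl atTop := by
  have h1 : Tendsto (fun P : ℝ × ℝ => A₀ * δ * ((kf p k0 c P - k2 p k0 v P.1 : ℕ) : ℝ)) dl atTop :=
    Tendsto.const_mul_atTop (mul_pos hA hδ)
      (tendsto_natCast_atTop_atTop.comp (kf_sub_tendsto hp k0 hc _))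
  refine tendsto_atTop_mono' _ ?_ h1
  filter_upwards [k2_le_kf hp k0 hc v, ev_pos] with P h2 h3
  have := aD_tail (A₀ := A₀) (δ := δ) (q := q) (k1_le_k2 (p := p) (k0 := k0) h3 huv) hA.le hδ.le hq h2
  rwa [Nat.cast_sub h2]

/-- at the crude steps `ε q ^ k` is small -/
theorem small_k1 {p : ℕ} (hp : 1 ≤ p) (k0 : ℕ) {u : ℝ} (hu : 0 < u) {q : ENNReal} (hq : q < 1)
    {ε e : ENNReal} (hε : ε ≠ ⊤) (he : e ≠ 0) :
    ∀ᶠ a in 𝓝[>] (0 : ℝ), ∀ k, k1 p k0 u a ≤ k → ε * q ^ k ≤ e := by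
  have h1 : Tendsto (fun k : ℕ => ε * q ^ k) atTop (𝓝 (ε * 0)) :=
    ENNReal.Tendsto.const_mul (ENNReal.tendsto_pow_atTop_nhds_zero_of_lt_one hq) (Or.inr hε)
  rw [mul_zero] at h1
  have h2 : ∀ᶠ k : ℕ in atTop, ε * q ^ k ≤ e := h1.eventually (ge_mem_nhds (pos_iff_ne_zero.2 he))
  obtain ⟨N, hN⟩ := eventually_atTop.1 h2
  filter_upwards [(k1_tendsto hp k0 hu).eventually_ge_atTop N] with a ha k hk
  exact hN k (ha.trans hk)

end Crest.Agent.R165.DiscKx892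

end
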