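import Crest.Agent.R165.GDef_387

/-!
# Row 165 (S0250): elementary scale arithmetic for domains (helper900)

* `lastK p k0 R` : the last step `n` with `2^(p (k0 + n)) ≤ R`
* `lastK_le`, `lt_lastK`, `lastK_tendsto`
* `fd_mesh` : lattice distance of the meshes of distinct points is `≥ c / a`
-/

set_option autoImplicit false

noncomputable section

namespace Crest.Agent.R165.Scalex900

open Filter Topology
open Crest.ProbabilityR.IsingModel
open Crest.Agent.R165.GDefx387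

/-- the last step `n` with `2^(p (k0 + n)) ≤ R` -/
def lastK (p k0 : ℕ) (R : ℝ) : ℕ := Nat.log 2 ⌊R⌋₊ / p - k0

theorem lastK_le {p k0 : ℕ} {R : ℝ} (hR : (2 : ℝ) ^ (p * k0) ≤ R) :
    (2 : ℝ) ^ (p * (k0 + lastK p k0 R)) ≤ R := by
  have hR1 : (1 : ℝ) ≤ R := (one_le_pow₀ (by norm_num)).trans hR
  have hfl : ⌊R⌋₊ ≠ 0 := (Nat.floor_pos.2 hR1).ne'
  have h1 : 2 ^ (p * k0) ≤ ⌊R⌋₊ := Nat.le_floor (by push_cast; exact hR)
  have h2 : p * k0 ≤ Nat.log 2 ⌊R⌋₊ := Nat.le_log_of_pow_le (by norm_num) h1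
  have h3 : p * (k0 + lastK p k0 R) ≤ Nat.log 2 ⌊R⌋₊ := by
    unfold lastK
    by_cases hc : k0 ≤ Nat.log 2 ⌊R⌋₊ / p
    · rw [Nat.add_sub_cancel' hc]
      exact Nat.mul_div_le _ _
    · rw [Nat.sub_eq_zero_of_le (by omega), add_zero]
      exact h2
  have h4 : 2 ^ (p * (k0 + lastK p k0 R)) ≤ ⌊R⌋₊ :=
    (Nat.pow_le_pow_right (by norm_num) h3).trans (Nat.pow_log_le_self 2 hfl)
  calc (2 : ℝ) ^ (p * (k0 + lastK p k0 R)) = ((2 ^ (p * (k0 + lastK p k0 R)) : ℕ) : ℝ) := by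
        push_cast; rfl
    _ ≤ (⌊R⌋₊ : ℝ) := by exact_mod_cast h4
    _ ≤ R := Nat.floor_le (by linarith)

theorem lt_lastK {p k0 : ℕ} (hp : 1 ≤ p) (R : ℝ) :
    R < (2 : ℝ) ^ (p * (k0 + lastK p k0 R + 1)) := by
  have h1 : ⌊R⌋₊ < 2 ^ (Nat.log 2 ⌊R⌋₊ + 1) := Nat.lt_pow_succ_log_self (by norm_num) _
  have h2 : Nat.log 2 ⌊R⌋₊ + 1 ≤ p * (k0 + lastK p k0 R + 1) := by
    unfold lastK
    have h3 : Nat.log 2 ⌊R⌋₊ / p ≤ k0 + (Nat.log 2 ⌊R⌋₊ / p - k0) := by omega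
    have h4 : Nat.log 2 ⌊R⌋₊ < p * (Nat.log 2 ⌊R⌋₊ / p + 1) := by
      have := Nat.lt_mul_div_succ (Nat.log 2 ⌊R⌋₊) (show 0 < p by omega)
      exact this
    have h5 : p * (Nat.log 2 ⌊R⌋₊ / p + 1) ≤ p * (k0 + (Nat.log 2 ⌊R⌋₊ / p - k0) + 1) :=
      Nat.mul_le_mul_left _ (by omega)
    omega
  have h3 : R < (⌊R⌋₊ : ℝ) + 1 := Nat.lt_floor_add_one R
  have h4 : ((⌊R⌋₊ : ℝ) + 1) ≤ (2 : ℝ) ^ (p * (k0 + lastK p k0 R + 1)) := by
    have h5 : ⌊R⌋₊ + 1 ≤ 2 ^ (p * (k0 + lastK p k0 R + 1)) :=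
      (Nat.succ_le_of_lt h1).trans (Nat.pow_le_pow_right (by norm_num) h2)
    exact_mod_cast h5
  linarith

theorem lastK_tendsto {p : ℕ} (k0 : ℕ) : 1 ≤ p → ∀ {α : Type*} {l : Filter α} {R : α → ℝ},
    Tendsto R l atTop → Tendsto (fun a => lastK p k0 (R a)) l atTop := by
  intro hp α l R hR
  rw [tendsto_atTop]
  intro n
  filter_upwards [hR.eventually_ge_atTop ((2 : ℝ) ^ (p * (k0 + n)))] with a ha
  by_contra hcon
  have h1 := lt_lastK (k0 := k0) hp (R a)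
  have h2 : (2 : ℝ) ^ (p * (k0 + lastK p k0 (R a) + 1)) ≤ 2 ^ (p * (k0 + n)) :=
    pow_le_pow_right₀ (by norm_num) (Nat.mul_le_mul_left _ (by omega))
  linarith

theorem lastK_div_tendsto {p : ℕ} (hp : 1 ≤ p) (k0 : ℕ) {δ : ℝ} (hδ : 0 < δ) :
    Tendsto (fun a : ℝ => lastK p k0 (δ / a)) (𝓝[>] 0) atTop := by
  refine lastK_tendsto k0 hp ?_
  exact Tendsto.const_mul_atTop hδ tendsto_inv_nhdsGT_zero

/-! ### lattice distances -/

theorem fd_int (f g : ℤ × ℤ) : fd f g = max (f.1 - g.1).natAbs (f.2 - g.2).natAbs := rfl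

theorem floor_sub_ge {a u v : ℝ} (ha : 0 < a) :
    |u - v| / a - 1 ≤ ((⌊u / a⌋ - ⌊v / a⌋).natAbs : ℝ) := by
  have h1 := Int.floor_le (u / a)
  have h2 := Int.lt_floor_add_one (u / a)
  have h3 := Int.floor_le (v / a)
  have h4 := Int.lt_floor_add_one (v / a)
  have h5 : |u - v| / a = |u / a - v / a| := by
    rw [← sub_div, abs_div, abs_of_pos ha]
  have h6 : (((⌊u / a⌋ - ⌊v / a⌋).natAbs : ℕ) : ℝ) = |(⌊u / a⌋ : ℝ) - (⌊v / a⌋ : ℝ)| := by
    rw [Nat.cast_natAbs, Int.cast_abs, Int.cast_sub]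
  rw [h5, h6]
  have h7 : |u / a - v / a| ≤ |(⌊u / a⌋ : ℝ) - (⌊v / a⌋ : ℝ)| +
      |(u / a - ⌊u / a⌋) - (v / a - ⌊v / a⌋)| := by
    have := abs_add_le ((⌊u / a⌋ : ℝ) - (⌊v / a⌋ : ℝ)) ((u / a - ⌊u / a⌋) - (v / a - ⌊v / a⌋))
    refine le_trans (le_of_eq ?_) this
    congr 1; ring
  have h8 : |(u / a - ⌊u / a⌋) - (v / a - ⌊v / a⌋)| ≤ 1 := by
    rw [abs_le]; constructor <;> linarith
  linarith

theorem floor_sub_le {a u v : ℝ} (ha : 0 < a) :
    ((⌊u / a⌋ - ⌊v / a⌋).natAbs : ℝ) ≤ |u - v| / a + 1 := by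
  have h1 := Int.floor_le (u / a)
  have h2 := Int.lt_floor_add_one (u / a)
  have h3 := Int.floor_le (v / a)
  have h4 := Int.lt_floor_add_one (v / a)
  have h5 : |u - v| / a = |u / a - v / a| := by
    rw [← sub_div, abs_div, abs_of_pos ha]
  have h6 : (((⌊u / a⌋ - ⌊v / a⌋).natAbs : ℕ) : ℝ) = |(⌊u / a⌋ : ℝ) - (⌊v / a⌋ : ℝ)| := by
    rw [Nat.cast_natAbs, Int.cast_abs, Int.cast_sub]
  rw [h5, h6]
  have h7 : |(⌊u / a⌋ : ℝ) - (⌊v / a⌋ : ℝ)| ≤ |u / a - v / a| +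
      |(v / a - ⌊v / a⌋) - (u / a - ⌊u / a⌋)| := by
    have := abs_add_le (u / a - v / a) ((v / a - ⌊v / a⌋) - (u / a - ⌊u / a⌋))
    refine le_trans (le_of_eq ?_) this
    congr 1; ring
  have h8 : |(v / a - ⌊v / a⌋) - (u / a - ⌊u / a⌋)| ≤ 1 := by
    rw [abs_le]; constructor <;> linarith
  linarith

/-- sup distance in the plane -/
def sd (x y : ℂ) : ℝ := max |x.re - y.re| |x.im - y.im|

theorem sd_pos {x y : ℂ} (h : x ≠ y) : 0 < sd x y := by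
  unfold sd
  by_contra hcon
  rw [not_lt] at hcon
  have h1 : |x.re - y.re| ≤ 0 := (le_max_left _ _).trans hcon
  have h2 : |x.im - y.im| ≤ 0 := (le_max_right _ _).trans hcon
  exact h (Complex.ext (sub_eq_zero.1 (abs_nonpos_iff.1 h1)) (sub_eq_zero.1 (abs_nonpos_iff.1 h2)))

theorem fd_mesh_ge {a : ℝ} (ha : 0 < a) (x y : ℂ) :
    sd x y / a - 1 ≤ (fd (meshIndex a x) (meshIndex a y) : ℝ) := by
  rw [fd_int]
  unfold meshIndex sd
  push_cast
  rcases le_total |x.re - y.re| |x.im - y.im| with h | h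
  · rw [max_eq_right h]
    exact (floor_sub_ge ha).trans (by exact_mod_cast le_max_right _ _)
  · rw [max_eq_left h]
    exact (floor_sub_ge ha).trans (by exact_mod_cast le_max_left _ _)

theorem fd_mesh_le {a : ℝ} (ha : 0 < a) (x y : ℂ) :
    (fd (meshIndex a x) (meshIndex a y) : ℝ) ≤ sd x y / a + 1 := by
  rw [fd_int]
  unfold meshIndex sd
  push_cast
  refine max_le ?_ ?_
  · have h1 := floor_sub_le (u := x.re) (v := y.re) ha
    have h2 : |x.re - y.re| / a ≤ max |x.re - y.re| |x.im - y.im| / a := by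
      gcongr; exact le_max_left _ _
    have h3 : ((⌊x.re / a⌋ - ⌊y.re / a⌋).natAbs : ℝ) = |(⌊x.re / a⌋ : ℝ) - (⌊y.re / a⌋ : ℝ)| := by
      rw [Nat.cast_natAbs, Int.cast_abs, Int.cast_sub]
    have h4 := h1.trans (add_le_add_left h2 1)
    simpa using h4
  · have h1 := floor_sub_le (u := x.im) (v := y.im) ha
    have h2 : |x.im - y.im| / a ≤ max |x.re - y.re| |x.im - y.im| / a := by
      gcongr; exact le_max_right _ _
    have h4 := h1.trans (add_le_add_left h2 1)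
    simpa using h4

/-- distinct points are at lattice distance `≥ c / a` -/
theorem fd_mesh {n : ℕ} {x : Fin n → ℂ} (hx : Function.Injective x) :
    ∃ c > 0, ∀ᶠ a : ℝ in 𝓝[>] 0, ∀ i j, i ≠ j →
      c / a ≤ (fd (meshIndex a (x i)) (meshIndex a (x j)) : ℝ) := by
  classical
  have key : ∃ c > 0, ∀ i j, i ≠ j → c ≤ sd (x i) (x j) := by
    have hfin : ∀ p ∈ (Finset.univ : Finset (Fin n × Fin n)).filter (fun p => p.1 ≠ p.2),
        0 < sd (x p.1) (x p.2) := by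
      intro p hp
      exact sd_pos fun h => (Finset.mem_filter.1 hp).2 (hx h)
    rcases ((Finset.univ : Finset (Fin n × Fin n)).filter (fun p => p.1 ≠ p.2)).eq_empty_or_nonempty
      with he | hne
    · refine ⟨1, one_pos, fun i j hij => ?_⟩
      have : (i, j) ∈ ((Finset.univ : Finset (Fin n × Fin n)).filter (fun p => p.1 ≠ p.2)) :=
        Finset.mem_filter.2 ⟨Finset.mem_univ _, hij⟩
      rw [he] at this
      exact absurd this (Finset.notMem_empty _)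
    · obtain ⟨p, hp, hmin⟩ := Finset.exists_min_image _ (fun p : Fin n × Fin n =>
        sd (x p.1) (x p.2)) hne
      exact ⟨_, hfin p hp, fun i j hij => hmin (i, j) (Finset.mem_filter.2 ⟨Finset.mem_univ _, hij⟩)⟩
  obtain ⟨c, hc, h⟩ := key
  refine ⟨c / 2, by positivity, ?_⟩
  have hsmall : ∀ᶠ a : ℝ in 𝓝[>] 0, a ≤ c / 2 :=
    mem_of_superset (Ioc_mem_nhdsGT (by positivity : (0:ℝ) < c / 2)) fun a ha => ha.2
  filter_upwards [hsmall, self_mem_nhdsWithin] with a ha1 ha i j hij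
  have ha0 : (0 : ℝ) < a := ha
  refine le_trans ?_ (fd_mesh_ge ha0 (x i) (x j))
  have h1 : c / a ≤ sd (x i) (x j) / a := by gcongr; exact h i j hij
  have h2 : 1 ≤ c / 2 / a := by rw [le_div_iff₀ ha0]; linarith
  have h3 : c / a = c / 2 / a + c / 2 / a := by ring
  linarith

end Crest.Agent.R165.Scalex900
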