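import Crest.Agent.R165.Comp_889
import Crest.Agent.R165.Scale_900
import Crest.Agent.R165.GSys_387

/-!
# Row 165 (S0250), large discs: the three phases (helper892)

* `aD A₀ δ q K₁ K₂` : the amplitudes: `A₀ (1 + δ k)` up to `K₁`, divided by `q` in every step from
  `K₁` to `K₂`, increments `A₀ δ` after `K₂` (decision D19)
* `Ph K₁ K₂ k` : `k` is not a crude step
* `lastK_gap` : the number of crude steps is bounded
-/

set_option autoImplicit false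

noncomputable section

open Filter Topology

namespace Crest.Agent.R165.DiscPhx892

open Crest.Agent.R165.Compx889 Crest.Agent.R165.Scalex900

/-- the amplitudes of a large disc -/
def aD (A₀ δ q : ℝ) (K₁ K₂ k : ℕ) : ℝ :=
  amp A₀ δ (min k K₁) / q ^ (min k K₂ - K₁) + A₀ * δ * ((k - K₂ : ℕ) : ℝ)

variable {A₀ δ q : ℝ} {K₁ K₂ : ℕ}

theorem aD_fine (h12 : K₁ ≤ K₂) {k : ℕ} (hk : k ≤ K₁) : aD A₀ δ q K₁ K₂ k = amp A₀ δ k := by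
  unfold aD
  rw [min_eq_left hk, min_eq_left (hk.trans h12), Nat.sub_eq_zero_of_le hk,
    Nat.sub_eq_zero_of_le (hk.trans h12)]
  simp

theorem aD_mid {k : ℕ} (hk : K₁ ≤ k) (hk2 : k ≤ K₂) :
    aD A₀ δ q K₁ K₂ k = amp A₀ δ K₁ / q ^ (k - K₁) := by
  unfold aD
  rw [min_eq_right hk, min_eq_left hk2, Nat.sub_eq_zero_of_le hk2]
  simp

theorem aD_coarse (h12 : K₁ ≤ K₂) {k : ℕ} (hk : K₂ ≤ k) :
    aD A₀ δ q K₁ K₂ k = amp A₀ δ K₁ / q ^ (K₂ - K₁) + A₀ * δ * ((k : ℝ) - K₂) := by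
  unfold aD
  rw [min_eq_right (h12.trans hk), min_eq_right hk, Nat.cast_sub hk]

theorem aD_crude {k : ℕ} (hq : 0 < q) (hk : K₁ ≤ k) (hk2 : k < K₂) :
    aD A₀ δ q K₁ K₂ (k + 1) = aD A₀ δ q K₁ K₂ k / q := by
  rw [aD_mid (by omega) hk2, aD_mid hk hk2.le, Nat.succ_sub hk, pow_succ]
  field_simp

/-- all amplitudes are `≥ A₀` -/
theorem aD_ge (h12 : K₁ ≤ K₂) (hA : 0 ≤ A₀) (hδ : 0 ≤ δ) (hq : 1 ≤ q)
    (hJ : q ^ (K₂ - K₁) ≤ 1 + δ * K₁) (k : ℕ) : A₀ ≤ aD A₀ δ q K₁ K₂ k := by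
  rcases le_total k K₁ with hk | hk
  · rw [aD_fine h12 hk]
    exact amp_ge hA hδ k
  · have h1 : A₀ ≤ amp A₀ δ K₁ / q ^ (min k K₂ - K₁) := by
      have hq0 : (0 : ℝ) < q ^ (min k K₂ - K₁) := by positivity
      rw [le_div_iff₀ hq0]
      unfold amp
      refine mul_le_mul_of_nonneg_left (le_trans ?_ hJ) hA
      exact pow_le_pow_right₀ hq (by omega)
    unfold aD
    rw [min_eq_right hk]
    have h2 : 0 ≤ A₀ * δ * ((k - K₂ : ℕ) : ℝ) := by positivity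
    linarith

/-- all amplitudes are below the growing ones -/
theorem aD_le (h12 : K₁ ≤ K₂) (hA : 0 ≤ A₀) (hδ : 0 ≤ δ) (hq : 1 ≤ q) (k : ℕ) :
    aD A₀ δ q K₁ K₂ k ≤ amp A₀ δ k := by
  unfold aD
  have h1 : amp A₀ δ (min k K₁) / q ^ (min k K₂ - K₁) ≤ amp A₀ δ (min k K₁) := by
    refine div_le_self ?_ (one_le_pow₀ hq)
    exact hA.trans (amp_ge hA hδ _)
  have h2 : (((min k K₁ : ℕ)) : ℝ) + ((k - K₂ : ℕ) : ℝ) ≤ k := by
    have : min k K₁ + (k - K₂) ≤ k := by omega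
    exact_mod_cast this
  calc amp A₀ δ (min k K₁) / q ^ (min k K₂ - K₁) + A₀ * δ * ((k - K₂ : ℕ) : ℝ)
      ≤ amp A₀ δ (min k K₁) + A₀ * δ * ((k - K₂ : ℕ) : ℝ) := by linarith
    _ = A₀ + A₀ * δ * (((min k K₁ : ℕ) : ℝ) + ((k - K₂ : ℕ) : ℝ)) := by unfold amp; ring
    _ ≤ A₀ + A₀ * δ * k := by
        have := mul_le_mul_of_nonneg_left h2 (mul_nonneg hA hδ)
        linarith
    _ = amp A₀ δ k := by unfold amp; ring

theorem aD_mono_coarse (h12 : K₁ ≤ K₂) (hA : 0 ≤ A₀) (hδ : 0 ≤ δ) {k : ℕ} (hk : K₂ ≤ k) :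
    aD A₀ δ q K₁ K₂ k ≤ aD A₀ δ q K₁ K₂ (k + 1) := by
  rw [aD_coarse h12 hk, aD_coarse h12 (by omega)]
  push_cast
  nlinarith [mul_nonneg hA hδ]

theorem aD_succ_coarse (h12 : K₁ ≤ K₂) (hA : 0 ≤ A₀) (hδ : 0 ≤ δ) (hq : 1 ≤ q)
    (hJ : q ^ (K₂ - K₁) ≤ 1 + δ * K₁) {k : ℕ} (hk : K₂ ≤ k) :
    aD A₀ δ q K₁ K₂ (k + 1) ≤ (1 + δ) * aD A₀ δ q K₁ K₂ k := by
  have h1 := aD_ge h12 hA hδ hq hJ k
  have h2 : aD A₀ δ q K₁ K₂ (k + 1) = aD A₀ δ q K₁ K₂ k + A₀ * δ := by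
    rw [aD_coarse h12 hk, aD_coarse h12 (by omega)]
    push_cast
    ring
  rw [h2]
  nlinarith

/-- outside the crude steps the amplitudes grow by a factor between `1` and `1 + δ` -/
theorem aD_step (h12 : K₁ ≤ K₂) (hA : 0 ≤ A₀) (hδ : 0 ≤ δ) (hq : 1 ≤ q)
    (hJ : q ^ (K₂ - K₁) ≤ 1 + δ * K₁) {k : ℕ} (hk : k < K₁ ∨ K₂ ≤ k) :
    aD A₀ δ q K₁ K₂ k ≤ aD A₀ δ q K₁ K₂ (k + 1) ∧
      aD A₀ δ q K₁ K₂ (k + 1) ≤ (1 + δ) * aD A₀ δ q K₁ K₂ k := by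
  rcases hk with hk | hk
  · rw [aD_fine h12 hk.le, aD_fine h12 hk]
    exact ⟨amp_mono hA hδ k, amp_succ_le hA hδ k⟩
  · exact ⟨aD_mono_coarse h12 hA hδ hk, aD_succ_coarse h12 hA hδ hq hJ hk⟩

theorem aD_tail (h12 : K₁ ≤ K₂) (hA : 0 ≤ A₀) (hδ : 0 ≤ δ) (hq : 0 < q) {k : ℕ} (hk : K₂ ≤ k) :
    A₀ * δ * ((k : ℝ) - K₂) ≤ aD A₀ δ q K₁ K₂ k := by
  rw [aD_coarse h12 hk]
  have : 0 ≤ amp A₀ δ K₁ / q ^ (K₂ - K₁) :=
    div_nonneg (hA.trans (amp_ge hA hδ _)) (by positivity)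
  linarith

/-! ### the crude steps -/

/-- the steps that are not crude -/
def Ph (K₁ K₂ k : ℕ) : Prop := k < K₁ ∨ K₂ ≤ k

theorem not_Ph {K₁ K₂ k : ℕ} : ¬ Ph K₁ K₂ k ↔ K₁ ≤ k ∧ k < K₂ := by
  unfold Ph; omega

theorem cr_Ph (K₁ K₂ K : ℕ) : cr (Ph K₁ K₂) K ≤ K₂ - K₁ := by
  classical
  unfold cr
  have h : (Finset.range K).filter (fun i => ¬ Ph K₁ K₂ i) ⊆ Finset.Ico K₁ K₂ := by
    intro i hi
    rw [Finset.mem_filter, not_Ph] at hi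
    exact Finset.mem_Ico.2 hi.2
  have h2 := Finset.card_le_card h
  rw [Nat.card_Ico] at h2
  convert h2

theorem Ph_of_lt {K₁ K₂ k : ℕ} (h : k < K₁) : ∀ i, i ≤ k → Ph K₁ K₂ i := fun _ hi =>
  Or.inl (hi.trans_lt h)

/-- the number of steps between the scales `u` and `v` is bounded by the ratio `v / u` -/
theorem lastK_gap {p k0 : ℕ} (hp : 1 ≤ p) {u v : ℝ} {m : ℕ}
    (hv0 : (2 : ℝ) ^ (p * k0) ≤ v) (h : v ≤ 2 ^ m * u) :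
    lastK p k0 v ≤ lastK p k0 u + (m + 1) := by
  have h1 := lt_lastK (k0 := k0) hp u
  have h2 := lastK_le hv0
  by_contra hcon
  rw [not_le] at hcon
  have h3 : (2 : ℝ) ^ (p * (k0 + lastK p k0 v)) < 2 ^ m * 2 ^ (p * (k0 + lastK p k0 u + 1)) := by
    calc (2 : ℝ) ^ (p * (k0 + lastK p k0 v)) ≤ v := h2
      _ ≤ 2 ^ m * u := h
      _ < _ := by gcongr
  rw [← pow_add] at h3
  have h4 := (pow_lt_pow_iff_right₀ (by norm_num : (1 : ℝ) < 2)).1 h3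
  have h5 : p * (k0 + lastK p k0 u + 1) + p * (m + 1) ≤ p * (k0 + lastK p k0 v) := by
    rw [← mul_add]
    exact Nat.mul_le_mul_left _ (by omega)
  have h6 : m + 1 ≤ p * (m + 1) := Nat.le_mul_of_pos_left _ hp
  omega

theorem lastK_mono {p k0 : ℕ} {u v : ℝ} (h : u ≤ v) : lastK p k0 u ≤ lastK p k0 v := by
  unfold lastK
  exact Nat.sub_le_sub_right (Nat.div_le_div_right (Nat.log_mono_right (Nat.floor_le_floor h))) _

end Crest.Agent.R165.DiscPhx892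

end
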