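import Crest.Agent.R165.Spin_930

/-!
# Row 165, block F: all scales up to the final one (helper892)

* `coarse_scale` : at the scales `K(a) ≤ k` (the insertions form a cluster) only the polymers which
  do not avoid some insertion contribute: `|∑_U (c1 U - c2 U)| ≤ 4 n A E`
* `limit_all` : `∑_{k < Kf} ∑_U (c1 - c2) → n ∑ ζ_k` for any `Kf ≥ K`
* `ratio_limit` : the ratio of the two partition functions tends to `exp (n ∑ ζ_k)`
* `source_limit` : constants of one local source: `∑_{k < Kf} ∑_U s_k^B(U) → ∑_k ∑_U s_k^P(U)`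
-/

set_option autoImplicit false

noncomputable section

namespace Crest.Agent.R165.Discx892

open Finset Filter Topology
open scoped ENNReal
open Crest.Agent.R165.Packx915 Crest.Agent.R165.NSumx915 Crest.Agent.R165.Spinx930

variable {X : Type*} {d : X → X → ℕ} {r R : ℕ} {Γ : ℝ≥0∞}

/-- the hypotheses at a coarse scale -/
structure SC {ι : Type*} (d : X → X → ℕ) (r R R' : ℕ) (Γ ε : ℝ≥0∞) (x : ι → X)
    (c1 c2 : Finset X → ℝ) : Prop where
  ε1 : NN d r Γ (fun U => ENNReal.ofReal |c1 U|) ≤ ε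
  ε2 : NN d r Γ (fun U => ENNReal.ofReal |c2 U|) ≤ ε
  conn12 : ∀ U, (c1 U ≠ 0 ∨ c2 U ≠ 0) → U.Nonempty ∧ Conn d R U
  h4 : ∀ U, (∀ i, Avoids d R' (x i) U) → c1 U = c2 U

theorem SD.toSC {ι : Type*} {R' ρ : ℕ} {ε : ℝ≥0∞} {x : ι → X} {c1 c2 cP : Finset X → ℝ}
    {cB : ι → Finset X → ℝ} (h : SD d r R R' ρ Γ ε x c1 c2 cP cB) :
    SC d r R R' Γ ε x c1 c2 := ⟨h.ε1, h.ε2, h.conn12, h.h4⟩

/-- **coarse scales** -/
theorem SC.bound {ι : Type*} [Fintype ι] (hd : PD d) (hΓ4 : 4 ≤ Γ) (hΓt : Γ ≠ ∞) {R' : ℕ}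
    {cn : ℕ → ℕ} {A : ℕ} (hcn : ∀ m, cn m ≤ A * 2 ^ m) {x : ι → X}
    (hcov : ∀ m, Cov d ((R + r + 1) * m + R') r (cn m)) {E : ℝ} (hE : 0 ≤ E)
    {c1 c2 : Finset X → ℝ} (h : SC d r R R' Γ (ENNReal.ofReal E) x c1 c2) :
    Summable (fun U => c1 U - c2 U) ∧
      |∑' U, (c1 U - c2 U)| ≤ 4 * Fintype.card ι * A * E := by
  classical
  have hΓ0 : Γ ≠ 0 := fun h0 => by
    rw [h0] at hΓ4
    exact absurd hΓ4 (by norm_num)
  have ht : tail cn Γ 0 ≤ 2 * A := by
    have := tail_le hcn hΓ4 0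
    rwa [pow_zero, mul_one] at this
  let a : ι → Finset X → ℝ≥0∞ := fun i U =>
    if Avoids d R' (x i) U then 0 else ENNReal.ofReal |c1 U - c2 U|
  have hea : ∀ U, ENNReal.ofReal |c1 U - c2 U| ≤ ∑ i, a i U := by
    intro U
    by_cases h0 : c1 U - c2 U = 0
    · rw [h0, abs_zero, ENNReal.ofReal_zero]; exact zero_le
    · have h1 : ∃ i, ¬ Avoids d R' (x i) U := by
        by_contra hcon
        push Not at hcon
        exact h0 (sub_eq_zero.2 (h.h4 U hcon))
      obtain ⟨i, hi⟩ := h1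
      refine le_trans ?_ (Finset.single_le_sum (f := fun i => a i U) (fun _ _ => zero_le)
        (Finset.mem_univ i))
      simp only [a, if_neg hi]
      exact le_rfl
  have hai : ∀ i, ∑' U, a i U ≤ 2 * ENNReal.ofReal E * (2 * A) := by
    intro i
    refine (sum_le_tail hd hΓ0 hΓt (x i) hcov _ (m0 := 0) ?_).trans ?_
    · intro U hU
      have hav : ¬ Avoids d R' (x i) U := by
        intro h
        apply hU
        simp only [a, if_pos h]
      have h0 : c1 U - c2 U ≠ 0 := by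
        intro h
        apply hU
        simp only [a, if_neg hav, h, abs_zero, ENNReal.ofReal_zero]
      have h2 : c1 U ≠ 0 ∨ c2 U ≠ 0 := by
        by_contra hcon
        push Not at hcon
        exact h0 (by rw [hcon.1, hcon.2, sub_zero])
      have hcc := h.conn12 U h2
      exact ⟨hcc.1, hcc.2, hav, Nat.zero_le _⟩
    · refine mul_le_mul' ?_ ht
      refine (NN_mono (b := fun U => ENNReal.ofReal |c1 U - c2 U|) fun U => ?_).trans
        ((NN_sub_le _ _).trans ?_)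
      · by_cases h : Avoids d R' (x i) U
        · simp only [a, if_pos h]; exact zero_le
        · simp only [a, if_neg h]
          exact le_rfl
      · rw [two_mul]
        exact add_le_add h.ε1 h.ε2
  have hfin : (Fintype.card ι : ℝ≥0∞) * (2 * ENNReal.ofReal E * (2 * A)) ≠ ∞ :=
    ENNReal.mul_ne_top (by simp) (ENNReal.mul_ne_top (ENNReal.mul_ne_top (by simp)
      ENNReal.ofReal_ne_top) (ENNReal.mul_ne_top (by simp) (by simp)))
  obtain ⟨h1, h2⟩ := summable_of_le (f := fun U => c1 U - c2 U) hfin (by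
    refine (ENNReal.tsum_le_tsum hea).trans ?_
    rw [Summable.tsum_finsetSum fun _ _ => ENNReal.summable]
    refine (Finset.sum_le_sum fun i _ => hai i).trans ?_
    rw [Finset.sum_const, nsmul_eq_mul, Finset.card_univ])
  refine ⟨h1, ?_⟩
  have h3 : (Fintype.card ι : ℝ≥0∞) * (2 * ENNReal.ofReal E * (2 * A)) =
      ENNReal.ofReal (4 * Fintype.card ι * A * E) := by
    rw [ENNReal.ofReal_mul (by positivity), ENNReal.ofReal_mul (by positivity),
      ENNReal.ofReal_mul (by positivity)]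
    simp only [ENNReal.ofReal_natCast, ENNReal.ofReal_ofNat]
    ring
  rw [h3] at h2
  exact (ENNReal.ofReal_le_ofReal_iff (by positivity)).1 h2

/-- **all scales**: fine scales `k < K a` as in `Spinx930.limit`, coarse scales
`K a ≤ k < Kf a` -/
theorem limit_all {ι α : Type*} [Fintype ι] (hd : PD d) (hΓ4 : 4 ≤ Γ) (hΓt : Γ ≠ ∞)
    {l : Filter α} {K Kf ρ : α → ℕ} (hK : Tendsto K l atTop) (hρ : Tendsto ρ l atTop)
    (hKf : ∀ᶠ a in l, K a ≤ Kf a)
    {r R R' : ℕ → ℕ} {cn : ℕ → ℕ → ℕ} {A : ℕ} (hcn : ∀ k m, cn k m ≤ A * 2 ^ m)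
    (hcov : ∀ k m, Cov d ((R k + r k + 1) * m + R' k) (r k) (cn k m))
    {E : ℕ → ℝ} (hE0 : ∀ k, 0 ≤ E k) (hE : Summable E)
    (x : α → ι → X) (c1 c2 : α → ℕ → Finset X → ℝ) (cB : α → ℕ → ι → Finset X → ℝ)
    (cP : ℕ → Finset X → ℝ)
    (h : ∀ᶠ a in l, ∀ k < K a, SD d (r k) (R k) (R' k) (ρ a) Γ (ENNReal.ofReal (E k)) (x a)
      (c1 a k) (c2 a k) (cP k) (cB a k))
    (hc : ∀ᶠ a in l, ∀ k < Kf a, K a ≤ k →
      SC d (r k) (R k) (R' k) Γ (ENNReal.ofReal (E k)) (x a) (c1 a k) (c2 a k))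
    {ζ : ℕ → ℝ} (hζ : Summable ζ)
    (hz : ∀ᶠ a in l, ∀ k < K a, ∀ i, ∑' U, (cB a k i U - cP k U) = ζ k) :
    Tendsto (fun a => ∑ k ∈ Finset.range (Kf a), ∑' U, (c1 a k U - c2 a k U)) l
      (𝓝 (Fintype.card ι * ∑' k, ζ k)) := by
  classical
  have h1 := Spinx930.limit hd hΓ4 hΓt hK hρ hcn hcov hE0 hE x c1 c2 cB cP h hζ hz
  have h2 : Tendsto (fun a => ∑ k ∈ Finset.Ico (K a) (Kf a), ∑' U, (c1 a k U - c2 a k U)) l
      (𝓝 0) := by
    have hmaj : Tendsto (fun a => 4 * Fintype.card ι * A * ∑' k, E (k + K a)) l (𝓝 0) := by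
      have := ((tendsto_sum_nat_add E).comp hK).const_mul (4 * (Fintype.card ι : ℝ) * A)
      simpa using this
    refine squeeze_zero_norm' ?_ hmaj
    filter_upwards [hc] with a ha
    rw [Real.norm_eq_abs]
    refine (Finset.abs_sum_le_sum_abs _ _).trans ?_
    have h3 : ∀ k ∈ Finset.Ico (K a) (Kf a), |∑' U, (c1 a k U - c2 a k U)| ≤
        4 * Fintype.card ι * A * E k := by
      intro k hk
      rw [Finset.mem_Ico] at hk
      exact ((ha k hk.2 hk.1).bound hd hΓ4 hΓt (hcn k) (hcov k) (hE0 k)).2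
    refine (Finset.sum_le_sum h3).trans ?_
    rw [← Finset.mul_sum]
    refine mul_le_mul_of_nonneg_left ?_ (by positivity)
    rw [Finset.sum_Ico_eq_sum_range]
    have hs : Summable fun k => E (k + K a) := (summable_nat_add_iff (K a)).2 hE
    have h4 : ∑ k ∈ Finset.range (Kf a - K a), E (K a + k) =
        ∑ k ∈ Finset.range (Kf a - K a), E (k + K a) :=
      Finset.sum_congr rfl fun k _ => by rw [add_comm]
    rw [h4]
    exact hs.sum_le_tsum _ fun k _ => hE0 _
  have h3 := h1.add h2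
  rw [add_zero] at h3
  refine h3.congr' ?_
  filter_upwards [hKf] with a ha
  rw [Finset.sum_range_add_sum_Ico _ ha]

/-- **ratio of the partition functions** with and without insertions -/
theorem ratio_limit {α : Type*} {l : Filter α} {g1 g2 s1 s2 e1 e2 : α → ℝ} {z : ℝ}
    (h1 : ∀ᶠ a in l, g1 a = Real.exp (s1 a) * e1 a) (h2 : ∀ᶠ a in l, g2 a = Real.exp (s2 a) * e2 a)
    (he1 : Tendsto e1 l (𝓝 1)) (he2 : Tendsto e2 l (𝓝 1))
    (hs : Tendsto (fun a => s1 a - s2 a) l (𝓝 z)) :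
    Tendsto (fun a => g1 a / g2 a) l (𝓝 (Real.exp z)) := by
  have h3 : Tendsto (fun a => Real.exp (s1 a - s2 a) * (e1 a / e2 a)) l
      (𝓝 (Real.exp z * (1 / 1))) :=
    ((Real.continuous_exp.tendsto z).comp hs).mul (he1.div he2 one_ne_zero)
  rw [div_one, mul_one] at h3
  refine h3.congr' ?_
  filter_upwards [h1, h2] with a ha1 ha2
  rw [ha1, ha2, Real.exp_sub]
  ring

/-! ### one local source -/

/-- the hypotheses at one scale for the constants of a local source at `y` -/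
structure SS (d : X → X → ℕ) (r R ρ : ℕ) (Γ ε : ℝ≥0∞) (y : X) (s sP : Finset X → ℝ) : Prop where
  ε1 : NN d r Γ (fun U => ENNReal.ofReal |s U|) ≤ ε
  εP : NN d r Γ (fun U => ENNReal.ofReal |sP U|) ≤ ε
  conn : ∀ U, (s U ≠ 0 ∨ sP U ≠ 0) → (∃ u ∈ U, d y u ≤ r) ∧ Conn d R U
  eq : ∀ U, (∀ u ∈ U, d y u ≤ ρ) → s U = sP U

/-- size of the source constants -/
theorem SS.size {ρ : ℕ} {E : ℝ} (hE : 0 ≤ E) (hΓ1 : 1 ≤ Γ) {y : X} {s sP : Finset X → ℝ}
    (h : SS d r R ρ Γ (ENNReal.ofReal E) y s sP) :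
    Summable s ∧ Summable sP ∧ |∑' U, s U| ≤ E ∧ |∑' U, sP U| ≤ E := by
  have key : ∀ c : Finset X → ℝ, NN d r Γ (fun U => ENNReal.ofReal |c U|) ≤ ENNReal.ofReal E →
      (∀ U, c U ≠ 0 → ∃ u ∈ U, d y u ≤ r) → Summable c ∧ |∑' U, c U| ≤ E := by
    intro c hc hn
    have h1 : ∑' U, ENNReal.ofReal |c U| ≤ ENNReal.ofReal E := by
      refine le_trans (ENNReal.tsum_le_tsum fun U => ?_) ((bs_le_NN _ y).trans hc)
      by_cases h0 : c U = 0
      · rw [h0, abs_zero, ENNReal.ofReal_zero]; exact zero_le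
      · have hmem : U ∈ {U : Finset X | near d r y U} := hn U h0
        rw [Set.indicator_of_mem hmem]
        calc ENNReal.ofReal |c U| = 1 * ENNReal.ofReal |c U| := (one_mul _).symm
          _ ≤ Γ ^ pack d r U * ENNReal.ofReal |c U| := by
              gcongr
              exact one_le_pow₀ hΓ1
    obtain ⟨h2, h3⟩ := summable_of_le ENNReal.ofReal_ne_top h1
    exact ⟨h2, (ENNReal.ofReal_le_ofReal_iff hE).1 h3⟩
  obtain ⟨a1, a2⟩ := key s h.ε1 fun U hU => (h.conn U (Or.inl hU)).1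
  obtain ⟨b1, b2⟩ := key sP h.εP fun U hU => (h.conn U (Or.inr hU)).1
  exact ⟨a1, b1, a2, b2⟩

/-- far sets carry a small weight -/
theorem SS.err (hd : PD d) {ρ m0 : ℕ} {E : ℝ} (hE : 0 ≤ E) (hΓ2 : 2 ≤ Γ) (hΓt : Γ ≠ ∞) {y : X}
    {s sP : Finset X → ℝ} (h : SS d r R ρ Γ (ENNReal.ofReal E) y s sP)
    (hm : (R + r + 1) * m0 + r ≤ ρ) :
    |∑' U, s U - ∑' U, sP U| ≤ 2 * E * (1 / 2) ^ m0 := by
  have hΓ1 : 1 ≤ Γ := le_trans (by norm_num) hΓ2
  have hΓ0 : Γ ≠ 0 := fun h0 => by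
    rw [h0] at hΓ2
    exact absurd hΓ2 (by norm_num)
  obtain ⟨a1, b1, -, -⟩ := h.size hE hΓ1
  rw [← a1.tsum_sub b1]
  have hbig : ∀ U, s U ≠ sP U → near d r y U ∧ m0 ≤ pack d r U := by
    intro U hU
    have h2 : s U ≠ 0 ∨ sP U ≠ 0 := by
      by_contra hcon
      push Not at hcon
      exact hU (hcon.1.trans hcon.2.symm)
    obtain ⟨⟨u, hu, hyu⟩, hc⟩ := h.conn U h2
    refine ⟨⟨u, hu, hyu⟩, ?_⟩
    by_contra hcon
    rw [not_le] at hcon
    refine hU (h.eq U fun v hv => ?_)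
    have h3 := diam_lt (r := r) hd hc hu hv
    have h4 := hd.tri y u v
    have h5 : (R + r + 1) * pack d r U ≤ (R + r + 1) * m0 := Nat.mul_le_mul_left _ hcon.le
    omega
  have h1 : ∑' U, ENNReal.ofReal |s U - sP U| ≤ ENNReal.ofReal (2 * E * (1 / 2) ^ m0) := by
    have h2 : ∀ U, ENNReal.ofReal |s U - sP U| ≤ Γ⁻¹ ^ m0 *
        Set.indicator {U | near d r y U} (fun U => Γ ^ pack d r U *
          ENNReal.ofReal |s U - sP U|) U := by
      intro U
      by_cases h0 : s U = sP U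
      · rw [h0, sub_self, abs_zero, ENNReal.ofReal_zero]; exact zero_le
      · obtain ⟨hn, hp⟩ := hbig U h0
        have hmem : U ∈ {U : Finset X | near d r y U} := hn
        rw [Set.indicator_of_mem hmem, ← mul_assoc]
        calc ENNReal.ofReal |s U - sP U| = 1 * ENNReal.ofReal |s U - sP U| := (one_mul _).symm
          _ ≤ Γ⁻¹ ^ m0 * Γ ^ pack d r U * ENNReal.ofReal |s U - sP U| := by
              gcongr
              calc (1 : ℝ≥0∞) = Γ⁻¹ ^ m0 * Γ ^ m0 := by
                    rw [← mul_pow, ENNReal.inv_mul_cancel hΓ0 hΓt, one_pow]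
                _ ≤ Γ⁻¹ ^ m0 * Γ ^ pack d r U := by
                    gcongr
    refine (ENNReal.tsum_le_tsum h2).trans ?_
    rw [ENNReal.tsum_mul_left]
    have h3 : (∑' U : Finset X, Set.indicator {U | near d r y U} (fun U => Γ ^ pack d r U *
        ENNReal.ofReal |s U - sP U|) U) ≤ 2 * ENNReal.ofReal E := by
      refine (bs_le_NN (d := d) (r := r) (Γ := Γ)
        (fun U => ENNReal.ofReal |s U - sP U|) y).trans ?_
      refine (NN_sub_le s sP).trans ?_
      rw [two_mul]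
      exact add_le_add h.ε1 h.εP
    have h4 : Γ⁻¹ ^ m0 ≤ ENNReal.ofReal ((1 / 2) ^ m0) := by
      have h5 : ENNReal.ofReal ((1 / 2 : ℝ) ^ m0) = (2⁻¹ : ℝ≥0∞) ^ m0 := by
        rw [ENNReal.ofReal_pow (by norm_num)]
        congr 1
        rw [one_div, ENNReal.ofReal_inv_of_pos (by norm_num)]
        simp
      rw [h5]
      exact pow_le_pow_left' (ENNReal.inv_le_inv.2 hΓ2) m0
    calc Γ⁻¹ ^ m0 * _ ≤ ENNReal.ofReal ((1 / 2) ^ m0) * (2 * ENNReal.ofReal E) :=
          mul_le_mul' h4 h3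
      _ = ENNReal.ofReal (2 * E * (1 / 2) ^ m0) := by
          rw [ENNReal.ofReal_mul (by positivity), ENNReal.ofReal_mul (by positivity)]
          simp only [ENNReal.ofReal_ofNat]
          ring
  obtain ⟨-, h5⟩ := summable_of_le ENNReal.ofReal_ne_top h1
  exact (ENNReal.ofReal_le_ofReal_iff (by positivity)).1 h5

/-- **sum of the source constants over all scales**: the limit is the plane value.
`α` = parameter (radius of the disc, side of the torus). -/
theorem source_limit {α : Type*} (hd : PD d) (hΓ2 : 2 ≤ Γ) (hΓt : Γ ≠ ∞)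
    {l : Filter α} [l.NeBot] {Kf ρ : α → ℕ} (hK : Tendsto Kf l atTop) (hρ : Tendsto ρ l atTop)
    {r R : ℕ → ℕ} {E : ℕ → ℝ} (hE0 : ∀ k, 0 ≤ E k) (hE : Summable E)
    (y : X) (s : α → ℕ → Finset X → ℝ) (sP : ℕ → Finset X → ℝ)
    (h : ∀ᶠ a in l, ∀ k < Kf a, SS d (r k) (R k) (ρ a) Γ (ENNReal.ofReal (E k)) y (s a k) (sP k)) :
    Summable (fun k => ∑' U, sP k U) ∧
      Tendsto (fun a => ∑ k ∈ Finset.range (Kf a), ∑' U, s a k U) l
        (𝓝 (∑' k, ∑' U, sP k U)) := by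
  classical
  have hΓ1 : 1 ≤ Γ := le_trans (by norm_num) hΓ2
  have hPb : ∀ k, |∑' U, sP k U| ≤ E k := by
    intro k
    obtain ⟨a, ha, hka⟩ := (h.and (hK.eventually_gt_atTop k)).exists
    exact ((ha k hka).size (hE0 k) hΓ1).2.2.2
  have hPs : Summable (fun k => ∑' U, sP k U) :=
    Summable.of_norm_bounded hE fun k => by rw [Real.norm_eq_abs]; exact hPb k
  refine ⟨hPs, ?_⟩
  let err : α → ℕ → ℝ := fun a k => if k < Kf a then
    ∑' U, s a k U - ∑' U, sP k U else 0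
  have hfirst : Tendsto (fun a => ∑ k ∈ Finset.range (Kf a), ∑' U, sP k U) l
      (𝓝 (∑' k, ∑' U, sP k U)) := hPs.hasSum.tendsto_sum_nat.comp hK
  -- the pointwise limit
  have hpt : ∀ k, Tendsto (fun a => err a k) l (𝓝 0) := by
    intro k
    have hpow : Tendsto (fun a => 2 * E k * (1 / 2 : ℝ) ^ ((ρ a - r k) / (R k + r k + 1))) l
        (𝓝 0) := by
      have h1 : Tendsto (fun a => (ρ a - r k) / (R k + r k + 1)) l atTop := by
        rw [tendsto_atTop]
        intro b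
        filter_upwards [hρ.eventually_ge_atTop (b * (R k + r k + 1) + r k)] with a ha
        rw [Nat.le_div_iff_mul_le (by omega)]
        omega
      have h2 := ((tendsto_pow_atTop_nhds_zero_of_lt_one (r := (1 / 2 : ℝ)) (by norm_num)
        (by norm_num)).comp h1).const_mul (2 * E k)
      rwa [mul_zero] at h2
    refine squeeze_zero_norm' ?_ hpow
    filter_upwards [h, hρ.eventually_ge_atTop (r k)] with a ha hρa
    by_cases hk : k < Kf a
    · simp only [err, if_pos hk, Real.norm_eq_abs]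
      refine (ha k hk).err hd (hE0 k) hΓ2 hΓt ?_
      have h1 : (R k + r k + 1) * ((ρ a - r k) / (R k + r k + 1)) ≤ ρ a - r k :=
        Nat.mul_div_le _ _
      omega
    · simp only [err, if_neg hk, norm_zero]
      have := hE0 k
      positivity
  have hsecond : Tendsto (fun a => ∑' k, err a k) l (𝓝 (∑' _ : ℕ, (0 : ℝ))) := by
    refine tendsto_tsum_of_dominated_convergence (bound := fun k => 2 * E k) (hE.mul_left _) hpt ?_
    filter_upwards [h] with a ha k
    by_cases hk : k < Kf a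
    · simp only [err, if_pos hk, Real.norm_eq_abs]
      obtain ⟨-, -, h1, h2⟩ := (ha k hk).size (hE0 k) hΓ1
      refine (abs_sub _ _).trans ?_
      linarith
    · simp only [err, if_neg hk, norm_zero]
      have := hE0 k
      positivity
  rw [tsum_zero] at hsecond
  have hsum := hfirst.add hsecond
  rw [add_zero] at hsum
  refine hsum.congr fun a => ?_
  have h1 : ∑' k, err a k = ∑ k ∈ Finset.range (Kf a), err a k := by
    refine tsum_eq_sum fun k hk => ?_
    rw [Finset.mem_range] at hk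
    simp only [err, if_neg hk]
  rw [h1, ← Finset.sum_add_distrib]
  refine Finset.sum_congr rfl fun k hk => ?_
  rw [Finset.mem_range] at hk
  simp only [err, if_pos hk]
  ring

end Crest.Agent.R165.Discx892
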