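import Crest.Agent.R165.Tr1_40

/-!
# Row 165 (S0250), block R: the dual half-edge variables (free boundary conditions)

Nodes of the dual system are the primal vertices `v = (i,j)` (lower left corner of the face
`(i,j)`).  For a symmetric weight `w` with `1 + w ≠ 0` put

* `dw w v h = (1 - y) / (1 + y)`, `y` the weight of the primal edge leaving `v` in direction `h`;
* `df w φ v` = `(1 + y)/2` times (sum / difference) of the two half-edge values across that edge.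

Main statement `A_df`: `A (dw w) (df w φ) v` is an explicit combination of the values of `A w φ`
at the four faces around `v`.  Hence free boundary conditions (`y ∈ {x_c, 1}`) for `φ` are plus
boundary conditions (`dw w ∈ {x_c, 0}`) for `df w φ`.
-/

set_option autoImplicit false

noncomputable section

namespace Crest.Agent.R165.Dualx485

open Finset Crest.Agent.R165.Tr1x40

/-- weight of the primal edge leaving the vertex `v` in direction `h` -/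
def ew (w : Fld) (v : Face) (h : Fin 4) : ℝ :=
  match h with
  | 0 => w (v.1, v.2 - 1) 3
  | 1 => w (v.1, v.2) 0
  | 2 => w (v.1, v.2) 3
  | 3 => w (v.1 - 1, v.2) 0

@[simp] theorem ew_zero (w : Fld) (v : Face) : ew w v 0 = w (v.1, v.2 - 1) 3 := rfl
@[simp] theorem ew_one (w : Fld) (v : Face) : ew w v 1 = w (v.1, v.2) 0 := rfl
@[simp] theorem ew_two (w : Fld) (v : Face) : ew w v 2 = w (v.1, v.2) 3 := rfl
@[simp] theorem ew_three (w : Fld) (v : Face) : ew w v 3 = w (v.1 - 1, v.2) 0 := rfl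

/-- dual weight -/
def dy (y : ℝ) : ℝ := (1 - y) / (1 + y)

/-- dual weights -/
def dw (w : Fld) : Fld := fun v h => dy (ew w v h)

/-- dual field -/
def df (w φ : Fld) : Fld := fun v h =>
  match h with
  | 0 => -((1 + ew w v 0) / 2) * (φ (v.1 - 1, v.2 - 1) 1 + φ (v.1, v.2 - 1) 3)
  | 1 => ((1 + ew w v 1) / 2) * (φ (v.1, v.2) 0 - φ (v.1, v.2 - 1) 2)
  | 2 => -((1 + ew w v 2) / 2) * (φ (v.1, v.2) 3 - φ (v.1 - 1, v.2) 1)
  | 3 => ((1 + ew w v 3) / 2) * (φ (v.1 - 1, v.2 - 1) 2 + φ (v.1 - 1, v.2) 0)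

theorem df_zero (w φ : Fld) (v : Face) : df w φ v 0
    = -((1 + ew w v 0) / 2) * (φ (v.1 - 1, v.2 - 1) 1 + φ (v.1, v.2 - 1) 3) := rfl
theorem df_one (w φ : Fld) (v : Face) : df w φ v 1
    = ((1 + ew w v 1) / 2) * (φ (v.1, v.2) 0 - φ (v.1, v.2 - 1) 2) := rfl
theorem df_two (w φ : Fld) (v : Face) : df w φ v 2
    = -((1 + ew w v 2) / 2) * (φ (v.1, v.2) 3 - φ (v.1 - 1, v.2) 1) := rfl
theorem df_three (w φ : Fld) (v : Face) : df w φ v 3
    = ((1 + ew w v 3) / 2) * (φ (v.1 - 1, v.2 - 1) 2 + φ (v.1 - 1, v.2) 0) := rfl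

theorem ew_sym (w : Fld) (v : Face) (h : Fin 4) :
    ew w (nb v h) (op h) = ew w v h := by
  fin_cases h <;> simp [ew, nb, op]

theorem sym_dw (w : Fld) : Sym (dw w) := by
  intro v h; unfold dw; rw [ew_sym]

/-- the four residual combinations around the vertex `v`: one for each adjacent face -/
def r1 (g : Fld) (v : Face) : ℝ := g (v.1, v.2) 0 + g (v.1, v.2) 3
def r2 (g : Fld) (v : Face) : ℝ := g (v.1 - 1, v.2) 0 - g (v.1 - 1, v.2) 1
def r3 (g : Fld) (v : Face) : ℝ := g (v.1 - 1, v.2 - 1) 1 - g (v.1 - 1, v.2 - 1) 2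
def r4 (g : Fld) (v : Face) : ℝ := g (v.1, v.2 - 1) 2 - g (v.1, v.2 - 1) 3

/-- the local operator `T'` with `A* T = T' A` -/
def dg (g : Fld) : Fld := fun v h =>
  match h with
  | 0 => (-r1 g v + r2 g v + r3 g v - r4 g v) / 2
  | 1 => (-r1 g v + r2 g v + r3 g v + r4 g v) / 2
  | 2 => (r1 g v + r2 g v + r3 g v + r4 g v) / 2
  | 3 => (r1 g v - r2 g v + r3 g v + r4 g v) / 2

/-- local hypothesis: symmetry of the weights on the four edges at `v` -/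
structure SymAt (w : Fld) (v : Face) : Prop where
  s : w (v.1 - 1, v.2 - 1) 1 = w (v.1, v.2 - 1) 3
  e : w (v.1, v.2 - 1) 2 = w (v.1, v.2) 0
  n : w (v.1 - 1, v.2) 1 = w (v.1, v.2) 3
  w' : w (v.1 - 1, v.2 - 1) 2 = w (v.1 - 1, v.2) 0

theorem symAt_of {w : Fld} (hw : Sym w) (v : Face) : SymAt w v := by
  refine ⟨?_, ?_, ?_, ?_⟩
  · have := hw (v.1, v.2 - 1) 3; simpa using this
  · have := hw (v.1, v.2) 0; simpa using this
  · have := hw (v.1, v.2) 3; simpa using this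
  · have := hw (v.1 - 1, v.2) 0; simpa using this

theorem mul_dy {y : ℝ} (h : 1 + y ≠ 0) (a : ℝ) : dy y * ((1 + y) / 2 * a) = (1 - y) / 2 * a := by
  unfold dy; field_simp

/-- **A* T = T' A**, pointwise, arbitrary weights -/
theorem A_df {w : Fld} (φ : Fld) (v : Face) (hs : SymAt w v) (hy : ∀ h, 1 + ew w v h ≠ 0)
    (h : Fin 4) : A (dw w) (df w φ) v h = dg (A w φ) v h := by
  obtain ⟨hS, hE, hN, hW⟩ := hs
  have y0 := hy 0
  have y1 := hy 1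
  have y2 := hy 2
  have y3 := hy 3
  simp only [ew_zero, ew_one, ew_two, ew_three] at y0 y1 y2 y3
  -- the four partner terms
  have p0 : dw w v 0 * df w φ (v.1, v.2 - 1) 2
      = -((1 - w (v.1, v.2 - 1) 3) / 2 * (φ (v.1, v.2 - 1) 3 - φ (v.1 - 1, v.2 - 1) 1)) := by
    simp only [dw, df_two, ew_zero, ew_two]
    rw [neg_mul, mul_neg, mul_dy y0]
  have p1 : dw w v 1 * df w φ (v.1 + 1, v.2) 3
      = (1 - w (v.1, v.2) 0) / 2 * (φ (v.1, v.2 - 1) 2 + φ (v.1, v.2) 0) := by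
    simp only [dw, df_three, ew_one, ew_three, add_sub_cancel_right]
    rw [mul_dy y1]
  have p2 : dw w v 2 * df w φ (v.1, v.2 + 1) 0
      = -((1 - w (v.1, v.2) 3) / 2 * (φ (v.1 - 1, v.2) 1 + φ (v.1, v.2) 3)) := by
    simp only [dw, df_zero, ew_zero, ew_two, add_sub_cancel_right]
    rw [neg_mul, mul_neg, mul_dy y2]
  have p3 : dw w v 3 * df w φ (v.1 - 1, v.2) 1
      = (1 - w (v.1 - 1, v.2) 0) / 2 * (φ (v.1 - 1, v.2) 0 - φ (v.1 - 1, v.2 - 1) 2) := by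
    simp only [dw, df_one, ew_one, ew_three]
    rw [mul_dy y3]
  fin_cases h
  · show A (dw w) (df w φ) v 0 = dg (A w φ) v 0
    rw [A_S, p0]
    simp only [dg, r1, r2, r3, r4, A_S, A_E, A_N, A_W, df_one, df_two, df_three, ew_one, ew_two,
      ew_three, sub_add_cancel, hS, hE, hN, hW]
    ring
  · show A (dw w) (df w φ) v 1 = dg (A w φ) v 1
    rw [A_E, p1]
    simp only [dg, r1, r2, r3, r4, A_S, A_E, A_N, A_W, df_zero, df_two, df_three, ew_zero, ew_two,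
      ew_three, sub_add_cancel, hS, hE, hN, hW]
    ring
  · show A (dw w) (df w φ) v 2 = dg (A w φ) v 2
    rw [A_N, p2]
    simp only [dg, r1, r2, r3, r4, A_S, A_E, A_N, A_W, df_zero, df_one, df_three, ew_zero, ew_one,
      ew_three, sub_add_cancel, hS, hE, hN, hW]
    ring
  · show A (dw w) (df w φ) v 3 = dg (A w φ) v 3
    rw [A_W, p3]
    simp only [dg, r1, r2, r3, r4, A_S, A_E, A_N, A_W, df_zero, df_one, df_two, ew_zero, ew_one,
      ew_two, sub_add_cancel, hS, hE, hN, hW]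
    ring

/-- global form -/
theorem A_df_global {w : Fld} (hw : Sym w) (hy : ∀ f h, 1 + w f h ≠ 0) (φ : Fld) :
    A (dw w) (df w φ) = dg (A w φ) := by
  funext v h
  refine A_df φ v (symAt_of hw v) ?_ h
  intro h
  fin_cases h <;> exact hy _ _

/-! ### the inverse transformation -/

/-- face field of a vertex field -/
def fd (w ψ : Fld) : Fld := fun f h =>
  match h with
  | 0 => (ψ (f.1 + 1, f.2) 3 + ψ (f.1, f.2) 1) / (1 + w f 0)
  | 1 => (ψ (f.1 + 1, f.2) 2 - ψ (f.1 + 1, f.2 + 1) 0) / (1 + w f 1)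
  | 2 => (ψ (f.1 + 1, f.2 + 1) 3 - ψ (f.1, f.2 + 1) 1) / (1 + w f 2)
  | 3 => -(ψ (f.1, f.2) 2 + ψ (f.1, f.2 + 1) 0) / (1 + w f 3)

theorem fd_df {w : Fld} (hw : Sym w) (hy : ∀ f h, 1 + w f h ≠ 0) (φ : Fld) :
    fd w (df w φ) = φ := by
  funext f h
  have e1 : w (f.1 + 1, f.2) 3 = w f 1 := by have := hw f 1; simpa using this
  have e2 : w (f.1, f.2 + 1) 0 = w f 2 := by have := hw f 2; simpa using this
  have e3 : w (f.1, f.2) 3 = w f 3 := rfl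
  have e0 : w (f.1, f.2) 0 = w f 0 := rfl
  fin_cases h
  · show fd w (df w φ) f 0 = φ f 0
    simp only [fd, df_one, df_three, ew_one, ew_three, add_sub_cancel_right, e0]
    have := hy f 0
    field_simp
    ring
  · show fd w (df w φ) f 1 = φ f 1
    simp only [fd, df_zero, df_two, ew_zero, ew_two, add_sub_cancel_right, e1]
    have := hy f 1
    field_simp
    ring
  · show fd w (df w φ) f 2 = φ f 2
    simp only [fd, df_one, df_three, ew_one, ew_three, add_sub_cancel_right, e2]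
    have := hy f 2
    field_simp
    ring
  · show fd w (df w φ) f 3 = φ f 3
    simp only [fd, df_zero, df_two, ew_zero, ew_two, add_sub_cancel_right, e3]
    have := hy f 3
    field_simp
    ring

theorem df_fd {w : Fld} (hw : Sym w) (hy : ∀ f h, 1 + w f h ≠ 0) (ψ : Fld) :
    df w (fd w ψ) = ψ := by
  funext v h
  obtain ⟨hS, hE, hN, hW⟩ := symAt_of hw v
  fin_cases h
  · show df w (fd w ψ) v 0 = ψ v 0
    have := hy (v.1, v.2 - 1) 3
    simp only [df_zero, fd, ew_zero, sub_add_cancel, hS]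
    field_simp
    ring
  · show df w (fd w ψ) v 1 = ψ v 1
    have := hy (v.1, v.2) 0
    simp only [df_one, fd, ew_one, sub_add_cancel, hE]
    field_simp
    ring
  · show df w (fd w ψ) v 2 = ψ v 2
    have := hy (v.1, v.2) 3
    simp only [df_two, fd, ew_two, sub_add_cancel, hN]
    field_simp
    ring
  · show df w (fd w ψ) v 3 = ψ v 3
    have := hy (v.1 - 1, v.2) 0
    simp only [df_three, fd, ew_three, sub_add_cancel, hW]
    field_simp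
    ring

/-- the inverse of `dg` -/
def gd (γ : Fld) : Fld := fun f h =>
  match h with
  | 0 => (-(γ (f.1, f.2) 1 - γ (f.1, f.2) 2) + (γ (f.1 + 1, f.2) 2 - γ (f.1 + 1, f.2) 3)
      + (γ (f.1 + 1, f.2 + 1) 3 + γ (f.1 + 1, f.2 + 1) 0)
      - (γ (f.1, f.2 + 1) 0 - γ (f.1, f.2 + 1) 1)) / 2
  | 1 => (-(γ (f.1, f.2) 1 - γ (f.1, f.2) 2) - (γ (f.1 + 1, f.2) 2 - γ (f.1 + 1, f.2) 3)
      + (γ (f.1 + 1, f.2 + 1) 3 + γ (f.1 + 1, f.2 + 1) 0)
      - (γ (f.1, f.2 + 1) 0 - γ (f.1, f.2 + 1) 1)) / 2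
  | 2 => (-(γ (f.1, f.2) 1 - γ (f.1, f.2) 2) - (γ (f.1 + 1, f.2) 2 - γ (f.1 + 1, f.2) 3)
      - (γ (f.1 + 1, f.2 + 1) 3 + γ (f.1 + 1, f.2 + 1) 0)
      - (γ (f.1, f.2 + 1) 0 - γ (f.1, f.2 + 1) 1)) / 2
  | 3 => (-(γ (f.1, f.2) 1 - γ (f.1, f.2) 2) - (γ (f.1 + 1, f.2) 2 - γ (f.1 + 1, f.2) 3)
      - (γ (f.1 + 1, f.2 + 1) 3 + γ (f.1 + 1, f.2 + 1) 0)
      + (γ (f.1, f.2 + 1) 0 - γ (f.1, f.2 + 1) 1)) / 2

theorem gd_dg (g : Fld) : gd (dg g) = g := by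
  funext f h
  fin_cases h <;>
    simp [gd, dg, r1, r2, r3, r4] <;> ring

theorem dg_gd (γ : Fld) : dg (gd γ) = γ := by
  funext v h
  fin_cases h <;>
    simp [gd, dg, r1, r2, r3, r4] <;> ring

/-- `A (fd ψ) = gd (A* ψ)` -/
theorem A_fd {w : Fld} (hw : Sym w) (hy : ∀ f h, 1 + w f h ≠ 0) (ψ : Fld) :
    A w (fd w ψ) = gd (A (dw w) ψ) := by
  have h := A_df_global hw hy (fd w ψ)
  rw [df_fd hw hy] at h
  rw [h, gd_dg]

/-! ### critical and free weights -/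

theorem dy_xc : dy xc = xc := by
  have h := xc_sq
  have h0 := xc_pos
  unfold dy
  rw [div_eq_iff (by positivity)]
  nlinarith

theorem dy_one : dy 1 = 0 := by simp [dy]

/-- free background: every weight is `x_c` or `1` -/
def IsFree (w : Fld) : Prop := ∀ f h, w f h = xc ∨ w f h = 1

theorem IsFree.ew {w : Fld} (hw : IsFree w) (v : Face) (h : Fin 4) : ew w v h = xc ∨ ew w v h = 1 := by
  fin_cases h <;> exact hw _ _

theorem IsFree.isPlus {w : Fld} (hw : IsFree w) : IsPlus (dw w) := by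
  intro v h
  rcases hw.ew v h with h1 | h1
  · left; unfold dw; rw [h1, dy_xc]
  · right; unfold dw; rw [h1, dy_one]

theorem IsFree.ne {w : Fld} (hw : IsFree w) (f : Face) (h : Fin 4) : 1 + w f h ≠ 0 := by
  rcases hw f h with h1 | h1 <;> rw [h1]
  · have := xc_pos; positivity
  · norm_num

theorem IsFree.nonneg {w : Fld} (hw : IsFree w) (f : Face) (h : Fin 4) : 0 ≤ w f h := by
  rcases hw f h with h1 | h1 <;> rw [h1]
  · exact xc_pos.le
  · norm_num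

theorem IsFree.le_one {w : Fld} (hw : IsFree w) (f : Face) (h : Fin 4) : w f h ≤ 1 := by
  rcases hw f h with h1 | h1 <;> rw [h1]
  exact xc_lt_one.le

/-! ### norms -/

/-- vertices of the faces of `K` are contained in `V` -/
def Vts (K V : Finset Face) : Prop :=
  ∀ f ∈ K, f ∈ V ∧ (f.1 + 1, f.2) ∈ V ∧ (f.1, f.2 + 1) ∈ V ∧ (f.1 + 1, f.2 + 1) ∈ V

/-- faces around the vertices of `V` are contained in `K` -/
def Fcs (V K : Finset Face) : Prop :=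
  ∀ v ∈ V, v ∈ K ∧ (v.1 - 1, v.2) ∈ K ∧ (v.1, v.2 - 1) ∈ K ∧ (v.1 - 1, v.2 - 1) ∈ K

/-- shifted sums of nonnegative functions -/
theorem sum_shift_le (K V : Finset Face) (t : Face → Face) (ht : Function.Injective t)
    (h : ∀ f ∈ K, t f ∈ V) (F : Face → ℝ) (hF : ∀ v, 0 ≤ F v) :
    ∑ f ∈ K, F (t f) ≤ ∑ v ∈ V, F v := by
  classical
  rw [← sum_image (f := F) (s := K) (g := t) (fun a _ b _ hab => ht hab)]
  refine sum_le_sum_of_subset_of_nonneg ?_ fun v _ _ => hF v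
  intro v hv
  rw [mem_image] at hv
  obtain ⟨f, hf, rfl⟩ := hv
  exact h f hf

theorem inj_add (a b : ℤ) : Function.Injective (fun f : Face => (f.1 + a, f.2 + b)) := by
  intro f g h
  simp only [Prod.mk.injEq, add_left_inj] at h
  exact Prod.ext h.1 h.2

theorem sq_div_le {a b y : ℝ} (hy : 0 ≤ y) : ((a + b) / (1 + y)) ^ 2 ≤ 2 * (a ^ 2 + b ^ 2) := by
  rw [div_pow, div_le_iff₀ (by positivity)]
  have h1 : (a + b) ^ 2 ≤ 2 * (a ^ 2 + b ^ 2) := by nlinarith [sq_nonneg (a - b)]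
  have h2 : 2 * (a ^ 2 + b ^ 2) * 1 ≤ 2 * (a ^ 2 + b ^ 2) * (1 + y) ^ 2 :=
    mul_le_mul_of_nonneg_left (by nlinarith) (by positivity)
  linarith

theorem sq_mul_le {a b y : ℝ} (hy : 0 ≤ y) (hy1 : y ≤ 1) :
    ((1 + y) / 2 * (a + b)) ^ 2 ≤ 2 * (a ^ 2 + b ^ 2) := by
  rw [mul_pow]
  have h1 : (a + b) ^ 2 ≤ 2 * (a ^ 2 + b ^ 2) := by nlinarith [sq_nonneg (a - b)]
  have h2 : ((1 + y) / 2) ^ 2 ≤ 1 := by
    rw [sq_le_one_iff_abs_le_one, abs_le]
    constructor <;> linarith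
  have h3 : 0 ≤ ((1 + y) / 2) ^ 2 := sq_nonneg _
  nlinarith [sq_nonneg (a + b)]

/-- the field is controlled by the dual field -/
theorem sum_fd_le {w : Fld} (hy : ∀ f h, 0 ≤ w f h) (ψ : Fld) (K V : Finset Face)
    (hKV : Vts K V) : ∑ f ∈ K, nsq (fd w ψ f) ≤ 4 * ∑ v ∈ V, nsq (ψ v) := by
  have hp : ∀ f ∈ K, nsq (fd w ψ f) ≤
      2 * (ψ (f.1 + 1, f.2) 3 ^ 2 + ψ (f.1 + 1, f.2) 2 ^ 2)
      + 2 * (ψ (f.1, f.2) 1 ^ 2 + ψ (f.1, f.2) 2 ^ 2)
      + 2 * (ψ (f.1 + 1, f.2 + 1) 0 ^ 2 + ψ (f.1 + 1, f.2 + 1) 3 ^ 2)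
      + 2 * (ψ (f.1, f.2 + 1) 1 ^ 2 + ψ (f.1, f.2 + 1) 0 ^ 2) := by
    intro f _
    rw [nsq_eq]
    have h0 := sq_div_le (a := ψ (f.1 + 1, f.2) 3) (b := ψ (f.1, f.2) 1) (hy f 0)
    have h1 := sq_div_le (a := ψ (f.1 + 1, f.2) 2) (b := -ψ (f.1 + 1, f.2 + 1) 0) (hy f 1)
    have h2 := sq_div_le (a := ψ (f.1 + 1, f.2 + 1) 3) (b := -ψ (f.1, f.2 + 1) 1) (hy f 2)
    have h3 := sq_div_le (a := -ψ (f.1, f.2) 2) (b := -ψ (f.1, f.2 + 1) 0) (hy f 3)
    rw [← sub_eq_add_neg] at h1 h2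
    rw [show -ψ (f.1, f.2) 2 + -ψ (f.1, f.2 + 1) 0 = -(ψ (f.1, f.2) 2 + ψ (f.1, f.2 + 1) 0) by
      ring] at h3
    simp only [fd]
    nlinarith
  refine (sum_le_sum hp).trans ?_
  rw [sum_add_distrib, sum_add_distrib, sum_add_distrib]
  have s1 := sum_shift_le K V (fun f => (f.1 + 1, f.2 + 0)) (inj_add 1 0)
    (fun f hf => by simpa using (hKV f hf).2.1) (fun v => 2 * (ψ v 3 ^ 2 + ψ v 2 ^ 2))
    (fun v => by positivity)
  have s2 := sum_shift_le K V (fun f => (f.1 + 0, f.2 + 0)) (inj_add 0 0)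
    (fun f hf => by simpa using (hKV f hf).1) (fun v => 2 * (ψ v 1 ^ 2 + ψ v 2 ^ 2))
    (fun v => by positivity)
  have s3 := sum_shift_le K V (fun f => (f.1 + 1, f.2 + 1)) (inj_add 1 1)
    (fun f hf => by simpa using (hKV f hf).2.2.2) (fun v => 2 * (ψ v 0 ^ 2 + ψ v 3 ^ 2))
    (fun v => by positivity)
  have s4 := sum_shift_le K V (fun f => (f.1 + 0, f.2 + 1)) (inj_add 0 1)
    (fun f hf => by simpa using (hKV f hf).2.2.1) (fun v => 2 * (ψ v 1 ^ 2 + ψ v 0 ^ 2))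
    (fun v => by positivity)
  simp only [add_zero] at s1 s2 s3 s4
  have e : ∑ v ∈ V, 2 * (ψ v 3 ^ 2 + ψ v 2 ^ 2) + ∑ v ∈ V, 2 * (ψ v 1 ^ 2 + ψ v 2 ^ 2)
      + ∑ v ∈ V, 2 * (ψ v 0 ^ 2 + ψ v 3 ^ 2) + ∑ v ∈ V, 2 * (ψ v 1 ^ 2 + ψ v 0 ^ 2)
      = 4 * ∑ v ∈ V, nsq (ψ v) := by
    rw [← sum_add_distrib, ← sum_add_distrib, ← sum_add_distrib, mul_sum]
    refine sum_congr rfl fun v _ => ?_
    rw [nsq_eq]; ring
  linarith

/-- the dual field is controlled by the field -/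
theorem sum_df_le {w : Fld} (hy : ∀ f h, 0 ≤ w f h) (hy1 : ∀ f h, w f h ≤ 1) (φ : Fld)
    (V K : Finset Face) (hVK : Fcs V K) :
    ∑ v ∈ V, nsq (df w φ v) ≤ 4 * ∑ f ∈ K, nsq (φ f) := by
  have hp : ∀ v ∈ V, nsq (df w φ v) ≤
      2 * (φ (v.1 - 1, v.2 - 1) 1 ^ 2 + φ (v.1 - 1, v.2 - 1) 2 ^ 2)
      + 2 * (φ (v.1, v.2 - 1) 3 ^ 2 + φ (v.1, v.2 - 1) 2 ^ 2)
      + 2 * (φ (v.1, v.2) 0 ^ 2 + φ (v.1, v.2) 3 ^ 2)
      + 2 * (φ (v.1 - 1, v.2) 1 ^ 2 + φ (v.1 - 1, v.2) 0 ^ 2) := by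
    intro v _
    rw [nsq_eq]
    have h0 := sq_mul_le (a := φ (v.1 - 1, v.2 - 1) 1) (b := φ (v.1, v.2 - 1) 3)
      (hy (v.1, v.2 - 1) 3) (hy1 _ _)
    have h1 := sq_mul_le (a := φ (v.1, v.2) 0) (b := -φ (v.1, v.2 - 1) 2)
      (hy (v.1, v.2) 0) (hy1 _ _)
    have h2 := sq_mul_le (a := φ (v.1, v.2) 3) (b := -φ (v.1 - 1, v.2) 1)
      (hy (v.1, v.2) 3) (hy1 _ _)
    have h3 := sq_mul_le (a := φ (v.1 - 1, v.2 - 1) 2) (b := φ (v.1 - 1, v.2) 0)
      (hy (v.1 - 1, v.2) 0) (hy1 _ _)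
    simp only [df, ew, neg_mul, neg_sq]
    rw [← sub_eq_add_neg] at h1 h2
    nlinarith
  refine (sum_le_sum hp).trans ?_
  rw [sum_add_distrib, sum_add_distrib, sum_add_distrib]
  have s1 := sum_shift_le V K (fun f => (f.1 + (-1), f.2 + (-1))) (inj_add (-1) (-1))
    (fun f hf => by simpa [sub_eq_add_neg] using (hVK f hf).2.2.2)
    (fun v => 2 * (φ v 1 ^ 2 + φ v 2 ^ 2)) (fun v => by positivity)
  have s2 := sum_shift_le V K (fun f => (f.1 + 0, f.2 + (-1))) (inj_add 0 (-1))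
    (fun f hf => by simpa [sub_eq_add_neg] using (hVK f hf).2.2.1)
    (fun v => 2 * (φ v 3 ^ 2 + φ v 2 ^ 2)) (fun v => by positivity)
  have s3 := sum_shift_le V K (fun f => (f.1 + 0, f.2 + 0)) (inj_add 0 0)
    (fun f hf => by simpa using (hVK f hf).1)
    (fun v => 2 * (φ v 0 ^ 2 + φ v 3 ^ 2)) (fun v => by positivity)
  have s4 := sum_shift_le V K (fun f => (f.1 + (-1), f.2 + 0)) (inj_add (-1) 0)
    (fun f hf => by simpa [sub_eq_add_neg] using (hVK f hf).2.1)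
    (fun v => 2 * (φ v 1 ^ 2 + φ v 0 ^ 2)) (fun v => by positivity)
  simp only [add_zero, ← sub_eq_add_neg] at s1 s2 s3 s4
  have e : ∑ v ∈ K, 2 * (φ v 1 ^ 2 + φ v 2 ^ 2) + ∑ v ∈ K, 2 * (φ v 3 ^ 2 + φ v 2 ^ 2)
      + ∑ v ∈ K, 2 * (φ v 0 ^ 2 + φ v 3 ^ 2) + ∑ v ∈ K, 2 * (φ v 1 ^ 2 + φ v 0 ^ 2)
      = 4 * ∑ v ∈ K, nsq (φ v) := by
    rw [← sum_add_distrib, ← sum_add_distrib, ← sum_add_distrib, mul_sum]
    refine sum_congr rfl fun v _ => ?_
    rw [nsq_eq]; ring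
  linarith

/-- the residual of the dual field is controlled by the residual -/
theorem sum_dg_le (g : Fld) (V K : Finset Face) (hVK : Fcs V K) :
    ∑ v ∈ V, nsq (dg g v) ≤ 16 * ∑ f ∈ K, nsq (g f) := by
  have hp : ∀ v ∈ V, nsq (dg g v) ≤
      8 * (g (v.1, v.2) 0 ^ 2 + g (v.1, v.2) 3 ^ 2)
      + 8 * (g (v.1 - 1, v.2) 0 ^ 2 + g (v.1 - 1, v.2) 1 ^ 2)
      + 8 * (g (v.1 - 1, v.2 - 1) 1 ^ 2 + g (v.1 - 1, v.2 - 1) 2 ^ 2)
      + 8 * (g (v.1, v.2 - 1) 2 ^ 2 + g (v.1, v.2 - 1) 3 ^ 2) := by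
    intro v _
    rw [nsq_eq]
    have a1 : r1 g v ^ 2 ≤ 2 * (g (v.1, v.2) 0 ^ 2 + g (v.1, v.2) 3 ^ 2) := by
      unfold r1; nlinarith [sq_nonneg (g (v.1, v.2) 0 - g (v.1, v.2) 3)]
    have a2 : r2 g v ^ 2 ≤ 2 * (g (v.1 - 1, v.2) 0 ^ 2 + g (v.1 - 1, v.2) 1 ^ 2) := by
      unfold r2; nlinarith [sq_nonneg (g (v.1 - 1, v.2) 0 + g (v.1 - 1, v.2) 1)]
    have a3 : r3 g v ^ 2 ≤ 2 * (g (v.1 - 1, v.2 - 1) 1 ^ 2 + g (v.1 - 1, v.2 - 1) 2 ^ 2) := by
      unfold r3; nlinarith [sq_nonneg (g (v.1 - 1, v.2 - 1) 1 + g (v.1 - 1, v.2 - 1) 2)]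
    have a4 : r4 g v ^ 2 ≤ 2 * (g (v.1, v.2 - 1) 2 ^ 2 + g (v.1, v.2 - 1) 3 ^ 2) := by
      unfold r4; nlinarith [sq_nonneg (g (v.1, v.2 - 1) 2 + g (v.1, v.2 - 1) 3)]
    have hq : ∀ a b c d : ℝ, ((a + b + c + d) / 2) ^ 2 ≤ a ^ 2 + b ^ 2 + c ^ 2 + d ^ 2 := by
      intro a b c d
      nlinarith [sq_nonneg (a - b), sq_nonneg (a - c), sq_nonneg (a - d), sq_nonneg (b - c),
        sq_nonneg (b - d), sq_nonneg (c - d)]
    have b0 := hq (-r1 g v) (r2 g v) (r3 g v) (-r4 g v)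
    have b1 := hq (-r1 g v) (r2 g v) (r3 g v) (r4 g v)
    have b2 := hq (r1 g v) (r2 g v) (r3 g v) (r4 g v)
    have b3 := hq (r1 g v) (-r2 g v) (r3 g v) (r4 g v)
    rw [← sub_eq_add_neg] at b0
    rw [← sub_eq_add_neg] at b3
    simp only [neg_sq] at b0 b1 b3
    simp only [dg]
    linarith
  refine (sum_le_sum hp).trans ?_
  rw [sum_add_distrib, sum_add_distrib, sum_add_distrib]
  have s1 := sum_shift_le V K (fun f => (f.1 + 0, f.2 + 0)) (inj_add 0 0)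
    (fun f hf => by simpa using (hVK f hf).1)
    (fun v => 8 * (g v 0 ^ 2 + g v 3 ^ 2)) (fun v => by positivity)
  have s2 := sum_shift_le V K (fun f => (f.1 + (-1), f.2 + 0)) (inj_add (-1) 0)
    (fun f hf => by simpa [sub_eq_add_neg] using (hVK f hf).2.1)
    (fun v => 8 * (g v 0 ^ 2 + g v 1 ^ 2)) (fun v => by positivity)
  have s3 := sum_shift_le V K (fun f => (f.1 + (-1), f.2 + (-1))) (inj_add (-1) (-1))
    (fun f hf => by simpa [sub_eq_add_neg] using (hVK f hf).2.2.2)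
    (fun v => 8 * (g v 1 ^ 2 + g v 2 ^ 2)) (fun v => by positivity)
  have s4 := sum_shift_le V K (fun f => (f.1 + 0, f.2 + (-1))) (inj_add 0 (-1))
    (fun f hf => by simpa [sub_eq_add_neg] using (hVK f hf).2.2.1)
    (fun v => 8 * (g v 2 ^ 2 + g v 3 ^ 2)) (fun v => by positivity)
  simp only [add_zero, ← sub_eq_add_neg] at s1 s2 s3 s4
  have e : ∑ v ∈ K, 8 * (g v 0 ^ 2 + g v 3 ^ 2) + ∑ v ∈ K, 8 * (g v 0 ^ 2 + g v 1 ^ 2)
      + ∑ v ∈ K, 8 * (g v 1 ^ 2 + g v 2 ^ 2) + ∑ v ∈ K, 8 * (g v 2 ^ 2 + g v 3 ^ 2)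
      = 16 * ∑ v ∈ K, nsq (g v) := by
    rw [← sum_add_distrib, ← sum_add_distrib, ← sum_add_distrib, mul_sum]
    refine sum_congr rfl fun v _ => ?_
    rw [nsq_eq]; ring
  linarith

/-! ### gauge transformations -/

/-- gauge transformed weights -/
def gw (s : Face → ℝ) (w : Fld) : Fld := fun f h => s f * s (nb f h) * w f h

/-- gauge transformed field -/
def gf (s : Face → ℝ) (φ : Fld) : Fld := fun f h => s f * φ f h

theorem A0_smul (c : ℝ) (p : Fin 4 → ℝ) (h : Fin 4) : A0 (fun k => c * p k) h = c * A0 p h := by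
  fin_cases h <;> simp [A0] <;> ring

/-- `A_{sw} (s φ) = s A_w φ` when `s² = 1` at the neighbour -/
theorem A_gauge (s : Face → ℝ) (w φ : Fld) (f : Face) (h : Fin 4)
    (hs : s (nb f h) ^ 2 = 1) : A (gw s w) (gf s φ) f h = gf s (A w φ) f h := by
  have e : gf s φ f = fun k => s f * φ f k := rfl
  simp only [A, Y, e, A0_smul, gf, gw]
  have : s f * s (nb f h) * w f h * (s (nb f h) * φ (nb f h) (op h))
      = s f * (w f h * φ (nb f h) (op h)) * s (nb f h) ^ 2 := by ring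
  rw [mul_assoc (sg h), this, hs]; ring

theorem sym_gw {s : Face → ℝ} {w : Fld} (hw : Sym w) : Sym (gw s w) := by
  intro f h
  simp only [gw, nb_nb_op, hw f h]
  ring

theorem nsq_gf {s : Face → ℝ} (φ : Fld) (f : Face) (hs : s f ^ 2 = 1) :
    nsq (gf s φ f) = nsq (φ f) := by
  rw [nsq_eq, nsq_eq]
  simp only [gf, mul_pow, hs, one_mul]

theorem isPlus_gw {s : Face → ℝ} {w : Fld} (hs : ∀ f, s f ^ 2 = 1) (hw : IsPlus w) :
    IsPlus (gw s w) := by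
  intro f h
  rcases hw f h with h1 | h1
  · left; simp only [gw, mul_pow, hs, one_mul, h1]
  · right; simp [gw, h1]

/-! ### free boundary conditions: consequences of the plus case -/

theorem fd_zero_off {w ψ : Fld} {K V : Finset Face} (h : ∀ v, v ∉ V → ∀ k, ψ v k = 0)
    (hVK : Fcs V K) (f : Face) (hf : f ∉ K) (k : Fin 4) : fd w ψ f k = 0 := by
  have a1 : (f.1, f.2) ∉ V := fun hc => hf (hVK _ hc).1
  have a2 : (f.1 + 1, f.2) ∉ V := fun hc => hf (by simpa using (hVK _ hc).2.1)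
  have a3 : (f.1, f.2 + 1) ∉ V := fun hc => hf (by simpa using (hVK _ hc).2.2.1)
  have a4 : (f.1 + 1, f.2 + 1) ∉ V := fun hc => hf (by simpa using (hVK _ hc).2.2.2)
  fin_cases k <;> simp [fd, h _ a1, h _ a2, h _ a3, h _ a4]

theorem df_zero_off {w φ : Fld} {K V : Finset Face} (h : ∀ f, f ∉ K → ∀ k, φ f k = 0)
    (hKV : Vts K V) (v : Face) (hv : v ∉ V) (k : Fin 4) : df w φ v k = 0 := by
  have a1 : (v.1, v.2) ∉ K := fun hc => hv (hKV _ hc).1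
  have a2 : (v.1 - 1, v.2) ∉ K := fun hc => hv (by simpa using (hKV _ hc).2.1)
  have a3 : (v.1, v.2 - 1) ∉ K := fun hc => hv (by simpa using (hKV _ hc).2.2.1)
  have a4 : (v.1 - 1, v.2 - 1) ∉ K := fun hc => hv (by simpa using (hKV _ hc).2.2.2)
  fin_cases k <;> simp [df, h _ a1, h _ a2, h _ a3, h _ a4]

/-- a bound `∑ |ψ|² ≤ G ∑ |A* ψ|²` for the dual field gives the bound `∑ |φ|² ≤ 64 G ∑ |A φ|²` -/
theorem gap_transfer {w φ : Fld} (hw : Sym w) (hf : IsFree w) {K K2 V : Finset Face}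
    (h1 : Vts K V) (h2 : Fcs V K2) (G : ℝ) (hG0 : 0 ≤ G)
    (hG : ∑ v ∈ V, nsq (df w φ v) ≤ G * ∑ v ∈ V, nsq (A (dw w) (df w φ) v)) :
    ∑ f ∈ K, nsq (φ f) ≤ 64 * G * ∑ f ∈ K2, nsq (A w φ f) := by
  have e1 := sum_fd_le hf.nonneg (df w φ) K V h1
  rw [fd_df hw hf.ne] at e1
  rw [A_df_global hw hf.ne] at hG
  have e2 := sum_dg_le (A w φ) V K2 h2
  nlinarith [mul_le_mul_of_nonneg_left e2 hG0]

/-- exact solutions: `A φ = 0` on `K2` gives `A* (df φ) = 0` on `V` -/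
theorem A_df_eq_zero {w φ : Fld} (hw : Sym w) (hy : ∀ f h, 1 + w f h ≠ 0) {V K2 : Finset Face}
    (h2 : Fcs V K2) (h0 : ∀ f ∈ K2, ∀ h, A w φ f h = 0) : ∀ v ∈ V, ∀ h, A (dw w) (df w φ) v h = 0 := by
  intro v hv h
  obtain ⟨a1, a2, a3, a4⟩ := h2 v hv
  rw [A_df_global hw hy]
  have b1 : A w φ (v.1, v.2) = 0 := funext (h0 _ a1)
  have b2 : A w φ (v.1 - 1, v.2) = 0 := funext (h0 _ a2)
  have b3 : A w φ (v.1, v.2 - 1) = 0 := funext (h0 _ a3)
  have b4 : A w φ (v.1 - 1, v.2 - 1) = 0 := funext (h0 _ a4)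
  fin_cases h <;> simp [dg, r1, r2, r3, r4, b1, b2, b3, b4]

/-! ### the light modes -/

/-- constant mode `Re (c e^{-3 i θ / 2})`, `c = a + i b`: `S, E, N, W` components -/
def cm (a b : ℝ) : Fin 4 → ℝ := ![-(a + b) / Real.sqrt 2, a, (b - a) / Real.sqrt 2, -b]

theorem cm_zero (a b : ℝ) : cm a b 0 = -(a + b) / Real.sqrt 2 := rfl
theorem cm_one (a b : ℝ) : cm a b 1 = a := rfl
theorem cm_two (a b : ℝ) : cm a b 2 = (b - a) / Real.sqrt 2 := rfl
theorem cm_three (a b : ℝ) : cm a b 3 = -b := rfl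

theorem hv_cm (a b : ℝ) : hv (cm a b) = 0 := by
  have h2 := sq2
  simp only [hv, nsq_eq, cyc, cm_zero, cm_one, cm_two, cm_three, div_sq2]
  linear_combination (-(1/4) * (a ^ 2 + b ^ 2)) * h2

theorem nsq_cm (a b : ℝ) : nsq (cm a b) = 2 * (a ^ 2 + b ^ 2) := by
  have h2 := sq2
  simp only [nsq_eq, cm_zero, cm_one, cm_two, cm_three, div_sq2]
  linear_combination ((1/2) * (a ^ 2 + b ^ 2)) * h2

/-- the dual of the constant mode `c` is the constant mode `i c` -/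
theorem df_cm {w : Fld} (a b : ℝ) (φ : Fld) (v : Face) (hw : ∀ h, ew w v h = xc)
    (h1 : φ (v.1, v.2) = cm a b) (h2 : φ (v.1 - 1, v.2) = cm a b) (h3 : φ (v.1, v.2 - 1) = cm a b)
    (h4 : φ (v.1 - 1, v.2 - 1) = cm a b) : df w φ v = cm (-b) a := by
  have h2' := sq2
  funext h
  fin_cases h
  · show df w φ v 0 = cm (-b) a 0
    rw [df_zero, hw, h4, h3, cm_one, cm_three, cm_zero, xc, div_sq2]
    ring
  · show df w φ v 1 = cm (-b) a 1
    rw [df_one, hw, h1, h3, cm_zero, cm_two, cm_one, xc, div_sq2, div_sq2]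
    linear_combination (-(1/2) * b) * h2'
  · show df w φ v 2 = cm (-b) a 2
    rw [df_two, hw, h1, h2, cm_three, cm_one, cm_two, xc, div_sq2]
    ring
  · show df w φ v 3 = cm (-b) a 3
    rw [df_three, hw, h4, h2, cm_two, cm_zero, cm_three, xc, div_sq2, div_sq2]
    linear_combination (-(1/2) * a) * h2'

/-- for every light vector: `φ f = cm (E) (-W)` -/
theorem light_eq_cm (p : Fin 4 → ℝ) (hp : hv p = 0) : p = cm (p 1) (-p 3) := by
  have h2 := sq2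
  have h0 := sq2_pos
  have h1 : nsq (Ph p) = 0 := by rw [← hv_eq_nsq]; exact hp
  rw [nsq_eq] at h1
  have k0 : Ph p 0 = 0 := by
    nlinarith [sq_nonneg (Ph p 0), sq_nonneg (Ph p 1), sq_nonneg (Ph p 2), sq_nonneg (Ph p 3)]
  have k2 : Ph p 2 = 0 := by
    nlinarith [sq_nonneg (Ph p 0), sq_nonneg (Ph p 1), sq_nonneg (Ph p 2), sq_nonneg (Ph p 3)]
  simp only [Ph, inv_2sq2] at k0 k2
  funext h
  fin_cases h
  · show p 0 = cm (p 1) (-p 3) 0
    rw [cm_zero, div_sq2]; linarith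
  · rfl
  · show p 2 = cm (p 1) (-p 3) 2
    rw [cm_two, div_sq2]; linarith
  · show p 3 = cm (p 1) (-p 3) 3
    rw [cm_three]; ring

end Crest.Agent.R165.Dualx485
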