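import Mathlib
import Crest.Agent.R165.EXb1_811

/-!
# EX at a plus boundary, part 0: reduction of `EXb` to sequences (row 165, helper682)

* `ExSq C` : for every ultrafilter `U ≤ atTop` and every normalised sequence `S : Sq U n`
  (`EXb1_811`) with modes `cc k → c`, the two estimates of `EXb` hold eventually along `U`;
  (the sequences satisfy in addition
  `NB 0 (r k) (φ k) = 1`, `‖nn k‖ = 1`, `cc k ^ 2 = conj (nn k)`, `k ≤ r k`, `0 < ε k`);
* `EXb_of_sq : ExSq C → EXb C`.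
-/

set_option autoImplicit false

noncomputable section

namespace Crest.Agent.R165.EXb0x682

open Finset Filter Topology Crest.Agent.R165.Tr1x40 Crest.Agent.R165.RIfx891
  Crest.Agent.R165.EXb1x811

open Crest.Agent.R165.Campx891 (q q_pos q_le_one)

/-! ### translation and gauge -/

theorem nb_add (f x : Face) (h : Fin 4) : nb (f + x) h = nb f h + x := by
  fin_cases h <;> ext <;> simp [nb] <;> ring

/-- the weights seen from `x` after removing the gauge `s` -/
def tw (s : Face → ℝ) (x : Face) (w : Fld) : Fld :=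
  fun f h => s (f + x) * s (nb (f + x) h) * w (f + x) h

/-- the field seen from `x` after removing the gauge `s` -/
def tf (s : Face → ℝ) (x : Face) : Fld →ₗ[ℝ] Fld where
  toFun φ f h := s (f + x) * φ (f + x) h
  map_add' φ ψ := by funext f h; simp only [Pi.add_apply]; ring
  map_smul' c φ := by funext f h; simp only [Pi.smul_apply, smul_eq_mul, RingHom.id_apply]; ring

theorem tf_apply (s : Face → ℝ) (x : Face) (φ : Fld) (f : Face) (h : Fin 4) :
    tf s x φ f h = s (f + x) * φ (f + x) h := rfl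

theorem sym_tw {s : Face → ℝ} {x : Face} {w : Fld} (hw : Sym w) : Sym (tw s x w) := by
  intro f h
  have e1 : nb f h + x = nb (f + x) h := (nb_add f x h).symm
  have e2 := hw (f + x) h
  simp only [tw, e1, nb_nb_op, e2]
  ring

theorem mul_self_of {s : Face → ℝ} (hs : Gauge s) (f : Face) : s f * s f = 1 := by
  rw [← pow_two]; exact hs f

theorem tw_sq {s : Face → ℝ} (hs : Gauge s) (x : Face) (w : Fld) (f : Face) (h : Fin 4) :
    tw s x w f h ^ 2 = w (f + x) h ^ 2 := sq_of hs _ _ _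

theorem tw_eq {s : Face → ℝ} (hs : Gauge s) {x : Face} {w : Fld} {f : Face} {h : Fin 4} {a : ℝ}
    (e : w (f + x) h = s (f + x) * s (nb (f + x) h) * a) : tw s x w f h = a := by
  unfold tw
  rw [e]
  linear_combination (s (nb (f + x) h) ^ 2 * a) * hs (f + x) + a * hs (nb (f + x) h)

theorem A_tf {s : Face → ℝ} (hs : Gauge s) (x : Face) (w φ : Fld) (f : Face) (h : Fin 4) :
    A (tw s x w) (tf s x φ) f h = s (f + x) * A w φ (f + x) h := by
  have e0 : A0 (tf s x φ f) h = s (f + x) * A0 (φ (f + x)) h := by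
    have : tf s x φ f = s (f + x) • φ (f + x) := by funext k; rfl
    rw [this, A0_smul]
  have e1 : Y (tw s x w) (tf s x φ) f h = s (f + x) * Y w φ (f + x) h := by
    have e2 : nb f h + x = nb (f + x) h := (nb_add f x h).symm
    simp only [Y, tf_apply, tw, e2]
    linear_combination (s (f + x) * sg h * w (f + x) h * φ (nb (f + x) h) (op h)) *
      hs (nb (f + x) h)
  simp only [A]
  rw [e0, e1]; ring

theorem mem_bx_add {x f : Face} {r : ℝ} : f + x ∈ bx x r ↔ f ∈ bx 0 r := by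
  rw [mem_bx, mem_bx]
  simp

theorem nsq_tf {s : Face → ℝ} (hs : Gauge s) (x : Face) (φ : Fld) (f : Face) :
    nsq (tf s x φ f) = nsq (φ (f + x)) := by
  unfold nsq
  refine sum_congr rfl fun h _ => ?_
  rw [tf_apply, mul_pow, hs, one_mul]

theorem NB_tf {s : Face → ℝ} (hs : Gauge s) (x : Face) (r : ℝ) (φ : Fld) :
    NB 0 r (tf s x φ) = NB x r φ := by
  have h1 : NB 0 r (tf s x φ) ^ 2 = NB x r φ ^ 2 := by
    rw [NB_sq, NB_sq]
    refine sum_bij (fun f _ => f + x) (fun f hf => mem_bx_add.2 hf)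
      (fun a _ b _ h => add_right_cancel h) (fun g hg => ⟨g - x, ?_, sub_add_cancel g x⟩)
      (fun f _ => nsq_tf hs x φ f)
    rw [← mem_bx_add (x := x), sub_add_cancel]
    exact hg
  exact (pow_left_inj₀ (apply_nonneg _ _) (apply_nonneg _ _) two_ne_zero).1 h1

theorem dotn_add (n : ℂ) (x f : Face) : dotn n x (f + x) = dotn n 0 f := by
  unfold dotn
  simp

theorem tf_modeB {s : Face → ℝ} (hs : Gauge s) (x : Face) (n c : ℂ) :
    tf s x (modeB s x n c) = modeB (fun _ => 1) 0 n c := by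
  funext f h
  rw [tf_apply]
  unfold modeB
  rw [dotn_add]
  split_ifs
  · rw [← mul_assoc, mul_self_of hs]
  · rw [mul_zero]

/-! ### the statement about sequences -/

/-- the statement about normalised sequences -/
def ExSq (C : ℝ) : Prop :=
  ∀ (U : Ultrafilter ℕ) (n c : ℂ) (S : Sq U n) (cc : ℕ → ℂ), (U : Filter ℕ) ≤ atTop →
    c ^ 2 = (starRingEnd ℂ) n → Tendsto cc U (𝓝 c) →
    (∀ k, ‖S.nn k‖ = 1) → (∀ k, cc k ^ 2 = (starRingEnd ℂ) (S.nn k)) →
    (∀ k : ℕ, (k : ℝ) ≤ S.r k) → (∀ k, 0 < S.ε k) → (∀ k, NB 0 (S.r k) (S.φ k) = 1) →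
    ∀ (m : ℕ) (η : ℝ), 0 < η →
      (∀ᶠ k in (U : Filter ℕ), NB 0 (S.r k * q ^ (2 * m)) (S.φ k) ≤ C * q ^ (2 * m) + η) ∧
      (∀ᶠ k in (U : Filter ℕ), ∃ κ : ℝ,
        NB 0 (S.r k * q ^ (2 * m)) (S.φ k - κ • modeB (fun _ => 1) 0 (S.nn k) (cc k)) ≤
          C * q ^ (4 * m) + η)

/-- one failing solution at one scale, normalised -/
theorem fail_one {C : ℝ} (hC : 0 ≤ C) {m : ℕ} {η : ℝ} (hη : 0 < η) {w : Fld} {s : Face → ℝ}
    {x : Face} {r : ℝ} {n c : ℂ} {ε : ℝ} (hr : 0 ≤ r) (H : PlusFlat w s x r n ε)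
    (hf : ¬ (Ex1On w x r (r * q ^ (2 * m)) (C * q ^ (2 * m) + η) ∧
      Ex2On w x r (r * q ^ (2 * m)) (modeB s x n c) (C * q ^ (4 * m) + η))) :
    ∃ (w' φ : Fld), Sym w' ∧ IsPlusOn w' 0 r ∧
      (∀ f ∈ bx 0 r, dotn n 0 f ≤ -(ε * r) → ∀ h, w' f h = xc) ∧
      (∀ f ∈ bx 0 r, ε * r ≤ dotn n 0 f → ∀ h, w' f h = 0) ∧
      (∀ f ∈ bx 0 r, A w' φ f = 0) ∧ NB 0 r φ = 1 ∧
      (C * q ^ (2 * m) + η < NB 0 (r * q ^ (2 * m)) φ ∨
        ∀ κ : ℝ, C * q ^ (4 * m) + η <
          NB 0 (r * q ^ (2 * m)) (φ - κ • modeB (fun _ => 1) 0 n c)) := by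
  have hq := q_pos
  have hs := H.gauge
  have htr : r * q ^ (2 * m) ≤ r :=
    mul_le_of_le_one_right hr (pow_le_one₀ hq.le q_le_one)
  -- a failing exact solution
  obtain ⟨e, he, hpos, hbad⟩ : ∃ e : Fld, (∀ f ∈ bx x r, A w e f = 0) ∧ 0 < NB x r e ∧
      ((C * q ^ (2 * m) + η) * NB x r e < NB x (r * q ^ (2 * m)) e ∨
        ∀ κ : ℝ, (C * q ^ (4 * m) + η) * NB x r e <
          NB x (r * q ^ (2 * m)) (e - κ • modeB s x n c)) := by
    rw [not_and_or] at hf
    rcases hf with hf | hf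
    · unfold Ex1On at hf
      push Not at hf
      obtain ⟨e, he, hlt⟩ := hf
      refine ⟨e, he, ?_, Or.inl hlt⟩
      have h1 : 0 ≤ (C * q ^ (2 * m) + η) * NB x r e := by
        have : 0 ≤ NB x r e := apply_nonneg _ _
        positivity
      have h2 : NB x (r * q ^ (2 * m)) e ≤ NB x r e := NB_mono x htr e
      linarith
    · unfold Ex2On at hf
      push Not at hf
      obtain ⟨e, he, hlt⟩ := hf
      refine ⟨e, he, ?_, Or.inr hlt⟩
      have h0 := hlt 0
      rw [zero_smul, sub_zero] at h0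
      have h1 : 0 ≤ (C * q ^ (4 * m) + η) * NB x r e := by
        have : 0 ≤ NB x r e := apply_nonneg _ _
        positivity
      have h2 : NB x (r * q ^ (2 * m)) e ≤ NB x r e := NB_mono x htr e
      linarith
  set N := NB x r e with hN
  have hNi : 0 < N⁻¹ := inv_pos.2 hpos
  have hsm : ∀ (t : ℝ) (ψ : Fld), NB 0 t (N⁻¹ • ψ) = N⁻¹ * NB 0 t ψ := by
    intro t ψ
    rw [map_smul_eq_mul, Real.norm_eq_abs, abs_of_pos hNi]
  refine ⟨tw s x w, N⁻¹ • tf s x e, sym_tw H.sym, ?_, ?_, ?_, ?_, ?_, ?_⟩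
  · intro f hf h
    have h1 := H.plus (f + x) (mem_bx_add.2 hf) h
    rcases h1 with h1 | h1
    · left; rw [tw_sq hs, h1]
    · right; unfold tw; rw [h1, mul_zero]
  · intro f hf hd h
    refine tw_eq hs (H.inside (f + x) (mem_bx_add.2 hf) ?_ h)
    rwa [dotn_add]
  · intro f hf hd h
    have h1 := H.outside (f + x) (mem_bx_add.2 hf) (by rwa [dotn_add]) h
    unfold tw
    rw [h1, mul_zero]
  · intro f hf
    have h1 : A (tw s x w) (tf s x e) f = 0 := by
      funext h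
      rw [A_tf hs, he (f + x) (mem_bx_add.2 hf)]
      simp
    have h2 : A (tw s x w) (N⁻¹ • tf s x e) = N⁻¹ • A (tw s x w) (tf s x e) :=
      (AL (tw s x w)).map_smul N⁻¹ (tf s x e)
    rw [h2, Pi.smul_apply, h1, smul_zero]
  · rw [hsm, NB_tf hs, ← hN, inv_mul_cancel₀ hpos.ne']
  · rcases hbad with hb | hb
    · left
      rw [hsm, NB_tf hs, inv_mul_eq_div, lt_div_iff₀ hpos]
      exact hb
    · right
      intro κ
      have e1 : N⁻¹ • tf s x e - κ • modeB (fun _ => 1) 0 n c =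
          N⁻¹ • tf s x (e - (N * κ) • modeB s x n c) := by
        rw [map_sub, map_smul, tf_modeB hs, smul_sub, smul_smul, ← mul_assoc,
          inv_mul_cancel₀ hpos.ne', one_mul]
      rw [e1, hsm, NB_tf hs, inv_mul_eq_div, lt_div_iff₀ hpos]
      exact hb (N * κ)

theorem norm_one_of_sq {c n : ℂ} (hn : ‖n‖ = 1) (hc : c ^ 2 = (starRingEnd ℂ) n) : ‖c‖ = 1 := by
  have h1 : ‖c‖ ^ 2 = 1 := by rw [← norm_pow, hc, RCLike.norm_conj, hn]
  exact (pow_eq_one_iff_of_nonneg (norm_nonneg c) two_ne_zero).1 h1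

/-- **reduction of `EXb` to sequences** -/
theorem EXb_of_sq {C : ℝ} (hC : 0 ≤ C) (H : ExSq C) : EXb C := by
  intro m η hη
  by_contra hcon
  have hk : ∀ k : ℕ, ∃ (w : Fld) (s : Face → ℝ) (x : Face) (r : ℝ) (n c : ℂ), (k : ℝ) ≤ r ∧
      ‖n‖ = 1 ∧ c ^ 2 = (starRingEnd ℂ) n ∧ PlusFlat w s x r n (1 / ((k : ℝ) + 1)) ∧
      ¬ (Ex1On w x r (r * q ^ (2 * m)) (C * q ^ (2 * m) + η) ∧
        Ex2On w x r (r * q ^ (2 * m)) (modeB s x n c) (C * q ^ (4 * m) + η)) := by
    intro k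
    by_contra hcon2
    push Not at hcon2
    refine hcon ⟨k, 1 / ((k : ℝ) + 1), by positivity, ?_⟩
    intro w s x r n c hr hn hc hP
    exact hcon2 w s x r n c hr hn hc hP
  choose w s x r n c hr hn hc hP hbad using hk
  have hr0 : ∀ k, 0 ≤ r k := fun k => (Nat.cast_nonneg k).trans (hr k)
  choose w' φ hsym hplus hin hout hex hnorm hfail using
    fun k => fail_one hC hη (hr0 k) (hP k) (hbad k)
  -- the ultrafilter
  set U : Ultrafilter ℕ := hyperfilter ℕ with hU
  have hUle : (U : Filter ℕ) ≤ atTop := by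
    rw [← Nat.cofinite_eq_atTop]
    exact hyperfilter_le_cofinite
  have hcpt : IsCompact (Metric.closedBall (0 : ℂ) 1) := isCompact_closedBall 0 1
  have hlim : ∀ z : ℕ → ℂ, (∀ k, ‖z k‖ = 1) → ∃ z0 : ℂ, Tendsto z U (𝓝 z0) := by
    intro z hz
    obtain ⟨z0, -, hz0⟩ := hcpt.ultrafilter_le_nhds' (U.map z) (by
      rw [Ultrafilter.mem_map]
      exact Filter.univ_mem' fun k => by
        rw [Set.mem_preimage, mem_closedBall_zero_iff, hz k])
    exact ⟨z0, hz0⟩
  obtain ⟨n0, hn0⟩ := hlim n hn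
  have hcn : ∀ k, ‖c k‖ = 1 := fun k => norm_one_of_sq (hn k) (hc k)
  obtain ⟨c0, hc0⟩ := hlim c hcn
  have hn01 : ‖n0‖ = 1 := by
    refine tendsto_nhds_unique hn0.norm ?_
    simp only [hn]
    exact tendsto_const_nhds
  have hc02 : c0 ^ 2 = (starRingEnd ℂ) n0 := by
    refine tendsto_nhds_unique (hc0.pow 2) ?_
    simp only [hc]
    exact (Complex.continuous_conj.tendsto n0).comp hn0
  have hrt : Tendsto r U atTop :=
    (tendsto_atTop_mono hr tendsto_natCast_atTop_atTop).mono_left hUle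
  have hεt : Tendsto (fun k : ℕ => 1 / ((k : ℝ) + 1)) U (𝓝 0) :=
    tendsto_one_div_add_atTop_nhds_zero_nat.mono_left hUle
  let S : Sq U n0 :=
    { r := r, ε := fun k => 1 / ((k : ℝ) + 1), nn := n, w := w', φ := φ, hr := hrt, hε := hεt,
      hn := hn0, n1 := hn01, sym := hsym, plus := hplus, inside := hin, outside := hout,
      exact := hex, norm := fun k => (hnorm k).le }
  obtain ⟨h1, h2⟩ := H U n0 c0 S c hUle hc02 hc0 hn hc hr (fun k => by
    show 0 < 1 / ((k : ℝ) + 1); positivity) hnorm m η hη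
  obtain ⟨k, hk1, hk2⟩ := (h1.and h2).exists
  rcases hfail k with hf | hf
  · exact absurd hk1 (not_le.2 hf)
  · obtain ⟨κ, hκ⟩ := hk2
    exact absurd hκ (not_le.2 (hf κ))

end Crest.Agent.R165.EXb0x682
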