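import Crest.Agent.R165.Int_811
import Crest.Agent.R165.Lim1_943
import Crest.Agent.R165.RIface_891

/-!
# Row 165 (S0250), block R: limits of locally exact solutions (helper797)

`LocEx U r Ω w e` : near every compact subset of `Ω` the field `e n` is an exact solution of the
plane operator with bounded local mass.  Then along an ultrafilter every component `r e(·,h)`
converges locally uniformly to `lv (F z) h` with `F` holomorphic on `Ω` (`LocEx.exists_limit`).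
-/

set_option autoImplicit false

noncomputable section

namespace Crest.Agent.R165.LimEx797

open Finset Filter Topology
open Crest.Agent.R165.Tr1x40
open Crest.Agent.R165.Intx811 (mass mass_nonneg harm pt_est)
open Crest.Agent.R165.PotAx894 (Q mem_Q self_mem_Q Q_mono)
open Crest.Agent.R165.PotBx894 (DL DD Harm)
open Crest.Agent.R165.Lim1x943 (pt flr LocBd LocUnif LocZero Bds lim limC d1 exists_nbhd)
open Crest.Agent.R165.RIfx891 (lv amp lv_amp)

variable {ι : Type*}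

/-- locally exact with bounded local mass -/
def LocEx (U : Filter ι) (r : ι → ℝ) (Ω : Set ℂ) (w e : ι → Fld) : Prop :=
  ∀ K : Set ℂ, IsCompact K → K ⊆ Ω → ∃ ρ : ℝ, 0 < ρ ∧ ∃ M : ℝ, ∀ᶠ n in U, ∀ f, pt (r n) f ∈ K →
    (∀ g ∈ Q f ⌊ρ * r n⌋₊, ∀ h, w n g h = xc ∧ A (w n) (e n) g h = 0) ∧
      mass (e n) f ⌊ρ * r n⌋₊ ≤ M

/-- component `a` of `e n` -/
def cp (e : ι → Fld) (a : Fin 4) (n : ι) (f : ℤ × ℤ) : ℝ := e n f a

/-- bounds of all differences -/
theorem LocEx.bd {U : Filter ι} {r : ι → ℝ} (hr : Tendsto r U atTop) {Ω : Set ℂ} {w e : ι → Fld}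
    (H : LocEx U r Ω w e) (l : List Bool) (K : Set ℂ) (hK : IsCompact K) (hKΩ : K ⊆ Ω) :
    ∃ M : ℝ, 0 ≤ M ∧ ∀ᶠ n in U, ∀ f, pt (r n) f ∈ K → ∀ a,
      |DL l (fun f => e n f a) f| ≤ M / r n ^ (l.length + 1) := by
  obtain ⟨C, hC, hest⟩ := pt_est l
  obtain ⟨ρ, hρ, M, hM⟩ := H K hK hKΩ
  refine ⟨C * (2 / ρ) ^ (l.length + 1) * Real.sqrt M, by positivity, ?_⟩
  filter_upwards [hM, hr.eventually_ge_atTop ((4 * (l.length + 1) + 2) / ρ),
    hr.eventually_gt_atTop 0] with n hn hrn hr0 f hf a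
  obtain ⟨h1, h2⟩ := hn f hf
  have hρr : 4 * ((l.length : ℝ) + 1) + 2 ≤ ρ * r n := by
    rw [div_le_iff₀ hρ] at hrn; linarith
  set R := ⌊ρ * r n⌋₊ with hR
  have hR1 : ρ * r n < R + 1 := Nat.lt_floor_add_one _
  have hR2 : 4 * (l.length + 1) ≤ R := by
    have : 4 * ((l.length : ℝ) + 1) < R + 1 := by linarith
    have : (4 * (l.length + 1) : ℕ) < R + 1 := by
      have h : ((4 * (l.length + 1) : ℕ) : ℝ) < ((R + 1 : ℕ) : ℝ) := by push_cast; linarith
      exact_mod_cast h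
    omega
  have hR0 : 1 ≤ R := by omega
  have hR0' : (1 : ℝ) ≤ R := by exact_mod_cast hR0
  have hR3 : ρ * r n / 2 ≤ R := by linarith
  have hh : Harm (fun f => e n f a) f (R - 1) := by
    have e1 : R - 1 + 1 = R := by omega
    refine harm (w := w n) (φ := e n) ?_ ?_ a
    · rw [e1]; exact fun g hg h => (h1 g hg h).1
    · rw [e1]; exact fun g hg h => (h1 g hg h).2
  have h3 := hest (e n) f R a hR2 hh
  refine h3.trans ?_
  have hrp : 0 < ρ * r n / 2 := by positivity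
  have h4 : C / (R : ℝ) ^ (l.length + 1) ≤ C / (ρ * r n / 2) ^ (l.length + 1) := by
    gcongr
  have h5 : Real.sqrt (mass (e n) f R) ≤ Real.sqrt M := Real.sqrt_le_sqrt h2
  calc C / (R : ℝ) ^ (l.length + 1) * Real.sqrt (mass (e n) f R)
      ≤ C / (ρ * r n / 2) ^ (l.length + 1) * Real.sqrt M := by gcongr
    _ = C * (2 / ρ) ^ (l.length + 1) * Real.sqrt M / r n ^ (l.length + 1) := by
        rw [div_pow, div_pow, mul_pow]; field_simp

/-- shifts by a fixed vector stay close -/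
theorem ev_shift {U : Filter ι} {r : ι → ℝ} (hr : Tendsto r U atTop) {Ω : Set ℂ} (hΩ : IsOpen Ω)
    {P : ι → ℤ × ℤ → Prop}
    (h : ∀ K : Set ℂ, IsCompact K → K ⊆ Ω → ∀ᶠ n in U, ∀ f, pt (r n) f ∈ K → P n f)
    (B : ℕ) (K : Set ℂ) (hK : IsCompact K) (hKΩ : K ⊆ Ω) :
    ∀ᶠ n in U, ∀ f, pt (r n) f ∈ K → ∀ g ∈ Q f B, P n g := by
  obtain ⟨δ, hδ, K', hK', hK'Ω, -, hnb⟩ := exists_nbhd hΩ hK hKΩ
  filter_upwards [h K' hK' hK'Ω, hr.eventually_ge_atTop (2 * B / δ), hr.eventually_gt_atTop 0]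
    with n hn hrn hr0 f hf g hg
  refine hn g (hnb _ hf _ ?_)
  rw [mem_Q] at hg
  have g1 : |(g.1 : ℝ) - f.1| ≤ B := by exact_mod_cast hg.1
  have g2 : |(g.2 : ℝ) - f.2| ≤ B := by exact_mod_cast hg.2
  unfold d1
  simp only [Lim1x943.pt_re, Lim1x943.pt_im, ← sub_div, abs_div, abs_of_pos hr0]
  rw [← add_div, div_le_iff₀ hr0]
  rw [div_le_iff₀ hδ] at hrn
  linarith

theorem ev_shiftM {U : Filter ι} {r : ι → ℝ} (hr : Tendsto r U atTop) {Ω : Set ℂ} (hΩ : IsOpen Ω)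
    {P : ℝ → ι → ℤ × ℤ → Prop}
    (h : ∀ K : Set ℂ, IsCompact K → K ⊆ Ω → ∃ M : ℝ, 0 ≤ M ∧ ∀ᶠ n in U, ∀ f, pt (r n) f ∈ K → P M n f)
    (B : ℕ) (K : Set ℂ) (hK : IsCompact K) (hKΩ : K ⊆ Ω) :
    ∃ M : ℝ, 0 ≤ M ∧ ∀ᶠ n in U, ∀ f, pt (r n) f ∈ K → ∀ g ∈ Q f B, P M n g := by
  obtain ⟨δ, hδ, K', hK', hK'Ω, -, hnb⟩ := exists_nbhd hΩ hK hKΩ
  obtain ⟨M, hM0, hM⟩ := h K' hK' hK'Ω
  refine ⟨M, hM0, ?_⟩
  filter_upwards [hM, hr.eventually_ge_atTop (2 * B / δ), hr.eventually_gt_atTop 0]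
    with n hn hrn hr0 f hf g hg
  refine hn g (hnb _ hf _ ?_)
  rw [mem_Q] at hg
  have g1 : |(g.1 : ℝ) - f.1| ≤ B := by exact_mod_cast hg.1
  have g2 : |(g.2 : ℝ) - f.2| ≤ B := by exact_mod_cast hg.2
  unfold d1
  simp only [Lim1x943.pt_re, Lim1x943.pt_im, ← sub_div, abs_div, abs_of_pos hr0]
  rw [← add_div, div_le_iff₀ hr0]
  rw [div_le_iff₀ hδ] at hrn
  linarith

/-- all bounds needed near a compact set: exactness at `f`, differences of order ≤ 2 on `Q f 2` -/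
theorem LocEx.all {U : Filter ι} {r : ι → ℝ} (hr : Tendsto r U atTop) {Ω : Set ℂ} (hΩ : IsOpen Ω)
    {w e : ι → Fld} (H : LocEx U r Ω w e) (K : Set ℂ) (hK : IsCompact K) (hKΩ : K ⊆ Ω) :
    ∃ M : ℝ, 0 ≤ M ∧ ∀ᶠ n in U, 0 < r n ∧ ∀ f, pt (r n) f ∈ K → ∀ g ∈ Q f 3,
      (∀ h, w n g h = xc) ∧ (∀ h, A (w n) (e n) g h = 0) ∧ ∀ a,
        |e n g a| ≤ M / r n ∧
        (∀ i, |DD i (fun f => e n f a) g| ≤ M / r n ^ 2) ∧
        (∀ i j, |DD j (DD i (fun f => e n f a)) g| ≤ M / r n ^ 3) := by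
  obtain ⟨M0, p0, h0⟩ := ev_shiftM (P := fun M n f => ∀ a, |DL [] (fun f => e n f a) f| ≤
    M / r n ^ (([] : List Bool).length + 1)) hr hΩ (H.bd hr []) 3 K hK hKΩ
  have step1 : ∀ i : Bool, ∃ M : ℝ, 0 ≤ M ∧ ∀ᶠ n in U, ∀ f, pt (r n) f ∈ K → ∀ g ∈ Q f 3, ∀ a,
      |DL [i] (fun f => e n f a) g| ≤ M / r n ^ (([i] : List Bool).length + 1) := fun i =>
    ev_shiftM (P := fun M n f => ∀ a, |DL [i] (fun f => e n f a) f| ≤
      M / r n ^ (([i] : List Bool).length + 1)) hr hΩ (H.bd hr [i]) 3 K hK hKΩ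
  have step2 : ∀ i j : Bool, ∃ M : ℝ, 0 ≤ M ∧ ∀ᶠ n in U, ∀ f, pt (r n) f ∈ K → ∀ g ∈ Q f 3, ∀ a,
      |DL [i, j] (fun f => e n f a) g| ≤ M / r n ^ (([i, j] : List Bool).length + 1) := fun i j =>
    ev_shiftM (P := fun M n f => ∀ a, |DL [i, j] (fun f => e n f a) f| ≤
      M / r n ^ (([i, j] : List Bool).length + 1)) hr hΩ (H.bd hr [i, j]) 3 K hK hKΩ
  choose M1 p1 h1 using step1
  choose M2 p2 h2 using step2
  obtain ⟨-, hex⟩ : ∃ M : ℝ, ∀ᶠ n in U, ∀ f, pt (r n) f ∈ K → ∀ g ∈ Q f 3,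
      (∀ h, w n g h = xc) ∧ (∀ h, A (w n) (e n) g h = 0) := ⟨0, by
    refine ev_shift (P := fun n g => (∀ h, w n g h = xc) ∧ (∀ h, A (w n) (e n) g h = 0)) hr hΩ ?_ 3
      K hK hKΩ
    intro K hK hKΩ
    obtain ⟨ρ, hρ, M, hM⟩ := H K hK hKΩ
    filter_upwards [hM] with n hn f hf
    have := (hn f hf).1 f (self_mem_Q f _)
    exact ⟨fun h => (this h).1, fun h => (this h).2⟩⟩
  set S : ℝ := M0 + ∑ i, M1 i + ∑ i, ∑ j, M2 i j with hS
  have s1 : ∀ i, 0 ≤ M1 i := p1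
  have s2 : ∀ i j, 0 ≤ M2 i j := p2
  have t1 : ∀ i, M1 i ≤ ∑ i, M1 i := fun i => single_le_sum (fun i _ => s1 i) (mem_univ i)
  have t2 : ∀ i j, M2 i j ≤ ∑ i, ∑ j, M2 i j := fun i j =>
    (single_le_sum (f := fun j => M2 i j) (fun j _ => s2 i j) (mem_univ j)).trans
      (single_le_sum (f := fun i => ∑ j, M2 i j) (fun i _ => sum_nonneg fun j _ => s2 i j)
        (mem_univ i))
  have u1 : 0 ≤ ∑ i, M1 i := sum_nonneg fun i _ => s1 i
  have u2 : 0 ≤ ∑ i, ∑ j, M2 i j := sum_nonneg fun i _ => sum_nonneg fun j _ => s2 i j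
  refine ⟨S, by positivity, ?_⟩
  filter_upwards [h0, eventually_all.2 h1, eventually_all.2 fun i => eventually_all.2 (h2 i), hex,
    hr.eventually_gt_atTop 0] with n n0 n1 n2 n3 hr0
  refine ⟨hr0, fun f hf g hg => ⟨(n3 f hf g hg).1, (n3 f hf g hg).2, fun a => ⟨?_, ?_, ?_⟩⟩⟩
  · have := n0 f hf g hg a
    simp only [DL, List.length_nil, zero_add, pow_one] at this
    refine this.trans ?_
    gcongr
    linarith
  · intro i
    have := n1 i f hf g hg a
    simp only [DL, List.length_cons, List.length_nil, zero_add] at this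
    refine this.trans ?_
    norm_num
    gcongr
    linarith [t1 i]
  · intro i j
    have := n2 i j f hf g hg a
    simp only [DL, List.length_cons, List.length_nil, zero_add] at this
    refine this.trans ?_
    norm_num
    gcongr
    linarith [t2 i j]


/-! ### the components -/

/-- scaled component -/
def vc (r : ι → ℝ) (e : ι → Fld) (a : Fin 4) (n : ι) (f : ℤ × ℤ) : ℝ := r n * e n f a

theorem D1_vc (r : ι → ℝ) (e : ι → Fld) (a : Fin 4) (n : ι) (f : ℤ × ℤ) :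
    Lim1x943.D1 (r n) (vc r e a n) f = r n ^ 2 * DD true (fun f => e n f a) f := by
  simp only [Lim1x943.D1, vc, DD, PotAx894.D1, if_true, Lim1x943.e1, PotAx894.e1]; ring

theorem D2_vc (r : ι → ℝ) (e : ι → Fld) (a : Fin 4) (n : ι) (f : ℤ × ℤ) :
    Lim1x943.D2 (r n) (vc r e a n) f = r n ^ 2 * DD false (fun f => e n f a) f := by
  simp [Lim1x943.D2, vc, DD, PotAx894.D2, Lim1x943.e2, PotAx894.e2]; ring

theorem D1_mul (r c : ℝ) (u : ℤ × ℤ → ℝ) :
    Lim1x943.D1 r (fun g => c * u g) = fun f => r * c * DD true u f := by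
  funext f
  simp only [Lim1x943.D1, DD, PotAx894.D1, if_true, Lim1x943.e1, PotAx894.e1]; ring

theorem D2_mul (r c : ℝ) (u : ℤ × ℤ → ℝ) :
    Lim1x943.D2 r (fun g => c * u g) = fun f => r * c * DD false u f := by
  funext f
  simp [Lim1x943.D2, DD, PotAx894.D2, Lim1x943.e2, PotAx894.e2]; ring

theorem LocEx.bds {U : Filter ι} {r : ι → ℝ} (hr : Tendsto r U atTop) {Ω : Set ℂ} (hΩ : IsOpen Ω)
    {w e : ι → Fld} (H : LocEx U r Ω w e) (a : Fin 4) : Bds U r Ω (vc r e a) := by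
  have hd1 : ∀ n, Lim1x943.D1 (r n) (vc r e a n) = fun f => r n ^ 2 * DD true (fun f => e n f a) f :=
    fun n => funext fun f => D1_vc r e a n f
  have hd2 : ∀ n, Lim1x943.D2 (r n) (vc r e a n) = fun f => r n ^ 2 * DD false (fun f => e n f a) f :=
    fun n => funext fun f => D2_vc r e a n f
  have first : ∀ i : Bool, LocBd U r Ω fun n f => r n ^ 2 * DD i (fun f => e n f a) f := by
    intro i K hK hKΩ
    obtain ⟨M, hM0, hM⟩ := H.all hr hΩ K hK hKΩ
    refine ⟨M, ?_⟩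
    filter_upwards [hM] with n hn f hf
    have h1 := ((hn.2 f hf f (self_mem_Q f _)).2.2 a).2.1 i
    have hr0 := hn.1
    rw [abs_mul, abs_of_pos (by positivity)]
    calc r n ^ 2 * _ ≤ r n ^ 2 * (M / r n ^ 2) := by gcongr
      _ = M := by field_simp
  have second : ∀ i j : Bool, LocBd U r Ω fun n f =>
      r n * r n ^ 2 * DD j (DD i (fun f => e n f a)) f := by
    intro i j K hK hKΩ
    obtain ⟨M, hM0, hM⟩ := H.all hr hΩ K hK hKΩ
    refine ⟨M, ?_⟩
    filter_upwards [hM] with n hn f hf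
    have h1 := ((hn.2 f hf f (self_mem_Q f _)).2.2 a).2.2 i j
    have hr0 := hn.1
    rw [abs_mul, abs_of_pos (by positivity)]
    calc r n * r n ^ 2 * _ ≤ r n * r n ^ 2 * (M / r n ^ 3) := by gcongr
      _ = M := by field_simp
  constructor
  · intro K hK hKΩ
    obtain ⟨M, hM0, hM⟩ := H.all hr hΩ K hK hKΩ
    refine ⟨M, ?_⟩
    filter_upwards [hM] with n hn f hf
    have h1 := ((hn.2 f hf f (self_mem_Q f _)).2.2 a).1
    have hr0 := hn.1
    unfold vc
    rw [abs_mul, abs_of_pos (by positivity)]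
    calc r n * _ ≤ r n * (M / r n) := by gcongr
      _ = M := by field_simp
  · simp only [hd1]; exact first true
  · simp only [hd2]; exact first false
  · simp only [hd1, D1_mul]; exact second true true
  · simp only [hd1, D2_mul]; exact second true false
  · simp only [hd2, D1_mul]; exact second false true
  · simp only [hd2, D2_mul]; exact second false false

theorem LocZero.of_le {U : Filter ι} {r : ι → ℝ} (hr : Tendsto r U atTop) {Ω : Set ℂ}
    {v : ι → ℤ × ℤ → ℝ}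
    (h : ∀ K : Set ℂ, IsCompact K → K ⊆ Ω → ∃ M : ℝ, ∀ᶠ n in U, ∀ f, pt (r n) f ∈ K →
      |v n f| ≤ M / r n) : LocZero U r Ω v := by
  intro K hK hKΩ η hη
  obtain ⟨M, hM⟩ := h K hK hKΩ
  filter_upwards [hM, hr.eventually_ge_atTop (|M| / η), hr.eventually_gt_atTop 0] with n hn hrn hr0 f hf
  rw [sub_zero]
  refine (hn f hf).trans ?_
  rw [div_le_iff₀ hr0]
  rw [div_le_iff₀ hη] at hrn
  linarith [le_abs_self M]

/-- bound of `Az` -/
theorem abs_Az_le {p : Fin 4 → ℝ} {m : ℝ} (hp : ∀ k, |p k| ≤ m) (h : Fin 4) :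
    |Intx811.Az p h| ≤ 4 * m := by
  have hm : 0 ≤ m := (abs_nonneg _).trans (hp 0)
  have s1 := one_lt_sq2
  have s2 := sq2_lt
  have h0 := abs_le.1 (hp 0)
  have h1 := abs_le.1 (hp 1)
  have h2 := abs_le.1 (hp 2)
  have h3 := abs_le.1 (hp 3)
  have key : ∀ x : ℝ, |x| ≤ m → |Real.sqrt 2 * x| ≤ 3 / 2 * m := by
    intro x hx
    rw [abs_mul, abs_of_pos sq2_pos]
    exact mul_le_mul s2.le hx (abs_nonneg _) (by norm_num)
  have k0 := abs_le.1 (key _ (hp 0))
  have k1 := abs_le.1 (key _ (hp 1))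
  have k2 := abs_le.1 (key _ (hp 2))
  have k3 := abs_le.1 (key _ (hp 3))
  fin_cases h <;> simp only [Intx811.Az, Fin.zero_eta, Fin.mk_one, Fin.reduceFinMk,
    Matrix.cons_val_zero, Matrix.cons_val_one, Matrix.cons_val] <;> rw [abs_le] <;>
    constructor <;> linarith

theorem Az_sub (p p' : Fin 4 → ℝ) (h : Fin 4) :
    Intx811.Az (fun k => p k - p' k) h = Intx811.Az p h - Intx811.Az p' h := by
  fin_cases h <;> simp [Intx811.Az] <;> ring

theorem mem_Q_sub_e1 (f : ℤ × ℤ) {B : ℕ} (hB : 1 ≤ B) : f - PotAx894.e1 ∈ Q f B := by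
  have hB' : (1 : ℤ) ≤ B := by exact_mod_cast hB
  rw [mem_Q]; simp [PotAx894.e1]; omega
theorem mem_Q_sub_e2 (f : ℤ × ℤ) {B : ℕ} (hB : 1 ≤ B) : f - PotAx894.e2 ∈ Q f B := by
  have hB' : (1 : ℤ) ≤ B := by exact_mod_cast hB
  rw [mem_Q]; simp [PotAx894.e2]; omega

theorem DD_true (u : ℤ × ℤ → ℝ) : DD true u = PotAx894.D1 u := rfl
theorem DD_false (u : ℤ × ℤ → ℝ) : DD false u = PotAx894.D2 u := rfl

/-- first differences bound `dif` -/
theorem dif_le {φ : Fld} {f : ℤ × ℤ} {m : ℝ}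
    (h : ∀ g ∈ Q f 3, ∀ a i, |DD i (fun f => φ f a) g| ≤ m) (k : Fin 4) :
    |Intx811.dif φ f k| ≤ m := by
  have a1 := h _ (mem_Q_sub_e1 f (by norm_num)) 1 true
  have a2 := h _ (mem_Q_sub_e2 f (by norm_num)) 2 false
  have a3 := h _ (self_mem_Q f 3) 3 true
  have a4 := h _ (self_mem_Q f 3) 0 false
  rw [DD_true] at a1 a3
  rw [DD_false] at a2 a4
  fin_cases k
  · simpa [Intx811.dif] using a2
  · simpa [Intx811.dif] using a3
  · simpa [Intx811.dif] using a4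
  · simpa [Intx811.dif] using a1

theorem LocEx.heavy {U : Filter ι} {r : ι → ℝ} (hr : Tendsto r U atTop) {Ω : Set ℂ} (hΩ : IsOpen Ω)
    {w e : ι → Fld} (H : LocEx U r Ω w e) (h : Fin 4) :
    LocZero U r Ω fun n f => r n * Ph (e n f) h := by
  refine LocZero.of_le hr ?_
  intro K hK hKΩ
  obtain ⟨M, hM0, hM⟩ := H.all hr hΩ K hK hKΩ
  refine ⟨M, ?_⟩
  filter_upwards [hM] with n hn f hf
  obtain ⟨hr0, hn⟩ := hn
  have h1 := hn f hf f (self_mem_Q f 3)
  have h2 := Intx811.heavy_eq h1.1 h1.2.1 h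
  have h3 := abs_Az_le (p := Intx811.dif (e n) f) (m := M / r n ^ 2)
    (dif_le fun g hg a i => ((hn f hf g hg).2.2 a).2.1 i) h
  rw [h2, abs_mul, abs_mul, abs_of_pos hr0, abs_of_pos (by have := xc_pos; positivity)]
  have hx := xc_lt_one
  have hx0 := xc_pos
  calc r n * (xc / 8 * |Intx811.Az (Intx811.dif (e n) f) h|)
      ≤ r n * (xc / 8 * (4 * (M / r n ^ 2))) := by gcongr
    _ = (xc / 2) * (M / r n) := by field_simp; ring
    _ ≤ 1 * (M / r n) := by gcongr; linarith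
    _ = M / r n := one_mul _

/-- difference of a first difference along a unit step -/
theorem DD_step1 (i : Bool) (u : ℤ × ℤ → ℝ) (g : ℤ × ℤ) :
    DD i u (g + PotAx894.e1) - DD i u g = DD true (DD i u) g := rfl
theorem DD_step2 (i : Bool) (u : ℤ × ℤ → ℝ) (g : ℤ × ℤ) :
    DD i u (g + PotAx894.e2) - DD i u g = DD false (DD i u) g := rfl

theorem D2Ph {φ w : Fld} {f : ℤ × ℤ} {m : ℝ}
    (h0 : ∀ g ∈ Q f 3, (∀ h, w g h = xc) ∧ ∀ h, A w φ g h = 0)
    (h : ∀ g ∈ Q f 3, ∀ a i j, |DD j (DD i (fun f => φ f a)) g| ≤ m) (k : Fin 4) :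
    |Ph (φ (f + PotAx894.e2)) k - Ph (φ f) k| ≤ m := by
  have hm : 0 ≤ m := (abs_nonneg _).trans (h f (self_mem_Q f 3) 0 true true)
  have me : f + PotAx894.e2 ∈ Q f 3 := by
    rw [mem_Q]; simp [PotAx894.e2]
  have a1 := Intx811.heavy_eq (h0 _ me).1 (h0 _ me).2 k
  have a2 := Intx811.heavy_eq (h0 _ (self_mem_Q f 3)).1 (h0 _ (self_mem_Q f 3)).2 k
  have a3 : ∀ k, |Intx811.dif φ (f + PotAx894.e2) k - Intx811.dif φ f k| ≤ m := by
    intro k
    have c1 := h _ (mem_Q_sub_e1 f (by norm_num)) 1 true false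
    have c2 := h _ (mem_Q_sub_e2 f (by norm_num)) 2 false false
    have c3 := h _ (self_mem_Q f 3) 3 true false
    have c4 := h _ (self_mem_Q f 3) 0 false false
    have q1 : f + PotAx894.e2 - PotAx894.e1 = (f - PotAx894.e1) + PotAx894.e2 := by abel
    have q2 : f + PotAx894.e2 - PotAx894.e2 = (f - PotAx894.e2) + PotAx894.e2 := by abel
    fin_cases k
    · simp only [Intx811.dif, Fin.zero_eta, Matrix.cons_val_zero, q2]
      rw [show ∀ x y : ℝ, -x - -y = -(x - y) from fun x y => by ring, abs_neg]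
      exact c2
    · simp only [Intx811.dif, Fin.mk_one, Matrix.cons_val_one, Matrix.cons_val_zero]
      exact c3
    · simp only [Intx811.dif, Fin.reduceFinMk, Matrix.cons_val]
      rw [show ∀ x y : ℝ, -x - -y = -(x - y) from fun x y => by ring, abs_neg]
      exact c4
    · simp only [Intx811.dif, Fin.reduceFinMk, Matrix.cons_val, q1]
      exact c1
  rw [a1, a2, ← mul_sub, ← Az_sub, abs_mul, abs_of_pos (by have := xc_pos; positivity)]
  have a4 := abs_Az_le a3 k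
  have hx := xc_lt_one
  have hx0 := xc_pos
  calc xc / 8 * _ ≤ xc / 8 * (4 * m) := by gcongr
    _ = (xc / 2) * m := by ring
    _ ≤ 1 * m := by gcongr; linarith
    _ = m := one_mul _

/-- the pointwise Cauchy-Riemann estimate -/
theorem cr_le {φ w : Fld} {f : ℤ × ℤ} {m : ℝ}
    (h0 : ∀ g ∈ Q f 3, (∀ h, w g h = xc) ∧ ∀ h, A w φ g h = 0)
    (h : ∀ g ∈ Q f 3, ∀ a i j, |DD j (DD i (fun f => φ f a)) g| ≤ m) :
    |DD true (fun f => φ f 1) f + DD false (fun f => φ f 3) f| ≤ 8 * m ∧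
    |DD false (fun f => φ f 1) f - DD true (fun f => φ f 3) f| ≤ 8 * m := by
  have hm : 0 ≤ m := (abs_nonneg _).trans (h f (self_mem_Q f 3) 0 true true)
  have s1 := one_lt_sq2
  have s2 := sq2_lt
  have me1 : f + PotAx894.e1 ∈ Q f 3 := by
    rw [mem_Q]; simp [PotAx894.e1]
  have mf := self_mem_Q f 3
  have hP0 := D2Ph h0 h 0
  have hP2 := D2Ph h0 h 2
  have r1 := Intx811.cr1 (h0 _ mf).1 (h0 _ mf).2
  have r2 := Intx811.cr2 (h0 _ me1).1 (h0 _ me1).2
  have q1 : f + PotAx894.e1 - PotAx894.e1 = f := by abel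
  rw [q1] at r2
  -- second differences
  have m1 : f + PotAx894.e1 - PotAx894.e2 ∈ Q f 3 := by
    rw [mem_Q]; simp [PotAx894.e1, PotAx894.e2]
  have b1 := h _ (mem_Q_sub_e2 f (by norm_num)) 2 false false
  have b2 := h _ (mem_Q_sub_e2 f (by norm_num)) 2 false true
  have b3 := h _ mf 0 false true
  have b4 := h _ m1 2 false false
  have b5 := h _ mf 2 false true
  have e1 : f - PotAx894.e2 + PotAx894.e2 = f := by abel
  have e2 : f + PotAx894.e1 - PotAx894.e2 + PotAx894.e2 = f + PotAx894.e1 := by abel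
  rw [← DD_step2, e1] at b1
  rw [← DD_step2, e2] at b4
  rw [← DD_step1] at b3 b5
  simp only [DD_true, DD_false] at *
  set N0 := PotAx894.D2 (fun f => φ f 2) f
  set Nm := PotAx894.D2 (fun f => φ f 2) (f - PotAx894.e2)
  set N1 := PotAx894.D2 (fun f => φ f 2) (f + PotAx894.e1)
  set N1m := PotAx894.D2 (fun f => φ f 2) (f + PotAx894.e1 - PotAx894.e2)
  set S0 := PotAx894.D2 (fun f => φ f 0) f
  set S1 := PotAx894.D2 (fun f => φ f 0) (f + PotAx894.e1)
  -- the heavy relations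
  have k0 : Ph (φ (f + PotAx894.e2)) 0 - Ph (φ f) 0 = S0 / 2 +
      (PotAx894.D2 (fun f => φ f 1) f - PotAx894.D2 (fun f => φ f 3) f) * Real.sqrt 2 / 4 := by
    simp only [Ph, inv_2sq2, S0, PotAx894.D2]; ring
  have k2 : Ph (φ (f + PotAx894.e2)) 2 - Ph (φ f) 2 = N0 / 2 +
      (PotAx894.D2 (fun f => φ f 1) f + PotAx894.D2 (fun f => φ f 3) f) * Real.sqrt 2 / 4 := by
    simp only [Ph, inv_2sq2, N0, PotAx894.D2]; ring
  rw [k0] at hP0
  rw [k2] at hP2
  set E2 := PotAx894.D2 (fun f => φ f 1) f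
  set W2 := PotAx894.D2 (fun f => φ f 3) f
  have h22 := sq2
  have mulb : ∀ x : ℝ, |x| ≤ m → |Real.sqrt 2 * x| ≤ 3 / 2 * m := by
    intro x hx
    rw [abs_mul, abs_of_pos sq2_pos]
    exact mul_le_mul s2.le hx (abs_nonneg _) (by norm_num)
  have c1 := abs_le.1 (mulb _ b1)
  have c3 := abs_le.1 (mulb _ b3)
  have c4 := abs_le.1 (mulb _ b4)
  have c5 := abs_le.1 (mulb _ b5)
  have c6 := abs_le.1 (mulb _ hP0)
  have c7 := abs_le.1 (mulb _ hP2)
  constructor
  · have key : PotAx894.D1 (fun f => φ f 1) f + W2 =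
        -(Real.sqrt 2 * (N1 - N1m)) / 2 + Real.sqrt 2 * (N1 - N0) / 2
        - Real.sqrt 2 * (S1 - S0) / 2
        + (Real.sqrt 2 * (N0 / 2 + (E2 + W2) * Real.sqrt 2 / 4)
        - Real.sqrt 2 * (S0 / 2 + (E2 - W2) * Real.sqrt 2 / 4)) := by
      linear_combination r2 - W2 / 2 * h22
    rw [key, abs_le]
    constructor <;> linarith [c3.1, c3.2, c4.1, c4.2, c5.1, c5.2, c6.1, c6.2, c7.1, c7.2]
  · have key : E2 - PotAx894.D1 (fun f => φ f 3) f =
        -(Real.sqrt 2 * (N0 - Nm)) / 2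
        + (Real.sqrt 2 * (N0 / 2 + (E2 + W2) * Real.sqrt 2 / 4)
        + Real.sqrt 2 * (S0 / 2 + (E2 - W2) * Real.sqrt 2 / 4)) := by
      linear_combination -r1 - E2 / 2 * h22
    rw [key, abs_le]
    constructor <;> linarith [c1.1, c1.2, c6.1, c6.2, c7.1, c7.2]

/-! ### the limit -/

theorem Bds.neg {U : Filter ι} {r : ι → ℝ} {Ω : Set ℂ} {v : ι → ℤ × ℤ → ℝ} (h : Bds U r Ω v) :
    Bds U r Ω fun n f => -v n f := by
  have key : ∀ u : ι → ℤ × ℤ → ℝ, LocBd U r Ω u → LocBd U r Ω fun n f => -u n f := by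
    intro u hu K hK hKΩ
    obtain ⟨M, hM⟩ := hu K hK hKΩ
    refine ⟨M, hM.mono fun n hn f hf => ?_⟩
    rw [abs_neg]; exact hn f hf
  have d1 : ∀ (r : ℝ) (u : ℤ × ℤ → ℝ), Lim1x943.D1 r (fun f => -u f) = fun f => -Lim1x943.D1 r u f :=
    fun r u => funext fun f => by simp only [Lim1x943.D1]; ring
  have d2 : ∀ (r : ℝ) (u : ℤ × ℤ → ℝ), Lim1x943.D2 r (fun f => -u f) = fun f => -Lim1x943.D2 r u f :=
    fun r u => funext fun f => by simp only [Lim1x943.D2]; ring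
  exact ⟨key _ h.b0, by simp only [d1]; exact key _ h.b1, by simp only [d2]; exact key _ h.b2,
    by simp only [d1]; exact key _ h.b11, by simp only [d1, d2]; exact key _ h.b12,
    by simp only [d1, d2]; exact key _ h.b21, by simp only [d2]; exact key _ h.b22⟩

/-- linear combinations of three locally uniform limits -/
theorem LocUnif.comb {U : Filter ι} {r : ι → ℝ} {Ω : Set ℂ} {u v w : ι → ℤ × ℤ → ℝ}
    {u' v' w' : ℂ → ℝ} (hu : LocUnif U r Ω u u') (hv : LocUnif U r Ω v v')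
    (hw : LocUnif U r Ω w w') (a b c : ℝ) :
    LocUnif U r Ω (fun n f => a * u n f + b * v n f + c * w n f)
      (fun z => a * u' z + b * v' z + c * w' z) := by
  intro K hK hKΩ η hη
  have hs : 0 < |a| + |b| + |c| + 1 := by positivity
  have hη' : 0 < η / (|a| + |b| + |c| + 1) := by positivity
  filter_upwards [hu K hK hKΩ _ hη', hv K hK hKΩ _ hη', hw K hK hKΩ _ hη'] with n n1 n2 n3 f hf
  have m1 := n1 f hf
  have m2 := n2 f hf
  have m3 := n3 f hf
  set t := η / (|a| + |b| + |c| + 1) with ht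
  have e : a * u n f + b * v n f + c * w n f -
      (a * u' (pt (r n) f) + b * v' (pt (r n) f) + c * w' (pt (r n) f)) =
      a * (u n f - u' (pt (r n) f)) + b * (v n f - v' (pt (r n) f)) +
        c * (w n f - w' (pt (r n) f)) := by ring
  rw [e]
  refine (abs_add_le _ _).trans ?_
  refine (add_le_add_left (abs_add_le _ _) _).trans ?_
  rw [abs_mul, abs_mul, abs_mul]
  have k1 := mul_le_mul_of_nonneg_left m1 (abs_nonneg a)
  have k2 := mul_le_mul_of_nonneg_left m2 (abs_nonneg b)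
  have k3 := mul_le_mul_of_nonneg_left m3 (abs_nonneg c)
  have k4 : (|a| + |b| + |c| + 1) * t = η := by rw [ht]; field_simp
  nlinarith

/-- **limits of locally exact solutions** -/
theorem LocEx.exists_limit {U : Ultrafilter ι} {r : ι → ℝ} (hr : Tendsto r U atTop) {Ω : Set ℂ}
    (hΩ : IsOpen Ω) {w e : ι → Fld} (H : LocEx (U : Filter ι) r Ω w e) :
    ∃ F : ℂ → ℂ, DifferentiableOn ℂ F Ω ∧
      ∀ h, LocUnif U r Ω (vc r e h) (fun z => lv (F z) h) := by
  have hE := H.bds hr hΩ 1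
  have hW := (H.bds hr hΩ 3)
  have hW' := Bds.neg hW
  have cE := (Lim1x943.exists_limit hr hΩ hE.b0 hE.b1 hE.b2).2
  have cW := (Lim1x943.exists_limit hr hΩ hW'.b0 hW'.b1 hW'.b2).2
  have q : ∀ n f, Lim1x943.D1 (r n) (vc r e 1 n) f -
      Lim1x943.D2 (r n) (fun f => -vc r e 3 n f) f =
      r n ^ 2 * (DD true (fun f => e n f 1) f + DD false (fun f => e n f 3) f) := by
    intro n f
    have e1 : Lim1x943.D2 (r n) (fun f => -vc r e 3 n f) f = -Lim1x943.D2 (r n) (vc r e 3 n) f := by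
      simp only [Lim1x943.D2]; ring
    rw [e1, D1_vc, D2_vc]; ring
  have q' : ∀ n f, Lim1x943.D2 (r n) (vc r e 1 n) f +
      Lim1x943.D1 (r n) (fun f => -vc r e 3 n f) f =
      r n ^ 2 * (DD false (fun f => e n f 1) f - DD true (fun f => e n f 3) f) := by
    intro n f
    have e1 : Lim1x943.D1 (r n) (fun f => -vc r e 3 n f) f = -Lim1x943.D1 (r n) (vc r e 3 n) f := by
      simp only [Lim1x943.D1]; ring
    rw [e1, D1_vc, D2_vc]; ring
  have cr : ∀ K : Set ℂ, IsCompact K → K ⊆ Ω → ∃ M : ℝ, ∀ᶠ n in (U : Filter ι), ∀ f, pt (r n) f ∈ K →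
      |r n ^ 2 * (DD true (fun f => e n f 1) f + DD false (fun f => e n f 3) f)| ≤ M / r n ∧
      |r n ^ 2 * (DD false (fun f => e n f 1) f - DD true (fun f => e n f 3) f)| ≤ M / r n := by
    intro K hK hKΩ
    obtain ⟨M, hM0, hM⟩ := H.all hr hΩ K hK hKΩ
    refine ⟨8 * M, ?_⟩
    filter_upwards [hM] with n hn f hf
    obtain ⟨hr0, hn⟩ := hn
    have := cr_le (φ := e n) (w := w n) (f := f) (m := M / r n ^ 3)
      (fun g hg => ⟨(hn f hf g hg).1, (hn f hf g hg).2.1⟩)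
      (fun g hg a i j => ((hn f hf g hg).2.2 a).2.2 i j)
    rw [abs_mul, abs_mul, abs_of_pos (by positivity : 0 < r n ^ 2)]
    constructor
    · calc r n ^ 2 * _ ≤ r n ^ 2 * (8 * (M / r n ^ 3)) := by gcongr; exact this.1
        _ = 8 * M / r n := by field_simp
    · calc r n ^ 2 * _ ≤ r n ^ 2 * (8 * (M / r n ^ 3)) := by gcongr; exact this.2
        _ = 8 * M / r n := by field_simp
  refine ⟨limC U r (vc r e 1) (fun n f => -vc r e 3 n f), ?_, ?_⟩
  · refine Lim1x943.differentiableOn_limC hr hΩ hE hW' ?_ ?_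
    · simp only [q]
      refine LocZero.of_le hr fun K hK hKΩ => ?_
      obtain ⟨M, hM⟩ := cr K hK hKΩ
      exact ⟨M, hM.mono fun n hn f hf => (hn f hf).1⟩
    · simp only [q']
      refine LocZero.of_le hr fun K hK hKΩ => ?_
      obtain ⟨M, hM⟩ := cr K hK hKΩ
      exact ⟨M, hM.mono fun n hn f hf => (hn f hf).2⟩
  · have s2 : Real.sqrt 2 ≠ 0 := ne_of_gt sq2_pos
    have h22 := sq2
    have ph0 := H.heavy hr hΩ 0
    have ph2 := H.heavy hr hΩ 2
    intro h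
    fin_cases h
    · have k := LocUnif.comb ph0 cE cW 2 (-(Real.sqrt 2 / 2)) (-(Real.sqrt 2 / 2))
      refine Lim1x943.LocUnif.congr (W := fun z => 2 * 0 + -(Real.sqrt 2 / 2) * lim U r (vc r e 1) z +
        -(Real.sqrt 2 / 2) * lim U r (fun n f => -vc r e 3 n f) z) ?_ ?_
      · convert k using 3 with n f
        simp only [vc, Ph, inv_2sq2, Fin.zero_eta]
        linear_combination (-(r n * (e n f 1 - e n f 3)) / 4 * 0) * h22
      · intro z _
        simp only [lv, limC, div_sq2]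
        ring
    · exact cE
    · have k := LocUnif.comb ph2 cE cW 2 (-(Real.sqrt 2 / 2)) (Real.sqrt 2 / 2)
      refine Lim1x943.LocUnif.congr (W := fun z => 2 * 0 + -(Real.sqrt 2 / 2) * lim U r (vc r e 1) z +
        (Real.sqrt 2 / 2) * lim U r (fun n f => -vc r e 3 n f) z) ?_ ?_
      · convert k using 3 with n f
        simp only [vc, Ph, inv_2sq2, Fin.reduceFinMk]
        linear_combination (-(r n * (e n f 1 - e n f 3)) / 4 * 0) * h22
      · intro z _
        simp only [lv, limC, div_sq2]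
        ring
    · intro K hK hKΩ η hη
      filter_upwards [cW K hK hKΩ η hη] with n hn f hf
      have := hn f hf
      simp only [lv, limC, Fin.reduceFinMk]
      rw [← abs_neg]
      refine le_trans (le_of_eq ?_) this
      congr 1; ring

end Crest.Agent.R165.LimEx797
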