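import Mathlib
import Crest.Agent.R165.EXb3_811
import Crest.Agent.R165.LimE_797

/-!
# EX at a plus boundary, part 4: the holomorphic limit and its mass (row 165, helper811)
-/

set_option autoImplicit false

noncomputable section

namespace Crest.Agent.R165.EXb4x811

open Crest.Agent.R165.Tr1x40 hiding sq2

open Finset Filter Topology MeasureTheory Crest.Agent.R165.Tr2x40
  Crest.Agent.R165.Intx811 Crest.Agent.R165.NcCutx811 Crest.Agent.R165.RIfx891
  Crest.Agent.R165.EXb1x811 Crest.Agent.R165.EXb2x811 Crest.Agent.R165.EXb3x811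

open Crest.Agent.R165.PotAx894 (Q mem_Q)
open Crest.Agent.R165.Lim1x943 (pt flr LocBd LocUnif)
open Crest.Agent.R165.Lim2x943 (sq2)

variable {U : Ultrafilter ℕ} {n : ℂ} (S : Sq U n)

theorem locEx : LimEx797.LocEx (U : Filter ℕ) S.r (Om n) S.w S.φ := by
  intro K hK hKΩ
  obtain ⟨δ, hδ, hev⟩ := geo S hK hKΩ
  refine ⟨δ, hδ, 1, ?_⟩
  filter_upwards [hev] with k hk f hf
  obtain ⟨hr1, hg⟩ := hk
  have h := hg f hf ⌊δ * S.r k⌋₊ (Nat.floor_le (by positivity))
  refine ⟨fun g hg h' => ⟨(h g hg).2 h', congrFun (S.exact k g (h g hg).1) h'⟩, ?_⟩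
  refine (mass_le_NB _ _ _ (S.r k) fun g hg => (h g hg).1).trans ?_
  have g2 := S.norm k
  have g3 : 0 ≤ NB 0 (S.r k) (S.φ k) := apply_nonneg _ _
  nlinarith

theorem exists_F : ∃ F : ℂ → ℂ, DifferentiableOn ℂ F (Om n) ∧
    ∀ a, LocUnif U S.r (Om n) (v S a) (fun z => lv (F z) a) :=
  (locEx S).exists_limit S.hr (isOpen_Om n)

theorem continuous_lv (a : Fin 4) : Continuous fun c : ℂ => lv c a := by
  fin_cases a <;> simp only [lv, Fin.zero_eta, Fin.mk_one, Fin.reduceFinMk] <;> fun_prop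

/-- the limit field -/
def Ph (n : ℂ) (F : ℂ → ℂ) (a : Fin 4) : ℂ → ℝ := (Om n).indicator fun z => lv (F z) a

theorem meas_Ph {F : ℂ → ℂ} (hF : DifferentiableOn ℂ F (Om n)) (a : Fin 4) :
    Measurable (Ph n F a) :=
  Lim2x943.measurable_indicator (isOpen_Om n)
    ((continuous_lv a).comp_continuousOn hF.continuousOn)

theorem strongP {F : ℂ → ℂ} (hF : DifferentiableOn ℂ F (Om n))
    (hlim : ∀ a, LocUnif U S.r (Om n) (v S a) (fun z => lv (F z) a)) (a : Fin 4) {s : ℝ}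
    (hs0 : 0 < s) (hs : s < 1) :
    Tendsto (fun k => ∫⁻ z in bC s, sq2 (v S a k (flr (S.r k) z) - Ph n F a z)) U (𝓝 0) :=
  strongC S ((continuous_lv a).comp_continuousOn hF.continuousOn) (hlim a) hs0 hs

theorem flr_mem {s r : ℝ} (hr : 1 ≤ (1 - s) * r) (hr0 : 0 < r) {z : ℂ} (hz : z ∈ bC s) :
    flr r z ∈ bx (0 : Face) r := by
  rw [mem_bx_real]
  simp only [Prod.fst_zero, Prod.snd_zero, Int.cast_zero, sub_zero, Lim1x943.flr_fst,
    Lim1x943.flr_snd]
  have key : ∀ x : ℝ, |x| ≤ s → |(⌊r * x⌋ : ℝ)| ≤ r := by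
    intro x hx
    rw [abs_le] at hx
    have h1 := Int.floor_le (r * x)
    have h2 := Int.lt_floor_add_one (r * x)
    rw [abs_le]
    constructor
    · nlinarith
    · nlinarith
  exact ⟨key _ hz.1, key _ hz.2⟩

/-- discrete mass bound in integral form -/
theorem disc_mass {s : ℝ} (hs : s < 1) : ∀ᶠ k in (U : Filter ℕ),
    ∑ a, ∫⁻ z in bC s, sq2 (v S a k (flr (S.r k) z)) ≤ 1 := by
  filter_upwards [S.hr.eventually_ge_atTop (1 / (1 - s)), S.hr.eventually_gt_atTop 0] with k hk hr0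
  have h1s : 0 < 1 - s := by linarith
  have hr : 1 ≤ (1 - s) * S.r k := by rw [div_le_iff₀ h1s] at hk; linarith
  have h1 : ∀ a, ∫⁻ z in bC s, sq2 (v S a k (flr (S.r k) z))
      ≤ ∑ f ∈ bx (0 : Face) (S.r k), ENNReal.ofReal (S.φ k f a ^ 2) := by
    intro a
    refine (Lim2x943.lintegral_flr_le hr0 (fun z hz => flr_mem hr hr0 hz)
      (fun f => sq2 (v S a k f))).trans (le_of_eq ?_)
    refine sum_congr rfl fun f _ => ?_
    rw [sq2, ← ENNReal.ofReal_mul (sq_nonneg _), v]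
    congr 1
    field_simp
  calc ∑ a, ∫⁻ z in bC s, sq2 (v S a k (flr (S.r k) z))
      ≤ ∑ a, ∑ f ∈ bx (0 : Face) (S.r k), ENNReal.ofReal (S.φ k f a ^ 2) :=
        sum_le_sum fun a _ => h1 a
    _ = ENNReal.ofReal (NB 0 (S.r k) (S.φ k) ^ 2) := by
        rw [sum_comm, NB_sq, ENNReal.ofReal_sum_of_nonneg fun f _ => nsq_nonneg _]
        refine sum_congr rfl fun f _ => ?_
        rw [nsq, ENNReal.ofReal_sum_of_nonneg fun a _ => sq_nonneg _]
    _ ≤ 1 := by
        rw [← ENNReal.ofReal_one]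
        apply ENNReal.ofReal_le_ofReal
        have g2 := S.norm k
        have g3 : 0 ≤ NB 0 (S.r k) (S.φ k) := apply_nonneg _ _
        nlinarith

theorem mass_P {F : ℂ → ℂ} (hF : DifferentiableOn ℂ F (Om n))
    (hlim : ∀ a, LocUnif U S.r (Om n) (v S a) (fun z => lv (F z) a)) {s : ℝ}
    (hs0 : 0 < s) (hs : s < 1) : ∑ a, ∫⁻ z in bC s, sq2 (Ph n F a z) ≤ 1 := by
  have h1 : ∀ a, Tendsto (fun k => ∫⁻ z in bC s, sq2 (v S a k (flr (S.r k) z))) U
      (𝓝 (∫⁻ z in bC s, sq2 (Ph n F a z))) := by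
    intro a
    have h2 := Lim2x943.norm_tendsto (meas_Ph hF a) (strongP S hF hlim a hs0 hs)
    have h3 := ((ENNReal.continuous_pow 2).tendsto _).comp h2
    simp only [Function.comp_def, Lim2x943.nrm_sq] at h3
    exact h3
  exact le_of_tendsto (tendsto_finsetSum _ fun a _ => h1 a) (disc_mass S hs)

theorem sum_sq_Ph (F : ℂ → ℂ) (z : ℂ) :
    ∑ a, sq2 (Ph n F a z) = (Om n).indicator (fun z => ENNReal.ofReal (2 * ‖F z‖ ^ 2)) z := by
  by_cases hz : z ∈ Om n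
  · rw [Set.indicator_of_mem hz]
    simp only [Ph, Set.indicator_of_mem hz, sq2]
    rw [← ENNReal.ofReal_sum_of_nonneg fun a _ => sq_nonneg _]
    congr 1
    have := nsq_lv (F z)
    rw [nsq, Complex.normSq_eq_norm_sq] at this
    exact this
  · rw [Set.indicator_of_notMem hz]
    simp [Ph, Set.indicator_of_notMem hz, sq2]

theorem lint_P {F : ℂ → ℂ} (hF : DifferentiableOn ℂ F (Om n)) (B : Set ℂ) :
    ∑ a, ∫⁻ z in B, sq2 (Ph n F a z)
      = ∫⁻ z in B, (Om n).indicator (fun z => ENNReal.ofReal (2 * ‖F z‖ ^ 2)) z := by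
  rw [← lintegral_finsetSum]
  · simp only [sum_sq_Ph]
  · intro a _
    exact Lim2x943.measurable_sq2.comp (meas_Ph hF a)

theorem Om_sub_iUnion (n : ℂ) : Om n ⊆ ⋃ m : ℕ, bC (1 - 1 / ((m : ℝ) + 2)) := by
  intro z hz
  obtain ⟨m, hm⟩ := exists_nat_gt (1 / (1 - max |z.re| |z.im|))
  have h1 : max |z.re| |z.im| < 1 := max_lt hz.1 hz.2.1
  have h2 : 0 < 1 - max |z.re| |z.im| := by linarith
  rw [Set.mem_iUnion]
  refine ⟨m, ?_⟩
  have h3 : 1 / ((m : ℝ) + 2) ≤ 1 - max |z.re| |z.im| := by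
    rw [div_lt_iff₀ h2] at hm
    rw [div_le_iff₀ (by positivity)]
    nlinarith
  have h4 := le_max_left |z.re| |z.im|
  have h5 := le_max_right |z.re| |z.im|
  exact ⟨by linarith, by linarith⟩

/-- the limit has mass at most one -/
theorem mass_Om {F : ℂ → ℂ} (hF : DifferentiableOn ℂ F (Om n))
    (hlim : ∀ a, LocUnif U S.r (Om n) (v S a) (fun z => lv (F z) a)) :
    ∫⁻ z in Om n, ENNReal.ofReal (2 * ‖F z‖ ^ 2) ≤ 1 := by
  have e1 : ∫⁻ z in Om n, ENNReal.ofReal (2 * ‖F z‖ ^ 2)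
      = ∫⁻ z, (Om n).indicator (fun z => ENNReal.ofReal (2 * ‖F z‖ ^ 2)) z :=
    (lintegral_indicator (isOpen_Om n).measurableSet _).symm
  have e2 : ∫⁻ z, (Om n).indicator (fun z => ENNReal.ofReal (2 * ‖F z‖ ^ 2)) z
      ≤ ∫⁻ z in ⋃ m : ℕ, bC (1 - 1 / ((m : ℝ) + 2)),
        (Om n).indicator (fun z => ENNReal.ofReal (2 * ‖F z‖ ^ 2)) z := by
    rw [← lintegral_indicator (MeasurableSet.iUnion fun m => (isClosed_bC _).measurableSet)]
    refine lintegral_mono fun z => ?_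
    by_cases hz : z ∈ Om n
    · rw [Set.indicator_of_mem (Om_sub_iUnion n hz)]
    · rw [Set.indicator_of_notMem hz]
      exact zero_le
  rw [e1]
  refine e2.trans ?_
  have hmono : Monotone fun m : ℕ => bC (1 - 1 / ((m : ℝ) + 2)) := by
    intro i j hij z hz
    have h1 : (1 : ℝ) / ((j : ℝ) + 2) ≤ 1 / ((i : ℝ) + 2) := by
      have : (i : ℝ) ≤ j := by exact_mod_cast hij
      gcongr
    exact ⟨hz.1.trans (by linarith), hz.2.trans (by linarith)⟩
  rw [setLIntegral_iUnion_of_directed _ (directed_of_isDirected_le hmono)]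
  refine iSup_le fun m => ?_
  rw [← lint_P hF]
  refine mass_P S hF hlim ?_ ?_
  · have : (1 : ℝ) / ((m : ℝ) + 2) ≤ 1 / 2 := by gcongr; linarith [Nat.cast_nonneg (α := ℝ) m]
    linarith
  · have : (0 : ℝ) < 1 / ((m : ℝ) + 2) := by positivity
    linarith

end Crest.Agent.R165.EXb4x811
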