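import Crest.Agent.R165.SR_541

/-!
# Row 165 (S0250): the bond mean of the torus from the conditional energies (helper723)

`bm_of` : the estimate `ERP` for one energy insertion without spins, the torus/disc limit
`DiscLim` and the unperturbed torus limit `UTb` imply that the torus bond mean is the centring
constant `eb` used in `ERP`.
-/

set_option autoImplicit false

noncomputable section

open Filter Topology Finset
open Crest.ProbabilityR.IsingModel

namespace Crest.Agent.R165.EbTorx723

open Crest.Agent.R165.Centx541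
open Crest.Agent.R165.Redx541
open Crest.Agent.R165.Symx541
open Crest.Agent.R165.Red2x541
open Crest.Agent.R165.Mastx541
open Crest.Agent.R165.SRx541
open Crest.Agent.R165.Topx683

theorem meshIndex_zero (a : ℝ) : meshIndex a 0 = (0, 0) := by
  unfold meshIndex
  simp

/-- one-point energy in a disc -/
theorem disc_one {a : ℝ} (ha : 0 < a) (B J lam : ℝ) (R : ℕ) (V : Finset (ℤ × ℤ) → ℝ) (β : ℝ)
    (j : Fin 2) (c : Fin 1 → ℝ) :
    domMom (Metric.ball 0 B) a .plus J lam R V β (![] : Fin 0 → ℂ) (![0] : Fin 1 → ℂ) ![j] c =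
      discBonds (B / a) J lam R V β {((0, 0), j)} - c 0 := by
  have hfin : (domainSites (Metric.ball (0 : ℂ) (B / a)) 1).Finite :=
    domainSites_finite Metric.isBounded_ball one_pos
  unfold domMom discBonds
  rw [domainExpect_ball B a ha, ← domE_apply, ← domE_apply]
  have e1 : obs (fun i => meshIndex a ((![] : Fin 0 → ℂ) i))
      (fun k => meshIndex a ((![0] : Fin 1 → ℂ) k)) ![j] c =
      (fun s : ℤ × ℤ → Bool => ∏ e ∈ ({((0, 0), j)} : Finset ((ℤ × ℤ) × Fin 2)), ep e s) -
        c 0 • fun _ => (1 : ℝ) := by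
    funext s
    unfold obs
    simp [ep, meshIndex_zero]
  rw [e1, map_sub, map_smul, domE_apply, domE_apply, domainExpect_one _ _ _ _ _ _ _ _ hfin]
  simp

/-- **bond mean**: the torus limit of one bond is the centring constant of `ERP` -/
theorem bm_of (hU : UTb) (h0 : DiscLim 1 0 0 (fun _ => 0) (criticalBeta 1))
    {J lam : ℝ} {R : ℕ} {V : Finset (ℤ × ℤ) → ℝ} {β Ze : ℝ} {eb : Fin 2 → ℝ}
    (hE : ERP J lam R V β Ze eb) (hL : DiscLim J lam R V β) (j : Fin 2) :
    Tendsto (fun L : ℕ => torBonds L J lam R V β {((0, 0), j)}) atTop (𝓝 (eb j)) := by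
  obtain ⟨l, hl1, hl2⟩ := hL {((0, 0), j)}
  obtain ⟨l0, hl01, hl02⟩ := h0 {((0, 0), j)}
  have hl0 : l0 = e0 := tendsto_nhds_unique hl01 (hU.2 j)
  subst hl0
  -- the estimate for one energy at the origin
  have key : ∀ ε > 0, ∀ᶠ a : ℝ in 𝓝[>] 0, |l - eb j| ≤ ε * a := by
    intro ε hε
    have h := hE 0 1 le_rfl (by decide) (![] : Fin 0 → ℂ) (![0] : Fin 1 → ℂ) ![j]
      (by
        intro i k _
        have hi := i.2
        have hk := k.2
        apply Fin.ext
        omega) ε hε
    filter_upwards [h, self_mem_nhdsWithin] with a h ha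
    have ha' : (0 : ℝ) < a := ha
    have t0 : Tendsto (fun B : ℝ => B / a) atTop atTop := tendsto_id.atTop_div_const ha'
    have t1 : Tendsto (fun B : ℝ =>
        domMom (Metric.ball 0 B) a .plus J lam R V β (![] : Fin 0 → ℂ) (![0] : Fin 1 → ℂ) ![j]
            (fun k => eb ((![j] : Fin 1 → Fin 2) k)) /
          spm (Metric.ball 0 B) a .plus J lam R V β (![] : Fin 0 → ℂ)) atTop
        (𝓝 (l - eb j)) := by
      have h1 := (hl2.comp t0).sub_const (eb j)
      refine h1.congr fun B => ?_
      rw [spm_zero Metric.isBounded_ball ha', div_one, disc_one ha']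
      simp
    have t2 : Tendsto (fun B : ℝ =>
        D0c (Metric.ball 0 B) a .plus (![] : Fin 0 → ℂ) (![0] : Fin 1 → ℂ) ![j] /
          spm0 (Metric.ball 0 B) a .plus (![] : Fin 0 → ℂ)) atTop (𝓝 0) := by
      have h1 := (hl02.comp t0).sub_const e0
      rw [sub_self] at h1
      refine h1.congr fun B => ?_
      unfold spm0 D0c
      rw [spm_zero Metric.isBounded_ball ha', div_one, disc_one ha']
      simp
    have t3 := (t1.sub (t2.const_mul (Ze ^ 1))).abs
    rw [mul_zero, sub_zero] at t3
    rw [pow_one a] at h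
    exact le_of_tendsto t3 h
  have hz : |l - eb j| = 0 := by
    have h1 := key 1 one_pos
    have h2 : Tendsto (fun a : ℝ => 1 * a) (𝓝[>] 0) (𝓝 0) := by
      simp only [one_mul]
      exact tendsto_nhdsWithin_of_tendsto_nhds tendsto_id
    exact le_antisymm (ge_of_tendsto h2 h1) (abs_nonneg _)
  have : l = eb j := by
    have := abs_eq_zero.1 hz
    linarith
  rwa [this] at hl1

end Crest.Agent.R165.EbTorx723
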