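import Crest.Prelude.Def_PerturbedIsing

/-!
# Row 165 (S0250): mesh embedding of lattice functions (helper622)

`emb a g z = g (meshIndex a z)`: the piecewise constant extension of a function on `ℤ × ℤ` (faces,
lower left corner) to the plane at mesh `a`.
* `map_meshIndex` : the image of Lebesgue measure under `meshIndex a` is `a² · counting`
* `lintegral_emb`, `integral_emb`, `integral_emb_finset` : integrals are `a²` times sums
* `cell a f` : the half-open square of the face `f`
-/

set_option autoImplicit false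

noncomputable section

open MeasureTheory Filter Topology Set
open Crest.ProbabilityR.IsingModel

namespace Crest.Agent.R165.Embx622

/-- piecewise constant extension at mesh `a` -/
def emb {α : Type*} (a : ℝ) (g : ℤ × ℤ → α) (z : ℂ) : α := g (meshIndex a z)

theorem meshIndex_measurable (a : ℝ) : Measurable (meshIndex a) := by
  unfold meshIndex
  exact (Int.measurable_floor.comp (Complex.measurable_re.div_const a)).prodMk
    (Int.measurable_floor.comp (Complex.measurable_im.div_const a))

theorem emb_measurable {α : Type*} [MeasurableSpace α] (a : ℝ) (g : ℤ × ℤ → α) :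
    Measurable (emb a g) :=
  (measurable_of_countable g).comp (meshIndex_measurable a)

/-- the half-open square of the face `f` -/
def cell (a : ℝ) (f : ℤ × ℤ) : Set ℂ := meshIndex a ⁻¹' {f}

theorem mem_cell {a : ℝ} {f : ℤ × ℤ} {z : ℂ} : z ∈ cell a f ↔ meshIndex a z = f := Iff.rfl

theorem mem_cell' {a : ℝ} (ha : 0 < a) {f : ℤ × ℤ} {z : ℂ} : z ∈ cell a f ↔
    (a * f.1 ≤ z.re ∧ z.re < a * (f.1 + 1)) ∧ (a * f.2 ≤ z.im ∧ z.im < a * (f.2 + 1)) := by
  rw [mem_cell, meshIndex, Prod.ext_iff]
  simp only [Int.floor_eq_iff]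
  rw [le_div_iff₀ ha, div_lt_iff₀ ha, le_div_iff₀ ha, div_lt_iff₀ ha]
  constructor
  · rintro ⟨⟨h1, h2⟩, h3, h4⟩
    exact ⟨⟨by linarith [mul_comm (f.1 : ℝ) a], by linarith [mul_comm ((f.1 : ℝ) + 1) a]⟩,
      by linarith [mul_comm (f.2 : ℝ) a], by linarith [mul_comm ((f.2 : ℝ) + 1) a]⟩
  · rintro ⟨⟨h1, h2⟩, h3, h4⟩
    exact ⟨⟨by linarith [mul_comm (f.1 : ℝ) a], by linarith [mul_comm ((f.1 : ℝ) + 1) a]⟩,
      by linarith [mul_comm (f.2 : ℝ) a], by linarith [mul_comm ((f.2 : ℝ) + 1) a]⟩

theorem cell_measurable (a : ℝ) (f : ℤ × ℤ) : MeasurableSet (cell a f) :=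
  meshIndex_measurable a (measurableSet_singleton f)

theorem volume_cell {a : ℝ} (ha : 0 < a) (f : ℤ × ℤ) :
    volume (cell a f) = ENNReal.ofReal (a ^ 2) := by
  have h : cell a f = Complex.measurableEquivRealProd ⁻¹'
      (Ico (a * f.1) (a * (f.1 + 1)) ×ˢ Ico (a * f.2) (a * (f.2 + 1))) := by
    ext z
    rw [mem_cell' ha]
    simp [Complex.measurableEquivRealProd_apply]
  rw [h, Complex.volume_preserving_equiv_real_prod.measure_preimage_equiv,
    Measure.volume_eq_prod, Measure.prod_prod, Real.volume_Ico, Real.volume_Ico,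
    ← ENNReal.ofReal_mul (by nlinarith)]
  congr 1
  ring

theorem map_meshIndex {a : ℝ} (ha : 0 < a) :
    Measure.map (meshIndex a) (volume : Measure ℂ) = ENNReal.ofReal (a ^ 2) • Measure.count := by
  refine Measure.ext_of_singleton fun f => ?_
  rw [Measure.map_apply (meshIndex_measurable a) (measurableSet_singleton f)]
  change volume (cell a f) = _
  rw [volume_cell ha, Measure.smul_apply, Measure.count_singleton, smul_eq_mul, mul_one]

theorem lintegral_emb {a : ℝ} (ha : 0 < a) (g : ℤ × ℤ → ENNReal) :
    ∫⁻ z, emb a g z = ENNReal.ofReal (a ^ 2) * ∑' f, g f := by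
  have h := lintegral_map (μ := (volume : Measure ℂ)) (measurable_of_countable g)
    (meshIndex_measurable a)
  rw [map_meshIndex ha, lintegral_smul_measure, lintegral_count] at h
  exact h.symm

theorem integrable_emb {F : Type*} [NormedAddCommGroup F] {a : ℝ} (ha : 0 < a)
    {g : ℤ × ℤ → F} (hg : Summable fun f => ‖g f‖) : Integrable (emb a g) := by
  have h1 : Integrable g (ENNReal.ofReal (a ^ 2) • (Measure.count : Measure (ℤ × ℤ))) := by
    refine Integrable.smul_measure ?_ ENNReal.ofReal_ne_top
    exact integrable_count_iff.2 hg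
  rw [← map_meshIndex ha] at h1
  exact (integrable_map_measure h1.aestronglyMeasurable
    (meshIndex_measurable a).aemeasurable).1 h1

theorem integral_emb {F : Type*} [NormedAddCommGroup F] [NormedSpace ℝ F] [CompleteSpace F]
    {a : ℝ} (ha : 0 < a) {g : ℤ × ℤ → F} (hg : Summable fun f => ‖g f‖) :
    ∫ z, emb a g z = a ^ 2 • ∑' f, g f := by
  have h1 : Integrable g (Measure.count : Measure (ℤ × ℤ)) := integrable_count_iff.2 hg
  have h := integral_map (μ := (volume : Measure ℂ)) (meshIndex_measurable a).aemeasurable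
    (f := g) (by
      rw [map_meshIndex ha]
      exact (h1.smul_measure ENNReal.ofReal_ne_top).aestronglyMeasurable)
  rw [map_meshIndex ha, integral_smul_measure, integral_countable h1] at h
  rw [ENNReal.toReal_ofReal (by positivity)] at h
  rw [show (∫ z, emb a g z) = ∫ z, g (meshIndex a z) from rfl, ← h]
  congr 1
  refine tsum_congr fun f => ?_
  simp [measureReal_def]

end Crest.Agent.R165.Embx622
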