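import Crest.Agent.R165.MacI_622
import Crest.Agent.R165.Br3_644

/-!
# Row 165 (S0250), block U4 (helper576): source at a branch vertex, exact part

Conventions of `Tr1_40` (fields `Face → Fin 4 → ℝ`).
* `psS V` : the explicit field `PsiS` of helper644 (source at the branch), tip at the vertex `V`
* `lvec w V` : the south-west corner functional `S_V - w N_{V-e₂}` of the face `V` as a vector
* `A_psS` : `A (rayw V * xc) (psS V) = - lvec`
* `cm w χ φ` : commutator of `A` with a cut-off; `A_cut`
* `tip_gauge` : near the tip `x j` the ray signs are `gz f * gz (nb f h) * rayw (V j) f h`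
* `cut_tip` : `A w (χ gz psS) = - gz(V) lvec + gz * commutator`
-/

set_option autoImplicit false
set_option linter.unusedVariables false
set_option linter.unusedSimpArgs false

noncomputable section

open MeasureTheory Filter Topology Set Metric
open Crest.ProbabilityR.IsingModel
open Crest.Agent.R165.Tr1x40 Crest.Agent.R165.RIfx891 Crest.Agent.R165.Embx622
open Crest.Agent.R165.Mac0x622

namespace Crest.Agent.R165.Eta1x576

/-! ### the explicit field -/

/-- the source field of the branched plane, tip at the vertex `V` -/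
def psS (V : Face) : Fld := fun f h => Br1x644.PsiS ((f.1 - V.1, f.2 - V.2), h)

/-- the weights of the branched plane, tip at the vertex `V` -/
def wT (V : Face) : Fld := fun f h => rayw V f h * xc

/-- south-west corner vector at the vertex `V` -/
def lvec (w : Fld) (V : Face) : Fld := fun f h =>
  if f = V ∧ h = 0 then 1 else if f = (V.1, V.2 - 1) ∧ h = 2 then -w V 0 else 0

theorem wT_self (V : Face) : wT V V 0 = -xc := by
  unfold wT rayw
  simp

theorem A_psS (V : Face) (f : Face) (h : Fin 4) : A (wT V) (psS V) f h = -lvec (wT V) V f h := by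
  have key : A (wT V) (psS V) f h =
      Latx683.Aop Br1x644.wB Br1x644.PsiS ((f.1 - V.1, f.2 - V.2), h) := by
    fin_cases h
    · simp only [Fin.zero_eta, Fin.isValue, A_S, psS, Latx683.Aop_S]
      have e1 : wT V f 0 = Latx683.yN Br1x644.wB (f.1 - V.1, f.2 - V.2 - 1) := by
        rw [Br1x644.yN_wB]
        unfold wT rayw Br1x644.sg
        have : (Latx683.xc : ℝ) = xc := rfl
        rw [this]
        congr 1
        by_cases hc : f.2 = V.2 ∧ V.1 ≤ f.1
        · rw [if_pos (by simp [hc]), if_pos (by omega)]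
        · rw [if_neg (by simpa using hc), if_neg (by omega)]
      rw [e1, show f.2 - 1 - V.2 = f.2 - V.2 - 1 by ring]
    · simp only [Fin.mk_one, Fin.isValue, A_E, psS, Latx683.Aop_E]
      have e1 : wT V f 1 = Latx683.yE Br1x644.wB (f.1 - V.1, f.2 - V.2) := by
        rw [Br1x644.yE_wB]
        unfold wT rayw
        have : (Latx683.xc : ℝ) = xc := rfl
        rw [this]
        simp
      rw [e1, show f.1 + 1 - V.1 = f.1 - V.1 + 1 by ring]
    · simp only [Fin.reduceFinMk, A_N, psS, Latx683.Aop_N]
      have e1 : wT V f 2 = Latx683.yN Br1x644.wB (f.1 - V.1, f.2 - V.2) := by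
        rw [Br1x644.yN_wB]
        unfold wT rayw Br1x644.sg
        have : (Latx683.xc : ℝ) = xc := rfl
        rw [this]
        congr 1
        by_cases hc : f.2 + 1 = V.2 ∧ V.1 ≤ f.1
        · rw [if_pos (by simp [hc]), if_pos (by omega)]
        · rw [if_neg (by simpa using hc), if_neg (by omega)]
      rw [e1, show f.2 + 1 - V.2 = f.2 - V.2 + 1 by ring]
    · simp only [Fin.reduceFinMk, A_W, psS, Latx683.Aop_W]
      have e1 : wT V f 3 = Latx683.yE Br1x644.wB (f.1 - V.1 - 1, f.2 - V.2) := by
        rw [Br1x644.yE_wB]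
        unfold wT rayw
        have : (Latx683.xc : ℝ) = xc := rfl
        rw [this]
        simp
      rw [e1, show f.1 - 1 - V.1 = f.1 - V.1 - 1 by ring]
  rw [key, Br1x644.Aop_PsiS]
  unfold lvec
  rw [wT_self, neg_neg]
  have hx : (Latx683.xc : ℝ) = xc := rfl
  rw [hx]
  have i1 : (((f.1 - V.1, f.2 - V.2), h) : Latx683.HE ℤ) = ((0, -1), 2) ↔
      (f = (V.1, V.2 - 1) ∧ h = 2) := by
    obtain ⟨f1, f2⟩ := f
    obtain ⟨v1, v2⟩ := V
    simp only [Prod.mk.injEq]
    constructor
    · rintro ⟨⟨h1, h2⟩, h3⟩; exact ⟨⟨by omega, by omega⟩, h3⟩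
    · rintro ⟨⟨h1, h2⟩, h3⟩; exact ⟨⟨by omega, by omega⟩, h3⟩
  have i2 : (((f.1 - V.1, f.2 - V.2), h) : Latx683.HE ℤ) = ((0, 0), 0) ↔ (f = V ∧ h = 0) := by
    obtain ⟨f1, f2⟩ := f
    obtain ⟨v1, v2⟩ := V
    simp only [Prod.mk.injEq]
    constructor
    · rintro ⟨⟨h1, h2⟩, h3⟩; exact ⟨⟨by omega, by omega⟩, h3⟩
    · rintro ⟨⟨h1, h2⟩, h3⟩; exact ⟨⟨by omega, by omega⟩, h3⟩
  by_cases c1 : f = V ∧ h = 0
  · have c2 : ¬ (f = (V.1, V.2 - 1) ∧ h = 2) := by
      rintro ⟨-, h2⟩
      rw [c1.2] at h2
      exact absurd h2 (by decide)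
    rw [if_neg (fun hh => c2 (i1.1 hh)), if_pos (i2.2 c1), if_pos c1]
  · by_cases c2 : f = (V.1, V.2 - 1) ∧ h = 2
    · rw [if_pos (i1.2 c2), if_neg c1, if_pos c2]
    · rw [if_neg (fun hh => c2 (i1.1 hh)), if_neg (fun hh => c1 (i2.1 hh)), if_neg c1, if_neg c2,
        neg_zero]

/-! ### commutator with a cut-off -/

/-- commutator -/
def cm (w : Fld) (χ : Face → ℝ) (φ : Fld) : Fld := fun f h =>
  (χ (nb f h) - χ f) * Y w φ f h

theorem A0_mul (c : ℝ) (p : Fin 4 → ℝ) (h : Fin 4) : A0 (fun i => c * p i) h = c * A0 p h := by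
  fin_cases h <;> simp [A0] <;> ring

theorem A_cut (w φ : Fld) (χ : Face → ℝ) (f : Face) (h : Fin 4) :
    A w (fun f h => χ f * φ f h) f h = χ f * A w φ f h + cm w χ φ f h := by
  unfold A cm Y
  have : A0 ((fun f h => χ f * φ f h) f) h = χ f * A0 (φ f) h := A0_mul (χ f) (φ f) h
  rw [this]
  ring

/-- gauge transformation at one row -/
theorem A_gauge_row {w w' φ : Fld} {s : Face → ℝ} {f : Face} {h : Fin 4} (hs : ∀ f, s f ^ 2 = 1)
    (hw : w f h = s f * s (nb f h) * w' f h) :
    A w (fun f h => s f * φ f h) f h = s f * A w' φ f h ∧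
      Y w (fun f h => s f * φ f h) f h = s f * Y w' φ f h := by
  have h2 : Y w (fun f h => s f * φ f h) f h = s f * Y w' φ f h := by
    unfold Y
    rw [hw]
    linear_combination (sg h * s f * w' f h * φ (nb f h) (op h)) * hs (nb f h)
  refine ⟨?_, h2⟩
  unfold A
  have : A0 ((fun f h => s f * φ f h) f) h = s f * A0 (φ f) h := A0_mul (s f) (φ f) h
  rw [this, h2]
  ring

/-! ### the gauge near a tip -/

variable {n : ℕ}

theorem rays_update (V : Fin n → Face) (j : Fin n) (q : Face) (f : Face) (h : Fin 4)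
    (hq : rayw q f h = 1) : rays V f h = rays (Function.update V j q) f h * rayw (V j) f h := by
  classical
  unfold rays
  rw [← Finset.mul_prod_erase Finset.univ (fun i => rayw (V i) f h) (Finset.mem_univ j),
    ← Finset.mul_prod_erase Finset.univ (fun i => rayw (Function.update V j q i) f h)
      (Finset.mem_univ j), Function.update_self, hq, one_mul, mul_comm]
  congr 1
  refine Finset.prod_congr rfl fun i hi => ?_
  rw [Function.update_of_ne (Finset.ne_of_mem_erase hi)]

theorem not_rel_self (z : ℂ) : ¬ rel z z := fun h => lt_irrefl _ h.2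

theorem gz_update (x : Fin n → ℂ) (j : Fin n) (p : ℂ) (hp : ¬ rel p (x j)) (V : Fin n → Face)
    (q : Face) (f : Face) :
    gz (Function.update x j p) (x j) (Function.update V j q) f = gz x (x j) V f := by
  classical
  unfold gz
  refine Finset.prod_congr rfl fun i _ => ?_
  by_cases hi : i = j
  · subst hi
    rw [Function.update_self, if_neg (fun h => hp h.1), if_neg (fun h => not_rel_self _ h.1)]
  · rw [Function.update_of_ne hi, Function.update_of_ne hi]

/-- **gauge near the tip `x j`** -/
theorem tip_gauge {x : Fin n → ℂ} (hx : Function.Injective x) {a : ℕ → ℝ} (hpos : ∀ k, 0 < a k)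
    (hlim : Tendsto a atTop (𝓝 0)) {V : ℕ → Fin n → Face}
    (tip : ∀ i, Tendsto (fun k => meshPoint (a k) (V k i)) atTop (𝓝 (x i))) (j : Fin n) :
    ∃ ρ > 0, ∀ᶠ k in atTop, ∀ f : Face, ‖meshPoint (a k) f - x j‖ < ρ → ∀ h,
      rays (V k) f h = gz x (x j) (V k) f * gz x (x j) (V k) (nb f h) * rayw (V k j) f h := by
  classical
  -- replace the tip `j` by the point `p = x j + i`
  set p : ℂ := x j + Complex.I with hp
  have hpim : p.im = (x j).im + 1 := by simp [hp]
  have hrel : ¬ rel p (x j) := fun h => by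
    have := h.1
    rw [hpim] at this
    linarith
  set x' := Function.update x j p with hx'
  set q : ℕ → Face := fun k => meshIndex (a k) p with hq
  have tq : Tendsto (fun k => meshPoint (a k) (q k)) atTop (𝓝 p) := by
    rw [tendsto_iff_norm_sub_tendsto_zero]
    refine squeeze_zero (fun _ => norm_nonneg _) (fun k => Upx622.norm_mesh_sub (hpos k) p) ?_
    simpa using hlim.const_mul 2
  have tip' : ∀ i, Tendsto (fun k => meshPoint (a k) (Function.update (V k) j (q k) i)) atTop
      (𝓝 (x' i)) := by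
    intro i
    by_cases hi : i = j
    · subst hi
      simpa [hx'] using tq
    · simpa [hx', Function.update_of_ne hi] using tip i
  have hne : ∀ i, x' i ≠ x j := by
    intro i
    by_cases hi : i = j
    · subst hi
      rw [hx', Function.update_self]
      intro h
      have := congrArg Complex.im h
      rw [hpim] at this
      linarith
    · rw [hx', Function.update_of_ne hi]
      exact fun h => hi (hx h)
  obtain ⟨ρ, hρ, hk⟩ := local_gauge hpos hlim tip' hne
  refine ⟨min ρ (1 / 4), by positivity, ?_⟩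
  have e1 : ∀ᶠ k in atTop, a k < 1 / 8 := hlim.eventually (eventually_lt_nhds (by norm_num))
  have e2 : ∀ᶠ k in atTop, ‖meshPoint (a k) (q k) - p‖ < 1 / 8 := by
    have := (Metric.tendsto_nhds.1 tq) (1 / 8) (by norm_num)
    simpa [dist_eq_norm] using this
  filter_upwards [hk, e1, e2] with k h1 h2 h3 f hf h
  have h4 := h1 f (hf.trans_le (min_le_left _ _)) h
  rw [gz_update x j p hrel, gz_update x j p hrel] at h4
  -- the ray of `q` is far away
  have hfim : |a k * (f.2 : ℝ) - (x j).im| < 1 / 4 := by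
    have := (Complex.abs_im_le_norm (meshPoint (a k) f - x j)).trans_lt
      (hf.trans_le (min_le_right _ _))
    rwa [Complex.sub_im, meshPoint_im] at this
  have hqim : |a k * ((q k).2 : ℝ) - ((x j).im + 1)| < 1 / 8 := by
    have := (Complex.abs_im_le_norm (meshPoint (a k) (q k) - p)).trans_lt h3
    rwa [Complex.sub_im, meshPoint_im, hpim] at this
  rw [abs_lt] at hfim hqim
  have hak := hpos k
  have h5 : f.2 + 1 < (q k).2 := by
    have h6 : a k * ((f.2 : ℝ) + 1) < a k * ((q k).2 : ℝ) := by linarith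
    have h7 := lt_of_mul_lt_mul_left h6 hak.le
    exact_mod_cast h7
  have hr : rayw (q k) f h = 1 := by
    unfold rayw
    rw [if_neg]
    rintro (⟨-, h8, -⟩ | ⟨-, h8, -⟩) <;> omega
  rw [rays_update (V k) j (q k) f h hr, h4]

/-! ### the cut-off source field -/

theorem Y_congr {w w' φ : Fld} {f : Face} {h : Fin 4} (e : w f h = w' f h) :
    Y w φ f h = Y w' φ f h := by unfold Y; rw [e]

/-- **cut-off source field**: `u = χ s psS`, where near the support of `χ` the weights are
`s f * s (nb f h) * rayw V f h * xc` and `χ = 1` at the two faces of the source -/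
theorem cut_tip {w : Fld} {s : Face → ℝ} {V : Face} (hs : ∀ f, s f ^ 2 = 1) {χ : Face → ℝ}
    (hw : ∀ f h, (χ f ≠ 0 ∨ χ (nb f h) ≠ 0) → w f h = s f * s (nb f h) * (rayw V f h * xc))
    (h1 : χ V = 1) (h2 : χ (V.1, V.2 - 1) = 1) (f : Face) (h : Fin 4) :
    A w (fun f h => χ f * (s f * psS V f h)) f h = -(s V * lvec w V f h) +
      (χ (nb f h) - χ f) * (s f * Y (wT V) (psS V) f h) := by
  rw [A_cut]
  have hcm : cm w χ (fun f h => s f * psS V f h) f h =
      (χ (nb f h) - χ f) * (s f * Y (wT V) (psS V) f h) := by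
    unfold cm
    by_cases hc : χ f ≠ 0 ∨ χ (nb f h) ≠ 0
    · have := hw f h hc
      rw [(A_gauge_row (φ := psS V) (w' := wT V) hs (by rw [this]; rfl)).2]
    · rw [not_or, not_not, not_not] at hc
      rw [hc.1, hc.2]; ring
  rw [hcm]
  congr 1
  -- the source
  by_cases hc : χ f = 0
  · rw [hc, zero_mul]
    have n1 : f ≠ V := fun e => by rw [e, h1] at hc; norm_num at hc
    have n2 : f ≠ (V.1, V.2 - 1) := fun e => by rw [e, h2] at hc; norm_num at hc
    unfold lvec
    rw [if_neg (fun hh => n1 hh.1), if_neg (fun hh => n2 hh.1)]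
    ring
  · have hrow := hw f h (Or.inl hc)
    rw [(A_gauge_row (φ := psS V) (w' := wT V) hs (by rw [hrow]; rfl)).1, A_psS]
    unfold lvec
    have hwV : w V 0 = s V * s (V.1, V.2 - 1) * (-xc) := by
      have := hw V 0 (Or.inl (by rw [h1]; norm_num))
      rw [this]
      have e : rayw V V 0 * xc = -xc := wT_self V
      rw [e]
      rfl
    by_cases c1 : f = V ∧ h = 0
    · rw [if_pos c1, if_pos c1, c1.1, h1]; ring
    · by_cases c2 : f = (V.1, V.2 - 1) ∧ h = 2
      · rw [if_neg c1, if_pos c2, if_neg c1, if_pos c2, c2.1, h2, wT_self, hwV]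
        have := hs V
        linear_combination ((s (V.1, V.2 - 1) * xc)) * this
      · rw [if_neg c1, if_neg c2, if_neg c1, if_neg c2]; ring

end Crest.Agent.R165.Eta1x576
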