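import Crest.Agent.R165.Mac3_622
import Crest.Agent.R165.Eta1_576
import Crest.Agent.R165.Br7_644
import Crest.Agent.R165.BrA3_375

/-!
# Row 165 (S0250), block U4 (helper576): source at a branch vertex, scaling limits

* `bc z = -kp ζ(z)` : amplitude of the branch field; `psS_tendsto`, `psS_bound`
* `gt`, `Gt` : the source created by the cut-off and its limit, `gt_L2`
* `ut`, `ut_L2` : the cut-off field
* `psi`, `A_psi` : regular column
* `tip_gauge_unif`, `tip_weights` : gauge near a tip, uniform radius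
-/

set_option autoImplicit false
set_option linter.unusedVariables false
set_option linter.unusedSimpArgs false

noncomputable section

open MeasureTheory Filter Topology Set Metric
open Crest.ProbabilityR.IsingModel
open Crest.Agent.R165.Tr1x40 Crest.Agent.R165.RIfx891 Crest.Agent.R165.Embx622
open Crest.Agent.R165.Upx622
open Crest.Agent.R165.Mac0x622 Crest.Agent.R165.Mac1x622 Crest.Agent.R165.Mac3x622
open Crest.Agent.R165.Eta1x576

namespace Crest.Agent.R165.Eta2x576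

/-! ### the explicit field in the scaling limit -/

/-- amplitude of the branch field -/
def bc (z : ℂ) : ℂ := -(Br5x644.kp : ℂ) * Br5x644.zt z

/-- generic points: off the diagonal and off the ray -/
def GenC (z : ℂ) : Prop := z.re ≠ z.im ∧ z.im ≠ 0

theorem GenC.gen {z : ℂ} (h : GenC z) : Br5x644.Gen z.re z.im := by
  rcases lt_or_gt_of_ne h.1 with h1 | h1
  · exact Or.inl h1
  · rcases lt_or_gt_of_ne h.2 with h2 | h2
    · exact Or.inr (Or.inl ⟨h1, h2⟩)
    · exact Or.inr (Or.inr ⟨h1, h2⟩)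

theorem ae_gen (y : ℂ) : ∀ᵐ u : ℂ, GenC (u - y) := by
  have key : ∀ L : ℂ →L[ℝ] ℝ, L ≠ 0 → ∀ᵐ u : ℂ, L (u - y) ≠ 0 := by
    intro L hL
    have h1 : volume (LinearMap.ker (L : ℂ →ₗ[ℝ] ℝ) : Set ℂ) = 0 := by
      refine Measure.addHaar_submodule _ _ ?_
      intro h
      apply hL
      ext v
      have : v ∈ LinearMap.ker (L : ℂ →ₗ[ℝ] ℝ) := by rw [h]; trivial
      simpa using this
    rw [ae_iff]
    have e : {u : ℂ | ¬ L (u - y) ≠ 0} =
        (fun u => u - y) ⁻¹' (LinearMap.ker (L : ℂ →ₗ[ℝ] ℝ) : Set ℂ) := by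
      ext u; simp
    rw [e]
    simp only [sub_eq_add_neg]
    rw [measure_preimage_add_right]
    exact h1
  have k1 := key (Complex.reCLM - Complex.imCLM) (fun h => by
    have := congrArg (fun L : ℂ →L[ℝ] ℝ => L 1) h
    simp at this)
  have k2 := key Complex.imCLM (fun h => by
    have := congrArg (fun L : ℂ →L[ℝ] ℝ => L Complex.I) h
    simp at this)
  filter_upwards [k1, k2] with u h1 h2
  refine ⟨fun h => h1 ?_, fun h => h2 ?_⟩
  · simp only [sub_apply, Complex.reCLM_apply, Complex.imCLM_apply]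
    rw [h]; ring
  · simpa using h

theorem mesh_diff_cv {a : ℕ → ℝ} (hpos : ∀ k, 0 < a k) (hlim : Tendsto a atTop (𝓝 0))
    {f V : ℕ → Face} {z y : ℂ} (hf : Tendsto (fun k => meshPoint (a k) (f k)) atTop (𝓝 z))
    (hV : Tendsto (fun k => meshPoint (a k) (V k)) atTop (𝓝 y)) :
    Br5x644.Cv atTop a (fun k => (f k).1 - (V k).1) (fun k => (f k).2 - (V k).2) (z - y).re
      (z - y).im := by
  have h := hf.sub hV
  refine ⟨tendsto_nhdsWithin_iff.2 ⟨hlim, Eventually.of_forall hpos⟩, ?_, ?_⟩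
  · refine ((Complex.continuous_re.tendsto _).comp h).congr fun k => ?_
    simp only [Function.comp, Complex.sub_re, meshPoint_re]
    push_cast; ring
  · refine ((Complex.continuous_im.tendsto _).comp h).congr fun k => ?_
    simp only [Function.comp, Complex.sub_im, meshPoint_im]
    push_cast; ring

theorem psS_tendsto {a : ℕ → ℝ} (hpos : ∀ k, 0 < a k) (hlim : Tendsto a atTop (𝓝 0))
    {f V : ℕ → Face} {z y : ℂ} (hf : Tendsto (fun k => meshPoint (a k) (f k)) atTop (𝓝 z))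
    (hV : Tendsto (fun k => meshPoint (a k) (V k)) atTop (𝓝 y)) (hg : GenC (z - y)) (h : Fin 4) :
    Tendsto (fun k => a k ^ (-(1/2) : ℝ) * psS (V k) (f k) h) atTop (𝓝 (lv (bc (z - y)) h)) :=
  Br5x644.lim_PsiS BrAx375.brA (mesh_diff_cv hpos hlim hf hV) hg.gen h

theorem psS_bound : ∃ C : ℝ, 0 ≤ C ∧ ∀ a : ℝ, 0 < a → ∀ (V f : Face) (h : Fin 4) (d : ℝ), 0 < d →
    d ≤ ‖meshPoint a f - meshPoint a V‖ → |a ^ (-(1/2) : ℝ) * psS V f h| ≤ C / d ^ (1/2 : ℝ) := by
  obtain ⟨C, hC, hb⟩ := Br5x644.PsiS_bound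
  refine ⟨C, hC, fun a ha V f h d hd hf => ?_⟩
  have h1 := hb (f.1 - V.1) (f.2 - V.2) h
  have h2 := meshPoint_sub a f V
  rw [abs_of_pos ha] at h2
  have h3 : d / a ≤ Br5x644.sz (f.1 - V.1) (f.2 - V.2) := by
    unfold Br5x644.sz
    rw [div_le_iff₀ ha]
    have := hf.trans h2
    nlinarith
  have h4 : (d / a) ^ (1/2 : ℝ) ≤ Br5x644.sz (f.1 - V.1) (f.2 - V.2) ^ (1/2 : ℝ) :=
    Real.rpow_le_rpow (by positivity) h3 (by norm_num)
  have h5 : 0 < (d / a) ^ (1/2 : ℝ) := by positivity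
  have hap : 0 < a ^ (-(1/2) : ℝ) := Real.rpow_pos_of_pos ha _
  rw [abs_mul, abs_of_pos hap]
  calc a ^ (-(1/2) : ℝ) * |psS V f h|
      ≤ a ^ (-(1/2) : ℝ) * (C / (d / a) ^ (1/2 : ℝ)) := by
        refine mul_le_mul_of_nonneg_left (h1.trans ?_) hap.le
        exact div_le_div_of_nonneg_left hC h5 h4
    _ = C / d ^ (1/2 : ℝ) := by
        rw [Real.div_rpow hd.le ha.le, Real.rpow_neg ha.le]
        have h6 : a ^ (1/2 : ℝ) ≠ 0 := (Real.rpow_pos_of_pos ha _).ne'
        have h7 : d ^ (1/2 : ℝ) ≠ 0 := (Real.rpow_pos_of_pos hd _).ne'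
        field_simp

theorem rayw_abs (V f : Face) (h : Fin 4) : |rayw V f h| = 1 := by
  unfold rayw; split_ifs <;> norm_num

theorem sg_abs (h : Fin 4) : |sg h| = 1 := by fin_cases h <;> simp [sg]

/-- off the row of the ray the sign is `1` eventually -/
theorem rayw_tendsto {a : ℕ → ℝ} (hpos : ∀ k, 0 < a k) (hlim : Tendsto a atTop (𝓝 0))
    {f V : ℕ → Face} {z y : ℂ} (hf : Tendsto (fun k => meshPoint (a k) (f k)) atTop (𝓝 z))
    (hV : Tendsto (fun k => meshPoint (a k) (V k)) atTop (𝓝 y)) (hg : (z - y).im ≠ 0) (h : Fin 4) :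
    ∀ᶠ k in atTop, rayw (V k) (f k) h = 1 := by
  have cv := mesh_diff_cv hpos hlim hf hV
  rcases lt_or_gt_of_ne hg with h1 | h1
  · filter_upwards [cv.yneg h1, (cv.shift 0 1).yneg h1] with k hk hk2
    unfold rayw
    rw [if_neg]
    rintro (⟨-, h8, -⟩ | ⟨-, h8, -⟩) <;> omega
  · filter_upwards [cv.ypos h1, (cv.shift 0 1).ypos h1] with k hk hk2
    unfold rayw
    rw [if_neg]
    rintro (⟨-, h8, -⟩ | ⟨-, h8, -⟩) <;> omega

/-! ### the source of the cut-off -/

/-- the source -/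
def gt (a : ℝ) (c γ : Face → ℝ) (V : Face) : Fld := fun f h =>
  -((a⁻¹ * (c (nb f h) - c f)) * (γ f * (a ^ (-(1/2) : ℝ) * Y (wT V) (psS V) f h)))

variable {n : ℕ}

/-- the limit source -/
def Gt (x : Fin n → ℂ) (j : Fin n) (χ : ℂ → ℝ) (z : ℂ) (h : Fin 4) : ℝ :=
  -(fderiv ℝ χ z (dv h) * (gc x (x j) z * (sg h * xc * lv (bc (z - x j)) (op h))))

theorem gt_supp {y : ℂ} {r : ℝ} {χ : ℂ → ℝ} (hχ : Cut y r χ) {t : ℝ} (ht : 0 < t)
    (htr : t ≤ r / 16) (γ : Face → ℝ) (V : Face) (f : Face) (h : Fin 4)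
    (hne : gt t (fun f => χ (meshPoint t f)) γ V f h ≠ 0) :
    r / 4 < ‖meshPoint t f - y‖ ∧ ‖meshPoint t f - y‖ < r := by
  have h0 := abs_le.1 (nb_norm t ht f h y)
  have h1 : χ (meshPoint t (nb f h)) ≠ χ (meshPoint t f) := by
    intro hc
    apply hne
    simp only [gt, hc, sub_self, mul_zero, zero_mul, neg_zero]
  constructor
  · by_contra hc
    push Not at hc
    apply h1
    rw [hχ.one _ (by linarith), hχ.one _ (by linarith)]
  · by_contra hc
    push Not at hc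
    apply h1
    rw [hχ.zero _ (by linarith), hχ.zero _ (by linarith)]

theorem gt_bound {C₀ : ℝ} (hC0 : 0 ≤ C₀) (hb : ∀ a : ℝ, 0 < a → ∀ (V f : Face) (h : Fin 4) (d : ℝ),
      0 < d → d ≤ ‖meshPoint a f - meshPoint a V‖ →
      |a ^ (-(1/2) : ℝ) * psS V f h| ≤ C₀ / d ^ (1/2 : ℝ))
    {y : ℂ} {r : ℝ} (hr : 0 < r) {χ : ℂ → ℝ} (hχ : Cut y r χ) {L : NNReal}
    (hL : LipschitzWith L χ) {t : ℝ} (ht : 0 < t)
    (htr : t ≤ r / 16) {γ : Face → ℝ} (hγ : ∀ f, γ f ^ 2 = 1) (V : Face)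
    (hV : ‖meshPoint t V - y‖ ≤ r / 16) (f : Face) (h : Fin 4) :
    |gt t (fun f => χ (meshPoint t f)) γ V f h| ≤ L * (C₀ / (r / 8) ^ (1/2 : ℝ)) := by
  by_cases hne : gt t (fun f => χ (meshPoint t f)) γ V f h = 0
  · rw [hne, abs_zero]; positivity
  have h0 := abs_le.1 (nb_norm t ht f h y)
  obtain ⟨h1, h2⟩ := gt_supp hχ ht htr γ V f h hne
  have h3 : r / 8 ≤ ‖meshPoint t (nb f h) - meshPoint t V‖ := by
    have h4 : ‖meshPoint t (nb f h) - y‖ ≤ ‖meshPoint t (nb f h) - meshPoint t V‖ +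
      ‖meshPoint t V - y‖ := norm_sub_le_norm_sub_add_norm_sub _ _ _
    linarith
  have h4 := hb t ht V (nb f h) (op h) (r / 8) (by linarith) h3
  have h5 : |t⁻¹ * (χ (meshPoint t (nb f h)) - χ (meshPoint t f))| ≤ L := by
    have h6 := hL.dist_le_mul (meshPoint t (nb f h)) (meshPoint t f)
    rw [Real.dist_eq, dist_eq_norm, mesh_nb, add_sub_cancel_left, norm_mul, norm_dv, mul_one,
      Complex.norm_real, Real.norm_eq_abs, abs_of_pos ht] at h6
    rw [abs_mul, abs_inv, abs_of_pos ht, mesh_nb]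
    rw [inv_mul_le_iff₀ ht]
    linarith
  have h6 : |γ f| = 1 := by
    have := hγ f
    rw [← sq_abs] at this
    nlinarith [abs_nonneg (γ f)]
  have h7 : |t ^ (-(1/2) : ℝ) * Y (wT V) (psS V) f h| ≤ C₀ / (r / 8) ^ (1/2 : ℝ) := by
    have e : t ^ (-(1/2) : ℝ) * Y (wT V) (psS V) f h =
        sg h * (rayw V f h * xc) * (t ^ (-(1/2) : ℝ) * psS V (nb f h) (op h)) := by
      unfold Y wT; ring
    rw [e, abs_mul, abs_mul, abs_mul, sg_abs, rayw_abs, one_mul, one_mul, abs_of_pos xc_pos]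
    have h8 : 0 ≤ |t ^ (-(1/2) : ℝ) * psS V (nb f h) (op h)| := abs_nonneg _
    have hx := xc_lt_one
    have hx0 := xc_pos
    nlinarith
  unfold gt
  rw [abs_neg, abs_mul, abs_mul (γ f), h6, one_mul]
  exact mul_le_mul h5 h7 (abs_nonneg _) L.2

/-- pointwise convergence of the source -/
theorem gt_tendsto {x : Fin n → ℂ} {j : Fin n} {r : ℝ} {χ : ℂ → ℝ} (hχ : Cut (x j) r χ)
    {a : ℕ → ℝ} (hpos : ∀ k, 0 < a k) (hlim : Tendsto a atTop (𝓝 0)) {V : ℕ → Fin n → Face}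
    (tip : ∀ i, Tendsto (fun k => meshPoint (a k) (V k i)) atTop (𝓝 (x i)))
    {u : ℂ} (hu : ∀ i, (x i).im ≠ u.im) (hg : GenC (u - x j)) (h : Fin 4) :
    Tendsto (fun k => emb (a k) (fun f => gt (a k) (fun f => χ (meshPoint (a k) f))
      (gz x (x j) (V k)) (V k j) f h) u) atTop (𝓝 (Gt x j χ u h)) := by
  have hP : Tendsto (fun k => meshPoint (a k) (meshIndex (a k) u)) atTop (𝓝 u) := by
    rw [tendsto_iff_norm_sub_tendsto_zero]
    refine squeeze_zero (fun _ => norm_nonneg _) (fun k => norm_mesh_sub (hpos k) u) ?_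
    simpa using hlim.const_mul 2
  have h1 := quot_tendsto hχ.smooth hpos hlim hP (dv h)
  have h2 : Tendsto (fun k => gz x (x j) (V k) (meshIndex (a k) u)) atTop (𝓝 (gc x (x j) u)) :=
    tendsto_const_nhds.congr' ((gz_tendsto hpos hlim tip (x j) hu).mono fun k hk => hk.symm)
  have hP' : Tendsto (fun k => meshPoint (a k) (nb (meshIndex (a k) u) h)) atTop (𝓝 u) := by
    have h3 : Tendsto (fun k => meshPoint (a k) (meshIndex (a k) u) + a k * dv h) atTop
        (𝓝 (u + (0 : ℝ) * dv h)) :=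
      hP.add (((Complex.continuous_ofReal.tendsto 0).comp hlim).mul_const _)
    simp only [Complex.ofReal_zero, zero_mul, add_zero] at h3
    exact h3.congr fun k => (mesh_nb _ _ _).symm
  have h3 := psS_tendsto hpos hlim hP' (tip j) hg (op h)
  have h4 := rayw_tendsto hpos hlim hP (tip j) hg.2 h
  have h5 : Tendsto (fun k => (a k) ^ (-(1/2) : ℝ) * Y (wT (V k j)) (psS (V k j))
      (meshIndex (a k) u) h) atTop (𝓝 (sg h * xc * lv (bc (u - x j)) (op h))) := by
    refine (h3.const_mul (sg h * xc)).congr' ?_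
    filter_upwards [h4] with k hk
    unfold Y wT
    rw [hk]
    ring
  have h6 := ((h1.mul (h2.mul h5))).neg
  unfold Gt
  refine h6.congr fun k => ?_
  simp only [emb, gt, mesh_nb]

theorem zt_norm (z : ℂ) : ‖Br5x644.zt z‖ = ‖z‖ ^ (-(1/2) : ℝ) := by
  unfold Br5x644.zt
  have e : (-(1/2) : ℂ) = ((-(1/2) : ℝ) : ℂ) := by push_cast; ring
  rw [norm_mul, norm_neg, Complex.norm_I, one_mul, e, Complex.norm_cpow_real, norm_neg]

theorem bc_norm_le {z : ℂ} {d : ℝ} (hd : 0 < d) (hz : d ≤ ‖z‖) :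
    ‖bc z‖ ≤ |Br5x644.kp| / d ^ (1/2 : ℝ) := by
  unfold bc
  rw [norm_mul, norm_neg, Complex.norm_real, Real.norm_eq_abs, zt_norm, div_eq_mul_inv]
  refine mul_le_mul_of_nonneg_left ?_ (abs_nonneg _)
  rw [← Real.rpow_neg hd.le]
  exact Real.rpow_le_rpow_of_nonpos hd hz (by norm_num)

theorem bc_measurable : Measurable bc := by
  unfold bc Br5x644.zt
  exact measurable_const.mul (measurable_const.mul (measurable_neg.pow_const _))

theorem fderiv_zero {y : ℂ} {r : ℝ} {χ : ℂ → ℝ} (hχ : Cut y r χ) {z : ℂ}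
    (hz : ‖z - y‖ < r / 2 ∨ 3 * r / 4 < ‖z - y‖) : fderiv ℝ χ z = 0 := by
  rcases hz with hz | hz
  · have h2 : χ =ᶠ[𝓝 z] fun _ => 1 := by
      have : ∀ᶠ u in 𝓝 z, ‖u - y‖ < r / 2 :=
        ((continuous_id.sub continuous_const).norm.tendsto z).eventually (eventually_lt_nhds hz)
      filter_upwards [this] with u hu
      exact hχ.one u hu.le
    rw [h2.fderiv_eq]
    exact fderiv_const_apply _
  · have h2 : χ =ᶠ[𝓝 z] fun _ => 0 := by
      have : ∀ᶠ u in 𝓝 z, 3 * r / 4 < ‖u - y‖ :=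
        ((continuous_id.sub continuous_const).norm.tendsto z).eventually (eventually_gt_nhds hz)
      filter_upwards [this] with u hu
      exact hχ.zero u hu.le
    rw [h2.fderiv_eq]
    exact fderiv_const_apply _

theorem Gt_zero (x : Fin n → ℂ) (j : Fin n) {r : ℝ} {χ : ℂ → ℝ} (hχ : Cut (x j) r χ) (z : ℂ)
    (h : Fin 4) (hz : ‖z - x j‖ < r / 2 ∨ 3 * r / 4 < ‖z - x j‖) : Gt x j χ z h = 0 := by
  unfold Gt
  rw [fderiv_zero hχ hz]
  simp

theorem Gt_bound (x : Fin n → ℂ) (j : Fin n) {r : ℝ} (hr : 0 < r) {χ : ℂ → ℝ}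
    (hχ : Cut (x j) r χ) {L : NNReal} (hL : LipschitzWith L χ) (z : ℂ) (h : Fin 4) :
    |Gt x j χ z h| ≤ L * (|Br5x644.kp| / (r / 2) ^ (1/2 : ℝ)) := by
  by_cases hz : ‖z - x j‖ < r / 2
  · rw [Gt_zero x j hχ z h (Or.inl hz), abs_zero]
    positivity
  · push Not at hz
    unfold Gt
    rw [abs_neg, abs_mul, abs_mul (gc x (x j) z), gc_abs, one_mul, abs_mul, abs_mul, sg_abs,
      one_mul, abs_of_pos xc_pos]
    have h1 : |fderiv ℝ χ z (dv h)| ≤ L := by
      have h2 := (fderiv ℝ χ z).le_opNorm (dv h)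
      rw [norm_dv, mul_one, Real.norm_eq_abs] at h2
      exact h2.trans (norm_fderiv_le_of_lipschitz ℝ hL)
    have h2 : |lv (bc (z - x j)) (op h)| ≤ |Br5x644.kp| / (r / 2) ^ (1/2 : ℝ) :=
      (abs_lv_le _ _).trans (bc_norm_le (by positivity) hz)
    have hx := xc_lt_one
    have hx0 := xc_pos
    have h8 : 0 ≤ |lv (bc (z - x j)) (op h)| := abs_nonneg _
    have h9 : xc * |lv (bc (z - x j)) (op h)| ≤ |Br5x644.kp| / (r / 2) ^ (1/2 : ℝ) := by nlinarith
    exact mul_le_mul h1 h9 (by positivity) L.2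

theorem Gt_measurable (x : Fin n → ℂ) (j : Fin n) {r : ℝ} {χ : ℂ → ℝ}
    (hχ : Cut (x j) r χ) (h : Fin 4) : Measurable fun z => Gt x j χ z h := by
  unfold Gt
  have h1 : Measurable fun z => fderiv ℝ χ z (dv h) :=
    ((hχ.smooth.continuous_fderiv (by simp)).clm_apply continuous_const).measurable
  have h2 : Measurable fun z : ℂ => lv (bc (z - x j)) (op h) :=
    (lv_continuous _).measurable.comp (bc_measurable.comp (measurable_id.sub_const _))
  exact (h1.mul ((gc_measurable x (x j)).mul (h2.const_mul _))).neg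

/-- **`L²` convergence of the source** -/
theorem gt_L2 {x : Fin n → ℂ} {j : Fin n} {r : ℝ} (hr : 0 < r) {χ : ℂ → ℝ}
    (hχ : Cut (x j) r χ) {a : ℕ → ℝ} (hpos : ∀ k, 0 < a k) (hlim : Tendsto a atTop (𝓝 0))
    {V : ℕ → Fin n → Face}
    (tip : ∀ i, Tendsto (fun k => meshPoint (a k) (V k i)) atTop (𝓝 (x i))) (h : Fin 4) :
    Tendsto (fun k => ∫⁻ z, ENNReal.ofReal ((emb (a k) (fun f => gt (a k)
      (fun f => χ (meshPoint (a k) f)) (gz x (x j) (V k)) (V k j) f h) z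
        - Gt x j χ z h) ^ 2)) atTop (𝓝 0) := by
  obtain ⟨L, hL⟩ := hχ.lip
  obtain ⟨C₀, hC0, hb0⟩ := psS_bound
  have ea : ∀ᶠ k in atTop, a k < r / 16 := hlim.eventually (eventually_lt_nhds (by positivity))
  have ef : ∀ᶠ k in atTop, ‖meshPoint (a k) (V k j) - x j‖ < r / 16 := by
    have := tendsto_iff_norm_sub_tendsto_zero.1 (tip j)
    exact this.eventually (eventually_lt_nhds (by positivity))
  set C : ℝ := L * (C₀ / (r / 8) ^ (1/2 : ℝ)) + L * (|Br5x644.kp| / (r / 2) ^ (1/2 : ℝ)) with hC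
  refine l2_of_dom (B := closedBall (x j) (2 * r)) (C := C) isClosed_closedBall.measurableSet
    measure_closedBall_lt_top.ne ?_ ?_ ?_ ?_ (Gt_measurable x j hχ h) ?_
  · filter_upwards [ea] with k hk u hu
    rw [mem_closedBall, dist_eq_norm, not_le] at hu
    unfold emb
    by_contra hne
    have h1 := gt_supp hχ (hpos k) hk.le (gz x (x j) (V k)) (V k j) (meshIndex (a k) u) h hne
    have h2 := norm_mesh_sub (hpos k) u
    have h3 : ‖u - x j‖ ≤ ‖u - meshPoint (a k) (meshIndex (a k) u)‖ +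
      ‖meshPoint (a k) (meshIndex (a k) u) - x j‖ := norm_sub_le_norm_sub_add_norm_sub _ _ _
    rw [norm_sub_rev u (meshPoint _ _)] at h3
    linarith [h1.2]
  · intro u hu
    rw [mem_closedBall, dist_eq_norm, not_le] at hu
    exact Gt_zero x j hχ _ _ (Or.inr (by linarith))
  · filter_upwards [ea, ef] with k h1 h2 f
    refine (gt_bound hC0 hb0 hr hχ hL (hpos k) h1.le (gz_sq x (x j) (V k)) (V k j) h2.le f h).trans ?_
    rw [hC]
    have : 0 ≤ (L : ℝ) * (|Br5x644.kp| / (r / 2) ^ (1/2 : ℝ)) := by positivity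
    linarith
  · intro u
    refine (Gt_bound x j hr hχ hL _ _).trans ?_
    rw [hC]
    have : 0 ≤ (L : ℝ) * (C₀ / (r / 8) ^ (1/2 : ℝ)) := by positivity
    linarith
  · have h2 := ae_im_ne x (univ : Set ℂ)
    rw [Measure.restrict_univ] at h2
    filter_upwards [ae_gen (x j), h2] with u hu1 hu2
    exact gt_tendsto hχ hpos hlim tip hu2 hu1 h

theorem Gt_memLp (x : Fin n → ℂ) (j : Fin n) {r : ℝ} (hr : 0 < r) {χ : ℂ → ℝ}
    (hχ : Cut (x j) r χ) (h : Fin 4) : MemLp (fun z => Gt x j χ z h) 2 volume := by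
  obtain ⟨L, hL⟩ := hχ.lip
  have h1 : MemLp ((closedBall (x j) (2 * r)).indicator fun _ : ℂ =>
      (L * (|Br5x644.kp| / (r / 2) ^ (1/2 : ℝ)) : ℝ)) 2 (volume : Measure ℂ) :=
    memLp_indicator_const 2 isClosed_closedBall.measurableSet _
      (Or.inr measure_closedBall_lt_top.ne)
  refine h1.mono (Gt_measurable x j hχ h).aestronglyMeasurable (Eventually.of_forall fun u => ?_)
  by_cases hu : u ∈ closedBall (x j) (2 * r)
  · rw [indicator_of_mem hu, Real.norm_eq_abs, Real.norm_eq_abs]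
    refine (Gt_bound x j hr hχ hL _ _).trans (le_abs_self _)
  · rw [indicator_of_notMem hu]
    rw [mem_closedBall, dist_eq_norm, not_le] at hu
    rw [Gt_zero x j hχ _ _ (Or.inr (by linarith))]

/-! ### the cut-off field -/

/-- cut-off field -/
def ut (a : ℝ) (c γ : Face → ℝ) (V : Face) : Fld := fun f h =>
  c f * (γ f * (a ^ (-(1/2) : ℝ) * psS V f h))

/-- `L²` convergence on bounded sets -/
theorem l2_of_dom_on {a : ℕ → ℝ} {v : ℕ → Face → ℝ} {G : ℂ → ℝ} {B : Set ℂ}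
    (hB : MeasurableSet B) (hBf : volume B ≠ ⊤) {C : ℝ}
    (hb : ∀ᶠ k in atTop, ∀ u ∈ B, |emb (a k) (v k) u| ≤ C) (hGb : ∀ u ∈ B, |G u| ≤ C)
    (hGm : Measurable G)
    (hp : ∀ᵐ u, Tendsto (fun k => emb (a k) (v k) u) atTop (𝓝 (G u))) :
    Tendsto (fun k => ∫⁻ z in B, ENNReal.ofReal ((emb (a k) (v k) z - G z) ^ 2)) atTop (𝓝 0) := by
  have h0 : (0 : ENNReal) = ∫⁻ z in B, (0 : ENNReal) := by simp
  rw [h0]
  refine tendsto_lintegral_filter_of_dominated_convergence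
    (fun _ => ENNReal.ofReal ((2 * C) ^ 2)) (Eventually.of_forall fun k => ?_) ?_ ?_ ?_
  · exact (((emb_measurable _ _).sub hGm).pow_const 2).ennreal_ofReal
  · filter_upwards [hb] with k h2
    rw [ae_restrict_iff' hB]
    refine Eventually.of_forall fun u hu => ?_
    apply ENNReal.ofReal_le_ofReal
    have h3 : |emb (a k) (v k) u - G u| ≤ 2 * C := by
      have h4 := h2 u hu
      have h5 := hGb u hu
      refine (abs_sub _ _).trans ?_
      linarith
    rw [← sq_abs]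
    gcongr
  · rw [setLIntegral_const]
    exact ENNReal.mul_ne_top ENNReal.ofReal_ne_top hBf
  · filter_upwards [ae_restrict_of_ae hp] with u hu
    have h1 : Tendsto (fun k => (emb (a k) (v k) u - G u) ^ 2) atTop (𝓝 0) := by
      have := (hu.sub_const (G u)).pow 2
      simpa using this
    have h2 := (ENNReal.continuous_ofReal.tendsto 0).comp h1
    rw [ENNReal.ofReal_zero] at h2
    exact h2

/-- **local `L²` convergence of the cut-off field** -/
theorem ut_L2 {x : Fin n → ℂ} {j : Fin n} {r : ℝ} (hr : 0 < r) {χ : ℂ → ℝ}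
    (hχ : Cut (x j) r χ) {a : ℕ → ℝ} (hpos : ∀ k, 0 < a k) (hlim : Tendsto a atTop (𝓝 0))
    {V : ℕ → Fin n → Face}
    (tip : ∀ i, Tendsto (fun k => meshPoint (a k) (V k i)) atTop (𝓝 (x i))) {z₀ : ℂ} {ρ : ℝ}
    (hρ : ρ < ‖z₀ - x j‖) (h : Fin 4) :
    Tendsto (fun k => ∫⁻ z in ball z₀ ρ, ENNReal.ofReal ((emb (a k) (fun f => ut (a k)
      (fun f => χ (meshPoint (a k) f)) (gz x (x j) (V k)) (V k j) f h) z
        - χ z * (gc x (x j) z * lv (bc (z - x j)) h)) ^ 2)) atTop (𝓝 0) := by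
  obtain ⟨C₀, hC0, hb0⟩ := psS_bound
  set d : ℝ := (‖z₀ - x j‖ - ρ) / 2 with hd
  have hd0 : 0 < d := by rw [hd]; linarith
  have ea : ∀ᶠ k in atTop, a k < d / 8 := hlim.eventually (eventually_lt_nhds (by positivity))
  have ef : ∀ᶠ k in atTop, ‖meshPoint (a k) (V k j) - x j‖ < d / 2 := by
    have := tendsto_iff_norm_sub_tendsto_zero.1 (tip j)
    exact this.eventually (eventually_lt_nhds (by positivity))
  have hfar : ∀ u ∈ ball z₀ ρ, 2 * d ≤ ‖u - x j‖ := by
    intro u hu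
    rw [mem_ball, dist_eq_norm] at hu
    have h1 : ‖z₀ - x j‖ ≤ ‖z₀ - u‖ + ‖u - x j‖ := norm_sub_le_norm_sub_add_norm_sub _ _ _
    rw [norm_sub_rev z₀ u] at h1
    rw [hd]
    linarith
  refine l2_of_dom_on (C := C₀ / d ^ (1/2 : ℝ) + |Br5x644.kp| / (2 * d) ^ (1/2 : ℝ))
    measurableSet_ball measure_ball_lt_top.ne ?_ ?_ ?_ ?_
  · filter_upwards [ea, ef] with k h1 h2 u hu
    have h3 := hfar u hu
    have h4 := norm_mesh_sub (hpos k) u
    have h5 : ‖u - x j‖ ≤ ‖u - meshPoint (a k) (meshIndex (a k) u)‖ +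
      ‖meshPoint (a k) (meshIndex (a k) u) - x j‖ := norm_sub_le_norm_sub_add_norm_sub _ _ _
    rw [norm_sub_rev u (meshPoint _ _)] at h5
    have h6 : ‖meshPoint (a k) (meshIndex (a k) u) - x j‖ ≤
      ‖meshPoint (a k) (meshIndex (a k) u) - meshPoint (a k) (V k j)‖ +
        ‖meshPoint (a k) (V k j) - x j‖ := norm_sub_le_norm_sub_add_norm_sub _ _ _
    have h7 := hb0 (a k) (hpos k) (V k j) (meshIndex (a k) u) h d hd0 (by linarith)
    have h8 : |χ (meshPoint (a k) (meshIndex (a k) u))| ≤ 1 := by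
      rw [abs_of_nonneg (hχ.nonneg _)]; exact hχ.le_one _
    have h9 : 0 ≤ |Br5x644.kp| / (2 * d) ^ (1/2 : ℝ) := by positivity
    unfold emb ut
    rw [abs_mul, abs_mul (gz _ _ _ _), gz_abs, one_mul]
    have h10 : 0 ≤ |a k ^ (-(1/2) : ℝ) * psS (V k j) (meshIndex (a k) u) h| := abs_nonneg _
    have h11 : 0 ≤ |χ (meshPoint (a k) (meshIndex (a k) u))| := abs_nonneg _
    nlinarith
  · intro u hu
    have h3 := hfar u hu
    have h8 : |χ u| ≤ 1 := by
      rw [abs_of_nonneg (hχ.nonneg _)]; exact hχ.le_one _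
    have h2 : |lv (bc (u - x j)) h| ≤ |Br5x644.kp| / (2 * d) ^ (1/2 : ℝ) :=
      (abs_lv_le _ _).trans (bc_norm_le (by positivity) h3)
    have h9 : 0 ≤ C₀ / d ^ (1/2 : ℝ) := by positivity
    rw [abs_mul, abs_mul (gc _ _ _), gc_abs, one_mul]
    have h10 : 0 ≤ |lv (bc (u - x j)) h| := abs_nonneg _
    have h11 : 0 ≤ |χ u| := abs_nonneg _
    nlinarith
  · exact hχ.smooth.continuous.measurable.mul ((gc_measurable x (x j)).mul
      ((lv_continuous _).measurable.comp (bc_measurable.comp (measurable_id.sub_const _))))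
  · have h2 := ae_im_ne x (univ : Set ℂ)
    rw [Measure.restrict_univ] at h2
    filter_upwards [ae_gen (x j), h2] with u hu1 hu2
    have hP : Tendsto (fun k => meshPoint (a k) (meshIndex (a k) u)) atTop (𝓝 u) := by
      rw [tendsto_iff_norm_sub_tendsto_zero]
      refine squeeze_zero (fun _ => norm_nonneg _) (fun k => norm_mesh_sub (hpos k) u) ?_
      simpa using hlim.const_mul 2
    have h1 := (hχ.smooth.continuous.tendsto u).comp hP
    have h3 : Tendsto (fun k => gz x (x j) (V k) (meshIndex (a k) u)) atTop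
        (𝓝 (gc x (x j) u)) :=
      tendsto_const_nhds.congr' ((gz_tendsto hpos hlim tip (x j) hu2).mono fun k hk => hk.symm)
    exact h1.mul (h3.mul (psS_tendsto hpos hlim hP (tip j) hu1 h))

/-! ### the regular column -/

/-- column of the corner functional at `V` -/
def col (w : Fld) (S : Face × Fin 4 → Face × Fin 4 → ℝ) (V : Face) : Fld := fun f h =>
  S (f, h) (V, 0) - w V 0 * S (f, h) ((V.1, V.2 - 1), 2)

theorem A_col {w : Fld} {S : Face × Fin 4 → Face × Fin 4 → ℝ} (hS : MacIx622.Cov40 w S) (V : Face)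
    (f : Face) (h : Fin 4) : A w (col w S V) f h = -lvec w V f h := by
  have h1 : A w (col w S V) f h = A w (fun f h => S (f, h) (V, 0)) f h +
      (-w V 0) * A w (fun f h => S (f, h) ((V.1, V.2 - 1), 2)) f h := by
    rw [← Tr2x40.A_smul, ← Tr2x40.A_add]
    congr 1
    funext f h
    unfold col
    ring
  rw [h1, hS.inv, hS.inv]
  unfold lvec
  by_cases c1 : f = V ∧ h = 0
  · rw [if_pos c1, if_pos (by rw [c1.1, c1.2]), if_neg]
    · ring
    · rw [c1.1, c1.2]
      intro hc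
      have h02 : (0 : Fin 4) = 2 := (Prod.mk.inj hc).2
      exact absurd h02 (by decide)
  · have n1 : ¬ ((f, h) = (V, (0 : Fin 4))) := fun hc => c1 (Prod.mk.inj hc)
    rw [if_neg c1, if_neg n1]
    by_cases c2 : f = (V.1, V.2 - 1) ∧ h = 2
    · rw [if_pos c2, if_pos (by rw [c2.1, c2.2])]
      ring
    · have n2 : ¬ ((f, h) = ((V.1, V.2 - 1), (2 : Fin 4))) := fun hc => c2 (Prod.mk.inj hc)
      rw [if_neg c2, if_neg n2]
      ring

/-- regular column -/
def psi (a : ℝ) (c γ : Face → ℝ) (φ : Fld) (V : Face) : Fld := fun f h =>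
  γ V * (a ^ (-(1/2) : ℝ) * φ f h) - ut a c γ V f h

theorem A_psi {w φ : Fld} {a : ℝ} (ha : 0 < a) {c γ : Face → ℝ} (hγ : ∀ f, γ f ^ 2 = 1) {V : Face}
    (hw : ∀ f h, (c f ≠ 0 ∨ c (nb f h) ≠ 0) → w f h = γ f * γ (nb f h) * (rayw V f h * xc))
    (h1 : c V = 1) (h2 : c (V.1, V.2 - 1) = 1) (hφ : ∀ f h, A w φ f h = -lvec w V f h)
    (f : Face) (h : Fin 4) : A w (psi a c γ φ V) f h = a * gt a c γ V f h := by
  have e : A w (psi a c γ φ V) f h = γ V * a ^ (-(1/2) : ℝ) * A w φ f h +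
      (-a ^ (-(1/2) : ℝ)) * A w (fun f h => c f * (γ f * psS V f h)) f h := by
    rw [← Tr2x40.A_smul, ← Tr2x40.A_smul, ← Tr2x40.A_add]
    congr 1
    funext f h
    unfold psi ut
    ring
  rw [e, hφ, cut_tip hγ hw h1 h2]
  unfold gt
  have ha' := ha.ne'
  field_simp
  ring

end Crest.Agent.R165.Eta2x576
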