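import Crest.Agent.R165.Eta2_576

/-!
# Row 165 (S0250), block U4 (helper576): limit of the columns with source at a branch vertex

* `tip_gauge_unif` : gauge near a tip, radius independent of the sequence
* `hj` : holomorphic square root near `x j` without the factor `j`
* `eta_lim` : `a^{-1/2} S(., l_j) → lv (F + χ gc bc)` in `L²_loc`, from `ResConv`
-/

set_option autoImplicit false
set_option linter.unusedVariables false
set_option linter.unusedSimpArgs false

noncomputable section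

open MeasureTheory Filter Topology Set Metric
open Crest.ProbabilityR.IsingModel
open Crest.Agent.R165.Tr1x40 Crest.Agent.R165.RIfx891 Crest.Agent.R165.Embx622
open Crest.Agent.R165.Upx622
open Crest.Agent.R165.Mac0x622 Crest.Agent.R165.Mac1x622 Crest.Agent.R165.Mac3x622
open Crest.Agent.R165.MacIx622
open Crest.Agent.R165.Eta1x576 Crest.Agent.R165.Eta2x576

namespace Crest.Agent.R165.Eta3x576

variable {n : ℕ}

/-! ### uniform radius -/

theorem tip_gauge_unif {x : Fin n → ℂ} (hx : Function.Injective x) (j : Fin n) :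
    ∃ ρ > 0, ∀ a : ℕ → ℝ, (∀ k, 0 < a k) → Tendsto a atTop (𝓝 0) → ∀ V : ℕ → Fin n → Face,
      (∀ i, Tendsto (fun k => meshPoint (a k) (V k i)) atTop (𝓝 (x i))) →
      ∀ᶠ k in atTop, ∀ f : Face, ‖meshPoint (a k) f - x j‖ < ρ → ∀ h,
      rays (V k) f h = gz x (x j) (V k) f * gz x (x j) (V k) (nb f h) * rayw (V k j) f h := by
  by_contra hc
  have key : ∀ m : ℕ, ∃ (b : ℝ) (U : Fin n → Face), (0 < b ∧ b < 1 / ((m : ℝ) + 1)) ∧
      (∀ i, ‖meshPoint b (U i) - x i‖ < 1 / ((m : ℝ) + 1)) ∧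
      ¬ ∀ f : Face, ‖meshPoint b f - x j‖ < 1 / ((m : ℝ) + 1) → ∀ h,
        rays U f h = gz x (x j) U f * gz x (x j) U (nb f h) * rayw (U j) f h := by
    intro m
    by_contra hm
    apply hc
    have hm0 : (0 : ℝ) < 1 / ((m : ℝ) + 1) := by positivity
    refine ⟨1 / ((m : ℝ) + 1), hm0, fun a hpos hlim V tip => ?_⟩
    have e1 : ∀ᶠ k in atTop, a k < 1 / ((m : ℝ) + 1) := hlim.eventually (eventually_lt_nhds hm0)
    have e2 : ∀ᶠ k in atTop, ∀ i, ‖meshPoint (a k) (V k i) - x i‖ < 1 / ((m : ℝ) + 1) := by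
      rw [eventually_all]
      intro i
      have := tendsto_iff_norm_sub_tendsto_zero.1 (tip i)
      exact this.eventually (eventually_lt_nhds hm0)
    filter_upwards [e1, e2] with k h1 h2
    by_contra h3
    exact hm ⟨a k, V k, ⟨hpos k, h1⟩, h2, h3⟩
  choose b U hb hU hbad using key
  have hm : Tendsto (fun m : ℕ => 1 / ((m : ℝ) + 1)) atTop (𝓝 0) :=
    tendsto_one_div_add_atTop_nhds_zero_nat
  have hlim : Tendsto b atTop (𝓝 0) :=
    squeeze_zero (fun m => (hb m).1.le) (fun m => (hb m).2.le) hm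
  have tip : ∀ i, Tendsto (fun m => meshPoint (b m) (U m i)) atTop (𝓝 (x i)) := by
    intro i
    rw [tendsto_iff_norm_sub_tendsto_zero]
    exact squeeze_zero (fun _ => norm_nonneg _) (fun m => (hU m i).le) hm
  obtain ⟨ρ, hρ, hk⟩ := tip_gauge hx (fun m => (hb m).1) hlim tip j
  have h2 : ∀ᶠ m : ℕ in atTop, 1 / ((m : ℝ) + 1) < ρ := hm.eventually (eventually_lt_nhds hρ)
  obtain ⟨m, h3, h4⟩ := (hk.and h2).exists
  exact hbad m fun f hf h => h3 f (hf.trans h4) h

/-! ### the square root near a tip -/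

theorem factor_diff {x z : ℂ} (hz : x ≠ z) [Decidable (rel x z)] :
    ∀ᶠ v in 𝓝 z, DifferentiableAt ℂ (fun u : ℂ =>
      ((if rel x z ∧ x.im < u.im then (-1 : ℝ) else 1 : ℝ) : ℂ) * (x - u) ^ (1 / 2 : ℂ)) v := by
  by_cases h : rel x z
  · have h1 : ∀ᶠ u in 𝓝 z, x.re < u.re :=
      (Complex.continuous_re.tendsto z).eventually (eventually_gt_nhds h.2)
    have e : ∀ u : ℂ, x.re < u.re → ((if rel x z ∧ x.im < u.im then (-1 : ℝ) else 1 : ℝ) : ℂ) *
        (x - u) ^ (1 / 2 : ℂ) = Complex.I * (u - x) ^ (1 / 2 : ℂ) := by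
      intro u hu
      have h2 := cpow_half_neg (v := u - x) (by rw [Complex.sub_re]; linarith)
      rw [neg_sub] at h2
      rw [h2]
      by_cases h3 : x.im < u.im
      · have h4 : ¬ (u - x).im ≤ 0 := by rw [Complex.sub_im]; linarith
        simp only [h, h3, h4, true_and, if_true, if_false]
        push_cast; ring
      · have h4 : (u - x).im ≤ 0 := by rw [Complex.sub_im]; linarith
        simp only [h, h3, h4, true_and, if_true, if_false]
        push_cast; ring
    filter_upwards [h1.eventually_nhds] with v hv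
    have hv0 := hv.self_of_nhds
    have h5 : v - x ∈ Complex.slitPlane := by
      left; rw [Complex.sub_re]; linarith
    have h6 : DifferentiableAt ℂ (fun u : ℂ => Complex.I * (u - x) ^ (1 / 2 : ℂ)) v :=
      (differentiableAt_const _).mul ((differentiableAt_id.sub_const x).cpow
        (differentiableAt_const _) h5)
    exact h6.congr_of_eventuallyEq (hv.mono fun u hu => e u hu)
  · have h5 : x - z ∈ Complex.slitPlane := by
      rw [Complex.mem_slitPlane_iff, Complex.sub_re, Complex.sub_im]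
      by_cases him : x.im = z.im
      · left
        have : z.re ≤ x.re := not_lt.1 fun hc => h ⟨him, hc⟩
        rcases lt_or_eq_of_le this with h6 | h6
        · linarith
        · exact absurd (Complex.ext h6.symm him) hz
      · right; exact sub_ne_zero.2 him
    have h6 : ∀ᶠ v in 𝓝 z, x - v ∈ Complex.slitPlane :=
      (continuous_const.sub continuous_id).continuousAt.eventually
        (Complex.isOpen_slitPlane.mem_nhds h5)
    filter_upwards [h6] with v hv
    simp only [h, false_and, if_false]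
    exact (differentiableAt_const _).mul (((differentiableAt_const _).sub
      differentiableAt_id).cpow (differentiableAt_const _) hv)

/-- the square root near `x j` without the factor `j` -/
def hj (x : Fin n → ℂ) (j : Fin n) (u : ℂ) : ℂ := by
  classical exact ∏ l ∈ Finset.univ.erase j,
    (((if rel (x l) (x j) ∧ (x l).im < u.im then (-1 : ℝ) else 1 : ℝ) : ℂ) *
      (x l - u) ^ (1 / 2 : ℂ))

theorem hj_diff {x : Fin n → ℂ} (hx : Function.Injective x) (j : Fin n) :
    ∃ ρ > 0, DifferentiableOn ℂ (hj x j) (ball (x j) ρ) := by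
  classical
  have h1 : ∀ᶠ v in 𝓝 (x j), DifferentiableAt ℂ (hj x j) v := by
    have h2 : ∀ᶠ v in 𝓝 (x j), ∀ l ∈ Finset.univ.erase j, DifferentiableAt ℂ (fun u : ℂ =>
        ((if rel (x l) (x j) ∧ (x l).im < u.im then (-1 : ℝ) else 1 : ℝ) : ℂ) *
          (x l - u) ^ (1 / 2 : ℂ)) v := by
      rw [Filter.eventually_all_finset]
      intro l hl
      exact factor_diff fun h => (Finset.ne_of_mem_erase hl) (hx h)
    filter_upwards [h2] with v hv
    have e : hj x j = ∏ l ∈ Finset.univ.erase j, fun u : ℂ =>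
        (((if rel (x l) (x j) ∧ (x l).im < u.im then (-1 : ℝ) else 1 : ℝ) : ℂ) *
          (x l - u) ^ (1 / 2 : ℂ)) := by
      funext u
      rw [Finset.prod_apply]
      rfl
    rw [e]
    exact DifferentiableAt.finsetProd fun l hl => hv l hl
  obtain ⟨ρ, hρ, h2⟩ := Metric.eventually_nhds_iff_ball.1 h1
  exact ⟨ρ, hρ, fun u hu => (h2 u hu).differentiableWithinAt⟩

theorem gc_rX (x : Fin n → ℂ) (j : Fin n) (u : ℂ) :
    (gc x (x j) u : ℂ) * rX x u = hj x j u * (x j - u) ^ (1 / 2 : ℂ) := by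
  classical
  have e : (gc x (x j) u : ℂ) * rX x u = ∏ i,
      (((if rel (x i) (x j) ∧ (x i).im < u.im then (-1 : ℝ) else 1 : ℝ) : ℂ) *
        (x i - u) ^ (1 / 2 : ℂ)) := by
    unfold gc rX
    rw [Finset.prod_mul_distrib]
    push_cast
    rfl
  rw [e, ← Finset.mul_prod_erase Finset.univ _ (Finset.mem_univ j)]
  unfold hj
  rw [if_neg (fun h => not_rel_self _ h.1)]
  push_cast
  ring

theorem bc_mul_sqrt {x u : ℂ} (hu : u ≠ x) :
    bc (u - x) * (x - u) ^ (1 / 2 : ℂ) = Br5x644.kp * Complex.I := by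
  unfold bc Br5x644.zt
  rw [neg_sub]
  have h0 : x - u ≠ 0 := sub_ne_zero.2 hu.symm
  have h1 : (x - u) ^ (-(1/2) : ℂ) * (x - u) ^ (1 / 2 : ℂ) = 1 := by
    rw [← Complex.cpow_add _ _ h0]
    norm_num
  linear_combination (Br5x644.kp * Complex.I : ℂ) * h1

/-- the branch amplitude times the square root -/
theorem bc_rX (x : Fin n → ℂ) (j : Fin n) {u : ℂ} (hu : u ≠ x j) :
    ((gc x (x j) u : ℂ) * bc (u - x j)) * rX x u = Br5x644.kp * Complex.I * hj x j u := by
  have h1 := gc_rX x j u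
  have h2 := bc_mul_sqrt hu
  calc ((gc x (x j) u : ℂ) * bc (u - x j)) * rX x u
      = bc (u - x j) * ((gc x (x j) u : ℂ) * rX x u) := by ring
    _ = hj x j u * (bc (u - x j) * (x j - u) ^ (1 / 2 : ℂ)) := by rw [h1]; ring
    _ = _ := by rw [h2]; ring

/-! ### the annulus -/

/-- closed annulus -/
def Anr (y : ℂ) (r : ℝ) : Set ℂ := {z | r / 4 ≤ ‖z - y‖ ∧ ‖z - y‖ ≤ r}

theorem Anr_closed (y : ℂ) (r : ℝ) : IsClosed (Anr y r) :=
  (isClosed_le continuous_const (continuous_id.sub continuous_const).norm).inter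
    (isClosed_le (continuous_id.sub continuous_const).norm continuous_const)

theorem Anr_compact (y : ℂ) (r : ℝ) : IsCompact (Anr y r) := by
  refine (isCompact_closedBall y r).of_isClosed_subset (Anr_closed y r) fun z hz => ?_
  rw [mem_closedBall, dist_eq_norm]
  exact hz.2

/-- admissible radii at the tip `j` -/
structure Rad (D : Set ℂ) (x : Fin n → ℂ) (j : Fin n) (ρ : ℝ) : Prop where
  pos : 0 < ρ
  sub : closedBall (x j) ρ ⊆ D
  far : ∀ i, i ≠ j → ρ < ‖x i - x j‖
  hol : DifferentiableOn ℂ (hj x j) (ball (x j) ρ)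
  gauge : ∀ a : ℕ → ℝ, (∀ k, 0 < a k) → Tendsto a atTop (𝓝 0) → ∀ V : ℕ → Fin n → Face,
      (∀ i, Tendsto (fun k => meshPoint (a k) (V k i)) atTop (𝓝 (x i))) →
      ∀ᶠ k in atTop, ∀ f : Face, ‖meshPoint (a k) f - x j‖ < ρ → ∀ h,
      rays (V k) f h = gz x (x j) (V k) f * gz x (x j) (V k) (nb f h) * rayw (V k j) f h

theorem Rad.mono {D : Set ℂ} {x : Fin n → ℂ} {j : Fin n} {ρ r : ℝ} (h : Rad D x j ρ) (hr : 0 < r)
    (hrρ : r ≤ ρ) : Rad D x j r :=
  ⟨hr, (closedBall_subset_closedBall hrρ).trans h.sub, fun i hi => hrρ.trans_lt (h.far i hi),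
    h.hol.mono (ball_subset_ball hrρ), fun a h1 h2 V h3 => (h.gauge a h1 h2 V h3).mono
      fun k hk f hf => hk f (hf.trans_le hrρ)⟩

theorem exists_rad {D : Set ℂ} (hD : IsOpen D) {x : Fin n → ℂ} (hx : Function.Injective x)
    (j : Fin n) (hj : x j ∈ D) : ∃ ρ, Rad D x j ρ := by
  classical
  obtain ⟨ρ1, h1, hg⟩ := tip_gauge_unif hx j
  obtain ⟨ρ2, h2, hh⟩ := hj_diff hx j
  obtain ⟨ρ3, h3, hs⟩ := Metric.isOpen_iff.1 hD _ hj
  obtain ⟨ρ4, h4, hf⟩ : ∃ r > 0, ∀ i, i ≠ j → r < ‖x i - x j‖ := by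
    have : ∀ᶠ u in 𝓝[>] (0 : ℝ), ∀ i, i ≠ j → u < ‖x i - x j‖ := by
      rw [eventually_all]
      intro i
      by_cases hi : i = j
      · exact Eventually.of_forall fun u h => absurd hi h
      · have h0 : 0 < ‖x i - x j‖ := norm_pos_iff.2 (sub_ne_zero.2 fun h => hi (hx h))
        filter_upwards [Ioo_mem_nhdsGT h0] with u hu _
        exact hu.2
    obtain ⟨r, hr, hr0⟩ := (this.and self_mem_nhdsWithin).exists
    exact ⟨r, hr0, hr⟩
  refine ⟨min (min ρ1 ρ2) (min (ρ3 / 2) ρ4), ⟨by positivity, ?_, ?_, ?_, ?_⟩⟩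
  · refine Subset.trans (fun z hz => ?_) hs
    rw [mem_closedBall] at hz
    rw [mem_ball]
    have := (min_le_right (min ρ1 ρ2) (min (ρ3 / 2) ρ4)).trans (min_le_left _ _)
    linarith
  · intro i hi
    exact ((min_le_right _ _).trans (min_le_right _ _)).trans_lt (hf i hi)
  · exact hh.mono (ball_subset_ball ((min_le_left _ _).trans (min_le_right _ _)))
  · intro a ha hlim V tip
    exact (hg a ha hlim V tip).mono fun k hk f hf => hk f
      (hf.trans_le ((min_le_left _ _).trans (min_le_left _ _)))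

theorem Rad.anr {D : Set ℂ} {x : Fin n → ℂ} {j : Fin n} {ρ : ℝ} (h : Rad D x j ρ) :
    Anr (x j) ρ ⊆ Om D x := by
  intro z hz
  refine ⟨h.sub (by rw [mem_closedBall, dist_eq_norm]; exact hz.2), ?_⟩
  rintro ⟨i, rfl⟩
  by_cases hi : i = j
  · subst hi
    have := hz.1
    rw [sub_self, norm_zero] at this
    have := h.pos
    linarith
  · have := h.far i hi
    linarith [hz.2]

/-! ### limits -/

theorem Pair_fin {a : ℝ} (ha : 0 < a) (y : ℂ) (r : ℝ) :
    {f : Face | ‖meshPoint a f - y‖ < r}.Finite := by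
  set N : ℤ := ⌈(‖y‖ + r) / a⌉ with hN
  refine ((Finset.Icc (-N) N ×ˢ Finset.Icc (-N) N).finite_toSet).subset fun f hf => ?_
  rw [mem_ofPred_eq] at hf
  have h1 : ‖meshPoint a f‖ ≤ ‖y‖ + r := by
    have : ‖meshPoint a f‖ ≤ ‖meshPoint a f - y‖ + ‖y‖ := by
      have := norm_add_le (meshPoint a f - y) y
      rwa [sub_add_cancel] at this
    linarith
  have key : ∀ m : ℤ, |a * (m : ℝ)| ≤ ‖y‖ + r → -N ≤ m ∧ m ≤ N := by
    intro m hm
    rw [abs_mul, abs_of_pos ha] at hm
    have h2 : |(m : ℝ)| ≤ (‖y‖ + r) / a := by rw [le_div_iff₀ ha]; linarith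
    have h3 : |(m : ℝ)| ≤ (N : ℝ) := h2.trans (Int.le_ceil _)
    rw [abs_le] at h3
    constructor
    · exact_mod_cast h3.1
    · exact_mod_cast h3.2
  have h2 := key f.1 ((Complex.abs_re_le_norm (meshPoint a f)).trans h1)
  have h3 := key f.2 ((Complex.abs_im_le_norm (meshPoint a f)).trans h1)
  simp only [Finset.coe_product, Finset.coe_Icc, mem_prod, mem_Icc]
  exact ⟨h2, h3⟩

/-- sums of `L²` convergent sequences -/
theorem l2_add {B : Set ℂ} {u v : ℕ → ℂ → ℝ} {U W : ℂ → ℝ} (hv : ∀ k, Measurable (v k))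
    (hW : Measurable W)
    (h1 : Tendsto (fun k => ∫⁻ z in B, ENNReal.ofReal ((u k z - U z) ^ 2)) atTop (𝓝 0))
    (h2 : Tendsto (fun k => ∫⁻ z in B, ENNReal.ofReal ((v k z - W z) ^ 2)) atTop (𝓝 0)) :
    Tendsto (fun k => ∫⁻ z in B, ENNReal.ofReal ((u k z + v k z - (U z + W z)) ^ 2)) atTop
      (𝓝 0) := by
  have hL2 := ENNReal.Tendsto.const_mul (a := (2 : ENNReal)) h1 (Or.inr (by simp))
  have hE2 := ENNReal.Tendsto.const_mul (a := (2 : ENNReal)) h2 (Or.inr (by simp))
  have hsum := hL2.add hE2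
  simp only [mul_zero, add_zero] at hsum
  refine tendsto_of_tendsto_of_tendsto_of_le_of_le tendsto_const_nhds hsum (fun _ => zero_le)
    fun k => ?_
  have hmul : ∀ f : ℂ → ENNReal, 2 * ∫⁻ u in B, f u = ∫⁻ u in B, 2 * f u :=
    fun f => (lintegral_const_mul' _ _ (by simp)).symm
  have hmeas : Measurable fun z => (2 : ENNReal) * ENNReal.ofReal ((v k z - W z) ^ 2) :=
    ((((hv k).sub hW).pow_const 2).ennreal_ofReal).const_mul _
  simp only [hmul]
  rw [← lintegral_add_right _ hmeas]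
  refine lintegral_mono fun z => ?_
  rw [show (2 : ENNReal) = ENNReal.ofReal 2 by simp, ← ENNReal.ofReal_mul (by norm_num),
    ← ENNReal.ofReal_mul (by norm_num), ← ENNReal.ofReal_add (by positivity) (by positivity)]
  apply ENNReal.ofReal_le_ofReal
  nlinarith [sq_nonneg ((u k z - U z) - (v k z - W z))]

/-- the amplitude of the cut-off branch field -/
def ba (x : Fin n → ℂ) (j : Fin n) (χ : ℂ → ℝ) (z : ℂ) : ℂ :=
  (χ z : ℂ) * ((gc x (x j) z : ℂ) * bc (z - x j))

theorem lv_ba (x : Fin n → ℂ) (j : Fin n) (χ : ℂ → ℝ) (z : ℂ) (h : Fin 4) :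
    lv (ba x j χ z) h = χ z * (gc x (x j) z * lv (bc (z - x j)) h) := by
  unfold ba
  rw [lv_real_mul, lv_real_mul]

theorem ba_measurable (x : Fin n → ℂ) (j : Fin n) {r : ℝ} {χ : ℂ → ℝ} (hχ : Cut (x j) r χ) :
    Measurable (ba x j χ) := by
  unfold ba
  exact (Complex.measurable_ofReal.comp hχ.smooth.continuous.measurable).mul
    ((Complex.measurable_ofReal.comp (gc_measurable x (x j))).mul
      (bc_measurable.comp (measurable_id.sub_const _)))

/-- local `L²` convergence of the scaled columns to the amplitude `E` on `O` -/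
def ColLim (O : Set ℂ) (x : Fin n → ℂ) (j : Fin n) (a : ℕ → ℝ) (w : ℕ → Fld)
    (V : ℕ → Fin n → Face) (S : ℕ → Face × Fin 4 → Face × Fin 4 → ℝ) (E : ℂ → ℂ) : Prop :=
  ∀ z₀ ∈ O, ∃ ρ > 0, ∀ h, Tendsto (fun k => ∫⁻ z in ball z₀ ρ, ENNReal.ofReal
    ((emb (a k) (fun f => gz x (x j) (V k) (V k j) *
      (a k ^ (-(1/2) : ℝ) * col (w k) (S k) (V k j) f h)) z - lv (E z) h) ^ 2)) atTop (𝓝 0)

/-- **limit of the columns from `ResConv`** -/
theorem eta_lim {D : Set ℂ} {x : Fin n → ℂ} {Q : Set ℂ → (ℂ → ℂ) → Prop}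
    (hRC : ResConv (Om D x) x (LatSeq D x) Q) {j : Fin n} {r : ℝ} (hr : Rad D x j r) {χ : ℂ → ℝ}
    (hχ : Cut (x j) r χ) :
    ∃ F : ℂ → ℂ, Q (Anr (x j) r) F ∧
      (∃ gg : ℂ → ℂ, ContinuousOn gg (Om D x \ Anr (x j) r) ∧
        ∀ z ∈ Om D x \ Anr (x j) r, F z * rX x z = gg z) ∧
      ∀ a w V, LatSeq D x a w V → ∀ S : ℕ → Face × Fin 4 → Face × Fin 4 → ℝ,
        (∀ᶠ k in atTop, Cov40 (w k) (S k)) →
        ColLim (Om D x) x j a w V S (fun z => F z + ba x j χ z) := by
  classical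
  have hsupp : ∀ z, z ∉ Anr (x j) r → ∀ h, Gt x j χ z h = 0 := by
    intro z hz h
    apply Gt_zero x j hχ
    unfold Anr at hz
    rw [mem_ofPred_eq, not_and_or, not_le, not_le] at hz
    have := hr.pos
    rcases hz with hz | hz
    · left; linarith
    · right; linarith
  obtain ⟨F, hQ, hgg, hF⟩ := hRC (Anr (x j) r) (Anr_compact _ _) hr.anr (Gt x j χ)
    (fun h => Gt_memLp x j hr.pos hχ h) hsupp
  refine ⟨F, hQ, hgg, fun a w V H S hS z₀ hz₀ => ?_⟩
  set c : ℕ → Face → ℝ := fun k f => χ (meshPoint (a k) f) with hc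
  set ψ : ℕ → Fld := fun k => if Cov40 (w k) (S k) then
    psi (a k) (c k) (gz x (x j) (V k)) (col (w k) (S k) (V k j)) (V k j) else 0 with hψ
  have hpos := H.pos
  have hlim := H.lim
  have hr0 := hr.pos
  have ea : ∀ᶠ k in atTop, a k < r / 16 := hlim.eventually (eventually_lt_nhds (by positivity))
  have et : ∀ᶠ k in atTop, ‖meshPoint (a k) (V k j) - x j‖ < r / 16 := by
    have := tendsto_iff_norm_sub_tendsto_zero.1 (H.tip j)
    exact this.eventually (eventually_lt_nhds (by positivity))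
  have hg := hr.gauge a hpos hlim V H.tip
  have hins := H.ins (closedBall (x j) r) (isCompact_closedBall _ _) hr.sub
  -- finite support of the cut-off
  have hfin : ∀ k, {f : Face | c k f ≠ 0}.Finite := by
    intro k
    refine (Pair_fin (hpos k) (x j) r).subset fun f hf => ?_
    by_contra hcc
    apply hf
    rw [mem_ofPred_eq, not_lt] at hcc
    exact hχ.zero _ (by linarith)
  -- behaviour at infinity
  have hzero : ∀ k, Tendsto (fun b : Face × Fin 4 => ψ k b.1 b.2) cofinite (𝓝 0) := by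
    intro k
    by_cases hSk : Cov40 (w k) (S k)
    · have h1 : Tendsto (fun b : Face × Fin 4 => gz x (x j) (V k) (V k j) *
          (a k ^ (-(1/2) : ℝ) * (S k b (V k j, 0) - w k (V k j) 0 *
            S k b (((V k j).1, (V k j).2 - 1), 2)))) cofinite (𝓝 0) := by
        have := (((hSk.zero (V k j, 0)).sub ((hSk.zero (((V k j).1, (V k j).2 - 1), 2)).const_mul
          (w k (V k j) 0))).const_mul (a k ^ (-(1/2) : ℝ))).const_mul
          (gz x (x j) (V k) (V k j))
        simpa using this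
      refine h1.congr' ?_
      have h2 : {b' : Face × Fin 4 | c k b'.1 ≠ 0}.Finite := by
        have : {b' : Face × Fin 4 | c k b'.1 ≠ 0} = {f | c k f ≠ 0} ×ˢ (univ : Set (Fin 4)) := by
          ext b'; simp
        rw [this]
        exact (hfin k).prod finite_univ
      have h3 : ∀ᶠ b' : Face × Fin 4 in cofinite, c k b'.1 = 0 := by
        rw [eventually_cofinite]
        exact h2
      filter_upwards [h3] with b' hb'
      rw [hψ]
      simp only [if_pos hSk]
      unfold psi ut col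
      rw [hb']
      simp
    · rw [hψ]
      simp only [if_neg hSk]
      exact tendsto_const_nhds
  -- the equation
  have heq : ∀ᶠ k in atTop, ∀ f h, A (w k) (ψ k) f h =
      a k * gt (a k) (c k) (gz x (x j) (V k)) (V k j) f h := by
    filter_upwards [hS, ea, et, hg, hins] with k h1 h2 h3 h4 h5 f h
    rw [hψ]
    simp only [if_pos h1]
    refine A_psi (hpos k) (gz_sq x (x j) (V k)) ?_ ?_ ?_ (fun f h => A_col h1 (V k j) f h) f h
    · intro f h hcf
      have h6 : ‖meshPoint (a k) f - x j‖ < r := by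
        have h0 := abs_le.1 (nb_norm (a k) (hpos k) f h (x j))
        rcases hcf with hcf | hcf
        · by_contra hcc
          apply hcf
          rw [not_lt] at hcc
          exact hχ.zero _ (by linarith)
        · by_contra hcc
          apply hcf
          rw [not_lt] at hcc
          exact hχ.zero _ (by linarith)
      rw [h5 f (by rw [mem_closedBall, dist_eq_norm]; exact h6.le) h, h4 f h6 h]
      ring
    · exact hχ.one _ (by linarith)
    · refine hχ.one _ ?_
      have h0 := abs_le.1 (nb_norm (a k) (hpos k) (V k j) 0 (x j))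
      simp only [nb_zero] at h0
      linarith
  have hgsupp : ∀ᶠ k in atTop, ∀ f h, gt (a k) (c k) (gz x (x j) (V k)) (V k j) f h ≠ 0 →
      meshPoint (a k) f ∈ Anr (x j) r := by
    filter_upwards [ea] with k h1 f h hne
    have := gt_supp hχ (hpos k) h1.le (gz x (x j) (V k)) (V k j) f h hne
    exact ⟨this.1.le, this.2.le⟩
  obtain ⟨ρ, hρ, hL⟩ := hF a w V H (fun k => gt (a k) (c k) (gz x (x j) (V k)) (V k j)) ψ hgsupp
    (fun h => gt_L2 hr0 hχ hpos hlim H.tip h) hzero heq z₀ hz₀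
  -- the total field
  have hz0 : 0 < ‖z₀ - x j‖ :=
    norm_pos_iff.2 (sub_ne_zero.2 fun h => hz₀.2 ⟨j, h.symm⟩)
  refine ⟨min ρ (‖z₀ - x j‖ / 2), by positivity, fun h => ?_⟩
  have hL' : Tendsto (fun k => ∫⁻ z in ball z₀ (min ρ (‖z₀ - x j‖ / 2)), ENNReal.ofReal
      ((emb (a k) (fun f => ψ k f h) z - lv (F z) h) ^ 2)) atTop (𝓝 0) :=
    tendsto_of_tendsto_of_tendsto_of_le_of_le tendsto_const_nhds (hL h) (fun _ => zero_le)
      fun k => lintegral_mono_set (ball_subset_ball (min_le_left _ _))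
  have hU := ut_L2 hr0 hχ hpos hlim H.tip (z₀ := z₀) (ρ := min ρ (‖z₀ - x j‖ / 2))
    (by have := min_le_right ρ (‖z₀ - x j‖ / 2); linarith) h
  have hsum := l2_add (fun k => emb_measurable _ _)
    (hχ.smooth.continuous.measurable.mul ((gc_measurable x (x j)).mul
      ((lv_continuous h).measurable.comp (bc_measurable.comp (measurable_id.sub_const _)))))
    hL' hU
  refine hsum.congr' ?_
  filter_upwards [hS] with k hk
  refine lintegral_congr fun z => ?_
  have e : emb (a k) (fun f => ψ k f h) z + emb (a k) (fun f => ut (a k)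
      (fun f => χ (meshPoint (a k) f)) (gz x (x j) (V k)) (V k j) f h) z =
      emb (a k) (fun f => gz x (x j) (V k) (V k j) *
      (a k ^ (-(1/2) : ℝ) * col (w k) (S k) (V k j) f h)) z := by
    unfold emb
    rw [hψ]
    simp only [if_pos hk]
    unfold psi
    ring
  rw [e, lv_add, lv_ba]
  rfl

end Crest.Agent.R165.Eta3x576
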