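import Crest.Agent.R165.Emb_622

/-!
# Row 165 (S0250): limits of lattice sums (pairings), dominated convergence (helper599)

`l` is a countably generated filter on an arbitrary index type, `a k → 0⁺` along `l`.

* `tendsto_tsum`   : `a_k² ∑_f g_k(f) → ∫ G` if `g_k` lives on faces with mesh point in a bounded set,
  is bounded and converges pointwise a.e.
* `tendsto_sum`    : the same with finite sums
* `tendsto_tsum₂`, `tendsto_sum₂` : two variables, `a_k⁴ ∑ ∑ h_k(f,f') → ∫ ∫ H`
* `pair1`, `pair2` : the form with powers of the mesh, `∑_f p_k q_k` and `∑_f ∑_f' p_k S_k q_k`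
-/

set_option autoImplicit false

noncomputable section

open MeasureTheory Filter Topology Set Metric
open Crest.ProbabilityR.IsingModel
open Crest.Agent.R165.Embx622

namespace Crest.Agent.R165.Pairx599

/-- distance of a point from the corner of its cell -/
theorem norm_mesh_sub {a : ℝ} (ha : 0 < a) (z : ℂ) :
    ‖meshPoint a (meshIndex a z) - z‖ ≤ 2 * a := by
  have h : z ∈ cell a (meshIndex a z) := rfl
  rw [mem_cell' ha] at h
  obtain ⟨⟨h1, h2⟩, h3, h4⟩ := h
  refine (Complex.norm_le_abs_re_add_abs_im _).trans ?_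
  have e1 : |(meshPoint a (meshIndex a z) - z).re| ≤ a := by
    rw [Complex.sub_re, abs_le]
    simp only [meshPoint]
    constructor <;> nlinarith
  have e2 : |(meshPoint a (meshIndex a z) - z).im| ≤ a := by
    rw [Complex.sub_im, abs_le]
    simp only [meshPoint]
    constructor <;> nlinarith
  linarith

theorem tendsto_meshPoint {κ : Type*} {l : Filter κ} {a : κ → ℝ} (ha : Tendsto a l (𝓝[>] 0))
    (z : ℂ) : Tendsto (fun k => meshPoint (a k) (meshIndex (a k) z)) l (𝓝 z) := by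
  rw [tendsto_iff_norm_sub_tendsto_zero]
  have h0 : Tendsto a l (𝓝 0) := ha.mono_right nhdsWithin_le_nhds
  have h1 : Tendsto (fun k => 2 * a k) l (𝓝 0) := by simpa using h0.const_mul 2
  refine squeeze_zero' (Eventually.of_forall fun _ => norm_nonneg _) ?_ h1
  filter_upwards [ha self_mem_nhdsWithin] with k hk
  exact norm_mesh_sub hk z

/-- finitely many faces have their mesh point in a bounded set -/
theorem finite_mesh {K : Set ℂ} (hK : Bornology.IsBounded K) {a : ℝ} (ha : 0 < a) :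
    {f : ℤ × ℤ | meshPoint a f ∈ K}.Finite := by
  obtain ⟨R, hR⟩ := hK.exists_norm_le
  refine (Set.finite_Icc ((-⌈R / a⌉, -⌈R / a⌉) : ℤ × ℤ) (⌈R / a⌉, ⌈R / a⌉)).subset ?_
  intro f hf
  have h := hR _ hf
  have h1 : |a * (f.1 : ℝ)| ≤ R := by
    have := Complex.abs_re_le_norm (meshPoint a f)
    simp only [meshPoint] at this h ⊢
    linarith
  have h2 : |a * (f.2 : ℝ)| ≤ R := by
    have := Complex.abs_im_le_norm (meshPoint a f)
    simp only [meshPoint] at this h ⊢
    linarith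
  have key : ∀ n : ℤ, |a * (n : ℝ)| ≤ R → -⌈R / a⌉ ≤ n ∧ n ≤ ⌈R / a⌉ := by
    intro n hn
    rw [abs_mul, abs_of_pos ha] at hn
    have h3 : |(n : ℝ)| ≤ R / a := by
      rw [le_div_iff₀ ha]; linarith
    have h4 : |(n : ℝ)| ≤ (⌈R / a⌉ : ℝ) := h3.trans (Int.le_ceil _)
    rw [abs_le] at h4
    constructor
    · have := h4.1; exact_mod_cast this
    · have := h4.2; exact_mod_cast this
  obtain ⟨a1, a2⟩ := key _ h1
  obtain ⟨b1, b2⟩ := key _ h2
  exact ⟨⟨a1, b1⟩, ⟨a2, b2⟩⟩

section one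

variable {κ : Type*} {l : Filter κ} [l.IsCountablyGenerated] {a : κ → ℝ}
variable {E : Type*} [NormedAddCommGroup E] [NormedSpace ℝ E] [CompleteSpace E]

omit [l.IsCountablyGenerated] [NormedSpace ℝ E] [CompleteSpace E] in
/-- summability of a function which lives on a bounded set -/
theorem summable_of_supp {K : Set ℂ} (hK : Bornology.IsBounded K) {b : ℝ} (hb : 0 < b)
    {g : ℤ × ℤ → E} (hg : ∀ f, g f ≠ 0 → meshPoint b f ∈ K) : Summable fun f => ‖g f‖ := by
  refine summable_of_hasFiniteSupport ((finite_mesh hK hb).subset fun f hf => ?_)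
  refine hg f fun h => hf ?_
  simp [h]

/-- **lattice sums converge to integrals** -/
theorem tendsto_tsum (ha : Tendsto a l (𝓝[>] 0)) {K : Set ℂ} (hK : Bornology.IsBounded K)
    {g : κ → ℤ × ℤ → E} {G : ℂ → E} {C : ℝ}
    (hsupp : ∀ᶠ k in l, ∀ f, g k f ≠ 0 → meshPoint (a k) f ∈ K)
    (hC : ∀ᶠ k in l, ∀ f, ‖g k f‖ ≤ C)
    (hlim : ∀ᵐ z : ℂ, Tendsto (fun k => g k (meshIndex (a k) z)) l (𝓝 (G z))) :
    Tendsto (fun k => (a k) ^ 2 • ∑' f, g k f) l (𝓝 (∫ z, G z)) := by
  have hpos : ∀ᶠ k in l, 0 < a k := ha self_mem_nhdsWithin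
  have hlt : ∀ᶠ k in l, a k < 1 := by
    have h0 : Tendsto a l (𝓝 0) := ha.mono_right nhdsWithin_le_nhds
    exact h0.eventually (Iio_mem_nhds one_pos)
  have key : Tendsto (fun k => ∫ z, emb (a k) (g k) z) l (𝓝 (∫ z, G z)) := by
    refine tendsto_integral_filter_of_dominated_convergence
      ((thickening 3 K).indicator fun _ => |C|) ?_ ?_ ?_ hlim
    · filter_upwards [hpos, hsupp] with k hk hs
      exact (integrable_emb hk (summable_of_supp hK hk hs)).aestronglyMeasurable
    · filter_upwards [hpos, hlt, hsupp, hC] with k hk hk1 hs hc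
      refine Eventually.of_forall fun z => ?_
      by_cases h : g k (meshIndex (a k) z) = 0
      · have : emb (a k) (g k) z = 0 := h
        rw [this, norm_zero]
        exact indicator_nonneg (fun _ _ => abs_nonneg _) _
      · have hz : z ∈ thickening 3 K := by
          rw [mem_thickening_iff]
          refine ⟨_, hs _ h, ?_⟩
          rw [dist_comm, dist_eq_norm]
          have := norm_mesh_sub hk z
          linarith
        rw [indicator_of_mem hz]
        exact (hc _).trans (le_abs_self C)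
    · refine (integrable_indicator_iff isOpen_thickening.measurableSet).2 ?_
      refine integrableOn_const ?_
      exact (hK.thickening).measure_lt_top.ne
  refine key.congr' ?_
  filter_upwards [hpos, hsupp] with k hk hs
  exact integral_emb hk (summable_of_supp hK hk hs)

omit [l.IsCountablyGenerated] in
/-- bound of a lattice sum -/
theorem norm_tsum_le {K : Set ℂ} (hK : Bornology.IsBounded K) {b : ℝ} (hb : 0 < b) (hb1 : b < 1)
    {g : ℤ × ℤ → E} {C : ℝ} (hg : ∀ f, g f ≠ 0 → meshPoint b f ∈ K) (hC : ∀ f, ‖g f‖ ≤ C) :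
    ‖b ^ 2 • ∑' f, g f‖ ≤ |C| * (volume (thickening 3 K)).toReal := by
  rw [← integral_emb hb (summable_of_supp hK hb hg)]
  have hfin : volume (thickening 3 K) < ⊤ := (hK.thickening).measure_lt_top
  have h1 : Integrable ((thickening 3 K).indicator fun _ : ℂ => |C|) :=
    (integrable_indicator_iff isOpen_thickening.measurableSet).2 (integrableOn_const hfin.ne)
  have h2 : ∀ z, ‖emb b g z‖ ≤ (thickening 3 K).indicator (fun _ : ℂ => |C|) z := by
    intro z
    by_cases h : g (meshIndex b z) = 0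
    · have : emb b g z = 0 := h
      rw [this, norm_zero]
      exact indicator_nonneg (fun _ _ => abs_nonneg _) _
    · have hz : z ∈ thickening 3 K := by
        rw [mem_thickening_iff]
        refine ⟨_, hg _ h, ?_⟩
        rw [dist_comm, dist_eq_norm]
        have := norm_mesh_sub hb z
        linarith
      rw [indicator_of_mem hz]
      exact (hC _).trans (le_abs_self C)
  refine (norm_integral_le_of_norm_le h1 (Eventually.of_forall h2)).trans ?_
  rw [integral_indicator isOpen_thickening.measurableSet, setIntegral_const, smul_eq_mul,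
    mul_comm]
  rfl

/-- the same with finite sums -/
theorem tendsto_sum (ha : Tendsto a l (𝓝[>] 0)) {K : Set ℂ} (hK : Bornology.IsBounded K)
    {g : κ → ℤ × ℤ → E} {G : ℂ → E} {C : ℝ} {S : κ → Finset (ℤ × ℤ)}
    (hS : ∀ᶠ k in l, ∀ f ∉ S k, g k f = 0)
    (hsupp : ∀ᶠ k in l, ∀ f, g k f ≠ 0 → meshPoint (a k) f ∈ K)
    (hC : ∀ᶠ k in l, ∀ f, ‖g k f‖ ≤ C)
    (hlim : ∀ᵐ z : ℂ, Tendsto (fun k => g k (meshIndex (a k) z)) l (𝓝 (G z))) :
    Tendsto (fun k => (a k) ^ 2 • ∑ f ∈ S k, g k f) l (𝓝 (∫ z, G z)) := by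
  refine (tendsto_tsum ha hK hsupp hC hlim).congr' ?_
  filter_upwards [hS] with k hk
  rw [tsum_eq_sum fun f hf => hk f hf]

end one

section two

variable {κ : Type*} {l : Filter κ} [l.IsCountablyGenerated] {a : κ → ℝ}
variable {E : Type*} [NormedAddCommGroup E] [NormedSpace ℝ E] [CompleteSpace E]

/-- **double lattice sums converge to double integrals** -/
theorem tendsto_tsum₂ (ha : Tendsto a l (𝓝[>] 0)) {K K' : Set ℂ} (hK : Bornology.IsBounded K)
    (hK' : Bornology.IsBounded K') {h : κ → ℤ × ℤ → ℤ × ℤ → E} {H : ℂ → ℂ → E} {C : ℝ}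
    (hsupp : ∀ᶠ k in l, ∀ f f', h k f f' ≠ 0 → meshPoint (a k) f ∈ K ∧ meshPoint (a k) f' ∈ K')
    (hC : ∀ᶠ k in l, ∀ f f', ‖h k f f'‖ ≤ C)
    (hlim : ∀ᵐ z : ℂ, ∀ᵐ z' : ℂ,
      Tendsto (fun k => h k (meshIndex (a k) z) (meshIndex (a k) z')) l (𝓝 (H z z'))) :
    Tendsto (fun k => (a k) ^ 4 • ∑' f, ∑' f', h k f f') l (𝓝 (∫ z, ∫ z', H z z')) := by
  have hpos : ∀ᶠ k in l, 0 < a k := ha self_mem_nhdsWithin
  have hlt : ∀ᶠ k in l, a k < 1 := by
    have h0 : Tendsto a l (𝓝 0) := ha.mono_right nhdsWithin_le_nhds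
    exact h0.eventually (Iio_mem_nhds one_pos)
  have key : Tendsto (fun k => (a k) ^ 2 • ∑' f, ((a k) ^ 2 • ∑' f', h k f f')) l
      (𝓝 (∫ z, ∫ z', H z z')) := by
    refine tendsto_tsum ha hK (C := |C| * (volume (thickening 3 K')).toReal) ?_ ?_ ?_
    · filter_upwards [hsupp] with k hs f hf
      by_contra hcon
      refine hf ?_
      have : ∀ f', h k f f' = 0 := fun f' => by
        by_contra h0
        exact hcon (hs f f' h0).1
      simp [this]
    · filter_upwards [hpos, hlt, hsupp, hC] with k hk hk1 hs hc f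
      exact norm_tsum_le hK' hk hk1 (fun f' h0 => (hs f f' h0).2) (hc f)
    · filter_upwards [hlim] with z hz
      refine tendsto_tsum ha hK' (C := C) ?_ ?_ hz
      · filter_upwards [hsupp] with k hs f' hf'
        exact (hs _ _ hf').2
      · filter_upwards [hC] with k hc f'
        exact hc _ _
  refine key.congr fun k => ?_
  rw [tsum_const_smul'' ((a k) ^ 2), smul_smul]
  congr 1
  ring

end two

/-! ### half-edges, powers of the mesh -/

section half

/-- half-edges (`Latx683.HE ℤ`) -/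
abbrev HEZ : Type := (ℤ × ℤ) × Fin 4

theorem sum_he {F : HEZ → ℝ} {A : Finset HEZ} (hA : ∀ h ∉ A, F h = 0) :
    ∑ h ∈ A, F h = ∑ i : Fin 4, ∑' f : ℤ × ℤ, F (f, i) := by
  classical
  have h1 : ∀ i : Fin 4, ∑' f : ℤ × ℤ, F (f, i) = ∑ f ∈ A.image Prod.fst, F (f, i) := by
    intro i
    refine tsum_eq_sum fun f hf => hA _ fun h => hf ?_
    exact Finset.mem_image.2 ⟨_, h, rfl⟩
  simp only [h1]
  have h2 : ∑ i : Fin 4, ∑ f ∈ A.image Prod.fst, F (f, i) =
      ∑ h ∈ (A.image Prod.fst) ×ˢ (Finset.univ : Finset (Fin 4)), F h := by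
    rw [Finset.sum_product, Finset.sum_comm]
  rw [h2]
  refine Finset.sum_subset ?_ fun h _ hh => hA h hh
  intro h hh
  exact Finset.mem_product.2 ⟨Finset.mem_image.2 ⟨h, hh, rfl⟩, Finset.mem_univ _⟩

variable {κ : Type*} {l : Filter κ} [l.IsCountablyGenerated] {a : κ → ℝ}

/-- **pairing of two lattice fields**: `p_k` lives on a bounded set and is of order `a^α`,
`u_k` is of order `a^β` there -/
theorem pair1 (ha : Tendsto a l (𝓝[>] 0)) {K : Set ℂ} (hK : Bornology.IsBounded K)
    {P u : κ → HEZ → ℝ} {p U : ℂ → Fin 4 → ℝ} {α β C C' : ℝ} {A : κ → Finset HEZ}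
    (hA : ∀ᶠ k in l, ∀ h ∉ A k, P k h = 0)
    (hP : ∀ᶠ k in l, ∀ h, P k h ≠ 0 → meshPoint (a k) h.1 ∈ K)
    (bP : ∀ᶠ k in l, ∀ h, |P k h| ≤ C * (a k) ^ α)
    (bu : ∀ᶠ k in l, ∀ h : HEZ, meshPoint (a k) h.1 ∈ K → |u k h| ≤ C' * (a k) ^ β)
    (limP : ∀ᵐ z : ℂ, ∀ i, Tendsto (fun k => (a k) ^ (-α) * P k (meshIndex (a k) z, i)) l (𝓝 (p z i)))
    (limu : ∀ᵐ z : ℂ, z ∈ closure K →
      ∀ i, Tendsto (fun k => (a k) ^ (-β) * u k (meshIndex (a k) z, i)) l (𝓝 (U z i))) :
    Tendsto (fun k => (a k) ^ (2 - α - β) * ∑ h ∈ A k, P k h * u k h) l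
      (𝓝 (∑ i, ∫ z, p z i * U z i)) := by
  rcases eq_or_neBot l with hl | hl
  · rw [hl]; exact tendsto_bot
  have hpos : ∀ᶠ k in l, 0 < a k := ha self_mem_nhdsWithin
  have key : ∀ i : Fin 4, Tendsto (fun k => (a k) ^ 2 • ∑' f : ℤ × ℤ,
      ((a k) ^ (-α) * P k (f, i)) * ((a k) ^ (-β) * u k (f, i))) l
      (𝓝 (∫ z, p z i * U z i)) := by
    intro i
    refine tendsto_tsum ha hK (C := |C| * |C'|) ?_ ?_ ?_
    · filter_upwards [hP] with k h f hf
      refine h (f, i) fun h0 => hf ?_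
      rw [h0]; ring
    · filter_upwards [hpos, hP, bP, bu] with k hk h1 h2 h3 f
      by_cases h0 : P k (f, i) = 0
      · rw [h0]; simp only [mul_zero, zero_mul, norm_zero]; positivity
      · have h4 := h1 (f, i) h0
        rw [norm_mul, Real.norm_eq_abs, Real.norm_eq_abs, abs_mul, abs_mul,
          abs_of_pos (Real.rpow_pos_of_pos hk _), abs_of_pos (Real.rpow_pos_of_pos hk _)]
        have e1 : (a k) ^ (-α) * |P k (f, i)| ≤ |C| := by
          calc (a k) ^ (-α) * |P k (f, i)| ≤ (a k) ^ (-α) * (C * (a k) ^ α) :=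
                mul_le_mul_of_nonneg_left (h2 _) (Real.rpow_pos_of_pos hk _).le
            _ = C := by
                rw [mul_left_comm, ← Real.rpow_add hk, neg_add_cancel, Real.rpow_zero, mul_one]
            _ ≤ |C| := le_abs_self C
        have e2 : (a k) ^ (-β) * |u k (f, i)| ≤ |C'| := by
          calc (a k) ^ (-β) * |u k (f, i)| ≤ (a k) ^ (-β) * (C' * (a k) ^ β) :=
                mul_le_mul_of_nonneg_left (h3 _ h4) (Real.rpow_pos_of_pos hk _).le
            _ = C' := by
                rw [mul_left_comm, ← Real.rpow_add hk, neg_add_cancel, Real.rpow_zero, mul_one]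
            _ ≤ |C'| := le_abs_self C'
        exact mul_le_mul e1 e2 (by positivity) (by positivity)
    · filter_upwards [limP, limu] with z h1 h2
      by_cases hz : z ∈ closure K
      · exact (h1 i).mul (h2 hz i)
      · have h3 : ∀ᶠ k in l, meshPoint (a k) (meshIndex (a k) z) ∉ K := by
          have := (tendsto_meshPoint ha z).eventually
            (isClosed_closure.isOpen_compl.mem_nhds hz)
          filter_upwards [this] with k hk hcon
          exact hk (subset_closure hcon)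
        have h4 : ∀ᶠ k in l, (a k) ^ (-α) * P k (meshIndex (a k) z, i) = 0 := by
          filter_upwards [h3, hP] with k hk hk2
          by_contra h0
          exact hk (hk2 (meshIndex (a k) z, i) fun h5 => h0 (by rw [h5, mul_zero]))
        have h5 : p z i = 0 :=
          tendsto_nhds_unique (h1 i) (tendsto_const_nhds.congr' (h4.mono fun k hk => hk.symm))
        rw [h5, zero_mul]
        refine tendsto_const_nhds.congr' ?_
        filter_upwards [h4] with k hk
        rw [hk, zero_mul]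
  have key2 := tendsto_finsetSum (Finset.univ : Finset (Fin 4)) fun i _ => key i
  refine key2.congr' ?_
  filter_upwards [hpos, hA] with k hk h
  rw [sum_he (F := fun h => P k h * u k h) (fun b hb => by rw [h b hb, zero_mul]), Finset.mul_sum]
  refine Finset.sum_congr rfl fun i _ => ?_
  rw [smul_eq_mul]
  have e : ∀ f : ℤ × ℤ, ((a k) ^ (-α) * P k (f, i)) * ((a k) ^ (-β) * u k (f, i)) =
      (a k) ^ (-α - β) * (P k (f, i) * u k (f, i)) := by
    intro f
    rw [sub_eq_add_neg, Real.rpow_add hk]; ring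
  simp only [e]
  rw [tsum_mul_left, ← mul_assoc, ← Real.rpow_natCast, ← Real.rpow_add hk]
  congr 2
  push_cast; ring

/-- **two-sided pairing**: `p_k` of order `a^α`, `q_k` of order `a^β`, both living on bounded sets,
`S_k` of order `a^γ` between them -/
theorem pair2 (ha : Tendsto a l (𝓝[>] 0)) {K K' : Set ℂ} (hK : Bornology.IsBounded K)
    (hK' : Bornology.IsBounded K')
    {P Q : κ → HEZ → ℝ} {S : κ → HEZ → HEZ → ℝ} {p q : ℂ → Fin 4 → ℝ}
    {T : ℂ → Fin 4 → ℂ → Fin 4 → ℝ} {α β γ C C' C'' : ℝ} {A B : κ → Finset HEZ}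
    (hA : ∀ᶠ k in l, ∀ h ∉ A k, P k h = 0) (hB : ∀ᶠ k in l, ∀ h ∉ B k, Q k h = 0)
    (hP : ∀ᶠ k in l, ∀ h, P k h ≠ 0 → meshPoint (a k) h.1 ∈ K)
    (hQ : ∀ᶠ k in l, ∀ h, Q k h ≠ 0 → meshPoint (a k) h.1 ∈ K')
    (bP : ∀ᶠ k in l, ∀ h, |P k h| ≤ C * (a k) ^ α)
    (bQ : ∀ᶠ k in l, ∀ h, |Q k h| ≤ C' * (a k) ^ β)
    (bS : ∀ᶠ k in l, ∀ h h' : HEZ, meshPoint (a k) h.1 ∈ K → meshPoint (a k) h'.1 ∈ K' →
      |S k h h'| ≤ C'' * (a k) ^ γ)
    (limP : ∀ᵐ z : ℂ, ∀ i, Tendsto (fun k => (a k) ^ (-α) * P k (meshIndex (a k) z, i)) l (𝓝 (p z i)))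
    (limQ : ∀ᵐ z : ℂ, ∀ i, Tendsto (fun k => (a k) ^ (-β) * Q k (meshIndex (a k) z, i)) l (𝓝 (q z i)))
    (limS : ∀ᵐ z : ℂ, ∀ᵐ z' : ℂ, z ∈ closure K → z' ∈ closure K' → ∀ i i',
      Tendsto (fun k => (a k) ^ (-γ) * S k (meshIndex (a k) z, i) (meshIndex (a k) z', i')) l
        (𝓝 (T z i z' i'))) :
    Tendsto (fun k => (a k) ^ (4 - α - β - γ) *
        ∑ h ∈ A k, ∑ h' ∈ B k, P k h * S k h h' * Q k h') l
      (𝓝 (∑ i, ∑ i', ∫ z, ∫ z', p z i * T z i z' i' * q z' i')) := by
  rcases eq_or_neBot l with hl | hl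
  · rw [hl]; exact tendsto_bot
  have hpos : ∀ᶠ k in l, 0 < a k := ha self_mem_nhdsWithin
  have zero_out : ∀ {K : Set ℂ} {P : κ → HEZ → ℝ} {p : ℂ → Fin 4 → ℝ} {α : ℝ} {z : ℂ} {i : Fin 4},
      (∀ᶠ k in l, ∀ h, P k h ≠ 0 → meshPoint (a k) h.1 ∈ K) →
      Tendsto (fun k => (a k) ^ (-α) * P k (meshIndex (a k) z, i)) l (𝓝 (p z i)) →
      z ∉ closure K → p z i = 0 ∧ ∀ᶠ k in l, P k (meshIndex (a k) z, i) = 0 := by
    intro K P p α z i hP h1 hz
    have h3 : ∀ᶠ k in l, meshPoint (a k) (meshIndex (a k) z) ∉ K := by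
      have := (tendsto_meshPoint ha z).eventually (isClosed_closure.isOpen_compl.mem_nhds hz)
      filter_upwards [this] with k hk hcon
      exact hk (subset_closure hcon)
    have h4 : ∀ᶠ k in l, P k (meshIndex (a k) z, i) = 0 := by
      filter_upwards [h3, hP] with k hk hk2
      by_contra h0
      exact hk (hk2 (meshIndex (a k) z, i) h0)
    refine ⟨tendsto_nhds_unique h1 (tendsto_const_nhds.congr' (h4.mono fun k hk => ?_)), h4⟩
    simp only [hk, mul_zero]
  have key : ∀ i i' : Fin 4, Tendsto (fun k => (a k) ^ 4 • ∑' f : ℤ × ℤ, ∑' f' : ℤ × ℤ,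
      ((a k) ^ (-α) * P k (f, i)) * ((a k) ^ (-γ) * S k (f, i) (f', i')) *
        ((a k) ^ (-β) * Q k (f', i'))) l
      (𝓝 (∫ z, ∫ z', p z i * T z i z' i' * q z' i')) := by
    intro i i'
    refine tendsto_tsum₂ ha hK hK' (C := |C| * |C''| * |C'|) ?_ ?_ ?_
    · filter_upwards [hP, hQ] with k h h' f f' hf
      refine ⟨h (f, i) fun h0 => hf ?_, h' (f', i') fun h0 => hf ?_⟩
      · rw [h0]; ring
      · rw [h0]; ring
    · filter_upwards [hpos, hP, hQ, bP, bQ, bS] with k hk h1 h1' h2 h2' h3 f f'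
      by_cases h0 : P k (f, i) = 0
      · rw [h0]; simp only [mul_zero, zero_mul, norm_zero]; positivity
      by_cases h0' : Q k (f', i') = 0
      · rw [h0']; simp only [mul_zero, norm_zero]; positivity
      have h4 := h1 (f, i) h0
      have h4' := h1' (f', i') h0'
      have en : ∀ {c x D : ℝ}, |x| ≤ D * (a k) ^ c → |(a k) ^ (-c) * x| ≤ |D| := by
        intro c x D hx
        rw [abs_mul, abs_of_pos (Real.rpow_pos_of_pos hk _)]
        calc (a k) ^ (-c) * |x| ≤ (a k) ^ (-c) * (D * (a k) ^ c) :=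
              mul_le_mul_of_nonneg_left hx (Real.rpow_pos_of_pos hk _).le
          _ = D := by
              rw [mul_left_comm, ← Real.rpow_add hk, neg_add_cancel, Real.rpow_zero, mul_one]
          _ ≤ |D| := le_abs_self D
      rw [norm_mul, norm_mul]
      exact mul_le_mul (mul_le_mul (en (h2 _)) (en (h3 _ _ h4 h4')) (norm_nonneg _)
        (abs_nonneg _)) (en (h2' _)) (norm_nonneg _) (by positivity)
    · filter_upwards [limP, limS] with z h1 h2
      filter_upwards [limQ, h2] with z' h1' h2'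
      by_cases hz : z ∈ closure K
      · by_cases hz' : z' ∈ closure K'
        · exact ((h1 i).mul (h2' hz hz' i i')).mul (h1' i')
        · obtain ⟨h5, h6⟩ := zero_out (α := β) hQ (h1' i') hz'
          rw [h5, mul_zero]
          refine tendsto_const_nhds.congr' ?_
          filter_upwards [h6] with k hk
          rw [hk]; ring
      · obtain ⟨h5, h6⟩ := zero_out (α := α) hP (h1 i) hz
        rw [h5, zero_mul, zero_mul]
        refine tendsto_const_nhds.congr' ?_
        filter_upwards [h6] with k hk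
        rw [hk]; ring
  have key2 := tendsto_finsetSum (Finset.univ : Finset (Fin 4)) fun i _ =>
    tendsto_finsetSum (Finset.univ : Finset (Fin 4)) fun i' _ => key i i'
  refine key2.congr' ?_
  filter_upwards [hpos, hA, hB] with k hk h h'
  have e0 : ∀ h : HEZ, ∑ h' ∈ B k, P k h * S k h h' * Q k h' =
      ∑ i' : Fin 4, ∑' f' : ℤ × ℤ, P k h * S k h (f', i') * Q k (f', i') := fun h =>
    sum_he (F := fun h' => P k h * S k h h' * Q k h') (fun b hb => by rw [h' b hb, mul_zero])
  have hsum : ∀ (h : HEZ) (i' : Fin 4), Summable fun f' : ℤ × ℤ =>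
      P k h * S k h (f', i') * Q k (f', i') := by
    intro b i'
    refine summable_of_ne_finset_zero (s := (B k).image Prod.fst) fun f hf => ?_
    rw [h' (f, i') fun hc => hf (Finset.mem_image.2 ⟨_, hc, rfl⟩), mul_zero]
  rw [sum_he (F := fun h => ∑ h' ∈ B k, P k h * S k h h' * Q k h') (fun b hb => by
    simp only [h b hb, zero_mul, Finset.sum_const_zero]), Finset.mul_sum]
  refine Finset.sum_congr rfl fun i _ => ?_
  simp only [e0]
  have hs2 : ∀ i' : Fin 4, Summable fun f : ℤ × ℤ =>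
      ∑' f' : ℤ × ℤ, P k (f, i) * S k (f, i) (f', i') * Q k (f', i') := by
    intro i'
    refine summable_of_ne_finset_zero (s := (A k).image Prod.fst) fun f hf => ?_
    simp only [h (f, i) fun hc => hf (Finset.mem_image.2 ⟨_, hc, rfl⟩), zero_mul, tsum_zero]
  rw [Summable.tsum_finsetSum fun i' _ => hs2 i', Finset.mul_sum]
  refine Finset.sum_congr rfl fun i' _ => ?_
  have e : ∀ f f' : ℤ × ℤ, ((a k) ^ (-α) * P k (f, i)) * ((a k) ^ (-γ) * S k (f, i) (f', i')) *
        ((a k) ^ (-β) * Q k (f', i')) =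
      (a k) ^ (-α - β - γ) * (P k (f, i) * S k (f, i) (f', i') * Q k (f', i')) := by
    intro f f'
    rw [sub_eq_add_neg, sub_eq_add_neg, Real.rpow_add hk, Real.rpow_add hk]; ring
  simp only [e, tsum_mul_left, smul_eq_mul]
  rw [← mul_assoc, ← Real.rpow_natCast, ← Real.rpow_add hk]
  congr 2
  push_cast; ring

end half

end Crest.Agent.R165.Pairx599
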