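import Crest.Agent.R165.Br3_644

/-!
# Row 165 (S0250), block U4 (helper813): exact Green identities at a branch point

* `AF w` : the operator `Aop w` on finitely supported fields, `pr` the pairing
* `formS_AF` : `S (A u, v) = ⟨u, v⟩` for the covariance `S` of `w`
* `green1`, `green2` : one- and two-variable Green identities
-/

set_option autoImplicit false
set_option linter.unusedSectionVars false

noncomputable section

namespace Crest.Agent.R165.Gr2x813

open Crest.Agent.R165.Latx683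

section general

variable {G : Type} [CommRing G]

/-- pairing of a finitely supported field with a function -/
def pr (u : Fld G) (s : HE G → ℝ) : ℝ := u.sum fun h c => c * s h

@[simp] theorem pr_zero (s : HE G → ℝ) : pr (0 : Fld G) s = 0 := by simp [pr]

theorem pr_add (u v : Fld G) (s : HE G → ℝ) : pr (u + v) s = pr u s + pr v s := by
  classical
  unfold pr
  exact Finsupp.sum_add_index' (by simp) (by intros; ring)

theorem pr_smul (c : ℝ) (u : Fld G) (s : HE G → ℝ) : pr (c • u) s = c * pr u s := by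
  unfold pr
  rw [Finsupp.sum_smul_index (by simp), Finsupp.sum, Finsupp.sum, Finset.mul_sum]
  exact Finset.sum_congr rfl fun _ _ => by ring

theorem pr_neg (u : Fld G) (s : HE G → ℝ) : pr (-u) s = -pr u s := by
  rw [← neg_one_smul ℝ u, pr_smul]; ring

theorem pr_sub (u v : Fld G) (s : HE G → ℝ) : pr (u - v) s = pr u s - pr v s := by
  rw [sub_eq_add_neg, pr_add, pr_neg]; ring

theorem pr_single (h : HE G) (c : ℝ) (s : HE G → ℝ) : pr (Finsupp.single h c) s = c * s h := by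
  unfold pr
  rw [Finsupp.sum_single_index (by simp)]

theorem pr_add_right (u : Fld G) (s t : HE G → ℝ) : pr u (s + t) = pr u s + pr u t := by
  unfold pr
  rw [Finsupp.sum, Finsupp.sum, Finsupp.sum, ← Finset.sum_add_distrib]
  exact Finset.sum_congr rfl fun _ _ => by simp only [Pi.add_apply]; ring

theorem pr_smul_right (u : Fld G) (c : ℝ) (s : HE G → ℝ) : pr u (c • s) = c * pr u s := by
  unfold pr
  rw [Finsupp.sum, Finsupp.sum, Finset.mul_sum]
  exact Finset.sum_congr rfl fun _ _ => by simp only [Pi.smul_apply, smul_eq_mul]; ring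

theorem pr_neg_right (u : Fld G) (s : HE G → ℝ) : pr u (fun h => -s h) = -pr u s := by
  unfold pr
  rw [Finsupp.sum, Finsupp.sum, ← Finset.sum_neg_distrib]
  exact Finset.sum_congr rfl fun _ _ => by ring

theorem pr_congr (u : Fld G) {s t : HE G → ℝ} (h : ∀ g ∈ u.support, s g = t g) :
    pr u s = pr u t := by
  unfold pr
  exact Finset.sum_congr rfl fun g hg => by simp only [h g hg]

theorem pr_eq_sum (u : Fld G) (s : HE G → ℝ) (K : Finset (HE G)) (hK : u.support ⊆ K) :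
    pr u s = ∑ h ∈ K, u h * s h := by
  unfold pr
  exact Finsupp.sum_of_support_subset u hK _ (by simp)

/-- pairing is symmetric -/
theorem pr_comm (u v : Fld G) : pr u v = pr v u := by
  classical
  rw [pr_eq_sum u v (u.support ∪ v.support) Finset.subset_union_left,
    pr_eq_sum v u (u.support ∪ v.support) Finset.subset_union_right]
  exact Finset.sum_congr rfl fun _ _ => mul_comm _ _

/-- columns of `A` -/
def colA (w : BW G) (h : HE G) : Fld G :=
  if h.2 = 0 then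
    -Finsupp.single (h.1, 1) 1 - Finsupp.single (h.1, 2) 1 - Finsupp.single (h.1, 3) 1
      - Finsupp.single ((h.1.1, h.1.2 - 1), 2) (yN w (h.1.1, h.1.2 - 1))
  else if h.2 = 1 then
    Finsupp.single (h.1, 0) 1 - Finsupp.single (h.1, 2) 1 - Finsupp.single (h.1, 3) 1
      - Finsupp.single ((h.1.1 + 1, h.1.2), 3) (yE w h.1)
  else if h.2 = 2 then
    Finsupp.single (h.1, 0) 1 + Finsupp.single (h.1, 1) 1 - Finsupp.single (h.1, 3) 1
      + Finsupp.single ((h.1.1, h.1.2 + 1), 0) (yN w h.1)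
  else
    Finsupp.single (h.1, 0) 1 + Finsupp.single (h.1, 1) 1 + Finsupp.single (h.1, 2) 1
      + Finsupp.single ((h.1.1 - 1, h.1.2), 1) (yE w (h.1.1 - 1, h.1.2))

theorem pr_colA (w : BW G) (h : HE G) (s : HE G → ℝ) : pr (colA w h) s = -Aop w s h := by
  obtain ⟨f, d⟩ := h
  fin_cases d
  · simp only [colA, Fin.zero_eta, Fin.isValue, if_true, pr_sub, pr_neg, pr_single, Aop_S]; ring
  · simp only [colA, Fin.mk_one, Fin.isValue, one_ne_zero, if_false, if_true, pr_sub, pr_single,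
      Aop_E]; ring
  · simp only [colA, Fin.reduceFinMk, Fin.isValue, Fin.reduceEq, if_false, if_true, pr_sub,
      pr_add, pr_single, Aop_N]; ring
  · simp only [colA, Fin.reduceFinMk, Fin.isValue, Fin.reduceEq, if_false, pr_add, pr_single,
      Aop_W]; ring

/-- `A` on finitely supported fields -/
def AF (w : BW G) : Fld G →ₗ[ℝ] Fld G := Finsupp.linearCombination ℝ (colA w)

theorem AF_single (w : BW G) (h : HE G) (c : ℝ) : AF w (Finsupp.single h c) = c • colA w h := by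
  unfold AF
  rw [Finsupp.linearCombination_single]

/-- antisymmetry -/
theorem pr_AF (w : BW G) (u : Fld G) (s : HE G → ℝ) : pr (AF w u) s = -pr u (Aop w s) := by
  induction u using Finsupp.induction_linear with
  | zero => simp
  | add u v hu hv => rw [map_add, pr_add, pr_add, hu, hv]; ring
  | single h c => rw [AF_single, pr_smul, pr_colA, pr_single]; ring

end general

theorem pr_single_right (u : Fld ℤ) (g : HE ℤ) : pr u (Pi.single g 1) = u g := by
  rw [pr_eq_sum u _ (insert g u.support) (Finset.subset_insert _ _),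
    Finset.sum_eq_single g (fun h _ hne => by rw [Pi.single_eq_of_ne hne, mul_zero])
      (fun h => absurd (Finset.mem_insert_self _ _) h)]
  rw [Pi.single_eq_same, mul_one]

theorem colA_apply (w : BW ℤ) (h g : HE ℤ) : colA w h g = Aop w (Pi.single h 1) g := by
  obtain ⟨⟨f1, f2⟩, d⟩ := h
  obtain ⟨⟨g1, g2⟩, e⟩ := g
  have key : ∀ (p q : Prop) [Decidable p] [Decidable q] (a b : ℝ), (p ↔ q) → (p → a = b) →
      (if p then a else 0) = b * (if q then (1 : ℝ) else 0) := by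
    intro p q _ _ a b h1 h2
    by_cases hp : p
    · rw [if_pos hp, if_pos (h1.1 hp), h2 hp, mul_one]
    · rw [if_neg hp, if_neg (fun h => hp (h1.2 h)), mul_zero]
  have key1 : ∀ (p q : Prop) [Decidable p] [Decidable q], (p ↔ q) →
      (if p then (1 : ℝ) else 0) = (if q then (1 : ℝ) else 0) := by
    intro p q _ _ h1
    by_cases hp : p
    · rw [if_pos hp, if_pos (h1.1 hp)]
    · rw [if_neg hp, if_neg (fun h => hp (h1.2 h))]
  have e1 : (if f1 = g1 ∧ f2 = g2 then (1 : ℝ) else 0) = if g1 = f1 ∧ g2 = f2 then (1 : ℝ) else 0 :=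
    key1 _ _ (by omega)
  have e2 : (if f1 = g1 ∧ f2 - 1 = g2 then yN w (f1, f2 - 1) else 0)
      = yN w (g1, g2) * if g1 = f1 ∧ g2 + 1 = f2 then (1 : ℝ) else 0 :=
    key _ _ _ _ (by omega) (by rintro ⟨h1, h2⟩; rw [h1, h2])
  have e3 : (if f1 = g1 ∧ f2 + 1 = g2 then yN w (f1, f2) else 0)
      = yN w (g1, g2 - 1) * if g1 = f1 ∧ g2 - 1 = f2 then (1 : ℝ) else 0 :=
    key _ _ _ _ (by omega) (by rintro ⟨h1, h2⟩; rw [h1, show g2 - 1 = f2 by omega])
  have e4 : (if f1 + 1 = g1 ∧ f2 = g2 then yE w (f1, f2) else 0)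
      = yE w (g1 - 1, g2) * if g1 - 1 = f1 ∧ g2 = f2 then (1 : ℝ) else 0 :=
    key _ _ _ _ (by omega) (by rintro ⟨h1, h2⟩; rw [← h2, show g1 - 1 = f1 by omega])
  have e5 : (if f1 - 1 = g1 ∧ f2 = g2 then yE w (f1 - 1, f2) else 0)
      = yE w (g1, g2) * if g1 + 1 = f1 ∧ g2 = f2 then (1 : ℝ) else 0 :=
    key _ _ _ _ (by omega) (by rintro ⟨h1, h2⟩; rw [h1, h2])
  fin_cases d <;> fin_cases e <;>
    simp only [colA, Fin.zero_eta, Fin.isValue, if_true, Fin.mk_one, one_ne_zero, if_false,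
      Fin.reduceFinMk, Fin.reduceEq, Aop_S, Aop_E, Aop_N, Aop_W, Finsupp.sub_apply,
      Finsupp.add_apply, Finsupp.neg_apply, Finsupp.single_apply, Pi.single_apply,
      Prod.mk.injEq, and_false, and_true, zero_ne_one, mul_zero, e1, e2, e3, e4, e5] <;> ring

theorem single_coe (h : HE ℤ) (c : ℝ) :
    (⇑(Finsupp.single h c) : HE ℤ → ℝ) = c • (Pi.single h 1 : HE ℤ → ℝ) := by
  funext k
  rw [Finsupp.single_apply, Pi.smul_apply, Pi.single_apply, smul_eq_mul]
  by_cases hk : h = k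
  · rw [if_pos hk, if_pos hk.symm, mul_one]
  · rw [if_neg hk, if_neg (Ne.symm hk), mul_zero]

/-- `AF w` is `Aop w` -/
theorem AF_apply (w : BW ℤ) (u : Fld ℤ) (g : HE ℤ) : AF w u g = Aop w u g := by
  induction u using Finsupp.induction_linear with
  | zero => simp
  | add u v hu hv =>
    rw [map_add, Finsupp.add_apply, hu, hv, Finsupp.coe_add, map_add, Pi.add_apply]
  | single h c =>
    rw [AF_single, single_coe, map_smul, Finsupp.smul_apply, Pi.smul_apply, colA_apply]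

/-! ### the covariance -/

/-- column of the form -/
def col (S : HE ℤ → HE ℤ → ℝ) (v : Fld ℤ) : HE ℤ → ℝ := fun h => pr v (fun h' => S h h')

theorem formS_eq (S : HE ℤ → HE ℤ → ℝ) (u v : Fld ℤ) : formS S u v = pr u (col S v) := by
  rw [formS_apply]
  unfold pr col pr
  rw [Finsupp.sum]
  refine Finset.sum_congr rfl fun h _ => ?_
  rw [Finsupp.sum, Finset.mul_sum]
  exact Finset.sum_congr rfl fun h' _ => by ring

theorem formS_single_right (S : HE ℤ → HE ℤ → ℝ) (h : HE ℤ) (v : Fld ℤ) :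
    formS S (Finsupp.single h 1) v = col S v h := by
  rw [formS_eq, pr_single, one_mul]

theorem Aop_col {w : BW ℤ} {S : HE ℤ → HE ℤ → ℝ} (hS : IsCov w S) (v : Fld ℤ) :
    Aop w (col S v) = fun g => -v g := by
  induction v using Finsupp.induction_linear with
  | zero =>
    have : col S 0 = 0 := by funext h; simp [col]
    rw [this, map_zero]; funext g; simp
  | add u v hu hv =>
    have : col S (u + v) = col S u + col S v := by
      funext h; simp only [col, pr_add, Pi.add_apply]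
    rw [this, map_add, hu, hv]
    funext g
    simp only [Pi.add_apply, Finsupp.add_apply]; ring
  | single h c =>
    have : col S (Finsupp.single h c) = c • fun g => S g h := by
      funext g; simp only [col, pr_single, Pi.smul_apply, smul_eq_mul]
    rw [this, map_smul]
    funext g
    rw [Pi.smul_apply, hS.inv, single_coe, Pi.smul_apply]
    simp only [smul_eq_mul]; ring

/-- `S (A u, v) = ⟨u, v⟩` -/
theorem formS_AF {w : BW ℤ} {S : HE ℤ → HE ℤ → ℝ} (hS : IsCov w S) (u v : Fld ℤ) :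
    formS S (AF w u) v = pr u v := by
  rw [formS_eq, pr_AF, Aop_col hS, pr_neg_right, neg_neg]

theorem formS_skew {S : HE ℤ → HE ℤ → ℝ} (hS : ∀ h h', S h h' = -S h' h) (u v : Fld ℤ) :
    formS S u v = -formS S v u := by
  rw [formS_apply, formS_apply, Finset.sum_comm, ← Finset.sum_neg_distrib]
  refine Finset.sum_congr rfl fun h _ => ?_
  rw [← Finset.sum_neg_distrib]
  refine Finset.sum_congr rfl fun h' _ => ?_
  rw [hS h' h]; ring

/-- one-variable Green identity: `A v = Q - m` -/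
theorem green1 {w : BW ℤ} {S : HE ℤ → HE ℤ → ℝ} (hS : IsCov w S) {v Q m : Fld ℤ}
    (hv : AF w v = Q - m) (u : Fld ℤ) : formS S u m = formS S u Q + pr v u := by
  have h1 : m = Q - AF w v := by rw [hv]; abel
  have h2 : formS S u (AF w v) = -pr v u := by
    rw [formS_skew hS.skew, formS_AF hS]
  rw [h1, map_sub, h2]; ring

theorem green1' {w : BW ℤ} {S : HE ℤ → HE ℤ → ℝ} (hS : IsCov w S) {u P l : Fld ℤ}
    (hu : AF w u = P - l) (v : Fld ℤ) : formS S l v = formS S P v - pr u v := by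
  rw [formS_skew hS.skew, green1 hS hu, formS_skew hS.skew v P]; ring

/-- two-variable Green identity: `A u = P - l`, `A v = Q - m` -/
theorem green2 {w : BW ℤ} {S : HE ℤ → HE ℤ → ℝ} (hS : IsCov w S) {u P l v Q m : Fld ℤ}
    (hu : AF w u = P - l) (hv : AF w v = Q - m) :
    formS S l m = formS S P Q + pr v P - pr u m := by
  rw [green1' hS hu, green1 hS hv]

/-! ### cut-offs -/

/-- the neighbouring face across the half-edge `d` -/
def nbf (f : ℤ × ℤ) (d : Fin 4) : ℤ × ℤ :=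
  if d = 0 then (f.1, f.2 - 1) else if d = 1 then (f.1 + 1, f.2) else
    if d = 2 then (f.1, f.2 + 1) else (f.1 - 1, f.2)

@[simp] theorem nbf_zero (f : ℤ × ℤ) : nbf f 0 = (f.1, f.2 - 1) := rfl
@[simp] theorem nbf_one (f : ℤ × ℤ) : nbf f 1 = (f.1 + 1, f.2) := rfl
@[simp] theorem nbf_two (f : ℤ × ℤ) : nbf f 2 = (f.1, f.2 + 1) := rfl
@[simp] theorem nbf_three (f : ℤ × ℤ) : nbf f 3 = (f.1 - 1, f.2) := rfl

/-- the opposite direction -/
def opd (d : Fin 4) : Fin 4 := if d = 0 then 2 else if d = 1 then 3 else if d = 2 then 0 else 1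

@[simp] theorem opd_zero : opd 0 = 2 := rfl
@[simp] theorem opd_one : opd 1 = 3 := rfl
@[simp] theorem opd_two : opd 2 = 0 := rfl
@[simp] theorem opd_three : opd 3 = 1 := rfl

theorem nbf_nbf (f : ℤ × ℤ) (d : Fin 4) : nbf (nbf f d) (opd d) = f := by
  fin_cases d <;> simp

/-- weight of the half-edge `d` of the face `f` -/
def ew (w : BW ℤ) (f : ℤ × ℤ) (d : Fin 4) : ℝ :=
  if d = 0 then yN w (f.1, f.2 - 1) else if d = 1 then yE w f else
    if d = 2 then yN w f else yE w (f.1 - 1, f.2)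

@[simp] theorem ew_zero (w : BW ℤ) (f : ℤ × ℤ) : ew w f 0 = yN w (f.1, f.2 - 1) := rfl
@[simp] theorem ew_one (w : BW ℤ) (f : ℤ × ℤ) : ew w f 1 = yE w f := rfl
@[simp] theorem ew_two (w : BW ℤ) (f : ℤ × ℤ) : ew w f 2 = yN w f := rfl
@[simp] theorem ew_three (w : BW ℤ) (f : ℤ × ℤ) : ew w f 3 = yE w (f.1 - 1, f.2) := rfl

theorem ew_nbf (w : BW ℤ) (f : ℤ × ℤ) (d : Fin 4) : ew w (nbf f d) (opd d) = ew w f d := by
  fin_cases d <;> simp

/-- orientation sign of the half-edges -/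
def sgd (d : Fin 4) : ℝ := if d = 0 ∨ d = 1 then 1 else -1

/-- edge part of the rows of `A` -/
def edge (w : BW ℤ) (Ψ : HE ℤ → ℝ) (h : HE ℤ) : ℝ :=
  sgd h.2 * (ew w h.1 h.2 * Ψ (nbf h.1 h.2, opd h.2))

/-- intra-face part of the rows of `A` -/
def intra (p : Fin 4 → ℝ) (d : Fin 4) : ℝ :=
  if d = 0 then p 1 + p 2 + p 3 else if d = 1 then -p 0 + p 2 + p 3 else
    if d = 2 then -p 0 - p 1 + p 3 else -p 0 - p 1 - p 2

theorem Aop_eq (w : BW ℤ) (Ψ : HE ℤ → ℝ) (h : HE ℤ) :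
    Aop w Ψ h = intra (fun d => Ψ (h.1, d)) h.2 + edge w Ψ h := by
  obtain ⟨f, d⟩ := h
  fin_cases d
  · simp [intra, edge, sgd]
  · simp [intra, edge, sgd]
  · simp [intra, edge, sgd]; ring
  · simp [intra, edge, sgd]; ring

theorem intra_mul (c : ℝ) (p : Fin 4 → ℝ) (d : Fin 4) :
    intra (fun e => c * p e) d = c * intra p d := by
  unfold intra; split_ifs <;> ring

/-- commutator of `A` with a cut-off (a function of faces) -/
def comm (w : BW ℤ) (χ : ℤ × ℤ → ℝ) (Ψ : HE ℤ → ℝ) (h : HE ℤ) : ℝ :=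
  (χ (nbf h.1 h.2) - χ h.1) * edge w Ψ h

theorem Aop_mul (w : BW ℤ) (χ : ℤ × ℤ → ℝ) (Ψ : HE ℤ → ℝ) (h : HE ℤ) :
    Aop w (fun g => χ g.1 * Ψ g) h = χ h.1 * Aop w Ψ h + comm w χ Ψ h := by
  have e : intra (fun d => χ (h.1, d).1 * Ψ (h.1, d)) h.2
      = χ h.1 * intra (fun d => Ψ (h.1, d)) h.2 := intra_mul (χ h.1) (fun d => Ψ (h.1, d)) h.2
  rw [Aop_eq, Aop_eq, e]
  unfold comm edge
  ring

/-- the cut-off field -/
def cutF (χ : ℤ × ℤ → ℝ) (hχ : χ.support.Finite) (Ψ : HE ℤ → ℝ) : Fld ℤ :=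
  Finsupp.ofSupportFinite (fun h => χ h.1 * Ψ h) (by
    refine ((hχ.prod (Set.finite_univ (α := Fin 4)))).subset fun h hh => ?_
    rw [Function.mem_support] at hh
    refine ⟨?_, Set.mem_univ _⟩
    rw [Function.mem_support]
    exact left_ne_zero_of_mul hh)

@[simp] theorem cutF_apply (χ : ℤ × ℤ → ℝ) (hχ : χ.support.Finite) (Ψ : HE ℤ → ℝ) (h : HE ℤ) :
    cutF χ hχ Ψ h = χ h.1 * Ψ h := rfl

/-- translate of a field by `X` with the gauge `σ` -/
def gsh (X : ℤ × ℤ) (σ : ℤ × ℤ → ℝ) (Ψ : HE ℤ → ℝ) (h : HE ℤ) : ℝ := σ h.1 * Ψ (h.1 - X, h.2)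

/-- near the face `f` the background `w` is the translate by `X` of `w₀`, up to the gauge `σ` -/
def LocAt (w w₀ : BW ℤ) (X : ℤ × ℤ) (σ : ℤ × ℤ → ℝ) (f : ℤ × ℤ) : Prop :=
  ∀ d, ew w f d * σ (nbf f d) = σ f * ew w₀ (f - X) d

theorem nbf_sub (f X : ℤ × ℤ) (d : Fin 4) : nbf f d - X = nbf (f - X) d := by
  obtain ⟨f1, f2⟩ := f
  obtain ⟨x1, x2⟩ := X
  fin_cases d <;> simp <;> ring

theorem edge_gsh {w w₀ : BW ℤ} {X : ℤ × ℤ} {σ : ℤ × ℤ → ℝ} {f : ℤ × ℤ} {d : Fin 4}
    (h : ew w f d * σ (nbf f d) = σ f * ew w₀ (f - X) d) (Ψ : HE ℤ → ℝ) :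
    edge w (gsh X σ Ψ) (f, d) = σ f * edge w₀ Ψ (f - X, d) := by
  unfold edge gsh
  simp only
  rw [nbf_sub]
  calc sgd d * (ew w f d * (σ (nbf f d) * Ψ (nbf (f - X) d, opd d)))
      = sgd d * ((ew w f d * σ (nbf f d)) * Ψ (nbf (f - X) d, opd d)) := by ring
    _ = _ := by rw [h]; ring

theorem Aop_gsh {w w₀ : BW ℤ} {X : ℤ × ℤ} {σ : ℤ × ℤ → ℝ} {f : ℤ × ℤ}
    (h : LocAt w w₀ X σ f) (Ψ : HE ℤ → ℝ) (d : Fin 4) :
    Aop w (gsh X σ Ψ) (f, d) = σ f * Aop w₀ Ψ (f - X, d) := by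
  rw [Aop_eq, Aop_eq, edge_gsh (h d)]
  have : intra (fun e => gsh X σ Ψ (f, e)) d = σ f * intra (fun e => Ψ (f - X, e)) d := by
    exact intra_mul (σ f) (fun e => Ψ (f - X, e)) d
  simp only [this]; ring

theorem comm_gsh {w w₀ : BW ℤ} {X : ℤ × ℤ} {σ : ℤ × ℤ → ℝ} (hσ : ∀ f, σ f * σ f = 1)
    {χ : ℤ × ℤ → ℝ} (hloc : ∀ f, χ f ≠ 0 → LocAt w w₀ X σ f) (Ψ : HE ℤ → ℝ) (h : HE ℤ) :
    comm w χ (gsh X σ Ψ) h = σ h.1 * comm w₀ (fun f => χ (f + X)) Ψ (h.1 - X, h.2) := by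
  obtain ⟨f, d⟩ := h
  unfold comm
  simp only [← nbf_sub, sub_add_cancel]
  by_cases h1 : χ f = 0
  · by_cases h2 : χ (nbf f d) = 0
    · rw [h1, h2]; ring
    · have h3 := hloc _ h2 (opd d)
      rw [nbf_nbf, ew_nbf] at h3
      have h4 : ew w f d * σ (nbf f d) = σ f * ew w₀ (f - X) d := by
        have h5 : ew w₀ (nbf f d - X) (opd d) = ew w₀ (f - X) d := by
          rw [nbf_sub, ew_nbf]
        rw [h5] at h3
        calc ew w f d * σ (nbf f d) = (ew w f d * σ f) * σ (nbf f d) * σ f := by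
              linear_combination (-(ew w f d * σ (nbf f d))) * hσ f
          _ = (σ (nbf f d) * ew w₀ (f - X) d) * σ (nbf f d) * σ f := by rw [h3]
          _ = _ := by linear_combination (σ f * ew w₀ (f - X) d) * hσ (nbf f d)
      rw [edge_gsh h4]; ring
  · rw [edge_gsh (hloc f h1 d)]; ring

/-- **cut-off solution**: if `A₀ Ψ = -l₀`, `χ = 1` on the source, then `A (χ Ψ') = P - l` -/
theorem cut_eq {w w₀ : BW ℤ} {X : ℤ × ℤ} {σ : ℤ × ℤ → ℝ} (hσ : ∀ f, σ f * σ f = 1)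
    {χ : ℤ × ℤ → ℝ} (hχ : χ.support.Finite) (hloc : ∀ f, χ f ≠ 0 → LocAt w w₀ X σ f)
    {Ψ : HE ℤ → ℝ} {l : Fld ℤ} (hl : ∀ h : HE ℤ, l h = -(σ h.1 * Aop w₀ Ψ (h.1 - X, h.2)))
    (h1 : ∀ h : HE ℤ, Aop w₀ Ψ (h.1 - X, h.2) ≠ 0 → χ h.1 = 1) :
    ∃ P : Fld ℤ, AF w (cutF χ hχ (gsh X σ Ψ)) = P - l ∧
      ∀ h, P h = σ h.1 * comm w₀ (fun f => χ (f + X)) Ψ (h.1 - X, h.2) := by
  refine ⟨AF w (cutF χ hχ (gsh X σ Ψ)) + l, by abel, fun h => ?_⟩
  rw [Finsupp.add_apply, AF_apply]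
  have e : (⇑(cutF χ hχ (gsh X σ Ψ)) : HE ℤ → ℝ) = fun g => χ g.1 * gsh X σ Ψ g := rfl
  rw [e, Aop_mul, comm_gsh hσ hloc, hl]
  by_cases h2 : χ h.1 = 0
  · by_cases h3 : Aop w₀ Ψ (h.1 - X, h.2) = 0
    · rw [h2, h3]; ring
    · have := h1 h h3; rw [h2] at this; exact absurd this (by norm_num)
  · have h4 : Aop w (gsh X σ Ψ) h = σ h.1 * Aop w₀ Ψ (h.1 - X, h.2) :=
      Aop_gsh (hloc h.1 h2) Ψ h.2
    rw [h4]
    by_cases h3 : Aop w₀ Ψ (h.1 - X, h.2) = 0
    · rw [h3]; ring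
    · rw [h1 h h3]; ring

end Crest.Agent.R165.Gr2x813
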