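import Mathlib
import Crest.Agent.R165.BrA3_375
import Crest.Agent.R165.Br7_644
import Crest.Agent.R165.Gr2_813
import Crest.Prelude.Def_PerturbedIsing

/-!
Row 165 (S0250), block U4 (helper375): `PsiLim`, scaling limits of the commutators
`[A, χ_a] Ψ` of the explicit branch fields with a smooth cut-off, in the form of helper813 (msg 5131).

* `Cut χ r0 R0` : the cut-off
* `comm_supp`, `comm_bound`, `comm_lim` : support in an annulus, size `a^(p+1)`, pointwise limit
* `pS`, `pN` : the continuum densities; `cS_lim`, `cN_lim`, bounds and measurability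
* `ae_gen` : almost every point is off the diagonal and off the ray
-/

set_option autoImplicit false

noncomputable section

namespace Crest.Agent.R165.PsiLx375

open Filter Topology MeasureTheory
open Crest.Agent.R165.Latx683
open Crest.Agent.R165.Br5x644
open Crest.Agent.R165.Br1x644 (wB PsiS PsiN sg yE_wB yN_wB)
open Crest.Agent.R165.Gr2x813 (nbf opd ew edge sgd comm nbf_zero nbf_one nbf_two nbf_three)
open Crest.Agent.R165.RIfx891 (lv)
open Crest.ProbabilityR.IsingModel (meshPoint)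

/-- the direction of the half-edge `d` -/
def ed : Fin 4 → ℂ := ![-Complex.I, 1, Complex.I, -1]

theorem norm_ed (d : Fin 4) : ‖ed d‖ = 1 := by fin_cases d <;> simp [ed]

theorem mesh_nbf (a : ℝ) (f : ℤ × ℤ) (d : Fin 4) :
    meshPoint a (nbf f d) = meshPoint a f + (a : ℂ) * ed d := by
  fin_cases d <;> apply Complex.ext <;> simp [meshPoint, ed] <;> ring

theorem norm_mesh_le {a : ℝ} (ha : 0 < a) (f : ℤ × ℤ) : ‖meshPoint a f‖ ≤ a * sz f.1 f.2 := by
  have h := Complex.norm_le_abs_re_add_abs_im (meshPoint a f)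
  have e : |(meshPoint a f).re| + |(meshPoint a f).im| = a * (|(f.1:ℝ)| + |(f.2:ℝ)|) := by
    simp only [meshPoint]
    rw [abs_mul, abs_mul, abs_of_pos ha]; ring
  rw [e] at h
  refine h.trans ?_
  unfold sz
  nlinarith [abs_nonneg (f.1:ℝ), abs_nonneg (f.2:ℝ)]

/-- smooth cut-off function -/
structure Cut (χ : ℂ → ℝ) (r0 R0 : ℝ) : Prop where
  pos : 0 < r0
  one : ∀ z, ‖z‖ < r0 → χ z = 1
  zero : ∀ z, R0 ≤ ‖z‖ → χ z = 0
  c1 : ContDiff ℝ 1 χ

variable {χ : ℂ → ℝ} {r0 R0 : ℝ}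

theorem Cut.hcs (H : Cut χ r0 R0) : HasCompactSupport χ := by
  refine HasCompactSupport.intro (K := Metric.closedBall 0 R0) (isCompact_closedBall _ _) ?_
  intro z hz
  refine H.zero z ?_
  rw [Metric.mem_closedBall, dist_zero_right, not_le] at hz
  exact hz.le

theorem Cut.lip (H : Cut χ r0 R0) : ∃ M : ℝ, 0 ≤ M ∧ ∀ z w, |χ z - χ w| ≤ M * ‖z - w‖ := by
  obtain ⟨K, hK⟩ := H.c1.lipschitzWith_of_hasCompactSupport H.hcs one_ne_zero
  refine ⟨K, K.2, fun z w => ?_⟩
  have := hK.dist_le_mul z w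
  rwa [Real.dist_eq, dist_eq_norm] at this

theorem diff_le {M : ℝ} (hM : ∀ z w, |χ z - χ w| ≤ M * ‖z - w‖) {a : ℝ} (ha : 0 < a)
    (f : ℤ × ℤ) (d : Fin 4) :
    |χ (meshPoint a (nbf f d)) - χ (meshPoint a f)| ≤ M * a := by
  refine (hM _ _).trans (le_of_eq ?_)
  rw [mesh_nbf, add_sub_cancel_left, norm_mul, norm_ed, mul_one, Complex.norm_real,
    Real.norm_eq_abs, abs_of_pos ha]

theorem near_of_diff (H : Cut χ r0 R0) {a : ℝ} (ha : 0 < a) {f : ℤ × ℤ} {d : Fin 4}
    (h : χ (meshPoint a (nbf f d)) - χ (meshPoint a f) ≠ 0) :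
    r0 - a ≤ ‖meshPoint a f‖ ∧ ‖meshPoint a f‖ ≤ R0 + a ∧ r0 - a ≤ ‖meshPoint a (nbf f d)‖ := by
  have e : ‖(a:ℂ) * ed d‖ = a := by
    rw [norm_mul, norm_ed, mul_one, Complex.norm_real, Real.norm_eq_abs, abs_of_pos ha]
  have h1 : ‖meshPoint a (nbf f d)‖ ≤ ‖meshPoint a f‖ + a := by
    rw [mesh_nbf]; exact (norm_add_le _ _).trans (by rw [e])
  have h2 : ‖meshPoint a f‖ ≤ ‖meshPoint a (nbf f d)‖ + a := by
    have : meshPoint a f = meshPoint a (nbf f d) - (a:ℂ) * ed d := by rw [mesh_nbf]; ring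
    calc ‖meshPoint a f‖ = ‖meshPoint a (nbf f d) - (a:ℂ) * ed d‖ := by rw [← this]
      _ ≤ ‖meshPoint a (nbf f d)‖ + ‖(a:ℂ) * ed d‖ := norm_sub_le _ _
      _ = _ := by rw [e]
  refine ⟨?_, ?_, ?_⟩
  · by_contra hc
    push Not at hc
    refine h ?_
    rw [H.one _ (by linarith), H.one _ (by linarith), sub_self]
  · by_contra hc
    push Not at hc
    refine h ?_
    rw [H.zero _ (by linarith), H.zero _ (by linarith), sub_self]
  · by_contra hc
    push Not at hc
    refine h ?_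
    rw [H.one _ (by linarith), H.one _ (by linarith), sub_self]

/-- (1) support in an annulus -/
theorem comm_supp (H : Cut χ r0 R0) (w : BW ℤ) (Ψ : HE ℤ → ℝ) {a : ℝ} (ha : 0 < a) (h : HE ℤ)
    (hne : comm w (fun f => χ (meshPoint a f)) Ψ h ≠ 0) :
    r0 - a ≤ ‖meshPoint a h.1‖ ∧ ‖meshPoint a h.1‖ ≤ R0 + a := by
  have := near_of_diff H ha (f := h.1) (d := h.2) (left_ne_zero_of_mul hne)
  exact ⟨this.1, this.2.1⟩

theorem abs_ew_wB (f : ℤ × ℤ) (d : Fin 4) : |ew wB f d| ≤ 1 := by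
  have h0 : |xc| ≤ 1 := by
    have h1 : (1:ℝ) ≤ √2 := by
      rw [show (1:ℝ) = √1 by simp]; exact Real.sqrt_le_sqrt (by norm_num)
    have h2 : √2 ≤ 2 := by
      have : √2 ≤ √4 := Real.sqrt_le_sqrt (by norm_num)
      rwa [show (4:ℝ) = 2 ^ 2 by norm_num, Real.sqrt_sq (by norm_num)] at this
    unfold xc
    rw [abs_of_nonneg (by linarith)]; linarith
  have h1 : ∀ x y : ℤ, |yN wB (x, y)| ≤ 1 := by
    intro x y
    rw [yN_wB, abs_mul]
    have : |sg x y| = 1 := by unfold sg; split_ifs <;> norm_num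
    rw [this, one_mul]; exact h0
  have h2 : ∀ x y : ℤ, |yE wB (x, y)| ≤ 1 := by
    intro x y; rw [yE_wB]; exact h0
  fin_cases d
  · exact h1 _ _
  · exact h2 _ _
  · exact h1 _ _
  · exact h2 _ _

theorem abs_sgd (d : Fin 4) : |sgd d| = 1 := by unfold sgd; split_ifs <;> norm_num

/-- (2) size `a^(p+1)` -/
theorem comm_bound (H : Cut χ r0 R0) {Ψ : HE ℤ → ℝ} {p C : ℝ} (hp : 0 ≤ p) (hC : 0 ≤ C)
    (hΨ : ∀ (x y : ℤ) (d : Fin 4), |Ψ ((x, y), d)| ≤ C / sz x y ^ p) :
    ∃ K : ℝ, 0 ≤ K ∧ ∀ a : ℝ, 0 < a → a ≤ r0 / 2 → ∀ h : HE ℤ,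
      |comm wB (fun f => χ (meshPoint a f)) Ψ h| ≤ K * a ^ (p + 1) := by
  obtain ⟨M, hM0, hM⟩ := H.lip
  have hr := H.pos
  refine ⟨M * (C * (2 / r0) ^ p), by positivity, fun a ha har h => ?_⟩
  obtain ⟨f, d⟩ := h
  by_cases hne : χ (meshPoint a (nbf f d)) - χ (meshPoint a f) = 0
  · unfold Gr2x813.comm
    simp only
    rw [hne, zero_mul, abs_zero]; positivity
  · have h1 := (near_of_diff H ha hne).2.2
    have h2 := norm_mesh_le ha (nbf f d)
    have h3 : r0 / 2 ≤ a * sz (nbf f d).1 (nbf f d).2 := by linarith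
    have h4 : (r0 / 2 / a) ≤ sz (nbf f d).1 (nbf f d).2 := by
      rw [div_le_iff₀ ha]; linarith
    have h5 : (r0 / 2 / a) ^ p ≤ sz (nbf f d).1 (nbf f d).2 ^ p :=
      Real.rpow_le_rpow (by positivity) h4 hp
    have h6 : |Ψ (nbf f d, opd d)| ≤ C * (2 / r0) ^ p * a ^ p := by
      refine (hΨ _ _ _).trans ?_
      have e : C * (2 / r0) ^ p * a ^ p = C / (r0 / 2 / a) ^ p := by
        rw [Real.div_rpow (by positivity) ha.le, Real.div_rpow (by norm_num) hr.le,
          Real.div_rpow hr.le (by norm_num)]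
        have b1 : r0 ^ p ≠ 0 := (Real.rpow_pos_of_pos hr _).ne'
        have b2 : a ^ p ≠ 0 := (Real.rpow_pos_of_pos ha _).ne'
        have b3 : (2:ℝ) ^ p ≠ 0 := (Real.rpow_pos_of_pos (by norm_num) _).ne'
        field_simp
      rw [e]
      exact div_le_div_of_nonneg_left hC (by positivity) h5
    have h7 := diff_le hM ha f d
    unfold Gr2x813.comm edge
    simp only
    rw [abs_mul, abs_mul, abs_mul, abs_sgd, one_mul]
    have e : M * (C * (2 / r0) ^ p) * a ^ (p + 1) = (M * a) * (1 * (C * (2 / r0) ^ p * a ^ p)) := by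
      rw [Real.rpow_add ha, Real.rpow_one]; ring
    rw [e]
    refine mul_le_mul h7 ?_ (by positivity) (by positivity)
    exact mul_le_mul (abs_ew_wB f d) h6 (abs_nonneg _) (by norm_num)

/-! ### the pointwise limit -/

variable {ι : Type*} {l : Filter ι} {a : ι → ℝ} {f : ι → ℤ × ℤ} {z : ℂ}

theorem cv_of (ha : Tendsto a l (𝓝[>] 0)) (hf : Tendsto (fun k => meshPoint (a k) (f k)) l (𝓝 z)) :
    Cv l a (fun k => (f k).1) (fun k => (f k).2) z.re z.im :=
  ⟨ha, (Complex.continuous_re.tendsto z).comp hf, (Complex.continuous_im.tendsto z).comp hf⟩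

theorem cv_nbf (h : Cv l a (fun k => (f k).1) (fun k => (f k).2) z.re z.im) (d : Fin 4) :
    Cv l a (fun k => (nbf (f k) d).1) (fun k => (nbf (f k) d).2) z.re z.im := by
  fin_cases d
  · have := h.shift 0 (-1)
    simpa [sub_eq_add_neg] using this
  · have := h.shift 1 0
    simpa using this
  · have := h.shift 0 1
    simpa using this
  · have := h.shift (-1) 0
    simpa [sub_eq_add_neg] using this

theorem slope_lim (H : Cut χ r0 R0) (ha : Tendsto a l (𝓝[>] 0))
    (hf : Tendsto (fun k => meshPoint (a k) (f k)) l (𝓝 z)) (d : Fin 4) :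
    Tendsto (fun k => (a k)⁻¹ * (χ (meshPoint (a k) (nbf (f k) d)) - χ (meshPoint (a k) (f k)))) l
      (𝓝 (fderiv ℝ χ z (ed d))) := by
  have hs : HasStrictFDerivAt χ (fderiv ℝ χ z) z := H.c1.contDiffAt.hasStrictFDerivAt one_ne_zero
  have ha0 : Tendsto a l (𝓝 0) := tendsto_nhds_of_tendsto_nhdsWithin ha
  have hapos : ∀ᶠ k in l, 0 < a k := (tendsto_nhdsWithin_iff.1 ha).2
  have h1 : Tendsto (fun k => meshPoint (a k) (nbf (f k) d)) l (𝓝 z) := by
    have : Tendsto (fun k => meshPoint (a k) (f k) + (a k : ℂ) * ed d) l (𝓝 (z + (0:ℝ) * ed d)) :=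
      hf.add (((Complex.continuous_ofReal.tendsto 0).comp ha0).mul_const _)
    rw [Complex.ofReal_zero, zero_mul, add_zero] at this
    exact this.congr fun k => (mesh_nbf _ _ _).symm
  have h2 : Tendsto (fun k => (meshPoint (a k) (nbf (f k) d), meshPoint (a k) (f k))) l (𝓝 (z, z)) := by
    rw [nhds_prod_eq]; exact h1.prodMk hf
  have h3 := hs.isLittleO.comp_tendsto h2
  have h4 : (fun k => χ (meshPoint (a k) (nbf (f k) d)) - χ (meshPoint (a k) (f k)) -
      fderiv ℝ χ z ((a k : ℂ) * ed d)) =o[l] fun k => (a k : ℂ) * ed d := by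
    refine (h3.congr (fun k => ?_) fun k => ?_)
    · simp only [Function.comp_apply, mesh_nbf, add_sub_cancel_left]
    · simp only [Function.comp_apply, mesh_nbf, add_sub_cancel_left]
  have h5 : (fun k => χ (meshPoint (a k) (nbf (f k) d)) - χ (meshPoint (a k) (f k)) -
      fderiv ℝ χ z ((a k : ℂ) * ed d)) =o[l] a := by
    refine h4.trans_le fun k => ?_
    rw [norm_mul, norm_ed, mul_one, Complex.norm_real]
  have h6 := h5.tendsto_div_nhds_zero
  have h7 : Tendsto (fun k => (χ (meshPoint (a k) (nbf (f k) d)) - χ (meshPoint (a k) (f k)) -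
      fderiv ℝ χ z ((a k : ℂ) * ed d)) / a k + fderiv ℝ χ z (ed d)) l
      (𝓝 (0 + fderiv ℝ χ z (ed d))) := h6.add_const _
  rw [zero_add] at h7
  refine h7.congr' ?_
  filter_upwards [hapos] with k hk
  have e : fderiv ℝ χ z ((a k : ℂ) * ed d) = a k * fderiv ℝ χ z (ed d) := by
    rw [← Complex.real_smul, map_smul, smul_eq_mul]
  rw [e]
  field_simp
  ring

theorem ew_lim (h : Cv l a (fun k => (f k).1) (fun k => (f k).2) z.re z.im)
    (hg : Gen z.re z.im) (d : Fin 4) : ∀ᶠ k in l, ew wB (f k) d = xc := by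
  have key : ∀ᶠ k in l, ¬ ((f k).2 = -1 ∧ 0 ≤ (f k).1) ∧ ¬ ((f k).2 = 0 ∧ 0 ≤ (f k).1) := by
    rcases hg with h1 | ⟨_, h1⟩ | ⟨_, h1⟩
    · filter_upwards [h.lt h1 1] with k hk
      constructor <;> omega
    · filter_upwards [(h.shift 0 1).yneg h1] with k hk
      constructor <;> omega
    · filter_upwards [h.ypos h1] with k hk
      constructor <;> omega
  filter_upwards [key] with k hk
  fin_cases d
  · show yN wB ((f k).1, (f k).2 - 1) = xc
    rw [yN_wB, sg, if_neg (by omega), one_mul]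
  · show yE wB (f k) = xc
    rw [show f k = ((f k).1, (f k).2) from rfl, yE_wB]
  · show yN wB (f k) = xc
    rw [show f k = ((f k).1, (f k).2) from rfl, yN_wB, sg, if_neg (by omega), one_mul]
  · show yE wB ((f k).1 - 1, (f k).2) = xc
    rw [yE_wB]

/-- (3) the pointwise limit -/
theorem comm_lim (H : Cut χ r0 R0) {Ψ : HE ℤ → ℝ} {p : ℝ} {G : Fin 4 → ℝ}
    (ha : Tendsto a l (𝓝[>] 0)) (hf : Tendsto (fun k => meshPoint (a k) (f k)) l (𝓝 z))
    (hg : Gen z.re z.im)
    (hΨ : ∀ (X Y : ι → ℤ) (d : Fin 4), Cv l a X Y z.re z.im →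
      Tendsto (fun k => a k ^ (-p) * Ψ ((X k, Y k), d)) l (𝓝 (G d))) (d : Fin 4) :
    Tendsto (fun k => a k ^ (-(p + 1)) * comm wB (fun f => χ (meshPoint (a k) f)) Ψ (f k, d)) l
      (𝓝 (fderiv ℝ χ z (ed d) * (sgd d * (xc * G (opd d))))) := by
  have hcv := cv_of ha hf
  have h1 := slope_lim H ha hf d
  have h2 := hΨ _ _ (opd d) (cv_nbf hcv d)
  have h3 := h1.mul ((h2.const_mul xc).const_mul (sgd d))
  refine h3.congr' ?_
  have hapos : ∀ᶠ k in l, 0 < a k := (tendsto_nhdsWithin_iff.1 ha).2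
  filter_upwards [hapos, ew_lim hcv hg d] with k hk he
  unfold Gr2x813.comm edge
  simp only
  rw [he, neg_add, Real.rpow_add hk, Real.rpow_neg_one]
  ring

/-! ### instances -/

/-- continuum density of `[A, χ] PsiS` -/
def pS (χ : ℂ → ℝ) (z : ℂ) (d : Fin 4) : ℝ :=
  fderiv ℝ χ z (ed d) * (sgd d * (xc * lv (-(kp : ℂ) * zt z) (opd d)))

/-- continuum density of `[A, χ] PsiN` -/
def pN (χ : ℂ → ℝ) (z : ℂ) (d : Fin 4) : ℝ :=
  fderiv ℝ χ z (ed d) * (sgd d * (xc * lv ((kp : ℂ) * ((1 - Complex.I)/2) * (zt z / z)) (opd d)))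

theorem cS_lim (H : Cut χ r0 R0) (ha : Tendsto a l (𝓝[>] 0))
    (hf : Tendsto (fun k => meshPoint (a k) (f k)) l (𝓝 z)) (hg : Gen z.re z.im) (d : Fin 4) :
    Tendsto (fun k => a k ^ (-(3/2) : ℝ) * comm wB (fun f => χ (meshPoint (a k) f)) PsiS (f k, d)) l
      (𝓝 (pS χ z d)) := by
  have := comm_lim H (p := 1/2) (Ψ := PsiS) (G := lv (-(kp : ℂ) * zt z)) ha hf hg
    (fun X Y d h => lim_PsiS BrAx375.brA h hg d) d
  rw [show (-(1/2 + 1) : ℝ) = -(3/2) by norm_num] at this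
  exact this

theorem cN_lim (H : Cut χ r0 R0) (ha : Tendsto a l (𝓝[>] 0))
    (hf : Tendsto (fun k => meshPoint (a k) (f k)) l (𝓝 z)) (hg : Gen z.re z.im) (d : Fin 4) :
    Tendsto (fun k => a k ^ (-(5/2) : ℝ) * comm wB (fun f => χ (meshPoint (a k) f)) PsiN (f k, d)) l
      (𝓝 (pN χ z d)) := by
  have := comm_lim H (p := 3/2) (Ψ := PsiN) (G := lv ((kp : ℂ) * ((1 - Complex.I)/2) * (zt z / z))) ha hf hg
    (fun X Y d h => lim_PsiN BrAx375.brA h hg d) d
  rw [show (-(3/2 + 1) : ℝ) = -(5/2) by norm_num] at this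
  exact this

theorem cS_bound (H : Cut χ r0 R0) : ∃ K : ℝ, 0 ≤ K ∧ ∀ a : ℝ, 0 < a → a ≤ r0 / 2 → ∀ h : HE ℤ,
    |comm wB (fun f => χ (meshPoint a f)) PsiS h| ≤ K * a ^ (3/2 : ℝ) := by
  obtain ⟨C, hC, hb⟩ := PsiS_bound
  have := comm_bound H (p := 1/2) (by norm_num) hC hb
  rw [show (1/2 + 1 : ℝ) = 3/2 by norm_num] at this
  exact this

theorem cN_bound (H : Cut χ r0 R0) : ∃ K : ℝ, 0 ≤ K ∧ ∀ a : ℝ, 0 < a → a ≤ r0 / 2 → ∀ h : HE ℤ,
    |comm wB (fun f => χ (meshPoint a f)) PsiN h| ≤ K * a ^ (5/2 : ℝ) := by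
  obtain ⟨C, hC, hb⟩ := PsiN_bound
  have := comm_bound H (p := 3/2) (by norm_num) hC hb
  rw [show (3/2 + 1 : ℝ) = 5/2 by norm_num] at this
  exact this

/-! ### the exceptional set -/

theorem null_re_im : volume {z : ℂ | z.re = z.im} = 0 := by
  let L : ℂ →ₗ[ℝ] ℝ := Complex.reLm - Complex.imLm
  have h : {z : ℂ | z.re = z.im} = (LinearMap.ker L : Set ℂ) := by
    ext z
    simp [L, sub_eq_zero]
  rw [h]
  refine Measure.addHaar_submodule volume _ ?_
  intro hc
  have : (1 : ℂ) ∈ LinearMap.ker L := by rw [hc]; trivial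
  simp [L] at this

theorem null_im : volume {z : ℂ | z.im = 0} = 0 := by
  have h : {z : ℂ | z.im = 0} = (LinearMap.ker Complex.imLm : Set ℂ) := by
    ext z
    simp
  rw [h]
  refine Measure.addHaar_submodule volume _ ?_
  intro hc
  have : (Complex.I : ℂ) ∈ LinearMap.ker Complex.imLm := by rw [hc]; trivial
  simp at this

theorem ae_gen : ∀ᵐ z : ℂ, Gen z.re z.im := by
  have h1 : ∀ᵐ z : ℂ, z.re ≠ z.im := by
    rw [ae_iff]; simpa using null_re_im
  have h2 : ∀ᵐ z : ℂ, z.im ≠ 0 := by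
    rw [ae_iff]; simpa using null_im
  filter_upwards [h1, h2] with z hz1 hz2
  rcases lt_or_gt_of_ne hz1 with h | h
  · exact Or.inl h
  · rcases lt_or_gt_of_ne hz2 with h' | h'
    · exact Or.inr (Or.inl ⟨h, h'⟩)
    · exact Or.inr (Or.inr ⟨h, h'⟩)

theorem ae_gen_sub (x : ℂ) : ∀ᵐ z : ℂ, Gen (z - x).re (z - x).im :=
  (measurePreserving_sub_right volume x).quasiMeasurePreserving.ae ae_gen

/-! ### measurability, support and bounds of the densities -/

theorem measurable_zt : Measurable zt := by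
  unfold zt
  exact measurable_const.mul ((measurable_id.neg).pow_const _)

theorem measurable_lv {g : ℂ → ℂ} (hg : Measurable g) (d : Fin 4) : Measurable fun z => lv (g z) d := by
  have h1 : Measurable fun z => (g z).re := Complex.measurable_re.comp hg
  have h2 : Measurable fun z => (g z).im := Complex.measurable_im.comp hg
  fin_cases d
  · exact ((h1.add h2).neg).div_const _
  · exact h1
  · exact (h2.sub h1).div_const _
  · exact h2.neg

theorem Cut.cont_fderiv (H : Cut χ r0 R0) (e : ℂ) : Continuous fun z => fderiv ℝ χ z e :=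
  (H.c1.continuous_fderiv (by norm_num)).clm_apply continuous_const

theorem measurable_pS (H : Cut χ r0 R0) (d : Fin 4) : Measurable fun z => pS χ z d := by
  unfold pS
  exact (H.cont_fderiv _).measurable.mul (((measurable_lv (measurable_const.mul measurable_zt) _).const_mul _).const_mul _)

theorem measurable_pN (H : Cut χ r0 R0) (d : Fin 4) : Measurable fun z => pN χ z d := by
  unfold pN
  exact (H.cont_fderiv _).measurable.mul (((measurable_lv (measurable_const.mul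
    (measurable_zt.div measurable_id)) _).const_mul _).const_mul _)

theorem Cut.fderiv_zero_in (H : Cut χ r0 R0) {z : ℂ} (hz : ‖z‖ < r0) : fderiv ℝ χ z = 0 := by
  have : χ =ᶠ[𝓝 z] fun _ => (1:ℝ) := by
    have : Metric.ball (0:ℂ) r0 ∈ 𝓝 z := Metric.isOpen_ball.mem_nhds (by simpa using hz)
    filter_upwards [this] with w hw
    exact H.one w (by simpa using hw)
  rw [this.fderiv_eq]; simp

theorem Cut.fderiv_zero_out (H : Cut χ r0 R0) {z : ℂ} (hz : R0 < ‖z‖) : fderiv ℝ χ z = 0 := by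
  have : χ =ᶠ[𝓝 z] fun _ => (0:ℝ) := by
    have : {w : ℂ | R0 < ‖w‖} ∈ 𝓝 z := (isOpen_lt continuous_const continuous_norm).mem_nhds hz
    filter_upwards [this] with w hw
    exact H.zero w (le_of_lt hw)
  rw [this.fderiv_eq]; simp

theorem pS_supp (H : Cut χ r0 R0) {z : ℂ} {d : Fin 4} (h : pS χ z d ≠ 0) : r0 ≤ ‖z‖ ∧ ‖z‖ ≤ R0 := by
  constructor
  · by_contra hc
    push Not at hc
    exact h (by unfold pS; rw [H.fderiv_zero_in hc]; simp)
  · by_contra hc
    push Not at hc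
    exact h (by unfold pS; rw [H.fderiv_zero_out hc]; simp)

theorem pN_supp (H : Cut χ r0 R0) {z : ℂ} {d : Fin 4} (h : pN χ z d ≠ 0) : r0 ≤ ‖z‖ ∧ ‖z‖ ≤ R0 := by
  constructor
  · by_contra hc
    push Not at hc
    exact h (by unfold pN; rw [H.fderiv_zero_in hc]; simp)
  · by_contra hc
    push Not at hc
    exact h (by unfold pN; rw [H.fderiv_zero_out hc]; simp)

theorem norm_zt (z : ℂ) : ‖zt z‖ = ‖z‖ ^ (-(1/2) : ℝ) := by
  unfold zt
  rw [norm_mul, norm_neg, Complex.norm_I, one_mul,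
    show (-(1/2) : ℂ) = ((-(1/2) : ℝ) : ℂ) by push_cast; ring, Complex.norm_cpow_real, norm_neg]

end Crest.Agent.R165.PsiLx375
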