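import Mathlib
import Crest.Agent.R165.PsiLim_375
import Crest.Agent.R165.Br8_644

/-!
Row 165 (S0250), block U4 (helper375): `PsiLim` for the reflected pair `PsiS2`, `PsiN2` of Br8_644.
-/

set_option autoImplicit false

noncomputable section

namespace Crest.Agent.R165.PsiLx375

open Filter Topology MeasureTheory
open Crest.Agent.R165.Latx683
open Crest.Agent.R165.Br5x644
open Crest.Agent.R165.Br1x644 (wB PsiS PsiN)
open Crest.Agent.R165.Gr2x813 (nbf opd ew edge sgd comm)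
open Crest.Agent.R165.RIfx891 (lv)
open Crest.ProbabilityR.IsingModel (meshPoint)

variable {χ : ℂ → ℝ} {r0 R0 : ℝ}
variable {ι : Type*} {l : Filter ι} {a : ι → ℝ} {f : ι → ℤ × ℤ} {z : ℂ}

/-- continuum density of `[A, χ] PsiN2` -/
def pN2 (χ : ℂ → ℝ) (z : ℂ) (d : Fin 4) : ℝ :=
  fderiv ℝ χ z (ed d) * (sgd d * (xc * lv ((kp : ℂ) * ((1 + Complex.I)/2) * (zt z / z)) (opd d)))

theorem cS2_lim (H : Cut χ r0 R0) (ha : Tendsto a l (𝓝[>] 0))
    (hf : Tendsto (fun k => meshPoint (a k) (f k)) l (𝓝 z)) (hg : Gen2 z.re z.im) (d : Fin 4) :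
    Tendsto (fun k => a k ^ (-(3/2) : ℝ) * comm wB (fun f => χ (meshPoint (a k) f)) PsiS2 (f k, d)) l
      (𝓝 (pS χ z d)) := by
  have := comm_lim H (p := 1/2) (Ψ := PsiS2) (G := lv (-(kp : ℂ) * zt z)) ha hf hg.1
    (fun X Y d h => lim_PsiS2 BrAx375.brA h hg d) d
  rw [show (-(1/2 + 1) : ℝ) = -(3/2) by norm_num] at this
  exact this

theorem cN2_lim (H : Cut χ r0 R0) (ha : Tendsto a l (𝓝[>] 0))
    (hf : Tendsto (fun k => meshPoint (a k) (f k)) l (𝓝 z)) (hg : Gen2 z.re z.im) (d : Fin 4) :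
    Tendsto (fun k => a k ^ (-(5/2) : ℝ) * comm wB (fun f => χ (meshPoint (a k) f)) PsiN2 (f k, d)) l
      (𝓝 (pN2 χ z d)) := by
  have := comm_lim H (p := 3/2) (Ψ := PsiN2)
    (G := lv ((kp : ℂ) * ((1 + Complex.I)/2) * (zt z / z))) ha hf hg.1
    (fun X Y d h => lim_PsiN2 BrAx375.brA h hg d) d
  rw [show (-(3/2 + 1) : ℝ) = -(5/2) by norm_num] at this
  exact this

theorem cS2_bound (H : Cut χ r0 R0) : ∃ K : ℝ, 0 ≤ K ∧ ∀ a : ℝ, 0 < a → a ≤ r0 / 2 → ∀ h : HE ℤ,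
    |comm wB (fun f => χ (meshPoint a f)) PsiS2 h| ≤ K * a ^ (3/2 : ℝ) := by
  obtain ⟨C, hC, hb⟩ := PsiS2_bound
  have := comm_bound H (p := 1/2) (by norm_num) hC hb
  rw [show (1/2 + 1 : ℝ) = 3/2 by norm_num] at this
  exact this

theorem cN2_bound (H : Cut χ r0 R0) : ∃ K : ℝ, 0 ≤ K ∧ ∀ a : ℝ, 0 < a → a ≤ r0 / 2 → ∀ h : HE ℤ,
    |comm wB (fun f => χ (meshPoint a f)) PsiN2 h| ≤ K * a ^ (5/2 : ℝ) := by
  obtain ⟨C, hC, hb⟩ := PsiN2_bound
  have := comm_bound H (p := 3/2) (by norm_num) hC hb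
  rw [show (3/2 + 1 : ℝ) = 5/2 by norm_num] at this
  exact this

theorem pN2_supp (H : Cut χ r0 R0) {z : ℂ} {d : Fin 4} (h : pN2 χ z d ≠ 0) :
    r0 ≤ ‖z‖ ∧ ‖z‖ ≤ R0 := by
  constructor
  · by_contra hc
    push Not at hc
    exact h (by unfold pN2; rw [H.fderiv_zero_in hc]; simp)
  · by_contra hc
    push Not at hc
    exact h (by unfold pN2; rw [H.fderiv_zero_out hc]; simp)

theorem measurable_pN2 (H : Cut χ r0 R0) (d : Fin 4) : Measurable fun z => pN2 χ z d := by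
  unfold pN2
  exact (H.cont_fderiv _).measurable.mul (((measurable_lv (measurable_const.mul
    (measurable_zt.div measurable_id)) _).const_mul _).const_mul _)

theorem ae_gen2 : ∀ᵐ z : ℂ, Gen2 z.re z.im := by
  have h1 := ae_gen
  have h2 : ∀ᵐ z : ℂ, Gen z.re (-z.im) := by
    have hc : MeasurePreserving (Complex.conjLIE : ℂ → ℂ) volume volume :=
      Complex.conjLIE.measurePreserving
    have := hc.quasiMeasurePreserving.ae ae_gen
    filter_upwards [this] with z hz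
    simpa using hz
  filter_upwards [h1, h2] with z hz1 hz2
  exact ⟨hz1, hz2⟩

theorem ae_gen2_sub (x : ℂ) : ∀ᵐ z : ℂ, Gen2 (z - x).re (z - x).im :=
  (measurePreserving_sub_right volume x).quasiMeasurePreserving.ae ae_gen2

/-! ### uniform bounds of the densities -/

theorem Cut.fderiv_bdd (H : Cut χ r0 R0) : ∃ M : ℝ, 0 ≤ M ∧ ∀ z e, |fderiv ℝ χ z e| ≤ M * ‖e‖ := by
  have hc : Continuous (fderiv ℝ χ) := H.c1.continuous_fderiv (by norm_num)
  obtain ⟨M, hM⟩ := (H.hcs.fderiv (𝕜 := ℝ)).exists_bound_of_continuous hc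
  refine ⟨max M 0, le_max_right _ _, fun z e => ?_⟩
  have h1 := (fderiv ℝ χ z).le_opNorm e
  rw [Real.norm_eq_abs] at h1
  exact h1.trans (mul_le_mul_of_nonneg_right ((hM z).trans (le_max_left _ _)) (norm_nonneg _))

theorem abs_lv_le (c : ℂ) (d : Fin 4) : |lv c d| ≤ 2 * ‖c‖ := by
  have h1 := Complex.abs_re_le_norm c
  have h2 := Complex.abs_im_le_norm c
  have h3 : (1:ℝ) ≤ √2 := by
    rw [show (1:ℝ) = √1 by simp]; exact Real.sqrt_le_sqrt (by norm_num)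
  have h4 : ∀ t : ℝ, |t / √2| ≤ |t| := by
    intro t
    rw [abs_div, abs_of_pos (by positivity : (0:ℝ) < √2)]
    exact div_le_self (abs_nonneg _) h3
  have h5 : 0 ≤ ‖c‖ := norm_nonneg _
  fin_cases d
  · refine (h4 _).trans ?_
    rw [abs_neg]
    exact (abs_add_le _ _).trans (by linarith)
  · show |c.re| ≤ _
    linarith
  · refine (h4 _).trans ?_
    exact (abs_sub _ _).trans (by linarith)
  · show |-c.im| ≤ _
    rw [abs_neg]; linarith

theorem abs_xc_le : |xc| ≤ 1 := by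
  have h := abs_ew_wB (0, 0) 1
  rwa [show ew wB (0, 0) 1 = xc from Crest.Agent.R165.Br1x644.yE_wB 0 0] at h

/-- general bound of a density of the form `D χ · lv c` on the annulus -/
theorem dens_bdd (H : Cut χ r0 R0) {c : ℂ → ℂ} {B : ℝ} (hB : 0 ≤ B)
    (hc : ∀ z : ℂ, r0 ≤ ‖z‖ → ‖c z‖ ≤ B) :
    ∃ K : ℝ, 0 ≤ K ∧ ∀ z d, |fderiv ℝ χ z (ed d) * (sgd d * (xc * lv (c z) (opd d)))| ≤ K := by
  obtain ⟨M, hM0, hM⟩ := H.fderiv_bdd
  refine ⟨M * (2 * B), by positivity, fun z d => ?_⟩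
  rcases lt_or_ge ‖z‖ r0 with hz | hz
  · rw [H.fderiv_zero_in hz]; simp only [_root_.zero_apply, zero_mul, abs_zero]
    positivity
  · have h1 := hM z (ed d)
    rw [norm_ed, mul_one] at h1
    rw [abs_mul, abs_mul, abs_mul, abs_sgd, one_mul]
    have h2 := (abs_lv_le (c z) (opd d)).trans (mul_le_mul_of_nonneg_left (hc z hz) (by norm_num))
    refine mul_le_mul h1 ?_ (by positivity) hM0
    calc |xc| * |lv (c z) (opd d)| ≤ 1 * (2 * B) :=
          mul_le_mul abs_xc_le h2 (abs_nonneg _) zero_le_one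
      _ = _ := one_mul _

theorem zt_bdd (H : Cut χ r0 R0) {z : ℂ} (hz : r0 ≤ ‖z‖) : ‖zt z‖ ≤ r0 ^ (-(1/2) : ℝ) := by
  rw [norm_zt]
  exact Real.rpow_le_rpow_of_nonpos H.pos hz (by norm_num)

theorem ztz_bdd (H : Cut χ r0 R0) {z : ℂ} (hz : r0 ≤ ‖z‖) : ‖zt z / z‖ ≤ r0 ^ (-(1/2) : ℝ) / r0 := by
  rw [norm_div]
  have h0 := H.pos
  exact div_le_div₀ (by positivity) (zt_bdd H hz) h0 hz

theorem pS_bdd (H : Cut χ r0 R0) : ∃ K : ℝ, 0 ≤ K ∧ ∀ z d, |pS χ z d| ≤ K := by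
  have h0 := H.pos
  refine dens_bdd H (c := fun z => -(kp : ℂ) * zt z) (B := ‖(-(kp:ℂ))‖ * r0 ^ (-(1/2) : ℝ))
    (by positivity) fun z hz => ?_
  rw [norm_mul]
  exact mul_le_mul_of_nonneg_left (zt_bdd H hz) (norm_nonneg _)

theorem pN_bdd (H : Cut χ r0 R0) : ∃ K : ℝ, 0 ≤ K ∧ ∀ z d, |pN χ z d| ≤ K := by
  have h0 := H.pos
  refine dens_bdd H (c := fun z => (kp : ℂ) * ((1 - Complex.I)/2) * (zt z / z))
    (B := ‖(kp : ℂ) * ((1 - Complex.I)/2)‖ * (r0 ^ (-(1/2) : ℝ) / r0))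
    (by positivity) fun z hz => ?_
  rw [norm_mul]
  exact mul_le_mul_of_nonneg_left (ztz_bdd H hz) (norm_nonneg _)

theorem pN2_bdd (H : Cut χ r0 R0) : ∃ K : ℝ, 0 ≤ K ∧ ∀ z d, |pN2 χ z d| ≤ K := by
  have h0 := H.pos
  refine dens_bdd H (c := fun z => (kp : ℂ) * ((1 + Complex.I)/2) * (zt z / z))
    (B := ‖(kp : ℂ) * ((1 + Complex.I)/2)‖ * (r0 ^ (-(1/2) : ℝ) / r0))
    (by positivity) fun z hz => ?_
  rw [norm_mul]
  exact mul_le_mul_of_nonneg_left (ztz_bdd H hz) (norm_nonneg _)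

/-! ### centred at a branch face -/

theorem mesh_sub (a : ℝ) (f X : ℤ × ℤ) : meshPoint a (f - X) = meshPoint a f - meshPoint a X := by
  apply Complex.ext <;> simp [meshPoint] <;> ring

/-- cut-offs centred at the face `X a`, `a X a → x`: the limit at `z` is the density at `z - x` -/
theorem comm_lim_at (H : Cut χ r0 R0) {Ψ : HE ℤ → ℝ} {p : ℝ} {G : Fin 4 → ℝ} {x : ℂ}
    {X : ι → ℤ × ℤ} (ha : Tendsto a l (𝓝[>] 0))
    (hf : Tendsto (fun k => meshPoint (a k) (f k)) l (𝓝 z))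
    (hX : Tendsto (fun k => meshPoint (a k) (X k)) l (𝓝 x))
    (hg : Gen (z - x).re (z - x).im)
    (hΨ : ∀ (X Y : ι → ℤ) (d : Fin 4), Cv l a X Y (z - x).re (z - x).im →
      Tendsto (fun k => a k ^ (-p) * Ψ ((X k, Y k), d)) l (𝓝 (G d))) (d : Fin 4) :
    Tendsto (fun k => a k ^ (-(p + 1)) *
      comm wB (fun f => χ (meshPoint (a k) f)) Ψ (f k - X k, d)) l
      (𝓝 (fderiv ℝ χ (z - x) (ed d) * (sgd d * (xc * G (opd d))))) := by
  refine comm_lim H ha (f := fun k => f k - X k) ?_ hg hΨ d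
  simp only [mesh_sub]
  exact hf.sub hX

theorem cN_lim_at (H : Cut χ r0 R0) {x : ℂ} {X : ι → ℤ × ℤ} (ha : Tendsto a l (𝓝[>] 0))
    (hf : Tendsto (fun k => meshPoint (a k) (f k)) l (𝓝 z))
    (hX : Tendsto (fun k => meshPoint (a k) (X k)) l (𝓝 x))
    (hg : Gen (z - x).re (z - x).im) (d : Fin 4) :
    Tendsto (fun k => a k ^ (-(5/2) : ℝ) *
      comm wB (fun f => χ (meshPoint (a k) f)) PsiN (f k - X k, d)) l (𝓝 (pN χ (z - x) d)) :=
  cN_lim H ha (f := fun k => f k - X k) (by simp only [mesh_sub]; exact hf.sub hX) hg d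

theorem cN2_lim_at (H : Cut χ r0 R0) {x : ℂ} {X : ι → ℤ × ℤ} (ha : Tendsto a l (𝓝[>] 0))
    (hf : Tendsto (fun k => meshPoint (a k) (f k)) l (𝓝 z))
    (hX : Tendsto (fun k => meshPoint (a k) (X k)) l (𝓝 x))
    (hg : Gen2 (z - x).re (z - x).im) (d : Fin 4) :
    Tendsto (fun k => a k ^ (-(5/2) : ℝ) *
      comm wB (fun f => χ (meshPoint (a k) f)) PsiN2 (f k - X k, d)) l (𝓝 (pN2 χ (z - x) d)) :=
  cN2_lim H ha (f := fun k => f k - X k) (by simp only [mesh_sub]; exact hf.sub hX) hg d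

theorem cS_lim_at (H : Cut χ r0 R0) {x : ℂ} {X : ι → ℤ × ℤ} (ha : Tendsto a l (𝓝[>] 0))
    (hf : Tendsto (fun k => meshPoint (a k) (f k)) l (𝓝 z))
    (hX : Tendsto (fun k => meshPoint (a k) (X k)) l (𝓝 x))
    (hg : Gen (z - x).re (z - x).im) (d : Fin 4) :
    Tendsto (fun k => a k ^ (-(3/2) : ℝ) *
      comm wB (fun f => χ (meshPoint (a k) f)) PsiS (f k - X k, d)) l (𝓝 (pS χ (z - x) d)) :=
  cS_lim H ha (f := fun k => f k - X k) (by simp only [mesh_sub]; exact hf.sub hX) hg d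

/-- `‖meshPoint a (f - X)‖` in the annulus implies the source is far, in the original coordinates -/
theorem comm_supp_at (H : Cut χ r0 R0) (w : BW ℤ) (Ψ : HE ℤ → ℝ) {a : ℝ} (ha : 0 < a)
    (f X : ℤ × ℤ) (d : Fin 4)
    (hne : comm w (fun f => χ (meshPoint a f)) Ψ (f - X, d) ≠ 0) :
    r0 - a ≤ ‖meshPoint a f - meshPoint a X‖ ∧ ‖meshPoint a f - meshPoint a X‖ ≤ R0 + a := by
  rw [← mesh_sub]
  exact comm_supp H w Ψ ha (f - X, d) hne

end Crest.Agent.R165.PsiLx375
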