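import Mathlib
import Crest.Agent.R165.PsiLim2_375
import Crest.Agent.R165.Eta1_576
import Crest.Agent.R165.Pair_599

/-!
Row 165 (S0250), block U4 (helper375): `L²` limits of the source field and of the cut-off field at a
branch vertex, in the conventions of `Eta1_576`.

* `wT_ew`, `Y_eq` : the explicit field of `Eta1_576` in the conventions of `Gr2_813`
* `gz_lim` : the lattice gauge converges to the continuum gauge
* `gS`, `uS` : the source field and the cut-off field; `gS_lim`, `uS_lim` pointwise limits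
* `gS_l2`, `uS_l2` : `L²` limits
-/

set_option autoImplicit false

noncomputable section

namespace Crest.Agent.R165.EtaLx375

open Filter Topology MeasureTheory
open Crest.Agent.R165.Tr1x40 (Face Fld nb op Y sg)
open Crest.Agent.R165.Mac0x622 (rel gz gc gz_abs gc_abs gz_sq gc_sq)
open Crest.Agent.R165.Eta1x576 (psS wT)
open Crest.Agent.R165.Embx622 (emb emb_measurable cell)
open Crest.Agent.R165.RIfx891 (lv rayw)
open Crest.Agent.R165.Br5x644 (Gen Cv kp zt sz sz_pos PsiS_bound lim_PsiS)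
open Crest.Agent.R165.Br1x644 (wB PsiS)
open Crest.Agent.R165.Gr2x813 (nbf opd ew edge sgd)
open Crest.Agent.R165.PsiLx375
open Crest.ProbabilityR.IsingModel (meshPoint meshIndex)

/-! ### bridge -/

theorem xc_eq : (Latx683.xc : ℝ) = Tr1x40.xc := rfl

theorem wT_ew (V f : Face) (h : Fin 4) : wT V f h = ew wB (f - V) h := by
  obtain ⟨f1, f2⟩ := f
  obtain ⟨v1, v2⟩ := V
  fin_cases h
  · show wT (v1, v2) (f1, f2) 0 = Latx683.yN wB (f1 - v1, f2 - v2 - 1)
    rw [Br1x644.yN_wB]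
    unfold wT rayw Br1x644.sg
    rw [xc_eq]
    congr 1
    by_cases hc : f2 = v2 ∧ v1 ≤ f1
    · rw [if_pos (by simp [hc]), if_pos (by omega)]
    · rw [if_neg (by simpa using hc), if_neg (by omega)]
  · show wT (v1, v2) (f1, f2) 1 = Latx683.yE wB (f1 - v1, f2 - v2)
    rw [Br1x644.yE_wB]
    unfold wT rayw
    rw [xc_eq]
    simp
  · show wT (v1, v2) (f1, f2) 2 = Latx683.yN wB (f1 - v1, f2 - v2)
    rw [Br1x644.yN_wB]
    unfold wT rayw Br1x644.sg
    rw [xc_eq]
    congr 1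
    by_cases hc : f2 + 1 = v2 ∧ v1 ≤ f1
    · rw [if_pos (by simp [hc]), if_pos (by omega)]
    · rw [if_neg (by simpa using hc), if_neg (by omega)]
  · show wT (v1, v2) (f1, f2) 3 = Latx683.yE wB (f1 - v1 - 1, f2 - v2)
    rw [Br1x644.yE_wB]
    unfold wT rayw
    rw [xc_eq]
    simp

theorem nb_eq (f : Face) (h : Fin 4) : nb f h = nbf f h := by fin_cases h <;> rfl
theorem op_eq (h : Fin 4) : op h = opd h := by fin_cases h <;> rfl
theorem sg_eq (h : Fin 4) : sg h = sgd h := by fin_cases h <;> simp [sgd]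

theorem nbf_sub' (f V : Face) (h : Fin 4) : nbf f h - V = nbf (f - V) h := by
  obtain ⟨f1, f2⟩ := f
  obtain ⟨v1, v2⟩ := V
  fin_cases h <;> simp <;> ring

theorem psS_eq (V f : Face) (h : Fin 4) : psS V f h = PsiS (f - V, h) := rfl

theorem Y_eq (V f : Face) (h : Fin 4) :
    Y (wT V) (psS V) f h = sgd h * (ew wB (f - V) h * PsiS (nbf (f - V) h, opd h)) := by
  unfold Y
  rw [wT_ew, psS_eq, nb_eq, op_eq, sg_eq, nbf_sub', mul_assoc]

/-! ### the gauge -/

variable {ι : Type*} {l : Filter ι} {a : ι → ℝ} {n : ℕ}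

theorem gz_lim {x : Fin n → ℂ} {z0 z : ℂ} (hz : z.im ≠ z0.im) (ha : Tendsto a l (𝓝[>] 0))
    {V : ι → Fin n → Face} (tip : ∀ i, Tendsto (fun k => meshPoint (a k) (V k i)) l (𝓝 (x i)))
    {f : ι → Face} (hf : Tendsto (fun k => meshPoint (a k) (f k)) l (𝓝 z)) :
    ∀ᶠ k in l, gz x z0 (V k) (f k) = gc x z0 z := by
  classical
  have hapos : ∀ᶠ k in l, 0 < a k := (tendsto_nhdsWithin_iff.1 ha).2
  have key : ∀ i, ∀ᶠ k in l, (rel (x i) z0 ∧ (V k i).2 ≤ (f k).2 ↔
      rel (x i) z0 ∧ (x i).im < z.im) := by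
    intro i
    by_cases hr : rel (x i) z0
    · have h1 : Tendsto (fun k => a k * ((f k).2 : ℝ)) l (𝓝 z.im) :=
        (Complex.continuous_im.tendsto z).comp hf
      have h2 : Tendsto (fun k => a k * ((V k i).2 : ℝ)) l (𝓝 (x i).im) :=
        (Complex.continuous_im.tendsto (x i)).comp (tip i)
      have hne : z.im ≠ (x i).im := by rw [hr.1]; exact hz
      rcases lt_or_gt_of_ne hne with hlt | hlt
      · filter_upwards [h1.eventually_lt h2 hlt, hapos] with k hk hk0
        have h3 : ((f k).2 : ℝ) < (V k i).2 := lt_of_mul_lt_mul_left hk hk0.le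
        have h4 : (f k).2 < (V k i).2 := by exact_mod_cast h3
        constructor
        · rintro ⟨_, h5⟩; omega
        · rintro ⟨_, h5⟩; linarith
      · filter_upwards [h2.eventually_lt h1 hlt, hapos] with k hk hk0
        have h3 : ((V k i).2 : ℝ) < (f k).2 := lt_of_mul_lt_mul_left hk hk0.le
        have h4 : (V k i).2 < (f k).2 := by exact_mod_cast h3
        exact ⟨fun _ => ⟨hr, hlt⟩, fun _ => ⟨hr, h4.le⟩⟩
    · exact Eventually.of_forall fun k => ⟨fun h => absurd h.1 hr, fun h => absurd h.1 hr⟩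
  filter_upwards [eventually_all.2 key] with k hk
  unfold gz gc
  refine Finset.prod_congr rfl fun i _ => ?_
  by_cases h : rel (x i) z0 ∧ (x i).im < z.im
  · rw [if_pos h, if_pos ((hk i).2 h)]
  · rw [if_neg h, if_neg (fun h' => h ((hk i).1 h'))]

/-! ### cut-offs with a moving centre -/

variable {χ : ℂ → ℝ} {r0 R0 : ℝ}

theorem slopeY (H : Cut χ r0 R0) (ha : Tendsto a l (𝓝[>] 0)) {f : ι → Face} {z x : ℂ} {y : ι → ℂ}
    (hf : Tendsto (fun k => meshPoint (a k) (f k)) l (𝓝 z)) (hy : Tendsto y l (𝓝 x)) (d : Fin 4) :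
    Tendsto (fun k => (a k)⁻¹ * (χ (meshPoint (a k) (nb (f k) d) - y k) -
      χ (meshPoint (a k) (f k) - y k))) l (𝓝 (fderiv ℝ χ (z - x) (ed d))) := by
  have hs : HasStrictFDerivAt χ (fderiv ℝ χ (z - x)) (z - x) :=
    H.c1.contDiffAt.hasStrictFDerivAt one_ne_zero
  have ha0 : Tendsto a l (𝓝 0) := tendsto_nhds_of_tendsto_nhdsWithin ha
  have hapos : ∀ᶠ k in l, 0 < a k := (tendsto_nhdsWithin_iff.1 ha).2
  have h0 : Tendsto (fun k => meshPoint (a k) (f k) - y k) l (𝓝 (z - x)) := hf.sub hy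
  have e0 : ∀ k, meshPoint (a k) (nb (f k) d) - y k =
      (meshPoint (a k) (f k) - y k) + (a k : ℂ) * ed d := by
    intro k; rw [nb_eq, mesh_nbf]; ring
  have h1 : Tendsto (fun k => meshPoint (a k) (nb (f k) d) - y k) l (𝓝 (z - x)) := by
    have : Tendsto (fun k => (meshPoint (a k) (f k) - y k) + (a k : ℂ) * ed d) l
        (𝓝 ((z - x) + (0:ℝ) * ed d)) :=
      h0.add (((Complex.continuous_ofReal.tendsto 0).comp ha0).mul_const _)
    rw [Complex.ofReal_zero, zero_mul, add_zero] at this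
    exact this.congr fun k => (e0 k).symm
  have h2 : Tendsto (fun k => (meshPoint (a k) (nb (f k) d) - y k, meshPoint (a k) (f k) - y k)) l
      (𝓝 (z - x, z - x)) := by
    rw [nhds_prod_eq]; exact h1.prodMk h0
  have h3 := hs.isLittleO.comp_tendsto h2
  have h4 : (fun k => χ (meshPoint (a k) (nb (f k) d) - y k) - χ (meshPoint (a k) (f k) - y k) -
      fderiv ℝ χ (z - x) ((a k : ℂ) * ed d)) =o[l] fun k => (a k : ℂ) * ed d := by
    refine (h3.congr (fun k => ?_) fun k => ?_)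
    · simp only [Function.comp_apply]
      rw [show meshPoint (a k) (nb (f k) d) - y k - (meshPoint (a k) (f k) - y k) =
        (a k : ℂ) * ed d by rw [e0]; ring]
    · simp only [Function.comp_apply]
      rw [e0]; ring
  have h5 : (fun k => χ (meshPoint (a k) (nb (f k) d) - y k) - χ (meshPoint (a k) (f k) - y k) -
      fderiv ℝ χ (z - x) ((a k : ℂ) * ed d)) =o[l] a := by
    refine h4.trans_le fun k => ?_
    rw [norm_mul, norm_ed, mul_one, Complex.norm_real]
  have h6 := h5.tendsto_div_nhds_zero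
  have h7 : Tendsto (fun k => (χ (meshPoint (a k) (nb (f k) d) - y k) -
      χ (meshPoint (a k) (f k) - y k) - fderiv ℝ χ (z - x) ((a k : ℂ) * ed d)) / a k +
      fderiv ℝ χ (z - x) (ed d)) l (𝓝 (0 + fderiv ℝ χ (z - x) (ed d))) := h6.add_const _
  rw [zero_add] at h7
  refine h7.congr' ?_
  filter_upwards [hapos] with k hk
  have e : fderiv ℝ χ (z - x) ((a k : ℂ) * ed d) = a k * fderiv ℝ χ (z - x) (ed d) := by
    rw [← Complex.real_smul, map_smul, smul_eq_mul]
  rw [e]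
  field_simp
  ring

theorem nearY (H : Cut χ r0 R0) {a : ℝ} (ha : 0 < a) {f : Face} {d : Fin 4} {y : ℂ}
    (h : χ (meshPoint a (nb f d) - y) - χ (meshPoint a f - y) ≠ 0) :
    r0 - a ≤ ‖meshPoint a f - y‖ ∧ ‖meshPoint a f - y‖ ≤ R0 + a ∧
      r0 - a ≤ ‖meshPoint a (nb f d) - y‖ := by
  have e : ‖(a:ℂ) * ed d‖ = a := by
    rw [norm_mul, norm_ed, mul_one, Complex.norm_real, Real.norm_eq_abs, abs_of_pos ha]
  have h1 : ‖meshPoint a (nb f d) - y‖ ≤ ‖meshPoint a f - y‖ + a := by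
    rw [nb_eq, mesh_nbf, show meshPoint a f + (a:ℂ) * ed d - y = (meshPoint a f - y) + (a:ℂ) * ed d by
      ring]
    exact (norm_add_le _ _).trans (by rw [e])
  have h2 : ‖meshPoint a f - y‖ ≤ ‖meshPoint a (nb f d) - y‖ + a := by
    have : meshPoint a f - y = (meshPoint a (nb f d) - y) - (a:ℂ) * ed d := by
      rw [nb_eq, mesh_nbf]; ring
    calc ‖meshPoint a f - y‖ = ‖(meshPoint a (nb f d) - y) - (a:ℂ) * ed d‖ := by rw [← this]
      _ ≤ ‖meshPoint a (nb f d) - y‖ + ‖(a:ℂ) * ed d‖ := norm_sub_le _ _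
      _ = _ := by rw [e]
  refine ⟨?_, ?_, ?_⟩
  · by_contra hc
    push Not at hc
    refine h ?_
    rw [H.one _ (by linarith), H.one _ (by linarith), sub_self]
  · by_contra hc
    push Not at hc
    refine h ?_
    rw [H.zero _ (by linarith), H.zero _ (by linarith), sub_self]
  · by_contra hc
    push Not at hc
    refine h ?_
    rw [H.one _ (by linarith), H.one _ (by linarith), sub_self]

/-! ### the source field and the cut-off field -/

/-- the source field `a^{-3/2} (χ(nb) - χ) s Y` -/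
def gS (χ : ℂ → ℝ) (x : Fin n → ℂ) (j : Fin n) (a : ℝ) (V : Fin n → Face) (y : ℂ) : Fld :=
  fun f h => a ^ (-(3/2) : ℝ) * ((χ (meshPoint a (nb f h) - y) - χ (meshPoint a f - y)) *
    (gz x (x j) V f * Y (wT (V j)) (psS (V j)) f h))

/-- the cut-off field `a^{-1/2} χ s psS` -/
def uS (χ : ℂ → ℝ) (x : Fin n → ℂ) (j : Fin n) (a : ℝ) (V : Fin n → Face) (y : ℂ) : Fld :=
  fun f h => a ^ (-(1/2) : ℝ) * (χ (meshPoint a f - y) * (gz x (x j) V f * psS (V j) f h))

/-- limit of the source field -/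
def GS (χ : ℂ → ℝ) (x : Fin n → ℂ) (j : Fin n) (z : ℂ) (h : Fin 4) : ℝ :=
  gc x (x j) z * pS χ (z - x j) h

/-- limit of the cut-off field -/
def US (χ : ℂ → ℝ) (x : Fin n → ℂ) (j : Fin n) (z : ℂ) (h : Fin 4) : ℝ :=
  χ (z - x j) * (gc x (x j) z * lv (-(kp : ℂ) * zt (z - x j)) h)

section lim

variable {x : Fin n → ℂ} {j : Fin n} {z : ℂ} {V : ι → Fin n → Face} {y : ι → ℂ} {f : ι → Face}

/-- **pointwise limit of the source field** -/
theorem gS_lim (H : Cut χ r0 R0) (ha : Tendsto a l (𝓝[>] 0))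
    (tip : ∀ i, Tendsto (fun k => meshPoint (a k) (V k i)) l (𝓝 (x i)))
    (hy : Tendsto y l (𝓝 (x j))) (hf : Tendsto (fun k => meshPoint (a k) (f k)) l (𝓝 z))
    (hg : Gen (z - x j).re (z - x j).im) (hz : z.im ≠ (x j).im) (h : Fin 4) :
    Tendsto (fun k => gS χ x j (a k) (V k) (y k) (f k) h) l (𝓝 (GS χ x j z h)) := by
  have h0 : Tendsto (fun k => meshPoint (a k) (f k - V k j)) l (𝓝 (z - x j)) := by
    simp only [mesh_sub]; exact hf.sub (tip j)
  have hcv := cv_of ha h0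
  have h1 := slopeY H ha hf hy h
  have h2 := lim_PsiS BrAx375.brA (cv_nbf hcv h) hg (opd h)
  have h3 := (h1.mul ((h2.const_mul Latx683.xc).const_mul (sgd h))).const_mul (gc x (x j) z)
  refine h3.congr' ?_
  have hapos : ∀ᶠ k in l, 0 < a k := (tendsto_nhdsWithin_iff.1 ha).2
  filter_upwards [hapos, ew_lim hcv hg h, gz_lim hz ha tip hf] with k hk he hgz
  unfold gS
  rw [Y_eq, he, hgz, show (-(3/2) : ℝ) = -1 + (-(1/2)) by norm_num, Real.rpow_add hk,
    Real.rpow_neg_one]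
  ring

/-- **pointwise limit of the cut-off field** -/
theorem uS_lim (H : Cut χ r0 R0) (ha : Tendsto a l (𝓝[>] 0))
    (tip : ∀ i, Tendsto (fun k => meshPoint (a k) (V k i)) l (𝓝 (x i)))
    (hy : Tendsto y l (𝓝 (x j))) (hf : Tendsto (fun k => meshPoint (a k) (f k)) l (𝓝 z))
    (hg : Gen (z - x j).re (z - x j).im) (hz : z.im ≠ (x j).im) (h : Fin 4) :
    Tendsto (fun k => uS χ x j (a k) (V k) (y k) (f k) h) l (𝓝 (US χ x j z h)) := by
  have h0 : Tendsto (fun k => meshPoint (a k) (f k - V k j)) l (𝓝 (z - x j)) := by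
    simp only [mesh_sub]; exact hf.sub (tip j)
  have hcv := cv_of ha h0
  have h1 : Tendsto (fun k => χ (meshPoint (a k) (f k) - y k)) l (𝓝 (χ (z - x j))) :=
    (H.c1.continuous.tendsto _).comp (hf.sub hy)
  have h2 := lim_PsiS BrAx375.brA hcv hg h
  have h3 := h1.mul (h2.const_mul (gc x (x j) z))
  refine h3.congr' ?_
  filter_upwards [gz_lim hz ha tip hf] with k hgz
  unfold uS
  rw [hgz, psS_eq]
  ring

end lim

/-! ### bounds -/

theorem abs_Y_le {C : ℝ} (hb : ∀ (x y : ℤ) (d : Fin 4), |PsiS ((x, y), d)| ≤ C / sz x y ^ (1/2 : ℝ))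
    (V f : Face) (h : Fin 4) :
    |Y (wT V) (psS V) f h| ≤ C / sz (nb f h - V).1 (nb f h - V).2 ^ (1/2 : ℝ) := by
  rw [Y_eq, abs_mul, abs_mul, abs_sgd, one_mul, nb_eq, nbf_sub']
  calc |ew wB (f - V) h| * |PsiS (nbf (f - V) h, opd h)| ≤ 1 * |PsiS (nbf (f - V) h, opd h)| :=
        mul_le_mul_of_nonneg_right (abs_ew_wB _ _) (abs_nonneg _)
    _ ≤ _ := by rw [one_mul]; exact hb _ _ _

theorem gS_supp (H : Cut χ r0 R0) {x : Fin n → ℂ} {j : Fin n} {a : ℝ} (ha : 0 < a)
    {V : Fin n → Face} {y : ℂ} {f : Face} {h : Fin 4} (hne : gS χ x j a V y f h ≠ 0) :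
    r0 - a ≤ ‖meshPoint a f - y‖ ∧ ‖meshPoint a f - y‖ ≤ R0 + a := by
  have h1 : χ (meshPoint a (nb f h) - y) - χ (meshPoint a f - y) ≠ 0 := by
    intro hc
    exact hne (by unfold gS; rw [hc]; ring)
  have := nearY H ha h1
  exact ⟨this.1, this.2.1⟩

theorem gS_bound (H : Cut χ r0 R0) (x : Fin n → ℂ) (j : Fin n) :
    ∃ K : ℝ, 0 ≤ K ∧ ∀ (a : ℝ) (V : Fin n → Face) (y : ℂ), 0 < a → a ≤ r0 / 4 →
      ‖meshPoint a (V j) - y‖ ≤ r0 / 4 → ∀ f h, |gS χ x j a V y f h| ≤ K := by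
  obtain ⟨M, hM0, hM⟩ := H.lip
  obtain ⟨C, hC, hb⟩ := PsiS_bound
  have hr := H.pos
  refine ⟨M * (C * (2 / r0) ^ (1/2 : ℝ)), by positivity, fun a V y ha har hV f h => ?_⟩
  by_cases hne : χ (meshPoint a (nb f h) - y) - χ (meshPoint a f - y) = 0
  · unfold gS
    rw [hne]
    simp only [zero_mul, mul_zero, abs_zero]
    positivity
  · have h1 := (nearY H ha hne).2.2
    have h2 : ‖meshPoint a (nb f h) - y‖ ≤ ‖meshPoint a (nb f h - V j)‖ + r0 / 4 := by
      rw [mesh_sub]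
      calc ‖meshPoint a (nb f h) - y‖ =
          ‖(meshPoint a (nb f h) - meshPoint a (V j)) + (meshPoint a (V j) - y)‖ := by congr 1; ring
        _ ≤ _ := (norm_add_le _ _).trans (by linarith)
    have h3 := norm_mesh_le ha (nb f h - V j)
    set s := sz (nb f h - V j).1 (nb f h - V j).2 with hs
    have h4 : r0 / 2 / a ≤ s := by
      rw [div_le_iff₀ ha]; linarith
    have h5 : (r0 / 2 / a) ^ (1/2 : ℝ) ≤ s ^ (1/2 : ℝ) :=
      Real.rpow_le_rpow (by positivity) h4 (by norm_num)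
    have h6 : |Y (wT (V j)) (psS (V j)) f h| ≤ C * (2 / r0) ^ (1/2 : ℝ) * a ^ (1/2 : ℝ) := by
      refine (abs_Y_le hb _ _ _).trans ?_
      have e : C * (2 / r0) ^ (1/2 : ℝ) * a ^ (1/2 : ℝ) = C / (r0 / 2 / a) ^ (1/2 : ℝ) := by
        rw [Real.div_rpow (by positivity) ha.le, Real.div_rpow (by norm_num) hr.le,
          Real.div_rpow hr.le (by norm_num)]
        have b1 : r0 ^ (1/2 : ℝ) ≠ 0 := (Real.rpow_pos_of_pos hr _).ne'
        have b2 : a ^ (1/2 : ℝ) ≠ 0 := (Real.rpow_pos_of_pos ha _).ne'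
        have b3 : (2:ℝ) ^ (1/2 : ℝ) ≠ 0 := (Real.rpow_pos_of_pos (by norm_num) _).ne'
        field_simp
      rw [e]
      exact div_le_div_of_nonneg_left hC (by positivity) h5
    have h7 : |χ (meshPoint a (nb f h) - y) - χ (meshPoint a f - y)| ≤ M * a := by
      refine (hM _ _).trans (le_of_eq ?_)
      rw [nb_eq, mesh_nbf, show meshPoint a f + (a:ℂ) * ed h - y - (meshPoint a f - y) =
        (a:ℂ) * ed h by ring, norm_mul, norm_ed, mul_one, Complex.norm_real,
        Real.norm_eq_abs, abs_of_pos ha]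
    unfold gS
    rw [abs_mul, abs_mul, abs_mul, gz_abs, one_mul, abs_of_pos (Real.rpow_pos_of_pos ha _)]
    have h8 : |χ (meshPoint a (nb f h) - y) - χ (meshPoint a f - y)| *
        |Y (wT (V j)) (psS (V j)) f h| ≤ (M * a) * (C * (2 / r0) ^ (1/2 : ℝ) * a ^ (1/2 : ℝ)) :=
      mul_le_mul h7 h6 (abs_nonneg _) (by positivity)
    calc a ^ (-(3/2) : ℝ) * (|χ (meshPoint a (nb f h) - y) - χ (meshPoint a f - y)| *
        |Y (wT (V j)) (psS (V j)) f h|)
        ≤ a ^ (-(3/2) : ℝ) * ((M * a) * (C * (2 / r0) ^ (1/2 : ℝ) * a ^ (1/2 : ℝ))) :=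
          mul_le_mul_of_nonneg_left h8 (Real.rpow_pos_of_pos ha _).le
      _ = (a ^ (-(3/2) : ℝ) * (a * a ^ (1/2 : ℝ))) * (M * (C * (2 / r0) ^ (1/2 : ℝ))) := by ring
      _ = _ := by
          have : a ^ (-(3/2) : ℝ) * (a * a ^ (1/2 : ℝ)) = 1 := by
            nth_rewrite 2 [← Real.rpow_one a]
            rw [← Real.rpow_add ha, ← Real.rpow_add ha]
            norm_num
          rw [this, one_mul]

/-! ### general `L²` convergence lemmas -/

/-- bounded functions with bounded supports -/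
theorem l2_of_bdd [l.IsCountablyGenerated] {F : ι → ℂ → ℝ} {G : ℂ → ℝ}
    (hFm : ∀ k, Measurable (F k)) (hGm : Measurable G) {S : Set ℂ} (hS : MeasurableSet S)
    {x : ℂ} {R C : ℝ} (hsupp : ∀ᶠ k in l, ∀ z, R < ‖z - x‖ → F k z = 0)
    (hb : ∀ᶠ k in l, ∀ z ∈ S, |F k z| ≤ C)
    (hlim : ∀ᵐ z : ℂ, Tendsto (fun k => F k z) l (𝓝 (G z))) :
    Tendsto (fun k => ∫⁻ z in S, ENNReal.ofReal ((F k z - G z) ^ 2)) l (𝓝 0) := by
  rcases eq_or_neBot l with hl | hl
  · rw [hl]; exact tendsto_bot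
  have hG : ∀ᵐ z : ℂ, (z ∈ S → |G z| ≤ C) ∧ (R < ‖z - x‖ → G z = 0) := by
    filter_upwards [hlim] with z hz
    constructor
    · intro hzS
      exact le_of_tendsto hz.abs (hb.mono fun k hk => hk z hzS)
    · intro hR
      refine tendsto_nhds_unique hz (Tendsto.congr' ?_ tendsto_const_nhds)
      filter_upwards [hsupp] with k hk
      exact (hk z hR).symm
  have h0 : (∫⁻ z in S, (0 : ENNReal)) = 0 := by simp
  rw [← h0]
  refine tendsto_lintegral_filter_of_dominated_convergence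
    (fun z => (Metric.closedBall x R).indicator (fun _ => ENNReal.ofReal ((2 * C) ^ 2)) z) ?_ ?_ ?_ ?_
  · exact Eventually.of_forall fun k => (((hFm k).sub hGm).pow_const 2).ennreal_ofReal
  · filter_upwards [hsupp, hb] with k hk1 hk2
    rw [ae_restrict_iff' hS]
    filter_upwards [hG] with z hz hzS
    by_cases hzR : z ∈ Metric.closedBall x R
    · rw [Set.indicator_of_mem hzR]
      refine ENNReal.ofReal_le_ofReal ?_
      have h1 := hk2 z hzS
      have h2 := hz.1 hzS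
      have h3 : |F k z - G z| ≤ 2 * C := (abs_sub _ _).trans (by linarith)
      rw [← sq_abs]
      exact pow_le_pow_left₀ (abs_nonneg _) h3 2
    · rw [Set.indicator_of_notMem hzR]
      rw [Metric.mem_closedBall, dist_eq_norm, not_le] at hzR
      rw [hk1 z hzR, hz.2 hzR]
      simp
  · refine ne_of_lt (lt_of_le_of_lt (setLIntegral_le_lintegral _ _) ?_)
    rw [lintegral_indicator Metric.isClosed_closedBall.measurableSet, setLIntegral_const]
    exact ENNReal.mul_lt_top ENNReal.ofReal_lt_top measure_closedBall_lt_top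
  · refine ae_restrict_of_ae ?_
    filter_upwards [hlim] with z hz
    have h1 : Tendsto (fun k => (F k z - G z) ^ 2) l (𝓝 ((G z - G z) ^ 2)) :=
      (hz.sub_const _).pow 2
    have h2 := (ENNReal.continuous_ofReal.tendsto _).comp h1
    rw [sub_self, zero_pow two_ne_zero, ENNReal.ofReal_zero] at h2
    exact h2

/-- `∫_{B(v,δ)} |z - v|⁻¹ ≤ 2πδ` -/
theorem lint_inv_norm (v : ℂ) (δ : ℝ) :
    ∫⁻ z in Metric.ball v δ, ENNReal.ofReal (‖z - v‖⁻¹) ≤ ENNReal.ofReal (2 * Real.pi * δ) := by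
  rcases le_or_gt δ 0 with hδ | hδ
  · rw [Metric.ball_eq_empty.2 hδ]; simp
  have h1 : ∫⁻ z in Metric.ball v δ, ENNReal.ofReal (‖z - v‖⁻¹) =
      ∫⁻ z, (Metric.ball (0:ℂ) δ).indicator (fun z => ENNReal.ofReal (‖z‖⁻¹)) z := by
    rw [← lintegral_sub_right_eq_self (fun z => (Metric.ball (0:ℂ) δ).indicator
      (fun z => ENNReal.ofReal (‖z‖⁻¹)) z) v, ← lintegral_indicator Metric.isOpen_ball.measurableSet]
    refine lintegral_congr fun z => ?_
    by_cases hz : z ∈ Metric.ball v δ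
    · rw [Set.indicator_of_mem hz, Set.indicator_of_mem]
      rw [Metric.mem_ball, dist_eq_norm] at hz
      simpa using hz
    · rw [Set.indicator_of_notMem hz, Set.indicator_of_notMem]
      rw [Metric.mem_ball, dist_eq_norm] at hz
      simpa using hz
  rw [h1, ← Complex.lintegral_comp_polarCoord_symm]
  have h2 : ∀ p ∈ polarCoord.target, ENNReal.ofReal p.1 •
      (Metric.ball (0:ℂ) δ).indicator (fun z => ENNReal.ofReal (‖z‖⁻¹)) (Complex.polarCoord.symm p) ≤
      (Set.Ioo (0:ℝ) δ ×ˢ Set.Ioo (-Real.pi) Real.pi).indicator (fun _ => (1 : ENNReal)) p := by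
    intro p hp
    rw [polarCoord_target] at hp
    obtain ⟨hp1, hp2⟩ := hp
    have hp0 : 0 < p.1 := hp1
    have hn : ‖Complex.polarCoord.symm p‖ = p.1 := by
      rw [Complex.norm_polarCoord_symm, abs_of_pos hp0]
    by_cases hlt : p.1 < δ
    · rw [Set.indicator_of_mem (show Complex.polarCoord.symm p ∈ Metric.ball (0:ℂ) δ by
        rw [Metric.mem_ball, dist_zero_right, hn]; exact hlt), Set.indicator_of_mem (show p ∈ Set.Ioo (0:ℝ) δ ×ˢ
          Set.Ioo (-Real.pi) Real.pi from ⟨⟨hp0, hlt⟩, hp2⟩), hn, smul_eq_mul,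
        ← ENNReal.ofReal_mul hp0.le, mul_inv_cancel₀ hp0.ne', ENNReal.ofReal_one]
    · rw [Set.indicator_of_notMem (show Complex.polarCoord.symm p ∉ Metric.ball (0:ℂ) δ by
        rw [Metric.mem_ball, dist_zero_right, hn]; exact hlt)]
      simp
  have hmt : MeasurableSet polarCoord.target := polarCoord.open_target.measurableSet
  calc ∫⁻ p in polarCoord.target, ENNReal.ofReal p.1 •
        (Metric.ball (0:ℂ) δ).indicator (fun z => ENNReal.ofReal (‖z‖⁻¹)) (Complex.polarCoord.symm p)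
      ≤ ∫⁻ p in polarCoord.target,
        (Set.Ioo (0:ℝ) δ ×ˢ Set.Ioo (-Real.pi) Real.pi).indicator (fun _ => (1 : ENNReal)) p :=
        setLIntegral_mono' hmt h2
    _ ≤ ∫⁻ p, (Set.Ioo (0:ℝ) δ ×ˢ Set.Ioo (-Real.pi) Real.pi).indicator (fun _ => (1 : ENNReal)) p :=
        setLIntegral_le_lintegral _ _
    _ = ENNReal.ofReal (2 * Real.pi * δ) := by
        rw [lintegral_indicator (measurableSet_Ioo.prod measurableSet_Ioo), setLIntegral_one,
          Measure.volume_eq_prod, Measure.prod_prod, Real.volume_Ioo, Real.volume_Ioo,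
          ← ENNReal.ofReal_mul (by linarith)]
        congr 1
        ring

/-- functions with a square-integrable singularity -/
theorem l2_of_sing [l.IsCountablyGenerated] {F : ι → ℂ → ℝ} {G : ℂ → ℝ}
    (hFm : ∀ k, Measurable (F k)) (hGm : Measurable G) {x : ℂ} {R : ℝ}
    (hsupp : ∀ᶠ k in l, ∀ z, R < ‖z - x‖ → F k z = 0)
    (hb : ∀ δ > 0, ∃ C : ℝ, ∀ᶠ k in l, ∀ z, δ ≤ ‖z - x‖ → |F k z| ≤ C)
    (hF : ∀ ε : ℝ, 0 < ε → ∃ δ > 0, ∀ᶠ k in l,
      ∫⁻ z in Metric.ball x δ, ENNReal.ofReal ((F k z) ^ 2) ≤ ENNReal.ofReal ε)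
    (hG : ∀ ε : ℝ, 0 < ε → ∃ δ > 0,
      ∫⁻ z in Metric.ball x δ, ENNReal.ofReal ((G z) ^ 2) ≤ ENNReal.ofReal ε)
    (hlim : ∀ᵐ z : ℂ, Tendsto (fun k => F k z) l (𝓝 (G z))) :
    Tendsto (fun k => ∫⁻ z, ENNReal.ofReal ((F k z - G z) ^ 2)) l (𝓝 0) := by
  rw [ENNReal.tendsto_nhds_zero]
  intro ε hε
  obtain ⟨e, he0, he⟩ : ∃ e : ℝ, 0 < e ∧ ENNReal.ofReal e ≤ ε := by
    rcases eq_or_ne ε ⊤ with h | h
    · exact ⟨1, one_pos, by rw [h]; exact le_top⟩
    · exact ⟨ε.toReal, ENNReal.toReal_pos hε.ne' h, by rw [ENNReal.ofReal_toReal h]⟩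
  obtain ⟨δ1, hδ1, h1⟩ := hF (e/6) (by linarith)
  obtain ⟨δ2, hδ2, h2⟩ := hG (e/6) (by linarith)
  set δ := min δ1 δ2 with hδ
  have hδ0 : 0 < δ := lt_min hδ1 hδ2
  obtain ⟨C, hC⟩ := hb δ hδ0
  have hS : MeasurableSet (Metric.ball x δ)ᶜ := Metric.isOpen_ball.measurableSet.compl
  have h3 := l2_of_bdd hFm hGm hS (x := x) (R := R) (C := C) hsupp
    (hC.mono fun k hk z hz => hk z (by simpa [dist_eq_norm] using hz)) hlim
  have h4 := (ENNReal.tendsto_nhds_zero.1 h3) (ENNReal.ofReal (e/3)) (ENNReal.ofReal_pos.2 (by linarith))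
  filter_upwards [h1, h4] with k hk1 hk4
  refine le_trans ?_ he
  rw [← lintegral_add_compl _ Metric.isOpen_ball.measurableSet (A := Metric.ball x δ)]
  have h5 : ∫⁻ z in Metric.ball x δ, ENNReal.ofReal ((F k z - G z) ^ 2) ≤
      2 * ENNReal.ofReal (e/6) + 2 * ENNReal.ofReal (e/6) := by
    have hpt : ∀ z, ENNReal.ofReal ((F k z - G z) ^ 2) ≤
        2 * ENNReal.ofReal ((F k z) ^ 2) + 2 * ENNReal.ofReal ((G z) ^ 2) := by
      intro z
      have : (2 : ENNReal) = ENNReal.ofReal 2 := by simp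
      rw [this, ← ENNReal.ofReal_mul (by norm_num), ← ENNReal.ofReal_mul (by norm_num),
        ← ENNReal.ofReal_add (by positivity) (by positivity)]
      refine ENNReal.ofReal_le_ofReal ?_
      nlinarith [sq_nonneg (F k z + G z)]
    calc ∫⁻ z in Metric.ball x δ, ENNReal.ofReal ((F k z - G z) ^ 2)
        ≤ ∫⁻ z in Metric.ball x δ, (2 * ENNReal.ofReal ((F k z) ^ 2) + 2 * ENNReal.ofReal ((G z) ^ 2)) :=
          lintegral_mono fun z => hpt z
      _ = 2 * (∫⁻ z in Metric.ball x δ, ENNReal.ofReal ((F k z) ^ 2)) +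
          2 * ∫⁻ z in Metric.ball x δ, ENNReal.ofReal ((G z) ^ 2) := by
          rw [lintegral_add_left (((hFm k).pow_const 2).ennreal_ofReal.const_mul 2),
            lintegral_const_mul _ ((hFm k).pow_const 2).ennreal_ofReal,
            lintegral_const_mul _ (hGm.pow_const 2).ennreal_ofReal]
      _ ≤ _ := by
          refine add_le_add (mul_le_mul_right ?_ _) (mul_le_mul_right ?_ _)
          · exact (lintegral_mono_set (Metric.ball_subset_ball (min_le_left _ _))).trans hk1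
          · exact (lintegral_mono_set (Metric.ball_subset_ball (min_le_right _ _))).trans h2
  refine (add_le_add h5 hk4).trans (le_of_eq ?_)
  have : (2 : ENNReal) = ENNReal.ofReal 2 := by simp
  rw [this, ← ENNReal.ofReal_mul (by norm_num), ← ENNReal.ofReal_add (by linarith) (by linarith),
    ← ENNReal.ofReal_add (by linarith) (by linarith)]
  congr 1
  ring

/-! ### the `L²` limits -/

theorem measurable_gc (x : Fin n → ℂ) (z0 : ℂ) : Measurable fun z => gc x z0 z := by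
  classical
  unfold gc
  refine Finset.measurable_prod _ fun i _ => ?_
  by_cases hr : rel (x i) z0
  · refine Measurable.ite ?_ measurable_const measurable_const
    have : {u : ℂ | rel (x i) z0 ∧ (x i).im < u.im} = {u : ℂ | (x i).im < u.im} := by
      ext u; simp [hr]
    rw [this]
    exact measurableSet_lt measurable_const Complex.measurable_im
  · refine Measurable.ite ?_ measurable_const measurable_const
    have : {u : ℂ | rel (x i) z0 ∧ (x i).im < u.im} = ∅ := by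
      ext u; simp [hr]
    rw [this]
    exact MeasurableSet.empty

theorem measurable_GS (H : Cut χ r0 R0) (x : Fin n → ℂ) (j : Fin n) (h : Fin 4) :
    Measurable fun z => GS χ x j z h := by
  unfold GS
  exact (measurable_gc x (x j)).mul ((measurable_pS H h).comp (measurable_id.sub_const _))

theorem measurable_US (H : Cut χ r0 R0) (x : Fin n → ℂ) (j : Fin n) (h : Fin 4) :
    Measurable fun z => US χ x j z h := by
  unfold US
  refine (H.c1.continuous.measurable.comp (measurable_id.sub_const _)).mul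
    ((measurable_gc x (x j)).mul ?_)
  exact measurable_lv (measurable_const.mul (measurable_zt.comp (measurable_id.sub_const _))) h

theorem ae_im_ne (c : ℝ) : ∀ᵐ z : ℂ, z.im ≠ c := by
  have h := (measurePreserving_sub_right (volume : Measure ℂ) (⟨0, c⟩ : ℂ)).quasiMeasurePreserving.ae
    (show ∀ᵐ z : ℂ, z.im ≠ 0 by rw [ae_iff]; simpa using null_im)
  filter_upwards [h] with z hz hc
  exact hz (by simp [hc])

section l2

variable {x : Fin n → ℂ} {j : Fin n} {V : ι → Fin n → Face} {y : ι → ℂ}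

/-- **`L²` limit of the source field** -/
theorem gS_l2 [l.IsCountablyGenerated] (H : Cut χ r0 R0) (ha : Tendsto a l (𝓝[>] 0))
    (tip : ∀ i, Tendsto (fun k => meshPoint (a k) (V k i)) l (𝓝 (x i)))
    (hy : Tendsto y l (𝓝 (x j))) (h : Fin 4) :
    Tendsto (fun k => ∫⁻ z, ENNReal.ofReal
      ((emb (a k) (fun f => gS χ x j (a k) (V k) (y k) f h) z - GS χ x j z h) ^ 2)) l (𝓝 0) := by
  have ha0 : Tendsto a l (𝓝 0) := tendsto_nhds_of_tendsto_nhdsWithin ha
  have hapos : ∀ᶠ k in l, 0 < a k := (tendsto_nhdsWithin_iff.1 ha).2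
  have hr := H.pos
  have hasm : ∀ᶠ k in l, a k ≤ r0 / 4 :=
    (ha0.eventually (eventually_lt_nhds (show (0:ℝ) < r0 / 4 by linarith))).mono fun _ h => h.le
  have ha1 : ∀ᶠ k in l, a k < 1 / 4 := ha0.eventually (eventually_lt_nhds (by norm_num))
  have hyn : ∀ᶠ k in l, ‖y k - x j‖ < 1 / 4 := by
    have := (Metric.tendsto_nhds.1 hy) (1/4) (by norm_num)
    simpa [dist_eq_norm] using this
  have hVy : ∀ᶠ k in l, ‖meshPoint (a k) (V k j) - y k‖ ≤ r0 / 4 := by
    have h1 : Tendsto (fun k => meshPoint (a k) (V k j) - y k) l (𝓝 (x j - x j)) := (tip j).sub hy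
    rw [sub_self] at h1
    have := (Metric.tendsto_nhds.1 h1) (r0/4) (by linarith)
    filter_upwards [this] with k hk
    rw [dist_zero_right] at hk
    exact hk.le
  obtain ⟨K, hK0, hK⟩ := gS_bound H x j
  have key := l2_of_bdd (l := l) (F := fun k => emb (a k) (fun f => gS χ x j (a k) (V k) (y k) f h))
    (G := fun z => GS χ x j z h) (fun k => emb_measurable _ _) (measurable_GS H x j h)
    MeasurableSet.univ (x := x j) (R := R0 + 1) (C := K) ?_ ?_ ?_
  · simpa only [Measure.restrict_univ] using key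
  · filter_upwards [hapos, ha1, hyn] with k hk0 hk1 hk2 z hz
    by_contra hne
    have h1 := (gS_supp H hk0 hne).2
    have h2 := Pairx599.norm_mesh_sub hk0 z
    have h3 : ‖z - x j‖ ≤ ‖meshPoint (a k) (meshIndex (a k) z) - z‖ +
        ‖meshPoint (a k) (meshIndex (a k) z) - y k‖ + ‖y k - x j‖ := by
      calc ‖z - x j‖ = ‖-(meshPoint (a k) (meshIndex (a k) z) - z) +
            (meshPoint (a k) (meshIndex (a k) z) - y k) + (y k - x j)‖ := by congr 1; ring
        _ ≤ _ := (norm_add_le _ _).trans (by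
            refine add_le_add ((norm_add_le _ _).trans ?_) le_rfl
            rw [norm_neg])
    linarith
  · filter_upwards [hapos, hasm, hVy] with k hk0 hk1 hk2 z _
    exact hK _ _ _ hk0 hk1 hk2 _ _
  · filter_upwards [ae_gen_sub (x j), ae_im_ne (x j).im] with z hz1 hz2
    exact gS_lim H ha tip hy (Pairx599.tendsto_meshPoint ha z) hz1 hz2 h

/-- eventually the source field lives in an annulus around `x j` -/
theorem gS_supp_ev (H : Cut χ r0 R0) (ha : Tendsto a l (𝓝[>] 0)) (hy : Tendsto y l (𝓝 (x j))) :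
    ∀ᶠ k in l, ∀ f h, gS χ x j (a k) (V k) (y k) f h ≠ 0 →
      r0 / 2 ≤ ‖meshPoint (a k) f - x j‖ ∧ ‖meshPoint (a k) f - x j‖ ≤ R0 + r0 / 2 := by
  have ha0 : Tendsto a l (𝓝 0) := tendsto_nhds_of_tendsto_nhdsWithin ha
  have hapos : ∀ᶠ k in l, 0 < a k := (tendsto_nhdsWithin_iff.1 ha).2
  have hr := H.pos
  have hasm : ∀ᶠ k in l, a k < r0 / 4 := ha0.eventually (eventually_lt_nhds (by linarith))
  have hyn : ∀ᶠ k in l, ‖y k - x j‖ < r0 / 4 := by
    have := (Metric.tendsto_nhds.1 hy) (r0/4) (by linarith)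
    simpa [dist_eq_norm] using this
  filter_upwards [hapos, hasm, hyn] with k hk0 hk1 hk2 f h hne
  obtain ⟨h1, h2⟩ := gS_supp H hk0 hne
  constructor
  · have : ‖meshPoint (a k) f - y k‖ ≤ ‖meshPoint (a k) f - x j‖ + ‖y k - x j‖ := by
      calc ‖meshPoint (a k) f - y k‖ = ‖(meshPoint (a k) f - x j) - (y k - x j)‖ := by congr 1; ring
        _ ≤ _ := norm_sub_le _ _
    linarith
  · have : ‖meshPoint (a k) f - x j‖ ≤ ‖meshPoint (a k) f - y k‖ + ‖y k - x j‖ := by
      calc ‖meshPoint (a k) f - x j‖ = ‖(meshPoint (a k) f - y k) + (y k - x j)‖ := by congr 1; ring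
        _ ≤ _ := norm_add_le _ _
    linarith

/-- pointwise bound of the cut-off field -/
theorem uS_bound (H : Cut χ r0 R0) (x : Fin n → ℂ) (j : Fin n) :
    ∃ K : ℝ, 0 ≤ K ∧ ∀ (a : ℝ) (V : Fin n → Face) (y z : ℂ), 0 < a → z ≠ meshPoint a (V j) → ∀ h,
      (emb a (fun f => uS χ x j a V y f h) z) ^ 2 ≤ K * ‖z - meshPoint a (V j)‖⁻¹ := by
  obtain ⟨C, hC, hb⟩ := PsiS_bound
  obtain ⟨M, hM⟩ := H.hcs.exists_bound_of_continuous H.c1.continuous
  have hM0 : 0 ≤ M := (norm_nonneg _).trans (hM 0)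
  refine ⟨2 * (M * C) ^ 2, by positivity, fun a V y z ha hzV h => ?_⟩
  set f := meshIndex a z with hf
  have hval : emb a (fun f => uS χ x j a V y f h) z = uS χ x j a V y f h := rfl
  rw [hval]
  set s := sz (f - V j).1 (f - V j).2 with hs
  have hs0 : 0 < s := sz_pos _ _
  have h1 : ‖z - meshPoint a (V j)‖ ≤ 2 * a * s := by
    have h2 := Pairx599.norm_mesh_sub ha z
    rw [← hf] at h2
    have h3 : ‖meshPoint a f - meshPoint a (V j)‖ ≤ a * (s - 1) := by
      rw [← mesh_sub]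
      have h4 := Complex.norm_le_abs_re_add_abs_im (meshPoint a (f - V j))
      have e : |(meshPoint a (f - V j)).re| + |(meshPoint a (f - V j)).im| =
          a * (|((f - V j).1:ℝ)| + |((f - V j).2:ℝ)|) := by
        simp only [meshPoint]
        rw [abs_mul, abs_mul, abs_of_pos ha]; ring
      rw [e] at h4
      refine h4.trans (le_of_eq ?_)
      rw [hs]; unfold sz; ring
    have h5 : ‖z - meshPoint a (V j)‖ ≤ ‖meshPoint a f - z‖ + ‖meshPoint a f - meshPoint a (V j)‖ := by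
      calc ‖z - meshPoint a (V j)‖ =
            ‖-(meshPoint a f - z) + (meshPoint a f - meshPoint a (V j))‖ := by congr 1; ring
        _ ≤ _ := (norm_add_le _ _).trans (by rw [norm_neg])
    have h6 : 1 ≤ s := Br5x644.one_le_sz _ _
    nlinarith
  have h2 : |uS χ x j a V y f h| ≤ a ^ (-(1/2) : ℝ) * (M * (C / s ^ (1/2 : ℝ))) := by
    unfold uS
    rw [abs_mul, abs_mul, abs_mul, gz_abs, one_mul, abs_of_pos (Real.rpow_pos_of_pos ha _)]
    refine mul_le_mul_of_nonneg_left ?_ (Real.rpow_pos_of_pos ha _).le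
    have h3 := hM (meshPoint a f - y)
    rw [Real.norm_eq_abs] at h3
    exact mul_le_mul h3 (hb _ _ _) (abs_nonneg _) hM0
  have h3 : (uS χ x j a V y f h) ^ 2 ≤ (M * C) ^ 2 * (a * s)⁻¹ := by
    rw [← sq_abs]
    refine (pow_le_pow_left₀ (abs_nonneg _) h2 2).trans (le_of_eq ?_)
    have e1 : (a ^ (-(1/2) : ℝ)) ^ 2 = a⁻¹ := by
      rw [← Real.rpow_natCast, ← Real.rpow_mul ha.le]
      norm_num
      rw [Real.rpow_neg_one]
    have e2 : (s ^ (1/2 : ℝ)) ^ 2 = s := by
      rw [← Real.rpow_natCast, ← Real.rpow_mul hs0.le]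
      norm_num
    rw [mul_pow, mul_pow, div_pow, e1, e2, mul_inv]
    ring
  have h0 : 0 < ‖z - meshPoint a (V j)‖ := norm_pos_iff.2 (sub_ne_zero.2 hzV)
  refine h3.trans ?_
  have h4 : (a * s)⁻¹ ≤ 2 * ‖z - meshPoint a (V j)‖⁻¹ := by
    rw [← div_eq_mul_inv, inv_eq_one_div, div_le_div_iff₀ (by positivity) h0]
    linarith
  calc (M * C) ^ 2 * (a * s)⁻¹ ≤ (M * C) ^ 2 * (2 * ‖z - meshPoint a (V j)‖⁻¹) :=
        mul_le_mul_of_nonneg_left h4 (by positivity)
    _ = _ := by ring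

theorem US_bound (H : Cut χ r0 R0) (x : Fin n → ℂ) (j : Fin n) :
    ∃ K : ℝ, 0 ≤ K ∧ ∀ z h, (US χ x j z h) ^ 2 ≤ K * ‖z - x j‖⁻¹ := by
  obtain ⟨M, hM⟩ := H.hcs.exists_bound_of_continuous H.c1.continuous
  have hM0 : 0 ≤ M := (norm_nonneg _).trans (hM 0)
  refine ⟨(M * (2 * ‖(-(kp:ℂ))‖)) ^ 2, by positivity, fun z h => ?_⟩
  have h1 : |US χ x j z h| ≤ M * (2 * ‖(-(kp:ℂ))‖) * ‖z - x j‖ ^ (-(1/2) : ℝ) := by
    unfold US
    rw [abs_mul, abs_mul, gc_abs, one_mul]
    have h2 := hM (z - x j)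
    rw [Real.norm_eq_abs] at h2
    have h3 := abs_lv_le (-(kp:ℂ) * zt (z - x j)) h
    rw [norm_mul, norm_zt] at h3
    calc |χ (z - x j)| * |lv (-(kp:ℂ) * zt (z - x j)) h| ≤
        M * (2 * (‖(-(kp:ℂ))‖ * ‖z - x j‖ ^ (-(1/2) : ℝ))) :=
          mul_le_mul h2 h3 (abs_nonneg _) hM0
      _ = _ := by ring
  rw [← sq_abs]
  refine (pow_le_pow_left₀ (abs_nonneg _) h1 2).trans (le_of_eq ?_)
  rw [mul_pow, ← Real.rpow_natCast (‖z - x j‖ ^ (-(1/2) : ℝ)), ← Real.rpow_mul (norm_nonneg _)]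
  norm_num
  left
  rw [Real.rpow_neg_one]

theorem lint_tail {F : ℂ → ℝ} {v : ℂ} {K : ℝ} (hK : 0 ≤ K)
    (hF : ∀ z, z ≠ v → (F z) ^ 2 ≤ K * ‖z - v‖⁻¹) {δ : ℝ} {c : ℂ} {δ' : ℝ}
    (hsub : Metric.ball c δ' ⊆ Metric.ball v δ) :
    ∫⁻ z in Metric.ball c δ', ENNReal.ofReal ((F z) ^ 2) ≤ ENNReal.ofReal (K * (2 * Real.pi * δ)) := by
  calc ∫⁻ z in Metric.ball c δ', ENNReal.ofReal ((F z) ^ 2)
      ≤ ∫⁻ z in Metric.ball v δ, ENNReal.ofReal ((F z) ^ 2) := lintegral_mono_set hsub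
    _ ≤ ∫⁻ z in Metric.ball v δ, ENNReal.ofReal K * ENNReal.ofReal (‖z - v‖⁻¹) := by
        refine lintegral_mono_ae (ae_restrict_of_ae ?_)
        have : ∀ᵐ z : ℂ, z ≠ v := by
          rw [ae_iff]; simp
        filter_upwards [this] with z hz
        rw [← ENNReal.ofReal_mul hK]
        exact ENNReal.ofReal_le_ofReal (hF z hz)
    _ = ENNReal.ofReal K * ∫⁻ z in Metric.ball v δ, ENNReal.ofReal (‖z - v‖⁻¹) := by
        rw [lintegral_const_mul _ (by fun_prop)]
    _ ≤ ENNReal.ofReal K * ENNReal.ofReal (2 * Real.pi * δ) := mul_le_mul_right (lint_inv_norm v δ) _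
    _ = _ := by rw [← ENNReal.ofReal_mul hK]

/-- **`L²` limit of the cut-off field** on the whole plane -/
theorem uS_l2 [l.IsCountablyGenerated] (H : Cut χ r0 R0) (ha : Tendsto a l (𝓝[>] 0))
    (tip : ∀ i, Tendsto (fun k => meshPoint (a k) (V k i)) l (𝓝 (x i)))
    (hy : Tendsto y l (𝓝 (x j))) (h : Fin 4) :
    Tendsto (fun k => ∫⁻ z, ENNReal.ofReal
      ((emb (a k) (fun f => uS χ x j (a k) (V k) (y k) f h) z - US χ x j z h) ^ 2)) l (𝓝 0) := by
  have ha0 : Tendsto a l (𝓝 0) := tendsto_nhds_of_tendsto_nhdsWithin ha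
  have hapos : ∀ᶠ k in l, 0 < a k := (tendsto_nhdsWithin_iff.1 ha).2
  have hpi := Real.pi_pos
  have ha1 : ∀ᶠ k in l, a k < 1 / 4 := ha0.eventually (eventually_lt_nhds (by norm_num))
  have hyn : ∀ᶠ k in l, ‖y k - x j‖ < 1 / 4 := by
    have := (Metric.tendsto_nhds.1 hy) (1/4) (by norm_num)
    simpa [dist_eq_norm] using this
  have hV : ∀ δ > 0, ∀ᶠ k in l, ‖meshPoint (a k) (V k j) - x j‖ < δ := by
    intro δ hδ
    have := (Metric.tendsto_nhds.1 (tip j)) δ hδ
    simpa [dist_eq_norm] using this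
  obtain ⟨K, hK0, hK⟩ := uS_bound H x j
  obtain ⟨K', hK0', hK'⟩ := US_bound H x j
  refine l2_of_sing (fun k => emb_measurable _ _) (measurable_US H x j h) (x := x j) (R := R0 + 1)
    ?_ ?_ ?_ ?_ ?_
  · filter_upwards [hapos, ha1, hyn] with k hk0 hk1 hk2 z hz
    by_contra hne
    have h1 : ‖meshPoint (a k) (meshIndex (a k) z) - y k‖ < R0 := by
      by_contra hc
      push Not at hc
      refine hne ?_
      show uS χ x j (a k) (V k) (y k) (meshIndex (a k) z) h = 0
      unfold uS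
      rw [H.zero _ hc]; ring
    have h2 := Pairx599.norm_mesh_sub hk0 z
    have h3 : ‖z - x j‖ ≤ ‖meshPoint (a k) (meshIndex (a k) z) - z‖ +
        ‖meshPoint (a k) (meshIndex (a k) z) - y k‖ + ‖y k - x j‖ := by
      calc ‖z - x j‖ = ‖-(meshPoint (a k) (meshIndex (a k) z) - z) +
            (meshPoint (a k) (meshIndex (a k) z) - y k) + (y k - x j)‖ := by congr 1; ring
        _ ≤ _ := (norm_add_le _ _).trans (by
            refine add_le_add ((norm_add_le _ _).trans ?_) le_rfl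
            rw [norm_neg])
    linarith
  · intro δ hδ
    refine ⟨√(K * (δ/2)⁻¹), ?_⟩
    filter_upwards [hapos, hV (δ/2) (by linarith)] with k hk0 hk1 z hz
    have h1 : δ / 2 ≤ ‖z - meshPoint (a k) (V k j)‖ := by
      have : ‖z - x j‖ ≤ ‖z - meshPoint (a k) (V k j)‖ + ‖meshPoint (a k) (V k j) - x j‖ := by
        calc ‖z - x j‖ = ‖(z - meshPoint (a k) (V k j)) + (meshPoint (a k) (V k j) - x j)‖ := by
              congr 1; ring
          _ ≤ _ := norm_add_le _ _
      linarith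
    have hne : z ≠ meshPoint (a k) (V k j) := by
      intro he
      rw [he, sub_self, norm_zero] at h1
      linarith
    refine Real.abs_le_sqrt ((hK _ _ _ _ hk0 hne h).trans ?_)
    exact mul_le_mul_of_nonneg_left (inv_anti₀ (by linarith) h1) hK0
  · intro ε hε
    refine ⟨ε / (4 * Real.pi * (K + 1)), by positivity, ?_⟩
    set δ := ε / (4 * Real.pi * (K + 1)) with hδ
    have hδ0 : 0 < δ := by positivity
    filter_upwards [hapos, hV δ hδ0] with k hk0 hk1
    refine (lint_tail hK0 (fun z hz => hK _ _ _ _ hk0 hz h) (δ := 2 * δ) ?_).trans ?_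
    · intro z hz
      rw [Metric.mem_ball, dist_eq_norm] at hz ⊢
      have : ‖z - meshPoint (a k) (V k j)‖ ≤ ‖z - x j‖ + ‖meshPoint (a k) (V k j) - x j‖ := by
        calc ‖z - meshPoint (a k) (V k j)‖ = ‖(z - x j) - (meshPoint (a k) (V k j) - x j)‖ := by
              congr 1; ring
          _ ≤ _ := norm_sub_le _ _
      linarith
    · refine ENNReal.ofReal_le_ofReal ?_
      have : K * (2 * Real.pi * (2 * δ)) = K / (K + 1) * ε := by
        rw [hδ]; field_simp; ring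
      rw [this]
      have h2 : K / (K + 1) ≤ 1 := by rw [div_le_one (by linarith)]; linarith
      nlinarith
  · intro ε hε
    refine ⟨ε / (2 * Real.pi * (K' + 1)), by positivity, ?_⟩
    set δ := ε / (2 * Real.pi * (K' + 1)) with hδ
    refine (lint_tail hK0' (fun z _ => hK' z h) (δ := δ) le_rfl).trans ?_
    refine ENNReal.ofReal_le_ofReal ?_
    have : K' * (2 * Real.pi * δ) = K' / (K' + 1) * ε := by
      rw [hδ]; field_simp
    rw [this]
    have h2 : K' / (K' + 1) ≤ 1 := by rw [div_le_one (by linarith)]; linarith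
    nlinarith
  · filter_upwards [ae_gen_sub (x j), ae_im_ne (x j).im] with z hz1 hz2
    exact uS_lim H ha tip hy (Pairx599.tendsto_meshPoint ha z) hz1 hz2 h

end l2

end Crest.Agent.R165.EtaLx375
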