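import Crest.Agent.R165.Gr0_606

/-!
# Row 165 (S0250): the commutative algebra of even Grassmann elements (helper653)
-/

set_option autoImplicit false

noncomputable section

namespace Crest.Agent.R165.Evx653

open Crest.Agent.R165.Gr0x606

variable {V : Type*} [AddCommGroup V] [Module ℝ V]
variable {W : Type*} [AddCommGroup W] [Module ℝ W]

/-- the subalgebra of even elements -/
def evSub (V : Type*) [AddCommGroup V] [Module ℝ V] : Subalgebra ℝ (Gr V) where
  carrier := {a | IsEv a}
  mul_mem' := fun ha hb => IsEv.mul ha hb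
  add_mem' := fun ha hb => IsEv.add ha hb
  algebraMap_mem' := isEv_algebraMap

/-- the commutative algebra of even elements of the Grassmann algebra -/
abbrev Ev (V : Type*) [AddCommGroup V] [Module ℝ V] : Type _ := evSub V

instance : CommRing (Ev V) :=
  { (inferInstance : Ring (Ev V)) with
    mul_comm := fun a b => Subtype.ext (IsEv.comm a.2 b.1) }

instance : Algebra ℝ (Ev V) := (evSub V).algebra

theorem ev_isEv (a : Ev V) : IsEv (a : Gr V) := a.2

@[ext] theorem ev_ext {a b : Ev V} (h : (a : Gr V) = b) : a = b := Subtype.ext h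

@[simp] theorem coe_mul (a b : Ev V) : ((a * b : Ev V) : Gr V) = a * b := rfl
@[simp] theorem coe_add (a b : Ev V) : ((a + b : Ev V) : Gr V) = a + b := rfl
@[simp] theorem coe_sub (a b : Ev V) : ((a - b : Ev V) : Gr V) = a - b := rfl
@[simp] theorem coe_neg (a : Ev V) : ((-a : Ev V) : Gr V) = -a := rfl
@[simp] theorem coe_one : ((1 : Ev V) : Gr V) = 1 := rfl
@[simp] theorem coe_zero : ((0 : Ev V) : Gr V) = 0 := rfl
@[simp] theorem coe_smul (c : ℝ) (a : Ev V) : ((c • a : Ev V) : Gr V) = c • (a : Gr V) := rfl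
@[simp] theorem coe_algebraMap (c : ℝ) :
    ((algebraMap ℝ (Ev V) c : Ev V) : Gr V) = algebraMap ℝ (Gr V) c := rfl
@[simp] theorem coe_pow (a : Ev V) (n : ℕ) : ((a ^ n : Ev V) : Gr V) = (a : Gr V) ^ n := by
  induction n with
  | zero => simp
  | succ n ih => rw [pow_succ, pow_succ, coe_mul, ih]

/-- the inclusion as a ring homomorphism -/
def evVal (V : Type*) [AddCommGroup V] [Module ℝ V] : Ev V →ₐ[ℝ] Gr V where
  toFun a := a
  map_one' := rfl
  map_mul' _ _ := rfl
  map_zero' := rfl
  map_add' _ _ := rfl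
  commutes' _ := rfl

@[simp] theorem evVal_apply (a : Ev V) : evVal V a = (a : Gr V) := rfl

theorem evVal_injective : Function.Injective (evVal V) := fun _ _ h => ev_ext h

@[simp] theorem coe_sum {ι : Type*} (s : Finset ι) (f : ι → Ev V) :
    ((∑ i ∈ s, f i : Ev V) : Gr V) = ∑ i ∈ s, (f i : Gr V) := by
  rw [← evVal_apply, map_sum]; rfl

/-- constant term -/
def ctE : Ev V →ₐ[ℝ] ℝ := ct.comp (evVal V)

theorem ctE_apply (a : Ev V) : ctE a = ct (a : Gr V) := rfl

/-- Gaussian convolution on even elements -/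
def convE (S : Cov V) : Ev V →ₗ[ℝ] Ev V where
  toFun a := ⟨conv S a, IsEv.conv a.2 S⟩
  map_add' a b := ev_ext (by simp)
  map_smul' c a := ev_ext (by simp)

@[simp] theorem coe_convE (S : Cov V) (a : Ev V) : ((convE S a : Ev V) : Gr V) = conv S a := rfl

@[simp] theorem convE_one (S : Cov V) : convE S (1 : Ev V) = 1 := ev_ext (by simp)

theorem convE_conv (S T : Cov V) (a : Ev V) : convE S (convE T a) = convE (S + T) a :=
  ev_ext (by simp [conv_conv])

/-- expectation -/
def EEE (S : Cov V) : Ev V →ₗ[ℝ] ℝ := (EE S).comp (evVal V).toLinearMap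

theorem EEE_apply (S : Cov V) (a : Ev V) : EEE S a = EE S (a : Gr V) := rfl

@[simp] theorem EEE_one (S : Cov V) : EEE S (1 : Ev V) = 1 := by simp [EEE_apply]

/-- functoriality -/
def mpE (f : V →ₗ[ℝ] W) : Ev V →ₐ[ℝ] Ev W where
  toFun a := ⟨mp f a, by
    have h := mp_inv' f (a : Gr V)
    rw [ev_isEv a] at h
    exact h.symm⟩
  map_one' := ev_ext (by simp)
  map_mul' a b := ev_ext (by simp)
  map_zero' := ev_ext (by simp)
  map_add' a b := ev_ext (by simp)
  commutes' r := ev_ext (by simp)

@[simp] theorem coe_mpE (f : V →ₗ[ℝ] W) (a : Ev V) : ((mpE f a : Ev W) : Gr W) = mp f a := rfl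

/-- the bilinear `fi x * fi y` as an even element -/
def bil (x y : V) : Ev V := ⟨fi x * fi y, isEv_fi_fi x y⟩

@[simp] theorem coe_bil (x y : V) : ((bil x y : Ev V) : Gr V) = fi x * fi y := rfl

@[simp] theorem mpE_bil (f : V →ₗ[ℝ] W) (x y : V) : mpE f (bil x y) = bil (f x) (f y) :=
  ev_ext (by simp)

theorem bil_mul_self (x y : V) : bil x y * bil x y = 0 := by
  apply ev_ext
  rw [coe_mul, coe_bil, coe_zero, mul_assoc, ← mul_assoc (fi y), fi_anti y x, neg_mul, mul_assoc,
    fi_mul_self, mul_zero, neg_zero, mul_zero]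

theorem bil_swap (x y : V) : bil x y = -bil y x := ev_ext (by simpa using fi_anti x y)

end Crest.Agent.R165.Evx653
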