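import Crest.Agent.R165.GeOps_337

/-!
# Row 165 (S0250), block G: the exponential on even Grassmann elements (helper337)

`gexp a = exp (ct a) • (nilpotent exponential of a - ct a)`, on the commutative ring `Ge V`.

* `gexp_add`, `gexp_sum`, `gexp_zero`, `gexp_algebraMap`, `ctG_gexp`
* `mpG_gexp` naturality, `gexp_mem` locality
* norm bounds `pnorm_gexp_sub_one_le`, `pnorm_gexp_sub_le`, Lipschitz forms
-/

set_option autoImplicit false

noncomputable section

namespace Crest.Agent.R165.ExpGx337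

open scoped ENNReal Nat
open Crest.Agent.R165.Gr0x606 Crest.Agent.R165.Gr1x606 Crest.Agent.R165.GeOpsx337 Crest.Agent.R165.GrLocx337
  Crest.Agent.R165.PNormx417

variable {V : Type*} [AddCommGroup V] [Module ℝ V] {V' : Type*} [AddCommGroup V'] [Module ℝ V']

/-! ### nilpotency of the elements without constant term -/

/-- the ideal generated by the bilinears -/
def bI (V : Type*) [AddCommGroup V] [Module ℝ V] : Ideal (Ge V) :=
  Ideal.span (Set.range fun p : V × V => bi p.1 p.2)

theorem bi_mem_bI (x y : V) : bi x y ∈ bI V := Ideal.subset_span ⟨(x, y), rfl⟩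

theorem bI_le_nilradical : bI V ≤ nilradical (Ge V) := by
  refine Ideal.span_le.2 ?_
  rintro _ ⟨⟨x, y⟩, rfl⟩
  exact ⟨2, by rw [pow_two]; exact bi_mul_self x y⟩

/-- twice the even part -/
def evp (a : Gr V) : Ge V := ⟨a + inv' a, by
  show inv' (a + inv' a) = a + inv' a
  rw [map_add, inv'_inv', add_comm]⟩

theorem coe_evp (a : Gr V) : ((evp a : Ge V) : Gr V) = a + inv' a := rfl

theorem evp_add (a b : Gr V) : evp (a + b) = evp a + evp b := by
  apply ge_ext
  rw [Ge.coe_add, coe_evp, coe_evp, coe_evp, map_add]; abel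

/-- `y * odd part` as an even element -/
theorem evp_fi_mul_fi_mul (y x : V) (b : Gr V) : evp (fi y * (fi x * b)) = bi y x * evp b := by
  apply ge_ext
  rw [Ge.coe_mul, coe_evp, coe_evp, coe_bi, map_mul, map_mul, inv'_fi, inv'_fi]
  noncomm_ring

theorem evp_fi_mem (a : Gr V) : ∀ y : V, evp (fi y * a) ∈ bI V := by
  induction a using Gr.induction with
  | h0 r =>
    intro y
    have : evp (fi y * algebraMap ℝ (Gr V) r) = 0 := by
      apply ge_ext
      rw [coe_evp, map_mul, inv'_fi, AlgHom.commutes, Ge.coe_zero]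
      simp
    rw [this]; exact Ideal.zero_mem _
  | h1 x a _ =>
    intro y
    rw [evp_fi_mul_fi_mul]
    exact Ideal.mul_mem_right _ _ (bi_mem_bI y x)
  | h2 a b iha ihb =>
    intro y
    rw [mul_add, evp_add]
    exact Ideal.add_mem _ (iha y) (ihb y)

theorem evp_sub_mem (a : Gr V) : evp a - algebraMap ℝ (Ge V) (2 * ct a) ∈ bI V := by
  induction a using Gr.induction with
  | h0 r =>
    have : evp (algebraMap ℝ (Gr V) r) - algebraMap ℝ (Ge V) (2 * ct (algebraMap ℝ (Gr V) r)) = 0 := by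
      apply ge_ext
      rw [Ge.coe_sub, coe_evp, AlgHom.commutes, ge_coe_algebraMap, ct_algebraMap, Ge.coe_zero, two_mul,
        map_add, sub_self]
    rw [this]; exact Ideal.zero_mem _
  | h1 x a _ =>
    have h0 : ct (fi x * a) = 0 := by rw [map_mul, ct_fi, zero_mul]
    rw [h0, mul_zero, map_zero, sub_zero]
    exact evp_fi_mem a x
  | h2 a b iha ihb =>
    have : evp (a + b) - algebraMap ℝ (Ge V) (2 * ct (a + b)) =
        (evp a - algebraMap ℝ (Ge V) (2 * ct a)) + (evp b - algebraMap ℝ (Ge V) (2 * ct b)) := by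
      rw [evp_add, map_add, mul_add, map_add]; ring
    rw [this]
    exact Ideal.add_mem _ iha ihb

theorem evp_coe (a : Ge V) : evp (a : Gr V) = (2 : ℝ) • a := by
  apply ge_ext
  rw [coe_evp, Ge.coe_smul, two_smul]
  congr 1
  exact Ge.isEv a

/-- an even element minus its constant term is nilpotent -/
theorem sub_ct_mem (a : Ge V) : a - algebraMap ℝ (Ge V) (ctG a) ∈ bI V := by
  have h := evp_sub_mem (a : Gr V)
  rw [evp_coe] at h
  have h2 : a - algebraMap ℝ (Ge V) (ctG a) =
      algebraMap ℝ (Ge V) (1 / 2) * ((2 : ℝ) • a - algebraMap ℝ (Ge V) (2 * ct (a : Gr V))) := by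
    have h3 : algebraMap ℝ (Ge V) (1 / 2) * ((2 : ℝ) • a) = a := by
      rw [← Algebra.smul_def, smul_smul]; norm_num
    have h4 : algebraMap ℝ (Ge V) (1 / 2) * algebraMap ℝ (Ge V) (2 * ct (a : Gr V)) =
        algebraMap ℝ (Ge V) (ctG a) := by
      rw [← map_mul, ctG_apply]; congr 1; ring
    rw [mul_sub, h3, h4]
  rw [h2]
  exact Ideal.mul_mem_left _ _ h

theorem isNilpotent_sub_ct (a : Ge V) : IsNilpotent (a - algebraMap ℝ (Ge V) (ctG a)) :=
  bI_le_nilradical (sub_ct_mem a)

theorem isNilpotent_of_ct {a : Ge V} (h : ctG a = 0) : IsNilpotent a := by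
  have := isNilpotent_sub_ct a
  rwa [h, map_zero, sub_zero] at this

/-! ### the exponential -/

/-- the nilpotent part -/
def nl (a : Ge V) : Ge V := a - algebraMap ℝ (Ge V) (ctG a)

theorem nl_nil (a : Ge V) : IsNilpotent (nl a) := isNilpotent_sub_ct a

theorem nl_add (a b : Ge V) : nl (a + b) = nl a + nl b := by
  rw [nl, nl, nl, map_add, map_add]; ring

theorem add_nl (a : Ge V) : algebraMap ℝ (Ge V) (ctG a) + nl a = a := by rw [nl]; ring

@[simp] theorem ctG_nl (a : Ge V) : ctG (nl a) = 0 := by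
  rw [nl, map_sub, AlgHom.commutes]; simp

/-- the `ℚ`-module structure, local -/
@[instance_reducible]
def modQ (V : Type*) [AddCommGroup V] [Module ℝ V] : Module ℚ (Ge V) :=
  Module.compHom (Ge V) (algebraMap ℚ ℝ)

attribute [local instance] modQ

theorem qsmul_eq (q : ℚ) (a : Ge V) : q • a = (q : ℝ) • a := rfl

/-- exponential of a nilpotent element -/
def nexp (a : Ge V) : Ge V := IsNilpotent.exp a

theorem nexp_eq_sum {a : Ge V} {k : ℕ} (h : a ^ k = 0) :
    nexp a = ∑ i ∈ Finset.range k, ((i ! : ℝ)⁻¹) • a ^ i := by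
  rw [nexp, IsNilpotent.exp_eq_sum h]
  refine Finset.sum_congr rfl fun i _ => ?_
  rw [qsmul_eq]
  push_cast
  rfl

theorem nexp_add {a b : Ge V} (ha : IsNilpotent a) (hb : IsNilpotent b) :
    nexp (a + b) = nexp a * nexp b :=
  IsNilpotent.exp_add_of_commute (Commute.all a b) ha hb

@[simp] theorem nexp_zero : nexp (0 : Ge V) = 1 := IsNilpotent.exp_zero

/-- the exponential of an even element -/
def gexp (a : Ge V) : Ge V := Real.exp (ctG a) • nexp (nl a)

theorem gexp_add (a b : Ge V) : gexp (a + b) = gexp a * gexp b := by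
  rw [gexp, gexp, gexp, map_add, nl_add, nexp_add (nl_nil a) (nl_nil b), Real.exp_add,
    smul_mul_smul_comm]

@[simp] theorem gexp_zero : gexp (0 : Ge V) = 1 := by
  have h : nl (0 : Ge V) = 0 := by simp [nl]
  rw [gexp, h, map_zero, Real.exp_zero, nexp_zero, one_smul]

theorem gexp_sum {ι : Type*} (s : Finset ι) (f : ι → Ge V) :
    gexp (∑ i ∈ s, f i) = ∏ i ∈ s, gexp (f i) := by
  classical
  induction s using Finset.induction_on with
  | empty => simp
  | insert i s hi ih => rw [Finset.sum_insert hi, gexp_add, ih, Finset.prod_insert hi]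

theorem gexp_algebraMap (r : ℝ) : gexp (algebraMap ℝ (Ge V) r) = algebraMap ℝ (Ge V) (Real.exp r) := by
  have h1 : ctG (algebraMap ℝ (Ge V) r) = r := by simp
  have h : nl (algebraMap ℝ (Ge V) r) = 0 := by rw [nl, h1, sub_self]
  rw [gexp, h, h1, nexp_zero, Algebra.algebraMap_eq_smul_one]

theorem gexp_neg_mul (a : Ge V) : gexp (-a) * gexp a = 1 := by
  rw [← gexp_add, neg_add_cancel, gexp_zero]

theorem gexp_mul_neg (a : Ge V) : gexp a * gexp (-a) = 1 := by
  rw [mul_comm, gexp_neg_mul]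

theorem ctG_nexp {a : Ge V} (h : ctG a = 0) : ctG (nexp a) = 1 := by
  obtain ⟨k, hk⟩ := isNilpotent_of_ct h
  have hk' : a ^ (k + 1) = 0 := by rw [pow_succ, hk, zero_mul]
  rw [nexp_eq_sum hk', map_sum, Finset.sum_range_succ']
  have : ∀ i ∈ Finset.range k, ctG (((i + 1)! : ℝ)⁻¹ • a ^ (i + 1)) = 0 := by
    intro i _
    rw [map_smul, map_pow, h, zero_pow (Nat.succ_ne_zero i), smul_zero]
  rw [Finset.sum_eq_zero this]
  simp

theorem ctG_gexp (a : Ge V) : ctG (gexp a) = Real.exp (ctG a) := by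
  rw [gexp, map_smul, ctG_nexp (ctG_nl a), smul_eq_mul, mul_one]

theorem mpG_nexp (f : V →ₗ[ℝ] V') {a : Ge V} (ha : IsNilpotent a) :
    mpG f (nexp a) = nexp (mpG f a) := by
  obtain ⟨k, hk⟩ := ha
  have hk' : mpG f a ^ k = 0 := by rw [← map_pow, hk, map_zero]
  rw [nexp_eq_sum hk, nexp_eq_sum hk', map_sum]
  exact Finset.sum_congr rfl fun i _ => by rw [map_smul, map_pow]

theorem mpG_gexp (f : V →ₗ[ℝ] V') (a : Ge V) : mpG f (gexp a) = gexp (mpG f a) := by
  have h : mpG f (nl a) = nl (mpG f a) := by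
    rw [nl, nl, map_sub, AlgHom.commutes, ctG_mpG]
  rw [gexp, gexp, map_smul, mpG_nexp f (nl_nil a), h, ctG_mpG]

/-- locality -/
theorem gexp_mem {W : Submodule ℝ V} {a : Ge V} (ha : (a : Gr V) ∈ gr W) :
    ((gexp a : Ge V) : Gr V) ∈ gr W := by
  obtain ⟨k, hk⟩ := nl_nil a
  have h1 : ((nl a : Ge V) : Gr V) ∈ gr W := by
    rw [nl, Ge.coe_sub, ge_coe_algebraMap]
    exact sub_mem ha (Subalgebra.algebraMap_mem _ _)
  rw [gexp, nexp_eq_sum hk, Ge.coe_smul, ge_coe_sum]
  refine Subalgebra.smul_mem _ (sum_mem fun i _ => ?_) _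
  rw [Ge.coe_smul, ge_coe_pow]
  exact Subalgebra.smul_mem _ (pow_mem h1 i) _

end Crest.Agent.R165.ExpGx337
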