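import Mathlib

/-!
# Row 165, block G: functional calculus of `Q = Aᵀ A`

For a real matrix `A`, `fm A f` is `f (Aᵀ * A)` for an arbitrary function `f : ℝ → ℝ` (by interpolation on the
eigenvalues), `BF A f` the bilinear form `l, m ↦ ⟨l, f(Q) m⟩`. All inequalities between functions on `[0, Λ]`
(`Λ` a bound for `Q`) give inequalities between quadratic forms.
-/

set_option autoImplicit false
set_option linter.unusedSectionVars false

noncomputable section

namespace Crest.Agent.R165.FRDSpecx439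

open Polynomial Finset Matrix

variable {H : Type*} [Fintype H] [DecidableEq H]

/-- `Q = Aᵀ A` -/
def Qm (A : Matrix H H ℝ) : Matrix H H ℝ := Aᵀ * A

theorem Qm_posSemidef (A : Matrix H H ℝ) : (Qm A).PosSemidef := by
  have := posSemidef_conjTranspose_mul_self A
  rwa [conjTranspose_eq_transpose_of_trivial] at this

theorem Qm_herm (A : Matrix H H ℝ) : (Qm A).IsHermitian := (Qm_posSemidef A).1

theorem Qm_transpose (A : Matrix H H ℝ) : (Qm A)ᵀ = Qm A := by
  unfold Qm; rw [transpose_mul, transpose_transpose]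

/-- eigenvalues of `Q` -/
def ev (A : Matrix H H ℝ) : H → ℝ := (Qm_herm A).eigenvalues

theorem ev_nonneg (A : Matrix H H ℝ) (i : H) : 0 ≤ ev A i := (Qm_posSemidef A).eigenvalues_nonneg i

/-- eigenvectors of `Q` as functions -/
def evec (A : Matrix H H ℝ) (i : H) : H → ℝ := ⇑((Qm_herm A).eigenvectorBasis i)

theorem Qm_evec (A : Matrix H H ℝ) (i : H) : Qm A *ᵥ evec A i = ev A i • evec A i :=
  (Qm_herm A).mulVec_eigenvectorBasis i

theorem evec_dot (A : Matrix H H ℝ) (i : H) : evec A i ⬝ᵥ evec A i = 1 := by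
  have h := (orthonormal_iff_ite.mp (Qm_herm A).eigenvectorBasis.orthonormal) i i
  rw [if_pos rfl] at h
  rw [← h, EuclideanSpace.inner_eq_star_dotProduct]
  simp [evec]

theorem aeval_evec (A : Matrix H H ℝ) (p : ℝ[X]) (i : H) :
    (aeval (Qm A) p) *ᵥ evec A i = p.eval (ev A i) • evec A i := by
  induction p using Polynomial.induction_on' with
  | add p q hp hq => rw [map_add, add_mulVec, hp, hq, eval_add, add_smul]
  | monomial n c =>
    rw [aeval_monomial, eval_monomial]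
    have h : ∀ n : ℕ, (Qm A ^ n) *ᵥ evec A i = (ev A i) ^ n • evec A i := by
      intro n
      induction n with
      | zero => simp
      | succ n ih =>
        rw [pow_succ, ← mulVec_mulVec, Qm_evec, mulVec_smul, ih, smul_smul, pow_succ, mul_comm]
    rw [← mulVec_mulVec, h, mulVec_smul, Algebra.algebraMap_eq_smul_one, smul_mulVec, one_mulVec,
      smul_smul, mul_comm]

theorem eq_zero_of_evec (A : Matrix H H ℝ) (M : Matrix H H ℝ) (h : ∀ i, M *ᵥ evec A i = 0) :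
    M = 0 := by
  apply Matrix.toEuclideanLin.injective
  rw [map_zero]
  apply (Qm_herm A).eigenvectorBasis.toBasis.ext
  intro i
  rw [OrthonormalBasis.coe_toBasis, LinearMap.zero_apply]
  have := h i
  unfold evec at this
  rw [Matrix.toLpLin_apply, this]
  rfl

theorem aeval_eq_zero (A : Matrix H H ℝ) (p : ℝ[X]) (h : ∀ i, p.eval (ev A i) = 0) :
    aeval (Qm A) p = 0 := by
  apply eq_zero_of_evec A
  intro i
  rw [aeval_evec, h, zero_smul]

theorem aeval_congr (A : Matrix H H ℝ) (p q : ℝ[X]) (h : ∀ i, p.eval (ev A i) = q.eval (ev A i)) :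
    aeval (Qm A) p = aeval (Qm A) q := by
  rw [← sub_eq_zero, ← map_sub]
  apply aeval_eq_zero
  intro i
  rw [eval_sub, h, sub_self]

/-- interpolation polynomial -/
def ip (A : Matrix H H ℝ) (f : ℝ → ℝ) : ℝ[X] :=
  Lagrange.interpolate (univ.image (ev A)) id f

theorem ip_eval (A : Matrix H H ℝ) (f : ℝ → ℝ) (i : H) : (ip A f).eval (ev A i) = f (ev A i) := by
  have := Lagrange.eval_interpolate_at_node (s := univ.image (ev A)) (v := id) f
    (i := ev A i) (Function.injective_id.injOn) (mem_image_of_mem _ (mem_univ i))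
  exact this

/-- the matrix `f (Q)` -/
def fm (A : Matrix H H ℝ) (f : ℝ → ℝ) : Matrix H H ℝ := aeval (Qm A) (ip A f)

theorem fm_eq_aeval (A : Matrix H H ℝ) (f : ℝ → ℝ) (p : ℝ[X])
    (h : ∀ i, p.eval (ev A i) = f (ev A i)) : fm A f = aeval (Qm A) p :=
  aeval_congr A _ _ fun i => by rw [ip_eval, h]

theorem fm_poly (A : Matrix H H ℝ) (p : ℝ[X]) : fm A (fun t => p.eval t) = aeval (Qm A) p :=
  fm_eq_aeval A _ _ fun _ => rfl

theorem fm_congr (A : Matrix H H ℝ) (f g : ℝ → ℝ) (h : ∀ i, f (ev A i) = g (ev A i)) :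
    fm A f = fm A g := fm_eq_aeval A _ _ fun i => by rw [ip_eval, h]

theorem fm_evec (A : Matrix H H ℝ) (f : ℝ → ℝ) (i : H) :
    fm A f *ᵥ evec A i = f (ev A i) • evec A i := by
  unfold fm; rw [aeval_evec, ip_eval]

theorem fm_mul (A : Matrix H H ℝ) (f g : ℝ → ℝ) : fm A (fun t => f t * g t) = fm A f * fm A g := by
  rw [fm_eq_aeval A (fun t => f t * g t) (ip A f * ip A g)
    (fun i => by rw [eval_mul, ip_eval, ip_eval]), map_mul]
  rfl

theorem fm_add (A : Matrix H H ℝ) (f g : ℝ → ℝ) : fm A (fun t => f t + g t) = fm A f + fm A g := by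
  rw [fm_eq_aeval A (fun t => f t + g t) (ip A f + ip A g)
    (fun i => by rw [eval_add, ip_eval, ip_eval]), map_add]
  rfl

theorem fm_smul (A : Matrix H H ℝ) (c : ℝ) (f : ℝ → ℝ) : fm A (fun t => c * f t) = c • fm A f := by
  rw [fm_eq_aeval A (fun t => c * f t) (c • ip A f)
    (fun i => by rw [eval_smul, ip_eval, smul_eq_mul]), map_smul]
  rfl

theorem fm_sum {ι : Type*} (A : Matrix H H ℝ) (s : Finset ι) (f : ι → ℝ → ℝ) :
    fm A (fun t => ∑ j ∈ s, f j t) = ∑ j ∈ s, fm A (f j) := by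
  rw [fm_eq_aeval A (fun t => ∑ j ∈ s, f j t) (∑ j ∈ s, ip A (f j))
    (fun i => by
      rw [eval_finsetSum]
      exact sum_congr rfl fun j _ => ip_eval A _ _), map_sum]
  rfl

theorem fm_one (A : Matrix H H ℝ) : fm A (fun _ => 1) = 1 := by
  rw [fm_eq_aeval A _ 1 (fun i => by rw [eval_one]), map_one]

theorem fm_zero (A : Matrix H H ℝ) : fm A (fun _ => 0) = 0 := by
  rw [fm_eq_aeval A _ 0 (fun i => by rw [eval_zero]), map_zero]

theorem fm_id (A : Matrix H H ℝ) : fm A (fun t => t) = Qm A := by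
  rw [fm_eq_aeval A _ X (fun i => by rw [eval_X]), aeval_X]

theorem aeval_transpose (A : Matrix H H ℝ) (p : ℝ[X]) :
    (aeval (Qm A) p)ᵀ = aeval (Qm A) p := by
  induction p using Polynomial.induction_on' with
  | add p q hp hq => rw [map_add, transpose_add, hp, hq]
  | monomial n c =>
    rw [aeval_monomial, Algebra.algebraMap_eq_smul_one, smul_mul_assoc, one_mul, transpose_smul,
      transpose_pow, Qm_transpose]

theorem fm_transpose (A : Matrix H H ℝ) (f : ℝ → ℝ) : (fm A f)ᵀ = fm A f := aeval_transpose A _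

theorem fm_comm (A : Matrix H H ℝ) (f g : ℝ → ℝ) : fm A f * fm A g = fm A g * fm A f := by
  rw [← fm_mul, ← fm_mul]; congr 1; funext t; ring

/-- antisymmetric `A` commutes with `f (Q)` -/
theorem A_mul_aeval {A : Matrix H H ℝ} (hA : Aᵀ = -A) (p : ℝ[X]) :
    A * aeval (Qm A) p = aeval (Qm A) p * A := by
  have hQ : Commute A (Qm A) := by
    unfold Qm
    rw [hA]
    simp [Commute, SemiconjBy, mul_assoc]
  induction p using Polynomial.induction_on' with
  | add p q hp hq => rw [map_add, mul_add, hp, hq, add_mul]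
  | monomial n c =>
    rw [aeval_monomial, Algebra.algebraMap_eq_smul_one, smul_mul_assoc, one_mul, mul_smul_comm,
      smul_mul_assoc, (hQ.pow_right n).eq]

theorem A_mul_fm {A : Matrix H H ℝ} (hA : Aᵀ = -A) (f : ℝ → ℝ) : A * fm A f = fm A f * A :=
  A_mul_aeval hA _

/-! ### bilinear forms -/

/-- `⟨l, f(Q) m⟩` -/
def BF (A : Matrix H H ℝ) (f : ℝ → ℝ) : LinearMap.BilinForm ℝ (H → ℝ) := Matrix.toBilin' (fm A f)

theorem BF_apply (A : Matrix H H ℝ) (f : ℝ → ℝ) (l m : H → ℝ) :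
    BF A f l m = l ⬝ᵥ (fm A f *ᵥ m) := Matrix.toBilin'_apply' _ _ _

theorem BF_symm (A : Matrix H H ℝ) (f : ℝ → ℝ) (l m : H → ℝ) : BF A f l m = BF A f m l := by
  rw [BF_apply, BF_apply, dotProduct_mulVec, ← mulVec_transpose, fm_transpose, dotProduct_comm]

theorem dot_fm_fm (A : Matrix H H ℝ) (f g : ℝ → ℝ) (l m : H → ℝ) :
    (fm A f *ᵥ l) ⬝ᵥ (fm A g *ᵥ m) = BF A (fun t => f t * g t) l m := by
  rw [BF_apply, fm_mul, ← mulVec_mulVec, dotProduct_mulVec l (fm A f), ← mulVec_transpose,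
    fm_transpose]

theorem BF_fm_left (A : Matrix H H ℝ) (f g : ℝ → ℝ) (l m : H → ℝ) :
    BF A f (fm A g *ᵥ l) m = BF A (fun t => g t * f t) l m := by
  rw [BF_apply, dot_fm_fm]

theorem BF_fm_right (A : Matrix H H ℝ) (f g : ℝ → ℝ) (l m : H → ℝ) :
    BF A f l (fm A g *ᵥ m) = BF A (fun t => f t * g t) l m := by
  rw [BF_apply, BF_apply, fm_mul, mulVec_mulVec]

theorem BF_add (A : Matrix H H ℝ) (f g : ℝ → ℝ) (l m : H → ℝ) :
    BF A (fun t => f t + g t) l m = BF A f l m + BF A g l m := by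
  rw [BF_apply, fm_add, add_mulVec, dotProduct_add, BF_apply, BF_apply]

theorem BF_smul (A : Matrix H H ℝ) (c : ℝ) (f : ℝ → ℝ) (l m : H → ℝ) :
    BF A (fun t => c * f t) l m = c * BF A f l m := by
  rw [BF_apply, fm_smul, smul_mulVec, dotProduct_smul, BF_apply, smul_eq_mul]

theorem BF_sum {ι : Type*} (A : Matrix H H ℝ) (s : Finset ι) (f : ι → ℝ → ℝ) (l m : H → ℝ) :
    BF A (fun t => ∑ j ∈ s, f j t) l m = ∑ j ∈ s, BF A (f j) l m := by
  rw [BF_apply, fm_sum, Matrix.sum_mulVec, dotProduct_sum]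
  simp only [BF_apply]

theorem BF_one (A : Matrix H H ℝ) (l m : H → ℝ) : BF A (fun _ => 1) l m = l ⬝ᵥ m := by
  rw [BF_apply, fm_one, one_mulVec]

theorem BF_congr (A : Matrix H H ℝ) (f g : ℝ → ℝ) (h : ∀ i, f (ev A i) = g (ev A i)) :
    BF A f = BF A g := by
  unfold BF; rw [fm_congr A f g h]

theorem BF_poly (A : Matrix H H ℝ) (p : ℝ[X]) (l m : H → ℝ) :
    BF A (fun t => p.eval t) l m = l ⬝ᵥ (aeval (Qm A) p *ᵥ m) := by
  rw [BF_apply, fm_poly]

/-- `A` on both sides multiplies the function by `t` -/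
theorem BF_A_A {A : Matrix H H ℝ} (hA : Aᵀ = -A) (f : ℝ → ℝ) (l m : H → ℝ) :
    BF A f (A *ᵥ l) (A *ᵥ m) = BF A (fun t => t * f t) l m := by
  rw [BF_apply, BF_apply, fm_mul, fm_id]
  have h1 : Qm A * fm A f = Aᵀ * (fm A f * A) := by
    rw [← A_mul_fm hA, Qm, mul_assoc]
  rw [h1, ← mulVec_mulVec, dotProduct_mulVec l Aᵀ, ← mulVec_transpose, transpose_transpose,
    mulVec_mulVec]

theorem BF_nonneg (A : Matrix H H ℝ) (f : ℝ → ℝ) (hf : ∀ i, 0 ≤ f (ev A i)) (l : H → ℝ) :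
    0 ≤ BF A f l l := by
  have h : BF A f = BF A (fun t => √(f t) * √(f t)) :=
    BF_congr A _ _ fun i => (Real.mul_self_sqrt (hf i)).symm
  rw [h, ← dot_fm_fm]
  exact Finset.sum_nonneg fun i _ => mul_self_nonneg _

theorem BF_mono (A : Matrix H H ℝ) (f g : ℝ → ℝ) (hfg : ∀ i, f (ev A i) ≤ g (ev A i)) (l : H → ℝ) :
    BF A f l l ≤ BF A g l l := by
  have h := BF_nonneg A (fun t => g t + (-1) * f t) (fun i => by have := hfg i; linarith) l
  rw [BF_add, BF_smul] at h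
  linarith

/-- Cauchy-Schwarz -/
theorem BF_cs (A : Matrix H H ℝ) (f g : ℝ → ℝ) (l m : H → ℝ) :
    (BF A (fun t => f t * g t) l m) ^ 2 ≤
      BF A (fun t => f t * f t) l l * BF A (fun t => g t * g t) m m := by
  rw [← dot_fm_fm, ← dot_fm_fm, ← dot_fm_fm]
  have := Finset.sum_mul_sq_le_sq_mul_sq Finset.univ (fm A f *ᵥ l) (fm A g *ᵥ m)
  simpa [dotProduct, sq] using this

/-- Cauchy-Schwarz for a nonnegative function -/
theorem BF_abs_le (A : Matrix H H ℝ) (f : ℝ → ℝ) (hf : ∀ i, 0 ≤ f (ev A i)) (l m : H → ℝ) :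
    |BF A f l m| ≤ √(BF A f l l) * √(BF A f m m) := by
  have h : BF A f = BF A (fun t => √(f t) * √(f t)) :=
    BF_congr A _ _ fun i => (Real.mul_self_sqrt (hf i)).symm
  have h2 := BF_cs A (fun t => √(f t)) (fun t => √(f t)) l m
  rw [← h] at h2
  rw [← Real.sqrt_mul (BF_nonneg A f hf l)]
  exact Real.abs_le_sqrt h2

/-- weighted duality: `(l · m)² ≤ ⟨l, f⁻¹ l⟩ ⟨m, f m⟩` -/
theorem dot_sq_le (A : Matrix H H ℝ) (f : ℝ → ℝ) (hf : ∀ i, 0 < f (ev A i)) (l m : H → ℝ) :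
    (l ⬝ᵥ m) ^ 2 ≤ BF A (fun t => (f t)⁻¹) l l * BF A f m m := by
  have h0 : BF A (fun t => (√(f t))⁻¹ * √(f t)) l m = l ⬝ᵥ m := by
    rw [BF_congr A (fun t => (√(f t))⁻¹ * √(f t)) (fun _ => 1), BF_one]
    intro i
    exact inv_mul_cancel₀ (Real.sqrt_pos.mpr (hf i)).ne'
  have h1 := BF_cs A (fun t => (√(f t))⁻¹) (fun t => √(f t)) l m
  rw [h0] at h1
  have h2 : BF A (fun t => (√(f t))⁻¹ * (√(f t))⁻¹) = BF A (fun t => (f t)⁻¹) :=
    BF_congr A _ _ fun i => by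
      rw [← mul_inv, Real.mul_self_sqrt (hf i).le]
  have h3 : BF A (fun t => √(f t) * √(f t)) = BF A f :=
    BF_congr A _ _ fun i => Real.mul_self_sqrt (hf i).le
  rw [h2, h3] at h1
  exact h1

theorem ev_eq (A : Matrix H H ℝ) (i : H) :
    ev A i = (A *ᵥ evec A i) ⬝ᵥ (A *ᵥ evec A i) := by
  have h : evec A i ⬝ᵥ (Qm A *ᵥ evec A i) = ev A i := by
    rw [Qm_evec, dotProduct_smul, evec_dot, smul_eq_mul, mul_one]
  rw [← h]
  unfold Qm
  rw [← mulVec_mulVec, dotProduct_mulVec, ← mulVec_transpose, transpose_transpose]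

/-- `A` is bounded: `|A v|² ≤ Λ |v|²` -/
def Bdd (A : Matrix H H ℝ) (L : ℝ) : Prop := ∀ v : H → ℝ, (A *ᵥ v) ⬝ᵥ (A *ᵥ v) ≤ L * (v ⬝ᵥ v)

theorem ev_le {A : Matrix H H ℝ} {L : ℝ} (h : Bdd A L) (i : H) : ev A i ≤ L := by
  have := h (evec A i)
  rw [← ev_eq, evec_dot, mul_one] at this
  exact this

/-- lower bound: `c |v|² ≤ |A v|²` -/
theorem le_ev {A : Matrix H H ℝ} {c : ℝ} (h : ∀ v : H → ℝ, c * (v ⬝ᵥ v) ≤ (A *ᵥ v) ⬝ᵥ (A *ᵥ v))
    (i : H) : c ≤ ev A i := by
  have := h (evec A i)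
  rw [← ev_eq, evec_dot, mul_one] at this
  exact this

/-- Schur test: row and column sums of `|A|` at most `a` give `Bdd A (a ^ 2)`. -/
theorem bdd_of_sums {A : Matrix H H ℝ} {a : ℝ} (ha : 0 ≤ a) (h1 : ∀ u, ∑ v, |A u v| ≤ a)
    (h2 : ∀ v, ∑ u, |A u v| ≤ a) : Bdd A (a ^ 2) := by
  intro v
  have key : ∀ u, (A *ᵥ v) u * (A *ᵥ v) u ≤ a * ∑ w, |A u w| * (v w * v w) := by
    intro u
    have h3 : ((A *ᵥ v) u) ^ 2 ≤ (∑ w, |A u w|) * ∑ w, |A u w| * (v w * v w) := by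
      have h4 := Finset.sum_mul_sq_le_sq_mul_sq Finset.univ
        (fun w => √|A u w|) (fun w => √|A u w| * |v w|)
      have h5 : ∀ w, √|A u w| * (√|A u w| * |v w|) = |A u w| * |v w| := by
        intro w
        rw [← mul_assoc, Real.mul_self_sqrt (abs_nonneg _)]
      have h6 : ∀ w, (√|A u w|) ^ 2 = |A u w| := fun w => Real.sq_sqrt (abs_nonneg _)
      have h7 : ∀ w, (√|A u w| * |v w|) ^ 2 = |A u w| * (v w * v w) := by
        intro w; rw [mul_pow, h6, sq_abs, sq]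
      simp only [h5, h6, h7] at h4
      refine le_trans ?_ h4
      rw [← sq_abs ((A *ᵥ v) u)]
      apply pow_le_pow_left₀ (abs_nonneg _)
      calc |(A *ᵥ v) u| ≤ ∑ w, |A u w * v w| := Finset.abs_sum_le_sum_abs _ _
        _ = ∑ w, |A u w| * |v w| := by simp only [abs_mul]
    have h8 : 0 ≤ ∑ w, |A u w| * (v w * v w) :=
      Finset.sum_nonneg fun w _ => mul_nonneg (abs_nonneg _) (mul_self_nonneg _)
    calc (A *ᵥ v) u * (A *ᵥ v) u = ((A *ᵥ v) u) ^ 2 := (sq _).symm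
      _ ≤ _ := h3
      _ ≤ _ := mul_le_mul_of_nonneg_right (h1 u) h8
  calc (A *ᵥ v) ⬝ᵥ (A *ᵥ v) = ∑ u, (A *ᵥ v) u * (A *ᵥ v) u := rfl
    _ ≤ ∑ u, a * ∑ w, |A u w| * (v w * v w) := Finset.sum_le_sum fun u _ => key u
    _ = a * ∑ w, (∑ u, |A u w|) * (v w * v w) := by
        rw [← Finset.mul_sum, Finset.sum_comm]
        congr 1
        exact Finset.sum_congr rfl fun w _ => by rw [Finset.sum_mul]
    _ ≤ a * ∑ w, a * (v w * v w) := by
        apply mul_le_mul_of_nonneg_left _ ha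
        exact Finset.sum_le_sum fun w _ => mul_le_mul_of_nonneg_right (h2 w) (mul_self_nonneg _)
    _ = a ^ 2 * (v ⬝ᵥ v) := by
        rw [← Finset.mul_sum, sq, mul_assoc]; rfl

end Crest.Agent.R165.FRDSpecx439
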