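import Mathlib
import Crest.Agent.R165.FRDSpec_439
import Crest.Agent.R165.FRDPoly_439
import Crest.Agent.R165.GramH_439

/-!
# Row 165, block G: the slices `S_j = A w_j(Q)` and their Gram bounds

For a real antisymmetric `A` on a finite index set, `SA A hA f` is the covariance `l, m ↦ ⟨l, A f(Q) m⟩`,
`Q = Aᵀ A`. `GB A f c` is the form `(c⁻¹ f(Q) + c Q f(Q)) / 2`, and
`|SA l m| ≤ √(GB l l) √(GB m m)`. `RN A a M l = ⟨l, (1 + a Q)^(-M) l⟩`.
-/

set_option autoImplicit false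
set_option linter.unusedSectionVars false

noncomputable section

namespace Crest.Agent.R165.FRDSlicex439

open Polynomial Finset Matrix Crest.Agent.R165.FRDSpecx439 Crest.Agent.R165.FRDPolyx439
  Crest.Agent.R165.Gr0x606 Crest.Agent.R165.GramHx439

variable {H : Type*} [Fintype H] [DecidableEq H]

theorem A_fm_transpose {A : Matrix H H ℝ} (hA : Aᵀ = -A) (f : ℝ → ℝ) :
    (A * fm A f)ᵀ = -(A * fm A f) := by
  rw [transpose_mul, fm_transpose, hA, mul_neg, A_mul_fm hA]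

/-- the covariance `⟨l, A f(Q) m⟩` -/
def SA (A : Matrix H H ℝ) (hA : Aᵀ = -A) (f : ℝ → ℝ) : Cov (H → ℝ) where
  b := Matrix.toBilin' (A * fm A f)
  alt := by
    intro x
    have h1 : x ⬝ᵥ ((A * fm A f) *ᵥ x) = -(x ⬝ᵥ ((A * fm A f) *ᵥ x)) := by
      conv_lhs => rw [dotProduct_mulVec, ← mulVec_transpose, A_fm_transpose hA, neg_mulVec,
        neg_dotProduct, dotProduct_comm]
    rw [Matrix.toBilin'_apply']
    linarith

section SA

variable {A : Matrix H H ℝ} (hA : Aᵀ = -A)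

theorem SA_apply (f : ℝ → ℝ) (l m : H → ℝ) :
    (SA A hA f).b l m = l ⬝ᵥ ((A * fm A f) *ᵥ m) := Matrix.toBilin'_apply' _ _ _

theorem SA_eq_BF (f : ℝ → ℝ) (l m : H → ℝ) : (SA A hA f).b l m = BF A f l (A *ᵥ m) := by
  rw [SA_apply, BF_apply, A_mul_fm hA, mulVec_mulVec]

theorem SA_congr (f g : ℝ → ℝ) (h : ∀ i, f (ev A i) = g (ev A i)) : SA A hA f = SA A hA g := by
  apply Cov.ext
  show Matrix.toBilin' (A * fm A f) = Matrix.toBilin' (A * fm A g)
  rw [fm_congr A f g h]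

theorem SA_add (f g : ℝ → ℝ) : SA A hA (fun t => f t + g t) = SA A hA f + SA A hA g := by
  apply Cov.ext
  show Matrix.toBilin' _ = Matrix.toBilin' _ + Matrix.toBilin' _
  rw [fm_add, mul_add, map_add]

theorem SA_zero : SA A hA (fun _ => 0) = 0 := by
  apply Cov.ext
  show Matrix.toBilin' _ = 0
  rw [fm_zero, mul_zero, map_zero]

theorem SA_sum {ι : Type*} (s : Finset ι) (f : ι → ℝ → ℝ) :
    SA A hA (fun t => ∑ j ∈ s, f j t) = ∑ j ∈ s, SA A hA (f j) := by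
  classical
  induction s using Finset.induction_on with
  | empty => simp [SA_zero]
  | insert a s ha ih =>
    rw [Finset.sum_insert ha, ← ih, ← SA_add]
    congr 1
    funext t
    rw [Finset.sum_insert ha]

/-- `⟨l, A f(Q) m⟩` in the standard basis -/
theorem SA_single (f : ℝ → ℝ) (u v : H) :
    (SA A hA f).b (Pi.single u 1) (Pi.single v 1) = (A * fm A f) u v := by
  rw [SA_apply]
  simp

include hA in
/-- the full covariance: `f t = 1 / t` gives `-A⁻¹` -/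
theorem A_mul_fm_inv (h0 : ∀ i, ev A i ≠ 0) : A * (A * fm A (fun t => t⁻¹)) = -1 := by
  have h1 : A * A = -Qm A := by unfold Qm; rw [hA]; simp
  have h2 : Qm A * fm A (fun t => t⁻¹) = 1 := by
    rw [← fm_id, ← fm_mul, fm_congr A _ (fun _ => 1), fm_one]
    intro i
    exact mul_inv_cancel₀ (h0 i)
  rw [← mul_assoc, h1, neg_mul, h2]

include hA in
theorem isUnit_of_ev (h0 : ∀ i, ev A i ≠ 0) : IsUnit A.det := by
  have h := A_mul_fm_inv hA h0
  have h2 : A * -(A * fm A (fun t => t⁻¹)) = 1 := by rw [mul_neg, h, neg_neg]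
  exact (Matrix.isUnit_iff_isUnit_det A).mp (IsUnit.of_mul_eq_one _ h2)

include hA in
theorem A_fm_inv_eq (h0 : ∀ i, ev A i ≠ 0) : A * fm A (fun t => t⁻¹) = -A⁻¹ := by
  have h := A_mul_fm_inv hA h0
  have h2 : A * -(A * fm A (fun t => t⁻¹)) = 1 := by rw [mul_neg, h, neg_neg]
  rw [Matrix.inv_eq_right_inv h2, neg_neg]

theorem ev_ne_zero_of_isUnit (hu : IsUnit A.det) (i : H) : ev A i ≠ 0 := by
  intro h0
  have h1 := ev_eq A i
  rw [h0] at h1
  have h2 : A *ᵥ evec A i = 0 := dotProduct_self_eq_zero.mp h1.symm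
  have h3 : evec A i = 0 := by
    have := congrArg (fun v => A⁻¹ *ᵥ v) h2
    simp only [mulVec_mulVec, Matrix.nonsing_inv_mul A hu, one_mulVec, mulVec_zero] at this
    exact this
  have h4 := evec_dot A i
  rw [h3] at h4
  simp at h4

theorem ev_pos_of_isUnit (hu : IsUnit A.det) (i : H) : 0 < ev A i :=
  lt_of_le_of_ne (ev_nonneg A i) (ev_ne_zero_of_isUnit hu i).symm

/-- the full covariance `-A⁻¹` -/
theorem SA_inv_apply (hu : IsUnit A.det) (l m : H → ℝ) :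
    (SA A hA (fun t => t⁻¹)).b l m = -(l ⬝ᵥ (A⁻¹ *ᵥ m)) := by
  rw [SA_apply, A_fm_inv_eq hA (ev_ne_zero_of_isUnit hu), neg_mulVec, dotProduct_neg]

end SA

/-! ### Gram forms -/

/-- `(c⁻¹ f(Q) + c Q f(Q)) / 2` -/
def GB (A : Matrix H H ℝ) (f : ℝ → ℝ) (c : ℝ) : LinearMap.BilinForm ℝ (H → ℝ) :=
  BF A (fun t => (1 / 2) * ((c⁻¹ + c * t) * f t))

theorem GB_symm (A : Matrix H H ℝ) (f : ℝ → ℝ) (c : ℝ) (l m : H → ℝ) :
    GB A f c l m = GB A f c m l := BF_symm A _ l m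

theorem GB_nonneg (A : Matrix H H ℝ) (f : ℝ → ℝ) (c : ℝ) (hc : 0 < c) (hf : ∀ i, 0 ≤ f (ev A i))
    (l : H → ℝ) : 0 ≤ GB A f c l l := by
  apply BF_nonneg
  intro i
  have h1 := ev_nonneg A i
  have h2 := hf i
  positivity

theorem GB_eq (A : Matrix H H ℝ) (f : ℝ → ℝ) (c : ℝ) (l m : H → ℝ) :
    GB A f c l m = 1 / 2 * (c⁻¹ * BF A f l m + c * BF A (fun t => t * f t) l m) := by
  unfold GB
  have h : (fun t => (1 / 2) * ((c⁻¹ + c * t) * f t)) =
      fun t => (1 / 2) * (c⁻¹ * f t + c * (t * f t)) := by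
    funext t; ring
  rw [h, BF_smul]
  have h2 := BF_add A (fun t => c⁻¹ * f t) (fun t => c * (t * f t)) l m
  rw [h2, BF_smul, BF_smul]

theorem sqrt_mul_sqrt_le (a b c : ℝ) (ha : 0 ≤ a) (hb : 0 ≤ b) (hc : 0 < c) :
    √a * √b ≤ 1 / 2 * (c⁻¹ * a + c * b) := by
  have h1 : √a * √b = √(c⁻¹ * a) * √(c * b) := by
    rw [← Real.sqrt_mul ha, ← Real.sqrt_mul (by positivity)]
    congr 1
    field_simp
  have h2 := two_mul_le_add_sq (√(c⁻¹ * a)) (√(c * b))
  rw [Real.sq_sqrt (by positivity), Real.sq_sqrt (by positivity)] at h2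
  rw [h1]
  linarith

/-- **Gram bound of a slice.** -/
theorem SA_le {A : Matrix H H ℝ} (hA : Aᵀ = -A) (f : ℝ → ℝ) (hf : ∀ i, 0 ≤ f (ev A i)) (c : ℝ)
    (hc : 0 < c) (l m : H → ℝ) :
    |(SA A hA f).b l m| ≤ √(GB A f c l l) * √(GB A f c m m) := by
  have htf : ∀ i, 0 ≤ (fun t => t * f t) (ev A i) := fun i => mul_nonneg (ev_nonneg A i) (hf i)
  have key : ∀ l m : H → ℝ, |(SA A hA f).b l m| ≤
      √(BF A f l l) * √(BF A (fun t => t * f t) m m) := by
    intro l m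
    rw [SA_eq_BF, ← BF_A_A hA f m m]
    exact BF_abs_le A f hf l (A *ᵥ m)
  have h1 := key l m
  have h2 := key m l
  have h3 : |(SA A hA f).b m l| = |(SA A hA f).b l m| := by
    rw [Cov.skew, abs_neg]
  rw [h3] at h2
  set a := BF A f l l
  set b := BF A (fun t => t * f t) l l
  set a' := BF A f m m
  set b' := BF A (fun t => t * f t) m m
  have ha : 0 ≤ a := BF_nonneg A f hf l
  have hb : 0 ≤ b := BF_nonneg A _ htf l
  have ha' : 0 ≤ a' := BF_nonneg A f hf m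
  have hb' : 0 ≤ b' := BF_nonneg A _ htf m
  have h4 : |(SA A hA f).b l m| ^ 2 ≤ (√a * √b) * (√a' * √b') := by
    calc |(SA A hA f).b l m| ^ 2 = |(SA A hA f).b l m| * |(SA A hA f).b l m| := sq _
      _ ≤ (√a * √b') * (√a' * √b) := mul_le_mul h1 h2 (abs_nonneg _) (by positivity)
      _ = (√a * √b) * (√a' * √b') := by ring
  have h5 : √a * √b ≤ GB A f c l l := by
    rw [GB_eq]; exact sqrt_mul_sqrt_le a b c ha hb hc
  have h6 : √a' * √b' ≤ GB A f c m m := by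
    rw [GB_eq]; exact sqrt_mul_sqrt_le a' b' c ha' hb' hc
  have h7 : |(SA A hA f).b l m| ^ 2 ≤ GB A f c l l * GB A f c m m :=
    h4.trans (mul_le_mul h5 h6 (by positivity) (GB_nonneg A f c hc hf l))
  rw [← Real.sqrt_mul (GB_nonneg A f c hc hf l)]
  exact Real.le_sqrt_of_sq_le h7

/-- sum of finitely many covariances with Gram forms -/
theorem sum_cov_le {V ι : Type*} [AddCommGroup V] [Module ℝ V] (s : Finset ι) (S : ι → Cov V)
    (B : ι → LinearMap.BilinForm ℝ V) (hpos : ∀ j ∈ s, ∀ x, 0 ≤ B j x x)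
    (hS : ∀ j ∈ s, ∀ x y, |(S j).b x y| ≤ √(B j x x) * √(B j y y)) (x y : V) :
    |(∑ j ∈ s, S j).b x y| ≤ √((∑ j ∈ s, B j) x x) * √((∑ j ∈ s, B j) y y) := by
  classical
  have hb : (∑ j ∈ s, S j).b x y = ∑ j ∈ s, (S j).b x y := by
    induction s using Finset.induction_on with
    | empty => simp
    | insert a s ha ih =>
      rw [Finset.sum_insert ha, Finset.sum_insert ha, Cov.add_b, LinearMap.add_apply,
        LinearMap.add_apply, ih (fun j hj => hpos j (Finset.mem_insert_of_mem hj))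
          (fun j hj => hS j (Finset.mem_insert_of_mem hj))]
  have hBx : ∀ z, (∑ j ∈ s, B j) z z = ∑ j ∈ s, B j z z := by
    intro z
    simp [LinearMap.sum_apply]
  rw [hb, hBx, hBx]
  have h1 : |∑ j ∈ s, (S j).b x y| ≤ ∑ j ∈ s, √(B j x x) * √(B j y y) :=
    (Finset.abs_sum_le_sum_abs _ _).trans (Finset.sum_le_sum fun j hj => hS j hj x y)
  refine h1.trans ?_
  have h2 := Finset.sum_mul_sq_le_sq_mul_sq s (fun j => √(B j x x)) (fun j => √(B j y y))
  have h3 : ∀ z, ∑ j ∈ s, (√(B j z z)) ^ 2 = ∑ j ∈ s, B j z z := fun z =>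
    Finset.sum_congr rfl fun j hj => Real.sq_sqrt (hpos j hj z)
  rw [h3, h3] at h2
  rw [← Real.sqrt_mul (Finset.sum_nonneg fun j hj => hpos j hj x)]
  exact Real.le_sqrt_of_sq_le h2

/-- Gram-Hadamard for `A f(Q)` -/
theorem EE_SA_le {A : Matrix H H ℝ} (hA : Aᵀ = -A) (f : ℝ → ℝ) (hf : ∀ i, 0 ≤ f (ev A i)) (c : ℝ)
    (hc : 0 < c) (l : List (H → ℝ)) :
    |EE (SA A hA f) (l.map fi).prod| ≤ (l.map fun x => √(GB A f c x x)).prod :=
  gram_hadamard _ (GB A f c) (GB_symm A f c) (GB_nonneg A f c hc hf) (SA_le hA f hf c hc) l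

/-! ### slices -/

section slices

variable {L : ℝ} {M K : ℕ} (D : FRD L M K) {A : Matrix H H ℝ} (hA : Aᵀ = -A)

/-- the slice covariance `S_j = A w_j(Q)` -/
def slice (j : ℕ) : Cov (H → ℝ) := SA A hA (fun t => (D.w j).eval t)

/-- the Gram form of a slice, `(2^(-j) w_j(Q) + 2^j Q w_j(Q)) / 2` -/
def gform (D : FRD L M K) (A : Matrix H H ℝ) (j : ℕ) : LinearMap.BilinForm ℝ (H → ℝ) :=
  GB A (fun t => (D.w j).eval t) (2 ^ j)

theorem w_ev_nonneg (hb : Bdd A L) (j : ℕ) (i : H) : 0 ≤ (D.w j).eval (ev A i) :=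
  D.w_nonneg j _ (ev_nonneg A i) (ev_le hb i)

theorem gform_nonneg (hb : Bdd A L) (j : ℕ) (l : H → ℝ) : 0 ≤ gform D A j l l :=
  GB_nonneg A _ _ (by positivity) (w_ev_nonneg D hb j) l

theorem gform_symm (j : ℕ) (l m : H → ℝ) : gform D A j l m = gform D A j m l := GB_symm A _ _ l m

theorem slice_le (hb : Bdd A L) (j : ℕ) (l m : H → ℝ) :
    |(slice D hA j).b l m| ≤ √(gform D A j l l) * √(gform D A j m m) :=
  SA_le hA _ (w_ev_nonneg D hb j) _ (by positivity) l m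

/-- covariance of a block of scales -/
theorem slices_le (hb : Bdd A L) (s : Finset ℕ) (l m : H → ℝ) :
    |(∑ j ∈ s, slice D hA j).b l m| ≤
      √((∑ j ∈ s, gform D A j) l l) * √((∑ j ∈ s, gform D A j) m m) :=
  sum_cov_le s _ _ (fun j _ => gform_nonneg D hb j) (fun j _ => slice_le D hA hb j) l m

/-- Gram-Hadamard for a block of scales -/
theorem EE_slices_le (hb : Bdd A L) (s : Finset ℕ) (l : List (H → ℝ)) :
    |EE (∑ j ∈ s, slice D hA j) (l.map fi).prod| ≤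
      (l.map fun x => √((∑ j ∈ s, gform D A j) x x)).prod := by
  refine gram_hadamard _ (∑ j ∈ s, gform D A j) ?_ ?_ (slices_le D hA hb s) l
  · intro x y
    simp only [LinearMap.sum_apply]
    exact Finset.sum_congr rfl fun j _ => gform_symm D j x y
  · intro x
    simp only [LinearMap.sum_apply]
    exact Finset.sum_nonneg fun j _ => gform_nonneg D hb j x

/-- the remaining covariance after the first `J` slices, `A r_J(Q) Q⁻¹` -/
def rest (J : ℕ) : Cov (H → ℝ) := SA A hA (fun t => (D.r J).eval t * t⁻¹)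

/-- decomposition of the full covariance `-A⁻¹` -/
theorem sum_slice_add_rest (hu : IsUnit A.det) (J : ℕ) :
    ∑ j ∈ range J, slice D hA j + rest D hA J = SA A hA (fun t => t⁻¹) := by
  unfold slice rest
  rw [← SA_sum, ← SA_add]
  apply SA_congr
  intro i
  have h0 := ev_ne_zero_of_isUnit hu i
  have h2 := congrArg (fun p => eval (ev A i) p) (D.X_mul_sum J)
  simp only [eval_mul, eval_X, eval_sub, eval_one, eval_finsetSum] at h2
  field_simp
  linarith

/-- the resolvent seminorm squared `⟨l, (1 + a Q)^(-M) l⟩` -/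
def RN (A : Matrix H H ℝ) (a : ℝ) (M : ℕ) (l : H → ℝ) : ℝ :=
  BF A (fun t => ((1 + a * t) ^ M)⁻¹) l l

theorem RN_nonneg (A : Matrix H H ℝ) {a : ℝ} (ha : 0 ≤ a) (M : ℕ) (l : H → ℝ) : 0 ≤ RN A a M l := by
  apply BF_nonneg
  intro i
  have := ev_nonneg A i
  positivity

theorem one_le_one_add (A : Matrix H H ℝ) {a : ℝ} (ha : 0 ≤ a) (i : H) : 1 ≤ 1 + a * ev A i := by
  have := mul_nonneg ha (ev_nonneg A i)
  linarith

theorem RN_anti (A : Matrix H H ℝ) {a b : ℝ} (ha : 0 ≤ a) (hab : a ≤ b) (M : ℕ) (l : H → ℝ) :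
    RN A b M l ≤ RN A a M l := by
  apply BF_mono
  intro i
  have h1 := ev_nonneg A i
  have h2 := one_le_one_add A ha i
  apply inv_anti₀ (by positivity)
  apply pow_le_pow_left₀ (by linarith)
  have := mul_le_mul_of_nonneg_right hab h1
  linarith

theorem RN_pow_anti (A : Matrix H H ℝ) {a : ℝ} (ha : 0 ≤ a) {M M' : ℕ} (h : M ≤ M') (l : H → ℝ) :
    RN A a M' l ≤ RN A a M l := by
  apply BF_mono
  intro i
  have h1 := ev_nonneg A i
  have h2 := one_le_one_add A ha i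
  apply inv_anti₀ (by positivity)
  exact pow_le_pow_right₀ h2 h

theorem RN_scale (A : Matrix H H ℝ) {a b : ℝ} (ha : 0 < a) (hab : a ≤ b) (M : ℕ) (l : H → ℝ) :
    RN A a M l ≤ (b / a) ^ M * RN A b M l := by
  unfold RN
  rw [← BF_smul]
  apply BF_mono
  intro i
  have h1 := ev_nonneg A i
  have h2 := one_le_one_add A ha.le i
  have hb : 0 < b := ha.trans_le hab
  have h3 := one_le_one_add A hb.le i
  have h4 : 1 + b * ev A i ≤ b / a * (1 + a * ev A i) := by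
    have h5 : 1 ≤ b / a := by rw [one_le_div ha]; exact hab
    have h6 : b / a * (1 + a * ev A i) = b / a + b * ev A i := by field_simp
    rw [h6]; linarith
  have h7 : (1 + b * ev A i) ^ M ≤ (b / a) ^ M * (1 + a * ev A i) ^ M := by
    rw [← mul_pow]; exact pow_le_pow_left₀ (by linarith) h4 M
  have h8 : (0 : ℝ) < (1 + b * ev A i) ^ M := by positivity
  have h9 : (0 : ℝ) < (1 + a * ev A i) ^ M := by positivity
  rw [← one_div, ← one_div, mul_one_div, div_le_div_iff₀ h9 h8, one_mul]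
  exact h7

/-- duality -/
theorem dot_sq_le_RN (A : Matrix H H ℝ) {a : ℝ} (ha : 0 ≤ a) (M : ℕ) (l f : H → ℝ) :
    (l ⬝ᵥ f) ^ 2 ≤ RN A a M l * BF A (fun t => (1 + a * t) ^ M) f f :=
  dot_sq_le A (fun t => (1 + a * t) ^ M)
    (fun i => by have := one_le_one_add A ha i; positivity) l f

/-- the supremum in the duality is attained -/
theorem RN_attained (A : Matrix H H ℝ) {a : ℝ} (ha : 0 ≤ a) (M : ℕ) (l : H → ℝ) :
    ∃ f : H → ℝ, l ⬝ᵥ f = RN A a M l ∧ BF A (fun t => (1 + a * t) ^ M) f f = RN A a M l := by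
  refine ⟨fm A (fun t => ((1 + a * t) ^ M)⁻¹) *ᵥ l, ?_, ?_⟩
  · rw [RN, BF_apply]
  · rw [BF_fm_left, BF_fm_right, RN]
    refine congrFun (congrArg DFunLike.coe (congrFun (congrArg DFunLike.coe
      (BF_congr A _ _ fun i => ?_)) l)) l
    have : (1 + a * ev A i) ^ M ≠ 0 := by
      have := one_le_one_add A ha i; positivity
    field_simp

/-- powers of `A`: `⟨f, Q^n f⟩ = |A^n f|²` -/
theorem BF_pow (hA : Aᵀ = -A) (n : ℕ) (f : H → ℝ) :
    BF A (fun t => t ^ n) f f = (A ^ n *ᵥ f) ⬝ᵥ (A ^ n *ᵥ f) := by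
  induction n generalizing f with
  | zero => simp [BF_one]
  | succ n ih =>
    have h := BF_A_A hA (fun t => t ^ n) f f
    rw [ih] at h
    rw [pow_succ, ← mulVec_mulVec, h]
    congr 3
    funext t
    ring

/-- binomial expansion of the dual norm -/
theorem BF_one_add_pow (hA : Aᵀ = -A) (a : ℝ) (M : ℕ) (f : H → ℝ) :
    BF A (fun t => (1 + a * t) ^ M) f f =
      ∑ n ∈ range (M + 1), (M.choose n : ℝ) * a ^ n * ((A ^ n *ᵥ f) ⬝ᵥ (A ^ n *ᵥ f)) := by
  have h : (fun t : ℝ => (1 + a * t) ^ M) =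
      fun t => ∑ n ∈ range (M + 1), ((M.choose n : ℝ) * a ^ n) * t ^ n := by
    funext t
    rw [add_comm, add_pow]
    apply Finset.sum_congr rfl
    intro n _
    rw [one_pow, mul_one, mul_pow]; ring
  rw [h]
  have h2 := BF_sum A (range (M + 1)) (fun n t => ((M.choose n : ℝ) * a ^ n) * t ^ n) f f
  rw [h2]
  apply Finset.sum_congr rfl
  intro n _
  have h3 := BF_smul A ((M.choose n : ℝ) * a ^ n) (fun t => t ^ n) f f
  rw [h3, BF_pow hA]

/-- the Gram form of a slice against the resolvent seminorm -/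
theorem gform_le (hb : Bdd A L) {M' : ℕ} (hM : M' + 1 ≤ M) (j : ℕ) (l : H → ℝ) :
    gform D A j l l ≤ D.C * 2 ^ j * RN A (4 ^ j) M' l := by
  unfold gform GB RN
  rw [← BF_smul]
  apply BF_mono
  intro i
  have h1 := ev_nonneg A i
  have h2 := one_le_one_add A (a := 4 ^ j) (by positivity) i
  have h3 := D.w_le j _ h1 (ev_le hb i)
  have h4 := D.w_nonneg j _ h1 (ev_le hb i)
  have h5 : ((2 : ℝ) ^ j)⁻¹ + 2 ^ j * ev A i = ((2 : ℝ) ^ j)⁻¹ * (1 + 4 ^ j * ev A i) := by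
    have : (4 : ℝ) ^ j = 2 ^ j * 2 ^ j := by
      rw [← mul_pow]; norm_num
    rw [this]; field_simp
  have h6 : (1 + 4 ^ j * ev A i) ^ (M' + 1) ≤ (1 + 4 ^ j * ev A i) ^ M :=
    pow_le_pow_right₀ h2 hM
  have h7 : (D.w j).eval (ev A i) * (1 + 4 ^ j * ev A i) ^ (M' + 1) ≤ D.C * 4 ^ j :=
    (mul_le_mul_of_nonneg_left h6 h4).trans h3
  rw [h5, ← div_eq_mul_inv (D.C * 2 ^ j), le_div_iff₀ (by positivity)]
  calc 1 / 2 * (((2 : ℝ) ^ j)⁻¹ * (1 + 4 ^ j * ev A i) * (D.w j).eval (ev A i)) *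
        (1 + 4 ^ j * ev A i) ^ M'
      = 1 / 2 * ((2 : ℝ) ^ j)⁻¹ * ((D.w j).eval (ev A i) * (1 + 4 ^ j * ev A i) ^ (M' + 1)) := by
        ring
    _ ≤ 1 / 2 * ((2 : ℝ) ^ j)⁻¹ * (D.C * 4 ^ j) := by
        apply mul_le_mul_of_nonneg_left h7; positivity
    _ = 1 / 2 * (D.C * 2 ^ j) := by
        have : (4 : ℝ) ^ j = 2 ^ j * 2 ^ j := by
          rw [← mul_pow]; norm_num
        rw [this]; field_simp
    _ ≤ D.C * 2 ^ j := by
        have : 0 < D.C * 2 ^ j := mul_pos D.C_pos (by positivity)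
        linarith

/-- Gram bound of the last scale: if `|A v| ≥ m |v|` then with `c = m⁻¹` the Gram form of the rest is at
most `(C / m) ⟨l, (1 + 4^J Q)^(-M) l⟩`. -/
theorem rest_gform_le (hb : Bdd A L) {m : ℝ} (hm : 0 < m)
    (hlow : ∀ v : H → ℝ, m ^ 2 * (v ⬝ᵥ v) ≤ (A *ᵥ v) ⬝ᵥ (A *ᵥ v)) (J : ℕ) (l : H → ℝ) :
    GB A (fun t => (D.r J).eval t * t⁻¹) m⁻¹ l l ≤ D.C / m * RN A (4 ^ J) M l := by
  unfold GB RN
  rw [← BF_smul]
  apply BF_mono
  intro i
  have h1 := ev_nonneg A i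
  have h0 : m ^ 2 ≤ ev A i := le_ev hlow i
  have hpos : 0 < ev A i := lt_of_lt_of_le (by positivity) h0
  have h2 := one_le_one_add A (a := 4 ^ J) (by positivity) i
  have h3 := D.r_le J _ h1 (ev_le hb i)
  have h4 := D.r_nonneg J _ h1 (ev_le hb i)
  rw [inv_inv, ← div_eq_mul_inv (D.C / m), le_div_iff₀ (by positivity)]
  have h5 : (m + m⁻¹ * ev A i) * (ev A i)⁻¹ ≤ 2 * m⁻¹ := by
    rw [add_mul, mul_assoc, mul_inv_cancel₀ hpos.ne', mul_one]
    have h6 : m * (ev A i)⁻¹ ≤ m⁻¹ := by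
      rw [← div_eq_mul_inv, div_le_iff₀ hpos]
      calc m = m⁻¹ * m ^ 2 := by field_simp
        _ ≤ m⁻¹ * ev A i := mul_le_mul_of_nonneg_left h0 (by positivity)
    linarith
  calc 1 / 2 * ((m + m⁻¹ * ev A i) * ((D.r J).eval (ev A i) * (ev A i)⁻¹)) *
        (1 + 4 ^ J * ev A i) ^ M
      = 1 / 2 * ((m + m⁻¹ * ev A i) * (ev A i)⁻¹) *
        ((D.r J).eval (ev A i) * (1 + 4 ^ J * ev A i) ^ M) := by ring
    _ ≤ 1 / 2 * (2 * m⁻¹) * D.C := by
        apply mul_le_mul _ h3 (mul_nonneg h4 (by positivity)) (by positivity)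
        exact mul_le_mul_of_nonneg_left h5 (by norm_num)
    _ = D.C / m := by rw [div_eq_mul_inv]; ring

theorem rest_le (hb : Bdd A L) (hu : IsUnit A.det) (J : ℕ) {c : ℝ} (hc : 0 < c) (l m : H → ℝ) :
    |(rest D hA J).b l m| ≤ √(GB A (fun t => (D.r J).eval t * t⁻¹) c l l) *
      √(GB A (fun t => (D.r J).eval t * t⁻¹) c m m) := by
  apply SA_le hA _ _ c hc
  intro i
  have h1 := ev_pos_of_isUnit hu i
  exact mul_nonneg (D.r_nonneg J _ h1.le (ev_le hb i)) (by positivity)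

end slices

end Crest.Agent.R165.FRDSlicex439
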