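import Mathlib
import Crest.Agent.R165.FRDSlice_439

/-!
# Row 165, block G: range and exact locality of polynomials in `A`

Two matrices `A` (indices `H`) and `B` (indices `H'`) that agree, up to signs `s` and through a partial map `e`, in
a neighbourhood, have the same polynomials there (up to the same signs).
-/

set_option autoImplicit false
set_option linter.unusedSectionVars false

noncomputable section

namespace Crest.Agent.R165.FRDLocalx439

open Finset hiding slice
open Polynomial Matrix Crest.Agent.R165.FRDSpecx439 Crest.Agent.R165.FRDPolyx439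
  Crest.Agent.R165.FRDSlicex439 Crest.Agent.R165.Gr0x606 Crest.Agent.R165.GramHx439

variable {H : Type*} [Fintype H] [DecidableEq H] {H' : Type*} [Fintype H'] [DecidableEq H']

/-- rows of `A` at points of `U` only see `U'`, and `B` looks the same through `e`, up to the signs `s` -/
structure Agree (A : Matrix H H ℝ) (B : Matrix H' H' ℝ) (e : H → H') (s : H → ℝ)
    (U U' : Set H) : Prop where
  near : ∀ u ∈ U, ∀ v, A u v ≠ 0 → v ∈ U'
  near' : ∀ u ∈ U, ∀ v', B (e u) v' ≠ 0 → ∃ v ∈ U', e v = v'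
  val : ∀ u ∈ U, ∀ v ∈ U', B (e u) (e v) = s u * s v * A u v
  inj : Set.InjOn e U'
  sign : ∀ v ∈ U', s v * s v = 1

theorem Agree.mulVec {A : Matrix H H ℝ} {B : Matrix H' H' ℝ} {e : H → H'} {s : H → ℝ}
    {U U' : Set H} (h : Agree A B e s U U') (g : H → ℝ) (g' : H' → ℝ)
    (hg : ∀ v ∈ U', g' (e v) = s v * g v) (u : H) (hu : u ∈ U) :
    (B *ᵥ g') (e u) = s u * (A *ᵥ g) u := by
  classical
  have h1 : (B *ᵥ g') (e u) = ∑ v' ∈ (univ.filter (· ∈ U')).image e, B (e u) v' * g' v' := by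
    show ∑ v', B (e u) v' * g' v' = _
    symm
    apply Finset.sum_subset (Finset.subset_univ _)
    intro v' _ hv'
    by_cases hz : B (e u) v' = 0
    · rw [hz, zero_mul]
    · exfalso
      obtain ⟨v, hv, rfl⟩ := h.near' u hu v' hz
      exact hv' (Finset.mem_image_of_mem e (by simpa using hv))
  have h2 : (A *ᵥ g) u = ∑ v ∈ univ.filter (· ∈ U'), A u v * g v := by
    show ∑ v, A u v * g v = _
    symm
    apply Finset.sum_subset (Finset.subset_univ _)
    intro v _ hv
    by_cases hz : A u v = 0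
    · rw [hz, zero_mul]
    · exact absurd (h.near u hu v hz) (by simpa using hv)
  rw [h1, h2, Finset.sum_image, Finset.mul_sum]
  · apply Finset.sum_congr rfl
    intro v hv
    have hv' : v ∈ U' := by simpa using hv
    rw [h.val u hu v hv', hg v hv']
    calc s u * s v * A u v * (s v * g v) = s u * (A u v * g v) * (s v * s v) := by ring
      _ = _ := by rw [h.sign v hv', mul_one]
  · intro a ha b hb hab
    exact h.inj (by simpa using ha) (by simpa using hb) hab

theorem pow_mulVec_local {A : Matrix H H ℝ} {B : Matrix H' H' ℝ} {e : H → H'} {s : H → ℝ}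
    {U : ℕ → Set H} {n : ℕ} (h : ∀ i < n, Agree A B e s (U i) (U (i + 1))) (k : ℕ) :
    ∀ (i : ℕ) (_ : i + k ≤ n) (g : H → ℝ) (g' : H' → ℝ)
      (_ : ∀ v ∈ U (i + k), g' (e v) = s v * g v) (u : H) (_ : u ∈ U i),
      (B ^ k *ᵥ g') (e u) = s u * (A ^ k *ᵥ g) u := by
  induction k with
  | zero =>
    intro i _ g g' hg u hu
    simpa using hg u hu
  | succ k ih =>
    intro i hi g g' hg u hu
    rw [pow_succ, pow_succ, ← mulVec_mulVec, ← mulVec_mulVec]
    apply ih i (by omega) _ _ _ u hu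
    intro v hv
    exact (h (i + k) (by omega)).mulVec g g' hg v hv

/-- **Exact locality.** -/
theorem aeval_mulVec_local {A : Matrix H H ℝ} {B : Matrix H' H' ℝ} {e : H → H'} {s : H → ℝ}
    {U : ℕ → Set H} {n : ℕ} (h : ∀ i < n, Agree A B e s (U i) (U (i + 1)))
    (hmono : Monotone U) (p : ℝ[X]) (hp : p.natDegree ≤ n) (g : H → ℝ) (g' : H' → ℝ)
    (hg : ∀ v ∈ U n, g' (e v) = s v * g v) (u : H) (hu : u ∈ U 0) :
    (aeval B p *ᵥ g') (e u) = s u * (aeval A p *ᵥ g) u := by
  have hA : ∀ (A : Matrix H H ℝ) (g : H → ℝ) (u : H),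
      (aeval A p *ᵥ g) u = ∑ k ∈ range (n + 1), p.coeff k * (A ^ k *ᵥ g) u := by
    intro A g u
    rw [aeval_eq_sum_range' (lt_of_le_of_lt hp (Nat.lt_succ_self n)), Matrix.sum_mulVec,
      Finset.sum_apply]
    exact Finset.sum_congr rfl fun k _ => by rw [smul_mulVec, Pi.smul_apply, smul_eq_mul]
  have hB : ∀ (A : Matrix H' H' ℝ) (g : H' → ℝ) (u : H'),
      (aeval A p *ᵥ g) u = ∑ k ∈ range (n + 1), p.coeff k * (A ^ k *ᵥ g) u := by
    intro A g u
    rw [aeval_eq_sum_range' (lt_of_le_of_lt hp (Nat.lt_succ_self n)), Matrix.sum_mulVec,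
      Finset.sum_apply]
    exact Finset.sum_congr rfl fun k _ => by rw [smul_mulVec, Pi.smul_apply, smul_eq_mul]
  rw [hA, hB, Finset.mul_sum]
  apply Finset.sum_congr rfl
  intro k hk
  have hk' : k ≤ n := Nat.lt_succ_iff.mp (Finset.mem_range.mp hk)
  rw [pow_mulVec_local h k 0 (by omega) g g' (fun v hv => hg v (hmono (by omega) hv)) u hu]
  ring

/-- entries -/
theorem aeval_apply_local {A : Matrix H H ℝ} {B : Matrix H' H' ℝ} {e : H → H'} {s : H → ℝ}
    {U : ℕ → Set H} {n : ℕ} (h : ∀ i < n, Agree A B e s (U i) (U (i + 1)))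
    (hmono : Monotone U) (hinj : Set.InjOn e (U n)) (hs : ∀ v ∈ U n, s v * s v = 1)
    (p : ℝ[X]) (hp : p.natDegree ≤ n) (u v : H) (hu : u ∈ U 0) (hv : v ∈ U n) :
    (aeval B p) (e u) (e v) = s u * s v * (aeval A p) u v := by
  have h1 := aeval_mulVec_local h hmono p hp (Pi.single v 1) (s v • Pi.single (e v) 1) (by
    intro w hw
    by_cases hwv : w = v
    · subst hwv; simp
    · have : e w ≠ e v := fun h => hwv (hinj hw hv h)
      simp [hwv, this]) u hu
  rw [mulVec_smul, mulVec_single_one, mulVec_single_one] at h1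
  simp only [Pi.smul_apply, smul_eq_mul, col_apply] at h1
  calc (aeval B p) (e u) (e v) = s v * s v * (aeval B p) (e u) (e v) := by rw [hs v hv, one_mul]
    _ = s v * (s v * (aeval B p) (e u) (e v)) := by ring
    _ = _ := by rw [h1]; ring

/-- range: entries vanish outside `U n` -/
theorem aeval_apply_eq_zero {A : Matrix H H ℝ} {U : ℕ → Set H} {n : ℕ}
    (h : ∀ i < n, ∀ u ∈ U i, ∀ v, A u v ≠ 0 → v ∈ U (i + 1))
    (hmono : Monotone U) (p : ℝ[X]) (hp : p.natDegree ≤ n) (u v : H) (hu : u ∈ U 0)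
    (hv : v ∉ U n) : (aeval A p) u v = 0 := by
  have h' : ∀ i < n, Agree A A id (fun _ => (1 : ℝ)) (U i) (U (i + 1)) := fun i hi =>
    ⟨h i hi, fun u hu v' hv' => ⟨v', h i hi u hu v' hv', rfl⟩, fun u _ v _ => by simp,
      Function.injective_id.injOn, fun _ _ => by norm_num⟩
  have h1 := aeval_mulVec_local h' hmono p hp 0 (Pi.single v 1) (by
    intro w hw
    have : w ≠ v := fun h => hv (h ▸ hw)
    simp [this]) u hu
  rw [mulVec_zero, mulVec_single_one] at h1
  simpa using h1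

/-- range in terms of a pseudodistance -/
theorem aeval_range {A : Matrix H H ℝ} (dst : H → H → ℕ) (d : ℕ) (h0 : ∀ u, dst u u = 0)
    (htri : ∀ u v w, dst u w ≤ dst u v + dst v w) (h : ∀ u v, A u v ≠ 0 → dst u v ≤ d)
    (p : ℝ[X]) (u v : H) (hne : (aeval A p) u v ≠ 0) : dst u v ≤ p.natDegree * d := by
  by_contra hlt
  push Not at hlt
  apply hne
  refine aeval_apply_eq_zero (U := fun i => {w | dst u w ≤ i * d}) (n := p.natDegree) ?_ ?_ p le_rfl
    u v ?_ ?_
  · intro i _ w hw z hz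
    have h1 := htri u w z
    have h2 := h w z hz
    simp only [Set.mem_ofPred_eq] at hw ⊢
    calc dst u z ≤ dst u w + dst w z := h1
      _ ≤ i * d + d := by omega
      _ = (i + 1) * d := by ring
  · intro i j hij w hw
    simp only [Set.mem_ofPred_eq] at hw ⊢
    exact hw.trans (Nat.mul_le_mul_right _ hij)
  · simp [h0]
  · simp only [Set.mem_ofPred_eq, not_le]; exact hlt

/-! ### odd polynomials: the slices -/

/-- the odd polynomial `X * p(-X²)` -/
def oddp (p : ℝ[X]) : ℝ[X] := X * p.comp (-X ^ 2)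

theorem natDegree_oddp_le (p : ℝ[X]) : (oddp p).natDegree ≤ 2 * p.natDegree + 1 := by
  unfold oddp
  refine natDegree_mul_le.trans ?_
  have h1 : (p.comp (-X ^ 2 : ℝ[X])).natDegree ≤ p.natDegree * 2 := by
    refine natDegree_comp_le.trans ?_
    apply Nat.mul_le_mul_left
    rw [natDegree_neg, natDegree_X_pow]
  have h2 : (X : ℝ[X]).natDegree ≤ 1 := natDegree_X_le
  omega

theorem aeval_oddp {A : Matrix H H ℝ} (hA : Aᵀ = -A) (p : ℝ[X]) :
    aeval A (oddp p) = A * aeval (Qm A) p := by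
  unfold oddp
  rw [map_mul, aeval_X, aeval_comp]
  congr 2
  rw [map_neg, map_pow, aeval_X, Qm, hA, sq, neg_mul]

/-- `A f(Q)` for a polynomial `f` is an odd polynomial in `A` -/
theorem A_fm_poly {A : Matrix H H ℝ} (hA : Aᵀ = -A) (p : ℝ[X]) :
    A * fm A (fun t => p.eval t) = aeval A (oddp p) := by
  rw [fm_poly, aeval_oddp hA]

section sl

variable {L : ℝ} {M K : ℕ} (D : FRD L M K)

/-- matrix of the slice -/
def slm (A : Matrix H H ℝ) (j : ℕ) : Matrix H H ℝ := aeval A (oddp (D.w j))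

theorem slice_apply {A : Matrix H H ℝ} (hA : Aᵀ = -A) (j : ℕ) (l m : H → ℝ) :
    (slice D hA j).b l m = l ⬝ᵥ (slm D A j *ᵥ m) := by
  unfold slice slm
  rw [SA_apply, A_fm_poly hA]

/-- range of the slice: `K * dst u v ≤ 2 ^ j * d` -/
theorem slm_range {A : Matrix H H ℝ} (dst : H → H → ℕ) (d : ℕ)
    (h0 : ∀ u, dst u u = 0) (htri : ∀ u v w, dst u w ≤ dst u v + dst v w)
    (h : ∀ u v, A u v ≠ 0 → dst u v ≤ d) (j : ℕ) (u v : H) (hne : slm D A j u v ≠ 0) :
    K * dst u v ≤ 2 ^ j * d := by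
  have hw : D.w j ≠ 0 := by
    intro h
    apply hne
    unfold slm oddp
    rw [h]; simp
  have h1 := aeval_range dst d h0 htri h (oddp (D.w j)) u v hne
  have h2 := natDegree_oddp_le (D.w j)
  calc K * dst u v ≤ K * ((oddp (D.w j)).natDegree * d) := Nat.mul_le_mul_left _ h1
    _ ≤ K * ((2 * (D.w j).natDegree + 1) * d) := by
        apply Nat.mul_le_mul_left; exact Nat.mul_le_mul_right _ h2
    _ = K * (2 * (D.w j).natDegree + 1) * d := by ring
    _ ≤ 2 ^ j * d := Nat.mul_le_mul_right _ (D.deg_w j hw)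

/-- locality of the slice -/
theorem slm_local {A : Matrix H H ℝ} {B : Matrix H' H' ℝ} {e : H → H'} {s : H → ℝ}
    {U : ℕ → Set H} {n : ℕ} (h : ∀ i < n, Agree A B e s (U i) (U (i + 1)))
    (hmono : Monotone U) (hinj : Set.InjOn e (U n)) (hs : ∀ v ∈ U n, s v * s v = 1) (hK : 1 ≤ K)
    (j : ℕ) (hn : 2 ^ j ≤ K * n) (u v : H) (hu : u ∈ U 0) (hv : v ∈ U n) :
    slm D B j (e u) (e v) = s u * s v * slm D A j u v := by
  by_cases hw : D.w j = 0
  · unfold slm oddp
    rw [hw]; simp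
  · apply aeval_apply_local h hmono hinj hs _ _ u v hu hv
    have h1 := D.deg_w j hw
    have h2 := natDegree_oddp_le (D.w j)
    have h3 : K * (2 * (D.w j).natDegree + 1) ≤ K * n := h1.trans hn
    exact h2.trans (Nat.le_of_mul_le_mul_left h3 hK)

end sl

/-! ### transport of fields -/

/-- push forward of fields with signs -/
def push (e : H → H') (s : H → ℝ) : (H → ℝ) →ₗ[ℝ] (H' → ℝ) where
  toFun l := fun v' => ∑ v ∈ univ.filter (fun v => e v = v'), s v * l v
  map_add' l m := by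
    funext v'
    simp only [Pi.add_apply, mul_add, Finset.sum_add_distrib]
  map_smul' c l := by
    funext v'
    simp only [Pi.smul_apply, smul_eq_mul, RingHom.id_apply, Finset.mul_sum]
    exact Finset.sum_congr rfl fun v _ => by ring

theorem push_dot (e : H → H') (s : H → ℝ) (l : H → ℝ) (g : H' → ℝ) :
    push e s l ⬝ᵥ g = ∑ u, s u * l u * g (e u) := by
  classical
  show ∑ v', (∑ v ∈ univ.filter (fun v => e v = v'), s v * l v) * g v' = _
  have h1 : ∀ v', (∑ v ∈ univ.filter (fun v => e v = v'), s v * l v) * g v' =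
      ∑ v ∈ univ.filter (fun v => e v = v'), s v * l v * g (e v) := by
    intro v'
    rw [Finset.sum_mul]
    apply Finset.sum_congr rfl
    intro v hv
    rw [(Finset.mem_filter.mp hv).2]
  simp_rw [h1]
  exact Finset.sum_fiberwise univ e (fun v => s v * l v * g (e v))

/-- two matrices that agree on the supports give the same form -/
theorem push_form (e : H → H') (s : H → ℝ) (A : Matrix H H ℝ) (B : Matrix H' H' ℝ)
    (l m : H → ℝ) (h : ∀ u v, l u ≠ 0 → m v ≠ 0 → B (e u) (e v) = s u * s v * A u v)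
    (hs : ∀ u, (l u ≠ 0 ∨ m u ≠ 0) → s u * s u = 1) :
    push e s l ⬝ᵥ (B *ᵥ push e s m) = l ⬝ᵥ (A *ᵥ m) := by
  rw [push_dot]
  show _ = ∑ u, l u * (A *ᵥ m) u
  apply Finset.sum_congr rfl
  intro u _
  by_cases hu : l u = 0
  · rw [hu]; ring
  have h1 : (B *ᵥ push e s m) (e u) = ∑ v, s v * m v * B (e u) (e v) := by
    show B (e u) ⬝ᵥ push e s m = _
    rw [dotProduct_comm, push_dot]
  rw [h1]
  show _ = l u * ∑ v, A u v * m v
  rw [Finset.mul_sum, Finset.mul_sum]
  apply Finset.sum_congr rfl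
  intro v _
  by_cases hv : m v = 0
  · rw [hv]; ring
  rw [h u v hu hv]
  calc s u * l u * (s v * m v * (s u * s v * A u v))
      = l u * (A u v * m v) * (s u * s u) * (s v * s v) := by ring
    _ = _ := by rw [hs u (Or.inl hu), hs v (Or.inr hv), mul_one, mul_one]

/-- covariances of slices agree on fields supported near: first field in `U 0`, second in `U n` -/
theorem slice_push {L : ℝ} {M K : ℕ} (D : FRD L M K) {A : Matrix H H ℝ} {B : Matrix H' H' ℝ}
    (hA : Aᵀ = -A) (hB : Bᵀ = -B) {e : H → H'} {s : H → ℝ}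
    {U : ℕ → Set H} {n : ℕ} (h : ∀ i < n, Agree A B e s (U i) (U (i + 1)))
    (hmono : Monotone U) (hinj : Set.InjOn e (U n)) (hs : ∀ v ∈ U n, s v * s v = 1) (hK : 1 ≤ K)
    (j : ℕ) (hn : 2 ^ j ≤ K * n) (l m : H → ℝ) (hl : ∀ u, l u ≠ 0 → u ∈ U 0)
    (hm : ∀ u, m u ≠ 0 → u ∈ U n) :
    (slice D hB j).b (push e s l) (push e s m) = (slice D hA j).b l m := by
  rw [slice_apply, slice_apply]
  apply push_form
  · intro u v hu hv
    exact slm_local D h hmono hinj hs hK j hn u v (hl u hu) (hm v hv)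
  · intro u hu
    rcases hu with hu | hu
    · exact hs u (hmono (Nat.zero_le n) (hl u hu))
    · exact hs u (hm u hu)

/-! ### the Gram form is local too -/

theorem aeval_Q {A : Matrix H H ℝ} (hA : Aᵀ = -A) (p : ℝ[X]) :
    aeval (Qm A) p = aeval A (p.comp (-X ^ 2)) := by
  rw [aeval_comp]
  congr 1
  rw [map_neg, map_pow, aeval_X, Qm, hA, sq, neg_mul]

/-- matrix of the Gram form of the slice -/
def grm (D : Σ L : ℝ, Σ M : ℕ, Σ K : ℕ, FRD L M K) (A : Matrix H H ℝ) (j : ℕ) : Matrix H H ℝ :=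
  aeval A ((C (1 / 2) * ((C ((2 ^ j : ℝ)⁻¹) + C (2 ^ j) * X) * (D.2.2.2.w j))).comp (-X ^ 2))

theorem gform_apply {L : ℝ} {M K : ℕ} (D : FRD L M K) {A : Matrix H H ℝ} (hA : Aᵀ = -A) (j : ℕ)
    (l m : H → ℝ) : gform D A j l m = l ⬝ᵥ (grm ⟨L, M, K, D⟩ A j *ᵥ m) := by
  unfold gform GB grm
  rw [← aeval_Q hA, ← BF_poly]
  congr 3
  funext t
  simp

end Crest.Agent.R165.FRDLocalx439
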