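import Crest.Agent.R165.KComp_892

/-!
# Row 165: K-representation, part 2 : the exact renormalisation step for polymer gases (helper892)

`F` = type of faces.  `K : Finset F → R` (polymer activities in a commutative ring).

* `touch near U W`, `Sep near P` : families of nonempty pairwise non-touching face sets
* `ZZ near Λ K = ∑_P ∏_{U ∈ P} K U`
* `KK near near' K B W` : the reclustered activity (finite sum over connected item sets `T`
  with union of supports `= W`)
* `step` : `∏_{U ⊆ Λ, U ≠ ∅} (1 + B U) * ZZ near Λ K = ZZ near' Λ (KK near near' K B)`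
* `KK_eq` : linear part `K W + B W` + terms with at least two items
* `KK_map` : locality and covariance in one lemma
* `ZZ_map` : a factorising additive map acts on the activities
-/

set_option autoImplicit false
set_option linter.unusedSectionVars false
set_option linter.unusedVariables false

open Finset

namespace Crest.Agent.R165.KStepx892

open KCompx892

/-! ### decomposition relative to a finite set of items -/

section rel

variable {ι : Type*} [DecidableEq ι] {r : ι → ι → Prop} {A : Type*} [CommSemiring A]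

open Classical in
theorem sum_powerset_eq (hs : ∀ a b, r a b → r b a) {w : Finset ι → A} (hw : Mult r w)
    (I : Finset ι) :
    ∑ T ∈ I.powerset, w T
      = ∑ P ∈ (I.powerset.powerset).filter (fun P => Fam r P), ∏ C ∈ P, w C := by
  refine Finset.sum_bij' (fun T _ => comps r T) (fun P _ => P.biUnion id) ?_ ?_ ?_ ?_ ?_
  · intro T hT
    refine Finset.mem_filter.2 ⟨?_, fam_comps hs T⟩
    rw [Finset.mem_powerset]
    intro C hC
    obtain ⟨t, ht, rfl⟩ := Finset.mem_image.1 hC
    exact Finset.mem_powerset.2 ((comp_subset T t).trans (Finset.mem_powerset.1 hT))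
  · intro P hP
    rw [Finset.mem_powerset]
    intro b hb
    obtain ⟨C, hC, hbC⟩ := Finset.mem_biUnion.1 hb
    exact (Finset.mem_powerset.1 (Finset.mem_powerset.1 (Finset.mem_filter.1 hP).1 hC)) hbC
  · intro T _; exact biUnion_comps T
  · intro P hP; exact comps_biUnion hs (Finset.mem_filter.1 hP).2
  · intro T _
    conv_lhs => rw [← biUnion_comps (r := r) T]
    exact hw.prod _ (fam_comps hs T).sep

end rel

/-! ### grouping labelled polymers by their supports -/

section group

variable {κ G : Type*} [DecidableEq κ] [DecidableEq G] {A : Type*} [CommSemiring A]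

open Classical in
/-- expansion of a product of fibre sums -/
theorem prod_fiber_sum (I : Finset κ) (s : κ → G) (x : κ → A) (Q : Finset G) :
    ∏ W ∈ Q, ∑ c ∈ I.filter (fun c => s c = W), x c
      = ∑ P ∈ I.powerset.filter (fun P : Finset κ => P.image s = Q ∧ Set.InjOn s (↑P : Set κ)),
          ∏ c ∈ P, x c := by
  induction Q using Finset.induction_on with
  | empty =>
    rw [Finset.prod_empty]
    rw [Finset.sum_eq_single (∅ : Finset κ)]
    · simp
    · intro P hP hne
      exact absurd (Finset.image_eq_empty.1 (Finset.mem_filter.1 hP).2.1) hne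
    · intro h
      exact absurd (Finset.mem_filter.2 ⟨Finset.empty_mem_powerset _, by simp⟩) h
  | @insert W Q hW ih =>
    rw [Finset.prod_insert hW, ih, Finset.sum_mul_sum, ← Finset.sum_product']
    refine Finset.sum_bij (fun p _ => insert p.1 p.2) ?_ ?_ ?_ ?_
    · rintro ⟨c, P⟩ hp
      rw [Finset.mem_product, Finset.mem_filter, Finset.mem_filter, Finset.mem_powerset] at hp
      obtain ⟨⟨hcI, hcW⟩, hPI, hPQ, hinj⟩ := hp
      dsimp only at hcI hcW hPI hPQ hinj ⊢
      refine Finset.mem_filter.2 ⟨Finset.mem_powerset.2 (Finset.insert_subset hcI hPI), ?_, ?_⟩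
      · rw [Finset.image_insert, hcW, hPQ]
      · rw [Finset.coe_insert]
        refine (Set.injOn_insert ?_).2 ⟨hinj, ?_⟩
        · intro hcP
          refine hW ?_
          rw [← hPQ, ← hcW]
          exact Finset.mem_image_of_mem s hcP
        · rintro ⟨d, hdP, hd⟩
          refine hW ?_
          rw [← hPQ, ← hcW, ← hd]
          exact Finset.mem_image_of_mem s hdP
    · rintro ⟨c, P⟩ hp ⟨c', P'⟩ hp' heq
      rw [Finset.mem_product, Finset.mem_filter, Finset.mem_filter, Finset.mem_powerset] at hp hp'
      obtain ⟨⟨hcI, hcW⟩, hPI, hPQ, hinj⟩ := hp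
      obtain ⟨⟨hcI', hcW'⟩, hPI', hPQ', hinj'⟩ := hp'
      dsimp only at hcI hcW hPI hPQ hinj hcI' hcW' hPI' hPQ' hinj' heq
      have hnot : ∀ d ∈ P, s d ≠ W := fun d hd h => hW (by
        rw [← hPQ, ← h]; exact Finset.mem_image_of_mem s hd)
      have hnot' : ∀ d ∈ P', s d ≠ W := fun d hd h => hW (by
        rw [← hPQ', ← h]; exact Finset.mem_image_of_mem s hd)
      have hc : c = c' := by
        have : c ∈ insert c' P' := heq ▸ Finset.mem_insert_self c P
        rcases Finset.mem_insert.1 this with h | h
        · exact h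
        · exact absurd hcW (hnot' c h)
      subst hc
      have hP : P = P' := by
        ext d
        constructor
        · intro hd
          have : d ∈ insert c P' := heq ▸ Finset.mem_insert_of_mem hd
          rcases Finset.mem_insert.1 this with h | h
          · exact absurd (h ▸ hcW) (hnot d hd)
          · exact h
        · intro hd
          have : d ∈ insert c P := heq.symm ▸ Finset.mem_insert_of_mem hd
          rcases Finset.mem_insert.1 this with h | h
          · exact absurd (h ▸ hcW) (hnot' d hd)
          · exact h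
      rw [hP]
    · intro P hP
      rw [Finset.mem_filter, Finset.mem_powerset] at hP
      obtain ⟨hPI, hPQ, hinj⟩ := hP
      have hWim : W ∈ P.image s := by rw [hPQ]; exact Finset.mem_insert_self _ _
      obtain ⟨c, hcP, hcW⟩ := Finset.mem_image.1 hWim
      refine ⟨(c, P.erase c), ?_, Finset.insert_erase hcP⟩
      rw [Finset.mem_product, Finset.mem_filter, Finset.mem_filter, Finset.mem_powerset]
      refine ⟨⟨hPI hcP, hcW⟩, (Finset.erase_subset _ _).trans hPI, ?_, ?_⟩
      · ext V
        constructor
        · intro hV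
          obtain ⟨d, hd, rfl⟩ := Finset.mem_image.1 hV
          rw [Finset.mem_erase] at hd
          have : s d ∈ insert W Q := by rw [← hPQ]; exact Finset.mem_image_of_mem s hd.2
          rcases Finset.mem_insert.1 this with h | h
          · exact absurd (hinj hd.2 hcP (h.trans hcW.symm)) hd.1
          · exact h
        · intro hV
          have : V ∈ P.image s := by rw [hPQ]; exact Finset.mem_insert_of_mem hV
          obtain ⟨d, hd, hdV⟩ := Finset.mem_image.1 this
          refine Finset.mem_image.2 ⟨d, Finset.mem_erase.2 ⟨?_, hd⟩, hdV⟩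
          rintro rfl
          exact hW (by rw [← hcW, hdV]; exact hV)
      · exact hinj.mono (by
          intro d hd
          exact Finset.mem_coe.2 (Finset.mem_of_mem_erase (Finset.mem_coe.1 hd)))
    · rintro ⟨c, P⟩ hp
      rw [Finset.mem_product, Finset.mem_filter, Finset.mem_filter, Finset.mem_powerset] at hp
      obtain ⟨⟨hcI, hcW⟩, hPI, hPQ, hinj⟩ := hp
      dsimp only at hcI hcW hPI hPQ hinj ⊢
      rw [Finset.prod_insert]
      intro hcP
      refine hW ?_
      rw [← hPQ, ← hcW]
      exact Finset.mem_image_of_mem s hcP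

end group

/-! ### face sets -/

section faces

variable {F : Type*} [DecidableEq F] {R : Type*} [CommRing R]

/-- two face sets touch -/
def touch (near : F → F → Prop) (U W : Finset F) : Prop := ∃ u ∈ U, ∃ w ∈ W, near u w

lemma touch.symm {near : F → F → Prop} (hn : ∀ a b, near a b → near b a) {U W : Finset F}
    (h : touch near U W) : touch near W U := by
  obtain ⟨u, hu, w, hw, h⟩ := h
  exact ⟨w, hw, u, hu, hn _ _ h⟩

lemma touch.mono {near near' : F → F → Prop} (hn : ∀ a b, near a b → near' a b) {U W : Finset F}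
    (h : touch near U W) : touch near' U W := by
  obtain ⟨u, hu, w, hw, h⟩ := h
  exact ⟨u, hu, w, hw, hn _ _ h⟩

lemma touch_mono_set {near : F → F → Prop} {U W U' W' : Finset F} (h : touch near U W)
    (hU : U ⊆ U') (hW : W ⊆ W') : touch near U' W' := by
  obtain ⟨u, hu, w, hw, h⟩ := h
  exact ⟨u, hU hu, w, hW hw, h⟩

lemma touch_self {near : F → F → Prop} (hr : ∀ a, near a a) {U : Finset F} (h : U.Nonempty) :
    touch near U U := by
  obtain ⟨u, hu⟩ := h
  exact ⟨u, hu, u, hu, hr u⟩

/-- families of nonempty pairwise non-touching face sets -/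
structure Sep (near : F → F → Prop) (P : Finset (Finset F)) : Prop where
  ne : ∀ U ∈ P, U.Nonempty
  sep : ∀ U ∈ P, ∀ W ∈ P, U ≠ W → ¬ touch near U W

open Classical in
/-- the partition function of the polymer gas -/
noncomputable def ZZ (near : F → F → Prop) (Λ : Finset F) (K : Finset F → R) : R :=
  ∑ P ∈ (Λ.powerset.powerset).filter (fun P => Sep near P), ∏ U ∈ P, K U

/-- nonempty subsets -/
def nes (Λ : Finset F) : Finset (Finset F) := Λ.powerset.filter (fun U => U.Nonempty)

lemma mem_nes {Λ U : Finset F} : U ∈ nes Λ ↔ U ⊆ Λ ∧ U.Nonempty := by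
  unfold nes
  rw [Finset.mem_filter, Finset.mem_powerset]

/-- support of an item -/
def sp : Finset F ⊕ Finset F → Finset F := Sum.elim id id

@[simp] lemma sp_inl (U : Finset F) : sp (Sum.inl U : Finset F ⊕ Finset F) = U := rfl
@[simp] lemma sp_inr (U : Finset F) : sp (Sum.inr U : Finset F ⊕ Finset F) = U := rfl

/-- the items supported in `W` -/
def itm (W : Finset F) : Finset (Finset F ⊕ Finset F) := (nes W).disjSum (nes W)

lemma mem_itm {W : Finset F} {t : Finset F ⊕ Finset F} :
    t ∈ itm W ↔ sp t ⊆ W ∧ (sp t).Nonempty := by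
  unfold itm
  rcases t with U | U
  · rw [Finset.inl_mem_disjSum, mem_nes]; rfl
  · rw [Finset.inr_mem_disjSum, mem_nes]; rfl

/-- item relation -/
def itr (near : F → F → Prop) (a b : Finset F ⊕ Finset F) : Prop := touch near (sp a) (sp b)

/-- support of a set of items -/
def spp (T : Finset (Finset F ⊕ Finset F)) : Finset F := T.biUnion sp

lemma mem_spp {T : Finset (Finset F ⊕ Finset F)} {x : F} : x ∈ spp T ↔ ∃ t ∈ T, x ∈ sp t := by
  unfold spp
  exact Finset.mem_biUnion

lemma spp_singleton (t : Finset F ⊕ Finset F) : spp {t} = sp t := by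
  ext x; simp [mem_spp]

/-- admissible item sets -/
structure Good (near : F → F → Prop) (T : Finset (Finset F ⊕ Finset F)) : Prop where
  ne : ∀ t ∈ T, (sp t).Nonempty
  sep : ∀ U, Sum.inl U ∈ T → ∀ W, Sum.inl W ∈ T → U ≠ W → ¬ touch near U W

open Classical in
/-- weight of an item set -/
noncomputable def wt (near : F → F → Prop) (K B : Finset F → R)
    (T : Finset (Finset F ⊕ Finset F)) : R :=
  if Good near T then ∏ t ∈ T, Sum.elim K B t else 0

open Classical in
/-- the reclustered activity -/
noncomputable def KK (near near' : F → F → Prop) (K B : Finset F → R) (W : Finset F) : R :=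
  ∑ T ∈ (itm W).powerset.filter (fun T => Conn (itr near') T ∧ spp T = W), wt near K B T

lemma wt_mult {near near' : F → F → Prop} (hn : ∀ a b, near a b → near' a b)
    (hs : ∀ a b, near' a b → near' b a)
    (hr : ∀ a, near' a a) (K B : Finset F → R) : Mult (itr near') (wt near K B) := by
  classical
  constructor
  · unfold wt
    rw [if_pos, Finset.prod_empty]
    exact ⟨fun t ht => absurd ht (Finset.notMem_empty t),
      fun U hU => absurd hU (Finset.notMem_empty _)⟩
  · intro S T hST
    have hgood : Good near (S ∪ T) ↔ Good near S ∧ Good near T := by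
      constructor
      · intro h
        exact ⟨⟨fun t ht => h.ne t (Finset.mem_union_left _ ht),
          fun U hU W hW => h.sep U (Finset.mem_union_left _ hU) W (Finset.mem_union_left _ hW)⟩,
          ⟨fun t ht => h.ne t (Finset.mem_union_right _ ht),
          fun U hU W hW => h.sep U (Finset.mem_union_right _ hU) W (Finset.mem_union_right _ hW)⟩⟩
      · rintro ⟨h1, h2⟩
        refine ⟨fun t ht => ?_, fun U hU W hW hne => ?_⟩
        · rcases Finset.mem_union.1 ht with h | h
          · exact h1.ne t h
          · exact h2.ne t h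
        · rcases Finset.mem_union.1 hU with h | h <;> rcases Finset.mem_union.1 hW with h' | h'
          · exact h1.sep U h W h' hne
          · exact fun ht => hST _ h _ h' (touch.mono hn ht)
          · exact fun ht => hST _ h' _ h ((touch.mono hn ht).symm hs)
          · exact h2.sep U h W h' hne
    unfold wt
    by_cases h1 : Good near S
    · by_cases h2 : Good near T
      · rw [if_pos h1, if_pos h2, if_pos (hgood.2 ⟨h1, h2⟩), Finset.prod_union]
        rw [Finset.disjoint_left]
        intro t hS hT
        exact hST t hS t hT (touch_self hr (h1.ne t hS))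
      · rw [if_neg h2, if_neg (fun h => h2 (hgood.1 h).2), mul_zero]
    · rw [if_neg h1, if_neg (fun h => h1 (hgood.1 h).1), zero_mul]

open Classical in
/-- the left-hand side as a sum over item sets -/
lemma lhs_eq (near : F → F → Prop) (Λ : Finset F) (K B : Finset F → R) :
    (∏ U ∈ nes Λ, (1 + B U)) * ZZ near Λ K = ∑ T ∈ (itm Λ).powerset, wt near K B T := by
  have h1 : ZZ near Λ K = ∑ X ∈ (nes Λ).powerset,
      if Sep near X then ∏ U ∈ X, K U else 0 := by
    unfold ZZ
    rw [← Finset.sum_filter]
    refine Finset.sum_congr ?_ fun _ _ => rfl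
    ext X
    rw [Finset.mem_filter, Finset.mem_filter, Finset.mem_powerset, Finset.mem_powerset]
    constructor
    · rintro ⟨h, hs⟩
      exact ⟨fun U hU => mem_nes.2 ⟨Finset.mem_powerset.1 (h hU), hs.ne U hU⟩, hs⟩
    · rintro ⟨h, hs⟩
      exact ⟨fun U hU => Finset.mem_powerset.2 (mem_nes.1 (h hU)).1, hs⟩
  rw [h1, Finset.prod_one_add, Finset.sum_mul_sum, Finset.sum_comm, ← Finset.sum_product']
  refine Finset.sum_bij' (fun p _ => p.1.disjSum p.2) (fun T _ => (T.toLeft, T.toRight))
    ?_ ?_ ?_ ?_ ?_
  · rintro ⟨X, Y⟩ hp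
    rw [Finset.mem_product, Finset.mem_powerset, Finset.mem_powerset] at hp
    exact Finset.mem_powerset.2 (Finset.disjSum_mono hp.1 hp.2)
  · intro T hT
    rw [Finset.mem_powerset] at hT
    rw [Finset.mem_product, Finset.mem_powerset, Finset.mem_powerset]
    exact Finset.subset_disjSum.1 hT
  · rintro ⟨X, Y⟩ _
    simp
  · intro T _
    exact Finset.toLeft_disjSum_toRight
  · rintro ⟨X, Y⟩ hp
    rw [Finset.mem_product, Finset.mem_powerset, Finset.mem_powerset] at hp
    obtain ⟨hX, hY⟩ := hp
    dsimp only at hX hY ⊢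
    unfold wt
    by_cases hsep : Sep near X
    · rw [if_pos hsep, if_pos, Finset.prod_disjSum]
      · simp only [Sum.elim_inl, Sum.elim_inr]
        rw [mul_comm]
      · constructor
        · intro t ht
          have : t ∈ itm Λ := Finset.disjSum_mono hX hY ht
          exact (mem_itm.1 this).2
        · intro U hU W hW hne
          rw [Finset.inl_mem_disjSum] at hU hW
          exact hsep.sep U hU W hW hne
    · rw [if_neg hsep, if_neg, mul_zero]
      intro hg
      refine hsep ⟨fun U hU => (mem_nes.1 (hX hU)).2, fun U hU W hW hne => ?_⟩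
      exact hg.sep U (Finset.inl_mem_disjSum.2 hU) W (Finset.inl_mem_disjSum.2 hW) hne

lemma subset_itm_spp {T : Finset (Finset F ⊕ Finset F)} (h : ∀ t ∈ T, (sp t).Nonempty) :
    T ⊆ itm (spp T) := fun t ht =>
  mem_itm.2 ⟨fun x hx => mem_spp.2 ⟨t, ht, hx⟩, h t ht⟩

lemma spp_subset {T : Finset (Finset F ⊕ Finset F)} {Λ : Finset F} (h : T ⊆ itm Λ) :
    spp T ⊆ Λ := by
  intro x hx
  obtain ⟨t, ht, hxt⟩ := mem_spp.1 hx
  exact (mem_itm.1 (h ht)).1 hxt

lemma itm_mono {W Λ : Finset F} (h : W ⊆ Λ) : itm W ⊆ itm Λ := fun t ht =>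
  mem_itm.2 ⟨(mem_itm.1 ht).1.trans h, (mem_itm.1 ht).2⟩

lemma noTouch_iff {near : F → F → Prop} {S T : Finset (Finset F ⊕ Finset F)} :
    NoTouch (itr near) S T ↔ ¬ touch near (spp S) (spp T) := by
  constructor
  · rintro h ⟨u, hu, w, hw, huw⟩
    obtain ⟨a, ha, hua⟩ := mem_spp.1 hu
    obtain ⟨b, hb, hwb⟩ := mem_spp.1 hw
    exact h a ha b hb ⟨u, hua, w, hwb, huw⟩
  · rintro h a ha b hb ⟨u, hu, w, hw, huw⟩
    exact h ⟨u, mem_spp.2 ⟨a, ha, hu⟩, w, mem_spp.2 ⟨b, hb, hw⟩, huw⟩

open Classical in
/-- **the exact step** -/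
theorem step {near near' : F → F → Prop} (hn : ∀ a b, near a b → near' a b)
    (hs : ∀ a b, near' a b → near' b a) (hr : ∀ a, near' a a) (Λ : Finset F)
    (K B : Finset F → R) :
    (∏ U ∈ nes Λ, (1 + B U)) * ZZ near Λ K = ZZ near' Λ (KK near near' K B) := by
  rw [lhs_eq, sum_powerset_eq (r := itr near') (fun a b h => touch.symm hs h)
    (wt_mult hn hs hr K B)]
  -- labelled polymers
  set I : Finset (Finset (Finset F ⊕ Finset F)) :=
    (itm Λ).powerset.filter (fun T => Conn (itr near') T) with hI
  have hIne : ∀ T ∈ I, (spp T).Nonempty ∧ spp T ⊆ Λ := by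
    intro T hT
    rw [hI, Finset.mem_filter, Finset.mem_powerset] at hT
    obtain ⟨t, ht⟩ := hT.2.1
    obtain ⟨x, hx⟩ := (mem_itm.1 (hT.1 ht)).2
    exact ⟨⟨x, mem_spp.2 ⟨t, ht, hx⟩⟩, spp_subset hT.1⟩
  -- the fibre sums
  have hfib : ∀ W ⊆ Λ, KK near near' K B W
      = ∑ T ∈ I.filter (fun T => spp T = W), wt near K B T := by
    intro W hW
    unfold KK
    refine Finset.sum_congr ?_ fun _ _ => rfl
    ext T
    rw [hI, Finset.mem_filter, Finset.mem_filter, Finset.mem_filter, Finset.mem_powerset,
      Finset.mem_powerset]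
    constructor
    · rintro ⟨h1, h2, h3⟩
      exact ⟨⟨h1.trans (itm_mono hW), h2⟩, h3⟩
    · rintro ⟨⟨h1, h2⟩, h3⟩
      refine ⟨?_, h2, h3⟩
      rw [← h3]
      exact subset_itm_spp fun t ht => (mem_itm.1 (h1 ht)).2
  have hR : ZZ near' Λ (KK near near' K B)
      = ∑ Q ∈ (Λ.powerset.powerset).filter (fun Q => Sep near' Q),
          ∑ P ∈ I.powerset.filter (fun P : Finset (Finset (Finset F ⊕ Finset F)) =>
              P.image spp = Q ∧ Set.InjOn spp (↑P : Set (Finset (Finset F ⊕ Finset F)))),
            ∏ c ∈ P, wt near K B c := by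
    unfold ZZ
    refine Finset.sum_congr rfl fun Q hQ => ?_
    rw [← prod_fiber_sum]
    refine Finset.prod_congr rfl fun W hW => hfib W ?_
    rw [Finset.mem_filter, Finset.mem_powerset] at hQ
    exact Finset.mem_powerset.1 (hQ.1 hW)
  rw [hR, Finset.sum_sigma']
  refine Finset.sum_bij' (fun P _ => (⟨P.image spp, P⟩ : (Σ _ : Finset (Finset F), _)))
    (fun q _ => q.2) ?_ ?_ ?_ ?_ ?_
  · intro P hP
    rw [Finset.mem_filter, Finset.mem_powerset] at hP
    obtain ⟨hPI, hfam⟩ := hP
    have hPI' : P ⊆ I := by
      intro C hC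
      rw [hI, Finset.mem_filter]
      exact ⟨hPI hC, hfam.conn C hC⟩
    have hinj : Set.InjOn spp (P : Set (Finset (Finset F ⊕ Finset F))) := by
      intro C hC C' hC' heq
      by_contra hne
      refine (noTouch_iff.1 (hfam.sep C hC C' hC' hne)) ?_
      rw [← heq]
      exact touch_self hr (hIne C (hPI' hC)).1
    rw [Finset.mem_sigma, Finset.mem_filter, Finset.mem_filter, Finset.mem_powerset,
      Finset.mem_powerset]
    refine ⟨⟨?_, ?_, ?_⟩, hPI', rfl, hinj⟩
    · intro W hW
      obtain ⟨C, hC, rfl⟩ := Finset.mem_image.1 hW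
      exact Finset.mem_powerset.2 (hIne C (hPI' hC)).2
    · intro W hW
      obtain ⟨C, hC, rfl⟩ := Finset.mem_image.1 hW
      exact (hIne C (hPI' hC)).1
    · intro W hW W' hW' hne
      obtain ⟨C, hC, rfl⟩ := Finset.mem_image.1 hW
      obtain ⟨C', hC', rfl⟩ := Finset.mem_image.1 hW'
      exact noTouch_iff.1 (hfam.sep C hC C' hC' fun h => hne (by rw [h]))
  · rintro ⟨Q, P⟩ hq
    rw [Finset.mem_sigma, Finset.mem_filter, Finset.mem_filter, Finset.mem_powerset,
      Finset.mem_powerset] at hq
    obtain ⟨⟨hQ, hsep⟩, hPI, himg, hinj⟩ := hq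
    dsimp only at hQ hsep hPI himg hinj ⊢
    rw [Finset.mem_filter, Finset.mem_powerset]
    refine ⟨fun C hC => ?_, ⟨fun C hC => ?_, fun C hC C' hC' hne => ?_⟩⟩
    · exact (Finset.mem_filter.1 (hPI hC)).1
    · exact (Finset.mem_filter.1 (hPI hC)).2
    · rw [noTouch_iff]
      refine hsep.sep _ (himg ▸ Finset.mem_image_of_mem _ hC) _
        (himg ▸ Finset.mem_image_of_mem _ hC') ?_
      exact fun h => hne (hinj hC hC' h)
  · intro P _; rfl
  · rintro ⟨Q, P⟩ hq
    rw [Finset.mem_sigma, Finset.mem_filter, Finset.mem_filter] at hq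
    obtain ⟨_, _, himg, _⟩ := hq
    dsimp only at himg ⊢
    subst himg
    rfl
  · intro P _; rfl

/-- singletons are connected -/
lemma conn_singleton {ι : Type*} [DecidableEq ι] (r : ι → ι → Prop) (t : ι) : Conn r {t} := by
  refine ⟨Finset.singleton_nonempty t, fun A hA hne _ => ?_⟩
  rcases Finset.subset_singleton_iff.1 hA with h | h
  · exact absurd h hne.ne_empty
  · exact h

open Classical in
/-- linear part and the rest -/
theorem KK_eq {near near' : F → F → Prop} (K B : Finset F → R) {W : Finset F}
    (hW : W.Nonempty) :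
    KK near near' K B W = K W + B W
      + ∑ T ∈ (itm W).powerset.filter
          (fun T => Conn (itr near') T ∧ spp T = W ∧ 2 ≤ T.card), wt near K B T := by
  have hg1 : Good near ({Sum.inl W} : Finset (Finset F ⊕ Finset F)) := by
    refine ⟨fun t ht => ?_, fun U hU V hV hne => ?_⟩
    · rw [Finset.mem_singleton] at ht; subst ht; exact hW
    · rw [Finset.mem_singleton] at hU hV
      exact absurd ((Sum.inl.inj hU).trans (Sum.inl.inj hV).symm) hne
  have hg2 : Good near ({Sum.inr W} : Finset (Finset F ⊕ Finset F)) := by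
    refine ⟨fun t ht => ?_, fun U hU V hV hne => ?_⟩
    · rw [Finset.mem_singleton] at ht; subst ht; exact hW
    · rw [Finset.mem_singleton] at hU
      exact absurd hU (by simp)
  have hw1 : wt near K B ({Sum.inl W} : Finset (Finset F ⊕ Finset F)) = K W := by
    unfold wt; rw [if_pos hg1]; simp
  have hw2 : wt near K B ({Sum.inr W} : Finset (Finset F ⊕ Finset F)) = B W := by
    unfold wt; rw [if_pos hg2]; simp
  have hsplit : (itm W).powerset.filter (fun T => Conn (itr near') T ∧ spp T = W)
      = insert {Sum.inl W} (insert {Sum.inr W} ((itm W).powerset.filter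
          (fun T => Conn (itr near') T ∧ spp T = W ∧ 2 ≤ T.card))) := by
    ext T
    simp only [Finset.mem_insert, Finset.mem_filter, Finset.mem_powerset]
    constructor
    · rintro ⟨h1, h2, h3⟩
      by_cases hc : 2 ≤ T.card
      · exact Or.inr (Or.inr ⟨h1, h2, h3, hc⟩)
      · have hc1 : T.card = 1 := by
          have := Finset.card_pos.2 h2.1
          omega
        obtain ⟨t, rfl⟩ := Finset.card_eq_one.1 hc1
        rw [spp_singleton] at h3
        rcases t with U | U
        · left; rw [sp_inl] at h3; rw [h3]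
        · right; left; rw [sp_inr] at h3; rw [h3]
    · rintro (h | h | ⟨h1, h2, h3, _⟩)
      · subst h
        refine ⟨?_, conn_singleton _ _, by rw [spp_singleton]; rfl⟩
        intro t ht
        rw [Finset.mem_singleton] at ht; subst ht
        exact mem_itm.2 ⟨Finset.Subset.refl _, hW⟩
      · subst h
        refine ⟨?_, conn_singleton _ _, by rw [spp_singleton]; rfl⟩
        intro t ht
        rw [Finset.mem_singleton] at ht; subst ht
        exact mem_itm.2 ⟨Finset.Subset.refl _, hW⟩
      · exact ⟨h1, h2, h3⟩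
  unfold KK
  rw [hsplit, Finset.sum_insert, Finset.sum_insert, hw1, hw2, add_assoc]
  · intro h
    have := (Finset.mem_filter.1 h).2.2.2
    simp at this
  · intro h
    rcases Finset.mem_insert.1 h with h | h
    · have := Finset.singleton_inj.1 h
      simp at this
    · have := (Finset.mem_filter.1 h).2.2.2
      simp at this

end faces

end Crest.Agent.R165.KStepx892
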