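import Crest.Agent.R165.GExp_900
import Crest.Agent.R165.KStep_892

/-!
# Row 165 (S0250), block G: final-scale bound of a polymer gas

`|ZZ near Λ K - 1| ≤ exp (∑_U |K U|) - 1` for any submultiplicative extended norm, and the
expectation form `|E_S ZZ - 1| ≤ exp (∑_U |K U|_g) - 1` for a covariance with Gram bound `g`.
-/

set_option autoImplicit false

noncomputable section

namespace Crest.Agent.R165.FinBx900

open Crest.Agent.R165.KStepx892 Crest.Agent.R165.Gr0x606 Crest.Agent.R165.Gr1x606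
open Crest.Agent.R165.PNormx417 Crest.Agent.R165.GExpx900
open scoped ENNReal

/-- a submultiplicative extended norm on a ring -/
structure RN {R : Type*} [CommRing R] (N : R → ℝ≥0∞) : Prop where
  zero : N 0 = 0
  one : N 1 ≤ 1
  add : ∀ x y, N (x + y) ≤ N x + N y
  mul : ∀ x y, N x ≠ ∞ → N y ≠ ∞ → N (x * y) ≤ N x * N y

namespace RN

variable {R : Type*} [CommRing R] {N : R → ℝ≥0∞} (hN : RN N)

include hN

theorem sum_le {ι : Type*} (s : Finset ι) (f : ι → R) : N (∑ i ∈ s, f i) ≤ ∑ i ∈ s, N (f i) := by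
  classical
  induction s using Finset.induction_on with
  | empty => simp [hN.zero]
  | insert i s hi ih =>
    rw [Finset.sum_insert hi, Finset.sum_insert hi]
    exact (hN.add _ _).trans (add_le_add le_rfl ih)

theorem prod_le {ι : Type*} (s : Finset ι) (f : ι → R) (hf : ∀ i ∈ s, N (f i) ≠ ∞) :
    N (∏ i ∈ s, f i) ≤ ∏ i ∈ s, N (f i) := by
  classical
  induction s using Finset.induction_on with
  | empty => simpa using hN.one
  | insert i s hi ih =>
    rw [Finset.prod_insert hi, Finset.prod_insert hi]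
    have h1 := ih fun j hj => hf j (Finset.mem_insert_of_mem hj)
    have h2 : ∏ j ∈ s, N (f j) ≠ ∞ :=
      ENNReal.prod_ne_top fun j hj => hf j (Finset.mem_insert_of_mem hj)
    exact (hN.mul _ _ (hf i (Finset.mem_insert_self _ _)) (ne_top_of_le_ne_top h2 h1)).trans
      (mul_le_mul' le_rfl h1)

end RN

variable {F : Type*} [DecidableEq F] {R : Type*} [CommRing R] {N : R → ℝ≥0∞}

/-- `|ZZ - 1| + 1 ≤ ∏ (1 + |K U|)` -/
theorem zz_sub_one_le_prod (hN : RN N) (near : F → F → Prop) (Λ : Finset F) (K : Finset F → R)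
    (hK : ∀ U ∈ nes Λ, N (K U) ≠ ∞) :
    N (ZZ near Λ K - 1) + 1 ≤ ∏ U ∈ nes Λ, (1 + N (K U)) := by
  classical
  have h1 : ZZ near Λ K = ∑ X ∈ (nes Λ).powerset,
      if KStepx892.Sep near X then ∏ U ∈ X, K U else 0 := by
    unfold ZZ
    rw [← Finset.sum_filter]
    refine Finset.sum_congr ?_ fun _ _ => rfl
    ext X
    simp only [Finset.mem_filter, Finset.mem_powerset]
    constructor
    · rintro ⟨h, hs⟩
      exact ⟨fun U hU => mem_nes.2 ⟨Finset.mem_powerset.1 (h hU), hs.ne U hU⟩, hs⟩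
    · rintro ⟨h, hs⟩
      exact ⟨fun U hU => Finset.mem_powerset.2 (mem_nes.1 (h hU)).1, hs⟩
  have hs0 : KStepx892.Sep near (∅ : Finset (Finset F)) :=
    ⟨fun _ h => absurd h (Finset.notMem_empty _), fun _ h => absurd h (Finset.notMem_empty _)⟩
  have h2 : ZZ near Λ K - 1 = ∑ X ∈ (nes Λ).powerset.erase ∅,
      if KStepx892.Sep near X then ∏ U ∈ X, K U else 0 := by
    rw [h1, ← Finset.add_sum_erase _ _ (Finset.empty_mem_powerset _), if_pos hs0, Finset.prod_empty,
      add_sub_cancel_left]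
  have h3 : ∏ U ∈ nes Λ, (1 + N (K U)) = ∑ X ∈ (nes Λ).powerset, ∏ U ∈ X, N (K U) := by
    rw [Finset.prod_one_add]
  rw [h2, h3, ← Finset.add_sum_erase _ _ (Finset.empty_mem_powerset _), Finset.prod_empty, add_comm]
  gcongr
  refine (hN.sum_le _ _).trans (Finset.sum_le_sum fun X hX => ?_)
  split_ifs with h
  · refine hN.prod_le _ _ fun U hU => hK U ?_
    exact Finset.mem_powerset.1 (Finset.mem_of_mem_erase hX) hU
  · rw [hN.zero]; exact zero_le

/-- `|ZZ - 1| ≤ exp (∑ |K U|) - 1` -/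
theorem zz_sub_one_le (hN : RN N) (near : F → F → Prop) (Λ : Finset F) (K : Finset F → R) {δ : ℝ}
    (hδ : 0 ≤ δ) (h : ∑ U ∈ nes Λ, N (K U) ≤ ENNReal.ofReal δ) :
    N (ZZ near Λ K - 1) ≤ ENNReal.ofReal (Real.exp δ - 1) := by
  have hK : ∀ U ∈ nes Λ, N (K U) ≠ ∞ := fun U hU =>
    ne_top_of_le_ne_top ENNReal.ofReal_ne_top
      ((Finset.single_le_sum (f := fun U => N (K U)) (fun _ _ => zero_le) hU).trans h)
  have h1 := zz_sub_one_le_prod hN near Λ K hK
  have h2 : ∏ U ∈ nes Λ, (1 + N (K U)) ≤ ENNReal.ofReal (Real.exp δ) := by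
    have h3 : ∀ U ∈ nes Λ, 1 + N (K U) = ENNReal.ofReal (1 + (N (K U)).toReal) := by
      intro U hU
      rw [ENNReal.ofReal_add zero_le_one ENNReal.toReal_nonneg, ENNReal.ofReal_one,
        ENNReal.ofReal_toReal (hK U hU)]
    rw [Finset.prod_congr rfl h3, ← ENNReal.ofReal_prod_of_nonneg (fun U _ => by positivity)]
    refine ENNReal.ofReal_le_ofReal ?_
    have h4 : ∏ U ∈ nes Λ, (1 + (N (K U)).toReal) ≤ ∏ U ∈ nes Λ, Real.exp (N (K U)).toReal :=
      Finset.prod_le_prod (fun _ _ => by positivity) fun U _ => by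
        rw [add_comm]; exact Real.add_one_le_exp _
    refine h4.trans ?_
    rw [← Real.exp_sum]
    refine Real.exp_le_exp.2 ?_
    rw [← ENNReal.toReal_sum hK]
    exact ENNReal.toReal_le_of_le_ofReal hδ h
  have h5 : ENNReal.ofReal (Real.exp δ - 1) + 1 = ENNReal.ofReal (Real.exp δ) := by
    rw [← ENNReal.ofReal_one, ← ENNReal.ofReal_add (by linarith [Real.add_one_le_exp δ]) zero_le_one,
      sub_add_cancel]
  have h6 := h1.trans h2
  rw [← h5] at h6
  exact (ENNReal.add_le_add_iff_right ENNReal.one_ne_top).1 h6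

/-! ### the projective norm on the even ring -/

variable {V : Type*} [AddCommGroup V] [Module ℝ V]

theorem rn_pnorm (w : V → ℝ≥0∞) : RN (fun a : Ge V => pnorm w (a : Gr V)) where
  zero := pnorm_zero w
  one := pnorm_one_le w
  add _ _ := pnorm_add_le w _ _
  mul _ _ hx hy := pnorm_mul_le hx hy

/-- FINAL SCALE BOUND: `|E_S ZZ - 1| ≤ exp (∑_U |K U|_g) - 1` -/
theorem EE_zz_sub_one {S : Cov V} {g : V → ℝ≥0∞} (hg : Gram S g) (near : F → F → Prop)
    (Λ : Finset F) (K : Finset F → Ge V) {δ : ℝ} (hδ : 0 ≤ δ)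
    (h : ∑ U ∈ nes Λ, pnorm g (K U : Gr V) ≤ ENNReal.ofReal δ) :
    |EE S ((ZZ near Λ K : Ge V) : Gr V) - 1| ≤ Real.exp δ - 1 := by
  have h1 := zz_sub_one_le (rn_pnorm g) near Λ K hδ h
  have h2 := (EE_le_pnorm hg ((ZZ near Λ K - 1 : Ge V) : Gr V)).trans h1
  have h3 : EE S ((ZZ near Λ K - 1 : Ge V) : Gr V) = EE S ((ZZ near Λ K : Ge V) : Gr V) - 1 := by
    have : ((ZZ near Λ K - 1 : Ge V) : Gr V) = ((ZZ near Λ K : Ge V) : Gr V) - 1 := rfl
    rw [this, map_sub, EE_one]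
  rw [h3, ← ofReal_norm, ENNReal.ofReal_le_ofReal_iff (by linarith [Real.add_one_le_exp δ]),
    Real.norm_eq_abs] at h2
  exact h2

/-- linear form of the final scale bound -/
theorem EE_zz_sub_one_le {S : Cov V} {g : V → ℝ≥0∞} (hg : Gram S g) (near : F → F → Prop)
    (Λ : Finset F) (K : Finset F → Ge V) {δ : ℝ} (hδ : 0 ≤ δ) (hδ1 : δ ≤ 1)
    (h : ∑ U ∈ nes Λ, pnorm g (K U : Gr V) ≤ ENNReal.ofReal δ) :
    |EE S ((ZZ near Λ K : Ge V) : Gr V) - 1| ≤ 2 * δ :=
  (EE_zz_sub_one hg near Λ K hδ h).trans (real_exp_sub_one_le_two hδ hδ1)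

end Crest.Agent.R165.FinBx900
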