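import Crest.Agent.R165.FRDRest_439
import Crest.Agent.R165.Bridge_915
import Crest.Agent.R165.FinB_900

/-!
# Row 165 (S0250), P9: the final step of the flow (helper315)

* `restL` : the last covariance `S r_J(Q)` of an inverse `IsNegInv (AopF w) S` (for `SFof` this is
  `restC` of `FRDRest_439`), `SopC_add_restL` : full covariance = slices `j < J` + last one
* `restL_gram`, `gr_le_wU` : Gram weight of the last covariance, at most the weight of every polymer
  if the amplitude is at least `7 √(C / (m r))`, `m` the gap: `|A f| ≥ m |f|`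
* `sum_nes_le_NK` : `∑_{U ⊆ Λ} |K U| ≤ (number of `r`-balls covering Λ) * NK`
* `fin_pnorm_le`, `fin_bound`, `fin_boundC` : `|E_{S_fin}[ZZ Λ K] - 1| ≤ 2 δ`
-/

set_option autoImplicit false
set_option linter.unusedSectionVars false

noncomputable section

namespace Crest.Agent.R165.Fin0x315

open scoped ENNReal
open Filter Topology
open Polynomial Crest.Agent.R165.Gr0x606 Crest.Agent.R165.Gr1x606 Crest.Agent.R165.Latx683
  Crest.Agent.R165.PNormx417 Crest.Agent.R165.GDefx387 Crest.Agent.R165.FRDAbsx439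
  Crest.Agent.R165.FRDPolyx439 Crest.Agent.R165.FRDInfx439 Crest.Agent.R165.FRDLatx439
  Crest.Agent.R165.FRDRestx439
  Crest.Agent.R165.NSumx915 Crest.Agent.R165.Bridgex915 Crest.Agent.R165.KStepx892
  Crest.Agent.R165.FinBx900

/-! ### the last covariance -/

section rest

variable {G : Type} [CommRing G] {Λ : ℝ} {M K : ℕ} (D : FRD Λ M K)

/-- the last covariance `S r_J(Q)` -/
def restL (w : BW G) {S : Fld G →ₗ[ℝ] Fld G} (hS : IsNegInv (AopF w) S) (J : ℕ) : Cov (Fld G) :=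
  restS (AopF_asy w) hS (D.r J)

/-- the full covariance `-A⁻¹` -/
def fullL (w : BW G) {S : Fld G →ₗ[ℝ] Fld G} (hS : IsNegInv (AopF w) S) : Cov (Fld G) :=
  restS (AopF_asy w) hS 1

theorem fullL_apply (w : BW G) {S : Fld G →ₗ[ℝ] Fld G} (hS : IsNegInv (AopF w) S) (l m : Fld G) :
    (fullL w hS).b l m = dotF (HE G) l (S m) := by
  show (preF (HE G)).ip l (S (aeval (QA (AopF w)) (1 : ℝ[X]) m)) = _
  rw [map_one, Module.End.one_apply]
  rfl

/-- full covariance = slices below `J` + last covariance -/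
theorem SopC_add_restL (w : BW G) {S : Fld G →ₗ[ℝ] Fld G} (hS : IsNegInv (AopF w) S) (J : ℕ) :
    SopC D w 0 J + restL D w hS J = fullL w hS := by
  unfold SopC restL fullL
  rw [← Finset.range_eq_Ico]
  exact sum_slice_add_rest D (AopF_asy w) hS J

theorem gap_zero {w : BW G} {m : ℝ} (h : ABtw (preF (HE G)) (AopF w) (m ^ 2) Λ) :
    ABtw (preF (HE G)) (AopF w) 0 Λ := fun l => by
  have h1 := h l
  refine ⟨?_, h1.2⟩
  rw [zero_mul]
  exact (mul_nonneg (sq_nonneg m) ((preF (HE G)).nonneg l)).trans h1.1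

/-- **Gram bound of the last covariance** -/
theorem restL_gram (w : BW G) {S : Fld G →ₗ[ℝ] Fld G} (hS : IsNegInv (AopF w) S) {m : ℝ}
    (hm : 0 < m) (h : ABtw (preF (HE G)) (AopF w) (m ^ 2) Λ) (J : ℕ) :
    Gram (restL D w hS J) (gr D w m J) := by
  intro L
  have h1 := EE_restS_le (AopF_asy w) hS hm h (D.r J)
    (fun t ht1 ht2 => D.r_nonneg J t ((sq_nonneg m).trans ht1) ht2) L
  unfold gr
  rw [mwt_ofReal (fun l => √((m⁻¹ • BP (preF (HE G)) (QA (AopF w)) (D.r J)) l l))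
    (fun l => Real.sqrt_nonneg _), Real.enorm_eq_ofReal_abs]
  exact ENNReal.ofReal_le_ofReal h1

variable [CN G] [DecidableEq G]

/-- the form used at the final scale: for a large amplitude the Gram weight is at most the weight of
every polymer -/
theorem gr_le_wU (hM : MM ≤ M) (w : BW G) {m : ℝ} (hm : 0 < m)
    (h : ABtw (preF (HE G)) (AopF w) 0 Λ) (J r : ℕ) (hr0 : 1 ≤ r) (hr : r ≤ 2 ^ J)
    {A : ℝ} (hA : 0 < A) (hA' : 7 * √(D.C / (m * r)) ≤ A) (U : Finset (G × G)) (l : Fld G) :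
    gr D w m J l ≤ wU w A r U l := by
  unfold wU
  refine le_iInf₂ fun x hx => ?_
  split_ifs with hl
  · refine (gr_le_wt D hM hm h J r hr0 hr hA x l).trans ?_
    calc _ ≤ ENNReal.ofReal 1 * wt w A r x l := by
          gcongr
          rw [div_le_one hA]; exact hA'
      _ = _ := by rw [ENNReal.ofReal_one, one_mul]
  · exact le_top

end rest

/-! ### sums over the polymers of a finite volume -/

section sums

variable {X : Type*} [DecidableEq X] {d : X → X → ℕ} {r : ℕ} {Γ : ℝ≥0∞}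

/-- sum of the activities in a finite volume covered by a net -/
theorem sum_nes_le_NN (hΓ : 1 ≤ Γ) (a : Finset X → ℝ≥0∞) (V net : Finset X)
    (hnet : ∀ f ∈ V, ∃ p ∈ net, d p f ≤ r) :
    ∑ U ∈ nes V, a U ≤ net.card * NN d r Γ a := by
  classical
  have h1 : ∑ U ∈ nes V, a U = ∑' U : Finset X, Set.indicator {U | U ∈ nes V} a U := by
    rw [tsum_eq_sum (s := nes V)]
    · exact Finset.sum_congr rfl fun U hU => (Set.indicator_of_mem (by exact hU) _).symm
    · intro U hU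
      exact Set.indicator_of_notMem (by exact hU) _
  rw [h1]
  refine (cover_sum (d := d) (r := r) (P := fun U => U ∈ nes V) a net ?_).trans ?_
  · intro U hU
    obtain ⟨hUV, u, hu⟩ := mem_nes.1 hU
    obtain ⟨p, hp, hpu⟩ := hnet u (hUV hu)
    exact ⟨p, hp, u, hu, hpu⟩
  · calc ∑ g ∈ net, ∑' U : Finset X, Set.indicator {U | near d r g U} a U
        ≤ ∑ g ∈ net, NN d r Γ a := by
          refine Finset.sum_le_sum fun g _ => ?_
          refine le_trans ?_ (bs_le_NN a g)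
          refine ENNReal.tsum_le_tsum fun U => ?_
          by_cases h : near d r g U
          · rw [Set.indicator_of_mem (by exact h), Set.indicator_of_mem (by exact h)]
            calc a U = 1 * a U := (one_mul _).symm
              _ ≤ _ := by gcongr; exact one_le_pow₀ hΓ
          · rw [Set.indicator_of_notMem (by exact h)]
            exact zero_le
      _ = net.card * NN d r Γ a := by rw [Finset.sum_const, nsmul_eq_mul]

end sums

section fin

variable {G : Type} [CommRing G] [CN G] [DecidableEq G]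

/-- sum of the norms of the activities in a finite volume -/
theorem sum_nes_le_NK {Γ : ℝ≥0∞} (hΓ : 1 ≤ Γ) (w : BW G) (A : ℝ) (r : ℕ)
    (K : Finset (G × G) → Gr (Fld G)) (V net : Finset (G × G))
    (hnet : ∀ f ∈ V, ∃ p ∈ net, fd p f ≤ r) :
    ∑ U ∈ nes V, pnorm (wU w A r U) (K U) ≤ net.card * NK w A r Γ (fun _ => True) K := by
  rw [NK_eq_NN]
  refine (Finset.sum_le_sum fun U _ => ?_).trans (sum_nes_le_NN hΓ _ V net hnet)
  rw [act_of trivial]

/-- a net of a subset of a ball -/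
theorem exists_net [GoodG G] {r : ℕ} (hr : 0 < r) (s : ℕ) (x : G × G) :
    ∃ net : Finset (G × G), net.card ≤ (2 * (s / r) + 3) ^ 2 ∧
      ∀ V : Finset (G × G), (∀ f ∈ V, fd x f ≤ s) → ∀ f ∈ V, ∃ p ∈ net, fd p f ≤ r := by
  obtain ⟨net, hn, h⟩ := cov_fd (G := G) hr s x
  exact ⟨net, hn, fun V hV f hf => h f (hV f hf)⟩

variable {Λ : ℝ} {M K : ℕ} (D : FRD Λ M K)

/-- **the final step, norms**: gap `m`, scale `r ≤ 2^J`, amplitude `A ≥ 7 √(C/(m r))` -/
theorem fin_pnorm_le (hM : MM ≤ M) (w : BW G)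
    {m : ℝ} (hm : 0 < m) (h : ABtw (preF (HE G)) (AopF w) 0 Λ) (J r : ℕ) (hr0 : 1 ≤ r)
    (hr : r ≤ 2 ^ J) {A : ℝ} (hA : 0 < A) (hA' : 7 * √(D.C / (m * r)) ≤ A) {Γ : ℝ≥0∞} (hΓ : 1 ≤ Γ)
    (V net : Finset (G × G)) (hnet : ∀ f ∈ V, ∃ p ∈ net, fd p f ≤ r)
    (F : Finset (G × G) → Ge (Fld G)) :
    ∑ U ∈ nes V, pnorm (gr D w m J) (F U : Gr (Fld G)) ≤
      net.card * NK w A r Γ (fun _ => True) (fun U => (F U : Gr (Fld G))) := by
  refine (Finset.sum_le_sum fun U _ => ?_).trans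
    (sum_nes_le_NK hΓ w A r (fun U => (F U : Gr (Fld G))) V net hnet)
  exact pnorm_le_pnorm (fun l => gr_le_wU D hM w hm h J r hr0 hr hA hA' U l) _

/-- **the final step**: gap `m`, scale `r ≤ 2^J`, amplitude `A ≥ 7 √(C/(m r))`; if the volume `V` is
covered by the net and `#net * NK ≤ δ ≤ 1`, then the remaining partition function is `1 + O(δ)` -/
theorem fin_bound (hM : MM ≤ M) (w : BW G) {S : Fld G →ₗ[ℝ] Fld G} (hS : IsNegInv (AopF w) S)
    {m : ℝ} (hm : 0 < m) (h : ABtw (preF (HE G)) (AopF w) (m ^ 2) Λ) (J r : ℕ) (hr0 : 1 ≤ r)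
    (hr : r ≤ 2 ^ J) {A : ℝ} (hA : 0 < A) (hA' : 7 * √(D.C / (m * r)) ≤ A) {Γ : ℝ≥0∞} (hΓ : 1 ≤ Γ)
    (nr : G × G → G × G → Prop) (V net : Finset (G × G)) (hnet : ∀ f ∈ V, ∃ p ∈ net, fd p f ≤ r)
    (F : Finset (G × G) → Ge (Fld G)) {δ : ℝ} (hδ0 : 0 ≤ δ) (hδ1 : δ ≤ 1)
    (hF : net.card * NK w A r Γ (fun _ => True) (fun U => (F U : Gr (Fld G))) ≤ ENNReal.ofReal δ) :
    |EE (restL D w hS J) ((ZZ nr V F : Ge (Fld G)) : Gr (Fld G)) - 1| ≤ 2 * δ :=
  EE_zz_sub_one_le (restL_gram D w hS hm h J) nr V F hδ0 hδ1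
    ((fin_pnorm_le D hM w hm (gap_zero h) J r hr0 hr hA hA' hΓ V net hnet F).trans hF)

/-- the same for the covariance `restC` of a lattice kernel -/
theorem fin_boundC (hM : MM ≤ M) (w : BW G) {S : HE G → HE G → ℝ}
    (hS : ∀ h h', S h h' = -S h' h)
    (hinv : ∀ g h', Aop w (fun h => S h h') g = -(Pi.single h' 1 : HE G → ℝ) g)
    (hfin : ∀ h', {h | S h h' ≠ 0}.Finite)
    {m : ℝ} (hm : 0 < m) (h : ABtw (preF (HE G)) (AopF w) (m ^ 2) Λ) (J r : ℕ) (hr0 : 1 ≤ r)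
    (hr : r ≤ 2 ^ J) {A : ℝ} (hA : 0 < A) (hA' : 7 * √(D.C / (m * r)) ≤ A) {Γ : ℝ≥0∞} (hΓ : 1 ≤ Γ)
    (nr : G × G → G × G → Prop) (V net : Finset (G × G)) (hnet : ∀ f ∈ V, ∃ p ∈ net, fd p f ≤ r)
    (F : Finset (G × G) → Ge (Fld G)) {δ : ℝ} (hδ0 : 0 ≤ δ) (hδ1 : δ ≤ 1)
    (hF : net.card * NK w A r Γ (fun _ => True) (fun U => (F U : Gr (Fld G))) ≤ ENNReal.ofReal δ) :
    |EE (restC D hS hinv hfin J) ((ZZ nr V F : Ge (Fld G)) : Gr (Fld G)) - 1| ≤ 2 * δ :=
  fin_bound D hM w (isNegInv hS hinv hfin) hm h J r hr0 hr hA hA' hΓ nr V net hnet F hδ0 hδ1 hF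

end fin

end Crest.Agent.R165.Fin0x315
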