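import Crest.Agent.R165.NSum_915

/-!
# Row 165, block F, leaf P10: sums of local constants (helper930)

Everything is stated for an arbitrary `ℕ`-valued pseudo-distance `d` (`Pack_915`).

* `Avoids d R x U` : a ball contains the `R`-neighbourhood of `U` but not `x`
* `diam_lt` : a set connected at range `R` has diameter `< (R + r + 1) * pack d r U`
* `sum_le_tail` : sum over the polymers which do not avoid `x` and have `pack ≥ m0`
* `one_scale` : `∑_U (c^{D,X}(U) - c^D(U)) = ∑_i ζ_i + error`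
* `limit` : sum over the scales, dominated convergence
-/

set_option autoImplicit false

noncomputable section

namespace Crest.Agent.R165.Spinx930

open Finset Filter Topology
open scoped ENNReal
open Crest.Agent.R165.Packx915 Crest.Agent.R165.NSumx915

variable {X : Type*} {d : X → X → ℕ} {r R : ℕ} {Γ : ℝ≥0∞}

/-- there is a ball containing the `R`-neighbourhood of `U` and not the point `x` -/
def Avoids (d : X → X → ℕ) (R : ℕ) (x : X) (U : Finset X) : Prop :=
  ∃ u ∈ U, ∃ s, (∀ v ∈ U, d u v ≤ s) ∧ s + R < d u x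

/-- diameter of a connected set -/
theorem diam_lt (hd : PD d) {U : Finset X} (hU : Conn d R U) {p q : X} (hp : p ∈ U)
    (hq : q ∈ U) : d p q < (R + r + 1) * pack d r U := by
  classical
  by_contra hcon
  rw [not_lt] at hcon
  set n := pack d r U with hn
  have key : ∀ j : ℕ, ∃ x ∈ U, j ≤ n → j * (R + r + 1) ≤ d p x ∧ d p x ≤ j * (R + r + 1) + R := by
    intro j
    by_cases hj : j ≤ n
    · rcases Nat.eq_zero_or_pos j with rfl | hpos
      · exact ⟨p, hp, fun _ => ⟨by simp, by rw [hd.self]; omega⟩⟩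
      · have h1 : j * (R + r + 1) ≤ n * (R + r + 1) := Nat.mul_le_mul_right _ hj
        have h2 : n * (R + r + 1) = (R + r + 1) * n := Nat.mul_comm _ _
        obtain ⟨x, hx, h3, h4⟩ := hU.exists_level hd hp hq
          (t := j * (R + r + 1)) (Nat.mul_pos hpos (by omega)) (by omega)
        exact ⟨x, hx, fun _ => ⟨h3, by omega⟩⟩
    · exact ⟨p, hp, fun h => absurd h hj⟩
  choose f hf hfj using key
  have hlt : ∀ i j : ℕ, i < j → j ≤ n → r < d (f i) (f j) := by
    intro i j hij hj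
    have h1 := (hfj i (by omega)).2
    have h2 := (hfj j hj).1
    have h3 := hd.tri p (f i) (f j)
    have h4 : (i + 1) * (R + r + 1) ≤ j * (R + r + 1) := Nat.mul_le_mul_right _ hij
    have h5 : (i + 1) * (R + r + 1) = i * (R + r + 1) + (R + r + 1) := by ring
    omega
  have hsep : ∀ i ∈ Finset.range (n + 1), ∀ j ∈ Finset.range (n + 1), i ≠ j →
      r < d (f i) (f j) := by
    intro i hi j hj hne
    rw [Finset.mem_range] at hi hj
    rcases lt_or_gt_of_ne hne with h | h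
    · exact hlt i j h (by omega)
    · rw [hd.symm]; exact hlt j i h (by omega)
  have hinj : Set.InjOn f (Finset.range (n + 1) : Set ℕ) := by
    intro i hi j hj he
    by_contra hne
    have := hsep i hi j hj hne
    rw [he, hd.self] at this
    omega
  have himg : Packx915.Sep d r ((Finset.range (n + 1)).image f) := by
    intro a ha b hb hab
    obtain ⟨i, hi, rfl⟩ := Finset.mem_image.1 ha
    obtain ⟨j, hj, rfl⟩ := Finset.mem_image.1 hb
    exact hsep i hi j hj fun he => hab (by rw [he])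
  have hsub : (Finset.range (n + 1)).image f ⊆ U := by
    intro a ha
    obtain ⟨i, -, rfl⟩ := Finset.mem_image.1 ha
    exact hf i
  have hfin := card_le_pack hsub himg
  rw [Finset.card_image_of_injOn hinj, Finset.card_range] at hfin
  omega

/-- a set which does not avoid `x` is close to `x` -/
theorem dist_le_of_not_avoids (hd : PD d) {U : Finset X} (hU : Conn d R U) {R' : ℕ} {x u : X}
    (h : ¬ Avoids d R' x U) (hu : u ∈ U) : d u x ≤ (R + r + 1) * pack d r U + R' := by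
  by_contra hcon
  rw [not_le] at hcon
  exact h ⟨u, hu, (R + r + 1) * pack d r U, fun v hv => (diam_lt hd hU hu hv).le, hcon⟩

/-- weight of the large polymers -/
def tail (cn : ℕ → ℕ) (Γ : ℝ≥0∞) (m0 : ℕ) : ℝ≥0∞ :=
  ∑' m : ℕ, if m0 ≤ m then (cn m : ℝ≥0∞) * Γ⁻¹ ^ m else 0

theorem sum_le_tail (hd : PD d) (hΓ0 : Γ ≠ 0) (hΓt : Γ ≠ ∞) {R' : ℕ} {cn : ℕ → ℕ} (x : X)
    (hcov : ∀ m, Cov d ((R + r + 1) * m + R') r (cn m))
    (a : Finset X → ℝ≥0∞) {m0 : ℕ}
    (h : ∀ U, a U ≠ 0 → U.Nonempty ∧ Conn d R U ∧ ¬ Avoids d R' x U ∧ m0 ≤ pack d r U) :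
    ∑' U, a U ≤ NN d r Γ a * tail cn Γ m0 := by
  classical
  have h1 : ∀ U, a U = ∑' m : ℕ, if m0 ≤ m ∧ pack d r U = m ∧ a U ≠ 0 then
      Γ⁻¹ ^ m * (Γ ^ pack d r U * a U) else 0 := by
    intro U
    by_cases h0 : a U = 0
    · simp [h0]
    · rw [tsum_eq_single (pack d r U)]
      · rw [if_pos ⟨(h U h0).2.2.2, rfl, h0⟩, ← mul_assoc, ← mul_pow, ENNReal.inv_mul_cancel hΓ0 hΓt,
          one_pow, one_mul]
      · intro m hm
        rw [if_neg]
        rintro ⟨-, h2, -⟩
        exact hm h2.symm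
  calc ∑' U, a U = ∑' U, ∑' m : ℕ, (if m0 ≤ m ∧ pack d r U = m ∧ a U ≠ 0 then
      Γ⁻¹ ^ m * (Γ ^ pack d r U * a U) else 0) := tsum_congr h1
    _ = ∑' m : ℕ, ∑' U, (if m0 ≤ m ∧ pack d r U = m ∧ a U ≠ 0 then
      Γ⁻¹ ^ m * (Γ ^ pack d r U * a U) else 0) := ENNReal.tsum_comm
    _ ≤ ∑' m : ℕ, NN d r Γ a * (if m0 ≤ m then (cn m : ℝ≥0∞) * Γ⁻¹ ^ m else 0) := by
        refine ENNReal.tsum_le_tsum fun m => ?_
        by_cases hm : m0 ≤ m
        · rw [if_pos hm]
          obtain ⟨net, hc, hnet⟩ := (hcov m).net x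
          have h2 := cover_sum (d := d) (r := r) (P := fun U => pack d r U = m ∧ a U ≠ 0)
            (fun U => Γ ^ pack d r U * a U) net (fun U hU => by
              refine hnet U ?_
              obtain ⟨⟨u, hu⟩, hc, hav, -⟩ := h U hU.2
              refine ⟨u, hu, ?_⟩
              have := dist_le_of_not_avoids (r := r) hd hc hav hu
              rw [hU.1] at this
              rw [hd.symm]
              exact this)
          have h3 : ∀ g ∈ net, (∑' U : Finset X, Set.indicator {U | near d r g U}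
              (fun U => Γ ^ pack d r U * a U) U) ≤ NN d r Γ a := fun g _ => bs_le_NN a g
          have h4 : (∑' U : Finset X, Set.indicator {U | pack d r U = m ∧ a U ≠ 0}
              (fun U => Γ ^ pack d r U * a U) U) ≤ (cn m : ℝ≥0∞) * NN d r Γ a := by
            refine h2.trans ((Finset.sum_le_sum h3).trans ?_)
            rw [Finset.sum_const, nsmul_eq_mul]
            exact mul_le_mul_left (Nat.cast_le.2 hc) _
          have h5 : (∑' U, (if m0 ≤ m ∧ pack d r U = m ∧ a U ≠ 0 then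
              Γ⁻¹ ^ m * (Γ ^ pack d r U * a U) else 0)) =
              Γ⁻¹ ^ m * ∑' U : Finset X, Set.indicator {U | pack d r U = m ∧ a U ≠ 0}
              (fun U => Γ ^ pack d r U * a U) U := by
            rw [← ENNReal.tsum_mul_left]
            refine tsum_congr fun U => ?_
            by_cases hU : pack d r U = m ∧ a U ≠ 0
            · rw [if_pos ⟨hm, hU⟩, Set.indicator_of_mem (by exact hU)]
            · rw [if_neg (fun h => hU h.2), Set.indicator_of_notMem (by exact hU), mul_zero]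
          rw [h5]
          calc Γ⁻¹ ^ m * _ ≤ Γ⁻¹ ^ m * ((cn m : ℝ≥0∞) * NN d r Γ a) := mul_le_mul_right h4 _
            _ = NN d r Γ a * ((cn m : ℝ≥0∞) * Γ⁻¹ ^ m) := by ring
        · rw [if_neg hm, mul_zero]
          refine le_of_eq ?_
          rw [ENNReal.tsum_eq_zero]
          intro U
          rw [if_neg (fun h => hm h.1)]
    _ = NN d r Γ a * tail cn Γ m0 := by rw [ENNReal.tsum_mul_left]; rfl

/-- the tail is exponentially small -/
theorem tail_le {cn : ℕ → ℕ} {A : ℕ} (hcn : ∀ m, cn m ≤ A * 2 ^ m) (hΓ : 4 ≤ Γ) (m0 : ℕ) :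
    tail cn Γ m0 ≤ 2 * A * 2⁻¹ ^ m0 := by
  have h1 : ∀ m : ℕ, (if m0 ≤ m then (cn m : ℝ≥0∞) * Γ⁻¹ ^ m else 0) ≤
      if m0 ≤ m then (A : ℝ≥0∞) * 2⁻¹ ^ m else 0 := by
    intro m
    by_cases hm : m0 ≤ m
    · rw [if_pos hm, if_pos hm]
      have h2 : (cn m : ℝ≥0∞) ≤ A * 2 ^ m := by exact_mod_cast hcn m
      have h3 : Γ⁻¹ ^ m ≤ (2⁻¹ ^ m) * (2⁻¹ ^ m) := by
        rw [← mul_pow, ← ENNReal.mul_inv (by simp) (by simp)]
        refine pow_le_pow_left' (ENNReal.inv_le_inv.2 (le_trans ?_ hΓ)) m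
        norm_num
      calc (cn m : ℝ≥0∞) * Γ⁻¹ ^ m ≤ (A * 2 ^ m) * ((2⁻¹ ^ m) * (2⁻¹ ^ m)) := mul_le_mul' h2 h3
        _ = A * ((2 * 2⁻¹) ^ m * 2⁻¹ ^ m) := by rw [mul_pow]; ring
        _ = A * 2⁻¹ ^ m := by
          rw [ENNReal.mul_inv_cancel (by simp) (by simp), one_pow, one_mul]
    · rw [if_neg hm, if_neg hm]
  refine (ENNReal.tsum_le_tsum h1).trans ?_
  have h2 : (∑' m : ℕ, if m0 ≤ m then (A : ℝ≥0∞) * 2⁻¹ ^ m else 0) =
      ∑' m : ℕ, (A : ℝ≥0∞) * 2⁻¹ ^ (m + m0) := by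
    rw [← ENNReal.summable.sum_add_tsum_nat_add' (k := m0) (f := fun m : ℕ =>
      if m0 ≤ m then (A : ℝ≥0∞) * 2⁻¹ ^ m else 0)]
    rw [Finset.sum_eq_zero, zero_add]
    · refine tsum_congr fun m => ?_
      rw [if_pos (by omega)]
    · intro m hm
      rw [Finset.mem_range] at hm
      rw [if_neg (by omega)]
  rw [h2]
  have h3 : ∀ m : ℕ, (A : ℝ≥0∞) * 2⁻¹ ^ (m + m0) = (A * 2⁻¹ ^ m0) * 2⁻¹ ^ m := by
    intro m; rw [pow_add]; ring
  simp_rw [h3]
  rw [ENNReal.tsum_mul_left, ENNReal.tsum_geometric, ENNReal.one_sub_inv_two, inv_inv]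
  refine le_of_eq ?_
  ring

/-! ### one scale -/

/-- summability and size of a real function from the bound of its absolute value -/
theorem summable_of_le {β : Type*} {f : β → ℝ} {B : ℝ≥0∞} (hB : B ≠ ∞)
    (h : ∑' b, ENNReal.ofReal |f b| ≤ B) :
    Summable f ∧ ENNReal.ofReal |∑' b, f b| ≤ B := by
  have hne : ∑' b, ENNReal.ofReal |f b| ≠ ∞ := ne_top_of_le_ne_top hB h
  have hs : Summable fun b => |f b| := by
    have h1 := ENNReal.summable_toReal hne
    refine h1.congr fun b => ?_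
    rw [ENNReal.toReal_ofReal (abs_nonneg _)]
  refine ⟨hs.of_abs, ?_⟩
  refine le_trans ?_ h
  rw [← ENNReal.ofReal_tsum_of_nonneg (fun b => abs_nonneg _) hs]
  refine ENNReal.ofReal_le_ofReal ?_
  have := norm_tsum_le_tsum_norm (f := f) (by simpa [Real.norm_eq_abs] using hs)
  simpa [Real.norm_eq_abs] using this

theorem ofReal_abs_sub_le (a b : ℝ) :
    ENNReal.ofReal |a - b| ≤ ENNReal.ofReal |a| + ENNReal.ofReal |b| := by
  rw [← ENNReal.ofReal_add (abs_nonneg _) (abs_nonneg _)]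
  exact ENNReal.ofReal_le_ofReal (abs_sub _ _)

/-- norm of a difference of constants -/
theorem NN_sub_le (c c' : Finset X → ℝ) : NN d r Γ (fun U => ENNReal.ofReal |c U - c' U|) ≤
    NN d r Γ (fun U => ENNReal.ofReal |c U|) + NN d r Γ (fun U => ENNReal.ofReal |c' U|) :=
  (NN_mono fun U => ofReal_abs_sub_le (c U) (c' U)).trans (NN_add_le _ _)

/-- the local difference of constants around one point is summable -/
theorem point_sum (hd : PD d) (hΓ0 : Γ ≠ 0) (hΓt : Γ ≠ ∞) {R' : ℕ} {cn : ℕ → ℕ} (x : X)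
    (hcov : ∀ m, Cov d ((R + r + 1) * m + R') r (cn m))
    (cB cP : Finset X → ℝ) {ε : ℝ≥0∞} (hε : ε ≠ ∞) {m0 : ℕ} (htail : tail cn Γ m0 ≠ ∞)
    (hεB : NN d r Γ (fun U => ENNReal.ofReal |cB U|) ≤ ε)
    (hεP : NN d r Γ (fun U => ENNReal.ofReal |cP U|) ≤ ε)
    (hconn : ∀ U, (cB U ≠ 0 ∨ cP U ≠ 0) → U.Nonempty ∧ Conn d R U)
    (h6 : ∀ U, Avoids d R' x U → cB U = cP U)
    (hfar : ∀ U, cB U ≠ cP U → m0 ≤ pack d r U) :
    Summable (fun U => cB U - cP U) ∧
      ENNReal.ofReal |∑' U, (cB U - cP U)| ≤ 2 * ε * tail cn Γ m0 := by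
  refine summable_of_le (ENNReal.mul_ne_top (ENNReal.mul_ne_top (by simp) hε) htail) ?_
  refine (sum_le_tail hd hΓ0 hΓt x hcov _ (m0 := m0) ?_).trans ?_
  · intro U hU
    have hne : cB U ≠ cP U := by
      intro he
      apply hU
      rw [he, sub_self, abs_zero, ENNReal.ofReal_zero]
    have h1 : cB U ≠ 0 ∨ cP U ≠ 0 := by
      by_contra hcon
      push Not at hcon
      exact hne (hcon.1.trans hcon.2.symm)
    exact ⟨(hconn U h1).1, (hconn U h1).2, fun hav => hne (h6 U hav), hfar U hne⟩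
  · refine mul_le_mul_left ?_ _
    refine (NN_sub_le _ _).trans ?_
    rw [two_mul]
    exact add_le_add hεB hεP

/-- **ONE SCALE.**  `c1 = c^{D,X}`, `c2 = c^D`, `cB i` = constants of the background with the only
branch point `x i`, `cP` = plane constants. -/
theorem one_scale {ι : Type*} [Fintype ι] (hd : PD d) (hΓ0 : Γ ≠ 0) (hΓt : Γ ≠ ∞) {R' ρ m0 : ℕ}
    {cn : ℕ → ℕ} (x : ι → X) (hcov : ∀ m, Cov d ((R + r + 1) * m + R') r (cn m))
    (htail : tail cn Γ 0 ≠ ∞) {ε : ℝ≥0∞} (hε : ε ≠ ∞)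
    (c1 c2 cP : Finset X → ℝ) (cB : ι → Finset X → ℝ)
    (hε1 : NN d r Γ (fun U => ENNReal.ofReal |c1 U|) ≤ ε)
    (hε2 : NN d r Γ (fun U => ENNReal.ofReal |c2 U|) ≤ ε)
    (hεP : NN d r Γ (fun U => ENNReal.ofReal |cP U|) ≤ ε)
    (hεB : ∀ i, NN d r Γ (fun U => ENNReal.ofReal |cB i U|) ≤ ε)
    (hconn12 : ∀ U, (c1 U ≠ 0 ∨ c2 U ≠ 0) → U.Nonempty ∧ Conn d R U)
    (hconnB : ∀ i U, (cB i U ≠ 0 ∨ cP U ≠ 0) → U.Nonempty ∧ Conn d R U)
    (h4 : ∀ U, (∀ i, Avoids d R' (x i) U) → c1 U = c2 U)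
    (h5 : ∀ i U, (∀ u ∈ U, d (x i) u ≤ ρ) → c1 U - c2 U = cB i U - cP U)
    (h6 : ∀ i U, Avoids d R' (x i) U → cB i U = cP U)
    (hsep : ∀ i j, i ≠ j → 2 * ρ < d (x i) (x j))
    (hm0 : (R + r + 1) * m0 + R' ≤ ρ) :
    Summable (fun U => c1 U - c2 U) ∧ (∀ i, Summable (fun U => cB i U - cP U)) ∧
      ENNReal.ofReal |∑' U, (c1 U - c2 U) - ∑ i, ∑' U, (cB i U - cP U)| ≤
        4 * Fintype.card ι * (ε * tail cn Γ m0) := by
  classical
  -- the tail decreases
  have htm : tail cn Γ m0 ≤ tail cn Γ 0 := by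
    refine ENNReal.tsum_le_tsum fun m => ?_
    by_cases hm : m0 ≤ m
    · rw [if_pos hm, if_pos (Nat.zero_le _)]
    · rw [if_neg hm]; exact zero_le
  have htail' : tail cn Γ m0 ≠ ∞ := ne_top_of_le_ne_top htail htm
  -- far sets are large
  have hlarge : ∀ i (U : Finset X), Conn d R U → ¬ Avoids d R' (x i) U →
      (∃ u ∈ U, ρ < d (x i) u) → m0 ≤ pack d r U := by
    intro i U hc hav ⟨u, hu, hlt⟩
    have h1 := dist_le_of_not_avoids (r := r) hd hc hav hu
    rw [hd.symm] at hlt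
    by_contra hcon
    rw [not_le] at hcon
    have h2 : (R + r + 1) * pack d r U ≤ (R + r + 1) * m0 := Nat.mul_le_mul_left _ hcon.le
    omega
  -- the inside parts
  let hin : ι → Finset X → ℝ := fun i U => if ∀ u ∈ U, d (x i) u ≤ ρ then cB i U - cP U else 0
  let hout : ι → Finset X → ℝ := fun i U =>
    if ∀ u ∈ U, d (x i) u ≤ ρ then 0 else cB i U - cP U
  have hB : ∀ i, Summable (fun U => cB i U - cP U) := fun i =>
    (point_sum hd hΓ0 hΓt (x i) hcov (cB i) cP hε (m0 := 0) htail (hεB i) hεP (hconnB i) (h6 i)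
      (fun _ _ => Nat.zero_le _)).1
  have hout' : ∀ i, Summable (hout i) ∧
      ENNReal.ofReal |∑' U, hout i U| ≤ 2 * ε * tail cn Γ m0 := by
    intro i
    refine summable_of_le (ENNReal.mul_ne_top (ENNReal.mul_ne_top (by simp) hε) htail') ?_
    refine (sum_le_tail hd hΓ0 hΓt (x i) hcov _ (m0 := m0) ?_).trans ?_
    · intro U hU
      have h0 : hout i U ≠ 0 := by
        intro he
        apply hU
        rw [he, abs_zero, ENNReal.ofReal_zero]
      have hnot : ¬ ∀ u ∈ U, d (x i) u ≤ ρ := by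
        intro h
        exact h0 (if_pos h)
      have h1 : cB i U - cP U ≠ 0 := by
        intro he
        apply h0
        simp only [hout, if_neg hnot, he]
      have hne : cB i U ≠ cP U := fun he => h1 (by rw [he, sub_self])
      have h2 : cB i U ≠ 0 ∨ cP U ≠ 0 := by
        by_contra hcon
        push Not at hcon
        exact hne (hcon.1.trans hcon.2.symm)
      have hcc := hconnB i U h2
      have hav : ¬ Avoids d R' (x i) U := fun hav => hne (h6 i U hav)
      push Not at hnot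
      exact ⟨hcc.1, hcc.2, hav, hlarge i U hcc.2 hav hnot⟩
    · refine mul_le_mul_left ?_ _
      refine (NN_mono (b := fun U => ENNReal.ofReal |cB i U - cP U|) fun U => ?_).trans
        ((NN_sub_le _ _).trans ?_)
      · by_cases h : ∀ u ∈ U, d (x i) u ≤ ρ
        · simp only [hout, if_pos h, abs_zero, ENNReal.ofReal_zero]
          exact zero_le
        · simp only [hout, if_neg h]
          exact le_rfl
      · rw [two_mul]
        exact add_le_add (hεB i) hεP
  have hin' : ∀ i, Summable (hin i) ∧ ∑' U, hin i U =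
      ∑' U, (cB i U - cP U) - ∑' U, hout i U := by
    intro i
    have he : hin i = fun U => (cB i U - cP U) - hout i U := by
      funext U
      by_cases h : ∀ u ∈ U, d (x i) u ≤ ρ
      · simp only [hin, hout, if_pos h, sub_zero]
      · simp only [hin, hout, if_neg h, sub_self]
    rw [he]
    exact ⟨(hB i).sub (hout' i).1, (hB i).tsum_sub (hout' i).1⟩
  -- the remainder
  let e : Finset X → ℝ := fun U => (c1 U - c2 U) - ∑ i, hin i U
  have he0 : ∀ U, e U ≠ 0 → c1 U ≠ c2 U ∧ e U = c1 U - c2 U ∧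
      ∀ i, ∃ u ∈ U, ρ < d (x i) u := by
    intro U hU
    by_cases hex : ∃ i, ∀ u ∈ U, d (x i) u ≤ ρ
    · exfalso
      obtain ⟨i, hi⟩ := hex
      by_cases hne : U.Nonempty
      · obtain ⟨u, hu⟩ := hne
        have hother : ∀ j, j ≠ i → ¬ ∀ u ∈ U, d (x j) u ≤ ρ := by
          intro j hji hj
          have h1 := hi u hu
          have h2 := hj u hu
          have h3 := hsep j i hji
          have h4 := hd.tri (x j) u (x i)
          have h5 := hd.symm u (x i)
          omega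
        apply hU
        have h1 : ∑ j, hin j U = hin i U := by
          refine Finset.sum_eq_single i (fun j _ hji => ?_) (fun h => absurd (Finset.mem_univ i) h)
          simp only [hin, if_neg (hother j hji)]
        simp only [e, h1]
        simp only [hin, if_pos hi]
        rw [h5 i U hi, sub_self]
      · rw [Finset.not_nonempty_iff_eq_empty] at hne
        subst hne
        have h1 : c1 ∅ = 0 ∧ c2 ∅ = 0 := by
          constructor
          · by_contra h
            exact absurd (hconn12 ∅ (Or.inl h)).1 Finset.not_nonempty_empty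
          · by_contra h
            exact absurd (hconn12 ∅ (Or.inr h)).1 Finset.not_nonempty_empty
        have h2 : ∀ j, cB j ∅ = 0 ∧ cP ∅ = 0 := by
          intro j
          constructor
          · by_contra h
            exact absurd (hconnB j ∅ (Or.inl h)).1 Finset.not_nonempty_empty
          · by_contra h
            exact absurd (hconnB j ∅ (Or.inr h)).1 Finset.not_nonempty_empty
        apply hU
        simp only [e, hin]
        rw [h1.1, h1.2, Finset.sum_eq_zero]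
        · simp
        · intro j _
          rw [(h2 j).1, (h2 j).2]
          simp
    · push Not at hex
      have h1 : ∑ j, hin j U = 0 := by
        refine Finset.sum_eq_zero fun j _ => ?_
        have : ¬ ∀ u ∈ U, d (x j) u ≤ ρ := by
          push Not
          exact hex j
        simp only [hin, if_neg this]
      have h2 : e U = c1 U - c2 U := by simp only [e, h1, sub_zero]
      refine ⟨fun he => hU (by rw [h2, he, sub_self]), h2, hex⟩
  let a : ι → Finset X → ℝ≥0∞ := fun i U =>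
    if Avoids d R' (x i) U then 0 else ENNReal.ofReal |e U|
  have hea : ∀ U, ENNReal.ofReal |e U| ≤ ∑ i, a i U := by
    intro U
    by_cases h0 : e U = 0
    · rw [h0, abs_zero, ENNReal.ofReal_zero]; exact zero_le
    · have h1 : ∃ i, ¬ Avoids d R' (x i) U := by
        by_contra hcon
        push Not at hcon
        exact (he0 U h0).1 (h4 U hcon)
      obtain ⟨i, hi⟩ := h1
      refine le_trans ?_ (Finset.single_le_sum (f := fun i => a i U) (fun _ _ => zero_le)
        (Finset.mem_univ i))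
      simp only [a, if_neg hi]
      exact le_rfl
  have hai : ∀ i, ∑' U, a i U ≤ 2 * ε * tail cn Γ m0 := by
    intro i
    refine (sum_le_tail hd hΓ0 hΓt (x i) hcov _ (m0 := m0) ?_).trans ?_
    · intro U hU
      have hav : ¬ Avoids d R' (x i) U := by
        intro h
        apply hU
        simp only [a, if_pos h]
      have h0 : e U ≠ 0 := by
        intro h
        apply hU
        simp only [a, if_neg hav, h, abs_zero, ENNReal.ofReal_zero]
      obtain ⟨h1, -, h3⟩ := he0 U h0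
      have h2 : c1 U ≠ 0 ∨ c2 U ≠ 0 := by
        by_contra hcon
        push Not at hcon
        exact h1 (hcon.1.trans hcon.2.symm)
      have hcc := hconn12 U h2
      exact ⟨hcc.1, hcc.2, hav, hlarge i U hcc.2 hav (h3 i)⟩
    · refine mul_le_mul_left ?_ _
      refine (NN_mono (b := fun U => ENNReal.ofReal |c1 U - c2 U|) fun U => ?_).trans
        ((NN_sub_le _ _).trans ?_)
      · by_cases h : Avoids d R' (x i) U
        · simp only [a, if_pos h]; exact zero_le
        · simp only [a, if_neg h]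
          by_cases h0 : e U = 0
          · rw [h0, abs_zero, ENNReal.ofReal_zero]; exact zero_le
          · rw [(he0 U h0).2.1]
      · rw [two_mul]
        exact add_le_add hε1 hε2
  have he : Summable e ∧ ENNReal.ofReal |∑' U, e U| ≤
      Fintype.card ι * (2 * ε * tail cn Γ m0) := by
    refine summable_of_le (ENNReal.mul_ne_top (by simp)
      (ENNReal.mul_ne_top (ENNReal.mul_ne_top (by simp) hε) htail')) ?_
    refine (ENNReal.tsum_le_tsum hea).trans ?_
    rw [Summable.tsum_finsetSum fun _ _ => ENNReal.summable]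
    refine (Finset.sum_le_sum fun i _ => hai i).trans ?_
    rw [Finset.sum_const, nsmul_eq_mul, Finset.card_univ]
  have hDe : (fun U => c1 U - c2 U) = fun U => e U + ∑ i, hin i U := by
    funext U
    simp only [e]
    ring
  have hsumin : Summable fun U => ∑ i, hin i U := summable_sum fun i _ => (hin' i).1
  refine ⟨by rw [hDe]; exact he.1.add hsumin, hB, ?_⟩
  have hmain : ∑' U, (c1 U - c2 U) - ∑ i, ∑' U, (cB i U - cP U) =
      ∑' U, e U - ∑ i, ∑' U, hout i U := by
    have h1 : ∑' U, (c1 U - c2 U) = ∑' U, e U + ∑ i, ∑' U, hin i U := by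
      rw [hDe, he.1.tsum_add hsumin, Summable.tsum_finsetSum fun i _ => (hin' i).1]
    rw [h1]
    have h2 : ∑ i, ∑' U, hin i U = ∑ i, ∑' U, (cB i U - cP U) - ∑ i, ∑' U, hout i U := by
      rw [← Finset.sum_sub_distrib]
      exact Finset.sum_congr rfl fun i _ => (hin' i).2
    rw [h2]
    ring
  rw [hmain]
  refine (ofReal_abs_sub_le _ _).trans ?_
  have h3 : ENNReal.ofReal |∑ i, ∑' U, hout i U| ≤ Fintype.card ι * (2 * ε * tail cn Γ m0) := by
    refine (ENNReal.ofReal_le_ofReal (Finset.abs_sum_le_sum_abs _ _)).trans ?_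
    rw [ENNReal.ofReal_sum_of_nonneg fun i _ => abs_nonneg _]
    refine (Finset.sum_le_sum fun i _ => (hout' i).2).trans ?_
    rw [Finset.sum_const, nsmul_eq_mul, Finset.card_univ]
  calc _ ≤ Fintype.card ι * (2 * ε * tail cn Γ m0) + Fintype.card ι * (2 * ε * tail cn Γ m0) :=
        add_le_add he.2 h3
    _ = 4 * Fintype.card ι * (ε * tail cn Γ m0) := by ring

/-! ### the limit -/

/-- the hypotheses of `one_scale` at one scale -/
structure SD {ι : Type*} (d : X → X → ℕ) (r R R' ρ : ℕ) (Γ ε : ℝ≥0∞) (x : ι → X)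
    (c1 c2 cP : Finset X → ℝ) (cB : ι → Finset X → ℝ) : Prop where
  ε1 : NN d r Γ (fun U => ENNReal.ofReal |c1 U|) ≤ ε
  ε2 : NN d r Γ (fun U => ENNReal.ofReal |c2 U|) ≤ ε
  εP : NN d r Γ (fun U => ENNReal.ofReal |cP U|) ≤ ε
  εB : ∀ i, NN d r Γ (fun U => ENNReal.ofReal |cB i U|) ≤ ε
  /-- polymers are nonempty and connected at range `R` -/
  conn12 : ∀ U, (c1 U ≠ 0 ∨ c2 U ≠ 0) → U.Nonempty ∧ Conn d R U
  connB : ∀ i U, (cB i U ≠ 0 ∨ cP U ≠ 0) → U.Nonempty ∧ Conn d R U
  /-- far from the insertions nothing is seen -/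
  h4 : ∀ U, (∀ i, Avoids d R' (x i) U) → c1 U = c2 U
  /-- close to one insertion the background is plane with one branch point -/
  h5 : ∀ i U, (∀ u ∈ U, d (x i) u ≤ ρ) → c1 U - c2 U = cB i U - cP U
  h6 : ∀ i U, Avoids d R' (x i) U → cB i U = cP U
  sep : ∀ i j, i ≠ j → 2 * ρ < d (x i) (x j)
  R'le : R' ≤ ρ

/-- error at one scale, real form -/
theorem SD.err {ι : Type*} [Fintype ι] (hd : PD d) (hΓ4 : 4 ≤ Γ) (hΓt : Γ ≠ ∞) {R' ρ : ℕ}
    {cn : ℕ → ℕ} {A : ℕ} (hcn : ∀ m, cn m ≤ A * 2 ^ m) {x : ι → X}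
    (hcov : ∀ m, Cov d ((R + r + 1) * m + R') r (cn m)) {E : ℝ} (hE : 0 ≤ E)
    {c1 c2 cP : Finset X → ℝ} {cB : ι → Finset X → ℝ}
    (h : SD d r R R' ρ Γ (ENNReal.ofReal E) x c1 c2 cP cB) :
    Summable (fun U => c1 U - c2 U) ∧ (∀ i, Summable (fun U => cB i U - cP U)) ∧
      |∑' U, (c1 U - c2 U) - ∑ i, ∑' U, (cB i U - cP U)| ≤
        8 * Fintype.card ι * A * E * (1 / 2) ^ ((ρ - R') / (R + r + 1)) := by
  have hΓ0 : Γ ≠ 0 := fun h0 => by
    rw [h0] at hΓ4
    exact absurd hΓ4 (by norm_num)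
  set m0 := (ρ - R') / (R + r + 1) with hm0
  have hm0' : (R + r + 1) * m0 + R' ≤ ρ := by
    have h1 : (R + r + 1) * m0 ≤ ρ - R' := Nat.mul_div_le (ρ - R') (R + r + 1)
    have h2 := h.R'le
    omega
  have ht : ∀ m, tail cn Γ m ≤ 2 * A * 2⁻¹ ^ m := tail_le hcn hΓ4
  have ht0 : tail cn Γ 0 ≠ ∞ := by
    refine ne_top_of_le_ne_top ?_ (ht 0)
    rw [pow_zero, mul_one]
    exact ENNReal.mul_ne_top (by simp) (by simp)
  obtain ⟨h1, h2, h3⟩ := one_scale hd hΓ0 hΓt x hcov ht0 (ε := ENNReal.ofReal E)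
    ENNReal.ofReal_ne_top c1 c2 cP cB h.ε1 h.ε2 h.εP h.εB h.conn12 h.connB h.h4 h.h5 h.h6 h.sep
    hm0'
  refine ⟨h1, h2, ?_⟩
  have h4 : 4 * (Fintype.card ι : ℝ≥0∞) * (ENNReal.ofReal E * tail cn Γ m0) ≤
      ENNReal.ofReal (8 * Fintype.card ι * A * E * (1 / 2) ^ m0) := by
    have h5 : (4 : ℝ≥0∞) * (Fintype.card ι : ℝ≥0∞) * (ENNReal.ofReal E * tail cn Γ m0) ≤
        4 * (Fintype.card ι : ℝ≥0∞) * (ENNReal.ofReal E * (2 * A * 2⁻¹ ^ m0)) := by
      gcongr
      exact ht m0
    refine h5.trans (le_of_eq ?_)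
    have h6 : (2⁻¹ : ℝ≥0∞) ^ m0 = ENNReal.ofReal ((1 / 2) ^ m0) := by
      rw [ENNReal.ofReal_pow (by norm_num)]
      congr 1
      rw [one_div, ENNReal.ofReal_inv_of_pos (by norm_num)]
      simp
    rw [h6]
    rw [ENNReal.ofReal_mul (by positivity), ENNReal.ofReal_mul (by positivity),
      ENNReal.ofReal_mul (by positivity), ENNReal.ofReal_mul (by positivity)]
    simp only [ENNReal.ofReal_natCast, ENNReal.ofReal_ofNat]
    ring
  have h5 := h3.trans h4
  exact (ENNReal.ofReal_le_ofReal_iff (by positivity)).1 h5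

/-- **LIMIT** of the sum of the local constants over the scales. -/
theorem limit {ι α : Type*} [Fintype ι] (hd : PD d) (hΓ4 : 4 ≤ Γ) (hΓt : Γ ≠ ∞)
    {l : Filter α} {K ρ : α → ℕ} (hK : Tendsto K l atTop) (hρ : Tendsto ρ l atTop)
    {r R R' : ℕ → ℕ} {cn : ℕ → ℕ → ℕ} {A : ℕ} (hcn : ∀ k m, cn k m ≤ A * 2 ^ m)
    (hcov : ∀ k m, Cov d ((R k + r k + 1) * m + R' k) (r k) (cn k m))
    {E : ℕ → ℝ} (hE0 : ∀ k, 0 ≤ E k) (hE : Summable E)
    (x : α → ι → X) (c1 c2 : α → ℕ → Finset X → ℝ) (cB : α → ℕ → ι → Finset X → ℝ)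
    (cP : ℕ → Finset X → ℝ)
    (h : ∀ᶠ a in l, ∀ k < K a, SD d (r k) (R k) (R' k) (ρ a) Γ (ENNReal.ofReal (E k)) (x a)
      (c1 a k) (c2 a k) (cP k) (cB a k))
    {ζ : ℕ → ℝ} (hζ : Summable ζ)
    (hz : ∀ᶠ a in l, ∀ k < K a, ∀ i, ∑' U, (cB a k i U - cP k U) = ζ k) :
    Tendsto (fun a => ∑ k ∈ Finset.range (K a), ∑' U, (c1 a k U - c2 a k U)) l
      (𝓝 (Fintype.card ι * ∑' k, ζ k)) := by
  classical
  let err : α → ℕ → ℝ := fun a k => if k < K a then
    ∑' U, (c1 a k U - c2 a k U) - Fintype.card ι * ζ k else 0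
  have hfirst : Tendsto (fun a => (Fintype.card ι : ℝ) * ∑ k ∈ Finset.range (K a), ζ k) l
      (𝓝 (Fintype.card ι * ∑' k, ζ k)) :=
    (hζ.hasSum.tendsto_sum_nat.comp hK).const_mul _
  have hbound : ∀ᶠ a in l, ∀ k, ‖err a k‖ ≤
      8 * Fintype.card ι * A * E k * (1 / 2) ^ ((ρ a - R' k) / (R k + r k + 1)) := by
    filter_upwards [h, hz] with a ha hza k
    by_cases hk : k < K a
    · have h1 := ((ha k hk).err hd hΓ4 hΓt (hcn k) (hcov k) (hE0 k)).2.2
      have h2 : ∑ i, ∑' U, (cB a k i U - cP k U) = Fintype.card ι * ζ k := by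
        rw [Finset.sum_congr rfl fun i _ => hza k hk i, Finset.sum_const, nsmul_eq_mul,
          Finset.card_univ]
      rw [h2] at h1
      simp only [err, if_pos hk, Real.norm_eq_abs]
      exact h1
    · simp only [err, if_neg hk, norm_zero]
      have := hE0 k
      positivity
  have hsecond : Tendsto (fun a => ∑' k, err a k) l (𝓝 (∑' _ : ℕ, (0 : ℝ))) := by
    refine tendsto_tsum_of_dominated_convergence
      (bound := fun k => 8 * Fintype.card ι * A * E k) (hE.mul_left _) ?_ ?_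
    · intro k
      have hpow : Tendsto (fun a => (1 / 2 : ℝ) ^ ((ρ a - R' k) / (R k + r k + 1))) l (𝓝 0) := by
        have h1 : Tendsto (fun a => (ρ a - R' k) / (R k + r k + 1)) l atTop := by
          rw [tendsto_atTop]
          intro b
          filter_upwards [hρ.eventually_ge_atTop (b * (R k + r k + 1) + R' k)] with a ha
          rw [Nat.le_div_iff_mul_le (by omega)]
          omega
        exact (tendsto_pow_atTop_nhds_zero_of_lt_one (by norm_num) (by norm_num)).comp h1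
      have h2 : Tendsto (fun a => 8 * Fintype.card ι * A * E k *
          (1 / 2) ^ ((ρ a - R' k) / (R k + r k + 1))) l (𝓝 0) := by
        have := hpow.const_mul (8 * Fintype.card ι * A * E k)
        rwa [mul_zero] at this
      refine squeeze_zero_norm' ?_ h2
      filter_upwards [hbound] with a ha using ha k
    · filter_upwards [hbound] with a ha k
      refine (ha k).trans ?_
      have h1 : (1 / 2 : ℝ) ^ ((ρ a - R' k) / (R k + r k + 1)) ≤ 1 :=
        pow_le_one₀ (by norm_num) (by norm_num)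
      have h2 : 0 ≤ 8 * Fintype.card ι * A * E k := by
        have := hE0 k
        positivity
      exact mul_le_of_le_one_right h2 h1
  rw [tsum_zero] at hsecond
  have hsum := hfirst.add hsecond
  rw [add_zero] at hsum
  refine hsum.congr fun a => ?_
  have h1 : ∑' k, err a k = ∑ k ∈ Finset.range (K a), err a k := by
    refine tsum_eq_sum fun k hk => ?_
    rw [Finset.mem_range] at hk
    simp only [err, if_neg hk]
  rw [h1, Finset.mul_sum, ← Finset.sum_add_distrib]
  refine Finset.sum_congr rfl fun k hk => ?_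
  rw [Finset.mem_range] at hk
  simp only [err, if_pos hk]
  ring

/-- size of the local constant `ζ_k` -/
theorem zeta_le (hd : PD d) (hΓ4 : 4 ≤ Γ) (hΓt : Γ ≠ ∞) {R' : ℕ} {cn : ℕ → ℕ} {A : ℕ}
    (hcn : ∀ m, cn m ≤ A * 2 ^ m) (x : X)
    (hcov : ∀ m, Cov d ((R + r + 1) * m + R') r (cn m)) {E : ℝ} (hE : 0 ≤ E)
    (cB cP : Finset X → ℝ)
    (hεB : NN d r Γ (fun U => ENNReal.ofReal |cB U|) ≤ ENNReal.ofReal E)
    (hεP : NN d r Γ (fun U => ENNReal.ofReal |cP U|) ≤ ENNReal.ofReal E)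
    (hconn : ∀ U, (cB U ≠ 0 ∨ cP U ≠ 0) → U.Nonempty ∧ Conn d R U)
    (h6 : ∀ U, Avoids d R' x U → cB U = cP U) :
    Summable (fun U => cB U - cP U) ∧ |∑' U, (cB U - cP U)| ≤ 4 * A * E := by
  have hΓ0 : Γ ≠ 0 := fun h0 => by
    rw [h0] at hΓ4
    exact absurd hΓ4 (by norm_num)
  have ht := tail_le hcn hΓ4 0
  rw [pow_zero, mul_one] at ht
  have ht0 : tail cn Γ 0 ≠ ∞ :=
    ne_top_of_le_ne_top (ENNReal.mul_ne_top (by simp) (by simp)) ht
  obtain ⟨h1, h2⟩ := point_sum hd hΓ0 hΓt x hcov cB cP ENNReal.ofReal_ne_top ht0 hεB hεP hconn h6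
    (fun _ _ => Nat.zero_le _)
  refine ⟨h1, ?_⟩
  have h3 : 2 * ENNReal.ofReal E * tail cn Γ 0 ≤ ENNReal.ofReal (4 * A * E) := by
    refine (mul_le_mul_right ht _).trans (le_of_eq ?_)
    rw [ENNReal.ofReal_mul (by positivity), ENNReal.ofReal_mul (by positivity)]
    simp only [ENNReal.ofReal_natCast, ENNReal.ofReal_ofNat]
    ring
  exact (ENNReal.ofReal_le_ofReal_iff (by positivity)).1 (h2.trans h3)

end Crest.Agent.R165.Spinx930
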