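import Crest.Agent.R165.KFlow_337
import Crest.Agent.R165.FinB_900
import Crest.Agent.R165.Spin_930

/-!
# Row 165 (S0250), blocks G/F: spin ratios from two runs of the flow (helper900)

* `Run F V` : a system of `KFlow_337` with volume, number of steps, full and final covariance
* `Run.total` : `E_S[ZZ_0] = exp (∑_{k<n} ∑_U c_k(U)) * E_{Sf}[ZZ_n]`
* `ratio_eq`, `ratio_tendsto` : the ratio of two runs
* `spin_ratio_tendsto` : with the dominated convergence lemma of `Spin_930`, the ratio tends to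
  `(exp ζ)^n`
-/

set_option autoImplicit false

noncomputable section

namespace Crest.Agent.R165.SRabsx900

open Filter Topology
open scoped ENNReal
open Crest.Agent.R165.Gr0x606 Crest.Agent.R165.Gr1x606 Crest.Agent.R165.GeOpsx337
  Crest.Agent.R165.KStepx892 Crest.Agent.R165.KFlowx337 Crest.Agent.R165.PNormx417
  Crest.Agent.R165.Packx915 Crest.Agent.R165.NSumx915

variable {F : Type*} [DecidableEq F] {V : Type*} [AddCommGroup V] [Module ℝ V]

/-- one run of the flow -/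
structure Run (F : Type*) [DecidableEq F] (V : Type*) [AddCommGroup V] [Module ℝ V] where
  /-- the system -/
  D : Sys F V
  /-- source fields -/
  src : Submodule ℝ V
  ok : D.OK src
  /-- the vacuum part contains the constant term -/
  hv : ∀ a, ctG (D.vac a) = ctG a
  /-- the volume -/
  Λ : Finset F
  supp : ∀ U, ¬ U ⊆ Λ → D.K0 U = 0
  /-- number of steps -/
  n : ℕ
  /-- full covariance -/
  S : Cov V
  /-- final covariance -/
  Sf : Cov V
  hS : S = Sf + ∑ k ∈ Finset.range n, D.S k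
  hsrc : ∀ x ∈ src, ∀ y, Sf.b x y = 0

namespace Run

variable (R : Run F V)

/-- the partition function at the initial scale -/
def start : ℝ := EEG R.S (ZZ (R.D.near 0) R.Λ R.D.K0)

/-- the partition function at the final scale -/
def fin : ℝ := EEG R.Sf (ZZ (R.D.near R.n) R.Λ (R.D.K R.n))

/-- the local constants -/
def c (k : ℕ) (U : Finset F) : ℝ := ctG (R.D.H k U)

theorem c_supp (k : ℕ) {U : Finset F} (h : ¬ U ⊆ R.Λ) : R.c k U = 0 := by
  rw [c, Sys.H_supp R.supp k h, map_zero]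

theorem ctG_E : ctG (R.D.E R.Λ R.n) = ∑ k ∈ Finset.range R.n, ∑ U ∈ nes R.Λ, R.c k U := by
  rw [Sys.E, map_sum]
  refine Finset.sum_congr rfl fun k _ => ?_
  rw [Sys.vacE, map_sum]
  refine Finset.sum_congr rfl fun U _ => ?_
  rw [R.hv, c]

theorem total : R.start =
    Real.exp (∑ k ∈ Finset.range R.n, ∑ U ∈ nes R.Λ, R.c k U) * R.fin := by
  rw [start, Sys.total_real R.ok R.supp R.n R.S R.Sf R.hS R.hsrc, R.ctG_E, fin]

theorem c_finite (k : ℕ) : (Function.support (R.c k)).Finite := by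
  refine (R.Λ.powerset.finite_toSet).subset fun U hU => ?_
  rw [Finset.mem_coe, Finset.mem_powerset]
  by_contra h
  exact hU (R.c_supp k h)

theorem c_summable (k : ℕ) : Summable (R.c k) :=
  summable_of_hasFiniteSupport (R.c_finite k)

theorem sum_nes_eq (k : ℕ) (h : R.c k ∅ = 0) : ∑ U ∈ nes R.Λ, R.c k U = ∑' U, R.c k U := by
  refine (tsum_eq_sum fun U hU => ?_).symm
  by_cases hne : U.Nonempty
  · by_cases hs : U ⊆ R.Λ
    · exact absurd (mem_nes.2 ⟨hs, hne⟩) hU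
    · exact R.c_supp k hs
  · rw [Finset.not_nonempty_iff_eq_empty] at hne
    rw [hne, h]

end Run

/-- the ratio of two runs with the same number of steps -/
theorem ratio_eq (R₁ R₂ : Run F V) (hn : R₁.n = R₂.n) (h1 : ∀ k < R₁.n, R₁.c k ∅ = 0)
    (h2 : ∀ k < R₁.n, R₂.c k ∅ = 0) :
    R₁.start / R₂.start = Real.exp (∑ k ∈ Finset.range R₁.n, ∑' U, (R₁.c k U - R₂.c k U)) *
      (R₁.fin / R₂.fin) := by
  rw [R₁.total, R₂.total, mul_div_mul_comm, ← Real.exp_sub, ← hn, ← Finset.sum_sub_distrib]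
  congr 2
  refine Finset.sum_congr rfl fun k hk => ?_
  rw [Finset.mem_range] at hk
  rw [R₁.sum_nes_eq k (h1 k hk), R₂.sum_nes_eq k (h2 k hk),
    (R₁.c_summable k).tsum_sub (R₂.c_summable k)]

/-- abstract ratio limit -/
theorem ratio_tendsto {α : Type*} {l : Filter α} (R₁ R₂ : α → Run F V) {m : ℕ} {z : ℝ}
    (hn : ∀ᶠ a in l, (R₁ a).n = (R₂ a).n)
    (h1 : ∀ᶠ a in l, ∀ k < (R₁ a).n, (R₁ a).c k ∅ = 0)
    (h2 : ∀ᶠ a in l, ∀ k < (R₁ a).n, (R₂ a).c k ∅ = 0)
    (hc : Tendsto (fun a => ∑ k ∈ Finset.range (R₁ a).n, ∑' U, ((R₁ a).c k U - (R₂ a).c k U)) l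
      (𝓝 (m * z)))
    (hf1 : Tendsto (fun a => (R₁ a).fin) l (𝓝 1)) (hf2 : Tendsto (fun a => (R₂ a).fin) l (𝓝 1)) :
    Tendsto (fun a => (R₁ a).start / (R₂ a).start) l (𝓝 (Real.exp z ^ m)) := by
  have e1 : Tendsto (fun a => Real.exp (∑ k ∈ Finset.range (R₁ a).n,
      ∑' U, ((R₁ a).c k U - (R₂ a).c k U)) * ((R₁ a).fin / (R₂ a).fin)) l
      (𝓝 (Real.exp z ^ m)) := by
    have h3 := ((Real.continuous_exp.tendsto _).comp hc).mul (hf1.div hf2 one_ne_zero)
    rw [div_one, mul_one, Real.exp_nat_mul] at h3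
    exact h3
  refine e1.congr' ?_
  filter_upwards [hn, h1, h2] with a ha ha1 ha2
  exact (ratio_eq _ _ ha ha1 ha2).symm

/-- **spin ratio**: two runs (with and without insertions), local constants controlled by the
hypotheses `SD` of `Spin_930` -/
theorem spin_ratio_tendsto {ι α : Type*} [Fintype ι] {d : F → F → ℕ} (hd : PD d) {Γ : ℝ≥0∞}
    (hΓ4 : 4 ≤ Γ) (hΓt : Γ ≠ ∞) {l : Filter α} (R₁ R₂ : α → Run F V) {ρ : α → ℕ}
    (hn : ∀ᶠ a in l, (R₁ a).n = (R₂ a).n)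
    (hK : Tendsto (fun a => (R₁ a).n) l atTop) (hρ : Tendsto ρ l atTop)
    {r R R' : ℕ → ℕ} {cn : ℕ → ℕ → ℕ} {A : ℕ} (hcn : ∀ k m, cn k m ≤ A * 2 ^ m)
    (hcov : ∀ k m, Cov d ((R k + r k + 1) * m + R' k) (r k) (cn k m))
    {E : ℕ → ℝ} (hE0 : ∀ k, 0 ≤ E k) (hE : Summable E)
    (x : α → ι → F) (cB : α → ℕ → ι → Finset F → ℝ) (cP : ℕ → Finset F → ℝ)
    (h : ∀ᶠ a in l, ∀ k < (R₁ a).n, Spinx930.SD d (r k) (R k) (R' k) (ρ a) Γ (ENNReal.ofReal (E k))
      (x a) ((R₁ a).c k) ((R₂ a).c k) (cP k) (cB a k))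
    {ζ : ℕ → ℝ} (hζ : Summable ζ)
    (hz : ∀ᶠ a in l, ∀ k < (R₁ a).n, ∀ i, ∑' U, (cB a k i U - cP k U) = ζ k)
    (hf1 : Tendsto (fun a => (R₁ a).fin) l (𝓝 1)) (hf2 : Tendsto (fun a => (R₂ a).fin) l (𝓝 1)) :
    Tendsto (fun a => (R₁ a).start / (R₂ a).start) l
      (𝓝 (Real.exp (∑' k, ζ k) ^ Fintype.card ι)) := by
  refine ratio_tendsto R₁ R₂ hn ?_ ?_ ?_ hf1 hf2
  · filter_upwards [h] with a ha k hk
    by_contra hne
    exact absurd ((ha k hk).conn12 ∅ (Or.inl hne)).1 Finset.not_nonempty_empty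
  · filter_upwards [h] with a ha k hk
    by_contra hne
    exact absurd ((ha k hk).conn12 ∅ (Or.inr hne)).1 Finset.not_nonempty_empty
  · exact Spinx930.limit hd hΓ4 hΓt hK hρ hcn hcov hE0 hE x (fun a k => (R₁ a).c k)
      (fun a k => (R₂ a).c k) cB cP h hζ hz

/-- the final partition function tends to one -/
theorem fin_tendsto {α : Type*} {l : Filter α} (R : α → Run F V) (g : α → V → ℝ≥0∞)
    (hg : ∀ᶠ a in l, Gram (R a).Sf (g a)) {δ : α → ℝ} (hδ : Tendsto δ l (𝓝 0))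
    (h0 : ∀ᶠ a in l, 0 ≤ δ a)
    (h : ∀ᶠ a in l, ∑ U ∈ nes (R a).Λ, pnorm (g a) ((R a).D.K (R a).n U : Gr V) ≤
      ENNReal.ofReal (δ a)) :
    Tendsto (fun a => (R a).fin) l (𝓝 1) := by
  rw [tendsto_iff_norm_sub_tendsto_zero]
  refine squeeze_zero' (g := fun a => Real.exp (δ a) - 1)
    (Eventually.of_forall fun a => norm_nonneg _) ?_ ?_
  · filter_upwards [hg, h0, h] with a h1 h2 h3
    exact FinBx900.EE_zz_sub_one h1 _ _ _ h2 h3
  · have h1 := ((Real.continuous_exp.tendsto 0).comp hδ).sub_const 1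
    rw [Real.exp_zero, sub_self] at h1
    exact h1

end Crest.Agent.R165.SRabsx900
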