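import Crest.Agent.R165.Fin0_315
import Crest.Agent.R165.Scale_900
import Crest.Agent.R165.SRabs_900
import Crest.Agent.R165.SrcDef_991

/-!
# Row 165 (S0250), P9: the final step at the last scale (helper315)

`R` is the radius of the background (`C/a` for a domain, `B/a` for a disc, `M` for a torus),
`n = lastK p k0 (δ R)` the last step, `J = p (k0 + n)`, `r = 2 ^ J`.

* `abtw_of_gap` : `l2 f ≤ C l2 (A f)` for finitely supported `f` gives `ABtw (preF _) (AopF w) C⁻² 16`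
* `sum_pnorm_le` : abstract sum, any weights
* `lastK_net`, `lastK_amp` : number of `r`-balls and size of the final weight at the last scale
* `fin_pnorm_last`, `fin_bound_last` : `∑ |F U|_{gr} ≤ cnt * NK`, `|E_fin[ZZ] - 1| ≤ 2 δ'`
* `fin_pnorm_src` : with `m` sources (weights `wS`)
* `fin_last_tendsto` : limit form along any filter, in the shape asked by `SRabsx900.fin_tendsto`
-/

set_option autoImplicit false
set_option linter.unusedSectionVars false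

noncomputable section

namespace Crest.Agent.R165.Fin1x315

open scoped ENNReal
open Filter Topology
open Polynomial Crest.Agent.R165.Gr0x606 Crest.Agent.R165.Gr1x606 Crest.Agent.R165.Latx683
  Crest.Agent.R165.PNormx417 Crest.Agent.R165.GDefx387 Crest.Agent.R165.FRDAbsx439
  Crest.Agent.R165.FRDPolyx439 Crest.Agent.R165.FRDInfx439 Crest.Agent.R165.FRDLatx439
  Crest.Agent.R165.FRDRestx439
  Crest.Agent.R165.NSumx915 Crest.Agent.R165.Bridgex915 Crest.Agent.R165.KStepx892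
  Crest.Agent.R165.FinBx900 Crest.Agent.R165.Fin0x315 Crest.Agent.R165.Scalex900
  Crest.Agent.R165.SrcDefx991

/-! ### the gap -/

section gap

variable {G : Type} [CommRing G] [CN G]

/-- the gap of a background, in the form of `FRDRest_439` -/
theorem abtw_of_gap {w : BW G} (hw : ∀ z j, |w z j| ≤ 1) {C : ℝ} (hC : 0 < C)
    (h : ∀ f : Fld G, l2 (f : HE G → ℝ) ≤ C * l2 (Aop w (f : HE G → ℝ))) :
    ABtw (preF (HE G)) (AopF w) ((C⁻¹) ^ 2) 16 := by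
  intro f
  refine ⟨?_, (AopF_bdd w hw f).2⟩
  have h1 := h f
  have h2 : Aop w (f : HE G → ℝ) = ((AopF w f : Fld G) : HE G → ℝ) := (AopF_coe w f).symm
  rw [h2, l2_coe, l2_coe] at h1
  have n1 : 0 ≤ dotF (HE G) f f := (preF (HE G)).nonneg f
  have n2 : 0 ≤ dotF (HE G) (AopF w f) (AopF w f) := (preF (HE G)).nonneg (AopF w f)
  have h3 : dotF (HE G) f f ≤ C ^ 2 * dotF (HE G) (AopF w f) (AopF w f) := by
    have h4 := mul_self_le_mul_self (Real.sqrt_nonneg _) h1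
    rw [Real.mul_self_sqrt n1, mul_mul_mul_comm, Real.mul_self_sqrt n2] at h4
    linarith [h4, sq C]
  rw [preF_ip, preF_ip, inv_pow, inv_mul_le_iff₀ (by positivity)]
  exact h3

end gap

/-! ### abstract sums -/

section abs

variable {X : Type*} [DecidableEq X] {d : X → X → ℕ} {r : ℕ} {Γ : ℝ≥0∞}
  {V : Type*} [AddCommGroup V] [Module ℝ V]

/-- sum of the norms for the final weight `g`, if `g` is at most the weights of the flow -/
theorem sum_pnorm_le (hΓ : 1 ≤ Γ) (g : V → ℝ≥0∞) (w' : Finset X → V → ℝ≥0∞) (Λ net : Finset X)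
    (hnet : ∀ f ∈ Λ, ∃ p ∈ net, d p f ≤ r) (h : ∀ U ∈ nes Λ, ∀ l, g l ≤ w' U l)
    (F : Finset X → Gr V) :
    ∑ U ∈ nes Λ, pnorm g (F U) ≤ net.card * NN d r Γ fun U => pnorm (w' U) (F U) :=
  (Finset.sum_le_sum fun U hU => pnorm_le_pnorm (h U hU) _).trans
    (sum_nes_le_NN hΓ (fun U => pnorm (w' U) (F U)) Λ net hnet)

theorem vS_mono {m : ℕ} {v v' : Fin m → ℝ≥0∞} (h : ∀ i, v i ≤ v' i) (a : Src m) :
    vS v a ≤ vS v' a := by
  unfold vS
  gcongr with i _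
  exact h i

theorem wS_mono {m : ℕ} {w w' : V → ℝ≥0∞} {v v' : Fin m → ℝ≥0∞} (hw : ∀ l, w l ≤ w' l)
    (hv : ∀ i, v i ≤ v' i) (p : VS V m) : wS w v p ≤ wS w' v' p := by
  unfold wS
  exact add_le_add (hw _) (vS_mono hv _)

end abs

/-! ### the last scale -/

/-- number of balls of radius `r` in a ball of radius `Cv R` at the last scale -/
def cnt (p : ℕ) (δ Cv : ℝ) : ℕ := (2 * ⌊Cv * 2 ^ p / δ⌋₊ + 3) ^ 2

/-- size of the final weight at the last scale -/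
def amp (C : ℝ) (p : ℕ) (δ Cg : ℝ) : ℝ := 7 * √(C * Cg * 2 ^ p / δ)

section last

variable {p k0 : ℕ} {δ R : ℝ}

/-- radius of the last scale -/
theorem last_lower (hp : 1 ≤ p) : δ * R < (2 : ℝ) ^ (p * (k0 + lastK p k0 (δ * R))) * 2 ^ p := by
  have h := lt_lastK (k0 := k0) hp (δ * R)
  rw [← pow_add]
  exact h.trans_le (le_of_eq (by ring_nf))

theorem lastK_amp {C Cg : ℝ} (hp : 1 ≤ p) (hC : 0 ≤ C) (hCg : 0 < Cg) (hδ : 0 < δ) (hR : 0 < R) :
    7 * √(C / ((Cg * R)⁻¹ * ((2 ^ (p * (k0 + lastK p k0 (δ * R))) : ℕ) : ℝ))) ≤ amp C p δ Cg := by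
  unfold amp
  have h := last_lower (k0 := k0) (δ := δ) (R := R) hp
  set r : ℝ := ((2 ^ (p * (k0 + lastK p k0 (δ * R))) : ℕ) : ℝ) with hr
  have hr' : r = (2 : ℝ) ^ (p * (k0 + lastK p k0 (δ * R))) := by rw [hr]; push_cast; rfl
  rw [← hr'] at h
  have hr0 : 0 < r := by rw [hr']; positivity
  refine mul_le_mul_of_nonneg_left (Real.sqrt_le_sqrt ?_) (by norm_num)
  have e1 : C / ((Cg * R)⁻¹ * r) = C * Cg * (R / r) := by field_simp
  have e2 : C * Cg * 2 ^ p / δ = C * Cg * (2 ^ p / δ) := by ring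
  rw [e1, e2]
  have h2 : R / r ≤ 2 ^ p / δ := by
    rw [div_le_div_iff₀ hr0 hδ]
    nlinarith
  exact mul_le_mul_of_nonneg_left h2 (by positivity)

theorem lastK_net {G : Type} [CommRing G] [CN G] [GoodG G] [DecidableEq G] {Cv : ℝ} (hp : 1 ≤ p)
    (hCv : 0 ≤ Cv) (hδ : 0 < δ) (hR : 0 < R) (x : G × G) :
    ∃ net : Finset (G × G), net.card ≤ cnt p δ Cv ∧
      ∀ V : Finset (G × G), (∀ f ∈ V, (fd x f : ℝ) ≤ Cv * R) →
        ∀ f ∈ V, ∃ q ∈ net, fd q f ≤ 2 ^ (p * (k0 + lastK p k0 (δ * R))) := by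
  set r : ℕ := 2 ^ (p * (k0 + lastK p k0 (δ * R))) with hr
  have hr0 : 0 < r := by rw [hr]; positivity
  have h := last_lower (k0 := k0) (δ := δ) (R := R) hp
  have hr' : (r : ℝ) = (2 : ℝ) ^ (p * (k0 + lastK p k0 (δ * R))) := by rw [hr]; push_cast; rfl
  rw [← hr'] at h
  have hr1 : (0 : ℝ) < r := by exact_mod_cast hr0
  obtain ⟨net, hn, hc⟩ := exists_net (G := G) hr0 ⌊Cv * R⌋₊ x
  refine ⟨net, hn.trans ?_, fun V hV => hc V fun f hf => Nat.le_floor (hV f hf)⟩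
  unfold cnt
  have h1 : ⌊Cv * R⌋₊ / r ≤ ⌊Cv * 2 ^ p / δ⌋₊ := by
    apply Nat.le_floor
    refine (Nat.cast_div_le).trans ?_
    have h2 : ((⌊Cv * R⌋₊ : ℕ) : ℝ) ≤ Cv * R := Nat.floor_le (by positivity)
    calc ((⌊Cv * R⌋₊ : ℕ) : ℝ) / r ≤ Cv * R / r := by gcongr
      _ ≤ Cv * 2 ^ p / δ := by
        rw [div_le_div_iff₀ hr1 hδ]
        have := mul_le_mul_of_nonneg_left h.le hCv
        nlinarith
  gcongr

end last

section fin

variable {G : Type} [CommRing G] [CN G] [DecidableEq G] {M K : ℕ} (D : FRD 16 M K)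

/-- final weight against the weights of the flow at the last scale -/
theorem gr_last (hM : MM ≤ M) {w : BW G} (hw : ∀ z j, |w z j| ≤ 1) {p k0 : ℕ} (hp : 1 ≤ p)
    {δ R Cg : ℝ} (hδ : 0 < δ) (hR : 0 < R) (hCg : 0 < Cg) {A : ℝ} (hA : amp D.C p δ Cg ≤ A)
    (U : Finset (G × G)) (l : Fld G) :
    gr D w (Cg * R)⁻¹ (p * (k0 + lastK p k0 (δ * R))) l ≤
      wU w A (2 ^ (p * (k0 + lastK p k0 (δ * R)))) U l := by
  have hC := D.C_pos
  have hA0 : 0 < A := lt_of_lt_of_le (by unfold amp; positivity) hA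
  exact gr_le_wU D hM w (by positivity) (AopF_bdd w hw) _ _ (Nat.one_le_two_pow) le_rfl hA0
    ((lastK_amp hp hC.le hCg hδ hR).trans hA) U l

/-- **the norms at the last scale** -/
theorem fin_pnorm_last [GoodG G] (hM : MM ≤ M) {w : BW G} (hw : ∀ z j, |w z j| ≤ 1) {p k0 : ℕ}
    (hp : 1 ≤ p) {δ R Cg Cv : ℝ} (hδ : 0 < δ) (hR : 0 < R) (hCg : 0 < Cg) (hCv : 0 ≤ Cv) {A : ℝ}
    (hA : amp D.C p δ Cg ≤ A) {Γ : ℝ≥0∞} (hΓ : 1 ≤ Γ) (x : G × G) (V : Finset (G × G))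
    (hV : ∀ f ∈ V, (fd x f : ℝ) ≤ Cv * R) (F : Finset (G × G) → Ge (Fld G)) :
    ∑ U ∈ nes V, pnorm (gr D w (Cg * R)⁻¹ (p * (k0 + lastK p k0 (δ * R)))) (F U : Gr (Fld G)) ≤
      cnt p δ Cv * NK w A (2 ^ (p * (k0 + lastK p k0 (δ * R)))) Γ (fun _ => True)
        (fun U => (F U : Gr (Fld G))) := by
  obtain ⟨net, hc, hn⟩ := lastK_net (k0 := k0) hp hCv hδ hR x
  refine (Finset.sum_le_sum fun U _ => ?_).trans
    ((sum_nes_le_NK hΓ w A _ (fun U => (F U : Gr (Fld G))) V net (hn V hV)).trans ?_)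
  · exact pnorm_le_pnorm (fun l => gr_last D hM hw hp hδ hR hCg hA U l) _
  · gcongr

/-- **the norms at the last scale, with sources** -/
theorem fin_pnorm_src [GoodG G] (hM : MM ≤ M) {w : BW G} (hw : ∀ z j, |w z j| ≤ 1) {p k0 : ℕ}
    (hp : 1 ≤ p) {δ R Cg Cv : ℝ} (hδ : 0 < δ) (hR : 0 < R) (hCg : 0 < Cg) (hCv : 0 ≤ Cv) {A : ℝ}
    (hA : amp D.C p δ Cg ≤ A) {Γ : ℝ≥0∞} (hΓ : 1 ≤ Γ) (x : G × G) (V : Finset (G × G))
    (hV : ∀ f ∈ V, (fd x f : ℝ) ≤ Cv * R) {m : ℕ} (v : Fin m → ℝ≥0∞)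
    (F : Finset (G × G) → Gr (VS (Fld G) m)) :
    ∑ U ∈ nes V, pnorm (wS (gr D w (Cg * R)⁻¹ (p * (k0 + lastK p k0 (δ * R)))) v) (F U) ≤
      cnt p δ Cv * NN fd (2 ^ (p * (k0 + lastK p k0 (δ * R)))) Γ fun U =>
        pnorm (wS (wU w A (2 ^ (p * (k0 + lastK p k0 (δ * R)))) U) v) (F U) := by
  obtain ⟨net, hc, hn⟩ := lastK_net (k0 := k0) hp hCv hδ hR x
  refine (sum_pnorm_le hΓ _ (fun U => wS (wU w A (2 ^ (p * (k0 + lastK p k0 (δ * R)))) U) v) V net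
    (hn V hV) (fun U _ => wS_mono (fun l => gr_last D hM hw hp hδ hR hCg hA U l)
      fun _ => le_rfl) F).trans ?_
  gcongr

/-- **the final step at the last scale** -/
theorem fin_bound_last [GoodG G] (hM : MM ≤ M) {w : BW G} (hw : ∀ z j, |w z j| ≤ 1)
    {S : Fld G →ₗ[ℝ] Fld G} (hS : IsNegInv (AopF w) S) {p k0 : ℕ}
    (hp : 1 ≤ p) {δ R Cg Cv : ℝ} (hδ : 0 < δ) (hR : 0 < R) (hCg : 0 < Cg) (hCv : 0 ≤ Cv)
    (hgap : ∀ f : Fld G, l2 (f : HE G → ℝ) ≤ Cg * R * l2 (Aop w (f : HE G → ℝ))) {A : ℝ}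
    (hA : amp D.C p δ Cg ≤ A) {Γ : ℝ≥0∞} (hΓ : 1 ≤ Γ) (nr : G × G → G × G → Prop) (x : G × G)
    (V : Finset (G × G)) (hV : ∀ f ∈ V, (fd x f : ℝ) ≤ Cv * R) (F : Finset (G × G) → Ge (Fld G))
    {η : ℝ} (hη0 : 0 ≤ η) (hη1 : η ≤ 1)
    (hF : cnt p δ Cv * NK w A (2 ^ (p * (k0 + lastK p k0 (δ * R)))) Γ (fun _ => True)
        (fun U => (F U : Gr (Fld G))) ≤ ENNReal.ofReal η) :
    |EE (restL D w hS (p * (k0 + lastK p k0 (δ * R)))) ((ZZ nr V F : Ge (Fld G)) : Gr (Fld G)) - 1| ≤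
      2 * η :=
  EE_zz_sub_one_le (restL_gram D w hS (by positivity) (abtw_of_gap hw (by positivity) hgap) _) nr V F
    hη0 hη1 ((fin_pnorm_last D hM hw hp hδ hR hCg hCv hA hΓ x V hV F).trans hF)

end fin

/-! ### limit form -/

section lim

variable {G : Type} [CommRing G] [CN G] [DecidableEq G] {M K : ℕ} (D : FRD 16 M K)

/-- **the final factor tends to one** along any filter for which the radius `R` tends to infinity,
the background has gap `c / R`, the volume has radius `C R`, the amplitude tends to infinity and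
the norm of the activities at the last scale tends to zero -/
theorem fin_last_tendsto [GoodG G] (hM : MM ≤ M) {α : Type*} {l : Filter α} {p k0 : ℕ} (hp : 1 ≤ p)
    {δ Cg Cv : ℝ} (hδ : 0 < δ) (hCg : 0 < Cg) (hCv : 0 ≤ Cv) {Γ : ℝ≥0∞} (hΓ : 1 ≤ Γ)
    (R : α → ℝ) (hR : Tendsto R l atTop) (w : α → BW G) (hw : ∀ a z j, |w a z j| ≤ 1)
    (hgap : ∀ᶠ a in l, ∀ f : Fld G,
      l2 (f : HE G → ℝ) ≤ Cg * R a * l2 (Aop (w a) (f : HE G → ℝ)))
    {A : ℕ → ℝ} (hA : Tendsto A atTop atTop) (Q : α → SRabsx900.Run (G × G) (Fld G))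
    (hn : ∀ᶠ a in l, (Q a).n = lastK p k0 (δ * R a))
    (hSf : ∀ᶠ a in l, ∃ (S : Fld G →ₗ[ℝ] Fld G) (hS : IsNegInv (AopF (w a)) S),
      (Q a).Sf = restL D (w a) hS (p * (k0 + (Q a).n)))
    (x : α → G × G) (hV : ∀ᶠ a in l, ∀ f ∈ (Q a).Λ, (fd (x a) f : ℝ) ≤ Cv * R a)
    (hK : Tendsto (fun a => NK (w a) (A (Q a).n) (2 ^ (p * (k0 + (Q a).n))) Γ (fun _ => True)
      (fun U => ((Q a).D.K (Q a).n U : Gr (Fld G)))) l (𝓝 0)) :
    Tendsto (fun a => (Q a).fin) l (𝓝 1) := by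
  -- numerical facts
  have hlast : Tendsto (fun a => lastK p k0 (δ * R a)) l atTop :=
    lastK_tendsto k0 hp (hR.const_mul_atTop hδ)
  have hA1 : ∀ᶠ a in l, amp D.C p δ Cg ≤ A (lastK p k0 (δ * R a)) :=
    (hA.comp hlast).eventually_ge_atTop _
  have hR0 : ∀ᶠ a in l, 0 < R a := hR.eventually_gt_atTop 0
  -- the bound as a real number
  set N : α → ℝ≥0∞ := fun a => NK (w a) (A (Q a).n) (2 ^ (p * (k0 + (Q a).n))) Γ (fun _ => True)
      (fun U => ((Q a).D.K (Q a).n U : Gr (Fld G))) with hN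
  have hN1 : ∀ᶠ a in l, N a < 1 := hK.eventually_lt_const one_pos
  have hNr : Tendsto (fun a => (cnt p δ Cv : ℝ) * (N a).toReal) l (𝓝 0) := by
    have h1 := (ENNReal.tendsto_toReal ENNReal.zero_ne_top).comp hK
    have h2 := h1.const_mul (cnt p δ Cv : ℝ)
    simpa using h2
  refine SRabsx900.fin_tendsto Q
    (fun a => gr D (w a) (Cg * R a)⁻¹ (p * (k0 + (Q a).n))) ?_ hNr
    (Eventually.of_forall fun a => by positivity) ?_
  · filter_upwards [hgap, hSf, hR0] with a h1 h2 h3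
    obtain ⟨S, hS, hh⟩ := h2
    rw [hh]
    exact restL_gram D (w a) hS (by positivity) (abtw_of_gap (hw a) (by positivity) h1) _
  · filter_upwards [hA1, hR0, hV, hN1, hn] with a h1 h2 h3 h4 h5
    have h6 := fin_pnorm_last (k0 := k0) D hM (hw a) hp hδ h2 hCg hCv h1 hΓ (x a) (Q a).Λ h3
      ((Q a).D.K (Q a).n)
    rw [← h5] at h6
    refine h6.trans (le_of_eq ?_)
    rw [ENNReal.ofReal_mul (by positivity), ENNReal.ofReal_toReal h4.ne_top, ENNReal.ofReal_natCast]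

end lim

end Crest.Agent.R165.Fin1x315
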