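import Crest.Agent.R165.Fin1_315
import Crest.Agent.R165.GSys_387

/-!
# Row 165 (S0250), P9: the final step on the concrete systems of `GSys_387` (helper315)

* `sum_slC` : the covariances of the steps `k < n` add up to `SopC D w 0 (lo l k0 n)`
* `covS_eq_sys`, `ext_covS_eq_sys` : full covariance = last covariance + steps, without/with sources
* `runOf` : the run (`SRabs_900`) of the system `sys`; `runOf_fin`, `runOf_start`
* `runOf_fin_tendsto` : the final factor tends to one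
* `totalS` : the exact identity for `sysS`
-/

set_option autoImplicit false
set_option linter.unusedSectionVars false

noncomputable section

namespace Crest.Agent.R165.Fin2x315

open scoped ENNReal
open Filter Topology
open Polynomial Crest.Agent.R165.Gr0x606 Crest.Agent.R165.Gr1x606 Crest.Agent.R165.Latx683
  Crest.Agent.R165.PNormx417 Crest.Agent.R165.GDefx387 Crest.Agent.R165.FRDAbsx439
  Crest.Agent.R165.FRDPolyx439 Crest.Agent.R165.FRDInfx439 Crest.Agent.R165.FRDLatx439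
  Crest.Agent.R165.FRDRestx439 Crest.Agent.R165.GeOpsx337 Crest.Agent.R165.KFlowx337
  Crest.Agent.R165.NSumx915 Crest.Agent.R165.Bridgex915 Crest.Agent.R165.KStepx892
  Crest.Agent.R165.FinBx900 Crest.Agent.R165.Fin0x315 Crest.Agent.R165.Fin1x315
  Crest.Agent.R165.Scalex900 Crest.Agent.R165.SrcDefx991 Crest.Agent.R165.GSysx387
  Crest.Agent.R165.PStepx417 Crest.Agent.R165.SRabsx900 Crest.Agent.R165.BgIsox432
  Crest.Agent.R165.ExpGx337

section cov

variable {G : Type} [CommRing G] [CN G] {M K : ℕ} (D : FRD 16 M K)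

/-- the covariances of the steps `k < n` -/
theorem sum_slC (w : BW G) (l k0 n : ℕ) :
    ∑ k ∈ Finset.range n, slC D w l k0 k = SopC D w 0 (lo l k0 n) := by
  classical
  induction n with
  | zero =>
    rw [Finset.sum_range_zero, lo_zero]
    unfold SopC
    simp
  | succ n ih =>
    rw [Finset.sum_range_succ, ih, lo_succ]
    unfold slC
    refine SopC_add D 0 _ _ (Nat.zero_le _) ?_
    unfold lo hi
    split_ifs
    · exact Nat.zero_le _
    · exact Nat.mul_le_mul_left _ (by omega)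

theorem lo_pos {l k0 n : ℕ} (hn : 1 ≤ n) : lo l k0 n = l * (k0 + n) := by
  unfold lo; rw [if_neg (by omega)]

variable [DecidableEq G]

/-- **full covariance = last covariance + steps** -/
theorem covS_eq_sys {w : BW G} {S : HE G → HE G → ℝ} (hS : ∀ h h', S h h' = -S h' h)
    (hinv : ∀ g h', Aop w (fun h => S h h') g = -(Pi.single h' 1 : HE G → ℝ) g)
    (hfin : ∀ h', {h | S h h' ≠ 0}.Finite) (l k0 n : ℕ) :
    covS S hS = restC D hS hinv hfin (lo l k0 n) + ∑ k ∈ Finset.range n, slC D w l k0 k := by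
  rw [sum_slC, covS_eq D hS hinv hfin (lo l k0 n), add_comm]

theorem ext0_add {V : Type*} [AddCommGroup V] [Module ℝ V] (m : ℕ) (S T : Cov V) :
    ext0 m (S + T) = ext0 m S + ext0 m T := by
  apply Cov.ext
  refine LinearMap.ext fun x => LinearMap.ext fun y => ?_
  rfl

theorem ext0_sum {V ι : Type*} [AddCommGroup V] [Module ℝ V] (m : ℕ) (s : Finset ι)
    (S : ι → Cov V) : ext0 m (∑ i ∈ s, S i) = ∑ i ∈ s, ext0 m (S i) := by
  classical
  induction s using Finset.induction_on with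
  | empty =>
    rw [Finset.sum_empty, Finset.sum_empty]
    apply Cov.ext
    refine LinearMap.ext fun x => LinearMap.ext fun y => ?_
    rfl
  | insert i s hi ih => rw [Finset.sum_insert hi, Finset.sum_insert hi, ext0_add, ih]

/-- the same with sources -/
theorem ext_covS_eq_sys {w : BW G} {S : HE G → HE G → ℝ} (hS : ∀ h h', S h h' = -S h' h)
    (hinv : ∀ g h', Aop w (fun h => S h h') g = -(Pi.single h' 1 : HE G → ℝ) g)
    (hfin : ∀ h', {h | S h h' ≠ 0}.Finite) (l k0 n m : ℕ) :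
    ext0 m (covS S hS) = ext0 m (restC D hS hinv hfin (lo l k0 n)) +
      ∑ k ∈ Finset.range n, ext0 m (slC D w l k0 k) := by
  rw [covS_eq_sys D hS hinv hfin l k0 n, ext0_add, ext0_sum]

end cov

section ext

variable {V : Type*} [AddCommGroup V] [Module ℝ V]

/-- Gram weights of a covariance extended by zero on the sources -/
theorem gram_ext0 {m : ℕ} {S : Cov V} {g : V → ℝ≥0∞} (h : Gram S g) (v : Fin m → ℝ≥0∞) :
    Gram (ext0 m S) (wS g v) := by
  intro L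
  have e1 : EE (ext0 m S) (mono L) = EE S (mono (L.map (LinearMap.fst ℝ V (Src m)))) := by
    rw [← mp_mono]
    exact (EE_mp _ (ext0 m S) S (fun x y => by simp) _).symm
  rw [e1]
  exact (h _).trans (mwt_map (fun l => by unfold wS; exact le_self_add) L)

end ext

section run

variable {G : Type} [CommRing G] [CN G] [CNZ G] [DecidableEq G] {M K : ℕ} (D : FRD 16 M K)

/-- the data of one background: an inverse kernel with finitely supported columns -/
structure Inv (w : BW G) (S : HE G → HE G → ℝ) : Prop where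
  skew : ∀ h h', S h h' = -S h' h
  inv : ∀ g h', Aop w (fun h => S h h') g = -(Pi.single h' 1 : HE G → ℝ) g
  fin : ∀ h', {h | S h h' ≠ 0}.Finite

theorem Inv.of_isCov {w : BW G} {S : HE G → HE G → ℝ} (h : IsCov w S)
    (hfin : ∀ h', {h | S h h' ≠ 0}.Finite) : Inv w S :=
  ⟨h.skew, h.inv, hfin⟩

/-- the covariance of a background -/
abbrev Inv.full {w : BW G} {S : HE G → HE G → ℝ} (h : Inv w S) : Cov (Fld G) := covS S h.skew

/-- the last covariance, after `n` steps -/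
def Inv.last {w : BW G} {S : HE G → HE G → ℝ} (h : Inv w S) (l k0 n : ℕ) : Cov (Fld G) :=
  restC D h.skew h.inv h.fin (lo l k0 n)

theorem Inv.full_eq {w : BW G} {S : HE G → HE G → ℝ} (h : Inv w S) (l k0 n : ℕ) :
    h.full = h.last D l k0 n + ∑ k ∈ Finset.range n, slC D w l k0 k :=
  covS_eq_sys D h.skew h.inv h.fin l k0 n

theorem Inv.ext_full_eq {w : BW G} {S : HE G → HE G → ℝ} (h : Inv w S) (l k0 n m : ℕ) :
    ext0 m h.full = ext0 m (h.last D l k0 n) + ∑ k ∈ Finset.range n, ext0 m (slC D w l k0 k) :=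
  ext_covS_eq_sys D h.skew h.inv h.fin l k0 n m

/-- **the run of the concrete system** -/
def runOf {w : BW G} {S : HE G → HE G → ℝ} (h : Inv w S) (mk : Finset (G × G)) (l k0 : ℕ)
    (K0 : Finset (G × G) → Ge (Fld G)) (ok : (sys D w mk l k0 K0).OK ⊥)
    (Λ : Finset (G × G)) (supp : ∀ U, ¬ U ⊆ Λ → K0 U = 0) (n : ℕ) : Run (G × G) (Fld G) where
  D := sys D w mk l k0 K0
  src := ⊥
  ok := ok
  hv a := by
    show ctG (vac0 (Fld G) a) = ctG a
    rw [vac0_apply, AlgHom.commutes]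
    rfl
  Λ := Λ
  supp := supp
  n := n
  S := h.full
  Sf := h.last D l k0 n
  hS := h.full_eq D l k0 n
  hsrc x hx y := by
    rw [(Submodule.mem_bot ℝ).1 hx, map_zero, LinearMap.zero_apply]

variable {w : BW G} {S : HE G → HE G → ℝ} (h : Inv w S) (mk : Finset (G × G)) (l k0 : ℕ)
    (K0 : Finset (G × G) → Ge (Fld G)) (ok : (sys D w mk l k0 K0).OK ⊥)
    (Λ : Finset (G × G)) (supp : ∀ U, ¬ U ⊆ Λ → K0 U = 0) (n : ℕ)

theorem runOf_fin : (runOf D h mk l k0 K0 ok Λ supp n).fin =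
    EEG (h.last D l k0 n) (ZZ (near l k0 n) Λ ((sys D w mk l k0 K0).K n)) := rfl

theorem runOf_start : (runOf D h mk l k0 K0 ok Λ supp n).start =
    EEG h.full (ZZ (near l k0 0) Λ K0) := rfl

/-- **the exact identity with sources** -/
theorem totalS {m : ℕ} (sf : Fin m → Finset (G × G))
    (e2 : ℕ → Extr (G × G) (VS (Fld G) m)) (K0 : Finset (G × G) → Ge (VS (Fld G) m))
    (ok : (sysS D w mk l k0 sf e2 K0).OK (srcW (Fld G) m))
    (supp : ∀ U, ¬ U ⊆ Λ → K0 U = 0) :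
    cvG (ext0 m h.full) (ZZ (near l k0 0) Λ K0) =
      gexp ((sysS D w mk l k0 sf e2 K0).E Λ n) *
        cvG (ext0 m (h.last D l k0 n)) (ZZ (near l k0 n) Λ ((sysS D w mk l k0 sf e2 K0).K n)) := by
  refine Sys.total' (D := sysS D w mk l k0 sf e2 K0) ok supp n _ _ (h.ext_full_eq D l k0 n m) ?_
  intro x hx y
  have hx1 : x.1 = 0 := hx
  rw [ext0_b, hx1, map_zero, LinearMap.zero_apply]

end run

/-! ### the last scale -/

section last

variable {G : Type} [CommRing G] [CN G] [CNZ G] [DecidableEq G] {M K : ℕ} (D : FRD 16 M K)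

theorem rr_lastK (p k0 : ℕ) (δ R : ℝ) :
    rr p k0 (lastK p k0 (δ * R)) = 2 ^ (p * (k0 + lastK p k0 (δ * R))) := rfl

/-- Gram weight of the last covariance -/
theorem Inv.last_gram {w : BW G} {S : HE G → HE G → ℝ} (h : Inv w S) (hw : ∀ z j, |w z j| ≤ 1)
    {C : ℝ} (hC : 0 < C)
    (hgap : ∀ f : Fld G, l2 (f : HE G → ℝ) ≤ C * l2 (Aop w (f : HE G → ℝ))) (l k0 n : ℕ) :
    Gram (h.last D l k0 n) (gr D w C⁻¹ (lo l k0 n)) :=
  restC_gram D h.skew h.inv h.fin (by positivity) (abtw_of_gap hw hC hgap) _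

/-- **the final factor at the last scale**, quantitative -/
theorem fin_bound_sys [GoodG G] (hM : MM ≤ M) {w : BW G} {S : HE G → HE G → ℝ} (h : Inv w S)
    (hw : ∀ z j, |w z j| ≤ 1) {p k0 : ℕ}
    (hp : 1 ≤ p) {δ R Cg Cv : ℝ} (hδ : 0 < δ) (hR : 0 < R) (hCg : 0 < Cg) (hCv : 0 ≤ Cv)
    (hgap : ∀ f : Fld G, l2 (f : HE G → ℝ) ≤ Cg * R * l2 (Aop w (f : HE G → ℝ))) {A : ℝ}
    (hA : amp D.C p δ Cg ≤ A) {Γ : ℝ≥0∞} (hΓ : 1 ≤ Γ) {n : ℕ} (hn : n = lastK p k0 (δ * R))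
    (hn1 : 1 ≤ n) (x : G × G)
    (Λ : Finset (G × G)) (hV : ∀ f ∈ Λ, (fd x f : ℝ) ≤ Cv * R) (F : Finset (G × G) → Ge (Fld G))
    {η : ℝ} (hη0 : 0 ≤ η) (hη1 : η ≤ 1)
    (hF : cnt p δ Cv * NK w A (rr p k0 n) Γ (fun _ => True)
        (fun U => (F U : Gr (Fld G))) ≤ ENNReal.ofReal η) :
    |EEG (h.last D p k0 n) (ZZ (near p k0 n) Λ F) - 1| ≤ 2 * η := by
  have h1 := h.last_gram D hw (by positivity) hgap p k0 n
  rw [EEG_apply]
  refine EE_zz_sub_one_le h1 _ Λ F hη0 hη1 ?_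
  rw [lo_pos hn1]
  subst hn
  exact (fin_pnorm_last D hM hw hp hδ hR hCg hCv hA hΓ x Λ hV F).trans hF

/-- **the norms at the last scale, with sources** -/
theorem fin_src_sys [GoodG G] (hM : MM ≤ M) {w : BW G} (hw : ∀ z j, |w z j| ≤ 1) {p k0 : ℕ}
    (hp : 1 ≤ p) {δ R Cg Cv : ℝ} (hδ : 0 < δ) (hR : 0 < R) (hCg : 0 < Cg) (hCv : 0 ≤ Cv) {A : ℝ}
    (hA : amp D.C p δ Cg ≤ A) {Γ : ℝ≥0∞} (hΓ : 1 ≤ Γ) {n : ℕ} (hn : n = lastK p k0 (δ * R))
    (hn1 : 1 ≤ n) (x : G × G) (Λ : Finset (G × G))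
    (hV : ∀ f ∈ Λ, (fd x f : ℝ) ≤ Cv * R) {m : ℕ} (v : Fin m → ℝ≥0∞)
    (F : Finset (G × G) → Gr (VS (Fld G) m)) :
    ∑ U ∈ nes Λ, pnorm (wS (gr D w (Cg * R)⁻¹ (lo p k0 n)) v) (F U) ≤
      cnt p δ Cv * NN fd (rr p k0 n) Γ fun U =>
        pnorm (wS (wU w A (rr p k0 n) U) v) (F U) := by
  rw [lo_pos hn1]
  subst hn
  exact fin_pnorm_src D hM hw hp hδ hR hCg hCv hA hΓ x Λ hV v F

/-- **the final factor tends to one** -/
theorem fin_tendsto_sys [GoodG G] (hM : MM ≤ M) {α : Type*} {l : Filter α} {p k0 : ℕ} (hp : 1 ≤ p)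
    {δ Cg Cv : ℝ} (hδ : 0 < δ) (hCg : 0 < Cg) (hCv : 0 ≤ Cv) {Γ : ℝ≥0∞} (hΓ : 1 ≤ Γ)
    (R : α → ℝ) (hR : Tendsto R l atTop) (w : α → BW G) (hw : ∀ a z j, |w a z j| ≤ 1)
    (S : α → HE G → HE G → ℝ) (hS : ∀ a, Inv (w a) (S a))
    (hgap : ∀ᶠ a in l, ∀ f : Fld G,
      l2 (f : HE G → ℝ) ≤ Cg * R a * l2 (Aop (w a) (f : HE G → ℝ)))
    {A : ℕ → ℝ} (hA : Tendsto A atTop atTop) (mk : α → Finset (G × G))
    (K0 : α → Finset (G × G) → Ge (Fld G)) (Λ : α → Finset (G × G)) (n : α → ℕ)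
    (hn : ∀ᶠ a in l, n a = lastK p k0 (δ * R a))
    (x : α → G × G) (hV : ∀ᶠ a in l, ∀ f ∈ Λ a, (fd (x a) f : ℝ) ≤ Cv * R a)
    (hK : Tendsto (fun a => NK (w a) (A (n a)) (rr p k0 (n a)) Γ (fun _ => True)
      (fun U => ((sys D (w a) (mk a) p k0 (K0 a)).K (n a) U : Gr (Fld G)))) l (𝓝 0)) :
    Tendsto (fun a => EEG ((hS a).last D p k0 (n a))
      (ZZ (near p k0 (n a)) (Λ a) ((sys D (w a) (mk a) p k0 (K0 a)).K (n a)))) l (𝓝 1) := by
  have hlast : Tendsto (fun a => lastK p k0 (δ * R a)) l atTop :=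
    lastK_tendsto k0 hp (hR.const_mul_atTop hδ)
  have hA1 : ∀ᶠ a in l, amp D.C p δ Cg ≤ A (lastK p k0 (δ * R a)) :=
    (hA.comp hlast).eventually_ge_atTop _
  have hn1 : ∀ᶠ a in l, 1 ≤ lastK p k0 (δ * R a) := hlast.eventually_ge_atTop 1
  have hR0 : ∀ᶠ a in l, 0 < R a := hR.eventually_gt_atTop 0
  set N : α → ℝ≥0∞ := fun a => NK (w a) (A (n a)) (rr p k0 (n a)) Γ (fun _ => True)
      (fun U => ((sys D (w a) (mk a) p k0 (K0 a)).K (n a) U : Gr (Fld G))) with hN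
  have hNr : Tendsto (fun a => (cnt p δ Cv : ℝ) * (N a).toReal) l (𝓝 0) := by
    have h1 := (ENNReal.tendsto_toReal ENNReal.zero_ne_top).comp hK
    have h2 := h1.const_mul (cnt p δ Cv : ℝ)
    simpa using h2
  have hN1 : ∀ᶠ a in l, N a < 1 := hK.eventually_lt_const one_pos
  have hN2 : ∀ᶠ a in l, (cnt p δ Cv : ℝ) * (N a).toReal ≤ 1 := by
    filter_upwards [hNr.eventually_lt_const one_pos] with a ha using ha.le
  rw [tendsto_iff_norm_sub_tendsto_zero]
  refine squeeze_zero' (g := fun a => 2 * ((cnt p δ Cv : ℝ) * (N a).toReal))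
    (Eventually.of_forall fun a => norm_nonneg _) ?_ (by simpa using hNr.const_mul 2)
  filter_upwards [hgap, hR0, hA1, hn, hn1, hV, hN1, hN2] with a h1 h2 h3 h4 h5 h6 h7 h8
  rw [Real.norm_eq_abs]
  refine fin_bound_sys D hM (hS a) (hw a) hp hδ h2 hCg hCv h1 (A := A (n a)) (h4 ▸ h3) hΓ h4
    (h4 ▸ h5) (x a) (Λ a) h6 _ (by positivity) h8 ?_
  rw [ENNReal.ofReal_mul (by positivity), ENNReal.ofReal_toReal h7.ne_top, ENNReal.ofReal_natCast]

end last

end Crest.Agent.R165.Fin2x315
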