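import Crest.Agent.R165.Dual_485

/-!
# Row 165 (S0250), block R: free boundary conditions, local statements

Transfer of the local statements (gap, exact solutions) from plus type backgrounds to free ones
through the dual variables of `Dual_485`.  `Qn x n` is the box of faces (or vertices) of sup
radius `n` around `x`.
-/

set_option autoImplicit false

noncomputable section

namespace Crest.Agent.R165.FreeLocx485

open Finset Crest.Agent.R165.Tr1x40 Crest.Agent.R165.Dualx485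

/-- box -/
def Qn (x : Face) (n : ℕ) : Finset Face :=
  Icc (x.1 - n) (x.1 + n) ×ˢ Icc (x.2 - n) (x.2 + n)

theorem mem_Qn {x f : Face} {n : ℕ} : f ∈ Qn x n ↔
    (x.1 - n ≤ f.1 ∧ f.1 ≤ x.1 + n) ∧ (x.2 - n ≤ f.2 ∧ f.2 ≤ x.2 + n) := by
  unfold Qn
  rw [mem_product, mem_Icc, mem_Icc]

theorem Qn_mono (x : Face) {m n : ℕ} (h : m ≤ n) : Qn x m ⊆ Qn x n := by
  intro f
  rw [mem_Qn, mem_Qn]
  have : (m : ℤ) ≤ n := by exact_mod_cast h
  rintro ⟨⟨a, b⟩, c, d⟩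
  exact ⟨⟨by linarith, by linarith⟩, by linarith, by linarith⟩

theorem vts_Qn (x : Face) (n : ℕ) : Vts (Qn x n) (Qn x (n + 1)) := by
  intro f hf
  rw [mem_Qn] at hf
  obtain ⟨⟨a, b⟩, c, d⟩ := hf
  simp only [mem_Qn]
  push_cast
  refine ⟨⟨⟨?_, ?_⟩, ?_, ?_⟩, ⟨⟨?_, ?_⟩, ?_, ?_⟩, ⟨⟨?_, ?_⟩, ?_, ?_⟩, ⟨⟨?_, ?_⟩, ?_, ?_⟩⟩ <;>
    linarith

theorem fcs_Qn (x : Face) (n : ℕ) : Fcs (Qn x n) (Qn x (n + 1)) := by
  intro f hf
  rw [mem_Qn] at hf
  obtain ⟨⟨a, b⟩, c, d⟩ := hf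
  simp only [mem_Qn]
  push_cast
  refine ⟨⟨⟨?_, ?_⟩, ?_, ?_⟩, ⟨⟨?_, ?_⟩, ?_, ?_⟩, ⟨⟨?_, ?_⟩, ?_, ?_⟩, ⟨⟨?_, ?_⟩, ?_, ?_⟩⟩ <;>
    linarith

theorem nb_mem_Qn {x f : Face} {n : ℕ} (hf : f ∈ Qn x n) (h : Fin 4) : nb f h ∈ Qn x (n + 1) := by
  rw [mem_Qn] at hf
  obtain ⟨⟨a, b⟩, c, d⟩ := hf
  rw [mem_Qn]
  push_cast
  fin_cases h <;> simp only [Fin.zero_eta, Fin.mk_one, Fin.reduceFinMk, nb_zero, nb_one, nb_two,
    nb_three] <;> refine ⟨⟨?_, ?_⟩, ?_, ?_⟩ <;> linarith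

/-- squared norm on a box -/
def N2 (x : Face) (n : ℕ) (φ : Fld) : ℝ := ∑ f ∈ Qn x n, nsq (φ f)

theorem N2_nonneg (x : Face) (n : ℕ) (φ : Fld) : 0 ≤ N2 x n φ := sum_nonneg fun _ _ => nsq_nonneg _

theorem N2_mono (x : Face) {m n : ℕ} (h : m ≤ n) (φ : Fld) : N2 x m φ ≤ N2 x n φ :=
  sum_le_sum_of_subset_of_nonneg (Qn_mono x h) fun _ _ _ => nsq_nonneg _

/-- the edge carrying the half-edge `(f,h)` touches the box -/
def Tch (Q : Finset Face) (f : Face) (h : Fin 4) : Prop := f ∈ Q ∨ nb f h ∈ Q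

theorem tch_bar {Q : Finset Face} {f : Face} {h : Fin 4} :
    Tch Q (nb f h) (op h) ↔ Tch Q f h := by
  unfold Tch; rw [nb_nb_op]; exact or_comm

/-- the background `w` is free on the edges touching `Q`, in the gauge `s` -/
structure FreeOn (w : Fld) (s : Face → ℝ) (Q : Finset Face) : Prop where
  sym : Sym w
  sq : ∀ f, s f ^ 2 = 1
  val : ∀ f h, Tch Q f h → s f * s (nb f h) * w f h = xc ∨ s f * s (nb f h) * w f h = 1

open Classical in
/-- global free model of a background which is free on `Q` -/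
def model (w : Fld) (s : Face → ℝ) (Q : Finset Face) : Fld := fun f h =>
  if Tch Q f h then s f * s (nb f h) * w f h else xc

theorem model_of_tch {w : Fld} {s : Face → ℝ} {Q : Finset Face} {f : Face} {h : Fin 4}
    (ht : Tch Q f h) : model w s Q f h = s f * s (nb f h) * w f h := if_pos ht

theorem sym_model {w : Fld} {s : Face → ℝ} {Q : Finset Face} (hw : Sym w) :
    Sym (model w s Q) := by
  intro f h
  unfold model
  by_cases ht : Tch Q f h
  · rw [if_pos ht, if_pos (tch_bar.2 ht), nb_nb_op, hw f h]; ring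
  · rw [if_neg ht, if_neg (fun hc => ht (tch_bar.1 hc))]

theorem isFree_model {w : Fld} {s : Face → ℝ} {Q : Finset Face} (hw : FreeOn w s Q) :
    IsFree (model w s Q) := by
  intro f h
  unfold model
  by_cases ht : Tch Q f h
  · rw [if_pos ht]; exact hw.val f h ht
  · rw [if_neg ht]; exact Or.inl rfl

/-- on `Q` the operator of the model is the gauge transform of the operator of `w` -/
theorem A_model {w : Fld} {s : Face → ℝ} {Q : Finset Face} (hw : FreeOn w s Q) (φ : Fld)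
    (f : Face) (h : Fin 4) (ht : Tch Q f h) :
    A (model w s Q) (gf s φ) f h = gf s (A w φ) f h := by
  have e1 : A (model w s Q) (gf s φ) f h = A (gw s w) (gf s φ) f h := by
    simp only [A, Y, gw, model_of_tch ht]
  rw [e1]
  exact A_gauge s w φ f h (hw.sq _)

/-- for a field supported in `Q` this holds everywhere -/
theorem A_model_supp {w : Fld} {s : Face → ℝ} {Q : Finset Face} (hw : FreeOn w s Q) (φ : Fld)
    (hφ : ∀ f, f ∉ Q → ∀ h, φ f h = 0) (f : Face) (h : Fin 4) :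
    A (model w s Q) (gf s φ) f h = gf s (A w φ) f h := by
  by_cases ht : Tch Q f h
  · exact A_model hw φ f h ht
  · have h1 : f ∉ Q := fun hc => ht (Or.inl hc)
    have h2 : nb f h ∉ Q := fun hc => ht (Or.inr hc)
    have e1 : φ f = 0 := funext fun k => hφ f h1 k
    have e2 : ∀ k, gf s φ f k = 0 := fun k => by simp [gf, e1]
    have e3 : A0 (gf s φ f) h = 0 := by
      have : gf s φ f = 0 := funext e2
      rw [this]; fin_cases h <;> simp [A0]
    have e4 : A0 (φ f) h = 0 := by rw [e1]; fin_cases h <;> simp [A0]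
    simp only [A, Y, e3, gf, hφ _ h2, e4, mul_zero, add_zero]

theorem A_zero_off {w φ : Fld} {x : Face} {n : ℕ} (hφ : ∀ f, f ∉ Qn x n → ∀ h, φ f h = 0)
    (f : Face) (hf : f ∉ Qn x (n + 1)) (h : Fin 4) : A w φ f h = 0 := by
  have h1 : f ∉ Qn x n := fun hc => hf (Qn_mono x (Nat.le_succ n) hc)
  have h2 : nb f h ∉ Qn x n := fun hc => hf (by
    have := nb_mem_Qn hc (op h)
    rwa [nb_nb_op] at this)
  have e1 : φ f = 0 := funext fun k => hφ f h1 k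
  have e4 : A0 (φ f) h = 0 := by rw [e1]; fin_cases h <;> simp [A0]
  simp only [A, Y, e4, hφ _ h2, mul_zero, add_zero]

theorem N2_eq_of_zero_off {ψ : Fld} {x : Face} {m n : ℕ} (hmn : m ≤ n)
    (hψ : ∀ f, f ∉ Qn x m → ∀ h, ψ f h = 0) : N2 x n ψ = N2 x m ψ := by
  unfold N2
  symm
  refine sum_subset (Qn_mono x hmn) fun f _ hf => ?_
  rw [nsq_eq]; simp [hψ f hf]

theorem N2_gf {s : Face → ℝ} (hs : ∀ f, s f ^ 2 = 1) (x : Face) (n : ℕ) (φ : Fld) :
    N2 x n (gf s φ) = N2 x n φ := sum_congr rfl fun f _ => nsq_gf φ f (hs f)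

/-- gap for plus type backgrounds: fields supported in boxes -/
def GapPlus (C : ℝ) : Prop := ∀ w : Fld, Sym w → IsPlus w → ∀ (x : Face) (n : ℕ) (φ : Fld),
  (∀ f, f ∉ Qn x n → ∀ h, φ f h = 0) → N2 x n φ ≤ C * (n + 1) ^ 2 * N2 x (n + 1) (A w φ)

/-- **gap for free backgrounds** -/
theorem gapFree {C : ℝ} (hC : 0 ≤ C) (H : GapPlus C) {w : Fld} {s : Face → ℝ} {x : Face} {n : ℕ}
    (hw : FreeOn w s (Qn x n)) (φ : Fld) (hφ : ∀ f, f ∉ Qn x n → ∀ h, φ f h = 0) :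
    N2 x n φ ≤ 256 * C * (n + 1) ^ 2 * N2 x (n + 1) (A w φ) := by
  set w' := model w s (Qn x n)
  set φ' := gf s φ
  have hS : Sym w' := sym_model hw.sym
  have hF : IsFree w' := isFree_model hw
  have hφ' : ∀ f, f ∉ Qn x n → ∀ h, φ' f h = 0 := fun f hf h => by
    simp only [φ', gf, hφ f hf h, mul_zero]
  have hd : ∀ v, v ∉ Qn x (n + 1) → ∀ h, df w' φ' v h = 0 :=
    fun v hv h => df_zero_off hφ' (vts_Qn x n) v hv h
  have h1 := H (dw w') (sym_dw w') hF.isPlus x (n + 1) (df w' φ') hd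
  have h2 : N2 x n φ' ≤ 4 * N2 x (n + 1) (df w' φ') := by
    have := sum_fd_le hF.nonneg (df w' φ') (Qn x n) (Qn x (n + 1)) (vts_Qn x n)
    rwa [fd_df hS hF.ne] at this
  have h3 : N2 x (n + 1 + 1) (A (dw w') (df w' φ')) ≤ 16 * N2 x (n + 1) (A w φ) := by
    rw [A_df_global hS hF.ne]
    have := sum_dg_le (A w' φ') (Qn x (n + 1 + 1)) (Qn x (n + 1 + 1 + 1)) (fcs_Qn x (n + 1 + 1))
    have e : A w' φ' = gf s (A w φ) := by
      funext f h; exact A_model_supp hw φ hφ f h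
    have e2 : N2 x (n + 1 + 1 + 1) (A w' φ') = N2 x (n + 1) (A w φ) := by
      rw [e, N2_gf hw.sq]
      exact N2_eq_of_zero_off (by omega) (A_zero_off hφ)
    unfold N2 at e2 ⊢
    rw [e2] at this
    exact this
  have h4 : N2 x n φ = N2 x n φ' := (N2_gf hw.sq x n φ).symm
  rw [h4]
  push_cast at h1
  have h5 : ((n : ℝ) + 1 + 1) ^ 2 ≤ 4 * ((n : ℝ) + 1) ^ 2 := by
    have : (0 : ℝ) ≤ n := Nat.cast_nonneg n
    nlinarith
  have h6 : 0 ≤ N2 x (n + 1) (A w φ) := N2_nonneg _ _ _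
  have h7 : C * ((n : ℝ) + 1 + 1) ^ 2 * N2 x (n + 1 + 1) (A (dw w') (df w' φ'))
      ≤ C * (4 * ((n : ℝ) + 1) ^ 2) * (16 * N2 x (n + 1) (A w φ)) := by
    refine mul_le_mul (mul_le_mul_of_nonneg_left h5 hC) h3 (N2_nonneg _ _ _) (by positivity)
  nlinarith

/-- transfer of growth estimates for exact solutions: dual estimate `⇒` estimate for the free
model -/
theorem ex1_model {w : Fld} (hS : Sym w) (hF : IsFree w) {x : Face} {m n : ℕ} {a : ℝ}
    (ha : 0 ≤ a)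
    (H : ∀ ψ : Fld, (∀ v ∈ Qn x n, ∀ h, A (dw w) ψ v h = 0) → N2 x (m + 1) ψ ≤ a * N2 x n ψ)
    (φ : Fld) (h0 : ∀ f ∈ Qn x (n + 1), ∀ h, A w φ f h = 0) :
    N2 x m φ ≤ 16 * a * N2 x (n + 1) φ := by
  have h1 := H (df w φ) (A_df_eq_zero hS hF.ne (fcs_Qn x n) h0)
  have h2 : N2 x m φ ≤ 4 * N2 x (m + 1) (df w φ) := by
    have := sum_fd_le hF.nonneg (df w φ) (Qn x m) (Qn x (m + 1)) (vts_Qn x m)
    rwa [fd_df hS hF.ne] at this
  have h3 : N2 x n (df w φ) ≤ 4 * N2 x (n + 1) φ :=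
    sum_df_le hF.nonneg hF.le_one φ (Qn x n) (Qn x (n + 1)) (fcs_Qn x n)
  nlinarith [mul_le_mul_of_nonneg_left h3 ha]

theorem fd_sub (w ψ χ : Fld) : fd w (ψ - χ) = fd w ψ - fd w χ := by
  funext f h
  fin_cases h <;> simp [fd] <;> ring

theorem fd_smul (w : Fld) (c : ℝ) (ψ : Fld) : fd w (c • ψ) = c • fd w ψ := by
  funext f h
  fin_cases h <;> simp [fd] <;> ring

theorem df_sub (w ψ χ : Fld) : df w (ψ - χ) = df w ψ - df w χ := by
  funext f h
  fin_cases h <;> simp [df] <;> ring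

theorem df_smul (w : Fld) (c : ℝ) (ψ : Fld) : df w (c • ψ) = c • df w ψ := by
  funext f h
  fin_cases h <;> simp [df] <;> ring

/-- transfer of the one-mode estimate; the mode of the free background is `fd w u` -/
theorem ex2_model {w : Fld} (hS : Sym w) (hF : IsFree w) {x : Face} {m n : ℕ} {a : ℝ}
    (ha : 0 ≤ a) (u : Fld)
    (H : ∀ ψ : Fld, (∀ v ∈ Qn x n, ∀ h, A (dw w) ψ v h = 0) →
      ∃ κ : ℝ, N2 x (m + 1) (ψ - κ • u) ≤ a * N2 x n ψ)
    (φ : Fld) (h0 : ∀ f ∈ Qn x (n + 1), ∀ h, A w φ f h = 0) :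
    ∃ κ : ℝ, N2 x m (φ - κ • fd w u) ≤ 16 * a * N2 x (n + 1) φ := by
  obtain ⟨κ, h1⟩ := H (df w φ) (A_df_eq_zero hS hF.ne (fcs_Qn x n) h0)
  refine ⟨κ, ?_⟩
  have h2 : N2 x m (φ - κ • fd w u) ≤ 4 * N2 x (m + 1) (df w φ - κ • u) := by
    have := sum_fd_le hF.nonneg (df w φ - κ • u) (Qn x m) (Qn x (m + 1)) (vts_Qn x m)
    rwa [fd_sub, fd_smul, fd_df hS hF.ne] at this
  have h3 : N2 x n (df w φ) ≤ 4 * N2 x (n + 1) φ :=
    sum_df_le hF.nonneg hF.le_one φ (Qn x n) (Qn x (n + 1)) (fcs_Qn x n)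
  nlinarith [mul_le_mul_of_nonneg_left h3 ha]

end Crest.Agent.R165.FreeLocx485
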