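import Crest.Agent.R165.RIface_891
import Crest.Agent.R165.FreeLoc_485

/-!
# Row 165 (S0250), block R: regularity at a free boundary (helper485)

* `FreeFlat w s x r n ε`: free boundary, `ε`-flat with outward normal `n`, arbitrary (free) inside
  the strip; `IsFreeOn w s x r`: free background on a box
* `gapF`: `GapOn` for free backgrounds from `GapU`
* `dual_plusFlat`: the dual background of a `FreeFlat` one is `PlusFlat`
* `exf_of`: `EXf` (growth of exact solutions and one mode) from `EXb`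
* `regF`: Reg1/Reg2 at a free boundary from the leaves `GapU`, `EXb`
* `modeF_eq`: the mode is the constant light mode of amplitude `-i c` away from the strip
-/

set_option autoImplicit false

noncomputable section

namespace Crest.Agent.R165.FreeRegx485

open Finset Crest.Agent.R165.Tr1x40 Crest.Agent.R165.Campx891 Crest.Agent.R165.RIfx891
open Crest.Agent.R165.Dualx485
open Crest.Agent.R165.FreeLocx485 (FreeOn Tch model model_of_tch sym_model isFree_model A_model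
  A_model_supp fd_sub fd_smul df_sub df_smul)

/-! ### boxes and norms -/

theorem vts_bx (x : Face) (r : ℝ) : Vts (bx x r) (bx x (r + 1)) := by
  intro f hf
  rw [mem_bx_real] at hf
  obtain ⟨h1, h2⟩ := hf
  rw [abs_le] at h1 h2
  simp only [mem_bx_real, abs_le]
  push_cast
  refine ⟨⟨⟨?_, ?_⟩, ?_, ?_⟩, ⟨⟨?_, ?_⟩, ?_, ?_⟩, ⟨⟨?_, ?_⟩, ?_, ?_⟩, ⟨⟨?_, ?_⟩, ?_, ?_⟩⟩ <;>
    linarith [h1.1, h1.2, h2.1, h2.2]

theorem fcs_bx (x : Face) (r : ℝ) : Fcs (bx x r) (bx x (r + 1)) := by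
  intro f hf
  rw [mem_bx_real] at hf
  obtain ⟨h1, h2⟩ := hf
  rw [abs_le] at h1 h2
  simp only [mem_bx_real, abs_le]
  push_cast
  refine ⟨⟨⟨?_, ?_⟩, ?_, ?_⟩, ⟨⟨?_, ?_⟩, ?_, ?_⟩, ⟨⟨?_, ?_⟩, ?_, ?_⟩, ⟨⟨?_, ?_⟩, ?_, ?_⟩⟩ <;>
    linarith [h1.1, h1.2, h2.1, h2.2]

theorem le_of_sq_le' {a b c : ℝ} (hc : 0 ≤ c) (hb : 0 ≤ b) (h : a ^ 2 ≤ c ^ 2 * b ^ 2) :
    a ≤ c * b := by
  rw [← mul_pow] at h
  exact le_of_sq_le_sq h (by positivity)
where
  le_of_sq_le_sq {a b : ℝ} (h : a ^ 2 ≤ b ^ 2) (hb : 0 ≤ b) : a ≤ b := by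
    by_contra hc
    push Not at hc
    nlinarith

theorem NB_fd {w : Fld} (hy : ∀ f h, 0 ≤ w f h) (ψ : Fld) (x : Face) (t : ℝ) :
    NB x t (fd w ψ) ≤ 2 * NB x (t + 1) ψ := by
  refine le_of_sq_le' (by norm_num) (apply_nonneg _ _) ?_
  rw [NB_sq, NB_sq]
  have := sum_fd_le hy ψ (bx x t) (bx x (t + 1)) (vts_bx x t)
  linarith

theorem NB_df {w : Fld} (hy : ∀ f h, 0 ≤ w f h) (hy1 : ∀ f h, w f h ≤ 1) (φ : Fld) (x : Face)
    (t : ℝ) : NB x t (df w φ) ≤ 2 * NB x (t + 1) φ := by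
  refine le_of_sq_le' (by norm_num) (apply_nonneg _ _) ?_
  rw [NB_sq, NB_sq]
  have := sum_df_le hy hy1 φ (bx x t) (bx x (t + 1)) (fcs_bx x t)
  linarith

theorem NB_dg (g : Fld) (x : Face) (t : ℝ) : NB x t (dg g) ≤ 4 * NB x (t + 1) g := by
  refine le_of_sq_le' (by norm_num) (apply_nonneg _ _) ?_
  rw [NB_sq, NB_sq]
  have := sum_dg_le g (bx x t) (bx x (t + 1)) (fcs_bx x t)
  linarith

theorem NB_eq_of_supp {φ : Fld} {x : Face} {r t : ℝ} (hrt : r ≤ t) (hφ : Supp (bx x r) φ) :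
    NB x t φ = NB x r φ := by
  have h1 : NB x t φ ^ 2 = NB x r φ ^ 2 := by
    rw [NB_sq, NB_sq]
    symm
    refine sum_subset (bx_mono x hrt) fun f _ hf => ?_
    rw [hφ f hf]; simp [nsq]
  have h2 : 0 ≤ NB x t φ := apply_nonneg _ _
  have h3 : 0 ≤ NB x r φ := apply_nonneg _ _
  nlinarith [sq_nonneg (NB x t φ - NB x r φ)]

theorem gf_eq_gm (s : Face → ℝ) (φ : Fld) : gf s φ = gm s φ := rfl

/-! ### background classes -/

/-- free background on a box, up to a gauge -/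
structure IsFreeOn (w : Fld) (s : Face → ℝ) (x : Face) (r : ℝ) : Prop where
  sym : Sym w
  gauge : Gauge s
  free : ∀ f ∈ bx x r, ∀ h, w f h = s f * s (nb f h) * xc ∨ w f h = s f * s (nb f h)

/-- free boundary, `ε`-flat with outward normal `n`; arbitrary (free) inside the strip -/
structure FreeFlat (w : Fld) (s : Face → ℝ) (x : Face) (r : ℝ) (n : ℂ) (ε : ℝ) : Prop where
  sym : Sym w
  gauge : Gauge s
  free : ∀ f ∈ bx x r, ∀ h, w f h = s f * s (nb f h) * xc ∨ w f h = s f * s (nb f h)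
  inside : ∀ f ∈ bx x r, dotn n x f ≤ -(ε * r) → ∀ h, w f h = s f * s (nb f h) * xc
  outside : ∀ f ∈ bx x r, ε * r ≤ dotn n x f → ∀ h, w f h = s f * s (nb f h)

theorem FreeFlat.isFreeOn {w : Fld} {s : Face → ℝ} {x : Face} {r : ℝ} {n : ℂ} {ε : ℝ}
    (H : FreeFlat w s x r n ε) : IsFreeOn w s x r := ⟨H.sym, H.gauge, H.free⟩

theorem IsFreeOn.mono {w : Fld} {s : Face → ℝ} {x : Face} {r r' : ℝ} (h : r' ≤ r)
    (H : IsFreeOn w s x r) : IsFreeOn w s x r' :=
  ⟨H.sym, H.gauge, fun f hf => H.free f (bx_mono x h hf)⟩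

theorem FreeFlat.mono {w : Fld} {s : Face → ℝ} {x : Face} {r r' ε ε' : ℝ} {n : ℂ} (h : r' ≤ r)
    (h' : ε * r ≤ ε' * r') (H : FreeFlat w s x r n ε) : FreeFlat w s x r' n ε' :=
  ⟨H.sym, H.gauge, fun f hf => H.free f (bx_mono x h hf),
    fun f hf hd => H.inside f (bx_mono x h hf) (by linarith),
    fun f hf hd => H.outside f (bx_mono x h hf) (by linarith)⟩

theorem gauge_cancel {s : Face → ℝ} (hs : Gauge s) (f g : Face) (a : ℝ) :
    s f * s g * (s f * s g * a) = a := by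
  have h1 := hs f
  have h2 := hs g
  calc s f * s g * (s f * s g * a) = s f ^ 2 * s g ^ 2 * a := by ring
    _ = a := by rw [h1, h2]; ring

theorem IsFreeOn.freeOn {w : Fld} {s : Face → ℝ} {x : Face} {r : ℝ} (H : IsFreeOn w s x r) :
    FreeOn w s (bx x r) where
  sym := H.sym
  sq := H.gauge
  val := by
    have key : ∀ f ∈ bx x r, ∀ h, s f * s (nb f h) * w f h = xc ∨ s f * s (nb f h) * w f h = 1 := by
      intro f hf h
      rcases H.free f hf h with e | e
      · left; rw [e, gauge_cancel H.gauge]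
      · right
        have := gauge_cancel H.gauge f (nb f h) 1
        rw [e]; rwa [mul_one] at this
    intro f h ht
    rcases ht with hf | hf
    · exact key f hf h
    · have := key _ hf (op h)
      rw [nb_nb_op, H.sym f h] at this
      rwa [mul_comm (s f)]

/-- the model on the box is the gauge transform -/
theorem model_bx {w : Fld} {s : Face → ℝ} {x : Face} {r : ℝ} {f : Face} (hf : f ∈ bx x r)
    (h : Fin 4) : model w s (bx x r) f h = gw s w f h := model_of_tch (Or.inl hf)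

theorem fd_congr {w w' ψ : Fld} {f : Face} (h : ∀ k, w f k = w' f k) : fd w ψ f = fd w' ψ f := by
  funext k
  fin_cases k <;> simp only [fd, h]

/-! ### gap -/

/-- **gap for free backgrounds** -/
theorem gapF {C : ℝ} (hC : 0 ≤ C) (H : GapU C) {w : Fld} {s : Face → ℝ} {x : Face} {r : ℝ}
    (hr : 1 ≤ r) (hw : IsFreeOn w s x r) : GapOn w x r (16 * C) := by
  intro φ hφ
  set w' := model w s (bx x r) with hw'
  set φ' := gf s φ with hφ'
  have hO := hw.freeOn
  have hS : Sym w' := sym_model hw.sym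
  have hF : IsFree w' := isFree_model hO
  have hs' : Supp (bx x r) φ' := fun f hf => by
    funext h; simp only [φ', gf, hφ f hf, Pi.zero_apply, mul_zero]
  have hd : Supp (bx x (r + 1)) (df w' φ') := fun v hv => funext fun k =>
    df_zero_off (fun f hf k => congrFun (hs' f hf) k) (vts_bx x r) v hv k
  have hp : IsPlusOn (dw w') x (r + 1) := fun f _ h => hF.isPlus f h
  have h1 := H (dw w') x (r + 1) (by linarith) (sym_dw w') hp (df w' φ') hd
  have h2 : NB x r φ' ≤ 2 * NB x (r + 1) (df w' φ') := by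
    have := NB_fd hF.nonneg (df w' φ') x r
    rwa [fd_df hS hF.ne] at this
  have e1 : A w' φ' = gm s (A w φ) := by
    funext f h
    exact A_model_supp hO φ (fun f hf k => congrFun (hφ f hf) k) f h
  have h3 : NB x (r + 1 + 1) (A (dw w') (df w' φ')) ≤ 4 * NB x (r + 1) (A w φ) := by
    rw [A_df_global hS hF.ne]
    have := NB_dg (A w' φ') x (r + 1 + 1)
    rw [e1, NB_gm hw.gauge, NB_eq_of_supp (by linarith) (supp_A hφ)] at this
    rwa [e1]
  have h4 : NB x r φ = NB x r φ' := (NB_gm hw.gauge x r φ).symm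
  rw [h4]
  have h5 : 0 ≤ NB x (r + 1) (A w φ) := apply_nonneg _ _
  have h6 : C * (r + 1) * NB x (r + 1 + 1) (A (dw w') (df w' φ'))
      ≤ C * (2 * r) * (4 * NB x (r + 1) (A w φ)) :=
    mul_le_mul (mul_le_mul_of_nonneg_left (by linarith) hC) h3 (apply_nonneg _ _) (by positivity)
  calc NB x r φ' ≤ 2 * NB x (r + 1) (df w' φ') := h2
    _ ≤ 2 * (C * (r + 1) * NB x (r + 1 + 1) (A (dw w') (df w' φ'))) := by linarith
    _ ≤ 2 * (C * (2 * r) * (4 * NB x (r + 1) (A w φ))) := by linarith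
    _ = 16 * C * r * NB x (r + 1) (A w φ) := by ring

/-! ### the dual background -/

theorem dotn_shift {n : ℂ} (hn : ‖n‖ = 1) (x v : Face) (a b : ℝ) (c d : ℤ)
    (hc : (c : ℝ) = v.1 + a) (hd : (d : ℝ) = v.2 + b) (hab : |a| + |b| ≤ 1) :
    |dotn n x (c, d) - dotn n x v| ≤ 1 := by
  have h1 : |n.re| ≤ 1 := (Complex.abs_re_le_norm n).trans hn.le
  have h2 : |n.im| ≤ 1 := (Complex.abs_im_le_norm n).trans hn.le
  have e : dotn n x (c, d) - dotn n x v = n.re * a + n.im * b := by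
    simp only [dotn, hc, hd]; ring
  rw [e]
  calc |n.re * a + n.im * b| ≤ |n.re * a| + |n.im * b| := abs_add_le _ _
    _ = |n.re| * |a| + |n.im| * |b| := by rw [abs_mul, abs_mul]
    _ ≤ 1 * |a| + 1 * |b| := by gcongr
    _ ≤ 1 := by linarith

/-- the dual background of a `FreeFlat` background is `PlusFlat` -/
theorem dual_plusFlat {w : Fld} {s : Face → ℝ} {x : Face} {r : ℝ} {n : ℂ} {ε ε' : ℝ}
    (hn : ‖n‖ = 1) (H : FreeFlat w s x r n ε) (hε : ε * r + 1 ≤ ε' * (r - 1)) :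
    PlusFlat (dw (model w s (bx x r))) (fun _ => 1) x (r - 1) n ε' := by
  have hO := H.isFreeOn.freeOn
  have hF : IsFree (model w s (bx x r)) := isFree_model hO
  -- the four faces
  have hfc := fcs_bx x (r - 1)
  rw [sub_add_cancel] at hfc
  have key : ∀ (P : ℝ → Prop) (v : Face), v ∈ bx x (r - 1) →
      (∀ f, f ∈ bx x r → |dotn n x f - dotn n x v| ≤ 1 → ∀ h, P (model w s (bx x r) f h)) →
      ∀ h, P (ew (model w s (bx x r)) v h) := by
    intro P v hv hP h
    obtain ⟨a1, a2, a3, a4⟩ := hfc v hv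
    have b1 : |dotn n x (v.1, v.2) - dotn n x v| ≤ 1 :=
      dotn_shift hn x v 0 0 _ _ (by simp) (by simp) (by simp)
    have b2 : |dotn n x (v.1 - 1, v.2) - dotn n x v| ≤ 1 :=
      dotn_shift hn x v (-1) 0 _ _ (by push_cast; ring) (by simp) (by simp)
    have b3 : |dotn n x (v.1, v.2 - 1) - dotn n x v| ≤ 1 :=
      dotn_shift hn x v 0 (-1) _ _ (by simp) (by push_cast; ring) (by simp)
    fin_cases h
    · exact hP _ a3 b3 3
    · exact hP _ a1 b1 0
    · exact hP _ a1 b1 3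
    · exact hP _ a2 b2 0
  refine ⟨sym_dw _, fun _ => by norm_num, fun f _ h => hF.isPlus f h, ?_, ?_⟩
  · intro v hv hd h
    have : ew (model w s (bx x r)) v h = xc := by
      refine key (fun y => y = xc) v hv (fun f hf hfd h => ?_) h
      rw [model_bx hf, gw, H.inside f hf ?_ h, gauge_cancel H.gauge]
      rw [abs_le] at hfd
      linarith [hfd.2]
    simp only [dw, this, dy_xc, one_mul]
  · intro v hv hd h
    have : ew (model w s (bx x r)) v h = 1 := by
      refine key (fun y => y = 1) v hv (fun f hf hfd h => ?_) h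
      have e := gauge_cancel H.gauge f (nb f h) 1
      rw [mul_one] at e
      rw [model_bx hf, gw, H.outside f hf ?_ h, e]
      rw [abs_le] at hfd
      linarith [hfd.1]
    simp only [dw, this, dy_one]

/-! ### exact solutions -/

/-- boundary mode of a free background -/
def modeF (w : Fld) (s : Face → ℝ) (x : Face) (n c : ℂ) : Fld :=
  gm s (fd (gw s w) (modeB (fun _ => 1) x n c))

/-- growth of exact solutions and one mode at a free boundary -/
def EXf (C : ℝ) : Prop :=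
  ∀ (m : ℕ) (η : ℝ), 0 < η → ∃ r0 ε0 : ℝ, 0 < ε0 ∧
    ∀ (w : Fld) (s : Face → ℝ) (x : Face) (r : ℝ) (n c : ℂ), r0 ≤ r → ‖n‖ = 1 →
      c ^ 2 = (starRingEnd ℂ) n → FreeFlat w s x r n ε0 →
      Ex1On w x r (r * q ^ (2 * m)) (C * q ^ (2 * m) + η) ∧
      Ex2On w x r (r * q ^ (2 * m)) (modeF w s x n c) (C * q ^ (4 * m) + η)

theorem NB_modeF {w : Fld} {s : Face → ℝ} {x : Face} {r t : ℝ} (hs : Gauge s) (ht : t ≤ r)
    (e u : Fld) (κ : ℝ) :
    NB x t (e - κ • gm s (fd (gw s w) u))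
      = NB x t (gf s e - κ • fd (model w s (bx x r)) u) := by
  rw [← NB_gm hs x t (e - κ • gm s (fd (gw s w) u))]
  refine N2_congr fun f hf => ?_
  rw [map_sub, map_smul, gm_gm hs]
  have : fd (model w s (bx x r)) u f = fd (gw s w) u f :=
    fd_congr fun k => model_bx (bx_mono x ht hf) k
  simp only [Pi.sub_apply, Pi.smul_apply, this, gf_eq_gm]

/-- transfer of the growth estimate -/
theorem ex1_transfer {w : Fld} {s : Face → ℝ} {x : Face} {r t M : ℝ} (hw : IsFreeOn w s x r)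
    (hM : 0 ≤ M) (H : Ex1On (dw (model w s (bx x r))) x (r - 1) (t + 1) M) :
    Ex1On w x r t (4 * M) := by
  intro e he
  set w' := model w s (bx x r) with hw'
  have hO := hw.freeOn
  have hS : Sym w' := sym_model hw.sym
  have hF : IsFree w' := isFree_model hO
  have h0 : ∀ f ∈ bx x r, ∀ h, A w' (gf s e) f h = 0 := by
    intro f hf h
    rw [A_model hO e f h (Or.inl hf), gf, he f hf]; simp
  have hfc := fcs_bx x (r - 1)
  rw [sub_add_cancel] at hfc
  have h1 := H (df w' (gf s e)) fun v hv => funext fun h => A_df_eq_zero hS hF.ne hfc h0 v hv h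
  have h2 : NB x t (gf s e) ≤ 2 * NB x (t + 1) (df w' (gf s e)) := by
    have := NB_fd hF.nonneg (df w' (gf s e)) x t
    rwa [fd_df hS hF.ne] at this
  have h3 : NB x (r - 1) (df w' (gf s e)) ≤ 2 * NB x r (gf s e) := by
    have := NB_df hF.nonneg hF.le_one (gf s e) x (r - 1)
    rwa [sub_add_cancel] at this
  rw [gf_eq_gm, NB_gm hw.gauge] at h2 h3
  rw [gf_eq_gm] at h1
  calc NB x t e ≤ 2 * NB x (t + 1) (df w' (gm s e)) := h2
    _ ≤ 2 * (M * NB x (r - 1) (df w' (gm s e))) := by linarith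
    _ ≤ 2 * (M * (2 * NB x r e)) := by
        have := mul_le_mul_of_nonneg_left h3 hM
        linarith
    _ = 4 * M * NB x r e := by ring

/-- transfer of the one-mode estimate -/
theorem ex2_transfer {w : Fld} {s : Face → ℝ} {x : Face} {r t M : ℝ} (u : Fld)
    (hw : IsFreeOn w s x r) (ht : t ≤ r)
    (hM : 0 ≤ M) (H : Ex2On (dw (model w s (bx x r))) x (r - 1) (t + 1) u M) :
    Ex2On w x r t (gm s (fd (gw s w) u)) (4 * M) := by
  intro e he
  set w' := model w s (bx x r) with hw'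
  have hO := hw.freeOn
  have hS : Sym w' := sym_model hw.sym
  have hF : IsFree w' := isFree_model hO
  have h0 : ∀ f ∈ bx x r, ∀ h, A w' (gf s e) f h = 0 := by
    intro f hf h
    rw [A_model hO e f h (Or.inl hf), gf, he f hf]; simp
  have hfc := fcs_bx x (r - 1)
  rw [sub_add_cancel] at hfc
  obtain ⟨κ, h1⟩ := H (df w' (gf s e))
    fun v hv => funext fun h => A_df_eq_zero hS hF.ne hfc h0 v hv h
  refine ⟨κ, ?_⟩
  rw [NB_modeF hw.gauge ht, ← hw']
  have h2 : NB x t (gf s e - κ • fd w' u) ≤ 2 * NB x (t + 1) (df w' (gf s e) - κ • u) := by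
    have := NB_fd hF.nonneg (df w' (gf s e) - κ • u) x t
    rwa [fd_sub, fd_smul, fd_df hS hF.ne] at this
  have h3 : NB x (r - 1) (df w' (gf s e)) ≤ 2 * NB x r (gf s e) := by
    have := NB_df hF.nonneg hF.le_one (gf s e) x (r - 1)
    rwa [sub_add_cancel] at this
  have h4 : NB x r (gf s e) = NB x r e := NB_gm hw.gauge x r e
  rw [h4] at h3
  calc NB x t (gf s e - κ • fd w' u) ≤ 2 * NB x (t + 1) (df w' (gf s e) - κ • u) := h2
    _ ≤ 2 * (M * NB x (r - 1) (df w' (gf s e))) := by linarith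
    _ ≤ 2 * (M * (2 * NB x r e)) := by
        have := mul_le_mul_of_nonneg_left h3 hM
        linarith
    _ = 4 * M * NB x r e := by ring

theorem ex1On_anti {w : Fld} {x : Face} {r t t' M : ℝ} (h : t' ≤ t) (H : Ex1On w x r t M) :
    Ex1On w x r t' M := fun e he => (NB_mono x h e).trans (H e he)

theorem ex2On_anti {w : Fld} {x : Face} {r t t' M : ℝ} {u : Fld} (h : t' ≤ t)
    (H : Ex2On w x r t u M) : Ex2On w x r t' u M := fun e he => by
  obtain ⟨κ, hκ⟩ := H e he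
  exact ⟨κ, (NB_mono x h _).trans hκ⟩

theorem ex1On_le {w : Fld} {x : Face} {r t M M' : ℝ} (h : M ≤ M') (H : Ex1On w x r t M) :
    Ex1On w x r t M' := fun e he =>
  (H e he).trans (mul_le_mul_of_nonneg_right h (apply_nonneg _ _))

theorem ex2On_le {w : Fld} {x : Face} {r t M M' : ℝ} {u : Fld} (h : M ≤ M')
    (H : Ex2On w x r t u M) : Ex2On w x r t u M' := fun e he => by
  obtain ⟨κ, hκ⟩ := H e he
  exact ⟨κ, hκ.trans (mul_le_mul_of_nonneg_right h (apply_nonneg _ _))⟩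

/-- **free boundary: exact solutions**, from the plus boundary -/
theorem exf_of {C : ℝ} (hC : 0 ≤ C) (hE : EXb C) : EXf (16 * C + 1) := by
  intro m η hη
  have hq := q_pos
  rcases Nat.eq_zero_or_pos m with rfl | hm
  · -- nothing to prove at the scale of the box
    refine ⟨0, 1, one_pos, fun w s x r n c _ _ _ _ => ⟨fun e _ => ?_, fun e _ => ⟨0, ?_⟩⟩⟩
    · have h0 : 0 ≤ NB x r e := apply_nonneg _ _
      simp only [mul_zero, pow_zero, mul_one]
      nlinarith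
    · have h0 : 0 ≤ NB x r e := apply_nonneg _ _
      simp only [mul_zero, pow_zero, mul_one, zero_smul, sub_zero]
      nlinarith
  · obtain ⟨k, rfl⟩ : ∃ k, m = k + 1 := ⟨m - 1, by omega⟩
    obtain ⟨r1, ε1, hε1, hX⟩ := hE k (η / 4) (by positivity)
    have hqk : 0 < q ^ (2 * (k + 1)) := by positivity
    refine ⟨max (max (r1 + 1) (3 / q ^ (2 * (k + 1)))) (max 3 (2 * (1 + ε1) / ε1)), ε1 / 2,
      by positivity, ?_⟩
    intro w s x r n c hr hn hc H
    have g1 : r1 + 1 ≤ r := (le_max_left _ _).trans ((le_max_left _ _).trans hr)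
    have g2 : 3 / q ^ (2 * (k + 1)) ≤ r := (le_max_right _ _).trans ((le_max_left _ _).trans hr)
    have g3 : 3 ≤ r := (le_max_left _ _).trans ((le_max_right _ _).trans hr)
    have g4 : 2 * (1 + ε1) / ε1 ≤ r := (le_max_right _ _).trans ((le_max_right _ _).trans hr)
    rw [div_le_iff₀ hqk] at g2
    rw [div_le_iff₀ hε1] at g4
    have hP := dual_plusFlat (ε' := ε1) hn H (by nlinarith)
    obtain ⟨hX1, hX2⟩ := hX _ _ x (r - 1) n c (by linarith) hn hc hP
    have e1 : q ^ (2 * (k + 1)) = q ^ (2 * k) / 2 := by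
      rw [show 2 * (k + 1) = 2 * k + 2 by ring, pow_add, q_sq]; ring
    have e2 : q ^ (4 * (k + 1)) = q ^ (4 * k) / 4 := by
      rw [show 4 * (k + 1) = 4 * k + 2 + 2 by ring, pow_add, pow_add, q_sq]; ring
    have e3 : q ^ (2 * (k + 1)) ≤ 1 := pow_le_one₀ hq.le q_le_one
    have ht : r * q ^ (2 * (k + 1)) + 1 ≤ (r - 1) * q ^ (2 * k) := by
      have : (r - 1) * q ^ (2 * k) = 2 * (r * q ^ (2 * (k + 1))) - 2 * q ^ (2 * (k + 1)) := by
        rw [e1]; ring
      rw [this]; linarith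
    have ht2 : r * q ^ (2 * (k + 1)) ≤ r := mul_le_of_le_one_right (by linarith) e3
    have p1 : 0 < q ^ (2 * k) := by positivity
    have p2 : 0 < q ^ (4 * k) := by positivity
    refine ⟨?_, ?_⟩
    · refine ex1On_le ?_ (ex1_transfer H.isFreeOn (by positivity) (ex1On_anti ht hX1))
      rw [e1]; nlinarith
    · refine ex2On_le ?_ (ex2_transfer _ H.isFreeOn ht2 (by positivity) (ex2On_anti ht hX2))
      rw [e2]; nlinarith

/-! ### regularity -/

/-- **Reg1/Reg2 at a free boundary** from `GapU` and `EXf` -/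
theorem regF' {C Cs : ℝ} (hC : 0 ≤ C) (hCs : 0 ≤ Cs) (hG : GapU Cs) (hE : EXf C) :
    ∀ J : ℕ, ∃ r0 ε0 : ℝ, 0 < ε0 ∧
    ∀ (w : Fld) (s : Face → ℝ) (x : Face) (ρ : ℝ) (n c : ℂ), r0 ≤ ρ → ‖n‖ = 1 →
      c ^ 2 = (starRingEnd ℂ) n → FreeFlat w s x ρ n ε0 →
      ∀ f : Fld, NB x ρ f ≤ 1 → NB x ρ (A w f) ≤ 1 / ρ → NB x ρ (A w (A w f)) ≤ 1 / ρ ^ 2 →
        NB x (ρ * q ^ (2 * J)) f ≤ K2 C (16 * Cs) * q ^ (2 * J) ∧
        ∃ κ : ℝ, NB x (ρ * q ^ (2 * J)) (f - κ • modeF w s x n c)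
          ≤ K2 C (16 * Cs) * q ^ (3 * J) := by
  intro J
  have hq := q_pos
  choose r0 ε0 hε0 hEX using fun m : ℕ => hE m (q ^ (3 * J)) (by positivity)
  -- uniform thresholds over m ≤ J
  obtain ⟨R, hR⟩ : ∃ R, ∀ m ≤ J, r0 m ≤ R := by
    refine ⟨(range (J + 1)).sup' (nonempty_range_iff.2 (by omega)) r0, fun m hm => ?_⟩
    exact le_sup' r0 (mem_range.2 (by omega))
  obtain ⟨E, hE0, hE⟩ : ∃ E, 0 < E ∧ ∀ m ≤ J, E ≤ ε0 m := by
    refine ⟨(range (J + 1)).inf' (nonempty_range_iff.2 (by omega)) ε0, ?_, fun m hm => ?_⟩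
    · rw [lt_inf'_iff]; exact fun m _ => hε0 m
    · exact inf'_le ε0 (mem_range.2 (by omega))
  refine ⟨max 1 (max 1 R / q ^ (2 * J)), E * q ^ (2 * J), by positivity, ?_⟩
  intro w s x ρ n c hρ hn hc H f h0 h1 h2
  have hρ1 : max 1 R / q ^ (2 * J) ≤ ρ := (le_max_right _ _).trans hρ
  have hρ2 : max 1 R ≤ ρ * q ^ (2 * J) := by rwa [div_le_iff₀ (by positivity)] at hρ1
  have hρ3 : (1 : ℝ) ≤ ρ := (le_max_left _ _).trans hρ
  have hρ0 : 0 < ρ := by linarith
  have hsc : ∀ j ≤ J, max 1 R ≤ ρ * q ^ (2 * j) := fun j hj =>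
    hρ2.trans (mul_le_mul_of_nonneg_left (q_pow_le (by omega)) hρ0.le)
  have hle : ∀ j : ℕ, ρ * q ^ (2 * j) ≤ ρ := fun j =>
    mul_le_of_le_one_right hρ0.le (pow_le_one₀ hq.le q_le_one)
  have hcl : ∀ j ≤ J, ∀ m ≤ J, FreeFlat w s x (ρ * q ^ (2 * j)) n (ε0 m) := by
    intro j hj m hm
    refine H.mono (hle j) ?_
    have e1 : q ^ (2 * J) ≤ q ^ (2 * j) := q_pow_le (by omega)
    have e2 := hE m hm
    calc E * q ^ (2 * J) * ρ ≤ ε0 m * q ^ (2 * j) * ρ := by gcongr; exact (hε0 m).le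
      _ = ε0 m * (ρ * q ^ (2 * j)) := by ring
  have key : Hyp (AL w) (fun j => NB x (ρ * q ^ (2 * j))) (modeF w s x n c) 2 J ρ C (16 * Cs)
      (q ^ (3 * J)) := by
    refine hyp_of H.sym (by norm_num) le_rfl hρ0 hC (by positivity) (by positivity) le_rfl
      ?_ ?_ ?_
    · intro j hj
      exact gapF hCs hG ((le_max_left _ _).trans (hsc j hj)) (H.isFreeOn.mono (hle j))
    · intro j i hji hi
      have := (hEX (i - j) w s x (ρ * q ^ (2 * j)) n c
        ((hR _ (by omega)).trans ((le_max_right _ _).trans (hsc j (by omega)))) hn hc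
        (hcl j (by omega) _ (by omega))).1
      have e1 : ρ * q ^ (2 * j) * q ^ (2 * (i - j)) = ρ * q ^ (2 * i) := by
        rw [mul_assoc, ← pow_add]; congr 2; omega
      rwa [e1] at this
    · intro j hj
      have := (hEX (J - j) w s x (ρ * q ^ (2 * j)) n c
        ((hR _ (by omega)).trans ((le_max_right _ _).trans (hsc j (by omega)))) hn hc
        (hcl j (by omega) _ (by omega))).2
      have e1 : ρ * q ^ (2 * j) * q ^ (2 * (J - j)) = ρ * q ^ (2 * J) := by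
        rw [mul_assoc, ← pow_add]; congr 2; omega
      rwa [e1] at this
  have a0 : (fun j => NB x (ρ * q ^ (2 * j))) 0 f ≤ 1 := by simpa using h0
  have a1 : (fun j => NB x (ρ * q ^ (2 * j))) 0 (AL w f) ≤ 1 / ρ := by simpa using h1
  have a2 : (fun j => NB x (ρ * q ^ (2 * j))) 0 (AL w (AL w f)) ≤ 1 / ρ ^ 2 := by simpa using h2
  exact level2 key f a0 a1 a2

/-- **Reg1/Reg2 at a free boundary** from the leaves `GapU`, `EXb` -/
theorem regF {C Cs : ℝ} (hC : 0 ≤ C) (hCs : 0 ≤ Cs) (hG : GapU Cs) (hE : EXb C) :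
    ∀ J : ℕ, ∃ r0 ε0 : ℝ, 0 < ε0 ∧
    ∀ (w : Fld) (s : Face → ℝ) (x : Face) (ρ : ℝ) (n c : ℂ), r0 ≤ ρ → ‖n‖ = 1 →
      c ^ 2 = (starRingEnd ℂ) n → FreeFlat w s x ρ n ε0 →
      ∀ f : Fld, NB x ρ f ≤ 1 → NB x ρ (A w f) ≤ 1 / ρ → NB x ρ (A w (A w f)) ≤ 1 / ρ ^ 2 →
        NB x (ρ * q ^ (2 * J)) f ≤ K2 (16 * C + 1) (16 * Cs) * q ^ (2 * J) ∧
        ∃ κ : ℝ, NB x (ρ * q ^ (2 * J)) (f - κ • modeF w s x n c)
          ≤ K2 (16 * C + 1) (16 * Cs) * q ^ (3 * J) :=
  regF' (by positivity) hCs hG (exf_of hC hE)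

/-! ### the mode in the interior -/

theorem lv_eq_cm (c : ℂ) : lv c = cm c.re c.im := by
  funext h
  fin_cases h
  · simp [lv, cm_zero]
  · simp [lv, cm_one]
  · simp [lv, cm_two]
  · simp [lv, cm_three]

/-- the amplitude of the free mode is `-i c` -/
theorem fd_lv {w : Fld} {f : Face} (c : ℂ) (ψ : Fld) (hw : ∀ h, w f h = xc)
    (h1 : ψ (f.1, f.2) = lv c) (h2 : ψ (f.1 + 1, f.2) = lv c) (h3 : ψ (f.1, f.2 + 1) = lv c)
    (h4 : ψ (f.1 + 1, f.2 + 1) = lv c) : fd w ψ f = lv (-Complex.I * c) := by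
  have hs := sq2
  have hx : 1 + xc ≠ 0 := by have := xc_pos; positivity
  have hx2 : 1 + xc = Real.sqrt 2 := by rw [xc]; ring
  have hr : Real.sqrt 2 ≠ 0 := by positivity
  have er : (-Complex.I * c).re = c.im := by simp
  have ei : (-Complex.I * c).im = -c.re := by simp
  funext h
  fin_cases h
  · show (ψ (f.1 + 1, f.2) 3 + ψ (f.1, f.2) 1) / (1 + w f 0) = lv (-Complex.I * c) 0
    rw [h1, h2, hw, hx2]
    simp only [lv, er, ei]
    ring
  · show (ψ (f.1 + 1, f.2) 2 - ψ (f.1 + 1, f.2 + 1) 0) / (1 + w f 1) = lv (-Complex.I * c) 1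
    rw [h2, h4, hw, hx2]
    simp only [lv, er]
    field_simp
    rw [Real.sq_sqrt (by norm_num)]
    ring
  · show (ψ (f.1 + 1, f.2 + 1) 3 - ψ (f.1, f.2 + 1) 1) / (1 + w f 2) = lv (-Complex.I * c) 2
    rw [h3, h4, hw, hx2]
    simp only [lv, er, ei]
    ring
  · show -(ψ (f.1, f.2) 2 + ψ (f.1, f.2 + 1) 0) / (1 + w f 3) = lv (-Complex.I * c) 3
    rw [h1, h3, hw, hx2]
    simp only [lv, ei]
    field_simp
    rw [Real.sq_sqrt (by norm_num)]
    ring

/-- away from the boundary the free mode is the constant light mode of amplitude `-i c`; its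
square is `-n̄` -/
theorem modeF_eq {w : Fld} {s : Face → ℝ} {x f : Face} {n c : ℂ} (hs : Gauge s)
    (hw : ∀ h, w f h = s f * s (nb f h) * xc)
    (hd : ∀ a b : ℤ, (a = 0 ∨ a = 1) → (b = 0 ∨ b = 1) → dotn n x (f.1 + a, f.2 + b) ≤ 0) :
    modeF w s x n c f = fun h => s f * lv (-Complex.I * c) h := by
  have e : ∀ a b : ℤ, (a = 0 ∨ a = 1) → (b = 0 ∨ b = 1) →
      modeB (fun _ => 1) x n c (f.1 + a, f.2 + b) = lv c := by
    intro a b ha hb
    funext h
    simp only [modeB, if_pos (hd a b ha hb), one_mul]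
  have e1 := e 0 0 (Or.inl rfl) (Or.inl rfl)
  have e2 := e 1 0 (Or.inr rfl) (Or.inl rfl)
  have e3 := e 0 1 (Or.inl rfl) (Or.inr rfl)
  have e4 := e 1 1 (Or.inr rfl) (Or.inr rfl)
  rw [add_zero, add_zero] at e1
  rw [add_zero] at e2 e3
  have hw' : ∀ h, gw s w f h = xc := fun h => by rw [gw, hw, gauge_cancel hs]
  funext h
  have := congrFun (fd_lv c (modeB (fun _ => 1) x n c) hw' e1 e2 e3 e4) h
  show s f * fd (gw s w) (modeB (fun _ => 1) x n c) f h = _
  rw [this]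

end Crest.Agent.R165.FreeRegx485
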