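import Mathlib
import Crest.Prelude.Def_PerturbedIsing

/-!
R165, block GEO: interface definitions.

* `Chart D p r M k g g'`: in the box `|s| ≤ r, |t| ≤ 3r` of the coordinates `p + I^k (s + t I)`, the set `D`
  is the open epigraph of the `C^{1,1}` function `g` (slope `≤ 3/2`, `g'` is `M`-Lipschitz).
* `CD D r M`: `D` is open, bounded, connected, its complement is connected, and `D` has a chart with the
  uniform constants `r`, `M` at every point of its frontier.
* `LocEpi T z ρ κ k G G'`: lattice version, for a set `T` of sites of the square lattice, in the box of radius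
  `ρ` around the site `z`, in rotated coordinates; `G` need not vanish at `0`, so the two cases "the whole box
  is inside / outside" are included (constant `G`).
* `LatReg T ρ κ`: `LocEpi` around every site.
* `JoinIn T u v`: nearest neighbour path inside `T`.
-/

set_option autoImplicit false

namespace Crest.Agent.R165.Geo

open Complex Set
open Crest.ProbabilityR.IsingModel

/-- Chart of the planar set `D` at `p`. -/
structure Chart (D : Set ℂ) (p : ℂ) (r M : ℝ) (k : ℕ) (g g' : ℝ → ℝ) : Prop where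
  zero : g 0 = 0
  hd : ∀ s, HasDerivAt g (g' s) s
  slope : ∀ s, |g' s| ≤ 3/2
  lip : ∀ s t, |g' s - g' t| ≤ M * |s - t|
  mem : ∀ s t : ℝ, |s| ≤ r → |t| ≤ 3*r → (p + I^k * ((s:ℂ) + (t:ℂ)*I) ∈ D ↔ g s < t)
  bdry : ∀ s t : ℝ, |s| ≤ r → |t| ≤ 3*r → (p + I^k * ((s:ℂ) + (t:ℂ)*I) ∈ frontier D ↔ t = g s)

/-- Domain with uniform charts. -/
structure CD (D : Set ℂ) (r M : ℝ) : Prop where
  r_pos : 0 < r
  M_nonneg : 0 ≤ M
  isOpen : IsOpen D
  bdd : Bornology.IsBounded D
  conn : IsConnected D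
  conn_compl : IsConnected Dᶜ
  chart : ∀ p ∈ frontier D, ∃ k g g', Chart D p r M k g g'

/-- Nearest neighbours of the square lattice. -/
def nn (u v : ℤ × ℤ) : Prop :=
  (u.2 = v.2 ∧ |u.1 - v.1| = 1) ∨ (u.1 = v.1 ∧ |u.2 - v.2| = 1)

/-- Nearest neighbour path inside `T`. -/
def JoinIn (T : Set (ℤ × ℤ)) (u v : ℤ × ℤ) : Prop :=
  Relation.ReflTransGen (fun x y => x ∈ T ∧ y ∈ T ∧ nn x y) u v

/-- Lattice chart. -/
structure LocEpi (T : Set (ℤ × ℤ)) (z : ℤ × ℤ) (ρ κ : ℝ) (k : ℕ) (G G' : ℝ → ℝ) : Prop where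
  hd : ∀ s, HasDerivAt G (G' s) s
  slope : ∀ s, |G' s| ≤ 3/2
  lip : ∀ s t, |G' s - G' t| ≤ κ * |s - t|
  mem : ∀ w : ℤ × ℤ, |(w.1:ℝ)| ≤ ρ → |(w.2:ℝ)| ≤ ρ → (z + rotate^[k] w ∈ T ↔ G w.1 < w.2)

/-- Lattice regularity: a lattice chart around every site. -/
def LatReg (T : Set (ℤ × ℤ)) (ρ κ : ℝ) : Prop := ∀ z, ∃ k G G', LocEpi T z ρ κ k G G'

end Crest.Agent.R165.Geo
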