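import Mathlib
import Crest.Agent.R165.GeoDefs_416

/-!
# Row 165, block GEO (helper65), file D: consequences of `CD D r M` (continuum)

* `Chart.mono` (`CD.mono` is in `GeoLat1_416`);
* `Chart.lipg`, `Chart.taylor`;
* `Chart.coord`: coordinates of a point, `Chart.near`: points at distance `≤ r`;
* `CD.ball`: interior/exterior tangent balls;
* `CD.closedBall_inter`: closed tangent balls meet the frontier only at the base point;
* `CD.frontier_compact`, `CD.frontier_nonempty`, `CD.frontier_cover`;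
* `CD.volume_frontier`: the frontier is a null set;
* `Chart.infDist_le`, `Chart.le_infDist`: distance to the frontier vs. vertical distance;
* `CD.exists_nearest`: nearest frontier points.
-/

set_option autoImplicit false
set_option maxHeartbeats 1000000

open Set Topology Filter Metric

namespace Crest.Agent.R165.GeoDx65

open Crest.Agent.R165.Geo
open Complex (I)

variable {D : Set ℂ} {p : ℂ} {r M : ℝ} {k : ℕ} {g g' : ℝ → ℝ}

theorem Chart.mono (h : Chart D p r M k g g') {r' M' : ℝ} (hr : r' ≤ r) (hM : M ≤ M') :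
    Chart D p r' M' k g g' :=
  ⟨h.zero, h.hd, h.slope, fun s t => (h.lip s t).trans
    (mul_le_mul_of_nonneg_right hM (abs_nonneg _)),
    fun s t hs ht => h.mem s t (hs.trans hr) (ht.trans (by linarith)),
    fun s t hs ht => h.bdry s t (hs.trans hr) (ht.trans (by linarith))⟩

theorem Chart.M_nonneg (h : Chart D p r M k g g') : 0 ≤ M := by
  have := (abs_nonneg _).trans (h.lip 1 0)
  simpa using this

theorem Chart.cont (h : Chart D p r M k g g') : Continuous g :=
  continuous_iff_continuousAt.2 fun s => (h.hd s).continuousAt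

theorem Chart.lipg (h : Chart D p r M k g g') (s t : ℝ) : |g s - g t| ≤ 3 / 2 * |s - t| := by
  have := Convex.norm_image_sub_le_of_norm_hasDerivWithin_le (f := g) (f' := g') (s := univ)
    (x := t) (y := s) (C := 3 / 2) (fun x _ => (h.hd x).hasDerivWithinAt)
    (fun x _ => h.slope x) convex_univ (mem_univ _) (mem_univ _)
  simpa [Real.norm_eq_abs] using this

theorem Chart.absg_le (h : Chart D p r M k g g') (s : ℝ) : |g s| ≤ 3 / 2 * |s| := by
  have := Chart.lipg h s 0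
  simpa [h.zero] using this

theorem Chart.taylor (h : Chart D p r M k g g') (u v : ℝ) :
    |g u - g v - g' v * (u - v)| ≤ M * |u - v| ^ 2 := by
  set G : ℝ → ℝ := fun x => g x - g' v * (x - v) with hG
  have hgd : ∀ x, HasDerivAt G (g' x - g' v) x := fun x => by
    have h1 : HasDerivAt (fun x : ℝ => g' v * (x - v)) (g' v * 1) x :=
      ((hasDerivAt_id x).sub_const v).const_mul (g' v)
    rw [mul_one] at h1
    exact (h.hd x).sub h1
  have hb : ∀ x ∈ uIcc v u, ‖g' x - g' v‖ ≤ M * |u - v| := fun x hx => by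
    refine (h.lip x v).trans (mul_le_mul_of_nonneg_left ?_ (Chart.M_nonneg h))
    exact abs_sub_left_of_mem_uIcc hx
  have h2 := Convex.norm_image_sub_le_of_norm_hasDerivWithin_le (f := G)
    (f' := fun x => g' x - g' v) (s := uIcc v u) (x := v) (y := u)
    (C := M * |u - v|) (fun x _ => (hgd x).hasDerivWithinAt) hb (convex_uIcc v u)
    left_mem_uIcc right_mem_uIcc
  have h3 : G u - G v = g u - g v - g' v * (u - v) := by
    simp [hG]; ring
  rw [h3, Real.norm_eq_abs, Real.norm_eq_abs] at h2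
  calc _ ≤ M * |u - v| * |u - v| := h2
    _ = M * |u - v| ^ 2 := by ring

theorem norm_I_pow (k : ℕ) : ‖I ^ k‖ = 1 := by rw [norm_pow, Complex.norm_I, one_pow]

theorem I_pow_ne (k : ℕ) : I ^ k ≠ 0 := pow_ne_zero _ Complex.I_ne_zero

/-- coordinates of a point in the frame `(p, k)` -/
theorem exists_coord (p : ℂ) (k : ℕ) (z : ℂ) : ∃ s t : ℝ, z = p + I ^ k * ((s:ℂ) + (t:ℂ) * I) ∧
    ‖z - p‖ ^ 2 = s ^ 2 + t ^ 2 ∧ |s| ≤ ‖z - p‖ ∧ |t| ≤ ‖z - p‖ := by
  have hn : ‖(I ^ k)⁻¹ * (z - p)‖ = ‖z - p‖ := by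
    rw [norm_mul, norm_inv, norm_I_pow, inv_one, one_mul]
  refine ⟨((I ^ k)⁻¹ * (z - p)).re, ((I ^ k)⁻¹ * (z - p)).im, ?_, ?_, ?_, ?_⟩
  · rw [Complex.re_add_im, ← mul_assoc, mul_inv_cancel₀ (I_pow_ne k)]; ring
  · rw [← hn, ← Complex.normSq_eq_norm_sq, Complex.normSq_apply]; ring
  · exact (Complex.abs_re_le_norm _).trans hn.le
  · exact (Complex.abs_im_le_norm _).trans hn.le

theorem norm_coord (p : ℂ) (k : ℕ) (s t s' t' : ℝ) :
    ‖(p + I ^ k * ((s:ℂ) + (t:ℂ) * I)) - (p + I ^ k * ((s':ℂ) + (t':ℂ) * I))‖ ^ 2 =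
      (s - s') ^ 2 + (t - t') ^ 2 := by
  have : (p + I ^ k * ((s:ℂ) + (t:ℂ) * I)) - (p + I ^ k * ((s':ℂ) + (t':ℂ) * I)) =
      I ^ k * (((s - s' : ℝ) : ℂ) + ((t - t' : ℝ) : ℂ) * I) := by push_cast; ring
  rw [this, norm_mul, norm_I_pow, one_mul, ← Complex.normSq_eq_norm_sq, Complex.normSq_add_mul_I]

/-- interior and exterior tangent balls in a chart -/
theorem Chart.ball (h : Chart D p r M k g g') :
    ∃ n : ℂ, ‖n‖ = 1 ∧ ∀ ρ : ℝ, 0 < ρ → 2 * ρ ≤ r → 2 * M * ρ ≤ 1 →
      closedBall (p + ρ * n) ρ \ {p} ⊆ D ∧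
      closedBall (p - ρ * n) ρ \ {p} ⊆ (D ∪ frontier D)ᶜ := by
  set a := g' 0 with ha
  set L := Real.sqrt (1 + a ^ 2) with hL
  have hL0 : 0 < L := Real.sqrt_pos.2 (by positivity)
  have hL2 : L ^ 2 = 1 + a ^ 2 := Real.sq_sqrt (by positivity)
  have hL1 : 1 ≤ L := by
    rw [hL]; exact Real.one_le_sqrt.2 (by nlinarith [sq_nonneg a])
  have hn : ‖I ^ k * (((-a / L : ℝ) : ℂ) + ((1 / L : ℝ) : ℂ) * I)‖ = 1 := by
    rw [norm_mul, norm_I_pow, one_mul]
    have : ‖(((-a / L : ℝ) : ℂ) + ((1 / L : ℝ) : ℂ) * I)‖ ^ 2 = 1 := by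
      rw [← Complex.normSq_eq_norm_sq, Complex.normSq_add_mul_I]
      field_simp
      rw [hL2]; ring
    have h0 := norm_nonneg (((-a / L : ℝ) : ℂ) + ((1 / L : ℝ) : ℂ) * I)
    nlinarith
  obtain ⟨ν, hν⟩ : ∃ ν : ℂ, ν = I ^ k * (((-a / L : ℝ) : ℂ) + ((1 / L : ℝ) : ℂ) * I) := ⟨_, rfl⟩
  rw [← hν] at hn
  refine ⟨ν, hn, fun ρ hρ hρr hρM => ?_⟩
  have hM0 : 0 ≤ M := Chart.M_nonneg h
  have hgt : ∀ s : ℝ, |g s - a * s| ≤ M * s ^ 2 := fun s => by
    have := Chart.taylor h s 0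
    rw [h.zero] at this
    simpa [ha] using this
  -- the key computation
  have key : ∀ σ : ℝ, (σ = 1 ∨ σ = -1) → ∀ z ∈ closedBall (p + ((σ * ρ : ℝ) : ℂ) * ν) ρ, z ≠ p →
      ∃ s t : ℝ, z = p + I ^ k * ((s:ℂ) + (t:ℂ) * I) ∧ |s| ≤ r ∧ |t| ≤ 3 * r ∧
        M * s ^ 2 ≤ σ * (t - a * s) ∧ (M * s ^ 2 = σ * (t - a * s) → False) := by
    intro σ hσ z hz hzp
    obtain ⟨s, t, hzst, hzn, hs, ht⟩ := exists_coord p k z
    have hσ2 : σ ^ 2 = 1 := by rcases hσ with rfl | rfl <;> norm_num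
    rw [mem_closedBall, Complex.dist_eq] at hz
    have e1 : ‖z - (p + ((σ * ρ : ℝ) : ℂ) * ν)‖ ^ 2 =
        (s - σ * ρ * (-a / L)) ^ 2 + (t - σ * ρ * (1 / L)) ^ 2 := by
      rw [hzst, hν]
      rw [← norm_coord p k s t (σ * ρ * (-a / L)) (σ * ρ * (1 / L))]
      congr 2
      push_cast
      ring
    have e2 : (s - σ * ρ * (-a / L)) ^ 2 + (t - σ * ρ * (1 / L)) ^ 2 ≤ ρ ^ 2 := by
      rw [← e1]
      exact pow_le_pow_left₀ (norm_nonneg _) hz 2
    have e3 : (s - σ * ρ * (-a / L)) ^ 2 + (t - σ * ρ * (1 / L)) ^ 2 =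
        s ^ 2 + t ^ 2 - 2 * ρ / L * (σ * (t - a * s)) + ρ ^ 2 := by
      have : (s - σ * ρ * (-a / L)) ^ 2 + (t - σ * ρ * (1 / L)) ^ 2 =
        s ^ 2 + t ^ 2 - 2 * ρ / L * (σ * (t - a * s)) + ρ ^ 2 * σ ^ 2 * ((1 + a ^ 2) / L ^ 2) := by
        field_simp
        ring
      rw [this, hσ2, ← hL2, div_self (by positivity)]
      ring
    rw [e3] at e2
    have e4 : s ^ 2 + t ^ 2 ≤ 2 * ρ / L * (σ * (t - a * s)) := by linarith
    have hpos : 0 < s ^ 2 + t ^ 2 := by
      rw [← hzn]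
      have : 0 < ‖z - p‖ := norm_pos_iff.2 (sub_ne_zero.2 hzp)
      positivity
    have e5 : (s ^ 2 + t ^ 2) * L / (2 * ρ) ≤ σ * (t - a * s) := by
      rw [div_le_iff₀ (by positivity)]
      have : (s ^ 2 + t ^ 2) * L ≤ 2 * ρ / L * (σ * (t - a * s)) * L :=
        mul_le_mul_of_nonneg_right e4 hL0.le
      have e : 2 * ρ / L * (σ * (t - a * s)) * L = σ * (t - a * s) * (2 * ρ) := by
        field_simp
      linarith
    have e6 : (s ^ 2 + t ^ 2) / (2 * ρ) ≤ (s ^ 2 + t ^ 2) * L / (2 * ρ) := by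
      apply div_le_div_of_nonneg_right _ (by positivity)
      nlinarith
    have e7 : M * (s ^ 2 + t ^ 2) ≤ (s ^ 2 + t ^ 2) / (2 * ρ) := by
      rw [le_div_iff₀ (by positivity)]
      nlinarith
    -- size of the coordinates
    have hz2 : ‖z - p‖ ≤ 2 * ρ := by
      have h1 : ‖z - p‖ ≤ ‖z - (p + ((σ * ρ : ℝ) : ℂ) * ν)‖ + ‖((σ * ρ : ℝ) : ℂ) * ν‖ := by
        refine (le_of_eq ?_).trans (norm_add_le _ _)
        congr 1; ring
      have h2 : ‖((σ * ρ : ℝ) : ℂ) * ν‖ = ρ := by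
        have hσ1 : |σ| = 1 := by rcases hσ with rfl | rfl <;> simp
        rw [norm_mul, hn, mul_one, Complex.norm_real, Real.norm_eq_abs, abs_mul, abs_of_pos hρ,
          hσ1, one_mul]
      linarith
    refine ⟨s, t, hzst, hs.trans (hz2.trans hρr), ht.trans (by linarith), ?_, fun heq => ?_⟩
    · have : M * s ^ 2 ≤ M * (s ^ 2 + t ^ 2) :=
        mul_le_mul_of_nonneg_left (by nlinarith [sq_nonneg t]) hM0
      linarith
    · -- equality forces `t = 0`, `L = 1`, `a = 0` and then `2Mρ = 1`, `t - a s = 0`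
      have h1 : M * s ^ 2 = (s ^ 2 + t ^ 2) / (2 * ρ) := by
        have : M * s ^ 2 ≤ M * (s ^ 2 + t ^ 2) :=
          mul_le_mul_of_nonneg_left (by nlinarith [sq_nonneg t]) hM0
        linarith
      have h2 : (s ^ 2 + t ^ 2) / (2 * ρ) = (s ^ 2 + t ^ 2) * L / (2 * ρ) := by linarith
      have h3 : L = 1 := by
        rw [div_left_inj' (by positivity)] at h2
        have : (s ^ 2 + t ^ 2) * (L - 1) = 0 := by linarith
        rcases mul_eq_zero.1 this with h4 | h4
        · linarith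
        · linarith
      have h4 : a = 0 := by
        rw [h3] at hL2
        have : a ^ 2 = 0 := by linarith
        exact pow_eq_zero_iff (two_ne_zero) |>.1 this
      have h5 : M * s ^ 2 * (2 * ρ) = s ^ 2 + t ^ 2 := by
        rw [h1]; field_simp
      have h6 : t ^ 2 ≤ 0 := by
        have : M * s ^ 2 * (2 * ρ) ≤ s ^ 2 := by
          have := mul_le_mul_of_nonneg_right hρM (sq_nonneg s)
          nlinarith
        linarith
      have h7 : t = 0 := by
        have : t ^ 2 = 0 := le_antisymm h6 (sq_nonneg t)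
        exact pow_eq_zero_iff (two_ne_zero) |>.1 this
      rw [h4, h7] at heq
      have h8 : M * s ^ 2 = 0 := by simpa using heq
      rw [h8, h7] at h5
      have h9 : s ^ 2 = 0 := by linarith
      rw [h9, h7] at hpos
      simp at hpos
  constructor
  · rintro z ⟨hz, hzp⟩
    have h1 := key 1 (Or.inl rfl) z (by rw [one_mul]; exact hz) hzp
    obtain ⟨s, t, hzst, hs, ht, h2, h3⟩ := h1
    rw [hzst, h.mem s t hs ht]
    have h4 := (abs_le.1 (hgt s)).2
    rw [one_mul] at h2 h3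
    rcases lt_or_eq_of_le h2 with h5 | h5
    · linarith
    · exact (h3 h5).elim
  · rintro z ⟨hz, hzp⟩
    have hz' : z ∈ closedBall (p + ((-1 * ρ : ℝ) : ℂ) * ν) ρ := by
      have e : p + ((-1 * ρ : ℝ) : ℂ) * ν = p - ρ * ν := by push_cast; ring
      rw [e]; exact hz
    obtain ⟨s, t, hzst, hs, ht, h2, h3⟩ := key (-1) (Or.inr rfl) z hz' hzp
    have h4 := (abs_le.1 (hgt s)).1
    have h5 : t < g s := by
      rcases lt_or_eq_of_le h2 with h5 | h5
      · linarith
      · exact (h3 h5).elim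
    rintro (h6 | h6)
    · rw [hzst, h.mem s t hs ht] at h6
      linarith
    · rw [hzst, h.bdry s t hs ht] at h6
      linarith

/-- **uniform tangent balls** -/
theorem CD.ball (h : CD D r M) {p : ℂ} (hp : p ∈ frontier D) :
    ∃ n : ℂ, ‖n‖ = 1 ∧ ∀ ρ : ℝ, 0 < ρ → 2 * ρ ≤ r → 2 * M * ρ ≤ 1 →
      closedBall (p + ρ * n) ρ \ {p} ⊆ D ∧
      closedBall (p - ρ * n) ρ \ {p} ⊆ (D ∪ frontier D)ᶜ := by
  obtain ⟨k, g, g', hc⟩ := h.chart p hp
  exact Chart.ball hc

theorem frontier_disj (h : CD D r M) : Disjoint D (frontier D) :=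
  Set.disjoint_left.2 fun z hz hf => by
    rw [h.isOpen.frontier_eq] at hf
    exact hf.2 hz

theorem CD.ball_open (h : CD D r M) {p : ℂ} (hp : p ∈ frontier D) :
    ∃ n : ℂ, ‖n‖ = 1 ∧ ∀ ρ : ℝ, 0 < ρ → 2 * ρ ≤ r → 2 * M * ρ ≤ 1 →
      Metric.ball (p + ρ * n) ρ ⊆ D ∧ Metric.ball (p - ρ * n) ρ ⊆ (D ∪ frontier D)ᶜ := by
  obtain ⟨n, hn, hb⟩ := CD.ball h hp
  refine ⟨n, hn, fun ρ h1 h2 h3 => ?_⟩
  obtain ⟨hb1, hb2⟩ := hb ρ h1 h2 h3
  have hne : ∀ σ : ℂ, ‖σ‖ = 1 → p ∉ Metric.ball (p + σ * (ρ * n)) ρ := fun σ hσ hm => by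
    rw [mem_ball, Complex.dist_eq] at hm
    have : ‖p - (p + σ * (ρ * n))‖ = ρ := by
      rw [sub_add_cancel_left, norm_neg, norm_mul, hσ, one_mul, norm_mul, hn, mul_one,
        Complex.norm_real, Real.norm_of_nonneg h1.le]
    linarith
  constructor
  · intro z hz
    refine hb1 ⟨ball_subset_closedBall hz, fun he => ?_⟩
    rw [mem_singleton_iff] at he
    subst he
    exact hne 1 (by simp) (by rwa [one_mul])
  · intro z hz
    refine hb2 ⟨ball_subset_closedBall hz, fun he => ?_⟩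
    rw [mem_singleton_iff] at he
    subst he
    exact hne (-1) (by simp) (by rwa [neg_one_mul, ← sub_eq_add_neg])

theorem CD.frontier_compact (h : CD D r M) : IsCompact (frontier D) :=
  (Metric.isCompact_of_isClosed_isBounded isClosed_frontier
    (h.bdd.closure.subset frontier_subset_closure))

theorem CD.frontier_nonempty (h : CD D r M) : (frontier D).Nonempty := by
  by_contra hne
  rw [not_nonempty_iff_eq_empty] at hne
  have hcl : IsClopen D := by
    refine ⟨?_, h.isOpen⟩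
    rw [← closure_eq_iff_isClosed, closure_eq_self_union_frontier, hne, union_empty]
  rcases isClopen_iff.1 hcl with h1 | h1
  · exact h.conn.nonempty.ne_empty h1
  · have := h.conn_compl.nonempty
    rw [h1, compl_univ] at this
    exact not_nonempty_empty this

/-- finitely many balls of any radius centred on the frontier cover it -/
theorem CD.frontier_cover (h : CD D r M) {ρ : ℝ} (hρ : 0 < ρ) :
    ∃ S : Finset ℂ, (∀ p ∈ S, p ∈ frontier D) ∧ frontier D ⊆ ⋃ p ∈ S, Metric.ball p ρ := by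
  obtain ⟨t, ht1, ht2⟩ := (CD.frontier_compact h).elim_nhds_subcover (fun p => Metric.ball p ρ)
    (fun p _ => ball_mem_nhds p hρ)
  exact ⟨t, ht1, ht2⟩

/-- nearest frontier point -/
theorem CD.exists_nearest (h : CD D r M) (z : ℂ) :
    ∃ p ∈ frontier D, dist z p = infDist z (frontier D) := by
  obtain ⟨p, hp, he⟩ := (CD.frontier_compact h).exists_infDist_eq_dist (CD.frontier_nonempty h) z
  exact ⟨p, hp, he.symm⟩

/-- for a point of `D`, the ball of radius `infDist z (frontier D)` is in `D` -/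
theorem ball_infDist_subset (D : Set ℂ) {z : ℂ} (hz : z ∈ D) :
    Metric.ball z (infDist z (frontier D)) ⊆ D := by
  intro w hw
  by_contra hwD
  have hseg : IsPreconnected (segment ℝ z w) := (convex_segment z w).isPreconnected
  have h1 : (segment ℝ z w ∩ frontier D).Nonempty := by
    by_contra hne
    rw [not_nonempty_iff_eq_empty] at hne
    have h2 : segment ℝ z w ⊆ interior D ∪ (closure D)ᶜ := fun x hx => by
      by_cases h3 : x ∈ interior D
      · exact Or.inl h3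
      · refine Or.inr fun h4 => ?_
        have : x ∈ segment ℝ z w ∩ frontier D := ⟨hx, h4, h3⟩
        rw [hne] at this
        exact this
    have hz1 : z ∈ interior D := by
      rcases h2 (left_mem_segment ℝ z w) with h3 | h3
      · exact h3
      · exact absurd (subset_closure hz) h3
    have hw1 : w ∈ (closure D)ᶜ := by
      rcases h2 (right_mem_segment ℝ z w) with h3 | h3
      · exact absurd (interior_subset h3) hwD
      · exact h3
    have h5 := hseg _ _ isOpen_interior isClosed_closure.isOpen_compl h2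
      ⟨z, left_mem_segment ℝ z w, hz1⟩ ⟨w, right_mem_segment ℝ z w, hw1⟩
    obtain ⟨x, -, hx1, hx2⟩ := h5
    exact hx2 (interior_subset_closure hx1)
  obtain ⟨x, hx1, hx2⟩ := h1
  have h3 : infDist z (frontier D) ≤ dist z x := infDist_le_dist_of_mem hx2
  have h4 : dist z x ≤ dist z w := by
    obtain ⟨a, b, ha, hb, hab, rfl⟩ := hx1
    rw [Complex.dist_eq, Complex.dist_eq]
    have : z - (a • z + b • w) = b • (z - w) := by
      have : a = 1 - b := by linarith
      rw [this, sub_smul, one_smul, smul_sub]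
      ring
    rw [this, norm_smul, Real.norm_of_nonneg hb]
    have : b ≤ 1 := by linarith
    calc b * ‖z - w‖ ≤ 1 * ‖z - w‖ := mul_le_mul_of_nonneg_right this (norm_nonneg _)
      _ = _ := one_mul _
  rw [mem_ball, dist_comm] at hw
  linarith

/-- upper bound of the distance to the frontier by the vertical distance in a chart -/
theorem Chart.infDist_le (h : Chart D p r M k g g') {s t : ℝ} (hs : |s| ≤ r) :
    infDist (p + I ^ k * ((s:ℂ) + (t:ℂ) * I)) (frontier D) ≤ |t - g s| := by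
  have h1 : p + I ^ k * ((s:ℂ) + (g s:ℂ) * I) ∈ frontier D := by
    rw [h.bdry s (g s) hs]
    have := Chart.absg_le h s
    have := abs_nonneg s
    linarith
  refine (infDist_le_dist_of_mem h1).trans (le_of_eq ?_)
  rw [Complex.dist_eq]
  have h2 := norm_coord p k s t s (g s)
  rw [sub_self, zero_pow two_ne_zero, zero_add] at h2
  have h3 := norm_nonneg ((p + I ^ k * ((s:ℂ) + (t:ℂ) * I)) - (p + I ^ k * ((s:ℂ) + (g s:ℂ) * I)))
  rw [← sq_abs (t - g s)] at h2
  exact (pow_left_inj₀ h3 (abs_nonneg _) two_ne_zero).1 h2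

/-- lower bound of the distance to the frontier by the vertical distance in a chart -/
theorem Chart.le_infDist (h : Chart D p r M k g g') (hne : (frontier D).Nonempty) {s t : ℝ}
    (hs : |s| ≤ r / 2) (ht : |t| ≤ 5 / 2 * r) :
    min (|t - g s| / 2) (r / 2) ≤ infDist (p + I ^ k * ((s:ℂ) + (t:ℂ) * I)) (frontier D) := by
  refine (Metric.le_infDist hne).2 fun w hw => ?_
  obtain ⟨s', t', hw', -, -, -⟩ := exists_coord p k w
  rw [Complex.dist_eq, hw']
  have h2 := norm_coord p k s t s' t'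
  set N := ‖(p + I ^ k * ((s:ℂ) + (t:ℂ) * I)) - (p + I ^ k * ((s':ℂ) + (t':ℂ) * I))‖ with hN
  have hN0 : 0 ≤ N := norm_nonneg _
  by_contra hlt
  push Not at hlt
  have h3 : N < |t - g s| / 2 := hlt.trans_le (min_le_left _ _)
  have h4 : N < r / 2 := hlt.trans_le (min_le_right _ _)
  have h5 : |s - s'| ≤ N := abs_le_of_sq_le_sq (by rw [h2]; nlinarith [sq_nonneg (t - t')]) hN0
  have h6 : |t - t'| ≤ N := abs_le_of_sq_le_sq (by rw [h2]; nlinarith [sq_nonneg (s - s')]) hN0
  have h7 : |s'| ≤ r := by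
    have := abs_sub_abs_le_abs_sub s' s
    rw [abs_sub_comm s' s] at this
    linarith
  have h8 : |t'| ≤ 3 * r := by
    have := abs_sub_abs_le_abs_sub t' t
    rw [abs_sub_comm t' t] at this
    linarith
  have h9 : t' = g s' := by
    rw [hw'] at hw
    exact (h.bdry s' t' h7 h8).1 hw
  have h10 := Chart.lipg h s' s
  -- `|t - g s| ≤ |t - t'| + 3/2 |s - s'| ≤ √(1+9/4) N < 2 N`
  have h11 : |t - g s| ≤ |t - t'| + 3 / 2 * |s - s'| := by
    have e : t - g s = (t - t') + (g s' - g s) := by rw [h9]; ring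
    rw [e]
    refine (abs_add_le _ _).trans ?_
    rw [abs_sub_comm s' s] at h10
    linarith
  have h12 : (|t - t'| + 3 / 2 * |s - s'|) ^ 2 ≤ 13 / 4 * N ^ 2 := by
    rw [h2, ← sq_abs (s - s'), ← sq_abs (t - t')]
    nlinarith [sq_nonneg (|s - s'| - 3 / 2 * |t - t'|)]
  have h13 : |t - t'| + 3 / 2 * |s - s'| ≤ 2 * N :=
    abs_le_of_sq_le_sq' (by nlinarith) (by positivity) |>.2
  linarith

end Crest.Agent.R165.GeoDx65
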