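import Crest.Agent.R165.GeoLat2_416

/-!
R165, block GEO, lattice part 3: tangent balls, number of boundary sites, local connectivity, from a lattice chart.
-/

set_option autoImplicit false

namespace Crest.Agent.R165.Geo

open Complex Set
open Crest.ProbabilityR.IsingModel

/-- position of a site -/
noncomputable abbrev pos (w : ℤ × ℤ) : ℂ := meshPoint 1 w

theorem pos_eq (w : ℤ × ℤ) : pos w = (w.1 : ℂ) + (w.2 : ℂ) * I := by
  apply Complex.ext <;> simp [pos, meshPoint]

theorem pos_re (w : ℤ × ℤ) : (pos w).re = w.1 := by simp [pos, meshPoint]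
theorem pos_im (w : ℤ × ℤ) : (pos w).im = w.2 := by simp [pos, meshPoint]

theorem pos_add (u v : ℤ × ℤ) : pos (u + v) = pos u + pos v := meshPoint_add 1 u v

theorem pos_rot (k : ℕ) (w : ℤ × ℤ) : pos (rotate^[k] w) = I ^ k * pos w := meshPoint_rotate_iter 1 k w

theorem norm_I_pow (k : ℕ) : ‖(I:ℂ) ^ k‖ = 1 := by simp

theorem sn_le_norm (w : ℤ × ℤ) : (sn w : ℝ) ≤ ‖pos w‖ := by
  rw [sn_le_real]
  constructor
  · have := Complex.abs_re_le_norm (pos w); rwa [pos_re] at this
  · have := Complex.abs_im_le_norm (pos w); rwa [pos_im] at this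

theorem norm_le_sn (w : ℤ × ℤ) : ‖pos w‖ ≤ 2 * sn w := by
  have h := (sn_le_real (w := w) (b := (sn w : ℝ))).1 le_rfl
  have := Complex.norm_le_abs_re_add_abs_im (pos w)
  rw [pos_re, pos_im] at this
  linarith [h.1, h.2]

section Epi

variable {T : Set (ℤ × ℤ)} {z : ℤ × ℤ} {ρ κ : ℝ} {k : ℕ} {G G' : ℝ → ℝ}

/-- tangent balls at the graph point above the centre of the chart:
    there are a point `q` with `‖q - pos z‖ ≤ |G 0|` and a unit vector `n` such that for every admissible radius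
    the balls of centre `q ± R n` are inside resp. outside `T`. -/
theorem LocEpi.balls (h : LocEpi T z ρ κ k G G') :
    ∃ q n : ℂ, ‖n‖ = 1 ∧ ‖q - pos z‖ = |G 0| ∧ ∀ R : ℝ, 0 < R → |G 0| + 2 * R ≤ ρ → 2 * R * κ ≤ 1 →
      (∀ w, ‖pos w - (q + R * n)‖ < R → w ∈ T) ∧ (∀ w, ‖pos w - (q - R * n)‖ < R → w ∉ T) := by
  obtain ⟨m, hm', hm⟩ := rotate_iter_inv k
  set N : ℝ := Real.sqrt (1 + (G' 0)^2) with hN
  have hN0 : 0 < N := Real.sqrt_pos.2 (by positivity)
  have hN1 : 1 ≤ N := by rw [hN]; exact Real.one_le_sqrt.2 (by nlinarith [sq_nonneg (G' 0)])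
  have hN2 : N ^ 2 = 1 + (G' 0)^2 := Real.sq_sqrt (by positivity)
  set n0 : ℂ := ((-(G' 0) / N : ℝ) : ℂ) + ((1 / N : ℝ) : ℂ) * I with hn0
  have hn0re : n0.re = -(G' 0) / N := by simp [hn0]
  have hn0im : n0.im = 1 / N := by simp [hn0]
  have hnorm0 : ‖n0‖ = 1 := by
    have : ‖n0‖ ^ 2 = 1 := by
      rw [← Complex.normSq_eq_norm_sq, Complex.normSq_apply, hn0re, hn0im]
      field_simp
      rw [hN2]; ring
    have h0 := norm_nonneg n0
    nlinarith
  refine ⟨pos z + I ^ k * ((G 0 : ℝ) * I), I ^ k * n0, ?_, ?_, ?_⟩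
  · rw [norm_mul, norm_I_pow, hnorm0, one_mul]
  · rw [add_sub_cancel_left, norm_mul, norm_I_pow, one_mul, norm_mul, Complex.norm_I, mul_one,
      Complex.norm_real, Real.norm_eq_abs]
  · intro R hR hRρ hRκ
    -- the common computation
    have key : ∀ (w : ℤ × ℤ) (σ : ℝ), (σ = 1 ∨ σ = -1) →
        ‖pos w - (pos z + I ^ k * ((G 0 : ℝ) * I) + σ * (R * (I ^ k * n0)))‖ < R →
        ∃ x y : ℝ, (w ∈ T ↔ G x < y) ∧ (0 < σ * (y - G 0 - G' 0 * x) ∧
          κ * x^2 < σ * (y - G 0 - G' 0 * x)) := by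
      intro w σ hσ hw
      have hσ2 : σ ^ 2 = 1 := by rcases hσ with h | h <;> rw [h] <;> norm_num
      set v := rotate^[m] (w - z) with hv
      have hwz : pos w - pos z = I ^ k * pos v := by
        rw [hv, ← pos_rot, hm]
        have : w = (w - z) + z := by ring
        conv_lhs => rw [this, pos_add]
        ring
      have e1 : pos w - (pos z + I ^ k * ((G 0 : ℝ) * I) + σ * (R * (I ^ k * n0))) =
          I ^ k * (pos v - ((G 0 : ℝ) * I + σ * (R * n0))) := by
        linear_combination hwz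
      rw [e1, norm_mul, norm_I_pow, one_mul] at hw
      set c : ℂ := ((G 0 : ℝ) : ℂ) * I + σ * (R * n0) with hc
      have hcre : c.re = - σ * R * (G' 0) / N := by
        rw [hc]
        simp only [Complex.add_re, Complex.mul_re, Complex.ofReal_re, Complex.ofReal_im, Complex.I_re,
          Complex.I_im, hn0re, hn0im, Complex.mul_im]
        ring
      have hcim : c.im = G 0 + σ * R / N := by
        rw [hc]
        simp only [Complex.add_im, Complex.mul_im, Complex.ofReal_re, Complex.ofReal_im, Complex.I_re,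
          Complex.I_im, hn0re, hn0im, Complex.mul_re]
        ring
      have hsq : ((v.1:ℝ) - c.re)^2 + ((v.2:ℝ) - c.im)^2 < R^2 := by
        have h1 : ‖pos v - c‖ ^ 2 < R ^ 2 := by
          apply pow_lt_pow_left₀ hw (norm_nonneg _) two_ne_zero
        rw [← Complex.normSq_eq_norm_sq, Complex.normSq_apply, Complex.sub_re, Complex.sub_im, pos_re,
          pos_im] at h1
        nlinarith [h1]
      set x : ℝ := (v.1:ℝ) with hx
      set y : ℝ := (v.2:ℝ) with hy
      -- the site is in the box of the chart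
      have hbox : (sn (w - z) : ℝ) ≤ ρ := by
        have h2 : ‖pos v‖ ≤ |G 0| + 2 * R := by
          have h3 : ‖c‖ ≤ |G 0| + R := by
            rw [hc]
            refine (norm_add_le _ _).trans ?_
            rw [norm_mul, Complex.norm_real, Complex.norm_I, mul_one, norm_mul, norm_mul, hnorm0,
              Complex.norm_real, Complex.norm_real, Real.norm_eq_abs, Real.norm_eq_abs, Real.norm_eq_abs]
            have : |σ| = 1 := by rcases hσ with h | h <;> rw [h] <;> simp
            rw [this, abs_of_pos hR]; linarith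
          calc ‖pos v‖ = ‖(pos v - c) + c‖ := by rw [sub_add_cancel]
            _ ≤ ‖pos v - c‖ + ‖c‖ := norm_add_le _ _
            _ ≤ |G 0| + 2 * R := by linarith
        calc (sn (w - z) : ℝ) = sn v := by rw [hv, sn_rotate_iter]
          _ ≤ ‖pos v‖ := sn_le_norm v
          _ ≤ ρ := h2.trans hRρ
      refine ⟨x, y, h.mem_T hm hbox, ?_⟩
      -- expand the square
      set s : ℝ := y - G 0 with hs
      have hexp : x^2 + s^2 < 2 * R * (σ * (s - G' 0 * x)) / N := by
        rw [hcre, hcim] at hsq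
        have e2 : (x - -σ * R * (G' 0) / N)^2 + (y - (G 0 + σ * R / N))^2 =
            x^2 + s^2 - 2 * R * (σ * (s - G' 0 * x)) / N + R^2 * (σ^2 * (1 + (G' 0)^2)) / N^2 := by
          rw [hs]; field_simp; ring
        have hNN : R ^ 2 * N ^ 2 / N ^ 2 = R ^ 2 := by field_simp
        rw [e2, hσ2, ← hN2, one_mul, hNN] at hsq
        linarith
      set A : ℝ := σ * (s - G' 0 * x) with hA
      have hApos : 0 < A := by
        by_contra hneg
        push Not at hneg
        have : 2 * R * A / N ≤ 0 := div_nonpos_of_nonpos_of_nonneg (by nlinarith) hN0.le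
        nlinarith [sq_nonneg x, sq_nonneg s]
      have hx2 : x^2 < 2 * R * A := by
        have h4 : 2 * R * A / N ≤ 2 * R * A := div_le_self (by positivity) hN1
        nlinarith [sq_nonneg s]
      refine ⟨hApos, ?_⟩
      have hκ := h.kappa_nonneg
      rcases eq_or_lt_of_le hκ with h0 | h0
      · rw [← h0, zero_mul]; exact hApos
      · have h5 : κ * x^2 < κ * (2 * R * A) := mul_lt_mul_of_pos_left hx2 h0
        have h6 : κ * (2 * R * A) = (2 * R * κ) * A := by ring
        have h7 : (2 * R * κ) * A ≤ 1 * A := mul_le_mul_of_nonneg_right hRκ hApos.le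
        linarith
    constructor
    · intro w hw
      obtain ⟨x, y, hiff, -, h2⟩ := key w 1 (Or.inl rfl) (by
        convert hw using 2; push_cast; ring)
      rw [hiff]
      have := (abs_le.1 (h.taylor 0 x)).2
      rw [sub_zero] at this
      linarith
    · intro w hw
      obtain ⟨x, y, hiff, -, h2⟩ := key w (-1) (Or.inr rfl) (by
        convert hw using 2; push_cast; ring)
      rw [hiff]
      have := (abs_le.1 (h.taylor 0 x)).1
      rw [sub_zero] at this
      linarith

end Epi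

/-- tangent balls at a boundary site, for a regular set. -/
theorem LatReg.balls {T : Set (ℤ × ℤ)} {ρ κ : ℝ} (h : LatReg T ρ κ) (hρ : 2 ≤ ρ) {z u : ℤ × ℤ}
    (hzu : nn z u) (hdiff : (z ∈ T ∧ u ∉ T) ∨ (z ∉ T ∧ u ∈ T)) :
    ∃ q n : ℂ, ‖n‖ = 1 ∧ ‖q - pos z‖ ≤ 3/2 ∧ ∀ R : ℝ, 0 < R → 2 * R + 3/2 ≤ ρ → 2 * R * κ ≤ 1 →
      (∀ w, ‖pos w - (q + R * n)‖ < R → w ∈ T) ∧ (∀ w, ‖pos w - (q - R * n)‖ < R → w ∉ T) := by
  obtain ⟨k, G, G', hG⟩ := h z
  have hng := hG.near_graph hρ hzu hdiff
  obtain ⟨q, n, hn, hq, hb⟩ := hG.balls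
  exact ⟨q, n, hn, by rw [hq]; exact hng, fun R hR hRρ hRκ => hb R hR (by linarith) hRκ⟩

end Crest.Agent.R165.Geo
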