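import Mathlib
import Crest.Agent.R165.GeoLat3_416
import Crest.Agent.R165.GeoD_65

/-!
# Row 165, block GEO (helper65), file G: macroscopic lattice/continuum comparison

* `meshIndex` facts: `norm_meshPoint_meshIndex`: `‖a·(index of x) - x‖ ≤ 2a`;
* `eventually_mem_of_compact`, `eventually_notMem_of_compact`: compact subsets of `D` / of the exterior are
  eventually seen correctly, with an additional fattening by `C a`;
* `dist_frontier_le_of_notMem`: sites outside are at distance `≥ dist(az, ∂D)`; `exists_site_out`,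
  `exists_site_in`: there are sites outside / inside at distance `≤ dist(az, ∂D) + 4a`.
-/

set_option autoImplicit false

open Set Topology Filter Metric

namespace Crest.Agent.R165.GeoGx65

open Crest.Agent.R165.Geo
open Crest.Agent.R165.GeoDx65 (ball_infDist_subset)
open Crest.ProbabilityR.IsingModel
open Complex (I)

variable {D : Set ℂ} {r M a : ℝ}

theorem meshPoint_sub (a : ℝ) (z w : ℤ × ℤ) :
    meshPoint a (z - w) = meshPoint a z - meshPoint a w := by
  have := meshPoint_add a (z - w) w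
  rw [sub_add_cancel] at this
  rw [this]; ring

theorem meshPoint_eq_mul_pos (a : ℝ) (z : ℤ × ℤ) : meshPoint a z = (a : ℂ) * pos z := by
  rw [pos_eq, meshPoint_eq]; push_cast; ring

theorem norm_meshPoint_sub (ha : 0 < a) (z w : ℤ × ℤ) :
    ‖meshPoint a z - meshPoint a w‖ = a * ‖pos (z - w)‖ := by
  rw [← meshPoint_sub, meshPoint_eq_mul_pos, norm_mul, Complex.norm_real, Real.norm_of_nonneg ha.le]

/-- the index of a point -/
theorem norm_meshPoint_meshIndex (ha : 0 < a) (x : ℂ) : ‖meshPoint a (meshIndex a x) - x‖ ≤ 2 * a := by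
  have h : ∀ y : ℝ, |a * (⌊y / a⌋ : ℝ) - y| ≤ a := fun y => by
    have h1 := Int.floor_le (y / a)
    have h2 := Int.lt_floor_add_one (y / a)
    rw [le_div_iff₀ ha] at h1
    rw [div_lt_iff₀ ha] at h2
    rw [abs_le]
    constructor <;> nlinarith
  refine (Complex.norm_le_abs_re_add_abs_im _).trans ?_
  have h1 := h x.re
  have h2 := h x.im
  simp only [meshPoint, meshIndex, Complex.sub_re, Complex.sub_im]
  linarith

/-- nearest site to a point: within `a` (`≤ a/√2` in fact) -/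
theorem exists_site_near (ha : 0 < a) (x : ℂ) : ∃ z : ℤ × ℤ, ‖meshPoint a z - x‖ ≤ a := by
  refine ⟨(round (x.re / a), round (x.im / a)), ?_⟩
  have h : ∀ y : ℝ, |a * (round (y / a) : ℝ) - y| ≤ a / 2 := fun y => by
    have h1 := abs_sub_round (y / a)
    have h2 : a * (round (y / a) : ℝ) - y = -(a * (y / a - round (y / a))) := by
      field_simp
      ring
    rw [h2, abs_neg, abs_mul, abs_of_pos ha]
    nlinarith
  refine (Complex.norm_le_abs_re_add_abs_im _).trans ?_
  have h1 := h x.re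
  have h2 := h x.im
  simp only [meshPoint, Complex.sub_re, Complex.sub_im]
  linarith

/-- the site `meshIndex a x` is in the domain for small `a`; quantitative -/
theorem meshIndex_mem (ha : 0 < a) {x : ℂ} (hx : x ∈ D) (h : 2 * a < infDist x (frontier D)) :
    meshIndex a x ∈ domainSites D a := by
  show meshPoint a (meshIndex a x) ∈ D
  refine ball_infDist_subset D hx ?_
  rw [mem_ball, Complex.dist_eq]
  exact (norm_meshPoint_meshIndex ha x).trans_lt h

/-- compact subsets of an open set keep a positive distance to the complement -/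
theorem exists_thick {U K : Set ℂ} (hU : IsOpen U) (hK : IsCompact K) (hKU : K ⊆ U) :
    ∃ δ > 0, ∀ x : ℂ, ∀ y ∈ K, ‖x - y‖ < δ → x ∈ U := by
  obtain ⟨δ, hδ, h⟩ := hK.exists_thickening_subset_open hU hKU
  refine ⟨δ, hδ, fun x y hy hxy => h ?_⟩
  rw [mem_thickening_iff]
  exact ⟨y, hy, by rwa [Complex.dist_eq]⟩

/-- sites within `C a` of a compact subset of the domain are in the domain, for small `a` -/
theorem eventually_mem_of_compact {K : Set ℂ} (hD : IsOpen D) (hK : IsCompact K) (hKD : K ⊆ D)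
    (C : ℝ) : ∀ᶠ a in 𝓝[>] (0:ℝ), ∀ z : ℤ × ℤ, (∃ y ∈ K, ‖meshPoint a z - y‖ ≤ C * a) →
      z ∈ domainSites D a := by
  obtain ⟨δ, hδ, h⟩ := exists_thick hD hK hKD
  have h1 : ∀ᶠ a in 𝓝[>] (0:ℝ), C * a < δ := by
    have : Tendsto (fun a : ℝ => C * a) (𝓝[>] 0) (𝓝 (C * 0)) :=
      (tendsto_id.const_mul C).mono_left nhdsWithin_le_nhds
    rw [mul_zero] at this
    exact this.eventually_lt_const hδ
  filter_upwards [h1] with a ha z hz
  obtain ⟨y, hy, hzy⟩ := hz
  exact h _ y hy (hzy.trans_lt ha)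

/-- sites within `C a` of a compact subset of the exterior are outside, for small `a` -/
theorem eventually_notMem_of_compact {K : Set ℂ} (hK : IsCompact K) (hKD : K ⊆ (closure D)ᶜ)
    (C : ℝ) : ∀ᶠ a in 𝓝[>] (0:ℝ), ∀ z : ℤ × ℤ, (∃ y ∈ K, ‖meshPoint a z - y‖ ≤ C * a) →
      z ∉ domainSites D a := by
  obtain ⟨δ, hδ, h⟩ := exists_thick isClosed_closure.isOpen_compl hK hKD
  have h1 : ∀ᶠ a in 𝓝[>] (0:ℝ), C * a < δ := by
    have : Tendsto (fun a : ℝ => C * a) (𝓝[>] 0) (𝓝 (C * 0)) :=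
      (tendsto_id.const_mul C).mono_left nhdsWithin_le_nhds
    rw [mul_zero] at this
    exact this.eventually_lt_const hδ
  filter_upwards [h1] with a ha z hz hzD
  obtain ⟨y, hy, hzy⟩ := hz
  exact h _ y hy (hzy.trans_lt ha) (subset_closure hzD)

/-- for a point of the complement of the open set `D`, the ball of radius `infDist z (frontier D)` is in
the complement -/
theorem ball_infDist_compl (D : Set ℂ) {z : ℂ} (hz : z ∉ D) :
    ball z (infDist z (frontier D)) ⊆ Dᶜ := by
  have := ball_infDist_subset Dᶜ (z := z) hz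
  rwa [frontier_compl] at this

/-- a site inside and a site outside are at distance at least the distance to the frontier -/
theorem dist_frontier_le {z w : ℤ × ℤ} (hz : z ∈ domainSites D a) (hw : w ∉ domainSites D a) :
    infDist (meshPoint a z) (frontier D) ≤ ‖meshPoint a w - meshPoint a z‖ := by
  by_contra hlt
  push Not at hlt
  exact hw (ball_infDist_subset D hz (by rwa [mem_ball, Complex.dist_eq]))

theorem dist_frontier_le' {z w : ℤ × ℤ} (hz : z ∈ domainSites D a) (hw : w ∉ domainSites D a) :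
    infDist (meshPoint a w) (frontier D) ≤ ‖meshPoint a w - meshPoint a z‖ := by
  by_contra hlt
  push Not at hlt
  have : meshPoint a z ∉ D := ball_infDist_compl D (z := meshPoint a w) hw
    (by rw [mem_ball, Complex.dist_eq, norm_sub_rev]; exact hlt)
  exact this hz

/-- in lattice units: `dist(z, T^c) ≥ dist(az, ∂D)/a` -/
theorem dist_frontier_div_le (ha : 0 < a) {z w : ℤ × ℤ} (hz : z ∈ domainSites D a)
    (hw : w ∉ domainSites D a) :
    infDist (meshPoint a z) (frontier D) / a ≤ ‖pos (w - z)‖ := by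
  rw [div_le_iff₀ ha]
  have := dist_frontier_le hz hw
  rw [norm_meshPoint_sub ha] at this
  linarith

/-- a site outside at distance `≤ dist(x, ∂D) + 4a` -/
theorem exists_site_out (h : CD D r M) (ha : 0 < a) (har : 4 * a ≤ r) (haM : 4 * M * a ≤ 1) (x : ℂ) :
    ∃ w : ℤ × ℤ, w ∉ domainSites D a ∧ meshPoint a w ∉ closure D ∧
      ‖meshPoint a w - x‖ ≤ infDist x (frontier D) + 4 * a := by
  obtain ⟨p, hp, hxp⟩ := Crest.Agent.R165.GeoDx65.CD.exists_nearest h x
  obtain ⟨n, hn, hb⟩ := Crest.Agent.R165.GeoDx65.CD.ball_open h hp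
  obtain ⟨-, hb2⟩ := hb (2 * a) (by positivity) (by linarith) (by linarith)
  obtain ⟨w, hw⟩ := exists_site_near ha (p - (2 * a : ℝ) * n)
  have hwD : meshPoint a w ∈ (D ∪ frontier D)ᶜ := hb2 (by
    rw [mem_ball, Complex.dist_eq]; linarith)
  rw [← closure_eq_self_union_frontier] at hwD
  refine ⟨w, fun h1 => hwD (subset_closure h1), hwD, ?_⟩
  have h2 : ‖p - (2 * a : ℝ) * n - p‖ = 2 * a := by
    rw [sub_sub_cancel_left, norm_neg, norm_mul, hn, mul_one, Complex.norm_real,
      Real.norm_of_nonneg (by positivity)]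
  rw [← hxp, Complex.dist_eq]
  calc ‖meshPoint a w - x‖ = ‖(meshPoint a w - (p - (2 * a : ℝ) * n)) + (p - (2 * a : ℝ) * n - p) +
        (p - x)‖ := by congr 1; ring
    _ ≤ ‖meshPoint a w - (p - (2 * a : ℝ) * n)‖ + ‖p - (2 * a : ℝ) * n - p‖ + ‖p - x‖ :=
        norm_add₃_le
    _ ≤ a + 2 * a + ‖x - p‖ := by rw [h2, norm_sub_rev p x]; linarith
    _ ≤ ‖x - p‖ + 4 * a := by linarith

/-- a site inside at distance `≤ dist(x, ∂D) + 4a` -/
theorem exists_site_in (h : CD D r M) (ha : 0 < a) (har : 4 * a ≤ r) (haM : 4 * M * a ≤ 1) (x : ℂ) :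
    ∃ w : ℤ × ℤ, w ∈ domainSites D a ∧
      ‖meshPoint a w - x‖ ≤ infDist x (frontier D) + 4 * a := by
  obtain ⟨p, hp, hxp⟩ := Crest.Agent.R165.GeoDx65.CD.exists_nearest h x
  obtain ⟨n, hn, hb⟩ := Crest.Agent.R165.GeoDx65.CD.ball_open h hp
  obtain ⟨hb1, -⟩ := hb (2 * a) (by positivity) (by linarith) (by linarith)
  obtain ⟨w, hw⟩ := exists_site_near ha (p + (2 * a : ℝ) * n)
  have hwD : meshPoint a w ∈ D := hb1 (by
    rw [mem_ball, Complex.dist_eq]; linarith)
  refine ⟨w, hwD, ?_⟩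
  have h2 : ‖p + (2 * a : ℝ) * n - p‖ = 2 * a := by
    rw [add_sub_cancel_left, norm_mul, hn, mul_one, Complex.norm_real,
      Real.norm_of_nonneg (by positivity)]
  rw [← hxp, Complex.dist_eq]
  calc ‖meshPoint a w - x‖ = ‖(meshPoint a w - (p + (2 * a : ℝ) * n)) + (p + (2 * a : ℝ) * n - p) +
        (p - x)‖ := by congr 1; ring
    _ ≤ ‖meshPoint a w - (p + (2 * a : ℝ) * n)‖ + ‖p + (2 * a : ℝ) * n - p‖ + ‖p - x‖ :=
        norm_add₃_le
    _ ≤ a + 2 * a + ‖x - p‖ := by rw [h2, norm_sub_rev p x]; linarith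
    _ ≤ ‖x - p‖ + 4 * a := by linarith

/-- in lattice units -/
theorem exists_site_out_pos (h : CD D r M) (ha : 0 < a) (har : 4 * a ≤ r) (haM : 4 * M * a ≤ 1)
    (z : ℤ × ℤ) : ∃ w : ℤ × ℤ, w ∉ domainSites D a ∧
      ‖pos (w - z)‖ ≤ infDist (meshPoint a z) (frontier D) / a + 4 := by
  obtain ⟨w, hw, -, hwz⟩ := exists_site_out h ha har haM (meshPoint a z)
  refine ⟨w, hw, ?_⟩
  rw [norm_meshPoint_sub ha] at hwz
  rw [← sub_le_iff_le_add, le_div_iff₀ ha]
  linarith

/-- in lattice units -/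
theorem exists_site_in_pos (h : CD D r M) (ha : 0 < a) (har : 4 * a ≤ r) (haM : 4 * M * a ≤ 1)
    (z : ℤ × ℤ) : ∃ w : ℤ × ℤ, w ∈ domainSites D a ∧
      ‖pos (w - z)‖ ≤ infDist (meshPoint a z) (frontier D) / a + 4 := by
  obtain ⟨w, hw, hwz⟩ := exists_site_in h ha har haM (meshPoint a z)
  refine ⟨w, hw, ?_⟩
  rw [norm_meshPoint_sub ha] at hwz
  rw [← sub_le_iff_le_add, le_div_iff₀ ha]
  linarith

/-- the site set is finite and contained in a box of side `≤ C/a` -/
theorem exists_bound_sites (hb : Bornology.IsBounded D) :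
    ∃ C : ℝ, 0 < C ∧ ∀ a : ℝ, 0 < a → ∀ z ∈ domainSites D a, ‖pos z‖ ≤ C / a := by
  obtain ⟨C, hC0, hC⟩ := hb.exists_pos_norm_le
  refine ⟨C, hC0, fun a ha z hz => ?_⟩
  have := hC _ hz
  rw [meshPoint_eq_mul_pos, norm_mul, Complex.norm_real, Real.norm_of_nonneg ha.le] at this
  rw [le_div_iff₀ ha]
  linarith

theorem finite_sites (hb : Bornology.IsBounded D) (ha : 0 < a) : (domainSites D a).Finite := by
  obtain ⟨C, hC0, hC⟩ := exists_bound_sites hb
  have hfin : {w : ℤ × ℤ | sn w ≤ ⌈C / a⌉}.Finite := by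
    refine ((finite_Icc (-⌈C / a⌉) ⌈C / a⌉).prod (finite_Icc (-⌈C / a⌉) ⌈C / a⌉)).subset
      fun w hw => ?_
    have := sn_le.1 hw
    exact ⟨abs_le.1 this.1, abs_le.1 this.2⟩
  refine hfin.subset fun z hz => ?_
  have h1 := (sn_le_norm z).trans (hC a ha z hz)
  have h2 := h1.trans (Int.le_ceil _)
  exact_mod_cast h2

end Crest.Agent.R165.GeoGx65
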