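import Crest.Agent.R165.BridgeReg_386
import Crest.Agent.R165.FreeReg_485
import Crest.Agent.R165.GeoLat4_416
import Crest.Agent.R165.GeoG_65

/-!
# Row 165 (S0250): flat strips at the boundary (helper838)

* `flat_core`: a face `y` near a point `q` with two tangent balls of radius `S` (lattice units): the
  corners of the faces of `bx y R` are inside resp. outside `T` off the strip `|dotn| ≤ ε R`
* `ray_gauge`, `wl_wX_gauge`: insertions outside the box of radius `R + 1` are pure gauge (any weights)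
* `plusFlat_of_balls`, `freeFlat_of_balls`: literal `PlusFlat` / `FreeFlat` for `wX (wDom T b) X`
* `LatReg.plusFlat`, `LatReg.freeFlat`: for regular lattice sets
* `CD.plusFlat`, `CD.freeFlat`: for the domains `domainSites D a`
-/

set_option autoImplicit false

noncomputable section

open Complex Metric
open Crest.ProbabilityR.IsingModel
open Crest.Agent.R165.Geo
open Crest.Agent.R165.Latx683 (BW wDom wX ray yE yN)
open Crest.Agent.R165.RIfx891 (bx mem_bx_real dotn PlusFlat PlaneOn BranchOn Gauge IsPlusOn)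
open Crest.Agent.R165.Tr1x40 (nb op xc)
open Crest.Agent.R165.Bridgex386 (wl sym_wl pf)
open Crest.Agent.R165.FreeRegx485 (FreeFlat IsFreeOn)

namespace Crest.Agent.R165.Flatx838

/-- faces of block R -/
abbrev Face := Crest.Agent.R165.Tr1x40.Face

/-! ### geometry -/

/-- `z` is a corner of the face `f` -/
def Corner (f z : ℤ × ℤ) : Prop := (z.1 = f.1 ∨ z.1 = f.1 + 1) ∧ (z.2 = f.2 ∨ z.2 = f.2 + 1)

theorem Corner.cast {f z : ℤ × ℤ} (h : Corner f z) :
    (0 ≤ (z.1 : ℝ) - f.1 ∧ (z.1 : ℝ) - f.1 ≤ 1) ∧ (0 ≤ (z.2 : ℝ) - f.2 ∧ (z.2 : ℝ) - f.2 ≤ 1) := by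
  obtain ⟨h1, h2⟩ := h
  constructor
  · rcases h1 with h | h <;> rw [h] <;> push_cast <;> constructor <;> linarith
  · rcases h2 with h | h <;> rw [h] <;> push_cast <;> constructor <;> linarith

theorem norm_le_of_sq {v : ℂ} {b : ℝ} (hb : 0 ≤ b) (h : v.re ^ 2 + v.im ^ 2 ≤ b ^ 2) : ‖v‖ ≤ b := by
  have h1 : ‖v‖ ^ 2 ≤ b ^ 2 := by
    rw [← Complex.normSq_eq_norm_sq, Complex.normSq_apply]; nlinarith
  exact (pow_le_pow_iff_left₀ (norm_nonneg _) hb two_ne_zero).1 h1

/-- the scalar product -/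
def sp (n v : ℂ) : ℝ := n.re * v.re + n.im * v.im

theorem abs_sp_le {n : ℂ} (hn : ‖n‖ = 1) (v : ℂ) : |sp n v| ≤ ‖v‖ := by
  have h1 : sp n v = ((starRingEnd ℂ) n * v).re := by
    simp [sp, Complex.mul_re]
  rw [h1]
  refine (Complex.abs_re_le_norm _).trans ?_
  rw [norm_mul, Complex.norm_conj, hn, one_mul]

/-- the ball of centre `S n`, radius `S` -/
theorem mem_tangent {n v : ℂ} {S : ℝ} (hn : ‖n‖ = 1) (hS : 0 < S) (h : ‖v‖ ^ 2 < 2 * S * sp n v) :
    ‖v - S * n‖ < S := by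
  have hn2 : n.re * n.re + n.im * n.im = 1 := by
    have := Complex.normSq_eq_norm_sq n
    rw [hn, Complex.normSq_apply] at this
    linarith
  have hv : ‖v‖ ^ 2 = v.re * v.re + v.im * v.im := by
    rw [← Complex.normSq_eq_norm_sq, Complex.normSq_apply]
  have h1 : ‖v - S * n‖ ^ 2 < S ^ 2 := by
    rw [← Complex.normSq_eq_norm_sq, Complex.normSq_apply]
    simp only [Complex.sub_re, Complex.sub_im, Complex.mul_re, Complex.mul_im, Complex.ofReal_re,
      Complex.ofReal_im, zero_mul, sub_zero, add_zero]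
    rw [hv] at h
    unfold sp at h
    have e : (v.re - S * n.re) * (v.re - S * n.re) + (v.im - S * n.im) * (v.im - S * n.im) =
        (v.re * v.re + v.im * v.im) - 2 * S * (n.re * v.re + n.im * v.im) +
          S ^ 2 * (n.re * n.re + n.im * n.im) := by ring
    rw [e, hn2]
    linarith
  exact (pow_lt_pow_iff_left₀ (norm_nonneg _) hS.le two_ne_zero).1 h1

/-- **flatness from two tangent balls**; `n` is the inner normal -/
theorem flat_core {T : Set (ℤ × ℤ)} {q n : ℂ} {S : ℝ} (hn : ‖n‖ = 1) (hS : 0 < S)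
    (hin : ∀ w, ‖pos w - (q + S * n)‖ < S → w ∈ T) (hout : ∀ w, ‖pos w - (q - S * n)‖ < S → w ∉ T)
    {y : Face} {B ε R : ℝ} (hB : 0 ≤ B) (hy : ‖pos y - q‖ ≤ B) (hR : 4 * B + 20 ≤ R)
    (hεR : 4 * (B + 2) ≤ ε * R) (hRS : 8 * R ≤ ε * S) {f : Face} {z : ℤ × ℤ} (hf : f ∈ bx y R)
    (hz : Corner f z) :
    (dotn (-n) y f ≤ -(ε * R) → z ∈ T) ∧ (ε * R ≤ dotn (-n) y f → z ∉ T) := by
  have hR0 : 0 < R := by linarith
  rw [mem_bx_real, abs_le, abs_le] at hf
  obtain ⟨⟨hz1, hz2⟩, hz3, hz4⟩ := hz.cast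
  set v : ℂ := pos z - q with hv
  have hvR : ‖v‖ ≤ 2 * R := by
    have e : v = (pos z - pos y) + (pos y - q) := by rw [hv]; ring
    have h1 : ‖pos z - pos y‖ ≤ 3 / 2 * (R + 1) := by
      apply norm_le_of_sq (by linarith)
      rw [Complex.sub_re, Complex.sub_im, pos_re, pos_im, pos_re, pos_im]
      have a1 : |(z.1 : ℝ) - y.1| ≤ R + 1 := by rw [abs_le]; constructor <;> linarith [hf.1.1, hf.1.2]
      have a2 : |(z.2 : ℝ) - y.2| ≤ R + 1 := by rw [abs_le]; constructor <;> linarith [hf.2.1, hf.2.2]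
      have b1 : ((z.1 : ℝ) - y.1) ^ 2 ≤ (R + 1) ^ 2 := by rw [← sq_abs]; gcongr
      have b2 : ((z.2 : ℝ) - y.2) ^ 2 ≤ (R + 1) ^ 2 := by rw [← sq_abs]; gcongr
      nlinarith
    rw [e]
    refine (norm_add_le _ _).trans ?_
    linarith
  have hv2 : ‖v‖ ^ 2 ≤ 4 * R ^ 2 := by
    have := mul_self_le_mul_self (norm_nonneg v) hvR
    nlinarith
  -- the scalar product
  set e : ℂ := (pos z - pos f) + (pos y - q) with he
  have hen : ‖e‖ ≤ 2 + B := by
    refine (norm_add_le _ _).trans (add_le_add ?_ hy)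
    apply norm_le_of_sq (by norm_num)
    rw [Complex.sub_re, Complex.sub_im, pos_re, pos_im, pos_re, pos_im]
    nlinarith
  have hsp : sp n v = -dotn (-n) y f + sp n e := by
    simp only [sp, dotn, hv, he, Complex.add_re, Complex.add_im, Complex.sub_re, Complex.sub_im,
      pos_re, pos_im, Complex.neg_re, Complex.neg_im]
    ring
  have hse := abs_le.1 ((abs_sp_le hn e).trans hen)
  have hSR : 0 < S * R := mul_pos hS hR0
  have key : 4 * R ^ 2 < 2 * S * (3 / 4 * (ε * R)) := by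
    have h1 : 8 * R * R ≤ ε * S * R := mul_le_mul_of_nonneg_right hRS hR0.le
    nlinarith [mul_pos hR0 hR0]
  constructor
  · intro hd
    apply hin
    have h1 : 3 / 4 * (ε * R) ≤ sp n v := by rw [hsp]; linarith
    have h2 : ‖v - S * n‖ < S := by
      refine mem_tangent hn hS (hv2.trans_lt (key.trans_le ?_))
      exact mul_le_mul_of_nonneg_left h1 (by positivity)
    rwa [hv, sub_sub] at h2
  · intro hd
    apply hout
    have h1 : 3 / 4 * (ε * R) ≤ sp (-n) v := by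
      have e1 : sp (-n) v = -sp n v := by simp only [sp, Complex.neg_re, Complex.neg_im]; ring
      rw [e1, hsp]; linarith
    have h2 : ‖v - S * (-n)‖ < S := by
      refine mem_tangent (by rwa [norm_neg]) hS (hv2.trans_lt (key.trans_le ?_))
      exact mul_le_mul_of_nonneg_left h1 (by positivity)
    rw [hv, sub_sub] at h2
    have e2 : q + (S : ℂ) * -n = q - S * n := by ring
    rwa [e2] at h2

/-! ### weights of the half-edges -/

/-- the bond crossed by the half-edge `(f, h)` -/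
def bz (f : Face) (h : Fin 4) : (ℤ × ℤ) × Fin 2 :=
  match h with
  | 0 => (f, 0)
  | 1 => ((f.1 + 1, f.2), 1)
  | 2 => ((f.1, f.2 + 1), 0)
  | 3 => (f, 1)

theorem wl_eq (w : BW ℤ) (f : Face) (h : Fin 4) : wl w f h = w (bz f h).1 (bz f h).2 := by
  fin_cases h <;>
    simp [wl, Crest.Agent.R165.Tr1x40.ofEN, yE, yN, bz, pf]

theorem bz_corner (f : Face) (h : Fin 4) : Corner f (bz f h).1 := by
  fin_cases h <;> simp [bz, Corner]

theorem bz_corner' (f : Face) (h : Fin 4) : Corner f ((bz f h).1 + unitVec (bz f h).2) := by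
  fin_cases h <;> simp [bz, Corner, unitVec]

/-! ### the gauge of the rays -/

/-- the gauge of the insertions `X` seen from the face `y` -/
def rg {n : ℕ} (X : Fin n → ℤ × ℤ) (y : Face) (f : Face) : ℝ :=
  ∏ i, if (X i).1 ≤ y.1 ∧ f.2 < (X i).2 then -1 else 1

theorem rg_gauge {n : ℕ} (X : Fin n → ℤ × ℤ) (y : Face) : Gauge (rg X y) := by
  intro f
  rw [rg, ← Finset.prod_pow]
  refine Finset.prod_eq_one fun i _ => ?_
  split_ifs <;> norm_num

/-- the box of radius `R + 1` around `y` does not contain the point `v` -/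
def FarX (y : Face) (R : ℝ) (v : ℤ × ℤ) : Prop := R + 1 < |(v.1 : ℝ) - y.1| ∨ R + 1 < |(v.2 : ℝ) - y.2|

theorem ray_gauge {n : ℕ} {X : Fin n → ℤ × ℤ} {y : Face} {R : ℝ} (hR : 0 ≤ R)
    (hX : ∀ i, FarX y R (X i)) {f : Face} (hf : f ∈ bx y R) (h : Fin 4) :
    ray X (bz f h).1 (bz f h).2 = rg X y f * rg X y (nb f h) := by
  rw [mem_bx_real, abs_le, abs_le] at hf
  obtain ⟨⟨f1, f2⟩, f3, f4⟩ := hf
  rw [ray, rg, rg, ← Finset.prod_mul_distrib]
  refine Finset.prod_congr rfl fun i _ => ?_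
  -- vertical bonds
  have hv : ∀ g : Face, g.2 = f.2 → ((if (X i).1 ≤ y.1 ∧ f.2 < (X i).2 then (-1 : ℝ) else 1) *
      if (X i).1 ≤ y.1 ∧ g.2 < (X i).2 then (-1 : ℝ) else 1) = 1 := by
    intro g hg
    rw [hg]
    split_ifs <;> norm_num
  -- horizontal bonds: `z` the bond, between the faces of ordinates `z.2 - 1` and `z.2`
  have hh : ∀ t : ℤ, (t = f.2 ∨ t = f.2 + 1) →
      (if (X i).2 = t ∧ (X i).1 ≤ f.1 then (-1 : ℝ) else 1) =
        (if (X i).1 ≤ y.1 ∧ t - 1 < (X i).2 then (-1 : ℝ) else 1) *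
          if (X i).1 ≤ y.1 ∧ t < (X i).2 then (-1 : ℝ) else 1 := by
    intro t ht
    by_cases e : (X i).2 = t
    · have ht' : |((X i).2 : ℝ) - y.2| ≤ R + 1 := by
        rw [e, abs_le]
        rcases ht with ht | ht <;> rw [ht] <;> push_cast <;> constructor <;> linarith
      have h1 : R + 1 < |((X i).1 : ℝ) - y.1| := by
        rcases hX i with h | h
        · exact h
        · exact absurd h (not_lt.2 ht')
      rcases lt_abs.1 h1 with h2 | h2
      · have a1 : ¬ (X i).1 ≤ y.1 := by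
          intro hc
          have : ((X i).1 : ℝ) ≤ y.1 := by exact_mod_cast hc
          linarith
        have a2 : ¬ (X i).1 ≤ f.1 := by
          intro hc
          have : ((X i).1 : ℝ) ≤ f.1 := by exact_mod_cast hc
          linarith
        rw [if_neg (fun hc => a2 hc.2), if_neg (fun hc => a1 hc.1), if_neg (fun hc => a1 hc.1),
          one_mul]
      · have a1 : (X i).1 ≤ y.1 := by
          have : ((X i).1 : ℝ) ≤ y.1 := by linarith
          exact_mod_cast this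
        have a2 : (X i).1 ≤ f.1 := by
          have : ((X i).1 : ℝ) ≤ f.1 := by linarith
          exact_mod_cast this
        rw [if_pos ⟨e, a2⟩, if_pos ⟨a1, by omega⟩, if_neg (fun hc => by omega), mul_one]
    · rw [if_neg (fun hc => e hc.1)]
      by_cases a1 : (X i).1 ≤ y.1
      · by_cases a2 : t < (X i).2
        · rw [if_pos ⟨a1, by omega⟩, if_pos ⟨a1, a2⟩]; norm_num
        · rw [if_neg (fun hc => by omega), if_neg (fun hc => a2 hc.2)]; norm_num
      · rw [if_neg (fun hc => a1 hc.1), if_neg (fun hc => a1 hc.1), one_mul]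
  fin_cases h
  · have := hh f.2 (Or.inl rfl)
    simp only [bz, nb, true_and] at this ⊢
    rw [this, mul_comm]
    rfl
  · have := hv (nb f 1) rfl
    simp only [bz, nb, one_ne_zero, false_and, if_false] at this ⊢
    exact this.symm
  · have := hh (f.2 + 1) (Or.inr rfl)
    simp only [bz, nb, true_and, add_sub_cancel_right] at this ⊢
    rw [this]
    rfl
  · have := hv (nb f 3) rfl
    simp only [bz, nb, one_ne_zero, false_and, if_false] at this ⊢
    exact this.symm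

/-- **insertions outside the box are pure gauge**, any weights -/
theorem wl_wX_gauge {n : ℕ} (w : BW ℤ) {X : Fin n → ℤ × ℤ} {y : Face} {R : ℝ} (hR : 0 ≤ R)
    (hX : ∀ i, FarX y R (X i)) {f : Face} (hf : f ∈ bx y R) (h : Fin 4) :
    wl (wX w X) f h = rg X y f * rg X y (nb f h) * wl w f h := by
  rw [wl_eq, wl_eq, wX, ray_gauge hR hX hf h]

/-! ### domain weights -/

theorem wl_plus_in {T : Set (ℤ × ℤ)} {f : Face} (h : ∀ z, Corner f z → z ∈ T) (k : Fin 4) :
    wl (wDom T false) f k = xc := by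
  rw [wl_eq, wDom]
  simp only [Bool.false_eq_true, if_false]
  rw [if_pos (Or.inl (h _ (bz_corner f k)))]
  rfl

theorem wl_plus_out {T : Set (ℤ × ℤ)} {f : Face} (h : ∀ z, Corner f z → z ∉ T) (k : Fin 4) :
    wl (wDom T false) f k = 0 := by
  rw [wl_eq, wDom]
  simp only [Bool.false_eq_true, if_false]
  rw [if_neg (fun hc => hc.elim (h _ (bz_corner f k)) (h _ (bz_corner' f k)))]

theorem wl_free_in {T : Set (ℤ × ℤ)} {f : Face} (h : ∀ z, Corner f z → z ∈ T) (k : Fin 4) :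
    wl (wDom T true) f k = xc := by
  rw [wl_eq, wDom]
  simp only [if_true]
  rw [if_pos ⟨h _ (bz_corner f k), h _ (bz_corner' f k)⟩]
  rfl

theorem wl_free_out {T : Set (ℤ × ℤ)} {f : Face} (h : ∀ z, Corner f z → z ∉ T) (k : Fin 4) :
    wl (wDom T true) f k = 1 := by
  rw [wl_eq, wDom]
  simp only [if_true]
  rw [if_neg (fun hc => h _ (bz_corner f k) hc.1)]

theorem wl_plus_or (T : Set (ℤ × ℤ)) (f : Face) (k : Fin 4) :
    wl (wDom T false) f k = xc ∨ wl (wDom T false) f k = 0 := by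
  rw [wl_eq, wDom]
  simp only [Bool.false_eq_true, if_false]
  split_ifs
  · exact Or.inl rfl
  · exact Or.inr rfl

theorem wl_free_or (T : Set (ℤ × ℤ)) (f : Face) (k : Fin 4) :
    wl (wDom T true) f k = xc ∨ wl (wDom T true) f k = 1 := by
  rw [wl_eq, wDom]
  simp only [if_true]
  split_ifs
  · exact Or.inl rfl
  · exact Or.inr rfl

/-! ### the classes -/

/-- corners off the strip; `n` the outward normal -/
def SiteFlat (T : Set (ℤ × ℤ)) (y : Face) (R : ℝ) (n : ℂ) (ε : ℝ) : Prop :=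
  ∀ f ∈ bx y R, ∀ z, Corner f z → (dotn n y f ≤ -(ε * R) → z ∈ T) ∧ (ε * R ≤ dotn n y f → z ∉ T)

theorem plusFlat_of {T : Set (ℤ × ℤ)} {m : ℕ} {X : Fin m → ℤ × ℤ} {y : Face} {R ε : ℝ} {n : ℂ}
    (hR : 0 ≤ R) (hX : ∀ i, FarX y R (X i)) (H : SiteFlat T y R n ε) :
    PlusFlat (wl (wX (wDom T false) X)) (rg X y) y R n ε where
  sym := sym_wl _
  gauge := rg_gauge X y
  plus := by
    intro f hf h
    rw [wl_wX_gauge _ hR hX hf h]
    rcases wl_plus_or T f h with e | e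
    · left; rw [e, Crest.Agent.R165.RIfx891.sq_of (rg_gauge X y)]
    · right; rw [e, mul_zero]
  inside := by
    intro f hf hd h
    rw [wl_wX_gauge _ hR hX hf h, wl_plus_in (fun z hz => (H f hf z hz).1 hd)]
  outside := by
    intro f hf hd h
    rw [wl_wX_gauge _ hR hX hf h, wl_plus_out (fun z hz => (H f hf z hz).2 hd), mul_zero]

theorem freeFlat_of {T : Set (ℤ × ℤ)} {m : ℕ} {X : Fin m → ℤ × ℤ} {y : Face} {R ε : ℝ} {n : ℂ}
    (hR : 0 ≤ R) (hX : ∀ i, FarX y R (X i)) (H : SiteFlat T y R n ε) :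
    FreeFlat (wl (wX (wDom T true) X)) (rg X y) y R n ε where
  sym := sym_wl _
  gauge := rg_gauge X y
  free := by
    intro f hf h
    rw [wl_wX_gauge _ hR hX hf h]
    rcases wl_free_or T f h with e | e
    · left; rw [e]
    · right; rw [e, mul_one]
  inside := by
    intro f hf hd h
    rw [wl_wX_gauge _ hR hX hf h, wl_free_in (fun z hz => (H f hf z hz).1 hd)]
  outside := by
    intro f hf hd h
    rw [wl_wX_gauge _ hR hX hf h, wl_free_out (fun z hz => (H f hf z hz).2 hd), mul_one]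

/-- all weights of the free background on a box without insertions -/
theorem isFreeOn_of {T : Set (ℤ × ℤ)} {m : ℕ} {X : Fin m → ℤ × ℤ} {y : Face} {R : ℝ}
    (hR : 0 ≤ R) (hX : ∀ i, FarX y R (X i)) :
    IsFreeOn (wl (wX (wDom T true) X)) (rg X y) y R where
  sym := sym_wl _
  gauge := rg_gauge X y
  free := by
    intro f hf h
    rw [wl_wX_gauge _ hR hX hf h]
    rcases wl_free_or T f h with e | e
    · left; rw [e]
    · right; rw [e, mul_one]

/-- plane background on a box without insertions, all corners inside (both boundary conditions) -/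
theorem planeOn_of {T : Set (ℤ × ℤ)} (b : Bool) {m : ℕ} {X : Fin m → ℤ × ℤ} {y : Face} {R : ℝ}
    (hR : 0 ≤ R) (hX : ∀ i, FarX y R (X i)) (hT : ∀ f ∈ bx y R, ∀ z, Corner f z → z ∈ T) :
    PlaneOn (wl (wX (wDom T b) X)) (rg X y) y R where
  sym := sym_wl _
  gauge := rg_gauge X y
  eq := by
    intro f hf h
    rw [wl_wX_gauge _ hR hX hf h]
    cases b
    · rw [wl_plus_in (hT f hf)]
    · rw [wl_free_in (hT f hf)]

/-- zero background on a box outside the domain, plus boundary conditions -/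
theorem zero_of {T : Set (ℤ × ℤ)} {m : ℕ} {X : Fin m → ℤ × ℤ} {f : Face}
    (hT : ∀ z, Corner f z → z ∉ T) (h : Fin 4) : wl (wX (wDom T false) X) f h = 0 := by
  have := wl_plus_out (T := T) hT h
  rw [wl_eq] at this ⊢
  rw [wX, this, mul_zero]

/-- weight one on a box outside the domain, free boundary conditions, up to the gauge -/
theorem one_of {T : Set (ℤ × ℤ)} {m : ℕ} {X : Fin m → ℤ × ℤ} {y : Face} {R : ℝ}
    (hR : 0 ≤ R) (hX : ∀ i, FarX y R (X i)) {f : Face} (hf : f ∈ bx y R)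
    (hT : ∀ z, Corner f z → z ∉ T) (h : Fin 4) :
    wl (wX (wDom T true) X) f h = rg X y f * rg X y (nb f h) := by
  rw [wl_wX_gauge _ hR hX hf h, wl_free_out hT, mul_one]

/-! ### regular lattice sets -/

section Lat

variable {T : Set (ℤ × ℤ)} {ρ κ : ℝ}

/-- flatness of a regular lattice set near a boundary site; `n` the outward normal -/
theorem LatReg.siteFlat (h : LatReg T ρ κ) (hρ : 2 ≤ ρ) {z u : ℤ × ℤ} (hzu : nn z u)
    (hdiff : (z ∈ T ∧ u ∉ T) ∨ (z ∉ T ∧ u ∈ T)) :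
    ∃ n : ℂ, ‖n‖ = 1 ∧ ∀ (S B : ℝ) (y : Face), 0 < S → 2 * S + 3 / 2 ≤ ρ → 2 * S * κ ≤ 1 →
      0 ≤ B → ‖pos y - pos z‖ ≤ B → ∀ ε R : ℝ, 4 * B + 26 ≤ R → 4 * B + 14 ≤ ε * R →
      8 * R ≤ ε * S → SiteFlat T y R n ε := by
  obtain ⟨q, n, hn, hq, hb⟩ := h.balls hρ hzu hdiff
  refine ⟨-n, by rwa [norm_neg], fun S B y hS hSρ hSκ hB hy ε R h1 h2 h3 f hf w hw => ?_⟩
  obtain ⟨hin, hout⟩ := hb S hS hSρ hSκ
  have hyq : ‖pos y - q‖ ≤ B + 3 / 2 := by
    have e : pos y - q = (pos y - pos z) - (q - pos z) := by ring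
    rw [e]
    exact (norm_sub_le _ _).trans (add_le_add hy hq)
  exact flat_core hn hS hin hout (by linarith) hyq (by linarith) (by linarith) h3 hf hw

/-- **plus boundary, regular lattice sets** -/
theorem LatReg.plusFlat (h : LatReg T ρ κ) (hρ : 2 ≤ ρ) {z u : ℤ × ℤ} (hzu : nn z u)
    (hdiff : (z ∈ T ∧ u ∉ T) ∨ (z ∉ T ∧ u ∈ T)) {m : ℕ} (X : Fin m → ℤ × ℤ) :
    ∃ n : ℂ, ‖n‖ = 1 ∧ ∀ (S B : ℝ) (y : Face), 0 < S → 2 * S + 3 / 2 ≤ ρ → 2 * S * κ ≤ 1 →
      0 ≤ B → ‖pos y - pos z‖ ≤ B → ∀ ε R : ℝ, 4 * B + 26 ≤ R → 4 * B + 14 ≤ ε * R →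
      8 * R ≤ ε * S → (∀ i, FarX y R (X i)) →
      PlusFlat (wl (wX (wDom T false) X)) (rg X y) y R n ε ∧
      FreeFlat (wl (wX (wDom T true) X)) (rg X y) y R n ε := by
  obtain ⟨n, hn, H⟩ := LatReg.siteFlat h hρ hzu hdiff
  refine ⟨n, hn, fun S B y hS hSρ hSκ hB hy ε R h1 h2 h3 hX => ?_⟩
  have hF := H S B y hS hSρ hSκ hB hy ε R h1 h2 h3
  exact ⟨plusFlat_of (by linarith) hX hF, freeFlat_of (by linarith) hX hF⟩

end Lat

/-! ### domains -/

section Dom

variable {D : Set ℂ} {r M : ℝ}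

open Crest.Agent.R165.GeoDx65 Crest.Agent.R165.GeoGx65

/-- flatness of the site set of a domain at a frontier point; `n` the outward normal -/
theorem CD.siteFlat (h : CD D r M) {p : ℂ} (hp : p ∈ frontier D) :
    ∃ n : ℂ, ‖n‖ = 1 ∧ ∀ (a B ρ : ℝ) (y : Face), 0 < a → 0 < ρ → 2 * ρ ≤ r → 2 * M * ρ ≤ 1 →
      0 ≤ B → ‖meshPoint a y - p‖ ≤ B * a → ∀ ε R : ℝ, 4 * B + 20 ≤ R → 4 * (B + 2) ≤ ε * R →
      8 * (a * R) ≤ ε * ρ → SiteFlat (domainSites D a) y R n ε := by
  obtain ⟨n, hn, hb⟩ := CD.ball_open h hp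
  refine ⟨-n, by rwa [norm_neg], fun a B ρ y ha hρ hρr hρM hB hy ε R h1 h2 h3 f hf w hw => ?_⟩
  obtain ⟨hin, hout⟩ := hb ρ hρ hρr hρM
  have ha' : (a : ℂ) ≠ 0 := by exact_mod_cast ha.ne'
  have key : ∀ (w : ℤ × ℤ) (σ : ℂ), a * ‖pos w - (p / a + σ * (((ρ / a : ℝ) : ℂ) * n))‖ =
      ‖meshPoint a w - (p + σ * (ρ * n))‖ := by
    intro w σ
    have e : meshPoint a w - (p + σ * (ρ * n)) =
        (a : ℂ) * (pos w - (p / a + σ * (((ρ / a : ℝ) : ℂ) * n))) := by
      rw [meshPoint_eq_mul_pos]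
      push_cast
      field_simp
    rw [e, norm_mul, Complex.norm_real, Real.norm_of_nonneg ha.le]
  refine flat_core (q := p / a) (S := ρ / a) hn (by positivity) ?_ ?_ hB ?_ h1 h2 ?_ hf hw
  · intro w hw
    apply hin
    rw [mem_ball, Complex.dist_eq]
    have e := key w 1
    rw [one_mul, one_mul] at e
    rw [← e]
    calc a * _ < a * (ρ / a) := mul_lt_mul_of_pos_left hw ha
      _ = ρ := by field_simp
  · intro w hw hwD
    have : meshPoint a w ∈ (D ∪ frontier D)ᶜ := by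
      apply hout
      rw [mem_ball, Complex.dist_eq]
      have e := key w (-1)
      rw [neg_one_mul, neg_one_mul, ← sub_eq_add_neg, ← sub_eq_add_neg] at e
      rw [← e]
      calc a * _ < a * (ρ / a) := mul_lt_mul_of_pos_left hw ha
        _ = ρ := by field_simp
    exact this (Or.inl hwD)
  · have e : meshPoint a y - p = (a : ℂ) * (pos y - p / a) := by
      rw [meshPoint_eq_mul_pos]; field_simp
    rw [e, norm_mul, Complex.norm_real, Real.norm_of_nonneg ha.le, mul_comm B] at hy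
    exact le_of_mul_le_mul_left hy ha
  · rw [← mul_div_assoc, le_div_iff₀ ha]
    linarith

/-- the insertions are far from the frontier -/
theorem exists_far (hD : IsOpen D) {m : ℕ} {x : Fin m → ℂ} (hx : ∀ i, x i ∈ D) :
    ∃ η > 0, ∀ i, ∀ p ∈ frontier D, η ≤ ‖p - x i‖ := by
  obtain ⟨η, hη, H⟩ := exists_thick hD (Set.finite_range x).isCompact (by
    rintro _ ⟨i, rfl⟩; exact hx i)
  refine ⟨η, hη, fun i p hp => ?_⟩
  by_contra hlt
  push Not at hlt
  have h1 := H p (x i) ⟨i, rfl⟩ hlt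
  rw [hD.frontier_eq] at hp
  exact hp.2 h1

/-- the insertions are outside the boxes near the frontier -/
theorem farX_of {a η B R δ : ℝ} (ha : 0 < a) (hδ : 3 * δ < η) (hR : B + 4 ≤ R)
    (haR : a * R ≤ δ) {p ξ : ℂ} (hp : η ≤ ‖p - ξ‖) {y : Face} (hy : ‖meshPoint a y - p‖ ≤ B * a)
    (hR0 : 0 ≤ R) : FarX y R (meshIndex a ξ) := by
  by_contra hc
  unfold FarX at hc
  push Not at hc
  set X := meshIndex a ξ with hX
  have h1 : ‖pos (X - y)‖ ≤ 3 / 2 * (R + 1) := by
    apply norm_le_of_sq (by linarith)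
    rw [pos_re, pos_im]
    have b1 : (((X - y).1 : ℤ) : ℝ) ^ 2 ≤ (R + 1) ^ 2 := by
      rw [← sq_abs, Prod.fst_sub]; push_cast
      exact pow_le_pow_left₀ (abs_nonneg _) hc.1 2
    have b2 : (((X - y).2 : ℤ) : ℝ) ^ 2 ≤ (R + 1) ^ 2 := by
      rw [← sq_abs, Prod.snd_sub]; push_cast
      exact pow_le_pow_left₀ (abs_nonneg _) hc.2 2
    nlinarith
  have h2 := norm_meshPoint_meshIndex ha ξ
  rw [← hX] at h2
  have h3 : ‖meshPoint a X - meshPoint a y‖ ≤ a * (3 / 2 * (R + 1)) := by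
    rw [norm_meshPoint_sub ha]
    exact mul_le_mul_of_nonneg_left h1 ha.le
  have h4 : ‖p - ξ‖ ≤ 2 * a + a * (3 / 2 * (R + 1)) + B * a := by
    have e : p - ξ = (meshPoint a X - ξ) + (-(meshPoint a X - meshPoint a y)) +
        (-(meshPoint a y - p)) := by ring
    rw [e]
    refine (norm_add_le _ _).trans (add_le_add ((norm_add_le _ _).trans (add_le_add h2 ?_)) ?_)
    · rwa [norm_neg]
    · rwa [norm_neg]
  have h5 : 2 * a + a * (3 / 2 * (R + 1)) + B * a ≤ 3 * (a * R) := by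
    have : a * (B + 4) ≤ a * R := mul_le_mul_of_nonneg_left hR ha.le
    nlinarith [mul_nonneg ha.le hR0]
  linarith

/-- **flat strips of the domain backgrounds**: the constants do not depend on `a`, `p`, `y`, `R`, the
normal `n` does not depend on `a`, `y`, `R` -/
theorem CD.flat (h : CD D r M) {m : ℕ} {x : Fin m → ℂ} (hx : ∀ i, x i ∈ D) {ε B : ℝ} (hε : 0 < ε)
    (hB : 0 ≤ B) :
    ∃ δ > 0, ∃ r0 : ℝ, 1 ≤ r0 ∧ ∀ p ∈ frontier D, ∃ n : ℂ, ‖n‖ = 1 ∧ ∀ a : ℝ, 0 < a →
      ∀ y : Face, ‖meshPoint a y - p‖ ≤ B * a → ∀ R : ℝ, r0 ≤ R → a * R ≤ δ →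
      (∀ i, FarX y R (meshIndex a (x i))) ∧
      PlusFlat (wl (wX (wDom (domainSites D a) false) fun i => meshIndex a (x i)))
        (rg (fun i => meshIndex a (x i)) y) y R n ε ∧
      FreeFlat (wl (wX (wDom (domainSites D a) true) fun i => meshIndex a (x i)))
        (rg (fun i => meshIndex a (x i)) y) y R n ε := by
  obtain ⟨η, hη, hfar⟩ := exists_far h.isOpen hx
  have hr := h.r_pos
  have hM := h.M_nonneg
  set ρ : ℝ := min (r / 2) (1 / (2 * (M + 1))) with hρ
  have hρ0 : 0 < ρ := lt_min (by positivity) (by positivity)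
  have hρr : 2 * ρ ≤ r := by have := min_le_left (r / 2) (1 / (2 * (M + 1))); linarith
  have hρM : 2 * M * ρ ≤ 1 := by
    have h4 : ρ ≤ 1 / (2 * (M + 1)) := min_le_right _ _
    rw [le_div_iff₀ (by positivity)] at h4
    nlinarith
  refine ⟨min (η / 4) (ε * ρ / 8), lt_min (by positivity) (by positivity),
    max (4 * B + 20) (4 * (B + 2) / ε), ?_, fun p hp => ?_⟩
  · exact le_max_of_le_left (by linarith)
  obtain ⟨n, hn, H⟩ := CD.siteFlat h hp
  refine ⟨n, hn, fun a ha y hy R hR haR => ?_⟩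
  have hR1 : 4 * B + 20 ≤ R := (le_max_left _ _).trans hR
  have hR2 : 4 * (B + 2) ≤ ε * R := by
    have := (le_max_right (4 * B + 20) (4 * (B + 2) / ε)).trans hR
    rw [div_le_iff₀ hε] at this
    linarith
  have hR3 : 8 * (a * R) ≤ ε * ρ := by
    have := haR.trans (min_le_right _ _)
    linarith
  have hF := H a B ρ y ha hρ0 hρr hρM hB hy ε R hR1 hR2 hR3
  have hX : ∀ i, FarX y R (meshIndex a (x i)) := fun i =>
    farX_of ha (δ := η / 4) (by linarith) (by linarith) (haR.trans (min_le_left _ _))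
      (hfar i p hp) hy (by linarith)
  exact ⟨hX, plusFlat_of (by linarith) hX hF, freeFlat_of (by linarith) hX hF⟩

/-- a face with a corner inside and a corner outside is near the frontier -/
theorem CD.near_of_mixed (h : CD D r M) {a : ℝ} (ha : 0 < a) {y z z' : ℤ × ℤ}
    (hz : ‖pos (z - y)‖ ≤ 3 / 2) (hz' : ‖pos (z' - y)‖ ≤ 3 / 2) (h1 : z ∈ domainSites D a)
    (h2 : z' ∉ domainSites D a) : ∃ p ∈ frontier D, ‖meshPoint a y - p‖ ≤ 3 / 2 * a := by
  obtain ⟨p, hp, hd⟩ := CD.exists_nearest h (meshPoint a y)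
  refine ⟨p, hp, ?_⟩
  rw [← Complex.dist_eq, hd]
  have e : ∀ w : ℤ × ℤ, ‖pos (w - y)‖ ≤ 3 / 2 → ‖meshPoint a w - meshPoint a y‖ ≤ 3 / 2 * a := by
    intro w hw
    rw [norm_meshPoint_sub ha]
    nlinarith
  by_cases hy : y ∈ domainSites D a
  · exact (dist_frontier_le hy h2).trans (e z' hz')
  · refine (dist_frontier_le' h1 hy).trans ?_
    rw [norm_sub_rev]
    exact e z hz

/-- a boundary site is near the frontier -/
theorem CD.near_of_bdS (h : CD D r M) {a : ℝ} (ha : 0 < a) {y : ℤ × ℤ}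
    (hy : y ∈ bdS (domainSites D a)) : ∃ p ∈ frontier D, ‖meshPoint a y - p‖ ≤ 3 / 2 * a := by
  obtain ⟨u, hyu, hu⟩ := hy
  have h0 : ‖pos (y - y)‖ ≤ 3 / 2 := by rw [sub_self, pos_eq]; simp; norm_num
  have h1 : ‖pos (u - y)‖ ≤ 3 / 2 := by
    apply norm_le_of_sq (by norm_num)
    rw [pos_re, pos_im]
    have hb : (((u - y).1 : ℤ) : ℝ) ^ 2 + (((u - y).2 : ℤ) : ℝ) ^ 2 ≤ 1 := by
      rcases hyu with ⟨e1, e2⟩ | ⟨e1, e2⟩
      · have : (u - y).2 = 0 := by rw [Prod.snd_sub, e1, sub_self]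
        rw [this, Prod.fst_sub]
        have : ((u.1 - y.1 : ℤ) : ℝ) ^ 2 = 1 := by
          rw [← sq_abs, ← Int.cast_abs, abs_sub_comm, e2]; norm_num
        rw [this]; norm_num
      · have : (u - y).1 = 0 := by rw [Prod.fst_sub, e1, sub_self]
        rw [this, Prod.snd_sub]
        have : ((u.2 - y.2 : ℤ) : ℝ) ^ 2 = 1 := by
          rw [← sq_abs, ← Int.cast_abs, abs_sub_comm, e2]; norm_num
        rw [this]; norm_num
    nlinarith
  rcases hu with ⟨a1, a2⟩ | ⟨a1, a2⟩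
  · exact CD.near_of_mixed h ha h0 h1 a1 a2
  · exact CD.near_of_mixed h ha h1 h0 a2 a1

end Dom

end Crest.Agent.R165.Flatx838
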