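import Crest.Agent.R165.KMap_892
import Crest.Agent.R165.ExpG_337

/-!
# Row 165 (S0250), block F: the renormalisation group flow of polymer gases (helper683)

`RG F V` : data of a flow (touching relations, slices, extracted constants, small sets, moved parts).
`RG.step` = TEXT G v2 / D12 : `Kh = conv_{S_k} K_k`, extraction
`A U = -c0 (Kh U) - ∑_{f ∈ U} mv U f (Kh U) + [U = {f}] ∑_{W ∋ f small} mv W f (Kh W)`,
`K_{k+1} = KK near_k near_{k+1} Kh (exp A - 1)`.

* `RG.supp` : activities stay supported in `Λ`;  `RG.memgr` : locality;  `RG.conn` : activities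
  live on `near_k`-connected sets; `RG.step_supp` : general support principle
* `RG.master` : `conv_{S_0+..+S_{n-1}} ZZ_0[K_0] = exp(E_n) * ZZ_n[K_n]`
* `RG.EE_master` : the same for the full expectation
-/

set_option autoImplicit false

noncomputable section

open Crest.Agent.R165.Gr0x606 Crest.Agent.R165.Evx653 Crest.Agent.R165.GrLocx337
  Crest.Agent.R165.ExpGx337 Crest.Agent.R165.KCompx892 Crest.Agent.R165.KStepx892
  Crest.Agent.R165.KMapx892

namespace Crest.Agent.R165.Flowx683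

variable {F : Type*} [DecidableEq F] {V : Type*} [AddCommGroup V] [Module ℝ V]

/-- data of a renormalisation group flow on the faces `F` with fields `V` -/
structure RG (F V : Type*) [DecidableEq F] [AddCommGroup V] [Module ℝ V] where
  /-- touching at scale `k` -/
  near : ℕ → F → F → Prop
  /-- the slice integrated at step `k` -/
  S : ℕ → Cov V
  /-- the extracted constant part (`algebraMap ∘ ctE` without sources) -/
  c0 : Ev V →ₗ[ℝ] Ev V
  /-- the sets from which something is moved to the face `f` at step `k` -/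
  sm : ℕ → F → Finset (Finset F)
  /-- `mv k U f a` = the part of the activity `a` of `U` which is moved to the face `f` -/
  mv : ℕ → Finset F → F → Ev V →ₗ[ℝ] Ev V

namespace RG

variable (g : RG F V)

/-- activities after convolution -/
def Kh (k : ℕ) (K : Finset F → Ev V) (U : Finset F) : Ev V := convE (g.S k) (K U)

/-- the parts moved to the face `f` -/
def inn (k : ℕ) (Kh : Finset F → Ev V) (f : F) : Ev V := ∑ W ∈ g.sm k f, g.mv k W f (Kh W)

/-- the extraction (exponent) -/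
def A (k : ℕ) (Kh : Finset F → Ev V) (U : Finset F) : Ev V :=
  -g.c0 (Kh U) - ∑ f ∈ U, g.mv k U f (Kh U) + ∑ f ∈ U, if U = {f} then g.inn k Kh f else 0

/-- the factor `exp A - 1` -/
def B (k : ℕ) (Kh : Finset F → Ev V) (U : Finset F) : Ev V := gexp (g.A k Kh U) - 1

/-- one step -/
def step (k : ℕ) (K : Finset F → Ev V) : Finset F → Ev V :=
  KK (g.near k) (g.near (k + 1)) (g.Kh k K) (g.B k (g.Kh k K))

/-- the activities at scale `k` -/
def act (K0 : Finset F → Ev V) : ℕ → Finset F → Ev V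
  | 0 => K0
  | k + 1 => g.step k (act K0 k)

@[simp] theorem act_zero (K0 : Finset F → Ev V) : g.act K0 0 = K0 := rfl

theorem act_succ (K0 : Finset F → Ev V) (k : ℕ) : g.act K0 (k + 1) = g.step k (g.act K0 k) := rfl

/-- the extracted constants up to scale `n` -/
def E (K0 : Finset F → Ev V) (Λ : Finset F) (n : ℕ) : Ev V :=
  ∑ k ∈ Finset.range n, ∑ U ∈ nes Λ, g.c0 (g.Kh k (g.act K0 k) U)

/-- the slices integrated before scale `n` -/
def St (n : ℕ) : Cov V := ∑ k ∈ Finset.range n, g.S k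

theorem A_singleton (k : ℕ) (Kh : Finset F → Ev V) (f : F) :
    g.A k Kh {f} = -g.c0 (Kh {f}) - g.mv k {f} f (Kh {f}) + g.inn k Kh f := by
  unfold A
  rw [Finset.sum_singleton, Finset.sum_singleton, if_pos rfl]

theorem A_of_ne (k : ℕ) (Kh : Finset F → Ev V) (U : Finset F) (h : ∀ f, U ≠ {f}) :
    g.A k Kh U = -g.c0 (Kh U) - ∑ f ∈ U, g.mv k U f (Kh U) := by
  unfold A
  rw [Finset.sum_eq_zero (fun f _ => if_neg (h f)), add_zero]

/-- structural hypotheses.  `fld U` = the space of the fields on which activities of `U` depend,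
`W0` = the space of the source generators -/
structure Ok (fld : Finset F → Submodule ℝ V) (W0 : Submodule ℝ V) : Prop where
  symm : ∀ k a b, g.near k a b → g.near k b a
  refl : ∀ k a, g.near k a a
  mono : ∀ k a b, g.near k a b → g.near (k + 1) a b
  fld_mono : ∀ U W : Finset F, U ⊆ W → fld U ≤ fld W
  far : ∀ k (U W : Finset F), ¬ touch (g.near k) U W → ∀ x ∈ fld U, ∀ y ∈ fld W,
    (g.S k).b x y = 0
  sm_mem : ∀ k f, ∀ W ∈ g.sm k f, f ∈ W
  sm_mv : ∀ k f W, f ∈ W → W ∉ g.sm k f → g.mv k W f = 0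
  mv_gr : ∀ k W f a, ((g.mv k W f a : Ev V) : Gr V) ∈ gr (fld {f})
  c0_gr : ∀ U (a : Ev V), (a : Gr V) ∈ gr (fld U) → ((g.c0 a : Ev V) : Gr V) ∈ gr (fld U)
  c0_gr0 : ∀ a : Ev V, ((g.c0 a : Ev V) : Gr V) ∈ gr W0
  S_W0 : ∀ k, ∀ x ∈ W0, ∀ y, (g.S k).b x y = 0

variable {g}

/-! ### supports, locality, connectedness -/

theorem Kh_zero {k : ℕ} {K : Finset F → Ev V} {U : Finset F} (h : K U = 0) : g.Kh k K U = 0 := by
  rw [Kh, h, map_zero]

section ok

variable {fld : Finset F → Submodule ℝ V} {W0 : Submodule ℝ V}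

/-- a nonzero extraction comes from a nonzero activity, up to moving to a face of its support -/
theorem A_ne_zero {k : ℕ} {Kh : Finset F → Ev V} {U : Finset F} (h : g.A k Kh U ≠ 0) :
    Kh U ≠ 0 ∨ ∃ f, U = {f} ∧ ∃ W ∈ g.sm k f, Kh W ≠ 0 := by
  by_contra hc
  push Not at hc
  obtain ⟨h1, h2⟩ := hc
  apply h
  unfold A
  rw [h1]
  simp only [map_zero, neg_zero, Finset.sum_const_zero, sub_zero, zero_add]
  refine Finset.sum_eq_zero fun f _ => ?_
  split_ifs with hU
  · unfold inn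
    exact Finset.sum_eq_zero fun W hW => by rw [h2 f hU W hW, map_zero]
  · rfl

theorem B_ne_zero {k : ℕ} {Kh : Finset F → Ev V} {U : Finset F} (h : g.B k Kh U ≠ 0) :
    g.A k Kh U ≠ 0 := by
  intro hA
  apply h
  rw [B, hA, gexp_zero, sub_self]

open Classical in
/-- **general invariance principle** for supports: if `P k` holds for the sets with nonzero activity
then the same is true at scale `k+1` for `P'` -/
theorem step_supp (hg : g.Ok fld W0) {k : ℕ} {K : Finset F → Ev V} {P P' : Finset F → Prop}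
    (hK : ∀ U, K U ≠ 0 → P U) (hsing : ∀ f W, P W → f ∈ W → P' {f}) (hP : ∀ U, P U → P' U)
    (hun : ∀ T : Finset (Finset F ⊕ Finset F), Conn (itr (g.near (k + 1))) T →
      (∀ t ∈ T, (sp t).Nonempty ∧ P' (sp t)) → P' (spp T)) :
    ∀ U, g.step k K U ≠ 0 → P' U := by
  intro U hU
  unfold step at hU
  obtain ⟨T, hT, hw⟩ := Finset.exists_ne_zero_of_sum_ne_zero hU
  rw [Finset.mem_filter, Finset.mem_powerset] at hT
  obtain ⟨hT1, hT2, hT3⟩ := hT
  rw [← hT3]
  have hh : ∀ U, g.Kh k K U ≠ 0 → P U := fun U hU => hK U fun h => hU (Kh_zero h)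
  refine hun T hT2 fun t ht => ?_
  have hne := (mem_itm.1 (hT1 ht)).2
  refine ⟨hne, ?_⟩
  unfold wt at hw
  split_ifs at hw with hg'
  · have ht0 : Sum.elim (g.Kh k K) (g.B k (g.Kh k K)) t ≠ 0 := by
      intro h0
      exact hw (Finset.prod_eq_zero ht h0)
    rcases t with U' | U'
    · exact hP _ (hh _ ht0)
    · rcases A_ne_zero (B_ne_zero ht0) with h | ⟨f, hf, W, hW, hWK⟩
      · exact hP _ (hh _ h)
      · rw [sp_inr, hf]
        exact hsing f W (hh _ hWK) (hg.sm_mem k f W hW)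
  · exact absurd rfl hw

theorem supp (hg : g.Ok fld W0) {K0 : Finset F → Ev V} {Λ : Finset F}
    (h0 : ∀ U, K0 U ≠ 0 → U ⊆ Λ) : ∀ k U, g.act K0 k U ≠ 0 → U ⊆ Λ := by
  intro k
  induction k with
  | zero => exact h0
  | succ k ih =>
    rw [act_succ]
    refine step_supp hg ih ?_ (fun U h => h) ?_
    · intro f W hW hf
      exact Finset.singleton_subset_iff.2 (hW hf)
    · intro T _ hT x hx
      obtain ⟨t, ht, hxt⟩ := mem_spp.1 hx
      exact (hT t ht).2 hxt

theorem act_empty (hg : g.Ok fld W0) {K0 : Finset F → Ev V} (h0 : K0 ∅ = 0) :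
    ∀ k, g.act K0 k ∅ = 0 := by
  intro k
  cases k with
  | zero => exact h0
  | succ k => rw [act_succ, step, KK_empty]

theorem A_mem (hg : g.Ok fld W0) {k : ℕ} {Kh : Finset F → Ev V}
    (h : ∀ U, ((Kh U : Ev V) : Gr V) ∈ gr (fld U)) (U : Finset F) :
    ((g.A k Kh U : Ev V) : Gr V) ∈ gr (fld U) := by
  unfold A
  rw [coe_add, coe_sub, coe_neg, coe_sum, coe_sum]
  refine add_mem (sub_mem (neg_mem (hg.c0_gr U _ (h U))) (sum_mem fun f hf => ?_))
    (sum_mem fun f hf => ?_)
  · exact gr_mono (hg.fld_mono _ _ (Finset.singleton_subset_iff.2 hf)) (hg.mv_gr k U f _)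
  · split_ifs with hU
    · unfold inn
      rw [coe_sum]
      exact sum_mem fun W _ =>
        gr_mono (hg.fld_mono _ _ (Finset.singleton_subset_iff.2 hf)) (hg.mv_gr k W f _)
    · exact Subalgebra.zero_mem _

/-- coercion of a product of even elements -/
theorem coe_prod {ι : Type*} (s : Finset ι) (f : ι → Ev V) {A : Subalgebra ℝ (Gr V)}
    (h : ∀ i ∈ s, ((f i : Ev V) : Gr V) ∈ A) : ((∏ i ∈ s, f i : Ev V) : Gr V) ∈ A := by
  classical
  induction s using Finset.induction_on with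
  | empty => rw [Finset.prod_empty, coe_one]; exact Subalgebra.one_mem _
  | insert i s hi ih =>
    rw [Finset.prod_insert hi, coe_mul]
    exact Subalgebra.mul_mem _ (h i (Finset.mem_insert_self _ _))
      (ih fun j hj => h j (Finset.mem_insert_of_mem hj))

theorem KK_mem {near near' : F → F → Prop} (hfld : ∀ U W : Finset F, U ⊆ W → fld U ≤ fld W)
    {K B : Finset F → Ev V} (hK : ∀ U, ((K U : Ev V) : Gr V) ∈ gr (fld U))
    (hB : ∀ U, ((B U : Ev V) : Gr V) ∈ gr (fld U)) (W : Finset F) :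
    ((KK near near' K B W : Ev V) : Gr V) ∈ gr (fld W) := by
  classical
  unfold KK
  rw [coe_sum]
  refine sum_mem fun T hT => ?_
  rw [Finset.mem_filter, Finset.mem_powerset] at hT
  unfold wt
  split_ifs with hg
  · refine coe_prod _ _ fun t ht => ?_
    have hs := (mem_itm.1 (hT.1 ht)).1
    rcases t with U | U
    · exact gr_mono (hfld _ _ hs) (hK U)
    · exact gr_mono (hfld _ _ hs) (hB U)
  · exact Subalgebra.zero_mem _

theorem memgr (hg : g.Ok fld W0) {K0 : Finset F → Ev V}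
    (h0 : ∀ U, ((K0 U : Ev V) : Gr V) ∈ gr (fld U)) :
    ∀ k U, ((g.act K0 k U : Ev V) : Gr V) ∈ gr (fld U) := by
  intro k
  induction k with
  | zero => exact h0
  | succ k ih =>
    intro U
    rw [act_succ]
    have hh : ∀ U, ((g.Kh k (g.act K0 k) U : Ev V) : Gr V) ∈ gr (fld U) := fun U => by
      rw [Kh, coe_convE]
      exact conv_mem_gr _ (ih U)
    refine KK_mem hg.fld_mono hh (fun W => ?_) U
    rw [B, coe_sub, coe_one]
    exact sub_mem (gexp_mem (A_mem hg hh W)) (Subalgebra.one_mem _)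

theorem conn_mono {near near' : F → F → Prop} (h : ∀ a b, near a b → near' a b) {U : Finset F}
    (hU : Conn near U) : Conn near' U :=
  ⟨hU.1, fun A hA hne hn => hU.2 A hA hne fun a ha b hb hab => hn a ha b hb (h a b hab)⟩

theorem conn_spp {near : F → F → Prop} {T : Finset (Finset F ⊕ Finset F)}
    (hT : Conn (itr near) T) (h : ∀ t ∈ T, Conn near (sp t)) : Conn near (spp T) := by
  classical
  constructor
  · obtain ⟨t, ht⟩ := hT.1
    obtain ⟨x, hx⟩ := (h t ht).1
    exact ⟨x, mem_spp.2 ⟨t, ht, hx⟩⟩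
  · intro A hA hne hn
    have key : ∀ t ∈ T, (∃ x ∈ sp t, x ∈ A) → sp t ⊆ A := by
      rintro t ht ⟨x, hx, hxA⟩
      have := (h t ht).2 (sp t ∩ A) Finset.inter_subset_left
        ⟨x, Finset.mem_inter.2 ⟨hx, hxA⟩⟩ (fun a ha b hb => by
          rw [Finset.mem_inter] at ha
          rw [Finset.mem_sdiff, Finset.mem_inter, not_and] at hb
          exact hn a ha.2 b (Finset.mem_sdiff.2 ⟨mem_spp.2 ⟨t, ht, hb.1⟩, hb.2 hb.1⟩))
      exact fun y hy => (Finset.mem_inter.1 (this ▸ hy)).2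
    have hT1 : T.filter (fun t => sp t ⊆ A) = T := by
      refine hT.2 _ (Finset.filter_subset _ _) ?_ ?_
      · obtain ⟨x, hx⟩ := hne
        obtain ⟨t, ht, hxt⟩ := mem_spp.1 (hA hx)
        exact ⟨t, Finset.mem_filter.2 ⟨ht, key t ht ⟨x, hxt, hx⟩⟩⟩
      · intro t ht t' ht' htt
        rw [Finset.mem_filter] at ht
        rw [Finset.mem_sdiff, Finset.mem_filter, not_and] at ht'
        obtain ⟨u, hu, w, hw, huw⟩ := htt
        have hwA : w ∉ A := fun hwA => ht'.2 ht'.1 (key t' ht'.1 ⟨w, hw, hwA⟩)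
        exact hn u (ht.2 hu) w (Finset.mem_sdiff.2 ⟨mem_spp.2 ⟨t', ht'.1, hw⟩, hwA⟩) huw
    refine Finset.Subset.antisymm hA fun x hx => ?_
    obtain ⟨t, ht, hxt⟩ := mem_spp.1 hx
    rw [← hT1] at ht
    exact (Finset.mem_filter.1 ht).2 hxt

/-- activities live on connected sets -/
theorem conn (hg : g.Ok fld W0) {K0 : Finset F → Ev V}
    (h0 : ∀ U, K0 U ≠ 0 → Conn (g.near 0) U) :
    ∀ k U, g.act K0 k U ≠ 0 → Conn (g.near k) U := by
  intro k
  induction k with
  | zero => exact h0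
  | succ k ih =>
    rw [act_succ]
    refine step_supp hg ih ?_ (fun U h => conn_mono (hg.mono k) h) ?_
    · intro f _ _ _
      exact conn_singleton _ f
    · intro T hT h
      exact conn_spp hT fun t ht => (h t ht).2

/-! ### convolution factorises over far families -/

theorem dd_gr_zero {W : Submodule ℝ V} (l : Module.Dual ℝ V) (h : ∀ y ∈ W, l y = 0) {b : Gr V}
    (hb : b ∈ gr W) : dd l b = 0 := by
  refine gr_ind (P := fun b => dd l b = 0) ?_ ?_ ?_ hb
  · intro r; exact dd_algebraMap _ _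
  · intro y hy b _ ihb
    show dd l (fi y * b) = 0
    rw [dd_fi_mul, h y hy, zero_smul, ihb, mul_zero, sub_zero]
  · intro b _ c _ ihb ihc
    show dd l (b + c) = 0
    rw [map_add, ihb, ihc, add_zero]

/-- convolution of a product of two local elements which are far apart -/
theorem conv_mul_far (S : Cov V) {W1 W2 : Submodule ℝ V} (h : ∀ x ∈ W1, ∀ y ∈ W2, S.b x y = 0)
    {a b : Gr V} (ha : a ∈ gr W1) (hb : b ∈ gr W2) : conv S (a * b) = conv S a * conv S b := by
  refine gr_ind (P := fun a => conv S (a * b) = conv S a * conv S b) ?_ ?_ ?_ ha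
  · intro r
    show conv S (algebraMap ℝ _ r * b) = conv S (algebraMap ℝ _ r) * conv S b
    rw [conv_algebraMap, ← Algebra.smul_def, map_smul, Algebra.smul_def]
  · intro x hx a _ ih
    show conv S (fi x * a * b) = conv S (fi x * a) * conv S b
    have hcb : dd (S.b x) (conv S b) = 0 := by
      rw [← conv_dd, dd_gr_zero _ (fun y hy => h x hx y hy) hb, map_zero]
    rw [mul_assoc, conv_fi_mul, ih, conv_fi_mul, add_mul, mul_assoc, dd_mul, hcb, mul_zero,
      add_zero]
  · intro a _ c _ iha ihc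
    show conv S ((a + c) * b) = conv S (a + c) * conv S b
    rw [add_mul, map_add, map_add, iha, ihc, add_mul]

theorem convE_mul_far (S : Cov V) {W1 W2 : Submodule ℝ V} (h : ∀ x ∈ W1, ∀ y ∈ W2, S.b x y = 0)
    {a b : Ev V} (ha : (a : Gr V) ∈ gr W1) (hb : (b : Gr V) ∈ gr W2) :
    convE S (a * b) = convE S a * convE S b :=
  ev_ext (by rw [coe_convE, coe_mul, coe_mul, coe_convE, coe_convE]; exact conv_mul_far S h ha hb)

/-- elements on which the covariance vanishes are constants for the convolution -/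
theorem convE_mul_const (S : Cov V) {W : Submodule ℝ V} (h : ∀ x ∈ W, ∀ y, S.b x y = 0)
    {a : Ev V} (ha : (a : Gr V) ∈ gr W) (b : Ev V) : convE S (a * b) = a * convE S b := by
  have hb : (b : Gr V) ∈ gr (⊤ : Submodule ℝ V) := by
    refine Gr.induction (P := fun b => b ∈ gr (⊤ : Submodule ℝ V)) ?_ ?_ ?_ (b : Gr V)
    · intro r; exact Subalgebra.algebraMap_mem _ _
    · intro x a ih; exact mul_mem (fi_mem_gr trivial) ih
    · intro a c iha ihc; exact add_mem iha ihc
  rw [convE_mul_far S (fun x hx y _ => h x hx y) ha hb]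
  congr 1
  apply ev_ext
  rw [coe_convE, conv_congr (T := 0) (W := W) (fun x hx y _ => by rw [h x hx y]; rfl) ha,
    conv_zero]

/-- factorisation of the convolution over separated families -/
theorem conv_prod_sep (hg : g.Ok fld W0) {k : ℕ} {K : Finset F → Ev V}
    (hK : ∀ U, ((K U : Ev V) : Gr V) ∈ gr (fld U)) (P : Finset (Finset F))
    (hP : Sep (g.near k) P) :
    convE (g.S k) (∏ U ∈ P, K U) = ∏ U ∈ P, g.Kh k K U := by
  classical
  have h := fac_of_pair (near := g.near k) (Λ := P.biUnion id) (R := Ev V) (R' := Ev V)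
    (convE (g.S k)).toAddMonoidHom (K := K)
    (fun U => {a : Ev V | ((a : Ev V) : Gr V) ∈ gr (fld U)})
    (by show ((1 : Ev V) : Gr V) ∈ gr (fld ∅); rw [coe_one]; exact Subalgebra.one_mem _)
    (by show convE (g.S k) (1 : Ev V) = 1; exact convE_one _)
    (fun U W a ha b hb => by
      show ((a * b : Ev V) : Gr V) ∈ gr (fld (U ∪ W))
      rw [coe_mul]
      exact mul_mem (gr_mono (hg.fld_mono _ _ Finset.subset_union_left) ha)
        (gr_mono (hg.fld_mono _ _ Finset.subset_union_right) hb))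
    (fun U W hUW a ha b hb => convE_mul_far _ (hg.far k U W hUW) ha hb)
    (fun U _ _ => hK U) P (fun U hU x hx => Finset.mem_biUnion.2 ⟨U, hU, hx⟩) hP
  exact h.1

/-! ### the extraction is a constant -/

theorem sum_A (hg : g.Ok fld W0) {k : ℕ} {Kh : Finset F → Ev V} {Λ : Finset F}
    (h0 : ∀ U, Kh U ≠ 0 → U ⊆ Λ) :
    ∑ U ∈ nes Λ, g.A k Kh U = -∑ U ∈ nes Λ, g.c0 (Kh U) := by
  classical
  unfold A
  rw [Finset.sum_add_distrib, Finset.sum_sub_distrib, Finset.sum_neg_distrib]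
  -- the moved parts cancel
  have h1 : ∑ U ∈ nes Λ, ∑ f ∈ U, g.mv k U f (Kh U)
      = ∑ f ∈ Λ, ∑ U ∈ (nes Λ).filter (fun U => f ∈ U), g.mv k U f (Kh U) := by
    rw [Finset.sum_sigma', Finset.sum_sigma']
    refine Finset.sum_bij' (fun p _ => (⟨p.2, p.1⟩ : (_ : F) × Finset F))
      (fun p _ => (⟨p.2, p.1⟩ : (_ : Finset F) × F)) ?_ ?_ ?_ ?_ ?_
    · rintro ⟨U, f⟩ hp
      rw [Finset.mem_sigma] at hp ⊢
      have := mem_nes.1 hp.1
      exact ⟨this.1 hp.2, Finset.mem_filter.2 ⟨hp.1, hp.2⟩⟩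
    · rintro ⟨f, U⟩ hp
      rw [Finset.mem_sigma, Finset.mem_filter] at hp
      exact Finset.mem_sigma.2 ⟨hp.2.1, hp.2.2⟩
    · rintro ⟨U, f⟩ _; rfl
    · rintro ⟨f, U⟩ _; rfl
    · rintro ⟨U, f⟩ _; rfl
  have h2 : ∑ U ∈ nes Λ, ∑ f ∈ U, (if U = {f} then g.inn k Kh f else 0)
      = ∑ f ∈ Λ, g.inn k Kh f := by
    rw [Finset.sum_sigma']
    rw [← Finset.sum_filter_add_sum_filter_not ((nes Λ).sigma fun U => U)
      (fun p : (_ : Finset F) × F => p.1 = {p.2})]
    rw [Finset.sum_eq_zero (s := ((nes Λ).sigma fun U => U).filter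
      (fun p : (_ : Finset F) × F => ¬ p.1 = {p.2}))
      (fun p hp => if_neg (Finset.mem_filter.1 hp).2), add_zero]
    refine Finset.sum_bij' (fun p _ => p.2) (fun f _ => (⟨{f}, f⟩ : (_ : Finset F) × F))
      ?_ ?_ ?_ ?_ ?_
    · rintro ⟨U, f⟩ hp
      rw [Finset.mem_filter, Finset.mem_sigma] at hp
      exact (mem_nes.1 hp.1.1).1 hp.1.2
    · intro f hf
      rw [Finset.mem_filter, Finset.mem_sigma]
      exact ⟨⟨mem_nes.2 ⟨Finset.singleton_subset_iff.2 hf, Finset.singleton_nonempty f⟩,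
        Finset.mem_singleton_self f⟩, rfl⟩
    · rintro ⟨U, f⟩ hp
      rw [Finset.mem_filter] at hp
      have h3 : U = {f} := hp.2
      subst h3
      rfl
    · intro f _; rfl
    · rintro ⟨U, f⟩ hp
      rw [Finset.mem_filter] at hp
      rw [if_pos hp.2]
  have h3 : ∀ f ∈ Λ, ∑ U ∈ (nes Λ).filter (fun U => f ∈ U), g.mv k U f (Kh U)
      = g.inn k Kh f := by
    intro f _
    unfold inn
    have e1 : ∑ U ∈ (nes Λ).filter (fun U => f ∈ U), g.mv k U f (Kh U)
        = ∑ U ∈ ((nes Λ).filter (fun U => f ∈ U)).filter (fun U => U ∈ g.sm k f),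
            g.mv k U f (Kh U) := by
      symm
      apply Finset.sum_filter_of_ne
      intro U hU hne
      by_contra hnot
      apply hne
      rw [hg.sm_mv k f U (Finset.mem_filter.1 hU).2 hnot]
      rfl
    have e2 : ∑ W ∈ g.sm k f, g.mv k W f (Kh W)
        = ∑ W ∈ (g.sm k f).filter (fun W => W ⊆ Λ), g.mv k W f (Kh W) := by
      symm
      apply Finset.sum_filter_of_ne
      intro W _ hne
      apply h0
      intro h
      exact hne (by rw [h, map_zero])
    rw [e1, e2]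
    refine Finset.sum_congr ?_ fun _ _ => rfl
    ext U
    simp only [Finset.mem_filter, mem_nes]
    constructor
    · rintro ⟨⟨⟨h1, h2⟩, h3⟩, h4⟩; exact ⟨h4, h1⟩
    · rintro ⟨h4, h1⟩
      have hf := hg.sm_mem k f U h4
      exact ⟨⟨⟨h1, ⟨f, hf⟩⟩, hf⟩, h4⟩
  rw [h1, h2, Finset.sum_congr rfl h3]
  ring

theorem prod_B (hg : g.Ok fld W0) {k : ℕ} {Kh : Finset F → Ev V} {Λ : Finset F}
    (h0 : ∀ U, Kh U ≠ 0 → U ⊆ Λ) :
    ∏ U ∈ nes Λ, (1 + g.B k Kh U) = gexp (-∑ U ∈ nes Λ, g.c0 (Kh U)) := by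
  rw [← sum_A hg h0, gexp_sum]
  refine Finset.prod_congr rfl fun U _ => ?_
  rw [B]; ring

/-- **one exact renormalisation step** -/
theorem step_identity (hg : g.Ok fld W0) {k : ℕ} {K : Finset F → Ev V} {Λ : Finset F}
    (hK : ∀ U, ((K U : Ev V) : Gr V) ∈ gr (fld U)) (h0 : ∀ U, K U ≠ 0 → U ⊆ Λ) :
    convE (g.S k) (ZZ (g.near k) Λ K) =
      gexp (∑ U ∈ nes Λ, g.c0 (g.Kh k K U)) * ZZ (g.near (k + 1)) Λ (g.step k K) := by
  refine rg_step (near := g.near k) (near' := g.near (k + 1)) (R := Ev V) (R' := Ev V)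
    (hg.mono k) (hg.symm (k + 1)) (hg.refl (k + 1)) (convE (g.S k)).toAddMonoidHom
    (K := K) (K' := g.Kh k K) (B := g.B k (g.Kh k K)) (d := gexp (-∑ U ∈ nes Λ, g.c0 (g.Kh k K U)))
    (fun P _ hP => conv_prod_sep hg hK P hP) (gexp_mul_neg _) ?_
  exact prod_B hg fun U hU => h0 U fun h => hU (Kh_zero h)

theorem c0_sum_mem (hg : g.Ok fld W0) (K0 : Finset F → Ev V) (Λ : Finset F) (n : ℕ) :
    ((g.E K0 Λ n : Ev V) : Gr V) ∈ gr W0 := by
  unfold E
  rw [coe_sum]
  refine sum_mem fun k _ => ?_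
  rw [coe_sum]
  exact sum_mem fun U _ => hg.c0_gr0 _

theorem E_succ (K0 : Finset F → Ev V) (Λ : Finset F) (n : ℕ) :
    g.E K0 Λ (n + 1) = g.E K0 Λ n + ∑ U ∈ nes Λ, g.c0 (g.Kh n (g.act K0 n) U) := by
  unfold E
  rw [Finset.sum_range_succ]

theorem St_succ (n : ℕ) : g.St (n + 1) = g.St n + g.S n := by
  unfold St
  rw [Finset.sum_range_succ]

/-- **the flow identity** -/
theorem master (hg : g.Ok fld W0) {K0 : Finset F → Ev V} {Λ : Finset F}
    (hK : ∀ U, ((K0 U : Ev V) : Gr V) ∈ gr (fld U)) (h0 : ∀ U, K0 U ≠ 0 → U ⊆ Λ) (n : ℕ) :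
    convE (g.St n) (ZZ (g.near 0) Λ K0) =
      gexp (g.E K0 Λ n) * ZZ (g.near n) Λ (g.act K0 n) := by
  induction n with
  | zero =>
    have h1 : g.E K0 Λ 0 = 0 := by simp [E]
    have h2 : g.St 0 = 0 := by simp [St]
    rw [h1, gexp_zero, one_mul, act_zero, h2]
    apply ev_ext
    rw [coe_convE, conv_zero]
  | succ n ih =>
    rw [St_succ, add_comm (g.St n), ← convE_conv, ih,
      convE_mul_const (g.S n) (hg.S_W0 n) (gexp_mem (c0_sum_mem hg K0 Λ n)),
      step_identity hg (memgr hg hK n) (supp hg h0 n), ← mul_assoc, ← gexp_add, E_succ]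
    rfl

/-- **the flow identity for the expectation** with respect to a covariance `St n + R` -/
theorem EE_master (hg : g.Ok fld W0) {K0 : Finset F → Ev V} {Λ : Finset F}
    (hK : ∀ U, ((K0 U : Ev V) : Gr V) ∈ gr (fld U)) (h0 : ∀ U, K0 U ≠ 0 → U ⊆ Λ) (n : ℕ)
    (R : Cov V) :
    EEE (R + g.St n) (ZZ (g.near 0) Λ K0) =
      EEE R (gexp (g.E K0 Λ n) * ZZ (g.near n) Λ (g.act K0 n)) := by
  rw [← master hg hK h0 n, EEE_apply, EEE_apply, coe_convE, EE_conv]

end ok

end RG

end Crest.Agent.R165.Flowx683
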