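import Crest.Agent.R165.J2b_606

/-!
# Row 165 (S0250), leaf FREE TRANSFER, part 1 (helper802): the free / plus duality with spins

Kramers–Wannier duality at the level of the half-edge operator, with spin insertions.  Primal
background: weights `s z * y z 0` on the horizontal bonds, `y z 1` on the vertical bonds
(`s = ±1` arbitrary: in the ray gauge `s z = -1` to the right of the insertions).
Blocks of the dual system are the primal sites `v`, the dual vertex `v` is the lower left corner of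
the block `v`.

* `wd y s` : dual background, weights `(1-y)/(1+y)`, the same signs;
* `du y s φ` : dual field;
* `Aop_du` : `Aop (wd y s) (du y s φ)` in terms of `Aop (wp y s) φ`; at the sites where the sign of
  the horizontal bonds changes ONE corner relation (south-west) is flipped;
* `inv_S` ... : inversion, `nsq_hor`, `nsq_ver` : norms.
-/

set_option autoImplicit false

noncomputable section

namespace Crest.Agent.R165.Fr1x802

open Crest.Agent.R165.J1ax606 (HE EG)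
open Crest.Agent.R165.J2ax606 (bar ed sg a4)

/-- signed weights of the primal bonds `(z, j) = {z, z + e_j}` (as in `Lat_683`) -/
abbrev BW : Type := ℤ × ℤ → Fin 2 → ℝ

/-- the weights as a function on edges (as in `J2a_606`) -/
def cw (w : BW) : EG ℤ → ℝ := fun e => w e.1 e.2

/-- the half-edge operator of `J2a_606` -/
def Aop (w : BW) (φ : HE ℤ → ℝ) (h : HE ℤ) : ℝ := J2ax606.Aop (cw w) φ h

/-- weight of the vertical bond between the faces `f` and `f + e₁` -/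
def yE (w : BW) (f : ℤ × ℤ) : ℝ := w (f.1 + 1, f.2) 1

/-- weight of the horizontal bond between the faces `f` and `f + e₂` -/
def yN (w : BW) (f : ℤ × ℤ) : ℝ := w (f.1, f.2 + 1) 0

theorem Aop_S (w : BW) (φ : HE ℤ → ℝ) (f : ℤ × ℤ) : Aop w φ (f, 0) =
    φ (f, 1) + φ (f, 2) + φ (f, 3) + yN w (f.1, f.2 - 1) * φ ((f.1, f.2 - 1), 2) := by
  have e : f - (0, 1) = (f.1, f.2 - 1) := by ext <;> simp
  simp [Aop, J2ax606.Aop, Fin.sum_univ_four, a4, bar, ed, sg, cw, yN, e]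

theorem Aop_E (w : BW) (φ : HE ℤ → ℝ) (f : ℤ × ℤ) : Aop w φ (f, 1) =
    -φ (f, 0) + φ (f, 2) + φ (f, 3) + yE w f * φ ((f.1 + 1, f.2), 3) := by
  have e : f + (1, 0) = (f.1 + 1, f.2) := by ext <;> simp
  simp [Aop, J2ax606.Aop, Fin.sum_univ_four, a4, bar, ed, sg, cw, yE, e]

theorem Aop_N (w : BW) (φ : HE ℤ → ℝ) (f : ℤ × ℤ) : Aop w φ (f, 2) =
    -φ (f, 0) - φ (f, 1) + φ (f, 3) - yN w f * φ ((f.1, f.2 + 1), 0) := by
  have e : f + (0, 1) = (f.1, f.2 + 1) := by ext <;> simp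
  simp [Aop, J2ax606.Aop, Fin.sum_univ_four, a4, bar, ed, sg, cw, yN, e]
  ring

theorem Aop_W (w : BW) (φ : HE ℤ → ℝ) (f : ℤ × ℤ) : Aop w φ (f, 3) =
    -φ (f, 0) - φ (f, 1) - φ (f, 2) - yE w (f.1 - 1, f.2) * φ ((f.1 - 1, f.2), 1) := by
  have e : f - (1, 0) = (f.1 - 1, f.2) := by ext <;> simp
  simp [Aop, J2ax606.Aop, Fin.sum_univ_four, a4, bar, ed, sg, cw, yE, e]
  ring

/-- primal background: signs on the horizontal bonds -/
def wp (y : BW) (s : ℤ × ℤ → ℝ) : BW := fun z j => if j = 0 then s z * y z 0 else y z 1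

/-- dual weight -/
def st (t : ℝ) : ℝ := (1 - t) / (1 + t)

/-- dual moduli (bonds indexed in the dual system: the block `v` of the dual system is the
primal site `v`, its lower left corner is the dual vertex `v`) -/
def ys (y : BW) : BW := fun z j => if j = 0 then st (y (z.1, z.2 - 1) 1) else st (y (z.1 - 1, z.2) 0)

/-- dual background: the same signs -/
def wd (y : BW) (s : ℤ × ℤ → ℝ) : BW := wp (ys y) s

/-- dual field -/
def du (y : BW) (s : ℤ × ℤ → ℝ) (φ : HE ℤ → ℝ) : HE ℤ → ℝ := fun h =>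
  let v := h.1
  match h.2 with
  | 0 => -(s v * ((1 + y (v.1, v.2 - 1) 1) / 2) *
      (φ ((v.1 - 1, v.2 - 1), 1) + φ ((v.1, v.2 - 1), 3)))
  | 1 => ((1 + y v 0) / 2) * (φ (v, 0) - s v * φ ((v.1, v.2 - 1), 2))
  | 2 => -(((1 + y v 1) / 2) * (φ (v, 3) - φ ((v.1 - 1, v.2), 1)))
  | 3 => ((1 + y (v.1 - 1, v.2) 0) / 2) *
      (s (v.1 - 1, v.2) * φ ((v.1 - 1, v.2 - 1), 2) + φ ((v.1 - 1, v.2), 0))

section eqs
variable (y : BW) (s : ℤ × ℤ → ℝ) (φ : HE ℤ → ℝ) (v : ℤ × ℤ)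

theorem du_S : du y s φ (v, 0) = -(s v * ((1 + y (v.1, v.2 - 1) 1) / 2) *
      (φ ((v.1 - 1, v.2 - 1), 1) + φ ((v.1, v.2 - 1), 3))) := rfl
theorem du_E : du y s φ (v, 1) = ((1 + y v 0) / 2) * (φ (v, 0) - s v * φ ((v.1, v.2 - 1), 2)) := rfl
theorem du_N : du y s φ (v, 2) = -(((1 + y v 1) / 2) * (φ (v, 3) - φ ((v.1 - 1, v.2), 1))) := rfl
theorem du_W : du y s φ (v, 3) = ((1 + y (v.1 - 1, v.2) 0) / 2) *
      (s (v.1 - 1, v.2) * φ ((v.1 - 1, v.2 - 1), 2) + φ ((v.1 - 1, v.2), 0)) := rfl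

theorem yE_wp (f : ℤ × ℤ) : yE (wp y s) f = y (f.1 + 1, f.2) 1 := by simp [yE, wp]
theorem yN_wp (f : ℤ × ℤ) : yN (wp y s) f = s (f.1, f.2 + 1) * y (f.1, f.2 + 1) 0 := by
  simp [yN, wp]
theorem yE_wd (f : ℤ × ℤ) : yE (wd y s) f = st (y f 0) := by simp [yE, wd, wp, ys]
theorem yN_wd (f : ℤ × ℤ) : yN (wd y s) f = s (f.1, f.2 + 1) * st (y f 1) := by
  simp [yN, wd, wp, ys]

end eqs

/-- the four corner residues of the dual block `v`, from `g = A φ` -/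
def r1 (g : HE ℤ → ℝ) (v : ℤ × ℤ) : ℝ := g (v, 0) + g (v, 3)
def r2 (g : HE ℤ → ℝ) (v : ℤ × ℤ) : ℝ := g ((v.1 - 1, v.2), 0) - g ((v.1 - 1, v.2), 1)
def r3 (g : HE ℤ → ℝ) (v : ℤ × ℤ) : ℝ := g ((v.1 - 1, v.2 - 1), 1) - g ((v.1 - 1, v.2 - 1), 2)
def r4 (g : HE ℤ → ℝ) (v : ℤ × ℤ) : ℝ := g ((v.1, v.2 - 1), 2) - g ((v.1, v.2 - 1), 3)

/-- the two values of the south-west corner of a block -/
def dS (w : BW) (ψ : HE ℤ → ℝ) (v : ℤ × ℤ) : ℝ :=
  ψ (v, 0) - yN w (v.1, v.2 - 1) * ψ ((v.1, v.2 - 1), 2)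
def dW (w : BW) (ψ : HE ℤ → ℝ) (v : ℤ × ℤ) : ℝ :=
  ψ (v, 3) - yE w (v.1 - 1, v.2) * ψ ((v.1 - 1, v.2), 1)

theorem st_mul {t : ℝ} (h : 1 + t ≠ 0) : st t * (1 + t) = 1 - t := by
  unfold st; field_simp

section main
variable (y : BW) (s : ℤ × ℤ → ℝ) (φ : HE ℤ → ℝ) (v : ℤ × ℤ)

/-- north-east corner of the block `v` -/
theorem corner_NE (hR : 1 + y v 0 ≠ 0) (hU : 1 + y v 1 ≠ 0) (hs' : s (v.1, v.2 + 1) ^ 2 = 1) :
    (du y s φ (v, 1) + yE (wd y s) v * du y s φ ((v.1 + 1, v.2), 3)) +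
    (du y s φ (v, 2) + yN (wd y s) v * du y s φ ((v.1, v.2 + 1), 0))
      = -r1 (Aop (wp y s) φ) v := by
  have e1 := st_mul hR
  have e2 := st_mul hU
  simp only [du_E, du_W, du_N, du_S, yE_wd, yN_wd, r1, Aop_S, Aop_W, yE_wp, yN_wp,
    add_sub_cancel_right, sub_add_cancel]
  linear_combination ((s v * φ ((v.1, v.2 - 1), 2) + φ (v, 0)) / 2) * e1
    - ((φ ((v.1 - 1, v.2), 1) + φ (v, 3)) / 2) * e2
    - (st (y v 1) * (1 + y v 1) / 2 * (φ ((v.1 - 1, v.2), 1) + φ (v, 3))) * hs'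

/-- north-west corner of the block `v` -/
theorem corner_NW (hL : 1 + y (v.1 - 1, v.2) 0 ≠ 0) (hU : 1 + y v 1 ≠ 0)
    (hs' : s (v.1, v.2 + 1) ^ 2 = 1) :
    (du y s φ (v, 2) - yN (wd y s) v * du y s φ ((v.1, v.2 + 1), 0)) +
    (du y s φ (v, 3) + yE (wd y s) (v.1 - 1, v.2) * du y s φ ((v.1 - 1, v.2), 1))
      = r2 (Aop (wp y s) φ) v := by
  have e1 := st_mul hL
  have e2 := st_mul hU
  simp only [du_E, du_W, du_N, du_S, yE_wd, yN_wd, r2, Aop_S, Aop_E, yE_wp, yN_wp,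
    add_sub_cancel_right, sub_add_cancel]
  linear_combination ((φ ((v.1 - 1, v.2), 0) - s (v.1 - 1, v.2) * φ ((v.1 - 1, v.2 - 1), 2)) / 2) * e1
    + ((φ ((v.1 - 1, v.2), 1) + φ (v, 3)) / 2) * e2
    + (st (y v 1) * (1 + y v 1) / 2 * (φ ((v.1 - 1, v.2), 1) + φ (v, 3))) * hs'

/-- south-west corner of the block `v`: here the sign of the horizontal bonds matters -/
theorem corner_SW (hL : 1 + y (v.1 - 1, v.2) 0 ≠ 0) (hD : 1 + y (v.1, v.2 - 1) 1 ≠ 0)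
    (hs : s (v.1 - 1, v.2) ^ 2 = 1) (hs' : s v ^ 2 = 1) :
    dW (wd y s) (du y s φ) v - s (v.1 - 1, v.2) * s v * dS (wd y s) (du y s φ) v
      = s (v.1 - 1, v.2) * r3 (Aop (wp y s) φ) v := by
  have e1 := st_mul hL
  have e2 := st_mul hD
  simp only [dS, dW, du_E, du_W, du_N, du_S, yE_wd, yN_wd, r3, Aop_N, Aop_E, yE_wp, yN_wp,
    sub_add_cancel]
  linear_combination (-(φ ((v.1 - 1, v.2), 0) - s (v.1 - 1, v.2) * φ ((v.1 - 1, v.2 - 1), 2)) / 2) * e1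
    - (s (v.1 - 1, v.2) * (φ ((v.1, v.2 - 1), 3) - φ ((v.1 - 1, v.2 - 1), 1)) / 2) * e2
    - (y (v.1 - 1, v.2) 0 * φ ((v.1 - 1, v.2), 0)) * hs
    + (s (v.1 - 1, v.2) * (((1 + y (v.1, v.2 - 1) 1) / 2) *
        (φ ((v.1 - 1, v.2 - 1), 1) + φ ((v.1, v.2 - 1), 3))
      - st (y (v.1, v.2 - 1) 1) * ((1 + y (v.1, v.2 - 1) 1) / 2) *
        (φ ((v.1, v.2 - 1), 3) - φ ((v.1 - 1, v.2 - 1), 1)))) * hs'

/-- south-east corner of the block `v` -/
theorem corner_SE (hR : 1 + y v 0 ≠ 0) (hD : 1 + y (v.1, v.2 - 1) 1 ≠ 0)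
    (hs' : s v ^ 2 = 1) :
    (du y s φ (v, 0) + yN (wd y s) (v.1, v.2 - 1) * du y s φ ((v.1, v.2 - 1), 2)) +
    (du y s φ (v, 1) - yE (wd y s) v * du y s φ ((v.1 + 1, v.2), 3))
      = -(s v * r4 (Aop (wp y s) φ) v) := by
  have e1 := st_mul hR
  have e2 := st_mul hD
  simp only [du_E, du_W, du_N, du_S, yE_wd, yN_wd, r4, Aop_N, Aop_W, yE_wp, yN_wp,
    add_sub_cancel_right, sub_add_cancel]
  linear_combination (-((s v * φ ((v.1, v.2 - 1), 2) + φ (v, 0))) / 2) * e1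
    - (s v * (φ ((v.1, v.2 - 1), 3) - φ ((v.1 - 1, v.2 - 1), 1)) / 2) * e2
    - (y v 0 * φ (v, 0)) * hs'

/-- the transformed source -/
def Gd (s : ℤ × ℤ → ℝ) (g : HE ℤ → ℝ) : HE ℤ → ℝ := fun h =>
  let v := h.1
  match h.2 with
  | 0 => (-(s v * r4 g v) - r1 g v + r2 g v + s (v.1 - 1, v.2) * r3 g v) / 2
  | 1 => (s v * r4 g v - r1 g v + r2 g v + s (v.1 - 1, v.2) * r3 g v) / 2
  | 2 => (s v * r4 g v + r1 g v + r2 g v + s (v.1 - 1, v.2) * r3 g v) / 2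
  | 3 => (s v * r4 g v + r1 g v - r2 g v + s (v.1 - 1, v.2) * r3 g v) / 2

theorem Gd_S (g : HE ℤ → ℝ) : Gd s g (v, 0) =
    (-(s v * r4 g v) - r1 g v + r2 g v + s (v.1 - 1, v.2) * r3 g v) / 2 := rfl
theorem Gd_E (g : HE ℤ → ℝ) : Gd s g (v, 1) =
    (s v * r4 g v - r1 g v + r2 g v + s (v.1 - 1, v.2) * r3 g v) / 2 := rfl
theorem Gd_N (g : HE ℤ → ℝ) : Gd s g (v, 2) =
    (s v * r4 g v + r1 g v + r2 g v + s (v.1 - 1, v.2) * r3 g v) / 2 := rfl
theorem Gd_W (g : HE ℤ → ℝ) : Gd s g (v, 3) =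
    (s v * r4 g v + r1 g v - r2 g v + s (v.1 - 1, v.2) * r3 g v) / 2 := rfl

/-- hypotheses on the background: weights `≠ -1`, signs -/
structure OK (y : BW) (s : ℤ × ℤ → ℝ) : Prop where
  ne : ∀ z j, 1 + y z j ≠ 0
  sg : ∀ z, s z ^ 2 = 1

/-- **duality of the half-edge operators, with spin insertions** -/
theorem Aop_du (h : OK y s) (v : ℤ × ℤ) (i : Fin 4) :
    Aop (wd y s) (du y s φ) (v, i) = Gd s (Aop (wp y s) φ) (v, i)
      - (1 - s (v.1 - 1, v.2) * s v) * dS (wd y s) (du y s φ) v / 2 := by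
  have hNE := corner_NE y s φ v (h.ne _ _) (h.ne _ _) (h.sg _)
  have hNW := corner_NW y s φ v (h.ne _ _) (h.ne _ _) (h.sg _)
  have hSW := corner_SW y s φ v (h.ne _ _) (h.ne _ _) (h.sg _) (h.sg _)
  have hSE := corner_SE y s φ v (h.ne _ _) (h.ne _ _) (h.sg _)
  fin_cases i
  · show Aop (wd y s) (du y s φ) (v, 0) = Gd s (Aop (wp y s) φ) (v, 0) - _
    rw [Aop_S, Gd_S]
    simp only [dS, dW] at hSW ⊢
    linear_combination (hSE + hNE + hNW + hSW) / 2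
  · show Aop (wd y s) (du y s φ) (v, 1) = Gd s (Aop (wp y s) φ) (v, 1) - _
    rw [Aop_E, Gd_E]
    simp only [dS, dW] at hSW ⊢
    linear_combination (-hSE + hNE + hNW + hSW) / 2
  · show Aop (wd y s) (du y s φ) (v, 2) = Gd s (Aop (wp y s) φ) (v, 2) - _
    rw [Aop_N, Gd_N]
    simp only [dS, dW] at hSW ⊢
    linear_combination (-hSE - hNE + hNW + hSW) / 2
  · show Aop (wd y s) (du y s φ) (v, 3) = Gd s (Aop (wp y s) φ) (v, 3) - _
    rw [Aop_W, Gd_W]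
    simp only [dS, dW] at hSW ⊢
    linear_combination (-hSE - hNE - hNW + hSW) / 2

/-- at a flipped corner the average corner value is given by the source -/
theorem flip_avg (h : OK y s) (v : ℤ × ℤ) (hv : s (v.1 - 1, v.2) * s v = -1) :
    dW (wd y s) (du y s φ) v + dS (wd y s) (du y s φ) v
      = s (v.1 - 1, v.2) * r3 (Aop (wp y s) φ) v := by
  have hSW := corner_SW y s φ v (h.ne _ _) (h.ne _ _) (h.sg _) (h.sg _)
  rw [hv] at hSW
  linear_combination hSW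

/-! ### inversion -/

theorem inv_S : (1 + y v 0) * φ (v, 0)
    = du y s φ (v, 1) + du y s φ ((v.1 + 1, v.2), 3) := by
  simp only [du_E, du_W, add_sub_cancel_right]; ring

theorem inv_N (h : OK y s) : (1 + y v 0) * φ ((v.1, v.2 - 1), 2)
    = s v * (du y s φ ((v.1 + 1, v.2), 3) - du y s φ (v, 1)) := by
  simp only [du_E, du_W, add_sub_cancel_right]
  linear_combination (-(1 + y v 0) * φ ((v.1, v.2 - 1), 2)) * h.sg v

theorem inv_W (h : OK y s) : (1 + y v 1) * φ (v, 3)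
    = -(du y s φ (v, 2) + s (v.1, v.2 + 1) * du y s φ ((v.1, v.2 + 1), 0)) := by
  simp only [du_N, du_S, add_sub_cancel_right]
  linear_combination (-(1 + y v 1) / 2 * (φ ((v.1 - 1, v.2), 1) + φ (v, 3))) * h.sg (v.1, v.2 + 1)

theorem inv_E (h : OK y s) : (1 + y v 1) * φ ((v.1 - 1, v.2), 1)
    = du y s φ (v, 2) - s (v.1, v.2 + 1) * du y s φ ((v.1, v.2 + 1), 0) := by
  simp only [du_N, du_S, add_sub_cancel_right]
  linear_combination (-(1 + y v 1) / 2 * (φ ((v.1 - 1, v.2), 1) + φ (v, 3))) * h.sg (v.1, v.2 + 1)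

/-- norm identity on a horizontal bond -/
theorem nsq_hor (h : OK y s) : du y s φ (v, 1) ^ 2 + du y s φ ((v.1 + 1, v.2), 3) ^ 2
    = (1 + y v 0) ^ 2 / 2 * (φ (v, 0) ^ 2 + φ ((v.1, v.2 - 1), 2) ^ 2) := by
  simp only [du_E, du_W, add_sub_cancel_right]
  linear_combination ((1 + y v 0) ^ 2 / 2 * φ ((v.1, v.2 - 1), 2) ^ 2) * h.sg v

/-- norm identity on a vertical bond -/
theorem nsq_ver (h : OK y s) : du y s φ (v, 2) ^ 2 + du y s φ ((v.1, v.2 + 1), 0) ^ 2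
    = (1 + y v 1) ^ 2 / 2 * (φ (v, 3) ^ 2 + φ ((v.1 - 1, v.2), 1) ^ 2) := by
  simp only [du_N, du_S, add_sub_cancel_right]
  linear_combination ((1 + y v 1) ^ 2 / 4 * (φ ((v.1 - 1, v.2), 1) + φ (v, 3)) ^ 2) * h.sg (v.1, v.2 + 1)

end main

end Crest.Agent.R165.Fr1x802
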