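import Crest.Agent.R165.Tr1_40

/-!
# Row 165 (S0250): free boundary conditions with spins, corner-swap identity (helper887)

Primal bonds `(z, 0) = {z, z + e₁}`, `(z, 1) = {z, z + e₂}` with moduli `m z j > -1`; signs `ε z`
(`ε² = 1`) on the horizontal bonds `(z, 0)`, no sign on the vertical ones (the rays of
`Lat_683.ray`).  The branch vertices are the `v` with `ε v ≠ ε (v - e₁)`.

* `wF m ε`   : background on faces (half-edges `S E N W` of a face)
* `wN m ε`   : dual background on nodes (= primal vertices; half-edges `S E N W` of a node);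
               dual moduli `dl y = (1 - y) / (1 + y)`, signs on vertical bonds only; its branch
               faces are the faces to the south-east of the branch vertices
* `T`        : starred field on nodes, `T'` the corresponding map on rows
* `main`     : `A (wN) (T φ) v = T' (A (wF) φ) v + [v branch] Γ v (T φ) • τ`
-/

set_option autoImplicit false

noncomputable section

namespace Crest.Agent.R165.Fr1x887

open Finset
open Crest.Agent.R165.Tr1x40

/-- dual weight -/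
def dl (y : ℝ) : ℝ := (1 - y) / (1 + y)

theorem dl_xc : dl xc = xc := by
  unfold dl
  rw [div_eq_iff (by linarith [xc_pos])]
  nlinarith [xc_sq]

theorem dl_one : dl 1 = 0 := by simp [dl]

variable (m : Face → Fin 2 → ℝ) (ε : Face → ℝ)

/-- background on faces -/
def wF : Fld := fun f h =>
  match h with
  | 0 => ε f * m f 0
  | 1 => m (f.1 + 1, f.2) 1
  | 2 => ε (f.1, f.2 + 1) * m (f.1, f.2 + 1) 0
  | 3 => m f 1

/-- dual background on nodes -/
def wN : Fld := fun v h =>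
  match h with
  | 0 => ε (v.1 - 1, v.2) * dl (m (v.1, v.2 - 1) 1)
  | 1 => dl (m v 0)
  | 2 => ε (v.1 - 1, v.2 + 1) * dl (m v 1)
  | 3 => dl (m (v.1 - 1, v.2) 0)

theorem sym_wF : Sym (wF m ε) := by
  intro f h; fin_cases h <;> simp [wF, nb, op]

theorem sym_wN : Sym (wN m ε) := by
  intro f h; fin_cases h <;> simp [wN, nb, op]

/-- starred field -/
def T (φ : Fld) : Fld := fun v h =>
  match h with
  | 0 => -ε (v.1 - 1, v.2) * ((1 + m (v.1, v.2 - 1) 1) / 2) *
      (φ (v.1 - 1, v.2 - 1) 1 + φ (v.1, v.2 - 1) 3)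
  | 1 => (1 + m v 0) / 2 * (φ v 0 - ε v * φ (v.1, v.2 - 1) 2)
  | 2 => -((1 + m v 1) / 2) * (φ v 3 - φ (v.1 - 1, v.2) 1)
  | 3 => (1 + m (v.1 - 1, v.2) 0) / 2 *
      (ε (v.1 - 1, v.2) * φ (v.1 - 1, v.2 - 1) 2 + φ (v.1 - 1, v.2) 0)

/-- inverse of `T` -/
def Ti (ψ : Fld) : Fld := fun f h =>
  match h with
  | 0 => (ψ f 1 + ψ (f.1 + 1, f.2) 3) / (1 + m f 0)
  | 1 => (ψ (f.1 + 1, f.2) 2 - ε (f.1, f.2 + 1) * ψ (f.1 + 1, f.2 + 1) 0)
      / (1 + m (f.1 + 1, f.2) 1)
  | 2 => ε (f.1, f.2 + 1) * (ψ (f.1 + 1, f.2 + 1) 3 - ψ (f.1, f.2 + 1) 1)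
      / (1 + m (f.1, f.2 + 1) 0)
  | 3 => (-ψ f 2 - ε (f.1 - 1, f.2 + 1) * ψ (f.1, f.2 + 1) 0) / (1 + m f 1)

/-- the four corner defects around the node `v` (faces `NE, NW, SW, SE` of `v`) -/
def r1 (g : Fld) (v : Face) : ℝ := g v 0 + g v 3
def r2 (g : Fld) (v : Face) : ℝ := g (v.1 - 1, v.2) 0 - g (v.1 - 1, v.2) 1
def r3 (g : Fld) (v : Face) : ℝ :=
  ε (v.1 - 1, v.2) * (g (v.1 - 1, v.2 - 1) 1 - g (v.1 - 1, v.2 - 1) 2)
def r4 (g : Fld) (v : Face) : ℝ := ε v * (g (v.1, v.2 - 1) 2 - g (v.1, v.2 - 1) 3)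

/-- the map on rows -/
def T' (g : Fld) : Fld := fun v h =>
  match h with
  | 0 => (-r4 ε g v - r1 g v + r2 g v + r3 ε g v) / 2
  | 1 => (r4 ε g v - r1 g v + r2 g v + r3 ε g v) / 2
  | 2 => (r4 ε g v + r1 g v + r2 g v + r3 ε g v) / 2
  | 3 => (r4 ε g v + r1 g v - r2 g v + r3 ε g v) / 2

/-- the corner source -/
def τ : Fin 4 → ℝ := ![-1, 1, 1, 1]

/-- corner value at the south-east corner of the node `v`, seen from the south edge -/
def Γ (v : Face) (ψ : Fld) : ℝ := -(ψ v 0 + wN m ε v 0 * ψ (v.1, v.2 - 1) 2)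

/-- the coefficient: `0` off the branch vertices, `1` at a branch vertex -/
def br (v : Face) : ℝ := (1 - ε v * ε (v.1 - 1, v.2)) / 2

variable {m} {ε}

theorem dl_mul {y : ℝ} (h : -1 < y) : (1 + y) / 2 * dl y = (1 - y) / 2 := by
  unfold dl
  have : (1 + y) ≠ 0 := by linarith
  field_simp

theorem sq_eq_one_iff_of_ne_zero' {x : ℝ} (h : x ^ 2 = 1) : x = 1 ∨ x = -1 := by
  have : (x - 1) * (x + 1) = 0 := by ring_nf; linarith
  rcases mul_eq_zero.1 this with h | h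
  · left; linarith
  · right; linarith

/-- **corner-swap identity** -/
theorem main (hm : ∀ z j, -1 < m z j) (hε : ∀ z, ε z ^ 2 = 1) (φ : Fld) (v : Face) (h : Fin 4) :
    A (wN m ε) (T m ε φ) v h = T' ε (A (wF m ε) φ) v h + br ε v * Γ m ε v (T m ε φ) * τ h := by
  obtain ⟨a, b⟩ := v
  have d1 := dl_mul (hm (a, b) 0)
  have d2 := dl_mul (hm (a, b) 1)
  have d3 := dl_mul (hm (a - 1, b) 0)
  have d4 := dl_mul (hm (a, b - 1) 1)
  have e1 : ε (a, b) = 1 ∨ ε (a, b) = -1 := sq_eq_one_iff_of_ne_zero' (hε _)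
  have e2 : ε (a - 1, b) = 1 ∨ ε (a - 1, b) = -1 := sq_eq_one_iff_of_ne_zero' (hε _)
  have e3 : ε (a - 1, b + 1) = 1 ∨ ε (a - 1, b + 1) = -1 := sq_eq_one_iff_of_ne_zero' (hε _)
  have D4 : ∀ s : ℝ, s * ((1 + m (a, b - 1) 1) / 2 * dl (m (a, b - 1) 1))
      = s * ((1 - m (a, b - 1) 1) / 2) := fun s => by rw [d4]
  fin_cases h <;> simp only [Fin.zero_eta, Fin.isValue, Fin.mk_one, Fin.reduceFinMk, A_S, A_E, A_N,
    A_W, T, T', r1, r2, r3, r4, wF, wN, Γ, br, τ, add_sub_cancel_right, sub_add_cancel,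
    Matrix.cons_val_zero, Matrix.cons_val_one, Matrix.cons_val]
  · rcases e1 with e1 | e1 <;> rcases e2 with e2 | e2 <;> simp only [e1, e2]
    · linear_combination (-(φ (a, b - 1) 3 - φ (a - 1, b - 1) 1)) * d4
    · ring
    · ring
    · linear_combination (φ (a, b - 1) 3 - φ (a - 1, b - 1) 1) * d4
  · rcases e1 with e1 | e1 <;> rcases e2 with e2 | e2 <;> simp only [e1, e2]
    · linear_combination (φ (a, b - 1) 2 + φ (a, b) 0) * d1
    · linear_combination (φ (a, b - 1) 2 + φ (a, b) 0) * d1 +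
        (φ (a, b - 1) 3 - φ (a - 1, b - 1) 1) * d4
    · linear_combination (-φ (a, b - 1) 2 + φ (a, b) 0) * d1 -
        (φ (a, b - 1) 3 - φ (a - 1, b - 1) 1) * d4
    · linear_combination (-φ (a, b - 1) 2 + φ (a, b) 0) * d1
  · rcases e1 with e1 | e1 <;> rcases e2 with e2 | e2 <;> rcases e3 with e3 | e3 <;>
      simp only [e1, e2, e3]
    · linear_combination (φ (a - 1, b) 1 + φ (a, b) 3) * d2
    · linear_combination (φ (a - 1, b) 1 + φ (a, b) 3) * d2
    · linear_combination (φ (a - 1, b) 1 + φ (a, b) 3) * d2 +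
        (φ (a, b - 1) 3 - φ (a - 1, b - 1) 1) * d4
    · linear_combination (φ (a - 1, b) 1 + φ (a, b) 3) * d2 +
        (φ (a, b - 1) 3 - φ (a - 1, b - 1) 1) * d4
    · linear_combination (φ (a - 1, b) 1 + φ (a, b) 3) * d2 -
        (φ (a, b - 1) 3 - φ (a - 1, b - 1) 1) * d4
    · linear_combination (φ (a - 1, b) 1 + φ (a, b) 3) * d2 -
        (φ (a, b - 1) 3 - φ (a - 1, b - 1) 1) * d4
    · linear_combination (φ (a - 1, b) 1 + φ (a, b) 3) * d2
    · linear_combination (φ (a - 1, b) 1 + φ (a, b) 3) * d2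
  · rcases e1 with e1 | e1 <;> rcases e2 with e2 | e2 <;> simp only [e1, e2]
    · linear_combination (-(φ (a - 1, b) 0 - φ (a - 1, b - 1) 2)) * d3
    · linear_combination (-(φ (a - 1, b) 0 + φ (a - 1, b - 1) 2)) * d3 +
        (φ (a, b - 1) 3 - φ (a - 1, b - 1) 1) * d4
    · linear_combination (-(φ (a - 1, b) 0 - φ (a - 1, b - 1) 2)) * d3 -
        (φ (a, b - 1) 3 - φ (a - 1, b - 1) 1) * d4
    · linear_combination (-(φ (a - 1, b) 0 + φ (a - 1, b - 1) 2)) * d3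

end Crest.Agent.R165.Fr1x887
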