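import Crest.Agent.R165.Fr1_802

/-!
# Row 165 (S0250), leaf FREE TRANSFER, part 2 (helper802): the exact kernel formula

`S` inverse kernel of the (free) background `wp y s` branched at the sites `X`, `Sd` inverse kernel
with finite columns of the dual (plus type) background `wd y s`, branched at the same vertices `X`.
Corner fields `l_x = (1,1,1,1)` at the block `x`.
* `KL Sd x k = Sd (k, l_x)`, `NN Sd x x' = Sd (l_x, l_x')`
* `psi_eq` : `du (S ·,h') = Sd G_{h'} + ∑ c_i KL (X i)`, `Lc_psi` : the equation for `c`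
* `SX` bordered kernel, `psi_SX` : `du (S ·,h') k = ∑ SX k h * G_{h'} h` for `h'` away from `X`.
-/

set_option autoImplicit false
set_option linter.unusedSimpArgs false

noncomputable section

open Finset

namespace Crest.Agent.R165.Fr2x802

open Crest.Agent.R165.J1ax606 (HE EG)
open Crest.Agent.R165.J2ax606 (IsInv)
open Crest.Agent.R165.J2bx606 (FInv)
open Crest.Agent.R165.Fr1x802

/-- corner value `l_x` -/
def lc (ψ : HE ℤ → ℝ) (x : ℤ × ℤ) : ℝ := ∑ b, ψ (x, b)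

/-- `Sd (k, l_x)` -/
def KL (Sd : HE ℤ → HE ℤ → ℝ) (x : ℤ × ℤ) (k : HE ℤ) : ℝ := ∑ b, Sd k (x, b)

/-- `Sd (l_x, l_x')` -/
def NN (Sd : HE ℤ → HE ℤ → ℝ) (x x' : ℤ × ℤ) : ℝ := ∑ b, KL Sd x' (x, b)

theorem NN_eq (Sd : HE ℤ → HE ℤ → ℝ) (x x' : ℤ × ℤ) :
    NN Sd x x' = ∑ b, ∑ b', Sd (x, b) (x', b') := rfl

theorem NN_anti {Sd : HE ℤ → HE ℤ → ℝ} (h : ∀ a b, Sd a b = -Sd b a) (x x' : ℤ × ℤ) :
    NN Sd x x' = -NN Sd x' x := by
  rw [NN_eq, NN_eq, sum_comm, ← sum_neg_distrib]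
  refine sum_congr rfl fun b _ => ?_
  rw [← sum_neg_distrib]
  exact sum_congr rfl fun b' _ => h _ _

/-- backgrounds with insertions: the horizontal sign changes exactly at `X` -/
structure FS (y : BW) (s : ℤ × ℤ → ℝ) {n : ℕ} (X : Fin n → ℤ × ℤ) : Prop extends OK y s where
  inj : Function.Injective X
  flip : ∀ i, s ((X i).1 - 1, (X i).2) * s (X i) = -1
  noflip : ∀ v, (∀ i, X i ≠ v) → s (v.1 - 1, v.2) * s v = 1

/-- the four corners of a face -/
def Vs (f : ℤ × ℤ) : Finset (ℤ × ℤ) :=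
  {f, (f.1 + 1, f.2), (f.1, f.2 + 1), (f.1 + 1, f.2 + 1)}

/-- the transformed source of a half-edge -/
def Gh (s : ℤ × ℤ → ℝ) (h' : HE ℤ) : HE ℤ → ℝ := Gd s (fun h => if h = h' then 1 else 0)

theorem Gd_neg (s : ℤ × ℤ → ℝ) (g : HE ℤ → ℝ) (k : HE ℤ) : Gd s (fun h => -g h) k = -Gd s g k := by
  obtain ⟨v, i⟩ := k
  fin_cases i
  · show Gd s (fun h => -g h) (v, 0) = -Gd s g (v, 0)
    rw [Gd_S, Gd_S]; simp only [r1, r2, r3, r4]; ring
  · show Gd s (fun h => -g h) (v, 1) = -Gd s g (v, 1)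
    rw [Gd_E, Gd_E]; simp only [r1, r2, r3, r4]; ring
  · show Gd s (fun h => -g h) (v, 2) = -Gd s g (v, 2)
    rw [Gd_N, Gd_N]; simp only [r1, r2, r3, r4]; ring
  · show Gd s (fun h => -g h) (v, 3) = -Gd s g (v, 3)
    rw [Gd_W, Gd_W]; simp only [r1, r2, r3, r4]; ring

theorem r_zero {g : HE ℤ → ℝ} {f v : ℤ × ℤ} (hg : ∀ h, h.1 ≠ f → g h = 0) (hv : v ∉ Vs f) :
    r1 g v = 0 ∧ r2 g v = 0 ∧ r3 g v = 0 ∧ r4 g v = 0 := by
  simp only [Vs, mem_insert, mem_singleton, not_or] at hv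
  obtain ⟨h1, h2, h3, h4⟩ := hv
  have e1 : v ≠ f := h1
  have e2 : ((v.1 - 1, v.2) : ℤ × ℤ) ≠ f := fun e => h2 (by rw [← e]; ext <;> simp)
  have e3 : ((v.1 - 1, v.2 - 1) : ℤ × ℤ) ≠ f := fun e => h4 (by rw [← e]; ext <;> simp)
  have e4 : ((v.1, v.2 - 1) : ℤ × ℤ) ≠ f := fun e => h3 (by rw [← e]; ext <;> simp)
  refine ⟨?_, ?_, ?_, ?_⟩
  · rw [r1, hg _ e1, hg _ e1]; simp
  · rw [r2, hg _ e2, hg _ e2]; simp
  · rw [r3, hg _ e3, hg _ e3]; simp
  · rw [r4, hg _ e4, hg _ e4]; simp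

theorem Gd_zero {s : ℤ × ℤ → ℝ} {g : HE ℤ → ℝ} {f v : ℤ × ℤ} (hg : ∀ h, h.1 ≠ f → g h = 0)
    (hv : v ∉ Vs f) (i : Fin 4) : Gd s g (v, i) = 0 := by
  obtain ⟨h1, h2, h3, h4⟩ := r_zero hg hv
  fin_cases i
  · show Gd s g (v, 0) = 0
    rw [Gd_S, h1, h2, h3, h4]; simp
  · show Gd s g (v, 1) = 0
    rw [Gd_E, h1, h2, h3, h4]; simp
  · show Gd s g (v, 2) = 0
    rw [Gd_N, h1, h2, h3, h4]; simp
  · show Gd s g (v, 3) = 0
    rw [Gd_W, h1, h2, h3, h4]; simp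

theorem Gh_zero {s : ℤ × ℤ → ℝ} {h' : HE ℤ} {v : ℤ × ℤ} (hv : v ∉ Vs h'.1) (i : Fin 4) :
    Gh s h' (v, i) = 0 := by
  refine Gd_zero (f := h'.1) (fun h hh => if_neg fun e => hh (by rw [e])) hv i

theorem sum_four {α β : Type*} {n : ℕ} (A : Finset α) (B : Finset β) (f : α → β → Fin n → Fin n → ℝ) :
    ∑ v ∈ A, ∑ a ∈ B, ∑ i, ∑ j, f v a i j = ∑ i, ∑ j, ∑ v ∈ A, ∑ a ∈ B, f v a i j := by
  have h1 : ∀ v ∈ A, ∑ a ∈ B, ∑ i, ∑ j, f v a i j = ∑ i, ∑ j, ∑ a ∈ B, f v a i j := by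
    intro v _
    rw [sum_comm]
    exact sum_congr rfl fun i _ => sum_comm
  rw [sum_congr rfl h1, sum_comm]
  exact sum_congr rfl fun i _ => sum_comm

theorem lc_eq (w : BW) (ψ : HE ℤ → ℝ) (x : ℤ × ℤ) :
    dW w ψ x + dS w ψ x = 2 * lc ψ x + (Aop w ψ (x, 3) - Aop w ψ (x, 0)) := by
  rw [Aop_W, Aop_S, lc, Fin.sum_univ_four, dW, dS]
  ring

section main
variable {y : BW} {s : ℤ × ℤ → ℝ} {n : ℕ} {X : Fin n → ℤ × ℤ} {S Sd : HE ℤ → HE ℤ → ℝ}

/-- `(Sd G_{h'})(k)` -/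
def SG (Sd : HE ℤ → HE ℤ → ℝ) (s : ℤ × ℤ → ℝ) (h' k : HE ℤ) : ℝ :=
  ∑ v ∈ Vs h'.1, ∑ i, Sd k (v, i) * Gh s h' (v, i)

/-- the coefficients -/
def cc (y : BW) (s : ℤ × ℤ → ℝ) (X : Fin n → ℤ × ℤ) (S : HE ℤ → HE ℤ → ℝ) (h' : HE ℤ)
    (i : Fin n) : ℝ := dS (wd y s) (du y s (fun h => S h h')) (X i)

theorem hrow (hF : OK y s) (hS : IsInv (cw (wp y s)) S) (h' : HE ℤ) (v : ℤ × ℤ) (i : Fin 4) :
    Aop (wd y s) (du y s (fun h => S h h')) (v, i) = -Gh s h' (v, i)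
      - (1 - s (v.1 - 1, v.2) * s v) * dS (wd y s) (du y s (fun h => S h h')) v / 2 := by
  rw [Aop_du y s _ hF v i]
  congr 1
  rw [Gh, ← Gd_neg]
  congr 1
  funext h
  have := hS.inv h h'
  change Aop (wp y s) (fun j => S j h') h = _ at this
  rw [this]
  split_ifs <;> simp

/-- **kernel formula, first form** -/
theorem psi_eq (hF : FS y s X) (hd : FInv (cw (wd y s)) Sd) (hS : IsInv (cw (wp y s)) S)
    (h' k : HE ℤ) :
    du y s (fun h => S h h') k = SG Sd s h' k + ∑ i, cc y s X S h' i * KL Sd (X i) k := by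
  classical
  set ψ := du y s (fun h => S h h') with hψ
  set B : Finset (ℤ × ℤ) := (hd.row k).image Prod.fst ∪ (Vs h'.1 ∪ univ.image X) with hB
  have hleft := hd.left ψ k (B ×ˢ (univ : Finset (Fin 4))) (by
    intro h hh
    apply hd.row_spec
    intro hr
    apply hh
    rw [mem_product]
    exact ⟨mem_union_left _ (mem_image_of_mem _ hr), mem_univ _⟩)
  change ∑ h ∈ B ×ˢ (univ : Finset (Fin 4)), Sd k h * Aop (wd y s) ψ h = -ψ k at hleft
  rw [sum_product] at hleft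
  have e1 : ∀ v ∈ B, ∑ i, Sd k (v, i) * Aop (wd y s) ψ (v, i) =
      -(∑ i, Sd k (v, i) * Gh s h' (v, i)) +
        -((1 - s (v.1 - 1, v.2) * s v) * dS (wd y s) ψ v / 2 * KL Sd v k) := by
    intro v _
    have : ∀ i, Aop (wd y s) ψ (v, i) = _ := fun i => hrow hF.toOK hS h' v i
    simp only [this, KL, Fin.sum_univ_four]
    ring
  rw [sum_congr rfl e1, sum_add_distrib, sum_neg_distrib] at hleft
  have e2 : ∑ v ∈ B, ∑ i, Sd k (v, i) * Gh s h' (v, i) = SG Sd s h' k := by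
    symm
    apply sum_subset
    · rw [hB]
      exact subset_union_left.trans subset_union_right
    · intro v _ hv
      refine sum_eq_zero fun i _ => ?_
      rw [Gh_zero hv, mul_zero]
  have e3 : ∑ v ∈ B, -((1 - s (v.1 - 1, v.2) * s v) * dS (wd y s) ψ v / 2 * KL Sd v k) =
      ∑ i, -(cc y s X S h' i * KL Sd (X i) k) := by
    have e4 : ∑ v ∈ B, -((1 - s (v.1 - 1, v.2) * s v) * dS (wd y s) ψ v / 2 * KL Sd v k) =
        ∑ v ∈ univ.image X, -((1 - s (v.1 - 1, v.2) * s v) * dS (wd y s) ψ v / 2 * KL Sd v k) := by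
      symm
      apply sum_subset
      · rw [hB]
        exact subset_union_right.trans subset_union_right
      · intro v _ hv
        rw [hF.noflip v (fun i e => hv (by rw [← e]; exact mem_image_of_mem _ (mem_univ _)))]
        simp
    rw [e4, sum_image (fun i _ j _ h => hF.inj h)]
    refine sum_congr rfl fun i _ => ?_
    rw [hF.flip i]
    unfold cc
    ring
  rw [e2, e3, sum_neg_distrib] at hleft
  linarith

/-- the corner value at an insertion -/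
theorem lc_du (hF : FS y s X) (hS : IsInv (cw (wp y s)) S) (h' : HE ℤ) (j : Fin n)
    (hX : X j ∉ Vs h'.1) : lc (du y s (fun h => S h h')) (X j) = 0 := by
  have h1 := lc_eq (wd y s) (du y s (fun h => S h h')) (X j)
  rw [flip_avg y s _ hF.toOK (X j) (hF.flip j), hrow hF.toOK hS, hrow hF.toOK hS, Gh_zero hX,
    Gh_zero hX] at h1
  have h2 : r3 (Aop (wp y s) (fun h => S h h')) (X j) = 0 := by
    have e : Aop (wp y s) (fun h => S h h') = fun h => if h = h' then (-1 : ℝ) else 0 :=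
      funext fun h => hS.inv h h'
    rw [e]
    exact (r_zero (f := h'.1) (fun h hh => if_neg fun e => hh (by rw [e])) hX).2.2.1
  rw [h2] at h1
  linarith

/-- the equation for the coefficients -/
theorem lc_psi (hF : FS y s X) (hd : FInv (cw (wd y s)) Sd) (hS : IsInv (cw (wp y s)) S)
    (h' : HE ℤ) (j : Fin n) (hX : X j ∉ Vs h'.1) :
    ∑ i, NN Sd (X j) (X i) * cc y s X S h' i =
      ∑ v ∈ Vs h'.1, ∑ i, KL Sd (X j) (v, i) * Gh s h' (v, i) := by
  have h1 := lc_du hF hS h' j hX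
  rw [lc] at h1
  simp only [psi_eq hF hd hS h'] at h1
  rw [sum_add_distrib] at h1
  have h2 : ∑ b, SG Sd s h' (X j, b) = -∑ v ∈ Vs h'.1, ∑ i, KL Sd (X j) (v, i) * Gh s h' (v, i) := by
    unfold SG KL
    rw [sum_comm, ← sum_neg_distrib]
    refine sum_congr rfl fun v _ => ?_
    rw [sum_comm, ← sum_neg_distrib]
    refine sum_congr rfl fun i _ => ?_
    rw [sum_mul, ← sum_neg_distrib]
    refine sum_congr rfl fun b _ => ?_
    rw [hd.anti (X j, b) (v, i)]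
    ring
  have h3 : ∑ b, ∑ i, cc y s X S h' i * KL Sd (X i) (X j, b) =
      ∑ i, NN Sd (X j) (X i) * cc y s X S h' i := by
    rw [sum_comm]
    refine sum_congr rfl fun i _ => ?_
    rw [← mul_sum, mul_comm]
    rfl
  rw [h2, h3] at h1
  linarith

/-- the matrix of the branch points -/
def BM (Sd : HE ℤ → HE ℤ → ℝ) (X : Fin n → ℤ × ℤ) : Matrix (Fin n) (Fin n) ℝ :=
  Matrix.of fun i j => NN Sd (X i) (X j)

/-- the bordered kernel -/
def SX (Sd : HE ℤ → HE ℤ → ℝ) (X : Fin n → ℤ × ℤ) (k h : HE ℤ) : ℝ :=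
  Sd k h + ∑ i, ∑ j, KL Sd (X i) k * (BM Sd X)⁻¹ i j * KL Sd (X j) h

/-- **kernel formula**: sources away from `X` -/
theorem psi_SX (hF : FS y s X) (hd : FInv (cw (wd y s)) Sd) (hS : IsInv (cw (wp y s)) S)
    (hdet : IsUnit (BM Sd X).det) (h' k : HE ℤ) (hX' : ∀ i, (X i) ∉ Vs h'.1) :
    du y s (fun h => S h h') k =
      ∑ v ∈ Vs h'.1, ∑ i, SX Sd X k (v, i) * Gh s h' (v, i) := by
  classical
  have hc : cc y s X S h' = (BM Sd X)⁻¹.mulVec fun j =>
      ∑ v ∈ Vs h'.1, ∑ i, KL Sd (X j) (v, i) * Gh s h' (v, i) := by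
    have h1 : (BM Sd X).mulVec (cc y s X S h') = fun j =>
        ∑ v ∈ Vs h'.1, ∑ i, KL Sd (X j) (v, i) * Gh s h' (v, i) := by
      funext j
      rw [← lc_psi hF hd hS h' j (hX' j)]
      rfl
    rw [← h1, Matrix.mulVec_mulVec, Matrix.nonsing_inv_mul _ hdet, Matrix.one_mulVec]
  rw [psi_eq hF hd hS h' k]
  simp only [SX, add_mul, sum_add_distrib]
  congr 1
  rw [hc]
  simp only [Matrix.mulVec, dotProduct]
  simp only [Finset.sum_mul, Finset.mul_sum]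
  rw [sum_four]
  refine sum_congr rfl fun i _ => sum_congr rfl fun j _ => sum_congr rfl fun v _ =>
    sum_congr rfl fun a _ => ?_
  ring

end main

/-! ### symmetry of the bordered kernel, its rows -/

section bord
variable {n : ℕ} {X : Fin n → ℤ × ℤ} {Sd : HE ℤ → HE ℤ → ℝ}

theorem BM_transpose (h : ∀ a b, Sd a b = -Sd b a) : (BM Sd X).transpose = -BM Sd X := by
  ext i j
  simp only [BM, Matrix.transpose_apply, Matrix.of_apply, Matrix.neg_apply]
  exact NN_anti h _ _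

theorem BMi_anti (h : ∀ a b, Sd a b = -Sd b a) (i j : Fin n) :
    (BM Sd X)⁻¹ i j = -(BM Sd X)⁻¹ j i := by
  have h1 : ((BM Sd X)⁻¹).transpose = -(BM Sd X)⁻¹ := by
    rw [Matrix.transpose_nonsing_inv, BM_transpose h]
    by_cases hu : IsUnit (BM Sd X).det
    · apply Matrix.inv_eq_left_inv
      rw [neg_mul_neg, Matrix.nonsing_inv_mul _ hu]
    · have hu' : ¬IsUnit (-BM Sd X).det := by
        rw [Matrix.det_neg]
        intro hc
        exact hu (isUnit_of_mul_isUnit_right hc)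
      rw [Matrix.nonsing_inv_apply_not_isUnit _ hu', Matrix.nonsing_inv_apply_not_isUnit _ hu,
        neg_zero]
  have h2 := congrFun (congrFun h1 j) i
  rw [Matrix.transpose_apply, Matrix.neg_apply] at h2
  exact h2

theorem SX_anti (h : ∀ a b, Sd a b = -Sd b a) (k k' : HE ℤ) : SX Sd X k k' = -SX Sd X k' k := by
  unfold SX
  rw [neg_add, ← h, sum_comm, ← sum_neg_distrib]
  congr 1
  refine sum_congr rfl fun i _ => ?_
  rw [← sum_neg_distrib]
  refine sum_congr rfl fun j _ => ?_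
  rw [BMi_anti h j i]
  ring

end bord

end Crest.Agent.R165.Fr2x802
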