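import Crest.Agent.R165.Fr2_802

/-!
# Row 165 (S0250), leaf FREE TRANSFER, part 3 (helper802): rows of the bordered kernel, one bond

* `SX_row` : `A* SX(·,h) = -δ_h` away from the insertions
* `Gh_*` : the transformed sources
* `bond_h`, `bond_v` : the two half-edges of one bond, exactly
-/

set_option autoImplicit false
set_option linter.unusedSimpArgs false

noncomputable section

open Finset

namespace Crest.Agent.R165.Fr3x802

open Crest.Agent.R165.J1ax606 (HE EG)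
open Crest.Agent.R165.J2ax606 (IsInv)
open Crest.Agent.R165.J2bx606 (FInv)
open Crest.Agent.R165.Fr1x802 Crest.Agent.R165.Fr2x802

theorem Aop_add (w : BW) (φ ψ : HE ℤ → ℝ) (h : HE ℤ) :
    Aop w (fun k => φ k + ψ k) h = Aop w φ h + Aop w ψ h := by
  obtain ⟨v, i⟩ := h
  fin_cases i
  · show Aop w (fun k => φ k + ψ k) (v, 0) = Aop w φ (v, 0) + Aop w ψ (v, 0)
    simp only [Aop_S]; ring
  · show Aop w (fun k => φ k + ψ k) (v, 1) = Aop w φ (v, 1) + Aop w ψ (v, 1)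
    simp only [Aop_E]; ring
  · show Aop w (fun k => φ k + ψ k) (v, 2) = Aop w φ (v, 2) + Aop w ψ (v, 2)
    simp only [Aop_N]; ring
  · show Aop w (fun k => φ k + ψ k) (v, 3) = Aop w φ (v, 3) + Aop w ψ (v, 3)
    simp only [Aop_W]; ring

theorem Aop_smul (w : BW) (c : ℝ) (φ : HE ℤ → ℝ) (h : HE ℤ) :
    Aop w (fun k => c * φ k) h = c * Aop w φ h := by
  obtain ⟨v, i⟩ := h
  fin_cases i
  · show Aop w (fun k => c * φ k) (v, 0) = c * Aop w φ (v, 0)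
    simp only [Aop_S]; ring
  · show Aop w (fun k => c * φ k) (v, 1) = c * Aop w φ (v, 1)
    simp only [Aop_E]; ring
  · show Aop w (fun k => c * φ k) (v, 2) = c * Aop w φ (v, 2)
    simp only [Aop_N]; ring
  · show Aop w (fun k => c * φ k) (v, 3) = c * Aop w φ (v, 3)
    simp only [Aop_W]; ring

theorem Aop_sum {ι : Type*} (w : BW) (A : Finset ι) (φ : ι → HE ℤ → ℝ) (h : HE ℤ) :
    Aop w (fun k => ∑ i ∈ A, φ i k) h = ∑ i ∈ A, Aop w (φ i) h := by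
  classical
  induction A using Finset.induction_on with
  | empty =>
    simp only [sum_empty]
    have := Aop_smul w 0 (fun _ => 0) h
    simpa using this
  | insert a A ha ih =>
    simp only [sum_insert ha]
    rw [Aop_add, ih]

section bord
variable {w : BW} {n : ℕ} {X : Fin n → ℤ × ℤ} {Sd : HE ℤ → HE ℤ → ℝ}

theorem KL_row (hd : IsInv (cw w) Sd) (x : ℤ × ℤ) (h : HE ℤ) :
    Aop w (KL Sd x) h = if h.1 = x then -1 else 0 := by
  have e : (KL Sd x) = fun k => ∑ b, Sd k (x, b) := rfl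
  rw [e, Aop_sum]
  have h1 : ∀ b : Fin 4, Aop w (fun k => Sd k (x, b)) h = if h = (x, b) then -1 else 0 :=
    fun b => hd.inv h (x, b)
  rw [sum_congr rfl fun b _ => h1 b]
  obtain ⟨v, i⟩ := h
  by_cases hv : v = x
  · subst hv
    simp
  · rw [if_neg hv]
    refine sum_eq_zero fun b _ => if_neg fun e => hv (Prod.mk.inj e).1

/-- rows of the bordered kernel away from the insertions -/
theorem SX_row (hd : IsInv (cw w) Sd) {h : HE ℤ} (hX : ∀ i, X i ≠ h.1) (k : HE ℤ) :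
    Aop w (fun j => SX Sd X j k) h = if h = k then -1 else 0 := by
  have e : (fun j => SX Sd X j k) = fun j => Sd j k +
      ∑ i, ∑ j', ((BM Sd X)⁻¹ i j' * KL Sd (X j') k) * KL Sd (X i) j := by
    funext j
    unfold SX
    congr 1
    refine sum_congr rfl fun i _ => sum_congr rfl fun j' _ => ?_
    ring
  rw [e, Aop_add]
  have h1 : Aop w (fun j => Sd j k) h = if h = k then -1 else 0 := hd.inv h k
  rw [h1, Aop_sum]
  rw [sum_eq_zero, add_zero]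
  intro i _
  rw [Aop_sum]
  refine sum_eq_zero fun j' _ => ?_
  rw [Aop_smul, KL_row hd, if_neg (fun e => hX i e.symm), mul_zero]

end bord

/-! ### the transformed sources -/

section src
variable (s : ℤ × ℤ → ℝ) (f : ℤ × ℤ)

theorem pair_sub (a b : ℤ) (v : ℤ × ℤ) : ((v.1 - a, v.2 - b) : ℤ × ℤ) = v - (a, b) := rfl

/-- the sum against a transformed source, direction `S` -/
theorem sum_Gh0 (F : HE ℤ → ℝ) : ∑ v ∈ Vs f, ∑ i, F (v, i) * Gh s (f, 0) (v, i) =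
    (-F (f, 0) - F (f, 1) + F (f, 2) + F (f, 3)) / 2 +
    (F ((f.1 + 1, f.2), 0) + F ((f.1 + 1, f.2), 1) + F ((f.1 + 1, f.2), 2)
      - F ((f.1 + 1, f.2), 3)) / 2 := by
  obtain ⟨p, q⟩ := f
  unfold Vs
  rw [sum_insert (by simp), sum_insert (by simp), sum_insert (by simp), sum_singleton]
  simp only [Fin.sum_univ_four, Gh, Gd_S, Gd_E, Gd_N, Gd_W, r1, r2, r3, r4, Prod.mk.injEq,
    add_sub_cancel_right]
  simp
  ring

/-- direction `E` -/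
theorem sum_Gh1 (F : HE ℤ → ℝ) : ∑ v ∈ Vs f, ∑ i, F (v, i) * Gh s (f, 1) (v, i) =
    -(F ((f.1 + 1, f.2), 0) + F ((f.1 + 1, f.2), 1) + F ((f.1 + 1, f.2), 2)
      - F ((f.1 + 1, f.2), 3)) / 2 +
    s (f.1, f.2 + 1) * (F ((f.1 + 1, f.2 + 1), 0) + F ((f.1 + 1, f.2 + 1), 1)
      + F ((f.1 + 1, f.2 + 1), 2) + F ((f.1 + 1, f.2 + 1), 3)) / 2 := by
  obtain ⟨p, q⟩ := f
  unfold Vs
  rw [sum_insert (by simp), sum_insert (by simp), sum_insert (by simp), sum_singleton]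
  simp only [Fin.sum_univ_four, Gh, Gd_S, Gd_E, Gd_N, Gd_W, r1, r2, r3, r4, Prod.mk.injEq,
    add_sub_cancel_right]
  simp
  ring

/-- direction `N` -/
theorem sum_Gh2 (F : HE ℤ → ℝ) : ∑ v ∈ Vs f, ∑ i, F (v, i) * Gh s (f, 2) (v, i) =
    s (f.1, f.2 + 1) * (-F ((f.1, f.2 + 1), 0) + F ((f.1, f.2 + 1), 1) + F ((f.1, f.2 + 1), 2)
      + F ((f.1, f.2 + 1), 3)) / 2 -
    s (f.1, f.2 + 1) * (F ((f.1 + 1, f.2 + 1), 0) + F ((f.1 + 1, f.2 + 1), 1)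
      + F ((f.1 + 1, f.2 + 1), 2) + F ((f.1 + 1, f.2 + 1), 3)) / 2 := by
  obtain ⟨p, q⟩ := f
  unfold Vs
  rw [sum_insert (by simp), sum_insert (by simp), sum_insert (by simp), sum_singleton]
  simp only [Fin.sum_univ_four, Gh, Gd_S, Gd_E, Gd_N, Gd_W, r1, r2, r3, r4, Prod.mk.injEq,
    add_sub_cancel_right]
  simp
  ring

/-- direction `W` -/
theorem sum_Gh3 (F : HE ℤ → ℝ) : ∑ v ∈ Vs f, ∑ i, F (v, i) * Gh s (f, 3) (v, i) =
    (-F (f, 0) - F (f, 1) + F (f, 2) + F (f, 3)) / 2 -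
    s (f.1, f.2 + 1) * (-F ((f.1, f.2 + 1), 0) + F ((f.1, f.2 + 1), 1) + F ((f.1, f.2 + 1), 2)
      + F ((f.1, f.2 + 1), 3)) / 2 := by
  obtain ⟨p, q⟩ := f
  unfold Vs
  rw [sum_insert (by simp), sum_insert (by simp), sum_insert (by simp), sum_singleton]
  simp only [Fin.sum_univ_four, Gh, Gd_S, Gd_E, Gd_N, Gd_W, r1, r2, r3, r4, Prod.mk.injEq,
    add_sub_cancel_right]
  simp
  ring

end src

/-! ### one bond -/

section bond
variable {y : BW} {s : ℤ × ℤ → ℝ} {n : ℕ} {X : Fin n → ℤ × ℤ} {S Sd : HE ℤ → HE ℤ → ℝ}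

/-- the horizontal bond `(v, 0)` -/
theorem bond_h (hF : FS y s X) (hd : FInv (cw (wd y s)) Sd) (hS : IsInv (cw (wp y s)) S)
    (hdet : IsUnit (BM Sd X).det) (v : ℤ × ℤ) (hX : ∀ i, X i ∉ Vs (v.1, v.2 - 1)) :
    (1 + y v 0) * S (v, 0) ((v.1, v.2 - 1), 2) =
      s v * (1 - (1 + st (y v 0)) * SX Sd X (v, 1) ((v.1 + 1, v.2), 3)) := by
  set h' : HE ℤ := ((v.1, v.2 - 1), 2) with hh'
  have hpsi := fun k => psi_SX hF hd hS hdet h' k hX
  have e0 := inv_S y s (fun h => S h h') v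
  rw [e0, hpsi, hpsi]
  simp only [hh']
  rw [sum_Gh2, sum_Gh2]
  simp only [sub_add_cancel, Prod.mk.eta]
  have hXv : ∀ i, X i ≠ v := fun i e => hX i (by rw [e]; simp [Vs])
  have hXv1 : ∀ i, X i ≠ (v.1 + 1, v.2) := fun i e => hX i (by rw [e]; simp [Vs])
  have a1 := fun k => SX_row hd.toIsInv (h := (v, 1)) hXv k
  have a2 := fun k => SX_row hd.toIsInv (h := ((v.1 + 1, v.2), 3)) hXv1 k
  have b1 := a1 (v, 1)
  have b2 := a1 ((v.1 + 1, v.2), 3)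
  have b3 := a2 (v, 1)
  have b4 := a2 ((v.1 + 1, v.2), 3)
  simp only [Aop_E, Aop_W, yE_wd, add_sub_cancel_right, Prod.mk.eta] at b1 b2 b3 b4
  have n1 : ¬((v, (1 : Fin 4)) = ((v.1 + 1, v.2), (3 : Fin 4))) := by
    intro e; exact absurd (Prod.mk.inj e).2 (by decide)
  have n2 : ¬(((v.1 + 1, v.2), (3 : Fin 4)) = (v, (1 : Fin 4))) := fun e => n1 e.symm
  rw [if_true] at b1 b4
  rw [if_neg n1] at b2
  rw [if_neg n2] at b3
  have c := fun a b => SX_anti (X := X) hd.anti a b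
  have d1 : SX Sd X (v, 1) (v, 1) = 0 := by linarith [c (v, 1) (v, 1)]
  have d2 : SX Sd X ((v.1 + 1, v.2), 3) ((v.1 + 1, v.2), 3) = 0 := by
    linarith [c ((v.1 + 1, v.2), 3) ((v.1 + 1, v.2), 3)]
  rw [c (v, 0) (v, 1), c (v, 2) (v, 1), c (v, 3) (v, 1), c ((v.1 + 1, v.2), 3) (v, 1)] at b1
  rw [c (v, 0) ((v.1 + 1, v.2), 3), c (v, 2) ((v.1 + 1, v.2), 3), c (v, 3) ((v.1 + 1, v.2), 3),
    d2] at b2
  rw [c ((v.1 + 1, v.2), 0) (v, 1), c ((v.1 + 1, v.2), 1) (v, 1), c ((v.1 + 1, v.2), 2) (v, 1),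
    d1] at b3
  rw [c ((v.1 + 1, v.2), 0) ((v.1 + 1, v.2), 3), c ((v.1 + 1, v.2), 1) ((v.1 + 1, v.2), 3),
    c ((v.1 + 1, v.2), 2) ((v.1 + 1, v.2), 3)] at b4
  rw [d1, d2, c ((v.1 + 1, v.2), 3) (v, 1)]
  linear_combination (-s v / 2) * (b1 + b2 + b3 + b4)

/-- the vertical bond `(v, 1)` -/
theorem bond_v (hF : FS y s X) (hd : FInv (cw (wd y s)) Sd) (hS : IsInv (cw (wp y s)) S)
    (hdet : IsUnit (BM Sd X).det) (v : ℤ × ℤ) (hX : ∀ i, X i ∉ Vs v) :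
    (1 + y v 1) * S ((v.1 - 1, v.2), 1) (v, 3) =
      1 - (1 + st (y v 1)) * (s (v.1, v.2 + 1) * SX Sd X ((v.1, v.2 + 1), 0) (v, 2)) := by
  set h' : HE ℤ := (v, 3) with hh'
  have hpsi := fun k => psi_SX hF hd hS hdet h' k hX
  have e0 := inv_E y s (fun h => S h h') v hF.toOK
  rw [e0, hpsi, hpsi]
  simp only [hh']
  rw [sum_Gh3, sum_Gh3]
  have hXv : ∀ i, X i ≠ v := fun i e => hX i (by rw [e]; simp [Vs])
  have hXv1 : ∀ i, X i ≠ (v.1, v.2 + 1) := fun i e => hX i (by rw [e]; simp [Vs])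
  have a1 := fun k => SX_row hd.toIsInv (h := (v, 2)) hXv k
  have a2 := fun k => SX_row hd.toIsInv (h := ((v.1, v.2 + 1), 0)) hXv1 k
  have b1 := a1 (v, 2)
  have b2 := a1 ((v.1, v.2 + 1), 0)
  have b3 := a2 (v, 2)
  have b4 := a2 ((v.1, v.2 + 1), 0)
  simp only [Aop_S, Aop_N, yN_wd, add_sub_cancel_right, Prod.mk.eta] at b1 b2 b3 b4
  have n1 : ¬((v, (2 : Fin 4)) = ((v.1, v.2 + 1), (0 : Fin 4))) := by
    intro e; exact absurd (Prod.mk.inj e).2 (by decide)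
  have n2 : ¬(((v.1, v.2 + 1), (0 : Fin 4)) = (v, (2 : Fin 4))) := fun e => n1 e.symm
  rw [if_true] at b1 b4
  rw [if_neg n1] at b2
  rw [if_neg n2] at b3
  have c := fun a b => SX_anti (X := X) hd.anti a b
  have hs := hF.sg (v.1, v.2 + 1)
  have d1 : SX Sd X (v, 2) (v, 2) = 0 := by linarith [c (v, 2) (v, 2)]
  have d2 : SX Sd X ((v.1, v.2 + 1), 0) ((v.1, v.2 + 1), 0) = 0 := by
    linarith [c ((v.1, v.2 + 1), 0) ((v.1, v.2 + 1), 0)]
  rw [c (v, 0) (v, 2), c (v, 1) (v, 2), c (v, 3) (v, 2), c ((v.1, v.2 + 1), 0) (v, 2)] at b1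
  rw [c (v, 0) ((v.1, v.2 + 1), 0), c (v, 1) ((v.1, v.2 + 1), 0), c (v, 3) ((v.1, v.2 + 1), 0),
    d2] at b2
  rw [c ((v.1, v.2 + 1), 1) (v, 2), c ((v.1, v.2 + 1), 2) (v, 2), c ((v.1, v.2 + 1), 3) (v, 2),
    d1] at b3
  rw [c ((v.1, v.2 + 1), 1) ((v.1, v.2 + 1), 0), c ((v.1, v.2 + 1), 2) ((v.1, v.2 + 1), 0),
    c ((v.1, v.2 + 1), 3) ((v.1, v.2 + 1), 0)] at b4
  rw [d1, d2, c ((v.1, v.2 + 1), 0) (v, 2)]
  linear_combination (-1 / 2) * b1 + (s (v.1, v.2 + 1) / 2) * (b2 + b3) -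
    (s (v.1, v.2 + 1) ^ 2 / 2) * b4 +
    ((1 + s (v.1, v.2 + 1) * st (y v 1) * SX Sd X (v, 2) ((v.1, v.2 + 1), 0)) / 2) * hs

end bond

end Crest.Agent.R165.Fr3x802
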