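import Crest.Agent.R165.UKer_420
import Crest.Agent.R165.GeoDefs_416

/-!
# Row 165 (S0250), leaf FREE TRANSFER, interface (helper802)

What the plus side delivers about the half-edge kernels, for ARBITRARY plus type backgrounds
approximating `D` (needed for the Kramers–Wannier dual of the free background of `D`), all in the
conventions of `Lat_683` (ray gauge, `wX`) and `UKer_420` (`kap`, `edir`, `cB`).

* `LatB D x a y V` : moduli `y k ∈ {xc, 0}` approximating `D`, insertions (vertices) `V k → x`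
* `PlusIn D x bl rg η B` : for all covariances `S k` of `wX (y k) (V k)`
  - `off` : `a⁻¹ κ_z(f) κ_z'(f') S((f,i),(f',i')) → bl z z' (e_i, e_i')`
  - `diag` : the same for the two half-edges of an arbitrary bond tending to `z`, plane value subtracted
  - `eta` : `a^{-1/2} κ_z(f) κ_j S((f,i), l_j) → η_j z (e_i)`, `l_j = (1,1,1,1)` at the block `V_j`
    (north-east of the vertex `V_j`), `κ_j = kap x V (x_j) (V_j)`
  - `bb` : `κ_i κ_j S(l_i, l_j) → B i j`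
* `PlusCov` : conformal covariance of `(bl, rg, η, B)`.
-/

set_option autoImplicit false

noncomputable section

open Filter Topology Finset
open Crest.ProbabilityR.IsingModel

namespace Crest.Agent.R165.FrIx802

open Crest.Agent.R165.Latx683 (BW HE wX IsCov)
open Crest.Agent.R165.UDomBx420 (ed)
open Crest.Agent.R165.UKerx420 (kap edir hb cB)

/-- plus type moduli approximating the domain `D`, insertions `V` -/
structure LatB (D : Set ℂ) {n : ℕ} (x : Fin n → ℂ) (a : ℕ → ℝ) (y : ℕ → BW ℤ)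
    (V : ℕ → Fin n → ℤ × ℤ) : Prop where
  pos : ∀ k, 0 < a k
  lim : Tendsto a atTop (𝓝 0)
  val : ∀ k z j, y k z j = Latx683.xc ∨ y k z j = 0
  tip : ∀ i, Tendsto (fun k => meshPoint (a k) (V k i)) atTop (𝓝 (x i))
  ins : ∀ K : Set ℂ, IsCompact K → K ⊆ D → ∀ᶠ k in atTop, ∀ z, meshPoint (a k) z ∈ K →
    ∀ j, y k z j = Latx683.xc
  out : ∀ K : Set ℂ, IsCompact K → Disjoint K (closure D) → ∀ᶠ k in atTop, ∀ z,
    meshPoint (a k) z ∈ K → ∀ j, y k z j = 0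
  bdd : ∃ R : ℝ, ∀ k z, R ≤ ‖meshPoint (a k) z‖ → ∀ j, y k z j = 0

/-- sign of the block `V_j` in the gauge which is trivial near `x_j` -/
def kb {n : ℕ} (x : Fin n → ℂ) (V : Fin n → ℤ × ℤ) (j : Fin n) : ℝ := kap x V (x j) (V j)

/-- **plus inputs** -/
structure PlusIn (D : Set ℂ) {n : ℕ} (x : Fin n → ℂ) (bl : ℂ → ℂ → LinearMap.BilinForm ℝ ℂ)
    (rg : ℂ → LinearMap.BilinForm ℝ ℂ) (η : Fin n → ℂ → ℂ →ₗ[ℝ] ℝ)
    (B : Matrix (Fin n) (Fin n) ℝ) : Prop where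
  /-- two different points -/
  off : ∀ (a : ℕ → ℝ) (y : ℕ → BW ℤ) (V : ℕ → Fin n → ℤ × ℤ), LatB D x a y V →
    ∀ S : ℕ → HE ℤ → HE ℤ → ℝ, (∀ k, IsCov (wX (y k) (V k)) (S k)) →
    ∀ z z' : ℂ, z ∈ D → z' ∈ D → z ≠ z' → (∀ i, x i ≠ z) → (∀ i, x i ≠ z') →
    ∀ (i i' : Fin 4) (f f' : ℕ → ℤ × ℤ), Tendsto (fun k => meshPoint (a k) (f k)) atTop (𝓝 z) →
      Tendsto (fun k => meshPoint (a k) (f' k)) atTop (𝓝 z') →
      Tendsto (fun k => (a k)⁻¹ * (kap x (V k) z (f k) * kap x (V k) z' (f' k) *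
        S k (f k, i) (f' k, i'))) atTop (𝓝 (bl z z' (edir i) (edir i')))
  /-- regular part at a bond -/
  diag : ∀ (a : ℕ → ℝ) (y : ℕ → BW ℤ) (V : ℕ → Fin n → ℤ × ℤ), LatB D x a y V →
    ∀ S : ℕ → HE ℤ → HE ℤ → ℝ, (∀ k, IsCov (wX (y k) (V k)) (S k)) →
    ∀ z : ℂ, z ∈ D → (∀ i, x i ≠ z) → ∀ (j i i' : Fin 2) (f : ℕ → ℤ × ℤ),
      Tendsto (fun k => meshPoint (a k) (f k)) atTop (𝓝 z) →
      Tendsto (fun k => (a k)⁻¹ * (kap x (V k) z (hb (f k) j i).1 *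
        kap x (V k) z (hb (f k) j i').1 * S k (hb (f k) j i) (hb (f k) j i') - cB i i')) atTop
        (𝓝 (rg z (ed j i) (ed j i')))
  /-- skew -/
  skew : ∀ z z', z ∈ D → z' ∈ D → z ≠ z' → (∀ i, x i ≠ z) → (∀ i, x i ≠ z') →
    ∀ c c', bl z z' c c' = -bl z' z c' c
  /-- alternating -/
  alt : ∀ z, z ∈ D → (∀ i, x i ≠ z) → ∀ c, rg z c c = 0
  /-- one end at a branch point -/
  eta : ∀ (a : ℕ → ℝ) (y : ℕ → BW ℤ) (V : ℕ → Fin n → ℤ × ℤ), LatB D x a y V →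
    ∀ S : ℕ → HE ℤ → HE ℤ → ℝ, (∀ k, IsCov (wX (y k) (V k)) (S k)) →
    ∀ z : ℂ, z ∈ D → (∀ i, x i ≠ z) → ∀ (j : Fin n) (i : Fin 4) (f : ℕ → ℤ × ℤ),
      Tendsto (fun k => meshPoint (a k) (f k)) atTop (𝓝 z) →
      Tendsto (fun k => (Real.sqrt (a k))⁻¹ * (kap x (V k) z (f k) * kb x (V k) j *
        ∑ b, S k (f k, i) (V k j, b))) atTop (𝓝 (η j z (edir i)))
  /-- both ends at branch points -/
  bb : ∀ (a : ℕ → ℝ) (y : ℕ → BW ℤ) (V : ℕ → Fin n → ℤ × ℤ), LatB D x a y V →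
    ∀ S : ℕ → HE ℤ → HE ℤ → ℝ, (∀ k, IsCov (wX (y k) (V k)) (S k)) → ∀ i j : Fin n,
      Tendsto (fun k => kb x (V k) i * kb x (V k) j * ∑ b, ∑ b', S k (V k i, b) (V k j, b')) atTop
        (𝓝 (B i j))

/-- covariance of the plus data under `φ : D → D'` (data of `D'` at `φ ∘ x` primed) -/
def PlusCov (D : Set ℂ) {n : ℕ} (x : Fin n → ℂ) (φ : ℂ → ℂ)
    (bl bl' : ℂ → ℂ → LinearMap.BilinForm ℝ ℂ) (rg rg' : ℂ → LinearMap.BilinForm ℝ ℂ)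
    (η η' : Fin n → ℂ → ℂ →ₗ[ℝ] ℝ) (B B' : Matrix (Fin n) (Fin n) ℝ) : Prop :=
  ∃ (r : ℂ → ℂ) (ε : Fin n → ℝ),
    (∀ i, ε i ^ 2 = 1) ∧
    (∀ z ∈ D, (∀ i, x i ≠ z) → r z ^ 2 = deriv φ z) ∧
    (∀ z z', z ∈ D → z' ∈ D → z ≠ z' → (∀ i, x i ≠ z) → (∀ i, x i ≠ z') → ∀ c c',
      bl z z' c c' = bl' (φ z) (φ z') (r z * c) (r z' * c')) ∧
    (∀ z, z ∈ D → (∀ i, x i ≠ z) → ∀ c c', rg z c c' = rg' (φ z) (r z * c) (r z * c')) ∧
    (∀ j z, z ∈ D → (∀ i, x i ≠ z) → ∀ c, η j z c = ε j * η' j (φ z) (r z * c)) ∧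
    ∀ i j, B i j = ε i * ε j * B' i j

end Crest.Agent.R165.FrIx802
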