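import Crest.Agent.R165.Fr3_802
import Crest.Agent.R165.FrI_802
import Crest.Agent.R165.Cov2_359
import Crest.Agent.R165.Red2_541

/-!
# Row 165 (S0250), leaf FREE TRANSFER, part 4 (helper802): domain backgrounds

* `yS T` : dual moduli of the free background of the site set `T`
* `wX_free`, `wX_dual` : both backgrounds in the form of `Fr1_802`, `fs_free` : hypotheses
* `isCov_dual` : existence of the dual covariance
* `latB_dual` : the dual of the free background of `D` is a plus type background approximating `D`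
* `ray_kap` : gauge signs near a point; `kb_mesh`
-/

set_option autoImplicit false
set_option linter.unusedSimpArgs false

noncomputable section

open Filter Topology Finset
open Crest.ProbabilityR.IsingModel

namespace Crest.Agent.R165.Fr4x802

open Crest.Agent.R165.Latx683 (BW HE wX wDom ray IsCov)
open Crest.Agent.R165.UKerx420 (kap)
open Crest.Agent.R165.FrIx802
open Crest.Agent.R165.Fr1x802 (wp wd ys st OK cw)
open Crest.Agent.R165.Fr2x802 (FS BM KL NN SX Vs)

/-- dual moduli of the free background of the site set `T` -/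
def yS (T : Set (ℤ × ℤ)) : BW ℤ := ys (wDom T true)

/-- horizontal signs of the rays -/
def rs {n : ℕ} (X : Fin n → ℤ × ℤ) : ℤ × ℤ → ℝ := fun z => ray X z 0

theorem xc_pos : 0 < Latx683.xc := Covx359.xc_pos

theorem xc_sq : (1 + Latx683.xc) * (1 + Latx683.xc) = 2 := by
  unfold Latx683.xc
  have h : Real.sqrt 2 * Real.sqrt 2 = 2 := Real.mul_self_sqrt (by norm_num)
  linear_combination h

theorem st_xc : st Latx683.xc = Latx683.xc := by
  unfold st
  have h := xc_sq
  have h1 := xc_pos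
  rw [div_eq_iff (by linarith)]
  linear_combination -h

theorem st_one : st 1 = 0 := by unfold st; norm_num

theorem wDom_free (T : Set (ℤ × ℤ)) [DecidablePred (· ∈ T)] (z : ℤ × ℤ) (j : Fin 2) :
    wDom T true z j = if z ∈ T ∧ z + unitVec j ∈ T then Latx683.xc else 1 := by
  unfold wDom
  simp only [if_true]
  congr

theorem wDom_free_in {T : Set (ℤ × ℤ)} {z : ℤ × ℤ} {j : Fin 2} (h : z ∈ T)
    (h' : z + unitVec j ∈ T) : wDom T true z j = Latx683.xc := by
  classical
  rw [wDom_free, if_pos ⟨h, h'⟩]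

theorem wDom_free_cases (T : Set (ℤ × ℤ)) (z : ℤ × ℤ) (j : Fin 2) :
    (z ∈ T ∧ z + unitVec j ∈ T ∧ wDom T true z j = Latx683.xc) ∨ wDom T true z j = 1 := by
  classical
  rw [wDom_free]
  by_cases h : z ∈ T ∧ z + unitVec j ∈ T
  · rw [if_pos h]; exact Or.inl ⟨h.1, h.2, rfl⟩
  · rw [if_neg h]; exact Or.inr rfl

theorem yS_zero (T : Set (ℤ × ℤ)) [DecidablePred (· ∈ T)] (z : ℤ × ℤ) :
    yS T z 0 = if (z.1, z.2 - 1) ∈ T ∧ z ∈ T then Latx683.xc else 0 := by
  have e : ((z.1, z.2 - 1) : ℤ × ℤ) + unitVec 1 = z := by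
    ext <;> simp [unitVec]
  unfold yS ys
  rw [if_pos rfl, wDom_free, e]
  split_ifs
  · exact st_xc
  · exact st_one

theorem yS_one (T : Set (ℤ × ℤ)) [DecidablePred (· ∈ T)] (z : ℤ × ℤ) :
    yS T z 1 = if (z.1 - 1, z.2) ∈ T ∧ z ∈ T then Latx683.xc else 0 := by
  have e : ((z.1 - 1, z.2) : ℤ × ℤ) + unitVec 0 = z := by
    ext <;> simp [unitVec]
  unfold yS ys
  rw [if_neg (by decide), wDom_free, e]
  split_ifs
  · exact st_xc
  · exact st_one

theorem yS_out {T : Set (ℤ × ℤ)} {z : ℤ × ℤ} (h : z ∉ T) (j : Fin 2) : yS T z j = 0 := by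
  classical
  fin_cases j
  · show yS T z 0 = 0
    rw [yS_zero, if_neg (fun hh => h hh.2)]
  · show yS T z 1 = 0
    rw [yS_one, if_neg (fun hh => h hh.2)]

theorem yS_val (T : Set (ℤ × ℤ)) (z : ℤ × ℤ) (j : Fin 2) : yS T z j = Latx683.xc ∨ yS T z j = 0 := by
  classical
  fin_cases j
  · show yS T z 0 = _ ∨ yS T z 0 = _
    rw [yS_zero]; split_ifs <;> simp
  · show yS T z 1 = _ ∨ yS T z 1 = _
    rw [yS_one]; split_ifs <;> simp

theorem yS_in {T : Set (ℤ × ℤ)} {z : ℤ × ℤ} (h : z ∈ T) (h1 : (z.1 - 1, z.2) ∈ T)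
    (h2 : (z.1, z.2 - 1) ∈ T) (j : Fin 2) : yS T z j = Latx683.xc := by
  classical
  fin_cases j
  · show yS T z 0 = _
    rw [yS_zero, if_pos ⟨h2, h⟩]
  · show yS T z 1 = _
    rw [yS_one, if_pos ⟨h1, h⟩]

/-! ### rays -/

section rays
variable {n : ℕ} (X : Fin n → ℤ × ℤ)

theorem ray_one (z : ℤ × ℤ) : ray X z 1 = 1 := by
  unfold ray
  exact Finset.prod_eq_one fun i _ => if_neg fun h => absurd h.1 (by decide)

theorem rs_eq (z : ℤ × ℤ) : rs X z = ∏ i, if (X i).2 = z.2 ∧ (X i).1 ≤ z.1 then (-1 : ℝ) else 1 := by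
  unfold rs ray
  exact Finset.prod_congr rfl fun i _ => by simp

theorem rs_sq (z : ℤ × ℤ) : rs X z ^ 2 = 1 := by
  rw [rs_eq, ← Finset.prod_pow]
  exact Finset.prod_eq_one fun i _ => by split_ifs <;> norm_num

theorem rs_mul (v : ℤ × ℤ) : rs X (v.1 - 1, v.2) * rs X v = ∏ i, if X i = v then (-1 : ℝ) else 1 := by
  rw [rs_eq, rs_eq, ← Finset.prod_mul_distrib]
  refine Finset.prod_congr rfl fun i _ => ?_
  by_cases h : X i = v
  · rw [if_pos h, if_neg, if_pos]
    · norm_num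
    · rw [h]; exact ⟨rfl, le_rfl⟩
    · rw [h]; rintro ⟨_, h2⟩; simp at h2
  · rw [if_neg h]
    by_cases h2 : (X i).2 = v.2
    · have h1 : (X i).1 ≠ v.1 := fun e => h (Prod.ext e h2)
      by_cases h3 : (X i).1 ≤ v.1
      · rw [if_pos (show (X i).2 = ((v.1 - 1, v.2) : ℤ × ℤ).2 ∧
          (X i).1 ≤ ((v.1 - 1, v.2) : ℤ × ℤ).1 from ⟨h2, by simp only; omega⟩), if_pos ⟨h2, h3⟩]
        norm_num
      · rw [if_neg (fun hh => h3 (le_trans hh.2 (by simp))), if_neg (fun hh => h3 hh.2)]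
        norm_num
    · rw [if_neg (fun hh => h2 hh.1), if_neg (fun hh => h2 hh.1)]
      norm_num

variable {X}

theorem rs_flip (hX : Function.Injective X) (i : Fin n) :
    rs X ((X i).1 - 1, (X i).2) * rs X (X i) = -1 := by
  rw [rs_mul, Finset.prod_eq_single i]
  · simp
  · intro j _ hj
    exact if_neg fun e => hj (hX e)
  · intro h; exact absurd (Finset.mem_univ _) h

theorem rs_noflip (v : ℤ × ℤ) (h : ∀ i, X i ≠ v) : rs X (v.1 - 1, v.2) * rs X v = 1 := by
  rw [rs_mul]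
  exact Finset.prod_eq_one fun i _ => if_neg (h i)

end rays

theorem wX_eq (y : BW ℤ) {n : ℕ} (X : Fin n → ℤ × ℤ) : wX y X = wp y (rs X) := by
  funext z j
  unfold wX wp
  fin_cases j
  · show ray X z 0 * y z 0 = _
    rw [if_pos (by decide)]; rfl
  · show ray X z 1 * y z 1 = _
    rw [ray_one, one_mul, if_neg (by decide)]

theorem wX_dual (T : Set (ℤ × ℤ)) {n : ℕ} (X : Fin n → ℤ × ℤ) :
    wX (yS T) X = wd (wDom T true) (rs X) := wX_eq _ _

theorem ok_free (T : Set (ℤ × ℤ)) {n : ℕ} (X : Fin n → ℤ × ℤ) : OK (wDom T true) (rs X) where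
  ne z j := by
    have h := xc_pos
    rcases wDom_free_cases T z j with h1 | h1
    · rw [h1.2.2]; linarith
    · rw [h1]; norm_num
  sg := rs_sq X

theorem fs_free (T : Set (ℤ × ℤ)) {n : ℕ} {X : Fin n → ℤ × ℤ} (hX : Function.Injective X) :
    FS (wDom T true) (rs X) X where
  toOK := ok_free T X
  inj := hX
  flip := rs_flip hX
  noflip := rs_noflip

theorem isInv_free {T : Set (ℤ × ℤ)} {n : ℕ} {X : Fin n → ℤ × ℤ} {S : HE ℤ → HE ℤ → ℝ}
    (hS : IsCov (wX (wDom T true) X) S) : J2ax606.IsInv (cw (wp (wDom T true) (rs X))) S := by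
  rw [← wX_eq]
  exact Covx359.isInv_of_isCov hS

/-- support of the dual weights -/
theorem dual_supp {T : Set (ℤ × ℤ)} (hT : T.Finite) {n : ℕ} (X : Fin n → ℤ × ℤ)
    (e : J1ax606.EG ℤ) (he : e ∉ hT.toFinset ×ˢ (univ : Finset (Fin 2))) :
    cw (wX (yS T) X) e = 0 := by
  obtain ⟨z, j⟩ := e
  rw [mem_product, Set.Finite.mem_toFinset] at he
  have h : z ∉ T := fun h => he ⟨h, mem_univ _⟩
  show ray X z j * yS T z j = 0
  rw [yS_out h, mul_zero]

theorem finv_dual {T : Set (ℤ × ℤ)} (hT : T.Finite) {n : ℕ} {X : Fin n → ℤ × ℤ}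
    {S : HE ℤ → HE ℤ → ℝ} (hS : IsCov (wX (yS T) X) S) :
    J2bx606.FInv (cw (wd (wDom T true) (rs X))) S := by
  rw [← wX_dual]
  exact Covx359.finv_of_isInv _ (dual_supp hT X) (Covx359.isInv_of_isCov hS)

theorem xc_lt_one : Latx683.xc < 1 := Covx359.xc_lt_one

theorem abs_ray {n : ℕ} (X : Fin n → ℤ × ℤ) (z : ℤ × ℤ) (j : Fin 2) : |ray X z j| = 1 := by
  unfold ray
  rw [Finset.abs_prod]
  exact Finset.prod_eq_one fun i _ => by split_ifs <;> simp

/-- existence of the dual covariance -/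
theorem isCov_dual {T : Set (ℤ × ℤ)} (hT : T.Finite) {n : ℕ} (X : Fin n → ℤ × ℤ) :
    ∃ S, IsCov (wX (yS T) X) S := by
  obtain ⟨S, hS⟩ := Covx359.exists_finv_of_lt (w := cw (wX (yS T) X))
    (hT.toFinset ×ˢ (univ : Finset (Fin 2))) (dual_supp hT X) (by
      intro e _
      obtain ⟨z, j⟩ := e
      show |ray X z j * yS T z j| < 1
      rw [abs_mul, abs_ray, one_mul]
      rcases yS_val T z j with h | h
      · rw [h, abs_of_pos xc_pos]; exact xc_lt_one
      · rw [h]; simp)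
  exact ⟨S, Covx359.isCov_of_finv hS⟩

/-! ### the dual background approximates the domain -/

theorem mesh_dist (a : ℝ) (z w : ℤ × ℤ) : ‖meshPoint a z - meshPoint a w‖ ≤
    |a| * (|((z.1 - w.1 : ℤ) : ℝ)| + |((z.2 - w.2 : ℤ) : ℝ)|) := by
  refine (Complex.norm_le_abs_re_add_abs_im _).trans (le_of_eq ?_)
  have e1 : (meshPoint a z - meshPoint a w).re = a * ((z.1 - w.1 : ℤ) : ℝ) := by
    simp [meshPoint]; ring
  have e2 : (meshPoint a z - meshPoint a w).im = a * ((z.2 - w.2 : ℤ) : ℝ) := by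
    simp [meshPoint]; ring
  rw [e1, e2, abs_mul, abs_mul]
  ring

theorem latB_dual {D : Set ℂ} (hD : IsOpen D) (hb : Bornology.IsBounded D) {n : ℕ} {x : Fin n → ℂ}
    {a : ℕ → ℝ} (pos : ∀ k, 0 < a k) (lim : Tendsto a atTop (𝓝 0)) {V : ℕ → Fin n → ℤ × ℤ}
    (tip : ∀ i, Tendsto (fun k => meshPoint (a k) (V k i)) atTop (𝓝 (x i))) :
    LatB D x a (fun k => yS (domainSites D (a k))) V where
  pos := pos
  lim := lim
  val k z j := yS_val _ z j
  tip := tip
  ins K hK hKD := by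
    obtain ⟨δ, hδ, hsub⟩ := hK.exists_thickening_subset_open hD hKD
    filter_upwards [lim.eventually (eventually_lt_nhds hδ)] with k hk z hz j
    have ha := pos k
    have key : ∀ w : ℤ × ℤ, |((z.1 - w.1 : ℤ) : ℝ)| + |((z.2 - w.2 : ℤ) : ℝ)| ≤ 1 →
        w ∈ domainSites D (a k) := by
      intro w hw
      apply hsub
      rw [Metric.mem_thickening_iff]
      refine ⟨_, hz, ?_⟩
      rw [dist_comm, dist_eq_norm]
      refine (mesh_dist _ _ _).trans_lt ?_
      rw [abs_of_pos ha]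
      nlinarith
    apply yS_in
    · exact key z (by simp)
    · exact key _ (by simp)
    · exact key _ (by simp)
  out K _ hKD := by
    filter_upwards with k z hz j
    apply yS_out
    intro h
    exact Set.disjoint_left.1 hKD hz (subset_closure h)
  bdd := by
    obtain ⟨R, hR⟩ := hb.subset_ball 0
    refine ⟨R, fun k z hz j => yS_out (fun h => ?_) j⟩
    have := hR h
    rw [Metric.mem_ball, dist_zero_right] at this
    linarith

/-! ### gauge signs near a point -/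

section gauge
variable {n : ℕ} {x : Fin n → ℂ} {a : ℕ → ℝ} {V : ℕ → Fin n → ℤ × ℤ}

theorem tip_re {p : ℕ → ℤ × ℤ} {z : ℂ} (h : Tendsto (fun k => meshPoint (a k) (p k)) atTop (𝓝 z)) :
    Tendsto (fun k => a k * ((p k).1 : ℝ)) atTop (𝓝 z.re) :=
  (Complex.continuous_re.tendsto _).comp h

theorem tip_im {p : ℕ → ℤ × ℤ} {z : ℂ} (h : Tendsto (fun k => meshPoint (a k) (p k)) atTop (𝓝 z)) :
    Tendsto (fun k => a k * ((p k).2 : ℝ)) atTop (𝓝 z.im) :=
  (Complex.continuous_im.tendsto _).comp h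

theorem ev_lt (pos : ∀ k, 0 < a k) {p q : ℕ → ℤ} {s t : ℝ}
    (h : Tendsto (fun k => a k * (p k : ℝ)) atTop (𝓝 s))
    (h' : Tendsto (fun k => a k * (q k : ℝ)) atTop (𝓝 t)) (hst : s < t) : ∀ᶠ k in atTop, p k < q k := by
  filter_upwards [h.eventually_lt h' hst] with k hk
  have := lt_of_mul_lt_mul_left hk (pos k).le
  exact_mod_cast this

/-- the ray sign near `z`, for arbitrary sites tending to `z` -/
theorem ray_kap (pos : ∀ k, 0 < a k)
    (tip : ∀ i, Tendsto (fun k => meshPoint (a k) (V k i)) atTop (𝓝 (x i)))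
    {z : ℂ} (hz : ∀ i, x i ≠ z) {f : ℕ → ℤ × ℤ}
    (hf : Tendsto (fun k => meshPoint (a k) (f k)) atTop (𝓝 z)) :
    ∀ᶠ k in atTop, rs (V k) (f k) = kap x (V k) z (f k) * kap x (V k) z ((f k).1, (f k).2 - 1) := by
  classical
  have key : ∀ i, ∀ᶠ k in atTop, (((V k i).2 = (f k).2 ∧ (V k i).1 ≤ (f k).1) ↔
      ((x i).im = z.im ∧ (x i).re < z.re ∧ (V k i).2 = (f k).2)) := by
    intro i
    by_cases him : (x i).im = z.im
    · have hre : (x i).re ≠ z.re := fun h => hz i (Complex.ext h him)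
      rcases lt_or_gt_of_ne hre with h | h
      · filter_upwards [ev_lt pos (tip_re (tip i)) (tip_re hf) h] with k hk
        exact ⟨fun hh => ⟨him, h, hh.1⟩, fun hh => ⟨hh.2.2, hk.le⟩⟩
      · filter_upwards [ev_lt pos (tip_re hf) (tip_re (tip i)) h] with k hk
        exact ⟨fun hh => absurd hh.2 (not_le.2 hk), fun hh => absurd hh.2.1 (not_lt.2 h.le)⟩
    · rcases lt_or_gt_of_ne him with h | h
      · filter_upwards [ev_lt pos (tip_im (tip i)) (tip_im hf) h] with k hk
        exact ⟨fun hh => absurd hh.1 hk.ne, fun hh => absurd hh.1 him⟩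
      · filter_upwards [ev_lt pos (tip_im hf) (tip_im (tip i)) h] with k hk
        exact ⟨fun hh => absurd hh.1 hk.ne', fun hh => absurd hh.1 him⟩
  filter_upwards [eventually_all.2 key] with k hk
  rw [rs_eq]
  unfold kap
  rw [← Finset.prod_mul_distrib]
  refine Finset.prod_congr rfl fun i _ => ?_
  have hi := hk i
  by_cases hr : (x i).im = z.im ∧ (x i).re < z.re
  · by_cases h2 : (V k i).2 = (f k).2
    · rw [if_pos (hi.2 ⟨hr.1, hr.2, h2⟩), if_neg (fun h => by have := h.2.2; omega),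
        if_pos ⟨hr.1, hr.2, by simp only; omega⟩]
      norm_num
    · rw [if_neg (fun h => h2 h.1)]
      by_cases h3 : (f k).2 < (V k i).2
      · rw [if_pos ⟨hr.1, hr.2, h3⟩, if_pos ⟨hr.1, hr.2, by simp only; omega⟩]
        norm_num
      · rw [if_neg (fun h => h3 h.2.2), if_neg (fun h => by have := h.2.2; simp only at this; omega)]
        norm_num
  · rw [if_neg (fun h => hr ⟨(hi.1 h).1, (hi.1 h).2.1⟩), if_neg (fun h => hr ⟨h.1, h.2.1⟩),
      if_neg (fun h => hr ⟨h.1, h.2.1⟩)]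
    norm_num

/-- `kap` depends on the row only -/
theorem kap_row (x : Fin n → ℂ) (V : Fin n → ℤ × ℤ) (z : ℂ) {f g : ℤ × ℤ} (h : f.2 = g.2) :
    kap x V z f = kap x V z g := by
  unfold kap
  simp only [h]

theorem kb_mesh (x : Fin n → ℂ) (a : ℝ) (j : Fin n) : kb x (fun i => meshIndex a (x i)) j = 1 := by
  unfold kb kap
  refine Finset.prod_eq_one fun i _ => ?_
  rw [if_neg]
  rintro ⟨h1, -, h3⟩
  simp only [meshIndex, h1] at h3
  exact lt_irrefl _ h3

end gauge

end Crest.Agent.R165.Fr4x802
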