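import Crest.Agent.R165.Tr1_40

/-!
# Row 165 (S0250): FREE-GLOBAL, part A (helper441)

Starred (dual) fields of a background with weights of size `u` (`0 < u`), and signs `s` on the
horizontal bonds (`s v` = sign of the bond `(v, v + e₁)`), *spin insertions allowed*.

Nodes = primal vertices `v`, half-edges of a node `0,1,2,3 = S,E,N,W` as for faces.  The four
faces around `v` are `v` (NE), `v - e₁` (NW), `v - e₁ - e₂` (SW), `v - e₂` (SE).

* `wf s u`     : the signed weights
* `fs s u φ`   : the starred field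
* `ws s u`     : the starred weights (plus type when `u ∈ {x_c, 1}`)
* `star_A`     : `A (ws) (fs φ) = T₀ (A (wf) φ) + (insertion term at the nodes with s v ≠ s (v - e₁))`
* `star_m`     : the constraint at an insertion
-/

set_option autoImplicit false

noncomputable section

namespace Crest.Agent.R165.FrAx441

open Finset
open Crest.Agent.R165.Tr1x40

/-- the signed weights: sizes `u`, signs `s` on the horizontal bonds -/
def wf (s : Face → ℝ) (u : Fld) : Fld := fun f h =>
  match h with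
  | 0 => s f * u f 0
  | 1 => u f 1
  | 2 => s (f.1, f.2 + 1) * u f 2
  | 3 => u f 3

/-- dual weight -/
def du (y : ℝ) : ℝ := (1 - y) / (1 + y)

/-- the starred field -/
def fs (s : Face → ℝ) (u φ : Fld) : Fld := fun v h =>
  match h with
  | 0 => -((1 + u (v.1, v.2 - 1) 3) / 2) * (s v * (φ (v.1 - 1, v.2 - 1) 1 + φ (v.1, v.2 - 1) 3))
  | 1 => ((1 + u v 0) / 2) * (φ v 0 - s v * φ (v.1, v.2 - 1) 2)
  | 2 => -((1 + u v 3) / 2) * (φ v 3 - φ (v.1 - 1, v.2) 1)
  | 3 => ((1 + u (v.1 - 1, v.2) 0) / 2) *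
      (s (v.1 - 1, v.2) * φ (v.1 - 1, v.2 - 1) 2 + φ (v.1 - 1, v.2) 0)

/-- the starred weights -/
def ws (s : Face → ℝ) (u : Fld) : Fld := fun v h =>
  match h with
  | 0 => s v * du (u (v.1, v.2 - 1) 3)
  | 1 => du (u v 0)
  | 2 => s (v.1, v.2 + 1) * du (u v 3)
  | 3 => du (u (v.1 - 1, v.2) 0)

theorem sym_wf {s : Face → ℝ} {u : Fld} (hu : Sym u) : Sym (wf s u) := by
  intro f h
  have h0 := hu f h
  fin_cases h <;> simp [wf, nb, op] at h0 ⊢ <;> simp [h0]

theorem sym_ws (s : Face → ℝ) (u : Fld) : Sym (ws s u) := by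
  intro f h
  fin_cases h
  · simp [ws, nb, op]
  · simp [ws, nb, op]
  · simp [ws, nb, op]
  · simp [ws, nb, op]

/-- corner mismatches around a node, in the gauge of the node; `g = A φ` -/
def r1 (g : Fld) (v : Face) : ℝ := g v 0 + g v 3
def r2 (g : Fld) (v : Face) : ℝ := g (v.1 - 1, v.2) 0 - g (v.1 - 1, v.2) 1
def r3 (g : Fld) (v : Face) : ℝ := g (v.1 - 1, v.2 - 1) 1 - g (v.1 - 1, v.2 - 1) 2
def r4 (g : Fld) (v : Face) : ℝ := g (v.1, v.2 - 1) 2 - g (v.1, v.2 - 1) 3

/-- corner value at `(v, SW)` read on the west bond minus the one read on the south bond, halved -/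
def am (s : Face → ℝ) (u φ : Fld) (v : Face) : ℝ :=
  ((φ (v.1 - 1, v.2 - 1) 2 + wf s u (v.1 - 1, v.2 - 1) 2 * φ (v.1 - 1, v.2) 0)
    - (φ (v.1 - 1, v.2 - 1) 1 + wf s u (v.1 - 1, v.2 - 1) 1 * φ (v.1, v.2 - 1) 3)) / 2

/-- assembling four mismatches into a source at a node -/
def asm (a b c d : ℝ) (h : Fin 4) : ℝ :=
  match h with
  | 0 => (-d - a + b + c) / 2
  | 1 => (d - a + b + c) / 2
  | 2 => (d + a + b + c) / 2
  | 3 => (d + a - b + c) / 2

/-- **starred equation**, insertions allowed: `σ = s v`, `τ = s (v - e₁)` -/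
theorem star_A (s : Face → ℝ) (u φ : Fld) (hu : Sym u) (hs : ∀ v, s v ^ 2 = 1)
    (hpos : ∀ f h, 0 < u f h) (v : Face) (h : Fin 4) :
    A (ws s u) (fs s u φ) v h
      = asm (r1 (A (wf s u) φ) v) (r2 (A (wf s u) φ) v)
          ((s (v.1 - 1, v.2) + s v) / 2 * r3 (A (wf s u) φ) v
            + (s (v.1 - 1, v.2) - s v) * am s u φ v)
          (s v * r4 (A (wf s u) φ) v) h := by
  obtain ⟨i, j⟩ := v
  have a1 := hpos (i, j - 1) 3
  have a2 := hpos (i, j) 0
  have a3 := hpos (i, j) 3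
  have a4 := hpos (i - 1, j) 0
  have b1 : u (i, j - 1) 2 = u (i, j) 0 := by
    have := hu (i, j) 0; simpa [nb, op] using this
  have b2 : u (i - 1, j) 1 = u (i, j) 3 := by
    have := hu (i, j) 3; simpa [nb, op] using this
  have b3 : u (i - 1, j - 1) 1 = u (i, j - 1) 3 := by
    have := hu (i, j - 1) 3; simpa [nb, op] using this
  have b4 : u (i - 1, j - 1) 2 = u (i - 1, j) 0 := by
    have := hu (i - 1, j) 0; simpa [nb, op] using this
  have c1 := sq_eq_one_iff.1 (hs (i, j))
  have c2 := sq_eq_one_iff.1 (hs (i - 1, j))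
  have c3 := sq_eq_one_iff.1 (hs (i, j + 1))
  have d1 : (1 + u (i, j - 1) 3) ≠ 0 := by positivity
  have d2 : (1 + u (i, j) 0) ≠ 0 := by positivity
  have d3 : (1 + u (i, j) 3) ≠ 0 := by positivity
  have d4 : (1 + u (i - 1, j) 0) ≠ 0 := by positivity
  fin_cases h
  all_goals
    simp only [A_S, A_E, A_N, A_W, asm, r1, r2, r3, r4, am, ws, fs, wf, du, Fin.zero_eta,
      Fin.mk_one, Fin.reduceFinMk, b1, b2, b3, b4, sub_add_cancel, add_sub_cancel_right]
    rcases c1 with c1 | c1 <;> rcases c2 with c2 | c2 <;> rcases c3 with c3 | c3 <;>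
      simp only [c1, c2, c3] <;> field_simp <;> ring

/-- total charge of a node -/
def tot (ψ : Fld) (v : Face) : ℝ := ψ v 0 + ψ v 1 + ψ v 2 + ψ v 3

/-- **constraint** at an insertion (`s (v - e₁) = - s v`) -/
theorem star_m (s : Face → ℝ) (u φ : Fld) (hu : Sym u) (hs : ∀ v, s v ^ 2 = 1)
    (v : Face) (hv : s (v.1 - 1, v.2) = -s v) :
    tot (fs s u φ) v
      = (-(s v) * r3 (A (wf s u) φ) v - s v * r4 (A (wf s u) φ) v
          - r1 (A (wf s u) φ) v + r2 (A (wf s u) φ) v) / 2 := by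
  obtain ⟨i, j⟩ := v
  have b1 : u (i, j - 1) 2 = u (i, j) 0 := by
    have := hu (i, j) 0; simpa [nb, op] using this
  have b2 : u (i - 1, j) 1 = u (i, j) 3 := by
    have := hu (i, j) 3; simpa [nb, op] using this
  have b3 : u (i - 1, j - 1) 1 = u (i, j - 1) 3 := by
    have := hu (i, j - 1) 3; simpa [nb, op] using this
  have b4 : u (i - 1, j - 1) 2 = u (i - 1, j) 0 := by
    have := hu (i - 1, j) 0; simpa [nb, op] using this
  have c1 := sq_eq_one_iff.1 (hs (i, j))
  have hv' : s (i - 1, j) = -s (i, j) := hv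
  simp only [tot, A_S, A_E, A_N, A_W, r1, r2, r3, r4, fs, wf, b1, b2, b3, b4, sub_add_cancel, hv']
  rcases c1 with c1 | c1 <;> simp only [c1] <;> ring

/-! ### the free background: sizes in `{x_c, 1}` -/

theorem du_xc : du xc = xc := by
  have h := xc_sq
  have h0 := xc_pos
  unfold du
  rw [div_eq_iff (by linarith)]
  nlinarith

theorem du_one : du 1 = 0 := by simp [du]

/-- the starred weights of a free background are of plus type -/
theorem isPlus_ws {s : Face → ℝ} {u : Fld} (hs : ∀ v, s v ^ 2 = 1)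
    (hux : ∀ f h, u f h = xc ∨ u f h = 1) : IsPlus (ws s u) := by
  have key : ∀ f h, du (u f h) ^ 2 = xc ^ 2 ∨ du (u f h) = 0 := by
    intro f h
    rcases hux f h with h0 | h0
    · left; rw [h0, du_xc]
    · right; rw [h0, du_one]
  intro v h
  fin_cases h
  · rcases key (v.1, v.2 - 1) 3 with h0 | h0
    · left; simp only [ws]; rw [mul_pow, hs, h0, one_mul]
    · right; simp only [ws]; rw [h0, mul_zero]
  · exact key v 0
  · rcases key v 3 with h0 | h0
    · left; simp only [ws]; rw [mul_pow, hs, h0, one_mul]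
    · right; simp only [ws]; rw [h0, mul_zero]
  · exact key (v.1 - 1, v.2) 0

end Crest.Agent.R165.FrAx441
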