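import Crest.Agent.R165.Tr2_40
import Crest.Agent.R165.FrA_441

/-!
# Row 165 (S0250): FREE-GLOBAL, part B (helper441)

Calculus of finitely supported half-edge fields: `FS`, `N2`, `ip`; antisymmetry of `A`;
`N2 φ ≤ 2 N2 (fs φ)`, `N2 (fs φ) ≤ 2 N2 φ`; solvability of plus type systems.
-/

set_option autoImplicit false

noncomputable section

namespace Crest.Agent.R165.FrBx441

open Finset
open Crest.Agent.R165.Tr1x40 Crest.Agent.R165.Tr2x40 Crest.Agent.R165.FrAx441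

/-- finitely supported fields -/
def FS (φ : Fld) : Prop := ∃ K : Finset Face, ∀ f, f ∉ K → φ f = 0

/-- squared norm -/
def N2 (φ : Fld) : ℝ := ∑' f, nsq (φ f)

/-- scalar product -/
def ip (φ ψ : Fld) : ℝ := ∑' f, ∑ h, φ f h * ψ f h

theorem nsq_zero : nsq (0 : Fin 4 → ℝ) = 0 := by simp [nsq]

theorem N2_eq {φ : Fld} {K : Finset Face} (h : ∀ f, f ∉ K → φ f = 0) :
    N2 φ = ∑ f ∈ K, nsq (φ f) := by
  unfold N2
  exact tsum_eq_sum fun f hf => by rw [h f hf, nsq_zero]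

theorem ip_eq {φ ψ : Fld} {K : Finset Face} (h : ∀ f, f ∉ K → φ f = 0) :
    ip φ ψ = ∑ f ∈ K, ∑ h, φ f h * ψ f h := by
  unfold ip
  exact tsum_eq_sum fun f hf => by rw [h f hf]; simp

theorem ip_comm (φ ψ : Fld) : ip φ ψ = ip ψ φ := by
  unfold ip
  exact tsum_congr fun f => sum_congr rfl fun h _ => mul_comm _ _

theorem ip_self (φ : Fld) : ip φ φ = N2 φ := by
  unfold ip N2
  refine tsum_congr fun f => ?_
  unfold nsq
  exact sum_congr rfl fun h _ => by ring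

theorem N2_nonneg (φ : Fld) : 0 ≤ N2 φ := tsum_nonneg fun _ => nsq_nonneg _

theorem FS.zero : FS 0 := ⟨∅, fun _ _ => rfl⟩

theorem FS.add {φ ψ : Fld} (h1 : FS φ) (h2 : FS ψ) : FS (φ + ψ) := by
  classical
  obtain ⟨K, hK⟩ := h1
  obtain ⟨L, hL⟩ := h2
  refine ⟨K ∪ L, fun f hf => ?_⟩
  rw [mem_union, not_or] at hf
  rw [Pi.add_apply, hK f hf.1, hL f hf.2, add_zero]

theorem FS.smul {φ : Fld} (c : ℝ) (h1 : FS φ) : FS (c • φ) := by
  obtain ⟨K, hK⟩ := h1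
  exact ⟨K, fun f hf => by rw [Pi.smul_apply, hK f hf, smul_zero]⟩

theorem FS.neg {φ : Fld} (h1 : FS φ) : FS (-φ) := by
  obtain ⟨K, hK⟩ := h1
  exact ⟨K, fun f hf => by rw [Pi.neg_apply, hK f hf, neg_zero]⟩

theorem FS.sub {φ ψ : Fld} (h1 : FS φ) (h2 : FS ψ) : FS (φ - ψ) := by
  rw [sub_eq_add_neg]; exact h1.add h2.neg

theorem FS.sum {ι : Type*} (X : Finset ι) (F : ι → Fld) (h : ∀ i ∈ X, FS (F i)) :
    FS (∑ i ∈ X, F i) := by
  classical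
  induction X using Finset.induction_on with
  | empty => simpa using FS.zero
  | insert a s ha ih =>
    rw [sum_insert ha]
    exact (h a (mem_insert_self _ _)).add (ih fun i hi => h i (mem_insert_of_mem hi))

/-- finitely supported functions stay so after a bounded displacement -/
theorem FS.shift {φ : Fld} (h1 : FS φ) (L : Finset (ℤ × ℤ)) :
    ∃ K : Finset Face, ∀ f, f ∉ K → ∀ d ∈ L, φ (f.1 + d.1, f.2 + d.2) = 0 := by
  classical
  obtain ⟨K, hK⟩ := h1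
  refine ⟨(K ×ˢ L).image fun p => (p.1.1 - p.2.1, p.1.2 - p.2.2), fun f hf d hd => ?_⟩
  by_contra hc
  have : (f.1 + d.1, f.2 + d.2) ∈ K := by
    by_contra h0
    exact hc (hK _ h0)
  apply hf
  rw [mem_image]
  exact ⟨((f.1 + d.1, f.2 + d.2), d), mem_product.2 ⟨this, hd⟩, by ext <;> simp⟩

/-- the displacements used below -/
def disp : Finset (ℤ × ℤ) :=
  {(0, 0), (1, 0), (-1, 0), (0, 1), (0, -1), (-1, -1), (1, 1), (1, -1), (-1, 1)}

theorem FS.near {φ : Fld} (h1 : FS φ) :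
    ∃ K : Finset Face, ∀ i j : ℤ, (i, j) ∉ K →
      φ (i, j) = 0 ∧ φ (i + 1, j) = 0 ∧ φ (i - 1, j) = 0 ∧ φ (i, j + 1) = 0 ∧ φ (i, j - 1) = 0 ∧
        φ (i - 1, j - 1) = 0 ∧ φ (i + 1, j + 1) = 0 := by
  obtain ⟨K, hK⟩ := h1.shift disp
  refine ⟨K, fun i j hf => ?_⟩
  have h := hK (i, j) hf
  refine ⟨?_, ?_, ?_, ?_, ?_, ?_, ?_⟩
  · have := h (0, 0) (by simp [disp]); simpa using this
  · have := h (1, 0) (by simp [disp]); simpa using this
  · have := h (-1, 0) (by simp [disp]); simpa [sub_eq_add_neg] using this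
  · have := h (0, 1) (by simp [disp]); simpa using this
  · have := h (0, -1) (by simp [disp]); simpa [sub_eq_add_neg] using this
  · have := h (-1, -1) (by simp [disp]); simpa [sub_eq_add_neg] using this
  · have := h (1, 1) (by simp [disp]); simpa using this

theorem FS.A {φ : Fld} (w : Fld) (h1 : FS φ) : FS (A w φ) := by
  obtain ⟨K, hK⟩ := h1.near
  refine ⟨K, fun f hf => ?_⟩
  obtain ⟨i, j⟩ := f
  obtain ⟨a0, a1, a2, a3, a4, -, -⟩ := hK i j hf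
  funext h
  fin_cases h
  · simp [A_S, a0, a4]
  · simp [A_E, a0, a1]
  · simp [A_N, a0, a3]
  · simp [A_W, a0, a2]

theorem FS.fs {φ : Fld} (s : Face → ℝ) (u : Fld) (h1 : FS φ) : FS (fs s u φ) := by
  obtain ⟨K, hK⟩ := h1.near
  refine ⟨K, fun f hf => ?_⟩
  obtain ⟨i, j⟩ := f
  obtain ⟨a0, a1, a2, a3, a4, a5, -⟩ := hK i j hf
  funext h
  fin_cases h <;> simp [FrAx441.fs, a0, a2, a4, a5]

theorem nsq_le_N2 {φ : Fld} (h : FS φ) (f : Face) : nsq (φ f) ≤ N2 φ := by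
  classical
  obtain ⟨K, hK⟩ := h
  rw [N2_eq (K := insert f K) fun g hg => hK g fun h0 => hg (mem_insert_of_mem h0)]
  exact single_le_sum (f := fun g => nsq (φ g)) (fun g _ => nsq_nonneg _) (mem_insert_self _ _)

theorem nsq_add_le (p q : Fin 4 → ℝ) : nsq (p + q) ≤ 2 * nsq p + 2 * nsq q := by
  simp only [nsq_eq, Pi.add_apply]
  nlinarith [sq_nonneg (p 0 - q 0), sq_nonneg (p 1 - q 1), sq_nonneg (p 2 - q 2),
    sq_nonneg (p 3 - q 3)]

theorem nsq_smul (c : ℝ) (p : Fin 4 → ℝ) : nsq (c • p) = c ^ 2 * nsq p := by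
  simp only [nsq_eq, Pi.smul_apply, smul_eq_mul]; ring

theorem summ_nsq {φ : Fld} (h : FS φ) : Summable fun f => nsq (φ f) := by
  obtain ⟨K, hK⟩ := h
  exact summable_of_ne_finset_zero (s := K) fun f hf => by rw [hK f hf, nsq_zero]

theorem N2_add_le {φ ψ : Fld} (h1 : FS φ) (h2 : FS ψ) :
    N2 (φ + ψ) ≤ 2 * N2 φ + 2 * N2 ψ := by
  unfold N2
  rw [← tsum_mul_left, ← tsum_mul_left,
    ← ((summ_nsq h1).mul_left 2).tsum_add ((summ_nsq h2).mul_left 2)]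
  exact (summ_nsq (h1.add h2)).tsum_le_tsum (fun f => nsq_add_le _ _)
    (((summ_nsq h1).mul_left 2).add ((summ_nsq h2).mul_left 2))

theorem N2_smul (c : ℝ) (φ : Fld) : N2 (c • φ) = c ^ 2 * N2 φ := by
  unfold N2
  rw [← tsum_mul_left]
  exact tsum_congr fun f => nsq_smul _ _

theorem N2_zero : N2 (0 : Fld) = 0 := by
  have := N2_eq (φ := (0 : Fld)) (K := ∅) fun _ _ => rfl
  simpa using this

theorem N2_sum_le {ι : Type*} (X : Finset ι) (F : ι → Fld) (h : ∀ i ∈ X, FS (F i)) :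
    N2 (∑ i ∈ X, F i) ≤ X.card * ∑ i ∈ X, N2 (F i) := by
  classical
  have hs : ∀ f, nsq ((∑ i ∈ X, F i) f) ≤ X.card * ∑ i ∈ X, nsq (F i f) := by
    intro f
    have e : ∀ h, ((∑ i ∈ X, F i) f h) ^ 2 ≤ X.card * ∑ i ∈ X, F i f h ^ 2 := by
      intro h
      rw [Finset.sum_apply, Finset.sum_apply]
      exact sq_sum_le_card_mul_sum_sq
    unfold nsq
    rw [sum_comm, mul_sum]
    exact sum_le_sum fun h _ => e h
  have hsum : Summable fun f => (X.card : ℝ) * ∑ i ∈ X, nsq (F i f) :=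
    (summable_sum fun i hi => summ_nsq (h i hi)).mul_left _
  calc N2 (∑ i ∈ X, F i) ≤ ∑' f, (X.card : ℝ) * ∑ i ∈ X, nsq (F i f) :=
        (summ_nsq (FS.sum X F h)).tsum_le_tsum hs hsum
    _ = X.card * ∑ i ∈ X, N2 (F i) := by
        rw [tsum_mul_left]
        congr 1
        exact Summable.tsum_finsetSum fun i hi => summ_nsq (h i hi)

/-- antisymmetry of `A` on finitely supported fields -/
theorem ip_A {w : Fld} (hw : Sym w) {φ ψ : Fld} (h1 : FS φ) (h2 : FS ψ) :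
    ip φ (A w ψ) = -ip (A w φ) ψ := by
  classical
  obtain ⟨K, hK⟩ := h1.near
  obtain ⟨L, hL⟩ := h2
  obtain ⟨M, hM⟩ := FS.A w h1
  have hK' : ∀ f, f ∉ K → φ f = 0 ∧ ∀ h, φ (nb f h) = 0 := by
    intro f hf
    obtain ⟨i, j⟩ := f
    obtain ⟨a0, a1, a2, a3, a4, -, -⟩ := hK i j hf
    refine ⟨a0, fun h => ?_⟩
    fin_cases h
    · simpa using a4
    · simpa using a1
    · simpa using a3
    · simpa using a2
  have e1 : ip φ (A w ψ) = ∑ f ∈ K ∪ M, ∑ h, φ f h * A w ψ f h :=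
    ip_eq fun f hf => (hK' f fun h => hf (mem_union_left _ h)).1
  have e2 : ip (A w φ) ψ = ∑ f ∈ K ∪ M, ∑ h, A w φ f h * ψ f h :=
    ip_eq fun f hf => hM f fun h => hf (mem_union_right _ h)
  rw [e1, e2]
  refine A_antisymm hw φ ψ (K ∪ M) (fun f hf h => ?_) (fun f hf h => ?_)
  · rw [(hK' f fun h => hf (mem_union_left _ h)).1]; rfl
  · rw [(hK' f fun h => hf (mem_union_left _ h)).2 h]; simp

/-! ### shifts -/

theorem tsum_shift (F : Face → ℝ) (a b : ℤ) : ∑' f : Face, F (f.1 + a, f.2 + b) = ∑' f, F f :=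
  (Equiv.addRight ((a, b) : ℤ × ℤ)).tsum_eq F

theorem summ_shift {F : Face → ℝ} (h : Summable F) (a b : ℤ) :
    Summable fun f : Face => F (f.1 + a, f.2 + b) :=
  (Equiv.addRight ((a, b) : ℤ × ℤ)).summable_iff.2 h

theorem summ_of_FS {φ : Fld} (h : FS φ) (c : Face → ℝ) (k : Fin 4) :
    Summable fun f => c f * φ f k ^ 2 := by
  obtain ⟨K, hK⟩ := h
  exact summable_of_ne_finset_zero (s := K) fun f hf => by rw [hK f hf]; simp

theorem N2_four {φ : Fld} (h : FS φ) :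
    N2 φ = ∑' f, φ f 0 ^ 2 + ∑' f, φ f 1 ^ 2 + ∑' f, φ f 2 ^ 2 + ∑' f, φ f 3 ^ 2 := by
  have s : ∀ k, Summable fun f => φ f k ^ 2 := fun k => by
    simpa using summ_of_FS h (fun _ => 1) k
  unfold N2
  rw [← (s 0).tsum_add (s 1), ← ((s 0).add (s 1)).tsum_add (s 2),
    ← (((s 0).add (s 1)).add (s 2)).tsum_add (s 3)]
  exact tsum_congr fun f => nsq_eq _

/-- **norm identity** of the star map -/
theorem N2_fs {s : Face → ℝ} {u φ : Fld} (hu : Sym u) (hs : ∀ v, s v ^ 2 = 1) (h : FS φ) :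
    N2 (fs s u φ) = ∑' f, ∑ k, ((1 + u f k) ^ 2 / 2) * φ f k ^ 2 := by
  have hc : ∀ k, Summable fun f => ((1 + u f k) ^ 2 / 2) * φ f k ^ 2 := fun k =>
    summ_of_FS h (fun f => (1 + u f k) ^ 2 / 2) k
  have hq : ∀ k, Summable fun f => fs s u φ f k ^ 2 := fun k => by
    simpa using summ_of_FS (FS.fs s u h) (fun _ => 1) k
  -- horizontal bonds
  have eH : ∀ f : Face, fs s u φ f 1 ^ 2 + fs s u φ (f.1 + 1, f.2 + 0) 3 ^ 2
      = ((1 + u f 0) ^ 2 / 2) * φ f 0 ^ 2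
        + ((1 + u (f.1 + 0, f.2 + (-1)) 2) ^ 2 / 2) * φ (f.1 + 0, f.2 + (-1)) 2 ^ 2 := by
    rintro ⟨i, j⟩
    have b1 : u (i, j - 1) 2 = u (i, j) 0 := by
      have := hu (i, j) 0; simpa [nb, op] using this
    have c1 := hs (i, j)
    simp only [FrAx441.fs, add_zero, add_sub_cancel_right, ← sub_eq_add_neg, b1]
    linear_combination (((1 + u (i, j) 0) / 2) ^ 2 * 2 * φ (i, j - 1) 2 ^ 2) * c1
  have eV : ∀ f : Face, fs s u φ f 2 ^ 2 + fs s u φ (f.1 + 0, f.2 + 1) 0 ^ 2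
      = ((1 + u f 3) ^ 2 / 2) * φ f 3 ^ 2
        + ((1 + u (f.1 + (-1), f.2 + 0) 1) ^ 2 / 2) * φ (f.1 + (-1), f.2 + 0) 1 ^ 2 := by
    rintro ⟨i, j⟩
    have b2 : u (i - 1, j) 1 = u (i, j) 3 := by
      have := hu (i, j) 3; simpa [nb, op] using this
    have c1 := hs (i, j + 1)
    simp only [FrAx441.fs, add_zero, add_sub_cancel_right, ← sub_eq_add_neg, b2]
    linear_combination (((1 + u (i, j) 3) / 2) ^ 2 * (φ (i - 1, j) 1 + φ (i, j) 3) ^ 2) * c1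
  rw [N2_four (FS.fs s u h)]
  have r : ∑' f, ∑ k, ((1 + u f k) ^ 2 / 2) * φ f k ^ 2
      = ∑' f, ((1 + u f 0) ^ 2 / 2) * φ f 0 ^ 2 + ∑' f, ((1 + u f 1) ^ 2 / 2) * φ f 1 ^ 2
        + ∑' f, ((1 + u f 2) ^ 2 / 2) * φ f 2 ^ 2 + ∑' f, ((1 + u f 3) ^ 2 / 2) * φ f 3 ^ 2 := by
    rw [← (hc 0).tsum_add (hc 1), ← ((hc 0).add (hc 1)).tsum_add (hc 2),
      ← (((hc 0).add (hc 1)).add (hc 2)).tsum_add (hc 3)]
    exact tsum_congr fun f => by rw [Fin.sum_univ_four]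
  rw [r]
  have h13 : ∑' f, fs s u φ f 1 ^ 2 + ∑' f, fs s u φ f 3 ^ 2
      = ∑' f, ((1 + u f 0) ^ 2 / 2) * φ f 0 ^ 2 + ∑' f, ((1 + u f 2) ^ 2 / 2) * φ f 2 ^ 2 := by
    rw [← tsum_shift (fun f => fs s u φ f 3 ^ 2) 1 0, ← (hq 1).tsum_add (summ_shift (hq 3) 1 0),
      ← tsum_shift (fun f => ((1 + u f 2) ^ 2 / 2) * φ f 2 ^ 2) 0 (-1),
      ← (hc 0).tsum_add (summ_shift (hc 2) 0 (-1))]
    exact tsum_congr eH
  have h20 : ∑' f, fs s u φ f 2 ^ 2 + ∑' f, fs s u φ f 0 ^ 2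
      = ∑' f, ((1 + u f 3) ^ 2 / 2) * φ f 3 ^ 2 + ∑' f, ((1 + u f 1) ^ 2 / 2) * φ f 1 ^ 2 := by
    rw [← tsum_shift (fun f => fs s u φ f 0 ^ 2) 0 1, ← (hq 2).tsum_add (summ_shift (hq 0) 0 1),
      ← tsum_shift (fun f => ((1 + u f 1) ^ 2 / 2) * φ f 1 ^ 2) (-1) 0,
      ← (hc 3).tsum_add (summ_shift (hc 1) (-1) 0)]
    exact tsum_congr eV
  linarith

theorem N2_fs_ge {s : Face → ℝ} {u φ : Fld} (hu : Sym u) (hs : ∀ v, s v ^ 2 = 1)
    (hpos : ∀ f h, 0 < u f h) (h : FS φ) : N2 φ ≤ 2 * N2 (fs s u φ) := by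
  have hc : Summable fun f => ∑ k, ((1 + u f k) ^ 2 / 2) * φ f k ^ 2 :=
    summable_sum fun k _ => summ_of_FS h (fun f => (1 + u f k) ^ 2 / 2) k
  rw [N2_fs hu hs h, ← tsum_mul_left]
  refine (summ_nsq h).tsum_le_tsum (fun f => ?_) (hc.mul_left 2)
  unfold nsq
  rw [mul_sum]
  refine sum_le_sum fun k _ => ?_
  have := hpos f k
  nlinarith [sq_nonneg (φ f k), mul_nonneg this.le (sq_nonneg (φ f k)),
    mul_nonneg (sq_nonneg (u f k)) (sq_nonneg (φ f k))]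

theorem N2_fs_le {s : Face → ℝ} {u φ : Fld} (hu : Sym u) (hs : ∀ v, s v ^ 2 = 1)
    (hpos : ∀ f h, 0 < u f h) (hle : ∀ f h, u f h ≤ 1) (h : FS φ) :
    N2 (fs s u φ) ≤ 2 * N2 φ := by
  have hc : Summable fun f => ∑ k, ((1 + u f k) ^ 2 / 2) * φ f k ^ 2 :=
    summable_sum fun k _ => summ_of_FS h (fun f => (1 + u f k) ^ 2 / 2) k
  rw [N2_fs hu hs h]
  unfold N2
  rw [← tsum_mul_left]
  refine hc.tsum_le_tsum (fun f => ?_) ((summ_nsq h).mul_left 2)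
  unfold nsq
  rw [mul_sum]
  refine sum_le_sum fun k _ => ?_
  have h0 := hpos f k
  have h1 := hle f k
  have : (1 + u f k) ^ 2 ≤ 4 := by nlinarith
  nlinarith [sq_nonneg (φ f k)]

end Crest.Agent.R165.FrBx441
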