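import Crest.Agent.R165.FrB_441

/-!
# Row 165 (S0250): FREE-GLOBAL, part C (helper441)

The abstract gap theorem for a free background with insertions: if the starred (plus type)
system satisfies the square trick bounds `PG` and the matrix `tot (Ψ y) x` of the insertion
columns is invertible with bound `β`, then `N2 φ ≤ C N2 (A φ)`.
-/

set_option autoImplicit false

noncomputable section

namespace Crest.Agent.R165.FrCx441

open Finset
open Crest.Agent.R165.Tr1x40 Crest.Agent.R165.Tr2x40 Crest.Agent.R165.FrAx441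
  Crest.Agent.R165.FrBx441

/-- consequences of the square trick: gap and pointwise bound -/
structure PG (w : Fld) (K Cp : ℝ) : Prop where
  gap : ∀ ψ, FS ψ → N2 ψ ≤ K ^ 2 * N2 (A w ψ)
  pt : ∀ ψ, FS ψ → ∀ v, nsq (ψ v) ^ 2 ≤ Cp ^ 2 * (N2 ψ * N2 (A w ψ))

theorem PG.pt' {w : Fld} {K Cp : ℝ} (h : PG w K Cp) (hK : 0 ≤ K) (hC : 0 ≤ Cp) {ψ : Fld}
    (hψ : FS ψ) (v : Face) : nsq (ψ v) ≤ Cp * K * N2 (A w ψ) := by
  have h1 := h.gap ψ hψ
  have h2 := h.pt ψ hψ v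
  have h3 := N2_nonneg (A w ψ)
  have h4 := nsq_nonneg (ψ v)
  have h5 : nsq (ψ v) ^ 2 ≤ (Cp * K * N2 (A w ψ)) ^ 2 := by
    refine h2.trans ?_
    have : N2 ψ * N2 (A w ψ) ≤ K ^ 2 * N2 (A w ψ) * N2 (A w ψ) :=
      mul_le_mul_of_nonneg_right h1 h3
    nlinarith [sq_nonneg Cp]
  exact le_of_sq_le_sq h5 (by positivity)

/-! ### solvability -/

/-- extension by zero -/
def ext0 (K : Finset Face) (p : K → Fin 4 → ℝ) : Fld := fun f =>
  if h : f ∈ K then p ⟨f, h⟩ else 0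

theorem ext0_off {K : Finset Face} (p : K → Fin 4 → ℝ) {f : Face} (hf : f ∉ K) :
    ext0 K p f = 0 := by simp [ext0, hf]

theorem ext0_on {K : Finset Face} (p : K → Fin 4 → ℝ) (f : K) : ext0 K p f.1 = p f := by
  simp [ext0, f.2]

theorem fs_ext0 (K : Finset Face) (p : K → Fin 4 → ℝ) : FS (ext0 K p) :=
  ⟨K, fun _ hf => ext0_off p hf⟩

theorem eq_zero_of_N2 {φ : Fld} (h : FS φ) (h0 : N2 φ = 0) : φ = 0 := by
  funext f
  have h1 := nsq_le_N2 h f
  rw [h0] at h1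
  have h2 : nsq (φ f) = 0 := le_antisymm h1 (nsq_nonneg _)
  rw [nsq_eq] at h2
  funext k
  have q0 := sq_nonneg (φ f 0)
  have q1 := sq_nonneg (φ f 1)
  have q2 := sq_nonneg (φ f 2)
  have q3 := sq_nonneg (φ f 3)
  fin_cases k
  · have : φ f 0 ^ 2 = 0 := by linarith
    simpa using this
  · have : φ f 1 ^ 2 = 0 := by linarith
    simpa using this
  · have : φ f 2 ^ 2 = 0 := by linarith
    simpa using this
  · have : φ f 3 ^ 2 = 0 := by linarith
    simpa using this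

/-- the operator restricted to a finite set -/
def LK (w : Fld) (K : Finset Face) : (K → Fin 4 → ℝ) →ₗ[ℝ] (K → Fin 4 → ℝ) where
  toFun p f h := A w (ext0 K p) f.1 h
  map_add' p q := by
    funext f h
    have : ext0 K (p + q) = fun f h => ext0 K p f h + ext0 K q f h := by
      funext g k
      by_cases hg : g ∈ K <;> simp [ext0, hg]
    rw [this, A_add]; rfl
  map_smul' c p := by
    funext f h
    have : ext0 K (c • p) = fun f h => c * ext0 K p f h := by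
      funext g k
      by_cases hg : g ∈ K <;> simp [ext0, hg]
    rw [this, A_smul]; rfl

/-- **solvability**: plus type systems living on a finite set of nodes -/
theorem solve {w : Fld} {Λ : Finset Face} (hΛ : ∀ f, f ∉ Λ → ∀ h, w f h = 0)
    (hinj : ∀ ψ, FS ψ → A w ψ = 0 → ψ = 0) {g : Fld} (hg : FS g) :
    ∃ ψ, FS ψ ∧ A w ψ = g := by
  classical
  obtain ⟨L, hL⟩ := hg
  set K := Λ ∪ L with hK
  have hinj' : Function.Injective (LK w K) := by
    rw [injective_iff_map_eq_zero]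
    intro p hp
    have h0 : A w (ext0 K p) = 0 := by
      funext f h
      by_cases hf : f ∈ K
      · exact congrFun (congrFun hp ⟨f, hf⟩) h
      · have h1 : f ∉ Λ := fun h => hf (mem_union_left _ h)
        simp only [A, Y, hΛ f h1 h, ext0_off p hf]
        fin_cases h <;> simp
    have h1 := hinj _ (fs_ext0 K p) h0
    funext f
    rw [← ext0_on p f, h1]; rfl
  have hsur := LinearMap.injective_iff_surjective.1 hinj'
  obtain ⟨p, hp⟩ := hsur fun f h => g f.1 h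
  refine ⟨ext0 K p, fs_ext0 K p, ?_⟩
  funext f h
  by_cases hf : f ∈ K
  · exact congrFun (congrFun hp ⟨f, hf⟩) h
  · have h1 : f ∉ Λ := fun h => hf (mem_union_left _ h)
    have h2 : f ∉ L := fun h => hf (mem_union_right _ h)
    rw [hL f h2]
    simp only [A, Y, hΛ f h1 h, ext0_off p hf]
    fin_cases h <;> simp

theorem PG.inj {w : Fld} {K Cp : ℝ} (h : PG w K Cp) {ψ : Fld} (hψ : FS ψ) (h0 : A w ψ = 0) :
    ψ = 0 := by
  apply eq_zero_of_N2 hψ
  have := h.gap ψ hψ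
  rw [h0, N2_zero, mul_zero] at this
  exact le_antisymm this (N2_nonneg _)

/-! ### the source of an insertion -/

/-- unit charge at a node -/
def one (x : Face) : Fld := fun v _ => if v = x then 1 else 0

theorem fs_one (x : Face) : FS (one x) :=
  ⟨{x}, fun f hf => by
    funext h; simp only [mem_singleton] at hf; simp [one, hf]⟩

theorem ip_one (x : Face) (ψ : Fld) : ip (one x) ψ = tot ψ x := by
  rw [ip_eq (K := {x}) fun f hf => by
    funext h; simp only [mem_singleton] at hf; simp [one, hf]]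
  simp [one, Fin.sum_univ_four, tot]

theorem tot_sq_le (ψ : Fld) (x : Face) : tot ψ x ^ 2 ≤ 4 * nsq (ψ x) := by
  rw [nsq_eq]; unfold tot
  nlinarith [sq_nonneg (ψ x 0 - ψ x 1), sq_nonneg (ψ x 0 - ψ x 2), sq_nonneg (ψ x 0 - ψ x 3),
    sq_nonneg (ψ x 1 - ψ x 2), sq_nonneg (ψ x 1 - ψ x 3), sq_nonneg (ψ x 2 - ψ x 3)]

theorem tot_add (φ ψ : Fld) (x : Face) : tot (φ + ψ) x = tot φ x + tot ψ x := by
  simp only [tot, Pi.add_apply]; ring

theorem tot_sub (φ ψ : Fld) (x : Face) : tot (φ - ψ) x = tot φ x - tot ψ x := by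
  simp only [tot, Pi.sub_apply]; ring

theorem tot_smul (c : ℝ) (ψ : Fld) (x : Face) : tot (c • ψ) x = c * tot ψ x := by
  simp only [tot, Pi.smul_apply, smul_eq_mul]; ring

theorem tot_sum {ι : Type*} (X : Finset ι) (F : ι → Fld) (x : Face) :
    tot (∑ i ∈ X, F i) x = ∑ i ∈ X, tot (F i) x := by
  classical
  induction X using Finset.induction_on with
  | empty => simp [tot]
  | insert a s ha ih => rw [sum_insert ha, sum_insert ha, tot_add, ih]

/-- the column of an insertion has small norm -/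
theorem N2_col_le {w : Fld} (hw : Sym w) {K Cp : ℝ} (h : PG w K Cp) (hK : 0 ≤ K) (hC : 0 ≤ Cp)
    {Λ : Finset Face} (hΛ : ∀ f, f ∉ Λ → ∀ h, w f h = 0) {x : Face} {Ψ : Fld} (hΨ : FS Ψ)
    (hA : A w Ψ = one x) : N2 Ψ ≤ 4 * Cp * K := by
  obtain ⟨θ, hθ, hAθ⟩ := solve hΛ (fun ψ hψ h0 => h.inj hψ h0) hΨ
  have e1 : N2 Ψ = -tot θ x := by
    rw [← ip_self]
    calc ip Ψ Ψ = ip Ψ (A w θ) := by rw [hAθ]
      _ = -ip (A w Ψ) θ := ip_A hw hΨ hθ
      _ = -tot θ x := by rw [hA, ip_one]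
  have e2 := tot_sq_le θ x
  have e3 := h.pt' hK hC hθ x
  rw [hAθ] at e3
  have e4 : N2 Ψ ^ 2 ≤ 4 * Cp * K * N2 Ψ := by
    calc N2 Ψ ^ 2 = tot θ x ^ 2 := by rw [e1]; ring
      _ ≤ 4 * nsq (θ x) := e2
      _ ≤ 4 * (Cp * K * N2 Ψ) := by linarith
      _ = 4 * Cp * K * N2 Ψ := by ring
  have e5 := N2_nonneg Ψ
  rcases e5.eq_or_lt with h0 | h0
  · rw [← h0]; positivity
  · exact le_of_mul_le_mul_right (by nlinarith) h0

/-! ### the transported source -/

/-- the source of the starred system, without the insertion terms -/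
def T0 (s : Face → ℝ) (g : Fld) : Fld := fun v =>
  asm (r1 g v) (r2 g v) ((s (v.1 - 1, v.2) + s v) / 2 * r3 g v) (s v * r4 g v)

theorem nsq_asm_le (a b c d : ℝ) : nsq (asm a b c d) ≤ 4 * (a ^ 2 + b ^ 2 + c ^ 2 + d ^ 2) := by
  simp only [nsq_eq, asm]
  nlinarith [sq_nonneg (a - b), sq_nonneg (a + b), sq_nonneg (a - c), sq_nonneg (a + c),
    sq_nonneg (a - d), sq_nonneg (a + d), sq_nonneg (b - c), sq_nonneg (b + c),
    sq_nonneg (b - d), sq_nonneg (b + d), sq_nonneg (c - d), sq_nonneg (c + d)]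

theorem asm_add (a b c c' d : ℝ) (h : Fin 4) :
    asm a b (c + c') d h = asm a b c d h + c' / 2 := by
  fin_cases h <;> simp [asm] <;> ring

/-- squares of the mismatches at a node -/
def rsq (g : Fld) (v : Face) : ℝ := r1 g v ^ 2 + r2 g v ^ 2 + r3 g v ^ 2 + r4 g v ^ 2

theorem rsq_nonneg (g : Fld) (v : Face) : 0 ≤ rsq g v := by unfold rsq; positivity

theorem rsq_le (g : Fld) (v : Face) :
    rsq g v ≤ 2 * ((g v 0 ^ 2 + g v 3 ^ 2) + (g (v.1 + (-1), v.2 + 0) 0 ^ 2 + g (v.1 + (-1), v.2 + 0) 1 ^ 2)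
      + (g (v.1 + (-1), v.2 + (-1)) 1 ^ 2 + g (v.1 + (-1), v.2 + (-1)) 2 ^ 2)
      + (g (v.1 + 0, v.2 + (-1)) 2 ^ 2 + g (v.1 + 0, v.2 + (-1)) 3 ^ 2)) := by
  simp only [rsq, r1, r2, r3, r4, add_zero, ← sub_eq_add_neg]
  nlinarith [sq_nonneg (g v 0 - g v 3), sq_nonneg (g (v.1 - 1, v.2) 0 + g (v.1 - 1, v.2) 1),
    sq_nonneg (g (v.1 - 1, v.2 - 1) 1 + g (v.1 - 1, v.2 - 1) 2),
    sq_nonneg (g (v.1, v.2 - 1) 2 + g (v.1, v.2 - 1) 3)]

theorem summ_pair {g : Fld} (hg : FS g) (j k : Fin 4) : Summable fun f => g f j ^ 2 + g f k ^ 2 := by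
  have a := summ_of_FS hg (fun _ => 1) j
  have b := summ_of_FS hg (fun _ => 1) k
  simp only [one_mul] at a b
  exact a.add b

theorem summ_rsq {g : Fld} (hg : FS g) : Summable (rsq g) := by
  refine Summable.of_nonneg_of_le (rsq_nonneg g) (rsq_le g) (Summable.mul_left 2 ?_)
  exact (((summ_pair hg 0 3).add (summ_shift (summ_pair hg 0 1) (-1) 0)).add
    (summ_shift (summ_pair hg 1 2) (-1) (-1))).add (summ_shift (summ_pair hg 2 3) 0 (-1))

theorem tsum_rsq_le {g : Fld} (hg : FS g) : ∑' v, rsq g v ≤ 4 * N2 g := by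
  have a := summ_pair hg 0 3
  have b := summ_shift (summ_pair hg 0 1) (-1) 0
  have c := summ_shift (summ_pair hg 1 2) (-1) (-1)
  have d := summ_shift (summ_pair hg 2 3) 0 (-1)
  have s : ∀ k, Summable fun f => g f k ^ 2 := fun k => by
    simpa using summ_of_FS hg (fun _ => 1) k
  calc ∑' v, rsq g v
      ≤ ∑' v : Face, 2 * ((g v 0 ^ 2 + g v 3 ^ 2)
        + (g (v.1 + (-1), v.2 + 0) 0 ^ 2 + g (v.1 + (-1), v.2 + 0) 1 ^ 2)
        + (g (v.1 + (-1), v.2 + (-1)) 1 ^ 2 + g (v.1 + (-1), v.2 + (-1)) 2 ^ 2)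
        + (g (v.1 + 0, v.2 + (-1)) 2 ^ 2 + g (v.1 + 0, v.2 + (-1)) 3 ^ 2)) :=
        (summ_rsq hg).tsum_le_tsum (rsq_le g) ((((a.add b).add c).add d).mul_left 2)
    _ = 2 * (∑' f, (g f 0 ^ 2 + g f 3 ^ 2) + ∑' f, (g f 0 ^ 2 + g f 1 ^ 2)
        + ∑' f, (g f 1 ^ 2 + g f 2 ^ 2) + ∑' f, (g f 2 ^ 2 + g f 3 ^ 2)) := by
        rw [tsum_mul_left, ((a.add b).add c).tsum_add d, (a.add b).tsum_add c, a.tsum_add b,
          tsum_shift (fun f => g f 0 ^ 2 + g f 1 ^ 2) (-1) 0,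
          tsum_shift (fun f => g f 1 ^ 2 + g f 2 ^ 2) (-1) (-1),
          tsum_shift (fun f => g f 2 ^ 2 + g f 3 ^ 2) 0 (-1)]
    _ = 4 * N2 g := by
        rw [N2_four hg, (s 0).tsum_add (s 3), (s 0).tsum_add (s 1), (s 1).tsum_add (s 2),
          (s 2).tsum_add (s 3)]
        ring

theorem rsq_le_N2 {g : Fld} (hg : FS g) (v : Face) : rsq g v ≤ 4 * N2 g :=
  ((summ_rsq hg).le_tsum v fun f _ => rsq_nonneg g f).trans (tsum_rsq_le hg)

theorem fs_T0 (s : Face → ℝ) {g : Fld} (hg : FS g) : FS (T0 s g) := by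
  obtain ⟨K, hK⟩ := hg.near
  refine ⟨K, fun f hf => ?_⟩
  obtain ⟨i, j⟩ := f
  obtain ⟨a0, a1, a2, a3, a4, a5, -⟩ := hK i j hf
  funext h
  fin_cases h <;> simp [FrCx441.T0, asm, r1, r2, r3, r4, a0, a2, a4, a5]

theorem N2_T0_le {s : Face → ℝ} (hs : ∀ v, s v ^ 2 = 1) {g : Fld} (hg : FS g) :
    N2 (T0 s g) ≤ 16 * N2 g := by
  have key : ∀ v, nsq (T0 s g v) ≤ 4 * rsq g v := by
    intro v
    refine (nsq_asm_le _ _ _ _).trans ?_
    unfold rsq
    have h1 := hs v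
    have h2 := hs (v.1 - 1, v.2)
    have e1 : (s v * r4 g v) ^ 2 = r4 g v ^ 2 := by rw [mul_pow, h1, one_mul]
    have e2 : ((s (v.1 - 1, v.2) + s v) / 2 * r3 g v) ^ 2 ≤ r3 g v ^ 2 := by
      rw [mul_pow]
      have : ((s (v.1 - 1, v.2) + s v) / 2) ^ 2 ≤ 1 := by
        nlinarith [sq_nonneg (s (v.1 - 1, v.2) - s v)]
      nlinarith [sq_nonneg (r3 g v)]
    linarith
  calc N2 (T0 s g) ≤ ∑' v, 4 * rsq g v :=
        (summ_nsq (fs_T0 s hg)).tsum_le_tsum key ((summ_rsq hg).mul_left 4)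
    _ = 4 * ∑' v, rsq g v := tsum_mul_left
    _ ≤ 16 * N2 g := by linarith [tsum_rsq_le hg]

/-! ### the equation with insertions -/

/-- signs `s` with insertions exactly at the nodes of `X` -/
structure Ins (s : Face → ℝ) (X : Finset Face) : Prop where
  sq : ∀ v, s v ^ 2 = 1
  on : ∀ v ∈ X, s (v.1 - 1, v.2) = -s v
  off : ∀ v, v ∉ X → s (v.1 - 1, v.2) = s v

/-- amplitude of the insertion source -/
def amp (s : Face → ℝ) (u φ : Fld) (v : Face) : ℝ := -(s v) * am s u φ v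

/-- **the starred equation** in global form -/
theorem star_eq {s : Face → ℝ} {X : Finset Face} (hX : Ins s X) {u : Fld} (hu : Sym u)
    (hpos : ∀ f h, 0 < u f h) (φ : Fld) :
    A (ws s u) (fs s u φ) = T0 s (A (wf s u) φ) + ∑ x ∈ X, amp s u φ x • one x := by
  classical
  funext v h
  rw [star_A s u φ hu hX.sq hpos v h, asm_add]
  have e : (∑ x ∈ X, amp s u φ x • one x) v h = if v ∈ X then amp s u φ v else 0 := by
    rw [Finset.sum_apply, Finset.sum_apply]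
    simp only [Pi.smul_apply, smul_eq_mul, one, mul_ite, mul_one, mul_zero]
    rw [sum_ite_eq]
  rw [Pi.add_apply, Pi.add_apply, e]
  congr 1
  split_ifs with hv
  · rw [hX.on v hv]; unfold amp; ring
  · rw [hX.off v hv]; ring

/-- the data of the constraint -/
def rho (s : Face → ℝ) (g : Fld) (v : Face) : ℝ :=
  (-(s v) * r3 g v - s v * r4 g v - r1 g v + r2 g v) / 2

theorem rho_sq_le {s : Face → ℝ} (hs : ∀ v, s v ^ 2 = 1) (g : Fld) (v : Face) :
    rho s g v ^ 2 ≤ rsq g v := by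
  have h1 := hs v
  unfold rho rsq
  have e3 : (-(s v) * r3 g v) ^ 2 = r3 g v ^ 2 := by rw [mul_pow, neg_sq, h1, one_mul]
  have e4 : (-(s v) * r4 g v) ^ 2 = r4 g v ^ 2 := by rw [mul_pow, neg_sq, h1, one_mul]
  nlinarith [sq_nonneg (-(s v) * r3 g v - -(s v) * r4 g v),
    sq_nonneg (-(s v) * r3 g v - -(r1 g v)), sq_nonneg (-(s v) * r3 g v - r2 g v),
    sq_nonneg (-(s v) * r4 g v - -(r1 g v)), sq_nonneg (-(s v) * r4 g v - r2 g v),
    sq_nonneg (-(r1 g v) - r2 g v)]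

theorem star_con {s : Face → ℝ} {X : Finset Face} (hX : Ins s X) {u : Fld} (hu : Sym u)
    (φ : Fld) {x : Face} (hx : x ∈ X) : tot (fs s u φ) x = rho s (A (wf s u) φ) x :=
  star_m s u φ hu hX.sq x (hX.on x hx)

/-- **the gap of a free background with insertions** -/
theorem free_gap {s : Face → ℝ} {X : Finset Face} (hX : Ins s X) {u : Fld} (hu : Sym u)
    (hpos : ∀ f h, 0 < u f h) {K Cp β : ℝ} (hK : 0 ≤ K) (hC : 0 ≤ Cp)
    (hPG : PG (ws s u) K Cp) {Λ : Finset Face} (hΛ : ∀ f, f ∉ Λ → ∀ h, ws s u f h = 0)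
    (Ψ : Face → Fld) (hΨ : ∀ x ∈ X, FS (Ψ x)) (hΨ' : ∀ x ∈ X, A (ws s u) (Ψ x) = one x)
    (hB : ∀ a : Face → ℝ, ∑ x ∈ X, a x ^ 2 ≤ β ^ 2 * ∑ x ∈ X, (∑ y ∈ X, a y * tot (Ψ y) x) ^ 2)
    {φ : Fld} (hφ : FS φ) :
    N2 φ ≤ (64 * K ^ 2 + 128 * X.card ^ 2 * β ^ 2 * (Cp * K) * (1 + 16 * (Cp * K)))
      * N2 (A (wf s u) φ) := by
  classical
  set g := A (wf s u) φ with hg
  have fg : FS g := FS.A _ hφ
  have fT := fs_T0 s fg
  have fstar := FS.fs s u hφ
  set ξ : Fld := fs s u φ - ∑ x ∈ X, amp s u φ x • Ψ x with hξ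
  have fsum : FS (∑ x ∈ X, amp s u φ x • Ψ x) := FS.sum X _ fun x hx => (hΨ x hx).smul _
  have fξ : FS ξ := fstar.sub fsum
  -- linearity of `A`
  have Aadd : ∀ p q : Fld, A (ws s u) (p + q) = A (ws s u) p + A (ws s u) q := fun p q => by
    funext f h; exact A_add (ws s u) p q f h
  have Asmul : ∀ (c : ℝ) (p : Fld), A (ws s u) (c • p) = c • A (ws s u) p := fun c p => by
    funext f h; exact A_smul (ws s u) c p f h
  have A0' : A (ws s u) 0 = 0 := by
    funext f h; fin_cases h <;> simp [A, Y]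
  have Asum : A (ws s u) (∑ x ∈ X, amp s u φ x • Ψ x) = ∑ x ∈ X, amp s u φ x • one x := by
    have : ∀ Z : Finset Face, Z ⊆ X → A (ws s u) (∑ x ∈ Z, amp s u φ x • Ψ x)
        = ∑ x ∈ Z, amp s u φ x • one x := by
      intro Z
      induction Z using Finset.induction_on with
      | empty => intro _; simp [A0']
      | insert a t ha ih =>
        intro hZ
        rw [sum_insert ha, sum_insert ha, Aadd, Asmul, hΨ' a (hZ (mem_insert_self _ _)),
          ih fun y hy => hZ (mem_insert_of_mem hy)]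
    exact this X (Subset.refl _)
  have hAξ : A (ws s u) ξ = T0 s g := by
    have h1 : fs s u φ = ξ + ∑ x ∈ X, amp s u φ x • Ψ x := by rw [hξ]; abel
    have h2 := star_eq hX hu hpos φ
    rw [h1, Aadd, Asum] at h2
    exact add_right_cancel h2
  -- the four bounds
  have hT := N2_T0_le hX.sq fg
  have hgn := N2_nonneg g
  have b1 : N2 ξ ≤ 16 * K ^ 2 * N2 g := by
    have := hPG.gap ξ fξ
    rw [hAξ] at this
    nlinarith [sq_nonneg K]
  have b2 : ∀ x ∈ X, (∑ y ∈ X, amp s u φ y * tot (Ψ y) x) ^ 2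
      ≤ (8 + 128 * (Cp * K)) * N2 g := by
    intro x hx
    have e1 : ∑ y ∈ X, amp s u φ y * tot (Ψ y) x = rho s g x - tot ξ x := by
      have := star_con hX hu φ hx
      rw [← hg] at this
      rw [← this, hξ, tot_sub, tot_sum]
      simp only [tot_smul]; ring
    rw [e1]
    have e2 := (rho_sq_le hX.sq g x).trans (rsq_le_N2 fg x)
    have e3 := tot_sq_le ξ x
    have e4 := hPG.pt' hK hC fξ x
    rw [hAξ] at e4
    have e5 : Cp * K * N2 (T0 s g) ≤ Cp * K * (16 * N2 g) :=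
      mul_le_mul_of_nonneg_left hT (by positivity)
    nlinarith [sq_nonneg (rho s g x + tot ξ x)]
  have b3 : ∑ x ∈ X, amp s u φ x ^ 2 ≤ β ^ 2 * (X.card * ((8 + 128 * (Cp * K)) * N2 g)) := by
    refine (hB (amp s u φ)).trans (mul_le_mul_of_nonneg_left ?_ (sq_nonneg _))
    calc ∑ x ∈ X, (∑ y ∈ X, amp s u φ y * tot (Ψ y) x) ^ 2
        ≤ ∑ _x ∈ X, (8 + 128 * (Cp * K)) * N2 g := sum_le_sum b2
      _ = X.card * ((8 + 128 * (Cp * K)) * N2 g) := by rw [sum_const, nsmul_eq_mul]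
  have b4 : N2 (∑ x ∈ X, amp s u φ x • Ψ x)
      ≤ X.card * (4 * Cp * K * (β ^ 2 * (X.card * ((8 + 128 * (Cp * K)) * N2 g)))) := by
    refine (N2_sum_le X _ fun x hx => (hΨ x hx).smul _).trans
      (mul_le_mul_of_nonneg_left ?_ (Nat.cast_nonneg _))
    calc ∑ x ∈ X, N2 (amp s u φ x • Ψ x) = ∑ x ∈ X, amp s u φ x ^ 2 * N2 (Ψ x) :=
          sum_congr rfl fun x _ => N2_smul _ _
      _ ≤ ∑ x ∈ X, amp s u φ x ^ 2 * (4 * Cp * K) :=
          sum_le_sum fun x hx => mul_le_mul_of_nonneg_left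
            (N2_col_le (sym_ws s u) hPG hK hC hΛ (hΨ x hx) (hΨ' x hx)) (sq_nonneg _)
      _ = 4 * Cp * K * ∑ x ∈ X, amp s u φ x ^ 2 := by rw [← sum_mul, mul_comm]
      _ ≤ _ := mul_le_mul_of_nonneg_left b3 (by positivity)
  have b5 : N2 (fs s u φ) ≤ 2 * N2 ξ + 2 * N2 (∑ x ∈ X, amp s u φ x • Ψ x) := by
    have h1 : fs s u φ = ξ + ∑ x ∈ X, amp s u φ x • Ψ x := by rw [hξ]; abel
    rw [h1]
    exact N2_add_le fξ fsum
  have b6 := N2_fs_ge hu hX.sq hpos hφ
  calc N2 φ ≤ 2 * (2 * (16 * K ^ 2 * N2 g)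
        + 2 * (X.card * (4 * Cp * K * (β ^ 2 * (X.card * ((8 + 128 * (Cp * K)) * N2 g)))))) := by
        linarith
    _ = _ := by ring

end Crest.Agent.R165.FrCx441
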