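import Crest.Agent.R165.Tr2_40

/-!
# Row 165 (S0250): `l²` calculus of finitely supported half-edge fields (helper887)

* `FS φ`: finite support;  `ip φ ψ = ∑ φ ψ`;  `nn φ = |φ|₂`
* `ip_eq`, `nn_sq_eq`: evaluation on any finite set containing the support
* Cauchy–Schwarz, triangle inequality, antisymmetry of `A w`, `|A w φ| ≤ C |φ|`
* `solve`: if `A w` is injective on the fields supported in a finite closed set then it is
  surjective there
-/

set_option autoImplicit false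

noncomputable section

namespace Crest.Agent.R165.L2x887

open Finset
open Crest.Agent.R165.Tr1x40 Crest.Agent.R165.Tr2x40

/-- finite support -/
def FS (φ : Fld) : Prop := ∃ K : Finset Face, ∀ f, f ∉ K → ∀ h, φ f h = 0

/-- inner product -/
def ip (φ ψ : Fld) : ℝ := ∑ᶠ f, ∑ h, φ f h * ψ f h

/-- `l²` norm -/
def nn (φ : Fld) : ℝ := Real.sqrt (ip φ φ)

theorem ip_eq {φ ψ : Fld} {K : Finset Face} (h : ∀ f, f ∉ K → ∀ h, φ f h = 0) :
    ip φ ψ = ∑ f ∈ K, ∑ h, φ f h * ψ f h := by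
  unfold ip
  apply finsum_eq_sum_of_support_subset
  intro f hf
  by_contra hc
  apply hf
  simp only [mem_coe] at hc
  exact sum_eq_zero fun k _ => by rw [h f hc k, zero_mul]

theorem ip_comm (φ ψ : Fld) : ip φ ψ = ip ψ φ := by
  unfold ip
  exact finsum_congr fun f => sum_congr rfl fun h _ => mul_comm _ _

theorem ip_eq' {φ ψ : Fld} {K : Finset Face} (h : ∀ f, f ∉ K → ∀ h, ψ f h = 0) :
    ip φ ψ = ∑ f ∈ K, ∑ h, φ f h * ψ f h := by
  rw [ip_comm, ip_eq h]
  exact sum_congr rfl fun f _ => sum_congr rfl fun h _ => mul_comm _ _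

theorem ip_self_eq {φ : Fld} {K : Finset Face} (h : ∀ f, f ∉ K → ∀ h, φ f h = 0) :
    ip φ φ = ∑ f ∈ K, nsq (φ f) := by
  rw [ip_eq h]
  exact sum_congr rfl fun f _ => sum_congr rfl fun h _ => by ring

theorem ip_self_nonneg (φ : Fld) : 0 ≤ ip φ φ :=
  finsum_nonneg fun _ => sum_nonneg fun _ _ => mul_self_nonneg _

theorem nn_nonneg (φ : Fld) : 0 ≤ nn φ := Real.sqrt_nonneg _

theorem nn_sq (φ : Fld) : nn φ ^ 2 = ip φ φ := Real.sq_sqrt (ip_self_nonneg φ)

theorem nn_eq {φ : Fld} {K : Finset Face} (h : ∀ f, f ∉ K → ∀ h, φ f h = 0) :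
    nn φ = Real.sqrt (∑ f ∈ K, nsq (φ f)) := by rw [nn, ip_self_eq h]

theorem nn_sq_eq {φ : Fld} {K : Finset Face} (h : ∀ f, f ∉ K → ∀ h, φ f h = 0) :
    nn φ ^ 2 = ∑ f ∈ K, nsq (φ f) := by rw [nn_sq, ip_self_eq h]

/-! ### linear structure -/

theorem FS.common {φ ψ : Fld} (h1 : FS φ) (h2 : FS ψ) :
    ∃ K : Finset Face, (∀ f, f ∉ K → ∀ h, φ f h = 0) ∧ (∀ f, f ∉ K → ∀ h, ψ f h = 0) := by
  classical
  obtain ⟨K1, h1⟩ := h1
  obtain ⟨K2, h2⟩ := h2
  exact ⟨K1 ∪ K2, fun f hf => h1 f fun hc => hf (mem_union_left _ hc),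
    fun f hf => h2 f fun hc => hf (mem_union_right _ hc)⟩

theorem FS.zero : FS (0 : Fld) := ⟨∅, fun _ _ _ => rfl⟩

theorem FS.add {φ ψ : Fld} (h1 : FS φ) (h2 : FS ψ) : FS (φ + ψ) := by
  obtain ⟨K, h1, h2⟩ := h1.common h2
  exact ⟨K, fun f hf h => by rw [Pi.add_apply, Pi.add_apply, h1 f hf h, h2 f hf h, add_zero]⟩

theorem FS.smul {φ : Fld} (c : ℝ) (h1 : FS φ) : FS (c • φ) := by
  obtain ⟨K, h1⟩ := h1
  exact ⟨K, fun f hf h => by
    rw [Pi.smul_apply, Pi.smul_apply, h1 f hf h, smul_zero]⟩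

theorem FS.neg {φ : Fld} (h1 : FS φ) : FS (-φ) := by
  have := h1.smul (-1)
  rwa [neg_one_smul] at this

theorem FS.sub {φ ψ : Fld} (h1 : FS φ) (h2 : FS ψ) : FS (φ - ψ) := by
  rw [sub_eq_add_neg]; exact h1.add h2.neg

theorem FS.sum {ι : Type*} (s : Finset ι) (F : ι → Fld) (h : ∀ i ∈ s, FS (F i)) :
    FS (∑ i ∈ s, F i) := by
  classical
  induction s using Finset.induction_on with
  | empty => simpa using FS.zero
  | insert a s ha ih =>
    rw [sum_insert ha]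
    exact (h a (mem_insert_self _ _)).add (ih fun i hi => h i (mem_insert_of_mem hi))

theorem ip_add_left {φ ψ χ : Fld} (h1 : FS φ) (h2 : FS ψ) :
    ip (φ + ψ) χ = ip φ χ + ip ψ χ := by
  obtain ⟨K, h1, h2⟩ := h1.common h2
  rw [ip_eq h1, ip_eq h2, ip_eq (φ := φ + ψ) (K := K), ← sum_add_distrib]
  · refine sum_congr rfl fun f _ => ?_
    rw [← sum_add_distrib]
    exact sum_congr rfl fun h _ => by rw [Pi.add_apply, Pi.add_apply]; ring
  · intro f hf h
    rw [Pi.add_apply, Pi.add_apply, h1 f hf h, h2 f hf h, add_zero]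

theorem ip_smul_left {φ ψ : Fld} (c : ℝ) (h1 : FS φ) : ip (c • φ) ψ = c * ip φ ψ := by
  obtain ⟨K, h1⟩ := h1
  rw [ip_eq h1, ip_eq (φ := c • φ) (K := K), mul_sum]
  · refine sum_congr rfl fun f _ => ?_
    rw [mul_sum]
    exact sum_congr rfl fun h _ => by rw [Pi.smul_apply, Pi.smul_apply, smul_eq_mul]; ring
  · intro f hf h
    rw [Pi.smul_apply, Pi.smul_apply, h1 f hf h, smul_zero]

theorem ip_neg_left {φ ψ : Fld} (h1 : FS φ) : ip (-φ) ψ = -ip φ ψ := by
  rw [← neg_one_smul ℝ φ, ip_smul_left _ h1]; ring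

theorem ip_sub_left {φ ψ χ : Fld} (h1 : FS φ) (h2 : FS ψ) :
    ip (φ - ψ) χ = ip φ χ - ip ψ χ := by
  rw [sub_eq_add_neg, ip_add_left h1 h2.neg, ip_neg_left h2]; ring

theorem ip_add_right {φ ψ χ : Fld} (h1 : FS φ) (h2 : FS ψ) :
    ip χ (φ + ψ) = ip χ φ + ip χ ψ := by
  rw [ip_comm, ip_add_left h1 h2, ip_comm φ, ip_comm ψ]

theorem ip_smul_right {φ ψ : Fld} (c : ℝ) (h1 : FS φ) : ip ψ (c • φ) = c * ip ψ φ := by
  rw [ip_comm, ip_smul_left c h1, ip_comm]

theorem ip_sub_right {φ ψ χ : Fld} (h1 : FS φ) (h2 : FS ψ) :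
    ip χ (φ - ψ) = ip χ φ - ip χ ψ := by
  rw [ip_comm, ip_sub_left h1 h2, ip_comm φ, ip_comm ψ]

theorem ip_sum_right {ι : Type*} (s : Finset ι) (F : ι → Fld) (h : ∀ i ∈ s, FS (F i)) (χ : Fld) :
    ip χ (∑ i ∈ s, F i) = ∑ i ∈ s, ip χ (F i) := by
  classical
  induction s using Finset.induction_on with
  | empty =>
    simp only [sum_empty]
    rw [ip_comm, ip_eq (φ := (0 : Fld)) (K := ∅) (fun _ _ _ => rfl)]; simp
  | insert a s ha ih =>
    rw [sum_insert ha, sum_insert ha, ip_add_right (h a (mem_insert_self _ _))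
      (FS.sum s F fun i hi => h i (mem_insert_of_mem hi)), ih fun i hi => h i (mem_insert_of_mem hi)]

/-- Cauchy–Schwarz -/
theorem abs_ip_le {φ ψ : Fld} (h1 : FS φ) (h2 : FS ψ) : |ip φ ψ| ≤ nn φ * nn ψ := by
  obtain ⟨K, h1, h2⟩ := h1.common h2
  rw [ip_eq h1, nn_eq h1, nn_eq h2]
  exact sum_mul_le K φ ψ

theorem nn_zero : nn (0 : Fld) = 0 := by
  rw [nn_eq (φ := (0 : Fld)) (K := ∅) (fun _ _ _ => rfl)]; simp

theorem nn_smul {φ : Fld} (c : ℝ) (h1 : FS φ) : nn (c • φ) = |c| * nn φ := by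
  rw [nn, ip_smul_left c h1, ip_smul_right c h1, ← mul_assoc, Real.sqrt_mul (mul_self_nonneg c),
    Real.sqrt_mul_self_eq_abs, nn]

theorem nn_neg {φ : Fld} (h1 : FS φ) : nn (-φ) = nn φ := by
  rw [← neg_one_smul ℝ φ, nn_smul _ h1]; simp

theorem nn_add_le {φ ψ : Fld} (h1 : FS φ) (h2 : FS ψ) : nn (φ + ψ) ≤ nn φ + nn ψ := by
  have e : nn (φ + ψ) ^ 2 = nn φ ^ 2 + 2 * ip φ ψ + nn ψ ^ 2 := by
    rw [nn_sq, ip_add_left h1 h2, ip_add_right h1 h2, ip_add_right h1 h2, nn_sq, nn_sq,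
      ip_comm ψ φ]; ring
  have c := (abs_le.1 (abs_ip_le h1 h2)).2
  have p1 := nn_nonneg φ
  have p2 := nn_nonneg ψ
  refine le_of_sq_le_sq' ?_ (by positivity)
  rw [e]; nlinarith
where
  le_of_sq_le_sq' {a b : ℝ} (h : a ^ 2 ≤ b ^ 2) (hb : 0 ≤ b) : a ≤ b := by
    by_contra hc
    push Not at hc
    nlinarith

theorem nn_sub_le {φ ψ : Fld} (h1 : FS φ) (h2 : FS ψ) : nn (φ - ψ) ≤ nn φ + nn ψ := by
  rw [sub_eq_add_neg, ← nn_neg h2]; exact nn_add_le h1 h2.neg

theorem nn_sum_le {ι : Type*} (s : Finset ι) (F : ι → Fld) (h : ∀ i ∈ s, FS (F i)) :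
    nn (∑ i ∈ s, F i) ≤ ∑ i ∈ s, nn (F i) := by
  classical
  induction s using Finset.induction_on with
  | empty => simp [nn_zero]
  | insert a s ha ih =>
    rw [sum_insert ha, sum_insert ha]
    exact (nn_add_le (h a (mem_insert_self _ _))
      (FS.sum s F fun i hi => h i (mem_insert_of_mem hi))).trans
      (by gcongr; exact ih fun i hi => h i (mem_insert_of_mem hi))

/-- the value at one face is bounded by the norm -/
theorem nsq_le_nn {φ : Fld} (h1 : FS φ) (f : Face) : nsq (φ f) ≤ nn φ ^ 2 := by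
  classical
  obtain ⟨K, h1⟩ := h1
  have h2 : ∀ g, g ∉ insert f K → ∀ h, φ g h = 0 := fun g hg => h1 g fun hc => hg (mem_insert_of_mem hc)
  rw [nn_sq_eq h2]
  exact single_le_sum (f := fun g => nsq (φ g)) (fun g _ => nsq_nonneg _) (mem_insert_self f K)

theorem abs_le_nn {φ : Fld} (h1 : FS φ) (f : Face) (h : Fin 4) : |φ f h| ≤ nn φ := by
  have e := nsq_le_nn h1 f
  have e2 : φ f h ^ 2 ≤ nsq (φ f) :=
    single_le_sum (f := fun k => φ f k ^ 2) (fun k _ => sq_nonneg _) (mem_univ h)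
  exact abs_le_of_sq_le_sq (e2.trans e) (nn_nonneg φ)

/-- a bound on a finite set containing the support gives a bound of the norm -/
theorem nn_le_of {φ : Fld} {K : Finset Face} (h : ∀ f, f ∉ K → ∀ h, φ f h = 0) {C : ℝ}
    (hC : 0 ≤ C) (hb : ∑ f ∈ K, nsq (φ f) ≤ C ^ 2) : nn φ ≤ C := by
  rw [nn_eq h]
  exact (Real.sqrt_le_sqrt hb).trans (by rw [Real.sqrt_sq hC])

/-- finitely supported local superposition: a shift by an injective map -/
theorem sum_comp_le {F : Face → ℝ} (hF : ∀ f, 0 ≤ F f) {K : Finset Face}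
    (h0 : ∀ f, f ∉ K → F f = 0) (t : Face → Face) (ht : Function.Injective t) (K' : Finset Face) :
    ∑ f ∈ K', F (t f) ≤ ∑ f ∈ K, F f := by
  classical
  have e : ∑ f ∈ K', F (t f) = ∑ f ∈ K'.image t, F f := by
    rw [sum_image fun _ _ _ _ h => ht h]
  rw [e]
  have e2 : ∑ f ∈ K'.image t, F f ≤ ∑ f ∈ K'.image t ∪ K, F f :=
    sum_le_sum_of_subset_of_nonneg subset_union_left fun f _ _ => hF f
  have e3 : ∑ f ∈ K'.image t ∪ K, F f = ∑ f ∈ K, F f :=
    (sum_subset subset_union_right fun f _ hf => h0 f hf).symm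
  linarith

/-! ### the operator `A w` -/

theorem A_add' (w φ ψ : Fld) : A w (φ + ψ) = A w φ + A w ψ := by
  funext f h
  exact A_add w φ ψ f h

theorem A_smul' (w : Fld) (c : ℝ) (φ : Fld) : A w (c • φ) = c • A w φ := by
  funext f h
  exact A_smul w c φ f h

theorem A_zero' (w : Fld) : A w 0 = 0 := by
  have := A_smul' w 0 0
  rwa [zero_smul, zero_smul] at this

theorem A_sub' (w φ ψ : Fld) : A w (φ - ψ) = A w φ - A w ψ := by
  rw [sub_eq_add_neg, A_add', ← neg_one_smul ℝ ψ, A_smul', neg_one_smul, sub_eq_add_neg]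

theorem A_sum' (w : Fld) {ι : Type*} (s : Finset ι) (F : ι → Fld) :
    A w (∑ i ∈ s, F i) = ∑ i ∈ s, A w (F i) := by
  classical
  induction s using Finset.induction_on with
  | empty => simp [A_zero']
  | insert a s ha ih => rw [sum_insert ha, sum_insert ha, A_add', ih]

/-- neighbourhood of a finite set of faces -/
def nbh (K : Finset Face) : Finset Face := K ∪ (K ×ˢ (univ : Finset (Fin 4))).image fun p => nb p.1 p.2

theorem subset_nbh (K : Finset Face) : K ⊆ nbh K := subset_union_left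

theorem nb_mem_nbh {K : Finset Face} {f : Face} (hf : f ∈ K) (h : Fin 4) : nb f h ∈ nbh K :=
  mem_union_right _ (mem_image.2 ⟨(f, h), mem_product.2 ⟨hf, mem_univ _⟩, rfl⟩)

theorem nb_notMem {K : Finset Face} {f : Face} (hf : f ∉ nbh K) (h : Fin 4) : nb f h ∉ K := by
  intro hc
  apply hf
  have := nb_mem_nbh hc (op h)
  rwa [nb_nb_op] at this

theorem A_zero_off {w φ : Fld} {K : Finset Face} (h : ∀ f, f ∉ K → ∀ h, φ f h = 0) :
    ∀ f, f ∉ nbh K → ∀ h, A w φ f h = 0 := by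
  intro f hf k
  have e1 : φ f = 0 := funext fun j => h f (fun hc => hf (subset_nbh K hc)) j
  have e2 := h (nb f k) (nb_notMem hf k) (op k)
  have e3 : A0 (0 : Fin 4 → ℝ) k = 0 := by fin_cases k <;> simp [A0]
  simp only [A, Y, e1, e2, e3]; ring

theorem FS.A {w φ : Fld} (h : FS φ) : FS (A w φ) := by
  obtain ⟨K, h⟩ := h
  exact ⟨nbh K, A_zero_off h⟩

/-- antisymmetry -/
theorem ip_A {w φ ψ : Fld} (hw : Sym w) (h1 : FS φ) : ip φ (A w ψ) = -ip (A w φ) ψ := by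
  obtain ⟨K, h1⟩ := h1
  have h2 : ∀ f, f ∉ nbh K → ∀ h, φ f h = 0 := fun f hf => h1 f fun hc => hf (subset_nbh K hc)
  rw [ip_eq h2, ip_eq (A_zero_off h1)]
  exact A_antisymm hw φ ψ (nbh K) h2 fun f hf h => by
    rw [h1 (nb f h) (nb_notMem hf h), mul_zero]

/-- boundedness of `A w` for weights `|w| ≤ 1` -/
theorem nn_A_le {w φ : Fld} (hw : ∀ f h, w f h ^ 2 ≤ 1) (h1 : FS φ) : nn (A w φ) ≤ 4 * nn φ := by
  classical
  obtain ⟨K, h1⟩ := h1
  refine nn_le_of (A_zero_off h1) (by have := nn_nonneg φ; positivity) ?_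
  have pt : ∀ f, nsq (A w φ f) ≤ 2 * (6 * nsq (φ f)) + 2 * ∑ h, φ (nb f h) (op h) ^ 2 := by
    intro f
    have a1 : nsq (A w φ f) ≤ 2 * nsq (A0 (φ f)) + 2 * nsq (Y w φ f) := by
      simp only [nsq, mul_sum, ← sum_add_distrib]
      refine sum_le_sum fun h _ => ?_
      simp only [A]
      nlinarith [sq_nonneg (A0 (φ f) h - Y w φ f h)]
    have a2 := nsq_A0_le (φ f)
    have a3 : nsq (Y w φ f) ≤ ∑ h, φ (nb f h) (op h) ^ 2 := by
      rw [nsq_Y]
      refine sum_le_sum fun h _ => ?_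
      have := hw f h
      nlinarith [sq_nonneg (φ (nb f h) (op h))]
    have a4 : (3 + 2 * Real.sqrt 2) * nsq (φ f) ≤ 6 * nsq (φ f) := by
      refine mul_le_mul_of_nonneg_right ?_ (nsq_nonneg _)
      have := sq2_lt; linarith
    linarith
  have h2 : ∀ f, f ∉ nbh K → ∀ h, φ f h = 0 := fun f hf => h1 f fun hc => hf (subset_nbh K hc)
  have s1 : ∑ f ∈ nbh K, ∑ h, φ (nb f h) (op h) ^ 2 = ∑ f ∈ nbh K, nsq (φ f) := by
    refine (sum_bar (nbh K) (fun f h => φ f h ^ 2) (fun f hf h => ?_) (fun f hf h => ?_))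
    · rw [h2 f hf h]; ring
    · have := h1 (nb f h) (nb_notMem hf h) (op h)
      rw [this]; ring
  have s2 := nn_sq_eq h2
  calc ∑ f ∈ nbh K, nsq (A w φ f)
      ≤ ∑ f ∈ nbh K, (2 * (6 * nsq (φ f)) + 2 * ∑ h, φ (nb f h) (op h) ^ 2) :=
        sum_le_sum fun f _ => pt f
    _ = 14 * nn φ ^ 2 := by
        rw [sum_add_distrib, ← mul_sum, ← mul_sum, ← mul_sum, s1, ← s2]; ring
    _ ≤ (4 * nn φ) ^ 2 := by nlinarith [sq_nonneg (nn φ)]

/-- **solvability** on a finite set closed under the couplings of `w` -/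
theorem solve {w : Fld} (Λ : Finset Face) (hΛ : ∀ f ∈ Λ, ∀ h, w f h ≠ 0 → nb f h ∈ Λ)
    (hw : Sym w)
    (hinj : ∀ φ : Fld, (∀ f, f ∉ Λ → ∀ h, φ f h = 0) → (∀ f ∈ Λ, ∀ h, A w φ f h = 0) → φ = 0)
    (g : Fld) (hg : ∀ f, f ∉ Λ → ∀ h, g f h = 0) :
    ∃ φ : Fld, (∀ f, f ∉ Λ → ∀ h, φ f h = 0) ∧ A w φ = g := by
  classical
  -- extension by zero
  let E : (Λ → Fin 4 → ℝ) →ₗ[ℝ] Fld :=
    { toFun := fun p f => if hf : f ∈ Λ then p ⟨f, hf⟩ else 0
      map_add' := fun p q => by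
        funext f h
        by_cases hf : f ∈ Λ <;> simp [hf]
      map_smul' := fun c p => by
        funext f h
        by_cases hf : f ∈ Λ <;> simp [hf] }
  let L : (Λ → Fin 4 → ℝ) →ₗ[ℝ] (Λ → Fin 4 → ℝ) :=
    { toFun := fun p f => A w (E p) f.1
      map_add' := fun p q => by
        funext f h
        rw [map_add, A_add']; rfl
      map_smul' := fun c p => by
        funext f h
        rw [map_smul, A_smul']; rfl }
  have hE0 : ∀ p f, f ∉ Λ → ∀ h, E p f h = 0 := by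
    intro p f hf h
    simp [E, hf]
  have hL : Function.Injective L := by
    rw [injective_iff_map_eq_zero]
    intro p hp
    have h0 := hinj (E p) (hE0 p) (fun f hf h => by
      have := congrFun (congrFun hp ⟨f, hf⟩) h
      exact this)
    funext f h
    have h1 := congrFun (congrFun h0 f.1) h
    simpa [E] using h1
  have hS := LinearMap.injective_iff_surjective.1 hL
  obtain ⟨p, hp⟩ := hS fun f => g f.1
  refine ⟨E p, hE0 p, ?_⟩
  funext f h
  by_cases hf : f ∈ Λ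
  · exact congrFun (congrFun hp ⟨f, hf⟩) h
  · rw [hg f hf h]
    have e1 : E p f = 0 := funext fun j => hE0 p f hf j
    have e3 : A0 (0 : Fin 4 → ℝ) h = 0 := by fin_cases h <;> simp [A0]
    have e2 : w f h * E p (nb f h) (op h) = 0 := by
      by_cases h0 : nb f h ∈ Λ
      · by_cases hz : w f h = 0
        · rw [hz, zero_mul]
        · exfalso
          apply hf
          have h1 := hΛ (nb f h) h0 (op h) (by rwa [hw f h])
          rwa [nb_nb_op] at h1
      · rw [hE0 p _ h0, mul_zero]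
    simp only [A, Y, e1, e3]
    linear_combination sg h * e2

end Crest.Agent.R165.L2x887
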