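import Crest.Agent.R165.Sq3_54
import Crest.Agent.R165.SqK_470
import Crest.Agent.R165.L2_887

/-!
# Row 165 (S0250): consequences of the square trick (helper54) for plus type backgrounds (helper887)

`w` any symmetric weight with `w = 0` or `w² = x_c²` on every half-edge.
* `sq`     : (SQ) in the `nn` notation of `L2_887`
* `pt`     : value at one face, `|φ_v|² ≤ 2 CQ |φ| |A φ|`
* `gapBox` : `|φ| ≤ CQ (9 + 8 r) |A φ|` for `φ` supported in a box of radius `r`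
* `gap`    : `|φ| ≤ (CQ (9 + 8 r) + 3) |A φ|` for EVERY finitely supported `φ`, if the couplings of
             `w` live in a box of radius `r`
* `entry`  : decay of a corner column away from its source
-/

set_option autoImplicit false

noncomputable section

namespace Crest.Agent.R165.PlGapx887

open Finset
open Crest.Agent.R165.Tr1x40 Crest.Agent.R165.Tr2x40 Crest.Agent.R165.L2x887

/-- the constant of the square trick -/
def CQ : ℝ := 6000000000

theorem nn_eq_tsum {φ : Fld} (h : FS φ) : nn φ = Real.sqrt (∑' f, nsq (φ f)) := by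
  obtain ⟨K, hK⟩ := h
  rw [nn_eq hK, tsum_eq_sum fun f hf => ?_]
  have : φ f = 0 := funext fun k => hK f hf k
  rw [this]; simp [nsq]

/-- **(SQ)** -/
theorem sq {w : Fld} (hs : Sym w) (hp : IsPlus w) {φ : Fld} (hφ : FS φ) (E : Finset Face) (κ : ℝ)
    (hκ : ∀ z, SqKx470.kapS E z ≤ κ) :
    ∑ f ∈ E, nsq (φ f) ≤ CQ * (1 + κ) * (nn φ * nn (A w φ)) := by
  rw [nn_eq_tsum hφ, nn_eq_tsum hφ.A]
  obtain ⟨K, hK⟩ := hφ
  refine Sqx54.sq_main hs hp (I := K) hK E κ fun z => ?_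
  refine le_of_eq_of_le ?_ (hκ z)
  unfold SqKx470.kapS
  refine sum_congr rfl fun f _ => ?_
  unfold Sqx54.wt
  simp only [Prod.fst_sub, Prod.snd_sub, Int.cast_sub]

/-- one face -/
theorem pt {w : Fld} (hs : Sym w) (hp : IsPlus w) {φ : Fld} (hφ : FS φ) (v : Face) :
    nsq (φ v) ≤ 2 * CQ * (nn φ * nn (A w φ)) := by
  have h := sq hs hp hφ {v} 1 fun z => ?_
  · rw [sum_singleton] at h
    refine h.trans (le_of_eq ?_)
    ring
  · unfold SqKx470.kapS
    rw [sum_singleton, div_le_one (by positivity)]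
    have a1 := abs_nonneg ((v.1 : ℝ) - (z.1 : ℝ))
    have a2 := abs_nonneg ((v.2 : ℝ) - (z.2 : ℝ))
    linarith

/-- support in a box -/
theorem gapBox {w : Fld} (hs : Sym w) (hp : IsPlus w) {φ : Fld} {E : Finset Face}
    (hφ : ∀ f, f ∉ E → ∀ h, φ f h = 0) {c : Face} {r : ℝ} (hr : 0 ≤ r)
    (hE : ∀ f ∈ E, |((f.1 : ℝ) - (c.1 : ℝ))| ≤ r ∧ |((f.2 : ℝ) - (c.2 : ℝ))| ≤ r) :
    nn φ ≤ CQ * (9 + 8 * r) * nn (A w φ) := by
  have hF : FS φ := ⟨E, hφ⟩
  have h := sq hs hp hF E (8 * (1 + r)) fun z => SqKx470.kap_box hr hE z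
  rw [← nn_sq_eq hφ] at h
  have n0 := nn_nonneg φ
  have n1 := nn_nonneg (A w φ)
  rcases n0.eq_or_lt with h0 | h0
  · rw [← h0]; unfold CQ; positivity
  · have : nn φ * nn φ ≤ (CQ * (9 + 8 * r) * nn (A w φ)) * nn φ := by
      calc nn φ * nn φ = nn φ ^ 2 := by ring
        _ ≤ _ := h
        _ = _ := by ring
    exact le_of_mul_le_mul_right this h0

/-- **gap** of a plus type background whose couplings live in a box of radius `r` -/
theorem gap {w : Fld} (hs : Sym w) (hp : IsPlus w) {T : Finset Face}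
    (hT : ∀ f, f ∉ T → ∀ h, w f h = 0) {c : Face} {r : ℝ} (hr : 0 ≤ r)
    (hE : ∀ f ∈ T, |((f.1 : ℝ) - (c.1 : ℝ))| ≤ r ∧ |((f.2 : ℝ) - (c.2 : ℝ))| ≤ r)
    {φ : Fld} (hφ : FS φ) :
    nn φ ≤ (CQ * (9 + 8 * r) + 3) * nn (A w φ) := by
  classical
  have h := sq hs hp hφ T (8 * (1 + r)) fun z => SqKx470.kap_box hr hE z
  obtain ⟨K, hK⟩ := hφ
  have hK2 : ∀ f, f ∉ nbh K ∪ T → ∀ h, φ f h = 0 := fun f hf =>
    hK f fun hc => hf (mem_union_left _ (subset_nbh K hc))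
  have hA2 : ∀ f, f ∉ nbh K ∪ T → ∀ h, A w φ f h = 0 := fun f hf =>
    A_zero_off hK f fun hc => hf (mem_union_left _ hc)
  have e1 := nn_sq_eq hK2
  have e2 := nn_sq_eq hA2
  have n0 := nn_nonneg φ
  have n1 := nn_nonneg (A w φ)
  have split : ∀ F : Face → ℝ, ∑ f ∈ nbh K ∪ T, F f = ∑ f ∈ T, F f + ∑ f ∈ (nbh K ∪ T) \ T, F f := by
    intro F
    rw [add_comm, sum_sdiff subset_union_right]
  have out : ∑ f ∈ (nbh K ∪ T) \ T, nsq (φ f) ≤ 7 * nn (A w φ) ^ 2 := by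
    have p : ∀ f ∈ (nbh K ∪ T) \ T, nsq (φ f) ≤ 7 * nsq (A w φ f) := by
      intro f hf
      have hfT := (mem_sdiff.1 hf).2
      have e : nsq (A w φ f) = nsq (A0 (φ f)) := by
        congr 1
        funext h
        simp [A, Y, hT f hfT h]
      rw [e]
      have a1 := nsq_A0_ge (φ f)
      have a2 := Sqx54.xc2_lo
      have a3 := nsq_nonneg (φ f)
      nlinarith
    calc ∑ f ∈ (nbh K ∪ T) \ T, nsq (φ f) ≤ ∑ f ∈ (nbh K ∪ T) \ T, 7 * nsq (A w φ f) :=
          sum_le_sum p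
      _ = 7 * ∑ f ∈ (nbh K ∪ T) \ T, nsq (A w φ f) := by rw [mul_sum]
      _ ≤ 7 * ∑ f ∈ nbh K ∪ T, nsq (A w φ f) := by
          have := sum_le_sum_of_subset_of_nonneg (f := fun f => nsq (A w φ f))
            (sdiff_subset (s := nbh K ∪ T) (t := T)) fun f _ _ => nsq_nonneg _
          linarith
      _ = _ := by rw [← e2]
  have key : nn φ ^ 2 ≤ CQ * (9 + 8 * r) * (nn φ * nn (A w φ)) + 7 * nn (A w φ) ^ 2 := by
    rw [e1, split]
    refine add_le_add (h.trans (le_of_eq ?_)) out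
    ring
  by_contra hc
  push Not at hc
  set a := CQ * (9 + 8 * r) with ha
  have ha0 : 0 ≤ a := by rw [ha]; unfold CQ; positivity
  have h3 : 0 < nn φ := lt_of_le_of_lt (by positivity) hc
  have h4 : (a + 3) * nn (A w φ) * nn φ < nn φ * nn φ := mul_lt_mul_of_pos_right hc h3
  have h5 : (a + 3) * nn (A w φ) * nn (A w φ) ≤ nn φ * nn (A w φ) :=
    mul_le_mul_of_nonneg_right hc.le n1
  nlinarith [mul_nonneg ha0 (sq_nonneg (nn (A w φ))), sq_nonneg (nn (A w φ))]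

/-! ### cut-off -/

/-- sup distance -/
def dm (x f : Face) : ℝ := max |((f.1 : ℝ) - (x.1 : ℝ))| |((f.2 : ℝ) - (x.2 : ℝ))|

theorem dm_nonneg (x f : Face) : 0 ≤ dm x f := le_max_of_le_left (abs_nonneg _)

/-- tent function of radius `ρ` around `x` -/
def tent (x : Face) (ρ : ℝ) (f : Face) : ℝ := max 0 (1 - dm x f / ρ)

theorem tent_self (x : Face) (ρ : ℝ) : tent x ρ x = 1 := by simp [tent, dm]

theorem tent_nonneg (x : Face) (ρ : ℝ) (f : Face) : 0 ≤ tent x ρ f := le_max_left _ _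

theorem tent_le_one (x : Face) {ρ : ℝ} (hρ : 0 < ρ) (f : Face) : tent x ρ f ≤ 1 := by
  refine max_le zero_le_one ?_
  have : 0 ≤ dm x f / ρ := div_nonneg (dm_nonneg x f) hρ.le
  linarith

theorem tent_zero {x : Face} {ρ : ℝ} (hρ : 0 < ρ) {f : Face}
    (hf : ρ ≤ dm x f) : tent x ρ f = 0 := by
  refine max_eq_left ?_
  rw [sub_nonpos, le_div_iff₀ hρ, one_mul]
  exact hf

theorem dist_nb (x f : Face) (h : Fin 4) : |dm x (nb f h) - dm x f| ≤ 1 := by
  unfold dm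
  refine (abs_max_sub_max_le_max _ _ _ _).trans (max_le ?_ ?_)
  · refine (abs_abs_sub_abs_le_abs_sub _ _).trans ?_
    fin_cases h <;> simp [nb]
  · refine (abs_abs_sub_abs_le_abs_sub _ _).trans ?_
    fin_cases h <;> simp [nb]

theorem tent_lip (x : Face) {ρ : ℝ} (hρ : 0 < ρ) (f : Face) (h : Fin 4) :
    |tent x ρ (nb f h) - tent x ρ f| ≤ 1 / ρ := by
  have h1 := abs_max_sub_max_le_max 0 (1 - dm x (nb f h) / ρ) 0 (1 - dm x f / ρ)
  refine h1.trans (max_le (by simp; positivity) ?_)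
  rw [sub_sub_sub_cancel_left, ← sub_div, abs_div, abs_of_pos hρ]
  refine div_le_div_of_nonneg_right ?_ hρ.le
  rw [abs_sub_comm]
  exact dist_nb x f h

/-- multiplication by a function -/
def cut (c : Face → ℝ) (φ : Fld) : Fld := fun f h => c f * φ f h

theorem cut_FS {c : Face → ℝ} {φ : Fld} (hφ : FS φ) : FS (cut c φ) := by
  obtain ⟨K, hK⟩ := hφ
  exact ⟨K, fun f hf h => by rw [cut, hK f hf h, mul_zero]⟩

theorem nn_cut_le {c : Face → ℝ} {φ : Fld} (hφ : FS φ) {m : ℝ} (hm : 0 ≤ m)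
    (hc : ∀ f, |c f| ≤ m) : nn (cut c φ) ≤ m * nn φ := by
  obtain ⟨K, hK⟩ := hφ
  refine nn_le_of (K := K) (fun f hf h => by rw [cut, hK f hf h, mul_zero])
    (mul_nonneg hm (nn_nonneg _)) ?_
  rw [mul_pow, nn_sq_eq hK, mul_sum]
  refine sum_le_sum fun f _ => ?_
  simp only [nsq, cut, mul_sum]
  refine sum_le_sum fun h _ => ?_
  rw [mul_pow]
  have : c f ^ 2 ≤ m ^ 2 := sq_le_sq' (by linarith [(abs_le.1 (hc f)).1]) (abs_le.1 (hc f)).2
  exact mul_le_mul_of_nonneg_right this (sq_nonneg _)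

/-- the commutator of `A` with a slowly varying cut-off -/
theorem nn_comm_le {w : Fld} (hw : ∀ f h, w f h ^ 2 ≤ 1) {c : Face → ℝ} {φ : Fld} (hφ : FS φ)
    {m : ℝ} (hm : 0 ≤ m) (hc : ∀ f h, |c (nb f h) - c f| ≤ m) :
    nn (A w (cut c φ) - cut c (A w φ)) ≤ m * nn φ := by
  obtain ⟨K, hK⟩ := hφ
  have hF : ∀ f h, (A w (cut c φ) - cut c (A w φ)) f h
      = sg h * w f h * ((c (nb f h) - c f) * φ (nb f h) (op h)) := by
    intro f h
    have := A_cut w c φ f h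
    show A w (fun f h => c f * φ f h) f h - c f * A w φ f h = _
    rw [this]; ring
  have h0 : ∀ f, f ∉ nbh K → ∀ h, (A w (cut c φ) - cut c (A w φ)) f h = 0 := by
    intro f hf h
    rw [hF, hK _ (nb_notMem hf h)]; ring
  have h2 : ∀ f, f ∉ nbh K → ∀ h, φ f h = 0 := fun f hf => hK f fun hc => hf (subset_nbh K hc)
  refine nn_le_of h0 (mul_nonneg hm (nn_nonneg _)) ?_
  have s1 : ∑ f ∈ nbh K, ∑ h, φ (nb f h) (op h) ^ 2 = ∑ f ∈ nbh K, nsq (φ f) := by
    refine (sum_bar (nbh K) (fun f h => φ f h ^ 2) (fun f hf h => ?_) (fun f hf h => ?_))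
    · rw [h2 f hf h]; ring
    · have := hK (nb f h) (nb_notMem hf h) (op h)
      rw [this]; ring
  rw [mul_pow, nn_sq_eq h2, ← s1, mul_sum]
  refine sum_le_sum fun f _ => ?_
  simp only [nsq, mul_sum]
  refine sum_le_sum fun h _ => ?_
  rw [hF f h]
  have a1 : (c (nb f h) - c f) ^ 2 ≤ m ^ 2 :=
    sq_le_sq' (by linarith [(abs_le.1 (hc f h)).1]) (abs_le.1 (hc f h)).2
  have a2 := hw f h
  have a3 := sg_sq h
  calc (sg h * w f h * ((c (nb f h) - c f) * φ (nb f h) (op h))) ^ 2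
      = (sg h ^ 2 * w f h ^ 2) * ((c (nb f h) - c f) ^ 2 * φ (nb f h) (op h) ^ 2) := by ring
    _ ≤ 1 * (m ^ 2 * φ (nb f h) (op h) ^ 2) := by
        rw [a3, one_mul]
        exact mul_le_mul a2 (mul_le_mul_of_nonneg_right a1 (sq_nonneg _)) (by positivity)
          zero_le_one
    _ = _ := one_mul _

theorem plus_le_one {w : Fld} (hp : IsPlus w) (f : Face) (h : Fin 4) : w f h ^ 2 ≤ 1 :=
  Sqx54.w_sq_le hp f h

/-- **decay away from the source**: `A Ψ = 0` within distance `ρ` of `x` -/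
theorem entry {w : Fld} (hs : Sym w) (hp : IsPlus w) {Ψ : Fld} (hΨ : FS Ψ) (x : Face) {ρ : ℝ}
    (hρ : 0 < ρ)
    (h0 : ∀ f, dm x f < ρ → ∀ h, A w Ψ f h = 0) :
    nsq (Ψ x) ≤ 2 * CQ / ρ * nn Ψ ^ 2 := by
  have c1 := nn_cut_le (c := tent x ρ) hΨ zero_le_one fun f => by
    rw [abs_of_nonneg (tent_nonneg x ρ f)]; exact tent_le_one x hρ f
  have c2 := nn_comm_le (plus_le_one hp) (c := tent x ρ) hΨ (m := 1 / ρ) (by positivity)
    (tent_lip x hρ)
  have z : cut (tent x ρ) (A w Ψ) = 0 := by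
    funext f h
    show tent x ρ f * A w Ψ f h = 0
    rcases lt_or_ge (dm x f) ρ with hf | hf
    · rw [h0 f hf h, mul_zero]
    · rw [tent_zero hρ hf, zero_mul]
  rw [z, sub_zero] at c2
  have h1 := pt hs hp (cut_FS (c := tent x ρ) hΨ) x
  have h2 : nsq (cut (tent x ρ) Ψ x) = nsq (Ψ x) := by
    simp [nsq, cut, tent_self]
  rw [h2] at h1
  have n0 := nn_nonneg Ψ
  have n1 := nn_nonneg (cut (tent x ρ) Ψ)
  have n2 := nn_nonneg (A w (cut (tent x ρ) Ψ))
  calc nsq (Ψ x) ≤ 2 * CQ * (nn (cut (tent x ρ) Ψ) * nn (A w (cut (tent x ρ) Ψ))) := h1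
    _ ≤ 2 * CQ * ((1 * nn Ψ) * (1 / ρ * nn Ψ)) := by
        unfold CQ
        gcongr
    _ = _ := by ring

end Crest.Agent.R165.PlGapx887
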