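import Crest.Agent.R165.FrGap_887
import Crest.Agent.R165.PlGap_887
import Crest.Agent.R165.Lat_683
import Crest.Agent.R165.GDef_387

/-!
# Row 165 (S0250): the gap of the domain backgrounds, final form (helper887)

Types of `Lat_683` / `GDef_387` (`HE ℤ → ℝ`, `Aop`, `l2`).
* `toF`, `cur`     : bridge to `Tr1_40`
* `wSt T`          : the starred (plus type) background of the free background of `T`; nodes of `T`
                     are its faces, `(v,0) ~ {v - e₂, v}`, `(v,1) ~ {v - e₁, v}`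
* `free_gap_box`   : **gap of `wX (wDom T true) X`**, constant `CF n r ρ c₀`, from a lower bound `c₀`
                     of the determinant of the corner matrix of ANY inverse of `wX (wSt T) X`
* `plus_gap_box`   : **gap of `wX (wDom T false) X`**, any `X`
* `CF_scale`       : `CF n (R/a) (δ/a) c₀ ≤ C(n,R,δ,c₀) / a`
-/

set_option autoImplicit false

noncomputable section

open Finset
open Crest.ProbabilityR.IsingModel
open Crest.Agent.R165.Tr1x40 Crest.Agent.R165.Tr2x40 Crest.Agent.R165.FrAx441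
  Crest.Agent.R165.L2x887 Crest.Agent.R165.FrGapx887 Crest.Agent.R165.PlGapx887

namespace Crest.Agent.R165.FrFinx887

open Crest.Agent.R165.Latx683 (BW HE Aop wX wDom ray Aop_S Aop_E Aop_N Aop_W yE yN)
open Crest.Agent.R165.GDefx387 (l2)

/-! ### bridge -/

/-- half-edge weights of a bond weight -/
def toF (W : BW ℤ) : Fld := fun f h =>
  match h with
  | 0 => W f 0
  | 1 => W (f.1 + 1, f.2) 1
  | 2 => W (f.1, f.2 + 1) 0
  | 3 => W f 1

theorem sym_toF (W : BW ℤ) : Sym (toF W) := by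
  intro f h; fin_cases h <;> simp [toF, nb, op]

/-- currying -/
def cur (φ : HE ℤ → ℝ) : Fld := fun f h => φ (f, h)

theorem A_toF (W : BW ℤ) (φ : HE ℤ → ℝ) (f : Face) (h : Fin 4) :
    A (toF W) (cur φ) f h = Aop W φ (f, h) := by
  fin_cases h
  · show A (toF W) (cur φ) f 0 = Aop W φ (f, 0)
    rw [A_S, Aop_S]
    simp [toF, cur, yN]
  · show A (toF W) (cur φ) f 1 = Aop W φ (f, 1)
    rw [A_E, Aop_E]
    simp [toF, cur, yE]
  · show A (toF W) (cur φ) f 2 = Aop W φ (f, 2)
    rw [A_N, Aop_N]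
    simp [toF, cur, yN]
  · show A (toF W) (cur φ) f 3 = Aop W φ (f, 3)
    rw [A_W, Aop_W]
    simp [toF, cur, yE]

theorem A_toF' (W : BW ℤ) (φ : HE ℤ → ℝ) : A (toF W) (cur φ) = cur (Aop W φ) := by
  funext f h; exact A_toF W φ f h

/-- finite support -/
def FSH (φ : HE ℤ → ℝ) : Prop := (Function.support φ).Finite

theorem FSH.cur {φ : HE ℤ → ℝ} (h : FSH φ) : FS (cur φ) := by
  classical
  refine ⟨h.toFinset.image Prod.fst, fun f hf k => ?_⟩
  by_contra hc
  exact hf (mem_image.2 ⟨(f, k), (Set.Finite.mem_toFinset h).2 hc, rfl⟩)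

theorem l2_eq {φ : HE ℤ → ℝ} (h : FSH φ) : l2 φ = L2x887.nn (cur φ) := by
  classical
  obtain ⟨K, hK⟩ := h.cur
  rw [nn_eq hK, l2]
  congr 1
  rw [tsum_eq_sum (s := K ×ˢ (univ : Finset (Fin 4))), sum_product]
  · rfl
  · intro g hg
    have : g.1 ∉ K := fun hc => hg (mem_product.2 ⟨hc, mem_univ _⟩)
    have := hK g.1 this g.2
    simp only [cur] at this
    rw [show g = (g.1, g.2) from rfl, this]; ring

theorem FSH.of_cur {φ : HE ℤ → ℝ} (h : FS (FrFinx887.cur φ)) : FSH φ := by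
  classical
  obtain ⟨K, hK⟩ := h
  refine ((K ×ˢ (univ : Finset (Fin 4))).finite_toSet).subset fun g hg => ?_
  simp only [coe_product, coe_univ, Set.mem_prod, mem_coe, Set.mem_univ, and_true]
  by_contra hc
  exact hg (hK g.1 hc g.2)

theorem FSH.Aop {φ : HE ℤ → ℝ} (h : FSH φ) (W : BW ℤ) : FSH (Latx683.Aop W φ) := by
  apply FSH.of_cur
  rw [← A_toF']
  exact h.cur.A

/-! ### the backgrounds -/

open Classical in
/-- starred background of the free background of `T` -/
def wSt (T : Set (ℤ × ℤ)) : BW ℤ := fun z j =>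
  if j = 0 then (if (z.1, z.2 - 1) ∈ T ∧ z ∈ T then xc else 0)
  else (if (z.1 - 1, z.2) ∈ T ∧ z ∈ T then xc else 0)

theorem xc_eq : Latx683.xc = xc := rfl

/-- sizes of the free background -/
def uF (T : Set (ℤ × ℤ)) : Fld := toF (wDom T true)

/-- signs of the horizontal bonds -/
def sR {n : ℕ} (X : Fin n → ℤ × ℤ) (v : Face) : ℝ := ray X v 0

theorem ray_one {n : ℕ} (X : Fin n → ℤ × ℤ) (v : Face) : ray X v 1 = 1 := by
  simp [ray]

theorem sR_sq {n : ℕ} (X : Fin n → ℤ × ℤ) (v : Face) : sR X v ^ 2 = 1 := by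
  unfold sR ray
  rw [← prod_pow]
  refine prod_eq_one fun i _ => ?_
  split_ifs <;> norm_num

theorem sR_eq {n : ℕ} (X : Fin n → ℤ × ℤ) (v : Face) :
    sR X v = ∏ i, if (X i).2 = v.2 ∧ (X i).1 ≤ v.1 then (-1 : ℝ) else 1 := by
  unfold sR ray; simp

theorem sR_branch {n : ℕ} {X : Fin n → ℤ × ℤ} (hX : Function.Injective X) (i : Fin n) :
    sR X ((X i).1 - 1, (X i).2) = -sR X (X i) := by
  classical
  rw [sR_eq, sR_eq, ← mul_prod_erase univ _ (mem_univ i), ← mul_prod_erase univ _ (mem_univ i)]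
  have e1 : (if (X i).2 = ((X i).1 - 1, (X i).2).2 ∧ (X i).1 ≤ ((X i).1 - 1, (X i).2).1
      then (-1 : ℝ) else 1) = 1 := by
    rw [if_neg]; simp
  have e2 : (if (X i).2 = (X i).2 ∧ (X i).1 ≤ (X i).1 then (-1 : ℝ) else 1) = -1 := by simp
  rw [e1, e2, one_mul, neg_one_mul, neg_neg]
  refine prod_congr rfl fun j hj => ?_
  have hj : X j ≠ X i := fun hc => (mem_erase.1 hj).1 (hX hc)
  by_cases h1 : (X j).2 = (X i).2
  · have h2 : (X j).1 ≠ (X i).1 := fun hc => hj (Prod.ext hc h1)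
    by_cases h3 : (X j).1 ≤ (X i).1
    · have h4 : (X j).1 ≤ (X i).1 - 1 := by omega
      simp [h1, h3, h4]
    · have h4 : ¬ (X j).1 ≤ (X i).1 - 1 := by omega
      simp [h3, h4]
  · simp [h1]

theorem sR_nonbranch {n : ℕ} {X : Fin n → ℤ × ℤ} {v : Face} (hv : ∀ i, X i ≠ v) :
    sR X (v.1 - 1, v.2) = sR X v := by
  rw [sR_eq, sR_eq]
  refine prod_congr rfl fun j _ => ?_
  have hj := hv j
  by_cases h1 : (X j).2 = v.2
  · have h2 : (X j).1 ≠ v.1 := fun hc => hj (Prod.ext hc h1)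
    by_cases h3 : (X j).1 ≤ v.1
    · have h4 : (X j).1 ≤ v.1 - 1 := by omega
      simp [h1, h3, h4]
    · have h4 : ¬ (X j).1 ≤ v.1 - 1 := by omega
      simp [h3, h4]
  · simp [h1]

theorem uF_pos (T : Set (ℤ × ℤ)) (f : Face) (h : Fin 4) : 0 < uF T f h := by
  have key : ∀ z j, 0 < wDom T true z j := by
    intro z j
    unfold wDom
    simp only [if_true]
    split_ifs
    · exact xc_pos
    · exact one_pos
  fin_cases h <;> exact key _ _

theorem uF_mem (T : Set (ℤ × ℤ)) (f : Face) (h : Fin 4) : uF T f h = xc ∨ uF T f h = 1 := by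
  have key : ∀ z j, wDom T true z j = xc ∨ wDom T true z j = 1 := by
    intro z j
    unfold wDom
    simp only [if_true]
    split_ifs
    · left; rfl
    · right; rfl
  fin_cases h <;> exact key _ _

theorem toF_free {n : ℕ} (T : Set (ℤ × ℤ)) (X : Fin n → ℤ × ℤ) :
    toF (wX (wDom T true) X) = wf (sR X) (uF T) := by
  funext f h
  fin_cases h
  · rfl
  · show ray X (f.1 + 1, f.2) 1 * _ = _
    rw [ray_one, one_mul]; rfl
  · rfl
  · show ray X f 1 * _ = _
    rw [ray_one, one_mul]; rfl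

theorem du_size (p : Prop) [Decidable p] : du (if p then xc else 1) = if p then xc else 0 := by
  split_ifs
  · exact du_xc
  · exact du_one

theorem toF_star {n : ℕ} (T : Set (ℤ × ℤ)) (X : Fin n → ℤ × ℤ) :
    toF (wX (wSt T) X) = ws (sR X) (uF T) := by
  classical
  have key : ∀ z j, du (wDom T true z j) = if z ∈ T ∧ z + unitVec j ∈ T then xc else 0 := by
    intro z j
    unfold wDom
    simp only [if_true]
    exact du_size _
  funext f h
  obtain ⟨a, b⟩ := f
  fin_cases h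
  · show ray X (a, b) 0 * wSt T (a, b) 0 = sR X (a, b) * du (wDom T true (a, b - 1) 1)
    rw [key]
    simp [wSt, unitVec, sR]
  · show ray X (a + 1, b) 1 * wSt T (a + 1, b) 1 = du (wDom T true (a, b) 0)
    rw [key, ray_one, one_mul]
    simp [wSt, unitVec]
  · show ray X (a, b + 1) 0 * wSt T (a, b + 1) 0 = sR X (a, b + 1) * du (wDom T true (a, b) 1)
    rw [key]
    simp [wSt, unitVec, sR]
  · show ray X (a, b) 1 * wSt T (a, b) 1 = du (wDom T true (a - 1, b) 0)
    rw [key, ray_one, one_mul]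
    simp [wSt, unitVec]

theorem ws_zero_off {n : ℕ} (T : Set (ℤ × ℤ)) (X : Fin n → ℤ × ℤ) {f : Face} (hf : f ∉ T)
    (h : Fin 4) : toF (wX (wSt T) X) f h = 0 := by
  classical
  obtain ⟨a, b⟩ := f
  fin_cases h
  · show ray X (a, b) 0 * wSt T (a, b) 0 = 0
    simp [wSt, hf]
  · show ray X (a + 1, b) 1 * wSt T (a + 1, b) 1 = 0
    simp [wSt, hf]
  · show ray X (a, b + 1) 0 * wSt T (a, b + 1) 0 = 0
    simp [wSt, hf]
  · show ray X (a, b) 1 * wSt T (a, b) 1 = 0
    simp [wSt, hf]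

theorem ws_closed {n : ℕ} (T : Set (ℤ × ℤ)) (X : Fin n → ℤ × ℤ) {f : Face} (h : Fin 4)
    (h0 : toF (wX (wSt T) X) f h ≠ 0) : nb f h ∈ T := by
  by_contra hc
  apply h0
  rw [← sym_toF (wX (wSt T) X) f h]
  exact ws_zero_off T X hc _

/-! ### the constants -/

/-- gap constant of a plus type background in a box of radius `r` -/
def CG (r : ℝ) : ℝ := CQ * (9 + 8 * r) + 3

/-- `l²` norm of a corner column -/
def CP (r : ℝ) : ℝ := 2 * Real.sqrt (2 * CQ * CG r)

/-- entries of the corner matrix -/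
def CB (r ρ : ℝ) : ℝ := max 1 (2 * (Real.sqrt (2 * CQ / ρ) * CP r))

/-- entries of the inverse corner matrix -/
def CN' (n : ℕ) (r ρ c₀ : ℝ) : ℝ := n.factorial * CB r ρ ^ n / c₀

/-- the gap constant of the free background -/
def CF (n : ℕ) (r ρ c₀ : ℝ) : ℝ :=
  2 * (4 * CG r + (n : ℝ) ^ 2 * CN' n r ρ c₀ * CP r * (4 + 4 * CP r))

theorem CG_nonneg {r : ℝ} (hr : 0 ≤ r) : 0 ≤ CG r := by unfold CG CQ; positivity

/-! ### inverse of the corner matrix -/

theorem inv_entry {n : ℕ} (B : Matrix (Fin n) (Fin n) ℝ) {b c₀ : ℝ} (hb1 : 1 ≤ b)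
    (hb : ∀ i j, |B i j| ≤ b) (hc₀ : 0 < c₀) (hdet : c₀ ≤ |B.det|) (i j : Fin n) :
    |B⁻¹ i j| ≤ n.factorial * b ^ n / c₀ := by
  classical
  have hd : 0 < |B.det| := lt_of_lt_of_le hc₀ hdet
  rw [Matrix.inv_def, Ring.inverse_eq_inv', Matrix.smul_apply, smul_eq_mul, abs_mul, abs_inv,
    Matrix.adjugate_apply]
  have h1 : |(B.updateRow j (Pi.single i 1)).det| ≤ n.factorial * b ^ n := by
    have h2 := Matrix.det_le (A := B.updateRow j (Pi.single i 1)) (abv := AbsoluteValue.abs)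
      (x := b) (fun k l => by
        show |(B.updateRow j (Pi.single i 1)) k l| ≤ b
        rw [Matrix.updateRow_apply]
        split_ifs with hk
        · by_cases hl : l = i
          · subst hl; simpa using hb1
          · simp [hl]; linarith
        · exact hb k l)
    simpa [nsmul_eq_mul] using h2
  rw [inv_mul_le_iff₀ hd]
  calc |(B.updateRow j (Pi.single i 1)).det| ≤ n.factorial * b ^ n := h1
    _ = c₀ * (n.factorial * b ^ n / c₀) := by field_simp
    _ ≤ |B.det| * (n.factorial * b ^ n / c₀) := by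
        refine mul_le_mul_of_nonneg_right hdet ?_
        positivity

/-! ### main theorems -/

/-- **gap of the free background with spin insertions** -/
theorem free_gap_box {n : ℕ} {X : Fin n → ℤ × ℤ} (hX : Function.Injective X)
    {T : Finset (ℤ × ℤ)} (hXT : ∀ i, X i ∈ T) {c : Face} {r : ℝ} (hr : 0 ≤ r)
    (hE : ∀ f ∈ T, |((f.1 : ℝ) - (c.1 : ℝ))| ≤ r ∧ |((f.2 : ℝ) - (c.2 : ℝ))| ≤ r)
    {ρ : ℝ} (hρ : 0 < ρ) (hsep : ∀ i j, i ≠ j → ρ ≤ dm (X i) (X j))
    {c₀ : ℝ} (hc₀ : 0 < c₀) (S : HE ℤ → HE ℤ → ℝ)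
    (hS : ∀ g h', Aop (wX (wSt (T : Set (ℤ × ℤ))) X) (fun h => S h h') g
      = -(Pi.single h' 1 : HE ℤ → ℝ) g)
    (hdet : c₀ ≤ |(Matrix.of fun i j : Fin n => ∑ k, ∑ l, S (X i, k) (X j, l)).det|)
    {φ : HE ℤ → ℝ} (hφ : FSH φ) :
    l2 φ ≤ CF n r ρ c₀ * l2 (Aop (wX (wDom (T : Set (ℤ × ℤ)) true) X) φ) := by
  classical
  set s := sR X with hs
  set u := uF (T : Set (ℤ × ℤ)) with hu
  have hws : toF (wX (wSt (T : Set (ℤ × ℤ))) X) = ws s u := toF_star _ X
  have hwf : toF (wX (wDom (T : Set (ℤ × ℤ)) true) X) = wf s u := toF_free _ X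
  have hpl : IsPlus (ws s u) := isPlus_ws (sR_sq X) (uF_mem _)
  have hsy : Sym (ws s u) := sym_ws s u
  have hz : ∀ f, f ∉ T → ∀ h, ws s u f h = 0 := fun f hf h => by
    rw [← hws]; exact ws_zero_off _ X (by simpa using hf) h
  have hcl : ∀ f ∈ T, ∀ h, ws s u f h ≠ 0 → nb f h ∈ T := fun f _ h h0 => by
    rw [← hws] at h0; simpa using ws_closed _ X h h0
  have hgap : ∀ ψ, FS ψ → nn ψ ≤ CG r * nn (A (ws s u) ψ) := fun ψ hψ =>
    PlGapx887.gap hsy hpl hz hr hE hψ
  have hpt : ∀ ψ, FS ψ → ∀ v, nsq (ψ v) ≤ 2 * CQ * (nn ψ * nn (A (ws s u) ψ)) :=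
    fun ψ hψ v => PlGapx887.pt hsy hpl hψ v
  have hCG := CG_nonneg hr
  have hCQ : (0 : ℝ) ≤ CQ := by unfold CQ; norm_num
  -- the corner columns
  have hcol := fun i => source hsy T hcl hCG (by positivity : (0 : ℝ) ≤ 2 * CQ) hgap hpt (X i) (hXT i)
  choose Ψ hΨ0 hΨA hΨn using hcol
  have hΨF : ∀ i, FS (Ψ i) := fun i => ⟨T, hΨ0 i⟩
  have hP0 : 0 ≤ CP r := by unfold CP; positivity
  -- the corner matrix
  let B : Matrix (Fin n) (Fin n) ℝ := Matrix.of fun i j => tot (Ψ j) (X i)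
  have hBS : ∀ i j, B i j = -∑ k, ∑ l, S (X i, k) (X j, l) := by
    intro i j
    -- `Ψ j + ∑_l S(., (X j, l))` vanishes
    let χ : HE ℤ → ℝ := fun h => Ψ j h.1 h.2 + ∑ l, S h (X j, l)
    have hχA : ∀ g, Aop (wX (wSt (T : Set (ℤ × ℤ))) X) χ g = 0 := by
      intro g
      have e1 : χ = (fun h => Ψ j h.1 h.2) + ∑ l, fun h => S h (X j, l) := by
        funext h
        simp [χ, Finset.sum_apply]
      rw [e1, map_add, map_sum, Pi.add_apply, Finset.sum_apply]
      have e2 : Aop (wX (wSt (T : Set (ℤ × ℤ))) X) (fun h => Ψ j h.1 h.2) g = mS (X j) g.1 g.2 := by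
        have := A_toF (wX (wSt (T : Set (ℤ × ℤ))) X) (fun h => Ψ j h.1 h.2) g.1 g.2
        rw [hws] at this
        rw [← hΨA j, show g = (g.1, g.2) from rfl, ← this]
        rfl
      rw [e2, sum_congr rfl fun l _ => hS g (X j, l)]
      obtain ⟨g1, g2⟩ := g
      simp only [mS, Pi.single_apply, Prod.mk.injEq, sum_neg_distrib]
      by_cases hg : g1 = X j
      · simp [hg]
      · simp [hg]
    have hχ0 : ∀ f, f ∉ T → ∀ h, cur χ f h = 0 := by
      intro f hf
      have e : ∀ h, A0 (cur χ f) h = 0 := by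
        intro h
        have h1 := A_toF (wX (wSt (T : Set (ℤ × ℤ))) X) χ f h
        rw [hχA, hws] at h1
        simpa [A, Y, hz f hf h] using h1
      have e0 := e 0
      have e1 := e 1
      have e2 := e 2
      have e3 := e 3
      simp only [A0_zero, A0_one, A0_two, A0_three] at e0 e1 e2 e3
      intro h
      fin_cases h
      · show cur χ f 0 = 0; linarith
      · show cur χ f 1 = 0; linarith
      · show cur χ f 2 = 0; linarith
      · show cur χ f 3 = 0; linarith
    have hχF : FS (cur χ) := ⟨T, hχ0⟩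
    have hA0 : A (ws s u) (cur χ) = 0 := by
      rw [← hws, A_toF']
      funext f h
      exact hχA (f, h)
    have hn := hgap _ hχF
    rw [hA0, nn_zero, mul_zero] at hn
    have hz0 : ∀ k, Ψ j (X i) k + ∑ l, S (X i, k) (X j, l) = 0 := by
      intro k
      have h1 := abs_le_nn hχF (X i) k
      have h2 : |cur χ (X i) k| ≤ 0 := h1.trans hn
      exact abs_nonpos_iff.1 h2
    show tot (Ψ j) (X i) = _
    rw [Fin.sum_univ_four (f := fun k => ∑ l, S (X i, k) (X j, l))]
    unfold tot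
    have := hz0 0
    have := hz0 1
    have := hz0 2
    have := hz0 3
    linarith
  have hdetB : c₀ ≤ |B.det| := by
    have e : B = -(Matrix.of fun i j : Fin n => ∑ k, ∑ l, S (X i, k) (X j, l)) := by
      ext i j
      rw [hBS]; rfl
    rw [e, Matrix.det_neg, abs_mul, abs_pow, abs_neg, abs_one, one_pow, one_mul]
    exact hdet
  have hb : ∀ i j, |B i j| ≤ CB r ρ := by
    intro i j
    show |tot (Ψ j) (X i)| ≤ _
    by_cases hij : i = j
    · subst hij
      have h1 : tot (Ψ i) (X i) = 0 := by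
        have h2 := ip_A hsy (hΨF i) (ψ := Ψ i)
        rw [hΨA i, ip_mS, ip_comm, ip_mS] at h2
        linarith
      rw [h1, abs_zero]
      exact zero_le_one.trans (le_max_left _ _)
    · have h1 := entry hsy hpl (hΨF j) (X i) hρ fun f hf h => by
        rw [hΨA j]
        have : f ≠ X j := fun hc => by
          have := hsep i j hij
          rw [← hc] at this
          linarith
        simp [mS, this]
      refine le_max_of_le_right ((abs_tot_le _).trans ?_)
      have h2 : Real.sqrt (nsq (Ψ j (X i))) ≤ Real.sqrt (2 * CQ / ρ) * CP r := by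
        calc Real.sqrt (nsq (Ψ j (X i))) ≤ Real.sqrt (2 * CQ / ρ * nn (Ψ j) ^ 2) :=
              Real.sqrt_le_sqrt h1
          _ = Real.sqrt (2 * CQ / ρ) * nn (Ψ j) := by
              rw [Real.sqrt_mul (by positivity), Real.sqrt_sq (nn_nonneg _)]
          _ ≤ Real.sqrt (2 * CQ / ρ) * CP r :=
              mul_le_mul_of_nonneg_left (hΨn j) (Real.sqrt_nonneg _)
      linarith
  have hinv := inv_entry B (le_max_left _ _) hb hc₀ hdetB
  have hBinv : B⁻¹ * B = 1 := by
    refine Matrix.nonsing_inv_mul B (Ne.isUnit fun h => ?_)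
    rw [h, abs_zero] at hdetB
    linarith
  have hK0 : 0 ≤ CN' n r ρ c₀ := by
    unfold CN'
    have : 0 ≤ CB r ρ := zero_le_one.trans (le_max_left _ _)
    positivity
  rw [l2_eq hφ, l2_eq (hφ.Aop _), ← A_toF', hwf]
  rcases Nat.eq_zero_or_pos n with hn0 | hn0
  · -- no insertion
    subst hn0
    have := free_gap (s := s) (u := u) (sym_toF _) (sR_sq X) (uF_pos _) ∅
      (fun v hv => absurd hv (notMem_empty v)) (fun v _ => sR_nonbranch fun i => i.elim0)
      hP0 hK0 hgap (fun _ => 0) (fun v hv => absurd hv (notMem_empty v))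
      (fun v hv => absurd hv (notMem_empty v)) (fun v hv => absurd hv (notMem_empty v))
      (fun _ _ => 0) (fun v hv => absurd hv (notMem_empty v))
      (fun v hv => absurd hv (notMem_empty v)) (cur φ) hφ.cur
    simpa [CF] using this
  · have : Nonempty (Fin n) := ⟨⟨0, hn0⟩⟩
    let inv := Function.invFun X
    have hinvX : ∀ i, inv (X i) = i := Function.leftInverse_invFun hX
    have hmem : ∀ v, v ∈ univ.image X → ∃ i, X i = v := fun v hv => by
      simpa using hv
    have := free_gap (s := s) (u := u) (sym_toF _) (sR_sq X) (uF_pos _) (univ.image X)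
      (fun v hv => by obtain ⟨i, rfl⟩ := hmem v hv; exact sR_branch hX i)
      (fun v hv => sR_nonbranch fun i hc => hv (mem_image.2 ⟨i, mem_univ _, hc⟩))
      hP0 hK0 hgap (fun v => Ψ (inv v)) (fun v _ => hΨF _)
      (fun v hv => by obtain ⟨i, rfl⟩ := hmem v hv; simp only [hinvX]; exact hΨA i)
      (fun v _ => hΨn _) (fun v z => B⁻¹ (inv v) (inv z))
      (fun v hv w hw => by
        obtain ⟨i, rfl⟩ := hmem v hv
        obtain ⟨j, rfl⟩ := hmem w hw
        rw [sum_image fun _ _ _ _ h => hX h]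
        simp only [hinvX]
        have h1 : (B⁻¹ * B) i j = (1 : Matrix (Fin n) (Fin n) ℝ) i j := by rw [hBinv]
        rw [Matrix.mul_apply, Matrix.one_apply] at h1
        refine h1.trans ?_
        by_cases hij : i = j
        · subst hij; simp
        · rw [if_neg hij, if_neg fun hc => hij (hX hc)])
      (fun v _ z _ => hinv _ _) (cur φ) hφ.cur
    rwa [card_image_of_injective _ hX, card_univ, Fintype.card_fin] at this

/-- faces touching `T` -/
def fT (T : Finset (ℤ × ℤ)) : Finset (ℤ × ℤ) :=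
  T.biUnion fun v => {v, (v.1 - 1, v.2), (v.1, v.2 - 1), (v.1 - 1, v.2 - 1)}

theorem isPlus_plus {n : ℕ} (T : Set (ℤ × ℤ)) (X : Fin n → ℤ × ℤ) :
    IsPlus (toF (wX (wDom T false) X)) := by
  classical
  have hr : ∀ z j, ray X z j ^ 2 = 1 := by
    intro z j
    unfold ray
    rw [← prod_pow]
    refine prod_eq_one fun i _ => ?_
    split_ifs <;> norm_num
  have key : ∀ z j, (wX (wDom T false) X z j) ^ 2 = xc ^ 2 ∨ wX (wDom T false) X z j = 0 := by
    intro z j
    unfold wX wDom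
    simp only [Bool.false_eq_true, if_false]
    split_ifs
    · left; rw [mul_pow, hr, one_mul, xc_eq]
    · right; rw [mul_zero]
  intro f h
  fin_cases h <;> exact key _ _

theorem plus_zero_off {n : ℕ} (T : Finset (ℤ × ℤ)) (X : Fin n → ℤ × ℤ) {f : Face}
    (hf : f ∉ fT T) (h : Fin 4) : toF (wX (wDom (T : Set (ℤ × ℤ)) false) X) f h = 0 := by
  classical
  obtain ⟨a, b⟩ := f
  have c1 : (a, b) ∉ T := fun hc => hf (mem_biUnion.2 ⟨_, hc, by simp⟩)
  have c2 : (a + 1, b) ∉ T := fun hc => hf (mem_biUnion.2 ⟨_, hc, by simp⟩)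
  have c3 : (a, b + 1) ∉ T := fun hc => hf (mem_biUnion.2 ⟨_, hc, by simp⟩)
  have c4 : (a + 1, b + 1) ∉ T := fun hc => hf (mem_biUnion.2 ⟨_, hc, by simp⟩)
  fin_cases h
  · show ray X (a, b) 0 * wDom (T : Set (ℤ × ℤ)) false (a, b) 0 = 0
    simp [wDom, unitVec, c1, c2]
  · show ray X (a + 1, b) 1 * wDom (T : Set (ℤ × ℤ)) false (a + 1, b) 1 = 0
    simp [wDom, unitVec, c2, c4]
  · show ray X (a, b + 1) 0 * wDom (T : Set (ℤ × ℤ)) false (a, b + 1) 0 = 0
    simp [wDom, unitVec, c3, c4]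
  · show ray X (a, b) 1 * wDom (T : Set (ℤ × ℤ)) false (a, b) 1 = 0
    simp [wDom, unitVec, c1, c3]

/-- **gap of the plus background**, any insertions -/
theorem plus_gap_box {n : ℕ} (X : Fin n → ℤ × ℤ) {T : Finset (ℤ × ℤ)} {c : Face} {r : ℝ}
    (hr : 0 ≤ r)
    (hE : ∀ f ∈ T, |((f.1 : ℝ) - (c.1 : ℝ))| ≤ r ∧ |((f.2 : ℝ) - (c.2 : ℝ))| ≤ r)
    {φ : HE ℤ → ℝ} (hφ : FSH φ) :
    l2 φ ≤ CG (r + 1) * l2 (Aop (wX (wDom (T : Set (ℤ × ℤ)) false) X) φ) := by
  classical
  rw [l2_eq hφ, l2_eq (hφ.Aop _), ← A_toF']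
  refine PlGapx887.gap (sym_toF _) (isPlus_plus _ X) (T := fT T) (fun f hf h =>
    plus_zero_off T X hf h) (c := c) (by linarith) ?_ hφ.cur
  intro f hf
  obtain ⟨v, hv, hfv⟩ := mem_biUnion.1 hf
  obtain ⟨h1, h2⟩ := hE v hv
  rw [abs_le] at h1 h2
  simp only [mem_insert, mem_singleton] at hfv
  rcases hfv with rfl | rfl | rfl | rfl
  · constructor <;> rw [abs_le] <;> constructor <;> linarith
  · constructor <;> rw [abs_le] <;> constructor <;> push_cast <;> linarith
  · constructor <;> rw [abs_le] <;> constructor <;> push_cast <;> linarith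
  · constructor <;> rw [abs_le] <;> constructor <;> push_cast <;> linarith

end Crest.Agent.R165.FrFinx887
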