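import Crest.Agent.R165.FrA_441
import Crest.Agent.R165.L2_887

/-!
# Row 165 (S0250): the gap of a free background with spin insertions (helper887)

On top of `FrA_441` (`wf`, `ws`, `fs`, `star_A`, `star_m`).

* `mS v`        : the source `(1,1,1,1)` at the node `v`; `ip (mS v) ψ = tot ψ v`
* `T0 s g`      : the rows of the starred system, without the insertion terms
* `star_eq`     : `A (ws) (fs φ) = T0 (A (wf) φ) + ∑_{v ∈ X} c_v • mS v`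
* `nn_fs`, `nn_T0`, `abs_lam` : norm comparisons
* `free_gap`    : `|φ| ≤ 2 (4 G + |X|² K P (4 + 4 P)) |A^free φ|`, where `G` is the gap constant of
  the starred (plus type) background, `P ≥ |A*⁻¹ m_v|` and `K` bounds the entries of the inverse of
  the matrix `B_vw = ⟨m_v, A*⁻¹ m_w⟩`
* `source`      : existence and `l²` bound `|A*⁻¹ m_v| ≤ 2 √(Q G)` of the corner columns
-/

set_option autoImplicit false

noncomputable section

namespace Crest.Agent.R165.FrGapx887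

open Finset
open Crest.Agent.R165.Tr1x40 Crest.Agent.R165.Tr2x40 Crest.Agent.R165.FrAx441
  Crest.Agent.R165.L2x887

/-- the corner source at the node `v` -/
def mS (v : Face) : Fld := fun f _ => if f = v then 1 else 0

theorem mS_off {v f : Face} (h : f ∉ ({v} : Finset Face)) (k : Fin 4) : mS v f k = 0 := by
  rw [mem_singleton] at h
  simp [mS, h]

theorem mS_FS (v : Face) : FS (mS v) := ⟨{v}, fun _ hf h => mS_off hf h⟩

theorem ip_mS (v : Face) (ψ : Fld) : ip (mS v) ψ = tot ψ v := by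
  rw [ip_eq (K := {v}) (fun _ hf h => mS_off hf h), sum_singleton, Fin.sum_univ_four]
  simp [mS, tot]

theorem abs_tot_le {ψ : Fld} (v : Face) : |tot ψ v| ≤ 2 * Real.sqrt (nsq (ψ v)) := by
  have h : (tot ψ v) ^ 2 ≤ (2 * Real.sqrt (nsq (ψ v))) ^ 2 := by
    rw [mul_pow, Real.sq_sqrt (nsq_nonneg _), nsq_eq]
    unfold tot
    nlinarith [sq_nonneg (ψ v 0 - ψ v 1), sq_nonneg (ψ v 0 - ψ v 2), sq_nonneg (ψ v 0 - ψ v 3),
      sq_nonneg (ψ v 1 - ψ v 2), sq_nonneg (ψ v 1 - ψ v 3), sq_nonneg (ψ v 2 - ψ v 3)]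
  exact abs_le_of_sq_le_sq h (by positivity)

/-- rows of the starred system, without the insertion terms -/
def T0 (s : Face → ℝ) (g : Fld) : Fld := fun v h =>
  asm (r1 g v) (r2 g v) ((s (v.1 - 1, v.2) + s v) / 2 * r3 g v) (s v * r4 g v) h

/-- coefficient of the insertion term -/
def cc (s : Face → ℝ) (u φ : Fld) (v : Face) : ℝ := -s v * am s u φ v

theorem star_eq {s : Face → ℝ} {u φ : Fld} (hu : Sym u) (hs : ∀ v, s v ^ 2 = 1)
    (hpos : ∀ f h, 0 < u f h) (X : Finset Face)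
    (hX : ∀ v, v ∈ X → s (v.1 - 1, v.2) = -s v) (hX' : ∀ v, v ∉ X → s (v.1 - 1, v.2) = s v) :
    A (ws s u) (fs s u φ) = T0 s (A (wf s u) φ) + ∑ v ∈ X, cc s u φ v • mS v := by
  classical
  funext v h
  rw [star_A s u φ hu hs hpos v h, Pi.add_apply, Pi.add_apply, Finset.sum_apply,
    Finset.sum_apply]
  by_cases hv : v ∈ X
  · have e : ∑ c ∈ X, (cc s u φ c • mS c) v h = cc s u φ v := by
      rw [sum_eq_single v]
      · simp [mS]
      · intro c _ hc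
        simp [mS, Ne.symm hc]
      · intro hc; exact absurd hv hc
    rw [e]
    have hs' := hX v hv
    fin_cases h <;> simp only [asm, T0, cc, hs'] <;> ring
  · have e : ∑ c ∈ X, (cc s u φ c • mS c) v h = 0 := by
      refine sum_eq_zero fun c hc => ?_
      have : v ≠ c := fun hvc => hv (hvc ▸ hc)
      simp [mS, this]
    rw [e, hX' v hv]
    simp only [T0, hX' v hv, sub_self, zero_mul, add_zero]

/-! ### norm comparisons -/

theorem nsq_asm_le (a b c d : ℝ) : nsq (asm a b c d) ≤ 4 * (a ^ 2 + b ^ 2 + c ^ 2 + d ^ 2) := by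
  rw [nsq_eq]; simp only [asm]
  nlinarith [sq_nonneg (a + b), sq_nonneg (a - b), sq_nonneg (a + c), sq_nonneg (a - c),
    sq_nonneg (a + d), sq_nonneg (a - d), sq_nonneg (b + c), sq_nonneg (b - c),
    sq_nonneg (b + d), sq_nonneg (b - d), sq_nonneg (c + d), sq_nonneg (c - d)]

/-- faces around the nodes of `K` and nodes around the faces of `K` -/
def box3 (K : Finset Face) : Finset Face :=
  (K ×ˢ ((Finset.Icc (-1 : ℤ) 1) ×ˢ (Finset.Icc (-1 : ℤ) 1))).image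
    fun p => (p.1.1 + p.2.1, p.1.2 + p.2.2)

theorem mem_box3 {K : Finset Face} {f : Face} {a b : ℤ} (ha : a ∈ Finset.Icc (-1 : ℤ) 1)
    (hb : b ∈ Finset.Icc (-1 : ℤ) 1) (h : (f.1 - a, f.2 - b) ∈ K) : f ∈ box3 K := by
  refine mem_image.2 ⟨((f.1 - a, f.2 - b), (a, b)), ?_, ?_⟩
  · exact mem_product.2 ⟨h, mem_product.2 ⟨ha, hb⟩⟩
  · ext <;> simp

theorem not_mem_of_box3 {K : Finset Face} {f : Face} (hf : f ∉ box3 K) (a b : ℤ)
    (ha : a ∈ Finset.Icc (-1 : ℤ) 1) (hb : b ∈ Finset.Icc (-1 : ℤ) 1) :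
    (f.1 - a, f.2 - b) ∉ K := fun h => hf (mem_box3 ha hb h)

theorem T0_off {s : Face → ℝ} {g : Fld} {K : Finset Face} (h : ∀ f, f ∉ K → ∀ h, g f h = 0) :
    ∀ v, v ∉ box3 K → ∀ k, T0 s g v k = 0 := by
  intro v hv k
  have z1 : ∀ k, g v k = 0 := h v (by simpa using not_mem_of_box3 hv 0 0 (by simp) (by simp))
  have z2 : ∀ k, g (v.1 - 1, v.2) k = 0 :=
    h _ (by simpa using not_mem_of_box3 hv 1 0 (by simp) (by simp))
  have z3 : ∀ k, g (v.1 - 1, v.2 - 1) k = 0 :=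
    h _ (not_mem_of_box3 hv 1 1 (by simp) (by simp))
  have z4 : ∀ k, g (v.1, v.2 - 1) k = 0 :=
    h _ (by simpa using not_mem_of_box3 hv 0 1 (by simp) (by simp))
  fin_cases k <;> simp [T0, asm, r1, r2, r3, r4, z1, z2, z3, z4]

theorem FS_T0 {s : Face → ℝ} {g : Fld} (h : FS g) : FS (T0 s g) := by
  obtain ⟨K, h⟩ := h
  exact ⟨box3 K, T0_off h⟩

theorem shift_inj (a b : ℤ) : Function.Injective fun f : Face => (f.1 + a, f.2 + b) := by
  rintro ⟨x, y⟩ ⟨x', y'⟩ h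
  simp only [Prod.mk.injEq, add_left_inj] at h
  exact Prod.ext h.1 h.2

theorem shift_sum_le {g : Fld} {K : Finset Face} (h : ∀ f, f ∉ K → ∀ h, g f h = 0)
    (a b : ℤ) (c : Fin 4 → ℝ) (hc : ∀ k, 0 ≤ c k) (K' : Finset Face) :
    ∑ f ∈ K', ∑ k, c k * g (f.1 + a, f.2 + b) k ^ 2 ≤ ∑ f ∈ K, ∑ k, c k * g f k ^ 2 :=
  sum_comp_le (F := fun f => ∑ k, c k * g f k ^ 2)
    (fun f => sum_nonneg fun k _ => mul_nonneg (hc k) (sq_nonneg _))
    (fun f hf => sum_eq_zero fun k _ => by rw [h f hf k]; ring) _ (shift_inj a b) K'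

theorem nn_T0 {s : Face → ℝ} (hs : ∀ v, s v ^ 2 = 1) {g : Fld} (hg : FS g) :
    nn (T0 s g) ≤ 4 * nn g := by
  obtain ⟨K, hK⟩ := hg
  refine nn_le_of (T0_off hK) (by have := nn_nonneg g; positivity) ?_
  have pt : ∀ v, nsq (T0 s g v) ≤ 8 * (
      (∑ k, (![1, 0, 0, 1] : Fin 4 → ℝ) k * g (v.1 + 0, v.2 + 0) k ^ 2)
      + (∑ k, (![1, 1, 0, 0] : Fin 4 → ℝ) k * g (v.1 + -1, v.2 + 0) k ^ 2)
      + (∑ k, (![0, 1, 1, 0] : Fin 4 → ℝ) k * g (v.1 + -1, v.2 + -1) k ^ 2)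
      + (∑ k, (![0, 0, 1, 1] : Fin 4 → ℝ) k * g (v.1 + 0, v.2 + -1) k ^ 2)) := by
    intro v
    refine (nsq_asm_le _ _ _ _).trans ?_
    have q : ((s (v.1 - 1, v.2) + s v) / 2 * r3 g v) ^ 2 ≤ r3 g v ^ 2 := by
      have a1 := hs v
      have a2 := hs (v.1 - 1, v.2)
      have : ((s (v.1 - 1, v.2) + s v) / 2) ^ 2 ≤ 1 := by
        nlinarith [sq_nonneg (s (v.1 - 1, v.2) - s v)]
      rw [mul_pow]
      nlinarith [sq_nonneg (r3 g v)]
    have q4 : (s v * r4 g v) ^ 2 = r4 g v ^ 2 := by rw [mul_pow, hs v, one_mul]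
    have e1 : r1 g v ^ 2 ≤ 2 * (g v 0 ^ 2 + g v 3 ^ 2) := by
      unfold r1; nlinarith [sq_nonneg (g v 0 - g v 3)]
    have e2 : r2 g v ^ 2 ≤ 2 * (g (v.1 - 1, v.2) 0 ^ 2 + g (v.1 - 1, v.2) 1 ^ 2) := by
      unfold r2; nlinarith [sq_nonneg (g (v.1 - 1, v.2) 0 + g (v.1 - 1, v.2) 1)]
    have e3 : r3 g v ^ 2 ≤ 2 * (g (v.1 - 1, v.2 - 1) 1 ^ 2 + g (v.1 - 1, v.2 - 1) 2 ^ 2) := by
      unfold r3; nlinarith [sq_nonneg (g (v.1 - 1, v.2 - 1) 1 + g (v.1 - 1, v.2 - 1) 2)]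
    have e4 : r4 g v ^ 2 ≤ 2 * (g (v.1, v.2 - 1) 2 ^ 2 + g (v.1, v.2 - 1) 3 ^ 2) := by
      unfold r4; nlinarith [sq_nonneg (g (v.1, v.2 - 1) 2 + g (v.1, v.2 - 1) 3)]
    simp only [Fin.sum_univ_four, add_zero, ← sub_eq_add_neg]
    simp
    rw [q4]
    linarith
  have hb1 : ∀ k, (0 : ℝ) ≤ (![1, 0, 0, 1] : Fin 4 → ℝ) k := by intro k; fin_cases k <;> simp
  have hb2 : ∀ k, (0 : ℝ) ≤ (![1, 1, 0, 0] : Fin 4 → ℝ) k := by intro k; fin_cases k <;> simp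
  have hb3 : ∀ k, (0 : ℝ) ≤ (![0, 1, 1, 0] : Fin 4 → ℝ) k := by intro k; fin_cases k <;> simp
  have hb4 : ∀ k, (0 : ℝ) ≤ (![0, 0, 1, 1] : Fin 4 → ℝ) k := by intro k; fin_cases k <;> simp
  have s1 := shift_sum_le hK 0 0 _ hb1 (box3 K)
  have s2 := shift_sum_le hK (-1) 0 _ hb2 (box3 K)
  have s3 := shift_sum_le hK (-1) (-1) _ hb3 (box3 K)
  have s4 := shift_sum_le hK 0 (-1) _ hb4 (box3 K)
  have tot4 : (∑ f ∈ K, ∑ k, (![1, 0, 0, 1] : Fin 4 → ℝ) k * g f k ^ 2)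
      + (∑ f ∈ K, ∑ k, (![1, 1, 0, 0] : Fin 4 → ℝ) k * g f k ^ 2)
      + (∑ f ∈ K, ∑ k, (![0, 1, 1, 0] : Fin 4 → ℝ) k * g f k ^ 2)
      + (∑ f ∈ K, ∑ k, (![0, 0, 1, 1] : Fin 4 → ℝ) k * g f k ^ 2) = 2 * nn g ^ 2 := by
    rw [nn_sq_eq hK, mul_sum, ← sum_add_distrib, ← sum_add_distrib, ← sum_add_distrib]
    refine sum_congr rfl fun f _ => ?_
    rw [nsq_eq]
    simp [Fin.sum_univ_four]
    ring
  calc ∑ f ∈ box3 K, nsq (T0 s g f) ≤ _ := sum_le_sum fun f _ => pt f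
    _ ≤ 8 * (2 * nn g ^ 2) := by
        rw [← mul_sum, sum_add_distrib, sum_add_distrib, sum_add_distrib, ← tot4]
        gcongr
    _ = (4 * nn g) ^ 2 := by ring

/-- inverse of the starring, pointwise -/
theorem fs_inv (s : Face → ℝ) (u φ : Fld) (hu : Sym u) (hs : ∀ v, s v ^ 2 = 1)
    (hpos : ∀ f h, 0 < u f h) (f : Face) :
    φ f 0 = (fs s u φ f 1 + fs s u φ (f.1 + 1, f.2) 3) / (1 + u f 0) ∧
    φ f 1 = (fs s u φ (f.1 + 1, f.2) 2 - s (f.1 + 1, f.2 + 1) * fs s u φ (f.1 + 1, f.2 + 1) 0)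
      / (1 + u f 1) ∧
    φ f 2 = s (f.1, f.2 + 1) * (fs s u φ (f.1 + 1, f.2 + 1) 3 - fs s u φ (f.1, f.2 + 1) 1)
      / (1 + u f 2) ∧
    φ f 3 = (-fs s u φ f 2 - s (f.1, f.2 + 1) * fs s u φ (f.1, f.2 + 1) 0) / (1 + u f 3) := by
  obtain ⟨i, j⟩ := f
  have a0 := hpos (i, j) 0
  have a1 := hpos (i, j) 1
  have a2 := hpos (i, j) 2
  have a3 := hpos (i, j) 3
  have b1 : u (i + 1, j) 3 = u (i, j) 1 := by
    have := hu (i, j) 1; simpa [nb, op] using this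
  have b2 : u (i, j + 1) 0 = u (i, j) 2 := by
    have := hu (i, j) 2; simpa [nb, op] using this
  have c1 := hs (i, j)
  have c2 := hs (i, j + 1)
  have c3 := hs (i + 1, j + 1)
  have d0 : (1 + u (i, j) 0) ≠ 0 := by positivity
  have d1 : (1 + u (i, j) 1) ≠ 0 := by positivity
  have d2 : (1 + u (i, j) 2) ≠ 0 := by positivity
  have d3 : (1 + u (i, j) 3) ≠ 0 := by positivity
  refine ⟨?_, ?_, ?_, ?_⟩ <;> rw [eq_div_iff (by assumption)] <;>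
    simp only [fs, add_sub_cancel_right, b1, b2]
  · ring
  · linear_combination (-(1 + u (i, j) 1) / 2 * (φ (i, j) 1 + φ (i + 1, j) 3)) * c3
  · linear_combination (-(1 + u (i, j) 2) * φ (i, j) 2) * c2
  · linear_combination (-(1 + u (i, j) 3) / 2 * (φ (i - 1, j) 1 + φ (i, j) 3)) * c2

theorem sq_div_le' {a b y : ℝ} (hy : 0 < y) : ((a + b) / (1 + y)) ^ 2 ≤ 2 * (a ^ 2 + b ^ 2) := by
  rw [div_pow, div_le_iff₀ (by positivity)]
  have h1 : (a + b) ^ 2 ≤ 2 * (a ^ 2 + b ^ 2) := by nlinarith [sq_nonneg (a - b)]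
  have h2 : 1 ≤ (1 + y) ^ 2 := by nlinarith
  nlinarith [sq_nonneg a, sq_nonneg b]

theorem fs_off {s : Face → ℝ} {u φ : Fld} {K : Finset Face} (h : ∀ f, f ∉ K → ∀ h, φ f h = 0) :
    ∀ v, v ∉ box3 K → ∀ k, fs s u φ v k = 0 := by
  intro v hv k
  have z1 : ∀ k, φ v k = 0 := h v (by simpa using not_mem_of_box3 hv 0 0 (by simp) (by simp))
  have z2 : ∀ k, φ (v.1 - 1, v.2) k = 0 :=
    h _ (by simpa using not_mem_of_box3 hv 1 0 (by simp) (by simp))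
  have z3 : ∀ k, φ (v.1 - 1, v.2 - 1) k = 0 :=
    h _ (not_mem_of_box3 hv 1 1 (by simp) (by simp))
  have z4 : ∀ k, φ (v.1, v.2 - 1) k = 0 :=
    h _ (by simpa using not_mem_of_box3 hv 0 1 (by simp) (by simp))
  fin_cases k <;> simp [fs, z1, z2, z3, z4]

theorem FS_fs {s : Face → ℝ} {u φ : Fld} (h : FS φ) : FS (fs s u φ) := by
  obtain ⟨K, h⟩ := h
  exact ⟨box3 K, fs_off h⟩

theorem nn_fs {s : Face → ℝ} {u φ : Fld} (hu : Sym u) (hs : ∀ v, s v ^ 2 = 1)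
    (hpos : ∀ f h, 0 < u f h) (hφ : FS φ) : nn φ ≤ 2 * nn (fs s u φ) := by
  obtain ⟨K, hK⟩ := hφ
  have hF := fs_off (s := s) (u := u) hK
  set ψ := fs s u φ with hψ
  refine nn_le_of hK (by have := nn_nonneg ψ; positivity) ?_
  have pt : ∀ f, nsq (φ f) ≤ 2 * (
      (∑ k, (![0, 1, 1, 0] : Fin 4 → ℝ) k * ψ (f.1 + 0, f.2 + 0) k ^ 2)
      + (∑ k, (![0, 0, 1, 1] : Fin 4 → ℝ) k * ψ (f.1 + 1, f.2 + 0) k ^ 2)
      + (∑ k, (![1, 0, 0, 1] : Fin 4 → ℝ) k * ψ (f.1 + 1, f.2 + 1) k ^ 2)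
      + (∑ k, (![1, 1, 0, 0] : Fin 4 → ℝ) k * ψ (f.1 + 0, f.2 + 1) k ^ 2)) := by
    intro f
    obtain ⟨e0, e1, e2, e3⟩ := fs_inv s u φ hu hs hpos f
    rw [← hψ] at e0 e1 e2 e3
    have g0 : φ f 0 ^ 2 ≤ 2 * (ψ f 1 ^ 2 + ψ (f.1 + 1, f.2) 3 ^ 2) := by
      rw [e0]; exact sq_div_le' (hpos f 0)
    have g1 : φ f 1 ^ 2 ≤ 2 * (ψ (f.1 + 1, f.2) 2 ^ 2 + ψ (f.1 + 1, f.2 + 1) 0 ^ 2) := by
      rw [e1, sub_eq_add_neg]
      refine (sq_div_le' (hpos f 1)).trans ?_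
      rw [neg_sq, mul_pow, hs, one_mul]
    have g2 : φ f 2 ^ 2 ≤ 2 * (ψ (f.1 + 1, f.2 + 1) 3 ^ 2 + ψ (f.1, f.2 + 1) 1 ^ 2) := by
      rw [e2, mul_div_assoc, mul_pow, hs, one_mul, sub_eq_add_neg]
      refine (sq_div_le' (hpos f 2)).trans ?_
      rw [neg_sq]
    have g3 : φ f 3 ^ 2 ≤ 2 * (ψ f 2 ^ 2 + ψ (f.1, f.2 + 1) 0 ^ 2) := by
      rw [e3, sub_eq_add_neg]
      refine (sq_div_le' (hpos f 3)).trans ?_
      rw [neg_sq, neg_sq, mul_pow, hs, one_mul]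
    rw [nsq_eq]
    simp only [Fin.sum_univ_four, add_zero]
    simp
    linarith
  have hb1 : ∀ k, (0 : ℝ) ≤ (![0, 1, 1, 0] : Fin 4 → ℝ) k := by intro k; fin_cases k <;> simp
  have hb2 : ∀ k, (0 : ℝ) ≤ (![0, 0, 1, 1] : Fin 4 → ℝ) k := by intro k; fin_cases k <;> simp
  have hb3 : ∀ k, (0 : ℝ) ≤ (![1, 0, 0, 1] : Fin 4 → ℝ) k := by intro k; fin_cases k <;> simp
  have hb4 : ∀ k, (0 : ℝ) ≤ (![1, 1, 0, 0] : Fin 4 → ℝ) k := by intro k; fin_cases k <;> simp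
  have s1 := shift_sum_le hF 0 0 _ hb1 K
  have s2 := shift_sum_le hF 1 0 _ hb2 K
  have s3 := shift_sum_le hF 1 1 _ hb3 K
  have s4 := shift_sum_le hF 0 1 _ hb4 K
  have tot4 : (∑ f ∈ box3 K, ∑ k, (![0, 1, 1, 0] : Fin 4 → ℝ) k * ψ f k ^ 2)
      + (∑ f ∈ box3 K, ∑ k, (![0, 0, 1, 1] : Fin 4 → ℝ) k * ψ f k ^ 2)
      + (∑ f ∈ box3 K, ∑ k, (![1, 0, 0, 1] : Fin 4 → ℝ) k * ψ f k ^ 2)
      + (∑ f ∈ box3 K, ∑ k, (![1, 1, 0, 0] : Fin 4 → ℝ) k * ψ f k ^ 2) = 2 * nn ψ ^ 2 := by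
    rw [nn_sq_eq hF, mul_sum, ← sum_add_distrib, ← sum_add_distrib, ← sum_add_distrib]
    refine sum_congr rfl fun f _ => ?_
    rw [nsq_eq]
    simp [Fin.sum_univ_four]
    ring
  calc ∑ f ∈ K, nsq (φ f) ≤ _ := sum_le_sum fun f _ => pt f
    _ ≤ 2 * (2 * nn ψ ^ 2) := by
        rw [← mul_sum, sum_add_distrib, sum_add_distrib, sum_add_distrib, ← tot4]
        gcongr
    _ = (2 * nn ψ) ^ 2 := by ring

/-- the constraint functional is bounded -/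
theorem abs_lam {s : Face → ℝ} (hs : ∀ v, s v ^ 2 = 1) {g : Fld} (hg : FS g) (v : Face) :
    |(-(s v) * r3 g v - s v * r4 g v - r1 g v + r2 g v) / 2| ≤ 4 * nn g := by
  have q := abs_le_nn hg
  have hsv : |s v| = 1 := by
    rcases sq_eq_one_iff.1 (hs v) with h | h <;> simp [h]
  have a1 : |r1 g v| ≤ 2 * nn g := by
    unfold r1; exact (abs_add_le _ _).trans (by linarith [q v 0, q v 3])
  have a2 : |r2 g v| ≤ 2 * nn g := by
    unfold r2; exact (abs_sub _ _).trans (by linarith [q (v.1 - 1, v.2) 0, q (v.1 - 1, v.2) 1])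
  have a3 : |-(s v) * r3 g v| ≤ 2 * nn g := by
    rw [abs_mul, abs_neg, hsv, one_mul]
    unfold r3
    exact (abs_sub _ _).trans (by linarith [q (v.1 - 1, v.2 - 1) 1, q (v.1 - 1, v.2 - 1) 2])
  have a4 : |s v * r4 g v| ≤ 2 * nn g := by
    rw [abs_mul, hsv, one_mul]
    unfold r4
    exact (abs_sub _ _).trans (by linarith [q (v.1, v.2 - 1) 2, q (v.1, v.2 - 1) 3])
  rw [abs_div, abs_of_pos (by norm_num : (0 : ℝ) < 2), div_le_iff₀ (by norm_num)]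
  calc |-(s v) * r3 g v - s v * r4 g v - r1 g v + r2 g v|
      ≤ |-(s v) * r3 g v - s v * r4 g v - r1 g v| + |r2 g v| := abs_add_le _ _
    _ ≤ |-(s v) * r3 g v - s v * r4 g v| + |r1 g v| + |r2 g v| := by gcongr; exact abs_sub _ _
    _ ≤ |-(s v) * r3 g v| + |s v * r4 g v| + |r1 g v| + |r2 g v| := by gcongr; exact abs_sub _ _
    _ ≤ 4 * nn g * 2 := by linarith

/-! ### the gap -/

/-- **gap of the free background**: from the gap constant `G` of the starred background, the `l²`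
norms `P` of the corner columns `Ψ v = A*⁻¹ m_v` and a bound `Kn` of the inverse `N` of the matrix
`B z w = tot (Ψ w) z` -/
theorem free_gap {s : Face → ℝ} {u : Fld} (hu : Sym u) (hs : ∀ v, s v ^ 2 = 1)
    (hpos : ∀ f h, 0 < u f h) (X : Finset Face)
    (hX : ∀ v, v ∈ X → s (v.1 - 1, v.2) = -s v) (hX' : ∀ v, v ∉ X → s (v.1 - 1, v.2) = s v)
    {G P Kn : ℝ} (hP0 : 0 ≤ P) (hK0 : 0 ≤ Kn)
    (hgap : ∀ ψ, FS ψ → nn ψ ≤ G * nn (A (ws s u) ψ))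
    (Ψ : Face → Fld) (hΨ : ∀ v ∈ X, FS (Ψ v)) (hΨA : ∀ v ∈ X, A (ws s u) (Ψ v) = mS v)
    (hP : ∀ v ∈ X, nn (Ψ v) ≤ P) (N : Face → Face → ℝ)
    (hN : ∀ v ∈ X, ∀ w ∈ X, ∑ z ∈ X, N v z * tot (Ψ w) z = if v = w then 1 else 0)
    (hK : ∀ v ∈ X, ∀ z ∈ X, |N v z| ≤ Kn) (φ : Fld) (hφ : FS φ) :
    nn φ ≤ 2 * (4 * G + (X.card : ℝ) ^ 2 * Kn * P * (4 + 4 * P)) * nn (A (wf s u) φ) := by
  classical
  set g := A (wf s u) φ with hg
  have hgF : FS g := hφ.A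
  set ψ := fs s u φ with hψ
  have hψF : FS ψ := FS_fs hφ
  have hT := FS_T0 (s := s) hgF
  have star := star_eq (φ := φ) hu hs hpos X hX hX'
  rw [← hψ, ← hg] at star
  set c := cc s u φ with hc
  -- subtract the corner columns
  have hSF : FS (∑ v ∈ X, c v • Ψ v) := FS.sum _ _ fun v hv => (hΨ v hv).smul _
  set ψ' := ψ - ∑ v ∈ X, c v • Ψ v with hψ'
  have hψ'F : FS ψ' := hψF.sub hSF
  have hA' : A (ws s u) ψ' = T0 s g := by
    rw [hψ', A_sub', A_sum', star]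
    have : ∑ v ∈ X, A (ws s u) (c v • Ψ v) = ∑ v ∈ X, c v • mS v :=
      sum_congr rfl fun v hv => by rw [A_smul', hΨA v hv]
    rw [this, add_sub_cancel_right]
  have sW : Sym (ws s u) := sym_ws s u
  have b0 := nn_T0 hs hgF
  have ng := nn_nonneg g
  -- the linear system for the coefficients
  have sys : ∀ z ∈ X, ∑ w ∈ X, c w * tot (Ψ w) z = tot ψ z - ip (mS z) ψ' := by
    intro z hz
    rw [← ip_mS z ψ, hψ', ip_sub_right hψF hSF, ip_sum_right _ _ fun v hv => (hΨ v hv).smul _,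
      sub_sub_cancel]
    refine sum_congr rfl fun w hw => ?_
    rw [ip_smul_right _ (hΨ w hw), ip_mS]
  have rhs : ∀ z ∈ X, |tot ψ z - ip (mS z) ψ'| ≤ (4 + 4 * P) * nn g := by
    intro z hz
    have e1 : |tot ψ z| ≤ 4 * nn g := by
      rw [hψ, star_m s u φ hu hs z (hX z hz)]
      exact abs_lam hs hgF z
    have e2 : |ip (mS z) ψ'| ≤ P * (4 * nn g) := by
      have : ip (mS z) ψ' = -ip (Ψ z) (T0 s g) := by
        rw [← hΨA z hz, ← hA', ip_A sW (hΨ z hz)]; ring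
      rw [this, abs_neg]
      exact (abs_ip_le (hΨ z hz) hT).trans (mul_le_mul (hP z hz) b0 (nn_nonneg _) hP0)
    exact (abs_sub _ _).trans (by linarith)
  have cb : ∀ v ∈ X, |c v| ≤ (X.card : ℝ) * Kn * ((4 + 4 * P) * nn g) := by
    intro v hv
    have e : c v = ∑ z ∈ X, N v z * (tot ψ z - ip (mS z) ψ') := by
      calc c v = ∑ w ∈ X, c w * (if v = w then 1 else 0) := by simp [hv]
        _ = ∑ w ∈ X, c w * ∑ z ∈ X, N v z * tot (Ψ w) z :=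
            sum_congr rfl fun w hw => by rw [hN v hv w hw]
        _ = ∑ w ∈ X, ∑ z ∈ X, N v z * (c w * tot (Ψ w) z) :=
            sum_congr rfl fun w _ => by
              rw [mul_sum]; exact sum_congr rfl fun z _ => by ring
        _ = ∑ z ∈ X, ∑ w ∈ X, N v z * (c w * tot (Ψ w) z) := sum_comm
        _ = ∑ z ∈ X, N v z * (tot ψ z - ip (mS z) ψ') :=
            sum_congr rfl fun z hz => by rw [← mul_sum, sys z hz]
    rw [e]
    calc |∑ z ∈ X, N v z * (tot ψ z - ip (mS z) ψ')|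
        ≤ ∑ z ∈ X, |N v z * (tot ψ z - ip (mS z) ψ')| := abs_sum_le_sum_abs _ _
      _ ≤ ∑ z ∈ X, Kn * ((4 + 4 * P) * nn g) := sum_le_sum fun z hz => by
          rw [abs_mul]
          exact mul_le_mul (hK v hv z hz) (rhs z hz) (abs_nonneg _) hK0
      _ = (X.card : ℝ) * Kn * ((4 + 4 * P) * nn g) := by
          rw [sum_const, nsmul_eq_mul]; ring
  have hs1 : nn ψ' ≤ G * (4 * nn g) := by
    have h1 := hgap ψ' hψ'F
    rw [hA'] at h1
    rcases le_or_gt 0 G with hG | hG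
    · exact h1.trans (mul_le_mul_of_nonneg_left b0 hG)
    · -- a negative constant forces everything to vanish
      have h2 : nn (T0 s g) = 0 := by
        have := nn_nonneg ψ'
        have := nn_nonneg (T0 s g)
        nlinarith
      have h3 := hgap (mS (0, 0)) (mS_FS _)
      have h4 : nn (mS (0, 0)) = 2 := by
        rw [nn_eq (K := {(0, 0)}) (fun _ hf h => mS_off hf h), sum_singleton, nsq_eq]
        simp only [mS, if_true]
        rw [show (1 : ℝ) ^ 2 + 1 ^ 2 + 1 ^ 2 + 1 ^ 2 = 2 ^ 2 by norm_num,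
          Real.sqrt_sq (by norm_num)]
      have h5 := nn_nonneg (A (ws s u) (mS (0, 0)))
      nlinarith
  have hs2 : nn (∑ v ∈ X, c v • Ψ v) ≤ (X.card : ℝ) * ((X.card : ℝ) * Kn * ((4 + 4 * P) * nn g) * P) := by
    refine (nn_sum_le _ _ fun v hv => (hΨ v hv).smul _).trans ?_
    calc ∑ v ∈ X, nn (c v • Ψ v) ≤ ∑ v ∈ X, (X.card : ℝ) * Kn * ((4 + 4 * P) * nn g) * P :=
          sum_le_sum fun v hv => by
            rw [nn_smul _ (hΨ v hv)]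
            exact mul_le_mul (cb v hv) (hP v hv) (nn_nonneg _) (by positivity)
      _ = _ := by rw [sum_const, nsmul_eq_mul]
  have hs3 : nn ψ ≤ nn ψ' + nn (∑ v ∈ X, c v • Ψ v) := by
    have : ψ = ψ' + ∑ v ∈ X, c v • Ψ v := by rw [hψ', sub_add_cancel]
    calc nn ψ = nn (ψ' + ∑ v ∈ X, c v • Ψ v) := by rw [← this]
      _ ≤ _ := nn_add_le hψ'F hSF
  have hs4 := nn_fs hu hs hpos hφ
  rw [← hψ] at hs4
  calc nn φ ≤ 2 * nn ψ := hs4
    _ ≤ 2 * (G * (4 * nn g) +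
        (X.card : ℝ) * ((X.card : ℝ) * Kn * ((4 + 4 * P) * nn g) * P)) := by linarith
    _ = _ := by ring

/-- **corner columns** of a plus type background: existence in a closed finite set, `l²` bound -/
theorem source {w : Fld} (hw : Sym w) (Λ : Finset Face)
    (hΛ : ∀ f ∈ Λ, ∀ h, w f h ≠ 0 → nb f h ∈ Λ) {G Q : ℝ} (hG : 0 ≤ G) (hQ : 0 ≤ Q)
    (hgap : ∀ ψ, FS ψ → nn ψ ≤ G * nn (A w ψ))
    (hpt : ∀ ψ, FS ψ → ∀ v, nsq (ψ v) ≤ Q * (nn ψ * nn (A w ψ))) (v : Face) (hv : v ∈ Λ) :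
    ∃ Ψ : Fld, (∀ f, f ∉ Λ → ∀ h, Ψ f h = 0) ∧ A w Ψ = mS v ∧ nn Ψ ≤ 2 * Real.sqrt (Q * G) := by
  have hinj : ∀ φ : Fld, (∀ f, f ∉ Λ → ∀ h, φ f h = 0) → (∀ f ∈ Λ, ∀ h, A w φ f h = 0) →
      φ = 0 := by
    intro φ h0 h1
    have hF : FS φ := ⟨Λ, h0⟩
    have hA : A w φ = 0 := by
      funext f h
      by_cases hf : f ∈ Λ
      · exact h1 f hf h
      · have e1 : φ f = 0 := funext fun j => h0 f hf j
        have e3 : A0 (0 : Fin 4 → ℝ) h = 0 := by fin_cases h <;> simp [A0]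
        have e2 : w f h * φ (nb f h) (op h) = 0 := by
          by_cases h2 : nb f h ∈ Λ
          · by_cases hz : w f h = 0
            · rw [hz, zero_mul]
            · exfalso
              apply hf
              have h3 := hΛ (nb f h) h2 (op h) (by rwa [hw f h])
              rwa [nb_nb_op] at h3
          · rw [h0 _ h2, mul_zero]
        show A w φ f h = 0
        simp only [A, Y, e1, e3]
        linear_combination sg h * e2
    have hn := hgap φ hF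
    rw [hA, nn_zero, mul_zero] at hn
    have hz : nn φ = 0 := le_antisymm hn (nn_nonneg _)
    funext f h
    have := abs_le_nn hF f h
    rw [hz] at this
    exact abs_nonpos_iff.1 this
  have hm : ∀ f, f ∉ Λ → ∀ h, mS v f h = 0 := by
    intro f hf h
    have : f ≠ v := fun hc => hf (hc ▸ hv)
    simp [mS, this]
  obtain ⟨Ψ, hΨ0, hΨA⟩ := solve Λ hΛ hw hinj (mS v) hm
  obtain ⟨χ, hχ0, hχA⟩ := solve Λ hΛ hw hinj Ψ hΨ0
  refine ⟨Ψ, hΨ0, hΨA, ?_⟩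
  have hΨF : FS Ψ := ⟨Λ, hΨ0⟩
  have hχF : FS χ := ⟨Λ, hχ0⟩
  have n0 := nn_nonneg Ψ
  have e1 : nn Ψ ^ 2 = -tot χ v := by
    rw [nn_sq]
    calc ip Ψ Ψ = ip Ψ (A w χ) := by rw [hχA]
      _ = -ip (A w Ψ) χ := ip_A hw hΨF
      _ = -tot χ v := by rw [hΨA, ip_mS]
  have e2 : nsq (χ v) ≤ Q * G * nn Ψ ^ 2 := by
    have h1 := hpt χ hχF v
    have h2 := hgap χ hχF
    rw [hχA] at h1 h2
    calc nsq (χ v) ≤ Q * (nn χ * nn Ψ) := h1
      _ ≤ Q * ((G * nn Ψ) * nn Ψ) := by gcongr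
      _ = _ := by ring
  have e3 : |tot χ v| ≤ 2 * (Real.sqrt (Q * G) * nn Ψ) := by
    refine (abs_tot_le v).trans ?_
    have : Real.sqrt (nsq (χ v)) ≤ Real.sqrt (Q * G) * nn Ψ := by
      rw [← Real.sqrt_sq n0, ← Real.sqrt_mul (by positivity)]
      exact Real.sqrt_le_sqrt e2
    linarith
  have e4 : nn Ψ ^ 2 ≤ 2 * (Real.sqrt (Q * G) * nn Ψ) := by
    rw [e1]; exact (neg_le_abs _).trans e3
  rcases n0.eq_or_lt with h | h
  · rw [← h]; positivity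
  · have : nn Ψ * nn Ψ ≤ (2 * Real.sqrt (Q * G)) * nn Ψ := by nlinarith
    exact le_of_mul_le_mul_right this h

end Crest.Agent.R165.FrGapx887
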