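import Crest.Agent.R165.GDef_387
import Crest.Agent.R165.LocBridge_417
import Crest.Agent.R165.Pack_915

/-!
# Row 165 (S0250), block G4: the linear bound of the bulk step on the names of `GDef_387`
-/

set_option autoImplicit false
set_option linter.unusedSectionVars false

noncomputable section

open scoped ENNReal
open Crest.Agent.R165.Gr0x606 Crest.Agent.R165.Latx683 Crest.Agent.R165.PNormx417
open Crest.Agent.R165.GDefx387 Crest.Agent.R165.Locx901

namespace Crest.Agent.R165.GBulkx417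

variable {G : Type} [CommRing G] [CN G]

/-! ### the pairing and the weights -/

theorem pair_zero (f : HE G → ℝ) : pair (0 : Fld G) f = 0 := by simp [pair]

theorem pair_add (l l' : Fld G) (f : HE G → ℝ) : pair (l + l') f = pair l f + pair l' f := by
  classical
  unfold pair
  exact Finsupp.sum_add_index' (fun h => by simp) (fun h b c => by ring)

theorem pair_smul (c : ℝ) (l : Fld G) (f : HE G → ℝ) : pair (c • l) f = c * pair l f := by
  classical
  unfold pair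
  rw [Finsupp.sum_smul_index' (fun h => by simp), Finsupp.mul_sum]
  refine Finsupp.sum_congr fun h _ => ?_
  simp only [smul_eq_mul]; ring

theorem wt_semi (w : BW G) (a : ℝ) (r : ℕ) (x : G × G) : ESemi (wt w a r x) := by
  have h1 : ∀ f : {f : HE G → ℝ // nnB w r x f ≤ 1},
      ESemi fun l : Fld G => ENNReal.ofReal |pair l f.1| := by
    intro f
    refine ⟨by simp [pair_zero], fun l l' => ?_, fun c l => ?_⟩
    · rw [pair_add, ← ENNReal.ofReal_add (abs_nonneg _) (abs_nonneg _)]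
      exact ENNReal.ofReal_le_ofReal (abs_add_le _ _)
    · rw [pair_smul, abs_mul, ENNReal.ofReal_mul (abs_nonneg _), ← Real.norm_eq_abs c, ofReal_norm]
  exact (ESemi.iSup h1).const_mul _

theorem wt_zero (w : BW G) (a : ℝ) (r : ℕ) (x : G × G) : wt w a r x 0 = 0 := (wt_semi w a r x).zero

theorem wt_add_le (w : BW G) (a : ℝ) (r : ℕ) (x : G × G) (l l' : Fld G) :
    wt w a r x (l + l') ≤ wt w a r x l + wt w a r x l' := (wt_semi w a r x).add l l'

/-! ### the weight relative to a set of faces -/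

theorem wU_le {w : BW G} {a : ℝ} {r : ℕ} {U : Finset (G × G)} {l : Fld G} {x : G × G}
    (hx : x ∈ U) (hl : SuppL (ball x (s0 * r)) l) : wU w a r U l ≤ wt w a r x l := by
  classical
  unfold wU
  exact (iInf₂_le x hx).trans (by rw [if_pos hl])

theorem wU_cases (w : BW G) (a : ℝ) (r : ℕ) (U : Finset (G × G)) (l : Fld G) :
    wU w a r U l = ∞ ∨ ∃ x ∈ U, SuppL (ball x (s0 * r)) l ∧ wU w a r U l = wt w a r x l := by
  classical
  by_cases h : ∃ x ∈ U, SuppL (ball x (s0 * r)) l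
  · right
    -- minimise over the finite set of admissible points
    let U' := U.filter fun x => SuppL (ball x (s0 * r)) l
    have hne : U'.Nonempty := by
      obtain ⟨x, hx, hl⟩ := h
      exact ⟨x, Finset.mem_filter.2 ⟨hx, hl⟩⟩
    obtain ⟨x, hx, hmin⟩ := U'.exists_min_image (fun x => wt w a r x l) hne
    obtain ⟨hxU, hxl⟩ := Finset.mem_filter.1 hx
    refine ⟨x, hxU, hxl, le_antisymm (wU_le hxU hxl) ?_⟩
    unfold wU
    refine le_iInf₂ fun y hy => ?_
    split_ifs with hyl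
    · exact hmin y (Finset.mem_filter.2 ⟨hy, hyl⟩)
    · exact le_top
  · left
    push Not at h
    unfold wU
    refine le_antisymm le_top (le_iInf₂ fun x hx => ?_)
    rw [if_neg (h x hx)]

theorem le_mul_wU {w : BW G} {a : ℝ} {r : ℕ} {U : Finset (G × G)} {l : Fld G} {A c : ℝ≥0∞}
    (hc : c ≠ 0) (h : ∀ x ∈ U, SuppL (ball x (s0 * r)) l → A ≤ c * wt w a r x l) :
    A ≤ c * wU w a r U l := by
  rcases wU_cases w a r U l with h1 | ⟨x, hx, hl, h1⟩
  · rw [h1, ENNReal.mul_top hc]; exact le_top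
  · rw [h1]; exact h x hx hl

theorem le_wU {w : BW G} {a : ℝ} {r : ℕ} {U : Finset (G × G)} {l : Fld G} {A : ℝ≥0∞}
    (h : ∀ x ∈ U, SuppL (ball x (s0 * r)) l → A ≤ wt w a r x l) : A ≤ wU w a r U l := by
  have := le_mul_wU (c := 1) (A := A) (U := U) (l := l) (w := w) (a := a) (r := r) one_ne_zero
    (by simpa using h)
  simpa using this

theorem SuppL.mono {Z Z' : Set (G × G)} (h : Z ⊆ Z') {l : Fld G} (hl : SuppL Z l) : SuppL Z' l :=
  fun x hx => h (hl x hx)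

theorem ball_mono (x : G × G) {r r' : ℕ} (h : r ≤ r') : ball x r ⊆ ball x r' :=
  fun _ hf => le_trans hf h

theorem ball_subset {x y : G × G} {r r' : ℕ} (h : fd y x + r ≤ r') : ball x r ⊆ ball y r' := by
  intro f hf
  rw [mem_ball] at hf ⊢
  exact (fd_triangle y x f).trans (by omega)

/-! ### the hypotheses (leaves W0, W1, W2) -/

/-- the weight inequalities of the bulk used in one step from scale `r` to scale `r'` -/
structure BulkHyp (w : BW G) (a a' : ℝ) (r r' : ℕ) (g : Fld G → ℝ≥0∞)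
    (P0 P1 : G × G → Fld G →ₗ[ℝ] Fld G) (p0 p1 q2 q0 C : ℝ≥0∞) : Prop where
  g_semi : ESemi g
  W0 : ∀ x l, SuppL (ball x (s0 * r)) l → g l ≤ q0 * wt w a r x l
  W1 : ∀ x, WLe w a a' r r' x x LinearMap.id p0
  W2a : ∀ x f, fd x f ≤ r → WLe w a a' r r' x f (P0 f) p0
  W2b : ∀ x f, fd x f ≤ r → WLe w a a' r r' x f (P1 f) p1
  W2c : ∀ x f, fd x f ≤ r → WLe w a a' r r' x f (LinearMap.id - P0 f - P1 f) q2
  W2d : ∀ x f, fd x f ≤ r → WLe w a a r r x f (P0 f) C

variable {w : BW G} {a a' : ℝ} {r r' : ℕ} {g : Fld G → ℝ≥0∞}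
  {P0 P1 : G × G → Fld G →ₗ[ℝ] Fld G} {p0 p1 q2 q0 C : ℝ≥0∞}

/-- one atom, one scale to the next one -/
theorem wU_add_g_le (h0 : ∀ x l, SuppL (ball x (s0 * r)) l → g l ≤ q0 * wt w a r x l)
    (h1 : ∀ x, WLe w a a' r r' x x LinearMap.id p0) (hc : p0 + q0 ≠ 0)
    (U : Finset (G × G)) (l : Fld G) : wU w a' r' U l + g l ≤ (p0 + q0) * wU w a r U l := by
  refine le_mul_wU hc fun x hx hl => ?_
  obtain ⟨h2, h3⟩ := h1 x l hl
  rw [add_mul]
  exact add_le_add ((wU_le hx h2).trans h3) (h0 x l hl)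

/-- **any polymer**: the convolution does not increase the norm (bulk and boundary) -/
theorem pnorm_any {S : Cov (Fld G)} (hg : Gram S g)
    (h0 : ∀ x l, SuppL (ball x (s0 * r)) l → g l ≤ q0 * wt w a r x l)
    (h1 : ∀ x, WLe w a a' r r' x x LinearMap.id p0) (hc0 : p0 + q0 ≠ 0) (hc : p0 + q0 ≤ 1)
    (U : Finset (G × G)) (F : Gr (Fld G)) :
    pnorm (wU w a' r' U) (conv S F) ≤ pnorm (wU w a r U) F :=
  pnorm_conv_le hg (fun l => (wU_add_g_le h0 h1 hc0 U l).trans (mul_le_of_le_one_left zero_le hc))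
    F

theorem pnorm_sub_hom0_le (v : Fld G → ℝ≥0∞) (F : Gr (Fld G)) :
    pnorm v (F - hom 0 F) ≤ pnorm v F := by
  have := pnorm_high_le v 1 F
  simpa [high_apply] using this

/-- **small polymer**: bulk step -/
theorem pnorm_small (H : BulkHyp w a a' r r' g P0 P1 p0 p1 q2 q0 C) {S : Cov (Fld G)}
    (hg : Gram S g) (hrk : ∀ f, FiniteDimensional ℝ (LinearMap.range (P0 f)))
    (hrank : ∀ f, Module.finrank ℝ (LinearMap.range (P0 f)) ≤ 2)
    {U : Finset (G × G)} (hU : U.Nonempty) (hdiam : ∀ x ∈ U, ∀ f ∈ U, fd x f ≤ r)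
    (hp0 : p0 ≠ 0) (hp1 : p1 ≠ 0) (hq2 : q2 ≠ 0) (hq0 : q0 ≠ 0)
    (hp0t : p0 ≠ ∞) (hp1t : p1 ≠ ∞) (hq2t : q2 ≠ ∞) (hCt : C ≠ ∞)
    (hq04 : q0 ≤ 1 / 4) (hq4 : p1 + q2 + q0 + q0 * C ≤ 1 / 4)
    (hqp : p1 + q2 + q0 + q0 * C ≤ p0 + q0 * C)
    {F : Gr (Fld G)} (hev : IsEv F) (hF : pnorm (wU w a r U) F ≠ ∞) :
    pnorm (wU w a' r' U) (conv S F - hom 0 (conv S F) -
        (U.card : ℝ)⁻¹ • ∑ f ∈ U, loc2 (P0 f) (P1 f) (conv S F)) ≤
      (11 * ((p0 + q0 * C) ^ 2 * (p1 + q2 + q0 + q0 * C) ^ 2) +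
        (p1 ^ 2 + 2 * (p0 + p1) * q2 + q2 ^ 2)) * pnorm (wU w a r U) F := by
  obtain ⟨f0, hf0⟩ := hU
  haveI := hrk f0
  have hq0t : q0 ≠ ∞ := ne_top_of_le_ne_top (by norm_num) hq04
  have hgP : ∀ x ∈ U, ∀ l, SuppL (ball x (s0 * r)) l → g (P0 f0 l) ≤ q0 * C * wt w a r x l := by
    intro x hx l hl
    obtain ⟨h1, h2⟩ := H.W2d x f0 (hdiam x hx f0 hf0) l hl
    calc g (P0 f0 l) ≤ q0 * wt w a r f0 (P0 f0 l) := H.W0 f0 _ h1
      _ ≤ q0 * (C * wt w a r x l) := by gcongr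
      _ = _ := by ring
  refine bulk_step hg (P0 f0) (hrank f0) U ⟨f0, hf0⟩ P0 P1 (p := p0 + q0 * C)
    (q := p1 + q2 + q0 + q0 * C) (a := q0) ?_ hq4 hqp ?_ ?_ hp0t hp1t hq2t ?_ ?_ ?_ hq04 ?_ hev hF
  · exact ENNReal.add_ne_top.2 ⟨hp0t, ENNReal.mul_ne_top hq0t hCt⟩
  · intro l
    refine le_mul_wU (by simp [hp0]) fun x hx hl => ?_
    obtain ⟨h1, h2⟩ := H.W2a x f0 (hdiam x hx f0 hf0) l hl
    rw [add_mul]
    exact add_le_add ((wU_le hf0 h1).trans h2) (hgP x hx l hl)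
  · intro l
    refine le_mul_wU (by simp [hp1]) fun x hx hl => ?_
    obtain ⟨h1, h2⟩ := H.W2b x f0 (hdiam x hx f0 hf0) l hl
    obtain ⟨h3, h4⟩ := H.W2c x f0 (hdiam x hx f0 hf0) l hl
    have e : l - P0 f0 l = P1 f0 l + (LinearMap.id - P0 f0 - P1 f0 : Fld G →ₗ[ℝ] Fld G) l := by
      simp only [LinearMap.sub_apply, LinearMap.id_apply]; abel
    have hs : SuppL (ball f0 (s0 * r')) (l - P0 f0 l) := by
      rw [e]
      intro h hh
      by_contra hcon
      have a1 : P1 f0 l h = 0 := by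
        by_contra h'; exact hcon (h1 h h')
      have a2 : (LinearMap.id - P0 f0 - P1 f0 : Fld G →ₗ[ℝ] Fld G) l h = 0 := by
        by_contra h'; exact hcon (h3 h h')
      exact hh (by rw [Finsupp.add_apply, a1, a2, add_zero])
    have h5 : wt w a' r' f0 (l - P0 f0 l) ≤ (p1 + q2) * wt w a r x l := by
      rw [e, add_mul]
      exact (wt_add_le _ _ _ _ _ _).trans (add_le_add h2 h4)
    have h6 : g (l - P0 f0 l) ≤ (q0 + q0 * C) * wt w a r x l := by
      rw [add_mul]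
      exact (H.g_semi.sub _ _).trans (add_le_add (H.W0 x l hl) (hgP x hx l hl))
    calc wU w a' r' U (l - P0 f0 l) + g (l - P0 f0 l) ≤
        (p1 + q2) * wt w a r x l + (q0 + q0 * C) * wt w a r x l :=
          add_le_add ((wU_le hf0 hs).trans h5) h6
      _ = _ := by ring
  · intro f hf l
    refine le_mul_wU hp0 fun x hx hl => ?_
    obtain ⟨h1, h2⟩ := H.W2a x f (hdiam x hx f hf) l hl
    exact (wU_le hf h1).trans h2
  · intro f hf l
    refine le_mul_wU hp1 fun x hx hl => ?_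
    obtain ⟨h1, h2⟩ := H.W2b x f (hdiam x hx f hf) l hl
    exact (wU_le hf h1).trans h2
  · intro f hf l
    refine le_mul_wU hq2 fun x hx hl => ?_
    obtain ⟨h1, h2⟩ := H.W2c x f (hdiam x hx f hf) l hl
    exact (wU_le hf h1).trans h2
  · intro l
    exact le_mul_wU hq0 fun x _ hl => H.W0 x l hl

end Crest.Agent.R165.GBulkx417
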