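import Crest.Agent.R165.Extr_417
import Crest.Agent.R165.WtIso_898

/-!
# Row 165 (S0250), block G4: bounds of the extracted coefficients

* `enorm_form_le` : `|form F m m'| ≤ 2 c c' pnorm w F` if `|m l| ≤ c w l`, `|m' l| ≤ c' w l`
* `nnB_m0`, `nnB_m1` : the local test norms of the modes; `enorm_ev_le` : the functionals of the modes
* `avg_le` : for a translation invariant function `n` of polymers
  `(2ρ+1)² ∑_{U ∋ f} n(U)/#U ≤ ∑_{U near f} n(U)`
-/

set_option autoImplicit false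
set_option linter.unusedSectionVars false

noncomputable section

open scoped ENNReal
open Crest.Agent.R165.Gr0x606 Crest.Agent.R165.Gr1x606 Crest.Agent.R165.Latx683
open Crest.Agent.R165.PNormx417 Crest.Agent.R165.GDefx387 Crest.Agent.R165.GeOpsx337
open Crest.Agent.R165.KFlowx337 Crest.Agent.R165.Packx915 Crest.Agent.R165.Bridgex915
open Crest.Agent.R165.PlaneModesx901 Crest.Agent.R165.PlaneLocx901 Crest.Agent.R165.PlaneCovx901
open Crest.Agent.R165.Locx901 Crest.Agent.R165.Wtx898 Crest.Agent.R165.GBulkx417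

namespace Crest.Agent.R165.PStepx417

/-! ### the form of an element -/

section form

variable {V : Type*} [AddCommGroup V] [Module ℝ V]

theorem form_mono_of_ne (L : List V) (hL : L.length ≠ 2) (m m' : Module.Dual ℝ V) :
    form (mono L) m m' = 0 := by
  rcases L with _ | ⟨x, _ | ⟨y, _ | ⟨z, L⟩⟩⟩
  · rw [mono_nil, show (1 : Gr V) = algebraMap ℝ (Gr V) 1 from (map_one _).symm, form_algebraMap]
  · rw [mono_singleton]; exact form_one_field x m m'
  · simp at hL
  · rw [mono_cons, mono_cons, mono_cons]; exact form_three x y z _ m m'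

theorem form_mono_two (x y : V) (m m' : Module.Dual ℝ V) :
    form (mono [x, y]) m m' = m x * m' y - m y * m' x := by
  rw [mono_cons, mono_singleton, form_fi_fi]

theorem form_hom (F : Gr V) (m m' : Module.Dual ℝ V) : form (hom 2 F) m m' = form F m m' := by
  refine linear_ext (S := (formL m m') ∘ₗ (hom 2 : Gr V →ₗ[ℝ] Gr V)) (T := formL m m')
    (fun L => ?_) F
  rw [LinearMap.comp_apply, hom_mono]
  split_ifs with h
  · rfl
  · rw [map_zero, formL_apply, form_mono_of_ne L h]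

theorem enorm_form_le {w : V → ℝ≥0∞} {m m' : Module.Dual ℝ V} {c c' : ℝ≥0∞} (hc : c ≠ ∞)
    (hc' : c' ≠ ∞) (hm : ∀ l, ‖m l‖ₑ ≤ c * w l) (hm' : ∀ l, ‖m' l‖ₑ ≤ c' * w l) {F : Gr V}
    (hF : pnorm w F ≠ ∞) : ‖form F m m'‖ₑ ≤ 2 * c * c' * pnorm w F := by
  refine bound_of_mono (X := ℝ) (N := fun x => ‖x‖ₑ) ESemi.enorm (formL m m')
    (ENNReal.mul_ne_top (ENNReal.mul_ne_top (by norm_num) hc) hc') (fun L _ => ?_) hF
  rcases L with _ | ⟨x, _ | ⟨y, _ | ⟨z, L⟩⟩⟩
  · rw [formL_apply, form_mono_of_ne _ (by simp)]; simp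
  · rw [formL_apply, form_mono_of_ne _ (by simp)]; simp
  · rw [formL_apply, form_mono_two]
    calc ‖m x * m' y - m y * m' x‖ₑ ≤ ‖m x * m' y‖ₑ + ‖m y * m' x‖ₑ := enorm_sub_le
      _ = ‖m x‖ₑ * ‖m' y‖ₑ + ‖m y‖ₑ * ‖m' x‖ₑ := by rw [enorm_mul, enorm_mul]
      _ ≤ (c * w x) * (c' * w y) + (c * w y) * (c' * w x) := by
        gcongr
        · exact hm x
        · exact hm' y
        · exact hm y
        · exact hm' x
      _ = _ := by simp only [mwt_cons, mwt_nil]; ring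
  · rw [formL_apply, form_mono_of_ne _ (by simp)]; simp

end form

/-! ### counting the faces of a ball of the plane -/

/-- the square of faces -/
def sqr (f : Fc) (ρ : ℕ) : Finset Fc :=
  Finset.Icc (f.1 - ρ) (f.1 + ρ) ×ˢ Finset.Icc (f.2 - ρ) (f.2 + ρ)

theorem mem_sqr {f g : Fc} {ρ : ℕ} : g ∈ sqr f ρ ↔ fd f g ≤ ρ := by
  rw [sqr, Finset.mem_product, Finset.mem_Icc, Finset.mem_Icc]
  show _ ↔ max (f.1 - g.1).natAbs (f.2 - g.2).natAbs ≤ ρ
  omega

theorem card_sqr (f : Fc) (ρ : ℕ) : (sqr f ρ).card = (2 * ρ + 1) ^ 2 := by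
  rw [sqr, Finset.card_product, Int.card_Icc, Int.card_Icc, sq]
  congr 1 <;> omega

theorem bal_eq_sqr (f : Fc) (ρ : ℕ) : bal f ρ = sqr f ρ := by
  ext g; rw [mem_bal, mem_sqr]

theorem L2on_le_sup {x : Fc} {R : ℕ} {f : HE ℤ → ℝ} {M : ℝ} (hM : 0 ≤ M)
    (h : ∀ e : HE ℤ, fd x e.1 ≤ R → |f e| ≤ M) : L2on (ball x R) f ≤ 2 * (2 * R + 1) * M := by
  have h0 : 0 ≤ 2 * (2 * (R : ℝ) + 1) * M := by positivity
  rw [← abs_of_nonneg (L2on_nonneg (ball x R) f), ← abs_of_nonneg h0]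
  apply sq_le_sq.1
  rw [L2on_sq (ball_finite x R)]
  have hb : (ball_finite x R).toFinset = sqr x R := bal_eq_sqr x R
  calc _ ≤ ∑ e ∈ (ball_finite x R).toFinset ×ˢ (Finset.univ : Finset (Fin 4)), M ^ 2 := by
        refine Finset.sum_le_sum fun e he => ?_
        rw [Finset.mem_product, Set.Finite.mem_toFinset, mem_ball] at he
        have := h e he.1
        rw [← sq_abs]
        exact pow_le_pow_left₀ (abs_nonneg _) this 2
    _ = (2 * (2 * R + 1) * M) ^ 2 := by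
      rw [Finset.sum_const, Finset.card_product, hb, card_sqr, Finset.card_univ, Fintype.card_fin,
        nsmul_eq_mul]
      push_cast
      ring

/-! ### the modes -/

theorem Aop_iter_zero (n : ℕ) : (Aop (wPl ℤ))^[n] (0 : HE ℤ → ℝ) = 0 := by
  rw [← Module.End.pow_apply, map_zero]

theorem iter_m0 (n : ℕ) (a b : ℝ) : (Aop (wPl ℤ))^[n + 1] (m0 a b) = 0 := by
  rw [Function.iterate_succ_apply, show Aop (wPl ℤ) (m0 a b) = 0 from Apl_m0 a b, Aop_iter_zero]

theorem iter_m1 (n : ℕ) (y : Fc) (u v s t : ℝ) : (Aop (wPl ℤ))^[n + 2] (m1 y u v s t) = 0 := by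
  rw [Function.iterate_succ_apply, show Aop (wPl ℤ) (m1 y u v s t) = -xc • m0 t s from
    Apl_m1 y u v s t, iter_smul, iter_m0, smul_zero]

theorem L2on_zero' (Z : Set Fc) : L2on Z (0 : HE ℤ → ℝ) = 0 := by
  unfold L2on l2 restr
  simp

theorem nnB_of_kernel {r : ℕ} {x : Fc} {f : HE ℤ → ℝ} (h : ∀ n, (Aop (wPl ℤ))^[n + 1] f = 0) :
    nnB (wPl ℤ) r x f = L2on (ball x (s1 * r)) f := by
  rw [nnB_eq, Finset.sum_range_succ']
  rw [Finset.sum_eq_zero fun n _ => by rw [h, L2on_zero', mul_zero]]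
  simp

theorem nnB_of_kernel2 {r : ℕ} {x : Fc} {f : HE ℤ → ℝ} (h : ∀ n, (Aop (wPl ℤ))^[n + 2] f = 0) :
    nnB (wPl ℤ) r x f =
      L2on (ball x (s1 * r)) f + r * L2on (ball x (s1 * r)) (Aop (wPl ℤ) f) := by
  rw [nnB_eq, MM, Finset.sum_range_succ', Finset.sum_range_succ']
  rw [Finset.sum_eq_zero fun n _ => by rw [show n + 1 + 1 = n + 2 from rfl, h, L2on_zero', mul_zero]]
  simp [add_comm]

theorem r2_le : r2 ≤ 3 / 2 := by
  have := r2_sq; have := r2_pos; nlinarith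

theorem abs_lt_le (a b : Fc → ℝ) (e : HE ℤ) {M : ℝ} (ha : |a e.1| ≤ M) (hb : |b e.1| ≤ M) :
    |lt a b e| ≤ 2 * M := by
  obtain ⟨x, d⟩ := e
  have h1 := r2_pos
  have h2 := r2_le
  have hM : 0 ≤ M := (abs_nonneg _).trans ha
  simp only at ha hb
  rw [abs_le] at ha hb
  fin_cases d
  · show |-(r2 / 2) * (a x + b x)| ≤ 2 * M
    rw [abs_mul, abs_neg, abs_of_pos (by positivity)]
    have : |a x + b x| ≤ 2 * M := abs_le.2 ⟨by linarith, by linarith⟩
    nlinarith [abs_nonneg (a x + b x)]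
  · show |a x| ≤ 2 * M
    exact abs_le.2 ⟨by linarith, by linarith⟩
  · show |(r2 / 2) * (b x - a x)| ≤ 2 * M
    rw [abs_mul, abs_of_pos (by positivity)]
    have : |b x - a x| ≤ 2 * M := abs_le.2 ⟨by linarith, by linarith⟩
    nlinarith [abs_nonneg (b x - a x)]
  · show |-b x| ≤ 2 * M
    rw [abs_neg]
    exact abs_le.2 ⟨by linarith, by linarith⟩

theorem abs_hv_le (a b : Fc → ℝ) (e : HE ℤ) {M : ℝ} (ha : |a e.1| ≤ M) (hb : |b e.1| ≤ M) :
    |hv a b e| ≤ 2 * M := by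
  obtain ⟨x, d⟩ := e
  have h1 := r2_pos
  have h2 := r2_le
  have hM : 0 ≤ M := (abs_nonneg _).trans ha
  simp only at ha hb
  have ha' := abs_le.1 ha
  have hb' := abs_le.1 hb
  fin_cases d
  · show |a x - b x| ≤ 2 * M
    exact abs_le.2 ⟨by linarith, by linarith⟩
  · show |r2 * a x| ≤ 2 * M
    rw [abs_mul, abs_of_pos h1]
    nlinarith [abs_nonneg (a x)]
  · show |a x + b x| ≤ 2 * M
    exact abs_le.2 ⟨by linarith, by linarith⟩
  · show |r2 * b x| ≤ 2 * M
    rw [abs_mul, abs_of_pos h1]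
    nlinarith [abs_nonneg (b x)]

theorem nnB_m0 {r : ℕ} (hr : 0 < r) (x : Fc) {a b : ℝ} (ha : |a| ≤ 1) (hb : |b| ≤ 1) :
    nnB (wPl ℤ) r x (m0 a b) ≤ 516 * r := by
  rw [nnB_of_kernel fun n => iter_m0 n a b]
  refine (L2on_le_sup (M := 2) (by norm_num) fun e _ => ?_).trans ?_
  · have := abs_lt_le (fun _ => a) (fun _ => b) e (M := 1) ha hb
    simpa [m0] using this
  · have h1 : (1 : ℝ) ≤ r := by exact_mod_cast hr
    rw [s1]; push_cast; nlinarith

theorem xc_lt : xc ≤ 1 / 2 := by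
  rw [xc_eq]; have := r2_le; linarith

theorem nnB_m1 {r : ℕ} (hr : 0 < r) {x y : Fc} (hxy : fd x y ≤ r) {u v s t : ℝ} (hu : |u| ≤ 1)
    (hv' : |v| ≤ 1) (hs : |s| ≤ 1) (ht : |t| ≤ 1) :
    nnB (wPl ℤ) r x (m1 y u v s t) ≤ 150000 * r ^ 2 := by
  have h1 : (1 : ℝ) ≤ r := by exact_mod_cast hr
  have hr0 : (0 : ℝ) < r := by linarith
  rw [nnB_of_kernel2 fun n => iter_m1 n y u v s t]
  have e1 : L2on (ball x (s1 * r)) (m1 y u v s t) ≤ 2 * (2 * (64 * r) + 1) * (521 * r) := by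
    refine (L2on_le_sup (M := 521 * r) (by positivity) fun e he => ?_).trans ?_
    · have h2 : fd y e.1 ≤ 65 * r := by
        have := fd_triangle y x e.1
        rw [fd_comm y x] at this
        rw [s1] at he
        omega
      have h3 : (e.1.1 - y.1).natAbs ≤ 65 * r ∧ (e.1.2 - y.2).natAbs ≤ 65 * r := by
        have h4 : max (y.1 - e.1.1).natAbs (y.2 - e.1.2).natAbs ≤ 65 * r := h2
        omega
      have h5 : |((e.1.1 - y.1 : ℤ) : ℝ)| ≤ 65 * r := by
        rw [← Int.cast_abs, Int.abs_eq_natAbs]; exact_mod_cast h3.1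
      have h6 : |((e.1.2 - y.2 : ℤ) : ℝ)| ≤ 65 * r := by
        rw [← Int.cast_abs, Int.abs_eq_natAbs]; exact_mod_cast h3.2
      have g1 : ∀ p q : ℝ, |p| ≤ 1 → |q| ≤ 1 → ∀ ε : ℝ, |ε| = 1 → |p + ε * q| ≤ 2 := by
        intro p q hp hq ε hε
        refine (abs_add_le _ _).trans ?_
        rw [abs_mul, hε]; linarith
      have g2 : ∀ p q X Y : ℝ, |p| ≤ 2 → |q| ≤ 2 → |X| ≤ 65 * r → |Y| ≤ 65 * r →
          |p * X + q * Y| ≤ 260 * r := by
        intro p q X Y hp hq hX hY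
        refine (abs_add_le _ _).trans ?_
        rw [abs_mul, abs_mul]
        nlinarith [abs_nonneg p, abs_nonneg q, abs_nonneg X, abs_nonneg Y]
      have h7 : |lt (fun x : Fc => (u + s) * (x.1 - y.1 : ℤ) + (t - v) * (x.2 - y.2 : ℤ))
          (fun x => (v + t) * (x.1 - y.1 : ℤ) + (u - s) * (x.2 - y.2 : ℤ)) e| ≤
          2 * (260 * r) := by
        refine abs_lt_le _ _ e ?_ ?_
        · refine g2 _ _ _ _ ?_ ?_ h5 h6
          · simpa using g1 u s hu hs 1 (by simp)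
          · have := g1 t v ht hv' (-1) (by simp)
            rwa [neg_one_mul, ← sub_eq_add_neg] at this
        · refine g2 _ _ _ _ ?_ ?_ h5 h6
          · simpa using g1 v t hv' ht 1 (by simp)
          · have := g1 u s hu hs (-1) (by simp)
            rwa [neg_one_mul, ← sub_eq_add_neg] at this
      have h8 : |hv (fun _ => u) (fun _ => v) e| ≤ 2 * 1 := abs_hv_le _ _ e hu hv'
      have hx := xc_lt
      have hx0 := xc_pos
      unfold m1
      rw [Pi.add_apply, Pi.smul_apply, smul_eq_mul]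
      refine (abs_add_le _ _).trans ?_
      rw [abs_mul, abs_of_pos (show 0 < xc / 4 by positivity)]
      nlinarith [abs_nonneg (hv (fun _ : Fc => u) (fun _ => v) e)]
    · rw [s1]; push_cast; exact le_rfl
  have e2 : L2on (ball x (s1 * r)) (Aop (wPl ℤ) (m1 y u v s t)) ≤ 516 * r := by
    rw [show Aop (wPl ℤ) (m1 y u v s t) = -xc • m0 t s from Apl_m1 y u v s t,
      L2on_smul (ball_finite _ _), abs_neg, abs_of_pos xc_pos]
    have h2 : L2on (ball x (s1 * r)) (m0 t s) ≤ 516 * r := by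
      rw [← nnB_of_kernel (fun n => iter_m0 n t s)]; exact nnB_m0 hr x ht hs
    have hx := xc_lt
    nlinarith [xc_pos, L2on_nonneg (ball x (s1 * r)) (m0 t s)]
  nlinarith

/-! ### functionals of the modes -/

section plane

variable {a : ℝ} {r : ℕ}

theorem enorm_ev_le (ha : 0 < a) (hr : 0 < r) {x : Fc} {f : HE ℤ → ℝ} {c : ℝ}
    (hf : nnB (wPl ℤ) r x f ≤ c) {l : Fld ℤ} (hl : SuppL (ball x (s0 * r)) l) :
    ‖ev f l‖ₑ ≤ ENNReal.ofReal (c / (a * Real.sqrt r)) * wt (wPl ℤ) a r x l := by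
  have hr0 : (0 : ℝ) < r := by exact_mod_cast hr
  have hs : 0 < Real.sqrt r := Real.sqrt_pos.2 hr0
  have hc0 : 0 ≤ c := (nnB_nonneg _ _ _ _).trans hf
  have h1 : SuppL (ball x (s1 * r)) l :=
    suppL_mono (Wtx898.ball_mono x (Nat.mul_le_mul_right _ (by decide))) hl
  rw [Real.enorm_eq_ofReal_abs, ← WtIsox898.pair_eq_ev, wt_eq, ← mul_assoc,
    ← ENNReal.ofReal_mul (by positivity)]
  have h2 : c / (a * Real.sqrt r) * (a * Real.sqrt r) = c := by field_simp
  rw [h2, mul_comm]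
  exact (pair_le_dn h1 f).trans (by gcongr)

theorem enorm_ev_wU (ha : 0 < a) (hr : 0 < r) {U : Finset Fc} {f : HE ℤ → ℝ} {c : ℝ}
    (hc : 0 < c) (hf : ∀ x ∈ U, nnB (wPl ℤ) r x f ≤ c) (l : Fld ℤ) :
    ‖ev f l‖ₑ ≤ ENNReal.ofReal (c / (a * Real.sqrt r)) * wU (wPl ℤ) a r U l := by
  have hr0 : (0 : ℝ) < r := by exact_mod_cast hr
  have hs : 0 < Real.sqrt r := Real.sqrt_pos.2 hr0
  refine le_mul_wU (by simp only [ne_eq, ENNReal.ofReal_eq_zero, not_le]; positivity)
    fun x hx hl => enorm_ev_le ha hr (hf x hx) hl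

/-- constant × constant coefficient -/
theorem enorm_cMass_le (ha : 0 < a) (hr : 0 < r) {U : Finset Fc} {F : Gr (Fld ℤ)}
    (hF : pnorm (wU (wPl ℤ) a r U) F ≠ ∞) :
    ‖cMass F‖ₑ ≤ ENNReal.ofReal (532512 * r / a ^ 2) * pnorm (wU (wPl ℤ) a r U) F := by
  have hr0 : (0 : ℝ) < r := by exact_mod_cast hr
  have hs : 0 < Real.sqrt r := Real.sqrt_pos.2 hr0
  have h := enorm_form_le (w := wU (wPl ℤ) a r U) (m := ev (m0 1 0)) (m' := ev (m0 0 1))
    ENNReal.ofReal_ne_top ENNReal.ofReal_ne_top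
    (enorm_ev_wU ha hr (by positivity) fun x _ => nnB_m0 hr x (by simp) (by simp))
    (enorm_ev_wU ha hr (by positivity) fun x _ => nnB_m0 hr x (by simp) (by simp)) hF
  refine h.trans (le_of_eq ?_)
  congr 1
  rw [show (2 : ℝ≥0∞) = ENNReal.ofReal 2 by norm_num, ← ENNReal.ofReal_mul (by norm_num),
    ← ENNReal.ofReal_mul (by positivity)]
  congr 1
  have hss : Real.sqrt r * Real.sqrt r = r := Real.mul_self_sqrt hr0.le
  field_simp
  rw [Real.sq_sqrt hr0.le]
  ring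

/-- constant × linear coefficient -/
theorem enorm_cKin_le (ha : 0 < a) (hr : 0 < r) {U : Finset Fc} {y : Fc}
    (hU : ∀ x ∈ U, fd x y ≤ r) {F : Gr (Fld ℤ)} (hF : pnorm (wU (wPl ℤ) a r U) F ≠ ∞) :
    ‖cKin y F‖ₑ ≤ ENNReal.ofReal (154800000 * r ^ 2 / a ^ 2) * pnorm (wU (wPl ℤ) a r U) F := by
  have hr0 : (0 : ℝ) < r := by exact_mod_cast hr
  have hs : 0 < Real.sqrt r := Real.sqrt_pos.2 hr0
  have h := enorm_form_le (w := wU (wPl ℤ) a r U) (m := ev (m0 1 0)) (m' := ev (m1 y 0 0 0 1))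
    ENNReal.ofReal_ne_top ENNReal.ofReal_ne_top
    (enorm_ev_wU ha hr (by positivity) fun x _ => nnB_m0 hr x (by simp) (by simp))
    (enorm_ev_wU ha hr (by positivity) fun x hx =>
      nnB_m1 hr (hU x hx) (by simp) (by simp) (by simp) (by simp)) hF
  refine h.trans (le_of_eq ?_)
  congr 1
  rw [show (2 : ℝ≥0∞) = ENNReal.ofReal 2 by norm_num, ← ENNReal.ofReal_mul (by norm_num),
    ← ENNReal.ofReal_mul (by positivity)]
  congr 1
  have hss : Real.sqrt r * Real.sqrt r = r := Real.mul_self_sqrt hr0.le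
  field_simp
  rw [Real.sq_sqrt hr0.le]
  ring

end plane

/-! ### average over translations -/

/-- translation of a set of faces -/
def trU (t : Fc) (U : Finset Fc) : Finset Fc := U.image (· + t)

theorem mem_trU {t x : Fc} {U : Finset Fc} : x ∈ trU t U ↔ x - t ∈ U := by
  rw [trU, Finset.mem_image]
  constructor
  · rintro ⟨y, hy, rfl⟩; simpa using hy
  · intro h; exact ⟨x - t, h, by simp⟩

theorem card_trU (t : Fc) (U : Finset Fc) : (trU t U).card = U.card :=
  Finset.card_image_of_injective _ (add_left_injective t)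

theorem trU_trU (s t : Fc) (U : Finset Fc) : trU s (trU t U) = trU (t + s) U := by
  ext x; rw [mem_trU, mem_trU, mem_trU, sub_sub, add_comm s t]

theorem trU_zero (U : Finset Fc) : trU 0 U = U := by
  ext x; rw [mem_trU, sub_zero]

/-- translations as permutations of the polymers -/
def trE (t : Fc) : Finset Fc ≃ Finset Fc where
  toFun := trU t
  invFun := trU (-t)
  left_inv U := by rw [trU_trU, add_neg_cancel, trU_zero]
  right_inv U := by rw [trU_trU, neg_add_cancel, trU_zero]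

theorem fd_add_right (x y t : Fc) : fd (x + t) (y + t) = fd x y := by
  simp [fd, add_sub_add_right_eq_sub]

theorem avg_le {n : Finset Fc → ℝ≥0∞} (hn : ∀ t U, n (trU t U) = n U) (f : Fc) (ρ : ℕ) :
    (((2 * ρ + 1) ^ 2 : ℕ) : ℝ≥0∞) *
        ∑' U : Finset Fc, (if f ∈ U then (U.card : ℝ≥0∞)⁻¹ * n U else 0) ≤
      ∑' U : Finset Fc, (by classical exact if Near ρ f U then n U else 0) := by
  classical
  have h1 : ∀ g : Fc, ∑' U : Finset Fc, (if g ∈ U then (U.card : ℝ≥0∞)⁻¹ * n U else 0) =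
      ∑' U : Finset Fc, (if f ∈ U then (U.card : ℝ≥0∞)⁻¹ * n U else 0) := by
    intro g
    rw [← Equiv.tsum_eq (trE (g - f))]
    refine tsum_congr fun U => ?_
    show (if g ∈ trU (g - f) U then ((trU (g - f) U).card : ℝ≥0∞)⁻¹ * n (trU (g - f) U) else 0) = _
    have : g ∈ trU (g - f) U ↔ f ∈ U := by rw [mem_trU]; simp
    simp only [this, card_trU, hn]
  calc _ = ∑ g ∈ sqr f ρ, ∑' U : Finset Fc, (if g ∈ U then (U.card : ℝ≥0∞)⁻¹ * n U else 0) := by
        rw [Finset.sum_congr rfl fun g _ => h1 g, Finset.sum_const, card_sqr, nsmul_eq_mul]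
    _ = ∑' U : Finset Fc, ∑ g ∈ sqr f ρ, (if g ∈ U then (U.card : ℝ≥0∞)⁻¹ * n U else 0) :=
        (Summable.tsum_finsetSum fun _ _ => ENNReal.summable).symm
    _ ≤ _ := by
      refine ENNReal.tsum_le_tsum fun U => ?_
      rw [← Finset.sum_filter, Finset.sum_const, nsmul_eq_mul]
      split_ifs with h
      · obtain ⟨u, hu, hfu⟩ := h
        have hU : U.card ≠ 0 := Finset.card_ne_zero_of_mem hu
        have h2 : ((sqr f ρ).filter (· ∈ U)).card ≤ U.card :=
          Finset.card_le_card fun x hx => (Finset.mem_filter.1 hx).2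
        calc (((sqr f ρ).filter (· ∈ U)).card : ℝ≥0∞) * ((U.card : ℝ≥0∞)⁻¹ * n U) ≤
            (U.card : ℝ≥0∞) * ((U.card : ℝ≥0∞)⁻¹ * n U) := by gcongr
          _ = _ := by
            rw [← mul_assoc, ENNReal.mul_inv_cancel (by exact_mod_cast hU)
              (ENNReal.natCast_ne_top _), one_mul]
      · have h2 : (sqr f ρ).filter (· ∈ U) = ∅ := by
          rw [Finset.filter_eq_empty_iff]
          intro x hx hxU
          exact h ⟨x, hxU, mem_sqr.1 hx⟩
        rw [h2]; simp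

end Crest.Agent.R165.PStepx417
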