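import Crest.Agent.R165.GrLoc_337
import Crest.Agent.R165.PNorm2_417
import Crest.Agent.R165.Gr1_606
import Crest.Agent.R165.ExpG_337

/-!
# Row 165 (S0250), block G: the exponential of even Grassmann elements

`gexp a = e^{ct a} * sum_n (a - ct a)^n / n!` (finite sum: an even element without constant part is
nilpotent, for every `V`).  Purely algebraic.

* `gexp_add`, `gexpE_sum`, `prod_one_add_gexp`: `sum_U A U = c` implies
  `prod_U (1 + (gexp (A U) - 1)) = e^c`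
* `mp_gexp`, `gexp_mem`, `ct_gexp`, `inv'_gexp`
* `pnorm_gexp_sub_one_le`, `pnorm_gexp_sub_le`, `pnorm_gexp_sub_gexp_le` : bounds in the projective
  norm of `PNorm_417`.
-/

set_option autoImplicit false

noncomputable section

namespace Crest.Agent.R165.GExpx900

open Crest.Agent.R165.Gr0x606 Crest.Agent.R165.Evx653 Crest.Agent.R165.GrLocx337
open Crest.Agent.R165.PNormx417 Crest.Agent.R165.Gr1x606
open Finset (range)
open scoped ENNReal

/-! ### nilpotent exponential over the reals -/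

section nil

variable {A B : Type*} [Ring A] [Algebra ℝ A] [Ring B] [Algebra ℝ B]

/-- the exponential of a nilpotent element -/
def nexp (a : A) : A := ∑ i ∈ range (nilpotencyClass a), ((i.factorial : ℝ)⁻¹) • a ^ i

/-- rational structure -/
@[instance_reducible] def ratMod (A : Type*) [Ring A] [Algebra ℝ A] : Module ℚ A :=
  Module.compHom A (algebraMap ℚ ℝ)

theorem nexp_eq (a : A) : nexp a = @IsNilpotent.exp A _ (ratMod A) a := by
  let _ := ratMod A
  unfold nexp IsNilpotent.exp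
  refine Finset.sum_congr rfl fun i _ => ?_
  have : ((i.factorial : ℚ)⁻¹ • (a ^ i) : A) = (algebraMap ℚ ℝ ((i.factorial : ℚ)⁻¹)) • (a ^ i) := rfl
  rw [this]
  simp

theorem nexp_eq_sum {a : A} {k : ℕ} (h : a ^ k = 0) :
    nexp a = ∑ i ∈ range k, ((i.factorial : ℝ)⁻¹) • a ^ i := by
  let _ := ratMod A
  rw [nexp_eq, IsNilpotent.exp_eq_sum h]
  refine Finset.sum_congr rfl fun i _ => ?_
  have : ((i.factorial : ℚ)⁻¹ • (a ^ i) : A) = (algebraMap ℚ ℝ ((i.factorial : ℚ)⁻¹)) • (a ^ i) := rfl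
  rw [this]
  simp

theorem nexp_add {a b : A} (h₁ : Commute a b) (h₂ : IsNilpotent a) (h₃ : IsNilpotent b) :
    nexp (a + b) = nexp a * nexp b := by
  let _ := ratMod A
  rw [nexp_eq, nexp_eq, nexp_eq]
  exact IsNilpotent.exp_add_of_commute h₁ h₂ h₃

@[simp] theorem nexp_zero : nexp (0 : A) = 1 := by
  rw [nexp_eq_sum (k := 1) (by simp)]; simp

theorem map_nexp {a : A} (ha : IsNilpotent a) (f : A →ₐ[ℝ] B) : f (nexp a) = nexp (f a) := by
  obtain ⟨k, hk⟩ := ha
  have hk' : (f a) ^ k = 0 := by rw [← map_pow, hk, map_zero]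
  rw [nexp_eq_sum hk, nexp_eq_sum hk', map_sum]
  refine Finset.sum_congr rfl fun i _ => ?_
  rw [map_smul, map_pow]

theorem nexp_mem (S : Subalgebra ℝ A) {a : A} (h : a ∈ S) : nexp a ∈ S :=
  Subalgebra.sum_mem _ fun _ _ => Subalgebra.smul_mem _ (Subalgebra.pow_mem _ h _) _

end nil

variable {V : Type*} [AddCommGroup V] [Module ℝ V] {W : Type*} [AddCommGroup W] [Module ℝ W]

/-- the even part without constant term is nilpotent -/
theorem isNilpotent_evenPart (a : Gr V) :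
    IsNilpotent ((1 / 2 : ℝ) • (a + inv' a) - algebraMap ℝ (Gr V) (ct a)) := by
  induction a using Gr.induction with
  | h0 r =>
    have : (1 / 2 : ℝ) • (algebraMap ℝ (Gr V) r + inv' (algebraMap ℝ (Gr V) r)) -
        algebraMap ℝ (Gr V) (ct (algebraMap ℝ (Gr V) r)) = 0 := by
      rw [AlgHom.commutes, ct_algebraMap, ← two_smul ℝ, smul_smul]
      norm_num
    rw [this]
    exact IsNilpotent.zero
  | h1 x a _ =>
    have h1 : (1 / 2 : ℝ) • (fi x * a + inv' (fi x * a)) - algebraMap ℝ (Gr V) (ct (fi x * a)) =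
        fi x * ((1 / 2 : ℝ) • (a - inv' a)) := by
      rw [map_mul, inv'_fi, map_mul, ct_fi, zero_mul, map_zero, sub_zero, neg_mul, ← sub_eq_add_neg,
        ← mul_sub, mul_smul_comm]
    rw [h1]
    refine ⟨2, ?_⟩
    set b := (1 / 2 : ℝ) • (a - inv' a)
    have h2 : b * fi x = fi x * inv' b := by
      have := fi_mul_comm x (inv' b)
      rw [inv'_inv'] at this
      exact this.symm
    rw [pow_two, mul_assoc, ← mul_assoc b, h2, mul_assoc, ← mul_assoc, fi_mul_self, zero_mul]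
  | h2 a b iha ihb =>
    have h1 : (1 / 2 : ℝ) • (a + b + inv' (a + b)) - algebraMap ℝ (Gr V) (ct (a + b)) =
        ((1 / 2 : ℝ) • (a + inv' a) - algebraMap ℝ (Gr V) (ct a)) +
        ((1 / 2 : ℝ) • (b + inv' b) - algebraMap ℝ (Gr V) (ct b)) := by
      rw [map_add, map_add, map_add]
      module
    rw [h1]
    refine Commute.isNilpotent_add ?_ iha ihb
    have hev : IsEv ((1 / 2 : ℝ) • (a + inv' a) - algebraMap ℝ (Gr V) (ct a)) := by
      refine IsEv.sub (IsEv.smul ?_ _) (isEv_algebraMap _)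
      rw [IsEv, map_add, inv'_inv', add_comm]
    exact hev.comm _

theorem isNilpotent_sub_ct {a : Gr V} (ha : IsEv a) :
    IsNilpotent (a - algebraMap ℝ (Gr V) (ct a)) := by
  have h := isNilpotent_evenPart a
  rw [ha, ← two_smul ℝ, smul_smul] at h
  norm_num at h
  exact h

theorem isEv_sub_ct {a : Gr V} (ha : IsEv a) : IsEv (a - algebraMap ℝ (Gr V) (ct a)) :=
  ha.sub (isEv_algebraMap _)

/-- the exponential (meaningful on even elements) -/
def gexp (a : Gr V) : Gr V := Real.exp (ct a) • nexp (a - algebraMap ℝ (Gr V) (ct a))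

theorem gexp_mem (S : Subalgebra ℝ (Gr V)) {a : Gr V} (h : a ∈ S) : gexp a ∈ S :=
  Subalgebra.smul_mem _ (nexp_mem S (Subalgebra.sub_mem _ h (Subalgebra.algebraMap_mem _ _))) _

theorem isEv_gexp {a : Gr V} (ha : IsEv a) : IsEv (gexp a) := gexp_mem (evSub V) ha

theorem gexp_add {a b : Gr V} (ha : IsEv a) (hb : IsEv b) : gexp (a + b) = gexp a * gexp b := by
  unfold gexp
  rw [smul_mul_smul_comm, ← nexp_add ((isEv_sub_ct ha).comm _) (isNilpotent_sub_ct ha)
    (isNilpotent_sub_ct hb), map_add, Real.exp_add, map_add]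
  congr 2
  abel

@[simp] theorem gexp_algebraMap (r : ℝ) :
    gexp (algebraMap ℝ (Gr V) r) = algebraMap ℝ (Gr V) (Real.exp r) := by
  unfold gexp
  rw [ct_algebraMap, sub_self, nexp_zero, ← Algebra.algebraMap_eq_smul_one]

@[simp] theorem gexp_zero : gexp (0 : Gr V) = 1 := by
  have := gexp_algebraMap (V := V) 0
  rwa [map_zero, Real.exp_zero, map_one] at this

theorem gexp_neg_mul {a : Gr V} (ha : IsEv a) : gexp (-a) * gexp a = 1 := by
  rw [← gexp_add ha.neg ha, neg_add_cancel, gexp_zero]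

theorem mp_gexp (f : V →ₗ[ℝ] W) {a : Gr V} (ha : IsEv a) : mp f (gexp a) = gexp (mp f a) := by
  unfold gexp
  rw [map_smul, map_nexp (isNilpotent_sub_ct ha), map_sub, AlgHom.commutes, ct_mp]

theorem ct_gexp {a : Gr V} (ha : IsEv a) : ct (gexp a) = Real.exp (ct a) := by
  unfold gexp
  rw [map_smul, map_nexp (isNilpotent_sub_ct ha), map_sub, AlgHom.commutes]
  have : ct a - algebraMap ℝ ℝ (ct a) = 0 := sub_self _
  rw [this, nexp_zero, smul_eq_mul, mul_one]

/-- exponential on the commutative ring of even elements -/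
def gexpE (a : Ev V) : Ev V := ⟨gexp (a : Gr V), isEv_gexp a.2⟩

@[simp] theorem coe_gexpE (a : Ev V) : ((gexpE a : Ev V) : Gr V) = gexp (a : Gr V) := rfl

theorem gexpE_add (a b : Ev V) : gexpE (a + b) = gexpE a * gexpE b :=
  ev_ext (gexp_add a.2 b.2)

@[simp] theorem gexpE_zero : gexpE (0 : Ev V) = 1 := ev_ext gexp_zero

@[simp] theorem gexpE_algebraMap (r : ℝ) :
    gexpE (algebraMap ℝ (Ev V) r) = algebraMap ℝ (Ev V) (Real.exp r) := ev_ext (gexp_algebraMap r)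

theorem gexpE_sum {ι : Type*} (s : Finset ι) (f : ι → Ev V) :
    gexpE (∑ i ∈ s, f i) = ∏ i ∈ s, gexpE (f i) := by
  classical
  induction s using Finset.induction_on with
  | empty => simp
  | insert i s hi ih => rw [Finset.sum_insert hi, Finset.prod_insert hi, gexpE_add, ih]

theorem mpE_gexpE (f : V →ₗ[ℝ] W) (a : Ev V) : mpE f (gexpE a) = gexpE (mpE f a) :=
  ev_ext (mp_gexp f a.2)

theorem ctE_gexpE (a : Ev V) : ctE (gexpE a) = Real.exp (ctE a) := ct_gexp a.2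

/-- `sum_U A U = c` implies `prod_U (1 + B U) = e^c`, `B U = gexp (A U) - 1` -/
theorem prod_one_add_gexpE {ι : Type*} (s : Finset ι) (f : ι → Ev V) (c : ℝ)
    (h : ∑ i ∈ s, f i = algebraMap ℝ (Ev V) c) :
    ∏ i ∈ s, (1 + (gexpE (f i) - 1)) = algebraMap ℝ (Ev V) (Real.exp c) := by
  simp only [add_sub_cancel]
  rw [← gexpE_sum, h, gexpE_algebraMap]

theorem isNilpotentE (b : Ev V) : IsNilpotent (b - algebraMap ℝ (Ev V) (ctE b)) := by
  obtain ⟨k, hk⟩ := isNilpotent_sub_ct b.2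
  exact ⟨k, ev_ext (by rw [Evx653.coe_pow]; exact hk)⟩

theorem gexpE_eq (b : Ev V) :
    gexpE b = Real.exp (ctE b) • nexp (b - algebraMap ℝ (Ev V) (ctE b)) := by
  apply ev_ext
  rw [Evx653.coe_smul, ← evVal_apply (nexp _), map_nexp (isNilpotentE b)]
  rfl

/-- any algebra homomorphism between even algebras which preserves the constant term commutes with
the exponential -/
theorem map_gexpE (f : Ev V →ₐ[ℝ] Ev W) (hf : ∀ a, ctE (f a) = ctE a) (a : Ev V) :
    f (gexpE a) = gexpE (f a) := by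
  rw [gexpE_eq, gexpE_eq, map_smul, map_nexp (isNilpotentE a), map_sub, AlgHom.commutes, hf]

/-- 337's exponential on `Ev V` is the same element -/
theorem coe_gexp_337 (a : Ev V) : ((ExpGx337.gexp a : Ev V) : Gr V) = gexp (a : Gr V) := by
  obtain ⟨k, hk⟩ := ExpGx337.nl_nil a
  have e1 : ExpGx337.gexp a = gexpE a := by
    rw [gexpE_eq, ExpGx337.gexp, ExpGx337.nexp_eq_sum hk]
    congr 1
    rw [nexp_eq_sum (show (a - algebraMap ℝ (Ev V) (ctE a)) ^ k = 0 from hk)]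
    rfl
  rw [e1]; rfl

/-! ### on the even ring `Ge V` -/

/-- exponential on `Ge V` -/
def gexpG (a : Ge V) : Ge V := ⟨gexp (a : Gr V), isEv_gexp a.2⟩

@[simp] theorem coe_gexpG (a : Ge V) : ((gexpG a : Ge V) : Gr V) = gexp (a : Gr V) := rfl

theorem gexpG_add (a b : Ge V) : gexpG (a + b) = gexpG a * gexpG b :=
  Subtype.ext (gexp_add a.2 b.2)

@[simp] theorem gexpG_zero : gexpG (0 : Ge V) = 1 := Subtype.ext gexp_zero

@[simp] theorem gexpG_algebraMap (r : ℝ) :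
    gexpG (algebraMap ℝ (Ge V) r) = algebraMap ℝ (Ge V) (Real.exp r) :=
  Subtype.ext (gexp_algebraMap r)

theorem gexpG_sum {ι : Type*} (s : Finset ι) (f : ι → Ge V) :
    gexpG (∑ i ∈ s, f i) = ∏ i ∈ s, gexpG (f i) := by
  classical
  induction s using Finset.induction_on with
  | empty => simp
  | insert i s hi ih => rw [Finset.sum_insert hi, Finset.prod_insert hi, gexpG_add, ih]

theorem gexpG_neg_mul (a : Ge V) : gexpG (-a) * gexpG a = 1 := by
  rw [← gexpG_add, neg_add_cancel, gexpG_zero]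

/-- `sum_U A U = c` implies `prod_U (1 + B U) = e^c`, `B U = gexp (A U) - 1` -/
theorem prod_one_add_gexpG {ι : Type*} (s : Finset ι) (f : ι → Ge V) (c : ℝ)
    (h : ∑ i ∈ s, f i = algebraMap ℝ (Ge V) c) :
    ∏ i ∈ s, (1 + (gexpG (f i) - 1)) = algebraMap ℝ (Ge V) (Real.exp c) := by
  simp only [add_sub_cancel]
  rw [← gexpG_sum, h, gexpG_algebraMap]

theorem gexpG_mem {U : Submodule ℝ V} {a : Ge V} (h : (a : Gr V) ∈ gr U) :
    ((gexpG a : Ge V) : Gr V) ∈ gr U := gexp_mem _ h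

/-! ### bounds in the projective norm -/

theorem real_exp_sub_one_le (x : ℝ) : |Real.exp x - 1| ≤ Real.exp |x| - 1 := by
  rcases le_total 0 x with h | h
  · rw [abs_of_nonneg h, abs_of_nonneg]
    linarith [Real.add_one_le_exp x]
  · rw [abs_of_nonpos h, abs_of_nonpos (by linarith [Real.exp_le_one_iff.2 h])]
    have h1 := Real.add_one_le_exp x
    have h2 := Real.add_one_le_exp (-x)
    linarith

theorem real_exp_sub_le (x : ℝ) : |Real.exp x - 1 - x| ≤ Real.exp |x| - 1 - |x| := by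
  have h1 := Real.add_one_le_exp x
  rw [abs_of_nonneg (by linarith)]
  rcases le_total 0 x with h | h
  · rw [abs_of_nonneg h]
  · rw [abs_of_nonpos h]
    have h2 : -x ≤ Real.sinh (-x) := Real.self_le_sinh_iff.2 (by linarith)
    rw [Real.sinh_eq, neg_neg] at h2
    linarith

theorem exp_sub_mono {s t : ℝ} (hs : 0 ≤ s) (hst : s ≤ t) :
    Real.exp s - 1 - s ≤ Real.exp t - 1 - t := by
  have h1 : Real.exp t = Real.exp s * Real.exp (t - s) := by
    rw [← Real.exp_add]; congr 1; ring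
  have h2 := Real.add_one_le_exp (t - s)
  have h3 := Real.one_le_exp hs
  have h4 : Real.exp s * (t - s + 1) ≤ Real.exp t := by
    rw [h1]; exact mul_le_mul_of_nonneg_left h2 (Real.exp_pos _).le
  nlinarith

theorem pnorm_algebraMap_ge (w : V → ℝ≥0∞) (F : Gr V) : ‖ct F‖ₑ ≤ pnorm w F := by
  have key : ∀ L : List V, mwt w L ≠ ∞ → ‖(ct.toLinearMap : Gr V →ₗ[ℝ] ℝ) (mono L)‖ₑ ≤ mwt w L := by
    intro L _
    rw [AlgHom.toLinearMap_apply]
    rcases L with _ | ⟨x, L⟩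
    · rw [mono_nil, map_one, mwt_nil, enorm_one]
    · rw [mono_cons, map_mul, ct_fi, zero_mul, enorm_zero]
      exact zero_le
  exact bound_of_mono_one (N := fun x : ℝ => ‖x‖ₑ) ESemi.enorm (ct.toLinearMap) key F

theorem pnorm_eq_ct_add (w : V → ℝ≥0∞) (F : Gr V) :
    ‖ct F‖ₑ + pnorm w (F - algebraMap ℝ (Gr V) (ct F)) ≤ pnorm w F := by
  have e1 : ∀ G : Gr V, pnorm w G = pnorm w (hom 0 G) + ∑' n, pnorm w (hom (n + 1) G) := by
    intro G
    rw [← tsum_pnorm_hom w G]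
    exact tsum_eq_zero_add' ENNReal.summable
  rw [e1 F, e1 (F - algebraMap ℝ (Gr V) (ct F))]
  have h0 : hom 0 (F - algebraMap ℝ (Gr V) (ct F)) = 0 := by
    rw [map_sub, ← hom_zero_eq F, hom_hom]
    simp
  have h1 : ∀ n : ℕ, hom (n + 1) (F - algebraMap ℝ (Gr V) (ct F)) = hom (n + 1) F := by
    intro n
    rw [map_sub, ← hom_zero_eq F, hom_hom]
    simp
  rw [h0, pnorm_zero, zero_add]
  simp only [h1]
  gcongr
  have := pnorm_algebraMap_ge w (hom 0 F)
  rwa [ct_hom_zero] at this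

/-- real form of the data: `|ct F| = s`, `pnorm (F - ct F) = t`, `s + t ≤ T` -/
theorem exists_split {w : V → ℝ≥0∞} {F : Gr V} {T : ℝ} (hT : pnorm w F ≤ ENNReal.ofReal T)
    (h0 : 0 ≤ T) : ∃ t : ℝ, 0 ≤ t ∧ |ct F| + t ≤ T ∧
      pnorm w (F - algebraMap ℝ (Gr V) (ct F)) = ENNReal.ofReal t := by
  have h1 := (pnorm_eq_ct_add w F).trans hT
  have h2 : pnorm w (F - algebraMap ℝ (Gr V) (ct F)) ≠ ∞ :=
    ne_top_of_le_ne_top ENNReal.ofReal_ne_top (le_add_self.trans h1)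
  refine ⟨(pnorm w (F - algebraMap ℝ (Gr V) (ct F))).toReal, ENNReal.toReal_nonneg, ?_,
    (ENNReal.ofReal_toReal h2).symm⟩
  rw [← ENNReal.ofReal_toReal h2, ← ofReal_norm, ← ENNReal.ofReal_add (norm_nonneg _)
    ENNReal.toReal_nonneg, ENNReal.ofReal_le_ofReal_iff h0, Real.norm_eq_abs] at h1
  exact h1

theorem pnorm_le_ofReal_mul {w : V → ℝ≥0∞} {F G : Gr V} {a b : ℝ}
    (hF : pnorm w F ≤ ENNReal.ofReal a) (hG : pnorm w G ≤ ENNReal.ofReal b) (ha : 0 ≤ a) :
    pnorm w (F * G) ≤ ENNReal.ofReal (a * b) := by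
  rw [ENNReal.ofReal_mul ha]
  exact pnorm_mul_le' hF hG ENNReal.ofReal_ne_top ENNReal.ofReal_ne_top

theorem pnorm_le_ofReal_smul {w : V → ℝ≥0∞} {F : Gr V} {a c : ℝ}
    (hF : pnorm w F ≤ ENNReal.ofReal a) :
    pnorm w (c • F) ≤ ENNReal.ofReal (|c| * a) := by
  rw [ENNReal.ofReal_mul (abs_nonneg _)]
  refine (pnorm_smul_le w c F).trans (mul_le_mul' ?_ hF)
  rw [← ofReal_norm, Real.norm_eq_abs]

theorem pnorm_le_ofReal_add {w : V → ℝ≥0∞} {F G : Gr V} {a b : ℝ}
    (hF : pnorm w F ≤ ENNReal.ofReal a) (hG : pnorm w G ≤ ENNReal.ofReal b) (ha : 0 ≤ a)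
    (hb : 0 ≤ b) : pnorm w (F + G) ≤ ENNReal.ofReal (a + b) := by
  rw [ENNReal.ofReal_add ha hb]
  exact (pnorm_add_le w F G).trans (add_le_add hF hG)

/-- tails of the nilpotent exponential -/
theorem pnorm_nexp_tail {w : V → ℝ≥0∞} {a : Gr V} (ha : IsNilpotent a) {t : ℝ} (h0 : 0 ≤ t)
    (ht : pnorm w a ≤ ENNReal.ofReal t) (m : ℕ) :
    pnorm w (nexp a - ∑ i ∈ range m, ((i.factorial : ℝ)⁻¹) • a ^ i) ≤
      ENNReal.ofReal (Real.exp t - ∑ i ∈ range m, t ^ i / i.factorial) := by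
  obtain ⟨k, hk⟩ := ha
  have hk' : a ^ (m + k) = 0 := by rw [pow_add, hk, mul_zero]
  rw [nexp_eq_sum hk', Finset.sum_range_add, add_sub_cancel_left]
  refine (pnorm_sum_le w _ _).trans ?_
  have h1 : ∀ i ∈ range k, pnorm w ((((m + i).factorial : ℝ)⁻¹) • a ^ (m + i)) ≤
      ENNReal.ofReal (t ^ (m + i) / (m + i).factorial) := by
    intro i _
    have h2 : pnorm w (a ^ (m + i)) ≤ ENNReal.ofReal (t ^ (m + i)) := by
      rw [ENNReal.ofReal_pow h0]
      exact pnorm_pow_le ht ENNReal.ofReal_ne_top _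
    have h3 := pnorm_le_ofReal_smul (c := (((m + i).factorial : ℝ)⁻¹)) h2
    rwa [abs_of_nonneg (by positivity), inv_mul_eq_div] at h3
  refine (Finset.sum_le_sum h1).trans ?_
  rw [← ENNReal.ofReal_sum_of_nonneg (fun i _ => by positivity)]
  refine ENNReal.ofReal_le_ofReal ?_
  have h4 := Real.sum_le_exp_of_nonneg h0 (m + k)
  rw [Finset.sum_range_add] at h4
  linarith

theorem pnorm_algebraMap_le_ofReal (w : V → ℝ≥0∞) (c : ℝ) :
    pnorm w (algebraMap ℝ (Gr V) c) ≤ ENNReal.ofReal |c| := by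
  refine (pnorm_algebraMap_le w c).trans_eq ?_
  rw [← ofReal_norm, Real.norm_eq_abs]

theorem pnorm_nexp_sub_one {w : V → ℝ≥0∞} {a : Gr V} (ha : IsNilpotent a) {t : ℝ} (h0 : 0 ≤ t)
    (ht : pnorm w a ≤ ENNReal.ofReal t) :
    pnorm w (nexp a - 1) ≤ ENNReal.ofReal (Real.exp t - 1) := by
  have := pnorm_nexp_tail ha h0 ht 1
  simpa using this

theorem pnorm_nexp_sub {w : V → ℝ≥0∞} {a : Gr V} (ha : IsNilpotent a) {t : ℝ} (h0 : 0 ≤ t)
    (ht : pnorm w a ≤ ENNReal.ofReal t) :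
    pnorm w (nexp a - 1 - a) ≤ ENNReal.ofReal (Real.exp t - 1 - t) := by
  have := pnorm_nexp_tail ha h0 ht 2
  simp only [Finset.sum_range_succ, Finset.range_zero, Finset.sum_empty, zero_add,
    Nat.factorial_zero, Nat.cast_one, inv_one, pow_zero, one_smul, Nat.factorial_one, pow_one,
    div_one] at this
  rwa [← sub_sub, ← sub_sub] at this

/-- `|e^a| ≤ e^|a|` -/
theorem pnorm_gexp_le {w : V → ℝ≥0∞} {a : Gr V} (ha : IsEv a) {T : ℝ} (h0 : 0 ≤ T)
    (hT : pnorm w a ≤ ENNReal.ofReal T) : pnorm w (gexp a) ≤ ENNReal.ofReal (Real.exp T) := by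
  obtain ⟨t, ht0, hst, ht⟩ := exists_split hT h0
  have h1 := pnorm_nexp_tail (isNilpotent_sub_ct ha) ht0 ht.le 0
  simp only [Finset.range_zero, Finset.sum_empty, sub_zero] at h1
  have h2 := pnorm_le_ofReal_smul (c := Real.exp (ct a)) h1
  rw [Real.abs_exp, ← Real.exp_add] at h2
  refine h2.trans (ENNReal.ofReal_le_ofReal (Real.exp_le_exp.2 ?_))
  linarith [le_abs_self (ct a)]

/-- `|e^a - 1| ≤ e^|a| - 1` -/
theorem pnorm_gexp_sub_one {w : V → ℝ≥0∞} {a : Gr V} (ha : IsEv a) {T : ℝ} (h0 : 0 ≤ T)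
    (hT : pnorm w a ≤ ENNReal.ofReal T) :
    pnorm w (gexp a - 1) ≤ ENNReal.ofReal (Real.exp T - 1) := by
  obtain ⟨t, ht0, hst, ht⟩ := exists_split hT h0
  have h1 := pnorm_le_ofReal_smul (c := Real.exp (ct a))
    (pnorm_nexp_sub_one (isNilpotent_sub_ct ha) ht0 ht.le)
  have h2 := pnorm_algebraMap_le_ofReal w (Real.exp (ct a) - 1)
  have e1 : gexp a - 1 = Real.exp (ct a) • (nexp (a - algebraMap ℝ (Gr V) (ct a)) - 1) +
      algebraMap ℝ (Gr V) (Real.exp (ct a) - 1) := by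
    unfold gexp
    simp only [smul_sub, map_sub, map_one, Algebra.algebraMap_eq_smul_one]
    abel
  have ht1 : 0 ≤ Real.exp t - 1 := by linarith [Real.add_one_le_exp t]
  rw [e1]
  refine (pnorm_le_ofReal_add h1 h2 (by positivity) (abs_nonneg _)).trans
    (ENNReal.ofReal_le_ofReal ?_)
  have h3 := real_exp_sub_one_le (ct a)
  have h4 : Real.exp (ct a) ≤ Real.exp |ct a| := Real.exp_le_exp.2 (le_abs_self _)
  have h5 : Real.exp (|ct a| + t) ≤ Real.exp T := Real.exp_le_exp.2 hst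
  rw [Real.exp_add] at h5
  rw [Real.abs_exp]
  nlinarith [mul_le_mul_of_nonneg_right h4 ht1]

/-- `|e^a - 1 - a| ≤ e^|a| - 1 - |a|` -/
theorem pnorm_gexp_sub {w : V → ℝ≥0∞} {a : Gr V} (ha : IsEv a) {T : ℝ} (h0 : 0 ≤ T)
    (hT : pnorm w a ≤ ENNReal.ofReal T) :
    pnorm w (gexp a - 1 - a) ≤ ENNReal.ofReal (Real.exp T - 1 - T) := by
  obtain ⟨t, ht0, hst, ht⟩ := exists_split hT h0
  have h1 := pnorm_le_ofReal_smul (c := Real.exp (ct a))
    (pnorm_nexp_sub (isNilpotent_sub_ct ha) ht0 ht.le)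
  have h2 := pnorm_algebraMap_le_ofReal w (Real.exp (ct a) - 1 - ct a)
  have h6 := pnorm_le_ofReal_smul (c := Real.exp (ct a) - 1) ht.le
  have e1 : gexp a - 1 - a = Real.exp (ct a) • (nexp (a - algebraMap ℝ (Gr V) (ct a)) - 1 -
        (a - algebraMap ℝ (Gr V) (ct a))) +
      ((Real.exp (ct a) - 1) • (a - algebraMap ℝ (Gr V) (ct a)) +
        algebraMap ℝ (Gr V) (Real.exp (ct a) - 1 - ct a)) := by
    unfold gexp
    simp only [smul_sub, map_sub, map_one, Algebra.algebraMap_eq_smul_one, sub_smul, one_smul]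
    abel
  have ht1 : 0 ≤ Real.exp t - 1 - t := by linarith [Real.add_one_le_exp t]
  rw [e1]
  refine (pnorm_le_ofReal_add h1 (pnorm_le_ofReal_add h6 h2 (by positivity) (abs_nonneg _))
    (by positivity) (by positivity)).trans (ENNReal.ofReal_le_ofReal ?_)
  have h3 := real_exp_sub_one_le (ct a)
  have h3' := real_exp_sub_le (ct a)
  have h4 : Real.exp (ct a) ≤ Real.exp |ct a| := Real.exp_le_exp.2 (le_abs_self _)
  have h5 := exp_sub_mono (by positivity) hst
  rw [Real.exp_add] at h5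
  rw [Real.abs_exp]
  nlinarith [mul_le_mul_of_nonneg_right h4 ht1, mul_le_mul_of_nonneg_right h3 ht0]

theorem real_exp_sub_one_le_two {t : ℝ} (h0 : 0 ≤ t) (h1 : t ≤ 1) : Real.exp t - 1 ≤ 2 * t := by
  have h := Real.abs_exp_sub_one_sub_id_le (x := t) (by rwa [abs_of_nonneg h0])
  have h2 := (le_abs_self _).trans h
  nlinarith

/-- `|e^a - 1| ≤ 2 |a|` if `|a| ≤ 1` -/
theorem pnorm_gexp_sub_one_le {w : V → ℝ≥0∞} {a : Gr V} (ha : IsEv a) (h1 : pnorm w a ≤ 1) :
    pnorm w (gexp a - 1) ≤ 2 * pnorm w a := by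
  have hne : pnorm w a ≠ ∞ := ne_top_of_le_ne_top ENNReal.one_ne_top h1
  have h2 : (pnorm w a).toReal ≤ 1 := ENNReal.toReal_le_of_le_ofReal one_pos.le (by simpa using h1)
  have h3 := pnorm_gexp_sub_one ha (T := (pnorm w a).toReal) ENNReal.toReal_nonneg
    (ENNReal.ofReal_toReal hne).ge
  refine h3.trans ((ENNReal.ofReal_le_ofReal
    (real_exp_sub_one_le_two ENNReal.toReal_nonneg h2)).trans_eq ?_)
  rw [ENNReal.ofReal_mul (by norm_num), ENNReal.ofReal_toReal hne]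
  simp

/-- `|e^a - 1 - a| ≤ |a|^2` if `|a| ≤ 1` -/
theorem pnorm_gexp_sub_le {w : V → ℝ≥0∞} {a : Gr V} (ha : IsEv a) (h1 : pnorm w a ≤ 1) :
    pnorm w (gexp a - 1 - a) ≤ pnorm w a ^ 2 := by
  have hne : pnorm w a ≠ ∞ := ne_top_of_le_ne_top ENNReal.one_ne_top h1
  have h2 : (pnorm w a).toReal ≤ 1 := ENNReal.toReal_le_of_le_ofReal one_pos.le (by simpa using h1)
  have h3 := pnorm_gexp_sub ha (T := (pnorm w a).toReal) ENNReal.toReal_nonneg
    (ENNReal.ofReal_toReal hne).ge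
  have h4 := Real.abs_exp_sub_one_sub_id_le (x := (pnorm w a).toReal)
    (by rwa [abs_of_nonneg ENNReal.toReal_nonneg])
  refine h3.trans ((ENNReal.ofReal_le_ofReal ((le_abs_self _).trans h4)).trans_eq ?_)
  rw [ENNReal.ofReal_pow ENNReal.toReal_nonneg, ENNReal.ofReal_toReal hne]

/-- Lipschitz bound of the nonlinear part of the exponential:
`|(e^a - 1 - a) - (e^b - 1 - b)| ≤ 4 (|a| + |b|) |a - b|` if `|a|, |b| ≤ 1/4` -/
theorem pnorm_gexp_sub_gexp_sub_le {w : V → ℝ≥0∞} {a b : Gr V} (ha : IsEv a) (hb : IsEv b)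
    {s t d : ℝ} (ht : pnorm w b ≤ ENNReal.ofReal t)
    (hd : pnorm w (a - b) ≤ ENNReal.ofReal d) (hs0 : 0 ≤ s) (ht0 : 0 ≤ t) (hd0 : 0 ≤ d)
    (ht1 : t ≤ 1 / 2) (hd1 : d ≤ s + t) (hd2 : d ≤ 1) :
    pnorm w ((gexp a - 1 - a) - (gexp b - 1 - b)) ≤ ENNReal.ofReal (4 * (s + t) * d) := by
  have hab : IsEv (a - b) := ha.sub hb
  have e1 : gexp a = gexp b * gexp (a - b) := by
    rw [← gexp_add hb hab, add_sub_cancel]
  have e2 : (gexp a - 1 - a) - (gexp b - 1 - b) =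
      gexp b * (gexp (a - b) - 1 - (a - b)) + (gexp b - 1) * (a - b) := by
    rw [e1]; noncomm_ring
  have h1 := pnorm_le_ofReal_mul (pnorm_gexp_le hb ht0 ht) (pnorm_gexp_sub hab hd0 hd)
    (Real.exp_pos _).le
  have h2 := pnorm_le_ofReal_mul (pnorm_gexp_sub_one hb ht0 ht) hd
    (by linarith [Real.add_one_le_exp t])
  have hq : 0 ≤ Real.exp d - 1 - d := by linarith [Real.add_one_le_exp d]
  have hr : 0 ≤ Real.exp t - 1 := by linarith [Real.add_one_le_exp t]
  rw [e2]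
  refine (pnorm_le_ofReal_add h1 h2 (by positivity) (by positivity)).trans
    (ENNReal.ofReal_le_ofReal ?_)
  have h3 : Real.exp t - 1 ≤ 2 * t := real_exp_sub_one_le_two ht0 (by linarith)
  have h4 : Real.exp d - 1 - d ≤ d ^ 2 := (le_abs_self _).trans
    (Real.abs_exp_sub_one_sub_id_le (x := d) (by rwa [abs_of_nonneg hd0]))
  have h5 : Real.exp t ≤ 2 := by linarith
  calc Real.exp t * (Real.exp d - 1 - d) + (Real.exp t - 1) * d
      ≤ 2 * d ^ 2 + 2 * t * d := by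
        refine add_le_add ?_ (mul_le_mul_of_nonneg_right h3 hd0)
        exact mul_le_mul h5 h4 hq (by norm_num)
    _ ≤ 4 * (s + t) * d := by nlinarith [mul_nonneg hs0 hd0, mul_nonneg ht0 hd0]

/-- Lipschitz bound, extended form -/
theorem pnorm_gexp_lip {w : V → ℝ≥0∞} {a b : Gr V} (ha : IsEv a) (hb : IsEv b)
    (h1 : pnorm w a ≤ 1 / 2) (h2 : pnorm w b ≤ 1 / 2) :
    pnorm w ((gexp a - 1 - a) - (gexp b - 1 - b)) ≤
      4 * (pnorm w a + pnorm w b) * pnorm w (a - b) := by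
  have half : (1 / 2 : ℝ≥0∞) = ENNReal.ofReal (1 / 2) := by
    rw [ENNReal.ofReal_div_of_pos (by norm_num)]; simp
  have hne1 : pnorm w a ≠ ∞ := ne_top_of_le_ne_top (by rw [half]; exact ENNReal.ofReal_ne_top) h1
  have hne2 : pnorm w b ≠ ∞ := ne_top_of_le_ne_top (by rw [half]; exact ENNReal.ofReal_ne_top) h2
  have hsub : pnorm w (a - b) ≤ pnorm w a + pnorm w b := pnorm_sub_le w a b
  have hne3 : pnorm w (a - b) ≠ ∞ := ne_top_of_le_ne_top (ENNReal.add_ne_top.2 ⟨hne1, hne2⟩) hsub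
  have ha' : (pnorm w a).toReal ≤ 1 / 2 :=
    ENNReal.toReal_le_of_le_ofReal (by norm_num) (by rw [← half]; exact h1)
  have hb' : (pnorm w b).toReal ≤ 1 / 2 :=
    ENNReal.toReal_le_of_le_ofReal (by norm_num) (by rw [← half]; exact h2)
  have hd' : (pnorm w (a - b)).toReal ≤ (pnorm w a).toReal + (pnorm w b).toReal := by
    rw [← ENNReal.toReal_add hne1 hne2]
    exact ENNReal.toReal_mono (ENNReal.add_ne_top.2 ⟨hne1, hne2⟩) hsub
  refine (pnorm_gexp_sub_gexp_sub_le ha hb (s := (pnorm w a).toReal) (t := (pnorm w b).toReal)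
    (d := (pnorm w (a - b)).toReal) (ENNReal.ofReal_toReal hne2).ge (ENNReal.ofReal_toReal hne3).ge
    ENNReal.toReal_nonneg ENNReal.toReal_nonneg ENNReal.toReal_nonneg hb' hd'
    (by linarith)).trans_eq ?_
  rw [ENNReal.ofReal_mul (by positivity), ENNReal.ofReal_mul (by norm_num),
    ENNReal.ofReal_add ENNReal.toReal_nonneg ENNReal.toReal_nonneg, ENNReal.ofReal_toReal hne1,
    ENNReal.ofReal_toReal hne2, ENNReal.ofReal_toReal hne3]
  simp

end Crest.Agent.R165.GExpx900
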