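import Crest.Agent.R165.LinStep_417
import Crest.Agent.R165.Pack_915

/-!
# Row 165 (S0250), block G: per-polymer linear factors from the LOCAL weight inequalities (helper336)

Abstract data (note 1028, G1, G2): `X` = faces, `V` = linear fields,
* `In l x`   : the field `l` is supported in the ball `B(x, s₀ r_k)` (scale `k`);
* `In' l x`  : the same at scale `k+1`;
* `wt x l`, `wt' x l` : the local weights at scales `k`, `k+1`;
* `wU In wt U l` : infimum of `wt x l` over the `x ∈ U` with `In l x` (`∞` if there is none).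

Results, for a polymer `U` and an even functional `K` with `pnorm (wU In wt U) K < ∞`:
* `small_oneMode` : one mode (boundary, branch point): factor `3 p q` after removing the constant;
* `small_decay`   : every leg decays (cluster, bulk without extraction): factor `p²`;
* `large_step`    : legs near the branch points of a finite set `s`: factor `∏ (1 + 2 p)`;
* `card_le_pack`  : the number of branch points near `U` is at most the packing number;
* `gam_gain`      : `Γ^{|U|_{k+1}} a^{|U|_k} ≤ (a²/Γ) Γ^{|U|_k}` for large connected `U`.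
-/

set_option autoImplicit false
set_option linter.unusedSectionVars false

noncomputable section

namespace Crest.Agent.R165.GLinx336

open Crest.Agent.R165.Gr0x606 Crest.Agent.R165.PNormx417 Crest.Agent.R165.Packx915
open scoped ENNReal Classical

variable {X V : Type*} [AddCommGroup V] [Module ℝ V]

/-! ### the weight of a polymer -/

/-- weight of the field `l` for the polymer `U` -/
def wU (In : V → X → Prop) (wt : X → V → ℝ≥0∞) (U : Finset X) (l : V) : ℝ≥0∞ :=
  (U.filter fun x => In l x).inf fun x => wt x l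

variable {In In' : V → X → Prop} {wt wt' : X → V → ℝ≥0∞} {U U' : Finset X}

theorem wU_le {l : V} {x : X} (hx : x ∈ U) (h : In l x) : wU In wt U l ≤ wt x l :=
  Finset.inf_le (Finset.mem_filter.2 ⟨hx, h⟩)

theorem le_wU {l : V} {a : ℝ≥0∞} (h : ∀ x ∈ U, In l x → a ≤ wt x l) : a ≤ wU In wt U l :=
  Finset.le_inf fun x hx => h x (Finset.mem_filter.1 hx).1 (Finset.mem_filter.1 hx).2

theorem wU_cases (In : V → X → Prop) (wt : X → V → ℝ≥0∞) (U : Finset X) (l : V) :
    wU In wt U l = ∞ ∨ ∃ x ∈ U, In l x ∧ wU In wt U l = wt x l := by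
  by_cases h : (U.filter fun x => In l x).Nonempty
  · right
    obtain ⟨x, hx, he⟩ := Finset.exists_mem_eq_inf _ h fun x => wt x l
    exact ⟨x, (Finset.mem_filter.1 hx).1, (Finset.mem_filter.1 hx).2, he⟩
  · left
    rw [Finset.not_nonempty_iff_eq_empty] at h
    rw [wU, h, Finset.inf_empty]

theorem wU_mono (h : U ⊆ U') (l : V) : wU In wt U' l ≤ wU In wt U l :=
  le_wU fun _ hx hl => wU_le (h hx) hl

theorem wU_ne_top_iff {l : V} : wU In wt U l ≠ ∞ ↔ ∃ x ∈ U, In l x ∧ wt x l ≠ ∞ := by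
  constructor
  · intro h
    rcases wU_cases In wt U l with h' | ⟨x, hx, hl, he⟩
    · exact absurd h' h
    · exact ⟨x, hx, hl, he ▸ h⟩
  · rintro ⟨x, hx, hl, hne⟩
    exact ne_top_of_le_ne_top hne (wU_le hx hl)

/-- **transfer of a local inequality to the polymer weights** -/
theorem wU_map {T : V → V} {c : ℝ≥0∞} (hc : c ≠ 0)
    (h : ∀ l, ∀ x ∈ U, In l x → ∃ x' ∈ U, In' (T l) x' ∧ wt' x' (T l) ≤ c * wt x l) (l : V) :
    wU In' wt' U (T l) ≤ c * wU In wt U l := by
  rcases wU_cases In wt U l with h' | ⟨x, hx, hl, he⟩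
  · rw [h', ENNReal.mul_top hc]; exact le_top
  · obtain ⟨x', hx', hl', hle⟩ := h l x hx hl
    rw [he]
    exact (wU_le hx' hl').trans hle

/-- the special case of the same centre -/
theorem wU_map_same {T : V → V} {c : ℝ≥0∞} (hc : c ≠ 0)
    (hIn : ∀ l, ∀ x ∈ U, In l x → In' (T l) x)
    (h : ∀ l, ∀ x ∈ U, In l x → wt' x (T l) ≤ c * wt x l) (l : V) :
    wU In' wt' U (T l) ≤ c * wU In wt U l :=
  wU_map hc (fun l x hx hl => ⟨x, hx, hIn l x hx hl, h l x hx hl⟩) l

/-- transfer at one field -/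
theorem wU_map_at {T : V → V} {c : ℝ≥0∞} {l : V} (hl : wU In wt U l ≠ ∞)
    (h : ∀ x ∈ U, In l x → ∃ x' ∈ U, In' (T l) x' ∧ wt' x' (T l) ≤ c * wt x l) :
    wU In' wt' U (T l) ≤ c * wU In wt U l := by
  rcases wU_cases In wt U l with h' | ⟨x, hx, hl', he⟩
  · exact absurd h' hl
  · obtain ⟨x', hx', hl', hle⟩ := h x hx hl'
    rw [he]
    exact (wU_le hx' hl').trans hle

/-! ### absorbing the Gram weight -/

/-- if the Gram weight is dominated by `ε` times the new weight it can be absorbed -/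
theorem add_gram_le {w w' g : V → ℝ≥0∞} {ε c : ℝ≥0∞} (hg : ∀ l, g l ≤ ε * w' l) {l l' : V}
    (h : w' l' ≤ c * w l) : w' l' + g l' ≤ (1 + ε) * c * w l := by
  calc w' l' + g l' ≤ w' l' + ε * w' l' := by gcongr; exact hg l'
    _ = (1 + ε) * w' l' := by ring
    _ ≤ (1 + ε) * (c * w l) := by gcongr
    _ = _ := by ring

/-! ### removing the constant part -/

/-- the part without constant -/
def noct (K : Gr V) : Gr V := K - algebraMap ℝ _ (ct K)

theorem noct_eq_sub_hom (K : Gr V) : noct K = K - hom 0 K := by rw [noct, hom_zero_eq]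

theorem ct_noct (K : Gr V) : ct (noct K) = 0 := by
  rw [noct, map_sub, ct_algebraMap, sub_self]

theorem isEv_noct {K : Gr V} (h : IsEv K) : IsEv (noct K) := h.sub (isEv_algebraMap _)

theorem noct_eq_high (K : Gr V) : noct K = high 1 K := by
  rw [noct_eq_sub_hom, high_apply]; simp

theorem pnorm_noct_le (w : V → ℝ≥0∞) (K : Gr V) : pnorm w (noct K) ≤ pnorm w K := by
  rw [noct_eq_high]; exact pnorm_high_le w 1 K

theorem noct_conv (S : Cov V) (K : Gr V) : noct (conv S K) = noct (conv S (noct K)) := by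
  rw [noct_eq_high, noct_eq_high, noct_eq_high, high_conv]

/-! ### small polymers near a one-mode defect -/

/-- **one mode** (boundary or branch point), abstract weights: the constant-free part of the
convolution of an even functional contracts by `3 p q`. -/
theorem oneMode {S : Cov V} {g : V → ℝ≥0∞} (hg : Gram S g) (P : V →ₗ[ℝ] V)
    [FiniteDimensional ℝ (LinearMap.range P)] (hr : Module.finrank ℝ (LinearMap.range P) ≤ 1)
    {w w' : V → ℝ≥0∞} {ε p q : ℝ≥0∞} (hgw : ∀ l, g l ≤ ε * w' l) (hεt : ε ≠ ∞) (hpt : p ≠ ∞)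
    (hq4 : (1 + ε) * q ≤ 1 / 4) (hqp : q ≤ p)
    (hp : ∀ l, w' (P l) ≤ p * w l) (hq : ∀ l, w' (l - P l) ≤ q * w l)
    {K : Gr V} (hev : IsEv K) (hK : pnorm w K ≠ ∞) :
    pnorm w' (noct (conv S K)) ≤ 3 * (((1 + ε) * p) * ((1 + ε) * q)) * pnorm w K := by
  have h1 : pnorm w (noct K) ≠ ∞ := ne_top_of_le_ne_top hK (pnorm_noct_le w K)
  rw [noct_conv]
  refine (pnorm_noct_le _ _).trans ?_
  refine (oneMode_step hg P hr (p := (1 + ε) * p) (q := (1 + ε) * q) (w := w) (w' := w')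
    (ENNReal.mul_ne_top (ENNReal.add_ne_top.2 ⟨ENNReal.one_ne_top, hεt⟩) hpt) hq4
    (by gcongr) (fun l => add_gram_le hgw (hp l)) (fun l => add_gram_le hgw (hq l))
    (isEv_noct hev) (ct_noct K) h1).trans ?_
  gcongr
  exact pnorm_noct_le w K

/-- **small polymers near the boundary or a branch point** (W3), (W4): rank-one projection `P`,
local weights. -/
theorem small_oneMode {S : Cov V} {g : V → ℝ≥0∞} (hg : Gram S g) (P : V →ₗ[ℝ] V)
    [FiniteDimensional ℝ (LinearMap.range P)] (hr : Module.finrank ℝ (LinearMap.range P) ≤ 1)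
    {ε p q : ℝ≥0∞} (hgw : ∀ l, g l ≤ ε * wU In' wt' U l) (hεt : ε ≠ ∞) (hpt : p ≠ ∞)
    (hq0 : q ≠ 0) (hq4 : (1 + ε) * q ≤ 1 / 4) (hqp : q ≤ p)
    (hp : ∀ l, ∀ x ∈ U, In l x → ∃ x' ∈ U, In' (P l) x' ∧ wt' x' (P l) ≤ p * wt x l)
    (hq : ∀ l, ∀ x ∈ U, In l x → ∃ x' ∈ U, In' (l - P l) x' ∧ wt' x' (l - P l) ≤ q * wt x l)
    {K : Gr V} (hev : IsEv K) (hK : pnorm (wU In wt U) K ≠ ∞) :
    pnorm (wU In' wt' U) (noct (conv S K)) ≤
      3 * (((1 + ε) * p) * ((1 + ε) * q)) * pnorm (wU In wt U) K := by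
  have hp0 : p ≠ 0 := fun h => hq0 (le_antisymm (h ▸ hqp) zero_le)
  exact oneMode hg P hr hgw hεt hpt hq4 hqp (fun l => wU_map (T := P) hp0 hp l)
    (fun l => wU_map (T := fun l => l - P l) hq0 hq l) hev hK

/-! ### small polymers all of whose legs decay -/

/-- every leg decays: an even functional without constant part contracts by `p²` -/
theorem decay {S : Cov V} {g : V → ℝ≥0∞} (hg : Gram S g) {w w' : V → ℝ≥0∞} {ε p : ℝ≥0∞}
    (hgw : ∀ l, g l ≤ ε * w' l) (hp1 : (1 + ε) * p ≤ 1) (hp : ∀ l, w' l ≤ p * w l)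
    {K : Gr V} (hev : IsEv K) (hK : pnorm w K ≠ ∞) :
    pnorm w' (noct (conv S K)) ≤ ((1 + ε) * p) ^ 2 * pnorm w K := by
  have h1 : pnorm w (noct K) ≠ ∞ := ne_top_of_le_ne_top hK (pnorm_noct_le w K)
  rw [noct_conv]
  refine (pnorm_noct_le _ _).trans ?_
  refine (pnorm_conv_le (w := fun l => w' l + g l) hg (fun l => le_rfl) _).trans ?_
  refine (pnorm_scale hp1 (fun l => add_gram_le hgw (hp l)) (m := 2) (fun n hn => ?_) h1).trans ?_
  · have : n = 0 ∨ n = 1 := by omega
    rcases this with rfl | rfl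
    · rw [hom_zero_eq, ct_noct, map_zero]
    · exact IsEv.hom_odd (isEv_noct hev) odd_one
  · gcongr
    exact pnorm_noct_le w K

/-- **small polymers near a cluster** (no mode has to be removed) -/
theorem small_decay {S : Cov V} {g : V → ℝ≥0∞} (hg : Gram S g) {ε p : ℝ≥0∞}
    (hgw : ∀ l, g l ≤ ε * wU In' wt' U l) (hp0 : p ≠ 0) (hp1 : (1 + ε) * p ≤ 1)
    (hIn : ∀ l, ∀ x ∈ U, In l x → In' l x) (hp : ∀ l, ∀ x ∈ U, In l x → wt' x l ≤ p * wt x l)
    {K : Gr V} (hev : IsEv K) (hK : pnorm (wU In wt U) K ≠ ∞) :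
    pnorm (wU In' wt' U) (noct (conv S K)) ≤ ((1 + ε) * p) ^ 2 * pnorm (wU In wt U) K :=
  decay hg hgw hp1 (fun l => wU_map_same (T := id) hp0 hIn hp l) hev hK

/-- the trivial bound: weights do not grow -/
theorem any_decay {S : Cov V} {g : V → ℝ≥0∞} (hg : Gram S g) {w w' : V → ℝ≥0∞} {ε p : ℝ≥0∞}
    (hgw : ∀ l, g l ≤ ε * w' l) (hp1 : (1 + ε) * p ≤ 1) (hp : ∀ l, w' l ≤ p * w l) (K : Gr V) :
    pnorm w' (conv S K) ≤ pnorm w K :=
  pnorm_conv_le hg (fun l => (add_gram_le hgw (hp l)).trans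
    (mul_le_of_le_one_left zero_le hp1)) K

/-! ### large polymers: legs near branch points -/

/-- **large polymers**: the legs near a branch point `i ∈ s` cost `1 + 2p` per branch point (not
per leg), the other legs do not grow. -/
theorem large_step {S : Cov V} {g : V → ℝ≥0∞} (hg : Gram S g) {ι : Type*} (s : Finset ι)
    (near : V → ι → Prop) (P : ι → V →ₗ[ℝ] V)
    (hfin : ∀ i, FiniteDimensional ℝ (LinearMap.range (P i)))
    (hr : ∀ i, Module.finrank ℝ (LinearMap.range (P i)) ≤ 1)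
    {ε p q : ℝ≥0∞} (hgw : ∀ l, g l ≤ ε * wU In' wt' U l) (hεt : ε ≠ ∞) (hpt : p ≠ ∞)
    (hq4 : (1 + ε) * q ≤ 1 / 4) (hqp : q ≤ p) {p0 : ℝ≥0∞} (hp0 : (1 + ε) * p0 ≤ 1)
    (hw0 : ∀ l, ∀ x ∈ U, In l x → wt x l = 0 → l = 0)
    (hs : ∀ l, wU In wt U l ≠ ∞ → ∀ i, near l i → i ∈ s)
    (h0 : ∀ l, ∀ x ∈ U, In l x → (∀ i, ¬ near l i) → In' l x ∧ wt' x l ≤ p0 * wt x l)
    (hp : ∀ l i, near l i → ∀ x ∈ U, In l x →
      ∃ x' ∈ U, In' (P i l) x' ∧ wt' x' (P i l) ≤ p * wt x l)
    (hq : ∀ l i, near l i → ∀ x ∈ U, In l x →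
      ∃ x' ∈ U, In' (l - P i l) x' ∧ wt' x' (l - P i l) ≤ q * wt x l)
    {K : Gr V} (hK : pnorm (wU In wt U) K ≠ ∞) :
    pnorm (wU In' wt' U) (conv S K) ≤
      (1 + 2 * ((1 + ε) * p)) ^ s.card * pnorm (wU In wt U) K := by
  have h1ε : (1 + ε) ≠ ∞ := ENNReal.add_ne_top.2 ⟨ENNReal.one_ne_top, hεt⟩
  have hc : (1 + 2 * ((1 + ε) * p)) ≠ ∞ := ENNReal.add_ne_top.2 ⟨ENNReal.one_ne_top,
    ENNReal.mul_ne_top (by norm_num) (ENNReal.mul_ne_top h1ε hpt)⟩
  have h := typed_step (S := S) (g := g) hg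
    (ty := fun l => if h : ∃ i, near l i then some h.choose else none) P hfin (fun _ => 1) hr
    (w := wU In wt U) (w' := wU In' wt' U) (p := fun _ => (1 + ε) * p) (q := fun _ => (1 + ε) * q)
    (c := fun _ => 1 + 2 * ((1 + ε) * p)) (fun _ => hc) s
    (fun _ _ n => paul_one_le_all hq4 (by gcongr) n)
    (fun l hl => by
      rcases wU_cases In wt U l with h' | ⟨x, hx, hl', he⟩
      · rw [hl] at h'; exact absurd h' (by simp)
      · exact hw0 l x hx hl' (he ▸ hl))
    (fun l hl hty => by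
      have hn : ∀ i, ¬ near l i := by
        intro i hi
        have hex : ∃ i, near l i := ⟨i, hi⟩
        simp only [dif_pos hex] at hty
        exact absurd hty (by simp)
      have h1 : wU In' wt' U l ≤ p0 * wU In wt U l :=
        wU_map_at (T := id) hl fun x hx hx' => ⟨x, hx, h0 l x hx hx' hn⟩
      calc wU In' wt' U l + g l ≤ (1 + ε) * p0 * wU In wt U l := add_gram_le hgw h1
        _ ≤ wU In wt U l := mul_le_of_le_one_left zero_le hp0)
    (fun l hl i hty => by
      have hex : ∃ i, near l i := by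
        by_contra hcon
        simp only [dif_neg hcon] at hty
        exact absurd hty (by simp)
      simp only [dif_pos hex, Option.some.injEq] at hty
      have hi : near l i := hty ▸ hex.choose_spec
      exact ⟨hs l hl i hi,
        add_gram_le hgw (wU_map_at (T := P i) hl (hp l i hi)),
        add_gram_le hgw (wU_map_at (T := fun l => l - P i l) hl (hq l i hi))⟩)
    hK
  simpa using h

/-! ### counting the branch points near a polymer -/

/-- points that are far apart and close to `U` are not more than the packing number of `U` -/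
theorem card_le_pack_of_near {d : X → X → ℕ} (hd : PD d) {ι : Type*} (s : Finset ι) (loc : ι → X)
    {ρ r : ℕ} (hnear : ∀ i ∈ s, ∃ x ∈ U, d x (loc i) ≤ ρ)
    (hsep : ∀ i ∈ s, ∀ j ∈ s, i ≠ j → 2 * ρ + r < d (loc i) (loc j)) :
    s.card ≤ pack d r U := by
  rcases s.eq_empty_or_nonempty with rfl | ⟨i0, hi0⟩
  · simp
  have : Nonempty X := ⟨loc i0⟩
  choose! f hfU hf using hnear
  have hfs : ∀ i ∈ s, ∀ j ∈ s, i ≠ j → r < d (f i) (f j) := by
    intro i hi j hj hij
    have h1 := hsep i hi j hj hij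
    have h2 := hf i hi
    have h3 := hf j hj
    have h4 := hd.tri (loc i) (f i) (loc j)
    have h5 := hd.tri (f i) (f j) (loc j)
    have h6 := hd.symm (loc i) (f i)
    omega
  have hinj : Set.InjOn f s := by
    intro i hi j hj he
    by_contra hne
    have := hfs i hi j hj hne
    rw [he, hd.self] at this
    omega
  have hsub : s.image f ⊆ U := by
    intro x hx
    obtain ⟨i, hi, rfl⟩ := Finset.mem_image.1 hx
    exact hfU i hi
  have hsp : Sep d r (s.image f) := by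
    intro x hx y hy hxy
    obtain ⟨i, hi, rfl⟩ := Finset.mem_image.1 hx
    obtain ⟨j, hj, rfl⟩ := Finset.mem_image.1 hy
    exact hfs i hi j hj fun h => hxy (by rw [h])
  have := card_le_pack hsub hsp
  rwa [Finset.card_image_of_injOn hinj] at this

/-- packing numbers at the next scale: at most one half, for connected sets that are not small -/
theorem two_mul_pack_le {d : X → X → ℕ} {r r' R : ℕ} (hd : PD d)
    (hU : Packx915.Conn d R U) (h : 4 * R + 3 * r + 2 ≤ r') (h2 : 2 ≤ pack d r U) :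
    2 * pack d r' U ≤ pack d r U := by
  by_cases h1 : pack d r' U ≤ 1
  · omega
  · exact pack_growth (m := 2) (ρ := 2 * R + r + 1) hd hU (by omega) (by omega) (by omega)

/-- the numerical gain of large polymers -/
theorem gam_gain {G a : ℝ≥0∞} (h1 : 1 ≤ a) (hGt : G ≠ ∞) (ha : a ^ 2 ≤ G) {m n : ℕ}
    (hmn : 2 * m ≤ n) (hn : 2 ≤ n) : G ^ m * a ^ n ≤ (a ^ 2 * G⁻¹) * G ^ n := by
  have hG1 : 1 ≤ G := (one_le_pow₀ h1).trans ha
  have hG0 : G ≠ 0 := fun h => by rw [h] at hG1; exact absurd hG1 (by simp)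
  have key : G ^ m * a ^ (n - 2) ≤ G ^ (n - 1) := by
    have h2 : (G ^ m * a ^ (n - 2)) ^ 2 ≤ (G ^ (n - 1)) ^ 2 := by
      calc (G ^ m * a ^ (n - 2)) ^ 2 = G ^ (2 * m) * (a ^ 2) ^ (n - 2) := by
            rw [mul_pow, ← pow_mul, ← pow_mul, ← pow_mul, mul_comm m 2, mul_comm (n - 2) 2]
        _ ≤ G ^ (2 * m) * G ^ (n - 2) := by gcongr
        _ = G ^ (2 * m + (n - 2)) := by rw [pow_add]
        _ ≤ G ^ (2 * (n - 1)) := pow_le_pow_right₀ hG1 (by omega)
        _ = (G ^ (n - 1)) ^ 2 := by rw [← pow_mul, mul_comm]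
    exact ((ENNReal.pow_right_strictMono (n := 2) (by norm_num)).le_iff_le).1 h2
  have e1 : a ^ n = a ^ (n - 2) * a ^ 2 := by rw [← pow_add]; congr 1; omega
  have e2 : G⁻¹ * G ^ n = G ^ (n - 1) := by
    have : G ^ n = G * G ^ (n - 1) := by rw [← pow_succ']; congr 1; omega
    rw [this, ← mul_assoc, ENNReal.inv_mul_cancel hG0 hGt, one_mul]
  calc G ^ m * a ^ n = (G ^ m * a ^ (n - 2)) * a ^ 2 := by rw [e1]; ring
    _ ≤ G ^ (n - 1) * a ^ 2 := by gcongr
    _ = (a ^ 2 * G⁻¹) * G ^ n := by rw [mul_assoc, e2, mul_comm]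

/-- **large polymers, weighted**: `Γ^{|U|'} ‖conv K‖' ≤ (a²/Γ) Γ^{|U|} ‖K‖` -/
theorem large_weighted {d : X → X → ℕ} {r r' R : ℕ} (hd : PD d) (hU : Packx915.Conn d R U)
    (h : 4 * R + 3 * r + 2 ≤ r') (h2 : 2 ≤ pack d r U) {G a A B : ℝ≥0∞} (h1 : 1 ≤ a)
    (hGt : G ≠ ∞) (ha : a ^ 2 ≤ G) {b : ℕ} (hb : b ≤ pack d r U) (hAB : A ≤ a ^ b * B) :
    G ^ pack d r' U * A ≤ (a ^ 2 * G⁻¹) * (G ^ pack d r U * B) := by
  calc G ^ pack d r' U * A ≤ G ^ pack d r' U * (a ^ pack d r U * B) := by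
        refine mul_le_mul' le_rfl (hAB.trans (mul_le_mul' ?_ le_rfl))
        exact pow_le_pow_right₀ h1 hb
    _ = (G ^ pack d r' U * a ^ pack d r U) * B := by ring
    _ ≤ ((a ^ 2 * G⁻¹) * G ^ pack d r U) * B :=
        mul_le_mul' (gam_gain h1 hGt ha (two_mul_pack_le hd hU h h2) h2) le_rfl
    _ = _ := by ring

end Crest.Agent.R165.GLinx336
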