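import Crest.Agent.R165.GSys2_387
import Crest.Agent.R165.PStepId_901
import Crest.Agent.R165.FlowD4_898

/-!
# Row 165 (S0250), block G: the plane system of `GSys_387` is the plane system of 417/901/898

* `LocE_eq`, `bulk_eP` : the extraction of `sys D (wPl ℤ) ∅ l k0 K0` is `eP (rr l k0 n)` of 901
* `plSys` : it is a `PlSys` of 898 (hence all its activities are `PlSym` if `K0` is)
* `plane_step` : the step of 901 on this system
* `Kn`, `plane_flow` : if `K0 = stK ν z Q` then `K n = stK (ν n) (z n) (Q n)`, with the recursion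
-/

set_option autoImplicit false

noncomputable section

open scoped ENNReal
open Crest.Agent.R165.Gr0x606 Crest.Agent.R165.Gr1x606 Crest.Agent.R165.Latx683
open Crest.Agent.R165.GDefx387 Crest.Agent.R165.GeOpsx337 Crest.Agent.R165.KFlowx337
open Crest.Agent.R165.FRDPolyx439 Crest.Agent.R165.FRDLatx439
open Crest.Agent.R165.PlaneLocx901 Crest.Agent.R165.Locx901 Crest.Agent.R165.GrLocx337
open Crest.Agent.R165.PStepx417 Crest.Agent.R165.PStepIdx901 Crest.Agent.R165.FlowD4x898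
open Crest.Agent.R165.PlaneModesx901 (Fc)
open Crest.Agent.R165.PlaneSumx901 (PlSym)

namespace Crest.Agent.R165.GSysx387

theorem LocE_eq (f : Fc) : LocE f = PStepIdx901.LocG f :=
  LinearMap.ext fun _ => ge_ext rfl

theorem bulk_eP (l k0 n : ℕ) : bulk (wPl ℤ) ∅ l k0 n = eP (rr l k0 n) := by
  rw [bulk_plane, eP]
  congr 1

variable {M N : ℕ} (D : FRD 16 M N) (l k0 : ℕ) (K0 : Finset Fc → Ge (Fld ℤ))

theorem symS_slC (n : ℕ) : SymS (slC D (wPl ℤ) l k0 n) := symS_SopC D _ _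

/-- the plane system is a plane system in the sense of 898 -/
theorem plSys : PlSys (sys D (wPl ℤ) ∅ l k0 K0) :=
  PlSys.of (R := fun k => nearR l k0 k) (p := fun _ _ => True)
    (Lo := fun _ f => PStepIdx901.LocG f) (r := fun k => rr l k0 k)
    (fun k => symS_slC D l k0 k) (fun _ _ _ => Iff.rfl) (fun _ _ => trivial)
    (fun _ _ _ => rfl) (fun k => bulk_eP l k0 k) rfl

/-- **one step of the plane flow** -/
theorem plane_step (n : ℕ) (ν z : ℝ) (Q : Finset Fc → Ge (Fld ℤ))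
    (hK : (sys D (wPl ℤ) ∅ l k0 K0).K n = stK ν z Q) :
    (sys D (wPl ℤ) ∅ l k0 K0).K (n + 1) =
      stK (ν + alQ (slC D (wPl ℤ) l k0 n) (rr l k0 n) Q)
        (z + beQ (slC D (wPl ℤ) l k0 n) (rr l k0 n) Q)
        (stQ (near l k0 n) (near l k0 (n + 1)) (slC D (wPl ℤ) l k0 n) (rr l k0 n) ν z Q) :=
  sys_step (sys D (wPl ℤ) ∅ l k0 K0) n rfl (bulk_eP l k0 n) ν z Q hK

/-- the trajectory of `(ν, z, Q)`, started at step `n0` from `(ν0, z0, Q0)` -/
def traj (ν0 z0 : ℝ) (Q0 : Finset Fc → Ge (Fld ℤ)) (n0 : ℕ) :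
    ℕ → ℝ × ℝ × (Finset Fc → Ge (Fld ℤ))
  | 0 => (ν0, z0, Q0)
  | n + 1 =>
    let t := traj ν0 z0 Q0 n0 n
    (t.1 + alQ (slC D (wPl ℤ) l k0 (n0 + n)) (rr l k0 (n0 + n)) t.2.2,
      t.2.1 + beQ (slC D (wPl ℤ) l k0 (n0 + n)) (rr l k0 (n0 + n)) t.2.2,
      stQ (near l k0 (n0 + n)) (near l k0 (n0 + n + 1)) (slC D (wPl ℤ) l k0 (n0 + n))
        (rr l k0 (n0 + n)) t.1 t.2.1 t.2.2)

/-- **the activities of the plane along the trajectory**, from any step `n0` on -/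
theorem plane_flow {ν0 z0 : ℝ} {Q0 : Finset Fc → Ge (Fld ℤ)} {n0 : ℕ}
    (h0 : (sys D (wPl ℤ) ∅ l k0 K0).K n0 = stK ν0 z0 Q0) (n : ℕ) :
    (sys D (wPl ℤ) ∅ l k0 K0).K (n0 + n) = stK (traj D l k0 ν0 z0 Q0 n0 n).1
      (traj D l k0 ν0 z0 Q0 n0 n).2.1 (traj D l k0 ν0 z0 Q0 n0 n).2.2 := by
  induction n with
  | zero => exact h0
  | succ n ih => exact plane_step D l k0 K0 (n0 + n) _ _ _ ih

theorem baseG_zero (U : Finset Fc) : baseG 0 0 U = 0 := by
  by_cases h : ∃ f, U = {f}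
  · obtain ⟨f, rfl⟩ := h
    rw [baseG_single, zero_smul, zero_smul, add_zero]
  · push Not at h
    exact baseG_of_ne 0 0 h

theorem stK_zero (Q : Finset Fc → Ge (Fld ℤ)) : stK 0 0 Q = Q := by
  funext U
  rw [stK, baseG_zero, zero_add]

/-- the flow started at step `0` with `(0, 0, K0)` -/
theorem plane_flow_zero (n : ℕ) :
    (sys D (wPl ℤ) ∅ l k0 K0).K n = stK (traj D l k0 0 0 K0 0 n).1
      (traj D l k0 0 0 K0 0 n).2.1 (traj D l k0 0 0 K0 0 n).2.2 := by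
  have h := plane_flow D l k0 K0 (ν0 := 0) (z0 := 0) (Q0 := K0) (n0 := 0)
    (by rw [stK_zero, Sys.K_zero]; rfl) n
  rwa [Nat.zero_add] at h

/-- the trajectory may be restarted -/
theorem traj_add (ν0 z0 : ℝ) (Q0 : Finset Fc → Ge (Fld ℤ)) (n0 m n : ℕ) :
    traj D l k0 ν0 z0 Q0 n0 (m + n) = traj D l k0 (traj D l k0 ν0 z0 Q0 n0 m).1
      (traj D l k0 ν0 z0 Q0 n0 m).2.1 (traj D l k0 ν0 z0 Q0 n0 m).2.2 (n0 + m) n := by
  induction n with
  | zero => rfl
  | succ n ih =>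
    rw [← Nat.add_assoc, traj, traj, ih]
    simp only [Nat.add_assoc]

/-- all activities of the plane are `D4`-covariant -/
theorem plane_plSym (h0 : PlSym fun U => (K0 U : Gr (Fld ℤ))) (n : ℕ) :
    PlSym fun U => ((sys D (wPl ℤ) ∅ l k0 K0).K n U : Gr (Fld ℤ)) :=
  (plSys D l k0 K0).plSym_K h0 n

end Crest.Agent.R165.GSysx387
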