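import Crest.Agent.R165.RIface_891
import Crest.Agent.R165.L2_887
import Crest.Agent.R165.FRDLat_439
import Crest.Agent.R165.Cov2_359

/-!
# Row 165 (S0250): gap, inverse and covariance bounds of finite plus backgrounds

Input: the universal gap `GapU C` of block R (`RIface_891`).

* `gap_fin`: weights in `{±x_c, 0}`, zero off a box of radius `R`: `|φ| ≤ (C R + 3) |A φ|` for all
  finitely supported `φ`;
* `Lat_683` form: `gap_lat : |l| ≤ (C R + 3) |AopF w l|`, `abtw` (input of `FRDInf_439`);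
* `SF`: the inverse on finitely supported fields, `isNegInv`, `restS_one_eq`: the covariance of
  `FRDInf_439` at `p = 1` is `covS S`; `form_le`: `|⟨l, S m⟩| ≤ (C R + 3) |l| |m|`;
* domains: `PlusBox` of `wX (wDom T false) X` for `T` in a box.
-/

set_option autoImplicit false
set_option linter.unusedSimpArgs false

noncomputable section

namespace Crest.Agent.R165.GapFinx40

open Finset Crest.Agent.R165.Tr1x40 Crest.Agent.R165.Tr2x40 Crest.Agent.R165.RIfx891
  Crest.Agent.R165.L2x887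

/-! ### abstract form on `Tr1_40` fields -/

/-- all weights in `{±x_c, 0}`, zero at the faces off the box -/
structure PlusBox (w : Tr1x40.Fld) (x : Face) (R : ℝ) : Prop where
  sym : Sym w
  plus : IsPlus w
  out : ∀ f, f ∉ bx x R → ∀ h, w f h = 0

theorem PlusBox.mono {w : Tr1x40.Fld} {x : Face} {R R' : ℝ} (h : R ≤ R') (H : PlusBox w x R) :
    PlusBox w x R' := ⟨H.sym, H.plus, fun f hf => H.out f fun hc => hf (bx_mono x h hc)⟩

theorem xc_sq_ge : (1 : ℝ) / 9 ≤ Tr1x40.xc ^ 2 := by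
  rw [xc_sq']
  have : Real.sqrt 2 ≤ 17 / 12 := by
    rw [Real.sqrt_le_left (by norm_num)]; norm_num
  linarith

/-- **gap of a finite plus background** -/
theorem gap_fin {C R : ℝ} (hC : 0 ≤ C) (hR : 1 ≤ R) (hG : GapU C) {w : Tr1x40.Fld} {x : Face}
    (H : PlusBox w x R) {φ : Tr1x40.Fld} (hφ : FS φ) : nn φ ≤ (C * R + 3) * nn (A w φ) := by
  classical
  obtain ⟨K0, hK0⟩ := hφ
  set K1 := bx x R with hK1
  set K := K1 ∪ K0 with hK
  have hsub : K1 ⊆ K := subset_union_left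
  have hK' : ∀ f, f ∉ K → ∀ h, φ f h = 0 := fun f hf =>
    hK0 f fun hc => hf (mem_union_right _ hc)
  -- `A w φ` off the box
  have hAout : ∀ f, f ∉ K1 → ∀ h, A w φ f h = A0 (φ f) h := by
    intro f hf h
    simp only [A, Y, H.out f hf h]; ring
  have hKA : ∀ f, f ∉ K → ∀ h, A w φ f h = 0 := by
    intro f hf h
    rw [hAout f (fun hc => hf (hsub hc)) h]
    have e : φ f = 0 := funext fun k => hK' f hf k
    rw [e]; fin_cases h <;> simp [A0]
  -- the restriction to the box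
  set φ1 : Tr1x40.Fld := fun f h => if f ∈ K1 then φ f h else 0 with hφ1
  have hs1 : Supp (bx x R) φ1 := by
    intro f hf; funext h; simp only [hφ1, hK1, if_neg hf, Pi.zero_apply]
  have hin : ∀ f ∈ K1, φ1 f = φ f := by
    intro f hf; funext h; simp only [hφ1, if_pos hf]
  have hA1 : ∀ f ∈ K1, A w φ1 f = A w φ f := by
    intro f hf; funext h
    have e1 := hin f hf
    simp only [A, Y, e1]
    by_cases hn : nb f h ∈ K1
    · rw [hin _ hn]
    · have : w f h = 0 := by rw [← H.sym f h]; exact H.out _ hn _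
      rw [this]; ring
  have hA1' : ∀ f, f ∉ K1 → A w φ1 f = 0 := by
    intro f hf; funext h
    have e1 : φ1 f = 0 := hs1 f hf
    simp only [A, Y, e1, H.out f hf h, Pi.zero_apply]
    fin_cases h <;> simp [A0]
  have hgap := hG w x R hR H.sym (fun f _ h => H.plus f h) φ1 hs1
  have hgap2 : ∑ f ∈ K1, nsq (φ f) ≤ (C * R) ^ 2 * ∑ f ∈ K1, nsq (A w φ f) := by
    have e1 : ∑ f ∈ K1, nsq (φ f) = NB x R φ1 ^ 2 := by
      rw [NB_sq]; exact sum_congr rfl fun f hf => by rw [hin f hf]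
    have e2 : ∑ f ∈ K1, nsq (A w φ f) = NB x (R + 1) (A w φ1) ^ 2 := by
      rw [NB_sq, ← sum_subset (bx_mono x (show R ≤ R + 1 by linarith))]
      · exact sum_congr rfl fun f hf => by rw [hA1 f hf]
      · intro f _ hf
        rw [hA1' f hf]; simp [nsq]
    rw [e1, e2, ← mul_pow]
    exact pow_le_pow_left₀ (apply_nonneg _ _) hgap 2
  have hout2 : ∑ f ∈ K \ K1, nsq (φ f) ≤ 9 * ∑ f ∈ K \ K1, nsq (A w φ f) := by
    rw [mul_sum]
    refine sum_le_sum fun f hf => ?_
    have hf1 : f ∉ K1 := (mem_sdiff.1 hf).2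
    have e : A w φ f = A0 (φ f) := funext fun h => hAout f hf1 h
    rw [e]
    have h1 := nsq_A0_ge (φ f)
    have h2 := xc_sq_ge
    have h3 := nsq_nonneg (φ f)
    nlinarith
  have hn1 : nn φ ^ 2 = ∑ f ∈ K \ K1, nsq (φ f) + ∑ f ∈ K1, nsq (φ f) := by
    rw [nn_sq_eq hK', sum_sdiff hsub]
  have hn2 : nn (A w φ) ^ 2 = ∑ f ∈ K \ K1, nsq (A w φ f) + ∑ f ∈ K1, nsq (A w φ f) := by
    rw [nn_sq_eq hKA, sum_sdiff hsub]
  have p1 : 0 ≤ ∑ f ∈ K1, nsq (A w φ f) := sum_nonneg fun f _ => nsq_nonneg _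
  have p2 : 0 ≤ ∑ f ∈ K \ K1, nsq (A w φ f) := sum_nonneg fun f _ => nsq_nonneg _
  have hCR : 0 ≤ C * R := by positivity
  have key : nn φ ^ 2 ≤ ((C * R + 3) * nn (A w φ)) ^ 2 := by
    rw [mul_pow, hn1, hn2]
    nlinarith
  exact le_of_sq_le_sq key (mul_nonneg (by positivity) (nn_nonneg _))

/-! ### `Lat_683` form -/

section lat

open Crest.Agent.R165.Latx683 Crest.Agent.R165.GDefx387 Crest.Agent.R165.FRDAbsx439
  Crest.Agent.R165.FRDInfx439 Crest.Agent.R165.FRDLatx439 Crest.Agent.R165.Gr0x606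

/-- weights of a `Lat_683` background in `Tr1_40` form -/
def wF (w : BW ℤ) : Tr1x40.Fld := ofEN (yE w) (yN w)

/-- a function on half-edges in `Tr1_40` form -/
def toF (φ : HE ℤ → ℝ) : Tr1x40.Fld := fun f h => φ (f, h)

theorem A_toF (w : BW ℤ) (φ : HE ℤ → ℝ) (f : Face) (h : Fin 4) :
    A (wF w) (toF φ) f h = Aop w φ (f, h) := by
  fin_cases h
  · simp only [Fin.zero_eta, A_S, Aop_S, wF, ofEN, toF]
  · simp only [Fin.mk_one, A_E, Aop_E, wF, ofEN, toF]
  · simp only [Fin.reduceFinMk, A_N, Aop_N, wF, ofEN, toF]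
  · simp only [Fin.reduceFinMk, A_W, Aop_W, wF, ofEN, toF]

theorem A_toF' (w : BW ℤ) (φ : HE ℤ → ℝ) : A (wF w) (toF φ) = toF (Aop w φ) := by
  funext f h; rw [A_toF]; rfl

theorem sym_wF (w : BW ℤ) : Sym (wF w) := sym_ofEN _ _

theorem fs_toF (l : Latx683.Fld ℤ) : FS (toF (l : HE ℤ → ℝ)) := by
  classical
  refine ⟨l.support.image Prod.fst, fun f hf h => ?_⟩
  by_contra hc
  exact hf (mem_image.2 ⟨(f, h), Finsupp.mem_support_iff.2 hc, rfl⟩)

/-- the inner product of `L2_887` is the dot product of finitely supported fields -/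
theorem ip_toF (l m : Latx683.Fld ℤ) : ip (toF (l : HE ℤ → ℝ)) (toF (m : HE ℤ → ℝ)) = dotF (HE ℤ) l m := by
  classical
  set K : Finset Face := l.support.image Prod.fst with hK
  have h0 : ∀ f, f ∉ K → ∀ h, toF (l : HE ℤ → ℝ) f h = 0 := by
    intro f hf h
    by_contra hc
    exact hf (mem_image.2 ⟨(f, h), Finsupp.mem_support_iff.2 hc, rfl⟩)
  rw [ip_eq h0, dotF_eq_sum l m (K ×ˢ univ), sum_product]
  · rfl
  · intro h hh
    exact mem_product.2 ⟨mem_image.2 ⟨h, hh, rfl⟩, mem_univ _⟩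

theorem nn_toF_sq (l : Latx683.Fld ℤ) : nn (toF (l : HE ℤ → ℝ)) ^ 2 = dotF (HE ℤ) l l := by
  rw [nn_sq, ip_toF]

/-- **gap**, `Lat_683` form -/
theorem gap_lat {C R : ℝ} (hC : 0 ≤ C) (hR : 1 ≤ R) (hG : GapU C) {w : BW ℤ} {x : Face}
    (H : PlusBox (wF w) x R) (l : Latx683.Fld ℤ) :
    dotF (HE ℤ) l l ≤ (C * R + 3) ^ 2 * dotF (HE ℤ) (AopF w l) (AopF w l) := by
  have h1 := gap_fin hC hR hG H (fs_toF l)
  have h2 := pow_le_pow_left₀ (nn_nonneg _) h1 2
  rw [mul_pow, nn_toF_sq, A_toF', ← AopF_coe, nn_toF_sq] at h2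
  exact h2

theorem abs_le_one_of {w : BW ℤ} (hw : IsPlus (wF w)) (z : ℤ × ℤ) (j : Fin 2) : |w z j| ≤ 1 := by
  have hx : Tr1x40.xc ^ 2 ≤ 1 := by nlinarith [xc_pos, xc_lt_one]
  have key : ∀ y : ℝ, (y ^ 2 = Tr1x40.xc ^ 2 ∨ y = 0) → |y| ≤ 1 := by
    rintro y (h | h)
    · rw [← sq_le_one_iff_abs_le_one, h]; exact hx
    · rw [h]; simp
  apply key
  fin_cases j
  · have := hw z 0
    simpa [wF, ofEN, yN] using this
  · have := hw z 3
    simpa [wF, ofEN, yE] using this

/-- the two-sided bound required by `FRDInf_439` -/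
theorem abtw {C R : ℝ} (hC : 0 ≤ C) (hR : 1 ≤ R) (hG : GapU C) {w : BW ℤ} {x : Face}
    (H : PlusBox (wF w) x R) : ABtw (preF (HE ℤ)) (AopF w) (((C * R + 3)⁻¹) ^ 2) 16 := by
  intro l
  refine ⟨?_, (AopF_bdd w (abs_le_one_of H.plus) l).2⟩
  have h1 := gap_lat hC hR hG H l
  have h3 : 0 < C * R + 3 := by positivity
  rw [preF_ip, preF_ip, inv_pow, inv_mul_le_iff₀ (by positivity)]
  exact h1

/-! ### the inverse on finitely supported fields -/

/-- the linear map `l ↦ S l` on finitely supported fields, for a kernel with finite columns -/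
def SF (S : HE ℤ → HE ℤ → ℝ) (hf : ∀ k, (Function.support fun h => S h k).Finite) :
    Latx683.Fld ℤ →ₗ[ℝ] Latx683.Fld ℤ :=
  Finsupp.linearCombination ℝ fun k => Finsupp.ofSupportFinite (fun h => S h k) (hf k)

theorem SF_single (S : HE ℤ → HE ℤ → ℝ) (hf : ∀ k, (Function.support fun h => S h k).Finite) (k : HE ℤ) :
    SF S hf (Finsupp.single k 1) = Finsupp.ofSupportFinite (fun h => S h k) (hf k) := by
  rw [SF, Finsupp.linearCombination_single, one_smul]

theorem SF_apply (S : HE ℤ → HE ℤ → ℝ) (hf : ∀ k, (Function.support fun h => S h k).Finite)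
    (l : Latx683.Fld ℤ) (h : HE ℤ) : SF S hf l h = ∑ k ∈ l.support, l k * S h k := by
  rw [SF, Finsupp.linearCombination_apply, Finsupp.sum, Finsupp.finsetSum_apply]
  exact sum_congr rfl fun k _ => rfl

/-- `SF` is `-A⁻¹` -/
theorem isNegInv {w : BW ℤ} {S : HE ℤ → HE ℤ → ℝ} (hS : IsCov w S)
    (hf : ∀ k, (Function.support fun h => S h k).Finite)
    (hinj : ∀ l : Latx683.Fld ℤ, AopF w l = 0 → l = 0) : IsNegInv (AopF w) (SF S hf) := by
  have hr : ∀ l, AopF w (SF S hf l) = -l := by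
    intro l
    have e : (AopF w ∘ₗ SF S hf) = -LinearMap.id := by
      apply Finsupp.lhom_ext
      intro k c
      have ec : (Finsupp.single k c : Latx683.Fld ℤ) = c • Finsupp.single k 1 := by
        rw [Finsupp.smul_single, smul_eq_mul, mul_one]
      rw [ec, map_smul, map_smul]
      congr 1
      rw [LinearMap.comp_apply, SF_single, LinearMap.neg_apply, LinearMap.id_apply]
      ext h
      rw [AopF_coe, Finsupp.ofSupportFinite_coe, hS.inv h k, Finsupp.neg_apply, single_coe]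
    have := congrArg (fun T : Latx683.Fld ℤ →ₗ[ℝ] Latx683.Fld ℤ => T l) e
    simpa using this
  refine ⟨hr, fun l => ?_⟩
  have h1 : AopF w (SF S hf (AopF w l) + l) = 0 := by rw [map_add, hr]; abel
  have h2 := hinj _ h1
  exact eq_neg_of_add_eq_zero_left h2

theorem inj_of_gap {C R : ℝ} (hC : 0 ≤ C) (hR : 1 ≤ R) (hG : GapU C) {w : BW ℤ} {x : Face}
    (H : PlusBox (wF w) x R) (l : Latx683.Fld ℤ) (hl : AopF w l = 0) : l = 0 := by
  have h1 := gap_lat hC hR hG H l
  rw [hl] at h1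
  by_contra hne
  have h2 := (preF (HE ℤ)).pos l hne
  rw [preF_ip] at h2
  simp only [map_zero, mul_zero] at h1
  linarith

/-- `⟨l, S m⟩` is the bilinear form of the kernel -/
theorem dot_SF (S : HE ℤ → HE ℤ → ℝ) (hf : ∀ k, (Function.support fun h => S h k).Finite) (l m : Latx683.Fld ℤ) :
    dotF (HE ℤ) l (SF S hf m) = formS S l m := by
  rw [formS_apply, dotF_apply, Finsupp.sum]
  refine sum_congr rfl fun h _ => ?_
  rw [SF_apply, mul_sum]
  exact sum_congr rfl fun k _ => by ring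

/-- the full covariance of `FRDInf_439` is the covariance `covS S` -/
theorem restS_one_eq {w : BW ℤ} {S : HE ℤ → HE ℤ → ℝ} (hS : IsCov w S)
    (hf : ∀ k, (Function.support fun h => S h k).Finite) (hN : IsNegInv (AopF w) (SF S hf)) :
    restS (AopF_asy w) hN 1 = covS S hS.skew := by
  apply Cov.ext
  refine LinearMap.ext fun l => LinearMap.ext fun m => ?_
  rw [restS_apply, map_one, Module.End.one_apply, preF_ip, dot_SF]
  rfl

/-- **bound of the covariance**: `|⟨l, S m⟩| ≤ (C R + 3) |l| |m|` -/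
theorem form_le {C R : ℝ} (hC : 0 ≤ C) (hR : 1 ≤ R) (hG : GapU C) {w : BW ℤ} {x : Face}
    (H : PlusBox (wF w) x R) {S : HE ℤ → HE ℤ → ℝ} (hS : IsCov w S)
    (hf : ∀ k, (Function.support fun h => S h k).Finite) (l m : Latx683.Fld ℤ) :
    |formS S l m| ≤ (C * R + 3) * (Real.sqrt (dotF (HE ℤ) l l) * Real.sqrt (dotF (HE ℤ) m m)) := by
  have hN := isNegInv hS hf (inj_of_gap hC hR hG H)
  have h1 := gap_lat hC hR hG H (SF S hf m)
  rw [hN.right] at h1
  simp only [map_neg, LinearMap.neg_apply, neg_neg] at h1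
  have h2 := ip_abs_le (preF (HE ℤ)) l (SF S hf m)
  rw [preF_ip, preF_ip, preF_ip, dot_SF] at h2
  have h3 : Real.sqrt (dotF (HE ℤ) (SF S hf m) (SF S hf m))
      ≤ (C * R + 3) * Real.sqrt (dotF (HE ℤ) m m) := by
    have h4 : 0 ≤ C * R + 3 := by positivity
    rw [← Real.sqrt_sq h4, ← Real.sqrt_mul (by positivity)]
    exact Real.sqrt_le_sqrt h1
  calc |formS S l m| ≤ Real.sqrt (dotF (HE ℤ) l l) *
        Real.sqrt (dotF (HE ℤ) (SF S hf m) (SF S hf m)) := h2
    _ ≤ Real.sqrt (dotF (HE ℤ) l l) * ((C * R + 3) * Real.sqrt (dotF (HE ℤ) m m)) :=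
        mul_le_mul_of_nonneg_left h3 (Real.sqrt_nonneg _)
    _ = _ := by ring

/-! ### backgrounds of domains -/

/-- a background with values in `{±x_c, 0}` supported in a box -/
theorem plusBox_of {w : BW ℤ} (h1 : ∀ z j, w z j ^ 2 = Tr1x40.xc ^ 2 ∨ w z j = 0) {x : Face} {ρ : ℝ}
    (h2 : ∀ z j, w z j ≠ 0 → |(z.1 : ℝ) - x.1| ≤ ρ ∧ |(z.2 : ℝ) - x.2| ≤ ρ) :
    PlusBox (wF w) x (ρ + 1) := by
  refine ⟨sym_wF w, ?_, ?_⟩
  · intro f h
    fin_cases h
    · exact h1 _ 0
    · exact h1 _ 1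
    · exact h1 _ 0
    · exact h1 _ 1
  · intro f hf h
    by_contra hne
    apply hf
    rw [mem_bx_real]
    obtain ⟨i, j⟩ := f
    have t1 : ∀ a b : ℝ, |a + 1 - b| ≤ ρ → |a - b| ≤ ρ + 1 := by
      intro a b hab
      rw [abs_le] at hab ⊢
      constructor <;> linarith [hab.1, hab.2]
    fin_cases h
    · have hne' : w (i, j) 0 ≠ 0 := by
        intro h0; apply hne
        simp only [wF, ofEN, yN, Fin.zero_eta, sub_add_cancel]; exact h0
      have := h2 (i, j) 0 hne'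
      exact ⟨by linarith [this.1], by linarith [this.2]⟩
    · have := h2 _ 1 (show w (i + 1, j) 1 ≠ 0 from hne)
      simp only [Int.cast_add, Int.cast_one] at this
      exact ⟨t1 _ _ this.1, by linarith [this.2]⟩
    · have := h2 _ 0 (show w (i, j + 1) 0 ≠ 0 from hne)
      simp only [Int.cast_add, Int.cast_one] at this
      exact ⟨by linarith [this.1], t1 _ _ this.2⟩
    · have hne' : w (i, j) 1 ≠ 0 := by
        intro h0; apply hne
        simp only [wF, ofEN, yE, Fin.reduceFinMk, sub_add_cancel]; exact h0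
      have := h2 (i, j) 1 hne'
      exact ⟨by linarith [this.1], by linarith [this.2]⟩

theorem ray_sq {n : ℕ} (X : Fin n → ℤ × ℤ) (z : ℤ × ℤ) (j : Fin 2) : ray X z j ^ 2 = 1 := by
  unfold ray
  rw [← prod_pow]
  refine prod_eq_one fun i _ => ?_
  split_ifs <;> norm_num

open Crest.ProbabilityR.IsingModel in
/-- the plus background of a site set contained in a box -/
theorem plusBox_dom {n : ℕ} (X : Fin n → ℤ × ℤ) {T : Set (ℤ × ℤ)} {x : Face} {ρ : ℝ}
    (hT : ∀ z ∈ T, |(z.1 : ℝ) - x.1| ≤ ρ ∧ |(z.2 : ℝ) - x.2| ≤ ρ) :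
    PlusBox (wF (wX (wDom T false) X)) x (ρ + 2) := by
  classical
  have e : ρ + 2 = (ρ + 1) + 1 := by ring
  rw [e]
  apply plusBox_of
  · intro z j
    by_cases h : z ∈ T ∨ z + unitVec j ∈ T
    · left
      simp only [wX, wDom, Bool.false_eq_true, if_false, if_pos h]
      rw [mul_pow, ray_sq, one_mul]; rfl
    · right
      simp only [wX, wDom, Bool.false_eq_true, if_false, if_neg h, mul_zero]
  · intro z j hne
    have h : z ∈ T ∨ z + unitVec j ∈ T := by
      by_contra h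
      apply hne
      simp only [wX, wDom, Bool.false_eq_true, if_false, if_neg h, mul_zero]
    rcases h with h | h
    · have := hT z h
      exact ⟨by linarith [this.1], by linarith [this.2]⟩
    · have := hT _ h
      have t1 : ∀ a b : ℝ, |a + 1 - b| ≤ ρ → |a - b| ≤ ρ + 1 := by
        intro a b hab
        rw [abs_le] at hab ⊢
        constructor <;> linarith [hab.1, hab.2]
      fin_cases j
      · simp only [unitVec, Fin.zero_eta, if_true, Prod.fst_add, Prod.snd_add, Int.cast_add,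
          Int.cast_one, Int.cast_zero, add_zero] at this
        exact ⟨t1 _ _ this.1, by linarith [this.2]⟩
      · simp only [unitVec, Fin.mk_one, one_ne_zero, if_false, Prod.fst_add, Prod.snd_add,
          Int.cast_add, Int.cast_one, Int.cast_zero, add_zero] at this
        exact ⟨by linarith [this.1], t1 _ _ this.2⟩

open Crest.ProbabilityR.IsingModel in
/-- sites of a bounded domain -/
theorem sites_le {D : Set ℂ} {B a : ℝ} (hD : ∀ z ∈ D, ‖z‖ ≤ B) (ha : 0 < a) :
    ∀ z ∈ domainSites D a, |(z.1 : ℝ) - ((0, 0) : Face).1| ≤ B / a ∧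
      |(z.2 : ℝ) - ((0, 0) : Face).2| ≤ B / a := by
  intro z hz
  have h1 : ‖meshPoint a z‖ ≤ B := hD _ hz
  have h2 : |a * z.1| ≤ B := (Complex.abs_re_le_norm _).trans h1
  have h3 : |a * z.2| ≤ B := (Complex.abs_im_le_norm _).trans h1
  rw [abs_mul, abs_of_pos ha] at h2 h3
  simp only [Int.cast_zero, sub_zero]
  exact ⟨by rw [le_div_iff₀ ha]; linarith, by rw [le_div_iff₀ ha]; linarith⟩

open Crest.ProbabilityR.IsingModel in
theorem plusBox_sites {n : ℕ} (X : Fin n → ℤ × ℤ) {D : Set ℂ} {B a : ℝ} (hD : ∀ z ∈ D, ‖z‖ ≤ B)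
    (ha : 0 < a) : PlusBox (wF (wX (wDom (domainSites D a) false) X)) (0, 0) (B / a + 2) :=
  plusBox_dom X (sites_le hD ha)

/-- everything for a finite plus background: existence, uniqueness, finite columns, two-sided bound
of `A`, inverse, identification of the covariance, bound of the covariance; `m⁻¹ = C (ρ + 2) + 3` -/
theorem dom_all {C : ℝ} (hC : 0 ≤ C) (hG : GapU C) {n : ℕ} (X : Fin n → ℤ × ℤ)
    (T : Finset (ℤ × ℤ)) {x : Face} {ρ : ℝ} (hρ : 0 ≤ ρ)
    (hT : ∀ z ∈ T, |(z.1 : ℝ) - x.1| ≤ ρ ∧ |(z.2 : ℝ) - x.2| ≤ ρ) :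
    ∃ (S : HE ℤ → HE ℤ → ℝ) (hS : IsCov (wX (wDom (T : Set (ℤ × ℤ)) false) X) S)
      (hf : ∀ k, (Function.support fun h => S h k).Finite)
      (hN : IsNegInv (AopF (wX (wDom (T : Set (ℤ × ℤ)) false) X)) (SF S hf)),
      (∀ S', IsCov (wX (wDom (T : Set (ℤ × ℤ)) false) X) S' → S' = S) ∧
      ABtw (preF (HE ℤ)) (AopF (wX (wDom (T : Set (ℤ × ℤ)) false) X))
        (((C * (ρ + 2) + 3)⁻¹) ^ 2) 16 ∧
      restS (AopF_asy _) hN 1 = covS S hS.skew ∧
      ∀ l m, |formS S l m| ≤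
        (C * (ρ + 2) + 3) * (Real.sqrt (dotF (HE ℤ) l l) * Real.sqrt (dotF (HE ℤ) m m)) := by
  obtain ⟨S, hS, hF, hu⟩ := Covx359.exists_isCov_plus T X
  have H : PlusBox (wF (wX (wDom (T : Set (ℤ × ℤ)) false) X)) x (ρ + 2) := plusBox_dom X hT
  have hR : (1 : ℝ) ≤ ρ + 2 := by linarith
  have hf : ∀ k, (Function.support fun h => S h k).Finite := hF.fin
  have hN := isNegInv hS hf (inj_of_gap hC hR hG H)
  exact ⟨S, hS, hf, hN, hu, abtw hC hR hG H, restS_one_eq hS hf hN,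
    fun l m => form_le hC hR hG H hS hf l m⟩

/-- `GDef_387.l2` of a finitely supported field -/
theorem l2_eq {G : Type} [CommRing G] (l : Latx683.Fld G) :
    l2 (l : HE G → ℝ) = Real.sqrt (dotF (HE G) l l) := by
  classical
  unfold l2
  congr 1
  rw [dotF_eq_sum l l l.support (Finset.Subset.refl _), tsum_eq_sum (s := l.support)]
  · exact Finset.sum_congr rfl fun i _ => by ring
  · intro i hi
    rw [Finsupp.notMem_support_iff.mp hi]; norm_num

/-- (G1) in the norm of `GDef_387` -/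
theorem gap_l2 {C R : ℝ} (hC : 0 ≤ C) (hR : 1 ≤ R) (hG : GapU C) {w : BW ℤ} {x : Face}
    (H : PlusBox (wF w) x R) (l : Latx683.Fld ℤ) :
    l2 (l : HE ℤ → ℝ) ≤ (C * R + 3) * l2 (Aop w (l : HE ℤ → ℝ)) := by
  have h1 := Real.sqrt_le_sqrt (gap_lat hC hR hG H l)
  have h4 : 0 ≤ C * R + 3 := by positivity
  rw [Real.sqrt_mul (by positivity), Real.sqrt_sq h4] at h1
  rw [← AopF_coe, l2_eq, l2_eq]
  exact h1

end lat

end Crest.Agent.R165.GapFinx40
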