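import Mathlib

/-!
# Row 165, block GEO (helper65), file A: quantitative facts about a `C²` regular simple closed curve

`C2Curve γ` packages the hypotheses of `IsC2JordanDomain`.  Main results (all constants depend on
`γ` only):

* `exists_speed`        : `c ≤ ‖γ'‖ ≤ C`;
* `exists_taylor`       : `‖γ s - γ t - (s-t) γ' t‖ ≤ C |s-t|²`, `‖γ' s - γ' t‖ ≤ C |s-t|`;
* `exists_chord_arc`    : `κ |s-t| ≤ ‖γ s - γ t‖` for `|s-t| ≤ 1/2`;
* `exists_reach`        : `|Im (conj (γ' t) (γ s - γ t))| ≤ K ‖γ' t‖ ‖γ s - γ t‖²` for all `s t`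
                          (positive reach);
* `ball_disj`           : the open balls of radius `≤ 1/(2K)` touching the curve do not meet it.
-/

set_option autoImplicit false

open Set Topology Filter Metric

namespace Crest.Agent.R165.GeoAx65

/-- the curves of `IsC2JordanDomain` -/
structure C2Curve (γ : ℝ → ℂ) : Prop where
  smooth : ContDiff ℝ 2 γ
  per : Function.Periodic γ 1
  inj : Set.InjOn γ (Set.Ico 0 1)
  reg : ∀ t : ℝ, deriv γ t ≠ 0

namespace C2Curve

variable {γ : ℝ → ℂ}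

theorem cont (h : C2Curve γ) : Continuous γ := h.smooth.continuous

theorem diff (h : C2Curve γ) : Differentiable ℝ γ := h.smooth.differentiable (by norm_num)

theorem hasDeriv (h : C2Curve γ) (t : ℝ) : HasDerivAt γ (deriv γ t) t := (h.diff t).hasDerivAt

theorem smooth_deriv (h : C2Curve γ) : ContDiff ℝ 1 (deriv γ) := by
  have h1 : ContDiff ℝ (1 + 1) γ := by
    have : (1 + 1 : WithTop ℕ∞) = 2 := by norm_num
    rw [this]; exact h.smooth
  exact ((contDiff_succ_iff_deriv (n := 1)).1 h1).2.2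

theorem cont_deriv (h : C2Curve γ) : Continuous (deriv γ) := h.smooth_deriv.continuous

theorem diff_deriv (h : C2Curve γ) : Differentiable ℝ (deriv γ) :=
  h.smooth_deriv.differentiable (by norm_num)

theorem cont_deriv2 (h : C2Curve γ) : Continuous (deriv (deriv γ)) := by
  have := h.smooth_deriv
  exact (contDiff_one_iff_deriv.1 this).2

theorem per_deriv (h : C2Curve γ) : Function.Periodic (deriv γ) 1 := by
  intro t
  have : (fun x => γ (x + 1)) = γ := funext fun x => h.per x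
  have h2 := deriv_comp_add_const γ 1 t
  rw [this] at h2
  exact h2.symm

theorem per_deriv2 (h : C2Curve γ) : Function.Periodic (deriv (deriv γ)) 1 := by
  intro t
  have : (fun x => deriv γ (x + 1)) = deriv γ := funext fun x => h.per_deriv x
  have h2 := deriv_comp_add_const (deriv γ) 1 t
  rw [this] at h2
  exact h2.symm

/-- a continuous 1-periodic real function is bounded above -/
theorem bdd_of_per {F : ℝ → ℝ} (hF : Continuous F) (hp : Function.Periodic F 1) :
    ∃ C : ℝ, ∀ t, F t ≤ C := by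
  obtain ⟨x, -, hx⟩ := isCompact_Icc.exists_isMaxOn (nonempty_Icc.2 (zero_le_one (α := ℝ)))
    hF.continuousOn
  refine ⟨F x, fun t => ?_⟩
  obtain ⟨y, hy, hyt⟩ := hp.exists_mem_Ico₀ one_pos t
  rw [hyt]
  exact hx ⟨hy.1, hy.2.le⟩

/-- a continuous 1-periodic real positive function is bounded below by a positive constant -/
theorem pos_of_per {F : ℝ → ℝ} (hF : Continuous F) (hp : Function.Periodic F 1)
    (h0 : ∀ t, 0 < F t) : ∃ c : ℝ, 0 < c ∧ ∀ t, c ≤ F t := by
  obtain ⟨x, -, hx⟩ := isCompact_Icc.exists_isMinOn (nonempty_Icc.2 (zero_le_one (α := ℝ)))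
    hF.continuousOn
  refine ⟨F x, h0 x, fun t => ?_⟩
  obtain ⟨y, hy, hyt⟩ := hp.exists_mem_Ico₀ one_pos t
  rw [hyt]
  exact hx ⟨hy.1, hy.2.le⟩

theorem per_norm_deriv (h : C2Curve γ) : Function.Periodic (fun t => ‖deriv γ t‖) 1 := fun t => by
  show ‖deriv γ (t + 1)‖ = ‖deriv γ t‖
  rw [h.per_deriv t]

theorem per_norm_deriv2 (h : C2Curve γ) : Function.Periodic (fun t => ‖deriv (deriv γ) t‖) 1 :=
  fun t => by
  show ‖deriv (deriv γ) (t + 1)‖ = ‖deriv (deriv γ) t‖
  rw [h.per_deriv2 t]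

theorem exists_speed (h : C2Curve γ) :
    ∃ c C : ℝ, 0 < c ∧ 0 < C ∧ (∀ t, c ≤ ‖deriv γ t‖) ∧ (∀ t, ‖deriv γ t‖ ≤ C) ∧
      ∀ t, ‖deriv (deriv γ) t‖ ≤ C := by
  obtain ⟨c, hc0, hc⟩ := pos_of_per (F := fun t => ‖deriv γ t‖) h.cont_deriv.norm
    h.per_norm_deriv (fun t => norm_pos_iff.2 (h.reg t))
  obtain ⟨C1, hC1⟩ := bdd_of_per (F := fun t => ‖deriv γ t‖) h.cont_deriv.norm h.per_norm_deriv
  obtain ⟨C2, hC2⟩ := bdd_of_per (F := fun t => ‖deriv (deriv γ) t‖) h.cont_deriv2.norm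
    h.per_norm_deriv2
  refine ⟨c, max C1 C2, hc0, ?_, hc, fun t => (hC1 t).trans (le_max_left _ _),
    fun t => (hC2 t).trans (le_max_right _ _)⟩
  exact (hc0.trans_le ((hc 0).trans (hC1 0))).trans_le (le_max_left _ _)

/-- `γ'` is Lipschitz -/
theorem deriv_lip (h : C2Curve γ) {C : ℝ} (hC : ∀ t, ‖deriv (deriv γ) t‖ ≤ C) (s t : ℝ) :
    ‖deriv γ s - deriv γ t‖ ≤ C * |s - t| := by
  have := Convex.norm_image_sub_le_of_norm_deriv_le (f := deriv γ) (s := univ) (x := t) (y := s)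
    (C := C) (fun x _ => h.diff_deriv x) (fun x _ => hC x) convex_univ (mem_univ _) (mem_univ _)
  simpa [Real.norm_eq_abs] using this

/-- second order Taylor bound -/
theorem taylor2 (h : C2Curve γ) {C : ℝ} (hC : ∀ t, ‖deriv (deriv γ) t‖ ≤ C) (s t : ℝ) :
    ‖γ s - γ t - (s - t : ℝ) • deriv γ t‖ ≤ C * |s - t| ^ 2 := by
  set g : ℝ → ℂ := fun x => γ x - (x - t : ℝ) • deriv γ t with hg
  have hgd : ∀ x, HasDerivAt g (deriv γ x - deriv γ t) x := fun x => by
    have h1 : HasDerivAt (fun x : ℝ => (x - t : ℝ) • deriv γ t) ((1 : ℝ) • deriv γ t) x :=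
      ((hasDerivAt_id x).sub_const t).smul_const (deriv γ t)
    rw [one_smul] at h1
    exact (h.hasDeriv x).sub h1
  have hC0 : 0 ≤ C := (norm_nonneg _).trans (hC 0)
  have hb : ∀ x ∈ uIcc t s, ‖deriv γ x - deriv γ t‖ ≤ C * |s - t| := fun x hx => by
    refine (h.deriv_lip hC x t).trans (mul_le_mul_of_nonneg_left ?_ hC0)
    exact abs_sub_left_of_mem_uIcc hx
  have h2 := Convex.norm_image_sub_le_of_norm_hasDerivWithin_le (f := g)
    (f' := fun x => deriv γ x - deriv γ t) (s := uIcc t s) (x := t) (y := s)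
    (C := C * |s - t|) (fun x _ => (hgd x).hasDerivWithinAt) hb (convex_uIcc t s)
    left_mem_uIcc right_mem_uIcc
  have h3 : g s - g t = γ s - γ t - (s - t : ℝ) • deriv γ t := by
    simp [hg]; ring
  rw [h3, Real.norm_eq_abs] at h2
  calc _ ≤ C * |s - t| * |s - t| := h2
    _ = C * |s - t| ^ 2 := by ring

/-- injectivity modulo `1` -/
theorem inj_mod (h : C2Curve γ) {s t : ℝ} (e : γ s = γ t) : ∃ k : ℤ, s = t + k := by
  have h0 : ∀ u : ℝ, γ (Int.fract u) = γ u := fun u => by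
    have := h.per.sub_int_mul_eq (x := u) ⌊u⌋
    rwa [mul_one, Int.self_sub_floor] at this
  have h1 := h0 s
  have h2 := h0 t
  have h3 : Int.fract s = Int.fract t := h.inj ⟨Int.fract_nonneg s, Int.fract_lt_one s⟩
    ⟨Int.fract_nonneg t, Int.fract_lt_one t⟩ (by rw [h1, h2, e])
  refine ⟨⌊s⌋ - ⌊t⌋, ?_⟩
  have := Int.floor_add_fract s
  have := Int.floor_add_fract t
  push_cast
  linarith

/-- chord-arc estimate -/
theorem exists_chord_arc (h : C2Curve γ) :
    ∃ κ : ℝ, 0 < κ ∧ ∀ s t : ℝ, |s - t| ≤ 1 / 2 → κ * |s - t| ≤ ‖γ s - γ t‖ := by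
  obtain ⟨c, C, hc0, hC0, hc, -, hC⟩ := h.exists_speed
  set δ : ℝ := min (1 / 2) (c / (2 * C)) with hδ
  have hδ0 : 0 < δ := lt_min (by norm_num) (by positivity)
  -- near the diagonal
  have hnear : ∀ s t : ℝ, |s - t| ≤ δ → c / 2 * |s - t| ≤ ‖γ s - γ t‖ := fun s t hst => by
    have h1 := h.taylor2 hC s t
    have h2 : ‖(s - t : ℝ) • deriv γ t‖ = |s - t| * ‖deriv γ t‖ := by
      rw [norm_smul, Real.norm_eq_abs]
    have h3 : ‖(s - t : ℝ) • deriv γ t‖ ≤ ‖γ s - γ t‖ + ‖γ s - γ t - (s - t : ℝ) • deriv γ t‖ := by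
      have := norm_sub_le (γ s - γ t) (γ s - γ t - (s - t : ℝ) • deriv γ t)
      simpa using this
    have h4 : C * |s - t| ^ 2 ≤ c / 2 * |s - t| := by
      have h5 : C * |s - t| ≤ c / 2 := by
        have : |s - t| ≤ c / (2 * C) := hst.trans (min_le_right _ _)
        calc C * |s - t| ≤ C * (c / (2 * C)) := mul_le_mul_of_nonneg_left this hC0.le
          _ = c / 2 := by field_simp
      calc C * |s - t| ^ 2 = (C * |s - t|) * |s - t| := by ring
        _ ≤ c / 2 * |s - t| := mul_le_mul_of_nonneg_right h5 (abs_nonneg _)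
    have h6 : c * |s - t| ≤ |s - t| * ‖deriv γ t‖ := by
      rw [mul_comm]; exact mul_le_mul_of_nonneg_left (hc t) (abs_nonneg _)
    nlinarith
  -- far from the diagonal, by compactness
  set P : Set (ℝ × ℝ) := {p | p.2 ∈ Icc (0:ℝ) 1 ∧ δ ≤ |p.1 - p.2| ∧ |p.1 - p.2| ≤ 1 / 2} with hP
  have hPc : IsCompact P := by
    have h1 : IsCompact (Icc (-1:ℝ) 2 ×ˢ Icc (0:ℝ) 1) := isCompact_Icc.prod isCompact_Icc
    refine h1.of_isClosed_subset ?_ ?_
    · refine (isClosed_Icc.preimage continuous_snd).inter ?_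
      have hc1 : Continuous (fun p : ℝ × ℝ => |p.1 - p.2|) :=
        (continuous_fst.sub continuous_snd).abs
      exact (isClosed_le continuous_const hc1).inter (isClosed_le hc1 continuous_const)
    · rintro ⟨s, t⟩ ⟨ht, -, hst⟩
      have := abs_le.1 hst
      simp only [mem_Icc] at ht
      exact ⟨⟨by linarith [this.1], by linarith [this.2]⟩, ht⟩
  have hcont : Continuous (fun p : ℝ × ℝ => ‖γ p.1 - γ p.2‖) :=
    ((h.cont.comp continuous_fst).sub (h.cont.comp continuous_snd)).norm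
  obtain ⟨m, hm0, hm⟩ : ∃ m : ℝ, 0 < m ∧ ∀ p ∈ P, m ≤ ‖γ p.1 - γ p.2‖ := by
    rcases P.eq_empty_or_nonempty with he | hne
    · exact ⟨1, one_pos, fun p hp => by rw [he] at hp; exact absurd hp (notMem_empty _)⟩
    · obtain ⟨p, hp, hmin⟩ := hPc.exists_isMinOn hne hcont.continuousOn
      refine ⟨‖γ p.1 - γ p.2‖, ?_, fun q hq => hmin hq⟩
      rw [norm_pos_iff, sub_ne_zero]
      intro e
      obtain ⟨k, hk⟩ := h.inj_mod e
      have h1 : p.1 - p.2 = k := by linarith
      have h2 := hp.2.1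
      have h3 := hp.2.2
      rw [h1] at h2 h3
      have h4 : k = 0 := by
        by_contra hk0
        have : (1:ℝ) ≤ |(k:ℝ)| := by
          have : (1:ℤ) ≤ |k| := Int.one_le_abs hk0
          exact_mod_cast this
        linarith
      rw [h4] at h2
      simp at h2
      linarith
  refine ⟨min (c / 2) (2 * m), lt_min (by positivity) (by positivity), fun s t hst => ?_⟩
  rcases le_total |s - t| δ with h1 | h1
  · exact (mul_le_mul_of_nonneg_right (min_le_left _ _) (abs_nonneg _)).trans (hnear s t h1)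
  · -- shift both parameters into the compact set
    set k : ℤ := ⌊t⌋ with hk
    have e1 : γ (s - k) = γ s := by
      have := h.per.sub_int_mul_eq (x := s) k
      simpa using this
    have e2 : γ (t - k) = γ t := by
      have := h.per.sub_int_mul_eq (x := t) k
      simpa using this
    have h2 : ((s - k, t - k) : ℝ × ℝ) ∈ P := by
      refine ⟨⟨?_, ?_⟩, ?_, ?_⟩
      · show (0:ℝ) ≤ t - k
        have := Int.floor_le t; linarith
      · show t - k ≤ (1:ℝ)
        have := Int.lt_floor_add_one t; linarith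
      · show δ ≤ |s - k - (t - k)|
        rwa [sub_sub_sub_cancel_right]
      · show |s - k - (t - k)| ≤ 1 / 2
        rwa [sub_sub_sub_cancel_right]
    have h3 := hm _ h2
    simp only [e1, e2] at h3
    calc min (c / 2) (2 * m) * |s - t| ≤ 2 * m * |s - t| :=
          mul_le_mul_of_nonneg_right (min_le_right _ _) (abs_nonneg _)
      _ ≤ 2 * m * (1 / 2) := mul_le_mul_of_nonneg_left hst (by positivity)
      _ = m := by ring
      _ ≤ _ := h3

/-- every parameter can be shifted into the window of half length `1/2` around another one -/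
theorem exists_shift (h : C2Curve γ) (s t : ℝ) : ∃ s' : ℝ, γ s' = γ s ∧ |s' - t| ≤ 1 / 2 := by
  refine ⟨s - round (s - t), ?_, ?_⟩
  · have := h.per.sub_int_mul_eq (x := s) (round (s - t))
    simpa using this
  · have := abs_sub_round (s - t)
    rwa [show s - (round (s - t) : ℝ) - t = s - t - round (s - t) by ring]

/-- the linear functional `z ↦ ⟪z, ν t⟫` (signed distance to the tangent line) times the speed -/
noncomputable def tanDev (γ : ℝ → ℂ) (t : ℝ) (z : ℂ) : ℝ := ((starRingEnd ℂ) (deriv γ t) * z).im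

/-- positive reach -/
theorem exists_reach (h : C2Curve γ) :
    ∃ K : ℝ, 0 < K ∧ ∀ s t : ℝ,
      |((starRingEnd ℂ) (deriv γ t) * (γ s - γ t)).im| ≤ K * ‖deriv γ t‖ * ‖γ s - γ t‖ ^ 2 := by
  obtain ⟨c, C, hc0, hC0, hc, -, hC⟩ := h.exists_speed
  obtain ⟨κ, hκ0, hκ⟩ := h.exists_chord_arc
  refine ⟨C / κ ^ 2, by positivity, fun s t => ?_⟩
  obtain ⟨s', hs', hst⟩ := h.exists_shift s t
  rw [← hs']
  have h1 := h.taylor2 hC s' t
  have h2 := hκ s' t hst
  have h3 : ((starRingEnd ℂ) (deriv γ t) * (γ s' - γ t)).im =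
      ((starRingEnd ℂ) (deriv γ t) * (γ s' - γ t - (s' - t : ℝ) • deriv γ t)).im := by
    have : (starRingEnd ℂ) (deriv γ t) * (γ s' - γ t - (s' - t : ℝ) • deriv γ t) =
        (starRingEnd ℂ) (deriv γ t) * (γ s' - γ t) -
          (((s' - t) * Complex.normSq (deriv γ t) : ℝ) : ℂ) := by
      rw [Complex.real_smul, mul_sub, ← mul_assoc, mul_comm _ ((s' - t : ℝ) : ℂ), mul_assoc,
        ← Complex.normSq_eq_conj_mul_self]
      push_cast
      ring
    rw [this, Complex.sub_im, Complex.ofReal_im, sub_zero]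
  rw [h3]
  calc |((starRingEnd ℂ) (deriv γ t) * (γ s' - γ t - (s' - t : ℝ) • deriv γ t)).im|
      ≤ ‖(starRingEnd ℂ) (deriv γ t) * (γ s' - γ t - (s' - t : ℝ) • deriv γ t)‖ :=
        Complex.abs_im_le_norm _
    _ = ‖deriv γ t‖ * ‖γ s' - γ t - (s' - t : ℝ) • deriv γ t‖ := by
        rw [norm_mul, RCLike.norm_conj]
    _ ≤ ‖deriv γ t‖ * (C * |s' - t| ^ 2) := mul_le_mul_of_nonneg_left h1 (norm_nonneg _)
    _ = C / κ ^ 2 * ‖deriv γ t‖ * (κ * |s' - t|) ^ 2 := by field_simp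
    _ ≤ C / κ ^ 2 * ‖deriv γ t‖ * ‖γ s' - γ t‖ ^ 2 := by
        refine mul_le_mul_of_nonneg_left ?_ (by positivity)
        exact pow_le_pow_left₀ (by positivity) h2 2

/-- the unit normal `i γ'/|γ'|` -/
noncomputable def nrm (γ : ℝ → ℂ) (t : ℝ) : ℂ := Complex.I * deriv γ t / ‖deriv γ t‖

theorem norm_nrm (h : C2Curve γ) (t : ℝ) : ‖nrm γ t‖ = 1 := by
  unfold nrm
  rw [norm_div, norm_mul, Complex.norm_I, one_mul, Complex.norm_real, norm_norm,
    div_self (norm_ne_zero_iff.2 (h.reg t))]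

/-- open balls tangent to the curve with radius below the reach do not meet it -/
theorem ball_disj (h : C2Curve γ) {K : ℝ} (hK0 : 0 < K)
    (hK : ∀ s t : ℝ, |((starRingEnd ℂ) (deriv γ t) * (γ s - γ t)).im| ≤
      K * ‖deriv γ t‖ * ‖γ s - γ t‖ ^ 2) {r : ℝ} (hr : |r| ≤ 1 / (2 * K)) (s t : ℝ) :
    γ s ∉ ball (γ t + r * nrm γ t) |r| := by
  intro hmem
  rw [mem_ball, Complex.dist_eq] at hmem
  set w : ℂ := γ s - γ t with hw
  have hn : 0 < ‖deriv γ t‖ := norm_pos_iff.2 (h.reg t)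
  have e1 : γ s - (γ t + r * nrm γ t) = w - r * nrm γ t := by rw [hw]; ring
  rw [e1] at hmem
  have h0 : 0 < |r| := (norm_nonneg _).trans_lt hmem
  -- |w - r ν|² = |w|² - 2 r ⟨w,ν⟩ + r²
  have e2 : ‖w - r * nrm γ t‖ ^ 2 = ‖w‖ ^ 2 -
      2 * r * (((starRingEnd ℂ) (deriv γ t) * w).im / ‖deriv γ t‖) + r ^ 2 := by
    have h1 : ‖w - r * nrm γ t‖ ^ 2 = Complex.normSq (w - r * nrm γ t) :=
      (Complex.normSq_eq_norm_sq _).symm
    have h2 : ‖w‖ ^ 2 = Complex.normSq w := (Complex.normSq_eq_norm_sq _).symm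
    have h3 : Complex.normSq (nrm γ t) = 1 := by
      rw [Complex.normSq_eq_norm_sq, h.norm_nrm t, one_pow]
    rw [h1, h2, Complex.normSq_sub, Complex.normSq_mul, h3, Complex.normSq_ofReal]
    have h4 : (w * (starRingEnd ℂ) (r * nrm γ t)).re =
        r * (((starRingEnd ℂ) (deriv γ t) * w).im / ‖deriv γ t‖) := by
      have : w * (starRingEnd ℂ) (r * nrm γ t) =
          ((r / ‖deriv γ t‖ : ℝ) : ℂ) * (-Complex.I * ((starRingEnd ℂ) (deriv γ t) * w)) := by
        unfold nrm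
        rw [map_mul, map_div₀, map_mul, Complex.conj_ofReal, Complex.conj_ofReal, Complex.conj_I]
        push_cast
        ring
      rw [this, Complex.re_ofReal_mul, neg_mul, Complex.neg_re, Complex.I_mul_re]
      ring
    rw [h4]
    ring
  have h5 : ‖w - r * nrm γ t‖ ^ 2 < r ^ 2 := by
    rw [← sq_abs r]
    exact pow_lt_pow_left₀ hmem (norm_nonneg _) two_ne_zero
  rw [e2] at h5
  have h6 := hK s t
  rw [← hw] at h6
  set D : ℝ := ((starRingEnd ℂ) (deriv γ t) * w).im with hD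
  have h7 : |2 * r * (D / ‖deriv γ t‖)| ≤ ‖w‖ ^ 2 := by
    rw [abs_mul, abs_mul, abs_div, abs_norm, abs_two]
    calc 2 * |r| * (|D| / ‖deriv γ t‖)
        ≤ 2 * (1 / (2 * K)) * ((K * ‖deriv γ t‖ * ‖w‖ ^ 2) / ‖deriv γ t‖) := by
          gcongr
      _ = ‖w‖ ^ 2 := by field_simp
  have h8 := (abs_le.1 h7).2
  linarith

end C2Curve

end Crest.Agent.R165.GeoAx65
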