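import Mathlib
import Crest.Agent.R165.GeoA_65

/-!
# Row 165, block GEO (helper65), file B: the trace of a `C²` Jordan curve is uniformly locally a graph

`GraphFn M f`: `f 0 = 0`, `f` differentiable on `ℝ`, `|f' 0| ≤ 1`, `|f'| ≤ 3/2`, `f'` is `M`-Lipschitz.

`C2Curve.exists_graph`: there are `r > 0`, `M ≥ 0` such that for every `t₀` there are one of the four
lattice rotations `ω` and `f` with `GraphFn M f` such that in the box `|u| ≤ r, |v| ≤ 3 r` around
`γ t₀` (coordinates `γ t₀ + ω (u + i v)`) the trace is exactly `{v = f u}`.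
-/

set_option autoImplicit false

open Set Topology Filter Metric

namespace Crest.Agent.R165.GeoBx65

open Crest.Agent.R165.GeoAx65

/-- graph functions: slope `≤ 3/2` (`≤ 1` at the centre), `M`-Lipschitz derivative -/
structure GraphFn (M : ℝ) (f : ℝ → ℝ) : Prop where
  zero : f 0 = 0
  diff : Differentiable ℝ f
  slope0 : |deriv f 0| ≤ 1
  slope : ∀ u, |deriv f u| ≤ 3 / 2
  lip : ∀ u v, |deriv f u - deriv f v| ≤ M * |u - v|

namespace GraphFn

variable {M : ℝ} {f : ℝ → ℝ}

theorem lipf (h : GraphFn M f) (u v : ℝ) : |f u - f v| ≤ 3 / 2 * |u - v| := by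
  have := Convex.norm_image_sub_le_of_norm_deriv_le (f := f) (s := univ) (x := v) (y := u)
    (C := 3 / 2) (fun x _ => h.diff x) (fun x _ => h.slope x) convex_univ (mem_univ _) (mem_univ _)
  simpa [Real.norm_eq_abs] using this

theorem abs_le (h : GraphFn M f) (u : ℝ) : |f u| ≤ 3 / 2 * |u| := by
  have := h.lipf u 0
  simpa [h.zero] using this

theorem cont (h : GraphFn M f) : Continuous f := h.diff.continuous

theorem nonneg (h : GraphFn M f) : 0 ≤ M := by
  have := h.lip 1 0
  have h1 := abs_nonneg (deriv f 1 - deriv f 0)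
  simp at this
  linarith

/-- second order Taylor bound -/
theorem taylor (h : GraphFn M f) (u v : ℝ) :
    |f u - f v - deriv f v * (u - v)| ≤ M * |u - v| ^ 2 := by
  set g : ℝ → ℝ := fun x => f x - deriv f v * (x - v) with hg
  have hgd : ∀ x, HasDerivAt g (deriv f x - deriv f v) x := fun x => by
    have h1 : HasDerivAt (fun x : ℝ => deriv f v * (x - v)) (deriv f v * 1) x :=
      ((hasDerivAt_id x).sub_const v).const_mul (deriv f v)
    rw [mul_one] at h1
    exact (h.diff x).hasDerivAt.sub h1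
  have hb : ∀ x ∈ uIcc v u, ‖deriv f x - deriv f v‖ ≤ M * |u - v| := fun x hx => by
    refine (h.lip x v).trans (mul_le_mul_of_nonneg_left ?_ h.nonneg)
    exact abs_sub_left_of_mem_uIcc hx
  have h2 := Convex.norm_image_sub_le_of_norm_hasDerivWithin_le (f := g)
    (f' := fun x => deriv f x - deriv f v) (s := uIcc v u) (x := v) (y := u)
    (C := M * |u - v|) (fun x _ => (hgd x).hasDerivWithinAt) hb (convex_uIcc v u)
    left_mem_uIcc right_mem_uIcc
  have h3 : g u - g v = f u - f v - deriv f v * (u - v) := by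
    simp [hg]; ring
  rw [h3, Real.norm_eq_abs, Real.norm_eq_abs] at h2
  calc _ ≤ M * |u - v| * |u - v| := h2
    _ = M * |u - v| ^ 2 := by ring

/-- the graph seen upside down -/
theorem flip (h : GraphFn M f) : GraphFn M (fun u => -f (-u)) := by
  have hd : ∀ u, HasDerivAt (fun u => -f (-u)) (deriv f (-u)) u := fun u => by
    have h1 : HasDerivAt (fun u : ℝ => f (-u)) (deriv f (-u) * (-1)) u :=
      (h.diff (-u)).hasDerivAt.comp u (hasDerivAt_neg u)
    have h2 : HasDerivAt (fun u : ℝ => -f (-u)) (-(deriv f (-u) * (-1))) u := h1.neg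
    rwa [mul_neg_one, neg_neg] at h2
  have hd' : ∀ u, deriv (fun u => -f (-u)) u = deriv f (-u) := fun u => (hd u).deriv
  refine ⟨?_, fun u => (hd u).differentiableAt, ?_, fun u => ?_, fun u v => ?_⟩
  · simp [h.zero]
  · rw [hd', neg_zero]; exact h.slope0
  · rw [hd']; exact h.slope _
  · rw [hd', hd']
    refine (h.lip _ _).trans (le_of_eq ?_)
    rw [show -u - -v = -(u - v) by ring, abs_neg]

/-- recentring at another point (slope at the new centre only `≤ 2`, so this is stated raw) -/
theorem mono {M' : ℝ} (h : GraphFn M f) (hM : M ≤ M') : GraphFn M' f :=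
  ⟨h.zero, h.diff, h.slope0, h.slope, fun u v =>
    (h.lip u v).trans (mul_le_mul_of_nonneg_right hM (abs_nonneg _))⟩

end GraphFn

/-- the four lattice rotations -/
def IsRot (ω : ℂ) : Prop := ω = 1 ∨ ω = Complex.I ∨ ω = -1 ∨ ω = -Complex.I

theorem IsRot.normSq {ω : ℂ} (h : IsRot ω) : Complex.normSq ω = 1 := by
  rcases h with rfl | rfl | rfl | rfl <;> simp [Complex.normSq_neg]

theorem IsRot.norm {ω : ℂ} (h : IsRot ω) : ‖ω‖ = 1 := by
  have := h.normSq
  rw [Complex.normSq_eq_norm_sq] at this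
  have h0 := norm_nonneg ω
  nlinarith

theorem IsRot.conj_mul {ω : ℂ} (h : IsRot ω) : (starRingEnd ℂ) ω * ω = 1 := by
  rw [← Complex.normSq_eq_conj_mul_self, h.normSq]; simp

theorem IsRot.mul_conj {ω : ℂ} (h : IsRot ω) : ω * (starRingEnd ℂ) ω = 1 := by
  rw [mul_comm, h.conj_mul]

theorem IsRot.neg {ω : ℂ} (h : IsRot ω) : IsRot (-ω) := by
  rcases h with rfl | rfl | rfl | rfl
  · exact Or.inr (Or.inr (Or.inl rfl))
  · exact Or.inr (Or.inr (Or.inr rfl))
  · exact Or.inl (neg_neg _)
  · exact Or.inr (Or.inl (neg_neg _))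

/-- some lattice rotation puts a non-zero vector in the right quarter cone -/
theorem exists_rot (w : ℂ) : ∃ ω : ℂ, IsRot ω ∧
    |((starRingEnd ℂ) ω * w).im| ≤ ((starRingEnd ℂ) ω * w).re := by
  rcases le_total |w.im| |w.re| with h | h
  · rcases le_total 0 w.re with h1 | h1
    · refine ⟨1, Or.inl rfl, ?_⟩
      simpa [abs_of_nonneg h1] using h
    · refine ⟨-1, Or.inr (Or.inr (Or.inl rfl)), ?_⟩
      simpa [abs_of_nonpos h1] using h
  · rcases le_total 0 w.im with h1 | h1
    · refine ⟨Complex.I, Or.inr (Or.inl rfl), ?_⟩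
      simpa [abs_of_nonneg h1] using h
    · refine ⟨-Complex.I, Or.inr (Or.inr (Or.inr rfl)), ?_⟩
      simpa [abs_of_nonpos h1] using h

theorem re_ge_of_cone {w : ℂ} (h : |w.im| ≤ w.re) : 7 / 10 * ‖w‖ ≤ w.re := by
  have h1 : ‖w‖ ^ 2 = w.re ^ 2 + w.im ^ 2 := by
    rw [← Complex.normSq_eq_norm_sq, Complex.normSq_apply]; ring
  have h2 : w.im ^ 2 ≤ w.re ^ 2 := by
    rw [← sq_abs w.im]
    exact pow_le_pow_left₀ (abs_nonneg _) h 2
  have h3 : 0 ≤ w.re := (abs_nonneg _).trans h
  have h4 := norm_nonneg w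
  by_contra h5
  push Not at h5
  nlinarith

/-- a curve `G = ∫ H` with `Re H ≥ c > 0`, `|Im H| ≤ 3/2 Re H`, `H` Lipschitz, is a global graph -/
theorem graph_of_cone {H : ℝ → ℂ} {c C t₀ : ℝ} (hc : 0 < c)
    (hlip : ∀ s t, ‖H s - H t‖ ≤ C * |s - t|) (hre : ∀ s, c ≤ (H s).re)
    (him : ∀ s, |(H s).im| ≤ 3 / 2 * (H s).re) (h0 : |(H t₀).im| ≤ (H t₀).re)
    {G : ℝ → ℂ} (hG : ∀ s, HasDerivAt G (H s) s) (hG0 : G t₀ = 0) :
    ∃ f : ℝ → ℝ, GraphFn (3 * C / c ^ 2) f ∧ (∀ s, (G s).im = f (G s).re) ∧
      (∀ u : ℝ, ∃ s : ℝ, (G s).re = u ∧ |s - t₀| ≤ |u| / c) := by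
  have hX : ∀ s, HasDerivAt (fun s => (G s).re) (H s).re s := fun s => by
    exact (Complex.reCLM.hasFDerivAt (x := G s)).comp_hasDerivAt s (hG s)
  have hY : ∀ s, HasDerivAt (fun s => (G s).im) (H s).im s := fun s => by
    exact (Complex.imCLM.hasFDerivAt (x := G s)).comp_hasDerivAt s (hG s)
  set X : ℝ → ℝ := fun s => (G s).re with hXdef
  set Y : ℝ → ℝ := fun s => (G s).im with hYdef
  have hC0 : 0 ≤ C := by
    have := (norm_nonneg _).trans (hlip 1 0)
    simpa using this
  have hXc : Continuous X := continuous_iff_continuousAt.2 fun s => (hX s).continuousAt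
  have hXm : StrictMono X := strictMono_of_deriv_pos fun s => by
    rw [(hX s).deriv]; exact hc.trans_le (hre s)
  -- expansion of `X`
  have hexp : ∀ s t, s ≤ t → c * (t - s) ≤ X t - X s := fun s t hst => by
    have hm : Monotone (fun s => X s - c * s) := by
      have hd : ∀ s, HasDerivAt (fun s => X s - c * s) ((H s).re - c) s := fun s => by
        have h1 : HasDerivAt (fun s : ℝ => c * s) (c * 1) s := (hasDerivAt_id s).const_mul c
        rw [mul_one] at h1
        exact (hX s).sub h1
      refine monotone_of_deriv_nonneg (fun s => (hd s).differentiableAt) fun s => ?_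
      rw [(hd s).deriv]
      linarith [hre s]
    have := hm hst
    simp only at this
    linarith
  have hexp' : ∀ s t, c * |t - s| ≤ |X t - X s| := fun s t => by
    rcases le_total s t with hst | hst
    · rw [abs_of_nonneg (sub_nonneg.2 hst), abs_of_nonneg (sub_nonneg.2 (hXm.monotone hst))]
      exact hexp s t hst
    · rw [abs_sub_comm, abs_of_nonneg (sub_nonneg.2 hst), abs_sub_comm,
        abs_of_nonneg (sub_nonneg.2 (hXm.monotone hst))]
      exact hexp t s hst
  have hX0 : X t₀ = 0 := by simp [hXdef, hG0]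
  have hXsurj : Function.Surjective X := by
    refine hXc.surjective ?_ ?_
    · refine tendsto_atTop.2 fun b => ?_
      filter_upwards [eventually_ge_atTop (max t₀ (t₀ + b / c))] with s hs
      have h1 := hexp t₀ s ((le_max_left _ _).trans hs)
      have h2 : b / c ≤ s - t₀ := by linarith [(le_max_right t₀ (t₀ + b / c)).trans hs]
      have h3 : b ≤ c * (s - t₀) := by
        calc b = c * (b / c) := by field_simp
          _ ≤ _ := mul_le_mul_of_nonneg_left h2 hc.le
      linarith
    · refine tendsto_atBot.2 fun b => ?_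
      filter_upwards [eventually_le_atBot (min t₀ (t₀ + b / c))] with s hs
      have h1 := hexp s t₀ (hs.trans (min_le_left _ _))
      have h2 : s - t₀ ≤ b / c := by linarith [hs.trans (min_le_right t₀ (t₀ + b / c))]
      have h3 : c * (s - t₀) ≤ b := by
        calc c * (s - t₀) ≤ c * (b / c) := mul_le_mul_of_nonneg_left h2 hc.le
          _ = b := by field_simp
      linarith
  set e : ℝ ≃o ℝ := hXm.orderIsoOfSurjective X hXsurj with he
  have heX : ∀ s, e s = X s := fun s => rfl
  have hXe : ∀ u, X (e.symm u) = u := fun u => by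
    rw [← heX]; exact e.apply_symm_apply u
  have heX' : ∀ s, e.symm (X s) = s := fun s => by
    rw [← heX]; exact e.symm_apply_apply s
  have hec : Continuous e.symm := e.symm.continuous
  have hed : ∀ u, HasDerivAt e.symm ((H (e.symm u)).re)⁻¹ u := fun u => by
    refine HasDerivAt.of_local_left_inverse hec.continuousAt (hX (e.symm u)) ?_
      (Eventually.of_forall fun y => hXe y)
    exact (hc.trans_le (hre _)).ne'
  have hfd : ∀ u, HasDerivAt (fun u => Y (e.symm u)) ((H (e.symm u)).im / (H (e.symm u)).re) u :=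
    fun u => by
    have := (hY (e.symm u)).comp u (hed u)
    rw [← div_eq_mul_inv] at this
    exact this
  have hfd' : ∀ u, deriv (fun u => Y (e.symm u)) u = (H (e.symm u)).im / (H (e.symm u)).re :=
    fun u => (hfd u).deriv
  have he0 : e.symm 0 = t₀ := by rw [← hX0, heX']
  have hsl : ∀ u v, |e.symm u - e.symm v| ≤ |u - v| / c := fun u v => by
    rw [le_div_iff₀ hc, mul_comm]
    have := hexp' (e.symm v) (e.symm u)
    rwa [hXe, hXe] at this
  refine ⟨fun u => Y (e.symm u), ⟨?_, fun u => (hfd u).differentiableAt, ?_, fun u => ?_,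
    fun u v => ?_⟩, fun s => ?_, fun u => ⟨e.symm u, hXe u, ?_⟩⟩
  · show Y (e.symm 0) = 0
    rw [he0]; simp [hYdef, hG0]
  · rw [hfd', he0, abs_div, abs_of_pos (hc.trans_le (hre t₀)),
      div_le_one (hc.trans_le (hre t₀))]
    exact h0
  · rw [hfd', abs_div, abs_of_pos (hc.trans_le (hre _)), div_le_iff₀ (hc.trans_le (hre _))]
    exact him _
  · rw [hfd', hfd']
    set s := e.symm u
    set t := e.symm v
    have hs0 : 0 < (H s).re := hc.trans_le (hre s)
    have ht0 : 0 < (H t).re := hc.trans_le (hre t)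
    have e1 : (H s).im / (H s).re - (H t).im / (H t).re =
        ((H s).im - (H t).im) / (H s).re + (H t).im / (H t).re * (((H t).re - (H s).re) / (H s).re) := by
      field_simp
      ring
    have h1 : |(H s).im - (H t).im| ≤ C * |s - t| := by
      rw [← Complex.sub_im]
      exact (Complex.abs_im_le_norm _).trans (hlip s t)
    have h2 : |(H t).re - (H s).re| ≤ C * |s - t| := by
      rw [abs_sub_comm, ← Complex.sub_re]
      exact (Complex.abs_re_le_norm _).trans (hlip s t)
    have h3 : |(H t).im / (H t).re| ≤ 3 / 2 := by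
      rw [abs_div, abs_of_pos ht0, div_le_iff₀ ht0]; exact him t
    have h4 : C * |s - t| / (H s).re ≤ C * |s - t| / c :=
      div_le_div_of_nonneg_left (by positivity) hc (hre s)
    have h5 : C * |s - t| / c ≤ C / c ^ 2 * |u - v| := by
      have := hsl u v
      calc C * |s - t| / c ≤ C * (|u - v| / c) / c := by gcongr
        _ = C / c ^ 2 * |u - v| := by field_simp
    rw [e1]
    calc |((H s).im - (H t).im) / (H s).re +
          (H t).im / (H t).re * (((H t).re - (H s).re) / (H s).re)|
        ≤ |((H s).im - (H t).im) / (H s).re| +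
          |(H t).im / (H t).re * (((H t).re - (H s).re) / (H s).re)| := abs_add_le _ _
      _ ≤ C * |s - t| / (H s).re + 3 / 2 * (C * |s - t| / (H s).re) := by
          rw [abs_mul, abs_div, abs_div ((H t).re - (H s).re), abs_of_pos hs0]
          gcongr
      _ ≤ C / c ^ 2 * |u - v| + 2 * (C / c ^ 2 * |u - v|) := by
          have := h4.trans h5
          have h6 : 0 ≤ C / c ^ 2 * |u - v| := by positivity
          linarith
      _ = 3 * C / c ^ 2 * |u - v| := by ring
  · show Y s = Y (e.symm (X s))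
    rw [heX']
  · have := hsl u 0
    rwa [he0, sub_zero] at this

/-- clamp to an interval -/
noncomputable def clamp (a b x : ℝ) : ℝ := max a (min b x)

theorem clamp_mem {a b : ℝ} (hab : a ≤ b) (x : ℝ) : clamp a b x ∈ Icc a b :=
  ⟨le_max_left _ _, max_le hab (min_le_left _ _)⟩

theorem clamp_of_mem {a b x : ℝ} (hx : x ∈ Icc a b) : clamp a b x = x := by
  unfold clamp
  rw [min_eq_right hx.2, max_eq_right hx.1]

theorem clamp_lip (a b x y : ℝ) : |clamp a b x - clamp a b y| ≤ |x - y| := by
  unfold clamp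
  calc |max a (min b x) - max a (min b y)| ≤ max |a - a| |min b x - min b y| :=
        abs_max_sub_max_le_max _ _ _ _
    _ ≤ |x - y| := by
        rw [sub_self, abs_zero]
        refine max_le (abs_nonneg _) ?_
        calc |min b x - min b y| ≤ max |b - b| |x - y| := abs_min_sub_min_le_max _ _ _ _
          _ = |x - y| := by rw [sub_self, abs_zero, max_eq_right (abs_nonneg _)]

theorem clamp_cont (a b : ℝ) : Continuous (clamp a b) :=
  continuous_const.max (continuous_const.min continuous_id)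

/-- **the trace of a `C²` Jordan curve is uniformly locally a graph over a lattice axis** -/
theorem exists_graph {γ : ℝ → ℂ} (h : C2Curve γ) :
    ∃ r M : ℝ, 0 < r ∧ 0 ≤ M ∧ ∀ t₀ : ℝ, ∃ ω : ℂ, IsRot ω ∧ ∃ f : ℝ → ℝ, GraphFn M f ∧
      ∀ u v : ℝ, |u| ≤ r → |v| ≤ 3 * r →
        (γ t₀ + ω * ⟨u, v⟩ ∈ range γ ↔ v = f u) := by
  obtain ⟨c, C, hc0, hC0, hc, -, hC⟩ := h.exists_speed
  obtain ⟨κ, hκ0, hκ⟩ := h.exists_chord_arc
  set δ : ℝ := min (1 / 2) (c / (10 * C)) with hδ
  have hδ0 : 0 < δ := lt_min (by norm_num) (by positivity)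
  have hCδ : C * δ ≤ c / 10 := by
    calc C * δ ≤ C * (c / (10 * C)) := mul_le_mul_of_nonneg_left (min_le_right _ _) hC0.le
      _ = c / 10 := by field_simp
  set r : ℝ := min (c * δ / 2) (κ * δ / 4) with hr
  have hr0 : 0 < r := lt_min (by positivity) (by positivity)
  refine ⟨r, 3 * C / (c / 2) ^ 2, hr0, by positivity, fun t₀ => ?_⟩
  obtain ⟨ω, hω, hcone⟩ := exists_rot (deriv γ t₀)
  refine ⟨ω, hω, ?_⟩
  set cl : ℝ → ℝ := clamp (t₀ - δ) (t₀ + δ) with hcl
  set H : ℝ → ℂ := fun s => (starRingEnd ℂ) ω * deriv γ (cl s) with hH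
  have hnorm : ‖(starRingEnd ℂ) ω‖ = 1 := by rw [RCLike.norm_conj]; exact hω.norm
  have hHlip : ∀ s t, ‖H s - H t‖ ≤ C * |s - t| := fun s t => by
    rw [hH]
    simp only
    rw [← mul_sub, norm_mul, hnorm, one_mul]
    exact (h.deriv_lip hC _ _).trans (mul_le_mul_of_nonneg_left (clamp_lip _ _ _ _) hC0.le)
  have hcl0 : cl t₀ = t₀ := clamp_of_mem ⟨by linarith, by linarith⟩
  have hclδ : ∀ s, |cl s - t₀| ≤ δ := fun s => by
    have := clamp_mem (a := t₀ - δ) (b := t₀ + δ) (by linarith) s
    rw [abs_le]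
    constructor
    · have := this.1; simp only [← hcl] at this; linarith
    · have := this.2; simp only [← hcl] at this; linarith
  have hdiff : ∀ s, ‖H s - H t₀‖ ≤ c / 10 := fun s => by
    rw [hH]
    simp only
    rw [← mul_sub, norm_mul, hnorm, one_mul, hcl0]
    exact ((h.deriv_lip hC _ _).trans (mul_le_mul_of_nonneg_left (hclδ s) hC0.le)).trans hCδ
  have hHt0 : H t₀ = (starRingEnd ℂ) ω * deriv γ t₀ := by rw [hH]; simp only; rw [hcl0]
  have hre0 : 7 / 10 * c ≤ (H t₀).re := by
    rw [hHt0]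
    have h1 := re_ge_of_cone hcone
    rw [norm_mul, hnorm, one_mul] at h1
    have := hc t₀
    linarith
  have him0 : |(H t₀).im| ≤ (H t₀).re := by rw [hHt0]; exact hcone
  have hre : ∀ s, c / 2 ≤ (H s).re := fun s => by
    have h1 : |(H s).re - (H t₀).re| ≤ c / 10 := by
      rw [← Complex.sub_re]; exact (Complex.abs_re_le_norm _).trans (hdiff s)
    have := (abs_le.1 h1).1
    linarith
  have him : ∀ s, |(H s).im| ≤ 3 / 2 * (H s).re := fun s => by
    have h1 : |(H s).re - (H t₀).re| ≤ c / 10 := by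
      rw [← Complex.sub_re]; exact (Complex.abs_re_le_norm _).trans (hdiff s)
    have h2 : |(H s).im - (H t₀).im| ≤ c / 10 := by
      rw [← Complex.sub_im]; exact (Complex.abs_im_le_norm _).trans (hdiff s)
    have h3 : |(H s).im| ≤ |(H t₀).im| + c / 10 := by
      have := abs_sub_abs_le_abs_sub (H s).im (H t₀).im
      linarith
    have h4 := (abs_le.1 h1).1
    have h5 := hre s
    linarith
  have hHcont : Continuous H := continuous_const.mul (h.cont_deriv.comp (clamp_cont _ _))
  set G : ℝ → ℂ := fun s => ∫ x in t₀..s, H x with hG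
  have hGd : ∀ s, HasDerivAt G (H s) s := fun s =>
    intervalIntegral.integral_hasDerivAt_right (hHcont.intervalIntegrable _ _)
      (hHcont.stronglyMeasurableAtFilter _ _) hHcont.continuousAt
  have hG0 : G t₀ = 0 := by simp [hG]
  obtain ⟨f, hf, hGf, hGs⟩ := graph_of_cone (t₀ := t₀) (c := c / 2) (C := C) (by positivity)
    hHlip hre him him0 hGd hG0
  refine ⟨f, hf, fun u v hu hv => ?_⟩
  -- the curve agrees with `G` on the window
  have hGγ : ∀ s, |s - t₀| ≤ δ → γ s = γ t₀ + ω * G s := fun s hs => by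
    have hs' := abs_le.1 hs
    have h1 : ∫ x in t₀..s, deriv γ x = γ s - γ t₀ :=
      intervalIntegral.integral_deriv_eq_sub (fun x _ => h.diff x)
        (h.cont_deriv.intervalIntegrable _ _)
    have h2 : G s = (starRingEnd ℂ) ω * (γ s - γ t₀) := by
      rw [← h1, ← intervalIntegral.integral_const_mul]
      refine intervalIntegral.integral_congr fun x hx => ?_
      have hx' : x ∈ Icc (t₀ - δ) (t₀ + δ) := by
        have hx1 := abs_sub_left_of_mem_uIcc hx
        have := abs_le.1 (hx1.trans hs)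
        exact ⟨by linarith [this.1], by linarith [this.2]⟩
      show (starRingEnd ℂ) ω * deriv γ (cl x) = (starRingEnd ℂ) ω * deriv γ x
      rw [hcl, clamp_of_mem hx']
    rw [h2, ← mul_assoc, hω.mul_conj, one_mul]
    ring
  have hcancel : ∀ z : ℂ, ∀ s, γ t₀ + ω * z = γ t₀ + ω * G s → z = G s := fun z s e => by
    have h1 : ω * z = ω * G s := add_left_cancel e
    have h2 : ω ≠ 0 := by
      intro h0; have := hω.norm; rw [h0, norm_zero] at this; exact zero_ne_one this
    exact mul_left_cancel₀ h2 h1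
  constructor
  · rintro ⟨s, hs⟩
    obtain ⟨s', hs', hst⟩ := h.exists_shift s t₀
    rw [← hs'] at hs
    have h1 := hκ s' t₀ hst
    have h2 : ‖γ s' - γ t₀‖ ≤ |u| + |v| := by
      rw [hs]
      have : γ t₀ + ω * (⟨u, v⟩ : ℂ) - γ t₀ = ω * ⟨u, v⟩ := by ring
      rw [this, norm_mul, hω.norm, one_mul]
      exact Complex.norm_le_abs_re_add_abs_im _
    have h3 : κ * |s' - t₀| ≤ κ * δ := by
      have : |u| + |v| ≤ 4 * r := by linarith
      have h4 : 4 * r ≤ κ * δ := by
        have := min_le_right (c * δ / 2) (κ * δ / 4)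
        rw [← hr] at this
        linarith
      linarith
    have h4 : |s' - t₀| ≤ δ := le_of_mul_le_mul_left h3 hκ0
    have h5 := hGγ s' h4
    rw [hs] at h5
    have h6 := hcancel _ _ h5
    have h7 := hGf s'
    rw [← h6] at h7
    exact h7
  · intro hv'
    obtain ⟨s, hs1, hs2⟩ := hGs u
    have h1 : |s - t₀| ≤ δ := by
      refine hs2.trans ?_
      rw [div_le_iff₀ (by positivity)]
      have := min_le_left (c * δ / 2) (κ * δ / 4)
      rw [← hr] at this
      linarith
    refine ⟨s, ?_⟩
    rw [hGγ s h1]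
    congr 2
    apply Complex.ext
    · exact hs1
    · show (G s).im = v
      rw [hGf s, hs1, hv']

end Crest.Agent.R165.GeoBx65
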