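import Crest.Agent.R165.GeoLat4_416

/-!
R165, block GEO, part 5: the chain lemma (from local joins near every point of a compact set to global joins)
and its application to the sites of `D`.
-/

set_option autoImplicit false

namespace Crest.Agent.R165.Geo

open Complex Set Filter Topology
open Crest.ProbabilityR.IsingModel

/-- Chain lemma. -/
theorem chain_join {A K : Set ℂ} (hA : IsPreconnected A) (hAK : A ⊆ K) (hK : IsCompact K)
    (S Q : ℝ → Set (ℤ × ℤ))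
    (hS : ∀ a, ∀ z ∈ S a, meshPoint a z ∈ A)
    (hloc : ∀ p ∈ K, ∃ U : Set ℂ, IsOpen U ∧ p ∈ U ∧ ∃ C : ℝ, ∀ᶠ a in 𝓝[>] (0:ℝ), ∀ u ∈ S a, ∀ v ∈ S a,
      meshPoint a u ∈ U → meshPoint a v ∈ U → ∃ n : ℕ, (n:ℝ) ≤ C / a ∧ PathIn (Q a) u v n)
    (hdense : ∀ U : Set ℂ, IsOpen U → (U ∩ A).Nonempty → ∀ᶠ a in 𝓝[>] (0:ℝ), ∃ z ∈ S a, meshPoint a z ∈ U) :
    ∃ C : ℝ, ∀ᶠ a in 𝓝[>] (0:ℝ), ∀ u ∈ S a, ∀ v ∈ S a, ∃ n : ℕ, (n:ℝ) ≤ C / a ∧ PathIn (Q a) u v n := by
  classical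
  choose! U hUo hpU C hC using hloc
  obtain ⟨t, htK, ht⟩ := hK.elim_nhds_subcover U (fun p hp => (hUo p hp).mem_nhds (hpU p hp))
  -- the graph of overlaps
  set R : ℂ → ℂ → Prop := fun i j => i ∈ t ∧ j ∈ t ∧ (U i ∩ U j ∩ A).Nonempty with hR
  have hconn : ∀ i ∈ t, (U i ∩ A).Nonempty → ∀ j ∈ t, (U j ∩ A).Nonempty → Relation.ReflTransGen R i j := by
    intro i hi hiA j hj hjA
    by_contra hcon
    set V1 : Set ℂ := ⋃ l ∈ {l | l ∈ t ∧ Relation.ReflTransGen R i l}, U l with hV1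
    set V2 : Set ℂ := ⋃ l ∈ {l | l ∈ t ∧ ¬ Relation.ReflTransGen R i l}, U l with hV2
    have ho1 : IsOpen V1 := isOpen_biUnion fun l hl => hUo l (htK l hl.1)
    have ho2 : IsOpen V2 := isOpen_biUnion fun l hl => hUo l (htK l hl.1)
    have hcov : A ⊆ V1 ∪ V2 := by
      intro x hx
      have := ht (hAK hx)
      simp only [mem_iUnion] at this
      obtain ⟨l, hl, hxl⟩ := this
      by_cases hil : Relation.ReflTransGen R i l
      · exact Or.inl (mem_biUnion (show l ∈ {l | l ∈ t ∧ Relation.ReflTransGen R i l} from ⟨hl, hil⟩) hxl)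
      · exact Or.inr (mem_biUnion (show l ∈ {l | l ∈ t ∧ ¬ Relation.ReflTransGen R i l} from ⟨hl, hil⟩) hxl)
    obtain ⟨x, hxi, hxA⟩ := hiA
    obtain ⟨y, hyj, hyA⟩ := hjA
    have h1 : (A ∩ V1).Nonempty := ⟨x, hxA,
      mem_biUnion (show i ∈ {l | l ∈ t ∧ Relation.ReflTransGen R i l} from ⟨hi, Relation.ReflTransGen.refl⟩) hxi⟩
    have h2 : (A ∩ V2).Nonempty := ⟨y, hyA,
      mem_biUnion (show j ∈ {l | l ∈ t ∧ ¬ Relation.ReflTransGen R i l} from ⟨hj, hcon⟩) hyj⟩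
    obtain ⟨w, hwA, hw1, hw2⟩ := hA V1 V2 ho1 ho2 hcov h1 h2
    simp only [hV1, mem_iUnion] at hw1
    simp only [hV2, mem_iUnion] at hw2
    obtain ⟨l1, hl1, hwl1⟩ := hw1
    obtain ⟨l2, hl2, hwl2⟩ := hw2
    exact hl2.2 (hl1.2.tail ⟨hl1.1, hl2.1, w, ⟨hwl1, hwl2⟩, hwA⟩)
  -- joins between two patches
  have hpair : ∀ i j : ℂ, i ∈ t → j ∈ t → Relation.ReflTransGen R i j → ∃ c : ℝ, ∀ᶠ a in 𝓝[>] (0:ℝ),
      ∀ u ∈ S a, ∀ v ∈ S a, meshPoint a u ∈ U i → meshPoint a v ∈ U j →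
        ∃ n : ℕ, (n:ℝ) ≤ c / a ∧ PathIn (Q a) u v n := by
    intro i j hi _ hij
    induction hij with
    | refl => exact ⟨C i, hC i (htK i hi)⟩
    | @tail b c _ hbc ih =>
      obtain ⟨c1, hc1⟩ := ih hbc.1
      refine ⟨c1 + C c, ?_⟩
      have hd := hdense (U b ∩ U c) ((hUo b (htK b hbc.1)).inter (hUo c (htK c hbc.2.1))) hbc.2.2
      filter_upwards [hc1, hC c (htK c hbc.2.1), hd, self_mem_nhdsWithin] with a h1 h2 h3 ha u hu v hv huU hvU
      obtain ⟨z, hz, hzU⟩ := h3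
      obtain ⟨n1, hn1, p1⟩ := h1 u hu z hz huU hzU.1
      obtain ⟨n2, hn2, p2⟩ := h2 z hz v hv hzU.2 hvU
      refine ⟨n1 + n2, ?_, p1.trans p2⟩
      push_cast
      rw [add_div]
      exact add_le_add hn1 hn2
  choose! c hc using hpair
  refine ⟨∑ i ∈ t, ∑ j ∈ t, |c i j|, ?_⟩
  have hall : ∀ᶠ a in 𝓝[>] (0:ℝ), ∀ i ∈ t, ∀ j ∈ t, Relation.ReflTransGen R i j →
      ∀ u ∈ S a, ∀ v ∈ S a, meshPoint a u ∈ U i → meshPoint a v ∈ U j →
        ∃ n : ℕ, (n:ℝ) ≤ c i j / a ∧ PathIn (Q a) u v n := by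
    rw [Filter.eventually_all_finset]
    intro i hi
    rw [Filter.eventually_all_finset]
    intro j hj
    by_cases hij : Relation.ReflTransGen R i j
    · filter_upwards [hc i j hi hj hij] with a ha _
      exact ha
    · exact Filter.Eventually.of_forall fun a h => absurd h hij
  filter_upwards [hall, self_mem_nhdsWithin] with a ha ha0 u hu v hv
  have ha0 : 0 < a := ha0
  have hu' := ht (hAK (hS a u hu))
  have hv' := ht (hAK (hS a v hv))
  simp only [mem_iUnion] at hu' hv'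
  obtain ⟨i, hi, hui⟩ := hu'
  obtain ⟨j, hj, hvj⟩ := hv'
  obtain ⟨n, hn, p⟩ := ha i hi j hj (hconn i hi ⟨_, hui, hS a u hu⟩ j hj ⟨_, hvj, hS a v hv⟩) u hu v hv hui hvj
  refine ⟨n, hn.trans ?_, p⟩
  apply div_le_div_of_nonneg_right _ ha0.le
  calc c i j ≤ |c i j| := le_abs_self _
    _ ≤ ∑ j ∈ t, |c i j| := Finset.single_le_sum (f := fun j => |c i j|) (fun _ _ => abs_nonneg _) hj
    _ ≤ ∑ i ∈ t, ∑ j ∈ t, |c i j| :=
        Finset.single_le_sum (f := fun i => ∑ j ∈ t, |c i j|)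
          (fun _ _ => Finset.sum_nonneg fun _ _ => abs_nonneg _) hi

/-- mesh index is close -/
theorem meshIndex_close {a : ℝ} (ha : 0 < a) (x : ℂ) :
    |(x - meshPoint a (meshIndex a x)).re| ≤ a ∧ |(x - meshPoint a (meshIndex a x)).im| ≤ a := by
  have key : ∀ t : ℝ, |t - a * ⌊t / a⌋| ≤ a := by
    intro t
    have h1 := Int.floor_le (t / a)
    have h2 := Int.lt_floor_add_one (t / a)
    rw [le_div_iff₀ ha] at h1
    rw [div_lt_iff₀ ha] at h2
    rw [abs_le]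
    constructor <;> nlinarith
  simp only [meshPoint, meshIndex, Complex.sub_re, Complex.sub_im]
  exact ⟨key _, key _⟩

theorem norm_le_of_sup {v : ℂ} {b : ℝ} (h1 : |v.re| ≤ b) (h2 : |v.im| ≤ b) : ‖v‖ ≤ 2 * b := by
  have := Complex.norm_le_abs_re_add_abs_im v
  linarith

/-- in an open set meeting the open set `V`, there are sites of `V` for small mesh -/
theorem dense_open {V : Set ℂ} (hV : IsOpen V) {q : ℂ} (hq : q ∈ V) :
    ∀ᶠ a in 𝓝[>] (0:ℝ), meshPoint a (meshIndex a q) ∈ V := by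
  obtain ⟨ε, hε, hb⟩ := Metric.isOpen_iff.1 hV q hq
  filter_upwards [Ioo_mem_nhdsGT (show (0:ℝ) < ε / 4 by linarith)] with a ha
  apply hb
  obtain ⟨h1, h2⟩ := meshIndex_close ha.1 q
  rw [Metric.mem_ball, dist_comm, dist_eq_norm]
  have := norm_le_of_sup h1 h2
  linarith [ha.2, ha.1]

/-- the open sup box -/
def obox (P : ℂ) (r0 : ℝ) : Set ℂ := {q | |(q - P).re| < r0 ∧ |(q - P).im| < r0}

theorem obox_open (P : ℂ) (r0 : ℝ) : IsOpen (obox P r0) := by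
  have h1 : Continuous fun q : ℂ => |(q - P).re| := by fun_prop
  have h2 : Continuous fun q : ℂ => |(q - P).im| := by fun_prop
  exact (isOpen_lt h1 continuous_const).inter (isOpen_lt h2 continuous_const)

theorem obox_self {P : ℂ} {r0 : ℝ} (h : 0 < r0) : P ∈ obox P r0 := by simp [obox, h]

/-- sites with mesh point in a box -/
theorem sn_of_obox {a : ℝ} (ha : 0 < a) {P : ℂ} {b : ℝ} {u : ℤ × ℤ} (hu : meshPoint a u ∈ obox P b) :
    sn (u - meshIndex a P) ≤ (⌊b / a + 1⌋₊ : ℕ) := by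
  obtain ⟨h1, h2⟩ := meshIndex_close ha P
  set z := meshIndex a P with hz
  simp only [obox, mem_ofPred_eq, Complex.sub_re, Complex.sub_im, meshPoint] at hu h1 h2
  have hb : 0 ≤ b / a + 1 := by
    have : 0 < b := (abs_nonneg _).trans_lt hu.1
    positivity
  have key : ∀ (i j : ℤ) (t : ℝ), |a * i - t| < b → |t - a * j| ≤ a → |i - j| ≤ (⌊b / a + 1⌋₊ : ℕ) := by
    intro i j t h1 h2
    have h3 : |a * (i:ℝ) - a * j| ≤ b + a := by
      calc |a * (i:ℝ) - a * j| = |(a * i - t) + (t - a * j)| := by congr 1; ring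
        _ ≤ |a * i - t| + |t - a * j| := abs_add_le _ _
        _ ≤ b + a := by linarith
    have h4 : |(i:ℝ) - j| ≤ b / a + 1 := by
      rw [← mul_sub, abs_mul, abs_of_pos ha] at h3
      have : b / a + 1 = (b + a) / a := by field_simp
      rw [this, le_div_iff₀ ha]
      linarith
    have h5 : ((|i - j|.toNat : ℕ) : ℝ) ≤ b / a + 1 := by
      have : ((|i - j|.toNat : ℕ) : ℤ) = |i - j| := Int.toNat_of_nonneg (abs_nonneg _)
      have h6 : ((|i - j|.toNat : ℕ) : ℝ) = |(i:ℝ) - j| := by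
        rw [← Int.cast_natCast, this]; push_cast; rfl
      rw [h6]; exact h4
    have h7 : |i - j|.toNat ≤ ⌊b / a + 1⌋₊ := Nat.le_floor h5
    omega
  rw [sn_le]
  exact ⟨key _ _ _ hu.1 h1, key _ _ _ hu.2 h2⟩

/-- numerical facts for the boxes: with `b = r0/8` and `a ≤ r0/8`. -/
theorem box_num {a r0 : ℝ} (ha : 0 < a) (har : a ≤ r0 / 8) :
    4 * ((⌊(r0 / 8) / a + 1⌋₊ : ℕ) : ℝ) ≤ r0 / a ∧
    ((12 * ⌊(r0 / 8) / a + 1⌋₊ : ℕ) : ℝ) ≤ (3 * r0) / a := by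
  have h0 : 0 < r0 := by linarith
  have h1 : ((⌊(r0 / 8) / a + 1⌋₊ : ℕ) : ℝ) ≤ (r0 / 8) / a + 1 := Nat.floor_le (by positivity)
  have h2 : (1:ℝ) ≤ (r0 / 8) / a := by rw [le_div_iff₀ ha]; linarith
  have h3 : r0 / 8 / a = (r0 / a) / 8 := by ring
  have h4 : 3 * r0 / a = 3 * (r0 / a) := by ring
  rw [h3] at h1 h2
  constructor
  · rw [h3]; linarith
  · push_cast; rw [h3, h4]; linarith

/-- GEO-4, connectedness: any two sites of `D` are joined inside `D` with at most `C/a` steps. -/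
theorem CD.join {D : Set ℂ} {r M : ℝ} (h : CD D r M) :
    ∃ C : ℝ, ∀ᶠ a in 𝓝[>] (0:ℝ), ∀ u ∈ domainSites D a, ∀ v ∈ domainSites D a,
      ∃ n : ℕ, (n:ℝ) ≤ C / a ∧ PathIn (domainSites D a) u v n := by
  have hK : IsCompact (closure D) := h.bdd.isCompact_closure
  set r0 := r / 2 with hr0
  have hr0' : 0 < r0 := by have := h.r_pos; positivity
  refine chain_join h.conn.isPreconnected subset_closure hK (fun a => domainSites D a)
    (fun a => domainSites D a) (fun a z hz => hz) ?_ ?_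
  · intro p _
    refine ⟨obox p (r0 / 8), obox_open _ _, obox_self (by positivity), 3 * r0, ?_⟩
    filter_upwards [Ioo_mem_nhdsGT (show (0:ℝ) < r0 / 8 by positivity)] with a ha u hu v hv huU hvU
    obtain ⟨k, G, G', hG⟩ := latReg_domainSites h hr0' (by rw [hr0]; linarith) ha.1 (meshIndex a p)
    obtain ⟨n1, n2⟩ := box_num ha.1 ha.2.le
    obtain ⟨n, hn, hp⟩ := hG.join _ n1 hu hv (sn_of_obox ha.1 huU) (sn_of_obox ha.1 hvU)
    refine ⟨n, le_trans ?_ n2, hp.mono inter_subset_left⟩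
    exact_mod_cast hn
  · intro U hU ⟨q, hqU, hqD⟩
    filter_upwards [dense_open (hU.inter h.isOpen) ⟨hqU, hqD⟩] with a ha
    exact ⟨meshIndex a q, ha.2, ha.1⟩

end Crest.Agent.R165.Geo
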