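import Crest.Agent.R165.BridgeReg_386
import Crest.Agent.R165.RFlat_65
import Crest.Agent.R165.ClGr_117
import Crest.Agent.R165.BridgeRB2_386

/-!
# Row 165 (S0250), discs with a cluster of insertions: the cluster (helper892)

* `clu_gauge` : an even number of insertions interior to `bx x R` is pure gauge outside `bx x R`
* `clOn`      : the class `ClOn` of helper117 for `wl (wX (wDom T b) X)`
* `rb_clu`    : `RB` at the centre of a cluster, all radii `≥ R + 1`, absolute constant (every
                coordinate ring); `rb_clu_dom` : for `wX (wDom T b) X` on `ℤ`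
-/

set_option autoImplicit false

noncomputable section

open Crest.ProbabilityR.IsingModel
open Crest.Agent.R165.Latx683 Crest.Agent.R165.GDefx387 Crest.Agent.R165.Bridgex386
  Crest.Agent.R165.RIfx891 Crest.Agent.R165.RFlatx65 Crest.Agent.R165.ClGrx117
open Crest.Agent.R165.Tr1x40 (nb)

namespace Crest.Agent.R165.GeoClux892

/-! ### the gauge of an even cluster -/

/-- sign of the rows at or above the insertions -/
def pr {n : ℕ} (X : Fin n → ℤ × ℤ) (m : ℤ) : ℝ := ∏ i, (if (X i).2 ≤ m then (-1 : ℝ) else 1)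

theorem pr_sq {n : ℕ} (X : Fin n → ℤ × ℤ) (m : ℤ) : pr X m ^ 2 = 1 := by
  unfold pr
  rw [← Finset.prod_pow]
  refine Finset.prod_eq_one fun i _ => ?_
  split_ifs <;> norm_num

theorem pr_top {n : ℕ} (hn : Even n) {X : Fin n → ℤ × ℤ} {m : ℤ} (h : ∀ i, (X i).2 ≤ m) :
    pr X m = 1 := by
  unfold pr
  rw [Finset.prod_congr rfl fun i _ => if_pos (h i), Finset.prod_const, Finset.card_univ,
    Fintype.card_fin, hn.neg_one_pow]

theorem pr_bot {n : ℕ} {X : Fin n → ℤ × ℤ} {m : ℤ} (h : ∀ i, m < (X i).2) : pr X m = 1 := by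
  unfold pr
  exact Finset.prod_eq_one fun i _ => if_neg (not_le.2 (h i))

/-- the gauge -/
def cg {n : ℕ} (X : Fin n → ℤ × ℤ) (x f : Face) : ℝ := if x.1 ≤ f.1 then pr X f.2 else 1

theorem cg_gauge {n : ℕ} (X : Fin n → ℤ × ℤ) (x : Face) : Gauge (cg X x) := fun f => by
  unfold cg
  split_ifs
  · exact pr_sq X _
  · norm_num

theorem pr_mul {n : ℕ} (X : Fin n → ℤ × ℤ) (m : ℤ) :
    pr X m * pr X (m + 1) = ∏ i, (if (X i).2 = m + 1 then (-1 : ℝ) else 1) := by
  unfold pr
  rw [← Finset.prod_mul_distrib]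
  refine Finset.prod_congr rfl fun i _ => ?_
  by_cases h1 : (X i).2 ≤ m
  · rw [if_pos h1, if_pos (by omega), if_neg (by omega)]; norm_num
  · by_cases h2 : (X i).2 = m + 1
    · rw [if_neg h1, if_pos (by omega), if_pos h2]; norm_num
    · rw [if_neg h1, if_neg (by omega), if_neg h2]; norm_num

/-- **the gauge of an even cluster** -/
theorem clu_gauge {n : ℕ} (hn : Even n) {x : Face} {R : ℝ} {X : Fin n → ℤ × ℤ}
    (hX : ∀ i, IntV x R (X i)) {f : Face} (hf : f ∉ bx x R) (k : Fin 4) :
    ∏ i, rayw (X i) f k = cg X x f * cg X x (nb f k) := by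
  rcases isEmpty_or_nonempty (Fin n) with he | hne
  · have h1 : ∀ m, pr X m = 1 := fun m => by
      unfold pr
      exact Finset.prod_eq_one fun i _ => he.elim i
    have h2 : ∀ f, cg X x f = 1 := fun f => by
      unfold cg
      split_ifs
      · exact h1 _
      · rfl
    rw [h2, h2, mul_one]
    exact Finset.prod_eq_one fun i _ => he.elim i
  obtain ⟨i0⟩ := hne
  have hR1 : 1 ≤ ⌊R⌋ := by
    have := hX i0
    unfold IntV at this
    omega
  rw [mem_bx, not_and_or, not_le, not_le] at hf
  -- above and below the box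
  have hout : ⌊R⌋ < |f.2 - x.2| → pr X f.2 = 1 := by
    intro h
    rw [lt_abs] at h
    rcases h with h | h
    · refine pr_top hn fun i => ?_
      have := hX i
      unfold IntV at this
      omega
    · refine pr_bot fun i => ?_
      have := hX i
      unfold IntV at this
      omega
  match k with
  | 0 =>
    simp only [rayw_0, nb]
    unfold cg
    by_cases hc : x.1 ≤ f.1
    · rw [if_pos hc, if_pos (by simpa using hc)]
      have h1 := pr_mul X (f.2 - 1)
      rw [sub_add_cancel] at h1
      rw [mul_comm, h1]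
      refine Finset.prod_congr rfl fun i _ => ?_
      refine if_congr ⟨fun h => h.1, fun h => ⟨h, ?_⟩⟩ rfl rfl
      have := hX i
      unfold IntV at this
      rw [lt_abs, lt_abs] at hf
      omega
    · rw [if_neg hc, if_neg (by simpa using hc), mul_one]
      refine Finset.prod_eq_one fun i _ => if_neg ?_
      rintro ⟨h1, h2⟩
      have := hX i
      unfold IntV at this
      rw [lt_abs, lt_abs] at hf
      omega
  | 1 =>
    simp only [rayw_1, nb]
    rw [Finset.prod_const_one]
    unfold cg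
    simp only
    by_cases hc : x.1 ≤ f.1
    · rw [if_pos hc, if_pos (by omega)]
      have := pr_sq X f.2
      rw [sq] at this
      exact this.symm
    · by_cases hc' : x.1 ≤ f.1 + 1
      · rw [if_neg hc, if_pos hc', hout, mul_one]
        rw [lt_abs, lt_abs] at hf
        rw [lt_abs]
        omega
      · rw [if_neg hc, if_neg hc', mul_one]
  | 2 =>
    simp only [rayw_2, nb]
    unfold cg
    by_cases hc : x.1 ≤ f.1
    · rw [if_pos hc, if_pos (by simpa using hc), pr_mul]
      refine Finset.prod_congr rfl fun i _ => ?_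
      refine if_congr ⟨fun h => h.1, fun h => ⟨h, ?_⟩⟩ rfl rfl
      have := hX i
      unfold IntV at this
      rw [lt_abs, lt_abs] at hf
      omega
    · rw [if_neg hc, if_neg (by simpa using hc), mul_one]
      refine Finset.prod_eq_one fun i _ => if_neg ?_
      rintro ⟨h1, h2⟩
      have := hX i
      unfold IntV at this
      rw [lt_abs, lt_abs] at hf
      omega
  | 3 =>
    simp only [rayw_3, nb]
    rw [Finset.prod_const_one]
    unfold cg
    simp only
    by_cases hc : x.1 ≤ f.1 - 1
    · rw [if_pos (by omega), if_pos hc]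
      have := pr_sq X f.2
      rw [sq] at this
      exact this.symm
    · by_cases hc' : x.1 ≤ f.1
      · rw [if_pos hc', if_neg hc, hout, mul_one]
        rw [lt_abs, lt_abs] at hf
        rw [lt_abs]
        omega
      · rw [if_neg hc', if_neg hc, mul_one]

/-- **the cluster class** for the background of a site set -/
theorem clOn {n : ℕ} (hn : Even n) {T : Set (ℤ × ℤ)} {b : Bool} {X : Fin n → ℤ × ℤ} {x : Face}
    {R ρ : ℝ} (h : ∀ f ∈ bx x ρ, Inn T f) (hX : ∀ i, IntV x R (X i)) :
    ClOn (wl (wX (wDom T b) X)) (cg X x) x R ρ where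
  sym := sym_wl _
  gauge := cg_gauge X x
  sq f hf k := by
    rw [wl_wX, mul_pow, prod_rayw_sq, one_mul, wl_inn (h f hf)]
  eq f hf hf' k := by
    rw [wl_wX, clu_gauge hn hX hf' k, wl_inn (h f hf)]

/-! ### regularity at the cluster -/

/-- **`RB` at the centre of a cluster** -/
theorem rb_clu : ∃ K : ℝ, 0 ≤ K ∧ ∀ (G : Type) [CommRing G] [CN G] [CNL G] (w : BW G) (X : Face)
    (s : Face → ℝ) (R R0 : ℕ), Inj G R0 → ClOn (wl w) s X R R0 → ∀ Λ : ℕ,
      RegGx893.RB w (pf X) K Λ (R + 1) R0 := by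
  obtain ⟨C1, hC1, hg⟩ := grow_clu
  refine ⟨2 * Campx891.K2 C1 110000000000, ?_, ?_⟩
  · have := BridgeRegx386.K2_nonneg hC1 (by norm_num : (0:ℝ) ≤ 110000000000)
    positivity
  intro G _ _ _ w X s R R0 hI H Λ
  refine BridgeRBx386.rb_of_grow (by omega) hC1 (by norm_num) hI (fun r h1 h2 => ?_) ?_ Λ
  · refine H.gap (by push_cast at h1; linarith [Nat.cast_nonneg (α := ℝ) R]) ?_
    rw [fdr_self]
    linarith
  · have := hg (wl w) s X R R0 (Nat.cast_nonneg R) H
    push_cast
    exact this

/-- faces of the plane: `pf` is the identity -/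
theorem pf_int (X : Face) : (pf X : ℤ × ℤ) = X := by
  unfold pf
  simp

/-- **`RB` at the cluster** of the background of a site set -/
theorem rb_clu_dom : ∃ K : ℝ, 0 ≤ K ∧ ∀ {n : ℕ}, Even n → ∀ (T : Set (ℤ × ℤ)) (b : Bool)
    (X : Fin n → ℤ × ℤ) (x : Face) (R R0 : ℕ), (∀ f ∈ bx x (R0 : ℝ), Inn T f) →
      (∀ i, IntV x (R : ℝ) (X i)) → ∀ Λ : ℕ,
        RegGx893.RB (wX (wDom T b) X) x K Λ (R + 1) R0 := by
  obtain ⟨K, hK, H⟩ := rb_clu
  refine ⟨K, hK, fun hn T b X x R R0 h hX Λ => ?_⟩
  have := H ℤ (wX (wDom T b) X) x (cg X x) R R0 (inj_int R0) (clOn hn h hX) Λ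
  rwa [pf_int] at this

end Crest.Agent.R165.GeoClux892

end
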