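import Crest.Agent.R165.GeoCh_416

/-!
R165, block GEO, part 6: the complement of the lattice domain is connected (globally, and inside any rectangle
containing the lattice domain with margin one).
-/

set_option autoImplicit false

namespace Crest.Agent.R165.Geo

open Complex Set Filter Topology
open Crest.ProbabilityR.IsingModel

/-- clamp of a real number to `[-b, b]` -/
noncomputable def cl (b t : ℝ) : ℝ := max (-b) (min b t)

theorem cl_cont (b : ℝ) : Continuous (cl b) := by unfold cl; fun_prop

theorem cl_mem {b : ℝ} (hb : 0 ≤ b) (t : ℝ) : |cl b t| ≤ b := by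
  unfold cl
  rw [abs_le]
  exact ⟨le_max_left _ _, max_le (by linarith) (min_le_left _ _)⟩

theorem cl_id {b t : ℝ} (ht : |t| ≤ b) : cl b t = t := by
  rw [abs_le] at ht
  unfold cl
  rw [min_eq_right ht.2, max_eq_right ht.1]

theorem cl_out {b t : ℝ} (hb : 0 ≤ b) (ht : ¬ |t| ≤ b) : |cl b t| = b := by
  unfold cl
  rw [abs_le] at ht
  rcases le_or_gt t b with h | h
  · have h1 : t < -b := by
      by_contra hc
      push Not at hc
      exact ht ⟨hc, h⟩
    rw [min_eq_right h, max_eq_left h1.le, abs_neg, abs_of_nonneg hb]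
  · rw [min_eq_left h.le, max_eq_right (by linarith), abs_of_nonneg hb]

/-- the complement of `D` inside a large box is connected -/
theorem compl_box_preconnected {D : Set ℂ} (hc : IsPreconnected Dᶜ) {b : ℝ} (hb : 0 ≤ b)
    (hD : D ⊆ obox 0 b) : IsPreconnected (Dᶜ ∩ sbox 0 b) := by
  have himg : (fun q : ℂ => ((cl b q.re : ℝ) : ℂ) + ((cl b q.im : ℝ) : ℂ) * I) '' Dᶜ = Dᶜ ∩ sbox 0 b := by
    ext q
    constructor
    · rintro ⟨p, hp, rfl⟩
      constructor
      · by_cases hpb : |p.re| ≤ b ∧ |p.im| ≤ b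
        · simp only [cl_id hpb.1, cl_id hpb.2, Complex.re_add_im]; exact hp
        · intro hq
          have := hD hq
          simp only [obox, mem_ofPred_eq, sub_zero] at this
          simp only [Complex.add_re, Complex.ofReal_re, Complex.mul_re, Complex.I_re, mul_zero,
            Complex.ofReal_im, Complex.I_im, mul_one, sub_self, add_zero, Complex.add_im, Complex.mul_im,
            zero_add] at this
          rw [not_and_or] at hpb
          rcases hpb with h | h
          · rw [cl_out hb h] at this; exact lt_irrefl _ this.1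
          · rw [cl_out hb h] at this; exact lt_irrefl _ this.2
      · simp only [sbox, mem_ofPred_eq, sub_zero]
        simp only [Complex.add_re, Complex.ofReal_re, Complex.mul_re, Complex.I_re, mul_zero,
            Complex.ofReal_im, Complex.I_im, mul_one, sub_self, add_zero, Complex.add_im, Complex.mul_im,
            zero_add]
        exact ⟨cl_mem hb _, cl_mem hb _⟩
    · rintro ⟨hq, hqb⟩
      simp only [sbox, mem_ofPred_eq, sub_zero] at hqb
      refine ⟨q, hq, ?_⟩
      simp only [cl_id hqb.1, cl_id hqb.2, Complex.re_add_im]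
  rw [← himg]
  apply hc.image
  apply Continuous.continuousOn
  have h1 := cl_cont b
  have : Continuous fun q : ℂ => cl b q.re := h1.comp Complex.continuous_re
  have : Continuous fun q : ℂ => cl b q.im := h1.comp Complex.continuous_im
  fun_prop

/-- outside points near a point of the complement -/
theorem CD.near_ext {D : Set ℂ} {r M : ℝ} (h : CD D r M) {U : Set ℂ} (hU : IsOpen U) {q : ℂ} (hq : q ∈ U)
    (hqD : q ∉ D) : ∃ q' ∈ U, q' ∉ closure D := by
  by_cases hqc : q ∈ closure D
  · have hqf : q ∈ frontier D := by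
      rw [h.isOpen.frontier_eq]; exact ⟨hqc, hqD⟩
    obtain ⟨k, g, g', hg⟩ := h.chart q hqf
    obtain ⟨ε, hε, hb⟩ := Metric.isOpen_iff.1 hU q hq
    set t : ℝ := -(min (ε/2) r) with ht
    have hr := h.r_pos
    have hmin : 0 < min (ε/2) r := lt_min (by linarith) hr
    have ht1 : |t| ≤ 3 * r := by
      rw [ht, abs_neg, abs_of_pos hmin]; exact (min_le_right _ _).trans (by linarith)
    have h1 := hg.mem 0 t (by simp [hr.le]) ht1
    have h2 := hg.bdry 0 t (by simp [hr.le]) ht1
    refine ⟨q + I ^ k * (((0:ℝ):ℂ) + (t:ℂ) * I), ?_, ?_⟩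
    · apply hb
      rw [Metric.mem_ball, dist_eq_norm, add_sub_cancel_left, norm_mul, norm_I_pow, one_mul]
      simp only [Complex.ofReal_zero, zero_add, norm_mul, Complex.norm_real, Complex.norm_I, mul_one,
        Real.norm_eq_abs]
      rw [ht, abs_neg, abs_of_pos hmin]
      exact (min_le_left _ _).trans_lt (by linarith)
    · rw [hg.zero] at h1 h2
      rw [closure_eq_self_union_frontier]
      rintro (h3 | h3)
      · rw [h1] at h3; linarith
      · rw [h2] at h3; linarith
  · exact ⟨q, hq, hqc⟩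

theorem CD.bound {D : Set ℂ} {r M : ℝ} (h : CD D r M) : ∃ b : ℝ, 0 < b ∧ closure D ⊆ obox 0 b := by
  obtain ⟨R, hR⟩ := h.bdd.closure.subset_ball 0
  refine ⟨max R 1, lt_max_of_lt_right one_pos, fun q hq => ?_⟩
  have := hR hq
  rw [Metric.mem_ball, dist_zero_right] at this
  simp only [obox, mem_ofPred_eq, sub_zero]
  exact ⟨((Complex.abs_re_le_norm q).trans_lt this).trans_le (le_max_left _ _),
    ((Complex.abs_im_le_norm q).trans_lt this).trans_le (le_max_left _ _)⟩

/-- sites of the complement with mesh point in a large fixed box are joined in the complement. -/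
theorem CD.join_compl_box {D : Set ℂ} {r M : ℝ} (h : CD D r M) {b : ℝ} (hb : 0 < b)
    (hDb : closure D ⊆ obox 0 b) :
    ∃ C : ℝ, ∀ᶠ a in 𝓝[>] (0:ℝ), ∀ u, u ∉ domainSites D a → meshPoint a u ∈ sbox 0 b →
      ∀ v, v ∉ domainSites D a → meshPoint a v ∈ sbox 0 b →
      ∃ n : ℕ, (n:ℝ) ≤ C / a ∧ PathIn (domainSites D a)ᶜ u v n := by
  have hcl : IsClosed (sbox 0 b) := by
    have h1 : Continuous fun q : ℂ => |(q - 0).re| := by fun_prop
    have h2 : Continuous fun q : ℂ => |(q - 0).im| := by fun_prop
    exact (isClosed_le h1 continuous_const).inter (isClosed_le h2 continuous_const)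
  have hbd : Bornology.IsBounded (sbox 0 b) := by
    apply (Metric.isBounded_closedBall (x := (0:ℂ)) (r := 2 * b)).subset
    intro q hq
    rw [Metric.mem_closedBall, dist_eq_norm]
    exact norm_le_of_sup hq.1 hq.2
  have hK : IsCompact (Dᶜ ∩ sbox 0 b) :=
    Metric.isCompact_of_isClosed_isBounded (h.isOpen.isClosed_compl.inter hcl) (hbd.subset inter_subset_right)
  set r0 := r / 2 with hr0
  have hr0' : 0 < r0 := by have := h.r_pos; positivity
  have := chain_join (compl_box_preconnected h.conn_compl.isPreconnected hb.le (subset_closure.trans hDb))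
    subset_rfl hK (fun a => {z | z ∉ domainSites D a ∧ meshPoint a z ∈ sbox 0 b})
    (fun a => (domainSites D a)ᶜ) (fun a z hz => ⟨hz.1, hz.2⟩) ?_ ?_
  · obtain ⟨C, hC⟩ := this
    refine ⟨C, ?_⟩
    filter_upwards [hC] with a ha u hu hub v hv hvb
    exact ha u ⟨hu, hub⟩ v ⟨hv, hvb⟩
  · intro p _
    refine ⟨obox p (r0 / 8), obox_open _ _, obox_self (by positivity), 3 * r0, ?_⟩
    filter_upwards [Ioo_mem_nhdsGT (show (0:ℝ) < r0 / 8 by positivity)] with a ha u hu v hv huU hvU
    obtain ⟨k, G, G', hG⟩ := latReg_domainSites h hr0' (by rw [hr0]; linarith) ha.1 (meshIndex a p)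
    obtain ⟨n1, n2⟩ := box_num ha.1 ha.2.le
    obtain ⟨n, hn, hp⟩ := hG.join_compl _ n1 hu.1 hv.1 (sn_of_obox ha.1 huU) (sn_of_obox ha.1 hvU)
    refine ⟨n, le_trans ?_ n2, hp.mono inter_subset_left⟩
    exact_mod_cast hn
  · rintro U hU ⟨q, hqU, hqD, hqb⟩
    -- first move outside the closure
    obtain ⟨q1, hq1U, hq1⟩ : ∃ q' ∈ U ∩ obox 0 b, q' ∉ closure D := by
      by_cases hqo : q ∈ obox 0 b
      · exact h.near_ext (hU.inter (obox_open 0 b)) ⟨hqU, hqo⟩ hqD
      · -- on the boundary of the box: shrink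
        have hqc : q ∉ closure D := fun hc => hqo (hDb hc)
        have hopen : IsOpen (U ∩ (closure D)ᶜ) := hU.inter isClosed_closure.isOpen_compl
        obtain ⟨ε, hε, hball⟩ := Metric.isOpen_iff.1 hopen q ⟨hqU, hqc⟩
        obtain ⟨s, hs0, hs1, hsε⟩ : ∃ s : ℝ, 0 < s ∧ s < 1 ∧ s * (‖q‖ + 1) < ε := by
          refine ⟨min (1/2) (ε / (2 * (‖q‖ + 1))), ?_, ?_, ?_⟩
          · apply lt_min (by norm_num); positivity
          · exact (min_le_left _ _).trans_lt (by norm_num)
          · calc min (1/2) (ε / (2 * (‖q‖ + 1))) * (‖q‖ + 1)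
                ≤ (ε / (2 * (‖q‖ + 1))) * (‖q‖ + 1) :=
                  mul_le_mul_of_nonneg_right (min_le_right _ _) (by positivity)
              _ = ε / 2 := by field_simp
              _ < ε := by linarith
        have hmem : ((1 - s : ℝ) : ℂ) * q ∈ Metric.ball q ε := by
          rw [Metric.mem_ball, dist_eq_norm]
          have : ((1 - s : ℝ) : ℂ) * q - q = ((-s : ℝ) : ℂ) * q := by push_cast; ring
          rw [this, norm_mul, Complex.norm_real, Real.norm_eq_abs, abs_neg, abs_of_pos hs0]
          nlinarith [norm_nonneg q]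
        refine ⟨((1 - s : ℝ) : ℂ) * q, ⟨(hball hmem).1, ?_⟩, (hball hmem).2⟩
        simp only [sbox, mem_ofPred_eq, sub_zero] at hqb
        simp only [obox, mem_ofPred_eq, sub_zero, Complex.re_ofReal_mul, Complex.im_ofReal_mul]
        rw [abs_mul, abs_mul, abs_of_pos (by linarith : (0:ℝ) < 1 - s)]
        have hx := abs_nonneg q.re
        have hy := abs_nonneg q.im
        constructor
        · nlinarith [hqb.1]
        · nlinarith [hqb.2]
    have hopen : IsOpen ((U ∩ obox 0 b) ∩ (closure D)ᶜ) :=
      (hU.inter (obox_open 0 b)).inter isClosed_closure.isOpen_compl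
    filter_upwards [dense_open hopen ⟨hq1U, hq1⟩] with a ha
    refine ⟨meshIndex a q1, ⟨fun hc => ha.2 (subset_closure hc), ?_⟩, ha.1.1⟩
    have := ha.1.2
    exact ⟨this.1.le, this.2.le⟩

end Crest.Agent.R165.Geo
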