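import Crest.Agent.R165.GeoI_838
import Crest.Agent.R165.ClAll_117

/-!
# Row 165 (S0250): the structures `Geo`, cluster phase (helper838)

* `Kcl`, `rb_cl_dom` : `RB` at every centre `z` of the box of a cluster (an even number of
  insertions in a box of radius `R1` about `z0`), radii `≥ 4 R1 + 8`, up to the distance to `bdS T`
* `KC` : the absolute constant `max KG Kcl`
* `geo_all` : with the SAME thresholds `r0`, `C0` (depending on `Λ` only)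
   (i) regular lattice sets with separated insertions, (ii) the plane with separated insertions,
   (iii) regular lattice sets with a cluster of insertions, radii `≥ max r0 (4 R1 + 8)`: no branch
   points, the marks `Z` contain the insertions
-/

set_option autoImplicit false

noncomputable section

open Crest.ProbabilityR.IsingModel
open Crest.Agent.R165.Geo
open Crest.Agent.R165.Latx683 (BW wDom wX wPl)
open Crest.Agent.R165.GDefx387 (fd fd_comm fd_triangle fd_self)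
open Crest.Agent.R165.RIfx891 (GapU EXb EXbr bx mem_bx_real)
open Crest.Agent.R165.RegGx893 (RB RD RX)
open Crest.Agent.R165.Bridgex386 (wl pf inj_int)
open Crest.Agent.R165.ClGrx117 (ClOn)
open Crest.Agent.R165.ClRegx117 (fdr)
open Crest.Agent.R165.RFlatx65
open Crest.Agent.R165.Flatx838 Crest.Agent.R165.GeoRDx838 Crest.Agent.R165.GeoRLx838
open Crest.Agent.R165.GeoIx838

namespace Crest.Agent.R165.GeoCox838

theorem fdr_le_fd (x z : ℤ × ℤ) : fdr x z = (fd x z : ℝ) := by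
  have h : (fd x z : ℤ) = max |x.1 - z.1| |x.2 - z.2| := by
    rw [RFlatx65.fd_int, Int.abs_eq_natAbs, Int.abs_eq_natAbs]
    omega
  have h2 : ((fd x z : ℤ) : ℝ) = ((max |x.1 - z.1| |x.2 - z.2| : ℤ) : ℝ) := by rw [h]
  rw [Int.cast_natCast] at h2
  rw [h2]
  unfold fdr
  push_cast
  rw [abs_sub_comm, abs_sub_comm (z.2 : ℝ)]

/-- **`RB` at a cluster** -/
theorem exists_clu : ∃ K : ℝ, 0 ≤ K ∧ ∀ {m : ℕ}, Even m → ∀ (T : Set (ℤ × ℤ)) (b : Bool)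
    (X : Fin m → ℤ × ℤ) (z0 z : ℤ × ℤ) (R1 R0 r0 : ℕ), z0 ∈ T → (∀ i, fd z0 (X i) ≤ R1) →
    (∀ y ∈ bdS T, R0 + R1 + 1 < fd z0 y) → fd z0 z ≤ R1 → 4 * R1 + 8 ≤ r0 → ∀ Λ : ℕ,
    RB (wX (wDom T b) X) z K Λ r0 R0 := by
  obtain ⟨K, hK, H⟩ := ClAllx117.rb_clu
  refine ⟨K, hK, ?_⟩
  intro m hm T b X z0 z R1 R0 r0 h0 hX hT hz hr0 Λ
  obtain ⟨s, hs⟩ := planeOn_bdS (T := T) (b := b) (X := (Fin.elim0 : Fin 0 → ℤ × ℤ)) (x := z0)
    (R := R0 + R1) h0 (fun y hy => hT y hy) (fun i => Fin.elim0 i)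
  rw [wX_zero] at hs
  have hX' : ∀ i, X i ∈ bx z0 (R1 : ℝ) := by
    intro i
    have h1 : fdr z0 (X i) ≤ R1 := by
      rw [fdr_le_fd]
      exact_mod_cast hX i
    rw [mem_bx_real]
    exact ⟨(le_max_left _ _).trans h1, (le_max_right _ _).trans h1⟩
  have h1 := ClAllx117.clOn_of_plane hm (Nat.cast_nonneg R1) hs hX'
  have h2 := H (wX (wDom T b) X) _ z0 z ((R1 : ℝ) + 1) ((R0 + R1 : ℕ) : ℝ) r0 R0 (by positivity)
    h1 (by
      rw [fdr_le_fd]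
      push_cast
      have : (fd z0 z : ℝ) ≤ R1 := by exact_mod_cast hz
      linarith) (by
      have : ((4 * R1 + 8 : ℕ) : ℝ) ≤ r0 := by exact_mod_cast hr0
      push_cast at this
      linarith) (inj_int R0) Λ
  rwa [ClAllx117.pf_int] at h2

/-- the cluster constant -/
def Kcl : ℝ := Classical.choose exists_clu

theorem rb_cl_dom {m : ℕ} (hm : Even m) (T : Set (ℤ × ℤ)) (b : Bool)
    (X : Fin m → ℤ × ℤ) (z0 z : ℤ × ℤ) (R1 R0 r0 : ℕ) (h0 : z0 ∈ T)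
    (hX : ∀ i, fd z0 (X i) ≤ R1) (hT : ∀ y ∈ bdS T, R0 + R1 + 1 < fd z0 y)
    (hz : fd z0 z ≤ R1) (hr0 : 4 * R1 + 8 ≤ r0) (Λ : ℕ) :
    RB (wX (wDom T b) X) z Kcl Λ r0 R0 :=
  (Classical.choose_spec exists_clu).2 hm T b X z0 z R1 R0 r0 h0 hX hT hz hr0 Λ

/-- **the absolute constant** of all backgrounds -/
def KC (C C' Cs : ℝ) : ℝ := max (KG C C' Cs) Kcl

theorem one_le_KC (C C' Cs : ℝ) : 1 ≤ KC C C' Cs := (one_le_KG C C' Cs).trans (le_max_left _ _)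

/-- **the configuration of a cluster** -/
structure Clu (T : Set (ℤ × ℤ)) {m : ℕ} (X : Fin m → ℤ × ℤ) (z0 : ℤ × ℤ) (Z : Set (ℤ × ℤ))
    (R1 R0 : ℕ) : Prop where
  ev : Even m
  mem : z0 ∈ T
  sub : ∀ i, X i ∈ Z
  box : ∀ z ∈ Z, fd z0 z ≤ R1
  bd : ∀ y ∈ bdS T, R0 + R1 + 1 < fd z0 y

theorem Clu.mono {T : Set (ℤ × ℤ)} {m : ℕ} {X : Fin m → ℤ × ℤ} {z0 : ℤ × ℤ} {Z : Set (ℤ × ℤ)}
    {R1 R0 R0' : ℕ} (h : Clu T X z0 Z R1 R0) (hR : R0' ≤ R0) : Clu T X z0 Z R1 R0' :=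
  ⟨h.ev, h.mem, h.sub, h.box, fun y hy => lt_of_le_of_lt (by omega) (h.bd y hy)⟩

/-- **`Geo` of all backgrounds, the same thresholds** -/
theorem geo_all {C C' Cs : ℝ} (hC : 0 ≤ C) (hC' : 0 ≤ C') (hCs : 0 ≤ Cs) (hG : GapU Cs)
    (hE : EXb C) (hE' : EXbr C') (Λ : ℕ) :
    ∃ r0 C0 : ℕ, 2 ≤ r0 ∧ 1 ≤ C0 ∧
      (∀ (T : Set (ℤ × ℤ)) (ρ κ : ℝ), LatReg T ρ κ → κ * ρ ≤ 1 →
      ∀ (m : ℕ) (X : Fin m → ℤ × ℤ) (Z : Set (ℤ × ℤ)) (b : Bool) (R0 : ℕ), (C0 : ℝ) * R0 ≤ ρ →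
      Sep T X Z R0 →
      RegIx893.Geo (wX (wDom T b) X) (KC C C' Cs) Λ r0 R0 X (bdS T) Z Set.univ) ∧
      (∀ (m : ℕ) (X : Fin m → ℤ × ℤ) (Z : Set (ℤ × ℤ)) (R0 : ℕ), SepP X Z R0 →
      RegIx893.Geo (wX (wPl ℤ) X) (KC C C' Cs) Λ r0 R0 X ∅ Z Set.univ) ∧
      (∀ (T : Set (ℤ × ℤ)) (ρ κ : ℝ), LatReg T ρ κ → κ * ρ ≤ 1 →
      ∀ (m : ℕ) (X : Fin m → ℤ × ℤ) (z0 : ℤ × ℤ) (Z : Set (ℤ × ℤ)) (b : Bool) (R1 R0 : ℕ),
      (C0 : ℝ) * R0 ≤ ρ → Clu T X z0 Z R1 R0 → ∀ loc : Fin 0 → ℤ × ℤ,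
      RegIx893.Geo (wX (wDom T b) X) (KC C C' Cs) Λ (max r0 (4 * R1 + 8)) R0 loc (bdS T) Z
        Set.univ) := by
  obtain ⟨r1, C1, hr1, hC1, H1, H2⟩ := geoI_plane hC hC' hCs hG hE hE' Λ
  obtain ⟨r2, C2, hr2, hC2, H3⟩ := rd_lat hC hCs hG hE Λ 0
  have hKG : KG C C' Cs ≤ KC C C' Cs := le_max_left _ _
  refine ⟨max r1 r2, max C1 C2, hr1.trans (le_max_left _ _), hC1.trans (le_max_left _ _),
    ?_, ?_, ?_⟩
  · intro T ρ κ h hκ m X Z b R0 hR0 hS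
    have h1 : (C1 : ℝ) * R0 ≤ ρ := le_trans (mul_le_mul_of_nonneg_right
      (by exact_mod_cast le_max_left C1 C2) (Nat.cast_nonneg R0)) hR0
    exact (H1 T ρ κ h hκ m X Z b R0 h1 hS).mono hKG le_rfl (le_max_left _ _) le_rfl
  · intro m X Z R0 hS
    exact (H2 m X Z R0 hS).mono hKG le_rfl (le_max_left _ _) le_rfl
  · intro T ρ κ h hκ m X z0 Z b R1 R0 hR0 hS loc
    have h2 : (C2 : ℝ) * R0 ≤ ρ := le_trans (mul_le_mul_of_nonneg_right
      (by exact_mod_cast le_max_right C1 C2) (Nat.cast_nonneg R0)) hR0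
    have hKD : KD C Cs ≤ KC C C' Cs := (le_max_left _ _).trans hKG
    have hCR : max BridgeRBx386.CRB 24 ≤ KC C C' Cs :=
      ((le_max_right _ _).trans (le_max_right _ _)).trans hKG
    refine ⟨one_le_KC C C' Cs, ?_, ?_, fun i => Fin.elim0 i, ?_⟩
    · intro y hy
      refine (H3 T ρ κ h hκ m X b R0 h2 y y hy (by rw [fd_self]) fun i => ?_).mono hKD le_rfl
        ((le_max_right _ _).trans (le_max_left _ _)) le_rfl
      have h3 := hS.bd y hy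
      have h4 := fd_triangle z0 (X i) y
      have h5 := hS.box _ (hS.sub i)
      rw [fd_comm y (X i)]
      omega
    · intro z hz
      exact (rb_cl_dom hS.ev T b X z0 z R1 R0 (max (max r1 r2) (4 * R1 + 8)) hS.mem
        (fun i => hS.box _ (hS.sub i)) hS.bd (hS.box z hz) (le_max_right _ _) Λ).mono
        (le_max_right _ _) le_rfl le_rfl le_rfl
    · intro x _
      rcases rb_lat T X b Λ R0 x with h3 | ⟨y, hy, -, h3⟩
      · exact Or.inl (h3.mono hCR le_rfl (by omega) le_rfl)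
      · refine Or.inr (Or.inl ⟨y, ?_, h3.mono hCR le_rfl (by omega) le_rfl⟩)
        rcases hy with hy | ⟨i, rfl⟩
        · exact Or.inl hy
        · exact Or.inr (hS.sub i)

end Crest.Agent.R165.GeoCox838
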