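import Crest.Agent.R165.GeoCo_416

/-!
R165, block GEO, part 7: global statements for the lattice domain: finiteness, connectedness of the complement in
the whole lattice and inside any rectangle containing the lattice domain with margin one.
-/

set_option autoImplicit false

namespace Crest.Agent.R165.Geo

open Complex Set Filter Topology
open Crest.ProbabilityR.IsingModel

/-- clamp of an integer to `[l, u]` -/
def icl (l u t : ℤ) : ℤ := max l (min u t)

theorem icl_mem {l u : ℤ} (h : l ≤ u) (t : ℤ) : l ≤ icl l u t ∧ icl l u t ≤ u := by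
  unfold icl; omega

theorem icl_id {l u t : ℤ} (h1 : l ≤ t) (h2 : t ≤ u) : icl l u t = t := by unfold icl; omega

theorem icl_out {l u t : ℤ} (h : l ≤ u) (ht : ¬ (l ≤ t ∧ t ≤ u)) : icl l u t = l ∨ icl l u t = u := by
  unfold icl; omega

theorem icl_step {l u s t : ℤ} (h : |s - t| = 1) : icl l u s = icl l u t ∨ |icl l u s - icl l u t| = 1 := by
  unfold icl
  rcases abs_eq (by norm_num : (0:ℤ) ≤ 1) |>.1 h with h | h
  · by_cases h1 : max l (min u s) = max l (min u t)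
    · exact Or.inl h1
    · right; rw [abs_eq (by norm_num)]; omega
  · by_cases h1 : max l (min u s) = max l (min u t)
    · exact Or.inl h1
    · right; rw [abs_eq (by norm_num)]; omega

/-- rectangle of sites -/
def rect (l1 u1 l2 u2 : ℤ) : Set (ℤ × ℤ) := {w | l1 ≤ w.1 ∧ w.1 ≤ u1 ∧ l2 ≤ w.2 ∧ w.2 ≤ u2}

/-- clamp of a path to a rectangle -/
theorem PathIn.clamp {T : Set (ℤ × ℤ)} {l1 u1 l2 u2 : ℤ} (h1 : l1 ≤ u1) (h2 : l2 ≤ u2)
    (hT : ∀ w ∈ T, l1 < w.1 ∧ w.1 < u1 ∧ l2 < w.2 ∧ w.2 < u2) {u v : ℤ × ℤ} {n : ℕ} (hp : PathIn Tᶜ u v n) :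
    ∃ m ≤ n, PathIn (Tᶜ ∩ rect l1 u1 l2 u2) (icl l1 u1 u.1, icl l2 u2 u.2) (icl l1 u1 v.1, icl l2 u2 v.2) m := by
  have hmem : ∀ w ∈ Tᶜ, ((icl l1 u1 w.1, icl l2 u2 w.2) : ℤ × ℤ) ∈ Tᶜ ∩ rect l1 u1 l2 u2 := by
    intro w hw
    have m1 := icl_mem h1 w.1
    have m2 := icl_mem h2 w.2
    refine ⟨?_, m1.1, m1.2, m2.1, m2.2⟩
    intro hc
    have := hT _ hc
    simp only at this
    by_cases hw1 : l1 ≤ w.1 ∧ w.1 ≤ u1
    · by_cases hw2 : l2 ≤ w.2 ∧ w.2 ≤ u2
      · rw [icl_id hw1.1 hw1.2, icl_id hw2.1 hw2.2] at hc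
        exact hw hc
      · rcases icl_out h2 hw2 with h | h <;> rw [h] at this <;> omega
    · rcases icl_out h1 hw1 with h | h <;> rw [h] at this <;> omega
  obtain ⟨w, e0, e1, e2, e3⟩ := hp
  have : ∀ i ≤ n, ∃ m ≤ i, PathIn (Tᶜ ∩ rect l1 u1 l2 u2) (icl l1 u1 (w 0).1, icl l2 u2 (w 0).2)
      (icl l1 u1 (w i).1, icl l2 u2 (w i).2) m := by
    intro i
    induction i with
    | zero => intro _; exact ⟨0, le_rfl, PathIn.refl (hmem _ (e2 0 (Nat.zero_le _)))⟩
    | succ i ih =>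
      intro hi
      obtain ⟨m, hm, hp⟩ := ih (by omega)
      have hstep := e3 i (by omega)
      by_cases heq : ((icl l1 u1 (w i).1, icl l2 u2 (w i).2) : ℤ × ℤ) = (icl l1 u1 (w (i+1)).1, icl l2 u2 (w (i+1)).2)
      · rw [← heq]; exact ⟨m, by omega, hp⟩
      · refine ⟨m + 1, by omega, hp.trans (PathIn.step (hmem _ (e2 i (by omega))) (hmem _ (e2 _ hi)) ?_)⟩
        rcases hstep with ⟨g1, g2⟩ | ⟨g1, g2⟩
        · left
          refine ⟨by simp only [g1], ?_⟩
          rcases icl_step (l := l1) (u := u1) g2 with h | h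
          · exact absurd (by rw [h, g1]) heq
          · exact h
        · right
          refine ⟨by simp only [g1], ?_⟩
          rcases icl_step (l := l2) (u := u2) g2 with h | h
          · exact absurd (by rw [h, g1]) heq
          · exact h
  obtain ⟨m, hm, hp⟩ := this n le_rfl
  rw [e0, e1] at hp
  exact ⟨m, hm, hp⟩

/-- a far site is joined to its clamp outside `T` -/
theorem PathIn.to_clamp {T : Set (ℤ × ℤ)} {l1 u1 l2 u2 : ℤ} (h1 : l1 ≤ u1) (h2 : l2 ≤ u2)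
    (hT : ∀ w ∈ T, l1 < w.1 ∧ w.1 < u1 ∧ l2 < w.2 ∧ w.2 < u2) {u : ℤ × ℤ} (hu : u ∉ T) :
    PathIn Tᶜ u (icl l1 u1 u.1, icl l2 u2 u.2)
      ((icl l1 u1 u.1 - u.1).natAbs + (icl l2 u2 u.2 - u.2).natAbs) := by
  have p1 : PathIn Tᶜ (u.1, u.2) (icl l1 u1 u.1, u.2) (icl l1 u1 u.1 - u.1).natAbs := by
    apply PathIn.horiz'
    intro i hi1 hi2 hc
    by_cases hu1 : l1 ≤ u.1 ∧ u.1 ≤ u1
    · rw [icl_id hu1.1 hu1.2, min_self] at hi1
      rw [icl_id hu1.1 hu1.2, max_self] at hi2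
      have : i = u.1 := le_antisymm hi2 hi1
      rw [this] at hc
      exact hu hc
    · have := hT _ hc
      simp only at this
      unfold icl at hi1 hi2
      omega
  have p2 : PathIn Tᶜ (icl l1 u1 u.1, u.2) (icl l1 u1 u.1, icl l2 u2 u.2) (icl l2 u2 u.2 - u.2).natAbs := by
    apply PathIn.vert'
    intro i hi1 hi2 hc
    by_cases hu2 : l2 ≤ u.2 ∧ u.2 ≤ u2
    · rw [icl_id hu2.1 hu2.2, min_self] at hi1
      rw [icl_id hu2.1 hu2.2, max_self] at hi2
      have : i = u.2 := le_antisymm hi2 hi1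
      rw [this] at hc
      by_cases hu1 : l1 ≤ u.1 ∧ u.1 ≤ u1
      · rw [icl_id hu1.1 hu1.2] at hc; exact hu hc
      · have := hT _ hc
        simp only at this
        rcases icl_out h1 hu1 with h | h <;> rw [h] at this <;> omega
    · have := hT _ hc
      simp only at this
      unfold icl at hi1 hi2
      omega
  exact p1.trans p2

/-- margins: for a small mesh, all sites of `D` are strictly inside the square of half-side `⌊b/a⌋` -/
theorem CD.site_bound {D : Set ℂ} {b : ℝ} (hDb : closure D ⊆ obox 0 b) {a : ℝ} (ha : 0 < a)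
    {w : ℤ × ℤ} (hw : w ∈ domainSites D a) : |(w.1:ℝ)| < b / a ∧ |(w.2:ℝ)| < b / a := by
  have := hDb (subset_closure hw)
  simp only [obox, mem_ofPred_eq, sub_zero, meshPoint] at this
  rw [abs_mul, abs_mul, abs_of_pos ha] at this
  rw [lt_div_iff₀ ha, lt_div_iff₀ ha]
  constructor
  · linarith [this.1]
  · linarith [this.2]

theorem CD.finite_sites {D : Set ℂ} {r M : ℝ} (h : CD D r M) {a : ℝ} (ha : 0 < a) : (domainSites D a).Finite := by
  obtain ⟨b, -, hb⟩ := h.bound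
  apply ((Set.finite_Icc (-⌈b/a⌉) ⌈b/a⌉).prod (Set.finite_Icc (-⌈b/a⌉) ⌈b/a⌉)).subset
  intro w hw
  obtain ⟨h1, h2⟩ := CD.site_bound hb ha hw
  have e := Int.le_ceil (b/a)
  rw [abs_lt] at h1 h2
  simp only [mem_prod, mem_Icc]
  refine ⟨⟨?_, ?_⟩, ?_, ?_⟩
  · have : (-(⌈b/a⌉:ℝ)) < w.1 := by linarith
    have : (-⌈b/a⌉) < w.1 := by exact_mod_cast this
    omega
  · have : (w.1:ℝ) < ⌈b/a⌉ := by linarith
    have : w.1 < ⌈b/a⌉ := by exact_mod_cast this
    omega
  · have : (-(⌈b/a⌉:ℝ)) < w.2 := by linarith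
    have : (-⌈b/a⌉) < w.2 := by exact_mod_cast this
    omega
  · have : (w.2:ℝ) < ⌈b/a⌉ := by linarith
    have : w.2 < ⌈b/a⌉ := by exact_mod_cast this
    omega

/-- the complement is connected in the whole lattice. -/
theorem CD.join_compl {D : Set ℂ} {r M : ℝ} (h : CD D r M) :
    ∃ C : ℝ, ∀ᶠ a in 𝓝[>] (0:ℝ), ∀ u, u ∉ domainSites D a → ∀ v, v ∉ domainSites D a →
      ∃ n : ℕ, (n:ℝ) ≤ C / a + 2 * (sn u + sn v) ∧ PathIn (domainSites D a)ᶜ u v n := by
  obtain ⟨b, hb, hDb⟩ := h.bound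
  obtain ⟨C, hC⟩ := h.join_compl_box (b := b + 1) (by linarith) (fun q hq => by
    have := hDb hq
    simp only [obox, mem_ofPred_eq] at this ⊢
    exact ⟨by linarith [this.1], by linarith [this.2]⟩)
  refine ⟨C, ?_⟩
  filter_upwards [hC, Ioo_mem_nhdsGT (show (0:ℝ) < 1 by norm_num)] with a hCa ha u hu v hv
  have ha0 : 0 < a := ha.1
  -- the square
  set N : ℤ := ⌈b / a⌉ with hN
  have hN0 : 0 ≤ N := by rw [hN]; positivity
  have hNb : a * N ≤ b + 1 := by
    have : (N:ℝ) < b / a + 1 := Int.ceil_lt_add_one _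
    have h2 : a * (N:ℝ) < a * (b / a + 1) := mul_lt_mul_of_pos_left this ha0
    have h3 : a * (b / a + 1) = b + a := by field_simp
    linarith [ha.2]
  have hT : ∀ w ∈ domainSites D a, -N < w.1 ∧ w.1 < N ∧ -N < w.2 ∧ w.2 < N := by
    intro w hw
    obtain ⟨h1, h2⟩ := CD.site_bound hDb ha0 hw
    have e := Int.le_ceil (b/a)
    rw [abs_lt] at h1 h2
    rw [← hN] at e
    refine ⟨?_, ?_, ?_, ?_⟩
    · have : (-(N:ℝ)) < w.1 := by linarith
      exact_mod_cast this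
    · have : (w.1:ℝ) < N := by linarith
      exact_mod_cast this
    · have : (-(N:ℝ)) < w.2 := by linarith
      exact_mod_cast this
    · have : (w.2:ℝ) < N := by linarith
      exact_mod_cast this
  have hNN : -N ≤ N := by omega
  have pu := PathIn.to_clamp hNN hNN hT hu
  have pv := PathIn.to_clamp hNN hNN hT hv
  have hbox : ∀ x : ℤ × ℤ, meshPoint a (icl (-N) N x.1, icl (-N) N x.2) ∈ sbox 0 (b + 1) := by
    intro x
    have m1 := icl_mem hNN x.1
    have m2 := icl_mem hNN x.2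
    simp only [sbox, mem_ofPred_eq, sub_zero, meshPoint]
    rw [abs_mul, abs_mul, abs_of_pos ha0]
    constructor
    · have : |(icl (-N) N x.1 : ℝ)| ≤ N := by
        have : |icl (-N) N x.1| ≤ N := abs_le.2 ⟨by omega, by omega⟩
        exact_mod_cast this
      calc a * |(icl (-N) N x.1 : ℝ)| ≤ a * N := mul_le_mul_of_nonneg_left this ha0.le
        _ ≤ b + 1 := hNb
    · have : |(icl (-N) N x.2 : ℝ)| ≤ N := by
        have : |icl (-N) N x.2| ≤ N := abs_le.2 ⟨by omega, by omega⟩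
        exact_mod_cast this
      calc a * |(icl (-N) N x.2 : ℝ)| ≤ a * N := mul_le_mul_of_nonneg_left this ha0.le
        _ ≤ b + 1 := hNb
  obtain ⟨n, hn, p⟩ := hCa _ pu.right_mem (hbox u) _ pv.right_mem (hbox v)
  refine ⟨_, ?_, (pu.trans p).trans pv.symm⟩
  have hlen : ∀ x : ℤ × ℤ, (((icl (-N) N x.1 - x.1).natAbs + (icl (-N) N x.2 - x.2).natAbs : ℕ) : ℝ) ≤ 2 * sn x := by
    intro x
    have : (((icl (-N) N x.1 - x.1).natAbs + (icl (-N) N x.2 - x.2).natAbs : ℕ) : ℤ) ≤ 2 * sn x := by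
      unfold icl sn
      push_cast
      have h1 : |max (-N) (min N x.1) - x.1| ≤ |x.1| := by
        rcases abs_cases x.1 with hx | hx <;> rw [abs_le] <;> omega
      have h2 : |max (-N) (min N x.2) - x.2| ≤ |x.2| := by
        rcases abs_cases x.2 with hx | hx <;> rw [abs_le] <;> omega
      have h3 := le_max_left |x.1| |x.2|
      have h4 := le_max_right |x.1| |x.2|
      linarith
    have key : ∀ n : ℕ, (n:ℤ) ≤ 2 * sn x → (n:ℝ) ≤ 2 * sn x := by
      intro n hn; exact_mod_cast hn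
    exact key _ this
  have hlu := hlen u
  have hlv := hlen v
  push_cast at hlu hlv ⊢
  linarith

/-- the complement is connected inside every rectangle containing the sites with margin one. -/
theorem CD.join_compl_rect {D : Set ℂ} {r M : ℝ} (h : CD D r M) :
    ∀ᶠ a in 𝓝[>] (0:ℝ), ∀ l1 u1 l2 u2 : ℤ, l1 ≤ u1 → l2 ≤ u2 →
      (∀ w ∈ domainSites D a, l1 < w.1 ∧ w.1 < u1 ∧ l2 < w.2 ∧ w.2 < u2) →
      ∀ u ∈ rect l1 u1 l2 u2, u ∉ domainSites D a → ∀ v ∈ rect l1 u1 l2 u2, v ∉ domainSites D a →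
      JoinIn ((domainSites D a)ᶜ ∩ rect l1 u1 l2 u2) u v := by
  obtain ⟨C, hC⟩ := h.join_compl
  filter_upwards [hC] with a ha l1 u1 l2 u2 h1 h2 hT u hur hu v hvr hv
  obtain ⟨n, -, p⟩ := ha u hu v hv
  obtain ⟨m, -, q⟩ := p.clamp h1 h2 hT
  rw [icl_id hur.1 hur.2.1, icl_id hur.2.2.1 hur.2.2.2, icl_id hvr.1 hvr.2.1, icl_id hvr.2.2.1 hvr.2.2.2] at q
  exact q.joinIn

end Crest.Agent.R165.Geo
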