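import Crest.Agent.R165.RFlat2_65

/-!
# Row 165 (S0250): discs and clusters of insertions (helper65)

* `rayw_gauge_out`, `gauge_out`: an even number of insertions inside a box is pure gauge outside
* `domainSites_smul`: scaling of the site set
-/

set_option autoImplicit false

noncomputable section

open Crest.ProbabilityR.IsingModel
open Crest.Agent.R165.Latx683 Crest.Agent.R165.GDefx387 Crest.Agent.R165.Bridgex386
  Crest.Agent.R165.RIfx891
open Crest.Agent.R165.Tr1x40 (nb)

namespace Crest.Agent.R165.RFlatx65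

/-- sign of one insertion outside the box, before using that their number is even -/
def sgo (z0 : Face) (v f : Face) : ℝ := if z0.1 < f.1 ∧ v.2 ≤ f.2 then -1 else 1

theorem sgo_sq (z0 v f : Face) : sgo z0 v f ^ 2 = 1 := by unfold sgo; split_ifs <;> norm_num

/-- faces not above the box: the ray of one interior vertex -/
theorem rayw_gauge_out {z0 v : Face} {r : ℝ} (hr : 1 ≤ r) (hv : IntV z0 r v) {f : Face}
    (hf : f ∉ bx z0 r) (h2 : f.2 ≤ z0.2 + ⌊r⌋) (k : Fin 4) :
    rayw v f k = sgo z0 v f * sgo z0 v (nb f k) := by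
  have hr' : 1 ≤ ⌊r⌋ := by rwa [Int.le_floor, Int.cast_one]
  unfold IntV at hv
  rw [mem_bx, abs_le, abs_le] at hf
  unfold sgo
  match k with
  | 0 => rw [rayw_0]; exact ite_xor (by simp only [nb]; omega)
  | 1 => rw [rayw_1]; exact ite_same (by simp only [nb]; omega)
  | 2 => rw [rayw_2]; exact ite_xor (by simp only [nb]; omega)
  | 3 => rw [rayw_3]; exact ite_same (by simp only [nb]; omega)

/-- faces above the box: no ray, the same sign for all insertions -/
theorem rayw_above {z0 v : Face} {r : ℝ} (hv : IntV z0 r v) {f : Face}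
    (h2 : z0.2 + ⌊r⌋ < f.2) (k : Fin 4) :
    rayw v f k = 1 ∧ sgo z0 v f = (if z0.1 < f.1 then -1 else 1) ∧
      sgo z0 v (nb f k) = (if z0.1 < (nb f k).1 then -1 else 1) := by
  unfold IntV at hv
  unfold sgo
  refine ⟨?_, if_congr (by omega) rfl rfl, ?_⟩
  · match k with
    | 0 => rw [rayw_0, if_neg (by omega)]
    | 1 => rw [rayw_1]
    | 2 => rw [rayw_2, if_neg (by omega)]
    | 3 => rw [rayw_3]
  · match k with
    | 0 => exact if_congr (by simp only [nb]; omega) rfl rfl
    | 1 => exact if_congr (by simp only [nb]; omega) rfl rfl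
    | 2 => exact if_congr (by simp only [nb]; omega) rfl rfl
    | 3 => exact if_congr (by simp only [nb]; omega) rfl rfl

/-- **an even number of insertions inside a box is pure gauge outside the box** -/
theorem gauge_out {n : ℕ} (hn : Even n) {z0 : Face} {r : ℝ} (hr : 1 ≤ r)
    {X : Fin n → ℤ × ℤ} (hX : ∀ i, IntV z0 r (X i)) :
    ∃ s : Face → ℝ, Gauge s ∧ ∀ f, f ∉ bx z0 r → ∀ k,
      ∏ i, rayw (X i) f k = s f * s (nb f k) := by
  refine ⟨fun f => ∏ i, sgo z0 (X i) f, fun f => ?_, fun f hf k => ?_⟩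
  · show (∏ i, sgo z0 (X i) f) ^ 2 = 1
    rw [← Finset.prod_pow]
    exact Finset.prod_eq_one fun i _ => sgo_sq _ _ _
  · rcases le_or_gt f.2 (z0.2 + ⌊r⌋) with h2 | h2
    · show _ = (∏ i, sgo z0 (X i) f) * (∏ i, sgo z0 (X i) (nb f k))
      rw [← Finset.prod_mul_distrib]
      exact Finset.prod_congr rfl fun i _ => rayw_gauge_out hr (hX i) hf h2 k
    · have e1 : ∏ i, rayw (X i) f k = 1 :=
        Finset.prod_eq_one fun i _ => (rayw_above (hX i) h2 k).1
      have e2 : ∏ i, sgo z0 (X i) f = 1 := by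
        rw [Finset.prod_congr rfl fun i _ => (rayw_above (hX i) h2 k).2.1, Finset.prod_const,
          Finset.card_univ, Fintype.card_fin]
        split_ifs
        · exact hn.neg_one_pow
        · exact one_pow _
      have e3 : ∏ i, sgo z0 (X i) (nb f k) = 1 := by
        rw [Finset.prod_congr rfl fun i _ => (rayw_above (hX i) h2 k).2.2, Finset.prod_const,
          Finset.card_univ, Fintype.card_fin]
        split_ifs
        · exact hn.neg_one_pow
        · exact one_pow _
      show _ = (∏ i, sgo z0 (X i) f) * (∏ i, sgo z0 (X i) (nb f k))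
      rw [e1, e2, e3, one_mul]

/-- the same on lifted weights, any background -/
theorem wl_gauge_out {n : ℕ} (hn : Even n) {z0 : Face} {r : ℝ} (hr : 1 ≤ r)
    {X : Fin n → ℤ × ℤ} (hX : ∀ i, IntV z0 r (X i)) :
    ∃ s : Face → ℝ, Gauge s ∧ ∀ (w : BW ℤ) f, f ∉ bx z0 r → ∀ k,
      wl (wX w X) f k = s f * s (nb f k) * wl w f k := by
  obtain ⟨s, hs, H⟩ := gauge_out hn hr hX
  exact ⟨s, hs, fun w f hf k => by rw [wl_wX, H f hf k]⟩

theorem intV_of_fd {z0 v : Face} {R : ℕ} (h : fd z0 v < R) : IntV z0 (R : ℝ) v := by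
  have h1 : fd z0 v ≤ R - 1 := by omega
  rw [← mem_bx_iff_fd, mem_bx, Int.floor_natCast, abs_le, abs_le] at h1
  unfold IntV
  rw [Int.floor_natCast]
  omega

/-- scaling: `domainSites (ball 0 B) a = domainSites (ball 0 1) (a / B)` -/
theorem domainSites_ball {B a : ℝ} (hB : 0 < B) :
    domainSites (Metric.ball (0 : ℂ) B) a = domainSites (Metric.ball (0 : ℂ) 1) (a / B) := by
  ext z
  have e : meshPoint (a / B) z = (B : ℂ)⁻¹ * meshPoint a z := by
    apply Complex.ext
    · simp [meshPoint, ← Complex.ofReal_inv, div_eq_inv_mul, mul_assoc]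
    · simp [meshPoint, ← Complex.ofReal_inv, div_eq_inv_mul, mul_assoc]
  simp only [domainSites, Set.mem_ofPred_eq, mem_ball_zero_iff, e, norm_mul, norm_inv,
    Complex.norm_real, Real.norm_eq_abs, abs_of_pos hB]
  rw [inv_mul_lt_iff₀ hB, mul_one]

end Crest.Agent.R165.RFlatx65
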