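import Mathlib
import Crest.Agent.R165.GeoD_65

/-!
# Row 165, block GEO (helper65), file E: the frontier of a domain with charts is Lebesgue null
-/

set_option autoImplicit false

open Set Topology Filter Metric MeasureTheory

namespace Crest.Agent.R165.GeoDx65

open Crest.Agent.R165.Geo
open Complex (I)

variable {D : Set ℂ} {p : ℂ} {r M : ℝ} {k : ℕ} {g g' : ℝ → ℝ}

/-- the graph of a differentiable function, in a rotated frame, is a null set -/
theorem volume_graph {g g' : ℝ → ℝ} (hg : ∀ s, HasDerivAt g (g' s) s) (p : ℂ) (k : ℕ) :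
    volume ((fun z : ℂ => p + I ^ k * ((z.re:ℂ) + (g z.re:ℂ) * I)) '' univ) = 0 := by
  -- the derivative
  let L : ℂ → (ℂ →L[ℝ] ℂ) := fun z =>
    (Complex.reCLM).smulRight (I ^ k * (1 + ((g' z.re : ℝ) : ℂ) * I))
  refine addHaar_image_eq_zero_of_det_fderivWithin_eq_zero (f' := L) volume (fun z _ => ?_)
    (fun z _ => ?_)
  · have h1 : HasFDerivAt (fun z : ℂ => z.re) Complex.reCLM z := Complex.reCLM.hasFDerivAt
    have h2 : HasDerivAt (fun s : ℝ => p + I ^ k * ((s:ℂ) + (g s:ℂ) * I))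
        (I ^ k * (1 + ((g' z.re : ℝ) : ℂ) * I)) z.re := by
      have h3 : HasDerivAt (fun s : ℝ => (s:ℂ)) 1 z.re := Complex.ofRealCLM.hasDerivAt
      have h4 : HasDerivAt (fun s : ℝ => (g s:ℂ)) ((g' z.re : ℝ) : ℂ) z.re := (hg z.re).ofReal_comp
      exact ((h3.add (h4.mul_const I)).const_mul (I ^ k)).const_add p
    have h5 := h2.hasFDerivAt.comp z h1
    have h6 : (ContinuousLinearMap.toSpanSingleton ℝ (I ^ k * (1 + ((g' z.re : ℝ) : ℂ) * I))).comp
        Complex.reCLM = L z := by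
      ext v
      simp [L]
    rw [h6] at h5
    exact h5.hasFDerivWithinAt
  · -- the kernel contains `I`
    have hker : L z I = 0 := by simp [L]
    by_contra hdet
    have h1 : (((L z : ℂ →L[ℝ] ℂ) : ℂ →ₗ[ℝ] ℂ)).det ≠ 0 := hdet
    have h2 := LinearMap.bot_lt_ker_of_det_eq_zero (f := ((L z : ℂ →L[ℝ] ℂ) : ℂ →ₗ[ℝ] ℂ))
    have h3 : IsUnit (((L z : ℂ →L[ℝ] ℂ) : ℂ →ₗ[ℝ] ℂ)).det := isUnit_iff_ne_zero.2 h1
    have h4 : Function.Injective (((L z : ℂ →L[ℝ] ℂ) : ℂ →ₗ[ℝ] ℂ)) := by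
      have := (LinearEquiv.ofIsUnitDet (v := Complex.basisOneI) (v' := Complex.basisOneI)
        (f := ((L z : ℂ →L[ℝ] ℂ) : ℂ →ₗ[ℝ] ℂ)) (by rwa [LinearMap.det_toMatrix])).injective
      exact this
    have h5 : (I : ℂ) = 0 := h4 (by rw [map_zero]; exact hker)
    exact Complex.I_ne_zero h5

/-- **the frontier is a null set** -/
theorem volume_frontier (h : CD D r M) : volume (frontier D) = 0 := by
  obtain ⟨S, hS, hcov⟩ := CD.frontier_cover h h.r_pos
  refine measure_mono_null (inter_eq_left.2 hcov |>.symm.subset) ?_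
  rw [inter_iUnion₂]
  refine (measure_biUnion_null_iff S.countable_toSet).2 fun p hp => ?_
  obtain ⟨k, g, g', hc⟩ := h.chart p (hS p hp)
  refine measure_mono_null ?_ (volume_graph hc.hd p k)
  rintro z ⟨hz1, hz2⟩
  obtain ⟨s, t, hzst, -, hs, ht⟩ := exists_coord p k z
  rw [mem_ball, Complex.dist_eq] at hz2
  have h0 := h.r_pos
  have h1 : t = g s := (hc.bdry s t (by linarith) (by linarith)).1 (by rw [← hzst]; exact hz1)
  refine ⟨(s:ℂ), mem_univ _, ?_⟩
  rw [hzst, h1]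
  simp

end Crest.Agent.R165.GeoDx65
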