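import Crest.Agent.R165.GeoLat1_416

/-!
R165, block GEO, lattice part 2: paths, and consequences of a lattice chart `LocEpi`
(Taylor bound, tangent balls, number of boundary sites, local connectivity).
-/

set_option autoImplicit false

namespace Crest.Agent.R165.Geo

open Complex Set
open Crest.ProbabilityR.IsingModel

/-! ### paths -/

/-- nearest neighbour path with `n` steps inside `T` -/
def PathIn (T : Set (ℤ × ℤ)) (u v : ℤ × ℤ) (n : ℕ) : Prop :=
  ∃ w : ℕ → ℤ × ℤ, w 0 = u ∧ w n = v ∧ (∀ i ≤ n, w i ∈ T) ∧ ∀ i < n, nn (w i) (w (i+1))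

theorem nn.symm {u v : ℤ × ℤ} (h : nn u v) : nn v u := by
  rcases h with ⟨h1, h2⟩ | ⟨h1, h2⟩
  · exact Or.inl ⟨h1.symm, by rw [abs_sub_comm]; exact h2⟩
  · exact Or.inr ⟨h1.symm, by rw [abs_sub_comm]; exact h2⟩

theorem nn_comm {u v : ℤ × ℤ} : nn u v ↔ nn v u := ⟨nn.symm, nn.symm⟩

theorem nn_rotate {u v : ℤ × ℤ} : nn (rotate u) (rotate v) ↔ nn u v := by
  simp only [nn, rotate]
  have : |(-u.2) - (-v.2)| = |u.2 - v.2| := by rw [abs_sub_comm]; congr 1; ring
  rw [this, neg_inj]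
  tauto

theorem nn_rotate_iter (k : ℕ) {u v : ℤ × ℤ} : nn (rotate^[k] u) (rotate^[k] v) ↔ nn u v := by
  induction k with
  | zero => simp
  | succ k ih => rw [Function.iterate_succ_apply', Function.iterate_succ_apply', nn_rotate, ih]

theorem nn_add (z : ℤ × ℤ) {u v : ℤ × ℤ} : nn (z + u) (z + v) ↔ nn u v := by
  simp [nn]

theorem PathIn.refl {T : Set (ℤ × ℤ)} {u : ℤ × ℤ} (h : u ∈ T) : PathIn T u u 0 :=
  ⟨fun _ => u, rfl, rfl, fun _ _ => h, fun _ h => absurd h (by omega)⟩

theorem PathIn.left_mem {T : Set (ℤ × ℤ)} {u v : ℤ × ℤ} {n : ℕ} (h : PathIn T u v n) : u ∈ T := by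
  obtain ⟨w, h0, -, h2, -⟩ := h; rw [← h0]; exact h2 0 (Nat.zero_le _)

theorem PathIn.right_mem {T : Set (ℤ × ℤ)} {u v : ℤ × ℤ} {n : ℕ} (h : PathIn T u v n) : v ∈ T := by
  obtain ⟨w, -, h1, h2, -⟩ := h; rw [← h1]; exact h2 n le_rfl

theorem PathIn.mono {T T' : Set (ℤ × ℤ)} (hT : T ⊆ T') {u v : ℤ × ℤ} {n : ℕ} (h : PathIn T u v n) :
    PathIn T' u v n := by
  obtain ⟨w, h0, h1, h2, h3⟩ := h; exact ⟨w, h0, h1, fun i hi => hT (h2 i hi), h3⟩

theorem PathIn.symm {T : Set (ℤ × ℤ)} {u v : ℤ × ℤ} {n : ℕ} (h : PathIn T u v n) : PathIn T v u n := by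
  obtain ⟨w, h0, h1, h2, h3⟩ := h
  refine ⟨fun i => w (n - i), by simpa using h1, by simpa using h0, fun i _ => h2 _ (by omega), ?_⟩
  intro i hi
  have := h3 (n - (i+1)) (by omega)
  rw [show n - (i+1) + 1 = n - i by omega] at this
  exact this.symm

theorem PathIn.trans {T : Set (ℤ × ℤ)} {u v x : ℤ × ℤ} {n m : ℕ} (h : PathIn T u v n) (h' : PathIn T v x m) :
    PathIn T u x (n + m) := by
  obtain ⟨w, h0, h1, h2, h3⟩ := h
  obtain ⟨w', h0', h1', h2', h3'⟩ := h'
  refine ⟨fun i => if i ≤ n then w i else w' (i - n), by simpa using h0, ?_, ?_, ?_⟩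
  · by_cases hm : m = 0
    · subst hm; simp [h1, ← h1', h0']
    · have : ¬ n + m ≤ n := by omega
      simp only [this, if_false, Nat.add_sub_cancel_left, h1']
  · intro i hi
    by_cases hin : i ≤ n
    · simp only [hin, if_true]; exact h2 i hin
    · simp only [hin, if_false]; exact h2' _ (by omega)
  · intro i hi
    by_cases hin : i + 1 ≤ n
    · have : i ≤ n := by omega
      simp only [hin, this, if_true]; exact h3 i (by omega)
    · by_cases hin' : i ≤ n
      · have : i = n := by omega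
        subst this
        simp only [le_rfl, if_true, hin, if_false, Nat.add_sub_cancel_left, h1]
        rw [← h0']; exact h3' 0 (by omega)
      · simp only [hin', hin, if_false]
        have := h3' (i - n) (by omega)
        rwa [show i - n + 1 = i + 1 - n by omega] at this

theorem PathIn.step {T : Set (ℤ × ℤ)} {u v : ℤ × ℤ} (hu : u ∈ T) (hv : v ∈ T) (h : nn u v) : PathIn T u v 1 := by
  refine ⟨fun i => if i = 0 then u else v, by simp, by simp, ?_, ?_⟩
  · intro i _; by_cases hi : i = 0 <;> simp [hi, hu, hv]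
  · intro i hi; have : i = 0 := by omega
    subst this; simpa using h

theorem PathIn.joinIn {T : Set (ℤ × ℤ)} {u v : ℤ × ℤ} {n : ℕ} (h : PathIn T u v n) : JoinIn T u v := by
  obtain ⟨w, h0, h1, h2, h3⟩ := h
  have : ∀ i ≤ n, JoinIn T (w 0) (w i) := by
    intro i
    induction i with
    | zero => intro _; exact Relation.ReflTransGen.refl
    | succ i ih =>
      intro hi
      exact (ih (by omega)).tail ⟨h2 i (by omega), h2 _ hi, h3 i (by omega)⟩
  rw [← h0, ← h1]; exact this n le_rfl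

theorem JoinIn.exists_path {T : Set (ℤ × ℤ)} {u v : ℤ × ℤ} (hu : u ∈ T) (h : JoinIn T u v) :
    ∃ n, PathIn T u v n := by
  induction h with
  | refl => exact ⟨0, PathIn.refl hu⟩
  | tail _ hbc ih =>
    obtain ⟨n, hn⟩ := ih
    exact ⟨n+1, hn.trans (PathIn.step hbc.1 hbc.2.1 hbc.2.2)⟩

theorem JoinIn.symm {T : Set (ℤ × ℤ)} {u v : ℤ × ℤ} (h : JoinIn T u v) : JoinIn T v u := by
  induction h with
  | refl => exact Relation.ReflTransGen.refl
  | tail _ hbc ih => exact Relation.ReflTransGen.head ⟨hbc.2.1, hbc.1, hbc.2.2.symm⟩ ih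

/-- transport of a path by a lattice motion -/
theorem PathIn.map {T T' : Set (ℤ × ℤ)} {f : ℤ × ℤ → ℤ × ℤ} (hf : ∀ x y, nn x y → nn (f x) (f y))
    (hT : ∀ x ∈ T, f x ∈ T') {u v : ℤ × ℤ} {n : ℕ} (h : PathIn T u v n) : PathIn T' (f u) (f v) n := by
  obtain ⟨w, h0, h1, h2, h3⟩ := h
  exact ⟨fun i => f (w i), congrArg f h0, congrArg f h1, fun i hi => hT _ (h2 i hi), fun i hi => hf _ _ (h3 i hi)⟩

/-- vertical segment -/
theorem PathIn.vert {T : Set (ℤ × ℤ)} {x y : ℤ} (n : ℕ) (h : ∀ i : ℤ, 0 ≤ i → i ≤ n → (x, y + i) ∈ T) :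
    PathIn T (x, y) (x, y + n) n := by
  refine ⟨fun i => (x, y + i), by simp, rfl, fun i hi => h i (by positivity) (by exact_mod_cast hi), ?_⟩
  intro i _; right; simp

/-- horizontal segment -/
theorem PathIn.horiz {T : Set (ℤ × ℤ)} {x y : ℤ} (n : ℕ) (h : ∀ i : ℤ, 0 ≤ i → i ≤ n → (x + i, y) ∈ T) :
    PathIn T (x, y) (x + n, y) n := by
  refine ⟨fun i => (x + i, y), by simp, rfl, fun i hi => h i (by positivity) (by exact_mod_cast hi), ?_⟩
  intro i _; left; simp

theorem PathIn.horiz' {T : Set (ℤ × ℤ)} {x x' y : ℤ} (h : ∀ i : ℤ, min x x' ≤ i → i ≤ max x x' → (i, y) ∈ T) :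
    PathIn T (x, y) (x', y) (x' - x).natAbs := by
  rcases le_total x x' with hx | hx
  · have h1 := PathIn.horiz (T := T) (x := x) (y := y) (x' - x).natAbs (by
      intro i h0 h1
      apply h <;> rw [Int.natCast_natAbs, abs_of_nonneg (by omega)] at h1 <;> simp [hx] <;> omega)
    have : x + ((x' - x).natAbs : ℤ) = x' := by rw [Int.natCast_natAbs, abs_of_nonneg (by omega)]; ring
    rwa [this] at h1
  · have h1 := PathIn.horiz (T := T) (x := x') (y := y) (x' - x).natAbs (by
      intro i h0 h1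
      apply h <;> rw [Int.natCast_natAbs, abs_of_nonpos (by omega)] at h1 <;> simp [hx] <;> omega)
    have : x' + ((x' - x).natAbs : ℤ) = x := by rw [Int.natCast_natAbs, abs_of_nonpos (by omega)]; ring
    rw [this] at h1
    exact h1.symm

theorem PathIn.vert' {T : Set (ℤ × ℤ)} {x y y' : ℤ} (h : ∀ i : ℤ, min y y' ≤ i → i ≤ max y y' → (x, i) ∈ T) :
    PathIn T (x, y) (x, y') (y' - y).natAbs := by
  rcases le_total y y' with hx | hx
  · have h1 := PathIn.vert (T := T) (x := x) (y := y) (y' - y).natAbs (by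
      intro i h0 h1
      apply h <;> rw [Int.natCast_natAbs, abs_of_nonneg (by omega)] at h1 <;> simp [hx] <;> omega)
    have : y + ((y' - y).natAbs : ℤ) = y' := by rw [Int.natCast_natAbs, abs_of_nonneg (by omega)]; ring
    rwa [this] at h1
  · have h1 := PathIn.vert (T := T) (x := x) (y := y') (y' - y).natAbs (by
      intro i h0 h1
      apply h <;> rw [Int.natCast_natAbs, abs_of_nonpos (by omega)] at h1 <;> simp [hx] <;> omega)
    have : y' + ((y' - y).natAbs : ℤ) = y := by rw [Int.natCast_natAbs, abs_of_nonpos (by omega)]; ring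
    rw [this] at h1
    exact h1.symm

/-! ### rotations of the lattice -/

theorem rotate_rotate (x : ℤ × ℤ) : rotate (rotate x) = -x := rfl

theorem rotate_four (x : ℤ × ℤ) : rotate^[4] x = x := by
  show rotate (rotate (rotate (rotate x))) = x
  rw [rotate_rotate, rotate_rotate, neg_neg]

theorem rotate_iter_add (k : ℕ) (x y : ℤ × ℤ) : rotate^[k] (x + y) = rotate^[k] x + rotate^[k] y := by
  induction k with
  | zero => rfl
  | succ k ih =>
    rw [Function.iterate_succ_apply', Function.iterate_succ_apply', Function.iterate_succ_apply', ih]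
    simp only [rotate, Prod.mk_add_mk, Prod.fst_add, Prod.snd_add]
    ring_nf

/-- the inverse rotation -/
theorem rotate_iter_inv (k : ℕ) : ∃ m : ℕ, (∀ x, rotate^[m] (rotate^[k] x) = x) ∧
    (∀ x, rotate^[k] (rotate^[m] x) = x) := by
  refine ⟨3 * k, ?_, ?_⟩
  · intro x
    rw [← Function.iterate_add_apply, show 3 * k + k = 4 * k by ring, Function.iterate_mul]
    have : rotate^[4] = id := funext rotate_four
    rw [this]; simp
  · intro x
    rw [← Function.iterate_add_apply, show k + 3 * k = 4 * k by ring, Function.iterate_mul]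
    have : rotate^[4] = id := funext rotate_four
    rw [this]; simp

/-- sup norm of a site -/
def sn (w : ℤ × ℤ) : ℤ := max |w.1| |w.2|

theorem sn_rotate (w : ℤ × ℤ) : sn (rotate w) = sn w := by
  simp only [sn, rotate, abs_neg]; exact max_comm _ _

theorem sn_rotate_iter (k : ℕ) (w : ℤ × ℤ) : sn (rotate^[k] w) = sn w := by
  induction k with
  | zero => rfl
  | succ k ih => rw [Function.iterate_succ_apply', sn_rotate, ih]

theorem sn_le {w : ℤ × ℤ} {b : ℤ} : sn w ≤ b ↔ |w.1| ≤ b ∧ |w.2| ≤ b := by simp [sn]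

theorem sn_le_real {w : ℤ × ℤ} {b : ℝ} : (sn w : ℝ) ≤ b ↔ |(w.1:ℝ)| ≤ b ∧ |(w.2:ℝ)| ≤ b := by
  simp only [sn]
  push_cast
  exact max_le_iff

theorem sn_nonneg (w : ℤ × ℤ) : 0 ≤ sn w := le_max_of_le_left (abs_nonneg _)

theorem sn_add (u v : ℤ × ℤ) : sn (u + v) ≤ sn u + sn v := by
  rw [sn_le]
  have h1 := (sn_le (w := u)).1 le_rfl
  have h2 := (sn_le (w := v)).1 le_rfl
  constructor
  · exact (abs_add_le _ _).trans (add_le_add h1.1 h2.1)
  · exact (abs_add_le _ _).trans (add_le_add h1.2 h2.2)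

theorem sn_neg (u : ℤ × ℤ) : sn (-u) = sn u := by simp [sn]

theorem sn_sub_comm (u v : ℤ × ℤ) : sn (u - v) = sn (v - u) := by rw [← sn_neg, neg_sub]

theorem sn_nn {u v : ℤ × ℤ} (h : nn u v) : sn (u - v) = 1 := by
  rcases h with ⟨h1, h2⟩ | ⟨h1, h2⟩
  · have : (u - v).2 = 0 := by simp [h1]
    simp only [sn, this, abs_zero]
    have : (u - v).1 = u.1 - v.1 := rfl
    rw [this, h2]; rfl
  · have : (u - v).1 = 0 := by simp [h1]
    simp only [sn, this, abs_zero]
    have : (u - v).2 = u.2 - v.2 := rfl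
    rw [this, h2]; rfl

/-! ### consequences of a chart -/

section Epi

variable {T : Set (ℤ × ℤ)} {z : ℤ × ℤ} {ρ κ : ℝ} {k : ℕ} {G G' : ℝ → ℝ}

theorem LocEpi.lipG (h : LocEpi T z ρ κ k G G') (x y : ℝ) : |G x - G y| ≤ 3/2 * |x - y| := by
  have := Convex.norm_image_sub_le_of_norm_hasDerivWithin_le (f := G) (f' := G') (s := univ) (C := 3/2)
    (x := y) (y := x) (fun t _ => (h.hd t).hasDerivWithinAt) (fun t _ => by simpa using h.slope t)
    convex_univ (mem_univ _) (mem_univ _)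
  simpa using this

theorem LocEpi.taylor (h : LocEpi T z ρ κ k G G') (x y : ℝ) :
    |G y - G x - G' x * (y - x)| ≤ κ * (y - x)^2 := by
  set S : Set ℝ := uIcc x y with hS
  have hder : ∀ t ∈ S, HasDerivWithinAt (fun s => G s - G' x * s) (G' t - G' x) S t := fun t _ => by
    have := ((h.hd t).sub ((hasDerivAt_id t).const_mul (G' x))).hasDerivWithinAt (s := S)
    rw [mul_one] at this
    exact this
  have hb : ∀ t ∈ S, ‖G' t - G' x‖ ≤ κ * |y - x| := by
    intro t ht
    rw [Real.norm_eq_abs]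
    refine (h.lip t x).trans ?_
    have h1 : |t - x| ≤ |y - x| := by
      have := abs_sub_left_of_mem_uIcc ht
      exact this
    by_cases hκ : 0 ≤ κ
    · exact mul_le_mul_of_nonneg_left h1 hκ
    · exfalso
      have := h.lip 0 1
      have h2 : (0:ℝ) ≤ κ * |(0:ℝ) - 1| := (abs_nonneg _).trans this
      norm_num at h2
      exact hκ h2
  have := Convex.norm_image_sub_le_of_norm_hasDerivWithin_le hder hb (convex_uIcc x y)
    (left_mem_uIcc) (right_mem_uIcc)
  have e : G y - G' x * y - (G x - G' x * x) = G y - G x - G' x * (y - x) := by ring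
  simp only [Real.norm_eq_abs] at this
  rw [e] at this
  calc |G y - G x - G' x * (y - x)| ≤ κ * |y - x| * |y - x| := this
    _ = κ * (y - x)^2 := by rw [mul_assoc, ← sq, sq_abs]

theorem LocEpi.kappa_nonneg (h : LocEpi T z ρ κ k G G') : 0 ≤ κ := by
  have := h.lip 0 1
  have h2 : (0:ℝ) ≤ κ * |(0:ℝ) - 1| := (abs_nonneg _).trans this
  norm_num at h2
  exact h2

/-- the position of a site in the frame of the chart -/
theorem LocEpi.mem_T (h : LocEpi T z ρ κ k G G') {m : ℕ} (hm : ∀ x, rotate^[k] (rotate^[m] x) = x)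
    {u : ℤ × ℤ} (hu : (sn (u - z) : ℝ) ≤ ρ) :
    u ∈ T ↔ G (rotate^[m] (u - z)).1 < (rotate^[m] (u - z)).2 := by
  have h1 : ((sn (rotate^[m] (u - z)) : ℤ) : ℝ) ≤ ρ := by rw [sn_rotate_iter]; exact hu
  rw [sn_le_real] at h1
  have := h.mem (rotate^[m] (u - z)) h1.1 h1.2
  rw [hm] at this
  rw [← this]
  simp

/-- a boundary site is close to the graph -/
theorem LocEpi.near_graph (h : LocEpi T z ρ κ k G G') (hρ : 2 ≤ ρ) {u : ℤ × ℤ} (hzu : nn z u)
    (hdiff : (z ∈ T ∧ u ∉ T) ∨ (z ∉ T ∧ u ∈ T)) : |G 0| ≤ 3/2 := by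
  obtain ⟨m, -, hm⟩ := rotate_iter_inv k
  have hz := h.mem_T hm (u := z) (by simp [sn]; linarith)
  have hsn : sn (u - z) = 1 := sn_nn hzu.symm
  have hu := h.mem_T hm (u := u) (by rw [hsn]; norm_num; linarith)
  simp only [sub_self] at hz
  have h0 : rotate^[m] (0 : ℤ × ℤ) = 0 := by
    have : ∀ m : ℕ, rotate^[m] (0 : ℤ × ℤ) = 0 := by
      intro m; induction m with
      | zero => rfl
      | succ m ih => rw [Function.iterate_succ_apply', ih]; simp [rotate]
    exact this m
  rw [h0] at hz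
  simp only [Prod.fst_zero, Prod.snd_zero, Int.cast_zero] at hz
  -- the rotated neighbour
  have hn : nn (rotate^[m] (u - z)) 0 := by
    have : nn (rotate^[m] (u - z)) (rotate^[m] (z - z)) := by
      rw [nn_rotate_iter, sub_eq_add_neg, sub_eq_add_neg, add_comm u, add_comm z, nn_add]
      exact hzu.symm
    simpa [h0] using this
  set v := rotate^[m] (u - z) with hv
  have hl := h.lipG (v.1 : ℝ) 0
  rw [sub_zero] at hl
  rcases hn with ⟨h1, h2⟩ | ⟨h1, h2⟩
  · -- horizontal
    have hv2 : v.2 = 0 := h1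
    have hv1 : |(v.1 : ℝ)| = 1 := by
      have : |v.1 - 0| = 1 := h2
      rw [sub_zero] at this
      exact_mod_cast this
    rw [hv1] at hl
    rw [hv2, Int.cast_zero] at hu
    have hl' := abs_le.1 hl
    rw [abs_le]
    rcases hdiff with ⟨ha, hb⟩ | ⟨ha, hb⟩
    · rw [hz] at ha; rw [hu] at hb; push Not at hb; constructor <;> linarith
    · rw [hz] at ha; rw [hu] at hb; push Not at ha; constructor <;> linarith
  · have hv1 : v.1 = 0 := h1
    have hv2 : |(v.2 : ℝ)| = 1 := by
      have : |v.2 - 0| = 1 := h2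
      rw [sub_zero] at this
      exact_mod_cast this
    rw [hv1, Int.cast_zero] at hu
    rw [abs_le]
    have := abs_le.1 hv2.le
    rcases hdiff with ⟨ha, hb⟩ | ⟨ha, hb⟩
    · rw [hz] at ha; rw [hu] at hb; push Not at hb; constructor <;> linarith
    · rw [hz] at ha; rw [hu] at hb; push Not at ha; constructor <;> linarith

end Epi

end Crest.Agent.R165.Geo
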