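import Mathlib
import Crest.Agent.R165.GeoLat2_416

/-!
# Row 165, block GEO (helper65), file F: blow-up limits of regular lattice sets (GEO-5)

* `blowup`: sets `T n` with `LatReg (T n) (ρ n) (κ n)`, `ρ n → ∞`, `κ n → 0`, base points `z n` at bounded
  distance from `T n` and from its complement: along a subsequence the sets `T n`, seen from `z n` in a
  fixed rotated frame, converge locally to a lattice half plane (up to the sites on the line).
* `LocEpi.line`: quantitative form, `|G s - (G 0 + G' 0 * s)| ≤ κ s²`, and the inclusion of `T` between two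
  parallel half planes in any box.
* `LocEpi.rescaled`: `|G (R s) / R - (G 0 / R + G' 0 * s)| ≤ κ R s²`.
-/

set_option autoImplicit false

open Set Topology Filter

namespace Crest.Agent.R165.GeoFx65

open Crest.Agent.R165.Geo
open Crest.ProbabilityR.IsingModel

variable {T : Set (ℤ × ℤ)} {z : ℤ × ℤ} {ρ κ : ℝ} {k : ℕ} {G G' : ℝ → ℝ}

theorem rotate_mod4 (k : ℕ) (w : ℤ × ℤ) : rotate^[k % 4] w = rotate^[k] w := by
  conv_rhs => rw [← Nat.div_add_mod k 4]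
  rw [Function.iterate_add_apply, Function.iterate_mul]
  have h4 : (rotate^[4] : ℤ × ℤ → ℤ × ℤ) = id := funext rotate_four
  rw [h4, Function.iterate_id]
  rfl

theorem LocEpi.mod4 (h : LocEpi T z ρ κ k G G') : LocEpi T z ρ κ (k % 4) G G' :=
  ⟨h.hd, h.slope, h.lip, fun w h1 h2 => by rw [rotate_mod4]; exact h.mem w h1 h2⟩

/-- comparison with the tangent line at the centre -/
theorem LocEpi.line (h : LocEpi T z ρ κ k G G') (s : ℝ) :
    |G s - (G 0 + G' 0 * s)| ≤ κ * s ^ 2 := by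
  have := h.taylor 0 s
  rw [sub_zero] at this
  rwa [← sub_sub]

/-- the rescaled chart function -/
theorem LocEpi.rescaled (h : LocEpi T z ρ κ k G G') {R : ℝ} (hR : 0 < R) (s : ℝ) :
    |G (R * s) / R - (G 0 / R + G' 0 * s)| ≤ κ * R * s ^ 2 := by
  have h1 := LocEpi.line h (R * s)
  have e : G (R * s) / R - (G 0 / R + G' 0 * s) = (G (R * s) - (G 0 + G' 0 * (R * s))) / R := by
    field_simp
  rw [e, abs_div, abs_of_pos hR, div_le_iff₀ hR]
  refine h1.trans (le_of_eq ?_)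
  ring

/-- `T` lies between two parallel half planes in every box -/
theorem LocEpi.between (h : LocEpi T z ρ κ k G G') {R : ℝ} (hR : R ≤ ρ) (w : ℤ × ℤ)
    (h1 : |(w.1:ℝ)| ≤ R) (h2 : |(w.2:ℝ)| ≤ R) :
    (G 0 + G' 0 * w.1 + κ * R ^ 2 < w.2 → z + rotate^[k] w ∈ T) ∧
      (z + rotate^[k] w ∈ T → G 0 + G' 0 * w.1 - κ * R ^ 2 < w.2) := by
  have h3 := abs_le.1 (LocEpi.line h w.1)
  have h4 : κ * (w.1:ℝ) ^ 2 ≤ κ * R ^ 2 := by
    refine mul_le_mul_of_nonneg_left ?_ h.kappa_nonneg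
    rw [← sq_abs (w.1:ℝ)]
    exact pow_le_pow_left₀ (abs_nonneg _) h1 2
  rw [h.mem w (h1.trans hR) (h2.trans hR)]
  constructor
  · intro h5; linarith [h3.2]
  · intro h5; linarith [h3.1]

/-- the chart function at the centre is bounded by the distance to both sides -/
theorem LocEpi.abs_G0 (h : LocEpi T z ρ κ k G G') {u v : ℤ × ℤ} {B : ℤ} (hB : (B:ℝ) ≤ ρ)
    (hu : u ∈ T) (hv : v ∉ T) (huz : sn (u - z) ≤ B) (hvz : sn (v - z) ≤ B) :
    |G 0| ≤ 5 / 2 * B := by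
  obtain ⟨m, -, hm⟩ := rotate_iter_inv k
  have huz' : ((sn (u - z) : ℤ) : ℝ) ≤ B := by exact_mod_cast huz
  have hvz' : ((sn (v - z) : ℤ) : ℝ) ≤ B := by exact_mod_cast hvz
  have h1 := (h.mem_T hm (huz'.trans hB)).1 hu
  have h2 := (h.mem_T hm (hvz'.trans hB)).not.1 hv
  have h3 : ((sn (rotate^[m] (u - z)) : ℤ) : ℝ) ≤ B := by rw [sn_rotate_iter]; exact huz'
  have h4 : ((sn (rotate^[m] (v - z)) : ℤ) : ℝ) ≤ B := by rw [sn_rotate_iter]; exact hvz'
  rw [sn_le_real] at h3 h4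
  set u' := rotate^[m] (u - z)
  set v' := rotate^[m] (v - z)
  have h5 := abs_le.1 (h.lipG u'.1 0)
  have h6 := abs_le.1 (h.lipG v'.1 0)
  rw [sub_zero] at h5 h6
  have h7 := abs_le.1 h3.2
  have h8 := abs_le.1 h4.2
  push Not at h2
  rw [abs_le]
  constructor
  · linarith [h6.2, h4.1]
  · linarith [h5.1, h3.1]

/-- **blow-up limits are lattice half planes** -/
theorem blowup {T : ℕ → Set (ℤ × ℤ)} {ρ κ : ℕ → ℝ} (hreg : ∀ n, LatReg (T n) (ρ n) (κ n))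
    (hρ : Tendsto ρ atTop atTop) (hκ : Tendsto κ atTop (𝓝 0)) {z u v : ℕ → ℤ × ℤ} {B : ℤ}
    (hu : ∀ n, u n ∈ T n) (hv : ∀ n, v n ∉ T n) (huz : ∀ n, sn (u n - z n) ≤ B)
    (hvz : ∀ n, sn (v n - z n) ≤ B) :
    ∃ φ : ℕ → ℕ, StrictMono φ ∧ ∃ (k : ℕ) (α β : ℝ) (T' : Set (ℤ × ℤ)),
      k < 4 ∧ |α| ≤ 3 / 2 ∧ |β| ≤ 5 / 2 * B ∧
      (∀ w, ∀ᶠ n in atTop, (z (φ n) + rotate^[k] w ∈ T (φ n) ↔ w ∈ T')) ∧
      (∀ w : ℤ × ℤ, α * w.1 + β < w.2 → w ∈ T') ∧
      (∀ w : ℤ × ℤ, w ∈ T' → α * w.1 + β ≤ w.2) := by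
  classical
  -- charts
  choose k0 G G' hG0 using fun n => hreg n (z n)
  set k : ℕ → ℕ := fun n => k0 n % 4 with hk
  have hG : ∀ n, LocEpi (T n) (z n) (ρ n) (κ n) (k n) (G n) (G' n) := fun n => LocEpi.mod4 (hG0 n)
  -- start late enough
  obtain ⟨n₀, hn₀⟩ : ∃ n₀, ∀ n ≥ n₀, (B:ℝ) ≤ ρ n := by
    have := (tendsto_atTop.1 hρ (B:ℝ))
    exact eventually_atTop.1 this
  -- the sequence in a compact space
  let X : Type := ℝ × ℝ × Fin 4 × ((ℤ × ℤ) → Bool)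
  let x : ℕ → X := fun n => (G (n + n₀) 0, G' (n + n₀) 0,
    ⟨k (n + n₀), Nat.mod_lt _ (by norm_num)⟩,
    fun w => decide (z (n + n₀) + rotate^[k (n + n₀)] w ∈ T (n + n₀)))
  let K : Set X := Icc (-(5 / 2 * (B:ℝ))) (5 / 2 * B) ×ˢ (Icc (-(3 / 2 : ℝ)) (3 / 2) ×ˢ
    ((univ : Set (Fin 4)) ×ˢ (univ : Set ((ℤ × ℤ) → Bool))))
  have hK : IsCompact K := isCompact_Icc.prod (isCompact_Icc.prod (isCompact_univ.prod isCompact_univ))
  have hx : ∀ n, x n ∈ K := fun n => by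
    refine ⟨?_, ?_, mem_univ _, mem_univ _⟩
    · have := LocEpi.abs_G0 (hG (n + n₀)) (hn₀ _ (Nat.le_add_left _ _)) (hu _) (hv _) (huz _) (hvz _)
      exact abs_le.1 this
    · exact abs_le.1 ((hG (n + n₀)).slope 0)
  obtain ⟨⟨β, α, k', χ⟩, hlim, ψ, hψ, hconv⟩ := hK.tendsto_subseq hx
  have hc1 : Tendsto (fun n => G (ψ n + n₀) 0) atTop (𝓝 β) :=
    (continuous_fst.tendsto _).comp hconv
  have hc2 : Tendsto (fun n => G' (ψ n + n₀) 0) atTop (𝓝 α) :=
    ((continuous_fst.comp continuous_snd).tendsto _).comp hconv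
  have hc3 : Tendsto (fun n => (⟨k (ψ n + n₀), Nat.mod_lt _ (by norm_num)⟩ : Fin 4)) atTop
      (𝓝 k') :=
    ((continuous_fst.comp (continuous_snd.comp continuous_snd)).tendsto _).comp hconv
  have hc4 : Tendsto (fun n => fun w =>
      decide (z (ψ n + n₀) + rotate^[k (ψ n + n₀)] w ∈ T (ψ n + n₀))) atTop (𝓝 χ) :=
    ((continuous_snd.comp (continuous_snd.comp continuous_snd)).tendsto _).comp hconv
  have hk' : ∀ᶠ n in atTop, k (ψ n + n₀) = k' := by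
    rw [nhds_discrete] at hc3
    filter_upwards [tendsto_pure.1 hc3] with n hn
    rw [← hn]
  have hχ : ∀ w, ∀ᶠ n in atTop,
      decide (z (ψ n + n₀) + rotate^[k (ψ n + n₀)] w ∈ T (ψ n + n₀)) = χ w := fun w => by
    have h1 := (tendsto_pi_nhds.1 hc4) w
    rw [nhds_discrete] at h1
    exact tendsto_pure.1 h1
  have hψ' : StrictMono (fun n => ψ n + n₀) := fun a b hab => Nat.add_lt_add_right (hψ hab) _
  have hρ' : Tendsto (fun n => ρ (ψ n + n₀)) atTop atTop := hρ.comp hψ'.tendsto_atTop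
  have hκ' : Tendsto (fun n => κ (ψ n + n₀)) atTop (𝓝 0) := hκ.comp hψ'.tendsto_atTop
  -- convergence of the chart functions
  have hGw : ∀ s : ℝ, Tendsto (fun n => G (ψ n + n₀) s) atTop (𝓝 (α * s + β)) := fun s => by
    have h1 : Tendsto (fun n => G (ψ n + n₀) 0 + G' (ψ n + n₀) 0 * s) atTop (𝓝 (β + α * s)) :=
      hc1.add (hc2.mul_const s)
    have h2 : Tendsto (fun n => G (ψ n + n₀) s - (G (ψ n + n₀) 0 + G' (ψ n + n₀) 0 * s)) atTop
        (𝓝 0) := by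
      refine squeeze_zero_norm (a := fun n => κ (ψ n + n₀) * s ^ 2) (fun n => ?_) ?_
      · exact LocEpi.line (hG (ψ n + n₀)) s
      · simpa using hκ'.mul_const (s ^ 2)
    have h3 := h2.add h1
    simp only [sub_add_cancel, zero_add] at h3
    rwa [add_comm] at h3
  -- in the box, for large `n`
  have hbox : ∀ w : ℤ × ℤ, ∀ᶠ n in atTop, |(w.1:ℝ)| ≤ ρ (ψ n + n₀) ∧ |(w.2:ℝ)| ≤ ρ (ψ n + n₀) :=
    fun w => (tendsto_atTop.1 hρ' _).and (tendsto_atTop.1 hρ' _)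
  refine ⟨fun n => ψ n + n₀, hψ', k', α, β, {w | χ w = true}, k'.2, abs_le.2 hlim.2.1,
    abs_le.2 hlim.1, fun w => ?_, fun w hw => ?_, fun w hw => ?_⟩
  · filter_upwards [hk', hχ w] with n h1 h2
    rw [h1] at h2
    show _ ↔ χ w = true
    rw [← h2, decide_eq_true_iff]
  · have h1 : ∀ᶠ n in atTop, G (ψ n + n₀) w.1 < w.2 := (hGw w.1).eventually_lt_const hw
    obtain ⟨n, h2, h3, h4⟩ := (h1.and ((hbox w).and (hχ w))).exists
    show χ w = true
    rw [← h4, decide_eq_true_iff, (hG (ψ n + n₀)).mem w h3.1 h3.2]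
    exact h2
  · have h1 : ∀ᶠ n in atTop, G (ψ n + n₀) w.1 ≤ w.2 := by
      filter_upwards [hbox w, hχ w] with n h3 h4
      have h5 : χ w = true := hw
      rw [← h4, decide_eq_true_iff, (hG (ψ n + n₀)).mem w h3.1 h3.2] at h5
      exact h5.le
    exact le_of_tendsto (hGw w.1) h1

/-- local convergence is uniform on finite boxes -/
theorem eventually_box {T : ℕ → Set (ℤ × ℤ)} {T' : Set (ℤ × ℤ)} {z : ℕ → ℤ × ℤ} {k : ℕ}
    (h : ∀ w, ∀ᶠ n in atTop, (z n + rotate^[k] w ∈ T n ↔ w ∈ T')) (N : ℤ) :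
    ∀ᶠ n in atTop, ∀ w : ℤ × ℤ, sn w ≤ N → (z n + rotate^[k] w ∈ T n ↔ w ∈ T') := by
  have hfin : {w : ℤ × ℤ | sn w ≤ N}.Finite := by
    refine ((finite_Icc (-N) N).prod (finite_Icc (-N) N)).subset fun w hw => ?_
    have := sn_le.1 hw
    exact ⟨abs_le.1 this.1, abs_le.1 this.2⟩
  exact (eventually_all_finite hfin).2 fun w _ => h w

end Crest.Agent.R165.GeoFx65
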