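import Crest.Agent.R165.RegG_893
import Crest.Agent.R165.BridgeReg_386
import Crest.Agent.R165.DefRec_915

/-!
# Row 165 (S0250), block G2: weight inequalities on a composite background (helper893)

* `rd_of_flat`, `rx_of_branch` : the classes `RD`, `RX` from the leaves `GapU`, `EXb`, `EXbr`
* `Geo` : a background with a boundary set `B`, branch points `loc i`, and covering of the faces
* `Geo.far`, `Geo.bdry`, `Geo.branch` : all the `WLe` inequalities
* `Geo.dstep` : the structure `DStep` of `DefRec_915`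
-/

set_option autoImplicit false
set_option linter.unusedSectionVars false

noncomputable section

open scoped ENNReal
open Crest.Agent.R165.Gr0x606 Crest.Agent.R165.Gr1x606 Crest.Agent.R165.Latx683 Crest.Agent.R165.PNormx417
  Crest.Agent.R165.GDefx387 Crest.Agent.R165.Wtx898 Crest.Agent.R165.RegGx893
  Crest.Agent.R165.Bridgex386 Crest.Agent.R165.BridgeRegx386 Crest.Agent.R165.RIfx891
  Crest.Agent.R165.Packx915 Crest.Agent.R165.NSumx915 Crest.Agent.R165.DefRecx915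
  Crest.Agent.R165.GeOpsx337 Crest.Agent.R165.ExpGx337

namespace Crest.Agent.R165.RegIx893

/-! ### the classes from the leaves -/

/-- constant of the boundary and branch classes -/
def CR (C Cs : ℝ) : ℝ := 4 * Campx891.K2 C Cs

/-- **`RD` at a flat plus boundary** -/
theorem rd_of_flat {C Cs : ℝ} (hC : 0 ≤ C) (hCs : 0 ≤ Cs) (hG : GapU Cs) (hE : EXb C) (Λ : ℕ) :
    ∃ (r0 : ℕ) (ε0 : ℝ), 1 ≤ r0 ∧ 0 < ε0 ∧ ∀ (G : Type) [CommRing G] [CN G] [CNL G] (w : BW G)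
      (X : Face) (R0 : ℕ), Inj G R0 →
      (∀ R : ℕ, r0 ≤ R → R ≤ R0 → ∃ (s : Face → ℝ) (n : ℂ), ‖n‖ = 1 ∧
        PlusFlat (wl w) s X R n ε0) → RD w (pf X) (CR C Cs) Λ r0 R0 := by
  obtain ⟨r0, ε0, hε0, H⟩ := regB_ratio hC hCs hG hE Λ
  refine ⟨max 1 ⌈r0⌉₊, ε0, le_max_left _ _, hε0, ?_⟩
  intro G _ _ _ w X R0 hI hF r R h1 h2 h3 h4
  have hr1 : 1 ≤ r := (le_max_left _ _).trans h1
  have hK := K2_nonneg hC hCs
  obtain ⟨s, n, hn, hP⟩ := hF R (h1.trans h2) h4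
  obtain ⟨c, hc⟩ := IsAlgClosed.exists_pow_nat_eq ((starRingEnd ℂ) n) (n := 2) (by norm_num)
  have hr0R : r0 ≤ (R : ℝ) := by
    have h5 : ⌈r0⌉₊ ≤ R := ((le_max_right _ _).trans h1).trans h2
    exact (Nat.le_ceil r0).trans (by exact_mod_cast h5)
  have key := fun f hf => H G w s X R r n c hr0R hr1 h2 h3 (hI.mono h4) hn hc hP f hf
  have hq : 0 ≤ (r : ℝ) / R := by positivity
  refine ⟨fun f hf => (key f hf).1.trans ?_, desc X (modeB s X n c), fun f hf => (key f hf).2.imp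
    fun κ hκ => hκ⟩
  refine mul_le_mul_of_nonneg_right ?_ hq
  unfold CR; linarith

/-- **`RX` at a branch vertex** -/
theorem rx_of_branch {C Cs : ℝ} (hC : 0 ≤ C) (hCs : 0 ≤ Cs) (hG : GapU Cs) (hE : EXbr C)
    (Λ : ℕ) :
    ∃ r0 : ℕ, 1 ≤ r0 ∧ ∀ (G : Type) [CommRing G] [CN G] [CNL G] (w : BW G)
      (X : Face) (R0 : ℕ), Inj G R0 → (∃ s : Face → ℝ, BranchOn (wl w) s X R0) →
      RX w (pf X) (CR C Cs) Λ r0 R0 := by
  obtain ⟨r0, H⟩ := regBr_ratio hC hCs hG hE Λ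
  refine ⟨max 1 ⌈r0⌉₊, le_max_left _ _, ?_⟩
  intro G _ _ _ w X R0 hI hF r R h1 h2 h3 h4
  have hr1 : 1 ≤ r := (le_max_left _ _).trans h1
  have hK := K2_nonneg hC hCs
  obtain ⟨s, hP⟩ := hF
  have hr0R : r0 ≤ (R : ℝ) := by
    have h5 : ⌈r0⌉₊ ≤ R := ((le_max_right _ _).trans h1).trans h2
    exact (Nat.le_ceil r0).trans (by exact_mod_cast h5)
  have hP' : BranchOn (wl w) s X R := hP.mono (by exact_mod_cast h4)
  have key := fun f hf => H G w s X R r hr0R hr1 h2 h3 (hI.mono h4) hP' f hf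
  have hq : 0 ≤ (r : ℝ) / R := by positivity
  refine ⟨fun f hf => (key f hf).1.trans ?_, desc X (modeBr s X), fun f hf =>
    (key f hf).2.imp fun κ hκ => hκ.trans ?_⟩
  · refine mul_le_mul_of_nonneg_right ?_ (Real.sqrt_nonneg _)
    unfold CR; linarith
  · refine mul_le_mul_of_nonneg_right ?_ hq
    unfold CR; linarith

/-! ### composite backgrounds -/

section geo

variable {G : Type} [CommRing G] [CN G] {ι : Type*}

/-- **composite background**: `B` = boundary centres, `Z` = marks and clusters, `loc i` = branch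
points, `Ac` = faces where the activities live; every face of `Ac` is bulk-like up to `R0`, or up
to half the distance to a centre of one of the three kinds. -/
structure Geo (w : BW G) (C : ℝ) (Λ r0 R0 : ℕ) (loc : ι → G × G) (B Z Ac : Set (G × G)) :
    Prop where
  one_le : 1 ≤ C
  bd : ∀ y ∈ B, RD w y C Λ r0 R0
  mrk : ∀ z ∈ Z, RB w z C Λ r0 R0
  br : ∀ i, RX w (loc i) C Λ r0 R0
  cov : ∀ x ∈ Ac, RB w x C Λ r0 R0 ∨ (∃ y, (y ∈ B ∨ y ∈ Z) ∧ RB w x C Λ r0 (fd y x / 2)) ∨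
    ∃ i, RB w x C Λ r0 (fd (loc i) x / 2)

variable {w : BW G} {C : ℝ} {Λ r0 R0 r r' D : ℕ} {loc : ι → G × G} {B Z Ac : Set (G × G)}
  {a a' : ℝ}

theorem Geo.mono {C' : ℝ} {Λ' r0' R0' : ℕ} (H : Geo w C Λ r0 R0 loc B Z Ac) (hC : C ≤ C')
    (hΛ : Λ' ≤ Λ) (hr : r0 ≤ r0') (hR : R0' ≤ R0) : Geo w C' Λ' r0' R0' loc B Z Ac where
  one_le := H.one_le.trans hC
  bd y hy := (H.bd y hy).mono hC hΛ hr hR
  mrk z hz := (H.mrk z hz).mono hC hΛ hr hR
  br i := (H.br i).mono hC hΛ hr hR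
  cov x hx := by
    rcases H.cov x hx with h | ⟨y, hy, h⟩ | ⟨i, h⟩
    · exact Or.inl (h.mono hC hΛ hr hR)
    · exact Or.inr (Or.inl ⟨y, hy, h.mono hC hΛ hr le_rfl⟩)
    · exact Or.inr (Or.inr ⟨i, h.mono hC hΛ hr le_rfl⟩)

theorem Geo.mono_act {Ac' : Set (G × G)} (H : Geo w C Λ r0 R0 loc B Z Ac) (h : Ac' ⊆ Ac) :
    Geo w C Λ r0 R0 loc B Z Ac' := ⟨H.one_le, H.bd, H.mrk, H.br, fun x hx => H.cov x (h hx)⟩

/-- additional marks: they only have to be regular centres -/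
theorem Geo.add_marks {Z' : Set (G × G)} (H : Geo w C Λ r0 R0 loc B Z Ac) (hZ : Z ⊆ Z')
    (h : ∀ z ∈ Z', RB w z C Λ r0 R0) : Geo w C Λ r0 R0 loc B Z' Ac :=
  ⟨H.one_le, H.bd, h, H.br, fun x hx => (H.cov x hx).imp id fun h' => h'.imp
    (fun ⟨y, hy, h2⟩ => ⟨y, hy.imp id fun hz => hZ hz, h2⟩) id⟩

/-- no defect at all -/
theorem Geo.of_rb {C : ℝ} (hC : 1 ≤ C) [IsEmpty ι] (h : ∀ x ∈ Ac, RB w x C Λ r0 R0) :
    Geo w C Λ r0 R0 loc ∅ ∅ Ac :=
  ⟨hC, fun y hy => absurd hy (Set.notMem_empty y), fun y hy => absurd hy (Set.notMem_empty y),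
    fun i => isEmptyElim i, fun x hx => Or.inl (h x hx)⟩

theorem K1_le_K2 (C : ℝ) : K1 C ≤ K2 C := by
  unfold K1 K2
  have := sq_nonneg C
  linarith

/-- **(W1)** away from the branch points -/
theorem Geo.far (H : Geo w C Λ r0 R0 loc B Z Ac) (hr0 : r0 ≤ r) (h8 : 10 * r ≤ r')
    (hΛ : r' ≤ Λ * r) (hR : 32 * r' ≤ R0) (hr : 0 < r) (ha : 0 < a) (ha' : 0 ≤ a')
    {x : G × G} (hx : x ∈ Ac) (hD : ∀ i, D * r < fd (loc i) x) :
    WLe w a a' r r' x x LinearMap.id (ENNReal.ofReal (a' / a * (K2 C *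
      (Real.sqrt ((r : ℝ) / r') + Real.sqrt (1 / (D + 1)))))) := by
  have hC := H.one_le
  have hC0 : 0 ≤ C := by linarith
  have hK : 0 ≤ K2 C := by unfold K2; positivity
  have hr1 : (0 : ℝ) < r := by exact_mod_cast hr
  have hb : a' / a * (K1 C * Real.sqrt ((r : ℝ) / r')) ≤ a' / a * (K2 C *
      (Real.sqrt ((r : ℝ) / r') + Real.sqrt (1 / (D + 1)))) := by
    refine mul_le_mul_of_nonneg_left ?_ (by positivity)
    exact mul_le_mul (K1_le_K2 C) (le_add_of_nonneg_right (Real.sqrt_nonneg _))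
      (Real.sqrt_nonneg _) hK
  rcases H.cov x hx with h | ⟨y, hy, h⟩ | ⟨i, h⟩
  · exact WLe.mono (W1_bulk hC h hr0 (by omega) hΛ (by omega) hr ha ha')
      (ENNReal.ofReal_le_ofReal hb)
  · have hy' : RB w y C Λ r0 R0 := hy.elim (fun h1 => (H.bd y h1).rb) fun h1 => H.mrk y h1
    exact WLe.mono (W1_bd hC hy' h le_rfl hr0 h8 hΛ hR hr ha ha')
      (ENNReal.ofReal_le_ofReal hb)
  · refine WLe.mono (W1_br hC (H.br i) h le_rfl hr0 h8 hΛ hR hr ha ha')
      (ENNReal.ofReal_le_ofReal ?_)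
    refine mul_le_mul_of_nonneg_left (mul_le_mul_of_nonneg_left ?_ hK) (by positivity)
    refine add_le_add le_rfl (Real.sqrt_le_sqrt ?_)
    have h1 : ((D : ℝ) + 1) * r ≤ r + fd (loc i) x := by
      have h2 : D * r + 1 ≤ fd (loc i) x := hD i
      have h3 : ((D * r + 1 : ℕ) : ℝ) ≤ fd (loc i) x := by exact_mod_cast h2
      push_cast at h3
      linarith
    rw [div_le_div_iff₀ (by positivity) (by positivity)]
    linarith

/-- the constant of the package -/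
def EE (C : ℝ) (D : ℕ) : ℝ := 2 * (K3 C * (D + 64) ^ 2)

theorem EE_pos (hC : 1 ≤ C) (D : ℕ) : 0 < EE C D := by
  have : 0 < C := by linarith
  unfold EE K3; positivity

theorem two_K3_le (hC : 0 ≤ C) (D : ℕ) : 2 * (K3 C * (D + 64)) ≤ EE C D := by
  unfold EE K3
  have h : (D : ℝ) + 64 ≤ (D + 64) ^ 2 := by nlinarith [(Nat.cast_nonneg D : (0 : ℝ) ≤ D)]
  have := mul_le_mul_of_nonneg_left h (by positivity : (0 : ℝ) ≤ 73800 * C)
  linarith

theorem ratio_le (ha : 0 < a) (ha2 : a' ≤ 2 * a) {u v : ℝ} (hu : 0 ≤ u) (h : 2 * u ≤ v) :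
    a' / a * u ≤ v := by
  have h1 : a' / a ≤ 2 := by rw [div_le_iff₀ ha]; linarith
  exact (mul_le_mul_of_nonneg_right h1 hu).trans h

/-- **(W1)** near a centre of bulk rate -/
theorem W1_near {z x : G × G} (hC : 1 ≤ C) (H : RB w z C Λ r0 R0) (hr0 : r0 ≤ r)
    (hD : (D + 64) * r ≤ 4 * r') (hΛ : r' ≤ Λ * r) (hR : 32 * r' ≤ R0) (hr : 0 < r)
    (ha : 0 < a) (ha' : 0 ≤ a') (hx : fd z x ≤ D * r) :
    WLe w a a' r r' x x LinearMap.id
      (ENNReal.ofReal (a' / a * (K3 C * (D + 64) * Real.sqrt ((r : ℝ) / r')))) := by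
  have hr' : 0 < r' := by
    rcases Nat.eq_zero_or_pos r' with h | h
    · subst h
      have : 0 < (D + 64) * r := by positivity
      omega
    · exact h
  have hr1 : (0 : ℝ) < r := by exact_mod_cast hr
  have hr1' : (0 : ℝ) < r' := by exact_mod_cast hr'
  have hDr : D * r + 64 * r ≤ 4 * r' := by rw [← Nat.add_mul]; exact hD
  have hrr : r ≤ r' := by omega
  have key : ∀ f, nnB w r' x f ≤ 1 →
      L2on (ball x (s1 * r)) f ≤ 32 * C * (D + 64) * ((r : ℝ) / r') := by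
    intro f hf
    have hΛ1 : 1 ≤ Λ := by
      rcases Nat.eq_zero_or_pos Λ with h | h
      · subst h; omega
      · exact h
    have h1 := (H ((D + 64) * r) (32 * r')
      (hr0.trans (Nat.le_mul_of_pos_left r (by omega))) (by omega) (by
        calc 32 * r' ≤ 32 * (Λ * r) := Nat.mul_le_mul_left _ hΛ
          _ ≤ (D + 64) * (Λ * r) := Nat.mul_le_mul_right _ (by omega)
          _ = Λ * ((D + 64) * r) := by ring) hR).of_pN (r' := r') (b := 32)
      (ball_finite x (s1 * r')) (fun g hg => by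
        rw [mem_ball] at hg ⊢
        have h2 := fd_triangle x z g
        rw [fd_comm x z] at h2
        unfold s1
        omega) (by norm_num) (by push_cast; linarith) (pN_of_nnB hf)
    refine (L2on_mono (fun g hg => ?_) (ball_finite _ _) f).trans (h1.trans (le_of_eq ?_))
    · rw [mem_ball] at hg ⊢
      have h2 := fd_triangle z x g
      unfold s1 at hg
      rw [Nat.add_mul]
      omega
    · push_cast
      field_simp
  have h := WLe_id_of_reg1 (w := w) (a := a) (a' := a') (r := r) (r' := r') (x := x) (x' := x) ha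
    hr ha' hrr (ball_mono x (Nat.mul_le_mul_left _ hrr))
    (ball_mono x (Nat.mul_le_mul_left _ hrr)) key
  refine WLe.mono h (ENNReal.ofReal_le_ofReal ?_)
  have e : 32 * C * (D + 64) * ((r : ℝ) / r') + (r : ℝ) / r' =
      (32 * C * (D + 64) + 1) * ((r : ℝ) / r') := by ring
  rw [e, pref hr hr']
  refine mul_le_mul_of_nonneg_left (mul_le_mul_of_nonneg_right ?_ (Real.sqrt_nonneg _))
    (by positivity)
  have hD0 : (0 : ℝ) ≤ D := Nat.cast_nonneg D
  have h64 : (1 : ℝ) ≤ C * (D + 64) := by nlinarith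
  unfold K3
  linarith

/-- **(W3)** packaged -/
theorem Geo.bdry (H : Geo w C Λ r0 R0 loc B Z Ac) (hr0 : r0 ≤ r) (hD : (D + 64) * r ≤ 4 * r')
    (hΛ : r' ≤ Λ * r) (hR : 32 * r' ≤ R0) (hr : 0 < r) (ha : 0 < a) (ha' : 0 ≤ a')
    (ha2 : a' ≤ 2 * a) {y : G × G} (hy : y ∈ B) :
    ∃ P : Fld G →ₗ[ℝ] Fld G, FiniteDimensional ℝ (LinearMap.range P) ∧
      Module.finrank ℝ (LinearMap.range P) ≤ 1 ∧
      ∀ x : G × G, fd y x ≤ D * r →
        WLe w a a' r r' x x P (ENNReal.ofReal (EE C D * Real.sqrt ((r : ℝ) / r'))) ∧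
        WLe w a a' r r' x x (LinearMap.id - P) (ENNReal.ofReal (EE C D * ((r : ℝ) / r'))) := by
  have hC := H.one_le
  have hC0 : 0 ≤ C := by linarith
  have hK : 0 ≤ K3 C := by unfold K3; positivity
  obtain ⟨P, h1, h2, -, h3⟩ := W3 hC (H.bd y hy) hr0 hD hΛ hR hr
  refine ⟨P, h1, h2, fun x hx => ?_⟩
  obtain ⟨h4, h5⟩ := h3 a a' ha ha' x x hx hx
  refine ⟨WLe.mono h4 (ENNReal.ofReal_le_ofReal ?_), WLe.mono h5 (ENNReal.ofReal_le_ofReal ?_)⟩
  · refine ratio_le ha ha2 (by positivity) ?_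
    rw [← mul_assoc]
    exact mul_le_mul_of_nonneg_right (two_K3_le hC0 D) (Real.sqrt_nonneg _)
  · refine ratio_le ha ha2 (by positivity) ?_
    rw [← mul_assoc]
    exact le_of_eq rfl

/-- **(W4)** packaged -/
theorem Geo.branch (H : Geo w C Λ r0 R0 loc B Z Ac) (hr0 : r0 ≤ r) (hD : (D + 64) * r ≤ 4 * r')
    (hΛ : r' ≤ Λ * r) (hR : 32 * r' ≤ R0) (hr : 0 < r) (ha : 0 < a) (ha' : 0 ≤ a')
    (ha2 : a' ≤ 2 * a) (i : ι) :
    ∃ P : Fld G →ₗ[ℝ] Fld G, FiniteDimensional ℝ (LinearMap.range P) ∧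
      Module.finrank ℝ (LinearMap.range P) ≤ 1 ∧
      ∀ x : G × G, fd (loc i) x ≤ D * r →
        WLe w a a' r r' x x P (ENNReal.ofReal (EE C D)) ∧
        WLe w a a' r r' x x (LinearMap.id - P)
          (ENNReal.ofReal (EE C D * Real.sqrt ((r : ℝ) / r'))) := by
  have hC := H.one_le
  have hC0 : 0 ≤ C := by linarith
  have hK : 0 ≤ K3 C := by unfold K3; positivity
  obtain ⟨P, h1, h2, -, h3⟩ := W4 hC (H.br i) hr0 hD hΛ hR hr
  refine ⟨P, h1, h2, fun x hx => ?_⟩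
  obtain ⟨h4, h5⟩ := h3 a a' ha ha' x x hx hx
  refine ⟨WLe.mono h4 (ENNReal.ofReal_le_ofReal ?_), WLe.mono h5 (ENNReal.ofReal_le_ofReal ?_)⟩
  · exact ratio_le ha ha2 (by positivity) (two_K3_le hC0 D)
  · refine ratio_le ha ha2 (by positivity) ?_
    rw [← mul_assoc]
    exact mul_le_mul_of_nonneg_right (two_K3_le hC0 D) (Real.sqrt_nonneg _)

/-- **(W1)** near a mark, packaged -/
theorem Geo.mark (H : Geo w C Λ r0 R0 loc B Z Ac) (hr0 : r0 ≤ r) (hD : (D + 64) * r ≤ 4 * r')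
    (hΛ : r' ≤ Λ * r) (hR : 32 * r' ≤ R0) (hr : 0 < r) (ha : 0 < a) (ha' : 0 ≤ a')
    (ha2 : a' ≤ 2 * a) {z : G × G} (hz : z ∈ Z) {x : G × G} (hx : fd z x ≤ D * r) :
    WLe w a a' r r' x x LinearMap.id (ENNReal.ofReal (EE C D * Real.sqrt ((r : ℝ) / r'))) := by
  have hC := H.one_le
  have hC0 : 0 ≤ C := by linarith
  have hK : 0 ≤ K3 C := by unfold K3; positivity
  refine WLe.mono (W1_near hC (H.mrk z hz) hr0 hD hΛ hR hr ha ha' hx)
    (ENNReal.ofReal_le_ofReal ?_)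
  refine ratio_le ha ha2 (by positivity) ?_
  rw [← mul_assoc]
  exact mul_le_mul_of_nonneg_right (two_K3_le hC0 D) (Real.sqrt_nonneg _)

end geo

/-! ### the structure `DStep` -/

/-- kinds of defects: boundary, mark (or cluster), branch point -/
inductive Kd
  | bd
  | mk
  | br
  deriving DecidableEq

instance : Fintype Kd := ⟨{Kd.bd, Kd.mk, Kd.br}, fun x => by cases x <;> simp⟩

theorem sum_Kd {M : Type*} [AddCommMonoid M] (f : Kd → M) :
    ∑ i, f i = f .bd + (f .mk + f .br) := by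
  change ∑ i ∈ ({Kd.bd, Kd.mk, Kd.br} : Finset Kd), f i = _
  rw [Finset.sum_insert (by simp), Finset.sum_insert (by simp), Finset.sum_singleton]

section dstep

variable {G : Type} [CommRing G] [CN G] [DecidableEq G] {ι : Type*}
variable {w : BW G} {C : ℝ} {Λ r0 R0 r r' D : ℕ} {loc : ι → G × G} {B Z Ac : Set (G × G)}
  {a a' : ℝ}

/-- the defect sets -/
def dset (loc : ι → G × G) (B Z : Set (G × G)) : Kd → Set (G × G)
  | .bd => B
  | .mk => Z
  | .br => Set.range loc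

/-- number of `r`-separated points of the defect sets in a ball -/
def dN (Nb Nm : ℕ) : Kd → ℕ
  | .bd => Nb
  | .mk => Nm
  | .br => 1

/-- gains of the small polymers -/
def dq (E s : ℝ) : Kd → ℝ≥0∞
  | .bd => ENNReal.ofReal (12 * (E * s) * (E * s ^ 2))
  | .mk => ENNReal.ofReal (4 * (E * s) ^ 2)
  | .br => ENNReal.ofReal (12 * E * (E * s))

theorem three_mul (u v : ℝ) (hu : 0 ≤ u) :
    3 * (((1 + 1) * ENNReal.ofReal u) * ((1 + 1) * ENNReal.ofReal v)) =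
      ENNReal.ofReal (12 * u * v) := by
  have h12 : (12 : ℝ≥0∞) = ENNReal.ofReal 12 := by simp
  rw [ENNReal.ofReal_mul (by positivity), ENNReal.ofReal_mul (by norm_num), ← h12]
  ring

theorem two_mul_sq (u : ℝ) (hu : 0 ≤ u) :
    ((1 + 1) * ENNReal.ofReal u) ^ 2 = ENNReal.ofReal (4 * u ^ 2) := by
  have h4 : (4 : ℝ≥0∞) = ENNReal.ofReal 4 := by simp
  rw [ENNReal.ofReal_mul (by norm_num), ENNReal.ofReal_pow hu, ← h4]
  ring

theorem two_mul_le {u : ℝ} (h : u ≤ 1 / 8) : (1 + 1) * ENNReal.ofReal u ≤ 1 / 4 := by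
  have h2 : (1 + 1 : ℝ≥0∞) = ENNReal.ofReal 2 := by
    rw [ENNReal.ofReal_ofNat]; norm_num
  rw [h2, ← ENNReal.ofReal_mul (by norm_num)]
  refine (ENNReal.ofReal_le_ofReal (by linarith : 2 * u ≤ 1 / 4)).trans (le_of_eq ?_)
  rw [ENNReal.ofReal_div_of_pos (by norm_num)]
  simp

theorem two_mul_le_one {u : ℝ} (h : u ≤ 1 / 2) : (1 + 1) * ENNReal.ofReal u ≤ 1 := by
  have h2 : (1 + 1 : ℝ≥0∞) = ENNReal.ofReal 2 := by
    rw [ENNReal.ofReal_ofNat]; norm_num
  rw [h2, ← ENNReal.ofReal_mul (by norm_num), ← ENNReal.ofReal_one]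
  exact ENNReal.ofReal_le_ofReal (by linarith)

theorem one_add_eq {u : ℝ} (hu : 0 ≤ u) :
    1 + 2 * ((1 + 1) * ENNReal.ofReal u) = ENNReal.ofReal (1 + 4 * u) := by
  have h4 : (4 : ℝ≥0∞) = ENNReal.ofReal 4 := by simp
  rw [ENNReal.ofReal_add zero_le_one (by positivity), ENNReal.ofReal_one,
    ENNReal.ofReal_mul (by norm_num), ← h4]
  ring

open Classical in
/-- type of a face -/
def tyx (loc : ι → G × G) (ρ : ℕ) (x : G × G) : Option ι :=
  if h : ∃ i, fd (loc i) x ≤ ρ then some h.choose else none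

theorem tyx_some {ρ : ℕ} {x : G × G} {i : ι} (h : tyx loc ρ x = some i) : fd (loc i) x ≤ ρ := by
  unfold tyx at h
  split_ifs at h with h1
  have := h1.choose_spec
  rwa [Option.some.inj h] at this

theorem tyx_none {ρ : ℕ} {x : G × G} (h : tyx loc ρ x = none) (i : ι) : ρ < fd (loc i) x := by
  unfold tyx at h
  split_ifs at h with h1
  push Not at h1
  exact h1 i

theorem sqrt_ratio_le_one (hrr : r ≤ r') : Real.sqrt ((r : ℝ) / r') ≤ 1 := by
  rw [Real.sqrt_le_one]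
  rcases Nat.eq_zero_or_pos r' with h | h
  · subst h; simp
  · rw [div_le_one (by exact_mod_cast h)]
    exact_mod_cast hrr

/-- large polymers, weighted, with room: `(c Γ)^{|U|'} A ≤ ((c a)²/Γ) Γ^{|U|} B` -/
theorem large_room {d : G × G → G × G → ℕ} {Rc : ℕ} {U : Finset (G × G)} (hd : PD d)
    (hU : Packx915.Conn d Rc U) (h : 4 * Rc + 3 * r + 2 ≤ r') (h2 : 2 ≤ pack d r U)
    {Γ t c A A' : ℝ≥0∞} (h1 : 1 ≤ t) (hc : 1 ≤ c) (hGt : Γ ≠ ∞) (hG : (c * t) ^ 2 ≤ Γ) {b : ℕ}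
    (hb : b ≤ pack d r U) (hAB : A' ≤ t ^ b * A) :
    (c * Γ) ^ pack d r' U * A' ≤ ((c * t) ^ 2 * Γ⁻¹) * (Γ ^ pack d r U * A) := by
  have hct : 1 ≤ c * t := one_le_mul hc h1
  have hrr : r ≤ r' := by omega
  have key := GLinx336.large_weighted (d := d) (r := r) (r' := r') (R := Rc) (U := U) hd hU h h2
    (G := Γ) (a := c * t) (A := c ^ pack d r' U * A') (B := A) hct hGt hG (b := pack d r U) le_rfl
    (by
      rw [mul_pow, mul_assoc]
      refine mul_le_mul' (pow_le_pow_right₀ hc (pack_anti hrr)) ?_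
      exact hAB.trans (mul_le_mul' (pow_le_pow_right₀ h1 hb) le_rfl))
  rw [mul_pow]
  calc c ^ pack d r' U * Γ ^ pack d r' U * A' = Γ ^ pack d r' U * (c ^ pack d r' U * A') := by ring
    _ ≤ _ := key

/-- **the defect step** on a composite background -/
theorem Geo.dstep [Fintype ι] (H : Geo w C Λ r0 R0 loc B Z Ac) {S : Cov (Fld G)}
    {g : Fld G → ℝ≥0∞} (hg : Gram S g) {Γ c : ℝ≥0∞} {ac em : Finset (G × G) → Prop}
    {Rc Nb Nm : ℕ}
    (hr0 : r0 ≤ r) (h10 : 10 * r ≤ r') (hD : (D + 64) * r ≤ 4 * r') (hΛ : r' ≤ Λ * r)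
    (hR : 32 * r' ≤ R0) (hr : 0 < r) (ha : 0 < a) (ha' : 0 ≤ a') (ha2 : a' ≤ 2 * a)
    (hs8 : EE C D * Real.sqrt ((r : ℝ) / r') ≤ 1 / 8)
    (hfar : 2 * (K2 C * (Real.sqrt ((r : ℝ) / r') + Real.sqrt (1 / (D + 1)))) ≤ 1 / 2)
    (hW0 : ∀ U, ac U → GLinx336.W0 w g a' r' 1 U)
    (hact : ∀ U, ac U → ∀ x ∈ U, x ∈ Ac)
    (hcon : ∀ U, ac U → Packx915.Conn fd Rc U)
    (hRc : 4 * Rc + 3 * r + 2 ≤ r')
    (hsep : ∀ i j, i ≠ j → 2 * (r' + D * r) < fd (loc i) (loc j))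
    (hnear : ∀ U, ac U → size r U ≤ 1 → ¬ em U → ∃ x ∈ U,
      (∃ y ∈ B, fd y x + r ≤ D * r) ∨ (∃ z ∈ Z, fd z x + r ≤ D * r) ∨
      ∃ i, fd (loc i) x + r ≤ D * r)
    (hNb : DCount fd B (r' + D * r) r Nb) (hNm : DCount fd Z (r' + D * r) r Nm)
    (hΓt : Γ ≠ ∞) (hc : 1 ≤ c) (hΓ : (c * ENNReal.ofReal (1 + 4 * EE C D)) ^ 2 ≤ Γ) :
    DStep w a a' r r' Γ (c * Γ) S ac em (dset loc B Z) (fun _ => D * r) (dN Nb Nm)
      (dq (EE C D) (Real.sqrt ((r : ℝ) / r'))) ((c * ENNReal.ofReal (1 + 4 * EE C D)) ^ 2 * Γ⁻¹)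
      (ENNReal.ofReal (1 + 4 * EE C D)) := by
  have hC := H.one_le
  have hC0 : 0 ≤ C := by linarith
  have hE := EE_pos hC D
  have hr' : 0 < r' := by omega
  have hrr : r ≤ r' := by omega
  set E := EE C D with hEdef
  set s := Real.sqrt ((r : ℝ) / r') with hs
  have hr1 : (0 : ℝ) < r := by exact_mod_cast hr
  have hr1' : (0 : ℝ) < r' := by exact_mod_cast hr'
  have hs0 : 0 < s := Real.sqrt_pos.2 (by positivity)
  have hs1 : s ≤ 1 := sqrt_ratio_le_one hrr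
  have hs2 : s ^ 2 = (r : ℝ) / r' := Real.sq_sqrt (by positivity)
  have hEs2 : E * s ^ 2 ≤ E * s := by
    refine mul_le_mul_of_nonneg_left ?_ hE.le
    nlinarith
  have h1E : (1 : ℝ≥0∞) ≤ ENNReal.ofReal (1 + 4 * E) := by
    rw [← ENNReal.ofReal_one]; exact ENNReal.ofReal_le_ofReal (by linarith)
  -- far faces
  have hfar' : ∀ x ∈ Ac, (∀ i, D * r < fd (loc i) x) →
      WLe w a a' r r' x x LinearMap.id (ENNReal.ofReal (1 / 2)) := by
    intro x hx hi
    refine WLe.mono (H.far hr0 h10 hΛ hR hr ha ha' hx hi) (ENNReal.ofReal_le_ofReal ?_)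
    refine ratio_le ha ha2 ?_ hfar
    unfold K2; positivity
  choose P hP1 hP2 hP3 using fun i => H.branch hr0 hD hΛ hR hr ha ha' ha2 i
  have hsep1 : ∀ i j, i ≠ j → 2 * (D * r) + r < fd (loc i) (loc j) := fun i j hij => by
    have := hsep i j hij
    omega
  -- every active polymer
  have hany : ∀ U, ac U → ∀ K : Ge (Fld G), pG (wU w a r U) K ≠ ∞ →
      ∃ b : ℕ, b ≤ pack fd r U ∧
        pG (wU w a' r' U) (cvG S K) ≤ ENNReal.ofReal (1 + 4 * E) ^ b * pG (wU w a r U) K := by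
    intro U hU K hK
    classical
    refine ⟨(Finset.univ.filter fun i => ∃ x ∈ U, tyx loc (D * r) x = some i).card, ?_, ?_⟩
    · refine GLinx336.card_le_pack_of_near Bridgex915.pd_fd _ loc (ρ := D * r) (r := r) (U := U)
        (fun i hi => ?_) (fun i _ j _ hij => hsep1 i j hij)
      obtain ⟨x, hx, hty⟩ := (Finset.mem_filter.1 hi).2
      exact ⟨x, hx, by rw [fd_comm]; exact tyx_some hty⟩
    · have key := GLinx336.any_large (w := w) (a := a) (a' := a') (r := r) (r' := r') (U := U)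
        (S := S) (g := g) hg
        (Finset.univ.filter fun i => ∃ x ∈ U, tyx loc (D * r) x = some i) (tyx loc (D * r))
        P hP1 hP2 (ε := 1)
        (p := ENNReal.ofReal E) (q := ENNReal.ofReal (E * s)) (p0 := ENNReal.ofReal (1 / 2))
        ha hr (hW0 U hU) one_ne_zero ENNReal.one_ne_top ENNReal.ofReal_ne_top
        (two_mul_le hs8) (ENNReal.ofReal_le_ofReal (by nlinarith)) (two_mul_le_one le_rfl)
        (fun x hx i hty => Finset.mem_filter.2 ⟨Finset.mem_univ _, x, hx, hty⟩)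
        (fun x hx hi => ⟨x, hx, hfar' x (hact U hU x hx) (tyx_none hi)⟩)
        (fun x hx i hi => ⟨x, hx, (hP3 i x (tyx_some hi)).1⟩)
        (fun x hx i hi => ⟨x, hx, (hP3 i x (tyx_some hi)).2⟩) (K := (K : Gr (Fld G))) hK
      rw [one_add_eq hE.le] at key
      exact key
  refine ⟨?_, ?_, ?_, ?_, ?_, ?_, ?_⟩
  · -- counting
    rintro (_ | _ | _)
    · exact hNb
    · exact hNm
    · intro f T hT _
      refine Finset.card_le_one.2 fun x hx y hy => ?_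
      obtain ⟨⟨i, rfl⟩, h1⟩ := hT x hx
      obtain ⟨⟨j, rfl⟩, h2⟩ := hT y hy
      by_contra hne'
      have hij : i ≠ j := fun h => hne' (by rw [h])
      have h3 := hsep i j hij
      have h4 := fd_triangle (loc i) f (loc j)
      rw [fd_comm (loc i) f] at h4
      have h1' : fd f (loc i) ≤ r' + D * r := h1
      have h2' : fd f (loc j) ≤ r' + D * r := h2
      omega
  · rintro (_ | _ | _)
    · have : (0 : ℝ) < 12 * (E * s) * (E * s ^ 2) := by positivity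
      exact (ENNReal.ofReal_pos.2 this).ne'
    · have : (0 : ℝ) < 4 * (E * s) ^ 2 := by positivity
      exact (ENNReal.ofReal_pos.2 this).ne'
    · have : (0 : ℝ) < 12 * E * (E * s) := by positivity
      exact (ENNReal.ofReal_pos.2 this).ne'
  · refine mul_ne_zero (pow_ne_zero _ (lt_of_lt_of_le one_pos (one_le_mul hc h1E)).ne') ?_
    exact ENNReal.inv_ne_zero.2 hΓt
  · exact (lt_of_lt_of_le one_pos h1E).ne'
  · -- large polymers
    intro U hU h2 K hK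
    obtain ⟨b, hb, key⟩ := hany U hU K hK
    rw [Bridgex915.size_eq_pack] at h2 ⊢
    rw [Bridgex915.size_eq_pack]
    exact large_room Bridgex915.pd_fd (hcon U hU) hRc h2 h1E hc hΓt hΓ hb key
  · -- small defect polymers
    intro U hU h1 hemb
    obtain ⟨x0, hx0, hcase⟩ := hnear U hU h1 hemb
    rw [Bridgex915.size_eq_pack, pack_le_one_iff Bridgex915.pd_fd] at h1
    have hnl : ∀ K : Ge (Fld G), ((nl (cvG S K) : Ge (Fld G)) : Gr (Fld G)) =
        GLinx336.noct (conv S (K : Gr (Fld G))) := by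
      intro K
      rw [nl, Ge.coe_sub, ge_coe_algebraMap, GLinx336.noct, ctG_apply]
      rfl
    have hclose : ∀ y : G × G, fd y x0 + r ≤ D * r → ∀ x ∈ U, fd y x ≤ D * r := by
      intro y hy x hx
      have h3 := fd_triangle y x0 x
      have h4 := h1 x0 hx0 x hx
      omega
    rcases hcase with ⟨y, hy, hyx⟩ | ⟨z, hz, hzx⟩ | ⟨i, hix⟩
    · have hU' := hclose y hyx
      refine ⟨.bd, fun u hu => ⟨y, hy, by rw [fd_comm]; exact hU' u hu⟩, ?_⟩
      intro K hK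
      obtain ⟨Q, hQ1, hQ2, hQ3⟩ := H.bdry hr0 hD hΛ hR hr ha ha' ha2 hy
      have key := GLinx336.defect_small (w := w) (a := a) (a' := a') (r := r) (r' := r') (U := U)
        (S := S) (g := g) hg Q hQ1 hQ2 (ε := 1) (p := ENNReal.ofReal (E * s))
        (q := ENNReal.ofReal (E * s ^ 2)) (hW0 U hU) one_ne_zero ENNReal.one_ne_top
        ENNReal.ofReal_ne_top (ENNReal.ofReal_pos.2 (by positivity)).ne'
        (two_mul_le (hEs2.trans hs8)) (ENNReal.ofReal_le_ofReal hEs2)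
        (fun x hx => ⟨x, hx, (hQ3 x (hU' x hx)).1⟩)
        (fun x hx => ⟨x, hx, by rw [hs2]; exact (hQ3 x (hU' x hx)).2⟩) K.2 hK
      rw [three_mul _ _ (by positivity)] at key
      rw [pG_def, hnl]
      exact key
    · have hU' := hclose z hzx
      refine ⟨.mk, fun u hu => ⟨z, hz, by rw [fd_comm]; exact hU' u hu⟩, ?_⟩
      intro K hK
      have key := GLinx336.cluster_small (w := w) (a := a) (a' := a') (r := r) (r' := r') (U := U)
        (S := S) (g := g) hg (ε := 1) (p := ENNReal.ofReal (E * s)) (hW0 U hU) one_ne_zero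
        (ENNReal.ofReal_pos.2 (by positivity)).ne' (two_mul_le_one (by linarith))
        (fun x hx => ⟨x, hx, H.mark hr0 hD hΛ hR hr ha ha' ha2 hz (hU' x hx)⟩) K.2 hK
      rw [two_mul_sq _ (by positivity)] at key
      rw [pG_def, hnl]
      exact key
    · have hU' := hclose (loc i) hix
      refine ⟨.br, fun u hu => ⟨loc i, ⟨i, rfl⟩, by rw [fd_comm]; exact hU' u hu⟩, ?_⟩
      intro K hK
      have key := GLinx336.defect_small (w := w) (a := a) (a' := a') (r := r) (r' := r') (U := U)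
        (S := S) (g := g) hg (P i) (hP1 i) (hP2 i) (ε := 1) (p := ENNReal.ofReal E)
        (q := ENNReal.ofReal (E * s)) (hW0 U hU) one_ne_zero ENNReal.one_ne_top
        ENNReal.ofReal_ne_top (ENNReal.ofReal_pos.2 (by positivity)).ne'
        (two_mul_le hs8) (ENNReal.ofReal_le_ofReal (by nlinarith))
        (fun x hx => ⟨x, hx, (hP3 i x (hU' x hx)).1⟩)
        (fun x hx => ⟨x, hx, (hP3 i x (hU' x hx)).2⟩) K.2 hK
      rw [three_mul _ _ hE.le] at key
      rw [pG_def, hnl]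
      exact key
  · -- small polymers
    intro U hU h1 K hK
    obtain ⟨b, hb, key⟩ := hany U hU K hK
    rw [Bridgex915.size_eq_pack] at h1
    refine key.trans (mul_le_mul' ?_ le_rfl)
    calc ENNReal.ofReal (1 + 4 * E) ^ b ≤ ENNReal.ofReal (1 + 4 * E) ^ 1 :=
          pow_le_pow_right₀ h1E (hb.trans h1)
      _ = _ := pow_one _

end dstep

/-! ### numerics -/

section numerics

open Filter Topology

/-- `L` is large -/
structure BigL (C : ℝ) (D Nm : ℕ) (η : ℝ) (L : ℕ) : Prop where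
  ten : 10 ≤ L
  hD : D + 64 ≤ 4 * L
  s8 : EE C D * Real.sqrt (1 / L) ≤ 1 / 8
  far : 2 * (K2 C * (Real.sqrt (1 / L) + Real.sqrt (1 / (D + 1)))) ≤ 1 / 2
  sum : 12 * (EE C D * Real.sqrt (1 / L)) * (EE C D * Real.sqrt (1 / L) ^ 2) *
      ((8 * (L + D) + 1) * (2 * (D + 1) + 3) ^ 2) +
    (4 * (EE C D * Real.sqrt (1 / L)) ^ 2 * (Nm * (2 * (D + 1) + 3) ^ 2) +
      12 * EE C D * (EE C D * Real.sqrt (1 / L)) * (2 * (D + 1) + 3) ^ 2) ≤ η

/-- choice of `D` -/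
theorem exists_D (C : ℝ) (D0 : ℕ) :
    ∃ D : ℕ, D0 ≤ D ∧ 2 * (K2 C * Real.sqrt (1 / (D + 1))) ≤ 1 / 4 := by
  have h1 : Tendsto (fun n : ℕ => 2 * (K2 C * Real.sqrt (1 / ((n : ℝ) + 1)))) atTop
      (𝓝 (2 * (K2 C * Real.sqrt 0))) :=
    (((Real.continuous_sqrt.tendsto 0).comp tendsto_one_div_add_atTop_nhds_zero_nat).const_mul
      (K2 C)).const_mul 2
  rw [Real.sqrt_zero, mul_zero, mul_zero] at h1
  obtain ⟨D, hD, hD0⟩ := ((h1.eventually (ge_mem_nhds (by norm_num : (0 : ℝ) < 1 / 4))).and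
    (eventually_ge_atTop D0)).exists
  exact ⟨D, hD0, hD⟩

/-- `L` large, `D` fixed -/
theorem ev_bigL {C : ℝ} {D : ℕ} (hD : 2 * (K2 C * Real.sqrt (1 / (D + 1))) ≤ 1 / 4) (Nm : ℕ)
    {η : ℝ} (hη : 0 < η) : ∀ᶠ L : ℕ in atTop, BigL C D Nm η L := by
  have hs : Tendsto (fun n : ℕ => Real.sqrt (1 / (n : ℝ))) atTop (𝓝 0) := by
    have := (Real.continuous_sqrt.tendsto 0).comp tendsto_one_div_atTop_nhds_zero_nat
    rwa [Real.sqrt_zero] at this
  have e1 : ∀ᶠ L : ℕ in atTop, EE C D * Real.sqrt (1 / L) ≤ 1 / 8 := by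
    have h := hs.const_mul (EE C D)
    rw [mul_zero] at h
    exact h.eventually (ge_mem_nhds (by norm_num))
  have e2 : ∀ᶠ L : ℕ in atTop, 2 * (K2 C * Real.sqrt (1 / L)) ≤ 1 / 4 := by
    have h := (hs.const_mul (K2 C)).const_mul 2
    rw [mul_zero, mul_zero] at h
    exact h.eventually (ge_mem_nhds (by norm_num))
  set X : ℝ := (2 * ((D : ℝ) + 1) + 3) ^ 2 with hX
  set E := EE C D with hE
  have e3 : ∀ᶠ L : ℕ in atTop, 12 * E ^ 2 * X * (8 * Real.sqrt (1 / L) +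
      (8 * D + 1) * Real.sqrt (1 / L) ^ 3) + 4 * E ^ 2 * Nm * X * Real.sqrt (1 / L) ^ 2 +
      12 * E ^ 2 * X * Real.sqrt (1 / L) ≤ η := by
    have h := ((((hs.const_mul 8).add ((hs.pow 3).const_mul (8 * (D : ℝ) + 1))).const_mul
      (12 * E ^ 2 * X)).add ((hs.pow 2).const_mul (4 * E ^ 2 * Nm * X))).add
      (hs.const_mul (12 * E ^ 2 * X))
    norm_num at h
    refine (h.eventually (ge_mem_nhds hη)).mono fun L hL => ?_
    norm_num
    exact hL
  filter_upwards [e1, e2, e3, eventually_ge_atTop 10, eventually_ge_atTop (D + 64)] with L h1 h2 h3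
    h4 h5
  refine ⟨h4, by omega, h1, by linarith, ?_⟩
  have hL : (0 : ℝ) < L := by exact_mod_cast (show 0 < L by omega)
  have hsL : Real.sqrt (1 / (L : ℝ)) ^ 2 * L = 1 := by
    rw [Real.sq_sqrt (by positivity)]; field_simp
  refine le_trans (le_of_eq ?_) h3
  linear_combination (12 * E ^ 2 * 8 * X * Real.sqrt (1 / (L : ℝ))) * hsL

theorem ratio_L {L r : ℕ} (hr : 0 < r) : (r : ℝ) / ((L * r : ℕ) : ℝ) = 1 / L := by
  have : (0 : ℝ) < r := by exact_mod_cast hr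
  push_cast
  rcases Nat.eq_zero_or_pos L with h | h
  · subst h; simp
  · have : (0 : ℝ) < L := by exact_mod_cast h
    field_simp

theorem div_eq {D r : ℕ} (hr : 0 < r) : (D * r + r) / r = D + 1 := by
  rw [← Nat.succ_mul]
  exact Nat.mul_div_cancel _ hr

theorem BigL.sum_le {C : ℝ} {D Nm L r Nb : ℕ} {η : ℝ} (H : BigL C D Nm η L) (hC : 1 ≤ C)
    (hr : 0 < r) (hNb : Nb ≤ 8 * (L + D) + 1) :
    ∑ i, dq (EE C D) (Real.sqrt (1 / L)) i *
      ((dN Nb Nm i * (2 * ((D * r + r) / r) + 3) ^ 2 : ℕ) : ℝ≥0∞) ≤ ENNReal.ofReal η := by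
  rw [sum_Kd, div_eq hr]
  have hE := EE_pos hC D
  set s := Real.sqrt (1 / (L : ℝ)) with hs
  have hs0 : 0 ≤ s := Real.sqrt_nonneg _
  have key : ∀ (u : ℝ) (n : ℕ), 0 ≤ u → ENNReal.ofReal u * (n : ℝ≥0∞) = ENNReal.ofReal (u * n) := by
    intro u n hu
    rw [ENNReal.ofReal_mul hu, ENNReal.ofReal_natCast]
  simp only [dq, dN]
  rw [key _ _ (by positivity), key _ _ (by positivity), key _ _ (by positivity),
    ← ENNReal.ofReal_add (by positivity) (by positivity),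
    ← ENNReal.ofReal_add (by positivity) (by positivity)]
  refine ENNReal.ofReal_le_ofReal (le_trans ?_ H.sum)
  push_cast
  rw [one_mul]
  have hb : (Nb : ℝ) ≤ 8 * (L + D) + 1 := by exact_mod_cast hNb
  gcongr

/-- number of separated boundary points in a ball (form of `dcount_bd`) -/
theorem bd_count {L D r : ℕ} (hr : 6 ≤ r) :
    2 * (L * r + D * r) / (r / 3) + 1 ≤ 8 * (L + D) + 1 := by
  have h3 : 0 < r / 3 := by omega
  have h4 : r ≤ 4 * (r / 3) := by omega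
  refine Nat.add_le_add_right (Nat.div_le_of_le_mul ?_) 1
  calc 2 * (L * r + D * r) = 2 * (L + D) * r := by ring
    _ ≤ 2 * (L + D) * (4 * (r / 3)) := Nat.mul_le_mul_left _ h4
    _ = r / 3 * (8 * (L + D)) := by ring

variable {G : Type} [CommRing G] [CN G] [DecidableEq G] {ι : Type*}
variable {w : BW G} {C : ℝ} {Λ r0 R0 r D L : ℕ} {loc : ι → G × G} {B Z Ac : Set (G × G)}
  {a a' : ℝ}

/-- **the defect step**, `r' = L r` -/
theorem Geo.dstepL [Fintype ι] {η : ℝ} {Nm : ℕ} (hL : BigL C D Nm η L)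
    (H : Geo w C Λ r0 R0 loc B Z Ac) {S : Cov (Fld G)}
    {g : Fld G → ℝ≥0∞} (hg : Gram S g) {Γ c : ℝ≥0∞} {ac em : Finset (G × G) → Prop}
    {Rc Nb : ℕ} (hLΛ : L ≤ Λ)
    (hr0 : r0 ≤ r) (hR : 32 * (L * r) ≤ R0) (hr : 0 < r) (ha : 0 < a) (ha' : 0 ≤ a')
    (ha2 : a' ≤ 2 * a)
    (hW0 : ∀ U, ac U → GLinx336.W0 w g a' (L * r) 1 U)
    (hact : ∀ U, ac U → ∀ x ∈ U, x ∈ Ac)
    (hcon : ∀ U, ac U → Packx915.Conn fd Rc U)
    (hRc : 4 * Rc + 3 * r + 2 ≤ L * r)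
    (hsep : ∀ i j, i ≠ j → 2 * (L * r + D * r) < fd (loc i) (loc j))
    (hnear : ∀ U, ac U → size r U ≤ 1 → ¬ em U → ∃ x ∈ U,
      (∃ y ∈ B, fd y x + r ≤ D * r) ∨ (∃ z ∈ Z, fd z x + r ≤ D * r) ∨
      ∃ i, fd (loc i) x + r ≤ D * r)
    (hNb : DCount fd B (L * r + D * r) r Nb) (hNm : DCount fd Z (L * r + D * r) r Nm)
    (hΓt : Γ ≠ ∞) (hc : 1 ≤ c) (hΓ : (c * ENNReal.ofReal (1 + 4 * EE C D)) ^ 2 ≤ Γ) :
    DStep w a a' r (L * r) Γ (c * Γ) S ac em (dset loc B Z) (fun _ => D * r) (dN Nb Nm)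
      (dq (EE C D) (Real.sqrt (1 / L))) ((c * ENNReal.ofReal (1 + 4 * EE C D)) ^ 2 * Γ⁻¹)
      (ENNReal.ofReal (1 + 4 * EE C D)) := by
  have key := H.dstep (a := a) (a' := a') (r' := L * r) (D := D) hg (Γ := Γ) (c := c) (ac := ac)
    (em := em) (Rc := Rc) (Nb := Nb) (Nm := Nm) hr0 (Nat.mul_le_mul_right _ hL.ten)
    (by rw [← mul_assoc]; exact Nat.mul_le_mul_right _ hL.hD) (Nat.mul_le_mul_right _ hLΛ) hR hr ha
    ha' ha2 (by rw [ratio_L hr]; exact hL.s8) (by rw [ratio_L hr]; exact hL.far) hW0 hact hcon hRc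
    hsep hnear hNb hNm hΓt hc hΓ
  rwa [ratio_L hr] at key

end numerics

end Crest.Agent.R165.RegIx893
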