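import Crest.Agent.R165.GeoRL_838
import Crest.Agent.R165.RegI_893

/-!
# Row 165 (S0250): the structures `Geo` of the backgrounds (helper838)

* `geoI` : `Geo` of helper893 for `wX (wDom T b) X`, `T` a regular lattice set (`LatReg T ρ κ`,
  `κ ρ ≤ 1`), defects `bdS T`, marks `Z`, branch points `X`; the constant `KG` is absolute, the
  thresholds `r0`, `C0` depend on `Λ` only
* `latReg_univ`, `wDom_univ` : the plane is the case `T = univ`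
* `geoI_pl`, `geoI_br` : plane, branch vertices in the plane
-/

set_option autoImplicit false

noncomputable section

open Crest.ProbabilityR.IsingModel
open Crest.Agent.R165.Geo
open Crest.Agent.R165.Latx683 (BW wDom wX wPl)
open Crest.Agent.R165.GDefx387 (fd fd_comm fd_triangle fd_self)
open Crest.Agent.R165.RIfx891 (GapU EXb EXbr)
open Crest.Agent.R165.RegGx893 (RB RD RX)
open Crest.Agent.R165.RFlatx65
open Crest.Agent.R165.Flatx838 Crest.Agent.R165.GeoRDx838 Crest.Agent.R165.GeoRLx838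

namespace Crest.Agent.R165.GeoIx838

/-- the configuration of a domain: insertions and marks are inside, far from each other and from
the boundary -/
structure Sep (T : Set (ℤ × ℤ)) {m : ℕ} (X : Fin m → ℤ × ℤ) (Z : Set (ℤ × ℤ)) (R0 : ℕ) : Prop where
  mem : ∀ i, X i ∈ T
  bd : ∀ i, ∀ z ∈ bdS T, R0 + 1 < fd (X i) z
  sep : ∀ i j, i ≠ j → R0 < fd (X i) (X j)
  mbd : ∀ u ∈ Z, ∀ z ∈ bdS T, R0 + 1 < fd u z
  msep : ∀ u ∈ Z, ∀ i, R0 < fd u (X i)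

theorem Sep.mono {T : Set (ℤ × ℤ)} {m : ℕ} {X : Fin m → ℤ × ℤ} {Z : Set (ℤ × ℤ)} {R0 R1 : ℕ}
    (h : Sep T X Z R0) (hR : R1 ≤ R0) : Sep T X Z R1 :=
  ⟨h.mem, fun i z hz => lt_of_le_of_lt (by omega) (h.bd i z hz),
    fun i j hij => lt_of_le_of_lt hR (h.sep i j hij),
    fun u hu z hz => lt_of_le_of_lt (by omega) (h.mbd u hu z hz),
    fun u hu i => lt_of_le_of_lt hR (h.msep u hu i)⟩

/-- **`Geo` for a regular lattice set with insertions and marks** -/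
theorem geoI {C C' Cs : ℝ} (hC : 0 ≤ C) (hC' : 0 ≤ C') (hCs : 0 ≤ Cs) (hG : GapU Cs)
    (hE : EXb C) (hE' : EXbr C') (Λ : ℕ) :
    ∃ r0 C0 : ℕ, 2 ≤ r0 ∧ 1 ≤ C0 ∧ ∀ (T : Set (ℤ × ℤ)) (ρ κ : ℝ), LatReg T ρ κ → κ * ρ ≤ 1 →
      ∀ (m : ℕ) (X : Fin m → ℤ × ℤ) (Z : Set (ℤ × ℤ)) (b : Bool) (R0 : ℕ), (C0 : ℝ) * R0 ≤ ρ →
      Sep T X Z R0 →
      RegIx893.Geo (wX (wDom T b) X) (KG C C' Cs) Λ r0 R0 X (bdS T) Z Set.univ := by
  obtain ⟨r0, C0, hr0, hC0, H⟩ := geo_lat hC hC' hCs hG hE hE' Λ 0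
  refine ⟨r0, C0, hr0, hC0, ?_⟩
  intro T ρ κ h hκ m X Z b R0 hR0 hS
  obtain ⟨h1, h2, h3⟩ := H T ρ κ h hκ m X b R0 hR0
  refine ⟨one_le_KG C C' Cs, ?_, ?_, ?_, ?_⟩
  · intro y hy
    exact h1 y y hy (by rw [fd_self]) fun i => by rw [fd_comm]; exact hS.bd i y hy
  · intro z hz
    have h4 : Cls (Bridgex386.wl (wX (wDom T b) X)) z R0 :=
      trich_bdS (fun y hy => hS.mbd z hz y hy) (hS.msep z hz)
    exact (rb_of_cls h4 Λ).mono ((le_max_right _ _).trans (le_max_right _ _)) le_rfl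
      (by omega) le_rfl
  · intro i
    exact h2 i (hS.mem i) (hS.bd i) fun j hj => hS.sep i j hj.symm
  · intro x _
    rcases h3 x with h4 | ⟨y, hy | ⟨i, rfl⟩, -, h4⟩
    · exact Or.inl h4
    · exact Or.inr (Or.inl ⟨y, Or.inl hy, h4⟩)
    · exact Or.inr (Or.inr ⟨i, h4⟩)

/-! ### the plane -/

theorem wDom_univ (b : Bool) : wDom Set.univ b = wPl ℤ := by
  funext z j
  cases b <;> simp [wDom, wPl]

theorem bdS_univ : bdS (Set.univ : Set (ℤ × ℤ)) = ∅ := by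
  ext z
  simp [bdS]

theorem latReg_univ (ρ : ℝ) : LatReg Set.univ ρ 0 := by
  intro z
  refine ⟨0, fun _ => -ρ - 1, fun _ => 0, fun s => hasDerivAt_const s _, ?_, ?_, ?_⟩
  · intro s; norm_num
  · intro s t; simp
  · intro w _ h2
    rw [abs_le] at h2
    simp only [Set.mem_univ, true_iff]
    linarith [h2.1]

/-- separation in the plane -/
structure SepP {m : ℕ} (X : Fin m → ℤ × ℤ) (Z : Set (ℤ × ℤ)) (R0 : ℕ) : Prop where
  sep : ∀ i j, i ≠ j → R0 < fd (X i) (X j)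
  msep : ∀ u ∈ Z, ∀ i, R0 < fd u (X i)

theorem SepP.sep_univ {m : ℕ} {X : Fin m → ℤ × ℤ} {Z : Set (ℤ × ℤ)} {R0 : ℕ} (h : SepP X Z R0) :
    Sep Set.univ X Z R0 := by
  refine ⟨fun i => Set.mem_univ _, ?_, h.sep, ?_, h.msep⟩
  · intro i z hz; rw [bdS_univ] at hz; exact absurd hz (Set.notMem_empty z)
  · intro u _ z hz; rw [bdS_univ] at hz; exact absurd hz (Set.notMem_empty z)

/-- **`Geo` for the plane with insertions and marks** (same thresholds) -/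
theorem geoI_plane {C C' Cs : ℝ} (hC : 0 ≤ C) (hC' : 0 ≤ C') (hCs : 0 ≤ Cs) (hG : GapU Cs)
    (hE : EXb C) (hE' : EXbr C') (Λ : ℕ) :
    ∃ r0 C0 : ℕ, 2 ≤ r0 ∧ 1 ≤ C0 ∧
      (∀ (T : Set (ℤ × ℤ)) (ρ κ : ℝ), LatReg T ρ κ → κ * ρ ≤ 1 →
      ∀ (m : ℕ) (X : Fin m → ℤ × ℤ) (Z : Set (ℤ × ℤ)) (b : Bool) (R0 : ℕ), (C0 : ℝ) * R0 ≤ ρ →
      Sep T X Z R0 →
      RegIx893.Geo (wX (wDom T b) X) (KG C C' Cs) Λ r0 R0 X (bdS T) Z Set.univ) ∧
      (∀ (m : ℕ) (X : Fin m → ℤ × ℤ) (Z : Set (ℤ × ℤ)) (R0 : ℕ), SepP X Z R0 →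
      RegIx893.Geo (wX (wPl ℤ) X) (KG C C' Cs) Λ r0 R0 X ∅ Z Set.univ) := by
  obtain ⟨r0, C0, hr0, hC0, H⟩ := geoI hC hC' hCs hG hE hE' Λ
  refine ⟨r0, C0, hr0, hC0, H, fun m X Z R0 hS => ?_⟩
  have key := H Set.univ ((C0 : ℝ) * R0) 0 (latReg_univ _) (by simp) m X Z false R0 le_rfl
    hS.sep_univ
  rwa [wDom_univ, bdS_univ] at key

theorem wX_zero {w : BW ℤ} (X : Fin 0 → ℤ × ℤ) : wX w X = w := by
  funext z j
  simp [wX, Latx683.ray]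

end Crest.Agent.R165.GeoIx838
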