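import Mathlib
import Crest.Agent.R165.GeoD_65

/-!
# Row 165, block GEO (helper65), file J: quasiconvexity (GEO-6b)

* `Poly D z w ℓ` : `z` and `w` are joined by a polygonal path inside `D` of length `≤ ℓ`;
* `Poly.norm_sub_le`, `Poly.norm_sub_le_real`: functions with derivative bounded by `L` on `D` vary by at most
  `L ℓ` along such a path;
* `quasiconvex` : for `CD D r M` there is `K` with `Poly D z w (K ‖z - w‖)` for all `z w ∈ D`.
-/

set_option autoImplicit false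

open Set Topology Filter Metric

namespace Crest.Agent.R165.GeoJx65

open Crest.Agent.R165.Geo
open Crest.Agent.R165.GeoDx65
open Complex (I)

/-- polygonal paths of length `≤ ℓ` inside `D` -/
inductive Poly (D : Set ℂ) : ℂ → ℂ → ℝ → Prop
  | seg {z w : ℂ} {ℓ : ℝ} (h : segment ℝ z w ⊆ D) (hl : ‖z - w‖ ≤ ℓ) : Poly D z w ℓ
  | trans {z w x : ℂ} {ℓ ℓ' : ℝ} (h : Poly D z w ℓ) (h' : Poly D w x ℓ') : Poly D z x (ℓ + ℓ')

namespace Poly

variable {D : Set ℂ} {z w x : ℂ} {ℓ ℓ' : ℝ}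

theorem symm (h : Poly D z w ℓ) : Poly D w z ℓ := by
  induction h with
  | seg h hl => exact Poly.seg (by rwa [segment_symm]) (by rwa [norm_sub_rev])
  | trans _ _ ih1 ih2 => rw [add_comm]; exact Poly.trans ih2 ih1

theorem mem_left (h : Poly D z w ℓ) : z ∈ D := by
  induction h with
  | seg h _ => exact h (left_mem_segment ℝ _ _)
  | trans _ _ ih _ => exact ih

theorem mem_right (h : Poly D z w ℓ) : w ∈ D := h.symm.mem_left

theorem norm_le (h : Poly D z w ℓ) : ‖z - w‖ ≤ ℓ := by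
  induction h with
  | seg _ hl => exact hl
  | @trans z w x _ _ _ _ ih1 ih2 =>
    calc ‖z - x‖ = ‖(z - w) + (w - x)‖ := by congr 1; ring
      _ ≤ _ := (norm_add_le _ _).trans (add_le_add ih1 ih2)

theorem refl (hz : z ∈ D) : Poly D z z 0 :=
  Poly.seg (by rw [segment_same]; exact singleton_subset_iff.2 hz) (by simp)

theorem mono_len (h : Poly D z w ℓ) (hl : ℓ ≤ ℓ') : Poly D z w ℓ' := by
  have h2 : Poly D w w (ℓ' - ℓ) :=
    Poly.seg (by rw [segment_same]; exact singleton_subset_iff.2 h.mem_right) (by simpa using hl)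
  have := Poly.trans h h2
  rwa [add_sub_cancel] at this

theorem mono {D' : Set ℂ} (h : Poly D z w ℓ) (hD : D ⊆ D') : Poly D' z w ℓ := by
  induction h with
  | seg h hl => exact Poly.seg (h.trans hD) hl
  | trans _ _ ih1 ih2 => exact Poly.trans ih1 ih2

/-- real differentiable functions -/
theorem norm_sub_le_real {E : Type*} [NormedAddCommGroup E] [NormedSpace ℝ E] (h : Poly D z w ℓ)
    {F : ℂ → E} {L : ℝ} (hF : ∀ x ∈ D, DifferentiableAt ℝ F x) (hL : ∀ x ∈ D, ‖fderiv ℝ F x‖ ≤ L)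
    (hL0 : 0 ≤ L) : ‖F z - F w‖ ≤ L * ℓ := by
  induction h with
  | @seg z w _ h hl =>
    have := Convex.norm_image_sub_le_of_norm_fderiv_le (𝕜 := ℝ) (f := F) (C := L)
      (s := segment ℝ z w) (fun x hx => hF x (h hx)) (fun x hx => hL x (h hx))
      (convex_segment z w) (right_mem_segment ℝ z w) (left_mem_segment ℝ z w)
    exact this.trans (mul_le_mul_of_nonneg_left hl hL0)
  | @trans z w x _ _ _ _ ih1 ih2 =>
    calc ‖F z - F x‖ = ‖(F z - F w) + (F w - F x)‖ := by congr 1; abel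
      _ ≤ _ := (norm_add_le _ _).trans (add_le_add ih1 ih2)
      _ = _ := by ring

/-- holomorphic functions -/
theorem norm_sub_le {E : Type*} [NormedAddCommGroup E] [NormedSpace ℂ E] (h : Poly D z w ℓ)
    {F : ℂ → E} {L : ℝ} (hF : ∀ x ∈ D, DifferentiableAt ℂ F x) (hL : ∀ x ∈ D, ‖deriv F x‖ ≤ L)
    (hL0 : 0 ≤ L) : ‖F z - F w‖ ≤ L * ℓ := by
  induction h with
  | @seg z w _ h hl =>
    have := Convex.norm_image_sub_le_of_norm_deriv_le (𝕜 := ℂ) (f := F) (C := L)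
      (s := segment ℝ z w) (fun x hx => hF x (h hx)) (fun x hx => hL x (h hx))
      (convex_segment z w) (right_mem_segment ℝ z w) (left_mem_segment ℝ z w)
    exact this.trans (mul_le_mul_of_nonneg_left hl hL0)
  | @trans z w x _ _ _ _ ih1 ih2 =>
    calc ‖F z - F x‖ = ‖(F z - F w) + (F w - F x)‖ := by congr 1; abel
      _ ≤ _ := (norm_add_le _ _).trans (add_le_add ih1 ih2)
      _ = _ := by ring

end Poly

variable {D : Set ℂ} {r M : ℝ}

/-- affine image of a segment in chart coordinates -/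
theorem segment_coord (p : ℂ) (k : ℕ) (s t s' t' : ℝ) {x : ℂ}
    (hx : x ∈ segment ℝ (p + I ^ k * ((s:ℂ) + (t:ℂ) * I)) (p + I ^ k * ((s':ℂ) + (t':ℂ) * I))) :
    ∃ b : ℝ, 0 ≤ b ∧ b ≤ 1 ∧
      x = p + I ^ k * (((s + b * (s' - s) : ℝ) : ℂ) + ((t + b * (t' - t) : ℝ) : ℂ) * I) := by
  obtain ⟨a, b, ha, hb, hab, rfl⟩ := hx
  refine ⟨b, hb, by linarith, ?_⟩
  have ha' : a = 1 - b := by linarith
  rw [ha', Complex.real_smul, Complex.real_smul]
  push_cast
  ring

/-- local quasiconvexity at a frontier point -/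
theorem local_frontier {p : ℂ} {k : ℕ} {g g' : ℝ → ℝ} (hc : Chart D p r M k g g') (hr : 0 < r)
    {z w : ℂ} (hz : z ∈ D) (hw : w ∈ D) (hzp : ‖z - p‖ < r / 8) (hwp : ‖w - p‖ < r / 8) :
    Poly D z w (7 * ‖z - w‖) := by
  obtain ⟨s, t, ez, -, hs, ht⟩ := exists_coord p k z
  obtain ⟨s', t', ew, -, hs', ht'⟩ := exists_coord p k w
  set d := ‖z - w‖ with hd
  have hd0 : 0 ≤ d := norm_nonneg _
  have hdr : d ≤ r / 4 := by
    have : ‖z - w‖ = ‖(z - p) - (w - p)‖ := by congr 1; ring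
    rw [hd, this]
    have := norm_sub_le (z - p) (w - p)
    linarith
  have hdist := norm_coord p k s t s' t'
  rw [← ez, ← ew, ← hd] at hdist
  have h1 : |s - s'| ≤ d := abs_le_of_sq_le_sq (by nlinarith [sq_nonneg (t - t')]) hd0
  have h2 : |t - t'| ≤ d := abs_le_of_sq_le_sq (by nlinarith [sq_nonneg (s - s')]) hd0
  have hs1 := hs.trans hzp.le
  have ht1 := ht.trans hzp.le
  have hs2 := hs'.trans hwp.le
  have ht2 := ht'.trans hwp.le
  have hs1' := abs_le.1 hs1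
  have ht1' := abs_le.1 ht1
  have hs2' := abs_le.1 hs2
  have ht2' := abs_le.1 ht2
  have h1' := abs_le.1 h1
  have h2' := abs_le.1 h2
  have hgs : g s < t := (hc.mem s t (hs1.trans (by linarith)) (ht1.trans (by linarith))).1 (by rwa [← ez])
  have hgs' : g s' < t' := (hc.mem s' t' (hs2.trans (by linarith)) (ht2.trans (by linarith))).1
    (by rwa [← ew])
  -- three segments
  have A : Poly D z (p + I ^ k * ((s:ℂ) + ((t + 3 * d : ℝ):ℂ) * I)) (3 * d) := by
    refine Poly.seg (fun x hx => ?_) ?_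
    · rw [ez] at hx
      obtain ⟨b, hb0, hb1, rfl⟩ := segment_coord p k s t s (t + 3 * d) hx
      have hb3 : 0 ≤ b * (3 * d) := by positivity
      have hb4 : b * (3 * d) ≤ 3 * d := mul_le_of_le_one_left (by positivity) hb1
      rw [hc.mem _ _ (by rw [sub_self, mul_zero, add_zero]; linarith)
        (abs_le.2 ⟨by rw [add_sub_cancel_left]; linarith, by rw [add_sub_cancel_left]; linarith⟩)]
      rw [sub_self, mul_zero, add_zero, add_sub_cancel_left]
      linarith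
    · have := norm_coord p k s t s (t + 3 * d)
      rw [← ez] at this
      have h3 : (s - s) ^ 2 + (t - (t + 3 * d)) ^ 2 = (3 * d) ^ 2 := by ring
      rw [h3] at this
      exact ((pow_left_inj₀ (norm_nonneg _) (by positivity) two_ne_zero).1 this).le
  have B : Poly D w (p + I ^ k * ((s':ℂ) + ((t' + 3 * d : ℝ):ℂ) * I)) (3 * d) := by
    refine Poly.seg (fun x hx => ?_) ?_
    · rw [ew] at hx
      obtain ⟨b, hb0, hb1, rfl⟩ := segment_coord p k s' t' s' (t' + 3 * d) hx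
      have hb3 : 0 ≤ b * (3 * d) := by positivity
      have hb4 : b * (3 * d) ≤ 3 * d := mul_le_of_le_one_left (by positivity) hb1
      rw [hc.mem _ _ (by rw [sub_self, mul_zero, add_zero]; linarith)
        (abs_le.2 ⟨by rw [add_sub_cancel_left]; linarith, by rw [add_sub_cancel_left]; linarith⟩)]
      rw [sub_self, mul_zero, add_zero, add_sub_cancel_left]
      linarith
    · have := norm_coord p k s' t' s' (t' + 3 * d)
      rw [← ew] at this
      have h3 : (s' - s') ^ 2 + (t' - (t' + 3 * d)) ^ 2 = (3 * d) ^ 2 := by ring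
      rw [h3] at this
      exact ((pow_left_inj₀ (norm_nonneg _) (by positivity) two_ne_zero).1 this).le
  have C : Poly D (p + I ^ k * ((s:ℂ) + ((t + 3 * d : ℝ):ℂ) * I))
      (p + I ^ k * ((s':ℂ) + ((t' + 3 * d : ℝ):ℂ) * I)) d := by
    refine Poly.seg (fun x hx => ?_) ?_
    · obtain ⟨b, hb0, hb1, rfl⟩ := segment_coord p k s (t + 3 * d) s' (t' + 3 * d) hx
      have h3 : |b * (s' - s)| ≤ d := by
        rw [abs_mul, abs_of_nonneg hb0, abs_sub_comm]
        exact (mul_le_of_le_one_left (abs_nonneg _) hb1).trans h1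
      have h4 : |b * (t' + 3 * d - (t + 3 * d))| ≤ d := by
        rw [abs_mul, abs_of_nonneg hb0, add_sub_add_right_eq_sub, abs_sub_comm]
        exact (mul_le_of_le_one_left (abs_nonneg _) hb1).trans h2
      have h3' := abs_le.1 h3
      have h4' := abs_le.1 h4
      rw [hc.mem _ _ (abs_le.2 ⟨by linarith, by linarith⟩) (abs_le.2 ⟨by linarith, by linarith⟩)]
      have h5 := Chart.lipg hc (s + b * (s' - s)) s
      rw [add_sub_cancel_left] at h5
      have h6 := (abs_le.1 h5).2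
      linarith
    · have := norm_coord p k s (t + 3 * d) s' (t' + 3 * d)
      have h3 : (s - s') ^ 2 + (t + 3 * d - (t' + 3 * d)) ^ 2 = d ^ 2 := by rw [hdist]; ring
      rw [h3] at this
      exact ((pow_left_inj₀ (norm_nonneg _) hd0 two_ne_zero).1 this).le
  have := (A.trans C).trans B.symm
  refine this.mono_len (le_of_eq ?_)
  ring

/-- local quasiconvexity -/
theorem exists_local (h : CD D r M) {p : ℂ} (hp : p ∈ closure D) :
    ∃ ε : ℝ, 0 < ε ∧ ∀ z ∈ D, ∀ w ∈ D, ‖z - p‖ < ε → ‖w - p‖ < ε → Poly D z w (7 * ‖z - w‖) := by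
  by_cases hpD : p ∈ D
  · obtain ⟨ε, hε, hb⟩ := Metric.isOpen_iff.1 h.isOpen p hpD
    refine ⟨ε, hε, fun z hz w hw h1 h2 => ?_⟩
    refine Poly.seg (fun x hx => hb ?_) ?_
    · exact (convex_ball p ε).segment_subset (by rwa [mem_ball, Complex.dist_eq])
        (by rwa [mem_ball, Complex.dist_eq]) hx
    · have := norm_nonneg (z - w)
      linarith
  · have hpf : p ∈ frontier D := by
      rw [h.isOpen.frontier_eq]; exact ⟨hp, hpD⟩
    obtain ⟨k, g, g', hc⟩ := h.chart p hpf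
    have hr := h.r_pos
    exact ⟨r / 8, by positivity, fun z hz w hw h1 h2 => local_frontier hc hr hz hw h1 h2⟩

/-- joined by some polygonal path -/
theorem exists_poly (h : CD D r M) {z w : ℂ} (hz : z ∈ D) (hw : w ∈ D) : ∃ ℓ : ℝ, Poly D z w ℓ := by
  set S : Set ℂ := {x | x ∈ D ∧ ∃ ℓ, Poly D z x ℓ} with hS
  set S' : Set ℂ := {x | x ∈ D ∧ ¬ ∃ ℓ, Poly D z x ℓ} with hS'
  have hloc : ∀ x ∈ D, ∃ ε > 0, ball x ε ⊆ D ∧ ∀ y ∈ ball x ε, Poly D x y ‖x - y‖ := fun x hx => by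
    obtain ⟨ε, hε, hb⟩ := Metric.isOpen_iff.1 h.isOpen x hx
    refine ⟨ε, hε, hb, fun y hy => Poly.seg (fun u hu => hb ?_) le_rfl⟩
    exact (convex_ball x ε).segment_subset (mem_ball_self hε) hy hu
  have hSo : IsOpen S := Metric.isOpen_iff.2 fun x hx => by
    obtain ⟨ε, hε, hb, hp⟩ := hloc x hx.1
    obtain ⟨ℓ, hℓ⟩ := hx.2
    exact ⟨ε, hε, fun y hy => ⟨hb hy, _, hℓ.trans (hp y hy)⟩⟩
  have hSo' : IsOpen S' := Metric.isOpen_iff.2 fun x hx => by
    obtain ⟨ε, hε, hb, hp⟩ := hloc x hx.1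
    refine ⟨ε, hε, fun y hy => ⟨hb hy, fun hy2 => ?_⟩⟩
    obtain ⟨ℓ, hℓ⟩ := hy2
    exact hx.2 ⟨_, hℓ.trans (hp y hy).symm⟩
  by_contra hcon
  obtain ⟨x, -, hx1, hx2⟩ := h.conn.isPreconnected S S' hSo hSo'
    (fun x hx => by
      by_cases h1 : ∃ ℓ, Poly D z x ℓ
      · exact Or.inl ⟨hx, h1⟩
      · exact Or.inr ⟨hx, h1⟩) ⟨z, hz, hz, 0, Poly.refl hz⟩ ⟨w, hw, hw, hcon⟩
  exact hx2.2 hx1.2

/-- **quasiconvexity** -/
theorem quasiconvex (h : CD D r M) :
    ∃ K : ℝ, 0 < K ∧ ∀ z ∈ D, ∀ w ∈ D, Poly D z w (K * ‖z - w‖) := by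
  classical
  have hK : IsCompact (closure D) := h.bdd.isCompact_closure
  choose! ε hε hloc using fun p (hp : p ∈ closure D) => exists_local h hp
  obtain ⟨t, htK, hcov⟩ := hK.elim_nhds_subcover (fun p => ball p (ε p / 2))
    (fun p hp => ball_mem_nhds p (by have := hε p hp; positivity))
  -- bound for the diameter
  obtain ⟨R, hR0, hR⟩ := h.bdd.exists_pos_norm_le
  -- base points
  obtain ⟨x₀, hx₀⟩ := h.conn.nonempty
  have hbase : ∀ p : ℂ, ∃ b : ℂ, b ∈ D ∧ (p ∈ t → ‖b - p‖ < ε p) := fun p => by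
    by_cases hp : p ∈ t
    · obtain ⟨b, hb1, hb2⟩ := Metric.mem_closure_iff.1 (htK p hp) (ε p) (hε p (htK p hp))
      exact ⟨b, hb1, fun _ => by rwa [← dist_eq_norm, dist_comm]⟩
    · exact ⟨x₀, hx₀, fun h => absurd h hp⟩
  choose b hbD hbε using hbase
  have hpoly : ∀ p q : ℂ, ∃ ℓ : ℝ, Poly D (b p) (b q) ℓ := fun p q => exists_poly h (hbD p) (hbD q)
  choose ℓ hℓ using hpoly
  set N : ℝ := ∑ p ∈ t, ∑ q ∈ t, |ℓ p q| with hN
  have hN0 : 0 ≤ N := Finset.sum_nonneg fun _ _ => Finset.sum_nonneg fun _ _ => abs_nonneg _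
  have hNle : ∀ p ∈ t, ∀ q ∈ t, ℓ p q ≤ N := fun p hp q hq =>
    (le_abs_self _).trans ((Finset.single_le_sum (f := fun q => |ℓ p q|)
      (fun _ _ => abs_nonneg _) hq).trans (Finset.single_le_sum (f := fun p => ∑ q ∈ t, |ℓ p q|)
        (fun _ _ => Finset.sum_nonneg fun _ _ => abs_nonneg _) hp))
  -- smallest radius
  obtain ⟨ε₀, hε₀, hε₀le⟩ : ∃ ε₀ : ℝ, 0 < ε₀ ∧ ∀ p ∈ t, ε₀ ≤ ε p / 2 := by
    rcases t.eq_empty_or_nonempty with he | hne
    · exact ⟨1, one_pos, fun p hp => by rw [he] at hp; exact absurd hp (Finset.notMem_empty _)⟩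
    · obtain ⟨p, hp, hmin⟩ := t.exists_min_image (fun p => ε p / 2) hne
      exact ⟨ε p / 2, by have := hε p (htK p hp); positivity, hmin⟩
  have hcov' : ∀ z ∈ D, ∃ p ∈ t, ‖z - p‖ < ε p / 2 := fun z hz => by
    have := hcov (subset_closure hz)
    simp only [mem_iUnion] at this
    obtain ⟨p, hp, hzp⟩ := this
    exact ⟨p, hp, by rwa [mem_ball, dist_eq_norm] at hzp⟩
  refine ⟨7 + (28 * R + N) / ε₀, by positivity, fun z hz w hw => ?_⟩
  obtain ⟨p, hp, hzp⟩ := hcov' z hz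
  have hεp := hε p (htK p hp)
  by_cases hd : ‖z - w‖ < ε₀
  · have hwp : ‖w - p‖ < ε p := by
      have h1 : ‖w - p‖ ≤ ‖w - z‖ + ‖z - p‖ := by
        have : w - p = (w - z) + (z - p) := by ring
        rw [this]; exact norm_add_le _ _
      rw [norm_sub_rev] at hd
      have := hε₀le p hp
      linarith
    refine (hloc p (htK p hp) z hz w hw (by linarith) hwp).mono_len ?_
    refine mul_le_mul_of_nonneg_right ?_ (norm_nonneg _)
    have : 0 ≤ (28 * R + N) / ε₀ := by positivity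
    linarith
  · push Not at hd
    obtain ⟨q, hq, hwq⟩ := hcov' w hw
    have hεq := hε q (htK q hq)
    have h1 := hloc p (htK p hp) z hz (b p) (hbD p) (by linarith) (hbε p hp)
    have h2 := hloc q (htK q hq) w hw (b q) (hbD q) (by linarith) (hbε q hq)
    have h3 := (h1.trans (hℓ p q)).trans h2.symm
    refine h3.mono_len ?_
    have hn : ∀ x ∈ D, ∀ y ∈ D, ‖x - y‖ ≤ 2 * R := fun x hx y hy =>
      (norm_sub_le x y).trans (by linarith [hR x hx, hR y hy])
    have h4 := hn z hz (b p) (hbD p)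
    have h5 := hn w hw (b q) (hbD q)
    have h6 := hNle p hp q hq
    have h7 : 28 * R + N ≤ (28 * R + N) / ε₀ * ‖z - w‖ := by
      calc 28 * R + N = (28 * R + N) / ε₀ * ε₀ := by field_simp
        _ ≤ _ := mul_le_mul_of_nonneg_left hd (by positivity)
    have h8 := norm_nonneg (z - w)
    rw [add_mul]
    linarith

/-- holomorphic functions with bounded derivative are Lipschitz on `D` -/
theorem exists_lip (h : CD D r M) : ∃ K : ℝ, 0 < K ∧
    (∀ (F : ℂ → ℂ) (L : ℝ), 0 ≤ L → DifferentiableOn ℂ F D → (∀ x ∈ D, ‖deriv F x‖ ≤ L) →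
      ∀ z ∈ D, ∀ w ∈ D, ‖F z - F w‖ ≤ K * L * ‖z - w‖) ∧
    (∀ (F : ℂ → ℝ) (L : ℝ), 0 ≤ L → DifferentiableOn ℝ F D → (∀ x ∈ D, ‖fderiv ℝ F x‖ ≤ L) →
      ∀ z ∈ D, ∀ w ∈ D, |F z - F w| ≤ K * L * ‖z - w‖) ∧
    (∀ (F : ℂ → ℂ) (L : ℝ), 0 ≤ L → DifferentiableOn ℝ F D → (∀ x ∈ D, ‖fderiv ℝ F x‖ ≤ L) →
      ∀ z ∈ D, ∀ w ∈ D, ‖F z - F w‖ ≤ K * L * ‖z - w‖) := by
  obtain ⟨K, hK0, hK⟩ := quasiconvex h
  refine ⟨K, hK0, fun F L hL hF hd z hz w hw => ?_, fun F L hL hF hd z hz w hw => ?_,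
    fun F L hL hF hd z hz w hw => ?_⟩
  · have := (hK z hz w hw).norm_sub_le (F := F)
      (fun x hx => hF.differentiableAt (h.isOpen.mem_nhds hx)) hd hL
    calc _ ≤ _ := this
      _ = _ := by ring
  · have := (hK z hz w hw).norm_sub_le_real (F := F)
      (fun x hx => hF.differentiableAt (h.isOpen.mem_nhds hx)) hd hL
    rw [Real.norm_eq_abs] at this
    calc _ ≤ _ := this
      _ = _ := by ring
  · have := (hK z hz w hw).norm_sub_le_real (F := F)
      (fun x hx => hF.differentiableAt (h.isOpen.mem_nhds hx)) hd hL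
    calc _ ≤ _ := this
      _ = _ := by ring

end Crest.Agent.R165.GeoJx65
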