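import Crest.Agent.R165.GeoDefs_416

/-!
R165, block GEO, lattice part 1: from the charts of `D` to the lattice charts of `domainSites D a`.
-/

set_option autoImplicit false

namespace Crest.Agent.R165.Geo

open Complex Set
open Crest.ProbabilityR.IsingModel

theorem CD.mono {D : Set ℂ} {r M r' M' : ℝ} (h : CD D r M) (hr' : 0 < r') (hr : r' ≤ r) (hM : M ≤ M') :
    CD D r' M' where
  r_pos := hr'
  M_nonneg := h.M_nonneg.trans hM
  isOpen := h.isOpen
  bdd := h.bdd
  conn := h.conn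
  conn_compl := h.conn_compl
  chart := by
    intro p hp
    obtain ⟨k, g, g', hc⟩ := h.chart p hp
    refine ⟨k, g, g', hc.zero, hc.hd, hc.slope, fun s t => (hc.lip s t).trans ?_, ?_, ?_⟩
    · exact mul_le_mul_of_nonneg_right hM (abs_nonneg _)
    · intro s t hs ht
      exact hc.mem s t (hs.trans hr) (ht.trans (by linarith))
    · intro s t hs ht
      exact hc.bdry s t (hs.trans hr) (ht.trans (by linarith))

theorem meshPoint_eq (a : ℝ) (z : ℤ × ℤ) : meshPoint a z = ((a * z.1 : ℝ) : ℂ) + ((a * z.2 : ℝ) : ℂ) * I := by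
  apply Complex.ext <;> simp [meshPoint]

theorem meshPoint_add (a : ℝ) (z w : ℤ × ℤ) : meshPoint a (z + w) = meshPoint a z + meshPoint a w := by
  apply Complex.ext <;> simp [meshPoint] <;> ring

theorem meshPoint_rotate (a : ℝ) (w : ℤ × ℤ) : meshPoint a (rotate w) = I * meshPoint a w := by
  apply Complex.ext <;> simp [meshPoint, rotate]

theorem meshPoint_rotate_iter (a : ℝ) (k : ℕ) (w : ℤ × ℤ) :
    meshPoint a (rotate^[k] w) = I ^ k * meshPoint a w := by
  induction k with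
  | zero => simp
  | succ k ih => rw [Function.iterate_succ_apply', meshPoint_rotate, ih, pow_succ]; ring

/-- the box of sup-radius `r0` around `P` -/
def sbox (P : ℂ) (r0 : ℝ) : Set ℂ := {q | |(q - P).re| ≤ r0 ∧ |(q - P).im| ≤ r0}

theorem sbox_convex (P : ℂ) (r0 : ℝ) : Convex ℝ (sbox P r0) := by
  have : sbox P r0 = (fun q : ℂ => q - P) ⁻¹' (re ⁻¹' (Icc (-r0) r0) ∩ im ⁻¹' (Icc (-r0) r0)) := by
    ext q; simp [sbox, abs_le]
  rw [this]
  have h1 : Convex ℝ (re ⁻¹' (Icc (-r0) r0) ∩ im ⁻¹' (Icc (-r0) r0) : Set ℂ) :=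
    ((convex_Icc _ _).is_linear_preimage (Complex.reLm.isLinear)).inter
      ((convex_Icc _ _).is_linear_preimage (Complex.imLm.isLinear))
  intro x hx y hy s t hs ht hst
  have := h1 hx hy hs ht hst
  simp only [mem_preimage] at *
  have e : s • x + t • y - P = s • (x - P) + t • (y - P) := by
    have : (s : ℂ) + t = 1 := by exact_mod_cast hst
    simp only [real_smul]
    linear_combination P * this
  rw [e]; exact this

theorem sbox_mem {P : ℂ} {r0 : ℝ} (h : 0 ≤ r0) : P ∈ sbox P r0 := by simp [sbox, h]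

/-- a box which does not meet the frontier is inside or outside. -/
theorem box_dichotomy {D : Set ℂ} (hD : IsOpen D) {P : ℂ} {r0 : ℝ}
    (h : ∀ q ∈ sbox P r0, q ∉ frontier D) :
    (∀ q ∈ sbox P r0, q ∈ D) ∨ (∀ q ∈ sbox P r0, q ∉ D) := by
  have hpre : IsPreconnected (sbox P r0) := (sbox_convex P r0).isPreconnected
  by_contra hcon
  push Not at hcon
  obtain ⟨⟨q1, hq1, hq1'⟩, q2, hq2, hq2'⟩ := hcon
  have := hpre D (closure D)ᶜ hD isClosed_closure.isOpen_compl ?_ ⟨q2, hq2, hq2'⟩ ⟨q1, hq1, ?_⟩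
  · obtain ⟨q, -, hqD, hq⟩ := this
    exact hq (subset_closure hqD)
  · intro q hq
    by_cases hqc : q ∈ closure D
    · left
      by_contra hqD
      apply h q hq
      rw [frontier_eq_closure_inter_closure]
      exact ⟨hqc, subset_closure hqD⟩
    · exact Or.inr hqc
  · intro hc
    apply h q1 hq1
    rw [frontier_eq_closure_inter_closure]
    exact ⟨hc, subset_closure hq1'⟩

/-- coordinates in the rotated frame preserve the sup norm -/
theorem rot_coord (k : ℕ) (v : ℂ) {b : ℝ} (h1 : |v.re| ≤ b) (h2 : |v.im| ≤ b) :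
    ∃ s t : ℝ, |s| ≤ b ∧ |t| ≤ b ∧ v = I ^ k * ((s:ℂ) + (t:ℂ) * I) := by
  induction k generalizing v with
  | zero => exact ⟨v.re, v.im, h1, h2, by simp [Complex.re_add_im]⟩
  | succ k ih =>
    obtain ⟨s, t, hs, ht, e⟩ := ih v h1 h2
    refine ⟨t, -s, ht, by rwa [abs_neg], ?_⟩
    rw [e, pow_succ, mul_assoc]
    congr 1
    push_cast
    linear_combination (s:ℂ) * I_sq

/-- GEO-3. -/
theorem latReg_domainSites {D : Set ℂ} {r M r0 a : ℝ} (h : CD D r M) (hr0 : 0 < r0) (hr : 2 * r0 ≤ r)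
    (ha : 0 < a) : LatReg (domainSites D a) (r0 / a) (M * a) := by
  intro z
  set P : ℂ := meshPoint a z with hP
  have hbox : ∀ (k : ℕ) (w : ℤ × ℤ), |(w.1:ℝ)| ≤ r0 / a → |(w.2:ℝ)| ≤ r0 / a →
      |a * w.1| ≤ r0 ∧ |a * w.2| ≤ r0 := by
    intro k w h1 h2
    rw [abs_mul, abs_mul, abs_of_pos ha]
    rw [le_div_iff₀ ha] at h1 h2
    constructor <;> linarith
  have hIk : ∀ (k : ℕ) (x y : ℝ), |x| ≤ r0 → |y| ≤ r0 →
      P + I ^ k * ((x:ℂ) + (y:ℂ) * I) ∈ sbox P r0 := by
    intro k x y hx hy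
    have : ∀ k : ℕ, ∀ v : ℂ, |v.re| ≤ r0 → |v.im| ≤ r0 → |(I ^ k * v).re| ≤ r0 ∧ |(I ^ k * v).im| ≤ r0 := by
      intro k
      induction k with
      | zero => intro v h1 h2; simpa using ⟨h1, h2⟩
      | succ k ih =>
        intro v h1 h2
        rw [pow_succ, mul_assoc]
        apply ih
        · simpa using h2
        · simpa using h1
    have := this k ((x:ℂ) + (y:ℂ) * I) (by simpa using hx) (by simpa using hy)
    simpa [sbox] using this
  by_cases hcase : ∃ p ∈ frontier D, p ∈ sbox P r0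
  · obtain ⟨p, hp, hpb⟩ := hcase
    obtain ⟨k, g, g', hc⟩ := h.chart p hp
    have h1 : |(P - p).re| ≤ r0 := by rw [← abs_neg]; simpa [sbox] using hpb.1
    have h2 : |(P - p).im| ≤ r0 := by rw [← abs_neg]; simpa [sbox] using hpb.2
    obtain ⟨s0, t0, hs0, ht0, e0⟩ := rot_coord k (P - p) h1 h2
    refine ⟨k, fun x => (g (s0 + a * x) - t0) / a, fun x => g' (s0 + a * x), ?_, fun s => hc.slope _, ?_, ?_⟩
    · intro s
      have := (hc.hd (s0 + a * s)).comp s (((hasDerivAt_id s).const_mul a).const_add s0)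
      have := (this.sub_const t0).div_const a
      have e : g' (s0 + a * s) * (a * 1) / a = g' (s0 + a * s) := by
        rw [mul_one, mul_div_assoc, div_self ha.ne', mul_one]
      rw [e] at this
      exact this
    · intro s t
      refine (hc.lip _ _).trans ?_
      have : s0 + a * s - (s0 + a * t) = a * (s - t) := by ring
      rw [this, abs_mul, abs_of_pos ha, mul_assoc]
    · intro w hw1 hw2
      obtain ⟨b1, b2⟩ := hbox k w hw1 hw2
      show meshPoint a (z + rotate^[k] w) ∈ D ↔ _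
      rw [meshPoint_add, meshPoint_rotate_iter, ← hP, meshPoint_eq]
      have e : P + I ^ k * (((a * w.1 : ℝ):ℂ) + ((a * w.2:ℝ):ℂ) * I) =
          p + I ^ k * (((s0 + a * w.1 : ℝ):ℂ) + ((t0 + a * w.2:ℝ):ℂ) * I) := by
        have : P = p + I ^ k * ((s0:ℂ) + (t0:ℂ) * I) := by rw [← e0]; ring
        rw [this]; push_cast; ring
      have hs : |s0 + a * (w.1:ℝ)| ≤ r := (abs_add_le _ _).trans (by linarith)
      have ht : |t0 + a * (w.2:ℝ)| ≤ 3 * r := (abs_add_le _ _).trans (by linarith [h.r_pos])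
      rw [e, hc.mem _ _ hs ht, div_lt_iff₀ ha]
      constructor <;> intro hh <;> linarith
  · push Not at hcase
    have := box_dichotomy h.isOpen (P := P) (r0 := r0) (fun q hq hq' => hcase q hq' hq)
    have hM : ∀ s t : ℝ, |(0:ℝ) - 0| ≤ M * a * |s - t| := by
      intro s t
      have := mul_nonneg (mul_nonneg h.M_nonneg ha.le) (abs_nonneg (s - t))
      simpa using this
    rcases this with hin | hout
    · refine ⟨0, fun _ => -(r0/a) - 1, fun _ => 0, fun s => hasDerivAt_const _ _, fun s => by norm_num, hM, ?_⟩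
      intro w hw1 hw2
      obtain ⟨b1, b2⟩ := hbox 0 w hw1 hw2
      show meshPoint a (z + rotate^[0] w) ∈ D ↔ _
      rw [meshPoint_add, meshPoint_rotate_iter, ← hP, meshPoint_eq]
      have : P + I ^ 0 * (((a * w.1 : ℝ):ℂ) + ((a * w.2:ℝ):ℂ) * I) ∈ D := hin _ (hIk 0 _ _ b1 b2)
      have h3 : -(r0/a) - 1 < (w.2:ℝ) := by linarith [(abs_le.1 hw2).1]
      simp only [this, h3]
    · refine ⟨0, fun _ => (r0/a) + 1, fun _ => 0, fun s => hasDerivAt_const _ _, fun s => by norm_num, hM, ?_⟩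
      intro w hw1 hw2
      obtain ⟨b1, b2⟩ := hbox 0 w hw1 hw2
      show meshPoint a (z + rotate^[0] w) ∈ D ↔ _
      rw [meshPoint_add, meshPoint_rotate_iter, ← hP, meshPoint_eq]
      have : P + I ^ 0 * (((a * w.1 : ℝ):ℂ) + ((a * w.2:ℝ):ℂ) * I) ∉ D := hout _ (hIk 0 _ _ b1 b2)
      have h3 : ¬ ((r0/a) + 1 < (w.2:ℝ)) := by linarith [(abs_le.1 hw2).2]
      simp only [this, h3]

end Crest.Agent.R165.Geo
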