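import Crest.Agent.R165.GeoSP_416
import Crest.Agent.R165.GeoD_65
import Crest.Agent.R165.GeoLat1_416

/-!
R165, block GEO, part 9 (GEO-7): a conformal bijection `ψ` of the unit disc onto `D` (with inverse `φ`), for `D` with
uniform charts: `1 - ‖φ z‖` is comparable with the distance of `z` to the frontier, and `ψ'`, `φ'` are bounded.
Pure Schwarz-Pick, using the interior and exterior tangent balls.
-/

set_option autoImplicit false

namespace Crest.Agent.R165.Geo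

open Complex Set Metric Filter Topology
open scoped ComplexConjugate

/-- conformal bijection of the unit disc onto `D`, with its inverse. -/
structure RMp (D : Set ℂ) (ψ φ : ℂ → ℂ) : Prop where
  dψ : DifferentiableOn ℂ ψ (ball 0 1)
  dφ : DifferentiableOn ℂ φ D
  mψ : MapsTo ψ (ball 0 1) D
  mφ : MapsTo φ D (ball 0 1)
  φψ : ∀ w ∈ ball (0:ℂ) 1, φ (ψ w) = w
  ψφ : ∀ z ∈ D, ψ (φ z) = z

/-- distance to the frontier -/
noncomputable def fd (D : Set ℂ) (z : ℂ) : ℝ := infDist z (frontier D)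

variable {D : Set ℂ} {r M : ℝ}

theorem fd_nonneg (D : Set ℂ) (z : ℂ) : 0 ≤ fd D z := infDist_nonneg

theorem CD.fd_pos (h : CD D r M) {z : ℂ} (hz : z ∈ D) : 0 < fd D z := by
  have hne := GeoDx65.CD.frontier_nonempty h
  have hcl : IsClosed (frontier D) := isClosed_frontier
  have hzf : z ∉ frontier D := by
    rw [h.isOpen.frontier_eq]; exact fun hc => hc.2 hz
  exact (hcl.notMem_iff_infDist_pos hne).1 hzf

theorem fd_ball_subset {z : ℂ} (hz : z ∈ D) : ball z (fd D z) ⊆ D := GeoDx65.ball_infDist_subset D hz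

/-- admissible radius of the tangent balls -/
noncomputable def rad (r M : ℝ) : ℝ := min (r/2) (1 / (2 * (M + 1)))

theorem CD.rad_pos (h : CD D r M) : 0 < rad r M := by
  have := h.r_pos; have := h.M_nonneg
  exact lt_min (by positivity) (by positivity)

theorem CD.rad_le (h : CD D r M) : 2 * rad r M ≤ r ∧ 2 * M * rad r M ≤ 1 := by
  have h1 := h.M_nonneg
  have h2 := h.rad_pos
  constructor
  · have : rad r M ≤ r / 2 := min_le_left _ _
    linarith
  · have : rad r M ≤ 1 / (2 * (M + 1)) := min_le_right _ _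
    calc 2 * M * rad r M ≤ 2 * M * (1 / (2 * (M+1))) := mul_le_mul_of_nonneg_left this (by positivity)
      _ = M / (M + 1) := by field_simp
      _ ≤ 1 := by rw [div_le_one (by positivity)]; linarith

/-- two disjoint balls -/
theorem dist_ge_of_disj {x y : ℂ} {s t : ℝ} (hs : 0 < s) (ht : 0 < t) (h : Disjoint (ball x s) (ball y t)) :
    s + t ≤ ‖x - y‖ := by
  by_contra hlt
  push Not at hlt
  rw [Set.disjoint_left] at h
  -- the point x + s' (y-x)/(s+t) ...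
  set d := ‖x - y‖ with hd
  set q : ℂ := x + ((s / (s + t) : ℝ) : ℂ) * (y - x) with hq
  have h1 : q ∈ ball x s := by
    rw [mem_ball, dist_eq_norm, hq, add_sub_cancel_left, norm_mul, Complex.norm_real, Real.norm_eq_abs,
      abs_of_pos (by positivity), ← norm_neg (y - x), neg_sub, ← hd]
    calc s / (s + t) * d < s / (s + t) * (s + t) := mul_lt_mul_of_pos_left hlt (by positivity)
      _ = s := by field_simp
  have h2 : q ∈ ball y t := by
    have e : q - y = ((t / (s + t) : ℝ) : ℂ) * (x - y) := by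
      rw [hq]; push_cast
      have : ((s:ℂ) + t) ≠ 0 := by
        have : ((s + t : ℝ) : ℂ) ≠ 0 := by exact_mod_cast (by positivity : s + t ≠ 0)
        simpa using this
      field_simp
      ring
    rw [mem_ball, dist_eq_norm, e, norm_mul, Complex.norm_real, Real.norm_eq_abs,
      abs_of_pos (by positivity), ← hd]
    calc t / (s + t) * d < t / (s + t) * (s + t) := mul_lt_mul_of_pos_left hlt (by positivity)
      _ = t := by field_simp
  exact h h1 h2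

/-- nearest point data: for `z ∈ D` there are a frontier point `p` at distance `δ = fd D z`, an exterior centre `c`
with `‖z - c‖ = ρ + δ`, all points of `D` at distance `> ρ` from `c`, and an interior centre `c'` with
`‖z - c'‖ = |ρ - δ|`. -/
theorem CD.near_data (h : CD D r M) {z : ℂ} (hz : z ∈ D) {ρ : ℝ} (hρ : 0 < ρ) (h1 : 2 * ρ ≤ r)
    (h2 : 2 * M * ρ ≤ 1) :
    ∃ c c' : ℂ, ‖z - c‖ = ρ + fd D z ∧ ball c ρ ⊆ Dᶜ ∧ ball c' ρ ⊆ D ∧ ‖z - c'‖ = |ρ - fd D z| := by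
  obtain ⟨p, hp, hdist⟩ := GeoDx65.CD.exists_nearest h z
  obtain ⟨n, hn, hb⟩ := GeoDx65.CD.ball_open h hp
  obtain ⟨hin, hout⟩ := hb ρ hρ h1 h2
  set δ := fd D z with hδ
  have hδ0 : 0 < δ := h.fd_pos hz
  have hzp : ‖z - p‖ = δ := by rw [← dist_eq_norm, hdist]; rfl
  have hdisj : Disjoint (ball z δ) (ball (p - ρ * n) ρ) := by
    rw [Set.disjoint_left]
    intro q hq1 hq2
    exact hout hq2 (Or.inl (fd_ball_subset hz hq1))
  have hge := dist_ge_of_disj hδ0 hρ hdisj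
  have hle : ‖z - (p - ρ * n)‖ ≤ δ + ρ := by
    calc ‖z - (p - ρ * n)‖ = ‖(z - p) + ρ * n‖ := by congr 1; ring
      _ ≤ ‖z - p‖ + ‖(ρ:ℂ) * n‖ := norm_add_le _ _
      _ = δ + ρ := by rw [hzp, norm_mul, hn, mul_one, Complex.norm_real, Real.norm_eq_abs, abs_of_pos hρ]
  -- z = p + δ n
  have hzn : z = p + δ * n := by
    set v := z - p with hv
    have e1 : ‖v + ρ * n‖ = δ + ρ := by
      have : v + ρ * n = z - (p - ρ * n) := by rw [hv]; ring
      rw [this]; exact le_antisymm hle hge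
    have e2 : normSq (v + ρ * n) = (δ + ρ)^2 := by rw [normSq_eq_norm_sq, e1]
    have e3 : normSq v = δ^2 := by rw [normSq_eq_norm_sq, hzp]
    have e4 : normSq n = 1 := by rw [normSq_eq_norm_sq, hn]; norm_num
    have e5 : normSq (v + ρ * n) = normSq v + 2 * ρ * (v.re * n.re + v.im * n.im) + ρ^2 * normSq n := by
      simp only [normSq_apply, add_re, add_im, mul_re, mul_im, ofReal_re, ofReal_im]; ring
    have e6 : v.re * n.re + v.im * n.im = δ := by
      rw [e3, e4] at e5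
      rw [e5] at e2
      have : 2 * ρ * (v.re * n.re + v.im * n.im) = 2 * ρ * δ := by nlinarith
      exact mul_left_cancel₀ (by positivity) this
    have e7 : normSq (v - δ * n) = normSq v - 2 * δ * (v.re * n.re + v.im * n.im) + δ^2 * normSq n := by
      simp only [normSq_apply, sub_re, sub_im, mul_re, mul_im, ofReal_re, ofReal_im]; ring
    have e8 : normSq (v - δ * n) = 0 := by rw [e7, e3, e4, e6]; ring
    have e9 : v - δ * n = 0 := normSq_eq_zero.1 e8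
    have : z - p = δ * n := by rw [← hv]; linear_combination e9
    linear_combination this
  refine ⟨p - ρ * n, p + ρ * n, ?_, ?_, hin, ?_⟩
  · rw [add_comm]; exact le_antisymm hle hge
  · intro q hq hqD
    exact hout hq (Or.inl hqD)
  · have : z - (p + ρ * n) = ((δ - ρ : ℝ) : ℂ) * n := by rw [hzn]; push_cast; ring
    rw [this, norm_mul, hn, mul_one, Complex.norm_real, Real.norm_eq_abs, abs_sub_comm]

/-- the compact set of deep points -/
theorem CD.deep_compact (h : CD D r M) {ρ : ℝ} (hρ : 0 < ρ) : IsCompact {z ∈ D | ρ ≤ fd D z} := by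
  have hcl : IsClosed {z ∈ D | ρ ≤ fd D z} := by
    have : {z ∈ D | ρ ≤ fd D z} = closure D ∩ {z | ρ ≤ fd D z} := by
      ext z
      constructor
      · rintro ⟨h1, h2⟩; exact ⟨subset_closure h1, h2⟩
      · rintro ⟨h1, h2⟩
        refine ⟨?_, h2⟩
        by_contra hzD
        have : z ∈ frontier D := by rw [h.isOpen.frontier_eq]; exact ⟨h1, hzD⟩
        have h3 : fd D z = 0 := infDist_zero_of_mem this
        have h4 : ρ ≤ fd D z := h2
        linarith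
    rw [this]
    exact isClosed_closure.inter (isClosed_le continuous_const (continuous_infDist_pt _))
  exact Metric.isCompact_of_isClosed_isBounded hcl (h.bdd.subset (fun z hz => hz.1))

variable {ψ φ : ℂ → ℂ}

theorem RMp.ψ0 (R : RMp D ψ φ) : ψ 0 ∈ D := R.mψ (by simp)

/-- the auxiliary map of (E) and (II) -/
theorem zeta_maps {c : ℂ} {ρ : ℝ} (hρ : 0 < ρ) (hc : ∀ z ∈ D, ρ < ‖z - c‖) {ψ : ℂ → ℂ} {s : Set ℂ}
    (hψ : MapsTo ψ s D) : MapsTo (fun w => (ρ:ℂ) / (ψ w - c)) s (ball 0 1) := by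
  intro w hw
  have := hc _ (hψ hw)
  rw [mem_ball, dist_zero_right, norm_div, Complex.norm_real, Real.norm_eq_abs, abs_of_pos hρ,
    div_lt_one (by linarith)]
  exact this

theorem zeta_diff {c : ℂ} {ρ : ℝ} (hρ : 0 < ρ) (hc : ∀ z ∈ D, ρ < ‖z - c‖) {ψ : ℂ → ℂ} {s : Set ℂ}
    (hψ : MapsTo ψ s D) (hd : DifferentiableOn ℂ ψ s) :
    DifferentiableOn ℂ (fun w => (ρ:ℂ) / (ψ w - c)) s := by
  intro w hw
  have hne : ψ w - c ≠ 0 := by
    have := hc _ (hψ hw)
    rw [← norm_pos_iff]; linarith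
  exact (differentiableWithinAt_const _).div ((hd w hw).sub_const c) hne

/-- points of `D` are at distance `> ρ` from an exterior centre -/
theorem CD.far_ext (h : CD D r M) {c : ℂ} {ρ : ℝ} (hρ : 0 < ρ) (hc : ball c ρ ⊆ Dᶜ) {z : ℂ} (hz : z ∈ D) :
    ρ + fd D z ≤ ‖z - c‖ := by
  have : Disjoint (ball z (fd D z)) (ball c ρ) := by
    rw [Set.disjoint_left]
    intro q hq1 hq2
    exact hc hq2 (fd_ball_subset hz hq1)
  have := dist_ge_of_disj (h.fd_pos hz) hρ this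
  linarith

theorem CD.fd_le (h : CD D r M) : ∃ B : ℝ, 0 < B ∧ ∀ z ∈ D, fd D z ≤ B := by
  obtain ⟨B, hB⟩ := h.bdd.subset_ball (0:ℂ)
  obtain ⟨p, hp⟩ := GeoDx65.CD.frontier_nonempty h
  refine ⟨|B| + ‖p‖ + 1, by positivity, fun z hz => ?_⟩
  have h1 : fd D z ≤ dist z p := infDist_le_dist_of_mem hp
  have h2 := hB hz
  rw [mem_ball, dist_zero_right] at h2
  have h3 := norm_sub_le z p
  rw [dist_eq_norm] at h1
  have := le_abs_self B
  linarith

/-- (E) -/
theorem RMp.upper (h : CD D r M) (R : RMp D ψ φ) :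
    ∃ C : ℝ, 0 < C ∧ ∀ z ∈ D, 1 - ‖φ z‖ ≤ C * fd D z := by
  obtain ⟨ρ, hρ, hr1, hr2⟩ : ∃ ρ : ℝ, 0 < ρ ∧ 2 * ρ ≤ r ∧ 2 * M * ρ ≤ 1 :=
    ⟨rad r M, h.rad_pos, h.rad_le.1, h.rad_le.2⟩
  set δ0 := fd D (ψ 0) with hδ0
  have hδ0p : 0 < δ0 := h.fd_pos R.ψ0
  refine ⟨4 * (ρ + δ0) / (δ0 * ρ), by positivity, fun z hz => ?_⟩
  obtain ⟨c, c', hc1, hc2, -, -⟩ := h.near_data hz hρ hr1 hr2
  have hfar : ∀ u ∈ D, ρ < ‖u - c‖ := fun u hu => by
    have h1 := h.far_ext hρ hc2 hu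
    have h2 := h.fd_pos hu
    linarith
  set δ := fd D z with hδ
  have hδp : 0 < δ := h.fd_pos hz
  set F : ℂ → ℂ := fun w => (ρ:ℂ) / (ψ w - c) with hF
  have hw : φ z ∈ ball (0:ℂ) 1 := R.mφ hz
  have hg := sp_growth (zeta_diff hρ hfar R.mψ R.dψ) (zeta_maps hρ hfar R.mψ) hw
  simp only [sub_zero, div_one] at hg
  rw [R.ψφ z hz] at hg
  have hn1 : ‖(ρ:ℂ) / (z - c)‖ = ρ / (ρ + δ) := by
    rw [norm_div, Complex.norm_real, Real.norm_eq_abs, abs_of_pos hρ, hc1]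
  have hn0 : ‖(ρ:ℂ) / (ψ 0 - c)‖ ≤ ρ / (ρ + δ0) := by
    rw [norm_div, Complex.norm_real, Real.norm_eq_abs, abs_of_pos hρ]
    apply div_le_div_of_nonneg_left hρ.le (by positivity)
    exact h.far_ext hρ hc2 R.ψ0
  rw [hn1] at hg
  have e1 : 1 - ρ / (ρ + δ) ≤ δ / ρ := by
    have : 1 - ρ / (ρ + δ) = δ / (ρ + δ) := by field_simp; ring
    rw [this]
    exact div_le_div_of_nonneg_left hδp.le hρ (by linarith)
  have e2 : δ0 / (ρ + δ0) ≤ 1 - ‖(ρ:ℂ) / (ψ 0 - c)‖ := by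
    have : δ0 / (ρ + δ0) = 1 - ρ / (ρ + δ0) := by field_simp; ring
    rw [this]; linarith
  have hw1 : 0 ≤ 1 - ‖φ z‖ := by
    have : ‖φ z‖ < 1 := by simpa using hw
    linarith
  have e3 : δ0 / (ρ + δ0) / 4 * (1 - ‖φ z‖) ≤ δ / ρ := by
    calc δ0 / (ρ + δ0) / 4 * (1 - ‖φ z‖) ≤ (1 - ‖(ρ:ℂ) / (ψ 0 - c)‖) / 4 * (1 - ‖φ z‖) := by
          apply mul_le_mul_of_nonneg_right _ hw1
          linarith
      _ ≤ δ / ρ := hg.trans e1
  have e4 : 4 * (ρ + δ0) / (δ0 * ρ) * δ = (4 * (ρ + δ0) / δ0) * (δ / ρ) := by field_simp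
  rw [e4]
  have e5 : 1 - ‖φ z‖ = (4 * (ρ + δ0) / δ0) * (δ0 / (ρ + δ0) / 4 * (1 - ‖φ z‖)) := by field_simp
  rw [e5]
  exact mul_le_mul_of_nonneg_left e3 (by positivity)

/-- (I) -/
theorem RMp.lower (h : CD D r M) (R : RMp D ψ φ) :
    ∃ c : ℝ, 0 < c ∧ ∀ z ∈ D, c * fd D z ≤ 1 - ‖φ z‖ := by
  obtain ⟨ρ, hρ, hr1, hr2⟩ : ∃ ρ : ℝ, 0 < ρ ∧ 2 * ρ ≤ r ∧ 2 * M * ρ ≤ 1 :=
    ⟨rad r M, h.rad_pos, h.rad_le.1, h.rad_le.2⟩
  obtain ⟨B, hB, hfB⟩ := h.fd_le
  -- the maximum of ‖φ‖ on the deep set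
  obtain ⟨m, hm0, hm⟩ : ∃ m : ℝ, 0 < m ∧ ∀ z ∈ D, ρ ≤ fd D z → m ≤ 1 - ‖φ z‖ := by
    by_cases hne : {z ∈ D | ρ ≤ fd D z}.Nonempty
    · obtain ⟨z0, hz0, hmax⟩ := (h.deep_compact hρ).exists_isMaxOn hne
        (f := fun z => ‖φ z‖) ((R.dφ.continuousOn.mono (fun z hz => hz.1)).norm)
      refine ⟨1 - ‖φ z0‖, ?_, fun z hz hzρ => ?_⟩
      · have : ‖φ z0‖ < 1 := by simpa using R.mφ hz0.1
        linarith
      · have := hmax (show z ∈ {z ∈ D | ρ ≤ fd D z} from ⟨hz, hzρ⟩)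
        simp only [mem_ofPred_eq] at this
        linarith
    · refine ⟨1, one_pos, fun z hz hzρ => absurd ⟨z, hz, hzρ⟩ hne⟩
  refine ⟨min (m / B) (m / (4 * ρ)), lt_min (by positivity) (by positivity), fun z hz => ?_⟩
  have hδp : 0 < fd D z := h.fd_pos hz
  rcases le_or_gt ρ (fd D z) with hcase | hcase
  · calc min (m / B) (m / (4 * ρ)) * fd D z ≤ m / B * B := by
          apply mul_le_mul (min_le_left _ _) (hfB z hz) hδp.le (by positivity)
      _ = m := by field_simp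
      _ ≤ 1 - ‖φ z‖ := hm z hz hcase
  · obtain ⟨c, c', -, -, hc1, hc2⟩ := h.near_data hz hρ hr1 hr2
    rw [abs_of_pos (by linarith)] at hc2
    have hzb : z ∈ ball c' ρ := by rw [mem_ball, dist_eq_norm, hc2]; linarith
    have hg := sp_growth (R.dφ.mono hc1) (R.mφ.mono_left hc1) hzb
    have hcD : c' ∈ D := hc1 (mem_ball_self hρ)
    have hcρ : ρ ≤ fd D c' := by
      unfold fd
      by_contra hlt
      push Not at hlt
      obtain ⟨q, hq, hqd⟩ := (infDist_lt_iff (GeoDx65.CD.frontier_nonempty h)).1 hlt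
      have : q ∈ D := hc1 (by rw [mem_ball, dist_comm]; exact hqd)
      rw [h.isOpen.frontier_eq] at hq
      exact hq.2 this
    have hmc := hm c' hcD hcρ
    rw [hc2] at hg
    have e1 : 1 - (ρ - fd D z) / ρ = fd D z / ρ := by field_simp; ring
    rw [e1] at hg
    calc min (m / B) (m / (4 * ρ)) * fd D z ≤ m / (4 * ρ) * fd D z :=
          mul_le_mul_of_nonneg_right (min_le_right _ _) hδp.le
      _ = m / 4 * (fd D z / ρ) := by field_simp
      _ ≤ (1 - ‖φ c'‖) / 4 * (fd D z / ρ) := by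
          apply mul_le_mul_of_nonneg_right _ (by positivity); linarith
      _ ≤ 1 - ‖φ z‖ := hg

/-- (III) the derivative of the inverse map is bounded -/
theorem RMp.dφ_le (h : CD D r M) (R : RMp D ψ φ) : ∃ C : ℝ, 0 < C ∧ ∀ z ∈ D, ‖deriv φ z‖ ≤ C := by
  obtain ⟨C, hC, hup⟩ := R.upper h
  refine ⟨2 * C, by positivity, fun z hz => ?_⟩
  have hδ := h.fd_pos hz
  have h1 := sp_deriv hδ (R.dφ.mono (fd_ball_subset hz)) (R.mφ.mono_left (fd_ball_subset hz))
  have h2 := hup z hz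
  have h3 : ‖φ z‖ < 1 := by simpa using R.mφ hz
  have h4 := norm_nonneg (φ z)
  calc ‖deriv φ z‖ ≤ (1 - ‖φ z‖^2) / fd D z := h1
    _ ≤ (2 * (C * fd D z)) / fd D z := by
        apply div_le_div_of_nonneg_right _ hδ.le
        nlinarith
    _ = 2 * C := by field_simp

/-- (II) the derivative of the Riemann map is bounded -/
theorem RMp.dψ_le (h : CD D r M) (R : RMp D ψ φ) :
    ∃ C : ℝ, 0 < C ∧ ∀ w ∈ ball (0:ℂ) 1, ‖deriv ψ w‖ ≤ C := by
  obtain ⟨ρ, hρ, hr1, hr2⟩ : ∃ ρ : ℝ, 0 < ρ ∧ 2 * ρ ≤ r ∧ 2 * M * ρ ≤ 1 :=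
    ⟨rad r M, h.rad_pos, h.rad_le.1, h.rad_le.2⟩
  obtain ⟨B, hB, hfB⟩ := h.fd_le
  obtain ⟨c0, hc0, hlow⟩ := R.lower h
  refine ⟨2 * (ρ + B)^2 / (ρ^2 * c0), by positivity, fun w hw => ?_⟩
  set z := ψ w with hz
  have hzD : z ∈ D := R.mψ hw
  have hwn : ‖w‖ < 1 := by simpa using hw
  set δ := fd D z with hδ
  have hδp : 0 < δ := h.fd_pos hzD
  obtain ⟨c, c', hc1, hc2, -, -⟩ := h.near_data hzD hρ hr1 hr2
  have hfar : ∀ u ∈ D, ρ < ‖u - c‖ := fun u hu => by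
    have h1 := h.far_ext hρ hc2 hu
    have h2 := h.fd_pos hu
    linarith
  have hsub : ball w (1 - ‖w‖) ⊆ ball (0:ℂ) 1 := by
    intro q hq
    rw [mem_ball, dist_eq_norm] at hq
    rw [mem_ball, dist_zero_right]
    have := norm_add_le (q - w) w
    rw [sub_add_cancel] at this
    linarith
  have hm : MapsTo ψ (ball w (1 - ‖w‖)) D := R.mψ.mono_left hsub
  have hg := sp_deriv (by linarith) (zeta_diff hρ hfar hm (R.dψ.mono hsub)) (zeta_maps hρ hfar hm)
  have hψd : HasDerivAt ψ (deriv ψ w) w := (R.dψ.differentiableAt (isOpen_ball.mem_nhds hw)).hasDerivAt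
  have hne : ψ w - c ≠ 0 := by
    have := hfar _ hzD
    rw [← norm_pos_iff, ← hz]; linarith
  have hF : HasDerivAt (fun w => (ρ:ℂ) / (ψ w - c)) (-(ρ * deriv ψ w) / (ψ w - c)^2) w := by
    have := (hasDerivAt_const w (ρ:ℂ)).div (hψd.sub_const c) hne
    have e : (0 * (ψ w - c) - (ρ:ℂ) * deriv ψ w) = -(ρ * deriv ψ w) := by ring
    rw [e] at this
    exact this
  rw [hF.deriv, norm_div, norm_neg, norm_mul, norm_pow, norm_div, Complex.norm_real, Real.norm_eq_abs,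
    abs_of_pos hρ, ← hz, hc1] at hg
  have e1 : 1 - (ρ / (ρ + δ))^2 ≤ 2 * (δ / ρ) := by
    have h1 : 1 - ρ / (ρ + δ) ≤ δ / ρ := by
      have : 1 - ρ / (ρ + δ) = δ / (ρ + δ) := by field_simp; ring
      rw [this]
      exact div_le_div_of_nonneg_left hδp.le hρ (by linarith)
    have h2 : 0 ≤ ρ / (ρ + δ) := by positivity
    have h3 : ρ / (ρ + δ) ≤ 1 := by rw [div_le_one (by positivity)]; linarith
    nlinarith
  have hw1 : c0 * δ ≤ 1 - ‖w‖ := by
    have := hlow z hzD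
    rwa [hz, R.φψ w hw] at this
  have hw2 : 0 < 1 - ‖w‖ := by linarith
  have e2 : ρ * ‖deriv ψ w‖ / (ρ + δ)^2 ≤ 2 / (ρ * c0) := by
    calc ρ * ‖deriv ψ w‖ / (ρ + δ)^2 ≤ (1 - (ρ / (ρ + δ))^2) / (1 - ‖w‖) := hg
      _ ≤ (2 * (δ / ρ)) / (c0 * δ) := by
          apply div_le_div₀ (by positivity) e1 (by positivity) hw1
      _ = 2 / (ρ * c0) := by field_simp
  have e3 : ρ * ‖deriv ψ w‖ ≤ 2 / (ρ * c0) * (ρ + B)^2 := by
    rw [div_le_iff₀ (by positivity)] at e2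
    refine e2.trans ?_
    apply mul_le_mul_of_nonneg_left _ (by positivity)
    have := hfB z hzD
    apply pow_le_pow_left₀ (by positivity)
    linarith
  have e4 : ‖deriv ψ w‖ = (ρ * ‖deriv ψ w‖) / ρ := by field_simp
  rw [e4, div_le_iff₀ hρ]
  refine e3.trans (le_of_eq ?_)
  field_simp

end Crest.Agent.R165.Geo
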