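import Mathlib
import Crest.Agent.R165.GeoJ_65
import Crest.Agent.R165.GeoRb_416
import Crest.Agent.Lib.InjHolo

/-!
# Row 165, block GEO (helper65), file K: conformal maps between domains with uniform charts extend to
bi-Lipschitz homeomorphisms of the closures (GEO-7 (ii), (iii))

* `BiLip D D' F G` : `F`, `G` globally Lipschitz maps of the plane, mutually inverse homeomorphisms between
  `closure D` and `closure D'`, `D ↔ D'`, `frontier D ↔ frontier D'`;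
* `exists_biLip` : extension of Lipschitz mutually inverse maps of `D`, `D'`;
* `RMp.biLip` : for `RMp D ψ φ`, extensions `Ψ`, `Φ` with `BiLip (ball 0 1) D Ψ Φ`;
* `conf_bounds`, `conf_biLip` : the same for conformal bijections `f : D → D'`.
-/

set_option autoImplicit false

open Set Topology Filter Metric
open scoped NNReal

namespace Crest.Agent.R165.GeoKx65

open Crest.Agent.R165.Geo
open Crest.Agent.R165.GeoJx65

variable {D D' : Set ℂ} {r M r' M' : ℝ}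

/-- bi-Lipschitz homeomorphism of closures -/
structure BiLip (D D' : Set ℂ) (F G : ℂ → ℂ) : Prop where
  lipF : ∃ C : ℝ≥0, LipschitzWith C F
  lipG : ∃ C : ℝ≥0, LipschitzWith C G
  mapF : MapsTo F (closure D) (closure D')
  mapG : MapsTo G (closure D') (closure D)
  GF : ∀ z ∈ closure D, G (F z) = z
  FG : ∀ w ∈ closure D', F (G w) = w
  openF : MapsTo F D D'
  openG : MapsTo G D' D
  frontF : MapsTo F (frontier D) (frontier D')
  frontG : MapsTo G (frontier D') (frontier D)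

namespace BiLip

variable {F G : ℂ → ℂ}

theorem symm (h : BiLip D D' F G) : BiLip D' D G F :=
  ⟨h.lipG, h.lipF, h.mapG, h.mapF, h.FG, h.GF, h.openG, h.openF, h.frontG, h.frontF⟩

theorem contF (h : BiLip D D' F G) : Continuous F := by
  obtain ⟨C, hC⟩ := h.lipF
  exact hC.continuous

theorem contG (h : BiLip D D' F G) : Continuous G := h.symm.contF

theorem bijOn (h : BiLip D D' F G) : BijOn F (closure D) (closure D') :=
  ⟨h.mapF, fun x hx y hy e => by rw [← h.GF x hx, ← h.GF y hy, e],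
    fun w hw => ⟨G w, h.mapG hw, h.FG w hw⟩⟩

theorem bijOn_frontier (h : BiLip D D' F G) : BijOn F (frontier D) (frontier D') :=
  ⟨h.frontF, h.bijOn.injOn.mono frontier_subset_closure,
    fun w hw => ⟨G w, h.frontG hw, h.FG w (frontier_subset_closure hw)⟩⟩

theorem bijOn_open (h : BiLip D D' F G) : BijOn F D D' :=
  ⟨h.openF, h.bijOn.injOn.mono subset_closure,
    fun w hw => ⟨G w, h.openG hw, h.FG w (subset_closure hw)⟩⟩

/-- lower Lipschitz bound -/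
theorem anti (h : BiLip D D' F G) : ∃ c : ℝ, 0 < c ∧ ∀ z ∈ closure D, ∀ w ∈ closure D,
    c * ‖z - w‖ ≤ ‖F z - F w‖ := by
  obtain ⟨C, hC⟩ := h.lipG
  refine ⟨1 / (C + 1), by positivity, fun z hz w hw => ?_⟩
  have h1 := hC.dist_le_mul (F z) (F w)
  rw [h.GF z hz, h.GF w hw, dist_eq_norm, dist_eq_norm] at h1
  rw [div_mul_eq_mul_div, one_mul, div_le_iff₀ (by positivity)]
  have := norm_nonneg (F z - F w)
  nlinarith [C.coe_nonneg]

theorem upper (h : BiLip D D' F G) : ∃ C : ℝ, 0 < C ∧ ∀ z w : ℂ, ‖F z - F w‖ ≤ C * ‖z - w‖ := by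
  obtain ⟨C, hC⟩ := h.lipF
  refine ⟨C + 1, by positivity, fun z w => ?_⟩
  have h1 := hC.dist_le_mul z w
  rw [dist_eq_norm, dist_eq_norm] at h1
  have := norm_nonneg (z - w)
  nlinarith

/-- a point of the closure is mapped into `D'` iff it is in `D` -/
theorem mem_iff (h : BiLip D D' F G) {z : ℂ} (hz : z ∈ closure D) : F z ∈ D' ↔ z ∈ D :=
  ⟨fun h1 => by rw [← h.GF z hz]; exact h.openG h1, fun h1 => h.openF h1⟩

theorem comp {D'' : Set ℂ} {F' G' : ℂ → ℂ} (h : BiLip D D' F G) (h' : BiLip D' D'' F' G') :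
    BiLip D D'' (F' ∘ F) (G ∘ G') := by
  obtain ⟨C1, hC1⟩ := h.lipF
  obtain ⟨C2, hC2⟩ := h.lipG
  obtain ⟨C3, hC3⟩ := h'.lipF
  obtain ⟨C4, hC4⟩ := h'.lipG
  refine ⟨⟨_, hC3.comp hC1⟩, ⟨_, hC2.comp hC4⟩, h'.mapF.comp h.mapF, h.mapG.comp h'.mapG,
    fun z hz => ?_, fun w hw => ?_, h'.openF.comp h.openF, h.openG.comp h'.openG,
    h'.frontF.comp h.frontF, h.frontG.comp h'.frontG⟩
  · simp only [Function.comp_apply]
    rw [h'.GF _ (h.mapF hz), h.GF z hz]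
  · simp only [Function.comp_apply]
    rw [h.FG _ (h'.mapG hw), h'.FG w hw]

end BiLip

/-- extension of Lipschitz mutually inverse maps -/
theorem exists_biLip (hD : IsOpen D) (hD' : IsOpen D') {f g : ℂ → ℂ} (hf : MapsTo f D D')
    (hg : MapsTo g D' D) (hgf : ∀ z ∈ D, g (f z) = z) (hfg : ∀ w ∈ D', f (g w) = w) {C C' : ℝ}
    (hfl : ∀ z ∈ D, ∀ w ∈ D, ‖f z - f w‖ ≤ C * ‖z - w‖)
    (hgl : ∀ z ∈ D', ∀ w ∈ D', ‖g z - g w‖ ≤ C' * ‖z - w‖) :
    ∃ F G : ℂ → ℂ, BiLip D D' F G ∧ EqOn F f D ∧ EqOn G g D' := by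
  have hlip : ∀ {S : Set ℂ} {u : ℂ → ℂ} {K : ℝ}, (∀ z ∈ S, ∀ w ∈ S, ‖u z - u w‖ ≤ K * ‖z - w‖) →
      LipschitzOnWith (Real.toNNReal K) u S := fun {S u K} h =>
    LipschitzOnWith.of_dist_le_mul fun z hz w hw => by
      rw [dist_eq_norm, dist_eq_norm]
      refine (h z hz w hw).trans (mul_le_mul_of_nonneg_right ?_ (norm_nonneg _))
      exact Real.le_coe_toNNReal K
  obtain ⟨F, hF, hFf⟩ := (hlip hfl).extend_finite_dimension
  obtain ⟨G, hG, hGg⟩ := (hlip hgl).extend_finite_dimension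
  have hFc := hF.continuous
  have hGc := hG.continuous
  have hFD : MapsTo F D D' := fun z hz => by rw [← hFf hz]; exact hf hz
  have hGD : MapsTo G D' D := fun z hz => by rw [← hGg hz]; exact hg hz
  have hFm : MapsTo F (closure D) (closure D') := hFD.closure hFc
  have hGm : MapsTo G (closure D') (closure D) := hGD.closure hGc
  have hGF : ∀ z ∈ closure D, G (F z) = z := by
    have h1 : IsClosed {z : ℂ | G (F z) = z} := isClosed_eq (hGc.comp hFc) continuous_id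
    have h2 : D ⊆ {z : ℂ | G (F z) = z} := fun z hz => by
      show G (F z) = z
      rw [← hGg (hFD hz), ← hFf hz, hgf z hz]
    exact closure_minimal h2 h1
  have hFG : ∀ w ∈ closure D', F (G w) = w := by
    have h1 : IsClosed {z : ℂ | F (G z) = z} := isClosed_eq (hFc.comp hGc) continuous_id
    have h2 : D' ⊆ {z : ℂ | F (G z) = z} := fun z hz => by
      show F (G z) = z
      rw [← hFf (hGD hz), ← hGg hz, hfg z hz]
    exact closure_minimal h2 h1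
  refine ⟨F, G, ⟨⟨_, hF⟩, ⟨_, hG⟩, hFm, hGm, hGF, hFG, hFD, hGD, fun z hz => ?_, fun w hw => ?_⟩,
    fun z hz => (hFf hz).symm, fun z hz => (hGg hz).symm⟩
  · have hzc := frontier_subset_closure hz
    rw [hD.frontier_eq] at hz
    rw [hD'.frontier_eq]
    exact ⟨hFm hzc, fun h1 => hz.2 (by rw [← hGF z hzc]; exact hGD h1)⟩
  · have hwc := frontier_subset_closure hw
    rw [hD'.frontier_eq] at hw
    rw [hD.frontier_eq]
    exact ⟨hGm hwc, fun h1 => hw.2 (by rw [← hFG w hwc]; exact hFD h1)⟩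

/-- Lipschitz constants of a Riemann map and of its inverse -/
theorem rmap_lip (h : CD D r M) {ψ φ : ℂ → ℂ} (R : RMp D ψ φ) :
    ∃ C C' : ℝ, 0 < C ∧ 0 < C' ∧
      (∀ z ∈ ball (0:ℂ) 1, ∀ w ∈ ball (0:ℂ) 1, ‖ψ z - ψ w‖ ≤ C * ‖z - w‖) ∧
      (∀ z ∈ D, ∀ w ∈ D, ‖φ z - φ w‖ ≤ C' * ‖z - w‖) := by
  obtain ⟨C, hC, hd⟩ := R.dψ_le h
  obtain ⟨C', hC', hd'⟩ := R.dφ_le h
  obtain ⟨K, hK, h1, -, -⟩ := exists_lip h
  refine ⟨C, K * C', hC, by positivity, fun z hz w hw => ?_, fun z hz w hw => ?_⟩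
  · exact Convex.norm_image_sub_le_of_norm_deriv_le (𝕜 := ℂ) (f := ψ) (C := C)
      (s := ball (0:ℂ) 1) (fun x hx => R.dψ.differentiableAt (isOpen_ball.mem_nhds hx))
      (fun x hx => hd x hx) (convex_ball 0 1) hw hz
  · exact h1 φ C' hC'.le R.dφ hd' z hz w hw

/-- **closure extension of the Riemann map** -/
theorem RMp.biLip (h : CD D r M) {ψ φ : ℂ → ℂ} (R : RMp D ψ φ) :
    ∃ Ψ Φ : ℂ → ℂ, BiLip (ball 0 1) D Ψ Φ ∧ EqOn Ψ ψ (ball 0 1) ∧ EqOn Φ φ D := by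
  obtain ⟨C, C', -, -, h1, h2⟩ := rmap_lip h R
  exact exists_biLip isOpen_ball h.isOpen R.mψ R.mφ R.φψ R.ψφ h1 h2

/-- the sphere is mapped onto the frontier -/
theorem RMp.biLip' (h : CD D r M) {ψ φ : ℂ → ℂ} (R : RMp D ψ φ) :
    ∃ Ψ Φ : ℂ → ℂ, BiLip (ball 0 1) D Ψ Φ ∧ EqOn Ψ ψ (ball 0 1) ∧ EqOn Φ φ D ∧
      BijOn Ψ (closedBall 0 1) (closure D) ∧ BijOn Ψ (sphere 0 1) (frontier D) ∧
      BijOn Φ (closure D) (closedBall 0 1) ∧ BijOn Φ (frontier D) (sphere 0 1) := by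
  obtain ⟨Ψ, Φ, hb, h1, h2⟩ := RMp.biLip h R
  have e1 : closure (ball (0:ℂ) 1) = closedBall 0 1 := closure_ball 0 one_ne_zero
  have e2 : frontier (ball (0:ℂ) 1) = sphere 0 1 := frontier_ball 0 one_ne_zero
  refine ⟨Ψ, Φ, hb, h1, h2, ?_, ?_, ?_, ?_⟩
  · rw [← e1]; exact hb.bijOn
  · rw [← e2]; exact hb.bijOn_frontier
  · rw [← e1]; exact hb.symm.bijOn
  · rw [← e2]; exact hb.symm.bijOn_frontier

/-! ### conformal bijections between two domains -/

/-- data of a conformal bijection with its inverse -/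
structure CMap (D D' : Set ℂ) (f g : ℂ → ℂ) : Prop where
  df : DifferentiableOn ℂ f D
  dg : DifferentiableOn ℂ g D'
  mf : MapsTo f D D'
  mg : MapsTo g D' D
  gf : ∀ z ∈ D, g (f z) = z
  fg : ∀ w ∈ D', f (g w) = w

theorem CMap.symm {f g : ℂ → ℂ} (h : CMap D D' f g) : CMap D' D g f :=
  ⟨h.dg, h.df, h.mg, h.mf, h.fg, h.gf⟩

theorem CMap.comp {D'' : Set ℂ} {f g f' g' : ℂ → ℂ} (h : CMap D D' f g) (h' : CMap D' D'' f' g') :
    CMap D D'' (f' ∘ f) (g ∘ g') :=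
  ⟨h'.df.comp h.df h.mf, h.dg.comp h'.dg h'.mg, h'.mf.comp h.mf, h.mg.comp h'.mg,
    fun z hz => by simp only [Function.comp_apply]; rw [h'.gf _ (h.mf hz), h.gf z hz],
    fun z hz => by simp only [Function.comp_apply]; rw [h.fg _ (h'.mg hz), h'.fg z hz]⟩

theorem CMap.of_rmap {ψ φ : ℂ → ℂ} (R : RMp D ψ φ) : CMap (ball 0 1) D ψ φ :=
  ⟨R.dψ, R.dφ, R.mψ, R.mφ, R.φψ, R.ψφ⟩

theorem CMap.rmap {ψ φ : ℂ → ℂ} (h : CMap (ball 0 1) D ψ φ) : RMp D ψ φ :=
  ⟨h.df, h.dg, h.mf, h.mg, h.gf, h.fg⟩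

/-- every conformal bijection has a holomorphic inverse -/
theorem exists_cmap (hD : IsOpen D) {f : ℂ → ℂ} (hf : DifferentiableOn ℂ f D) (hb : BijOn f D D') :
    ∃ g : ℂ → ℂ, CMap D D' f g := by
  obtain ⟨g, h1, -, h3, h4, h5⟩ := Crest.Agent.Lib.exists_holomorphic_inverse hD hf hb.injOn
  rw [hb.image_eq] at h1 h3 h5
  refine ⟨g, hf, h1, hb.mapsTo, fun w hw => ?_, h4, h5⟩
  rw [← h3]; exact mem_image_of_mem g hw

theorem CMap.deriv_mul {f g : ℂ → ℂ} (h : CMap D D' f g) (hD : IsOpen D) (hD' : IsOpen D') {z : ℂ}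
    (hz : z ∈ D) : deriv g (f z) * deriv f z = 1 := by
  have h1 : HasDerivAt f (deriv f z) z := (h.df.differentiableAt (hD.mem_nhds hz)).hasDerivAt
  have h2 : HasDerivAt g (deriv g (f z)) (f z) :=
    (h.dg.differentiableAt (hD'.mem_nhds (h.mf hz))).hasDerivAt
  have h3 := h2.comp z h1
  have h4 : HasDerivAt (g ∘ f) 1 z := by
    refine (hasDerivAt_id z).congr_of_eventuallyEq ?_
    filter_upwards [hD.mem_nhds hz] with w hw
    exact h.gf w hw
  exact h3.unique h4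

/-- **derivative bounds of a conformal bijection between two domains with uniform charts** -/
theorem conf_bounds (h : CD D r M) (h' : CD D' r' M') {ψ φ : ℂ → ℂ} (R : RMp D ψ φ) {f g : ℂ → ℂ}
    (hfg : CMap D D' f g) : ∃ C : ℝ, 0 < C ∧ (∀ z ∈ D, ‖deriv f z‖ ≤ C) ∧
      (∀ w ∈ D', ‖deriv g w‖ ≤ C) ∧ (∀ z ∈ D, 1 / C ≤ ‖deriv f z‖) := by
  have R' : RMp D' (f ∘ ψ) (φ ∘ g) := ((CMap.of_rmap R).comp hfg).rmap
  obtain ⟨C1, hC1, h1⟩ := R.dφ_le h
  obtain ⟨C2, hC2, h2⟩ := R'.dψ_le h'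
  obtain ⟨C3, hC3, h3⟩ := R.dψ_le h
  obtain ⟨C4, hC4, h4⟩ := R'.dφ_le h'
  have hO := h.isOpen
  have hO' := h'.isOpen
  -- `f = (f ∘ ψ) ∘ φ` on `D`
  have hf : ∀ z ∈ D, ‖deriv f z‖ ≤ C2 * C1 := fun z hz => by
    have e1 : HasDerivAt φ (deriv φ z) z := (R.dφ.differentiableAt (hO.mem_nhds hz)).hasDerivAt
    have e2 : HasDerivAt (f ∘ ψ) (deriv (f ∘ ψ) (φ z)) (φ z) :=
      (R'.dψ.differentiableAt (isOpen_ball.mem_nhds (R.mφ hz))).hasDerivAt
    have e3 := e2.comp z e1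
    have e4 : HasDerivAt f (deriv (f ∘ ψ) (φ z) * deriv φ z) z := by
      refine e3.congr_of_eventuallyEq ?_
      filter_upwards [hO.mem_nhds hz] with w hw
      simp only [Function.comp_apply]
      rw [R.ψφ w hw]
    rw [e4.deriv, norm_mul]
    exact mul_le_mul (h2 _ (R.mφ hz)) (h1 z hz) (norm_nonneg _) hC2.le
  -- `g = ψ ∘ (φ ∘ g)` on `D'`
  have hg : ∀ w ∈ D', ‖deriv g w‖ ≤ C3 * C4 := fun w hw => by
    have e1 : HasDerivAt (φ ∘ g) (deriv (φ ∘ g) w) w :=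
      (R'.dφ.differentiableAt (hO'.mem_nhds hw)).hasDerivAt
    have e2 : HasDerivAt ψ (deriv ψ ((φ ∘ g) w)) ((φ ∘ g) w) :=
      (R.dψ.differentiableAt (isOpen_ball.mem_nhds (R'.mφ hw))).hasDerivAt
    have e3 := e2.comp w e1
    have e4 : HasDerivAt g (deriv ψ ((φ ∘ g) w) * deriv (φ ∘ g) w) w := by
      refine e3.congr_of_eventuallyEq ?_
      filter_upwards [hO'.mem_nhds hw] with x hx
      simp only [Function.comp_apply]
      rw [R.ψφ _ (hfg.mg hx)]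
    rw [e4.deriv, norm_mul]
    exact mul_le_mul (h3 _ (R'.mφ hw)) (h4 w hw) (norm_nonneg _) hC3.le
  refine ⟨C2 * C1 + C3 * C4, by positivity, fun z hz => ?_, fun w hw => ?_, fun z hz => ?_⟩
  · have := hf z hz
    have : 0 < C3 * C4 := by positivity
    linarith
  · have := hg w hw
    have : 0 < C2 * C1 := by positivity
    linarith
  · have e := hfg.deriv_mul hO hO' hz
    have e2 : ‖deriv g (f z)‖ * ‖deriv f z‖ = 1 := by rw [← norm_mul, e, norm_one]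
    have e3 := hg (f z) (hfg.mf hz)
    rw [div_le_iff₀ (by positivity)]
    have e4 : 0 ≤ ‖deriv f z‖ := norm_nonneg _
    have e5 : 0 ≤ C2 * C1 * ‖deriv f z‖ := by positivity
    have e6 := mul_le_mul_of_nonneg_right e3 e4
    nlinarith

/-- **conformal bijections extend to bi-Lipschitz homeomorphisms of the closures** -/
theorem conf_biLip (h : CD D r M) (h' : CD D' r' M') {ψ φ : ℂ → ℂ} (R : RMp D ψ φ) {f g : ℂ → ℂ}
    (hfg : CMap D D' f g) : ∃ F G : ℂ → ℂ, BiLip D D' F G ∧ EqOn F f D ∧ EqOn G g D' := by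
  obtain ⟨C, hC, h1, h2, -⟩ := conf_bounds h h' R hfg
  obtain ⟨K, hK, h3, -, -⟩ := exists_lip h
  obtain ⟨K', hK', h4, -, -⟩ := exists_lip h'
  exact exists_biLip h.isOpen h'.isOpen hfg.mf hfg.mg hfg.gf hfg.fg
    (fun z hz w hw => h3 f C hC.le hfg.df h1 z hz w hw)
    (fun z hz w hw => h4 g C hC.le hfg.dg h2 z hz w hw)

end Crest.Agent.R165.GeoKx65
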