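import Mathlib
import Crest.Agent.R266.SCV

/-!
R165, GEO-6 (helper67), part 1: the homology form of Cauchy's theorem (Dixon's proof), for abstract
"closed currents": functionals `L` on functions on a compact set `K`, linear, bounded, compatible with holomorphic
parameters, killing functions with a primitive. If `K ⊆ U`, `U` open bounded with (pre)connected complement, then
`L g = 0` for all holomorphic `g` on `U`.
-/

set_option autoImplicit false

open Set Filter Topology Metric Complex MeasureTheory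

namespace Crest.Agent.R165.GeoPx67

noncomputable section

/-- Abstract currents carried by `K`. -/
structure Cur (K : Set ℂ) (L : (ℂ → ℂ) → ℂ) : Prop where
  congr : ∀ f g : ℂ → ℂ, (∀ w ∈ K, f w = g w) → L f = L g
  add : ∀ f g : ℂ → ℂ, ContinuousOn f K → ContinuousOn g K →
    L (fun w => f w + g w) = L f + L g
  smul : ∀ (c : ℂ) (f : ℂ → ℂ), L (fun w => c * f w) = c * L f
  param : ∀ (U : Set ℂ) (f : ℂ × ℂ → ℂ), IsOpen U → ContinuousOn f (U ×ˢ K) →
    (∀ w ∈ K, DifferentiableOn ℂ (fun z => f (z, w)) U) →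
    DifferentiableOn ℂ (fun z => L (fun w => f (z, w))) U
  bound : ∃ C : ℝ, 0 ≤ C ∧ ∀ (f : ℂ → ℂ) (B : ℝ), 0 ≤ B → (∀ w ∈ K, ‖f w‖ ≤ B) →
    ‖L f‖ ≤ C * B

theorem Cur.mono {K K' : Set ℂ} {L : (ℂ → ℂ) → ℂ} (h : Cur K L) (hK : K ⊆ K') : Cur K' L where
  congr f g hfg := h.congr f g (fun w hw => hfg w (hK hw))
  add f g hf hg := h.add f g (hf.mono hK) (hg.mono hK)
  smul := h.smul
  param U f hU hf hd := h.param U f hU (hf.mono (prod_mono le_rfl hK)) (fun w hw => hd w (hK hw))
  bound := by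
    obtain ⟨C, hC, hb⟩ := h.bound
    exact ⟨C, hC, fun f B hB hf => hb f B hB (fun w hw => hf w (hK hw))⟩

theorem Cur.zero (K : Set ℂ) : Cur K (fun _ => 0) where
  congr _ _ _ := rfl
  add _ _ _ _ := by simp
  smul _ _ := by simp
  param U f hU _ _ := differentiableOn_const 0
  bound := ⟨0, le_rfl, fun f B hB _ => by simp⟩

theorem Cur.sum {K : Set ℂ} {L L' : (ℂ → ℂ) → ℂ} (h : Cur K L) (h' : Cur K L') :
    Cur K (fun f => L f + L' f) where
  congr f g hfg := by
    rw [h.congr f g hfg, h'.congr f g hfg]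
  add f g hf hg := by
    rw [h.add f g hf hg, h'.add f g hf hg]; ring
  smul c f := by
    rw [h.smul, h'.smul]; ring
  param U f hU hf hd := (h.param U f hU hf hd).add (h'.param U f hU hf hd)
  bound := by
    obtain ⟨C, hC, hb⟩ := h.bound
    obtain ⟨C', hC', hb'⟩ := h'.bound
    refine ⟨C + C', by positivity, fun f B hB hf => ?_⟩
    calc ‖L f + L' f‖ ≤ ‖L f‖ + ‖L' f‖ := norm_add_le _ _
      _ ≤ C * B + C' * B := add_le_add (hb f B hB hf) (hb' f B hB hf)
      _ = (C + C') * B := by ring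

theorem Cur.neg {K : Set ℂ} {L : (ℂ → ℂ) → ℂ} (h : Cur K L) : Cur K (fun f => - L f) where
  congr f g hfg := by
    rw [h.congr f g hfg]
  add f g hf hg := by
    rw [h.add f g hf hg]; ring
  smul c f := by
    rw [h.smul]; ring
  param U f hU hf hd := (h.param U f hU hf hd).neg
  bound := by
    obtain ⟨C, hC, hb⟩ := h.bound
    exact ⟨C, hC, fun f B hB hf => by rw [norm_neg]; exact hb f B hB hf⟩

theorem Cur.sub {K : Set ℂ} {L L' : (ℂ → ℂ) → ℂ} (h : Cur K L) (h' : Cur K L') :
    Cur K (fun f => L f - L' f) := by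
  simpa [sub_eq_add_neg] using h.sum h'.neg

/-! ### joint continuity of the difference quotient -/

theorem dslope_symm (g : ℂ → ℂ) (z w : ℂ) : dslope g z w = dslope g w z := by
  rcases eq_or_ne z w with rfl | h
  · rfl
  · rw [dslope_of_ne g h.symm, dslope_of_ne g h, slope_comm]

theorem continuousAt_dslope_prod {U : Set ℂ} (hU : IsOpen U) {g : ℂ → ℂ}
    (hg : DifferentiableOn ℂ g U) {z w : ℂ} (hz : z ∈ U) (hw : w ∈ U) :
    ContinuousAt (fun q : ℂ × ℂ => dslope g q.1 q.2) (z, w) := by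
  rcases eq_or_ne z w with rfl | hne
  · have han : AnalyticAt ℂ g z := hg.analyticAt (hU.mem_nhds hz)
    have hst : HasStrictDerivAt g (deriv g z) z := han.hasStrictDerivAt
    have hdc : ContinuousAt (deriv g) z := han.deriv.continuousAt
    rw [Metric.continuousAt_iff']
    intro ε hε
    have h1 : ∀ᶠ q : ℂ × ℂ in 𝓝 (z, z),
        ‖g q.1 - g q.2 - (deriv g z) * (q.1 - q.2)‖ ≤ (ε/2) * ‖q.1 - q.2‖ := by
      have := hst.hasStrictFDerivAt.isLittleO.def (half_pos hε)
      filter_upwards [this] with q hq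
      simpa [smul_eq_mul, mul_comm] using hq
    have h2 : ∀ᶠ q : ℂ × ℂ in 𝓝 (z, z), dist (deriv g q.1) (deriv g z) < ε := by
      have hc : ContinuousAt (fun q : ℂ × ℂ => deriv g q.1) (z, z) :=
        ContinuousAt.comp (f := Prod.fst) (g := deriv g) (x := (z, z)) hdc continuousAt_fst
      exact (Metric.continuousAt_iff'.1 hc) ε hε
    filter_upwards [h1, h2] with q hq1 hq2
    simp only [dslope_same]
    rcases eq_or_ne q.1 q.2 with he | he
    · rw [← he, dslope_same]; exact hq2
    · rw [dslope_of_ne g he.symm, slope_def_field, dist_eq_norm]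
      have hne : q.1 - q.2 ≠ 0 := sub_ne_zero.2 he
      have hne' : q.2 - q.1 ≠ 0 := sub_ne_zero.2 he.symm
      have hpos : 0 < ‖q.1 - q.2‖ := norm_pos_iff.2 hne
      have : (g q.2 - g q.1) / (q.2 - q.1) - deriv g z =
          (g q.1 - g q.2 - (deriv g z) * (q.1 - q.2)) / (q.1 - q.2) := by
        field_simp
        ring
      rw [this, norm_div, div_lt_iff₀ hpos]
      nlinarith
  · have hev : (fun q : ℂ × ℂ => dslope g q.1 q.2) =ᶠ[𝓝 (z, w)]
        (fun q : ℂ × ℂ => (g q.2 - g q.1) / (q.2 - q.1)) := by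
      have ho : IsOpen {q : ℂ × ℂ | q.1 ≠ q.2} := isOpen_ne_fun continuous_fst continuous_snd
      filter_upwards [ho.mem_nhds (show (z, w) ∈ {q : ℂ × ℂ | q.1 ≠ q.2} from hne)] with q hq
      rw [dslope_of_ne g (Ne.symm hq), slope_def_field]
    refine ContinuousAt.congr ?_ hev.symm
    have hgz : ContinuousAt g z := (hg.differentiableAt (hU.mem_nhds hz)).continuousAt
    have hgw : ContinuousAt g w := (hg.differentiableAt (hU.mem_nhds hw)).continuousAt
    have h1 : ContinuousAt (fun q : ℂ × ℂ => g q.1) (z, w) :=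
      ContinuousAt.comp (f := Prod.fst) (g := g) (x := (z, w)) hgz continuousAt_fst
    have h2 : ContinuousAt (fun q : ℂ × ℂ => g q.2) (z, w) :=
      ContinuousAt.comp (f := Prod.snd) (g := g) (x := (z, w)) hgw continuousAt_snd
    refine ContinuousAt.div (h2.sub h1) (continuousAt_snd.sub continuousAt_fst) ?_
    exact sub_ne_zero.2 hne.symm

theorem differentiableOn_dslope_left {U : Set ℂ} (hU : IsOpen U) {g : ℂ → ℂ}
    (hg : DifferentiableOn ℂ g U) {w : ℂ} (hw : w ∈ U) :
    DifferentiableOn ℂ (fun z => dslope g z w) U := by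
  have h := (Complex.differentiableOn_dslope (hU.mem_nhds hw)).2 hg
  exact h.congr (fun z _ => dslope_symm g z w)

/-! ### primitives of Cauchy kernels -/

theorem hasDerivAt_log_ratio {z z₀ w : ℂ} (h : ‖z - z₀‖ < ‖w - z₀‖) :
    HasDerivAt (fun w => Complex.log ((w - z) / (w - z₀))) ((w - z)⁻¹ - (w - z₀)⁻¹) w := by
  have hw0 : w - z₀ ≠ 0 := by
    intro h0; rw [h0, norm_zero] at h; exact absurd h (not_lt.2 (norm_nonneg _))
  have hwz : w - z ≠ 0 := by
    intro h0
    have : w = z := sub_eq_zero.1 h0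
    rw [this] at h; exact lt_irrefl _ h
  have hsl : (w - z) / (w - z₀) ∈ slitPlane := by
    left
    have h1 : (w - z) / (w - z₀) = 1 - (z - z₀) / (w - z₀) := by
      field_simp; ring
    have h2 : ‖(z - z₀) / (w - z₀)‖ < 1 := by
      rw [norm_div, div_lt_one (norm_pos_iff.2 hw0)]; exact h
    rw [h1, sub_re, one_re]
    have h3 := Complex.re_le_norm ((z - z₀) / (w - z₀))
    linarith
  have hd : HasDerivAt (fun w => (w - z) / (w - z₀))
      ((1 * (w - z₀) - (w - z) * 1) / (w - z₀)^2) w :=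
    ((hasDerivAt_id w).sub_const z).div ((hasDerivAt_id w).sub_const z₀) hw0
  have := (Complex.hasDerivAt_log hsl).comp w hd
  refine this.congr_deriv ?_
  field_simp

theorem hasDerivAt_log_far {z w : ℂ} (h : ‖w‖ < ‖z‖) :
    HasDerivAt (fun w => Complex.log (1 - w / z)) ((w - z)⁻¹) w := by
  have hz : z ≠ 0 := by
    intro h0; rw [h0, norm_zero] at h; exact absurd h (not_lt.2 (norm_nonneg _))
  have hwz : w - z ≠ 0 := by
    intro h0
    have : w = z := sub_eq_zero.1 h0
    rw [this] at h; exact lt_irrefl _ h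
  have hsl : 1 - w / z ∈ slitPlane := by
    left
    have h2 : ‖w / z‖ < 1 := by
      rw [norm_div, div_lt_one (norm_pos_iff.2 hz)]; exact h
    rw [sub_re, one_re]
    have h3 := Complex.re_le_norm (w / z)
    linarith
  have hd : HasDerivAt (fun w => 1 - w / z) (0 - 1 / z) w :=
    (hasDerivAt_const w (1:ℂ)).sub ((hasDerivAt_id w).div_const z)
  have := (Complex.hasDerivAt_log hsl).comp w hd
  refine this.congr_deriv ?_
  have h4 : 1 - w / z ≠ 0 := slitPlane_ne_zero hsl
  have h5 : z - w ≠ 0 := by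
    intro h0; apply hwz; linear_combination -h0
  have h6 : (1 - w / z)⁻¹ = z / (z - w) := by
    rw [show 1 - w / z = (z - w) / z by field_simp, inv_div]
  rw [h6, show w - z = -(z - w) by ring, inv_neg]
  field_simp
  ring

/-! ### Dixon's theorem -/

theorem dixon {U K : Set ℂ} {L : (ℂ → ℂ) → ℂ} (hU : IsOpen U) (hKc : IsCompact K) (hKU : K ⊆ U)
    (hUc : IsPreconnected Uᶜ) (hUb : Bornology.IsBounded U) (hL : Cur K L)
    (hcl : ∀ f F : ℂ → ℂ, ContinuousOn f K → (∀ w ∈ K, HasDerivAt F (f w) w) → L f = 0)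
    {g : ℂ → ℂ} (hg : DifferentiableOn ℂ g U) : L g = 0 := by
  -- radius
  obtain ⟨R, hR⟩ := hUb.subset_ball (0:ℂ)
  have hKR : ∀ w ∈ K, ‖w‖ < R := fun w hw => by simpa using hR (hKU hw)
  set φ : ℂ → ℂ := fun z => L (fun w => (w - z)⁻¹) with hφ
  have hcontinv : ∀ z ∉ K, ContinuousOn (fun w => (w - z)⁻¹) K := by
    intro z hz
    refine ContinuousOn.inv₀ (by fun_prop) ?_
    intro w hw h0
    exact hz (by rwa [← sub_eq_zero.1 h0])
  -- local constancy
  have hloc : ∀ z₀ ∉ K, ∀ᶠ z in 𝓝 z₀, z ∉ K ∧ φ z = φ z₀ := by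
    intro z₀ hz₀
    obtain ⟨δ, hδ, hδK⟩ := Metric.isOpen_iff.1 hKc.isClosed.isOpen_compl z₀ hz₀
    filter_upwards [Metric.ball_mem_nhds z₀ hδ] with z hz
    have hzK : z ∉ K := hδK hz
    refine ⟨hzK, ?_⟩
    have hlt : ∀ w ∈ K, ‖z - z₀‖ < ‖w - z₀‖ := by
      intro w hw
      have h1 : δ ≤ ‖w - z₀‖ := by
        by_contra hcon
        push Not at hcon
        exact hδK (show w ∈ ball z₀ δ by rwa [mem_ball, dist_eq_norm]) hw
      rw [mem_ball, dist_eq_norm] at hz
      linarith
    have h0 := hcl (fun w => (w - z)⁻¹ - (w - z₀)⁻¹) (fun w => Complex.log ((w - z) / (w - z₀)))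
      ((hcontinv z hzK).sub (hcontinv z₀ hz₀)) (fun w hw => hasDerivAt_log_ratio (hlt w hw))
    have h1 : L (fun w => (w - z)⁻¹ - (w - z₀)⁻¹) = φ z - φ z₀ := by
      have e1 := hL.add (fun w => (w - z)⁻¹) (fun w => (-1:ℂ) * (w - z₀)⁻¹) (hcontinv z hzK)
        ((hcontinv z₀ hz₀).const_smul (-1:ℂ))
      have e2 := hL.smul (-1) (fun w => (w - z₀)⁻¹)
      rw [e2] at e1
      have e3 : (fun w : ℂ => (w - z)⁻¹ + (-1:ℂ) * (w - z₀)⁻¹) =
          (fun w => (w - z)⁻¹ - (w - z₀)⁻¹) := by
        funext w; ring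
      rw [e3] at e1
      rw [e1, hφ]; ring
    rw [h1] at h0
    exact sub_eq_zero.1 h0
  -- far away
  have hfar : ∀ z, R ≤ ‖z‖ → φ z = 0 := by
    intro z hz
    have hzK : z ∉ K := fun h => absurd (hKR z h) (not_lt.2 hz)
    exact hcl _ _ (hcontinv z hzK) (fun w hw => hasDerivAt_log_far (lt_of_lt_of_le (hKR w hw) hz))
  -- V
  set V : Set ℂ := {z | z ∉ K ∧ φ z = 0} with hV
  have hVo : IsOpen V := by
    rw [isOpen_iff_mem_nhds]
    rintro z₀ ⟨hz₀, h0⟩
    filter_upwards [hloc z₀ hz₀] with z hz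
    exact ⟨hz.1, hz.2.trans h0⟩
  set W : Set ℂ := {z | z ∉ K ∧ φ z ≠ 0} with hW
  have hWo : IsOpen W := by
    rw [isOpen_iff_mem_nhds]
    rintro z₀ ⟨hz₀, h0⟩
    filter_upwards [hloc z₀ hz₀] with z hz
    exact ⟨hz.1, by rw [hz.2]; exact h0⟩
  have hRfar : ((max R 0 : ℝ) : ℂ) ∉ U ∧ R ≤ ‖((max R 0 : ℝ) : ℂ)‖ := by
    have h1 : R ≤ ‖((max R 0 : ℝ) : ℂ)‖ := by
      rw [Complex.norm_real, Real.norm_eq_abs, abs_of_nonneg (le_max_right _ _)]
      exact le_max_left _ _
    refine ⟨fun h => ?_, h1⟩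
    have := hR h
    rw [mem_ball_zero_iff] at this
    linarith
  have hUcV : Uᶜ ⊆ V := by
    refine hUc.subset_left_of_subset_union hVo hWo ?_ ?_ ?_
    · rw [Set.disjoint_left]
      rintro z ⟨_, h1⟩ ⟨_, h2⟩
      exact h2 h1
    · intro z hz
      have hzK : z ∉ K := fun h => hz (hKU h)
      by_cases h : φ z = 0
      · exact Or.inl ⟨hzK, h⟩
      · exact Or.inr ⟨hzK, h⟩
    · refine ⟨((max R 0 : ℝ) : ℂ), hRfar.1, fun h => hRfar.1 (hKU h), hfar _ hRfar.2⟩
  -- the key statement
  have key : ∀ G : ℂ → ℂ, DifferentiableOn ℂ G U → ∀ z ∉ U, L (fun w => G w * (w - z)⁻¹) = 0 := by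
    classical
    intro G hG
    have hGK : ContinuousOn G K := hG.continuousOn.mono hKU
    set h₁ : ℂ → ℂ := fun z => L (fun w => dslope G z w) with hh₁
    set h₂ : ℂ → ℂ := fun z => L (fun w => G w * (w - z)⁻¹) with hh₂
    have hd1 : DifferentiableOn ℂ h₁ U := by
      refine hL.param U (fun q => dslope G q.1 q.2) hU ?_ ?_
      · rintro ⟨z, w⟩ ⟨hz, hw⟩
        exact (continuousAt_dslope_prod hU hG hz (hKU hw)).continuousWithinAt
      · intro w hw
        exact differentiableOn_dslope_left hU hG (hKU hw)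
    have hd2 : DifferentiableOn ℂ h₂ Kᶜ := by
      refine hL.param Kᶜ (fun q => G q.2 * (q.2 - q.1)⁻¹) hKc.isClosed.isOpen_compl ?_ ?_
      · refine ContinuousOn.mul (hGK.comp continuousOn_snd (fun q hq => hq.2)) ?_
        refine ContinuousOn.inv₀ (by fun_prop) ?_
        rintro ⟨z, w⟩ ⟨hz, hw⟩ h0
        have h1 : w = z := sub_eq_zero.1 h0
        exact hz (by rw [← h1]; exact hw)
      · intro w hw
        have hne : ∀ z ∈ Kᶜ, w - z ≠ 0 := by
          intro z hz h0
          have h1 : w = z := sub_eq_zero.1 h0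
          exact hz (by rw [← h1]; exact hw)
        have hid : DifferentiableOn ℂ (fun z : ℂ => w - z) Kᶜ := by fun_prop
        exact (hid.inv hne).const_mul (G w)
    have heq : ∀ z ∈ V, z ∈ U → h₁ z = h₂ z := by
      rintro z ⟨hzK, hz0⟩ hzU
      have e1 : h₁ z = L (fun w => G w * (w - z)⁻¹ + (-G z) * (w - z)⁻¹) := by
        refine hL.congr _ _ (fun w hw => ?_)
        have hne : w ≠ z := fun h => hzK (by rw [← h]; exact hw)
        rw [dslope_of_ne G hne, slope_def_field]
        have : w - z ≠ 0 := sub_ne_zero.2 hne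
        field_simp
        ring
      have e2 := hL.add (fun w => G w * (w - z)⁻¹) (fun w => (-G z) * (w - z)⁻¹)
        (hGK.mul (hcontinv z hzK)) ((hcontinv z hzK).const_smul (-G z))
      have e3 := hL.smul (-G z) (fun w => (w - z)⁻¹)
      rw [e1, e2, e3]
      change h₂ z + -G z * φ z = h₂ z
      rw [hz0]; ring
    set h : ℂ → ℂ := fun z => if z ∈ U then h₁ z else h₂ z with hh
    have hhd : Differentiable ℂ h := by
      intro z
      by_cases hz : z ∈ U
      · have : h =ᶠ[𝓝 z] h₁ := by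
          filter_upwards [hU.mem_nhds hz] with y hy
          simp [hh, hy]
        exact (hd1.differentiableAt (hU.mem_nhds hz)).congr_of_eventuallyEq this
      · have hzV : z ∈ V := hUcV hz
        have : h =ᶠ[𝓝 z] h₂ := by
          filter_upwards [hVo.mem_nhds hzV] with y hy
          by_cases hyU : y ∈ U
          · simp only [hh, hyU, if_true]
            exact heq y hy hyU
          · simp only [hh, hyU, if_false]
        exact (hd2.differentiableAt (hKc.isClosed.isOpen_compl.mem_nhds hzV.1)).congr_of_eventuallyEq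
          this
    have hlim : Tendsto h (cocompact ℂ) (𝓝 0) := by
      obtain ⟨C, hC, hCb⟩ := hL.bound
      obtain ⟨B, hB⟩ := hKc.exists_bound_of_continuousOn hGK
      have hlim2 : Tendsto (fun z : ℂ => C * ((max B 0) * (‖z‖ - R)⁻¹)) (cocompact ℂ) (𝓝 0) := by
        have h1 : Tendsto (fun z : ℂ => ‖z‖ - R) (cocompact ℂ) atTop :=
          tendsto_atTop_add_const_right _ _ tendsto_norm_cocompact_atTop
        have h2 := (h1.inv_tendsto_atTop.const_mul (max B 0)).const_mul C
        simpa using h2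
      refine squeeze_zero_norm' ?_ hlim2
      have hev : ∀ᶠ z : ℂ in cocompact ℂ, R < ‖z‖ :=
        tendsto_norm_cocompact_atTop.eventually_gt_atTop R
      filter_upwards [hev] with z hz
      have hzU : z ∉ U := fun hz' => by
        have := hR hz'
        rw [mem_ball_zero_iff] at this
        linarith
      have : h z = h₂ z := by simp only [hh, hzU, if_false]
      rw [this]
      refine hCb _ _ ?_ ?_
      · exact mul_nonneg (le_max_right _ _) (inv_nonneg.2 (by linarith))
      · intro w hw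
        rw [norm_mul, norm_inv]
        have h3 : ‖z‖ - R ≤ ‖w - z‖ := by
          have h4 : ‖z‖ - ‖w‖ ≤ ‖z - w‖ := norm_sub_norm_le z w
          rw [norm_sub_rev] at h4
          have h5 := hKR w hw
          linarith
        have h6 : 0 < ‖z‖ - R := by linarith
        gcongr
        exact (hB w hw).trans (le_max_left _ _)
    intro z hz
    have h0 : h z = 0 := hhd.apply_eq_of_tendsto_cocompact z hlim
    have : h z = h₂ z := by simp only [hh, hz, if_false]
    rw [this] at h0
    exact h0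
  -- conclusion
  obtain ⟨z₁, hz₁⟩ : ∃ z₁, z₁ ∉ U := ⟨_, hRfar.1⟩
  have hfin := key (fun w => (w - z₁) * g w)
    ((show DifferentiableOn ℂ (fun w : ℂ => w - z₁) U by fun_prop).mul hg) z₁ hz₁
  rw [← hfin]
  refine hL.congr _ _ (fun w hw => ?_)
  have hne : w - z₁ ≠ 0 := by
    intro h0
    have : w = z₁ := sub_eq_zero.1 h0
    exact hz₁ (by rw [← this]; exact hKU hw)
  field_simp

end

end Crest.Agent.R165.GeoPx67
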