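import Mathlib
import Crest.Agent.R165.GeoP1_67

/-!
R165, GEO-6 (helper67), part 2: polygonal chains, their integrals and lengths; primitives, logarithms and square roots
in a bounded open connected set with connected complement.

* `Poly U a b n p`: `p 0 = a`, `p n = b`, all segments `[p i, p (i+1)]`, `i < n`, lie in `U`.
* `polyI p n f`, `plen p n`: integral and length.
* `JL U a b ℓ`: `a` and `b` are joined inside `U` by a polygon of length `≤ ℓ`.
* `cauchy_poly`: integrals of holomorphic functions along polygons with the same ends coincide.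
* `exists_primitive`, `exists_log`, `exists_sqrt`.
-/

set_option autoImplicit false

open Set Filter Topology Metric Complex MeasureTheory

namespace Crest.Agent.R165.GeoPx67

noncomputable section

/-- integral along the segment `[a, b]` -/
def segI (a b : ℂ) (f : ℂ → ℂ) : ℂ := (b - a) * ∫ t in (0:ℝ)..1, f (a + t * (b - a))

theorem mem_segment_param (a b : ℂ) {t : ℝ} (ht : t ∈ Icc (0:ℝ) 1) :
    a + t * (b - a) ∈ segment ℝ a b := by
  rw [segment_eq_image']
  exact ⟨t, ht, by simp⟩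

theorem segI_prim {a b : ℂ} {f F : ℂ → ℂ} (hf : ContinuousOn f (segment ℝ a b))
    (hF : ∀ w ∈ segment ℝ a b, HasDerivAt F (f w) w) : segI a b f = F b - F a := by
  have hcont : ContinuousOn (fun t : ℝ => f (a + t * (b - a))) (Icc 0 1) := by
    refine hf.comp (by fun_prop) (fun t ht => mem_segment_param a b ht)
  have hder : ∀ t ∈ uIcc (0:ℝ) 1,
      HasDerivAt (fun t : ℝ => F (a + t * (b - a))) (f (a + t * (b - a)) * (b - a)) t := by
    intro t ht
    rw [uIcc_of_le zero_le_one] at ht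
    have h1 : HasDerivAt (fun t : ℝ => a + (t:ℂ) * (b - a)) (1 * (b - a)) t :=
      ((Complex.ofRealCLM.hasDerivAt (x := t)).mul_const (b - a)).const_add a
    rw [one_mul] at h1
    exact (hF _ (mem_segment_param a b ht)).comp_of_eq t h1 rfl
  have h2 := intervalIntegral.integral_eq_sub_of_hasDerivAt hder (by
    apply ContinuousOn.intervalIntegrable
    rw [uIcc_of_le zero_le_one]
    exact hcont.mul continuousOn_const)
  rw [intervalIntegral.integral_mul_const] at h2
  rw [segI, mul_comm, h2]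
  simp

theorem cur_segI (a b : ℂ) : Cur (segment ℝ a b) (segI a b) where
  congr f g hfg := by
    unfold segI
    congr 1
    apply intervalIntegral.integral_congr
    intro t ht
    rw [uIcc_of_le zero_le_one] at ht
    exact hfg _ (mem_segment_param a b ht)
  add f g hf hg := by
    have hc : ∀ f : ℂ → ℂ, ContinuousOn f (segment ℝ a b) →
        IntervalIntegrable (fun t : ℝ => f (a + t * (b - a))) volume 0 1 := by
      intro f hf
      apply ContinuousOn.intervalIntegrable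
      rw [uIcc_of_le zero_le_one]
      exact hf.comp (by fun_prop) (fun t ht => mem_segment_param a b ht)
    unfold segI
    rw [intervalIntegral.integral_add (hc f hf) (hc g hg), mul_add]
  smul c f := by
    unfold segI
    rw [intervalIntegral.integral_const_mul]; ring
  param U f hU hf hd := by
    have h1 : AnalyticOnNhd ℂ (fun z => ∫ t in (0:ℝ)..1, f (z, a + t * (b - a))) U := by
      refine Crest.Agent.R266.SCV.analyticOnNhd_intervalIntegral
        (f := fun q : ℂ × ℝ => f (q.1, a + q.2 * (b - a))) hU ?_ ?_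
      · refine hf.comp (by fun_prop) ?_
        rintro ⟨z, t⟩ ⟨hz, ht⟩
        rw [uIcc_of_le zero_le_one] at ht
        exact ⟨hz, mem_segment_param a b ht⟩
      · intro t ht
        rw [uIcc_of_le zero_le_one] at ht
        exact hd _ (mem_segment_param a b ht)
    exact (h1.differentiableOn).const_mul (b - a)
  bound := by
    refine ⟨‖b - a‖, norm_nonneg _, fun f B hB hf => ?_⟩
    unfold segI
    rw [norm_mul]
    gcongr
    have := intervalIntegral.norm_integral_le_of_norm_le_const (a := (0:ℝ)) (b := 1)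
      (f := fun t : ℝ => f (a + t * (b - a))) (C := B) (by
        intro t ht
        rw [uIoc_of_le zero_le_one] at ht
        exact hf _ (mem_segment_param a b ⟨ht.1.le, ht.2⟩))
    simpa using this

/-- integral along the polygon `p 0, ..., p n` -/
def polyI (p : ℕ → ℂ) (n : ℕ) (f : ℂ → ℂ) : ℂ := ∑ i ∈ Finset.range n, segI (p i) (p (i+1)) f

/-- length of the polygon `p 0, ..., p n` -/
def plen (p : ℕ → ℂ) (n : ℕ) : ℝ := ∑ i ∈ Finset.range n, ‖p (i+1) - p i‖

theorem plen_nonneg (p : ℕ → ℂ) (n : ℕ) : 0 ≤ plen p n :=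
  Finset.sum_nonneg (fun _ _ => norm_nonneg _)

/-- the polygon `p 0 = a, ..., p n = b` lies in `U` -/
structure Poly (U : Set ℂ) (a b : ℂ) (n : ℕ) (p : ℕ → ℂ) : Prop where
  start : p 0 = a
  fin : p n = b
  sub : ∀ i < n, segment ℝ (p i) (p (i+1)) ⊆ U

theorem cur_polyI {K : Set ℂ} {p : ℕ → ℂ} {n : ℕ} (h : ∀ i < n, segment ℝ (p i) (p (i+1)) ⊆ K) :
    Cur K (polyI p n) := by
  induction n with
  | zero =>
    have : polyI p 0 = fun _ => 0 := by funext f; simp [polyI]
    rw [this]; exact Cur.zero K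
  | succ n ih =>
    have : polyI p (n+1) = fun f => polyI p n f + segI (p n) (p (n+1)) f := by
      funext f; simp [polyI, Finset.sum_range_succ]
    rw [this]
    exact (ih (fun i hi => h i (by omega))).sum ((cur_segI _ _).mono (h n (by omega)))

theorem polyI_prim {p : ℕ → ℂ} {n : ℕ} {K : Set ℂ}
    (h : ∀ i < n, segment ℝ (p i) (p (i+1)) ⊆ K) {f F : ℂ → ℂ} (hf : ContinuousOn f K)
    (hF : ∀ w ∈ K, HasDerivAt F (f w) w) : polyI p n f = F (p n) - F (p 0) := by
  unfold polyI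
  rw [Finset.sum_congr rfl (fun i hi => segI_prim (a := p i) (b := p (i+1)) (F := F)
    (hf.mono (h i (Finset.mem_range.1 hi)))
    (fun w hw => hF w (h i (Finset.mem_range.1 hi) hw)))]
  exact Finset.sum_range_sub (fun i => F (p i)) n

theorem isCompact_segment (a b : ℂ) : IsCompact (segment ℝ a b) := by
  rw [segment_eq_image']
  exact isCompact_Icc.image (by fun_prop)

theorem cauchy_poly {U : Set ℂ} (hU : IsOpen U) (hUc : IsPreconnected Uᶜ)
    (hUb : Bornology.IsBounded U) {g : ℂ → ℂ} (hg : DifferentiableOn ℂ g U)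
    {a b : ℂ} {n m : ℕ} {p q : ℕ → ℂ} (hp : Poly U a b n p) (hq : Poly U a b m q) :
    polyI p n g = polyI q m g := by
  set K : Set ℂ := (⋃ i ∈ Finset.range n, segment ℝ (p i) (p (i+1))) ∪
    (⋃ i ∈ Finset.range m, segment ℝ (q i) (q (i+1))) with hK
  have hKc : IsCompact K := by
    refine IsCompact.union ?_ ?_
    · exact (Finset.range n).isCompact_biUnion (fun i _ => isCompact_segment _ _)
    · exact (Finset.range m).isCompact_biUnion (fun i _ => isCompact_segment _ _)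
  have hKU : K ⊆ U := by
    refine union_subset ?_ ?_
    · exact iUnion₂_subset (fun i hi => hp.sub i (Finset.mem_range.1 hi))
    · exact iUnion₂_subset (fun i hi => hq.sub i (Finset.mem_range.1 hi))
  have hpK : ∀ i < n, segment ℝ (p i) (p (i+1)) ⊆ K := fun i hi =>
    subset_union_of_subset_left
      (subset_biUnion_of_mem (u := fun i => segment ℝ (p i) (p (i+1))) (Finset.mem_range.2 hi)) _
  have hqK : ∀ i < m, segment ℝ (q i) (q (i+1)) ⊆ K := fun i hi =>
    subset_union_of_subset_right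
      (subset_biUnion_of_mem (u := fun i => segment ℝ (q i) (q (i+1))) (Finset.mem_range.2 hi)) _
  have hcur : Cur K (fun f => polyI p n f - polyI q m f) := (cur_polyI hpK).sub (cur_polyI hqK)
  have := dixon hU hKc hKU hUc hUb hcur (fun f F hf hF => by
    rw [polyI_prim hpK hf hF, polyI_prim hqK hf hF, hp.start, hp.fin, hq.start, hq.fin]
    ring) hg
  exact sub_eq_zero.1 this

/-! ### operations on polygons -/

theorem Poly.nil (U : Set ℂ) (a : ℂ) : Poly U a a 0 (fun _ => a) :=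
  ⟨rfl, rfl, fun i hi => absurd hi (Nat.not_lt_zero i)⟩

theorem Poly.snoc {U : Set ℂ} {a b c : ℂ} {n : ℕ} {p : ℕ → ℂ} (hp : Poly U a b n p)
    (hs : segment ℝ b c ⊆ U) :
    ∃ q : ℕ → ℂ, Poly U a c (n+1) q ∧ (∀ f, polyI q (n+1) f = polyI p n f + segI b c f) ∧
      plen q (n+1) = plen p n + ‖c - b‖ := by
  set q : ℕ → ℂ := fun i => if i ≤ n then p i else c with hq
  have h1 : ∀ i < n, q i = p i ∧ q (i+1) = p (i+1) := by
    intro i hi
    refine ⟨?_, ?_⟩
    · simp only [hq]; rw [if_pos (by omega)]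
    · simp only [hq]; rw [if_pos (by omega)]
  have h2 : q n = b := by simp only [hq]; rw [if_pos le_rfl, hp.fin]
  have h3 : q (n+1) = c := by simp only [hq]; rw [if_neg (by omega)]
  refine ⟨q, ⟨?_, h3, ?_⟩, ?_, ?_⟩
  · simp only [hq]; rw [if_pos (Nat.zero_le _), hp.start]
  · intro i hi
    rcases Nat.lt_succ_iff_lt_or_eq.1 hi with h | h
    · rw [(h1 i h).1, (h1 i h).2]; exact hp.sub i h
    · rw [h, h2, h3]; exact hs
  · intro f
    unfold polyI
    rw [Finset.sum_range_succ, h2, h3]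
    congr 1
    refine Finset.sum_congr rfl (fun i hi => ?_)
    rw [(h1 i (Finset.mem_range.1 hi)).1, (h1 i (Finset.mem_range.1 hi)).2]
  · unfold plen
    rw [Finset.sum_range_succ, h2, h3]
    congr 1
    refine Finset.sum_congr rfl (fun i hi => ?_)
    rw [(h1 i (Finset.mem_range.1 hi)).1, (h1 i (Finset.mem_range.1 hi)).2]

theorem Poly.append {U : Set ℂ} {a b c : ℂ} {n m : ℕ} {p q : ℕ → ℂ} (hp : Poly U a b n p)
    (hq : Poly U b c m q) :
    ∃ k, ∃ r : ℕ → ℂ, Poly U a c k r ∧ (∀ f, polyI r k f = polyI p n f + polyI q m f) ∧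
      plen r k = plen p n + plen q m := by
  induction m generalizing c with
  | zero =>
    have hbc : b = c := hq.start.symm.trans hq.fin
    subst hbc
    exact ⟨n, p, hp, fun f => by simp [polyI], by simp [plen]⟩
  | succ m ih =>
    obtain ⟨k, r, hr, hri, hrl⟩ := ih (c := q m)
      ⟨hq.start, rfl, fun i hi => hq.sub i (by omega)⟩
    have hseg : segment ℝ (q m) c ⊆ U := by
      have := hq.sub m (by omega)
      rwa [hq.fin] at this
    obtain ⟨r', hr', hri', hrl'⟩ := hr.snoc hseg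
    refine ⟨k+1, r', hr', fun f => ?_, ?_⟩
    · rw [hri', hri]
      have : polyI q (m+1) f = polyI q m f + segI (q m) c f := by
        unfold polyI
        rw [Finset.sum_range_succ, hq.fin]
      rw [this]; ring
    · rw [hrl', hrl]
      have : plen q (m+1) = plen q m + ‖c - q m‖ := by
        unfold plen
        rw [Finset.sum_range_succ, hq.fin]
      rw [this]; ring

theorem Poly.reverse {U : Set ℂ} {a b : ℂ} {n : ℕ} {p : ℕ → ℂ} (hp : Poly U a b n p) :
    Poly U b a n (fun i => p (n - i)) ∧ plen (fun i => p (n - i)) n = plen p n := by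
  refine ⟨⟨?_, ?_, ?_⟩, ?_⟩
  · simpa using hp.fin
  · simpa using hp.start
  · intro i hi
    have h1 : n - i = (n - (i+1)) + 1 := by omega
    have := hp.sub (n - (i+1)) (by omega)
    rw [segment_symm] at this
    simpa [← h1] using this
  · unfold plen
    rw [← Finset.sum_range_reflect]
    refine Finset.sum_congr rfl (fun i hi => ?_)
    have hi' := Finset.mem_range.1 hi
    have h1 : n - (n - 1 - i + 1) = i := by omega
    have h2 : n - (n - 1 - i) = i + 1 := by omega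
    simp only [h1, h2]
    rw [norm_sub_rev]

theorem Poly.mono {U V : Set ℂ} (hUV : U ⊆ V) {a b : ℂ} {n : ℕ} {p : ℕ → ℂ}
    (hp : Poly U a b n p) : Poly V a b n p :=
  ⟨hp.start, hp.fin, fun i hi => (hp.sub i hi).trans hUV⟩

/-- `a` and `b` are joined inside `U` by a polygon of length `≤ ℓ` -/
def JL (U : Set ℂ) (a b : ℂ) (ℓ : ℝ) : Prop := ∃ n, ∃ p : ℕ → ℂ, Poly U a b n p ∧ plen p n ≤ ℓ

theorem JL.refl (U : Set ℂ) (a : ℂ) {ℓ : ℝ} (h : 0 ≤ ℓ) : JL U a a ℓ :=
  ⟨0, _, Poly.nil U a, by simpa [plen] using h⟩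

theorem JL.seg {U : Set ℂ} {a b : ℂ} (h : segment ℝ a b ⊆ U) : JL U a b ‖b - a‖ := by
  obtain ⟨q, hq, -, hl⟩ := (Poly.nil U a).snoc h
  exact ⟨1, q, hq, by rw [hl]; simp [plen]⟩

theorem JL.nonneg {U : Set ℂ} {a b : ℂ} {ℓ : ℝ} (h : JL U a b ℓ) : 0 ≤ ℓ := by
  obtain ⟨n, p, -, hl⟩ := h
  exact (plen_nonneg p n).trans hl

theorem JL.le {U : Set ℂ} {a b : ℂ} {ℓ ℓ' : ℝ} (h : JL U a b ℓ) (hl : ℓ ≤ ℓ') : JL U a b ℓ' := by
  obtain ⟨n, p, hp, hp'⟩ := h
  exact ⟨n, p, hp, hp'.trans hl⟩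

theorem JL.mono {U V : Set ℂ} (hUV : U ⊆ V) {a b : ℂ} {ℓ : ℝ} (h : JL U a b ℓ) : JL V a b ℓ := by
  obtain ⟨n, p, hp, hp'⟩ := h
  exact ⟨n, p, hp.mono hUV, hp'⟩

theorem JL.trans {U : Set ℂ} {a b c : ℂ} {ℓ ℓ' : ℝ} (h : JL U a b ℓ) (h' : JL U b c ℓ') :
    JL U a c (ℓ + ℓ') := by
  obtain ⟨n, p, hp, hpl⟩ := h
  obtain ⟨m, q, hq, hql⟩ := h'
  obtain ⟨k, r, hr, -, hrl⟩ := hp.append hq
  exact ⟨k, r, hr, by rw [hrl]; linarith⟩

theorem JL.symm {U : Set ℂ} {a b : ℂ} {ℓ : ℝ} (h : JL U a b ℓ) : JL U b a ℓ := by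
  obtain ⟨n, p, hp, hpl⟩ := h
  exact ⟨n, _, hp.reverse.1, by rw [hp.reverse.2]; exact hpl⟩

/-- Lipschitz estimate along a polygon, real derivative version. -/
theorem JL.lip {E : Type*} [NormedAddCommGroup E] [NormedSpace ℝ E] {U : Set ℂ} {a b : ℂ} {ℓ : ℝ}
    (h : JL U a b ℓ) {f : ℂ → E} {f' : ℂ → ℂ →L[ℝ] E} {B : ℝ}
    (hf : ∀ z ∈ U, HasFDerivAt f (f' z) z) (hB : ∀ z ∈ U, ‖f' z‖ ≤ B) (hB0 : 0 ≤ B) :
    ‖f b - f a‖ ≤ B * ℓ := by
  obtain ⟨n, p, hp, hpl⟩ := h
  have key : ∀ m ≤ n, ‖f (p m) - f (p 0)‖ ≤ B * plen p m := by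
    intro m
    induction m with
    | zero => intro _; simp [plen]
    | succ m ih =>
      intro hm
      have h1 := ih (by omega)
      have hseg := hp.sub m (by omega)
      have h2 : ‖f (p (m+1)) - f (p m)‖ ≤ B * ‖p (m+1) - p m‖ :=
        (convex_segment (𝕜 := ℝ) (p m) (p (m+1))).norm_image_sub_le_of_norm_hasFDerivWithin_le
          (fun x hx => (hf x (hseg hx)).hasFDerivWithinAt) (fun x hx => hB x (hseg hx))
          (left_mem_segment ℝ _ _) (right_mem_segment ℝ _ _)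
      have h3 : plen p (m+1) = plen p m + ‖p (m+1) - p m‖ := by
        unfold plen; rw [Finset.sum_range_succ]
      calc ‖f (p (m+1)) - f (p 0)‖ = ‖(f (p (m+1)) - f (p m)) + (f (p m) - f (p 0))‖ := by
            congr 1; abel
        _ ≤ ‖f (p (m+1)) - f (p m)‖ + ‖f (p m) - f (p 0)‖ := norm_add_le _ _
        _ ≤ B * ‖p (m+1) - p m‖ + B * plen p m := add_le_add h2 h1
        _ = B * plen p (m+1) := by rw [h3]; ring
  have := key n le_rfl
  rw [hp.fin, hp.start] at this
  exact this.trans (mul_le_mul_of_nonneg_left hpl hB0)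

/-- Lipschitz estimate along a polygon, complex derivative version. -/
theorem JL.lipC {U : Set ℂ} {a b : ℂ} {ℓ : ℝ} (h : JL U a b ℓ) {f : ℂ → ℂ} (hU : IsOpen U)
    (hf : DifferentiableOn ℂ f U) {B : ℝ} (hB : ∀ z ∈ U, ‖deriv f z‖ ≤ B) (hB0 : 0 ≤ B) :
    ‖f b - f a‖ ≤ B * ℓ := by
  refine h.lip (f' := fun z => (ContinuousLinearMap.toSpanSingleton ℂ
    (deriv f z)).restrictScalars ℝ) (fun z hz => ?_) (fun z hz => ?_) hB0
  · exact ((hf.differentiableAt (hU.mem_nhds hz)).hasDerivAt.hasFDerivAt).restrictScalars ℝ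
  · rw [ContinuousLinearMap.norm_restrictScalars, ContinuousLinearMap.norm_toSpanSingleton]
    exact hB z hz

theorem JL.mem {U : Set ℂ} {a b : ℂ} {ℓ : ℝ} (h : JL U a b ℓ) : a ∈ U ↔ b ∈ U := by
  obtain ⟨n, p, hp, hpl⟩ := h
  rcases Nat.eq_zero_or_pos n with h0 | h0
  · subst h0
    rw [← hp.start, ← hp.fin]
  · have h1 := hp.sub 0 h0 (left_mem_segment ℝ _ _)
    have h2 := hp.sub (n-1) (by omega) (right_mem_segment ℝ _ _)
    rw [hp.start] at h1
    rw [Nat.sub_add_cancel h0, hp.fin] at h2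
    exact ⟨fun _ => h2, fun _ => h1⟩

/-- an open connected set is polygonally connected -/
theorem exists_JL {U : Set ℂ} (hU : IsOpen U) (hc : IsPreconnected U) {a b : ℂ} (ha : a ∈ U)
    (hb : b ∈ U) : ∃ ℓ, JL U a b ℓ := by
  set S : Set ℂ := {z | z ∈ U ∧ ∃ ℓ, JL U a z ℓ} with hS
  set T : Set ℂ := {z | z ∈ U ∧ ¬ ∃ ℓ, JL U a z ℓ} with hT
  have hseg : ∀ z ∈ U, ∃ ε > 0, ball z ε ⊆ U ∧ ∀ y ∈ ball z ε, segment ℝ z y ⊆ U := by
    intro z hz
    obtain ⟨ε, hε, hεU⟩ := Metric.isOpen_iff.1 hU z hz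
    exact ⟨ε, hε, hεU, fun y hy =>
      ((convex_ball z ε).segment_subset (mem_ball_self hε) hy).trans hεU⟩
  have hSo : IsOpen S := by
    rw [Metric.isOpen_iff]
    rintro z ⟨hz, ℓ, hℓ⟩
    obtain ⟨ε, hε, hεU, hs⟩ := hseg z hz
    refine ⟨ε, hε, fun y hy => ⟨hεU hy, _, hℓ.trans (JL.seg (hs y hy))⟩⟩
  have hTo : IsOpen T := by
    rw [Metric.isOpen_iff]
    rintro z ⟨hz, hno⟩
    obtain ⟨ε, hε, hεU, hs⟩ := hseg z hz
    refine ⟨ε, hε, fun y hy => ⟨hεU hy, ?_⟩⟩
    rintro ⟨ℓ, hℓ⟩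
    exact hno ⟨_, hℓ.trans (JL.seg (hs y hy)).symm⟩
  have hsub : U ⊆ S := by
    refine hc.subset_left_of_subset_union hSo hTo ?_ ?_ ⟨a, ha, ha, 0, JL.refl U a le_rfl⟩
    · rw [Set.disjoint_left]
      rintro z ⟨_, h1⟩ ⟨_, h2⟩
      exact h2 h1
    · intro z hz
      by_cases h : ∃ ℓ, JL U a z ℓ
      · exact Or.inl ⟨hz, h⟩
      · exact Or.inr ⟨hz, h⟩
  exact (hsub hb).2

/-! ### primitives, logarithms, square roots -/

theorem exists_primitive {U : Set ℂ} (hU : IsOpen U) (hc : IsPreconnected U)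
    (hUc : IsPreconnected Uᶜ) (hUb : Bornology.IsBounded U) {g : ℂ → ℂ}
    (hg : DifferentiableOn ℂ g U) : ∃ F : ℂ → ℂ, ∀ z ∈ U, HasDerivAt F (g z) z := by
  classical
  rcases U.eq_empty_or_nonempty with rfl | ⟨a, ha⟩
  · exact ⟨0, fun z hz => absurd hz (notMem_empty z)⟩
  have hex : ∀ z : ℂ, ∃ np : ℕ × (ℕ → ℂ), z ∈ U → Poly U a z np.1 np.2 := by
    intro z
    by_cases hz : z ∈ U
    · obtain ⟨ℓ, n, p, hp, -⟩ := exists_JL hU hc ha hz
      exact ⟨(n, p), fun _ => hp⟩
    · exact ⟨(0, fun _ => 0), fun h => absurd h hz⟩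
  choose P hP using hex
  refine ⟨fun z => polyI (P z).2 (P z).1 g, fun z hz => ?_⟩
  obtain ⟨ε, hε, hεU⟩ := Metric.isOpen_iff.1 hU z hz
  obtain ⟨G, hG⟩ := (DifferentiableOn.isExactOn_ball (hg.mono hεU))
  have hev : (fun y => polyI (P y).2 (P y).1 g) =ᶠ[𝓝 z]
      fun y => polyI (P z).2 (P z).1 g + (G y - G z) := by
    filter_upwards [Metric.ball_mem_nhds z hε] with y hy
    have hseg : segment ℝ z y ⊆ ball z ε :=
      (convex_ball z ε).segment_subset (mem_ball_self hε) hy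
    obtain ⟨q, hq, hqi, -⟩ := (hP z hz).snoc (hseg.trans hεU)
    rw [cauchy_poly hU hUc hUb hg (hP y (hεU hy)) hq, hqi,
      segI_prim ((hg.continuousOn.mono hεU).mono hseg) (fun w hw => hG w (hseg hw))]
  have h1 : HasDerivAt (fun y => polyI (P z).2 (P z).1 g + (G y - G z)) (g z) z :=
    ((hG z (mem_ball_self hε)).sub_const _).const_add _
  exact h1.congr_of_eventuallyEq hev

theorem exists_log {U : Set ℂ} (hU : IsOpen U) (hc : IsPreconnected U)
    (hUc : IsPreconnected Uᶜ) (hUb : Bornology.IsBounded U) {f : ℂ → ℂ}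
    (hf : DifferentiableOn ℂ f U) (h0 : ∀ z ∈ U, f z ≠ 0) :
    ∃ l : ℂ → ℂ, DifferentiableOn ℂ l U ∧ ∀ z ∈ U, Complex.exp (l z) = f z := by
  rcases U.eq_empty_or_nonempty with rfl | ⟨a, ha⟩
  · exact ⟨0, differentiableOn_empty, fun z hz => absurd hz (notMem_empty z)⟩
  have hd : DifferentiableOn ℂ (deriv f) U := hf.deriv hU
  obtain ⟨F, hF⟩ := exists_primitive hU hc hUc hUb (hd.div hf h0)
  have hF0 : ∀ z ∈ U, HasDerivAt (fun z => f z * Complex.exp (-F z)) 0 z := by
    intro z hz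
    have h1 := (hf.differentiableAt (hU.mem_nhds hz)).hasDerivAt
    have h2 := ((hF z hz).neg).cexp
    have h3 := h1.mul h2
    refine h3.congr_deriv ?_
    have := h0 z hz
    simp only [Pi.div_apply]
    field_simp
    ring
  obtain ⟨c, hcc⟩ : ∃ c, ∀ z ∈ U, f z * Complex.exp (-F z) = c := by
    refine ⟨f a * Complex.exp (-F a), fun z hz => ?_⟩
    obtain ⟨ℓ, hℓ⟩ := exists_JL hU hc ha hz
    have := hℓ.lipC (f := fun z => f z * Complex.exp (-F z)) hU
      (fun z hz => (hF0 z hz).differentiableAt.differentiableWithinAt) (B := 0)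
      (fun z hz => by rw [(hF0 z hz).deriv]; simp) le_rfl
    rw [zero_mul, norm_le_zero_iff, sub_eq_zero] at this
    exact this
  have hc0 : c ≠ 0 := by
    rw [← hcc a ha]
    exact mul_ne_zero (h0 a ha) (Complex.exp_ne_zero _)
  refine ⟨fun z => F z + Complex.log c, fun z hz =>
    ((hF z hz).differentiableAt.add_const _).differentiableWithinAt, fun z hz => ?_⟩
  rw [Complex.exp_add, Complex.exp_log hc0, ← hcc z hz, Complex.exp_neg]
  field_simp [Complex.exp_ne_zero]

theorem exists_sqrt {U : Set ℂ} (hU : IsOpen U) (hc : IsPreconnected U)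
    (hUc : IsPreconnected Uᶜ) (hUb : Bornology.IsBounded U) {f : ℂ → ℂ}
    (hf : DifferentiableOn ℂ f U) (h0 : ∀ z ∈ U, f z ≠ 0) :
    ∃ s : ℂ → ℂ, DifferentiableOn ℂ s U ∧ ∀ z ∈ U, s z ^ 2 = f z := by
  obtain ⟨l, hl, hle⟩ := exists_log hU hc hUc hUb hf h0
  refine ⟨fun z => Complex.exp (l z / 2), (hl.div_const 2).cexp, fun z hz => ?_⟩
  rw [← Complex.exp_nat_mul, ← hle z hz]
  congr 1
  push_cast
  ring

end

end Crest.Agent.R165.GeoPx67
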