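import Mathlib
import Crest.Agent.Lib.RiemannMap
import Crest.Agent.Lib.InjHolo

/-!
R165, GEO-6 (helper67), part 3a: Riemann mapping theorem for connected open sets in which nonvanishing holomorphic
functions have square roots (adapted from Lib/RiemannMap).
-/

set_option autoImplicit false

open Filter Metric Set Topology ComplexConjugate

namespace Crest.Agent.R165.GeoPx67

open Crest.Agent.Lib.RiemannMap

theorem hasDerivAt_sqrt' {U : Set ℂ} (hU : IsOpen U) {s h : ℂ → ℂ} (hs : DifferentiableOn ℂ s U)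
    (hsh : ∀ z ∈ U, s z ^ 2 = h z) {z h' : ℂ} (hz : z ∈ U) (hne : s z ≠ 0) (hh : HasDerivAt h h' z) :
    HasDerivAt s (h' / (2 * s z)) z := by
  have hd := (hs.differentiableAt (hU.mem_nhds hz)).hasDerivAt
  have h1 : HasDerivAt (fun z => s z ^ 2) (2 * s z * deriv s z) z := by
    have := hd.fun_pow 2
    simpa using this
  have hev : h =ᶠ[𝓝 z] fun z => s z ^ 2 := by
    filter_upwards [hU.mem_nhds hz] with y hy
    exact (hsh y hy).symm
  have h2 : HasDerivAt h (2 * s z * deriv s z) z := h1.congr_of_eventuallyEq hev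
  have h3 : h' = 2 * s z * deriv s z := hh.unique h2
  rw [h3, mul_div_cancel_left₀ _ (mul_ne_zero two_ne_zero hne)]
  exact hd

/-- Koebe's square root trick: a non-surjective member of the family is not extremal. -/
theorem Fam_improve {U : Set ℂ} (hUo : IsOpen U)
    (hsq : ∀ h : ℂ → ℂ, DifferentiableOn ℂ h U → (∀ z ∈ U, h z ≠ 0) →
      ∃ s : ℂ → ℂ, DifferentiableOn ℂ s U ∧ ∀ z ∈ U, s z ^ 2 = h z)
    {z₀ : ℂ} (hz₀ : z₀ ∈ U) {f : ℂ → ℂ} (hf : Fam U z₀ f) (hd : deriv f z₀ ≠ 0)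
    {w : ℂ} (hw : ‖w‖ < 1) (hwf : w ∉ f '' U) :
    ∃ g, Fam U z₀ g ∧ ‖deriv f z₀‖ < ‖deriv g z₀‖ := by
  have hw0 : w ≠ 0 := by
    rintro rfl
    exact hwf ⟨z₀, hz₀, hf.zero⟩
  have hfn : ∀ z ∈ U, ‖f z‖ < 1 := fun z hz => by simpa using hf.maps hz
  have hfne : ∀ z ∈ U, f z ≠ w := fun z hz h => hwf ⟨z, hz, h⟩
  have hh : ∀ z ∈ U, HasDerivAt (fun z => mob w (f z))
      ((1 - conj w * w) / (1 - conj w * f z) ^ 2 * deriv f z) z := by
    intro z hz
    exact (mob_hasDerivAt hw (hfn z hz)).comp z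
      (hf.diff.differentiableAt (hUo.mem_nhds hz)).hasDerivAt
  obtain ⟨s, hsc, hs⟩ := hsq (fun z => mob w (f z))
    (fun z hz => (hh z hz).differentiableAt.differentiableWithinAt)
    (fun z hz => mob_ne_zero hw (hfn z hz) (hfne z hz))
  have hsne : ∀ z ∈ U, s z ≠ 0 := by
    intro z hz h0
    have := hs z hz
    rw [h0] at this
    exact mob_ne_zero hw (hfn z hz) (hfne z hz) (by rw [← this]; simp)
  have hsn : ∀ z ∈ U, ‖s z‖ < 1 := by
    intro z hz
    have h1 : ‖s z‖ ^ 2 < 1 := by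
      rw [← norm_pow, hs z hz]
      exact mob_norm_lt hw (hfn z hz)
    nlinarith [norm_nonneg (s z)]
  have hsd : ∀ z ∈ U, HasDerivAt s
      ((1 - conj w * w) / (1 - conj w * f z) ^ 2 * deriv f z / (2 * s z)) z := fun z hz =>
    hasDerivAt_sqrt' hUo hsc hs hz (hsne z hz) (hh z hz)
  have hgd : ∀ z ∈ U, HasDerivAt (fun z => mob (s z₀) (s z))
      ((1 - conj (s z₀) * s z₀) / (1 - conj (s z₀) * s z) ^ 2 *
        ((1 - conj w * w) / (1 - conj w * f z) ^ 2 * deriv f z / (2 * s z))) z := by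
    intro z hz
    exact (mob_hasDerivAt (hsn z₀ hz₀) (hsn z hz)).comp z (hsd z hz)
  refine ⟨fun z => mob (s z₀) (s z), ⟨?_, ?_, ?_, mob_self _⟩, ?_⟩
  · intro z hz
    exact (hgd z hz).differentiableAt.differentiableWithinAt
  · intro a ha b hb hab
    have h1 := mob_injOn (hsn z₀ hz₀) (by simpa using hsn a ha) (by simpa using hsn b hb) hab
    have h2 : mob w (f a) = mob w (f b) := by
      rw [← hs a ha, ← hs b hb, h1]
    exact hf.inj ha hb (mob_injOn hw (hf.maps ha) (hf.maps hb) h2)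
  · intro z hz
    rw [mem_ball_zero_iff]
    exact mob_norm_lt (hsn z₀ hz₀) (hsn z hz)
  · rw [(hgd z₀ hz₀).deriv]
    -- |s z0|^2 = |w|
    have hs0 : ‖s z₀‖ ^ 2 = ‖w‖ := by
      rw [← norm_pow, hs z₀ hz₀, hf.zero]
      simp [mob]
    have hsp : 0 < ‖s z₀‖ := norm_pos_iff.2 (hsne z₀ hz₀)
    have hs1 : ‖s z₀‖ < 1 := hsn z₀ hz₀
    have e1 : ‖1 - conj (s z₀) * s z₀‖ = 1 - ‖s z₀‖ ^ 2 := by
      rw [← Complex.normSq_eq_conj_mul_self, Complex.normSq_eq_norm_sq]
      rw [← Complex.ofReal_one, ← Complex.ofReal_sub, Complex.norm_real, Real.norm_eq_abs,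
        abs_of_pos]
      nlinarith
    have e2 : ‖1 - conj w * w‖ = 1 - ‖w‖ ^ 2 := by
      rw [← Complex.normSq_eq_conj_mul_self, Complex.normSq_eq_norm_sq]
      rw [← Complex.ofReal_one, ← Complex.ofReal_sub, Complex.norm_real, Real.norm_eq_abs,
        abs_of_pos]
      nlinarith [norm_nonneg w]
    rw [hf.zero, mul_zero, sub_zero, one_pow, div_one]
    rw [norm_mul, norm_div, norm_pow, norm_div, norm_mul, norm_mul, e1, e2]
    set a := ‖s z₀‖ with ha
    set D := ‖deriv f z₀‖ with hD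
    have hDpos : 0 < D := norm_pos_iff.2 hd
    rw [← hs0]
    have h2 : ‖(2 : ℂ)‖ = 2 := by simp
    rw [h2]
    have h1a : 0 < 1 - a ^ 2 := by nlinarith
    have hkey : (1 - a ^ 2) / (1 - a ^ 2) ^ 2 * ((1 - (a ^ 2) ^ 2) * D / (2 * a)) =
        D * ((1 + a ^ 2) / (2 * a)) := by
      field_simp
      ring
    rw [hkey]
    have : 1 < (1 + a ^ 2) / (2 * a) := by
      rw [lt_div_iff₀ (by positivity)]
      nlinarith [sq_pos_of_pos (sub_pos.2 hs1)]
    nlinarith

/-- **Riemann mapping theorem**, for connected open sets with square roots; the extremal map has maximal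
derivative among the competitors. -/
theorem riemann_mapping_sqrt {U : Set ℂ} (hUo : IsOpen U) (hUpre : IsPreconnected U)
    (hsq : ∀ h : ℂ → ℂ, DifferentiableOn ℂ h U → (∀ z ∈ U, h z ≠ 0) →
      ∃ s : ℂ → ℂ, DifferentiableOn ℂ s U ∧ ∀ z ∈ U, s z ^ 2 = h z)
    {z₀ : ℂ} (hz₀ : z₀ ∈ U) {f₀ : ℂ → ℂ} (hf₀ : Fam U z₀ f₀) (hd₀ : deriv f₀ z₀ ≠ 0) :
    ∃ f : ℂ → ℂ, DifferentiableOn ℂ f U ∧ InjOn f U ∧ f '' U = ball 0 1 ∧ f z₀ = 0 := by
  obtain ⟨R, hR, hRU⟩ := Metric.isOpen_iff.1 hUo z₀ hz₀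
  -- the set of derivatives
  set S : Set ℝ := {x | ∃ f, Fam U z₀ f ∧ x = ‖deriv f z₀‖} with hS
  have hSne : S.Nonempty := ⟨_, f₀, hf₀, rfl⟩
  have hbound : ∀ f, Fam U z₀ f → ‖deriv f z₀‖ ≤ 1 / (R / 2) := by
    intro f hf
    have hsub : closedBall z₀ (R / 2) ⊆ U :=
      (closedBall_subset_ball (by linarith)).trans hRU
    apply Complex.norm_deriv_le_of_forall_mem_sphere_norm_le (by positivity : 0 < R / 2)
    · apply DifferentiableOn.diffContOnCl
      rw [closure_ball z₀ (by positivity)]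
      exact hf.diff.mono hsub
    · intro y hy
      have := hf.maps (hsub (sphere_subset_closedBall hy))
      rw [mem_ball_zero_iff] at this
      exact this.le
  have hSbdd : BddAbove S := by
    refine ⟨1 / (R / 2), ?_⟩
    rintro x ⟨f, hf, rfl⟩
    exact hbound f hf
  obtain ⟨u, -, hu_lim, hu_mem⟩ := exists_seq_tendsto_sSup hSne hSbdd
  choose F hF hFu using hu_mem
  -- ultrafilter limit
  set p : Ultrafilter ℕ := Ultrafilter.of atTop with hp
  have hp_le : (p : Filter ℕ) ≤ atTop := Ultrafilter.of_le atTop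
  have hlim_ex : ∀ z, ∃ y, z ∈ U → Tendsto (fun n => F n z) p (𝓝 y) := by
    intro z
    by_cases hz : z ∈ U
    · have hcomp : IsCompact (closedBall (0 : ℂ) 1) := isCompact_closedBall 0 1
      obtain ⟨y, -, hy⟩ := hcomp.ultrafilter_le_nhds (p.map fun n => F n z) (by
        rw [Ultrafilter.coe_map, le_principal_iff, mem_map]
        apply Filter.univ_mem'
        intro n
        exact ball_subset_closedBall ((hF n).maps hz))
      exact ⟨y, fun _ => by rwa [Ultrafilter.coe_map] at hy⟩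
    · exact ⟨0, fun h => absurd h hz⟩
  choose g hg using hlim_ex
  have hloc : TendstoLocallyUniformlyOn F g p U :=
    tendstoLocallyUniformlyOn_of_pointwise hUo (fun n => (hF n).diff)
      (fun n z hz => by
        have := (hF n).maps hz
        rw [mem_ball_zero_iff] at this
        exact this.le) hg
  have hgdiff : DifferentiableOn ℂ g U :=
    hloc.differentiableOn (Eventually.of_forall fun n => (hF n).diff) hUo
  have hderiv_lim : Tendsto (fun n => ‖deriv (F n) z₀‖) p (𝓝 ‖deriv g z₀‖) :=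
    ((hloc.deriv (Eventually.of_forall fun n => (hF n).diff) hUo).tendsto_at hz₀).norm
  have hL : ‖deriv g z₀‖ = sSup S := by
    have h1 : Tendsto (fun n => ‖deriv (F n) z₀‖) p (𝓝 (sSup S)) := by
      have : (fun n => ‖deriv (F n) z₀‖) = u := by
        funext n; exact (hFu n).symm
      rw [this]
      exact hu_lim.mono_left hp_le
    exact tendsto_nhds_unique hderiv_lim h1
  have hLpos : 0 < ‖deriv g z₀‖ := by
    rw [hL]
    exact lt_of_lt_of_le (norm_pos_iff.2 hd₀) (le_csSup hSbdd ⟨f₀, hf₀, rfl⟩)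
  have hgd : deriv g z₀ ≠ 0 := norm_pos_iff.1 hLpos
  have hginj : InjOn g U := injOn_of_tendstoLocallyUniformlyOn hUo hUpre
    (fun n => (hF n).diff) (fun n => (hF n).inj) hloc ⟨z₀, hz₀, hgd⟩
  have hg0 : g z₀ = 0 := by
    have h1 : Tendsto (fun n => F n z₀) p (𝓝 0) := by
      have : (fun n => F n z₀) = fun _ => 0 := by funext n; exact (hF n).zero
      rw [this]; exact tendsto_const_nhds
    exact tendsto_nhds_unique (hg z₀ hz₀) h1
  have hgmaps : MapsTo g U (ball 0 1) := by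
    have hopen : IsOpen (g '' U) := by
      rcases (hgdiff.analyticOnNhd hUo).is_constant_or_isOpen hUpre with ⟨w, hw⟩ | h
      · exfalso
        apply hgd
        have hev : g =ᶠ[𝓝 z₀] fun _ => w := by
          filter_upwards [hUo.mem_nhds hz₀] with y hy
          exact hw y hy
        rw [hev.deriv_eq]; simp
      · exact h U subset_rfl hUo
    have hsub : g '' U ⊆ closedBall 0 1 := by
      rintro _ ⟨z, hz, rfl⟩
      rw [mem_closedBall_zero_iff]
      refine le_of_tendsto (hg z hz).norm (Eventually.of_forall fun n => ?_)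
      have := (hF n).maps hz
      rw [mem_ball_zero_iff] at this
      exact this.le
    have hint : g '' U ⊆ interior (closedBall 0 1) := interior_maximal hsub hopen
    rw [interior_closedBall _ one_ne_zero] at hint
    intro z hz
    exact hint ⟨z, hz, rfl⟩
  have hgFam : Fam U z₀ g := ⟨hgdiff, hginj, hgmaps, hg0⟩
  refine ⟨g, hgdiff, hginj, ?_, hg0⟩
  apply Subset.antisymm (image_subset_iff.2 hgmaps)
  intro w hw
  rw [mem_ball_zero_iff] at hw
  by_contra hwg
  obtain ⟨g', hg', hlt⟩ := Fam_improve hUo hsq hz₀ hgFam hgd hw hwg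
  have : ‖deriv g' z₀‖ ≤ sSup S := le_csSup hSbdd ⟨g', hg', rfl⟩
  rw [← hL] at this
  linarith


end Crest.Agent.R165.GeoPx67
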