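import Mathlib
import Crest.Agent.R165.GeoDefs_416
import Crest.Agent.R165.GeoP2_67
import Crest.Agent.R165.GeoP3_67

/-!
R165, GEO-6 (helper67), part 3b: Riemann maps of bounded connected open sets with connected complement.

* `RMap D z₀ φ ψ`: `φ : D → disc`, `ψ : disc → D`, holomorphic, inverse to each other, `φ z₀ = 0`, `φ' z₀ > 0`.
* `exists_rmap`, `CD.exists_rmap`, `CD.isSimplyConnected`, `CD.exists_primitive`, `CD.exists_log`, `CD.exists_sqrt`.
-/

set_option autoImplicit false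

open Filter Metric Set Topology ComplexConjugate

namespace Crest.Agent.R165.GeoPx67

open Crest.Agent.Lib.RiemannMap
open Crest.Agent.R165.Geo (CD)

/-- Riemann map: `φ : D → disc`, `ψ : disc → D` inverse to each other, holomorphic, `φ z₀ = 0`, `φ'(z₀) > 0`. -/
structure RMap (D : Set ℂ) (z₀ : ℂ) (φ ψ : ℂ → ℂ) : Prop where
  mem : z₀ ∈ D
  isOpen : IsOpen D
  diff : DifferentiableOn ℂ φ D
  diff' : DifferentiableOn ℂ ψ (ball 0 1)
  maps : MapsTo φ D (ball 0 1)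
  maps' : MapsTo ψ (ball 0 1) D
  left : ∀ z ∈ D, ψ (φ z) = z
  right : ∀ w ∈ ball (0:ℂ) 1, φ (ψ w) = w
  zero : φ z₀ = 0
  pos : 0 < (deriv φ z₀).re
  im_zero : (deriv φ z₀).im = 0

namespace RMap

variable {D : Set ℂ} {z₀ : ℂ} {φ ψ : ℂ → ℂ}

theorem zero' (h : RMap D z₀ φ ψ) : ψ 0 = z₀ := by
  rw [← h.zero, h.left z₀ h.mem]

theorem injOn (h : RMap D z₀ φ ψ) : InjOn φ D := by
  intro a ha b hb hab
  rw [← h.left a ha, ← h.left b hb, hab]

theorem injOn' (h : RMap D z₀ φ ψ) : InjOn ψ (ball 0 1) := by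
  intro a ha b hb hab
  rw [← h.right a ha, ← h.right b hb, hab]

theorem image (h : RMap D z₀ φ ψ) : φ '' D = ball 0 1 := by
  apply Subset.antisymm (image_subset_iff.2 h.maps)
  intro w hw
  exact ⟨ψ w, h.maps' hw, h.right w hw⟩

theorem image' (h : RMap D z₀ φ ψ) : ψ '' (ball 0 1) = D := by
  apply Subset.antisymm (image_subset_iff.2 h.maps')
  intro z hz
  exact ⟨φ z, h.maps hz, h.left z hz⟩

theorem bijOn (h : RMap D z₀ φ ψ) : BijOn φ D (ball 0 1) :=
  ⟨h.maps, h.injOn, by rw [SurjOn, h.image]⟩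

theorem bijOn' (h : RMap D z₀ φ ψ) : BijOn ψ (ball 0 1) D :=
  ⟨h.maps', h.injOn', by rw [SurjOn, h.image']⟩

theorem hasDerivAt (h : RMap D z₀ φ ψ) {z : ℂ} (hz : z ∈ D) : HasDerivAt φ (deriv φ z) z :=
  (h.diff.differentiableAt (h.isOpen.mem_nhds hz)).hasDerivAt

theorem hasDerivAt' (h : RMap D z₀ φ ψ) {w : ℂ} (hw : w ∈ ball (0:ℂ) 1) :
    HasDerivAt ψ (deriv ψ w) w :=
  (h.diff'.differentiableAt (isOpen_ball.mem_nhds hw)).hasDerivAt

theorem deriv_mul (h : RMap D z₀ φ ψ) {z : ℂ} (hz : z ∈ D) :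
    deriv ψ (φ z) * deriv φ z = 1 := by
  have h1 := (h.hasDerivAt' (h.maps hz)).comp z (h.hasDerivAt hz)
  have hev : (ψ ∘ φ) =ᶠ[𝓝 z] id := by
    filter_upwards [h.isOpen.mem_nhds hz] with y hy
    exact h.left y hy
  exact (h1.congr_of_eventuallyEq hev.symm).unique (hasDerivAt_id z)

theorem deriv_mul' (h : RMap D z₀ φ ψ) {w : ℂ} (hw : w ∈ ball (0:ℂ) 1) :
    deriv φ (ψ w) * deriv ψ w = 1 := by
  have := h.deriv_mul (h.maps' hw)
  rw [h.right w hw] at this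
  rw [mul_comm]; exact this

theorem deriv_ne (h : RMap D z₀ φ ψ) {z : ℂ} (hz : z ∈ D) : deriv φ z ≠ 0 :=
  right_ne_zero_of_mul_eq_one (h.deriv_mul hz)

theorem deriv_ne' (h : RMap D z₀ φ ψ) {w : ℂ} (hw : w ∈ ball (0:ℂ) 1) : deriv ψ w ≠ 0 :=
  right_ne_zero_of_mul_eq_one (h.deriv_mul' hw)

theorem continuousOn (h : RMap D z₀ φ ψ) : ContinuousOn φ D := h.diff.continuousOn

theorem continuousOn' (h : RMap D z₀ φ ψ) : ContinuousOn ψ (ball 0 1) := h.diff'.continuousOn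

/-- the homeomorphism `D ≃ disc` -/
noncomputable def homeo (h : RMap D z₀ φ ψ) : D ≃ₜ ball (0:ℂ) 1 where
  toFun z := ⟨φ z, h.maps z.2⟩
  invFun w := ⟨ψ w, h.maps' w.2⟩
  left_inv z := Subtype.ext (h.left z z.2)
  right_inv w := Subtype.ext (h.right w w.2)
  continuous_toFun := by
    refine Continuous.subtype_mk ?_ _
    exact continuousOn_iff_continuous_domRestrict.1 h.continuousOn
  continuous_invFun := by
    refine Continuous.subtype_mk ?_ _
    exact continuousOn_iff_continuous_domRestrict.1 h.continuousOn'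

theorem isSimplyConnected (h : RMap D z₀ φ ψ) : IsSimplyConnected D := by
  have : ContractibleSpace (ball (0:ℂ) 1) :=
    (convex_ball (0:ℂ) 1).contractibleSpace ⟨0, mem_ball_self one_pos⟩
  exact h.homeo.toHomotopyEquiv.simplyConnectedSpace

end RMap

theorem exists_rmap {D : Set ℂ} (hD : IsOpen D) (hc : IsPreconnected D)
    (hDc : IsPreconnected Dᶜ) (hb : Bornology.IsBounded D) {z₀ : ℂ} (hz₀ : z₀ ∈ D) :
    ∃ φ ψ, RMap D z₀ φ ψ := by
  obtain ⟨R, hR⟩ := hb.subset_ball z₀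
  have hR0 : 0 < R := by
    have := hR hz₀
    rw [mem_ball, dist_self] at this
    exact this
  have hRc : (R:ℂ) ≠ 0 := by exact_mod_cast hR0.ne'
  have hd0 : ∀ z, HasDerivAt (fun z : ℂ => (z - z₀) / R) (1 / R) z := fun z =>
    ((hasDerivAt_id z).sub_const z₀).div_const (R:ℂ)
  have hfam : Fam D z₀ (fun z => (z - z₀) / R) := by
    refine ⟨fun z _ => (hd0 z).differentiableAt.differentiableWithinAt, ?_, ?_, by simp⟩
    · intro a _ b _ hab
      have h1 : (a - z₀) / R = (b - z₀) / R := hab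
      rw [div_left_inj' hRc] at h1
      exact sub_left_injective h1
    · intro z hz
      have := hR hz
      rw [mem_ball, dist_eq_norm] at this
      rw [mem_ball_zero_iff, norm_div, Complex.norm_real, Real.norm_eq_abs, abs_of_pos hR0,
        div_lt_one hR0]
      exact this
  obtain ⟨f, hfd, hfi, hfim, hf0⟩ := riemann_mapping_sqrt hD hc
    (fun h hh h0 => exists_sqrt hD hc hDc hb hh h0) hz₀ hfam
    (by rw [(hd0 z₀).deriv]; exact one_div_ne_zero hRc)
  have hfn : deriv f z₀ ≠ 0 := Crest.Agent.Lib.deriv_ne_zero_of_injOn hD hfd hfi hz₀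
  -- rotation
  set c : ℂ := deriv f z₀ with hcdef
  have hcn : 0 < ‖c‖ := norm_pos_iff.2 hfn
  have hcnc : (‖c‖ : ℂ) ≠ 0 := by exact_mod_cast hcn.ne'
  set u : ℂ := conj c / ‖c‖ with hu
  have hun : ‖u‖ = 1 := by
    rw [hu, norm_div, Complex.norm_conj, Complex.norm_real, norm_norm, div_self hcn.ne']
  have hu0 : u ≠ 0 := by
    rw [← norm_pos_iff, hun]; exact one_pos
  have huc : u * c = (‖c‖ : ℂ) := by
    rw [hu, div_mul_eq_mul_div, ← Complex.normSq_eq_conj_mul_self, Complex.normSq_eq_norm_sq]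
    push_cast
    field_simp
  set φ : ℂ → ℂ := fun z => u * f z with hφ
  have hφd : DifferentiableOn ℂ φ D := hfd.const_mul u
  have hφi : InjOn φ D := by
    intro a ha b hb hab
    exact hfi ha hb (mul_left_cancel₀ hu0 hab)
  have hφim : φ '' D = ball 0 1 := by
    apply Subset.antisymm
    · rintro _ ⟨z, hz, rfl⟩
      have : f z ∈ ball (0:ℂ) 1 := by rw [← hfim]; exact ⟨z, hz, rfl⟩
      rw [mem_ball_zero_iff] at this ⊢
      simp only [hφ]
      rw [norm_mul, hun, one_mul]; exact this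
    · intro w hw
      have : u⁻¹ * w ∈ ball (0:ℂ) 1 := by
        rw [mem_ball_zero_iff] at hw ⊢
        rw [norm_mul, norm_inv, hun, inv_one, one_mul]; exact hw
      rw [← hfim] at this
      obtain ⟨z, hz, hzw⟩ := this
      refine ⟨z, hz, ?_⟩
      simp only [hφ]
      rw [hzw, mul_inv_cancel_left₀ hu0]
  obtain ⟨ψ, hψd, -, hψim, hl, hr⟩ :=
    Crest.Agent.Lib.exists_holomorphic_inverse hD hφd hφi
  rw [hφim] at hψd hψim hr
  have hder : deriv φ z₀ = (‖c‖ : ℂ) := by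
    have : HasDerivAt φ (u * deriv f z₀) z₀ :=
      ((hfd.differentiableAt (hD.mem_nhds hz₀)).hasDerivAt).const_mul u
    rw [this.deriv, ← hcdef, huc]
  refine ⟨φ, ψ, ⟨hz₀, hD, hφd, hψd, ?_, ?_, hl, hr, ?_, ?_, ?_⟩⟩
  · intro z hz; rw [← hφim]; exact ⟨z, hz, rfl⟩
  · intro w hw; rw [← hψim]; exact ⟨w, hw, rfl⟩
  · simp [hφ, hf0]
  · rw [hder, Complex.ofReal_re]; exact hcn
  · rw [hder, Complex.ofReal_im]

variable {D : Set ℂ} {r M : ℝ}

theorem CD.exists_rmap (h : CD D r M) {z₀ : ℂ} (hz₀ : z₀ ∈ D) : ∃ φ ψ, RMap D z₀ φ ψ :=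
  GeoPx67.exists_rmap h.isOpen h.conn.isPreconnected h.conn_compl.isPreconnected h.bdd hz₀

theorem CD.isSimplyConnected (h : CD D r M) : IsSimplyConnected D := by
  obtain ⟨z₀, hz₀⟩ := h.conn.nonempty
  obtain ⟨φ, ψ, hr⟩ := CD.exists_rmap h hz₀
  exact hr.isSimplyConnected

theorem CD.exists_primitive (h : CD D r M) {g : ℂ → ℂ} (hg : DifferentiableOn ℂ g D) :
    ∃ F : ℂ → ℂ, ∀ z ∈ D, HasDerivAt F (g z) z :=
  GeoPx67.exists_primitive h.isOpen h.conn.isPreconnected h.conn_compl.isPreconnected h.bdd hg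

theorem CD.exists_log (h : CD D r M) {f : ℂ → ℂ} (hf : DifferentiableOn ℂ f D)
    (h0 : ∀ z ∈ D, f z ≠ 0) :
    ∃ l : ℂ → ℂ, DifferentiableOn ℂ l D ∧ ∀ z ∈ D, Complex.exp (l z) = f z :=
  GeoPx67.exists_log h.isOpen h.conn.isPreconnected h.conn_compl.isPreconnected h.bdd hf h0

theorem CD.exists_sqrt (h : CD D r M) {f : ℂ → ℂ} (hf : DifferentiableOn ℂ f D)
    (h0 : ∀ z ∈ D, f z ≠ 0) :
    ∃ s : ℂ → ℂ, DifferentiableOn ℂ s D ∧ ∀ z ∈ D, s z ^ 2 = f z :=
  GeoPx67.exists_sqrt h.isOpen h.conn.isPreconnected h.conn_compl.isPreconnected h.bdd hf h0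

theorem CD.exists_JL (h : CD D r M) {a b : ℂ} (ha : a ∈ D) (hb : b ∈ D) : ∃ ℓ, JL D a b ℓ :=
  GeoPx67.exists_JL h.isOpen h.conn.isPreconnected ha hb

end Crest.Agent.R165.GeoPx67

/-! aliases in the namespace `Geo` -/

namespace Crest.Agent.R165.Geo

/-- the Riemann map, alias -/
abbrev RMap (D : Set ℂ) (z₀ : ℂ) (φ ψ : ℂ → ℂ) : Prop := GeoPx67.RMap D z₀ φ ψ

alias CD.exists_rmap := GeoPx67.CD.exists_rmap
alias CD.isSimplyConnected := GeoPx67.CD.isSimplyConnected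
alias CD.exists_primitive := GeoPx67.CD.exists_primitive
alias CD.exists_log := GeoPx67.CD.exists_log
alias CD.exists_sqrt := GeoPx67.CD.exists_sqrt

end Crest.Agent.R165.Geo
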