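import Mathlib
import Crest.Agent.R165.GeoDefs_416
import Crest.Agent.R165.GeoD_65
import Crest.Agent.R165.GeoP2_67

/-!
R165, GEO-6 (helper67), part 4: quasiconvexity of a domain with uniform charts.

* `CD.JL_local`: points of `D` at distance `≤ r/6` are joined by a polygon of length `≤ 6 |w - z|` which stays at
  distance `≥ δ/2` from the frontier if both ends are at distance `≥ δ` (`δ ≤ r`).
* `CD.quasiconvex_strong`, `CD.quasiconvex`: all pairs of points of `D`, length `≤ C |w - z|`.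
* `CD.lipC`, `CD.lip`: bounded derivative implies Lipschitz on `D`.
-/

set_option autoImplicit false

open Set Filter Topology Metric Complex

namespace Crest.Agent.R165.GeoPx67

open Crest.Agent.R165.GeoDx65
open Crest.Agent.R165.Geo (CD Chart)

variable {D : Set ℂ} {r M : ℝ}

/-- the points of `D` at distance `≥ δ` from the frontier -/
def inner (D : Set ℂ) (δ : ℝ) : Set ℂ := {x | x ∈ D ∧ δ ≤ infDist x (frontier D)}

theorem inner_subset (D : Set ℂ) (δ : ℝ) : inner D δ ⊆ D := fun _ h => h.1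

theorem inner_anti (D : Set ℂ) {δ δ' : ℝ} (h : δ' ≤ δ) : inner D δ ⊆ inner D δ' :=
  fun _ hx => ⟨hx.1, h.trans hx.2⟩

theorem CD.infDist_pos (h : CD D r M) {z : ℂ} (hz : z ∈ D) : 0 < infDist z (frontier D) := by
  refine (isClosed_frontier.notMem_iff_infDist_pos (CD.frontier_nonempty h)).1 ?_
  exact fun hf => Set.disjoint_left.1 (frontier_disj h) hz hf

/-- the point with coordinates `(s, t)` in the frame `(p, k)` -/
def Pt (p : ℂ) (k : ℕ) (s t : ℝ) : ℂ := p + I ^ k * ((s:ℂ) + (t:ℂ) * I)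

theorem Pt_comb (p : ℂ) (k : ℕ) (s t s' t' a b : ℝ) (hab : a + b = 1) :
    a • Pt p k s t + b • Pt p k s' t' = Pt p k (a * s + b * s') (a * t + b * t') := by
  unfold Pt
  have : (a:ℂ) + b = 1 := by exact_mod_cast hab
  simp only [Complex.real_smul]
  push_cast
  linear_combination p * this

theorem Pt_norm (p : ℂ) (k : ℕ) (s t s' t' : ℝ) :
    ‖Pt p k s t - Pt p k s' t'‖ ^ 2 = (s - s') ^ 2 + (t - t') ^ 2 := norm_coord p k s t s' t'

theorem Pt_norm_vert (p : ℂ) (k : ℕ) (s t t' : ℝ) : ‖Pt p k s t - Pt p k s t'‖ = |t - t'| := by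
  have h := Pt_norm p k s t s t'
  rw [sub_self, zero_pow two_ne_zero, zero_add, ← sq_abs (t - t')] at h
  exact (pow_left_inj₀ (norm_nonneg _) (abs_nonneg _) two_ne_zero).1 h

theorem Pt_norm_horiz (p : ℂ) (k : ℕ) (s s' t : ℝ) : ‖Pt p k s t - Pt p k s' t‖ = |s - s'| := by
  have h := Pt_norm p k s t s' t
  rw [sub_self, zero_pow two_ne_zero, add_zero, ← sq_abs (s - s')] at h
  exact (pow_left_inj₀ (norm_nonneg _) (abs_nonneg _) two_ne_zero).1 h

theorem CD.JL_local (h : CD D r M) {z w : ℂ} (hz : z ∈ D) (hw : w ∈ D) (hzw : ‖w - z‖ ≤ r / 6)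
    {δ : ℝ} (hδz : δ ≤ infDist z (frontier D)) (hδw : δ ≤ infDist w (frontier D)) (hδr : δ ≤ r) :
    JL (inner D (δ/2)) z w (6 * ‖w - z‖) := by
  have hr := h.r_pos
  have hzpos := CD.infDist_pos h hz
  have hwpos := CD.infDist_pos h hw
  set N := ‖w - z‖ with hN
  have hN0 : 0 ≤ N := norm_nonneg _
  by_cases hcase : 2 * N ≤ infDist z (frontier D)
  · -- straight segment
    have hseg : segment ℝ z w ⊆ inner D (δ/2) := by
      rintro x ⟨a, b, ha, hb, hab, rfl⟩
      have hx : dist (a • z + b • w) z ≤ N := by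
        rw [Complex.dist_eq]
        have : a • z + b • w - z = b • (w - z) := by
          have : a = 1 - b := by linarith
          rw [this, sub_smul, one_smul, smul_sub]
          ring
        rw [this, norm_smul, Real.norm_of_nonneg hb]
        have : b ≤ 1 := by linarith
        calc b * ‖w - z‖ ≤ 1 * ‖w - z‖ := mul_le_mul_of_nonneg_right this (norm_nonneg _)
          _ = N := by rw [one_mul]
      refine ⟨ball_infDist_subset D hz ?_, ?_⟩
      · rw [mem_ball]; linarith
      · have h1 := infDist_le_infDist_add_dist (s := frontier D) (x := z) (y := a • z + b • w)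
        rw [dist_comm] at h1
        linarith
    exact (JL.seg hseg).le (by rw [← hN]; linarith)
  · push Not at hcase
    obtain ⟨p, hp, hpd⟩ := CD.exists_nearest h z
    obtain ⟨k, g, g', hc⟩ := h.chart p hp
    obtain ⟨s1, t1, hz', -, hs1, ht1⟩ := exists_coord p k z
    obtain ⟨s2, t2, hw', -, hs2, ht2⟩ := exists_coord p k w
    change z = Pt p k s1 t1 at hz'
    change w = Pt p k s2 t2 at hw'
    have hzp : ‖z - p‖ ≤ 2 * N := by
      rw [← Complex.dist_eq, hpd]; exact hcase.le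
    have hwp : ‖w - p‖ ≤ 3 * N := by
      calc ‖w - p‖ = ‖(w - z) + (z - p)‖ := by congr 1; ring
        _ ≤ ‖w - z‖ + ‖z - p‖ := norm_add_le _ _
        _ ≤ 3 * N := by rw [← hN]; linarith
    have hd := Pt_norm p k s2 t2 s1 t1
    rw [← hz', ← hw', ← hN] at hd
    have hs12 : |s1 - s2| ≤ N := by
      rw [abs_sub_comm]
      exact abs_le_of_sq_le_sq (by rw [hd]; nlinarith [sq_nonneg (t2 - t1)]) hN0
    have ht12 : |t1 - t2| ≤ N := by
      rw [abs_sub_comm]
      exact abs_le_of_sq_le_sq (by rw [hd]; nlinarith [sq_nonneg (s2 - s1)]) hN0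
    have hs1' := abs_le.1 (hs1.trans hzp)
    have ht1' := abs_le.1 (ht1.trans hzp)
    have hs2' := abs_le.1 (hs2.trans hwp)
    have ht2' := abs_le.1 (ht2.trans hwp)
    have hs12' := abs_le.1 hs12
    have ht12' := abs_le.1 ht12
    -- heights
    have hg1 : g s1 < t1 := by
      rw [← hc.mem s1 t1 (abs_le.2 ⟨by linarith, by linarith⟩) (abs_le.2 ⟨by linarith, by linarith⟩)]
      change Pt p k s1 t1 ∈ D
      rw [← hz']; exact hz
    have hg2 : g s2 < t2 := by
      rw [← hc.mem s2 t2 (abs_le.2 ⟨by linarith, by linarith⟩) (abs_le.2 ⟨by linarith, by linarith⟩)]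
      change Pt p k s2 t2 ∈ D
      rw [← hw']; exact hw
    have hδ1 : δ ≤ t1 - g s1 := by
      have h1 := Chart.infDist_le hc (s := s1) (t := t1) (abs_le.2 ⟨by linarith, by linarith⟩)
      rw [abs_of_pos (by linarith)] at h1
      change infDist (Pt p k s1 t1) _ ≤ _ at h1
      rw [← hz'] at h1
      linarith
    have hδ2 : δ ≤ t2 - g s2 := by
      have h1 := Chart.infDist_le hc (s := s2) (t := t2) (abs_le.2 ⟨by linarith, by linarith⟩)
      rw [abs_of_pos (by linarith)] at h1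
      change infDist (Pt p k s2 t2) _ ≤ _ at h1
      rw [← hw'] at h1
      linarith
    -- membership of the path
    have hmem : ∀ s t : ℝ, |s| ≤ r / 2 → |t| ≤ 5 / 2 * r → 0 < t - g s → δ ≤ t - g s →
        Pt p k s t ∈ inner D (δ/2) := by
      intro s t hs ht hpos hδ
      refine ⟨(hc.mem s t (hs.trans (by linarith)) (ht.trans (by linarith))).2 (by linarith), ?_⟩
      have h1 := Chart.le_infDist hc (CD.frontier_nonempty h) hs ht
      refine le_trans (le_min ?_ ?_) h1
      · rw [abs_of_pos hpos]; linarith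
      · linarith
    set T := max t1 t2 + 3 / 2 * |s1 - s2| with hT
    have hsabs : 0 ≤ |s1 - s2| := abs_nonneg _
    have hT1 : t1 ≤ T := by
      have := le_max_left t1 t2
      linarith
    have hT2 : t2 ≤ T := by
      have := le_max_right t1 t2
      linarith
    have hTu : T ≤ 9 / 2 * N := by
      have : max t1 t2 ≤ 3 * N := max_le (by linarith) (by linarith)
      linarith
    have hTt1 : T - t1 ≤ 5 / 2 * N := by
      have : max t1 t2 ≤ t1 + N := max_le (by linarith) (by linarith)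
      linarith
    have hTt2 : T - t2 ≤ 5 / 2 * N := by
      have : max t1 t2 ≤ t2 + N := max_le (by linarith) (by linarith)
      linarith
    have hv : ∀ s0 t0 : ℝ, |s0| ≤ 3 * N → |t0| ≤ 3 * N → t0 ≤ T → 0 < t0 - g s0 →
        δ ≤ t0 - g s0 → segment ℝ (Pt p k s0 t0) (Pt p k s0 T) ⊆ inner D (δ/2) := by
      rintro s0 t0 hs0 ht0 htT hpos hδ0 x ⟨a, b, ha, hb, hab, rfl⟩
      rw [Pt_comb _ _ _ _ _ _ _ _ hab]
      have e1 : a * s0 + b * s0 = s0 := by rw [← add_mul, hab, one_mul]
      have e2 : t0 ≤ a * t0 + b * T := by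
        have e3 : a * t0 + b * T = t0 + b * (T - t0) := by
          have : a = 1 - b := by linarith
          rw [this]; ring
        rw [e3]
        have := mul_nonneg hb (sub_nonneg.2 htT)
        linarith
      have e4 : a * t0 + b * T ≤ T := by
        have e3 : a * t0 + b * T = T - a * (T - t0) := by
          have : b = 1 - a := by linarith
          rw [this]; ring
        rw [e3]
        have := mul_nonneg ha (sub_nonneg.2 htT)
        linarith
      rw [e1]
      have ht0' := abs_le.1 ht0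
      exact hmem _ _ (hs0.trans (by linarith)) (abs_le.2 ⟨by linarith, by linarith⟩)
        (by linarith) (by linarith)
    have hs1a : |s1| ≤ 3 * N := abs_le.2 ⟨by linarith, by linarith⟩
    have hs2a : |s2| ≤ 3 * N := abs_le.2 ⟨by linarith, by linarith⟩
    have ht1a : |t1| ≤ 3 * N := abs_le.2 ⟨by linarith, by linarith⟩
    have ht2a : |t2| ≤ 3 * N := abs_le.2 ⟨by linarith, by linarith⟩
    have hseg1 := hv s1 t1 hs1a ht1a hT1 (by linarith) hδ1
    have hseg3 := hv s2 t2 hs2a ht2a hT2 (by linarith) hδ2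
    have hseg2 : segment ℝ (Pt p k s1 T) (Pt p k s2 T) ⊆ inner D (δ/2) := by
      rintro x ⟨a, b, ha, hb, hab, rfl⟩
      rw [Pt_comb _ _ _ _ _ _ _ _ hab]
      have e1 : a * T + b * T = T := by rw [← add_mul, hab, one_mul]
      rw [e1]
      set s := a * s1 + b * s2 with hs
      have hss1 : |s - s1| ≤ |s1 - s2| := by
        have : s - s1 = b * (s2 - s1) := by
          have : a = 1 - b := by linarith
          rw [hs, this]; ring
        rw [this, abs_mul, abs_of_nonneg hb, abs_sub_comm s2 s1]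
        exact mul_le_of_le_one_left (abs_nonneg _) (by linarith)
      have hgs := Chart.lipg hc s s1
      have hgs' := abs_le.1 hgs
      have h3 : t1 - g s1 ≤ T - g s := by
        have := le_max_left t1 t2
        linarith [hgs'.2]
      have hsr : |s| ≤ r / 2 := by
        have h4 : |s| ≤ a * |s1| + b * |s2| := by
          rw [hs]
          refine (abs_add_le _ _).trans ?_
          rw [abs_mul, abs_mul, abs_of_nonneg ha, abs_of_nonneg hb]
        have h5 : a * |s1| + b * |s2| ≤ a * (3 * N) + b * (3 * N) := by gcongr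
        have h6 : a * (3 * N) + b * (3 * N) = 3 * N := by rw [← add_mul, hab, one_mul]
        linarith
      exact hmem _ _ hsr (abs_le.2 ⟨by linarith, by linarith⟩) (by linarith) (by linarith)
    have hj := ((JL.seg hseg1).trans (JL.seg hseg2)).trans (JL.seg hseg3).symm
    rw [← hz', ← hw'] at hj
    refine hj.le ?_
    have f1 : |T - t1| = T - t1 := abs_of_nonneg (sub_nonneg.2 hT1)
    have f2 : |T - t2| = T - t2 := abs_of_nonneg (sub_nonneg.2 hT2)
    rw [hz', hw', Pt_norm_vert, Pt_norm_vert, Pt_norm_horiz, abs_sub_comm s2 s1, f1, f2]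
    linarith

/-- a polygon in `D` stays at positive distance from the frontier -/
theorem CD.JL_inner (h : CD D r M) {z w : ℂ} {ℓ : ℝ} (hj : JL D z w ℓ) :
    ∃ δ > 0, ∀ δ' ≤ δ, JL (inner D δ') z w ℓ := by
  obtain ⟨n, p, hp, hl⟩ := hj
  have key : ∀ m ≤ n, ∃ δ > 0, ∀ i < m, segment ℝ (p i) (p (i+1)) ⊆ inner D δ := by
    intro m
    induction m with
    | zero => intro _; exact ⟨1, one_pos, fun i hi => absurd hi (Nat.not_lt_zero i)⟩
    | succ m ih =>
      intro hm
      obtain ⟨δ, hδ, hi⟩ := ih (by omega)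
      have hcomp := isCompact_segment (p m) (p (m+1))
      have hne : (segment ℝ (p m) (p (m+1))).Nonempty := ⟨_, left_mem_segment ℝ _ _⟩
      obtain ⟨x, hx, hmin⟩ := hcomp.exists_isMinOn hne
        (continuous_infDist_pt (frontier D)).continuousOn
      have hxpos : 0 < infDist x (frontier D) := CD.infDist_pos h (hp.sub m (by omega) hx)
      refine ⟨min δ (infDist x (frontier D)), lt_min hδ hxpos, fun i hi' => ?_⟩
      rcases Nat.lt_succ_iff_lt_or_eq.1 hi' with h' | h'
      · exact (hi i h').trans (inner_anti D (min_le_left _ _))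
      · subst h'
        intro y hy
        exact ⟨hp.sub i (by omega) hy, (min_le_right _ _).trans (hmin hy)⟩
  obtain ⟨δ, hδ, hi⟩ := key n le_rfl
  exact ⟨δ, hδ, fun δ' hδ' => ⟨n, p, ⟨hp.start, hp.fin, fun i hi' =>
    (hi i hi').trans (inner_anti D hδ')⟩, hl⟩⟩

/-- **Quasiconvexity, strong form.** -/
theorem CD.quasiconvex_strong (h : CD D r M) : ∃ C c : ℝ, 0 < C ∧ 0 < c ∧ c ≤ r ∧
    ∀ z ∈ D, ∀ w ∈ D, ∀ δ ≤ c, δ ≤ infDist z (frontier D) → δ ≤ infDist w (frontier D) →
      JL (inner D (δ/2)) z w (C * ‖w - z‖) := by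
  have hr := h.r_pos
  have hcl : IsCompact (closure D) := h.bdd.isCompact_closure
  obtain ⟨t, htD, htf, hcov⟩ := exists_finite_cover_balls_of_isCompact_closure hcl
    (show 0 < r / 6 by positivity)
  -- joins between net points
  have hex : ∀ q : ℂ × ℂ, ∃ ℓδ : ℝ × ℝ, 0 < ℓδ.2 ∧ 0 ≤ ℓδ.1 ∧
      (q.1 ∈ t → q.2 ∈ t → ∀ δ' ≤ ℓδ.2, JL (inner D δ') q.1 q.2 ℓδ.1) := by
    intro q
    by_cases hq : q.1 ∈ t ∧ q.2 ∈ t
    · obtain ⟨ℓ, hℓ⟩ := GeoPx67.exists_JL h.isOpen h.conn.isPreconnected (htD hq.1) (htD hq.2)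
      obtain ⟨δ, hδ, hj⟩ := CD.JL_inner h hℓ
      exact ⟨(ℓ, δ), hδ, hℓ.nonneg, fun _ _ => hj⟩
    · exact ⟨(0, 1), one_pos, le_rfl, fun h1 h2 => absurd ⟨h1, h2⟩ hq⟩
  choose P hP1 hP2 hP3 using hex
  set T : Finset (ℂ × ℂ) := (htf.toFinset ×ˢ htf.toFinset) with hT
  set Λ : ℝ := ∑ q ∈ T, (P q).1 with hΛ
  have hΛ0 : 0 ≤ Λ := Finset.sum_nonneg (fun q _ => hP2 q)
  have hΛle : ∀ x ∈ t, ∀ y ∈ t, (P (x, y)).1 ≤ Λ := by
    intro x hx y hy
    exact Finset.single_le_sum (f := fun q => (P q).1) (fun q _ => hP2 q)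
      (by simp [hT, hx, hy])
  -- a positive lower bound of the distances
  have hlow : ∀ (S : Finset (ℂ × ℂ)), ∃ c > 0, ∀ q ∈ S, c ≤ (P q).2 := by
    intro S
    classical
    induction S using Finset.induction_on with
    | empty => exact ⟨1, one_pos, by simp⟩
    | insert a s _ ih =>
      obtain ⟨c, hc, hcs⟩ := ih
      refine ⟨min c (P a).2, lt_min hc (hP1 a), fun q hq => ?_⟩
      rcases Finset.mem_insert.1 hq with rfl | hq
      · exact min_le_right _ _
      · exact (min_le_left _ _).trans (hcs q hq)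
  obtain ⟨c1, hc1, hc1'⟩ := hlow T
  have hlow2 : ∃ c > 0, ∀ x ∈ t, c ≤ infDist x (frontier D) := by
    have hgen : ∀ S : Finset ℂ, (∀ x ∈ S, x ∈ D) → ∃ c > 0, ∀ x ∈ S, c ≤ infDist x (frontier D) := by
      intro S
      classical
      induction S using Finset.induction_on with
      | empty => intro _; exact ⟨1, one_pos, by simp⟩
      | insert a s _ ih =>
        intro hS
        obtain ⟨c, hc, hcs⟩ := ih (fun x hx => hS x (Finset.mem_insert_of_mem hx))
        refine ⟨min c (infDist a (frontier D)),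
          lt_min hc (CD.infDist_pos h (hS a (Finset.mem_insert_self _ _))), fun q hq => ?_⟩
        rcases Finset.mem_insert.1 hq with rfl | hq
        · exact min_le_right _ _
        · exact (min_le_left _ _).trans (hcs q hq)
    obtain ⟨c, hc, hcs⟩ := hgen htf.toFinset (fun x hx => htD (by simpa using hx))
    exact ⟨c, hc, fun x hx => hcs x (by simpa using hx)⟩
  obtain ⟨c2, hc2, hc2'⟩ := hlow2
  set c := min r (min c1 c2) with hc
  have hcpos : 0 < c := lt_min hr (lt_min hc1 hc2)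
  have hcr : c ≤ r := min_le_left _ _
  have hcc1 : c ≤ c1 := (min_le_right _ _).trans (min_le_left _ _)
  have hcc2 : c ≤ c2 := (min_le_right _ _).trans (min_le_right _ _)
  set C := max 6 ((2 * r + Λ) / (r / 6)) with hC
  refine ⟨C, c, lt_of_lt_of_le (by norm_num) (le_max_left _ _), hcpos, hcr, ?_⟩
  intro z hz w hw δ hδc hδz hδw
  by_cases hzw : ‖w - z‖ ≤ r / 6
  · exact (CD.JL_local h hz hw hzw hδz hδw (hδc.trans hcr)).le
      (mul_le_mul_of_nonneg_right (le_max_left _ _) (norm_nonneg _))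
  · push Not at hzw
    obtain ⟨x, hx, hzx⟩ : ∃ x ∈ t, z ∈ ball x (r/6) := by simpa using hcov hz
    obtain ⟨y, hy, hwy⟩ : ∃ y ∈ t, w ∈ ball y (r/6) := by simpa using hcov hw
    rw [mem_ball, dist_eq_norm] at hzx hwy
    have hzx' : ‖x - z‖ ≤ r / 6 := by rw [norm_sub_rev]; exact hzx.le
    by_cases hδ0 : 0 ≤ δ
    · have j1 := CD.JL_local h hz (htD hx) hzx' hδz (hδc.trans (hcc2.trans (hc2' x hx)))
        (hδc.trans hcr)
      have j3 := CD.JL_local h (htD hy) hw hwy.le (hδc.trans (hcc2.trans (hc2' y hy))) hδw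
        (hδc.trans hcr)
      have j2 := hP3 (x, y) hx hy (δ/2) (by
        have : c1 ≤ (P (x, y)).2 := hc1' (x, y) (by simp [hT, hx, hy])
        linarith)
      refine ((j1.trans j2).trans j3).le ?_
      have hΛ' := hΛle x hx y hy
      have e1 : 6 * ‖x - z‖ + (P (x, y)).1 + 6 * ‖w - y‖ ≤ 2 * r + Λ := by linarith
      have e2 : 2 * r + Λ ≤ C * ‖w - z‖ := by
        have e3 : (2 * r + Λ) / (r / 6) ≤ C := le_max_right _ _
        have e4 : 2 * r + Λ = (2 * r + Λ) / (r / 6) * (r / 6) := by field_simp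
        rw [e4]
        exact mul_le_mul e3 hzw.le (by positivity) (le_trans (by positivity) e3)
      linarith
    · push Not at hδ0
      have j1 := CD.JL_local h hz (htD hx) hzx' (δ := δ) hδz (hδc.trans (hcc2.trans (hc2' x hx)))
        (hδc.trans hcr)
      have j3 := CD.JL_local h (htD hy) hw hwy.le (δ := δ) (hδc.trans (hcc2.trans (hc2' y hy))) hδw
        (hδc.trans hcr)
      have j2 := hP3 (x, y) hx hy (δ/2) (by
        have := hP1 (x, y)
        linarith)
      refine ((j1.trans j2).trans j3).le ?_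
      have hΛ' := hΛle x hx y hy
      have e1 : 6 * ‖x - z‖ + (P (x, y)).1 + 6 * ‖w - y‖ ≤ 2 * r + Λ := by linarith
      have e2 : 2 * r + Λ ≤ C * ‖w - z‖ := by
        have e3 : (2 * r + Λ) / (r / 6) ≤ C := le_max_right _ _
        have e4 : 2 * r + Λ = (2 * r + Λ) / (r / 6) * (r / 6) := by field_simp
        rw [e4]
        exact mul_le_mul e3 hzw.le (by positivity) (le_trans (by positivity) e3)
      linarith

/-- **Quasiconvexity.** -/
theorem CD.quasiconvex (h : CD D r M) : ∃ C : ℝ, 0 < C ∧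
    ∀ z ∈ D, ∀ w ∈ D, JL D z w (C * ‖w - z‖) := by
  obtain ⟨C, c, hC, hc, -, hj⟩ := CD.quasiconvex_strong h
  refine ⟨C, hC, fun z hz w hw => ?_⟩
  exact (hj z hz w hw 0 hc.le infDist_nonneg infDist_nonneg).mono (inner_subset D _)

/-- Bounded real derivative implies Lipschitz. -/
theorem CD.lip {E : Type*} [NormedAddCommGroup E] [NormedSpace ℝ E] (h : CD D r M) :
    ∃ C : ℝ, 0 < C ∧ ∀ (f : ℂ → E) (f' : ℂ → ℂ →L[ℝ] E) (B : ℝ), 0 ≤ B →
      (∀ z ∈ D, HasFDerivAt f (f' z) z) → (∀ z ∈ D, ‖f' z‖ ≤ B) →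
      ∀ z ∈ D, ∀ w ∈ D, ‖f w - f z‖ ≤ C * B * ‖w - z‖ := by
  obtain ⟨C, hC, hj⟩ := CD.quasiconvex h
  refine ⟨C, hC, fun f f' B hB hf hb z hz w hw => ?_⟩
  have := (hj z hz w hw).lip hf hb hB
  calc ‖f w - f z‖ ≤ B * (C * ‖w - z‖) := this
    _ = C * B * ‖w - z‖ := by ring

/-- Bounded complex derivative implies Lipschitz. -/
theorem CD.lipC (h : CD D r M) :
    ∃ C : ℝ, 0 < C ∧ ∀ (f : ℂ → ℂ) (B : ℝ), 0 ≤ B → DifferentiableOn ℂ f D →
      (∀ z ∈ D, ‖deriv f z‖ ≤ B) → ∀ z ∈ D, ∀ w ∈ D, ‖f w - f z‖ ≤ C * B * ‖w - z‖ := by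
  obtain ⟨C, hC, hj⟩ := CD.quasiconvex h
  refine ⟨C, hC, fun f B hB hf hb z hz w hw => ?_⟩
  have := (hj z hz w hw).lipC h.isOpen hf hb hB
  calc ‖f w - f z‖ ≤ B * (C * ‖w - z‖) := this
    _ = C * B * ‖w - z‖ := by ring

end Crest.Agent.R165.GeoPx67

/-! aliases in the namespace `Geo` -/

namespace Crest.Agent.R165.Geo

alias CD.JL_local := GeoPx67.CD.JL_local
alias CD.JL_inner := GeoPx67.CD.JL_inner
alias CD.quasiconvex_strong := GeoPx67.CD.quasiconvex_strong
alias CD.quasiconvex := GeoPx67.CD.quasiconvex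
alias CD.lip := GeoPx67.CD.lip
alias CD.lipC := GeoPx67.CD.lipC

end Crest.Agent.R165.Geo
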