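import Crest.Agent.R165.GeoP4_67
import Crest.Agent.R165.GeoP5_67
import Crest.Agent.R165.GeoRb_416

/-!
R165, GEO-6 (helper67), part 5: bridge to `Geo.RMap` of `GeoRb_416`.
-/

set_option autoImplicit false

open Set Filter Topology Metric Complex

namespace Crest.Agent.R165.GeoPx67

open Crest.Agent.R165.Geo (CD)

variable {D : Set ℂ} {r M : ℝ}

theorem RMap.toGeo {z₀ : ℂ} {φ ψ : ℂ → ℂ} (h : RMap D z₀ φ ψ) : Geo.RMp D ψ φ :=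
  ⟨h.diff', h.diff, h.maps', h.maps, h.right, h.left⟩

/-- Riemann map of a domain with uniform charts, in the form `Geo.RMap`. -/
theorem CD.exists_RMap (h : CD D r M) {z₀ : ℂ} (hz₀ : z₀ ∈ D) :
    ∃ ψ φ : ℂ → ℂ, Geo.RMp D ψ φ ∧ ψ 0 = z₀ ∧ φ z₀ = 0 ∧ 0 < (deriv φ z₀).re ∧
      (deriv φ z₀).im = 0 := by
  obtain ⟨φ, ψ, hr⟩ := CD.exists_rmap h hz₀
  exact ⟨ψ, φ, hr.toGeo, hr.zero', hr.zero, hr.pos, hr.im_zero⟩

/-- `ψ` is Lipschitz on the disc and `φ` is Lipschitz on `D`. -/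
theorem CD.RMap_lip (h : CD D r M) {ψ φ : ℂ → ℂ} (R : Geo.RMp D ψ φ) :
    ∃ C : ℝ, 0 < C ∧ (∀ z ∈ ball (0:ℂ) 1, ∀ w ∈ ball (0:ℂ) 1, ‖ψ w - ψ z‖ ≤ C * ‖w - z‖) ∧
      (∀ z ∈ D, ∀ w ∈ D, ‖φ w - φ z‖ ≤ C * ‖w - z‖) := by
  obtain ⟨C1, hC1, h1⟩ := Geo.RMp.dψ_le h R
  obtain ⟨C2, hC2, h2⟩ := Geo.RMp.dφ_le h R
  obtain ⟨K, hK, h3⟩ := CD.lipC h
  refine ⟨max C1 (K * C2), lt_max_of_lt_left hC1, ?_, ?_⟩
  · intro z hz w hw
    have := (convex_ball (0:ℂ) 1).norm_image_sub_le_of_norm_deriv_le (f := ψ)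
      (fun x hx => R.dψ.differentiableAt (isOpen_ball.mem_nhds hx)) h1 hz hw
    exact this.trans (mul_le_mul_of_nonneg_right (le_max_left _ _) (norm_nonneg _))
  · intro z hz w hw
    have := h3 φ C2 hC2.le R.dφ h2 z hz w hw
    exact this.trans (mul_le_mul_of_nonneg_right (le_max_right _ _) (norm_nonneg _))

end Crest.Agent.R165.GeoPx67
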