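import Crest.Agent.R165.GeoRD_838
import Crest.Agent.R165.RFlat2_65

/-!
# Row 165 (S0250): regularity classes on regular lattice sets (helper838)

Everything for `LatReg T ρ κ`, `κ ρ ≤ 1`: no domain, no mesh; all constants are absolute.

* `flat_lat`: literal `PlusFlat` / `FreeFlat` at every face within `B` of `bdS T`, `r0 ≤ R`,
  `C0 R ≤ ρ`
* `rd_lat`: class `RD` at these faces
* `geo_lat`: `RD` near `bdS T`, `RX` at the insertions, `RB` at every face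
-/

set_option autoImplicit false

noncomputable section

open Crest.ProbabilityR.IsingModel
open Crest.Agent.R165.Geo
open Crest.Agent.R165.Latx683 (BW wDom wX)
open Crest.Agent.R165.GDefx387 (fd fd_comm fd_triangle)
open Crest.Agent.R165.RIfx891 (bx mem_bx_real dotn PlusFlat PlaneOn BranchOn Gauge IsPlusOn GapU EXb
  EXbr)
open Crest.Agent.R165.Bridgex386 (wl sym_wl pf inj_int)
open Crest.Agent.R165.FreeRegx485 (FreeFlat IsFreeOn)
open Crest.Agent.R165.RegGx893 (RB RD RX)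
open Crest.Agent.R165.RegFx485 (CF CP rx_branchOn)
open Crest.Agent.R165.RFlatx65
open Crest.Agent.R165.Flatx838 Crest.Agent.R165.GeoRDx838

namespace Crest.Agent.R165.GeoRLx838

theorem farX_of_fd {y : Flatx838.Face} {R : ℕ} {v : ℤ × ℤ} (h : R + 1 < fd y v) :
    FarX y (R : ℝ) v := by
  rw [lt_fd_iff] at h
  unfold FarX
  rcases h with h | h
  · left
    have h1 : (((R + 1 : ℕ) : ℤ) : ℝ) < ((|y.1 - v.1| : ℤ) : ℝ) := by exact_mod_cast h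
    rw [abs_sub_comm]
    push_cast at h1
    exact h1
  · right
    have h1 : (((R + 1 : ℕ) : ℤ) : ℝ) < ((|y.2 - v.2| : ℤ) : ℝ) := by exact_mod_cast h
    rw [abs_sub_comm]
    push_cast at h1
    exact h1

theorem norm_pos_le_fd (y z : ℤ × ℤ) : ‖pos y - pos z‖ ≤ 2 * (fd y z : ℝ) := by
  have e : pos y - pos z = pos (y - z) := by
    have := pos_add (y - z) z
    rw [sub_add_cancel] at this
    rw [this]; ring
  rw [e]
  refine (norm_le_sn _).trans (le_of_eq ?_)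
  have h1 : (fd y z : ℤ) = sn (y - z) := by
    rw [sn, RFlatx65.fd_int, Prod.fst_sub, Prod.snd_sub, Int.abs_eq_natAbs, Int.abs_eq_natAbs]
    omega
  have h2 : ((sn (y - z) : ℤ) : ℝ) = ((fd y z : ℤ) : ℝ) := by rw [h1]
  rw [h2, Int.cast_natCast]

/-- **flat strips, lattice level**: all constants absolute -/
theorem flat_lat {ε : ℝ} (hε : 0 < ε) (B : ℕ) :
    ∃ r0 C0 : ℕ, 1 ≤ r0 ∧ 1 ≤ C0 ∧ ∀ (T : Set (ℤ × ℤ)) (ρ κ : ℝ), LatReg T ρ κ → κ * ρ ≤ 1 →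
      ∀ (y : Flatx838.Face) (z : ℤ × ℤ), z ∈ bdS T → fd y z ≤ B → ∃ n : ℂ, ‖n‖ = 1 ∧
      ∀ R : ℕ, r0 ≤ R → (C0 : ℝ) * R ≤ ρ → SiteFlat T y R n ε ∧
      ∀ (m : ℕ) (X : Fin m → ℤ × ℤ), (∀ i, R + 1 < fd y (X i)) →
      PlusFlat (wl (wX (wDom T false) X)) (rg X y) y R n ε ∧
      FreeFlat (wl (wX (wDom T true) X)) (rg X y) y R n ε := by
  refine ⟨max (8 * B + 26) ⌈(8 * B + 14) / ε⌉₊, max 3 ⌈32 / ε⌉₊,
    (by omega : 1 ≤ 8 * B + 26).trans (le_max_left _ _),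
    (by norm_num : 1 ≤ 3).trans (le_max_left _ _), ?_⟩
  intro T ρ κ h hκ y z hz hyz
  by_cases hρ : (2 : ℝ) ≤ ρ
  · obtain ⟨u, hzu, hdiff⟩ := hz
    obtain ⟨n, hn, H⟩ := LatReg.siteFlat h hρ hzu hdiff
    refine ⟨n, hn, fun R hR hC => ?_⟩
    have hR1 : (8 * B + 26 : ℝ) ≤ R := by exact_mod_cast (le_max_left _ _).trans hR
    have hR2 : (8 * B + 14 : ℝ) ≤ ε * R := by
      have h1 : ((⌈((8 * B + 14 : ℝ)) / ε⌉₊ : ℕ) : ℝ) ≤ R := by
        exact_mod_cast (le_max_right _ _).trans hR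
      have h2 := (Nat.le_ceil _).trans h1
      rw [div_le_iff₀ hε] at h2
      linarith
    have hR0 : (1 : ℝ) ≤ R := by have : (0:ℝ) ≤ B := Nat.cast_nonneg B; linarith
    have hρ3 : 3 ≤ ρ := by
      have h1 : (3 : ℝ) ≤ ((max 3 ⌈32 / ε⌉₊ : ℕ) : ℝ) := by exact_mod_cast le_max_left _ _
      nlinarith
    have hρε : 32 * (R : ℝ) ≤ ε * ρ := by
      have h1 : ((⌈32 / ε⌉₊ : ℕ) : ℝ) ≤ ((max 3 ⌈32 / ε⌉₊ : ℕ) : ℝ) := by
        exact_mod_cast le_max_right _ _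
      have h2 : 32 / ε * R ≤ ρ :=
        (mul_le_mul_of_nonneg_right ((Nat.le_ceil _).trans h1) (by linarith)).trans hC
      rw [div_mul_eq_mul_div, div_le_iff₀ hε] at h2
      linarith
    have hκ0 : 0 ≤ κ := by
      obtain ⟨k, G, G', hG⟩ := h z
      exact hG.kappa_nonneg
    have hF : SiteFlat T y R n ε := by
      have hyz' : (fd y z : ℝ) ≤ B := by exact_mod_cast hyz
      refine H (ρ / 4) (2 * B) y (by linarith) (by linarith) (by nlinarith) (by positivity)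
        ((norm_pos_le_fd y z).trans (by linarith)) ε R (by linarith) (by linarith) (by linarith)
    refine ⟨hF, fun m X hX => ?_⟩
    have hX' : ∀ i, FarX y (R : ℝ) (X i) := fun i => farX_of_fd (hX i)
    exact ⟨plusFlat_of (by linarith) hX' hF, freeFlat_of (by linarith) hX' hF⟩
  · refine ⟨1, by simp, fun R hR hC => ?_⟩
    exfalso
    apply hρ
    have hR1 : (1 : ℝ) ≤ R := by
      have : 1 ≤ R := ((by omega : 1 ≤ 8 * B + 26).trans (le_max_left _ _)).trans hR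
      exact_mod_cast this
    have h1 : (3 : ℝ) ≤ ((max 3 ⌈32 / ε⌉₊ : ℕ) : ℝ) := by exact_mod_cast le_max_left _ _
    nlinarith

/-- **class `RD` near the boundary, lattice level** -/
theorem rd_lat {C Cs : ℝ} (hC : 0 ≤ C) (hCs : 0 ≤ Cs) (hG : GapU Cs) (hE : EXb C) (Λ B : ℕ) :
    ∃ r0 C0 : ℕ, 1 ≤ r0 ∧ 1 ≤ C0 ∧ ∀ (T : Set (ℤ × ℤ)) (ρ κ : ℝ), LatReg T ρ κ → κ * ρ ≤ 1 →
      ∀ (m : ℕ) (X : Fin m → ℤ × ℤ) (b : Bool) (R0 : ℕ), (C0 : ℝ) * R0 ≤ ρ →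
      ∀ (y : Flatx838.Face) (z : ℤ × ℤ), z ∈ bdS T → fd y z ≤ B → (∀ i, R0 + 1 < fd y (X i)) →
      RD (wX (wDom T b) X) y (KD C Cs) Λ r0 R0 := by
  obtain ⟨rp, εp, hrp, hεp, Hp⟩ := rd_plus_thr hC hCs hG hE Λ
  obtain ⟨rf, εf, hrf, hεf, Hf⟩ := rd_free_thr hC hCs hG hE Λ
  set ε := min εp εf with hεdef
  have hε : 0 < ε := lt_min hεp hεf
  obtain ⟨r1, C0, hr1, hC0, H⟩ := flat_lat hε B
  refine ⟨max r1 (max rp rf), C0, le_max_of_le_left hr1, hC0, ?_⟩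
  intro T ρ κ h hκ m X b R0 hR0 y z hz hyz hX
  obtain ⟨n, hn, Hn⟩ := H T ρ κ h hκ y z hz hyz
  have key : ∀ R : ℕ, max r1 (max rp rf) ≤ R → R ≤ R0 →
      PlusFlat (wl (wX (wDom T false) X)) (rg X y) y R n ε ∧
      FreeFlat (wl (wX (wDom T true) X)) (rg X y) y R n ε := fun R h1 h2 =>
    (Hn R ((le_max_left _ _).trans h1)
      ((mul_le_mul_of_nonneg_left (by exact_mod_cast h2) (Nat.cast_nonneg C0)).trans hR0)).2 m X
      fun i => lt_of_le_of_lt (by omega) (hX i)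
  cases b
  · have h6 := Hp (max r1 (max rp rf)) (le_max_of_le_right (le_max_left _ _)) ℤ
      (wX (wDom T false) X) y R0 (inj_int R0) (by
        intro R h1 h2
        exact ⟨_, n, hn, (key R h1 h2).1.mono le_rfl
          (mul_le_mul_of_nonneg_right (min_le_left _ _) (Nat.cast_nonneg R))⟩)
    rw [pf_int] at h6
    exact h6.mono (le_max_left _ _) le_rfl le_rfl le_rfl
  · have h6 := Hf (max r1 (max rp rf)) (le_max_of_le_right (le_max_right _ _)) ℤ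
      (wX (wDom T true) X) y R0 (inj_int R0) (by
        intro R h1 h2
        exact ⟨_, n, hn, (key R h1 h2).2.mono le_rfl
          (mul_le_mul_of_nonneg_right (min_le_right _ _) (Nat.cast_nonneg R))⟩)
    rw [pf_int] at h6
    exact h6.mono (le_max_right _ _) le_rfl le_rfl le_rfl

/-- class `RX` at an insertion, any site set, no regularity needed -/
theorem rx_lat {C' Cs : ℝ} (hC' : 0 ≤ C') (hCs : 0 ≤ Cs) (hG : GapU Cs) (hE' : EXbr C') (Λ : ℕ) :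
    ∃ r0 : ℕ, 1 ≤ r0 ∧ ∀ (T : Set (ℤ × ℤ)) (m : ℕ) (X : Fin m → ℤ × ℤ) (b : Bool) (R0 : ℕ)
      (i : Fin m), X i ∈ T → (∀ z ∈ bdS T, R0 + 1 < fd (X i) z) →
      (∀ j ≠ i, R0 < fd (X i) (X j)) → RX (wX (wDom T b) X) (X i) (CP C' Cs) Λ r0 R0 := by
  obtain ⟨r2, hr2, H2⟩ := rx_branchOn hC' hCs hG hE' Λ
  refine ⟨r2, hr2, fun T m X b R0 i hi hB hX => ?_⟩
  have h3 := H2 ℤ (wX (wDom T b) X) (X i) R0 (inj_int R0) (by
    intro R h1 h2
    exact branchOn_bdS hi (fun z hz => lt_of_le_of_lt (by omega) (hB z hz))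
      (fun j hj => lt_of_le_of_lt h2 (hX j hj)))
  rwa [pf_int] at h3

/-- class `RB` at every face: up to `R0`, or up to half the distance to a defect, any site set -/
theorem rb_lat (T : Set (ℤ × ℤ)) {m : ℕ} (X : Fin m → ℤ × ℤ) (b : Bool) (Λ R0 : ℕ)
    (f : Flatx838.Face) :
    RB (wX (wDom T b) X) f (max BridgeRBx386.CRB 24) Λ 1 R0 ∨
    ∃ y, (y ∈ bdS T ∨ ∃ i, y = X i) ∧ fd y f ≤ R0 + 1 ∧
      RB (wX (wDom T b) X) f (max BridgeRBx386.CRB 24) Λ 2 (fd y f / 2) := by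
  rcases trich_nearest_bdS T b X f R0 with h3 | ⟨y, hy, hfd, h3⟩
  · exact Or.inl (rb_of_cls h3 Λ)
  · refine Or.inr ⟨y, hy, hfd, ?_⟩
    rcases Nat.lt_or_ge (fd y f) 4 with h4 | h4
    · intro r' R' h5 h6 h7 h8
      exfalso
      omega
    · exact (rb_of_cls (h3 _ (by omega)) Λ).mono le_rfl le_rfl (by norm_num) le_rfl

/-- **the classes of the faces, lattice level**: `KG` absolute, `r0`, `C0` depend on `Λ` only -/
theorem geo_lat {C C' Cs : ℝ} (hC : 0 ≤ C) (hC' : 0 ≤ C') (hCs : 0 ≤ Cs) (hG : GapU Cs)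
    (hE : EXb C) (hE' : EXbr C') (Λ B : ℕ) :
    ∃ r0 C0 : ℕ, 2 ≤ r0 ∧ 1 ≤ C0 ∧ ∀ (T : Set (ℤ × ℤ)) (ρ κ : ℝ), LatReg T ρ κ → κ * ρ ≤ 1 →
      ∀ (m : ℕ) (X : Fin m → ℤ × ℤ) (b : Bool) (R0 : ℕ), (C0 : ℝ) * R0 ≤ ρ →
      (∀ y z, z ∈ bdS T → fd y z ≤ B → (∀ i, R0 + 1 < fd y (X i)) →
        RD (wX (wDom T b) X) y (KG C C' Cs) Λ r0 R0) ∧
      (∀ i, X i ∈ T → (∀ z ∈ bdS T, R0 + 1 < fd (X i) z) → (∀ j ≠ i, R0 < fd (X i) (X j)) →
        RX (wX (wDom T b) X) (X i) (KG C C' Cs) Λ r0 R0) ∧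
      (∀ f, RB (wX (wDom T b) X) f (KG C C' Cs) Λ r0 R0 ∨
        ∃ y, (y ∈ bdS T ∨ ∃ i, y = X i) ∧ fd y f ≤ R0 + 1 ∧
          RB (wX (wDom T b) X) f (KG C C' Cs) Λ r0 (fd y f / 2)) := by
  obtain ⟨r1, C0, hr1, hC0, H1⟩ := rd_lat hC hCs hG hE Λ B
  obtain ⟨r2, hr2, H2⟩ := rx_lat hC' hCs hG hE' Λ
  refine ⟨max 2 (max r1 r2), C0, le_max_left _ _, hC0, ?_⟩
  intro T ρ κ h hκ m X b R0 hR0
  refine ⟨fun y z hz hyz hX => ?_, fun i hi hB hX => ?_, fun f => ?_⟩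
  · exact (H1 T ρ κ h hκ m X b R0 hR0 y z hz hyz hX).mono (le_max_left _ _) le_rfl
      ((le_max_left _ _).trans (le_max_right _ _)) le_rfl
  · exact (H2 T m X b R0 i hi hB hX).mono ((le_max_left _ _).trans (le_max_right _ _)) le_rfl
      ((le_max_right _ _).trans (le_max_right _ _)) le_rfl
  · have hK : max BridgeRBx386.CRB 24 ≤ KG C C' Cs :=
      (le_max_right _ _).trans (le_max_right _ _)
    rcases rb_lat T X b Λ R0 f with h3 | ⟨y, hy, hfd, h3⟩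
    · exact Or.inl (h3.mono hK le_rfl ((by norm_num : 1 ≤ 2).trans (le_max_left _ _)) le_rfl)
    · exact Or.inr ⟨y, hy, hfd, h3.mono hK le_rfl (le_max_left _ _) le_rfl⟩

end Crest.Agent.R165.GeoRLx838
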