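import Crest.Agent.R165.U3Spin_719
import Crest.Agent.Lib.InjHolo

/-!
R165, block U3-2: transport of the weak boundary relations (curl / div form, in the literal form of
`U3Spin_719`) under a bi-Lipschitz conformal bijection `φ : D' → D`: the function `Q` on `D` becomes
`φ' w * Q (φ w)` on `D'`.  Also integrability and square integrability off the sources.
-/

set_option autoImplicit false

namespace Crest.Agent.R165.Tp416

open Complex Set Metric Filter Topology MeasureTheory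
open Crest.Agent.R165.U3x719 (db)
open scoped ComplexConjugate NNReal

/-- bi-Lipschitz conformal bijection `φ : D' → D`. -/
structure BiL (D' D : Set ℂ) (φ : ℂ → ℂ) : Prop where
  open' : IsOpen D'
  open_ : IsOpen D
  bdd : Bornology.IsBounded D
  ne : D.Nonempty
  diff : DifferentiableOn ℂ φ D'
  bij : BijOn φ D' D
  lip : ∃ C : ℝ, ∀ w ∈ D', ∀ w' ∈ D', ‖φ w - φ w'‖ ≤ C * ‖w - w'‖
  lip' : ∃ C : ℝ, ∀ w ∈ D', ∀ w' ∈ D', ‖w - w'‖ ≤ C * ‖φ w - φ w'‖

variable {D' D : Set ℂ} {φ : ℂ → ℂ}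

theorem BiL.image (h : BiL D' D φ) : φ '' D' = D := h.bij.image_eq

theorem BiL.inverse (h : BiL D' D φ) : ∃ g : ℂ → ℂ, DifferentiableOn ℂ g D ∧ MapsTo g D D' ∧
    (∀ w ∈ D', g (φ w) = w) ∧ (∀ z ∈ D, φ (g z) = z) ∧ ∃ L : ℝ≥0, LipschitzOnWith L g D := by
  obtain ⟨g, hg1, -, hg2, hg3, hg4⟩ := Crest.Agent.Lib.exists_holomorphic_inverse h.open' h.diff h.bij.injOn
  rw [h.image] at hg1 hg2 hg4
  have hm : MapsTo g D D' := by
    intro z hz
    rw [← hg2]; exact mem_image_of_mem g hz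
  refine ⟨g, hg1, hm, hg3, hg4, ?_⟩
  obtain ⟨C, hC⟩ := h.lip'
  refine ⟨C.toNNReal, LipschitzOnWith.of_dist_le_mul ?_⟩
  intro z hz z' hz'
  rw [dist_eq_norm, dist_eq_norm]
  have := hC _ (hm hz) _ (hm hz')
  rw [hg4 z hz, hg4 z' hz'] at this
  exact this.trans (mul_le_mul_of_nonneg_right (Real.le_coe_toNNReal C) (norm_nonneg _))

theorem BiL.hasDerivAt (h : BiL D' D φ) {w : ℂ} (hw : w ∈ D') : HasDerivAt φ (deriv φ w) w :=
  (h.diff.differentiableAt (h.open'.mem_nhds hw)).hasDerivAt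

/-- lower bound of the derivative -/
theorem BiL.deriv_lower (h : BiL D' D φ) : ∃ c : ℝ, 0 < c ∧ ∀ w ∈ D', c ≤ ‖deriv φ w‖ := by
  obtain ⟨C, hC⟩ := h.lip'
  set C' := max C 1 with hC'
  have hC0 : 0 < C' := lt_max_of_lt_right one_pos
  refine ⟨1 / C', by positivity, fun w hw => ?_⟩
  have hd := h.hasDerivAt hw
  have h1 : Tendsto (fun t : ℂ => ‖(t : ℂ)⁻¹ • (φ (w + t) - φ w)‖) (𝓝[≠] 0) (𝓝 ‖deriv φ w‖) :=
    (hasDerivAt_iff_tendsto_slope_zero.1 hd).norm
  refine ge_of_tendsto h1 ?_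
  have h2 : ∀ᶠ t : ℂ in 𝓝[≠] 0, w + t ∈ D' := by
    have : Tendsto (fun t : ℂ => w + t) (𝓝 0) (𝓝 (w + 0)) := by
      exact (continuous_const.add continuous_id).tendsto 0
    rw [add_zero] at this
    exact (this.eventually (h.open'.mem_nhds hw)).filter_mono nhdsWithin_le_nhds
  filter_upwards [h2, self_mem_nhdsWithin] with t ht ht0
  have ht0' : (t:ℂ) ≠ 0 := ht0
  have h3 := hC _ ht _ hw
  rw [add_sub_cancel_left] at h3
  rw [norm_smul, norm_inv]
  have h4 : 0 < ‖t‖ := norm_pos_iff.2 ht0'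
  have h5 : ‖t‖ ≤ C' * ‖φ (w + t) - φ w‖ :=
    h3.trans (mul_le_mul_of_nonneg_right (le_max_left _ _) (norm_nonneg _))
  rw [div_le_iff₀ hC0]
  calc (1:ℝ) = ‖t‖⁻¹ * ‖t‖ := by field_simp
    _ ≤ ‖t‖⁻¹ * (C' * ‖φ (w + t) - φ w‖) := mul_le_mul_of_nonneg_left h5 (by positivity)
    _ = ‖t‖⁻¹ * ‖φ (w + t) - φ w‖ * C' := by ring

theorem det_smulRight (c : ℂ) :
    (((1 : ℂ →L[ℂ] ℂ).smulRight c).restrictScalars ℝ : ℂ →L[ℝ] ℂ).det = ‖c‖ ^ 2 := by
  have h1 : ((((1 : ℂ →L[ℂ] ℂ).smulRight c).restrictScalars ℝ : ℂ →L[ℝ] ℂ) : ℂ →ₗ[ℝ] ℂ)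
      = Algebra.lmul ℝ ℂ c := by
    ext x; simp [mul_comm]
  rw [ContinuousLinearMap.det, h1, ← Algebra.norm_apply, Algebra.norm_complex_apply,
    Complex.normSq_eq_norm_sq]

theorem BiL.hasFDerivWithinAt (h : BiL D' D φ) {w : ℂ} (hw : w ∈ D') : HasFDerivWithinAt φ
      (((1 : ℂ →L[ℂ] ℂ).smulRight (deriv φ w)).restrictScalars ℝ) D' w :=
  (((h.hasDerivAt hw).hasFDerivAt).restrictScalars ℝ).hasFDerivWithinAt

/-- change of variables -/
theorem BiL.integral {E : Type*} [NormedAddCommGroup E] [NormedSpace ℝ E] (h : BiL D' D φ) (F : ℂ → E) :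
    ∫ z in D, F z = ∫ w in D', (‖deriv φ w‖^2) • F (φ w) := by
  rw [← h.image, integral_image_eq_integral_abs_det_fderiv_smul volume h.open'.measurableSet
    (fun w hw => h.hasFDerivWithinAt hw) h.bij.injOn]
  apply setIntegral_congr_fun h.open'.measurableSet
  intro w _
  simp only
  rw [det_smulRight, abs_of_nonneg (by positivity)]

theorem BiL.integrableOn {E : Type*} [NormedAddCommGroup E] [NormedSpace ℝ E] (h : BiL D' D φ)
    {S : Set ℂ} (hS : MeasurableSet S) (hSU : S ⊆ D') (F : ℂ → E) :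
    IntegrableOn F (φ '' S) ↔ IntegrableOn (fun w => (‖deriv φ w‖^2) • F (φ w)) S := by
  rw [integrableOn_image_iff_integrableOn_abs_det_fderiv_smul volume hS
    (fun w hw => (h.hasFDerivWithinAt (hSU hw)).mono hSU) (h.bij.injOn.mono hSU)]
  apply integrableOn_congr_fun _ hS
  intro w _
  simp only
  rw [det_smulRight, abs_of_nonneg (by positivity)]

/-- chain rule for `2 ∂̄` -/
theorem db_comp {χ : ℂ → ℝ} {f : ℂ → ℂ} {w : ℂ} (hχ : DifferentiableAt ℝ χ (f w))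
    (hf : DifferentiableAt ℂ f w) : db (fun z => χ (f z)) w = conj (deriv f w) * db χ (f w) := by
  have h1 : HasFDerivAt f (((1 : ℂ →L[ℂ] ℂ).smulRight (deriv f w)).restrictScalars ℝ) w :=
    hf.hasDerivAt.hasFDerivAt.restrictScalars ℝ
  have h2 : HasFDerivAt (fun z => χ (f z))
      ((fderiv ℝ χ (f w)).comp (((1 : ℂ →L[ℂ] ℂ).smulRight (deriv f w)).restrictScalars ℝ)) w :=
    hχ.hasFDerivAt.comp w h1
  have h3 := h2.fderiv
  set L := fderiv ℝ χ (f w) with hL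
  have hlin : ∀ v : ℂ, L v = v.re * L 1 + v.im * L I := by
    intro v
    have : v = (v.re : ℝ) • (1:ℂ) + (v.im : ℝ) • I := by
      apply Complex.ext <;> simp
    conv_lhs => rw [this]
    rw [map_add, map_smul, map_smul, smul_eq_mul, smul_eq_mul]
  unfold db
  rw [h3]
  have e1 : ((L.comp (((1 : ℂ →L[ℂ] ℂ).smulRight (deriv f w)).restrictScalars ℝ)) 1 : ℝ) = L (deriv f w) := by
    simp
  have e2 : ((L.comp (((1 : ℂ →L[ℂ] ℂ).smulRight (deriv f w)).restrictScalars ℝ)) I : ℝ) =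
      L (I * deriv f w) := by
    simp
  rw [e1, e2, hlin (deriv f w), hlin (I * deriv f w), ← hL]
  apply Complex.ext
  · simp
  · simp; ring

/-- extension of a Lipschitz function on a bounded set to a Lipschitz function with compact support. -/
theorem exists_ext {V : Set ℂ} (hV : Bornology.IsBounded V) {χ : ℂ → ℝ} {L : ℝ≥0}
    (hχ : LipschitzOnWith L χ V) (hne : V.Nonempty) :
    ∃ e : ℂ → ℝ, (∃ C : ℝ≥0, LipschitzWith C e) ∧ HasCompactSupport e ∧ (∀ z ∈ V, e z = χ z) ∧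
      ((∀ z ∈ V, 0 ≤ χ z) → ∀ z, 0 ≤ e z) := by
  obtain ⟨g, hg, hgV, hgn⟩ : ∃ g : ℂ → ℝ, LipschitzWith L g ∧ EqOn χ g V ∧
      ((∀ z ∈ V, 0 ≤ χ z) → ∀ z, 0 ≤ g z) := by
    obtain ⟨g, hg, hgV⟩ := hχ.extend_real
    by_cases hpos : ∀ z ∈ V, 0 ≤ χ z
    · refine ⟨fun z => max (g z) 0, hg.max_const 0, fun z hz => ?_, fun _ z => le_max_right _ _⟩
      have := hpos z hz
      rw [hgV hz] at this
      simp only [max_eq_left this]
      exact hgV hz
    · exact ⟨g, hg, hgV, fun h => absurd h hpos⟩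
  obtain ⟨R, hR⟩ := hV.subset_ball (0:ℂ)
  obtain ⟨z0, hz0⟩ := hne
  have hR0 : 0 < R := pos_of_mem_ball (hR hz0)
  -- bound on V
  set B : ℝ := |g z0| + L * (2 * R) with hB
  have hBnn : 0 ≤ B := by positivity
  have hgB : ∀ z ∈ V, |g z| ≤ B := by
    intro z hz
    have h1 := hg.dist_le_mul z z0
    rw [Real.dist_eq] at h1
    have h2 : dist z z0 ≤ 2 * R := by
      have a1 := hR hz
      have a2 := hR hz0
      rw [mem_ball] at a1 a2
      calc dist z z0 ≤ dist z 0 + dist z0 0 := dist_triangle_right _ _ _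
        _ ≤ 2 * R := by linarith
    calc |g z| = |(g z - g z0) + g z0| := by rw [sub_add_cancel]
      _ ≤ |g z - g z0| + |g z0| := abs_add_le _ _
      _ ≤ L * (2 * R) + |g z0| := by
          have := mul_le_mul_of_nonneg_left h2 (NNReal.coe_nonneg L)
          linarith
      _ = B := by rw [hB]; ring
  set hh : ℂ → ℝ := fun z => B * max 0 (R + 1 - ‖z‖) with hhd
  have hhL : LipschitzWith (⟨B, hBnn⟩ : ℝ≥0) hh := by
    apply LipschitzWith.of_dist_le_mul
    intro x y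
    rw [Real.dist_eq, hhd]
    simp only
    rw [← mul_sub, abs_mul, abs_of_nonneg hBnn]
    apply mul_le_mul_of_nonneg_left _ hBnn
    have h1 : |max 0 (R + 1 - ‖x‖) - max 0 (R + 1 - ‖y‖)| ≤ |(R + 1 - ‖x‖) - (R + 1 - ‖y‖)| := by
      have := abs_max_sub_max_le_abs (R + 1 - ‖x‖) (R + 1 - ‖y‖) 0
      rwa [max_comm _ (0:ℝ), max_comm _ (0:ℝ)] at this
    refine h1.trans ?_
    have : (R + 1 - ‖x‖) - (R + 1 - ‖y‖) = ‖y‖ - ‖x‖ := by ring
    rw [this, abs_sub_comm, dist_eq_norm]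
    exact abs_norm_sub_norm_le x y
  have hh0 : ∀ z, 0 ≤ hh z := fun z => mul_nonneg hBnn (le_max_left _ _)
  refine ⟨fun z => max (-hh z) (min (g z) (hh z)), ?_, ?_, ?_, ?_⟩
  · exact ⟨_, hhL.neg.max (hg.min hhL)⟩
  · apply HasCompactSupport.intro (isCompact_closedBall (0:ℂ) (R+1))
    intro z hz
    rw [mem_closedBall, dist_zero_right, not_le] at hz
    have : hh z = 0 := by
      simp only [hhd]
      rw [max_eq_left (by linarith), mul_zero]
    simp only [this, neg_zero]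
    exact max_eq_left (min_le_right _ _)
  · intro z hz
    have h1 := hgB z hz
    have h2 : B ≤ hh z := by
      have hzR := hR hz
      rw [mem_ball, dist_zero_right] at hzR
      simp only [hhd]
      rw [max_eq_right (by linarith)]
      nlinarith
    rw [abs_le] at h1
    simp only
    rw [min_eq_left (by linarith), max_eq_right (by linarith)]
    exact (hgV hz).symm
  · intro hpos z
    have h1 := hgn hpos z
    exact le_max_of_le_right (le_min h1 (hh0 z))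

/-- transport of a test function on `D'` to a test function on `D` -/
theorem BiL.test (h : BiL D' D φ) {K : Set ℂ} (hKD : K ⊆ D) {χ : ℂ → ℝ}
    (hC : ∃ C : ℝ≥0, LipschitzWith C χ) (hsm : ContDiffOn ℝ 1 χ D')
    (hdisj : Disjoint (tsupport χ) (D' ∩ φ ⁻¹' K)) :
    ∃ e : ℂ → ℝ, (∃ C : ℝ≥0, LipschitzWith C e) ∧ HasCompactSupport e ∧
        ContDiffOn ℝ 1 e D ∧ Disjoint (tsupport e) K ∧ ((∀ z, 0 ≤ χ z) → ∀ z, 0 ≤ e z) ∧
        ∀ w ∈ D', db χ w = conj (deriv φ w) * db e (φ w) := by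
  obtain ⟨g, hg1, hg2, hg3, hg4, Lg, hLg⟩ := h.inverse
  obtain ⟨C, hC⟩ := hC
  have hlip : LipschitzOnWith (C * Lg) (fun z => χ (g z)) D := hC.comp_lipschitzOnWith hLg
  obtain ⟨e, he1, he2, he3, he4⟩ := exists_ext h.bdd hlip h.ne
  have hsme : ContDiffOn ℝ 1 e D := by
    have h1 : ContDiffOn ℝ 1 g D := (hg1.contDiffOn h.open_ (n := 1)).restrict_scalars ℝ
    have h2 : ContDiffOn ℝ 1 (fun z => χ (g z)) D := hsm.comp h1 hg2
    exact h2.congr he3
  refine ⟨e, he1, he2, hsme, ?_, fun hpos => he4 (fun z _ => hpos _), ?_⟩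
  · rw [Set.disjoint_left]
    intro z hz hzK
    have hzV := hKD hzK
    have hgz : g z ∉ tsupport χ := fun hc => Set.disjoint_left.1 hdisj hc
      ⟨hg2 hzV, show φ (g z) ∈ K by rw [hg4 z hzV]; exact hzK⟩
    have h1 : ∀ᶠ w in 𝓝 (g z), χ w = 0 := by
      have := (isClosed_tsupport χ).isOpen_compl.mem_nhds hgz
      filter_upwards [this] with w hw
      exact image_eq_zero_of_notMem_tsupport hw
    have h2 : ∀ᶠ w in 𝓝 z, χ (g w) = 0 :=
      (hg1.continuousOn.continuousAt (h.open_.mem_nhds hzV)).eventually h1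
    have h3 : ∀ᶠ w in 𝓝 z, e w = 0 := by
      filter_upwards [h2, h.open_.mem_nhds hzV] with w hw hwV
      rw [he3 w hwV, hw]
    exact (notMem_tsupport_iff_eventuallyEq.2 h3) hz
  · intro w hw
    have hfw := h.bij.mapsTo hw
    have h1 : DifferentiableAt ℝ e (φ w) :=
      (hsme.contDiffAt (h.open_.mem_nhds hfw)).differentiableAt one_ne_zero
    have h2 : DifferentiableAt ℂ φ w := h.diff.differentiableAt (h.open'.mem_nhds hw)
    rw [← db_comp h1 h2]
    have h3 : (fun z => e (φ z)) =ᶠ[𝓝 w] χ := by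
      filter_upwards [h.open'.mem_nhds hw] with z hz
      rw [he3 _ (h.bij.mapsTo hz), hg3 z hz]
    unfold db
    rw [h3.fderiv_eq]

theorem pt_id {Q : ℂ → ℂ} {χ e : ℂ → ℝ} {w : ℂ} (hw : db χ w = conj (deriv φ w) * db e (φ w)) :
    deriv φ w * Q (φ w) * db χ w = ((‖deriv φ w‖^2 : ℝ) : ℂ) * (Q (φ w) * db e (φ w)) := by
  rw [hw]
  have : ((‖deriv φ w‖^2 : ℝ) : ℂ) = deriv φ w * conj (deriv φ w) := by
    rw [mul_conj, normSq_eq_norm_sq]
  rw [this]; ring

/-- transport of weak relation 1 -/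
theorem BiL.curl (h : BiL D' D φ) {K : Set ℂ} (hKD : K ⊆ D) {Q : ℂ → ℂ}
    (hQ : ∀ χ : ℂ → ℝ, (∃ C, LipschitzWith C χ) → HasCompactSupport χ → ContDiffOn ℝ 1 χ D →
      Disjoint (tsupport χ) K → ∫ z in D, (Q z * db χ z).re = 0) :
    ∀ χ : ℂ → ℝ, (∃ C, LipschitzWith C χ) → HasCompactSupport χ → ContDiffOn ℝ 1 χ D' →
      Disjoint (tsupport χ) (D' ∩ φ ⁻¹' K) → ∫ w in D', (deriv φ w * Q (φ w) * db χ w).re = 0 := by
  intro χ hL hc hs hd
  obtain ⟨e, he1, he2, he3, he4, -, he6⟩ := h.test hKD hL hs hd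
  have := hQ e he1 he2 he3 he4
  rw [h.integral] at this
  rw [← this]
  apply setIntegral_congr_fun h.open'.measurableSet
  intro w hw
  simp only
  rw [pt_id (he6 w hw), re_ofReal_mul, smul_eq_mul]

/-- transport of weak relation 2 -/
theorem BiL.div (h : BiL D' D φ) {K : Set ℂ} (hKD : K ⊆ D) {Q : ℂ → ℂ}
    (hQ : ∀ χ : ℂ → ℝ, (∃ C, LipschitzWith C χ) → HasCompactSupport χ → ContDiffOn ℝ 1 χ D →
      Disjoint (tsupport χ) K → (∀ z, 0 ≤ χ z) → ∫ z in D, (Q z * db χ z).im ≤ 0) :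
    ∀ χ : ℂ → ℝ, (∃ C, LipschitzWith C χ) → HasCompactSupport χ → ContDiffOn ℝ 1 χ D' →
      Disjoint (tsupport χ) (D' ∩ φ ⁻¹' K) → (∀ z, 0 ≤ χ z) →
      ∫ w in D', (deriv φ w * Q (φ w) * db χ w).im ≤ 0 := by
  intro χ hL hc hs hd hpos
  obtain ⟨e, he1, he2, he3, he4, he5, he6⟩ := h.test hKD hL hs hd
  have := hQ e he1 he2 he3 he4 (he5 hpos)
  rw [h.integral] at this
  refine le_trans (le_of_eq ?_) this
  apply setIntegral_congr_fun h.open'.measurableSet
  intro w hw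
  simp only
  rw [pt_id (he6 w hw), im_ofReal_mul, smul_eq_mul]

/-- the excluded neighbourhoods correspond -/
theorem BiL.nbhd (h : BiL D' D φ) {K : Set ℂ} (hKD : K ⊆ D) {O' : Set ℂ} (hO' : IsOpen O')
    (hK : D' ∩ φ ⁻¹' K ⊆ O') : ∃ O : Set ℂ, IsOpen O ∧ K ⊆ O ∧ φ '' (D' \ O') = D \ O := by
  refine ⟨φ '' (D' ∩ O'), ?_, ?_, ?_⟩
  · exact Crest.Agent.Lib.isOpen_image_of_injOn (h.open'.inter hO') (h.diff.mono inter_subset_left)
      (h.bij.injOn.mono inter_subset_left)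
  · intro k hk
    obtain ⟨w, hw, rfl⟩ := h.bij.surjOn (hKD hk)
    exact ⟨w, ⟨hw, hK ⟨hw, hk⟩⟩, rfl⟩
  · ext z
    constructor
    · rintro ⟨w, ⟨hw1, hw2⟩, rfl⟩
      refine ⟨h.bij.mapsTo hw1, ?_⟩
      rintro ⟨w', ⟨hw'1, hw'2⟩, he⟩
      have := h.bij.injOn hw'1 hw1 he
      rw [this] at hw'2
      exact hw2 hw'2
    · rintro ⟨hz1, hz2⟩
      obtain ⟨w, hw, rfl⟩ := h.bij.surjOn hz1
      exact ⟨w, ⟨hw, fun hc => hz2 ⟨w, ⟨hw, hc⟩, rfl⟩⟩, rfl⟩

theorem BiL.deriv_cont (h : BiL D' D φ) : ContinuousOn (deriv φ) D' :=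
  (h.diff.deriv h.open').continuousOn

/-- transport of integrability: weight `‖φ'‖` instead of `‖φ'‖²` -/
theorem BiL.int_weight (h : BiL D' D φ) {S : Set ℂ} (hS : MeasurableSet S) (hSU : S ⊆ D') {F : ℂ → ℂ}
    (hF : IntegrableOn F (φ '' S)) : IntegrableOn (fun w => deriv φ w * F (φ w)) S := by
  rw [h.integrableOn hS hSU] at hF
  obtain ⟨c, hc, hcd⟩ := h.deriv_lower
  have hcont : ContinuousOn (fun w => (conj (deriv φ w))⁻¹) S := by
    apply ContinuousOn.inv₀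
    · exact (Complex.continuous_conj.comp_continuousOn (h.deriv_cont.mono hSU))
    · intro w hw
      have := hcd w (hSU hw)
      rw [Ne, map_eq_zero, ← norm_eq_zero]
      linarith
  have h1 : Integrable (fun w => (conj (deriv φ w))⁻¹ * ((‖deriv φ w‖^2) • F (φ w))) (volume.restrict S) := by
    refine Integrable.bdd_mul (c := 1 / c) hF (hcont.aestronglyMeasurable hS) ?_
    filter_upwards [self_mem_ae_restrict hS] with w hw
    rw [norm_inv, Complex.norm_conj, inv_eq_one_div]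
    exact one_div_le_one_div_of_le hc (hcd w (hSU hw))
  refine h1.congr ?_
  filter_upwards [self_mem_ae_restrict hS] with w hw
  have hne : deriv φ w ≠ 0 := by
    have := hcd w (hSU hw)
    rw [← norm_pos_iff]; linarith
  have hne' : conj (deriv φ w) ≠ 0 := (map_ne_zero _).2 hne
  have e : ((‖deriv φ w‖^2 : ℝ) : ℂ) = deriv φ w * conj (deriv φ w) := by
    rw [mul_conj, normSq_eq_norm_sq]
  rw [Complex.real_smul, e]
  field_simp

/-- transport of integrability off the sources -/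
theorem BiL.int_off (h : BiL D' D φ) {K : Set ℂ} (hKD : K ⊆ D) {Q : ℂ → ℂ}
    (hQ : ∀ O : Set ℂ, IsOpen O → K ⊆ O → IntegrableOn Q (D \ O)) :
    ∀ O' : Set ℂ, IsOpen O' → D' ∩ φ ⁻¹' K ⊆ O' →
      IntegrableOn (fun w => deriv φ w * Q (φ w)) (D' \ O') := by
  intro O' hO' hK
  obtain ⟨O, hO, hKO, himg⟩ := h.nbhd hKD hO' hK
  apply h.int_weight (h.open'.measurableSet.diff hO'.measurableSet) sdiff_subset
  rw [himg]
  exact hQ O hO hKO

/-- transport of square integrability off the sources, for `F'² = φ' (F ∘ φ)²` -/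
theorem BiL.memLp_off (h : BiL D' D φ) {K : Set ℂ} (hKD : K ⊆ D) {F F' : ℂ → ℂ}
    (hF : ∀ O : Set ℂ, IsOpen O → K ⊆ O → MemLp F 2 (volume.restrict (D \ O)))
    (hm : AEStronglyMeasurable F' (volume.restrict D'))
    (hsq : ∀ᵐ w ∂volume.restrict D', ‖F' w‖ ^ 2 = ‖deriv φ w‖ * ‖F (φ w)‖ ^ 2) :
    ∀ O' : Set ℂ, IsOpen O' → D' ∩ φ ⁻¹' K ⊆ O' → MemLp F' 2 (volume.restrict (D' \ O')) := by
  intro O' hO' hK
  obtain ⟨O, hO, hKO, himg⟩ := h.nbhd hKD hO' hK
  have h1 := (hF O hO hKO).integrable_norm_pow (by norm_num)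
  have h2 : IntegrableOn (fun z => ((‖F z‖ ^ 2 : ℝ) : ℂ)) (φ '' (D' \ O')) := by
    rw [himg]
    have : Integrable (fun z => ((‖F z‖ ^ (2:ℕ) : ℝ) : ℂ)) (volume.restrict (D \ O)) := by
      exact h1.ofReal
    exact this
  have h3 := h.int_weight (h.open'.measurableSet.diff hO'.measurableSet) sdiff_subset h2
  have h4 := h3.norm
  have hmono : volume.restrict (D' \ O') ≤ volume.restrict D' := Measure.restrict_mono sdiff_subset le_rfl
  refine (memLp_two_iff_integrable_sq_norm (hm.mono_measure hmono)).2 ?_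
  refine h4.congr ?_
  have h5 : ∀ᵐ w ∂volume.restrict (D' \ O'), ‖F' w‖ ^ 2 = ‖deriv φ w‖ * ‖F (φ w)‖ ^ 2 :=
    ae_mono hmono hsq
  filter_upwards [h5] with w hw
  rw [hw, norm_mul, Complex.norm_real, Real.norm_eq_abs, abs_of_nonneg (by positivity)]

end Crest.Agent.R165.Tp416
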