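import Crest.Agent.R165.GeoRb_416
import Crest.Agent.R165.GeoP4_67
import Crest.Agent.R165.GeoP5_67
import Crest.Agent.R165.Tp_416

/-!
R165, block GEO, part 10: the Riemann map of a domain with uniform charts is bi-Lipschitz; so is every conformal
bijection between two such domains; extension to the closures.
-/

set_option autoImplicit false

namespace Crest.Agent.R165.Geo

open Complex Set Metric Filter Topology
open Crest.Agent.R165.Tp416 (BiL)
open scoped NNReal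

variable {D D' : Set ℂ} {r M r' M' : ℝ} {z₀ : ℂ} {φ ψ : ℂ → ℂ}

theorem toRMp (R : GeoPx67.RMap D z₀ φ ψ) : RMp D ψ φ :=
  ⟨R.diff', R.diff, R.maps', R.maps, R.right, R.left⟩

/-- any conformal parametrisation by the disc of a domain with charts is bi-Lipschitz -/
theorem CD.biL_of_RMp (h : CD D r M) (R : RMp D ψ φ) : BiL (ball 0 1) D ψ where
  open' := isOpen_ball
  open_ := h.isOpen
  bdd := h.bdd
  ne := h.conn.nonempty
  diff := R.dψ
  bij := ⟨R.mψ, fun a ha b hb hab => by rw [← R.φψ a ha, ← R.φψ b hb, hab],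
    fun z hz => ⟨φ z, R.mφ hz, R.ψφ z hz⟩⟩
  lip := by
    obtain ⟨C, hC, hd⟩ := R.dψ_le h
    refine ⟨C, fun w hw w' hw' => ?_⟩
    exact Convex.norm_image_sub_le_of_norm_deriv_le
      (fun z hz => R.dψ.differentiableAt (isOpen_ball.mem_nhds hz)) (fun z hz => hd z hz)
      (convex_ball _ _) hw' hw
  lip' := by
    obtain ⟨B, hB, hd⟩ := R.dφ_le h
    obtain ⟨C, hC, hl⟩ := GeoPx67.CD.lipC h
    refine ⟨C * B, fun w hw w' hw' => ?_⟩
    have := hl φ B hB.le R.dφ hd (ψ w') (R.mψ hw') (ψ w) (R.mψ hw)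
    rwa [R.φψ w hw, R.φψ w' hw'] at this

theorem CD.biL_disc (h : CD D r M) (R : GeoPx67.RMap D z₀ φ ψ) : BiL (ball 0 1) D ψ := h.biL_of_RMp (toRMp R)

/-- a conformal bijection between two domains with charts is bi-Lipschitz. -/
theorem CD.biL (h : CD D r M) (h' : CD D' r' M') {f : ℂ → ℂ} (hf : DifferentiableOn ℂ f D')
    (hb : BijOn f D' D) : BiL D' D f := by
  obtain ⟨z₀, hz₀⟩ := h'.conn.nonempty
  obtain ⟨φ', ψ', R'⟩ := GeoPx67.CD.exists_rmap h' hz₀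
  obtain ⟨g, hg1, -, hg2, hg3, hg4⟩ := Crest.Agent.Lib.exists_holomorphic_inverse h'.isOpen hf hb.injOn
  rw [hb.image_eq] at hg1 hg2 hg4
  have hgm : MapsTo g D D' := fun z hz => by rw [← hg2]; exact mem_image_of_mem g hz
  have R : RMp D (fun w => f (ψ' w)) (fun z => φ' (g z)) :=
    { dψ := hf.comp R'.diff' R'.maps'
      dφ := R'.diff.comp hg1 hgm
      mψ := fun w hw => hb.mapsTo (R'.maps' hw)
      mφ := fun z hz => R'.maps (hgm hz)
      φψ := fun w hw => by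
        show φ' (g (f (ψ' w))) = w
        rw [hg3 _ (R'.maps' hw), R'.right w hw]
      ψφ := fun z hz => by
        show f (ψ' (φ' (g z))) = z
        rw [R'.left _ (hgm hz), hg4 z hz] }
  have B1 := h.biL_of_RMp R
  have B2 := h'.biL_disc R'
  obtain ⟨C1, hC1⟩ := B1.lip
  obtain ⟨C1', hC1'⟩ := B1.lip'
  obtain ⟨C2, hC2⟩ := B2.lip
  obtain ⟨C2', hC2'⟩ := B2.lip'
  have hw : ∀ z ∈ D', ψ' (φ' z) = z := R'.left
  refine ⟨h'.isOpen, h.isOpen, h.bdd, h.conn.nonempty, hf, hb, ?_, ?_⟩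
  · refine ⟨|C1| * C2', fun w hw1 w' hw1' => ?_⟩
    have a1 := hC1 _ (R'.maps hw1) _ (R'.maps hw1')
    have a2 := hC2' _ (R'.maps hw1) _ (R'.maps hw1')
    simp only [hw w hw1, hw w' hw1'] at a1 a2
    calc ‖f w - f w'‖ ≤ C1 * ‖φ' w - φ' w'‖ := a1
      _ ≤ |C1| * ‖φ' w - φ' w'‖ := mul_le_mul_of_nonneg_right (le_abs_self _) (norm_nonneg _)
      _ ≤ |C1| * (C2' * ‖w - w'‖) := mul_le_mul_of_nonneg_left a2 (abs_nonneg _)
      _ = |C1| * C2' * ‖w - w'‖ := by ring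
  · refine ⟨|C2| * C1', fun w hw1 w' hw1' => ?_⟩
    have a1 := hC2 _ (R'.maps hw1) _ (R'.maps hw1')
    have a2 := hC1' _ (R'.maps hw1) _ (R'.maps hw1')
    simp only [hw w hw1, hw w' hw1'] at a1 a2
    calc ‖w - w'‖ ≤ C2 * ‖φ' w - φ' w'‖ := a1
      _ ≤ |C2| * ‖φ' w - φ' w'‖ := mul_le_mul_of_nonneg_right (le_abs_self _) (norm_nonneg _)
      _ ≤ |C2| * (C1' * ‖f w - f w'‖) := mul_le_mul_of_nonneg_left a2 (abs_nonneg _)
      _ = |C2| * C1' * ‖f w - f w'‖ := by ring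

/-- extension to the closures -/
theorem BiL.closure_ext {f : ℂ → ℂ} (h : BiL D' D f) :
    ∃ Φ Ψ : ℂ → ℂ, (∃ K : ℝ≥0, LipschitzWith K Φ) ∧ (∃ K : ℝ≥0, LipschitzWith K Ψ) ∧
      (∀ w ∈ D', Φ w = f w) ∧ (∀ w ∈ D', Ψ (f w) = w) ∧
      MapsTo Φ (closure D') (closure D) ∧ MapsTo Ψ (closure D) (closure D') ∧
      (∀ w ∈ closure D', Ψ (Φ w) = w) ∧ (∀ z ∈ closure D, Φ (Ψ z) = z) ∧
      MapsTo Φ (frontier D') (frontier D) ∧ MapsTo Ψ (frontier D) (frontier D') := by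
  obtain ⟨g, hg1, hg2, hg3, hg4, Lg, hLg⟩ := h.inverse
  obtain ⟨C, hC⟩ := h.lip
  have hLf : LipschitzOnWith C.toNNReal f D' := by
    apply LipschitzOnWith.of_dist_le_mul
    intro z hz z' hz'
    rw [dist_eq_norm, dist_eq_norm]
    exact (hC z hz z' hz').trans (mul_le_mul_of_nonneg_right (Real.le_coe_toNNReal C) (norm_nonneg _))
  obtain ⟨Φ, hΦ, hΦe⟩ := hLf.extend_finite_dimension
  obtain ⟨Ψ, hΨ, hΨe⟩ := hLg.extend_finite_dimension
  have e1 : ∀ w ∈ D', Φ w = f w := fun w hw => (hΦe hw).symm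
  have e2 : ∀ w ∈ D', Ψ (f w) = w := fun w hw => by
    rw [← hΨe (h.bij.mapsTo hw), hg3 w hw]
  have m1 : MapsTo Φ (closure D') (closure D) := by
    apply MapsTo.closure _ hΦ.continuous
    intro w hw
    rw [e1 w hw]; exact h.bij.mapsTo hw
  have m2 : MapsTo Ψ (closure D) (closure D') := by
    apply MapsTo.closure _ hΨ.continuous
    intro z hz
    rw [← hΨe hz]; exact hg2 hz
  have i1 : ∀ w ∈ closure D', Ψ (Φ w) = w := by
    intro w hw
    have hcl : IsClosed {w | Ψ (Φ w) = w} :=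
      isClosed_eq (hΨ.continuous.comp hΦ.continuous) continuous_id
    have : D' ⊆ {w | Ψ (Φ w) = w} := fun w hw => by
      show Ψ (Φ w) = w
      rw [e1 w hw, e2 w hw]
    exact (hcl.closure_subset_iff.2 this) hw
  have i2 : ∀ z ∈ closure D, Φ (Ψ z) = z := by
    intro z hz
    have hcl : IsClosed {z | Φ (Ψ z) = z} :=
      isClosed_eq (hΦ.continuous.comp hΨ.continuous) continuous_id
    have : D ⊆ {z | Φ (Ψ z) = z} := fun z hz => by
      show Φ (Ψ z) = z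
      rw [← hΨe hz, e1 _ (hg2 hz), hg4 z hz]
    exact (hcl.closure_subset_iff.2 this) hz
  refine ⟨Φ, Ψ, ⟨_, hΦ⟩, ⟨_, hΨ⟩, e1, e2, m1, m2, i1, i2, ?_, ?_⟩
  · intro w hw
    rw [h.open'.frontier_eq] at hw
    rw [h.open_.frontier_eq]
    refine ⟨m1 hw.1, fun hc => hw.2 ?_⟩
    have := i1 w hw.1
    rw [← hΨe hc] at this
    rw [← this]; exact hg2 hc
  · intro z hz
    rw [h.open_.frontier_eq] at hz
    rw [h.open'.frontier_eq]
    refine ⟨m2 hz.1, fun hc => hz.2 ?_⟩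
    have := i2 z hz.1
    rw [e1 _ hc] at this
    rw [← this]; exact h.bij.mapsTo hc

end Crest.Agent.R165.Geo
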