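import Mathlib

/-!
R165, block GEO, part 8: Schwarz-Pick estimates for maps of a disc into the unit disc.
-/

set_option autoImplicit false

namespace Crest.Agent.R165.Geo

open Complex Set Metric
open scoped ComplexConjugate

/-- disc automorphism -/
noncomputable def mob (a z : ℂ) : ℂ := (z - a) / (1 - conj a * z)

theorem mob_key (a z : ℂ) :
    normSq (1 - conj a * z) - normSq (z - a) = (1 - normSq a) * (1 - normSq z) := by
  simp only [normSq_apply, sub_re, sub_im, mul_re, mul_im, conj_re, conj_im, one_re, one_im]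
  ring

theorem mob_den {a z : ℂ} (ha : ‖a‖ < 1) (hz : ‖z‖ < 1) : 1 - conj a * z ≠ 0 := by
  intro h
  have : ‖conj a * z‖ = 1 := by
    have : conj a * z = 1 := by linear_combination -h
    rw [this, norm_one]
  rw [norm_mul, Complex.norm_conj] at this
  nlinarith [norm_nonneg a, norm_nonneg z]

theorem one_sub_normSq_mob {a z : ℂ} (ha : ‖a‖ < 1) (hz : ‖z‖ < 1) :
    (1 - ‖mob a z‖^2) * ‖1 - conj a * z‖^2 = (1 - ‖a‖^2) * (1 - ‖z‖^2) := by
  have h1 := mob_den ha hz
  have h2 : ‖1 - conj a * z‖ ≠ 0 := norm_ne_zero_iff.2 h1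
  have := mob_key a z
  simp only [normSq_eq_norm_sq] at this
  unfold mob
  rw [norm_div, div_pow, sub_mul, one_mul, div_mul_cancel₀ _ (pow_ne_zero 2 h2)]
  exact this

theorem norm_mob_lt {a z : ℂ} (ha : ‖a‖ < 1) (hz : ‖z‖ < 1) : ‖mob a z‖ < 1 := by
  have h := one_sub_normSq_mob ha hz
  have h1 : 0 < (1 - ‖a‖^2) * (1 - ‖z‖^2) := by
    apply mul_pos <;> nlinarith [norm_nonneg a, norm_nonneg z]
  rw [← h] at h1
  have h2 : 0 < 1 - ‖mob a z‖^2 := by
    by_contra hc
    push Not at hc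
    have := mul_nonpos_of_nonpos_of_nonneg hc (sq_nonneg ‖1 - conj a * z‖)
    linarith
  nlinarith [norm_nonneg (mob a z)]

theorem mob_self {a : ℂ} : mob a a = 0 := by simp [mob]

theorem mob_hasDerivAt {a z : ℂ} (ha : ‖a‖ < 1) (hz : ‖z‖ < 1) :
    HasDerivAt (mob a) ((1 - conj a * a) / (1 - conj a * z)^2) z := by
  have h1 := mob_den ha hz
  have hn : HasDerivAt (fun z : ℂ => z - a) 1 z := (hasDerivAt_id z).sub_const a
  have hd : HasDerivAt (fun z : ℂ => 1 - conj a * z) (-(conj a)) z := by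
    simpa using ((hasDerivAt_id z).const_mul (conj a)).const_sub 1
  have := hn.div hd h1
  have e : (1 * (1 - conj a * z) - (z - a) * -(conj a)) = 1 - conj a * a := by ring
  rw [e] at this
  exact this

theorem one_sub_conj_mul (a : ℂ) : (1 - conj a * a : ℂ) = ((1 - ‖a‖^2 : ℝ) : ℂ) := by
  rw [mul_comm, mul_conj, normSq_eq_norm_sq]; push_cast; ring

section

variable {f : ℂ → ℂ} {c z : ℂ} {R : ℝ}

theorem comp_mob_diff (hd : DifferentiableOn ℂ f (ball c R)) (hm : MapsTo f (ball c R) (ball 0 1)) {a : ℂ}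
    (ha : ‖a‖ < 1) : DifferentiableOn ℂ (fun w => mob a (f w)) (ball c R) := by
  intro w hw
  have hfw : ‖f w‖ < 1 := by simpa using hm hw
  exact ((mob_hasDerivAt ha hfw).differentiableAt.comp_differentiableWithinAt w (hd w hw))

theorem comp_mob_maps (hm : MapsTo f (ball c R) (ball 0 1)) {a : ℂ}
    (ha : ‖a‖ < 1) : MapsTo (fun w => mob a (f w)) (ball c R) (ball 0 1) := by
  intro w hw
  have hfw : ‖f w‖ < 1 := by simpa using hm hw
  simpa using norm_mob_lt ha hfw

/-- growth form of Schwarz-Pick -/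
theorem sp_growth (hd : DifferentiableOn ℂ f (ball c R)) (hm : MapsTo f (ball c R) (ball 0 1))
    (hz : z ∈ ball c R) : (1 - ‖f c‖) / 4 * (1 - ‖z - c‖ / R) ≤ 1 - ‖f z‖ := by
  have hR : 0 < R := pos_of_mem_ball hz
  have hc : c ∈ ball c R := mem_ball_self hR
  have hfc : ‖f c‖ < 1 := by simpa using hm hc
  have hfz : ‖f z‖ < 1 := by simpa using hm hz
  have hG := comp_mob_diff hd hm hfc
  have hGm := comp_mob_maps hm hfc
  have h0 : mob (f c) (f c) = 0 := mob_self
  have h1 : ‖mob (f c) (f z)‖ ≤ ‖z - c‖ / R := by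
    have := dist_le_div_mul_dist_of_mapsTo_ball (f := fun w => mob (f c) (f w)) (R₂ := 1) hG (by
      rw [h0]; exact hGm.mono_right ball_subset_closedBall) hz
    rw [h0, dist_zero_right, dist_eq_norm] at this
    calc ‖mob (f c) (f z)‖ ≤ 1 / R * ‖z - c‖ := this
      _ = ‖z - c‖ / R := by ring
  set t := ‖z - c‖ / R with ht
  have ht0 : 0 ≤ t := by positivity
  have ht1 : t < 1 := by
    rw [ht, div_lt_one hR]; simpa [dist_eq_norm] using hz
  have key := one_sub_normSq_mob hfc hfz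
  set A := ‖f c‖ with hA
  set u := ‖f z‖ with hu
  set d := ‖1 - conj (f c) * f z‖ with hdd
  have hA0 : 0 ≤ A := norm_nonneg _
  have hu0 : 0 ≤ u := norm_nonneg _
  have hd1 : 1 - A ≤ d := by
    have h2 : ‖conj (f c) * f z‖ ≤ A := by
      rw [norm_mul, Complex.norm_conj, ← hA, ← hu]; nlinarith
    have h3 := norm_sub_norm_le (1:ℂ) (conj (f c) * f z)
    rw [norm_one] at h3
    linarith
  have hm1 : (1 - t^2) ≤ 1 - ‖mob (f c) (f z)‖^2 := by
    have := norm_nonneg (mob (f c) (f z))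
    nlinarith
  -- (1 - t^2) (1-A)^2 ≤ (1-A^2)(1-u^2)
  have h4 : (1 - t^2) * (1 - A)^2 ≤ (1 - A^2) * (1 - u^2) := by
    rw [← key]
    apply mul_le_mul hm1 _ (sq_nonneg _) (by nlinarith)
    exact pow_le_pow_left₀ (by linarith) hd1 2
  have h5 : (1 - t^2) * (1 - A) ≤ (1 + A) * (1 - u^2) := by
    have e1 : (1 - t^2) * (1 - A)^2 = (1 - A) * ((1 - t^2) * (1 - A)) := by ring
    have e2 : (1 - A^2) * (1 - u^2) = (1 - A) * ((1 + A) * (1 - u^2)) := by ring
    rw [e1, e2] at h4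
    exact le_of_mul_le_mul_left h4 (by linarith)
  have h6 : (1 + A) * (1 - u^2) ≤ 4 * (1 - u) := by
    have e3 : (1 + A) * (1 - u^2) = (1 + A) * (1 + u) * (1 - u) := by ring
    rw [e3]
    apply mul_le_mul_of_nonneg_right _ (by linarith)
    nlinarith
  have h7 : (1 - t) * (1 - A) ≤ (1 - t^2) * (1 - A) := by
    apply mul_le_mul_of_nonneg_right _ (by linarith)
    nlinarith
  nlinarith

/-- derivative form of Schwarz-Pick at the centre -/
theorem sp_deriv (hR : 0 < R) (hd : DifferentiableOn ℂ f (ball c R)) (hm : MapsTo f (ball c R) (ball 0 1)) :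
    ‖deriv f c‖ ≤ (1 - ‖f c‖^2) / R := by
  have hc : c ∈ ball c R := mem_ball_self hR
  have hfc : ‖f c‖ < 1 := by simpa using hm hc
  have hG := comp_mob_diff hd hm hfc
  have hGm := comp_mob_maps hm hfc
  have h0 : mob (f c) (f c) = 0 := mob_self
  have h1 := norm_deriv_le_div_of_mapsTo_ball (f := fun w => mob (f c) (f w)) (R₂ := 1) hG (by
      rw [h0]; exact hGm.mono_right ball_subset_closedBall) hR
  have hfd : HasDerivAt f (deriv f c) c := (hd.differentiableAt (isOpen_ball.mem_nhds hc)).hasDerivAt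
  have h2 : HasDerivAt (fun w => mob (f c) (f w))
      ((1 - conj (f c) * f c) / (1 - conj (f c) * f c)^2 * deriv f c) c :=
    (mob_hasDerivAt hfc hfc).comp c hfd
  rw [h2.deriv] at h1
  have hpos : 0 < 1 - ‖f c‖^2 := by nlinarith [norm_nonneg (f c)]
  rw [one_sub_conj_mul, norm_mul, norm_div, norm_pow, Complex.norm_real, Real.norm_eq_abs,
    abs_of_pos hpos] at h1
  have h3 : (1 - ‖f c‖ ^ 2) / (1 - ‖f c‖ ^ 2) ^ 2 * ‖deriv f c‖ = ‖deriv f c‖ / (1 - ‖f c‖^2) := by
    field_simp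
  rw [h3, div_le_iff₀ hpos] at h1
  calc ‖deriv f c‖ ≤ 1 / R * (1 - ‖f c‖^2) := h1
    _ = (1 - ‖f c‖^2) / R := by ring

end

end Crest.Agent.R165.Geo
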