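import Mathlib

/-!
# The four replica positivity behind the GHS inequality (helper697, R165 block U-N)

`X = Fin 4 → ℤˣ` is the single site space of four replicas, `va, vb, vc, vd` the rotated spins.
`Dc F` : `0 ≤ ∑ x, F x * M x` for every monomial `M` in the rotated spins.
-/

set_option autoImplicit false
set_option linter.unusedSectionVars false
set_option linter.unusedVariables false

open Finset

namespace Crest.Agent.R165.Ghs1x697

/-- real value of a sign -/
def sg (u : ℤˣ) : ℝ := ((u : ℤ) : ℝ)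

lemma sg_one : sg 1 = 1 := by simp [sg]

lemma sg_neg_one : sg (-1) = -1 := by simp [sg]

lemma sg_sq (u : ℤˣ) : sg u * sg u = 1 := by
  rcases Int.units_eq_one_or u with h | h <;> simp [sg, h]

/-- the four rotated spins of a quadruple of signs -/
noncomputable def va (x : Fin 4 → ℤˣ) : ℝ := (sg (x 0) + sg (x 1) + sg (x 2) + sg (x 3)) / 2
noncomputable def vb (x : Fin 4 → ℤˣ) : ℝ := (sg (x 0) + sg (x 1) - sg (x 2) - sg (x 3)) / 2
noncomputable def vc (x : Fin 4 → ℤˣ) : ℝ := (sg (x 0) - sg (x 1) + sg (x 2) - sg (x 3)) / 2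
noncomputable def vd (x : Fin 4 → ℤˣ) : ℝ := -(sg (x 0) - sg (x 1) - sg (x 2) + sg (x 3)) / 2

/-- the rotation is orthogonal -/
lemma rot (x y : Fin 4 → ℤˣ) :
    va x * va y + vb x * vb y + vc x * vc y + vd x * vd y = ∑ r, sg (x r) * sg (y r) := by
  simp only [va, vb, vc, vd, Fin.sum_univ_four]
  ring

lemma sum_units {M : Type*} [AddCommMonoid M] (f : ℤˣ → M) : ∑ u : ℤˣ, f u = f 1 + f (-1) := by
  have h : (Finset.univ : Finset ℤˣ) = {1, -1} := by decide
  rw [h, Finset.sum_pair (by decide)]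

lemma sum_quad {M : Type*} [AddCommMonoid M] (f : (Fin 4 → ℤˣ) → M) :
    ∑ x, f x = ∑ u : ℤˣ, ∑ v : ℤˣ, ∑ s : ℤˣ, ∑ t : ℤˣ, f ![u, v, s, t] := by
  rw [← (Fin.consEquiv fun _ : Fin 4 => ℤˣ).sum_comp]
  rw [Fintype.sum_prod_type]
  refine Finset.sum_congr rfl fun u _ => ?_
  rw [← (Fin.consEquiv fun _ : Fin 3 => ℤˣ).sum_comp, Fintype.sum_prod_type]
  refine Finset.sum_congr rfl fun v _ => ?_
  rw [← (Fin.consEquiv fun _ : Fin 2 => ℤˣ).sum_comp, Fintype.sum_prod_type]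
  refine Finset.sum_congr rfl fun s _ => ?_
  rw [← (Fin.consEquiv fun _ : Fin 1 => ℤˣ).sum_comp, Fintype.sum_prod_type]
  refine Finset.sum_congr rfl fun t _ => ?_
  simp only [Finset.univ_unique, Finset.sum_singleton]
  congr 1

lemma npow_nonneg_sum (p : ℕ) : (0 : ℝ) ≤ 2 ^ p + (-2) ^ p := by
  rcases Nat.even_or_odd p with h | h
  · rw [h.neg_pow]; positivity
  · rw [h.neg_pow]; simp

/-- single site positivity -/
lemma single (p q r s : ℕ) :
    0 ≤ ∑ x : Fin 4 → ℤˣ, va x ^ p * vb x ^ q * vc x ^ r * vd x ^ s := by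
  rw [sum_quad]
  simp only [sum_units, va, vb, vc, vd, Matrix.cons_val_zero, Matrix.cons_val_one,
    Matrix.cons_val, sg_one, sg_neg_one]
  norm_num
  rcases Nat.even_or_odd p with hp | hp <;> rcases Nat.even_or_odd q with hq | hq <;>
    rcases Nat.even_or_odd r with hr | hr <;> rcases Nat.even_or_odd s with hs | hs <;>
    simp only [hp.neg_pow, hq.neg_pow, hr.neg_pow, hs.neg_pow, hp.neg_one_pow, hq.neg_one_pow,
      hr.neg_one_pow, hs.neg_one_pow, one_pow] <;>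
    ring_nf <;> positivity


variable {ι : Type*} [Fintype ι] [DecidableEq ι]

/-- monomials in the rotated spins of all sites -/
noncomputable def mon (p q r s : ι → ℕ) (x : ι → Fin 4 → ℤˣ) : ℝ :=
  ∏ i, (va (x i) ^ p i * vb (x i) ^ q i * vc (x i) ^ r i * vd (x i) ^ s i)

lemma mon_mul (p q r s p' q' r' s' : ι → ℕ) (x : ι → Fin 4 → ℤˣ) :
    mon p q r s x * mon p' q' r' s' x = mon (p + p') (q + q') (r + r') (s + s') x := by
  simp only [mon, ← Finset.prod_mul_distrib, Pi.add_apply, pow_add]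
  refine Finset.prod_congr rfl fun i _ => by ring

lemma sum_mon_nonneg (p q r s : ι → ℕ) : 0 ≤ ∑ x : ι → Fin 4 → ℤˣ, mon p q r s x := by
  unfold mon
  rw [← Fintype.piFinset_univ, ← Finset.prod_univ_sum (fun _ : ι => (Finset.univ : Finset (Fin 4 → ℤˣ)))
    (fun i (y : Fin 4 → ℤˣ) => va y ^ p i * vb y ^ q i * vc y ^ r i * vd y ^ s i)]
  exact Finset.prod_nonneg fun i _ => single _ _ _ _

/-- `M` is a monomial in the rotated spins -/
def IsMon (M : (ι → Fin 4 → ℤˣ) → ℝ) : Prop := ∃ p q r s : ι → ℕ, ∀ x, M x = mon p q r s x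

lemma IsMon.mul {M N : (ι → Fin 4 → ℤˣ) → ℝ} (hM : IsMon M) (hN : IsMon N) :
    IsMon (fun x => M x * N x) := by
  obtain ⟨p, q, r, s, h⟩ := hM
  obtain ⟨p', q', r', s', h'⟩ := hN
  exact ⟨p + p', q + q', r + r', s + s', fun x => by
    show M x * N x = _
    rw [h, h', mon_mul]⟩

lemma IsMon.one : IsMon (fun _ : ι → Fin 4 → ℤˣ => (1 : ℝ)) :=
  ⟨0, 0, 0, 0, fun x => by simp [mon]⟩

lemma IsMon.pow {M : (ι → Fin 4 → ℤˣ) → ℝ} (hM : IsMon M) (n : ℕ) :
    IsMon (fun x => M x ^ n) := by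
  induction n with
  | zero => simpa using IsMon.one (ι := ι)
  | succ n ih => simpa [pow_succ] using ih.mul hM

private lemma prod_single (f : (Fin 4 → ℤˣ) → ℝ) (i : ι) (x : ι → Fin 4 → ℤˣ) :
    ∏ j, f (x j) ^ (Pi.single i 1 : ι → ℕ) j = f (x i) := by
  rw [Finset.prod_eq_single i]
  · simp
  · intro j _ hj
    simp [Pi.single_eq_of_ne hj]
  · simp

lemma IsMon.a (i : ι) : IsMon (fun x : ι → Fin 4 → ℤˣ => va (x i)) :=
  ⟨Pi.single i 1, 0, 0, 0, fun x => by simp [mon, prod_single]⟩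
lemma IsMon.b (i : ι) : IsMon (fun x : ι → Fin 4 → ℤˣ => vb (x i)) :=
  ⟨0, Pi.single i 1, 0, 0, fun x => by simp [mon, prod_single]⟩
lemma IsMon.c (i : ι) : IsMon (fun x : ι → Fin 4 → ℤˣ => vc (x i)) :=
  ⟨0, 0, Pi.single i 1, 0, fun x => by simp [mon, prod_single]⟩
lemma IsMon.d (i : ι) : IsMon (fun x : ι → Fin 4 → ℤˣ => vd (x i)) :=
  ⟨0, 0, 0, Pi.single i 1, fun x => by simp [mon, prod_single]⟩

/-- the dual cone of the monomials -/
def Dc (F : (ι → Fin 4 → ℤˣ) → ℝ) : Prop := ∀ M, IsMon M → 0 ≤ ∑ x, F x * M x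

lemma Dc.one : Dc (fun _ : ι → Fin 4 → ℤˣ => (1 : ℝ)) := by
  rintro M ⟨p, q, r, s, h⟩
  simp only [one_mul, h]
  exact sum_mon_nonneg p q r s

lemma Dc.congr {F G : (ι → Fin 4 → ℤˣ) → ℝ} (hF : Dc F) (h : ∀ x, G x = F x) : Dc G := by
  have : G = F := funext h
  rwa [this]

/-- the dual cone is stable under multiplication by `exp (t * M)`, `t ≥ 0` -/
lemma Dc.mul_exp {F M : (ι → Fin 4 → ℤˣ) → ℝ} (hF : Dc F) (hM : IsMon M) {t : ℝ} (ht : 0 ≤ t) :
    Dc (fun x => F x * Real.exp (t * M x)) := by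
  intro N hN
  have h1 : ∀ x, HasSum (fun n : ℕ => F x * ((t * M x) ^ n / n.factorial) * N x)
      (F x * Real.exp (t * M x) * N x) := fun x => by
    have h := NormedSpace.expSeries_div_hasSum_exp (t * M x)
    rw [← Real.exp_eq_exp_ℝ] at h
    exact (h.mul_left (F x)).mul_right (N x)
  have h2 := hasSum_sum (s := Finset.univ) fun x _ => h1 x
  refine h2.nonneg fun n => ?_
  have h3 : ∑ x, F x * ((t * M x) ^ n / n.factorial) * N x
      = (t ^ n / n.factorial) * ∑ x, F x * (M x ^ n * N x) := by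
    rw [Finset.mul_sum]
    refine Finset.sum_congr rfl fun x _ => by rw [mul_pow]; ring
  rw [h3]
  exact mul_nonneg (by positivity) (hF _ ((hM.pow n).mul hN))

lemma Dc.mul_exp_sum {κ : Type*} (S : Finset κ) {t : κ → ℝ} (ht : ∀ k ∈ S, 0 ≤ t k)
    {M : κ → (ι → Fin 4 → ℤˣ) → ℝ} (hM : ∀ k ∈ S, IsMon (M k))
    {F : (ι → Fin 4 → ℤˣ) → ℝ} (hF : Dc F) :
    Dc (fun x => F x * Real.exp (∑ k ∈ S, t k * M k x)) := by
  classical
  induction S using Finset.induction_on with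
  | empty => exact hF.congr fun x => by simp
  | insert k S hk ih =>
    refine ((ih (fun j hj => ht j (Finset.mem_insert_of_mem hj))
      (fun j hj => hM j (Finset.mem_insert_of_mem hj))).mul_exp
        (hM k (Finset.mem_insert_self k S)) (ht k (Finset.mem_insert_self k S))).congr fun x => ?_
    rw [Finset.sum_insert hk, Real.exp_add]
    ring

end Crest.Agent.R165.Ghs1x697
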