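import Crest.Agent.R165.PathDf_641

/-!
# Row 165 (S0250), block U5: `LDD` from continuous convergence, axis or diagonal steps (helper641)

`NF x` is the filter of pairs `(a, u)` (mesh, lattice configuration) with `a → 0+` and `a u → x`.
If the one-step quotients `(Z a (u + v at i) / Z a u - 1) / a` converge along `NF x` for every
`x ∈ Conf n D` (equivalently: along every sequence, `UCv.of_seq`), then everything is locally
uniform automatically.  `LDD.of_axis` uses axis steps, `LDD.of_diag` uses the two diagonal steps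
and the fact that one axis step has ratio tending to `1`.
-/

set_option autoImplicit false

noncomputable section

open Filter Topology Set
open Crest.ProbabilityR.IsingModel

namespace Crest.Agent.R165.PathSeqx641

open ConfTopx641 PathIntx641 PathGlx641 PathDfx641

variable {n : ℕ}

/-- pairs `(a, u)` with `a → 0+` and `a u → x` -/
def NF (x : Fin n → ℂ) : Filter (ℝ × (Fin n → ℤ × ℤ)) :=
  comap Prod.fst (𝓝[>] 0) ⊓ comap (fun p : ℝ × (Fin n → ℤ × ℤ) => mc p.1 p.2) (𝓝 x)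

instance (x : Fin n → ℂ) : (NF x).IsCountablyGenerated := by
  unfold NF; infer_instance

theorem tendsto_nf_iff {β : Type*} {l : Filter β} {x : Fin n → ℂ}
    {f : β → ℝ × (Fin n → ℤ × ℤ)} :
    Tendsto f l (NF x) ↔ Tendsto (fun b => (f b).1) l (𝓝[>] 0) ∧
      Tendsto (fun b => mc (f b).1 (f b).2) l (𝓝 x) := by
  unfold NF
  rw [tendsto_inf, tendsto_comap_iff, tendsto_comap_iff]
  rfl

theorem nf_fst (x : Fin n → ℂ) : Tendsto (fun p : ℝ × (Fin n → ℤ × ℤ) => p.1) (NF x) (𝓝[>] 0) :=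
  (tendsto_nf_iff.1 tendsto_id).1

theorem nf_mc (x : Fin n → ℂ) : Tendsto (fun p : ℝ × (Fin n → ℤ × ℤ) => mc p.1 p.2) (NF x) (𝓝 x) :=
  (tendsto_nf_iff.1 tendsto_id).2

theorem nf_pos (x : Fin n → ℂ) : ∀ᶠ p : ℝ × (Fin n → ℤ × ℤ) in NF x, 0 < p.1 :=
  (nf_fst x).eventually eventually_mem_nhdsWithin

/-- shifting by a fixed lattice vector -/
theorem nf_shift (x : Fin n → ℂ) (i : Fin n) (v : ℤ × ℤ) :
    Tendsto (fun p : ℝ × (Fin n → ℤ × ℤ) => (p.1, sh p.2 i v)) (NF x) (NF x) := by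
  rw [tendsto_nf_iff]
  refine ⟨nf_fst x, ?_⟩
  simp only [mc_sh]
  rw [tendsto_pi_nhds]
  intro k
  have h1 := tendsto_pi_nhds.1 (nf_mc x) k
  by_cases hk : k = i
  · subst hk
    simp only [csh, Function.update_self]
    have h2 : Tendsto (fun p : ℝ × (Fin n → ℤ × ℤ) => ((p.1 : ℝ) : ℂ) * cv v) (NF x)
        (𝓝 (((0 : ℝ) : ℂ) * cv v)) :=
      ((Complex.continuous_ofReal.tendsto 0).comp
        ((nf_fst x).mono_right nhdsWithin_le_nhds)).mul_const _
    have h3 := h1.add h2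
    simpa using h3
  · simp only [csh, Function.update_of_ne hk]; exact h1

theorem nf_hasBasis {x : Fin n → ℂ} {P : ℝ × (Fin n → ℤ × ℤ) → Prop} (h : ∀ᶠ p in NF x, P p) :
    ∃ δ > 0, ∀ a : ℝ, 0 < a → a < δ → ∀ u : Fin n → ℤ × ℤ, dist (mc a u) x < δ → P (a, u) := by
  unfold NF at h
  rw [eventually_inf] at h
  obtain ⟨s, hs, t, ht, hst⟩ := h
  obtain ⟨s', hs', hss⟩ := mem_comap.1 hs
  obtain ⟨t', ht', htt⟩ := mem_comap.1 ht
  obtain ⟨δ1, hδ1, h1⟩ := mem_nhdsGT_iff_exists_Ioo_subset.1 hs'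
  obtain ⟨δ2, hδ2, h2⟩ := Metric.mem_nhds_iff.1 ht'
  refine ⟨min δ1 δ2, lt_min hδ1 hδ2, fun a ha haδ u hu => ?_⟩
  refine hst (a, u) ⟨hss (h1 ⟨ha, haδ.trans_le (min_le_left _ _)⟩), htt (h2 ?_)⟩
  exact hu.trans_le (min_le_right _ _)

/-- compactness: an eventual property along every `NF x`, `x ∈ K`, is uniform on `K` -/
theorem ev_compact {K : Set (Fin n → ℂ)} (hK : IsCompact K) {P : ℝ × (Fin n → ℤ × ℤ) → Prop}
    (h : ∀ x ∈ K, ∀ᶠ p in NF x, P p) :
    ∀ᶠ a in 𝓝[>] (0 : ℝ), ∀ u : Fin n → ℤ × ℤ, mc a u ∈ K → P (a, u) := by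
  classical
  choose! δ hδ hP using fun x hx => nf_hasBasis (h x hx)
  obtain ⟨t, htK, ht⟩ := hK.elim_nhds_subcover (fun x => Metric.ball x (if x ∈ K then δ x else 1))
    (fun x hx => Metric.ball_mem_nhds x (by rw [if_pos hx]; exact hδ x hx))
  have h1 : ∀ᶠ a in 𝓝[>] (0 : ℝ), ∀ y ∈ t, a < δ y := by
    rw [eventually_all_finset]
    intro y hy
    exact nhdsWithin_le_nhds (Iio_mem_nhds (hδ y (htK y hy)))
  filter_upwards [h1, eventually_mem_nhdsWithin] with a ha ha0 u hu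
  obtain ⟨y, hy, hyu⟩ := mem_iUnion₂.1 (ht hu)
  rw [if_pos (htK y hy)] at hyu
  exact hP y (htK y hy) a ha0 (ha y hy) u hyu

/-- continuous convergence -/
def UC (U : Set (Fin n → ℂ)) (q : ℝ × (Fin n → ℤ × ℤ) → ℝ) (G : (Fin n → ℂ) → ℝ) : Prop :=
  ∀ x ∈ U, Tendsto q (NF x) (𝓝 (G x))

/-- sequential criterion -/
theorem UC.of_seq {U : Set (Fin n → ℂ)} {q : ℝ × (Fin n → ℤ × ℤ) → ℝ} {G : (Fin n → ℂ) → ℝ}
    (h : ∀ x ∈ U, ∀ (a : ℕ → ℝ) (u : ℕ → Fin n → ℤ × ℤ), (∀ k, 0 < a k) →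
      Tendsto a atTop (𝓝 0) → Tendsto (fun k => mc (a k) (u k)) atTop (𝓝 x) →
      Tendsto (fun k => q (a k, u k)) atTop (𝓝 (G x))) : UC U q G := by
  intro x hx
  refine tendsto_of_seq_tendsto fun s hs => ?_
  obtain ⟨h1, h2⟩ := tendsto_nf_iff.1 hs
  -- replace the finitely many bad meshes
  have hpos : ∀ᶠ k in atTop, 0 < (s k).1 := h1.eventually eventually_mem_nhdsWithin
  let a : ℕ → ℝ := fun k => if 0 < (s k).1 then (s k).1 else 1
  have ha : ∀ k, 0 < a k := by
    intro k; simp only [a]; split_ifs with h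
    · exact h
    · exact one_pos
  have hae : ∀ᶠ k in atTop, a k = (s k).1 := by
    filter_upwards [hpos] with k hk; simp only [a, if_pos hk]
  have h1' : Tendsto a atTop (𝓝 0) :=
    (h1.mono_right nhdsWithin_le_nhds).congr' (hae.mono fun k hk => hk.symm)
  have h2' : Tendsto (fun k => mc (a k) (s k).2) atTop (𝓝 x) :=
    h2.congr' (hae.mono fun k hk => by simp only [hk])
  refine (h x hx a (fun k => (s k).2) ha h1' h2').congr' ?_
  filter_upwards [hae] with k hk
  rw [hk]; rfl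

/-- the limit is continuous -/
theorem UC.continuousOn {U : Set (Fin n → ℂ)} (hU : IsOpen U) {q : ℝ × (Fin n → ℤ × ℤ) → ℝ}
    {G : (Fin n → ℂ) → ℝ} (h : UC U q G) : ContinuousOn G U := by
  intro x hx
  apply ContinuousAt.continuousWithinAt
  rw [Metric.continuousAt_iff]
  intro ε hε
  have h1 : ∀ᶠ p in NF x, dist (q p) (G x) ≤ ε / 2 :=
    (h x hx).eventually (Metric.closedBall_mem_nhds _ (half_pos hε))
  obtain ⟨δ, hδ, hP⟩ := nf_hasBasis h1
  obtain ⟨r, hr, hrU⟩ := Metric.isOpen_iff.1 hU x hx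
  refine ⟨min r (δ / 2), lt_min hr (half_pos hδ), fun {y} hy => ?_⟩
  have hyU : y ∈ U := hrU (hy.trans_le (min_le_left _ _))
  have hy2 : dist y x < δ / 2 := hy.trans_le (min_le_right _ _)
  have h2 : ∀ᶠ p in NF y, dist (q p) (G x) ≤ ε / 2 := by
    have e1 : ∀ᶠ p : ℝ × (Fin n → ℤ × ℤ) in NF y, dist (mc p.1 p.2) y < δ / 2 :=
      (nf_mc y).eventually (Metric.ball_mem_nhds y (half_pos hδ))
    have e2 : ∀ᶠ p : ℝ × (Fin n → ℤ × ℤ) in NF y, p.1 < δ :=
      ((nf_fst y).mono_right nhdsWithin_le_nhds).eventually (Iio_mem_nhds hδ)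
    filter_upwards [e1, e2, nf_pos y] with p h3 h4 h5
    exact hP p.1 h5 h4 p.2 ((dist_triangle _ y _).trans_lt (by linarith))
  have hne : (NF y).NeBot := by
    have : Tendsto (fun a : ℝ => (a, fun i => meshIndex a (y i))) (𝓝[>] 0) (NF y) :=
      tendsto_nf_iff.2 ⟨tendsto_id, tendsto_mesh y⟩
    exact this.neBot
  have h3 : dist (G y) (G x) ≤ ε / 2 :=
    le_of_tendsto ((h y hyU).dist tendsto_const_nhds) h2
  linarith

/-- one-step quotient -/
def qv (Z : ℝ → (Fin n → ℤ × ℤ) → ℝ) (i : Fin n) (v : ℤ × ℤ) (p : ℝ × (Fin n → ℤ × ℤ)) : ℝ :=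
  (Z p.1 (sh p.2 i v) / Z p.1 p.2 - 1) / p.1

theorem UC.ldv {U K V : Set (Fin n → ℂ)} (hU : IsOpen U) (hK : IsCompact K) (hKU : K ⊆ U)
    (hVK : V ⊆ K) {Z : ℝ → (Fin n → ℤ × ℤ) → ℝ} {i : Fin n} {v : ℤ × ℤ} {G : (Fin n → ℂ) → ℝ}
    (h : UC U (qv Z i v) G) : LDv V Z i v G := by
  intro ε hε
  have hc := h.continuousOn hU
  have h1 : ∀ x ∈ K, ∀ᶠ p : ℝ × (Fin n → ℤ × ℤ) in NF x,
      |Z p.1 (sh p.2 i v) / Z p.1 p.2 - 1 - p.1 * G (mc p.1 p.2)| ≤ ε * p.1 := by
    intro x hx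
    have e1 : Tendsto (fun p : ℝ × (Fin n → ℤ × ℤ) => qv Z i v p - G (mc p.1 p.2)) (NF x)
        (𝓝 (G x - G x)) :=
      (h x (hKU hx)).sub ((hc.continuousAt (hU.mem_nhds (hKU hx))).tendsto.comp (nf_mc x))
    rw [sub_self] at e1
    have e2 := e1.eventually (Metric.closedBall_mem_nhds (0 : ℝ) hε)
    filter_upwards [e2, nf_pos x] with p h2 h3
    change dist _ _ ≤ _ at h2
    rw [dist_zero_right, Real.norm_eq_abs] at h2
    have e3 : Z p.1 (sh p.2 i v) / Z p.1 p.2 - 1 - p.1 * G (mc p.1 p.2) =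
        (qv Z i v p - G (mc p.1 p.2)) * p.1 := by
      unfold qv; field_simp
    rw [e3, abs_mul, abs_of_pos h3]
    exact mul_le_mul_of_nonneg_right h2 h3.le
  filter_upwards [ev_compact hK h1] with a ha u hu
  exact ha u (hVK hu)

variable {D : Set ℂ} {Z : ℝ → (Fin n → ℤ × ℤ) → ℝ} {g : Fin n → Fin 2 → (Fin n → ℂ) → ℝ}

theorem posOn_of_nf {K : Set (Fin n → ℂ)} (hK : IsCompact K)
    (h : ∀ x ∈ K, ∀ᶠ p : ℝ × (Fin n → ℤ × ℤ) in NF x, 0 < Z p.1 p.2) : PosOn K Z :=
  ev_compact (P := fun p => 0 < Z p.1 p.2) hK h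

theorem PosOn.mono {U V : Set (Fin n → ℂ)} (h : PosOn U Z) (hV : V ⊆ U) : PosOn V Z := by
  filter_upwards [h] with a ha u hu
  exact ha u (hV hu)

/-- **`LDD` from axis steps** -/
theorem LDD.of_axis (hD : IsOpen D) (hc : IsPreconnected D)
    (hpos : ∀ x ∈ Conf n D, ∀ᶠ p : ℝ × (Fin n → ℤ × ℤ) in NF x, 0 < Z p.1 p.2)
    (h : ∀ i j, UC (Conf n D) (qv Z i (unitVec j)) (g i j)) : LDD n D Z g where
  isOpen := hD
  conn := hc
  loc x hx := by
    have hCo := Conf.isOpen n hD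
    obtain ⟨r, hr, hrU⟩ := Metric.nhds_basis_closedBall.mem_iff.1 (hCo.mem_nhds hx)
    have hK : IsCompact (Metric.closedBall x r) := isCompact_closedBall x r
    refine ⟨Metric.ball x r, Metric.mem_ball_self hr, LD.of_axis Metric.isOpen_ball ?_ ?_ ?_⟩
    · exact PosOn.mono (posOn_of_nf hK fun y hy => hpos y (hrU hy)) Metric.ball_subset_closedBall
    · exact fun i j => ((h i j).continuousOn hCo).mono (Metric.ball_subset_closedBall.trans hrU)
    · exact fun i j => (h i j).ldv hCo hK hrU Metric.ball_subset_closedBall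

/-- sequences version of `LDD.of_axis` -/
theorem LDD.of_axis_seq (hD : IsOpen D) (hc : IsPreconnected D)
    (hpos : ∀ x ∈ Conf n D, ∀ᶠ p : ℝ × (Fin n → ℤ × ℤ) in NF x, 0 < Z p.1 p.2)
    (h : ∀ i j, ∀ x ∈ Conf n D, ∀ (a : ℕ → ℝ) (u : ℕ → Fin n → ℤ × ℤ), (∀ k, 0 < a k) →
      Tendsto a atTop (𝓝 0) → Tendsto (fun k => mc (a k) (u k)) atTop (𝓝 x) →
      Tendsto (fun k => (Z (a k) (sh (u k) i (unitVec j)) / Z (a k) (u k) - 1) / a k) atTop
        (𝓝 (g i j x))) : LDD n D Z g :=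
  LDD.of_axis hD hc hpos fun i j => UC.of_seq (h i j)

/-- two-step quotients from the two diagonal steps -/
theorem UC.two_step (hpos : ∀ x ∈ Conf n D, ∀ᶠ p : ℝ × (Fin n → ℤ × ℤ) in NF x, 0 < Z p.1 p.2)
    (hp : ∀ i, UC (Conf n D) (qv Z i (1, 1)) fun x => g i 0 x + g i 1 x)
    (hm : ∀ i, UC (Conf n D) (qv Z i (1, -1)) fun x => g i 0 x - g i 1 x) (i : Fin n) (j : Fin 2) :
    UC (Conf n D) (qv Z i ((2 : ℤ) • unitVec j)) fun x => 2 * g i j x := by
  intro x hx
  have hA := hp i x hx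
  have ha0 : Tendsto (fun p : ℝ × (Fin n → ℤ × ℤ) => p.1) (NF x) (𝓝 0) :=
    (nf_fst x).mono_right nhdsWithin_le_nhds
  have hpos1 := (nf_shift x i (1, 1)).eventually (hpos x hx)
  fin_cases j
  · -- (2,0) = (1,1) + (1,-1)
    have hB := (hm i x hx).comp (nf_shift x i (1, 1))
    have h1 := (hA.add hB).add ((ha0.mul hA).mul hB)
    have h2 : (g i 0 x + g i 1 x) + (g i 0 x - g i 1 x) +
        0 * (g i 0 x + g i 1 x) * (g i 0 x - g i 1 x) = 2 * g i 0 x := by ring
    rw [h2] at h1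
    refine h1.congr' ?_
    filter_upwards [hpos x hx, hpos1, nf_pos x] with p h3 h4 h5
    simp only [Function.comp, qv, sh_sh] at h4 ⊢
    have e : ((1 : ℤ), (1 : ℤ)) + (1, -1) = (2 : ℤ) • unitVec 0 := by
      simp [unitVec]
    rw [e]
    change _ = (Z p.1 (sh p.2 i ((2 : ℤ) • unitVec 0)) / Z p.1 p.2 - 1) / p.1
    field_simp
    ring
  · -- (0,2) + (1,-1) = (1,1)
    have hB := (hm i x hx).comp (nf_shift x i ((2 : ℤ) • unitVec 1))
    have hpos2 := (nf_shift x i ((2 : ℤ) • unitVec 1)).eventually (hpos x hx)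
    have hB1 : ∀ᶠ p : ℝ × (Fin n → ℤ × ℤ) in NF x,
        1 + p.1 * (qv Z i (1, -1) ∘ fun p : ℝ × (Fin n → ℤ × ℤ) =>
          (p.1, sh p.2 i ((2 : ℤ) • unitVec 1))) p ≠ 0 := by
      have h7 := (ha0.mul hB).const_add 1
      rw [zero_mul, add_zero] at h7
      exact h7.eventually (isOpen_ne.mem_nhds one_ne_zero)
    have h1 := (hA.sub hB).div ((ha0.mul hB).const_add 1) (by simp)
    have h2 : ((g i 0 x + g i 1 x) - (g i 0 x - g i 1 x)) / (1 + 0 * (g i 0 x - g i 1 x)) =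
        2 * g i 1 x := by
      rw [zero_mul, add_zero, div_one]; ring
    rw [h2] at h1
    refine h1.congr' ?_
    filter_upwards [hpos x hx, hpos1, hpos2, nf_pos x] with p h3 h4 h5 h6
    simp only [Pi.div_apply, Function.comp, qv, sh_sh] at h4 h5 ⊢
    have e : (2 : ℤ) • unitVec 1 + (1, -1) = ((1 : ℤ), (1 : ℤ)) := by
      simp [unitVec]
    rw [e]
    change _ = (Z p.1 (sh p.2 i ((2 : ℤ) • unitVec 1)) / Z p.1 p.2 - 1) / p.1
    have key : ∀ P0 P1 P2 a : ℝ, 0 < P0 → 0 < P1 → 0 < P2 → 0 < a →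
        ((P1 / P0 - 1) / a - (P1 / P2 - 1) / a) / (1 + a * ((P1 / P2 - 1) / a)) =
          (P2 / P0 - 1) / a := by
      intro P0 P1 P2 a h0 h1 h2 ha
      have e1 : 1 + a * ((P1 / P2 - 1) / a) = P1 / P2 := by field_simp; ring
      rw [e1]; field_simp; ring
    exact key _ _ _ _ h3 h4 h5 h6

/-- **`LDD` from the two diagonal steps and one axis step of ratio `→ 1`** -/
theorem LDD.of_diag (hD : IsOpen D) (hc : IsPreconnected D)
    (hpos : ∀ x ∈ Conf n D, ∀ᶠ p : ℝ × (Fin n → ℤ × ℤ) in NF x, 0 < Z p.1 p.2)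
    (hp : ∀ i, UC (Conf n D) (qv Z i (1, 1)) fun x => g i 0 x + g i 1 x)
    (hm : ∀ i, UC (Conf n D) (qv Z i (1, -1)) fun x => g i 0 x - g i 1 x)
    (hax : ∀ i j, UC (Conf n D)
      (fun p => Z p.1 (sh p.2 i (unitVec j)) / Z p.1 p.2) fun _ => 1) : LDD n D Z g where
  isOpen := hD
  conn := hc
  loc x hx := by
    have hCo := Conf.isOpen n hD
    obtain ⟨r, hr, hrU⟩ := Metric.nhds_basis_closedBall.mem_iff.1 (hCo.mem_nhds hx)
    have hK : IsCompact (Metric.closedBall x r) := isCompact_closedBall x r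
    have h2 : ∀ i j, UC (Conf n D) (qv Z i ((2 : ℤ) • unitVec j)) fun x => 2 * g i j x :=
      fun i j => UC.two_step hpos hp hm i j
    have hgc : ∀ i j, ContinuousOn (g i j) (Conf n D) := by
      intro i j
      have := ((h2 i j).continuousOn hCo).const_smul (1 / 2 : ℝ)
      refine this.congr fun y _ => ?_
      simp
    have hpo : PosOn (Metric.ball x r) Z :=
      PosOn.mono (posOn_of_nf hK fun y hy => hpos y (hrU hy)) Metric.ball_subset_closedBall
    refine ⟨Metric.ball x r, Metric.mem_ball_self hr, Metric.isOpen_ball, hpo,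
      fun i j => (hgc i j).mono (Metric.ball_subset_closedBall.trans hrU), ?_⟩
    intro i j x' T hseg l hl u hu N hN
    have hld : LDv (Metric.ball x r) Z i ((2 : ℤ) • unitVec j) fun x => 2 * g i j x :=
      (h2 i j).ldv hCo hK hrU Metric.ball_subset_closedBall
    -- half the number of steps
    have ha0 : Tendsto (fun a : ℝ => a) l (𝓝 0) := tendsto_id.mono_left (hl.trans nhdsWithin_le_nhds)
    have hNdec : ∀ a, N a = 2 * (N a / 2) + N a % 2 := fun a => (Int.mul_ediv_add_emod (N a) 2).symm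
    have hr01 : ∀ a, 0 ≤ N a % 2 ∧ N a % 2 < 2 := fun a =>
      ⟨Int.emod_nonneg _ (by norm_num), Int.emod_lt_of_pos _ (by norm_num)⟩
    have hrem : Tendsto (fun a => a * ((N a % 2 : ℤ) : ℝ)) l (𝓝 0) := by
      have hb : Tendsto (fun a : ℝ => 2 * |a|) l (𝓝 0) := by
        have := (ha0.abs).const_mul 2
        simpa using this
      refine squeeze_zero_norm (fun a => ?_) hb
      rw [Real.norm_eq_abs, abs_mul, mul_comm]
      refine mul_le_mul_of_nonneg_right ?_ (abs_nonneg a)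
      obtain ⟨h3, h4⟩ := hr01 a
      rw [abs_of_nonneg (by exact_mod_cast h3)]
      exact_mod_cast h4.le
    have hM : Tendsto (fun a => a * ((N a / 2 : ℤ) : ℝ)) l (𝓝 (T / 2)) := by
      have := (hN.sub hrem).div_const 2
      rw [sub_zero] at this
      refine this.congr fun a => ?_
      have h5 : (N a : ℝ) = 2 * ((N a / 2 : ℤ) : ℝ) + ((N a % 2 : ℤ) : ℝ) := by
        exact_mod_cast hNdec a
      rw [h5]; ring
    have hcv2 : cv ((2 : ℤ) • unitVec j) = 2 * cv (unitVec j) := by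
      rw [cv_smul]; norm_num
    have hseg2 : ∀ s ∈ uIcc 0 (T / 2), csh x' i ((s : ℂ) * cv ((2 : ℤ) • unitVec j)) ∈
        Metric.ball x r := by
      intro s hs
      have e : (s : ℂ) * cv ((2 : ℤ) • unitVec j) = ((2 * s : ℝ) : ℂ) * cv (unitVec j) := by
        rw [hcv2]; push_cast; ring
      rw [e]
      apply hseg
      rcases le_total 0 T with h | h
      · rw [uIcc_of_le (by linarith)] at hs
        rw [uIcc_of_le h]
        exact ⟨by linarith [hs.1], by linarith [hs.2]⟩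
      · rw [uIcc_of_ge (by linarith)] at hs
        rw [uIcc_of_ge h]
        exact ⟨by linarith [hs.1], by linarith [hs.2]⟩
    have hmain := segment_int Metric.isOpen_ball hpo
      (((hgc i j).mono (Metric.ball_subset_closedBall.trans hrU)).const_smul (2 : ℝ) |>.congr
        fun y _ => by simp) hld hseg2 hl hu hM
    -- the integral
    have hI : (∫ s in (0 : ℝ)..(T / 2), 2 * g i j (csh x' i ((s : ℂ) * cv ((2 : ℤ) • unitVec j)))) =
        ∫ s in (0 : ℝ)..T, g i j (csh x' i ((s : ℂ) * cv (unitVec j))) := by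
      have e : (fun s : ℝ => 2 * g i j (csh x' i ((s : ℂ) * cv ((2 : ℤ) • unitVec j)))) =
          fun s : ℝ => 2 * (fun t : ℝ => g i j (csh x' i ((t : ℂ) * cv (unitVec j)))) (2 * s) := by
        funext s
        have : (s : ℂ) * cv ((2 : ℤ) • unitVec j) = ((2 * s : ℝ) : ℂ) * cv (unitVec j) := by
          rw [hcv2]; push_cast; ring
        simp only [this]
      rw [e, intervalIntegral.integral_const_mul, intervalIntegral.integral_comp_mul_left
        (fun t : ℝ => g i j (csh x' i ((t : ℂ) * cv (unitVec j)))) (by norm_num : (2 : ℝ) ≠ 0)]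
      have e2 : 2 * (T / 2) = T := by ring
      rw [mul_zero, e2, smul_eq_mul]
      ring
    rw [hI] at hmain
    -- the last step
    set w : ℝ → Fin n → ℤ × ℤ := fun a => sh (u a) i ((N a / 2) • (2 : ℤ) • unitVec j) with hw
    set y := csh x' i ((T : ℂ) * cv (unitVec j)) with hy
    have hwlim : Tendsto (fun a => mc a (w a)) l (𝓝 y) := by
      rw [tendsto_pi_nhds]
      intro k
      have hx1 : Tendsto (fun a => mc a (u a) k) l (𝓝 (x' k)) := tendsto_pi_nhds.1 hu k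
      by_cases hk : k = i
      · subst hk
        have e1 : y k = x' k + ((T / 2 : ℝ) : ℂ) * (2 * cv (unitVec j)) := by
          simp only [hy, csh, Function.update_self]; push_cast; ring
        have e2 : ∀ a, mc a (w a) k = mc a (u a) k +
            ((a * ((N a / 2 : ℤ) : ℝ) : ℝ) : ℂ) * (2 * cv (unitVec j)) := by
          intro a
          simp only [hw, mc_sh, csh, Function.update_self]
          rw [cv_smul, hcv2]
          push_cast; ring
        rw [e1]
        simp only [e2]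
        exact hx1.add (((Complex.continuous_ofReal.tendsto _).comp hM).mul_const _)
      · have e1 : y k = x' k := by simp [hy, csh, hk]
        have e2 : ∀ a, mc a (w a) k = mc a (u a) k := by
          intro a; simp only [hw, mc_sh, csh, Function.update_of_ne hk]
        rw [e1]; simp only [e2]; exact hx1
    have hyC : y ∈ Conf n D :=
      hrU (Metric.ball_subset_closedBall (hseg T right_mem_uIcc))
    have hnf : Tendsto (fun a => (a, w a)) l (NF y) :=
      tendsto_nf_iff.2 ⟨tendsto_id.mono_left hl, hwlim⟩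
    have hlast : Tendsto (fun a => Z a (sh (w a) i ((N a % 2) • unitVec j)) / Z a (w a)) l
        (𝓝 1) := by
      rw [Metric.tendsto_nhds]
      intro ε hε
      have e1 := hnf.eventually ((hax i j y hyC).eventually (Metric.ball_mem_nhds 1 hε))
      have e2 := hnf.eventually (hpos y hyC)
      filter_upwards [e1, e2] with a h5 h6
      have h7 : N a % 2 = 0 ∨ N a % 2 = 1 := by
        have := hr01 a; omega
      rcases h7 with h7 | h7
      · rw [h7, zero_smul, sh_zero, div_self h6.ne', dist_self]; exact hε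
      · rw [h7, one_smul]; exact h5
    have hfin := hlast.mul hmain
    rw [one_mul] at hfin
    refine hfin.congr' ?_
    filter_upwards [hnf.eventually (hpos y hyC)] with a h6
    have e3 : sh (w a) i ((N a % 2) • unitVec j) = sh (u a) i (N a • unitVec j) := by
      simp only [hw, sh_sh]
      congr 1
      rw [smul_smul, ← add_smul]
      congr 1
      have := hNdec a
      omega
    rw [e3]
    have : Z a (w a) ≠ 0 := h6.ne'
    rw [hw] at this ⊢
    rw [div_mul_div_cancel₀ this]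

end Crest.Agent.R165.PathSeqx641
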