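import Crest.Agent.R165.UDomB_420
import Crest.Agent.R165.Lat_683

/-!
# Row 165 (S0250), U6-DOM part K (helper420): interface for the kernel limits

Statement of the kernel limits wanted from U3/U4 for one domain `D`, boundary condition (`fr = true`:
free, `fr = false`: plus) and spins `x`, in the gauge of `Lat_683` (horizontal rays to the right).
Points ON the rays are allowed: `kap` is the sign which turns the ray gauge into the gauge which is
trivial near `z` (faces above the line of `z` keep their sign).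

* `KerD fr D x bl rg` : `a⁻¹ κ κ' S_a((f,i),(f',i')) → bl z z' (e_i, e_{i'})` for `z ≠ z'` in `D ∖ x`,
  `a⁻¹ (κ κ' S_a((f,i),(f',i')) - [plane value]) → rg z (e_i, e_{i'})` for the two faces of a bond at `z`
* `kerLim_of` : this gives `KerLim` of `UDomB_420` for every choice of bonds.
* `KerCov` : weight-1/2 covariance.
-/

set_option autoImplicit false

noncomputable section

open Filter Topology Finset
open Crest.ProbabilityR.IsingModel

namespace Crest.Agent.R165.UKerx420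

open Crest.Agent.R165.Gr0x606 Crest.Agent.R165.Enx599
open Crest.Agent.R165.Topx683 Crest.Agent.R165.Redx541 Crest.Agent.R165.Centx541
open Crest.Agent.R165.Latx683 (BW HE hp hq wDom ray wX IsCov covS formS Fld)
open Crest.Agent.R165.UDomBx420

/-- test vectors of the four directions `S, E, N, W` : `e^{-3iθ/2}`, `θ = -90, 0, 90, 180` -/
def edir (i : Fin 4) : ℂ :=
  if i = 0 then ⟨-(Real.sqrt 2 / 2), Real.sqrt 2 / 2⟩
  else if i = 1 then 1
  else if i = 2 then ⟨-(Real.sqrt 2 / 2), -(Real.sqrt 2 / 2)⟩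
  else Complex.I

/-- the half-edges `i = 0, 1` of the bond `(v, j)` -/
def hb (v : ℤ × ℤ) (j i : Fin 2) : HE ℤ := if i = 0 then hp v j else hq v j

theorem edir_hb (v : ℤ × ℤ) (j i : Fin 2) : edir (hb v j i).2 = ed j i := by
  fin_cases j <;> fin_cases i <;> simp [hb, edir, ed, hp, hq]

/-- local gauge sign at the point `z`, face `f`, lattice spins `X`, continuum spins `x` -/
def kap {n : ℕ} (x : Fin n → ℂ) (X : Fin n → ℤ × ℤ) (z : ℂ) (f : ℤ × ℤ) : ℝ := by
  classical exact
  ∏ i, if (x i).im = z.im ∧ (x i).re < z.re ∧ f.2 < (X i).2 then -1 else 1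

theorem kap_sq {n : ℕ} (x : Fin n → ℂ) (X : Fin n → ℤ × ℤ) (z : ℂ) (f : ℤ × ℤ) :
    kap x X z f * kap x X z f = 1 := by
  unfold kap
  rw [← Finset.prod_mul_distrib]
  refine Finset.prod_eq_one fun i _ => ?_
  split_ifs <;> norm_num

/-- the rescaled face -/
def fpt (a : ℝ) (f : ℤ × ℤ) : ℂ := meshPoint a f

/-- background of the domain `D` at mesh `a` with spins `X` -/
def wD (fr : Bool) (D : Set ℂ) (a : ℝ) {n : ℕ} (X : Fin n → ℤ × ℤ) : BW ℤ :=
  wX (wDom (domainSites D a) fr) X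

/-- plane value of `S` for the two half-edges of one bond -/
def cB (i i' : Fin 2) : ℝ := if i = 0 ∧ i' = 1 then cP else if i = 1 ∧ i' = 0 then -cP else 0

/-- the kernel limits of one domain -/
structure KerD (fr : Bool) (D : Set ℂ) {n : ℕ} (x : Fin n → ℂ)
    (bl : ℂ → ℂ → LinearMap.BilinForm ℝ ℂ) (rg : ℂ → LinearMap.BilinForm ℝ ℂ) : Prop where
  /-- two different points -/
  off : ∀ (S : ℝ → HE ℤ → HE ℤ → ℝ),
    (∀ᶠ a in 𝓝[>] (0 : ℝ), IsCov (wD fr D a (fun i => meshIndex a (x i))) (S a)) →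
    ∀ z z' : ℂ, z ∈ D → z' ∈ D → z ≠ z' → (∀ i, x i ≠ z) → (∀ i, x i ≠ z') →
    ∀ (i i' : Fin 4) (f f' : ℝ → ℤ × ℤ), Tendsto (fun a => fpt a (f a)) (𝓝[>] 0) (𝓝 z) →
      Tendsto (fun a => fpt a (f' a)) (𝓝[>] 0) (𝓝 z') →
      Tendsto (fun a => a⁻¹ * (kap x (fun i => meshIndex a (x i)) z (f a) *
        kap x (fun i => meshIndex a (x i)) z' (f' a) * S a (f a, i) (f' a, i'))) (𝓝[>] 0)
        (𝓝 (bl z z' (edir i) (edir i')))
  /-- regular part at a bond -/
  diag : ∀ (S : ℝ → HE ℤ → HE ℤ → ℝ),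
    (∀ᶠ a in 𝓝[>] (0 : ℝ), IsCov (wD fr D a (fun i => meshIndex a (x i))) (S a)) →
    ∀ z : ℂ, z ∈ D → (∀ i, x i ≠ z) → ∀ (j i i' : Fin 2),
      Tendsto (fun a => a⁻¹ * (kap x (fun i => meshIndex a (x i)) z (hb (meshIndex a z) j i).1 *
        kap x (fun i => meshIndex a (x i)) z (hb (meshIndex a z) j i').1 *
          S a (hb (meshIndex a z) j i) (hb (meshIndex a z) j i') - cB i i')) (𝓝[>] 0)
        (𝓝 (rg z (ed j i) (ed j i')))
  /-- skew -/
  skew : ∀ z z', z ∈ D → z' ∈ D → z ≠ z' → ∀ c c', bl z z' c c' = -bl z' z c' c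
  /-- alternating -/
  alt : ∀ z, z ∈ D → ∀ c, rg z c c = 0

/-- weight-1/2 covariance of the kernel limits -/
def KerCov (D : Set ℂ) {n : ℕ} (x : Fin n → ℂ) (φ : ℂ → ℂ)
    (bl bl' : ℂ → ℂ → LinearMap.BilinForm ℝ ℂ) (rg rg' : ℂ → LinearMap.BilinForm ℝ ℂ) : Prop :=
  ∃ r : ℂ → ℂ,
    (∀ z ∈ D, (∀ i, x i ≠ z) → r z ^ 2 = deriv φ z) ∧
    (∀ z z', z ∈ D → z' ∈ D → z ≠ z' → (∀ i, x i ≠ z) → (∀ i, x i ≠ z') → ∀ c c',
      bl z z' c c' = bl' (φ z) (φ z') (r z * c) (r z' * c')) ∧
    ∀ z, z ∈ D → (∀ i, x i ≠ z) → ∀ c c', rg z c c' = rg' (φ z) (r z * c) (r z * c')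

/-! ### the form on `Fin m → ℂ` -/

/-- assembled limit form -/
def asm {m : ℕ} (y : Fin m → ℂ) (bl : ℂ → ℂ → LinearMap.BilinForm ℝ ℂ)
    (rg : ℂ → LinearMap.BilinForm ℝ ℂ) : LinearMap.BilinForm ℝ (Fin m → ℂ) :=
  ∑ k : Fin m, ∑ l : Fin m, (if k = l then rg (y k) else bl (y k) (y l)).compl₁₂
    (LinearMap.proj k) (LinearMap.proj l)

theorem asm_single {m : ℕ} (y : Fin m → ℂ) (bl : ℂ → ℂ → LinearMap.BilinForm ℝ ℂ)
    (rg : ℂ → LinearMap.BilinForm ℝ ℂ) (k l : Fin m) (c d : ℂ) :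
    asm y bl rg (Pi.single k c) (Pi.single l d) =
      (if k = l then rg (y k) else bl (y k) (y l)) c d := by
  unfold asm
  simp only [LinearMap.sum_apply, LinearMap.compl₁₂_apply, LinearMap.proj_apply]
  rw [Finset.sum_eq_single k]
  · rw [Finset.sum_eq_single l]
    · simp
    · intro l' _ h
      rw [Pi.single_eq_of_ne h, map_zero]
    · intro h; exact absurd (Finset.mem_univ _) h
  · intro k' _ h
    refine Finset.sum_eq_zero fun l' _ => ?_
    rw [Pi.single_eq_of_ne h, map_zero, LinearMap.zero_apply]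
  · intro h; exact absurd (Finset.mem_univ _) h

theorem asm_apply {m : ℕ} (y : Fin m → ℂ) (bl : ℂ → ℂ → LinearMap.BilinForm ℝ ℂ)
    (rg : ℂ → LinearMap.BilinForm ℝ ℂ) (u v : Fin m → ℂ) :
    asm y bl rg u v = ∑ k : Fin m, ∑ l : Fin m,
      (if k = l then rg (y k) else bl (y k) (y l)) (u k) (v l) := by
  unfold asm
  simp only [LinearMap.sum_apply, LinearMap.compl₁₂_apply, LinearMap.proj_apply]

/-- the covariance -/
def asmCov {m : ℕ} (y : Fin m → ℂ) (bl : ℂ → ℂ → LinearMap.BilinForm ℝ ℂ)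
    (rg : ℂ → LinearMap.BilinForm ℝ ℂ)
    (hs : ∀ k l, k ≠ l → ∀ c c', bl (y k) (y l) c c' = -bl (y l) (y k) c' c)
    (ha : ∀ k c, rg (y k) c c = 0) : Cov (Fin m → ℂ) where
  b := asm y bl rg
  alt u := by
    have hrg : ∀ k c d, rg (y k) c d = -rg (y k) d c := by
      intro k c d
      have h := ha k (c + d)
      simp only [map_add, LinearMap.add_apply, ha, zero_add, add_zero] at h
      linarith
    have key : asm y bl rg u u = -asm y bl rg u u := by
      calc asm y bl rg u u = ∑ k : Fin m, ∑ l : Fin m,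
            (if k = l then rg (y k) else bl (y k) (y l)) (u k) (u l) := asm_apply _ _ _ _ _
        _ = ∑ l : Fin m, ∑ k : Fin m,
            (if k = l then rg (y k) else bl (y k) (y l)) (u k) (u l) := Finset.sum_comm
        _ = -∑ l : Fin m, ∑ k : Fin m,
            (if l = k then rg (y l) else bl (y l) (y k)) (u l) (u k) := by
          rw [← Finset.sum_neg_distrib]
          refine Finset.sum_congr rfl fun l _ => ?_
          rw [← Finset.sum_neg_distrib]
          refine Finset.sum_congr rfl fun k _ => ?_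
          by_cases h : k = l
          · subst h; simp only [if_true]; exact hrg _ _ _
          · rw [if_neg h, if_neg (Ne.symm h)]; exact hs _ _ h _ _
        _ = -asm y bl rg u u := by rw [asm_apply]
    linarith

/-! ### floors -/

theorem tendsto_floor (t : ℝ) (c : ℤ) :
    Tendsto (fun a : ℝ => a * ((⌊t / a⌋ + c : ℤ) : ℝ)) (𝓝[>] 0) (𝓝 t) := by
  have h1 : Tendsto (fun a : ℝ => a) (𝓝[>] 0) (𝓝 0) := tendsto_id.mono_left nhdsWithin_le_nhds
  have h2 : Tendsto (fun a : ℝ => t + (|(c : ℝ)| + 1) * a) (𝓝[>] 0) (𝓝 t) := by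
    simpa using (h1.const_mul (|(c : ℝ)| + 1)).const_add t
  have h3 : Tendsto (fun a : ℝ => t - (|(c : ℝ)| + 1) * a) (𝓝[>] 0) (𝓝 t) := by
    simpa using (h1.const_mul (|(c : ℝ)| + 1)).const_sub t
  refine tendsto_of_tendsto_of_tendsto_of_le_of_le' h3 h2 ?_ ?_
  · filter_upwards [self_mem_nhdsWithin] with a ha
    have ha' : (0 : ℝ) < a := ha
    have h4 := Int.lt_floor_add_one (t / a)
    have h5 : t < a * (⌊t / a⌋ + 1) := by
      have := (div_lt_iff₀ ha').1 h4
      linarith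
    have h6 := neg_abs_le (c : ℝ)
    push_cast
    nlinarith
  · filter_upwards [self_mem_nhdsWithin] with a ha
    have ha' : (0 : ℝ) < a := ha
    have h4 := Int.floor_le (t / a)
    have h5 : a * ⌊t / a⌋ ≤ t := by
      have := (le_div_iff₀ ha').1 h4
      linarith
    have h6 := le_abs_self (c : ℝ)
    push_cast
    nlinarith

theorem tendsto_mesh (z : ℂ) (c : ℤ × ℤ) :
    Tendsto (fun a : ℝ => meshPoint a (meshIndex a z + c)) (𝓝[>] 0) (𝓝 z) := by
  have h1 := tendsto_floor z.re c.1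
  have h2 := tendsto_floor z.im c.2
  have h3 : Tendsto (fun a : ℝ => ((a * ((⌊z.re / a⌋ + c.1 : ℤ) : ℝ) : ℝ) : ℂ) +
      ((a * ((⌊z.im / a⌋ + c.2 : ℤ) : ℝ) : ℝ) : ℂ) * Complex.I) (𝓝[>] 0)
      (𝓝 ((z.re : ℂ) + (z.im : ℂ) * Complex.I)) := by
    refine Tendsto.add ?_ (Tendsto.mul_const _ ?_)
    · exact (Complex.continuous_ofReal.tendsto _).comp h1
    · exact (Complex.continuous_ofReal.tendsto _).comp h2
  rw [Complex.re_add_im] at h3
  refine h3.congr fun a => ?_
  apply Complex.ext <;> simp [meshPoint, meshIndex]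

theorem eventually_mem {D : Set ℂ} (hD : IsOpen D) {z : ℂ} (hz : z ∈ D) (c : ℤ × ℤ) :
    ∀ᶠ a in 𝓝[>] (0 : ℝ), meshIndex a z + c ∈ domainSites D a :=
  (tendsto_mesh z c).eventually (hD.mem_nhds hz)

theorem eventually_floor_lt {s t : ℝ} (h : s < t) : ∀ᶠ a in 𝓝[>] (0 : ℝ), ⌊s / a⌋ < ⌊t / a⌋ := by
  have h1 : ∀ᶠ a in 𝓝[>] (0 : ℝ), a * ((⌊s / a⌋ + 1 : ℤ) : ℝ) < a * ((⌊t / a⌋ + 0 : ℤ) : ℝ) :=
    (tendsto_floor s 1).eventually_lt (tendsto_floor t 0) h
  filter_upwards [h1, self_mem_nhdsWithin] with a ha ha0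
  have ha' : (0 : ℝ) < a := ha0
  have := lt_of_mul_lt_mul_left ha ha'.le
  have h2 : ⌊s / a⌋ + 1 < ⌊t / a⌋ + 0 := by exact_mod_cast this
  omega

theorem floor_le_of_le {s t a : ℝ} (ha : 0 < a) (h : s ≤ t) : ⌊s / a⌋ ≤ ⌊t / a⌋ :=
  Int.floor_le_floor ((div_le_div_iff_of_pos_right ha).2 h)

/-- for small mesh, the ray condition at `z` is the continuum one -/
theorem eventually_ray {n : ℕ} (x : Fin n → ℂ) (z : ℂ) (hx : ∀ i, x i ≠ z) (j : Fin 2) :
    ∀ᶠ a in 𝓝[>] (0 : ℝ),
      ray (fun i => meshIndex a (x i)) (meshIndex a z) j =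
        kap x (fun i => meshIndex a (x i)) z (hb (meshIndex a z) j 0).1 *
        kap x (fun i => meshIndex a (x i)) z (hb (meshIndex a z) j 1).1 := by
  have key : ∀ i, ∀ᶠ a in 𝓝[>] (0 : ℝ),
      ((meshIndex a (x i)).2 = (meshIndex a z).2 ∧ (meshIndex a (x i)).1 ≤ (meshIndex a z).1) ↔
        ((x i).im = z.im ∧ (x i).re < z.re) := by
    intro i
    by_cases him : (x i).im = z.im
    · have hre : (x i).re ≠ z.re := fun h => hx i (Complex.ext h him)
      rcases lt_or_gt_of_ne hre with h | h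
      · filter_upwards [self_mem_nhdsWithin] with a ha
        refine ⟨fun _ => ⟨him, h⟩, fun _ => ⟨?_, floor_le_of_le ha h.le⟩⟩
        simp [meshIndex, him]
      · filter_upwards [eventually_floor_lt h] with a ha
        refine ⟨fun hh => absurd hh.2 (not_le.2 ha), fun hh => absurd hh.2 (not_lt.2 h.le)⟩
    · rcases lt_or_gt_of_ne him with h | h
      · filter_upwards [eventually_floor_lt h] with a ha
        exact ⟨fun hh => absurd hh.1 ha.ne, fun hh => absurd hh.1 him⟩
      · filter_upwards [eventually_floor_lt h] with a ha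
        exact ⟨fun hh => absurd hh.1 ha.ne', fun hh => absurd hh.1 him⟩
  filter_upwards [eventually_all.2 key] with a ha
  unfold ray kap
  rw [← Finset.prod_mul_distrib]
  refine Finset.prod_congr rfl fun i _ => ?_
  have hi := ha i
  fin_cases j
  · simp only [Fin.zero_eta, Fin.isValue, true_and, hb, if_true, Latx683.hp_zero, one_ne_zero,
      if_false, Latx683.hq_zero]
    by_cases hc : (x i).im = z.im ∧ (x i).re < z.re
    · have h2 := hi.2 hc
      rw [if_pos h2, if_neg, if_pos]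
      · norm_num
      · refine ⟨hc.1, hc.2, ?_⟩
        have := h2.1
        omega
      · rintro ⟨-, -, h3⟩
        have := h2.1
        omega
    · rw [if_neg (fun h => hc (hi.1 h)), if_neg (fun h => hc ⟨h.1, h.2.1⟩),
        if_neg (fun h => hc ⟨h.1, h.2.1⟩)]
      norm_num
  · simp only [Fin.mk_one, Fin.isValue, hb, if_true, Latx683.hp_one, one_ne_zero, if_false,
      Latx683.hq_one, false_and]
    by_cases hc : (x i).im = z.im ∧ (x i).re < z.re
    · have h2 := hi.2 hc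
      have h3 : ¬ (meshIndex a z).2 < (meshIndex a (x i)).2 := by
        have := h2.1
        omega
      simp [h3]
    · have h3 : ∀ b : ℤ, ¬((x i).im = z.im ∧ (x i).re < z.re ∧ b < (meshIndex a (x i)).2) :=
        fun b h => hc ⟨h.1, h.2.1⟩
      simp [h3]

theorem wDom_inside {D : Set ℂ} {a : ℝ} {v : ℤ × ℤ} {j : Fin 2} (fr : Bool)
    (h : v ∈ domainSites D a) (h' : v + unitVec j ∈ domainSites D a) :
    wDom (domainSites D a) fr v j = UDomBx420.xc := by
  unfold wDom
  cases fr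
  · simp only [Bool.false_eq_true, if_false]
    rw [if_pos (Or.inl h)]
    rfl
  · simp only [if_true]
    rw [if_pos ⟨h, h'⟩]
    rfl

/-! ### a covariance for every background -/

open Classical in
/-- a chosen covariance of the background -/
def Sof (w : BW ℤ) : HE ℤ → HE ℤ → ℝ := if h : ∃ S, IsCov w S then h.choose else fun _ _ => 0

theorem Sof_spec {w : BW ℤ} (h : ∃ S, IsCov w S) : IsCov w (Sof w) := by
  unfold Sof
  rw [dif_pos h]
  exact h.choose_spec

theorem Sof_skew (w : BW ℤ) (h h' : HE ℤ) : Sof w h h' = -Sof w h' h := by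
  by_cases hw : ∃ S, IsCov w S
  · exact (Sof_spec hw).skew h h'
  · unfold Sof
    rw [dif_neg hw]
    simp

/-- Grassmann covariance of a background -/
def Cof (w : BW ℤ) : Cov (Fld ℤ) := covS (Sof w) (Sof_skew w)

theorem Cof_single (w : BW ℤ) (h h' : HE ℤ) :
    (Cof w).b (Finsupp.single h 1) (Finsupp.single h' 1) = Sof w h h' :=
  Latx683.formS_single _ h h'

/-- **from `KerD` to the abstract `KerLim` of `UDomB_420`** -/
theorem kerLim_of {fr : Bool} {D : Set ℂ} (hD : IsOpen D) {n m : ℕ} {x : Fin n → ℂ}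
    {bl : ℂ → ℂ → LinearMap.BilinForm ℝ ℂ} {rg : ℂ → LinearMap.BilinForm ℝ ℂ}
    (K : KerD fr D x bl rg)
    (hex : ∀ᶠ a in 𝓝[>] (0 : ℝ), ∃ S, IsCov (wD fr D a (fun i => meshIndex a (x i))) S)
    (y : Fin m → ℂ) (j : Fin m → Fin 2) (hy : ∀ k, y k ∈ D) (hxy : ∀ i k, x i ≠ y k)
    (hinj : Function.Injective y) :
    KerLim (fun _ => Fld ℤ) (fun a => Cof (wD fr D a (fun i => meshIndex a (x i)))) j
      (fun a k i => Finsupp.single (hb (meshIndex a (y k)) (j k) i) 1)
      (fun a k => wD fr D a (fun i => meshIndex a (x i)) (meshIndex a (y k)) (j k))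
      (asmCov y bl rg (fun k l h => K.skew _ _ (hy k) (hy l) (fun e => h (hinj e)))
        (fun k => K.alt _ (hy k))) := by
  set X : ℝ → Fin n → ℤ × ℤ := fun a i => meshIndex a (x i) with hX
  have hS : ∀ᶠ a in 𝓝[>] (0 : ℝ), IsCov (wD fr D a (X a)) (Sof (wD fr D a (X a))) :=
    hex.mono fun a h => Sof_spec h
  refine ⟨fun a k i => kap x (X a) (y k) (hb (meshIndex a (y k)) (j k) i).1, ?_, ?_⟩
  · have h1 : ∀ k, ∀ᶠ a in 𝓝[>] (0 : ℝ), meshIndex a (y k) + 0 ∈ domainSites D a :=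
      fun k => eventually_mem hD (hy k) 0
    have h2 : ∀ k, ∀ᶠ a in 𝓝[>] (0 : ℝ),
        meshIndex a (y k) + unitVec (j k) ∈ domainSites D a :=
      fun k => eventually_mem hD (hy k) _
    have h3 : ∀ k, ∀ᶠ a in 𝓝[>] (0 : ℝ), _ :=
      fun k => eventually_ray x (y k) (fun i => hxy i k) (j k)
    filter_upwards [eventually_all.2 h1, eventually_all.2 h2, eventually_all.2 h3] with a h1 h2 h3 k
    have e1 : wD fr D a (X a) (meshIndex a (y k)) (j k) =
        ray (X a) (meshIndex a (y k)) (j k) * UDomBx420.xc := by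
      unfold wD wX
      rw [wDom_inside fr (by simpa using h1 k) (h2 k)]
    show wD fr D a (X a) (meshIndex a (y k)) (j k) = _
    rw [e1, h3 k]
  · rintro ⟨k, i⟩ ⟨l, i'⟩
    have e : M0 (asmCov y bl rg (fun k l h => K.skew _ _ (hy k) (hy l) (fun e => h (hinj e)))
        (fun k => K.alt _ (hy k))) j (k, i) (l, i') =
        (if k = l then rg (y k) else bl (y k) (y l)) (ed (j k) i) (ed (j l) i') :=
      asm_single y bl rg k l _ _
    rw [e]
    by_cases hkl : k = l
    · subst hkl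
      rw [if_pos rfl]
      refine (K.diag _ hS (y k) (hy k) (fun i => hxy i k) (j k) i i').congr fun a => ?_
      congr 1
      rw [Cof_single]
      congr 1
      unfold cBlock cB
      simp
    · rw [if_neg hkl]
      have hne : y k ≠ y l := fun h => hkl (hinj h)
      have hf : ∀ (q : Fin m) (i : Fin 2), ∃ c : ℤ × ℤ, ∀ a : ℝ,
          (hb (meshIndex a (y q)) (j q) i).1 = meshIndex a (y q) + c := by
        intro q i
        generalize j q = jq
        fin_cases jq <;> fin_cases i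
        · exact ⟨0, fun a => by simp [hb]⟩
        · exact ⟨(0, -1), fun a => by ext <;> simp [hb, hq, sub_eq_add_neg]⟩
        · exact ⟨(-1, 0), fun a => by ext <;> simp [hb, hp, sub_eq_add_neg]⟩
        · exact ⟨0, fun a => by simp [hb, hq]⟩
      obtain ⟨c, hc⟩ := hf k i
      obtain ⟨c', hc'⟩ := hf l i'
      have t1 : Tendsto (fun a => fpt a ((hb (meshIndex a (y k)) (j k) i).1)) (𝓝[>] 0)
          (𝓝 (y k)) := (tendsto_mesh (y k) c).congr fun a => by rw [hc a]; rfl
      have t2 : Tendsto (fun a => fpt a ((hb (meshIndex a (y l)) (j l) i').1)) (𝓝[>] 0)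
          (𝓝 (y l)) := (tendsto_mesh (y l) c').congr fun a => by rw [hc' a]; rfl
      have hlim := K.off _ hS (y k) (y l) (hy k) (hy l) hne (fun i => hxy i k) (fun i => hxy i l)
        (hb 0 (j k) i).2 (hb 0 (j l) i').2 _ _ t1 t2
      rw [edir_hb, edir_hb] at hlim
      refine hlim.congr fun a => ?_
      congr 1
      rw [Cof_single]
      have hd : ∀ (v : ℤ × ℤ) (jj ii : Fin 2), (hb v jj ii) = ((hb v jj ii).1, (hb 0 jj ii).2) := by
        intro v jj ii
        fin_cases jj <;> fin_cases ii <;> rfl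
      have e3 : cBlock (k, i) (l, i') = 0 := by
        unfold cBlock
        rw [if_neg hkl]
      rw [e3, sub_zero, ← hd, ← hd]

end Crest.Agent.R165.UKerx420
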