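import Crest.Agent.R165.Gr2_813
import Crest.Agent.R165.UKer_420
import Crest.Agent.R165.PathSeq_641

/-!
# Row 165 (S0250), block U4 (helper813): the background near a spin, and the step identity

* `locAt_wX` : near `X i` the background `wX w X` (`w = x_c` there) is the translate of the
  plane with one branch vertex `wB` (helper644), up to the gauge `kap x X (x i)` (helper420)
* `ev_loc` : this holds in a ball of fixed radius around `x i` when `a X → x`
-/

set_option autoImplicit false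

noncomputable section

open Filter Topology Set
open Crest.ProbabilityR.IsingModel

namespace Crest.Agent.R165.Gr3x813

open Crest.Agent.R165.Latx683 Crest.Agent.R165.Br1x644 Crest.Agent.R165.Gr2x813
open Crest.Agent.R165.UKerx420 (kap kap_sq)
open Crest.Agent.R165.PathIntx641 (mc)
open Crest.Agent.R165.PathSeqx641 (NF nf_fst nf_mc nf_pos)

/-- combinatorial condition on the face `f`: the rays of the other points look like full lines -/
def Good {n : ℕ} (x : Fin n → ℂ) (X : Fin n → ℤ × ℤ) (i : Fin n) (f : ℤ × ℤ) : Prop :=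
  ∀ j, j ≠ i → (((x j).im = (x i).im ∧ (x j).re < (x i).re) → (X j).1 ≤ f.1) ∧
    (¬((x j).im = (x i).im ∧ (x j).re < (x i).re) →
      ¬(((X j).2 = f.2 ∨ (X j).2 = f.2 + 1) ∧ (X j).1 ≤ f.1))

theorem kap_eq_prod {n : ℕ} (x : Fin n → ℂ) (X : Fin n → ℤ × ℤ) (z : ℂ) (f : ℤ × ℤ) :
    kap x X z f = ∏ j, if (x j).im = z.im ∧ (x j).re < z.re ∧ f.2 < (X j).2 then (-1 : ℝ) else 1 := by
  unfold kap
  refine Finset.prod_congr rfl fun j _ => ?_
  split_ifs <;> rfl

/-- one horizontal bond -/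
theorem ray_kap {n : ℕ} {x : Fin n → ℂ} {X : Fin n → ℤ × ℤ} {i : Fin n} (z : ℤ × ℤ)
    (hz : ∀ j, j ≠ i → (((x j).im = (x i).im ∧ (x j).re < (x i).re) → (X j).1 ≤ z.1) ∧
      (¬((x j).im = (x i).im ∧ (x j).re < (x i).re) → ¬((X j).2 = z.2 ∧ (X j).1 ≤ z.1))) :
    ray X z 0 = (if (X i).2 = z.2 ∧ (X i).1 ≤ z.1 then -1 else 1) *
      (kap x X (x i) (z.1, z.2 - 1) * kap x X (x i) z) := by
  rw [kap_eq_prod, kap_eq_prod]
  unfold ray
  rw [← Finset.prod_mul_distrib]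
  set F : Fin n → ℝ := fun j =>
    if (0 : Fin 2) = 0 ∧ (X j).2 = z.2 ∧ (X j).1 ≤ z.1 then (-1 : ℝ) else 1 with hF
  set H : Fin n → ℝ := fun j =>
    (if (x j).im = (x i).im ∧ (x j).re < (x i).re ∧ z.2 - 1 < (X j).2 then (-1 : ℝ) else 1) *
    (if (x j).im = (x i).im ∧ (x j).re < (x i).re ∧ z.2 < (X j).2 then (-1 : ℝ) else 1) with hH
  rw [← Finset.mul_prod_erase Finset.univ F (Finset.mem_univ i),
    ← Finset.mul_prod_erase Finset.univ H (Finset.mem_univ i)]
  have e1 : F i = if (X i).2 = z.2 ∧ (X i).1 ≤ z.1 then -1 else 1 := by simp [hF]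
  have e2 : H i = 1 := by simp [hH]
  rw [e1, e2, one_mul]
  congr 1
  refine Finset.prod_congr rfl fun j hj => ?_
  have hji := Finset.ne_of_mem_erase hj
  obtain ⟨h1, h2⟩ := hz j hji
  simp only [hF, hH]
  by_cases hc : (x j).im = (x i).im ∧ (x j).re < (x i).re
  · have h3 := h1 hc
    by_cases h4 : (X j).2 = z.2
    · rw [if_pos ⟨trivial, h4, h3⟩, if_pos ⟨hc.1, hc.2, by omega⟩, if_neg (by omega)]; norm_num
    · rw [if_neg (fun h => h4 h.2.1)]
      by_cases h5 : z.2 < (X j).2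
      · rw [if_pos ⟨hc.1, hc.2, by omega⟩, if_pos ⟨hc.1, hc.2, h5⟩]; norm_num
      · rw [if_neg (by omega), if_neg (by omega)]; norm_num
  · rw [if_neg (fun h => h2 hc h.2), if_neg (fun h => hc ⟨h.1, h.2.1⟩),
      if_neg (fun h => hc ⟨h.1, h.2.1⟩)]
    norm_num

theorem wB_zero (z : ℤ × ℤ) : wB z 0 = (if 0 = z.2 ∧ 0 ≤ z.1 then -1 else 1) * Latx683.xc := by
  simp [wB, wX, ray, wPl]

theorem wB_one (z : ℤ × ℤ) : wB z 1 = Latx683.xc := by
  simp [wB, wX, ray, wPl]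

theorem ray_one {n : ℕ} (X : Fin n → ℤ × ℤ) (z : ℤ × ℤ) : ray X z 1 = 1 := by
  unfold ray
  refine Finset.prod_eq_one fun j _ => ?_
  rw [if_neg (fun h => absurd h.1 (by decide))]

/-- vertical direction: the gauge does not change -/
theorem kap_snd {n : ℕ} (x : Fin n → ℂ) (X : Fin n → ℤ × ℤ) (z : ℂ) (p q r : ℤ) :
    kap x X z (p, r) = kap x X z (q, r) := by
  unfold kap; rfl

/-- **near `X i` the background is the branched plane** -/
theorem locAt_wX {n : ℕ} {w : BW ℤ} {x : Fin n → ℂ} {X : Fin n → ℤ × ℤ} {i : Fin n} {f : ℤ × ℤ}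
    (hw : ∀ d, ew w f d = Latx683.xc) (hf : Good x X i f) :
    LocAt (wX w X) wB (X i) (kap x X (x i)) f := by
  have hk : ∀ g, kap x X (x i) g * kap x X (x i) g = 1 := kap_sq x X (x i)
  have hz1 : ray X f 0 = (if (X i).2 = f.2 ∧ (X i).1 ≤ f.1 then -1 else 1) *
      (kap x X (x i) (f.1, f.2 - 1) * kap x X (x i) f) :=
    ray_kap f fun j hj => ⟨(hf j hj).1, fun hc h => (hf j hj).2 hc ⟨Or.inl h.1, h.2⟩⟩
  have hz2 : ray X (f.1, f.2 + 1) 0 = (if (X i).2 = f.2 + 1 ∧ (X i).1 ≤ f.1 then -1 else 1) *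
      (kap x X (x i) f * kap x X (x i) (f.1, f.2 + 1)) := by
    have h := ray_kap (f.1, f.2 + 1) (x := x) (X := X) (i := i)
      fun j hj => ⟨(hf j hj).1, fun hc h => (hf j hj).2 hc ⟨Or.inr h.1, h.2⟩⟩
    simpa using h
  have w0 := hw 0
  have w1 := hw 1
  have w2 := hw 2
  have w3 := hw 3
  simp only [ew_zero, ew_one, ew_two, ew_three, yN, yE, sub_add_cancel] at w0 w1 w2 w3
  intro d
  fin_cases d
  · simp only [Fin.zero_eta, Fin.isValue, ew_zero, nbf_zero, yN, sub_add_cancel, wX, wB_zero,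
      Prod.fst_sub, Prod.snd_sub]
    have w0' : w f 0 = Latx683.xc := w0
    change ray X f 0 * w f 0 * _ = _
    rw [hz1, w0']
    have e : (if 0 = f.2 - (X i).2 ∧ 0 ≤ f.1 - (X i).1 then (-1 : ℝ) else 1)
        = if (X i).2 = f.2 ∧ (X i).1 ≤ f.1 then -1 else 1 := by
      congr 1
      exact propext (by omega)
    rw [e]
    linear_combination ((if (X i).2 = f.2 ∧ (X i).1 ≤ f.1 then -1 else 1) * kap x X (x i) f *
      Latx683.xc) * hk (f.1, f.2 - 1)
  · simp only [Fin.mk_one, Fin.isValue, ew_one, nbf_one, yE, wX, wB_one, ray_one, one_mul, w1]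
    rw [kap_snd x X (x i) (f.1 + 1) f.1 f.2]
    ring
  · simp only [Fin.reduceFinMk, Fin.isValue, ew_two, nbf_two, yN, wX, wB_zero, Prod.fst_sub,
      Prod.snd_sub, w2]
    rw [hz2]
    have e : (if 0 = f.2 - (X i).2 + 1 ∧ 0 ≤ f.1 - (X i).1 then (-1 : ℝ) else 1)
        = if (X i).2 = f.2 + 1 ∧ (X i).1 ≤ f.1 then -1 else 1 := by
      congr 1
      exact propext (by omega)
    rw [e]
    linear_combination ((if (X i).2 = f.2 + 1 ∧ (X i).1 ≤ f.1 then -1 else 1) * kap x X (x i) f *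
      Latx683.xc) * hk (f.1, f.2 + 1)
  · simp only [Fin.reduceFinMk, Fin.isValue, ew_three, nbf_three, yE, wX, wB_one, ray_one, one_mul,
      sub_add_cancel] at w3 ⊢
    rw [show w (f.1, f.2) 1 = Latx683.xc from w3, kap_snd x X (x i) (f.1 - 1) f.1 f.2]
    ring

/-! ### along lattice approximations -/

theorem re_mesh (a : ℝ) (z : ℤ × ℤ) : (meshPoint a z).re = a * z.1 := rfl
theorem im_mesh (a : ℝ) (z : ℤ × ℤ) : (meshPoint a z).im = a * z.2 := rfl

/-- `Good` in a ball of fixed radius, eventually -/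
theorem ev_good {n : ℕ} {x : Fin n → ℂ} (hx : Function.Injective x) (i : Fin n) :
    ∃ δ : ℝ, 0 < δ ∧ ∀ᶠ p : ℝ × (Fin n → ℤ × ℤ) in NF x, ∀ f : ℤ × ℤ,
      ‖meshPoint p.1 f - x i‖ < δ → Good x p.2 i f := by
  -- separation
  have h1 : ∀ j, ∃ δ : ℝ, 0 < δ ∧ (j ≠ i → ((x j).im = (x i).im → 4 * δ ≤ |(x j).re - (x i).re|) ∧
      ((x j).im ≠ (x i).im → 4 * δ ≤ |(x j).im - (x i).im|)) := by
    intro j
    by_cases hj : j = i
    · exact ⟨1, one_pos, fun h => absurd hj h⟩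
    by_cases him : (x j).im = (x i).im
    · have hre : (x j).re ≠ (x i).re := fun h => hj (hx (Complex.ext h him))
      refine ⟨|(x j).re - (x i).re| / 4, by
        have := abs_pos.2 (sub_ne_zero.2 hre); positivity, fun _ => ⟨fun _ => by linarith,
          fun h => absurd him h⟩⟩
    · refine ⟨|(x j).im - (x i).im| / 4, by
        have := abs_pos.2 (sub_ne_zero.2 him); positivity, fun _ => ⟨fun h => absurd h him,
          fun _ => by linarith⟩⟩
  choose δ hδ hδ' using h1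
  obtain ⟨ε, hε, hεδ⟩ : ∃ ε : ℝ, 0 < ε ∧ ∀ j, ε ≤ δ j := by
    have hne : (Finset.univ : Finset (Fin n)).Nonempty := ⟨i, Finset.mem_univ i⟩
    exact ⟨Finset.univ.inf' hne δ, (Finset.lt_inf'_iff hne).2 fun j _ => hδ j, fun j =>
      Finset.inf'_le _ (Finset.mem_univ j)⟩
  refine ⟨ε, hε, ?_⟩
  have h2 : ∀ᶠ p : ℝ × (Fin n → ℤ × ℤ) in NF x, ∀ j, ‖mc p.1 p.2 j - x j‖ < ε := by
    rw [eventually_all]
    intro j
    have := (tendsto_pi_nhds.1 (nf_mc x) j).eventually (Metric.ball_mem_nhds (x j) hε)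
    filter_upwards [this] with p hp
    rwa [← dist_eq_norm]
  have h3 : ∀ᶠ p : ℝ × (Fin n → ℤ × ℤ) in NF x, p.1 < ε :=
    ((nf_fst x).mono_right nhdsWithin_le_nhds).eventually (Iio_mem_nhds hε)
  filter_upwards [h2, h3, nf_pos x] with p hp hpε hp0 f hf j hj
  have hfre := (Complex.abs_re_le_norm _).trans_lt hf
  have hfim := (Complex.abs_im_le_norm _).trans_lt hf
  have hXre := (Complex.abs_re_le_norm _).trans_lt (hp j)
  have hXim := (Complex.abs_im_le_norm _).trans_lt (hp j)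
  simp only [mc, Complex.sub_re, Complex.sub_im, re_mesh, im_mesh] at hfre hfim hXre hXim
  rw [abs_lt] at hfre hfim hXre hXim
  have hεj := hεδ j
  obtain ⟨ha, hb⟩ := hδ' j hj
  refine ⟨fun hc => ?_, fun hc h => ?_⟩
  · have h4 := ha hc.1
    rw [abs_of_neg (by linarith [hc.2])] at h4
    have h5 : p.1 * ((p.2 j).1 : ℝ) < p.1 * (f.1 : ℝ) := by linarith
    have h6 := lt_of_mul_lt_mul_left h5 hp0.le
    have h7 : (p.2 j).1 < f.1 := by exact_mod_cast h6
    exact h7.le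
  · by_cases him : (x j).im = (x i).im
    · have hre : (x i).re < (x j).re := by
        rcases lt_trichotomy (x j).re (x i).re with h4 | h4 | h4
        · exact absurd ⟨him, h4⟩ hc
        · exact absurd (hx (Complex.ext h4 him)) hj
        · exact h4
      have h4 := ha him
      rw [abs_of_pos (by linarith)] at h4
      have h5 : p.1 * (f.1 : ℝ) < p.1 * ((p.2 j).1 : ℝ) := by linarith
      have h6 := lt_of_mul_lt_mul_left h5 hp0.le
      have h7 : f.1 < (p.2 j).1 := by exact_mod_cast h6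
      exact absurd h.2 (not_le.2 h7)
    · have h4 := hb him
      have h5 : |p.1 * ((p.2 j).2 : ℝ) - p.1 * (f.2 : ℝ)| ≤ p.1 := by
        rcases h.1 with h6 | h6
        · rw [h6]; simp [hp0.le]
        · rw [h6]; push_cast
          rw [show p.1 * ((f.2 : ℝ) + 1) - p.1 * (f.2 : ℝ) = p.1 by ring, abs_of_pos hp0]
      rw [abs_le] at h5
      rcases le_total (x j).im (x i).im with h8 | h8
      · rw [abs_of_nonpos (by linarith)] at h4
        linarith [h5.1, h5.2]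
      · rw [abs_of_nonneg (by linarith)] at h4
        linarith [h5.1, h5.2]

/-! ### the corner vectors -/

/-- south-west corner of the face `f` (at the vertex `f`) -/
def lS (w : BW ℤ) (f : ℤ × ℤ) : Fld ℤ :=
  Finsupp.single (f, 0) 1 - Finsupp.single ((f.1, f.2 - 1), 2) (yN w (f.1, f.2 - 1))

/-- north-east corner of the face `f` (at the vertex `f + (1,1)`) -/
def lN (w : BW ℤ) (f : ℤ × ℤ) : Fld ℤ :=
  Finsupp.single (f, 2) 1 + Finsupp.single ((f.1, f.2 + 1), 0) (yN w f)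

theorem pr_lS (w : BW ℤ) (f : ℤ × ℤ) (s : HE ℤ → ℝ) :
    pr (lS w f) s = s (f, 0) - yN w (f.1, f.2 - 1) * s ((f.1, f.2 - 1), 2) := by
  rw [lS, pr_sub, pr_single, pr_single, one_mul]

theorem pr_lN (w : BW ℤ) (f : ℤ × ℤ) (s : HE ℤ → ℝ) :
    pr (lN w f) s = s (f, 2) + yN w f * s ((f.1, f.2 + 1), 0) := by
  rw [lN, pr_add, pr_single, pr_single, one_mul]

theorem sub_eq_iff (f X g : ℤ × ℤ) : f - X = g ↔ f = X + g :=
  ⟨fun h => by rw [← h]; abel, fun h => by rw [h]; abel⟩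

/-- the source vector of the shifted `PsiS` -/
theorem src_S {w : BW ℤ} {X : ℤ × ℤ} {σ : ℤ × ℤ → ℝ} (hσ : ∀ f, σ f * σ f = 1)
    (hX : LocAt w wB X σ X) (h : HE ℤ) :
    (σ X • lS w X) h = -(σ h.1 * Aop wB PsiS (h.1 - X, h.2)) := by
  have h0 := hX 0
  simp only [ew_zero, nbf_zero, sub_self] at h0
  have e0 : yN wB ((0 : ℤ × ℤ).1, (0 : ℤ × ℤ).2 - 1) = -Latx683.xc := by
    have := yN_wB 0 (-1)
    simp only [sg] at this
    rw [show (((0 : ℤ × ℤ).1, (0 : ℤ × ℤ).2 - 1) : ℤ × ℤ) = (0, -1) from rfl, this]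
    norm_num
  rw [e0] at h0
  have h1 : σ X * yN w (X.1, X.2 - 1) = -(σ (X.1, X.2 - 1) * Latx683.xc) := by
    have h2 := hσ (X.1, X.2 - 1)
    have h3 := hσ X
    linear_combination (-(σ X * yN w (X.1, X.2 - 1))) * h2 + σ X * σ (X.1, X.2 - 1) * h0
      - σ (X.1, X.2 - 1) * Latx683.xc * h3
  obtain ⟨f, d⟩ := h
  rw [Finsupp.smul_apply, lS, Finsupp.sub_apply, Finsupp.single_apply, Finsupp.single_apply,
    Aop_PsiS, smul_eq_mul]
  simp only [Prod.mk.injEq, sub_eq_iff]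
  have e1 : X + (0, 0) = X := by simp
  have e2 : X + (0, -1) = (X.1, X.2 - 1) := by ext <;> simp [sub_eq_add_neg]
  rw [e1, e2]
  by_cases hA : f = (X.1, X.2 - 1) ∧ d = 2
  · obtain ⟨rfl, rfl⟩ := hA
    rw [if_neg (by simp), if_pos (by simp), if_pos (by simp)]
    linear_combination (-1 : ℝ) * h1
  · by_cases hB : f = X ∧ d = 0
    · obtain ⟨rfl, rfl⟩ := hB
      rw [if_pos (by simp), if_neg (by simp), if_neg (by simp), if_pos (by simp)]
      ring
    · rw [if_neg (fun h => hB ⟨h.1.symm, h.2.symm⟩), if_neg (fun h => hA ⟨h.1.symm, h.2.symm⟩),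
        if_neg hA, if_neg hB]
      ring

/-- the source vector of the shifted `PsiN` -/
theorem src_N {w : BW ℤ} {X : ℤ × ℤ} {σ : ℤ × ℤ → ℝ} (hσ : ∀ f, σ f * σ f = 1)
    (hX : LocAt w wB X σ X) (h : HE ℤ) :
    (σ X • lN w X) h = -(σ h.1 * Aop wB PsiN (h.1 - X, h.2)) := by
  have h0 := hX 2
  simp only [ew_two, nbf_two, sub_self] at h0
  have e0 : yN wB (0 : ℤ × ℤ) = Latx683.xc := by
    have := yN_wB 0 0
    simp only [sg] at this
    rw [show ((0 : ℤ × ℤ) : ℤ × ℤ) = (0, 0) from rfl, this]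
    norm_num
  rw [e0] at h0
  have h1 : σ X * yN w X = σ (X.1, X.2 + 1) * Latx683.xc := by
    have h2 := hσ (X.1, X.2 + 1)
    have h3 := hσ X
    linear_combination (-(σ X * yN w X)) * h2 + σ X * σ (X.1, X.2 + 1) * h0
      + σ (X.1, X.2 + 1) * Latx683.xc * h3
  obtain ⟨f, d⟩ := h
  rw [Finsupp.smul_apply, lN, Finsupp.add_apply, Finsupp.single_apply, Finsupp.single_apply,
    Aop_PsiN, smul_eq_mul]
  simp only [Prod.mk.injEq, sub_eq_iff]
  have e1 : X + (0, 0) = X := by simp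
  have e2 : X + (0, 1) = (X.1, X.2 + 1) := by ext <;> simp
  rw [e1, e2]
  by_cases hA : f = X ∧ d = 2
  · obtain ⟨rfl, rfl⟩ := hA
    rw [if_pos (by simp), if_neg (by simp), if_pos (by simp)]
    ring
  · by_cases hB : f = (X.1, X.2 + 1) ∧ d = 0
    · obtain ⟨rfl, rfl⟩ := hB
      rw [if_neg (by simp), if_pos (by simp), if_neg (by simp), if_pos (by simp)]
      linear_combination h1
    · rw [if_neg (fun h => hA ⟨h.1.symm, h.2.symm⟩), if_neg (fun h => hB ⟨h.1.symm, h.2.symm⟩),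
        if_neg hA, if_neg hB]
      ring

/-- pairing of `lS` with a gauged shifted field -/
theorem pr_lS_gsh {w : BW ℤ} {X : ℤ × ℤ} {σ : ℤ × ℤ → ℝ} (hσ : ∀ f, σ f * σ f = 1)
    (hX : LocAt w wB X σ X) (Ψ : HE ℤ → ℝ) :
    pr (σ X • lS w X) (gsh X σ Ψ) = Ψ ((0, 0), 0) + Latx683.xc * Ψ ((0, -1), 2) := by
  rw [pr_eq_sum _ _ ({((X, 0) : HE ℤ), (((X.1, X.2 - 1), 2) : HE ℤ)}) (by
    refine (Finsupp.support_smul).trans ?_
    unfold lS
    refine (Finsupp.support_sub).trans ?_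
    refine Finset.union_subset ?_ ?_
    · exact (Finsupp.support_single_subset).trans (by simp)
    · exact (Finsupp.support_single_subset).trans (by simp)), Finset.sum_pair (by simp)]
  rw [src_S hσ hX, src_S hσ hX, Aop_PsiS, Aop_PsiS]
  have e1 : X - X = ((0 : ℤ), (0 : ℤ)) := by rw [sub_self]; rfl
  have e2 : ((X.1, X.2 - 1) : ℤ × ℤ) - X = (0, -1) := by ext <;> simp
  simp only [gsh, e1, e2]
  have h1 := hσ X
  have h2 := hσ (X.1, X.2 - 1)
  norm_num
  linear_combination (Ψ ((0, 0), 0)) * h1 + (Latx683.xc * Ψ ((0, -1), 2)) * h2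

/-- **one-variable Green identity for the diagonal step** -/
theorem step_one {w : BW ℤ} {X : ℤ × ℤ} {σ : ℤ × ℤ → ℝ} (hσ : ∀ f, σ f * σ f = 1)
    {S : HE ℤ → HE ℤ → ℝ} (hS : IsCov w S) {χ : ℤ × ℤ → ℝ} (hχ : χ.support.Finite)
    (hloc : ∀ f, χ f ≠ 0 → LocAt w wB X σ f)
    (h1 : χ X = 1) (h2 : χ (X.1, X.2 + 1) = 1) (h3 : χ (X.1, X.2 - 1) = 1) :
    ∃ P : Fld ℤ, (∀ h, P h = σ h.1 * comm wB (fun f => χ (f + X)) PsiN (h.1 - X, h.2)) ∧
      formS S (lN w X) (lS w X) = 1 + σ X * pr P (col S (lS w X)) := by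
  have hX : LocAt w wB X σ X := hloc X (by rw [h1]; exact one_ne_zero)
  obtain ⟨P, hP, hPv⟩ := cut_eq hσ hχ hloc (Ψ := PsiN) (src_N hσ hX) (by
    intro h hh
    rw [Aop_PsiN] at hh
    simp only [Prod.mk.injEq, sub_eq_iff] at hh
    have e1 : X + (0, 0) = X := by simp
    have e2 : X + (0, 1) = (X.1, X.2 + 1) := by ext <;> simp
    rw [e1, e2] at hh
    by_cases hA : h.1 = X ∧ h.2 = 2
    · rw [hA.1]; exact h1
    · rw [if_neg hA] at hh
      by_cases hB : h.1 = (X.1, X.2 + 1) ∧ h.2 = 0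
      · rw [hB.1]; exact h2
      · rw [if_neg hB] at hh; exact absurd rfl hh)
  refine ⟨P, hPv, ?_⟩
  have key := green1' hS hP (σ X • lS w X)
  have e : pr (cutF χ hχ (gsh X σ PsiN)) (σ X • lS w X : Fld ℤ) = -1 := by
    rw [pr_comm]
    have e1 : pr (σ X • lS w X) (cutF χ hχ (gsh X σ PsiN)) = pr (σ X • lS w X) (gsh X σ PsiN) := by
      refine pr_congr _ fun g hg => ?_
      have hg' : g ∈ ({((X, 0) : HE ℤ), (((X.1, X.2 - 1), 2) : HE ℤ)} : Finset (HE ℤ)) := by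
        refine (Finsupp.support_smul.trans ?_) hg
        unfold lS
        refine (Finsupp.support_sub).trans ?_
        refine Finset.union_subset ?_ ?_
        · exact (Finsupp.support_single_subset).trans (by simp)
        · exact (Finsupp.support_single_subset).trans (by simp)
      rw [Finset.mem_insert, Finset.mem_singleton] at hg'
      rcases hg' with rfl | rfl
      · rw [cutF_apply, h1, one_mul]
      · rw [cutF_apply, h3, one_mul]
    rw [e1, pr_lS_gsh hσ hX, PsiN_lS]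
  rw [e] at key
  have hσX := hσ X
  have e2 : formS S (σ X • lN w X) (σ X • lS w X) = formS S (lN w X) (lS w X) := by
    have e3 : formS S (σ X • lN w X) (σ X • lS w X)
        = σ X * (σ X * formS S (lN w X) (lS w X)) := by
      rw [LinearMap.map_smul₂, map_smul, smul_eq_mul, smul_eq_mul]
    rw [e3]
    linear_combination (formS S (lN w X) (lS w X)) * hσX
  have e3 : formS S P (σ X • lS w X) = σ X * pr P (col S (lS w X)) := by
    rw [map_smul, smul_eq_mul, formS_eq]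
  rw [← e2, key, e3]; ring

/-- **source at the branch**: `σ(X) S(·, l_S) = χ Ψ_S + S([A, χ] Ψ_S)` -/
theorem src_one {w : BW ℤ} {X : ℤ × ℤ} {σ : ℤ × ℤ → ℝ} (hσ : ∀ f, σ f * σ f = 1)
    {S : HE ℤ → HE ℤ → ℝ} (hS : IsCov w S) {χ : ℤ × ℤ → ℝ} (hχ : χ.support.Finite)
    (hloc : ∀ f, χ f ≠ 0 → LocAt w wB X σ f) (h1 : χ X = 1) (h3 : χ (X.1, X.2 - 1) = 1) :
    ∃ Q : Fld ℤ, (∀ h, Q h = σ h.1 * comm wB (fun f => χ (f + X)) PsiS (h.1 - X, h.2)) ∧
      AF w (cutF χ hχ (gsh X σ PsiS)) = Q - σ X • lS w X ∧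
      ∀ h, σ X * col S (lS w X) h = col S Q h + χ h.1 * gsh X σ PsiS h := by
  have hX : LocAt w wB X σ X := hloc X (by rw [h1]; exact one_ne_zero)
  obtain ⟨Q, hQ, hQv⟩ := cut_eq hσ hχ hloc (Ψ := PsiS) (src_S hσ hX) (by
    intro h hh
    rw [Aop_PsiS] at hh
    simp only [Prod.mk.injEq, sub_eq_iff] at hh
    have e1 : X + (0, 0) = X := by simp
    have e2 : X + (0, -1) = (X.1, X.2 - 1) := by ext <;> simp [sub_eq_add_neg]
    rw [e1, e2] at hh
    by_cases hA : h.1 = (X.1, X.2 - 1) ∧ h.2 = 2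
    · rw [hA.1]; exact h3
    · rw [if_neg hA] at hh
      by_cases hB : h.1 = X ∧ h.2 = 0
      · rw [hB.1]; exact h1
      · rw [if_neg hB] at hh; exact absurd rfl hh)
  refine ⟨Q, hQv, hQ, fun h => ?_⟩
  have key := green1 hS hQ (Finsupp.single h 1)
  rw [formS_single_right, formS_single_right] at key
  have e1 : col S (σ X • lS w X) h = σ X * col S (lS w X) h := pr_smul _ _ _
  have e2 : pr (cutF χ hχ (gsh X σ PsiS)) (Finsupp.single h 1 : Fld ℤ)
      = χ h.1 * gsh X σ PsiS h := by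
    rw [pr_comm, pr_single, one_mul, cutF_apply]
  rw [e1, e2] at key
  exact key

end Crest.Agent.R165.Gr3x813
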