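import Crest.Agent.R165.RFlat2_65
import Crest.Agent.R165.DefRec_915

/-!
# Row 165 (S0250), block G: small active polymers that are not plane-like are near a defect
(helper485)

* `plOfPlaneOn` : `PlaneOn (wl w) s x R → PlaneLike w (ball x R)` (identity chart)
* `emb_of_far`  : `Emb` if there is no mixed face, no insertion within `R` and a site of `T` within `R`
* `near_of_not_emb`, `near_of_not_emM` : (G1)
* `hnear`, `hnear_bdS`, `hnear_cluster` : in the form `fd y x + r ≤ D r`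
-/

set_option autoImplicit false
set_option linter.unusedSectionVars false

noncomputable section

open Crest.Agent.R165.Gr0x606 Crest.Agent.R165.Latx683 Crest.Agent.R165.GDefx387
  Crest.Agent.R165.Bridgex386 Crest.Agent.R165.RIfx891
open Crest.Agent.R165.RFlatx65
open Crest.Agent.R165.DefRecx915 (emb_of_subset emM)
open Crest.Agent.R165.Packx915 (pack_le_one_iff)
open Crest.Agent.R165.Bridgex915 (pd_fd)

namespace Crest.Agent.R165.HNearx485

/-- the identity chart on a ball where the background is plane up to a gauge -/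
def plOfPlaneOn {w : BW ℤ} {s : Face → ℝ} {x : Face} {R : ℕ}
    (H : PlaneOn (wl w) s x (R : ℝ)) : PlaneLike w (ball x R) where
  τ := id
  s := s
  sq f := by have := H.gauge f; rwa [pow_two] at this
  iso _ _ _ _ := rfl
  e1 _ _ _ := rfl
  e2 _ _ _ := rfl
  wE f hf _ := by
    have := H.eq f (mem_bx_iff_fd.2 hf) 1
    have e : yE w f = s f * s (f.1 + 1, f.2) * Tr1x40.xc := by
      simpa [wl, Tr1x40.ofEN, pf, Tr1x40.nb] using this
    exact e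
  wN f hf _ := by
    have := H.eq f (mem_bx_iff_fd.2 hf) 2
    have e : yN w f = s f * s (f.1, f.2 + 1) * Tr1x40.xc := by
      simpa [wl, Tr1x40.ofEN, pf, Tr1x40.nb] using this
    exact e

variable {T : Set (ℤ × ℤ)} {b : Bool} {n : ℕ} {X : Fin n → ℤ × ℤ} {x : Face}

/-- plane-like if no mixed face, no insertion within `R`, and some site of `T` within `R` -/
theorem emb_of_far {R : ℕ} (hB : ∀ f, Mix T f → R < fd x f) (hX : ∀ i, R < fd x (X i))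
    (hT : ∃ z ∈ T, fd x z ≤ R) {r : ℕ} {U : Finset (ℤ × ℤ)} (hU : nbhd (s2 * r) U ⊆ ball x R) :
    Emb (wX (wDom T b) X) r U := by
  have h0 : ∀ f ∈ bx x (R : ℝ), ¬ Mix T f := fun f hf hm =>
    absurd (hB f hm) (not_lt.2 (mem_bx_iff_fd.1 hf))
  rcases inn_or_out h0 with h | h
  · obtain ⟨s, H⟩ := planeOn (b := b) h fun i => not_intV (hX i)
    exact ⟨DefRecx915.plMono (plOfPlaneOn H) hU⟩
  · obtain ⟨z, hz, hd⟩ := hT
    exact absurd hz (h z (mem_bx_iff_fd.2 hd)).1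

/-- diameter of a small polymer -/
theorem fd_le_of_small {r : ℕ} {U : Finset (ℤ × ℤ)} (hs : size r U ≤ 1) {x u : ℤ × ℤ} (hx : x ∈ U)
    (hu : u ∈ U) : fd x u ≤ r := by
  rw [Bridgex915.size_eq_pack] at hs
  exact (pack_le_one_iff pd_fd).1 hs x hx u hu

/-- **(G1)**: a small active polymer which is not plane-like is near a mixed face or an
insertion; every `x ∈ U` does -/
theorem near_of_not_emb {r q : ℕ} {U : Finset (ℤ × ℤ)} (hs : size r U ≤ 1)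
    (hact : ∃ u ∈ U, ∃ z ∈ T, fd u z ≤ q) (hq : q ≤ s2 * r)
    (hne : ¬ Emb (wX (wDom T b) X) r U) {x : ℤ × ℤ} (hx : x ∈ U) :
    (∃ y, Mix T y ∧ fd y x ≤ (s2 + 1) * r) ∨ ∃ i, fd (X i) x ≤ (s2 + 1) * r := by
  by_contra hc
  rw [not_or] at hc
  obtain ⟨h1, h2⟩ := hc
  push Not at h1 h2
  obtain ⟨u, hu, z, hz, hd⟩ := hact
  have e : (s2 + 1) * r = s2 * r + r := by ring
  refine hne (emb_of_far (x := x) (R := (s2 + 1) * r) (fun f hf => ?_) (fun i => ?_)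
    ⟨z, hz, ?_⟩ ?_)
  · rw [fd_comm]; exact h1 f hf
  · rw [fd_comm]; exact h2 i
  · have h3 := fd_triangle x u z
    have h4 := fd_le_of_small hs hx hu
    omega
  · rintro g ⟨v, hv, hg⟩
    rw [mem_ball]
    have h3 := fd_triangle x v g
    have h4 := fd_le_of_small hs hx hv
    omega

/-- **(G1) with marks** -/
theorem near_of_not_emM {r q : ℕ} {mk : Set (ℤ × ℤ)} {U : Finset (ℤ × ℤ)} (hs : size r U ≤ 1)
    (hact : ∃ u ∈ U, ∃ z ∈ T, fd u z ≤ q) (hq : q ≤ s2 * r)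
    (hne : ¬ emM (wX (wDom T b) X) mk r U) {x : ℤ × ℤ} (hx : x ∈ U) :
    (∃ y, Mix T y ∧ fd y x ≤ (s2 + 1) * r) ∨ (∃ i, fd (X i) x ≤ (s2 + 1) * r) ∨
      ∃ z ∈ mk, fd z x ≤ (s2 + 1) * r := by
  unfold emM at hne
  rw [not_and_or] at hne
  rcases hne with h | h
  · rcases near_of_not_emb hs hact hq h hx with h | h
    · exact Or.inl h
    · exact Or.inr (Or.inl h)
  · push Not at h
    obtain ⟨u, hu, z, hz, hd⟩ := h
    refine Or.inr (Or.inr ⟨z, hz, ?_⟩)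
    have h3 := fd_triangle z u x
    have h4 := fd_le_of_small hs hu hx
    have h5 := fd_comm u z
    have e : (s2 + 1) * r = s2 * r + r := by ring
    omega

/-- mixed faces, in the form used by `Geo.dstep` -/
theorem hnear {r q D : ℕ} {mk : Set (ℤ × ℤ)} {U : Finset (ℤ × ℤ)} (hD : s2 + 2 ≤ D)
    (hs : size r U ≤ 1) (hact : ∃ u ∈ U, ∃ z ∈ T, fd u z ≤ q) (hq : q ≤ s2 * r)
    (hne : ¬ emM (wX (wDom T b) X) mk r U) :
    ∃ x ∈ U, (∃ y ∈ {y | Mix T y}, fd y x + r ≤ D * r) ∨ (∃ i, fd (X i) x + r ≤ D * r) ∨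
      ∃ z ∈ mk, fd z x + r ≤ D * r := by
  obtain ⟨x, hx, _⟩ := id hact
  have e : (s2 + 2) * r = (s2 + 1) * r + r := by ring
  have h1 : (s2 + 2) * r ≤ D * r := Nat.mul_le_mul_right _ hD
  refine ⟨x, hx, ?_⟩
  rcases near_of_not_emM hs hact hq hne hx with ⟨y, hy, h⟩ | ⟨i, h⟩ | ⟨z, hz, h⟩
  · exact Or.inl ⟨y, hy, by omega⟩
  · exact Or.inr (Or.inl ⟨i, by omega⟩)
  · exact Or.inr (Or.inr ⟨z, hz, by omega⟩)

/-- boundary sites, in the form used by `Geo.dstep` -/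
theorem hnear_bdS {r q D : ℕ} {mk : Set (ℤ × ℤ)} {U : Finset (ℤ × ℤ)} (hr : 1 ≤ r)
    (hD : s2 + 3 ≤ D) (hs : size r U ≤ 1) (hact : ∃ u ∈ U, ∃ z ∈ T, fd u z ≤ q)
    (hq : q ≤ s2 * r) (hne : ¬ emM (wX (wDom T b) X) mk r U) :
    ∃ x ∈ U, (∃ y ∈ Geo.bdS T, fd y x + r ≤ D * r) ∨ (∃ i, fd (X i) x + r ≤ D * r) ∨
      ∃ z ∈ mk, fd z x + r ≤ D * r := by
  obtain ⟨x, hx, _⟩ := id hact
  have e : (s2 + 3) * r = (s2 + 1) * r + r + r := by ring
  have h1 : (s2 + 3) * r ≤ D * r := Nat.mul_le_mul_right _ hD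
  refine ⟨x, hx, ?_⟩
  rcases near_of_not_emM hs hact hq hne hx with ⟨y, hy, h⟩ | ⟨i, h⟩ | ⟨z, hz, h⟩
  · obtain ⟨z, hz, hd⟩ := Mix.exists_bdS hy
    refine Or.inl ⟨z, hz, ?_⟩
    have h2 := fd_triangle z y x
    have h3 := fd_comm y z
    omega
  · exact Or.inr (Or.inl ⟨i, by omega⟩)
  · exact Or.inr (Or.inr ⟨z, hz, by omega⟩)

/-- cluster of insertions within `ρ₀` of `z₀` -/
theorem hnear_cluster {r q D ρ0 : ℕ} {z0 : ℤ × ℤ} {mk : Set (ℤ × ℤ)} {U : Finset (ℤ × ℤ)}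
    (hr : 1 ≤ r) (hρ : ρ0 ≤ r) (hX : ∀ i, fd (X i) z0 ≤ ρ0)
    (hmk : ∀ z ∈ mk, fd z z0 ≤ ρ0)
    (hD : s2 + 3 ≤ D) (hs : size r U ≤ 1) (hact : ∃ u ∈ U, ∃ z ∈ T, fd u z ≤ q)
    (hq : q ≤ s2 * r) (hne : ¬ emM (wX (wDom T b) X) mk r U) :
    ∃ x ∈ U, (∃ y ∈ Geo.bdS T, fd y x + r ≤ D * r) ∨ fd z0 x + r ≤ D * r := by
  obtain ⟨x, hx, _⟩ := id hact
  have e : (s2 + 3) * r = (s2 + 1) * r + r + r := by ring
  have h1 : (s2 + 3) * r ≤ D * r := Nat.mul_le_mul_right _ hD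
  refine ⟨x, hx, ?_⟩
  rcases near_of_not_emM hs hact hq hne hx with ⟨y, hy, h⟩ | ⟨i, h⟩ | ⟨z, hz, h⟩
  · obtain ⟨z, hz, hd⟩ := Mix.exists_bdS hy
    refine Or.inl ⟨z, hz, ?_⟩
    have h2 := fd_triangle z y x
    have h3 := fd_comm y z
    omega
  · right
    have h2 := fd_triangle z0 (X i) x
    have h3 := fd_comm (X i) z0
    have h4 := hX i
    omega
  · right
    have h2 := fd_triangle z0 z x
    have h3 := fd_comm z z0
    have h4 := hmk z hz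
    omega

/-- the same for the weaker hypothesis `Emb`, no marks -/
theorem hnear_emb {r q D : ℕ} {U : Finset (ℤ × ℤ)} (hD : s2 + 2 ≤ D)
    (hs : size r U ≤ 1) (hact : ∃ u ∈ U, ∃ z ∈ T, fd u z ≤ q) (hq : q ≤ s2 * r)
    (hne : ¬ Emb (wX (wDom T b) X) r U) :
    ∃ x ∈ U, (∃ y ∈ {y | Mix T y}, fd y x + r ≤ D * r) ∨ (∃ i, fd (X i) x + r ≤ D * r) := by
  obtain ⟨x, hx, _⟩ := id hact
  have e : (s2 + 2) * r = (s2 + 1) * r + r := by ring
  have h1 : (s2 + 2) * r ≤ D * r := Nat.mul_le_mul_right _ hD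
  refine ⟨x, hx, ?_⟩
  rcases near_of_not_emb hs hact hq hne hx with ⟨y, hy, h⟩ | ⟨i, h⟩
  · exact Or.inl ⟨y, hy, by omega⟩
  · exact Or.inr ⟨i, by omega⟩

end Crest.Agent.R165.HNearx485
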