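import Crest.Agent.R165.Gr1_606

/-!
# Row 165 (S0250), block J, (J1) part a: half-edges, the one-face Gaussian state, plaquette moves

`G` is a commutative ring (`ℤ` for the plane, `ZMod L` for the torus). Faces and sites are indexed
by `G × G`; the face `f = (i,j)` is the square `[i,i+1] × [j,j+1]`. Half-edges `(f, a)`:
`a = 0,1,2,3` for south, east, north, west. Primal edges `(z, j)`: `{z, z + e_j}`.
-/

set_option autoImplicit false

noncomputable section

namespace Crest.Agent.R165.J1ax606

open Crest.Agent.R165.Gr0x606 Crest.Agent.R165.Gr1x606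

/-- half-edges -/
abbrev HE (G : Type*) : Type _ := (G × G) × Fin 4
/-- primal edges -/
abbrev EG (G : Type*) : Type _ := (G × G) × Fin 2

/-- the one-face kernel: `1` for `b = a+1, a+3`, `-1` for `b = a + 2` (`a < b`) -/
def k4 (a b : Fin 4) : ℝ :=
  if a < b then (if b.1 - a.1 = 2 then -1 else 1)
  else if b < a then (if a.1 - b.1 = 2 then 1 else -1) else 0

theorem k4_anti (a b : Fin 4) : k4 a b = -k4 b a := by
  fin_cases a <;> fin_cases b <;> simp [k4]

section gen
variable {G : Type*} [DecidableEq G]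

/-- the kernel of the one-face state -/
def K0 (h h' : HE G) : ℝ := if h.1 = h'.1 then k4 h.2 h'.2 else 0

theorem K0_anti (h h' : HE G) : K0 h h' = -K0 h' h := by
  unfold K0
  by_cases e : h.1 = h'.1
  · rw [if_pos e, if_pos e.symm, k4_anti]
  · rw [if_neg e, if_neg (fun e' => e e'.symm), neg_zero]

/-- the covariance of the one-face state -/
def S0 : Cov (VI (HE G)) := covOf K0 K0_anti

/-- the one-face state -/
def E0 : Gr (VI (HE G)) →ₗ[ℝ] ℝ := EE S0

theorem E0_apply (a : Gr (VI (HE G))) : E0 a = EE S0 a := rfl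

theorem E0_ph_mul (f : G × G) (i : Fin 4) (a : Gr (VI (HE G))) :
    E0 (ph (f, i) * a) = ∑ j : Fin 4, k4 i j * E0 (de (f, j) a) := by
  have h := EE_ph_mul K0 K0_anti (f, i)
    (Finset.univ.map ⟨fun j : Fin 4 => ((f, j) : HE G), fun j j' h => (Prod.mk.inj h).2⟩)
    (by
      rintro ⟨f', j⟩ hj
      have : f ≠ f' := by
        rintro rfl
        exact hj (Finset.mem_map.2 ⟨j, Finset.mem_univ _, rfl⟩)
      simp [K0, this]) a
  rw [Finset.sum_map] at h
  refine h.trans (Finset.sum_congr rfl fun j _ => ?_)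
  have e : K0 (f, i) ((f, j) : HE G) = k4 i j := if_pos rfl
  exact congrArg (· * _) e

theorem E0_r01 (f : G × G) (a : Gr (VI (HE G))) : E0 (cP (f, 0) a) = -E0 (cM (f, 1) a) := by
  rw [cP_apply, cM_apply, map_add, map_sub, E0_ph_mul, E0_ph_mul]
  simp [Fin.sum_univ_four, k4]
  ring

theorem E0_r12 (f : G × G) (a : Gr (VI (HE G))) : E0 (cP (f, 1) a) = -E0 (cM (f, 2) a) := by
  rw [cP_apply, cM_apply, map_add, map_sub, E0_ph_mul, E0_ph_mul]
  simp [Fin.sum_univ_four, k4]
  ring

theorem E0_r23 (f : G × G) (a : Gr (VI (HE G))) : E0 (cP (f, 2) a) = -E0 (cM (f, 3) a) := by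
  rw [cP_apply, cM_apply, map_add, map_sub, E0_ph_mul, E0_ph_mul]
  simp [Fin.sum_univ_four, k4]
  ring

theorem E0_r30 (f : G × G) (a : Gr (VI (HE G))) : E0 (cP (f, 3) a) = E0 (cM (f, 0) a) := by
  rw [cP_apply, cM_apply, map_add, map_sub, E0_ph_mul, E0_ph_mul]
  simp [Fin.sum_univ_four, k4]
  ring

/-- **plaquette invariance** of the one-face state, operator form: `sw, se, ne, nw` are the four
faces around a vertex. -/
theorem E0_plaq (sw se ne nw : G × G) (a : Gr (VI (HE G))) :
    E0 (cP (sw, 1) (cM (se, 3) (cP (se, 2) (cM (ne, 0) (cP (ne, 3) (cM (nw, 1)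
      (cP (nw, 0) (cM (sw, 2) a)))))))) = E0 a := by
  have n1 : ∀ {f g : G × G}, ((f, 2) : HE G) ≠ (g, 3) := by
    intro f g h; exact absurd (Prod.mk.inj h).2 (by decide)
  have n2 : ∀ {f g : G × G}, ((f, 2) : HE G) ≠ (g, 0) := by
    intro f g h; exact absurd (Prod.mk.inj h).2 (by decide)
  have n3 : ∀ {f g : G × G}, ((f, 2) : HE G) ≠ (g, 1) := by
    intro f g h; exact absurd (Prod.mk.inj h).2 (by decide)
  rw [E0_r12, cM_cM_ne n1, cM_cP, cM_cM_ne n2, cM_cP, cM_cM_ne n3, cM_cP, cM_cM]
  simp only [map_neg, neg_neg]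
  have h1 : ∀ b : Gr (VI (HE G)), E0 (cM (se, 3) (cP (se, 2) b)) = -E0 b := by
    intro b
    have := E0_r23 se (cP (se, 2) b)
    rw [cP_cP] at this
    linarith
  have h2 : ∀ b : Gr (VI (HE G)), E0 (cM (ne, 0) (cP (ne, 3) b)) = E0 b := by
    intro b
    rw [← E0_r30, cP_cP]
  have h3 : ∀ b : Gr (VI (HE G)), E0 (cM (nw, 1) (cP (nw, 0) b)) = -E0 b := by
    intro b
    have := E0_r01 nw (cP (nw, 0) b)
    rw [cP_cP] at this
    linarith
  rw [h1, h2, h3, neg_neg]

end gen

/-! ### edges -/

section edges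
variable {G : Type*} [CommRing G] [DecidableEq G]

/-- unit vectors -/
def uv (j : Fin 2) : G × G := if j = 0 then (1, 0) else (0, 1)

/-- first half-edge of the dual of the primal edge `e`: south half of the face above (horizontal
primal edge), east half of the face to the left (vertical primal edge) -/
def pe (e : EG G) : HE G := if e.2 = 0 then (e.1, 0) else (e.1 - (1, 0), 1)

/-- second half-edge of the dual of the primal edge `e`: north half of the face below (horizontal
primal edge), west half of the face to the right (vertical primal edge) -/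
def qe (e : EG G) : HE G := if e.2 = 0 then (e.1 - (0, 1), 2) else (e.1, 3)

omit [DecidableEq G] in
@[simp] theorem pe_zero (z : G × G) : pe (z, 0) = (z, 0) := rfl
omit [DecidableEq G] in
@[simp] theorem pe_one (z : G × G) : pe (z, 1) = (z - (1, 0), 1) := rfl
omit [DecidableEq G] in
@[simp] theorem qe_zero (z : G × G) : qe (z, 0) = (z - (0, 1), 2) := rfl
omit [DecidableEq G] in
@[simp] theorem qe_one (z : G × G) : qe (z, 1) = (z, 3) := rfl

omit [DecidableEq G] in
theorem pe_inj {e e' : EG G} (h : pe e = pe e') : e = e' := by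
  obtain ⟨z, j⟩ := e
  obtain ⟨z', j'⟩ := e'
  fin_cases j <;> fin_cases j' <;> simp_all [pe]

omit [DecidableEq G] in
theorem qe_inj {e e' : EG G} (h : qe e = qe e') : e = e' := by
  obtain ⟨z, j⟩ := e
  obtain ⟨z', j'⟩ := e'
  fin_cases j <;> fin_cases j' <;> simp_all [qe]

omit [DecidableEq G] in
theorem pe_ne_qe (e e' : EG G) : pe e ≠ qe e' := by
  obtain ⟨z, j⟩ := e
  obtain ⟨z', j'⟩ := e'
  fin_cases j <;> fin_cases j' <;> simp [pe, qe]

/-- the edge bilinear -/
def bb (e : EG G) : Ge (VI (HE G)) := bi (Finsupp.single (pe e) 1) (Finsupp.single (qe e) 1)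

omit [DecidableEq G] in
@[simp] theorem coe_bb (e : EG G) : ((bb e : Ge (VI (HE G))) : Gr (VI (HE G))) = ph (pe e) * ph (qe e) :=
  rfl

omit [DecidableEq G] in
theorem bb_mul_self (e : EG G) : bb e * bb e = 0 := bi_mul_self _ _

/-- the monomial of a set of edges -/
def mon (S : Finset (EG G)) : Ge (VI (HE G)) := ∏ e ∈ S, bb e

omit [DecidableEq G] in
@[simp] theorem mon_empty : mon (∅ : Finset (EG G)) = 1 := rfl

theorem mon_insert {S : Finset (EG G)} {e : EG G} (h : e ∉ S) : mon (insert e S) = bb e * mon S :=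
  Finset.prod_insert h

theorem de_mon {S : Finset (EG G)} {h : HE G} (hp : ∀ e ∈ S, h ≠ pe e) (hq : ∀ e ∈ S, h ≠ qe e) :
    de h (mon S : Gr (VI (HE G))) = 0 := by
  induction S using Finset.induction_on with
  | empty => simp
  | insert e S he ih =>
    rw [mon_insert he, Ge.coe_mul, coe_bb, mul_assoc, de_ph_mul_ne (hp e (Finset.mem_insert_self _ _)),
      de_ph_mul_ne (hq e (Finset.mem_insert_self _ _)),
      ih (fun e' h' => hp e' (Finset.mem_insert_of_mem h'))
        (fun e' h' => hq e' (Finset.mem_insert_of_mem h'))]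
    simp

theorem de_pe_mon {S : Finset (EG G)} {e : EG G} (he : e ∉ S) :
    de (pe e) (mon S : Gr (VI (HE G))) = 0 :=
  de_mon (fun _ h' h => he (pe_inj h ▸ h')) (fun _ _ h => pe_ne_qe _ _ h)

theorem de_qe_mon {S : Finset (EG G)} {e : EG G} (he : e ∉ S) :
    de (qe e) (mon S : Gr (VI (HE G))) = 0 :=
  de_mon (fun _ _ h => pe_ne_qe _ _ h.symm) (fun _ h' h => he (qe_inj h ▸ h'))

theorem tog_mon (S : Finset (EG G)) (e : EG G) :
    cP (pe e) (cM (qe e) (mon S : Gr (VI (HE G)))) = (mon (symmDiff S {e}) : Gr (VI (HE G))) := by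
  by_cases he : e ∈ S
  · have h1 : symmDiff S {e} = S.erase e := by
      ext x; simp only [Finset.mem_symmDiff, Finset.mem_singleton, Finset.mem_erase]
      by_cases hx : x = e
      · subst hx; simp [he]
      · simp [hx]
    have h2 : mon S = bb e * mon (S.erase e) := by
      rw [← mon_insert (Finset.notMem_erase e S), Finset.insert_erase he]
    rw [h1, h2, Ge.coe_mul, coe_bb]
    exact tog_old (pe_ne_qe e e) (de_pe_mon (Finset.notMem_erase e S))
      (de_qe_mon (Finset.notMem_erase e S))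
  · have h1 : symmDiff S {e} = insert e S := by
      ext x; simp only [Finset.mem_symmDiff, Finset.mem_singleton, Finset.mem_insert]
      by_cases hx : x = e
      · subst hx; simp [he]
      · simp [hx]
    rw [h1, mon_insert he, Ge.coe_mul, coe_bb]
    exact tog_new (pe_ne_qe e e) (de_pe_mon he) (de_qe_mon he)

theorem tog_mon' (S : Finset (EG G)) (e : EG G) :
    cP (qe e) (cM (pe e) (mon S : Gr (VI (HE G)))) = -(mon (symmDiff S {e}) : Gr (VI (HE G))) := by
  by_cases he : e ∈ S
  · have h1 : symmDiff S {e} = S.erase e := by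
      ext x; simp only [Finset.mem_symmDiff, Finset.mem_singleton, Finset.mem_erase]
      by_cases hx : x = e
      · subst hx; simp [he]
      · simp [hx]
    have h2 : mon S = bb e * mon (S.erase e) := by
      rw [← mon_insert (Finset.notMem_erase e S), Finset.insert_erase he]
    rw [h1, h2, Ge.coe_mul, coe_bb]
    exact tog_old' (pe_ne_qe e e) (de_pe_mon (Finset.notMem_erase e S))
      (de_qe_mon (Finset.notMem_erase e S))
  · have h1 : symmDiff S {e} = insert e S := by
      ext x; simp only [Finset.mem_symmDiff, Finset.mem_singleton, Finset.mem_insert]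
      by_cases hx : x = e
      · subst hx; simp [he]
      · simp [hx]
    rw [h1, mon_insert he, Ge.coe_mul, coe_bb]
    exact tog_new' (pe_ne_qe e e) (de_pe_mon he) (de_qe_mon he)

/-- toggling the four edges at the vertex `v` -/
def sstar (S : Finset (EG G)) (v : G × G) : Finset (EG G) :=
  symmDiff (symmDiff (symmDiff (symmDiff S {(v - (1, 0), 0)}) {(v, 1)}) {(v, 0)}) {(v - (0, 1), 1)}

/-- **plaquette invariance** on monomials -/
theorem E0_mon_sstar (S : Finset (EG G)) (v : G × G) :
    E0 (mon (sstar S v) : Gr (VI (HE G))) = E0 (mon S : Gr (VI (HE G))) := by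
  have h := E0_plaq (v - (1, 0) - (0, 1)) (v - (0, 1)) v (v - (1, 0)) (mon S : Gr (VI (HE G)))
  have e1 := tog_mon S (v - (1, 0), 0)
  rw [pe_zero, qe_zero] at e1
  have e2 := tog_mon' (symmDiff S {(v - (1, 0), 0)}) (v, 1)
  rw [pe_one, qe_one] at e2
  have e3 := tog_mon' (symmDiff (symmDiff S {(v - (1, 0), 0)}) {(v, 1)}) (v, 0)
  rw [pe_zero, qe_zero] at e3
  have e4 := tog_mon (symmDiff (symmDiff (symmDiff S {(v - (1, 0), 0)}) {(v, 1)}) {(v, 0)})
    (v - (0, 1), 1)
  rw [pe_one, qe_one, sub_right_comm v (0, 1) (1, 0)] at e4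
  rw [e1, e2, map_neg, map_neg, e3, neg_neg, e4] at h
  exact h

end edges

end Crest.Agent.R165.J1ax606
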