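import Crest.Agent.R165.J1b_606

/-!
# Row 165 (S0250), block J, (J1) part c: the plane

* `exists_walls` : a finite edge set of `ℤ²` which is even at every face is the wall set of a
  unique finite set of minus spins
* `J1` : `Σ_{N ⊆ T} Π_{e ∈ walls N} y_e = E0 [Π_{e touching T} (1 + y_e b_e)]` for finite sets `T`
  without holes and arbitrary real weights.
-/

set_option autoImplicit false

noncomputable section

namespace Crest.Agent.R165.J1cx606

open Crest.Agent.R165.Gr0x606 Crest.Agent.R165.Gr1x606 Crest.Agent.R165.J1ax606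
  Crest.Agent.R165.J1bx606

/-- partial row sums of the indicator of horizontal edges -/
def scan (S : Finset (EG ℤ)) (R i j : ℤ) : ZMod 2 := ∑ k ∈ Finset.Ico (-R) i, ind S ((k, j), 0)

theorem scan_left (S : Finset (EG ℤ)) (R i j : ℤ) (hi : i ≤ -R) : scan S R i j = 0 := by
  rw [scan, Finset.Ico_eq_empty (by omega), Finset.sum_empty]

/-- the bound on the support -/
def Bd (S : Finset (EG ℤ)) (R : ℤ) : Prop := ∀ e ∈ S, -R < e.1.1 ∧ e.1.1 < R ∧ -R < e.1.2 ∧ e.1.2 < R

theorem exists_bd (S : Finset (EG ℤ)) : ∃ R : ℤ, 0 < R ∧ Bd S R := by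
  refine ⟨∑ e ∈ S, (|e.1.1| + |e.1.2|) + 1, ?_, fun e he => ?_⟩
  · have : 0 ≤ ∑ e ∈ S, (|e.1.1| + |e.1.2|) := Finset.sum_nonneg fun e _ => by positivity
    linarith
  · have h : |e.1.1| + |e.1.2| ≤ ∑ e ∈ S, (|e.1.1| + |e.1.2|) :=
      Finset.single_le_sum (f := fun e : EG ℤ => |e.1.1| + |e.1.2|)
        (fun e _ => by positivity) he
    have h1 := neg_abs_le e.1.1
    have h2 := le_abs_self e.1.1
    have h3 := neg_abs_le e.1.2
    have h4 := le_abs_self e.1.2
    have h5 := abs_nonneg e.1.1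
    have h6 := abs_nonneg e.1.2
    refine ⟨?_, ?_, ?_, ?_⟩ <;> linarith

theorem ind_out {S : Finset (EG ℤ)} {R : ℤ} (hR : Bd S R) {i j : ℤ} {k : Fin 2}
    (h : i ≤ -R ∨ R ≤ i ∨ j ≤ -R ∨ R ≤ j) : ind S ((i, j), k) = 0 := by
  rw [ind_eq_zero]
  intro he
  have := hR _ he
  simp only at this
  omega

theorem scan_succ {S : Finset (EG ℤ)} {R : ℤ} (hR : Bd S R) (i j : ℤ) :
    scan S R (i + 1) j = scan S R i j + ind S ((i, j), 0) := by
  by_cases hi : -R ≤ i
  · have : Finset.Ico (-R) (i + 1) = insert i (Finset.Ico (-R) i) := by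
      ext x; simp only [Finset.mem_Ico, Finset.mem_insert]; omega
    rw [scan, this, Finset.sum_insert (by simp), add_comm]
    rfl
  · rw [scan_left S R _ _ (by omega), scan_left S R _ _ (by omega), ind_out hR (by omega), zero_add]

theorem scan_row {S : Finset (EG ℤ)} {R : ℤ} (hR : Bd S R) (hS : ∀ f, EvAt S f) (i j : ℤ) :
    scan S R i (j + 1) = scan S R i j + ind S ((i, j), 1) := by
  have base : ∀ i j : ℤ, i ≤ -R → scan S R i (j + 1) = scan S R i j + ind S ((i, j), 1) := by
    intro i j hi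
    rw [scan_left S R _ _ hi, scan_left S R _ _ hi, ind_out hR (by omega), zero_add]
  have step : ∀ n : ℕ, ∀ j : ℤ, scan S R (-R + n) (j + 1) =
      scan S R (-R + n) j + ind S ((-R + n, j), 1) := by
    intro n
    induction n with
    | zero => intro j; exact base _ _ (by simp)
    | succ n ih =>
      intro j
      have h := hS (-R + n, j)
      unfold EvAt at h
      simp only [Prod.mk_add_mk, add_zero] at h
      push_cast
      rw [← add_assoc, scan_succ hR, scan_succ hR, ih]
      generalize scan S R (-R + n) j = a at *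
      generalize ind S ((-R + (n : ℤ), j), 0) = b at *
      generalize ind S ((-R + (n : ℤ), j), 1) = c at *
      generalize ind S ((-R + (n : ℤ), j + 1), 0) = d at *
      generalize ind S ((-R + (n : ℤ) + 1, j), 1) = e at *
      revert a b c d e
      decide
  by_cases hi : i ≤ -R
  · exact base i j hi
  · obtain ⟨n, hn⟩ : ∃ n : ℕ, i = -R + n := ⟨(i + R).toNat, by omega⟩
    rw [hn]; exact step n j

theorem scan_out {S : Finset (EG ℤ)} {R : ℤ} (hR : Bd S R) (hS : ∀ f, EvAt S f) {i j : ℤ}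
    (h : i ≤ -R ∨ R ≤ i ∨ j ≤ -R ∨ R ≤ j) : scan S R i j = 0 := by
  have h1 : ∀ i j, R ≤ j ∨ j ≤ -R → scan S R i j = 0 := by
    intro i j hj
    rw [scan]
    refine Finset.sum_eq_zero fun k _ => ind_out hR ?_
    omega
  by_cases hi : R ≤ i
  · have up : ∀ n : ℕ, scan S R i (j + n) = scan S R i j := by
      intro n
      induction n with
      | zero => simp
      | succ n ih =>
        push_cast
        rw [← add_assoc, scan_row hR hS, ih, ind_out hR (Or.inr (Or.inl hi)), add_zero]
    rw [← up (R - j).toNat]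
    apply h1
    omega
  · rcases h with h | h | h | h
    · exact scan_left _ _ _ _ h
    · exact absurd h hi
    · exact h1 _ _ (Or.inr h)
    · exact h1 _ _ (Or.inl h)

theorem zmod2_cases (a : ZMod 2) : a = 0 ∨ a = 1 := by
  revert a; decide

/-- a finite edge set which is even at all faces is a wall set -/
theorem exists_walls (S : Finset (EG ℤ)) (hS : ∀ f, EvAt S f) :
    ∃ N : Finset (ℤ × ℤ), walls N = S := by
  obtain ⟨R, hR0, hR⟩ := exists_bd S
  let N : Finset (ℤ × ℤ) := (Finset.Icc (-R) R ×ˢ Finset.Icc (-R) R).filter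
    fun z => scan S R z.1 z.2 = 1
  have hN : ∀ z, z ∈ N ↔ scan S R z.1 z.2 = 1 := by
    intro z
    simp only [N, Finset.mem_filter, Finset.mem_product, Finset.mem_Icc]
    refine ⟨fun h => h.2, fun h => ⟨?_, h⟩⟩
    by_contra hc
    rw [scan_out hR hS (by omega)] at h
    exact absurd h (by decide)
  refine ⟨N, ?_⟩
  ext ⟨⟨i, j⟩, k⟩
  rw [mem_walls, hN, hN]
  fin_cases k
  · simp only [Fin.zero_eta, Fin.isValue, uv, if_true, Prod.mk_add_mk, add_zero]
    rw [scan_succ hR, ← ind_eq_one]
    rcases zmod2_cases (scan S R i j) with h | h <;>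
      rcases zmod2_cases (ind S ((i, j), 0)) with h' | h' <;> rw [h, h'] <;> decide
  · simp only [Fin.mk_one, Fin.isValue, uv, one_ne_zero, if_false, Prod.mk_add_mk, add_zero]
    rw [scan_row hR hS, ← ind_eq_one]
    rcases zmod2_cases (scan S R i j) with h | h <;>
      rcases zmod2_cases (ind S ((i, j), 1)) with h' | h' <;> rw [h, h'] <;> decide

/-- the minus set is determined by its walls -/
theorem walls_inj {N N' : Finset (ℤ × ℤ)} (h : walls N = walls N') : N = N' := by
  have key : ∀ z : ℤ × ℤ, ¬(z ∈ N ↔ z ∈ N') → False := by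
    intro z hz
    have hk : ∀ n : ℕ, ¬(z + ((n : ℤ), 0) ∈ N ↔ z + ((n : ℤ), 0) ∈ N') := by
      intro n
      induction n with
      | zero =>
        have : z + (((0 : ℕ) : ℤ), 0) = z := by simp
        rw [this]; exact hz
      | succ n ih =>
        have he := Finset.ext_iff.1 h (z + ((n : ℤ), 0), 0)
        rw [mem_walls, mem_walls] at he
        have e : z + ((n : ℤ), (0 : ℤ)) + uv 0 = z + (((n + 1 : ℕ) : ℤ), 0) := by
          simp [uv, add_assoc]
        simp only [e] at he
        tauto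
    have hinj : Function.Injective fun n : ℕ => z + ((n : ℤ), (0 : ℤ)) := by
      intro a b hab
      simpa using hab
    have : (Set.range fun n : ℕ => z + ((n : ℤ), (0 : ℤ))) ⊆ ((N ∪ N' : Finset (ℤ × ℤ)) : Set (ℤ × ℤ)) := by
      rintro _ ⟨n, rfl⟩
      have := hk n
      simp only [Finset.coe_union, Set.mem_union, Finset.mem_coe]
      tauto
    exact (Set.infinite_range_of_injective hinj) ((Finset.finite_toSet _).subset this)
  ext z
  by_contra hc
  exact key z hc

/-- the expansion of the product over edges -/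
theorem E0_prod (A : Finset (EG ℤ)) (y : EG ℤ → ℝ) :
    E0 ((∏ e ∈ A, (1 + y e • bb e) : Ge (VI (HE ℤ))) : Gr (VI (HE ℤ))) =
      ∑ S ∈ A.powerset, (∏ e ∈ S, y e) * E0 (mon S : Gr (VI (HE ℤ))) := by
  rw [Finset.prod_one_add]
  have : ∀ S : Finset (EG ℤ), ∏ e ∈ S, y e • bb e = (∏ e ∈ S, y e) • mon S := by
    intro S
    rw [mon, Finset.prod_smul]
  simp only [this]
  have h2 : ((∑ S ∈ A.powerset, (∏ e ∈ S, y e) • mon S : Ge (VI (HE ℤ))) : Gr (VI (HE ℤ))) =
      ∑ S ∈ A.powerset, (∏ e ∈ S, y e) • (mon S : Gr (VI (HE ℤ))) := by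
    have := map_sum (Ge (VI (HE ℤ))).val (fun S => (∏ e ∈ S, y e) • mon S) A.powerset
    exact this
  rw [h2, map_sum]
  refine Finset.sum_congr rfl fun S _ => ?_
  rw [map_smul, smul_eq_mul]

/-- `T` has no holes: a finite set of minus spins whose walls touch `T` is inside `T` -/
def NoHole (T : Finset (ℤ × ℤ)) : Prop := ∀ N : Finset (ℤ × ℤ), walls N ⊆ touch T → N ⊆ T

theorem walls_subset_touch {N T : Finset (ℤ × ℤ)} (h : N ⊆ T) : walls N ⊆ touch T := by
  intro e he
  rw [mem_walls] at he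
  rw [mem_touch]
  by_contra hc
  rw [not_or] at hc
  exact he ⟨fun h' => absurd (h h') hc.1, fun h' => absurd (h h') hc.2⟩

/-- **(J1)** -/
theorem J1 (T : Finset (ℤ × ℤ)) (hT : NoHole T) (y : EG ℤ → ℝ) :
    ∑ N ∈ T.powerset, ∏ e ∈ walls N, y e =
      E0 ((∏ e ∈ touch T, (1 + y e • bb e) : Ge (VI (HE ℤ))) : Gr (VI (HE ℤ))) := by
  rw [E0_prod]
  symm
  have h1 : ∑ S ∈ (touch T).powerset, (∏ e ∈ S, y e) * E0 (mon S : Gr (VI (HE ℤ))) =
      ∑ S ∈ T.powerset.image walls, (∏ e ∈ S, y e) * E0 (mon S : Gr (VI (HE ℤ))) := by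
    symm
    apply Finset.sum_subset
    · intro S hS
      obtain ⟨N, hN, rfl⟩ := Finset.mem_image.1 hS
      rw [Finset.mem_powerset] at hN ⊢
      exact walls_subset_touch hN
    · intro S hS hS'
      rw [Finset.mem_powerset] at hS
      have : ∃ f, ¬EvAt S f := by
        by_contra hc
        push Not at hc
        obtain ⟨N, hN⟩ := exists_walls S hc
        apply hS'
        rw [Finset.mem_image]
        exact ⟨N, Finset.mem_powerset.2 (hT N (hN ▸ hS)), hN⟩
      obtain ⟨f, hf⟩ := this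
      rw [E0_mon_odd S f hf, mul_zero]
  rw [h1, Finset.sum_image fun N _ N' _ h => walls_inj h]
  refine Finset.sum_congr rfl fun N _ => ?_
  rw [E0_mon_walls, mul_one]

end Crest.Agent.R165.J1cx606
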