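import Crest.Agent.R165.J1c_606

/-!
# Row 165 (S0250), block J, (J2) part a: the half-edge operator and its inverse covariance

* `Aop w φ` : the antisymmetric half-edge operator with edge weights `w`
* `IsInv w S` : `S` antisymmetric kernel with `A_w S = -1`
* `E0_PP` : if `w` is supported in a finite edge set `A` and `IsInv w S`, then
  `E0 [∏_{e ∈ A} (1 + w_e b_e) F] = E0 [∏_{e ∈ A} (1 + w_e b_e)] * EE (covOf S) F`
* `exists_inv`, `Z_ne_zero_of_inv`, `IsInv.unique`.
-/

set_option autoImplicit false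

noncomputable section

namespace Crest.Agent.R165.J2ax606

open Crest.Agent.R165.Gr0x606 Crest.Agent.R165.Gr1x606 Crest.Agent.R165.J1ax606
  Crest.Agent.R165.J1bx606

/-- the one-face action matrix -/
def a4 (a b : Fin 4) : ℝ := if a < b then 1 else if b < a then -1 else 0

/-- orientation sign of a half-edge -/
def sg (a : Fin 4) : ℝ := if a < 2 then 1 else -1

theorem a4_anti (a b : Fin 4) : a4 a b = -a4 b a := by
  fin_cases a <;> fin_cases b <;> simp [a4]

theorem a4_k4 (a c : Fin 4) : ∑ b, a4 a b * k4 b c = if a = c then -1 else 0 := by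
  fin_cases a <;> fin_cases c <;> simp [a4, k4, Fin.sum_univ_four]

theorem k4_a4 (a c : Fin 4) : ∑ b, k4 a b * a4 b c = if a = c then -1 else 0 := by
  fin_cases a <;> fin_cases c <;> simp [a4, k4, Fin.sum_univ_four]

section gen
variable {G : Type*} [CommRing G]

/-- partner half-edge -/
def bar (h : HE G) : HE G :=
  if h.2 = 0 then (h.1 - (0, 1), 2) else if h.2 = 1 then (h.1 + (1, 0), 3)
  else if h.2 = 2 then (h.1 + (0, 1), 0) else (h.1 - (1, 0), 1)

/-- the edge of a half-edge -/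
def ed (h : HE G) : EG G :=
  if h.2 = 0 then (h.1, 0) else if h.2 = 1 then (h.1 + (1, 0), 1)
  else if h.2 = 2 then (h.1 + (0, 1), 0) else (h.1, 1)

@[simp] theorem bar_pe (e : EG G) : bar (pe e) = qe e := by
  obtain ⟨z, j⟩ := e
  fin_cases j <;> simp [bar, pe, qe]

@[simp] theorem bar_qe (e : EG G) : bar (qe e) = pe e := by
  obtain ⟨z, j⟩ := e
  fin_cases j <;> simp [bar, pe, qe]

@[simp] theorem ed_pe (e : EG G) : ed (pe e) = e := by
  obtain ⟨z, j⟩ := e
  fin_cases j <;> simp [ed, pe]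

@[simp] theorem ed_qe (e : EG G) : ed (qe e) = e := by
  obtain ⟨z, j⟩ := e
  fin_cases j <;> simp [ed, qe]

@[simp] theorem sg_pe (e : EG G) : sg (pe e).2 = 1 := by
  obtain ⟨z, j⟩ := e
  fin_cases j
  · show sg 0 = 1
    rw [sg, if_pos (by decide)]
  · show sg 1 = 1
    rw [sg, if_pos (by decide)]

@[simp] theorem sg_qe (e : EG G) : sg (qe e).2 = -1 := by
  obtain ⟨z, j⟩ := e
  fin_cases j
  · show sg 2 = -1
    rw [sg, if_neg (by decide)]
  · show sg 3 = -1
    rw [sg, if_neg (by decide)]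

/-- every half-edge is the first or the second half of its edge -/
theorem he_cases (h : HE G) : (h = pe (ed h) ∧ sg h.2 = 1) ∨ (h = qe (ed h) ∧ sg h.2 = -1) := by
  obtain ⟨f, a⟩ := h
  fin_cases a
  · left; simp [pe, ed, sg]
  · left
    refine ⟨by simp [pe, ed], ?_⟩
    show sg 1 = 1
    rw [sg, if_pos (by decide)]
  · right
    refine ⟨by simp [qe, ed], ?_⟩
    show sg 2 = -1
    rw [sg, if_neg (by decide)]
  · right
    refine ⟨by simp [qe, ed], ?_⟩
    show sg 3 = -1
    rw [sg, if_neg (by decide)]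

@[simp] theorem bar_bar (h : HE G) : bar (bar h) = h := by
  rcases he_cases h with ⟨h1, _⟩ | ⟨h1, _⟩ <;> rw [h1] <;> simp

@[simp] theorem ed_bar (h : HE G) : ed (bar h) = ed h := by
  rcases he_cases h with ⟨h1, _⟩ | ⟨h1, _⟩ <;> rw [h1] <;> simp

/-- the half-edge operator -/
def Aop (w : EG G → ℝ) (φ : HE G → ℝ) (h : HE G) : ℝ :=
  ∑ b, a4 h.2 b * φ (h.1, b) + sg h.2 * w (ed h) * φ (bar h)

/-- antisymmetric inverse kernel -/
structure IsInv [DecidableEq G] (w : EG G → ℝ) (S : HE G → HE G → ℝ) : Prop where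
  anti : ∀ h k, S h k = -S k h
  inv : ∀ h k, Aop w (fun j => S j k) h = if h = k then -1 else 0

end gen

section gen2
variable {G : Type*} [CommRing G] [DecidableEq G]

/-- the product over edges -/
def PP (w : EG G → ℝ) (A : Finset (EG G)) : Ge (VI (HE G)) := ∏ e ∈ A, (1 + w e • bb e)

/-- the quadratic form of the edges -/
def QQ (w : EG G → ℝ) (A : Finset (EG G)) : Gr (VI (HE G)) :=
  ∑ e ∈ A, w e • (ph (pe e) * ph (qe e))

omit [DecidableEq G] in
@[simp] theorem PP_empty (w : EG G → ℝ) : PP w ∅ = 1 := rfl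

theorem isExp_PP (w : EG G → ℝ) (A : Finset (EG G)) : IsExp (QQ w A) (PP w A : Gr (VI (HE G))) := by
  induction A using Finset.induction_on with
  | empty => simpa [QQ] using (IsExp.one (V := VI (HE G)))
  | insert e A he ih =>
    rw [QQ, Finset.sum_insert he, PP, Finset.prod_insert he, Ge.coe_mul]
    exact IsExp.mul (IsExp.bil (w e) _ _) ih

omit [DecidableEq G] in
/-- derivative of the quadratic form -/
theorem dd_QQ (w : EG G → ℝ) (A : Finset (EG G)) (l : Module.Dual ℝ (VI (HE G))) :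
    dd l (QQ w A) = fi (∑ e ∈ A, w e • (l (Finsupp.single (pe e) 1) • Finsupp.single (qe e) (1 : ℝ) -
      l (Finsupp.single (qe e) 1) • Finsupp.single (pe e) (1 : ℝ))) := by
  have hfi : ∀ (s : Finset (EG G)) (g : EG G → VI (HE G)), fi (∑ e ∈ s, g e) = ∑ e ∈ s, fi (g e) :=
    fun s g => map_sum (ExteriorAlgebra.ι ℝ) g s
  rw [hfi, QQ, map_sum]
  refine Finset.sum_congr rfl fun e _ => ?_
  rw [map_smul, ph, dd_fi_mul, ph, dd_fi, ← Algebra.commutes, ← Algebra.smul_def, fi_smul]
  congr 1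
  rw [← fi_smul, ← fi_smul]
  exact (map_sub (ExteriorAlgebra.ι ℝ) _ _).symm

theorem de_QQ (w : EG G → ℝ) (A : Finset (EG G)) (hw : ∀ e, e ∉ A → w e = 0) (h : HE G) :
    de h (QQ w A) = (sg h.2 * w (ed h)) • ph (bar h) := by
  rw [de, dd_QQ]
  have e1 : (∑ e ∈ A, w e • ((Finsupp.lapply h : (HE G →₀ ℝ) →ₗ[ℝ] ℝ) (Finsupp.single (pe e) 1) •
      Finsupp.single (qe e) (1 : ℝ) - (Finsupp.lapply h : (HE G →₀ ℝ) →ₗ[ℝ] ℝ)
        (Finsupp.single (qe e) 1) • Finsupp.single (pe e) (1 : ℝ))) =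
      (sg h.2 * w (ed h)) • Finsupp.single (bar h) (1 : ℝ) := by
    have key : ∀ e ∈ A, e ≠ ed h → w e • ((Finsupp.lapply h : (HE G →₀ ℝ) →ₗ[ℝ] ℝ)
      (Finsupp.single (pe e) 1) •
      Finsupp.single (qe e) (1 : ℝ) - (Finsupp.lapply h : (HE G →₀ ℝ) →ₗ[ℝ] ℝ)
        (Finsupp.single (qe e) 1) • Finsupp.single (pe e) (1 : ℝ)) = 0 := by
      intro e _ hne
      have h1 : pe e ≠ h := fun h' => hne (by rw [← h', ed_pe])
      have h2 : qe e ≠ h := fun h' => hne (by rw [← h', ed_qe])
      simp [h1, h2]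
    by_cases hA : ed h ∈ A
    · rw [Finset.sum_eq_single (ed h) key (fun h' => absurd hA h')]
      rcases he_cases h with ⟨h1, h2⟩ | ⟨h1, h2⟩
      · have h3 : qe (ed h) ≠ h := by
          intro h'; rw [h1] at h'; simp only [ed_pe] at h'; exact pe_ne_qe _ _ h'.symm
        have h4 : bar h = qe (ed h) := by rw [h1]; simp
        rw [h4, h2, Finsupp.lapply_apply, Finsupp.lapply_apply, ← h1, Finsupp.single_eq_same,
          Finsupp.single_eq_of_ne h3.symm]
        simp
      · have h3 : pe (ed h) ≠ h := by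
          intro h'; rw [h1] at h'; simp only [ed_qe] at h'; exact pe_ne_qe _ _ h'
        have h4 : bar h = pe (ed h) := by rw [h1]; simp
        rw [h4, h2, Finsupp.lapply_apply, Finsupp.lapply_apply, ← h1, Finsupp.single_eq_same,
          Finsupp.single_eq_of_ne h3.symm]
        simp
    · rw [hw _ hA, mul_zero, zero_smul]
      refine Finset.sum_eq_zero fun e he => key e he ?_
      rintro rfl
      exact hA he
  rw [e1, fi_smul]
  rfl

omit [CommRing G] in
/-- Schwinger-Dyson equation of the one-face state, action form -/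
theorem E0_sd (h : HE G) (X : Gr (VI (HE G))) :
    ∑ b, a4 h.2 b * E0 (ph (h.1, b) * X) = -E0 (de h X) := by
  obtain ⟨f, a⟩ := h
  simp only
  have : ∑ b, a4 a b * E0 (ph (f, b) * X) = ∑ c, (∑ b, a4 a b * k4 b c) * E0 (de (f, c) X) := by
    simp only [E0_ph_mul, Finset.mul_sum, Finset.sum_mul]
    rw [Finset.sum_comm]
    refine Finset.sum_congr rfl fun c _ => Finset.sum_congr rfl fun b _ => ?_
    ring
  rw [this]
  simp only [a4_k4, ite_mul, zero_mul]
  rw [Finset.sum_ite_eq Finset.univ a, if_pos (Finset.mem_univ _)]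
  ring

/-- Schwinger-Dyson equation with edges -/
theorem E0_PP_sd (w : EG G → ℝ) (A : Finset (EG G)) (hw : ∀ e, e ∉ A → w e = 0) (h : HE G)
    (X : Gr (VI (HE G))) :
    Aop w (fun j => E0 ((PP w A : Gr (VI (HE G))) * (ph j * X))) h =
      -E0 ((PP w A : Gr (VI (HE G))) * de h X) := by
  have h1 := E0_sd h ((PP w A : Gr (VI (HE G))) * X)
  have hev : inv' (PP w A : Gr (VI (HE G))) = (PP w A : Gr (VI (HE G))) := Ge.isEv (PP w A)
  rw [de_mul, hev, map_add] at h1
  have h2 : de h (PP w A : Gr (VI (HE G))) = (sg h.2 * w (ed h)) • (ph (bar h) * (PP w A : Gr (VI (HE G)))) := by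
    have := (isExp_PP w A).dd_eq (Finsupp.lapply h)
    have h3 := de_QQ w A hw h
    rw [de] at h3
    rw [de, this, h3, smul_mul_assoc]
  have h4 : ∀ j, E0 ((PP w A : Gr (VI (HE G))) * (ph j * X)) =
      E0 (ph j * ((PP w A : Gr (VI (HE G))) * X)) := by
    intro j
    rw [← mul_assoc, (Ge.isEv (PP w A)).comm, mul_assoc]
  rw [h2, smul_mul_assoc, map_smul, smul_eq_mul, mul_assoc (ph (bar h))] at h1
  unfold Aop
  simp only [h4]
  rw [h1]
  ring

/-- existence of the inverse kernel -/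
theorem exists_inv (w : EG G → ℝ) (A : Finset (EG G)) (hw : ∀ e, e ∉ A → w e = 0)
    (hZ : E0 (PP w A : Gr (VI (HE G))) ≠ 0) : ∃ S, IsInv w S := by
  refine ⟨fun h k => E0 ((PP w A : Gr (VI (HE G))) * (ph h * ph k)) / E0 (PP w A : Gr (VI (HE G))),
    fun h k => ?_, fun h k => ?_⟩
  · rw [ph_anti, mul_neg, map_neg, neg_div]
  · have h1 := E0_PP_sd w A hw h (ph k)
    have h2 : Aop w (fun j => E0 ((PP w A : Gr (VI (HE G))) * (ph j * ph k)) /
        E0 (PP w A : Gr (VI (HE G)))) h =
        Aop w (fun j => E0 ((PP w A : Gr (VI (HE G))) * (ph j * ph k))) h /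
        E0 (PP w A : Gr (VI (HE G))) := by
      unfold Aop
      rw [add_div, Finset.sum_div]
      congr 1
      · refine Finset.sum_congr rfl fun b _ => ?_
        ring
      · ring
    rw [h2, h1]
    have h3 : de h (ph k : Gr (VI (HE G))) = algebraMap ℝ _ (if h = k then (1 : ℝ) else 0) := by
      rw [de, ph, dd_fi]
      congr 1
      simp [Finsupp.single_apply, eq_comm]
    rw [h3, ← Algebra.commutes, ← Algebra.smul_def, map_smul, smul_eq_mul]
    split_ifs with h4
    · field_simp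
    · simp

omit [CommRing G] [DecidableEq G] in
/-- `k4 (a4 φ) = -φ` inside a face -/
theorem k4_mul (f : G × G) (b : Fin 4) (φ : HE G → ℝ) :
    ∑ a, k4 b a * ∑ c, a4 a c * φ (f, c) = -φ (f, b) := by
  have : ∑ a, k4 b a * ∑ c, a4 a c * φ (f, c) = ∑ c, (∑ a, k4 b a * a4 a c) * φ (f, c) := by
    simp only [Finset.mul_sum, Finset.sum_mul]
    rw [Finset.sum_comm]
    refine Finset.sum_congr rfl fun c _ => Finset.sum_congr rfl fun b _ => ?_
    ring
  rw [this]
  simp only [k4_a4, ite_mul, zero_mul]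
  rw [Finset.sum_ite_eq Finset.univ b, if_pos (Finset.mem_univ _)]
  ring

/-- a sum over the half-edges of a face as a sum over edges -/
theorem sum_edges (c : HE G → ℝ) (A : Finset (EG G)) (f : G × G) (h1 : ∀ k, k.1 ≠ f → c k = 0)
    (h2 : ∀ k, ed k ∉ A → c k = 0) : ∑ e ∈ A, (c (pe e) + c (qe e)) = ∑ a, c (f, a) := by
  rw [Finset.sum_add_distrib, ← Finset.sum_image (g := pe) (f := c) (fun _ _ _ _ h => pe_inj h),
    ← Finset.sum_image (g := qe) (f := c) (fun _ _ _ _ h => qe_inj h), ← Finset.sum_union]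
  · have h3 : ∑ a, c (f, a) = ∑ k ∈ Finset.univ.map ⟨fun j : Fin 4 => ((f, j) : HE G),
        fun j j' h => (Prod.mk.inj h).2⟩, c k := by
      rw [Finset.sum_map]; rfl
    rw [h3]
    refine Finset.sum_congr_of_eq_on_inter ?_ ?_ (fun _ _ _ => rfl)
    · intro k _ hk
      refine h1 k fun hf => hk ?_
      rw [Finset.mem_map]
      exact ⟨k.2, Finset.mem_univ _, by rw [← hf]; rfl⟩
    · intro k _ hk
      refine h2 k fun hA => hk ?_
      rw [Finset.mem_union, Finset.mem_image, Finset.mem_image]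
      rcases he_cases k with ⟨h, _⟩ | ⟨h, _⟩
      · exact Or.inl ⟨_, hA, h.symm⟩
      · exact Or.inr ⟨_, hA, h.symm⟩
  · rw [Finset.disjoint_left]
    intro k hk hk'
    obtain ⟨e, _, rfl⟩ := Finset.mem_image.1 hk
    obtain ⟨e', _, h⟩ := Finset.mem_image.1 hk'
    exact pe_ne_qe _ _ h.symm

/-- the resolvent identity `S = K0 + S W K0` -/
theorem IsInv.resolvent {w : EG G → ℝ} {S : HE G → HE G → ℝ} (hS : IsInv w S) (A : Finset (EG G))
    (hw : ∀ e, e ∉ A → w e = 0) (h j : HE G) :
    S h j = K0 h j + ∑ e ∈ A, w e * (S h (pe e) * K0 (qe e) j - S h (qe e) * K0 (pe e) j) := by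
  obtain ⟨f, b⟩ := j
  have h1 : ∀ a, k4 b a * Aop w (fun i => S i h) (f, a) = k4 b a * if (f, a) = h then -1 else 0 :=
    fun a => by rw [hS.inv]
  have h2 := Finset.sum_congr (rfl : (Finset.univ : Finset (Fin 4)) = Finset.univ) fun a _ => h1 a
  have h3 : ∑ a, k4 b a * Aop w (fun i => S i h) (f, a) =
      -S (f, b) h + ∑ a, k4 b a * (sg a * w (ed (f, a)) * S (bar (f, a)) h) := by
    rw [← k4_mul f b (fun i => S i h), ← Finset.sum_add_distrib]
    refine Finset.sum_congr rfl fun a _ => ?_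
    rw [Aop, mul_add]
  have h4 : ∑ a, k4 b a * (if (f, a) = h then (-1 : ℝ) else 0) = -K0 (f, b) h := by
    obtain ⟨f', b'⟩ := h
    unfold K0
    by_cases hf : f = f'
    · subst hf
      simp only [Prod.mk.injEq, true_and, if_true, mul_ite, mul_neg, mul_one, mul_zero]
      rw [Finset.sum_ite_eq' Finset.univ b', if_pos (Finset.mem_univ _)]
    · simp [hf]
  rw [h3, h4] at h2
  have h5 : S h (f, b) = K0 h (f, b) -
      ∑ a, k4 b a * (sg a * w (ed (f, a)) * S (bar (f, a)) h) := by
    rw [hS.anti h (f, b), K0_anti h (f, b)]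
    linarith
  rw [h5]
  have h6 := sum_edges (fun k => -(K0 k (f, b) * (sg k.2 * w (ed k) * S h (bar k)))) A f
    (fun k hk => by
      have : K0 k (f, b) = 0 := if_neg hk
      rw [this, zero_mul, neg_zero])
    (fun k hk => by rw [hw _ hk, mul_zero, zero_mul, mul_zero, neg_zero])
  have h7 : ∑ e ∈ A, w e * (S h (pe e) * K0 (qe e) (f, b) - S h (qe e) * K0 (pe e) (f, b)) =
      ∑ e ∈ A, (-(K0 (pe e) (f, b) * (sg (pe e).2 * w (ed (pe e)) * S h (bar (pe e)))) +
        -(K0 (qe e) (f, b) * (sg (qe e).2 * w (ed (qe e)) * S h (bar (qe e))))) := by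
    refine Finset.sum_congr rfl fun e _ => ?_
    rw [sg_pe, sg_qe, ed_pe, ed_qe, bar_pe, bar_qe]
    ring
  rw [h7, h6, sub_eq_add_neg, ← Finset.sum_neg_distrib]
  congr 1
  refine Finset.sum_congr rfl fun a _ => ?_
  have h8 : K0 (f, a) ((f, b) : HE G) = -k4 b a := by
    rw [K0, if_pos rfl, k4_anti]
  rw [h8, hS.anti (bar (f, a)) h]
  ring

/-- **Gaussian state with edges**: `E0[PP F] = E0[PP] E_S[F]` -/
theorem E0_PP {w : EG G → ℝ} {S : HE G → HE G → ℝ} (hS : IsInv w S) (A : Finset (EG G))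
    (hw : ∀ e, e ∉ A → w e = 0) (F : Gr (VI (HE G))) :
    E0 ((PP w A : Gr (VI (HE G))) * F) =
      E0 (PP w A : Gr (VI (HE G))) * EE (covOf S hS.anti) F := by
  refine reweight S0 (covOf S hS.anti) (QQ w A) (PP w A) (isExp_PP w A)
    (fun l => ∑ e ∈ A, w e • (l (Finsupp.single (pe e) 1) • Finsupp.single (qe e) (1 : ℝ) -
      l (Finsupp.single (qe e) 1) • Finsupp.single (pe e) (1 : ℝ))) (fun l => dd_QQ w A l) ?_ F
  intro z
  have key : ∀ z : VI (HE G), (covOf S hS.anti).b z = (S0 (G := G)).b (z + ∑ e ∈ A, w e •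
      ((covOf S hS.anti).b z (Finsupp.single (pe e) 1) • Finsupp.single (qe e) (1 : ℝ) -
      (covOf S hS.anti).b z (Finsupp.single (qe e) 1) • Finsupp.single (pe e) (1 : ℝ))) := by
    intro z
    induction z using Finsupp.induction_linear with
    | zero => simp
    | add x y hx hy =>
      refine (map_add _ x y).trans ((congrArg₂ (· + ·) hx hy).trans ?_)
      rw [← map_add (S0 (G := G)).b]
      congr 1
      rw [add_add_add_comm, ← Finset.sum_add_distrib]
      congr 1
      refine Finset.sum_congr rfl fun e _ => ?_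
      rw [← smul_add]
      congr 1
      rw [map_add (covOf S hS.anti).b, LinearMap.add_apply, LinearMap.add_apply, add_smul, add_smul]
      abel
    | single h c =>
      have e1 : Finsupp.single h c = c • Finsupp.single h (1 : ℝ) := by
        rw [Finsupp.smul_single, smul_eq_mul, mul_one]
      rw [e1]
      have e2 : (c • Finsupp.single h (1 : ℝ) + ∑ e ∈ A, w e •
          ((covOf S hS.anti).b (c • Finsupp.single h (1 : ℝ)) (Finsupp.single (pe e) 1) •
            Finsupp.single (qe e) (1 : ℝ) -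
          (covOf S hS.anti).b (c • Finsupp.single h (1 : ℝ)) (Finsupp.single (qe e) 1) •
            Finsupp.single (pe e) (1 : ℝ))) = c • (Finsupp.single h (1 : ℝ) + ∑ e ∈ A, w e •
          ((covOf S hS.anti).b (Finsupp.single h (1 : ℝ)) (Finsupp.single (pe e) 1) •
            Finsupp.single (qe e) (1 : ℝ) -
          (covOf S hS.anti).b (Finsupp.single h (1 : ℝ)) (Finsupp.single (qe e) 1) •
            Finsupp.single (pe e) (1 : ℝ))) := by
        rw [smul_add, Finset.smul_sum]
        congr 1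
        refine Finset.sum_congr rfl fun e _ => ?_
        rw [map_smul, LinearMap.smul_apply, LinearMap.smul_apply, smul_comm c (w e)]
        congr 1
        rw [smul_sub, smul_eq_mul, smul_eq_mul, mul_smul, mul_smul]
      rw [e2, map_smul, map_smul]
      congr 1
      apply Finsupp.lhom_ext'
      intro j
      apply LinearMap.ext_ring
      rw [LinearMap.comp_apply, LinearMap.comp_apply, Finsupp.lsingle_apply, covOf_b,
        formOf_single, hS.resolvent A hw h j, S0, covOf_b, map_add, LinearMap.add_apply,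
        formOf_single, map_sum, LinearMap.sum_apply]
      congr 1
      refine Finset.sum_congr rfl fun e _ => ?_
      simp only [map_smul, map_sub, LinearMap.smul_apply, LinearMap.sub_apply, formOf_single,
        smul_eq_mul]
  refine ⟨_, ?_, key z⟩
  rw [← key z]
  abel

/-- if an inverse exists then the partition function does not vanish -/
theorem Z_ne_zero_of_inv {w : EG G → ℝ} {S : HE G → HE G → ℝ} (hS : IsInv w S) (A : Finset (EG G))
    (hw : ∀ e, e ∉ A → w e = 0) : E0 (PP w A : Gr (VI (HE G))) ≠ 0 := by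
  intro h
  have h1 := E0_PP hS A hw ((PP (fun e => -w e) A : Ge (VI (HE G))) : Gr (VI (HE G)))
  rw [h, zero_mul, ← Ge.coe_mul, PP, PP, ← Finset.prod_mul_distrib] at h1
  have h2 : ∏ e ∈ A, ((1 + w e • bb e) * (1 + (-w e) • bb e)) = (1 : Ge (VI (HE G))) := by
    refine Finset.prod_eq_one fun e _ => ?_
    have h3 : (w e • bb e) * (w e • bb e) = 0 := by
      rw [smul_mul_smul_comm, bb_mul_self, smul_zero]
    have : (1 + w e • bb e) * (1 + (-w e) • bb e) = 1 - (w e • bb e) * (w e • bb e) := by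
      rw [neg_smul]
      ring
    rw [this, h3, sub_zero]
  rw [h2, Ge.coe_one, E0_apply, EE_one] at h1
  exact one_ne_zero h1

/-- uniqueness of the inverse -/
theorem IsInv.unique {w : EG G → ℝ} {S S' : HE G → HE G → ℝ} (hS : IsInv w S) (hS' : IsInv w S')
    (A : Finset (EG G)) (hw : ∀ e, e ∉ A → w e = 0) : S = S' := by
  funext h k
  have h1 := E0_PP hS A hw (ph h * ph k)
  have h2 := E0_PP hS' A hw (ph h * ph k)
  have h3 := mul_left_cancel₀ (Z_ne_zero_of_inv hS A hw) (h1.symm.trans h2)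
  rw [ph, ph, EE_fi_fi, EE_fi_fi, covOf_b, covOf_b, formOf_single, formOf_single] at h3
  exact h3

end gen2

end Crest.Agent.R165.J2ax606
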