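import Crest.Agent.R165.J2a_606

/-!
# Row 165 (S0250), block J, (J2) part b: inverse kernels with finite columns, general base state

* `Am w` : the half-edge matrix, `Aop_eq_sum`
* `FInv w S` : antisymmetric inverse kernel with finitely supported columns
* `SD w f` : the linear functional `f` satisfies the Schwinger-Dyson equations of `w`
* `FInv.sd` : `FInv w S` gives `SD w (EE (covOf S))`
* `FInv.eval` : `SD w f` and `FInv w S` give `f F = f 1 * EE (covOf S) F`
* `SD.edges` : changing the weights on a finite set of edges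
* `exists_finv` : existence for a finite change of weights
* `FInv.left` : `S A = -1` on ALL functions, `FInv.unique_inv`: uniqueness among all inverses
-/

set_option autoImplicit false

noncomputable section

namespace Crest.Agent.R165.J2bx606

open Crest.Agent.R165.Gr0x606 Crest.Agent.R165.Gr1x606 Crest.Agent.R165.J1ax606
  Crest.Agent.R165.J1bx606 Crest.Agent.R165.J2ax606

section gen
variable {G : Type*} [CommRing G] [DecidableEq G]

omit [DecidableEq G] in
theorem sg_bar (h : HE G) : sg (bar h).2 = -sg h.2 := by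
  rcases he_cases h with ⟨h1, h2⟩ | ⟨h1, h2⟩
  · rw [h2, h1, bar_pe, sg_qe]
  · rw [h2, h1, bar_qe, sg_pe, neg_neg]

/-- the half-edge matrix -/
def Am (w : EG G → ℝ) (h j : HE G) : ℝ :=
  (if h.1 = j.1 then a4 h.2 j.2 else 0) + (if j = bar h then sg h.2 * w (ed h) else 0)

theorem Am_anti (w : EG G → ℝ) (h j : HE G) : Am w h j = -Am w j h := by
  unfold Am
  rw [neg_add]
  congr 1
  · by_cases e : h.1 = j.1
    · rw [if_pos e, if_pos e.symm, a4_anti]
    · rw [if_neg e, if_neg (fun e' => e e'.symm), neg_zero]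
  · by_cases e : j = bar h
    · rw [if_pos e, if_pos (by rw [e, bar_bar]), e, ed_bar, sg_bar]
      ring
    · rw [if_neg e, if_neg (fun e' => e (by rw [e', bar_bar])), neg_zero]

/-- neighbours of a half-edge -/
def nb (h : HE G) : Finset (HE G) := insert (bar h) (Finset.univ.image fun a : Fin 4 => (h.1, a))

theorem Am_out (w : EG G → ℝ) {h j : HE G} (hj : j ∉ nb h) : Am w h j = 0 := by
  rw [nb, Finset.mem_insert, not_or] at hj
  rw [Am, if_neg hj.1, add_zero, if_neg]
  intro e
  apply hj.2
  rw [Finset.mem_image]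
  exact ⟨j.2, Finset.mem_univ _, by rw [e]⟩

theorem Aop_nb (w : EG G → ℝ) (φ : HE G → ℝ) (h : HE G) :
    Aop w φ h = ∑ j ∈ nb h, Am w h j * φ j := by
  unfold Am
  simp only [add_mul, ite_mul, zero_mul]
  rw [Finset.sum_add_distrib, Finset.sum_ite_eq' (nb h) (bar h),
    if_pos (by rw [nb]; exact Finset.mem_insert_self _ _), Aop]
  congr 1
  have : ∑ x ∈ nb h, (if h.1 = x.1 then a4 h.2 x.2 * φ x else 0) =
      ∑ x ∈ Finset.univ.image fun a : Fin 4 => (h.1, a),
        (if h.1 = x.1 then a4 h.2 x.2 * φ x else 0) := by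
    symm
    apply Finset.sum_subset
    · rw [nb]; exact Finset.subset_insert _ _
    · intro x _ hx
      rw [if_neg]
      intro e
      apply hx
      rw [Finset.mem_image]
      exact ⟨x.2, Finset.mem_univ _, by rw [e]⟩
  rw [this, Finset.sum_image (fun a _ b _ h => (Prod.mk.inj h).2)]
  refine Finset.sum_congr rfl fun a _ => ?_
  rw [if_pos rfl]

theorem Aop_eq_sum (w : EG G → ℝ) (φ : HE G → ℝ) (h : HE G) (F : Finset (HE G))
    (hF : ∀ j, j ∉ F → Am w h j * φ j = 0) : Aop w φ h = ∑ j ∈ F, Am w h j * φ j := by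
  rw [Aop_nb]
  refine Finset.sum_congr_of_eq_on_inter (fun j _ hj => hF j hj) (fun j _ hj => ?_)
    (fun _ _ _ => rfl)
  rw [Am_out w hj, zero_mul]

/-- antisymmetric inverse kernel with finitely supported columns -/
structure FInv (w : EG G → ℝ) (S : HE G → HE G → ℝ) : Prop extends IsInv w S where
  fin : ∀ k, {h | S h k ≠ 0}.Finite

/-- `S A = -1` on all functions -/
theorem FInv.left {w : EG G → ℝ} {S : HE G → HE G → ℝ} (hS : FInv w S) (ψ : HE G → ℝ) (k : HE G)
    (F : Finset (HE G)) (hF : ∀ h, h ∉ F → S k h = 0) :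
    ∑ h ∈ F, S k h * Aop w ψ h = -ψ k := by
  set F2 : Finset (HE G) := insert k (F.biUnion nb) with hF2
  have h1 : ∀ h ∈ F, Aop w ψ h = ∑ j ∈ F2, Am w h j * ψ j := by
    intro h hh
    apply Aop_eq_sum
    intro j hj
    rw [Am_out w, zero_mul]
    intro hj'
    exact hj (Finset.mem_insert_of_mem (Finset.mem_biUnion.2 ⟨h, hh, hj'⟩))
  rw [Finset.sum_congr rfl fun h hh => by rw [h1 h hh]]
  simp only [Finset.mul_sum]
  rw [Finset.sum_comm]
  have h2 : ∀ j, ∑ h ∈ F, S k h * (Am w h j * ψ j) = (if j = k then -1 else 0) * ψ j := by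
    intro j
    have h3 := hS.inv j k
    rw [Aop_eq_sum w _ j F (fun i hi => by rw [hS.anti i k, hF i hi, neg_zero, mul_zero])] at h3
    rw [← h3, Finset.sum_mul]
    refine Finset.sum_congr rfl fun h _ => ?_
    rw [hS.anti k h, Am_anti w h j]
    ring
  simp only [h2, ite_mul, zero_mul]
  rw [Finset.sum_ite_eq' F2 k, if_pos (by rw [hF2]; exact Finset.mem_insert_self _ _)]
  ring

/-- the finite row support -/
def FInv.row {w : EG G → ℝ} {S : HE G → HE G → ℝ} (hS : FInv w S) (k : HE G) : Finset (HE G) :=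
  (hS.fin k).toFinset

theorem FInv.row_spec {w : EG G → ℝ} {S : HE G → HE G → ℝ} (hS : FInv w S) (k h : HE G)
    (hh : h ∉ hS.row k) : S k h = 0 := by
  rw [FInv.row, Set.Finite.mem_toFinset, Set.mem_ofPred_eq, not_not] at hh
  rw [hS.anti, hh, neg_zero]

/-- uniqueness among all inverses -/
theorem FInv.unique_inv {w : EG G → ℝ} {S S' : HE G → HE G → ℝ} (hS : FInv w S)
    (hS' : IsInv w S') : S' = S := by
  funext k j
  have h := hS.left (fun i => S' i j) k (insert j (hS.row k))
    (fun h hh => hS.row_spec k h fun h' => hh (Finset.mem_insert_of_mem h'))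
  simp only [hS'.inv] at h
  simp only [mul_ite, mul_neg, mul_one, mul_zero] at h
  rw [Finset.sum_ite_eq' (insert j (hS.row k)) j, if_pos (Finset.mem_insert_self _ _)] at h
  linarith

/-- Schwinger-Dyson equations with weights `w` -/
def SD (w : EG G → ℝ) (f : Gr (VI (HE G)) →ₗ[ℝ] ℝ) : Prop :=
  ∀ h X, Aop w (fun j => f (ph j * X)) h = -f (de h X)

theorem SD_E0 : SD (fun _ => 0) (E0 : Gr (VI (HE G)) →ₗ[ℝ] ℝ) := by
  intro h X
  rw [← E0_sd]
  simp [Aop]

/-- the Gaussian state of a finite inverse satisfies the Schwinger-Dyson equations -/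
theorem FInv.sd {w : EG G → ℝ} {S : HE G → HE G → ℝ} (hS : FInv w S) :
    SD w (EE (covOf S hS.anti)) := by
  intro h X
  set F : Finset (HE G) := insert h ((nb h).biUnion hS.row) with hF
  have h1 : ∀ j ∈ nb h, EE (covOf S hS.anti) (ph j * X) =
      ∑ k ∈ F, S j k * EE (covOf S hS.anti) (de k X) := by
    intro j hj
    apply EE_ph_mul
    intro k hk
    apply hS.row_spec
    intro hk'
    exact hk (Finset.mem_insert_of_mem (Finset.mem_biUnion.2 ⟨j, hj, hk'⟩))
  rw [Aop_nb, Finset.sum_congr rfl fun j hj => by rw [h1 j hj]]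
  simp only [Finset.mul_sum]
  rw [Finset.sum_comm]
  have h2 : ∀ k, ∑ j ∈ nb h, Am w h j * (S j k * EE (covOf S hS.anti) (de k X)) =
      (if h = k then -1 else 0) * EE (covOf S hS.anti) (de k X) := by
    intro k
    rw [← hS.inv h k, Aop_nb, Finset.sum_mul]
    refine Finset.sum_congr rfl fun j _ => ?_
    ring
  simp only [h2, ite_mul, zero_mul]
  rw [Finset.sum_ite_eq F h, if_pos (by rw [hF]; exact Finset.mem_insert_self _ _)]
  ring

/-- a functional satisfying the Schwinger-Dyson equations is a multiple of the Gaussian state -/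
theorem FInv.eval {w : EG G → ℝ} {S : HE G → HE G → ℝ} (hS : FInv w S)
    {f : Gr (VI (HE G)) →ₗ[ℝ] ℝ} (hf : SD w f) (F : Gr (VI (HE G))) :
    f F = f 1 * EE (covOf S hS.anti) F := by
  refine EE_unique _ f ?_ F
  intro x a
  induction x using Finsupp.induction_linear with
  | zero =>
    rw [map_zero, dd_zero_left, fi_zero, zero_mul, map_zero]
  | add x y hx hy =>
    have h1 : (covOf S hS.anti).b (x + y) = (covOf S hS.anti).b x + (covOf S hS.anti).b y :=
      map_add _ x y
    rw [h1, dd_add_left, map_add, ← hx, ← hy, ← map_add, ← add_mul]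
    congr 2
    exact map_add _ x y
  | single k c =>
    have e1 : Finsupp.single k c = c • Finsupp.single k (1 : ℝ) := by
      rw [Finsupp.smul_single, smul_eq_mul, mul_one]
    rw [e1, fi_smul, smul_mul_assoc, map_smul, map_smul, dd_smul_left, map_smul]
    congr 1
    have h1 : dd ((covOf S hS.anti).b (Finsupp.single k 1)) a =
        ∑ h ∈ hS.row k, S k h • de h a := by
      apply dd_of_row
      intro h
      rw [covOf_b, formOf_single]
      split_ifs with hh
      · rfl
      · exact hS.row_spec k h hh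
    rw [h1, map_sum]
    have h2 := hS.left (fun j => f (ph j * a)) k (hS.row k) (fun h hh => hS.row_spec k h hh)
    have h3 : ∑ h ∈ hS.row k, f (S k h • de h a) =
        -∑ h ∈ hS.row k, S k h * Aop w (fun j => f (ph j * a)) h := by
      rw [← Finset.sum_neg_distrib]
      refine Finset.sum_congr rfl fun h _ => ?_
      rw [hf h a, map_smul, smul_eq_mul]
      ring
    rw [h3, h2, neg_neg]
    rfl

omit [DecidableEq G] in
theorem Aop_add (w u : EG G → ℝ) (φ : HE G → ℝ) (h : HE G) :
    Aop (w + u) φ h = Aop w φ h + sg h.2 * u (ed h) * φ (bar h) := by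
  unfold Aop
  rw [Pi.add_apply]
  ring

/-- change of the weights on a finite edge set -/
theorem SD.edges {w : EG G → ℝ} {f : Gr (VI (HE G)) →ₗ[ℝ] ℝ} (hf : SD w f) (u : EG G → ℝ)
    (A : Finset (EG G)) (hu : ∀ e, e ∉ A → u e = 0) :
    SD (w + u) (f ∘ₗ LinearMap.mulLeft ℝ (PP u A : Gr (VI (HE G)))) := by
  intro h X
  have h1 := hf h ((PP u A : Gr (VI (HE G))) * X)
  have hev : inv' (PP u A : Gr (VI (HE G))) = (PP u A : Gr (VI (HE G))) := Ge.isEv (PP u A)
  rw [de_mul, hev, map_add] at h1
  have h2 : de h (PP u A : Gr (VI (HE G))) = (sg h.2 * u (ed h)) • (ph (bar h) * (PP u A : Gr (VI (HE G)))) := by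
    have := (isExp_PP u A).dd_eq (Finsupp.lapply h)
    have h3 := de_QQ u A hu h
    rw [de] at h3
    rw [de, this, h3, smul_mul_assoc]
  have h4 : ∀ j, f ((PP u A : Gr (VI (HE G))) * (ph j * X)) =
      f (ph j * ((PP u A : Gr (VI (HE G))) * X)) := by
    intro j
    rw [← mul_assoc, (Ge.isEv (PP u A)).comm, mul_assoc]
  rw [h2, smul_mul_assoc, map_smul, smul_eq_mul, mul_assoc (ph (bar h))] at h1
  rw [Aop_add]
  simp only [LinearMap.comp_apply, LinearMap.mulLeft_apply, h4]
  rw [h1]
  ring

/-- the kernel of a functional satisfying the Schwinger-Dyson equations -/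
theorem SD.isInv {w : EG G → ℝ} {f : Gr (VI (HE G)) →ₗ[ℝ] ℝ} (hf : SD w f) (h1 : f 1 ≠ 0) :
    IsInv w fun h k => f (ph h * ph k) / f 1 := by
  refine ⟨fun h k => ?_, fun h k => ?_⟩
  · rw [ph_anti, map_neg, neg_div]
  · have h2 := hf h (ph k)
    have h3 : Aop w (fun j => f (ph j * ph k) / f 1) h = Aop w (fun j => f (ph j * ph k)) h / f 1 := by
      unfold Aop
      rw [add_div, Finset.sum_div]
      congr 1
      · refine Finset.sum_congr rfl fun b _ => ?_
        ring
      · ring
    rw [h3, h2]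
    have h4 : de h (ph k : Gr (VI (HE G))) = (if h = k then (1 : ℝ) else 0) • 1 := by
      rw [de, ph, dd_fi, Algebra.algebraMap_eq_smul_one]
      congr 1
      simp [Finsupp.single_apply, eq_comm]
    rw [h4, map_smul, smul_eq_mul]
    split_ifs with h5
    · field_simp
    · simp

/-- existence after a finite change of weights -/
theorem exists_finv {w : EG G → ℝ} {S : HE G → HE G → ℝ} (hS : FInv w S) (u : EG G → ℝ)
    (A : Finset (EG G)) (hu : ∀ e, e ∉ A → u e = 0)
    (hZ : EE (covOf S hS.anti) (PP u A : Gr (VI (HE G))) ≠ 0) : ∃ S', FInv (w + u) S' := by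
  have hsd := hS.sd.edges u A hu
  have h1 : (EE (covOf S hS.anti) ∘ₗ LinearMap.mulLeft ℝ (PP u A : Gr (VI (HE G)))) 1 ≠ 0 := by
    rw [LinearMap.comp_apply, LinearMap.mulLeft_apply, mul_one]
    exact hZ
  refine ⟨_, hsd.isInv h1, fun k => ?_⟩
  -- finite columns
  set F : Finset (HE G) := insert k (A.image pe ∪ A.image qe) with hF
  refine Set.Finite.subset (F.biUnion hS.row).finite_toSet ?_
  intro h hh
  by_contra hc
  apply hh
  have h2 : ∀ j ∈ F, S h j = 0 := by
    intro j hj
    by_contra h3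
    apply hc
    rw [Finset.mem_coe, Finset.mem_biUnion]
    refine ⟨j, hj, ?_⟩
    rw [FInv.row, Set.Finite.mem_toFinset]
    exact h3
  have h3 : ∀ j, j ∉ F → de j ((PP u A : Gr (VI (HE G))) * ph k) = 0 := by
    intro j hj
    rw [hF, Finset.mem_insert, Finset.mem_union, not_or, not_or] at hj
    have hev : inv' (PP u A : Gr (VI (HE G))) = (PP u A : Gr (VI (HE G))) := Ge.isEv (PP u A)
    have h4 : de j (PP u A : Gr (VI (HE G))) = 0 := by
      have h5 := (isExp_PP u A).dd_eq (Finsupp.lapply j)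
      have h6 := de_QQ u A hu j
      have h7 : u (ed j) = 0 := by
        apply hu
        intro hA
        rcases he_cases j with ⟨h8, _⟩ | ⟨h8, _⟩
        · exact hj.2.1 (Finset.mem_image.2 ⟨_, hA, h8.symm⟩)
        · exact hj.2.2 (Finset.mem_image.2 ⟨_, hA, h8.symm⟩)
      rw [h7, mul_zero, zero_smul, de] at h6
      rw [de, h5, h6, zero_mul]
    have h5 : de j (ph k : Gr (VI (HE G))) = 0 := by
      rw [de, ph, dd_fi, Finsupp.lapply_apply, Finsupp.single_eq_of_ne hj.1, map_zero]
    rw [de_mul, h4, h5, zero_mul, mul_zero, add_zero]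
  have h4 : EE (covOf S hS.anti) (ph h * ((PP u A : Gr (VI (HE G))) * ph k)) = 0 := by
    rw [EE_ph_mul S hS.anti h (hS.row h) (fun j hj => hS.row_spec h j hj)]
    refine Finset.sum_eq_zero fun j _ => ?_
    by_cases hj : j ∈ F
    · rw [h2 j hj, zero_mul]
    · rw [h3 j hj, map_zero, mul_zero]
  simp only [LinearMap.comp_apply, LinearMap.mulLeft_apply]
  rw [← mul_assoc, (Ge.isEv (PP u A)).comm, mul_assoc, h4, zero_div]

/-- `K0` is the finite inverse for zero weights -/
theorem finv_K0 : FInv (fun _ : EG G => (0 : ℝ)) K0 := by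
  refine ⟨⟨K0_anti, fun h k => ?_⟩, fun k => ?_⟩
  · obtain ⟨f, a⟩ := h
    obtain ⟨f', b⟩ := k
    unfold Aop K0
    by_cases e : f = f'
    · subst e
      have := a4_k4 a b
      simp [this]
    · have e' : ¬(f, a) = (f', b) := fun h => e (Prod.mk.inj h).1
      simp [e]
  · refine Set.Finite.subset (Finset.univ.image fun a : Fin 4 => ((k.1, a) : HE G)).finite_toSet ?_
    intro h hh
    rw [Finset.mem_coe, Finset.mem_image]
    have : h.1 = k.1 := by
      by_contra hc
      exact hh (if_neg hc)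
    exact ⟨h.2, Finset.mem_univ _, by rw [← this]⟩

end gen

end Crest.Agent.R165.J2bx606
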