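import Crest.Agent.R165.J2c_606

/-!
# Row 165 (S0250), block J, (J2) part d: the explicit inverse of the all-ones background

* `S1` : explicit finite-range kernel on `ℤ²`, `finv_S1 : FInv (fun _ => 1) S1`
* gauge transformations: `gw g w`, `FInv.gauge`
-/

set_option autoImplicit false

noncomputable section

namespace Crest.Agent.R165.J2dx606

open Crest.Agent.R165.Gr0x606 Crest.Agent.R165.Gr1x606 Crest.Agent.R165.J1ax606
  Crest.Agent.R165.J1bx606 Crest.Agent.R165.J1cx606 Crest.Agent.R165.J2ax606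
  Crest.Agent.R165.J2bx606 Crest.Agent.R165.J2cx606

/-- the table of `4 S1` -/
def tab : List ℤ :=
  [0, 0, 0, 0, 1, 0, 0, 1, -1, 0, 0, -1, 0, 0, 0, 0, -1, 0, 0, -1, 1, 0, -1, 2, 0, 0, 1, -1, 0, 0,
   0, 0, 0, 0, 1, -1, 0, 0, -1, 1, 0, 0, 0, 0, 0, 0, 0, 0, 0, 0, 0, 0, 1, -1, 0, 0, -2, 1, 0, -1,
   1, 0, 0, 1, 0, 1, 0, 1, -1, 0, 1, 0, 0, -1, 0, 1, -1, 0, -1, 0, 0, -1, 2, -1, 0, 1, -1, 0, 0,
   0, 0, 0, 0, 0, 1, -1, 0, 0, 0, 0, 0, 0, 0, 0, -1, 1, 0, 0, 1, -1, 0, 0, 1, -1, 0, 0, 0, 0, 0,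
   0, 0, 1, -1, 0, 1, -2, 1, 0, 0, -1, 1, 0, 0, 0, 0, 0, 0, 0, 0, 0, 0, -1, 1, 0]

/-- `4 S1` as a function of the displacement -/
def T1 (m n : ℤ) (a b : Fin 4) : ℤ :=
  if -1 ≤ m ∧ m ≤ 1 ∧ -1 ≤ n ∧ n ≤ 1 then
    tab.getD ((((m + 1).toNat * 3 + (n + 1).toNat) * 4 + a.1) * 4 + b.1) 0 else 0

theorem T1_out {m n : ℤ} (h : ¬(-1 ≤ m ∧ m ≤ 1 ∧ -1 ≤ n ∧ n ≤ 1)) (a b : Fin 4) :
    T1 m n a b = 0 := if_neg h

/-- integer version of `a4` -/
def a4z (a b : Fin 4) : ℤ := if a < b then 1 else if b < a then -1 else 0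

theorem a4z_cast (a b : Fin 4) : ((a4z a b : ℤ) : ℝ) = a4 a b := by
  unfold a4z a4; split_ifs <;> simp

/-- the partner term -/
def bT (m n : ℤ) (a b : Fin 4) : ℤ :=
  if a = 0 then T1 m (n - 1) 2 b else if a = 1 then T1 (m + 1) n 3 b
  else if a = 2 then -T1 m (n + 1) 0 b else -T1 (m - 1) n 1 b

/-- the check -/
def chk (m n : ℤ) (a b : Fin 4) : Bool :=
  decide (a4z a 0 * T1 m n 0 b + a4z a 1 * T1 m n 1 b + a4z a 2 * T1 m n 2 b +
    a4z a 3 * T1 m n 3 b + bT m n a b = if m = 0 ∧ n = 0 ∧ a = b then -4 else 0)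

theorem chk_all : ∀ m ∈ Finset.Icc (-2 : ℤ) 2, ∀ n ∈ Finset.Icc (-2 : ℤ) 2, ∀ a b : Fin 4,
    chk m n a b = true := by decide +kernel

theorem T1_inv (m n : ℤ) (a b : Fin 4) : a4z a 0 * T1 m n 0 b + a4z a 1 * T1 m n 1 b +
    a4z a 2 * T1 m n 2 b + a4z a 3 * T1 m n 3 b + bT m n a b =
      if m = 0 ∧ n = 0 ∧ a = b then -4 else 0 := by
  by_cases h : (-2 ≤ m ∧ m ≤ 2) ∧ (-2 ≤ n ∧ n ≤ 2)
  · exact of_decide_eq_true (chk_all m (Finset.mem_Icc.2 h.1) n (Finset.mem_Icc.2 h.2) a b)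
  · have h0 : ∀ c d, T1 m n c d = 0 := fun c d => T1_out (by omega) c d
    have h1 : bT m n a b = 0 := by
      unfold bT
      rw [T1_out (by omega), T1_out (by omega), T1_out (by omega), T1_out (by omega)]
      simp
    rw [h0, h0, h0, h0, h1, if_neg (by omega)]
    simp

theorem anti_all : ∀ m ∈ Finset.Icc (-1 : ℤ) 1, ∀ n ∈ Finset.Icc (-1 : ℤ) 1, ∀ a b : Fin 4,
    T1 m n a b = -T1 (-m) (-n) b a := by decide +kernel

theorem T1_anti (m n : ℤ) (a b : Fin 4) : T1 m n a b = -T1 (-m) (-n) b a := by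
  by_cases h : (-1 ≤ m ∧ m ≤ 1) ∧ (-1 ≤ n ∧ n ≤ 1)
  · exact anti_all m (Finset.mem_Icc.2 h.1) n (Finset.mem_Icc.2 h.2) a b
  · rw [T1_out (by omega), T1_out (by omega), neg_zero]

/-- the explicit inverse of the all-ones background -/
def S1 (h k : HE ℤ) : ℝ := (T1 (h.1.1 - k.1.1) (h.1.2 - k.1.2) h.2 k.2 : ℝ) / 4

theorem finv_S1 : FInv (fun _ : EG ℤ => (1 : ℝ)) S1 := by
  refine ⟨⟨fun h k => ?_, fun h k => ?_⟩, fun k => ?_⟩
  · unfold S1
    rw [T1_anti, neg_sub, neg_sub]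
    push_cast
    ring
  · obtain ⟨⟨i, j⟩, a⟩ := h
    obtain ⟨⟨i', j'⟩, b⟩ := k
    have key := T1_inv (i - i') (j - j') a b
    have key2 : ((a4z a 0 * T1 (i - i') (j - j') 0 b + a4z a 1 * T1 (i - i') (j - j') 1 b +
      a4z a 2 * T1 (i - i') (j - j') 2 b + a4z a 3 * T1 (i - i') (j - j') 3 b +
      bT (i - i') (j - j') a b : ℤ) : ℝ) = ((if i - i' = 0 ∧ j - j' = 0 ∧ a = b then -4 else 0 : ℤ) : ℝ) := by
      rw [key]
    push_cast [a4z_cast] at key2
    have h2 : sg a * 1 * S1 (bar ((i, j), a)) ((i', j'), b) = (bT (i - i') (j - j') a b : ℝ) / 4 := by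
      unfold S1 bT bar sg
      fin_cases a
      · simp [sub_right_comm j 1 j']
      · simp [add_sub_right_comm i 1 i']
      · simp only [Fin.reduceFinMk, Fin.isValue, Fin.reduceLT, if_false, Fin.reduceEq]
        simp [add_sub_right_comm j 1 j']
        ring
      · simp only [Fin.reduceFinMk, Fin.isValue, Fin.reduceLT, if_false, Fin.reduceEq]
        simp [sub_right_comm i 1 i']
        ring
    unfold Aop
    simp only
    rw [h2, Fin.sum_univ_four]
    unfold S1
    simp only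
    have h3 : (((i, j), a) = ((i', j'), b)) ↔ (i - i' = 0 ∧ j - j' = 0 ∧ a = b) := by
      rw [Prod.mk.injEq, Prod.mk.injEq, sub_eq_zero, sub_eq_zero, and_assoc]
    simp only [h3]
    split_ifs at key2 ⊢ with h4
    · linarith
    · linarith
  · refine Set.Finite.subset ((Finset.Icc (k.1.1 - 1) (k.1.1 + 1) ×ˢ
      Finset.Icc (k.1.2 - 1) (k.1.2 + 1)) ×ˢ (Finset.univ : Finset (Fin 4))).finite_toSet ?_
    intro h hh
    rw [Finset.mem_coe, Finset.mem_product, Finset.mem_product, Finset.mem_Icc, Finset.mem_Icc]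
    refine ⟨?_, Finset.mem_univ _⟩
    by_contra hc
    apply hh
    show S1 h k = 0
    unfold S1
    rw [T1_out (by omega)]
    simp

/-! ### gauge transformations -/

section gauge
variable {G : Type*} [CommRing G]

/-- gauge transformed weights -/
def gw (g : G × G → ℝ) (w : EG G → ℝ) (e : EG G) : ℝ := g (pe e).1 * g (qe e).1 * w e

theorem gw_ed (g : G × G → ℝ) (w : EG G → ℝ) (h : HE G) :
    gw g w (ed h) = g h.1 * g (bar h).1 * w (ed h) := by
  unfold gw
  rcases he_cases h with ⟨h1, _⟩ | ⟨h1, _⟩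
  · have h2 : bar h = qe (ed h) := by rw [h1]; simp
    rw [← h1, h2]
  · have h2 : bar h = pe (ed h) := by rw [h1]; simp
    rw [← h1, h2]
    ring

theorem Aop_gauge (g : G × G → ℝ) (hg : ∀ f, g f * g f = 1) (w : EG G → ℝ) (φ : HE G → ℝ)
    (h : HE G) : Aop (gw g w) (fun j => g j.1 * φ j) h = g h.1 * Aop w φ h := by
  unfold Aop
  rw [mul_add, Finset.mul_sum, gw_ed]
  congr 1
  · refine Finset.sum_congr rfl fun b _ => ?_
    ring
  · have := hg (bar h).1
    linear_combination (sg h.2 * g h.1 * w (ed h) * φ (bar h)) * this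

theorem FInv.gauge [DecidableEq G] {w : EG G → ℝ} {S : HE G → HE G → ℝ} (hS : FInv w S)
    (g : G × G → ℝ) (hg : ∀ f, g f * g f = 1) :
    FInv (gw g w) (fun h k => g h.1 * g k.1 * S h k) := by
  refine ⟨⟨fun h k => ?_, fun h k => ?_⟩, fun k => ?_⟩
  · rw [hS.anti h k]; ring
  · have h1 : (fun j => g j.1 * g k.1 * S j k) = fun j => g j.1 * (g k.1 * S j k) := by
      funext j; ring
    rw [h1, Aop_gauge g hg]
    have h2 : Aop w (fun j => g k.1 * S j k) h = g k.1 * Aop w (fun j => S j k) h := by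
      unfold Aop
      rw [mul_add, Finset.mul_sum]
      congr 1
      · refine Finset.sum_congr rfl fun b _ => ?_
        ring
      · ring
    rw [h2, hS.inv]
    split_ifs with h3
    · subst h3
      linear_combination -(hg h.1)
    · ring
  · refine (hS.fin k).subset ?_
    intro h hh h2
    apply hh
    show g h.1 * g k.1 * S h k = 0
    rw [h2, mul_zero]

end gauge

/-! ### local evaluation -/

section local_eval
variable {V : Type*} [AddCommGroup V] [Module ℝ V]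

theorem dd_mem_adjoin {U : Set V} (l : Module.Dual ℝ V) {a : Gr V}
    (ha : a ∈ Algebra.adjoin ℝ (fi '' U)) : dd l a ∈ Algebra.adjoin ℝ (fi '' U) := by
  have key : a ∈ Algebra.adjoin ℝ (fi '' U) ∧ dd l a ∈ Algebra.adjoin ℝ (fi '' U) := by
    refine adjoin_ind (P := fun a => a ∈ Algebra.adjoin ℝ (fi '' U) ∧
      dd l a ∈ Algebra.adjoin ℝ (fi '' U)) ?_ ?_ ?_ ha
    · intro r
      exact ⟨Subalgebra.algebraMap_mem _ r, by rw [dd_algebraMap]; exact Subalgebra.zero_mem _⟩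
    · intro x hx a h
      have hx' : fi x ∈ Algebra.adjoin ℝ (fi '' U) := Algebra.subset_adjoin ⟨x, hx, rfl⟩
      refine ⟨Subalgebra.mul_mem _ hx' h.1, ?_⟩
      rw [dd_fi_mul]
      exact Subalgebra.sub_mem _ (Subalgebra.smul_mem _ h.1 _) (Subalgebra.mul_mem _ hx' h.2)
    · intro a b h h'
      exact ⟨Subalgebra.add_mem _ h.1 h'.1, by rw [map_add]; exact Subalgebra.add_mem _ h.2 h'.2⟩
  exact key.2

theorem conv_mem_adjoin {U : Set V} (S : Cov V) {a : Gr V}
    (ha : a ∈ Algebra.adjoin ℝ (fi '' U)) : conv S a ∈ Algebra.adjoin ℝ (fi '' U) := by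
  refine adjoin_ind (P := fun a => conv S a ∈ Algebra.adjoin ℝ (fi '' U)) ?_ ?_ ?_ ha
  · intro r
    rw [conv_algebraMap]; exact Subalgebra.algebraMap_mem _ r
  · intro x hx a h
    have hx' : fi x ∈ Algebra.adjoin ℝ (fi '' U) := Algebra.subset_adjoin ⟨x, hx, rfl⟩
    rw [conv_fi_mul]
    exact Subalgebra.add_mem _ (Subalgebra.mul_mem _ hx' h) (dd_mem_adjoin _ h)
  · intro a b h h'
    rw [map_add]; exact Subalgebra.add_mem _ h h'

/-- local uniqueness of the Gaussian state -/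
theorem EE_unique_on {U : Set V} (S : Cov V) (f : Gr V →ₗ[ℝ] ℝ)
    (h1 : ∀ x ∈ U, ∀ a, f (fi x * a) = f (dd (S.b x) a)) {a : Gr V}
    (ha : a ∈ Algebra.adjoin ℝ (fi '' U)) : f a = f 1 * EE S a := by
  have key : ∀ a ∈ Algebra.adjoin ℝ (fi '' U : Set (Gr V)), f (conv (-S) a) = f 1 * ct a := by
    intro a ha
    refine adjoin_ind (P := fun a => f (conv (-S) a) = f 1 * ct a) ?_ ?_ ?_ ha
    · intro r
      rw [conv_algebraMap, ct_algebraMap, Algebra.algebraMap_eq_smul_one, map_smul, smul_eq_mul,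
        mul_comm]
    · intro x hx a _
      rw [conv_fi_mul, map_add, h1 x hx, Cov.neg_b, LinearMap.neg_apply, dd_neg_left, map_neg,
        map_mul, ct_fi]
      ring
    · intro a b iha ihb
      rw [map_add, map_add, iha, ihb, map_add]; ring
  have h2 : conv (-S) (conv S a) = a := by
    rw [conv_conv]
    have : -S + S = 0 := Cov.ext (neg_add_cancel S.b)
    rw [this, conv_zero]
  have := key (conv S a) (conv_mem_adjoin S ha)
  rwa [h2] at this

/-- covariances which agree on `U` give the same state on the fields of `U` -/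
theorem EE_congr_on {U : Set V} (S T : Cov V) (h : ∀ x ∈ U, ∀ y ∈ U, S.b x y = T.b x y) {a : Gr V}
    (ha : a ∈ Algebra.adjoin ℝ (fi '' U)) : EE S a = EE T a := by
  have key : conv S a = conv T a := by
    refine adjoin_ind (P := fun a => conv S a = conv T a ∧ conv S a ∈ Algebra.adjoin ℝ (fi '' U))
      ?_ ?_ ?_ ha |>.1
    · intro r
      rw [conv_algebraMap, conv_algebraMap]
      exact ⟨rfl, Subalgebra.algebraMap_mem _ r⟩
    · intro x hx a hP
      have hx' : fi x ∈ Algebra.adjoin ℝ (fi '' U) := Algebra.subset_adjoin ⟨x, hx, rfl⟩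
      have h3 : dd (S.b x) (conv S a) = dd (T.b x) (conv S a) := by
        have h4 : dd (S.b x - T.b x) (conv S a) = 0 := by
          apply dd_eq_zero_of_mem _ _ hP.2
          intro y hy
          rw [LinearMap.sub_apply, h x hx y hy, sub_self]
        rw [sub_eq_add_neg, dd_add_left, dd_neg_left, ← sub_eq_add_neg, sub_eq_zero] at h4
        exact h4
      refine ⟨?_, ?_⟩
      · rw [conv_fi_mul, conv_fi_mul, ← hP.1, h3]
      · rw [conv_fi_mul]
        exact Subalgebra.add_mem _ (Subalgebra.mul_mem _ hx' hP.2) (dd_mem_adjoin _ hP.2)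
    · intro a b ha hb
      refine ⟨by rw [map_add, map_add, ha.1, hb.1], ?_⟩
      rw [map_add]; exact Subalgebra.add_mem _ ha.2 hb.2
  rw [EE_apply, EE_apply, key]

end local_eval

section loc2
variable {G : Type*} [CommRing G] [DecidableEq G]

/-- `S A = -1` for one row, from the corresponding column -/
theorem left_of_col {w : EG G → ℝ} {S : HE G → HE G → ℝ} (hanti : ∀ h k, S h k = -S k h)
    {k : HE G} (hinv : ∀ h, Aop w (fun j => S j k) h = if h = k then -1 else 0) (ψ : HE G → ℝ)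
    (F : Finset (HE G)) (hF : ∀ h, h ∉ F → S k h = 0) :
    ∑ h ∈ F, S k h * Aop w ψ h = -ψ k := by
  set F2 : Finset (HE G) := insert k (F.biUnion nb) with hF2
  have h1 : ∀ h ∈ F, Aop w ψ h = ∑ j ∈ F2, Am w h j * ψ j := by
    intro h hh
    apply Aop_eq_sum
    intro j hj
    rw [Am_out w, zero_mul]
    intro hj'
    exact hj (Finset.mem_insert_of_mem (Finset.mem_biUnion.2 ⟨h, hh, hj'⟩))
  rw [Finset.sum_congr rfl fun h hh => by rw [h1 h hh]]
  simp only [Finset.mul_sum]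
  rw [Finset.sum_comm]
  have h2 : ∀ j, ∑ h ∈ F, S k h * (Am w h j * ψ j) = (if j = k then -1 else 0) * ψ j := by
    intro j
    have h3 := hinv j
    rw [Aop_eq_sum w _ j F (fun i hi => by rw [hanti i k, hF i hi, neg_zero, mul_zero])] at h3
    rw [← h3, Finset.sum_mul]
    refine Finset.sum_congr rfl fun h _ => ?_
    rw [hanti k h, Am_anti w h j]
    ring
  simp only [h2, ite_mul, zero_mul]
  rw [Finset.sum_ite_eq' F2 k, if_pos (by rw [hF2]; exact Finset.mem_insert_self _ _)]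
  ring

/-- **local evaluation**: the columns `k ∈ U` of `S` (an inverse for `w`) are inverse columns for
`w'`; then a Schwinger-Dyson functional for `w'` is Gaussian with covariance `S` on the fields of
`U`. -/
theorem local_eval {w w' : EG G → ℝ} {S : HE G → HE G → ℝ} (hS : FInv w S)
    {f : Gr (VI (HE G)) →ₗ[ℝ] ℝ} (hf : SD w' f) (U : Set (HE G))
    (hU : ∀ k ∈ U, ∀ h, S h k ≠ 0 → w (ed h) = w' (ed h))
    {F : Gr (VI (HE G))} (hF : F ∈ Algebra.adjoin ℝ (ph '' U)) :
    f F = f 1 * EE (covOf S hS.anti) F := by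
  have hUim : (ph '' U : Set (Gr (VI (HE G)))) = fi '' ((fun h => Finsupp.single h (1 : ℝ)) '' U) := by
    rw [Set.image_image]; rfl
  rw [hUim] at hF
  refine EE_unique_on (covOf S hS.anti) f ?_ hF
  rintro _ ⟨k, hk, rfl⟩ a
  simp only
  have hinv : ∀ h, Aop w' (fun j => S j k) h = if h = k then -1 else 0 := by
    intro h
    rw [← hS.inv h k]
    unfold Aop
    congr 1
    by_cases h0 : S (bar h) k = 0
    · simp only [h0, mul_zero]
    · rw [← ed_bar h, hU k hk _ h0]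
  have h1 : dd ((covOf S hS.anti).b (Finsupp.single k 1)) a =
      ∑ h ∈ hS.row k, S k h • de h a := by
    apply dd_of_row
    intro h
    rw [covOf_b, formOf_single]
    split_ifs with hh
    · rfl
    · exact hS.row_spec k h hh
  rw [h1, map_sum]
  have h2 := left_of_col hS.anti hinv (fun j => f (ph j * a)) (hS.row k)
    (fun h hh => hS.row_spec k h hh)
  have h3 : ∑ h ∈ hS.row k, f (S k h • de h a) =
      -∑ h ∈ hS.row k, S k h * Aop w' (fun j => f (ph j * a)) h := by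
    rw [← Finset.sum_neg_distrib]
    refine Finset.sum_congr rfl fun h _ => ?_
    rw [hf h a, map_smul, smul_eq_mul]
    ring
  rw [h3, h2, neg_neg]
  rfl

omit [DecidableEq G] in
theorem mem_adjoin_prod (U : Set (HE G)) (B : Finset (EG G)) (hB : ∀ e ∈ B, pe e ∈ U ∧ qe e ∈ U)
    (c : EG G → ℝ) (d : EG G → ℝ) :
    ((∏ e ∈ B, (algebraMap ℝ (Ge (VI (HE G))) (c e) + d e • bb e) : Ge (VI (HE G))) :
      Gr (VI (HE G))) ∈ Algebra.adjoin ℝ (ph '' U) := by
  classical
  induction B using Finset.induction_on with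
  | empty => exact Subalgebra.one_mem _
  | insert e B he ih =>
    rw [Finset.prod_insert he, Ge.coe_mul]
    refine Subalgebra.mul_mem _ ?_ (ih fun e' he' => hB e' (Finset.mem_insert_of_mem he'))
    rw [Ge.coe_add, Ge.coe_smul, coe_bb]
    have h1 := hB e (Finset.mem_insert_self _ _)
    have h2 : ph (pe e) ∈ Algebra.adjoin ℝ (ph '' U) :=
      Algebra.subset_adjoin (Set.mem_image_of_mem _ h1.1)
    have h3 : ph (qe e) ∈ Algebra.adjoin ℝ (ph '' U) :=
      Algebra.subset_adjoin (Set.mem_image_of_mem _ h1.2)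
    exact Subalgebra.add_mem _ (Subalgebra.algebraMap_mem _ (c e))
      (Subalgebra.smul_mem _ (Subalgebra.mul_mem _ h2 h3) _)

end loc2

end Crest.Agent.R165.J2dx606
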