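import Crest.Agent.R165.J2d_606

/-!
# Row 165 (S0250), block J, (J2) part e: backgrounds of infinite extent, free boundary conditions

* `noHole_box`
* `J2_gen` : (J2) for any background `v` with finite inverse `S`, in a large box
* `freew T x` : free weights (`x` on the bonds inside `T`, one elsewhere)
* `exists_finv_free` : existence of the covariance (even number of insertions)
* `J2_free` : (J2) for bonds inside `T`
-/

set_option autoImplicit false

noncomputable section

namespace Crest.Agent.R165.J2ex606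

open Crest.Agent.R165.Gr0x606 Crest.Agent.R165.Gr1x606 Crest.Agent.R165.J1ax606
  Crest.Agent.R165.J1bx606 Crest.Agent.R165.J1cx606 Crest.Agent.R165.J2ax606
  Crest.Agent.R165.J2bx606 Crest.Agent.R165.J2cx606 Crest.Agent.R165.J2dx606

/-- the box `[-R, R]²` -/
def bx (R : ℤ) : Finset (ℤ × ℤ) := Finset.Icc (-R) R ×ˢ Finset.Icc (-R) R

theorem mem_bx {R : ℤ} {z : ℤ × ℤ} : z ∈ bx R ↔ (-R ≤ z.1 ∧ z.1 ≤ R) ∧ (-R ≤ z.2 ∧ z.2 ≤ R) := by
  rw [bx, Finset.mem_product, Finset.mem_Icc, Finset.mem_Icc]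

theorem bx_mono {R R' : ℤ} (h : R ≤ R') : bx R ⊆ bx R' := by
  intro z hz
  rw [mem_bx] at hz ⊢
  omega

/-- `N` is constant along bonds which do not touch `T` -/
theorem const_of_walls {N T : Finset (ℤ × ℤ)} (h : walls N ⊆ touch T) {z : ℤ × ℤ} {j : Fin 2}
    (h1 : z ∉ T) (h2 : z + uv j ∉ T) : z ∈ N ↔ z + uv j ∈ N := by
  by_contra hc
  have : ((z, j) : EG ℤ) ∈ walls N := mem_walls.2 hc
  have := mem_touch.1 (h this)
  exact this.elim h1 h2

/-- an infinite injective sequence of members contradicts finiteness -/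
theorem no_inf (N : Finset (ℤ × ℤ)) (p : ℕ → ℤ × ℤ) (hp : Function.Injective p)
    (h : ∀ n, p n ∈ N) : False := by
  have : Set.range p ⊆ (N : Set (ℤ × ℤ)) := by
    rintro _ ⟨n, rfl⟩; exact h n
  exact (Set.infinite_range_of_injective hp) ((Finset.finite_toSet _).subset this)

theorem noHole_box (R : ℤ) : NoHole (bx R) := by
  intro N h z hz
  by_contra hc
  rw [mem_bx] at hc
  have hcase : R < z.1 ∨ z.1 < -R ∨ R < z.2 ∨ z.2 < -R := by omega
  rcases hcase with h1 | h1 | h1 | h1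
  · refine no_inf N (fun n => (z.1 + n, z.2)) (fun a b hab => by simpa using hab) fun n => ?_
    induction n with
    | zero => simpa using hz
    | succ n ih =>
      have := const_of_walls h (z := (z.1 + n, z.2)) (j := 0) (by rw [mem_bx]; simp only; omega)
        (by rw [mem_bx]; simp only [uv, if_true, Prod.mk_add_mk]; omega)
      rw [this] at ih
      simp only [uv, if_true, Prod.mk_add_mk, add_zero] at ih
      push_cast
      rwa [← add_assoc]
  · refine no_inf N (fun n => (z.1 - n, z.2)) (fun a b hab => by simpa using hab) fun n => ?_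
    induction n with
    | zero => simpa using hz
    | succ n ih =>
      have := const_of_walls h (z := (z.1 - (n + 1), z.2)) (j := 0)
        (by rw [mem_bx]; simp only; omega)
        (by rw [mem_bx]; simp only [uv, if_true, Prod.mk_add_mk]; omega)
      simp only [uv, if_true, Prod.mk_add_mk, add_zero] at this
      have e : z.1 - ((n : ℤ) + 1) + 1 = z.1 - n := by ring
      rw [e] at this
      push_cast
      exact this.2 ih
  · refine no_inf N (fun n => (z.1, z.2 + n)) (fun a b hab => by simpa using hab) fun n => ?_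
    induction n with
    | zero => simpa using hz
    | succ n ih =>
      have := const_of_walls h (z := (z.1, z.2 + n)) (j := 1) (by rw [mem_bx]; simp only; omega)
        (by rw [mem_bx]; simp only [uv, one_ne_zero, if_false, Prod.mk_add_mk]; omega)
      rw [this] at ih
      simp only [uv, one_ne_zero, if_false, Prod.mk_add_mk, add_zero] at ih
      push_cast
      rwa [← add_assoc]
  · refine no_inf N (fun n => (z.1, z.2 - n)) (fun a b hab => by simpa using hab) fun n => ?_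
    induction n with
    | zero => simpa using hz
    | succ n ih =>
      have := const_of_walls h (z := (z.1, z.2 - (n + 1))) (j := 1)
        (by rw [mem_bx]; simp only; omega)
        (by rw [mem_bx]; simp only [uv, one_ne_zero, if_false, Prod.mk_add_mk]; omega)
      simp only [uv, one_ne_zero, if_false, Prod.mk_add_mk, add_zero] at this
      have e : z.2 - ((n : ℤ) + 1) + 1 = z.2 - n := by ring
      rw [e] at this
      push_cast
      exact this.2 ih

/-- every finite set of bonds touches a large box -/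
theorem exists_box (A : Finset (EG ℤ)) : ∃ R : ℤ, 0 < R ∧ ∀ R', R ≤ R' → A ⊆ touch (bx R') := by
  obtain ⟨R, hR0, hR⟩ := exists_bd A
  refine ⟨R, hR0, fun R' hR' e he => ?_⟩
  rw [mem_touch, mem_bx]
  have := hR e he
  omega

theorem exists_box_sites (A : Finset (ℤ × ℤ)) : ∃ R : ℤ, 0 < R ∧ ∀ z ∈ A, -R < z.1 ∧ z.1 < R ∧
    -R < z.2 ∧ z.2 < R := by
  obtain ⟨R, hR0, hR⟩ := exists_bd (A.image fun z => ((z, 0) : EG ℤ))
  exact ⟨R, hR0, fun z hz => hR (z, 0) (Finset.mem_image_of_mem _ hz)⟩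

/-- restriction of the weights to the bonds touching `L` -/
def rst (L : Finset (ℤ × ℤ)) (v : EG ℤ → ℝ) (e : EG ℤ) : ℝ := if e ∈ touch L then v e else 0

theorem PP_rst (L : Finset (ℤ × ℤ)) (v : EG ℤ → ℝ) : PP (rst L v) (touch L) = PP v (touch L) := by
  refine Finset.prod_congr rfl fun e he => ?_
  rw [rst, if_pos he]

theorem PP_congr {v v' : EG ℤ → ℝ} {A : Finset (EG ℤ)} (h : ∀ e ∈ A, v e = v' e) :
    PP v A = PP v' A :=
  Finset.prod_congr rfl fun e he => by rw [h e he]

/-- the functional of the box -/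
def fb (L : Finset (ℤ × ℤ)) (v : EG ℤ → ℝ) : Gr (VI (HE ℤ)) →ₗ[ℝ] ℝ :=
  E0 ∘ₗ LinearMap.mulLeft ℝ (PP v (touch L) : Gr (VI (HE ℤ)))

theorem fb_apply (L : Finset (ℤ × ℤ)) (v : EG ℤ → ℝ) (F : Gr (VI (HE ℤ))) :
    fb L v F = E0 ((PP v (touch L) : Gr (VI (HE ℤ))) * F) := rfl

theorem sd_fb (L : Finset (ℤ × ℤ)) (v : EG ℤ → ℝ) : SD (rst L v) (fb L v) := by
  have h := (SD_E0 (G := ℤ)).edges (rst L v) (touch L) (fun e he => if_neg he)
  have e1 : (fun _ : EG ℤ => (0 : ℝ)) + rst L v = rst L v := by funext e; simp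
  rw [e1, PP_rst] at h
  exact h

/-- the half-edge column `k` of `S` is supported on bonds touching `L` -/
def Good (L : Finset (ℤ × ℤ)) (S : HE ℤ → HE ℤ → ℝ) (k : HE ℤ) : Prop :=
  ∀ h, S h k ≠ 0 → ed h ∈ touch L

/-- box functional = Gaussian state of the infinite background, on the good fields -/
theorem fb_eval {v : EG ℤ → ℝ} {S : HE ℤ → HE ℤ → ℝ} (hS : FInv v S) (L : Finset (ℤ × ℤ))
    (U : Set (HE ℤ)) (hU : ∀ k ∈ U, Good L S k) {F : Gr (VI (HE ℤ))}
    (hF : F ∈ Algebra.adjoin ℝ (ph '' U)) :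
    fb L v F = fb L v 1 * EE (covOf S hS.anti) F := by
  refine local_eval hS (sd_fb L v) U ?_ hF
  intro k hk h hh
  rw [rst, if_pos (hU k hk h hh)]

/-- large boxes are good -/
theorem exists_good {v : EG ℤ → ℝ} {S : HE ℤ → HE ℤ → ℝ} (hS : FInv v S) (U : Finset (HE ℤ)) :
    ∃ R : ℤ, 0 < R ∧ ∀ R', R ≤ R' → ∀ k ∈ U, Good (bx R') S k := by
  obtain ⟨R, hR0, hR⟩ := exists_box ((U.biUnion hS.row).image ed)
  refine ⟨R, hR0, fun R' hR' k hk h hh => hR R' hR' ?_⟩
  refine Finset.mem_image_of_mem _ (Finset.mem_biUnion.2 ⟨k, hk, ?_⟩)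
  rw [FInv.row, Set.Finite.mem_toFinset]
  exact hh

/-- half-edges of a set of bonds -/
def hes (B : Finset (EG ℤ)) : Finset (HE ℤ) := B.image pe ∪ B.image qe

theorem mem_hes {B : Finset (EG ℤ)} {e : EG ℤ} (he : e ∈ B) : pe e ∈ hes B ∧ qe e ∈ hes B :=
  ⟨Finset.mem_union_left _ (Finset.mem_image_of_mem _ he),
    Finset.mem_union_right _ (Finset.mem_image_of_mem _ he)⟩

theorem BB_mem (v : EG ℤ → ℝ) (B : Finset (EG ℤ)) (U : Set (HE ℤ))
    (hU : ∀ e ∈ B, pe e ∈ U ∧ qe e ∈ U) :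
    ((BB v B : Ge (VI (HE ℤ))) : Gr (VI (HE ℤ))) ∈ Algebra.adjoin ℝ (ph '' U) := by
  have h := mem_adjoin_prod U B hU (fun _ => 1) (fun e => -(2 * v e))
  have e1 : (∏ e ∈ B, (algebraMap ℝ (Ge (VI (HE ℤ))) ((fun _ => (1 : ℝ)) e) +
      (fun e => -(2 * v e)) e • bb e) : Ge (VI (HE ℤ))) = BB v B := by
    refine Finset.prod_congr rfl fun e _ => ?_
    simp only [map_one, neg_smul, sub_eq_add_neg]
  rw [e1] at h
  exact h

theorem PP_mem (v : EG ℤ → ℝ) (B : Finset (EG ℤ)) (U : Set (HE ℤ))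
    (hU : ∀ e ∈ B, pe e ∈ U ∧ qe e ∈ U) :
    ((PP v B : Ge (VI (HE ℤ))) : Gr (VI (HE ℤ))) ∈ Algebra.adjoin ℝ (ph '' U) := by
  have h := mem_adjoin_prod U B hU (fun _ => 1) v
  have e1 : (∏ e ∈ B, (algebraMap ℝ (Ge (VI (HE ℤ))) ((fun _ => (1 : ℝ)) e) +
      v e • bb e) : Ge (VI (HE ℤ))) = PP v B := by
    refine Finset.prod_congr rfl fun e _ => ?_
    simp only [map_one]
  rw [e1] at h
  exact h

/-- **(J2)** for a background `v` of any extent with finite inverse `S` -/
theorem J2_gen {v : EG ℤ → ℝ} {S : HE ℤ → HE ℤ → ℝ} (hS : FInv v S) (L : Finset (ℤ × ℤ))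
    (hL : NoHole L) (w : EG ℤ → ℝ) {n : ℕ} (xs : Fin n → ℤ × ℤ)
    (hv : ∀ e ∈ touch L, v e = w e * cut xs e) (B : Finset (EG ℤ)) (hB : B ⊆ touch L)
    (hgood : ∀ k ∈ hes B, Good L S k) :
    Zs L w xs B = Zs L w xs ∅ * EE (covOf S hS.anti)
      ((BB v B : Ge (VI (HE ℤ))) : Gr (VI (HE ℤ))) := by
  have h1 : Zs L w xs B = fb L v ((BB v B : Ge (VI (HE ℤ))) : Gr (VI (HE ℤ))) := by
    rw [Zs_eq L hL, fb_apply, ← Ge.coe_mul]
    congr 2
    rw [← PP_rst L v]
    have h2 : BB v B = BB (rst L v) B :=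
      Finset.prod_congr rfl fun e he => by rw [rst, if_pos (hB he)]
    rw [h2, ← PP_flip (rst L v) (touch L) B (fun e he => if_neg he)]
    refine PP_congr fun e he => ?_
    rw [rst, if_pos he, hv e he]
  have h2 : Zs L w xs ∅ = fb L v 1 := by
    rw [Zs_eq L hL, fb_apply, mul_one]
    congr 2
    refine PP_congr fun e he => ?_
    rw [hv e he]; simp
  rw [h1, h2]
  exact fb_eval hS L (hes B : Set (HE ℤ)) (fun k hk => hgood k hk)
    (BB_mem v B _ fun e he => mem_hes he)

/-! ### free boundary conditions -/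

/-- free weights: `x` on the bonds inside `T`, one elsewhere -/
def freew (T : Finset (ℤ × ℤ)) (x : EG ℤ → ℝ) (e : EG ℤ) : ℝ :=
  if e.1 ∈ T ∧ e.1 + uv e.2 ∈ T then x e else 1

theorem prod_freew (T : Finset (ℤ × ℤ)) (x : EG ℤ → ℝ) (N : Finset (ℤ × ℤ)) :
    ∏ e ∈ walls N, freew T x e = ∏ e ∈ walls (N ∩ T), freew T x e := by
  unfold freew
  rw [← Finset.prod_filter, ← Finset.prod_filter]
  congr 1
  ext e
  simp only [Finset.mem_filter, mem_walls, Finset.mem_inter]
  tauto

theorem sig_inter {N T : Finset (ℤ × ℤ)} {z : ℤ × ℤ} (hz : z ∈ T) : sig (N ∩ T) z = sig N z := by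
  unfold sig
  simp [hz]

/-- summing over the dummy spins -/
theorem sum_dummy {T L : Finset (ℤ × ℤ)} (hTL : T ⊆ L) (F : Finset (ℤ × ℤ) → ℝ) :
    ∑ N ∈ L.powerset, F (N ∩ T) = 2 ^ (L \ T).card * ∑ N ∈ T.powerset, F N := by
  have h1 : ∑ N ∈ L.powerset, F (N ∩ T) = ∑ p ∈ T.powerset ×ˢ (L \ T).powerset, F p.1 := by
    refine Finset.sum_nbij' (fun N => (N ∩ T, N \ T)) (fun p => p.1 ∪ p.2) ?_ ?_ ?_ ?_ ?_
    · intro N hN
      rw [Finset.mem_powerset] at hN
      rw [Finset.mem_product, Finset.mem_powerset, Finset.mem_powerset]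
      exact ⟨Finset.inter_subset_right, Finset.sdiff_subset_sdiff hN (le_refl _)⟩
    · rintro ⟨M, K⟩ hp
      rw [Finset.mem_product, Finset.mem_powerset, Finset.mem_powerset] at hp
      rw [Finset.mem_powerset]
      exact Finset.union_subset (hp.1.trans hTL) (hp.2.trans Finset.sdiff_subset)
    · intro N _
      ext z; simp only [Finset.mem_union, Finset.mem_inter, Finset.mem_sdiff]; tauto
    · rintro ⟨M, K⟩ hp
      rw [Finset.mem_product, Finset.mem_powerset, Finset.mem_powerset] at hp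
      refine Prod.ext ?_ ?_
      · ext z
        simp only [Finset.mem_union, Finset.mem_inter]
        have h1 := @hp.1 z
        have h2 := @hp.2 z
        rw [Finset.mem_sdiff] at h2
        tauto
      · ext z
        simp only [Finset.mem_union, Finset.mem_sdiff]
        have h1 := @hp.1 z
        have h2 := @hp.2 z
        rw [Finset.mem_sdiff] at h2
        tauto
    · intro N _; rfl
  rw [h1, Finset.sum_product]
  simp only [Finset.sum_const, Finset.card_powerset, nsmul_eq_mul]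
  rw [Finset.mul_sum]
  push_cast
  rfl

/-- the free spin sum does not feel the dummy spins -/
theorem Zs_free_box {T L : Finset (ℤ × ℤ)} (hTL : T ⊆ L) (x : EG ℤ → ℝ) {n : ℕ}
    (xs : Fin n → ℤ × ℤ) (hxs : ∀ i, xs i ∈ T) (B : Finset (EG ℤ))
    (hB : ∀ e ∈ B, e.1 ∈ T ∧ e.1 + uv e.2 ∈ T) :
    Zs L (freew T x) xs B = 2 ^ (L \ T).card * Zs T (freew T x) xs B := by
  unfold Zs
  rw [← sum_dummy hTL]
  refine Finset.sum_congr rfl fun N _ => ?_
  rw [← prod_freew]
  congr 2
  · exact Finset.prod_congr rfl fun i _ => (sig_inter (hxs i)).symm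
  · refine Finset.prod_congr rfl fun e he => ?_
    unfold eps
    rw [sig_inter (hB e he).1, sig_inter (hB e he).2]

/-- **(J2)** for free boundary conditions and bonds inside `T` -/
theorem J2_free {T : Finset (ℤ × ℤ)} {x : EG ℤ → ℝ} {n : ℕ} {xs : Fin n → ℤ × ℤ}
    (hxs : ∀ i, xs i ∈ T) {S : HE ℤ → HE ℤ → ℝ}
    (hS : FInv (fun e => freew T x e * cut xs e) S) (B : Finset (EG ℤ))
    (hB : ∀ e ∈ B, e.1 ∈ T ∧ e.1 + uv e.2 ∈ T) :
    Zs T (freew T x) xs B = Zs T (freew T x) xs ∅ * EE (covOf S hS.anti)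
      ((BB (fun e => freew T x e * cut xs e) B : Ge (VI (HE ℤ))) : Gr (VI (HE ℤ))) := by
  obtain ⟨R1, _, hR1⟩ := exists_good hS (hes B)
  obtain ⟨R2, _, hR2⟩ := exists_box B
  obtain ⟨R3, _, hR3⟩ := exists_box_sites T
  set R := max R1 (max R2 R3) with hR
  have hTL : T ⊆ bx R := by
    intro z hz
    have := hR3 z hz
    rw [mem_bx]
    have h3 : R3 ≤ R := (le_max_right _ _).trans (le_max_right _ _)
    omega
  have h := J2_gen hS (bx R) (noHole_box R) (freew T x) xs (fun e _ => rfl) B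
    (hR2 R ((le_max_left _ _).trans (le_max_right _ _)))
    (hR1 R (le_max_left _ _))
  rw [Zs_free_box hTL x xs hxs B hB, Zs_free_box hTL x xs hxs ∅ (by simp), mul_assoc] at h
  exact mul_left_cancel₀ (pow_ne_zero _ two_ne_zero) h

end Crest.Agent.R165.J2ex606
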