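import Crest.Agent.R165.J2e_606

/-!
# Row 165 (S0250), block J, (J2) part f: existence of the covariance, free boundary conditions

* `gE` : gauge function which removes the rays to the right of a box (even number of insertions)
* `exists_finv_free` : `FInv (freew T x * cut xs) S` exists if the partition function with
  insertions does not vanish and the number of insertions is even
* `centred` versions of (J2)
-/

set_option autoImplicit false

noncomputable section

namespace Crest.Agent.R165.J2fx606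

open Crest.Agent.R165.Gr0x606 Crest.Agent.R165.Gr1x606 Crest.Agent.R165.J1ax606
  Crest.Agent.R165.J1bx606 Crest.Agent.R165.J1cx606 Crest.Agent.R165.J2ax606
  Crest.Agent.R165.J2bx606 Crest.Agent.R165.J2cx606 Crest.Agent.R165.J2dx606
  Crest.Agent.R165.J2ex606

/-- gauge function to the right of the column `R` -/
def gE {n : ℕ} (xs : Fin n → ℤ × ℤ) (R : ℤ) (f : ℤ × ℤ) : ℝ :=
  if R ≤ f.1 then ∏ i, (if (xs i).2 ≤ f.2 then (-1 : ℝ) else 1) else 1

theorem prod_sq {ι : Type*} (s : Finset ι) (c : ι → ℝ) (hc : ∀ i ∈ s, c i * c i = 1) :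
    (∏ i ∈ s, c i) * ∏ i ∈ s, c i = 1 := by
  rw [← Finset.prod_mul_distrib]
  exact Finset.prod_eq_one hc

theorem gE_sq {n : ℕ} (xs : Fin n → ℤ × ℤ) (R : ℤ) (f : ℤ × ℤ) : gE xs R f * gE xs R f = 1 := by
  unfold gE
  split_ifs
  · refine prod_sq _ _ fun i _ => ?_
    split_ifs <;> norm_num
  · norm_num

/-- above and below the insertions the gauge function is one (even number of insertions) -/
theorem gE_far {n : ℕ} (hn : Even n) {xs : Fin n → ℤ × ℤ} {R : ℤ}
    (hR : ∀ i, -R < (xs i).2 ∧ (xs i).2 < R) (f : ℤ × ℤ) (hf : f.2 ≤ -R ∨ R ≤ f.2) :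
    gE xs R f = 1 := by
  unfold gE
  split_ifs
  · rcases hf with hf | hf
    · refine Finset.prod_eq_one fun i _ => if_neg ?_
      have := hR i
      omega
    · have : ∀ i ∈ (Finset.univ : Finset (Fin n)), (if (xs i).2 ≤ f.2 then (-1 : ℝ) else 1) = -1 := by
        intro i _
        refine if_pos ?_
        have := hR i
        omega
      rw [Finset.prod_congr rfl this, Finset.prod_const, Finset.card_univ, Fintype.card_fin,
        hn.neg_one_pow]
  · rfl

/-- off a finite set the ray background is pure gauge -/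
theorem gauge_out {n : ℕ} (hn : Even n) {xs : Fin n → ℤ × ℤ} {R : ℤ}
    (hR : ∀ i, (-R < (xs i).1 ∧ (xs i).1 < R) ∧ -R < (xs i).2 ∧ (xs i).2 < R)
    {T : Finset (ℤ × ℤ)} (hT : ∀ z ∈ T, -R < z.1 ∧ z.1 < R ∧ -R < z.2 ∧ z.2 < R)
    (x : EG ℤ → ℝ) (e : EG ℤ) (he : e.1 ∉ bx R) :
    freew T x e * cut xs e = gw (gE xs R) (fun _ => 1) e := by
  obtain ⟨⟨i, j⟩, k⟩ := e
  rw [mem_bx] at he
  simp only at he
  have hw : freew T x ((i, j), k) = 1 := by
    unfold freew
    rw [if_neg]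
    rintro ⟨h1, _⟩
    have := hT _ h1
    simp only at this
    omega
  rw [hw, one_mul]
  have hfar : ∀ f : ℤ × ℤ, (f.2 ≤ -R ∨ R ≤ f.2) → gE xs R f = 1 :=
    gE_far hn (fun i => (hR i).2)
  unfold gw
  rw [mul_one]
  fin_cases k
  · -- horizontal bond
    simp only [Fin.zero_eta, Fin.isValue, pe_zero, qe_zero, Prod.mk_sub_mk, sub_zero]
    by_cases h1 : R < i
    · unfold gE cut sgr
      rw [if_pos (by simp only; omega), if_pos (by simp only; omega), ← Finset.prod_mul_distrib]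
      refine Finset.prod_congr rfl fun l _ => ?_
      have h2 := hR l
      simp only [true_and]
      rcases lt_trichotomy (xs l).2 j with h3 | h3 | h3
      · rw [if_neg (by omega), if_pos (by omega), if_pos (by omega)]; norm_num
      · rw [if_pos (by omega), if_pos (by omega), if_neg (by omega)]; norm_num
      · rw [if_neg (by omega), if_neg (by omega), if_neg (by omega)]; norm_num
    · have hc : cut xs ((i, j), 0) = 1 := by
        unfold cut sgr
        refine Finset.prod_eq_one fun l _ => if_neg ?_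
        have h2 := hR l
        simp only [true_and, not_and, not_le]
        intro h3
        omega
      rw [hc]
      by_cases h2 : i < R
      · unfold gE
        rw [if_neg (by simp only; omega), if_neg (by simp only; omega), one_mul]
      · rw [hfar _ (by simp only; omega), hfar _ (by simp only; omega), one_mul]
  · -- vertical bond
    simp only [Fin.mk_one, Fin.isValue, pe_one, qe_one, Prod.mk_sub_mk, sub_zero]
    have hc : cut xs ((i, j), 1) = 1 := by
      unfold cut sgr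
      refine Finset.prod_eq_one fun l _ => if_neg ?_
      simp
    rw [hc]
    by_cases h1 : R < i
    · have h2 : gE xs R (i - 1, j) = gE xs R (i, j) := by
        unfold gE
        rw [if_pos (by simp only; omega), if_pos (by simp only; omega)]
      rw [h2, gE_sq]
    · by_cases h2 : i < R
      · unfold gE
        rw [if_neg (by simp only; omega), if_neg (by simp only; omega), one_mul]
      · have h3 : gE xs R (i - 1, j) = 1 := by
          unfold gE
          rw [if_neg (by simp only; omega)]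
        rw [h3, hfar (i, j) (by simp only; omega), one_mul]

/-- product of two edge products -/
theorem PP_mul_PP (w u : EG ℤ → ℝ) (A B : Finset (EG ℤ)) (hBA : B ⊆ A) (hu : ∀ e, e ∉ B → u e = 0) :
    PP w A * PP u B = PP (w + u) A := by
  have h1 : PP u B = PP u A := by
    refine Finset.prod_subset hBA fun e _ he => ?_
    rw [hu e he, zero_smul, add_zero]
  rw [h1, PP, PP, PP, ← Finset.prod_mul_distrib]
  refine Finset.prod_congr rfl fun e _ => ?_
  have h3 : (w e • bb e) * (u e • bb e) = (0 : Ge (VI (HE ℤ))) := by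
    rw [smul_mul_smul_comm, bb_mul_self, smul_zero]
  rw [Pi.add_apply, add_smul]
  have : (1 + w e • bb e) * (1 + u e • bb e) =
      (1 + (w e • bb e + u e • bb e)) + (w e • bb e) * (u e • bb e) := by ring
  rw [this, h3, add_zero]

/-- existence for a background which is a finite change of a background with finite inverse,
from the non-vanishing of a box partition function -/
theorem exists_finv_of_box {v0 : EG ℤ → ℝ} {S0' : HE ℤ → HE ℤ → ℝ} (h0 : FInv v0 S0')
    (v : EG ℤ → ℝ) (A : Finset (EG ℤ)) (hA : ∀ e, e ∉ A → v e = v0 e)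
    (hZ : ∀ R : ℤ, ∃ R', R ≤ R' ∧
      E0 ((PP v (touch (bx R')) : Ge (VI (HE ℤ))) : Gr (VI (HE ℤ))) ≠ 0) :
    ∃ S, FInv v S := by
  have hu : ∀ e, e ∉ A → (v - v0) e = 0 := fun e he => by
    rw [Pi.sub_apply, hA e he, sub_self]
  have key : ∃ S, FInv (v0 + (v - v0)) S := by
    apply exists_finv h0 (v - v0) A hu
    obtain ⟨R1, _, hR1⟩ := exists_good h0 (hes A)
    obtain ⟨R2, _, hR2⟩ := exists_box A
    obtain ⟨R', hR', hne⟩ := hZ (max R1 R2)
    have h1 := fb_eval h0 (bx R') (hes A : Set (HE ℤ))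
      (fun k hk => hR1 R' ((le_max_left _ _).trans hR') k hk)
      (PP_mem (v - v0) A _ fun e he => mem_hes he)
    rw [fb_apply, ← Ge.coe_mul, PP_mul_PP v0 (v - v0) (touch (bx R')) A
      (hR2 R' ((le_max_right _ _).trans hR')) hu] at h1
    intro hc
    rw [hc, mul_zero] at h1
    apply hne
    rw [← h1]
    congr 3
    funext e
    simp
  obtain ⟨S, hS⟩ := key
  refine ⟨S, ?_⟩
  have e1 : v0 + (v - v0) = v := by funext e; simp
  rw [e1] at hS
  exact hS

/-- **existence of the covariance, free boundary conditions, even number of insertions** -/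
theorem exists_finv_free (T : Finset (ℤ × ℤ)) (x : EG ℤ → ℝ) {n : ℕ} (hn : Even n)
    (xs : Fin n → ℤ × ℤ) (hxs : ∀ i, xs i ∈ T) (hZ : Zs T (freew T x) xs ∅ ≠ 0) :
    ∃ S, FInv (fun e => freew T x e * cut xs e) S := by
  obtain ⟨R, _, hR⟩ := exists_box_sites T
  have hg : FInv (gw (gE xs R) (fun _ => 1)) (fun h k => gE xs R h.1 * gE xs R k.1 * S1 h k) :=
    FInv.gauge finv_S1 (gE xs R) (gE_sq xs R)
  refine exists_finv_of_box hg _ ((bx R) ×ˢ Finset.univ) ?_ ?_
  · intro e he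
    refine gauge_out hn ?_ hR x e ?_
    · intro i
      have := hR _ (hxs i)
      exact ⟨⟨this.1, this.2.1⟩, this.2.2.1, this.2.2.2⟩
    · intro hc
      exact he (Finset.mem_product.2 ⟨hc, Finset.mem_univ _⟩)
  · intro R1
    refine ⟨max R1 R, le_max_left _ _, ?_⟩
    have hTL : T ⊆ bx (max R1 R) := by
      intro z hz
      have := hR z hz
      rw [mem_bx]
      have h3 : R ≤ max R1 R := le_max_right _ _
      omega
    have h1 : E0 ((PP (fun e => freew T x e * cut xs e) (touch (bx (max R1 R))) :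
        Ge (VI (HE ℤ))) : Gr (VI (HE ℤ))) = Zs (bx (max R1 R)) (freew T x) xs ∅ := by
      rw [Zs_eq _ (noHole_box _)]
      simp
    rw [h1, Zs_free_box hTL x xs hxs ∅ (by simp)]
    exact mul_ne_zero (pow_ne_zero _ two_ne_zero) hZ

/-! ### centred versions -/

/-- spin sum with centred bonds -/
def Zc (T : Finset (ℤ × ℤ)) (w : EG ℤ → ℝ) {n : ℕ} (xs : Fin n → ℤ × ℤ) (B : Finset (EG ℤ))
    (c : EG ℤ → ℝ) : ℝ :=
  ∑ N ∈ T.powerset, (∏ i, sig N (xs i)) * (∏ e ∈ B, (eps N e - c e)) * ∏ e ∈ walls N, w e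

/-- `∏_{e ∈ B} (1 - c_e - 2 v_e b_e)` -/
def BC (v c : EG ℤ → ℝ) (B : Finset (EG ℤ)) : Ge (VI (HE ℤ)) :=
  ∏ e ∈ B, ((1 - (2 * v e) • bb e) - algebraMap ℝ (Ge (VI (HE ℤ))) (c e))

theorem Zc_expand (T : Finset (ℤ × ℤ)) (w : EG ℤ → ℝ) {n : ℕ} (xs : Fin n → ℤ × ℤ)
    (B : Finset (EG ℤ)) (c : EG ℤ → ℝ) :
    Zc T w xs B c = ∑ A ∈ B.powerset, (∏ e ∈ B \ A, (-c e)) * Zs T w xs A := by
  unfold Zc Zs
  simp only [Finset.mul_sum]
  rw [Finset.sum_comm]
  refine Finset.sum_congr rfl fun N _ => ?_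
  have h1 : ∏ e ∈ B, (eps N e - c e) = ∑ A ∈ B.powerset, (∏ e ∈ A, eps N e) * ∏ e ∈ B \ A, (-c e) := by
    simp only [sub_eq_add_neg]
    rw [Finset.prod_add]
  rw [h1, Finset.mul_sum, Finset.sum_mul]
  refine Finset.sum_congr rfl fun A _ => ?_
  ring

theorem BC_expand (v c : EG ℤ → ℝ) (B : Finset (EG ℤ)) :
    BC v c B = ∑ A ∈ B.powerset, (∏ e ∈ B \ A, (-c e)) • BB v A := by
  unfold BC BB
  simp only [sub_eq_add_neg _ (algebraMap ℝ (Ge (VI (HE ℤ))) _)]
  rw [Finset.prod_add]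
  refine Finset.sum_congr rfl fun A _ => ?_
  have h1 : ∏ e ∈ B \ A, (-algebraMap ℝ (Ge (VI (HE ℤ))) (c e)) =
      algebraMap ℝ (Ge (VI (HE ℤ))) (∏ e ∈ B \ A, (-c e)) := by
    rw [map_prod]
    exact Finset.prod_congr rfl fun e _ => (map_neg _ _).symm
  rw [h1, mul_comm, ← Algebra.smul_def]

/-- passage from bonds to centred bonds -/
theorem cent_of {T : Finset (ℤ × ℤ)} {w v : EG ℤ → ℝ} {n : ℕ} {xs : Fin n → ℤ × ℤ}
    {B : Finset (EG ℤ)} {S : Cov (VI (HE ℤ))}
    (h : ∀ A ⊆ B, Zs T w xs A = Zs T w xs ∅ * EE S ((BB v A : Ge (VI (HE ℤ))) : Gr (VI (HE ℤ))))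
    (c : EG ℤ → ℝ) :
    Zc T w xs B c = Zs T w xs ∅ * EE S ((BC v c B : Ge (VI (HE ℤ))) : Gr (VI (HE ℤ))) := by
  have h2 : ((BC v c B : Ge (VI (HE ℤ))) : Gr (VI (HE ℤ))) =
      ∑ A ∈ B.powerset, (∏ e ∈ B \ A, (-c e)) • ((BB v A : Ge (VI (HE ℤ))) : Gr (VI (HE ℤ))) := by
    rw [BC_expand]
    exact map_sum (Ge (VI (HE ℤ))).val (fun A => (∏ e ∈ B \ A, (-c e)) • BB v A) B.powerset
  rw [Zc_expand, h2, map_sum, Finset.mul_sum]
  refine Finset.sum_congr rfl fun A hA => ?_
  rw [h A (Finset.mem_powerset.1 hA), map_smul, smul_eq_mul]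
  ring

/-- **(J2) centred, plus** -/
theorem J2c_plus (T : Finset (ℤ × ℤ)) (hT : NoHole T) (w : EG ℤ → ℝ)
    (hw : ∀ e, e ∉ touch T → w e = 0) {n : ℕ} (xs : Fin n → ℤ × ℤ) {S : HE ℤ → HE ℤ → ℝ}
    (hS : IsInv (fun e => w e * cut xs e) S) (B : Finset (EG ℤ)) (c : EG ℤ → ℝ) :
    Zc T w xs B c = Zs T w xs ∅ * EE (covOf S hS.anti)
      ((BC (fun e => w e * cut xs e) c B : Ge (VI (HE ℤ))) : Gr (VI (HE ℤ))) :=
  cent_of (fun A _ => J2_plus T hT w hw xs hS A) c

/-- **(J2) centred, free** -/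
theorem J2c_free {T : Finset (ℤ × ℤ)} {x : EG ℤ → ℝ} {n : ℕ} {xs : Fin n → ℤ × ℤ}
    (hxs : ∀ i, xs i ∈ T) {S : HE ℤ → HE ℤ → ℝ}
    (hS : FInv (fun e => freew T x e * cut xs e) S) (B : Finset (EG ℤ))
    (hB : ∀ e ∈ B, e.1 ∈ T ∧ e.1 + uv e.2 ∈ T) (c : EG ℤ → ℝ) :
    Zc T (freew T x) xs B c = Zs T (freew T x) xs ∅ * EE (covOf S hS.anti)
      ((BC (fun e => freew T x e * cut xs e) c B : Ge (VI (HE ℤ))) : Gr (VI (HE ℤ))) :=
  cent_of (fun A hA => J2_free hxs hS A fun e he => hB e (hA he)) c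

end Crest.Agent.R165.J2fx606
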