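import Crest.Agent.R165.KComp_892

/-!
# Row 165 (S0250), block J4, section 3: activities of local items (helper126)

Items `i : ι` with finite supports `Y i` (sets of faces) and values `k i` in a commutative ring
`RR`; an additive map `Th : RR → A` which is multiplicative on products over item sets with
disjoint supports.

* `touch Y`   : two items touch when their supports meet
* `act U`     : `∑` over connected item sets with union of supports `U` of `Th (∏ k)`
* `mult`      : `T ↦ Th (∏_T k)` is multiplicative over non-touching unions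
* `act_bound` : `∑_{U ∋ f} Γ^|U| nA (act U) ≤ ∑_{i, f ∈ Y i} Γ^|Y i| a i e^{g i}`
* `act_lip`   : Lipschitz version
-/

set_option autoImplicit false
set_option linter.unusedSectionVars false

open Finset
open scoped ENNReal

namespace Crest.Agent.R165.J4Actx126
open Crest.Agent.R165.KCompx892

section touch
variable {ι F : Type*} [DecidableEq ι] [DecidableEq F]

/-- two items touch: their supports meet -/
def touch (Y : ι → Finset F) (i j : ι) : Prop := ¬ Disjoint (Y i) (Y j)

/-- union of the supports -/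
def supp (Y : ι → Finset F) (T : Finset ι) : Finset F := T.biUnion Y

variable {Y : ι → Finset F}

theorem touch_symm (i j : ι) (h : touch Y i j) : touch Y j i := fun h' => h h'.symm

theorem touch_refl (hY : ∀ i, (Y i).Nonempty) (i : ι) : touch Y i i := fun h =>
  (hY i).ne_empty (Finset.disjoint_self_iff_empty _ |>.1 h)

theorem noTouch_iff {S T : Finset ι} :
    NoTouch (touch Y) S T ↔ Disjoint (supp Y S) (supp Y T) := by
  unfold NoTouch touch supp
  rw [Finset.disjoint_biUnion_left]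
  constructor
  · intro h i hi
    rw [Finset.disjoint_biUnion_right]
    intro j hj
    by_contra hc
    exact h i hi j hj hc
  · intro h i hi j hj hc
    have := h i hi
    rw [Finset.disjoint_biUnion_right] at this
    exact hc (this j hj)

@[simp] theorem supp_empty : supp Y (∅ : Finset ι) = ∅ := rfl

theorem supp_union (S T : Finset ι) : supp Y (S ∪ T) = supp Y S ∪ supp Y T := by
  unfold supp
  exact Finset.union_biUnion

theorem supp_nonempty (hY : ∀ i, (Y i).Nonempty) {T : Finset ι} (hT : T.Nonempty) :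
    (supp Y T).Nonempty := by
  obtain ⟨i, hi⟩ := hT
  obtain ⟨f, hf⟩ := hY i
  exact ⟨f, Finset.mem_biUnion.2 ⟨i, hi, hf⟩⟩

theorem card_supp_le (T : Finset ι) : (supp Y T).card ≤ ∑ i ∈ T, (Y i).card :=
  Finset.card_biUnion_le

end touch

section act
variable {ι F RR A : Type*} [DecidableEq ι] [DecidableEq F] [CommRing RR] [CommRing A]

/-- a system of local items -/
structure Items (ι F RR A : Type*) [DecidableEq ι] [DecidableEq F] [CommRing RR] [CommRing A] where
  /-- supports -/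
  Y : ι → Finset F
  /-- values -/
  k : ι → RR
  /-- the evaluation -/
  Th : RR →+ A
  ne : ∀ i, (Y i).Nonempty
  one : Th 1 = 1
  mul : ∀ S T : Finset ι, Disjoint (supp Y S) (supp Y T) →
    Th ((∏ i ∈ S, k i) * ∏ i ∈ T, k i) = Th (∏ i ∈ S, k i) * Th (∏ i ∈ T, k i)

namespace Items

variable (I : Items ι F RR A)

/-- weight of a finite set of items -/
def w (T : Finset ι) : A := I.Th (∏ i ∈ T, I.k i)

theorem mult : Mult (touch I.Y) I.w where
  empty := by
    unfold w
    rw [Finset.prod_empty]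
    exact I.one
  union S T h := by
    have hd : Disjoint S T := h.disjoint (touch_refl I.ne)
    unfold w
    rw [Finset.prod_union hd]
    exact I.mul S T (noTouch_iff.1 h)

open Classical in
/-- the activity of a set of faces -/
noncomputable def act [Fintype ι] (U : Finset F) : A :=
  ∑ T : Finset ι with Conn (touch I.Y) T ∧ supp I.Y T = U, I.w T

theorem prod_one_add [Fintype ι] : I.Th (∏ i, (1 + I.k i)) = ∑ T : Finset ι, I.w T := by
  unfold w
  rw [← map_sum, Finset.prod_one_add]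
  rfl

open Classical in
/-- the expansion into connected families -/
theorem expand [Fintype ι] : I.Th (∏ i, (1 + I.k i)) =
    ∑ P : Finset (Finset ι) with Fam (touch I.Y) P, ∏ C ∈ P, I.w C := by
  rw [I.prod_one_add]
  exact sum_eq_sum_families touch_symm I.mult

theorem act_empty [Fintype ι] : I.act ∅ = 0 := by
  classical
  unfold act
  apply Finset.sum_eq_zero
  intro T hT
  rw [Finset.mem_filter] at hT
  obtain ⟨-, h1, h2⟩ := hT
  exact absurd h2 (supp_nonempty I.ne h1.1).ne_empty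

end Items

/-- a norm with values in `[0, ∞]`: subadditive, zero at zero -/
structure NSum (nA : A → ℝ≥0∞) : Prop where
  zero : nA 0 = 0
  add : ∀ x y, nA (x + y) ≤ nA x + nA y

theorem NSum.sum {nA : A → ℝ≥0∞} (h : NSum nA) {κ : Type*} (s : Finset κ) (f : κ → A) :
    nA (∑ i ∈ s, f i) ≤ ∑ i ∈ s, nA (f i) := by
  classical
  induction s using Finset.induction_on with
  | empty => simp [h.zero]
  | insert a s ha ih =>
    rw [Finset.sum_insert ha, Finset.sum_insert ha]
    exact (h.add _ _).trans (add_le_add le_rfl ih)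

open Classical in
/-- sum over the connected sets of items through `i`, without the factor of `i` -/
noncomputable def animal [Fintype ι] (r : ι → ι → Prop) (a : ι → ℝ≥0∞) (i : ι) : ℝ≥0∞ :=
  ∑ T : Finset ι with Conn r T ∧ i ∈ T, ∏ j ∈ T.erase i, a j

open Classical in
/-- the total weight of the connected sets of items whose support contains `f` -/
noncomputable def tot [Fintype ι] (Y : ι → Finset F) (a : ι → ℝ≥0∞) (f : F) : ℝ≥0∞ :=
  ∑ T : Finset ι with Conn (touch Y) T ∧ f ∈ supp Y T, ∏ j ∈ T, a j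

theorem tot_le [Fintype ι] (Y : ι → Finset F) (a : ι → ℝ≥0∞) (f : F) :
    tot Y a f ≤ ∑ i with f ∈ Y i, a i * animal (touch Y) a i := by
  classical
  unfold tot animal
  have h1 : ∀ T ∈ (univ : Finset (Finset ι)).filter (fun T => Conn (touch Y) T ∧ f ∈ supp Y T),
      ∏ j ∈ T, a j ≤ ∑ i : ι, if f ∈ Y i ∧ i ∈ T then ∏ j ∈ T, a j else 0 := by
    intro T hT
    rw [Finset.mem_filter] at hT
    obtain ⟨-, -, h⟩ := hT
    obtain ⟨i, hi, hf⟩ := Finset.mem_biUnion.1 h
    refine le_trans ?_ (Finset.single_le_sum (fun _ _ => zero_le) (Finset.mem_univ i))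
    rw [if_pos ⟨hf, hi⟩]
  refine (Finset.sum_le_sum h1).trans ?_
  rw [Finset.sum_comm, Finset.sum_filter]
  refine Finset.sum_le_sum fun i _ => ?_
  by_cases hf : f ∈ Y i
  · rw [if_pos hf, Finset.mul_sum, ← Finset.sum_filter, Finset.filter_filter]
    have : ∀ T : Finset ι, i ∈ T → a i * ∏ j ∈ T.erase i, a j = ∏ j ∈ T, a j := fun T hT =>
      Finset.mul_prod_erase T a hT
    refine (Finset.sum_le_sum_of_subset (t := (univ : Finset (Finset ι)).filter
      (fun T => Conn (touch Y) T ∧ i ∈ T)) ?_).trans ?_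
    · intro T hT
      rw [Finset.mem_filter] at hT ⊢
      exact ⟨hT.1, hT.2.1.1, hT.2.2.2⟩
    · refine Finset.sum_le_sum fun T hT => ?_
      rw [Finset.mem_filter] at hT
      rw [this T hT.2.2]
  · rw [if_neg hf]
    apply le_of_eq
    apply Finset.sum_eq_zero
    intro T _
    rw [if_neg (fun h => hf h.1)]

/-- the weight with the size factor -/
noncomputable def aG (Γ : ℝ≥0∞) (Y : ι → Finset F) (a : ι → ℝ≥0∞) (i : ι) : ℝ≥0∞ :=
  Γ ^ (Y i).card * a i

theorem size_le (Γ : ℝ≥0∞) (hΓ : 1 ≤ Γ) (Y : ι → Finset F) (a : ι → ℝ≥0∞) (T : Finset ι) :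
    Γ ^ (supp Y T).card * ∏ j ∈ T, a j ≤ ∏ j ∈ T, aG Γ Y a j := by
  unfold aG
  rw [Finset.prod_mul_distrib, Finset.prod_pow_eq_pow_sum]
  exact mul_le_mul_left (pow_le_pow_right₀ hΓ (card_supp_le T)) _

open Classical in
/-- the general bound: activities `K` dominated by sums over connected item sets -/
theorem gen_bound [Fintype ι] (Y : ι → Finset F) (Γ : ℝ≥0∞) (hΓ : 1 ≤ Γ) (a : ι → ℝ≥0∞)
    (v : Finset ι → ℝ≥0∞) (c : ℝ≥0∞) (hv : ∀ T, v T ≤ c * ∏ j ∈ T, a j) (f : F)
    (𝒮 : Finset (Finset F)) :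
    ∑ U ∈ 𝒮 with f ∈ U, Γ ^ U.card * ∑ T : Finset ι with Conn (touch Y) T ∧ supp Y T = U, v T ≤
      c * tot Y (aG Γ Y a) f := by
  have h1 : ∑ U ∈ 𝒮 with f ∈ U,
      Γ ^ U.card * ∑ T : Finset ι with Conn (touch Y) T ∧ supp Y T = U, v T ≤
      ∑ U ∈ 𝒮 with f ∈ U, ∑ T : Finset ι with Conn (touch Y) T ∧ supp Y T = U,
        c * ∏ j ∈ T, aG Γ Y a j := by
    refine Finset.sum_le_sum fun U _ => ?_
    rw [Finset.mul_sum]
    refine Finset.sum_le_sum fun T hT => ?_
    rw [Finset.mem_filter] at hT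
    rw [← hT.2.2]
    calc Γ ^ (supp Y T).card * v T ≤ Γ ^ (supp Y T).card * (c * ∏ j ∈ T, a j) :=
          mul_le_mul_right (hv T) _
      _ = c * (Γ ^ (supp Y T).card * ∏ j ∈ T, a j) := by ring
      _ ≤ c * ∏ j ∈ T, aG Γ Y a j := mul_le_mul_right (size_le Γ hΓ Y a T) _
  refine h1.trans ?_
  unfold tot
  rw [Finset.mul_sum]
  have h2 : ∀ U ∈ 𝒮.filter (fun U => f ∈ U),
      (∑ T : Finset ι with Conn (touch Y) T ∧ supp Y T = U, c * ∏ j ∈ T, aG Γ Y a j) =
      ∑ T : Finset ι with Conn (touch Y) T ∧ f ∈ supp Y T,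
        if supp Y T = U then c * ∏ j ∈ T, aG Γ Y a j else 0 := by
    intro U hU
    rw [← Finset.sum_filter, Finset.filter_filter]
    refine Finset.sum_congr ?_ fun _ _ => rfl
    ext T
    rw [Finset.mem_filter, Finset.mem_filter]
    rw [Finset.mem_filter] at hU
    constructor
    · rintro ⟨h1, h2, h3⟩
      refine ⟨h1, ⟨h2, ?_⟩, h3⟩
      rw [h3]; exact hU.2
    · rintro ⟨h1, h2, h3⟩
      exact ⟨h1, h2.1, h3⟩
  rw [Finset.sum_congr rfl h2, Finset.sum_comm]
  refine Finset.sum_le_sum fun T _ => ?_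
  rw [Finset.sum_ite_eq]
  split_ifs
  · exact le_rfl
  · exact zero_le

/-- **bound of the activities** -/
theorem act_bound [Fintype ι] (I : Items ι F RR A) {nA : A → ℝ≥0∞} (hA : NSum nA)
    (Γ : ℝ≥0∞) (hΓ : 1 ≤ Γ) (a : ι → ℝ≥0∞) (ha : ∀ T : Finset ι, nA (I.w T) ≤ ∏ i ∈ T, a i)
    (f : F) (𝒮 : Finset (Finset F)) :
    ∑ U ∈ 𝒮 with f ∈ U, Γ ^ U.card * nA (I.act U) ≤ tot I.Y (aG Γ I.Y a) f := by
  classical
  have := gen_bound I.Y Γ hΓ a (fun T => nA (I.w T)) 1 (fun T => by rw [one_mul]; exact ha T) f 𝒮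
  rw [one_mul] at this
  refine le_trans (Finset.sum_le_sum fun U _ => ?_) this
  refine mul_le_mul_right ?_ _
  unfold Items.act
  convert hA.sum _ _ using 3

/-! ### the part of second order: at least two items -/

open Classical in
/-- connected sets of at least two items through `i`, without the factor of `i` -/
noncomputable def animal2 [Fintype ι] (r : ι → ι → Prop) (a : ι → ℝ≥0∞) (i : ι) : ℝ≥0∞ :=
  ∑ T : Finset ι with (Conn r T ∧ 2 ≤ T.card) ∧ i ∈ T, ∏ j ∈ T.erase i, a j

open Classical in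
/-- the total weight of the connected sets of at least two items whose support contains `f` -/
noncomputable def tot2 [Fintype ι] (Y : ι → Finset F) (a : ι → ℝ≥0∞) (f : F) : ℝ≥0∞ :=
  ∑ T : Finset ι with (Conn (touch Y) T ∧ 2 ≤ T.card) ∧ f ∈ supp Y T, ∏ j ∈ T, a j

theorem tot2_le [Fintype ι] (Y : ι → Finset F) (a : ι → ℝ≥0∞) (f : F) :
    tot2 Y a f ≤ ∑ i with f ∈ Y i, a i * animal2 (touch Y) a i := by
  classical
  unfold tot2 animal2
  have h1 : ∀ T ∈ (univ : Finset (Finset ι)).filter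
      (fun T => (Conn (touch Y) T ∧ 2 ≤ T.card) ∧ f ∈ supp Y T),
      ∏ j ∈ T, a j ≤ ∑ i : ι, if f ∈ Y i ∧ i ∈ T then ∏ j ∈ T, a j else 0 := by
    intro T hT
    rw [Finset.mem_filter] at hT
    obtain ⟨-, -, h⟩ := hT
    obtain ⟨i, hi, hf⟩ := Finset.mem_biUnion.1 h
    refine le_trans ?_ (Finset.single_le_sum (fun _ _ => zero_le) (Finset.mem_univ i))
    rw [if_pos ⟨hf, hi⟩]
  refine (Finset.sum_le_sum h1).trans ?_
  rw [Finset.sum_comm, Finset.sum_filter]
  refine Finset.sum_le_sum fun i _ => ?_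
  by_cases hf : f ∈ Y i
  · rw [if_pos hf, Finset.mul_sum, ← Finset.sum_filter, Finset.filter_filter]
    have : ∀ T : Finset ι, i ∈ T → a i * ∏ j ∈ T.erase i, a j = ∏ j ∈ T, a j := fun T hT =>
      Finset.mul_prod_erase T a hT
    refine (Finset.sum_le_sum_of_subset (t := (univ : Finset (Finset ι)).filter
      (fun T => (Conn (touch Y) T ∧ 2 ≤ T.card) ∧ i ∈ T)) ?_).trans ?_
    · intro T hT
      rw [Finset.mem_filter] at hT ⊢
      exact ⟨hT.1, hT.2.1.1, hT.2.2.2⟩
    · refine Finset.sum_le_sum fun T hT => ?_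
      rw [Finset.mem_filter] at hT
      rw [this T hT.2.2]
  · rw [if_neg hf]
    apply le_of_eq
    apply Finset.sum_eq_zero
    intro T _
    rw [if_neg (fun h => hf h.1)]

theorem conn_singleton {r : ι → ι → Prop} (i : ι) : Conn r {i} := by
  refine ⟨Finset.singleton_nonempty i, fun A hA hne _ => ?_⟩
  rcases Finset.subset_singleton_iff.1 hA with h | h
  · exact absurd h hne.ne_empty
  · exact h

theorem one_add_animal2 [Fintype ι] (r : ι → ι → Prop) (a : ι → ℝ≥0∞) (i : ι) :
    1 + animal2 r a i = animal r a i := by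
  classical
  unfold animal animal2
  have : (univ : Finset (Finset ι)).filter (fun T => Conn r T ∧ i ∈ T) =
      insert {i} ((univ : Finset (Finset ι)).filter
        (fun T => (Conn r T ∧ 2 ≤ T.card) ∧ i ∈ T)) := by
    ext T
    simp only [Finset.mem_filter, Finset.mem_univ, true_and, Finset.mem_insert]
    constructor
    · rintro ⟨h1, h2⟩
      by_cases hc : 2 ≤ T.card
      · exact Or.inr ⟨⟨h1, hc⟩, h2⟩
      · left
        have hc1 : T.card = 1 := by
          have := h1.1.card_pos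
          omega
        obtain ⟨j, rfl⟩ := Finset.card_eq_one.1 hc1
        rw [Finset.mem_singleton] at h2
        rw [h2]
    · rintro (rfl | ⟨⟨h1, h2⟩, h3⟩)
      · exact ⟨conn_singleton i, Finset.mem_singleton_self i⟩
      · exact ⟨h1, h3⟩
  rw [this, Finset.sum_insert]
  · simp
  · intro h
    rw [Finset.mem_filter] at h
    have := h.2.1.2
    simp at this

open Classical in
/-- the general bound with at least two items -/
theorem gen_bound2 [Fintype ι] (Y : ι → Finset F) (Γ : ℝ≥0∞) (hΓ : 1 ≤ Γ) (a : ι → ℝ≥0∞)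
    (v : Finset ι → ℝ≥0∞) (c : ℝ≥0∞) (hv : ∀ T, v T ≤ c * ∏ j ∈ T, a j) (f : F)
    (𝒮 : Finset (Finset F)) :
    ∑ U ∈ 𝒮 with f ∈ U, Γ ^ U.card *
      ∑ T : Finset ι with (Conn (touch Y) T ∧ 2 ≤ T.card) ∧ supp Y T = U, v T ≤
      c * tot2 Y (aG Γ Y a) f := by
  have h1 : ∑ U ∈ 𝒮 with f ∈ U,
      Γ ^ U.card * ∑ T : Finset ι with (Conn (touch Y) T ∧ 2 ≤ T.card) ∧ supp Y T = U, v T ≤
      ∑ U ∈ 𝒮 with f ∈ U, ∑ T : Finset ι with (Conn (touch Y) T ∧ 2 ≤ T.card) ∧ supp Y T = U,
        c * ∏ j ∈ T, aG Γ Y a j := by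
    refine Finset.sum_le_sum fun U _ => ?_
    rw [Finset.mul_sum]
    refine Finset.sum_le_sum fun T hT => ?_
    rw [Finset.mem_filter] at hT
    rw [← hT.2.2]
    calc Γ ^ (supp Y T).card * v T ≤ Γ ^ (supp Y T).card * (c * ∏ j ∈ T, a j) :=
          mul_le_mul_right (hv T) _
      _ = c * (Γ ^ (supp Y T).card * ∏ j ∈ T, a j) := by ring
      _ ≤ c * ∏ j ∈ T, aG Γ Y a j := mul_le_mul_right (size_le Γ hΓ Y a T) _
  refine h1.trans ?_
  unfold tot2
  rw [Finset.mul_sum]
  have h2 : ∀ U ∈ 𝒮.filter (fun U => f ∈ U),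
      (∑ T : Finset ι with (Conn (touch Y) T ∧ 2 ≤ T.card) ∧ supp Y T = U,
        c * ∏ j ∈ T, aG Γ Y a j) =
      ∑ T : Finset ι with (Conn (touch Y) T ∧ 2 ≤ T.card) ∧ f ∈ supp Y T,
        if supp Y T = U then c * ∏ j ∈ T, aG Γ Y a j else 0 := by
    intro U hU
    rw [← Finset.sum_filter, Finset.filter_filter]
    refine Finset.sum_congr ?_ fun _ _ => rfl
    ext T
    rw [Finset.mem_filter, Finset.mem_filter]
    rw [Finset.mem_filter] at hU
    constructor
    · rintro ⟨h1, h2, h3⟩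
      refine ⟨h1, ⟨h2, ?_⟩, h3⟩
      rw [h3]; exact hU.2
    · rintro ⟨h1, h2, h3⟩
      exact ⟨h1, h2.1, h3⟩
  rw [Finset.sum_congr rfl h2, Finset.sum_comm]
  refine Finset.sum_le_sum fun T _ => ?_
  rw [Finset.sum_ite_eq]
  split_ifs
  · exact le_rfl
  · exact zero_le

/-- the first order part of the activities: single items -/
noncomputable def Items.act1 [Fintype ι] (I : Items ι F RR A) (U : Finset F) : A :=
  ∑ i with I.Y i = U, I.Th (I.k i)

open Classical in
theorem Items.act_sub_act1 [Fintype ι] (I : Items ι F RR A) (U : Finset F) :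
    I.act U - I.act1 U =
      ∑ T : Finset ι with (Conn (touch I.Y) T ∧ 2 ≤ T.card) ∧ supp I.Y T = U, I.w T := by
  have h : (univ : Finset (Finset ι)).filter (fun T => Conn (touch I.Y) T ∧ supp I.Y T = U) =
      ((univ : Finset ι).filter (fun i => I.Y i = U)).image (fun i => {i}) ∪
      (univ : Finset (Finset ι)).filter
        (fun T => (Conn (touch I.Y) T ∧ 2 ≤ T.card) ∧ supp I.Y T = U) := by
    ext T
    simp only [Finset.mem_filter, Finset.mem_univ, true_and, Finset.mem_union, Finset.mem_image]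
    constructor
    · rintro ⟨h1, h2⟩
      by_cases hc : 2 ≤ T.card
      · exact Or.inr ⟨⟨h1, hc⟩, h2⟩
      · left
        have hc1 : T.card = 1 := by
          have := h1.1.card_pos
          omega
        obtain ⟨j, rfl⟩ := Finset.card_eq_one.1 hc1
        refine ⟨j, ?_, rfl⟩
        rw [← h2]; simp [supp]
    · rintro (⟨i, hi, rfl⟩ | ⟨⟨h1, -⟩, h2⟩)
      · exact ⟨conn_singleton i, by simpa [supp] using hi⟩
      · exact ⟨h1, h2⟩
  unfold Items.act Items.act1
  rw [h, Finset.sum_union, Finset.sum_image]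
  · have : ∀ i, I.w {i} = I.Th (I.k i) := fun i => by
      unfold Items.w; rw [Finset.prod_singleton]
    simp only [this]
    ring
  · intro i _ j _ hij
    exact Finset.singleton_injective hij
  · rw [Finset.disjoint_left]
    intro T hT hT'
    rw [Finset.mem_image] at hT
    rw [Finset.mem_filter] at hT'
    obtain ⟨i, -, rfl⟩ := hT
    have := hT'.2.1.2
    simp at this

/-- **second order bound of the activities** -/
theorem act_quad [Fintype ι] (I : Items ι F RR A) {nA : A → ℝ≥0∞} (hA : NSum nA)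
    (Γ : ℝ≥0∞) (hΓ : 1 ≤ Γ) (a : ι → ℝ≥0∞) (ha : ∀ T : Finset ι, nA (I.w T) ≤ ∏ i ∈ T, a i)
    (f : F) (𝒮 : Finset (Finset F)) :
    ∑ U ∈ 𝒮 with f ∈ U, Γ ^ U.card * nA (I.act U - I.act1 U) ≤ tot2 I.Y (aG Γ I.Y a) f := by
  classical
  have := gen_bound2 I.Y Γ hΓ a (fun T => nA (I.w T)) 1 (fun T => by rw [one_mul]; exact ha T) f 𝒮
  rw [one_mul] at this
  refine le_trans (Finset.sum_le_sum fun U _ => ?_) this
  refine mul_le_mul_right ?_ _
  rw [I.act_sub_act1]
  convert hA.sum _ _ using 3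

/-- telescoping bound for the difference of two products -/
theorem prod_lip {nR : RR → ℝ≥0∞} (hR : NSum nR) (k k' : ι → RR) (a d : ι → ℝ≥0∞) (η : ℝ≥0∞)
    (hmul : ∀ (x y : RR) (s t : ℝ≥0∞), nR x ≤ s → nR y ≤ t → nR (x * y) ≤ s * t)
    (hone : nR 1 ≤ 1)
    (hk : ∀ i, nR (k i) ≤ a i) (hk' : ∀ i, nR (k' i) ≤ a i) (hd : ∀ i, nR (k i - k' i) ≤ η * d i)
    (T : Finset ι) :
    nR (∏ i ∈ T, k i - ∏ i ∈ T, k' i) ≤ η * ∏ i ∈ T, (a i + d i) := by
  have hprod : ∀ T : Finset ι, nR (∏ i ∈ T, k i) ≤ ∏ i ∈ T, (a i + d i) := by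
    intro T
    induction T using Finset.induction_on with
    | empty => simpa using hone
    | insert j T hj ih =>
      rw [Finset.prod_insert hj, Finset.prod_insert hj]
      exact hmul _ _ _ _ ((hk j).trans le_self_add) ih
  induction T using Finset.induction_on with
  | empty => simp [hR.zero]
  | insert j T hj ih =>
    rw [Finset.prod_insert hj, Finset.prod_insert hj, Finset.prod_insert hj]
    have e : k j * ∏ i ∈ T, k i - k' j * ∏ i ∈ T, k' i =
        (k j - k' j) * ∏ i ∈ T, k i + k' j * (∏ i ∈ T, k i - ∏ i ∈ T, k' i) := by ring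
    rw [e]
    refine (hR.add _ _).trans ?_
    have h1 := hmul _ _ _ _ (hd j) (hprod T)
    have h2 := hmul _ _ _ _ (hk' j) ih
    refine (add_le_add h1 h2).trans (le_of_eq ?_)
    ring

/-- **Lipschitz bound of the activities** -/
theorem act_lip [Fintype ι] (I I' : Items ι F RR A) (hY : I'.Y = I.Y)
    {nA : A → ℝ≥0∞} (hA : NSum nA)
    (Γ : ℝ≥0∞) (hΓ : 1 ≤ Γ) (b : ι → ℝ≥0∞) (η : ℝ≥0∞)
    (ha : ∀ T : Finset ι, nA (I.w T - I'.w T) ≤ η * ∏ i ∈ T, b i)
    (f : F) (𝒮 : Finset (Finset F)) :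
    ∑ U ∈ 𝒮 with f ∈ U, Γ ^ U.card * nA (I.act U - I'.act U) ≤ η * tot I.Y (aG Γ I.Y b) f := by
  classical
  have := gen_bound I.Y Γ hΓ b (fun T => nA (I.w T - I'.w T)) η ha f 𝒮
  refine le_trans (Finset.sum_le_sum fun U _ => ?_) this
  refine mul_le_mul_right ?_ _
  unfold Items.act
  rw [hY, ← Finset.sum_sub_distrib]
  convert hA.sum _ _ using 3

/-- **second order Lipschitz bound of the activities** -/
theorem act_lip2 [Fintype ι] (I I' : Items ι F RR A) (hY : I'.Y = I.Y)
    {nA : A → ℝ≥0∞} (hA : NSum nA)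
    (Γ : ℝ≥0∞) (hΓ : 1 ≤ Γ) (b : ι → ℝ≥0∞) (η : ℝ≥0∞)
    (ha : ∀ T : Finset ι, nA (I.w T - I'.w T) ≤ η * ∏ i ∈ T, b i)
    (f : F) (𝒮 : Finset (Finset F)) :
    ∑ U ∈ 𝒮 with f ∈ U, Γ ^ U.card * nA ((I.act U - I.act1 U) - (I'.act U - I'.act1 U)) ≤
      η * tot2 I.Y (aG Γ I.Y b) f := by
  classical
  have := gen_bound2 I.Y Γ hΓ b (fun T => nA (I.w T - I'.w T)) η ha f 𝒮
  refine le_trans (Finset.sum_le_sum fun U _ => ?_) this
  refine mul_le_mul_right ?_ _
  rw [I.act_sub_act1, I'.act_sub_act1, hY, ← Finset.sum_sub_distrib]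
  convert hA.sum _ _ using 3

end act

end Crest.Agent.R165.J4Actx126
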