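import Crest.Agent.R165.J4Act1_126

/-!
# Row 165 (S0250), block J4, sections 3/4: transport of the activities (helper126)

`act_transport`: if the items of a system `I` with support inside `U` correspond to the items of a
second system `I'` with support inside `ψ(U)` (a face map `ψ`, injective on `U`) and an additive
map `τ` sends the weights to the weights, then `τ (act U) = act' (ψ U)`.
Translations, the symmetries of the square, gauge changes, and the comparison of the plane with
domains and tori are all instances.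
-/

set_option autoImplicit false
set_option linter.unusedSectionVars false

open Finset

namespace Crest.Agent.R165.J4Actx126
open Crest.Agent.R165.KCompx892

section conn
variable {ι ι' : Type*} [DecidableEq ι] [DecidableEq ι']

/-- connectedness is transported by injective maps that preserve the relation both ways -/
theorem conn_image {r : ι → ι → Prop} {r' : ι' → ι' → Prop} {e : ι → ι'} {T : Finset ι}
    (he : Set.InjOn e T) (hr : ∀ i ∈ T, ∀ j ∈ T, r i j ↔ r' (e i) (e j)) :
    Conn r' (T.image e) ↔ Conn r T := by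
  constructor
  · rintro ⟨h1, h2⟩
    refine ⟨Finset.image_nonempty.1 h1, fun A hA hne hN => ?_⟩
    have hA' : A.image e ⊆ T.image e := Finset.image_subset_image hA
    have hN' : NoTouch r' (A.image e) (T.image e \ A.image e) := by
      intro a ha b hb hab
      rw [Finset.mem_image] at ha
      rw [Finset.mem_sdiff, Finset.mem_image] at hb
      obtain ⟨i, hi, rfl⟩ := ha
      obtain ⟨⟨j, hj, rfl⟩, hb⟩ := hb
      refine hN i hi j (Finset.mem_sdiff.2 ⟨hj, fun hjA => hb (Finset.mem_image_of_mem e hjA)⟩) ?_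
      exact (hr i (hA hi) j hj).2 hab
    have h3 := h2 _ hA' (hne.image e) hN'
    apply Finset.Subset.antisymm hA
    intro j hj
    have : e j ∈ A.image e := h3 ▸ Finset.mem_image_of_mem e hj
    obtain ⟨i, hi, hij⟩ := Finset.mem_image.1 this
    rw [he (hA hi) hj hij] at hi
    exact hi
  · rintro ⟨h1, h2⟩
    refine ⟨h1.image e, fun A hA hne hN => ?_⟩
    classical
    set B := T.filter (fun i => e i ∈ A) with hB
    have hBA : B.image e = A := by
      ext a
      rw [Finset.mem_image]
      constructor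
      · rintro ⟨i, hi, rfl⟩
        exact (Finset.mem_filter.1 hi).2
      · intro ha
        obtain ⟨i, hi, rfl⟩ := Finset.mem_image.1 (hA ha)
        exact ⟨i, Finset.mem_filter.2 ⟨hi, ha⟩, rfl⟩
    have hBT : B = T := by
      refine h2 B (Finset.filter_subset _ _) ?_ ?_
      · obtain ⟨a, ha⟩ := hne
        rw [← hBA] at ha
        exact Finset.image_nonempty.1 ⟨a, ha⟩
      · intro i hi j hj hij
        rw [Finset.mem_sdiff] at hj
        rw [Finset.mem_filter] at hi
        refine hN (e i) hi.2 (e j) ?_ ((hr i hi.1 j hj.1).1 hij)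
        rw [Finset.mem_sdiff]
        exact ⟨Finset.mem_image_of_mem e hj.1, fun h => hj.2 (Finset.mem_filter.2 ⟨hj.1, h⟩)⟩
    rw [← hBA, hBT]

end conn

section transport
variable {ι F RR A : Type*} [DecidableEq ι] [DecidableEq F] [CommRing RR] [CommRing A]
variable {ι' F' RR' A' : Type*} [DecidableEq ι'] [DecidableEq F'] [CommRing RR'] [CommRing A']

theorem supp_image {Y : ι → Finset F} {Y' : ι' → Finset F'} {e : ι → ι'} {ψ : F → F'}
    {T : Finset ι} (hY : ∀ i ∈ T, Y' (e i) = (Y i).image ψ) :
    supp Y' (T.image e) = (supp Y T).image ψ := by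
  unfold supp
  rw [Finset.image_biUnion, Finset.biUnion_image]
  exact Finset.biUnion_congr rfl hY

theorem supp_subset_iff {Y : ι → Finset F} {T : Finset ι} {U : Finset F} :
    supp Y T ⊆ U ↔ ∀ i ∈ T, Y i ⊆ U := Finset.biUnion_subset

theorem touch_image {Y : ι → Finset F} {Y' : ι' → Finset F'} {e : ι → ι'} {ψ : F → F'}
    {U : Finset F} (hψ : Set.InjOn ψ U) {i j : ι} (hi : Y i ⊆ U) (hj : Y j ⊆ U)
    (hYi : Y' (e i) = (Y i).image ψ) (hYj : Y' (e j) = (Y j).image ψ) :
    touch Y i j ↔ touch Y' (e i) (e j) := by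
  unfold touch
  rw [hYi, hYj, not_iff_not, Finset.disjoint_left, Finset.disjoint_left]
  constructor
  · intro h a ha hb
    obtain ⟨x, hx, rfl⟩ := Finset.mem_image.1 ha
    obtain ⟨y, hy, hxy⟩ := Finset.mem_image.1 hb
    have : y = x := hψ (hj hy) (hi hx) hxy
    rw [this] at hy
    exact h hx hy
  · intro h a ha hb
    exact h (Finset.mem_image_of_mem ψ ha) (Finset.mem_image_of_mem ψ hb)

/-- the data of a transport of item systems on the faces `U` -/
structure Trans (I : Items ι F RR A) (I' : Items ι' F' RR' A') (ψ : F → F') (e : ι → ι')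
    (U : Finset F) : Prop where
  face : Set.InjOn ψ U
  inj : Set.InjOn e {i | I.Y i ⊆ U}
  supp : ∀ i, I.Y i ⊆ U → I'.Y (e i) = (I.Y i).image ψ
  surj : ∀ i', I'.Y i' ⊆ U.image ψ → ∃ i, I.Y i ⊆ U ∧ e i = i'

open Classical in
/-- the family sets are in bijection -/
theorem Trans.sum_eq [Fintype ι] [Fintype ι'] {I : Items ι F RR A} {I' : Items ι' F' RR' A'}
    {ψ : F → F'} {e : ι → ι'} {U : Finset F} (h : Trans I I' ψ e U) {M : Type*} [AddCommMonoid M]
    (g : Finset ι' → M) :
    ∑ T : Finset ι with Conn (touch I.Y) T ∧ J4Actx126.supp I.Y T = U, g (T.image e) =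
      ∑ T' : Finset ι' with Conn (touch I'.Y) T' ∧ J4Actx126.supp I'.Y T' = U.image ψ, g T' := by
  have hsub : ∀ T : Finset ι, J4Actx126.supp I.Y T = U → ∀ i ∈ T, I.Y i ⊆ U := fun T hT =>
    supp_subset_iff.1 hT.le
  have hr : ∀ T : Finset ι, (∀ i ∈ T, I.Y i ⊆ U) → ∀ i ∈ T, ∀ j ∈ T,
      (touch I.Y i j ↔ touch I'.Y (e i) (e j)) := fun T hT i hi j hj =>
    touch_image h.face (hT i hi) (hT j hj) (h.supp i (hT i hi)) (h.supp j (hT j hj))
  refine Finset.sum_bij (fun T _ => T.image e) ?_ ?_ ?_ ?_
  · intro T hT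
    rw [Finset.mem_filter] at hT ⊢
    obtain ⟨-, h1, h2⟩ := hT
    have hs := hsub T h2
    refine ⟨Finset.mem_univ _, ?_, ?_⟩
    · exact (conn_image (h.inj.mono fun i hi => hs i hi) (hr T hs)).2 h1
    · rw [supp_image (fun i hi => h.supp i (hs i hi)), h2]
  · intro T hT T' hT' heq
    rw [Finset.mem_filter] at hT hT'
    have hs := hsub T hT.2.2
    have hs' := hsub T' hT'.2.2
    ext i
    constructor
    · intro hi
      have : e i ∈ T'.image e := heq ▸ Finset.mem_image_of_mem e hi
      obtain ⟨j, hj, hij⟩ := Finset.mem_image.1 this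
      rw [h.inj (hs' j hj) (hs i hi) hij] at hj
      exact hj
    · intro hi
      have : e i ∈ T.image e := heq.symm ▸ Finset.mem_image_of_mem e hi
      obtain ⟨j, hj, hij⟩ := Finset.mem_image.1 this
      rw [h.inj (hs j hj) (hs' i hi) hij] at hj
      exact hj
  · intro T' hT'
    rw [Finset.mem_filter] at hT'
    obtain ⟨-, h1, h2⟩ := hT'
    have hs' : ∀ i' ∈ T', I'.Y i' ⊆ U.image ψ := supp_subset_iff.1 h2.le
    set T : Finset ι := univ.filter (fun i => I.Y i ⊆ U ∧ e i ∈ T') with hTdef
    have hT : ∀ i ∈ T, I.Y i ⊆ U := fun i hi => (Finset.mem_filter.1 hi).2.1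
    have himg : T.image e = T' := by
      ext i'
      rw [Finset.mem_image]
      constructor
      · rintro ⟨i, hi, rfl⟩
        exact (Finset.mem_filter.1 hi).2.2
      · intro hi'
        obtain ⟨i, hi, rfl⟩ := h.surj i' (hs' i' hi')
        exact ⟨i, Finset.mem_filter.2 ⟨Finset.mem_univ _, hi, hi'⟩, rfl⟩
    refine ⟨T, ?_, himg⟩
    rw [Finset.mem_filter]
    refine ⟨Finset.mem_univ _, ?_, ?_⟩
    · rw [← conn_image (h.inj.mono fun i hi => hT i hi) (hr T hT), himg]
      exact h1
    · have h3 : (J4Actx126.supp I.Y T).image ψ = U.image ψ := by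
        rw [← supp_image (fun i hi => h.supp i (hT i hi)), himg, h2]
      have hTU : J4Actx126.supp I.Y T ⊆ U := supp_subset_iff.2 hT
      apply Finset.Subset.antisymm hTU
      intro f hf
      have : ψ f ∈ (J4Actx126.supp I.Y T).image ψ := h3.symm ▸ Finset.mem_image_of_mem ψ hf
      obtain ⟨f', hf', hff⟩ := Finset.mem_image.1 this
      rw [h.face (hTU hf') hf hff] at hf'
      exact hf'
  · intro T _; rfl

/-- **transport of the activities** -/
theorem act_transport [Fintype ι] [Fintype ι'] {I : Items ι F RR A} {I' : Items ι' F' RR' A'}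
    {ψ : F → F'} {e : ι → ι'} {U : Finset F} (h : Trans I I' ψ e U) (τ : A →+ A')
    (hτ : ∀ T : Finset ι, (∀ i ∈ T, I.Y i ⊆ U) → τ (I.w T) = I'.w (T.image e)) :
    τ (I.act U) = I'.act (U.image ψ) := by
  classical
  unfold Items.act
  rw [map_sum, ← h.sum_eq (fun T' => I'.w T')]
  refine Finset.sum_congr rfl fun T hT => hτ T ?_
  rw [Finset.mem_filter] at hT
  exact supp_subset_iff.1 hT.2.2.le

end transport

end Crest.Agent.R165.J4Actx126
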