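import Crest.Agent.R165.J4Act2_126
import Crest.Agent.R165.KStep_892

/-!
# Row 165 (S0250), block J4, section 3: the polymer gas of the items (helper126)

`Items.ZZ_act` : `Th (∏ (1 + k i)) = ZZ (=) Λ act` (two face sets touch when they intersect),
`Λ` any finite set of faces containing all supports.
-/

set_option autoImplicit false
set_option linter.unusedSectionVars false

open Finset

namespace Crest.Agent.R165.J4Actx126
open Crest.Agent.R165.KCompx892 Crest.Agent.R165.KStepx892

variable {ι F RR A : Type*} [DecidableEq ι] [DecidableEq F] [CommRing RR] [CommRing A]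

theorem touch_eq_iff {U W : Finset F} :
    KStepx892.touch (fun a b : F => a = b) U W ↔ ¬ Disjoint U W := by
  unfold KStepx892.touch
  rw [Finset.not_disjoint_iff]
  constructor
  · rintro ⟨u, hu, w, hw, rfl⟩
    exact ⟨u, hu, hw⟩
  · rintro ⟨u, hu, hw⟩
    exact ⟨u, hu, u, hw, rfl⟩

/-- **the partition function of the items is the polymer gas of the activities** -/
theorem Items.ZZ_act [Fintype ι] (I : Items ι F RR A) (Λ : Finset F) (hΛ : ∀ i, I.Y i ⊆ Λ) :
    I.Th (∏ i, (1 + I.k i)) = ZZ (fun a b : F => a = b) Λ I.act := by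
  classical
  rw [I.expand]
  unfold ZZ
  set J : Finset (Finset ι) := univ.filter (fun T => Conn (J4Actx126.touch I.Y) T) with hJ
  have h1 : ∀ W : Finset F, I.act W = ∑ c ∈ J with J4Actx126.supp I.Y c = W, I.w c := by
    intro W
    unfold Items.act
    rw [hJ, Finset.filter_filter]
  have h2 : ∀ Q ∈ (Λ.powerset.powerset).filter (fun P => Sep (fun a b : F => a = b) P),
      ∏ U ∈ Q, I.act U =
        ∑ P ∈ J.powerset, if P.image (J4Actx126.supp I.Y) = Q ∧
          Set.InjOn (J4Actx126.supp I.Y) (↑P : Set (Finset ι)) then ∏ c ∈ P, I.w c else 0 := by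
    intro Q _
    simp only [h1]
    rw [prod_fiber_sum, Finset.sum_filter]
  rw [Finset.sum_congr rfl h2, Finset.sum_comm]
  have h3 : ∀ P ∈ J.powerset,
      (∑ Q ∈ (Λ.powerset.powerset).filter (fun P => Sep (fun a b : F => a = b) P),
        if P.image (J4Actx126.supp I.Y) = Q ∧
          Set.InjOn (J4Actx126.supp I.Y) (↑P : Set (Finset ι)) then ∏ c ∈ P, I.w c else 0) =
      if Fam (J4Actx126.touch I.Y) P then ∏ c ∈ P, I.w c else 0 := by
    intro P hP
    rw [Finset.mem_powerset] at hP
    have hconn : ∀ C ∈ P, Conn (J4Actx126.touch I.Y) C := fun C hC =>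
      (Finset.mem_filter.1 (hP hC)).2
    by_cases hF : Fam (J4Actx126.touch I.Y) P
    · rw [if_pos hF]
      have hinj : Set.InjOn (J4Actx126.supp I.Y) (↑P : Set (Finset ι)) := by
        intro C hC C' hC' heq
        by_contra hne
        have := noTouch_iff.1 (hF.sep C hC C' hC' hne)
        rw [heq, Finset.disjoint_self_iff_empty] at this
        exact (supp_nonempty I.ne (hconn C' hC').1).ne_empty this
      rw [Finset.sum_eq_single (P.image (J4Actx126.supp I.Y))]
      · rw [if_pos ⟨rfl, hinj⟩]
      · intro Q _ hne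
        rw [if_neg]
        rintro ⟨h, -⟩
        exact hne h.symm
      · intro h
        exfalso
        apply h
        rw [Finset.mem_filter, Finset.mem_powerset]
        constructor
        · intro U hU
          obtain ⟨C, -, rfl⟩ := Finset.mem_image.1 hU
          rw [Finset.mem_powerset]
          exact supp_subset_iff.2 fun i _ => hΛ i
        · constructor
          · intro U hU
            obtain ⟨C, hC, rfl⟩ := Finset.mem_image.1 hU
            exact supp_nonempty I.ne (hconn C hC).1
          · intro U hU W hW hne ht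
            obtain ⟨C, hC, rfl⟩ := Finset.mem_image.1 hU
            obtain ⟨C', hC', rfl⟩ := Finset.mem_image.1 hW
            rw [touch_eq_iff] at ht
            refine ht (noTouch_iff.1 (hF.sep C hC C' hC' ?_))
            rintro rfl
            exact hne rfl
    · rw [if_neg hF]
      apply Finset.sum_eq_zero
      intro Q hQ
      rw [if_neg]
      rintro ⟨rfl, hinj⟩
      apply hF
      rw [Finset.mem_filter] at hQ
      refine ⟨hconn, fun C hC C' hC' hne => ?_⟩
      rw [noTouch_iff]
      by_contra hd
      refine hQ.2.sep _ (Finset.mem_image_of_mem _ hC) _ (Finset.mem_image_of_mem _ hC') ?_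
        (touch_eq_iff.2 hd)
      intro heq
      exact hne (hinj hC hC' heq)
  rw [Finset.sum_congr rfl h3, ← Finset.sum_filter]
  refine Finset.sum_congr ?_ fun _ _ => rfl
  ext P
  rw [Finset.mem_filter, Finset.mem_filter, Finset.mem_powerset]
  constructor
  · rintro ⟨-, h⟩
    exact ⟨fun C hC => Finset.mem_filter.2 ⟨Finset.mem_univ _, h.conn C hC⟩, h⟩
  · rintro ⟨-, h⟩
    exact ⟨Finset.mem_univ _, h⟩

end Crest.Agent.R165.J4Actx126
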