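import Crest.Agent.R165.J4Def_653

/-!
# Row 165 (S0250), block J4, section 0 continued: canonical shapes, torus (helper653)

`Can R` = shapes in `[-R,R]²` whose lexicographic minimum is `0`.

* `anchor_sum` : `∑_{A ∈ anchoredShapes R} g(A)/|A| = ∑_{A ∈ Can R} g(A)` for translation invariant `g`
* `neg_beta_torus` : the energy of the torus through canonical shapes
* `BB_sum` : sums over `BB T b R` as sums over `(u, A)`, `A ∈ Can R`
-/

set_option autoImplicit false

noncomputable section

open Finset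
open Crest.ProbabilityR.IsingModel

namespace Crest.Agent.R165.J4Defx653

/-- `m` is the lexicographic minimum of `A` -/
def IsLexMin (A : Finset (ℤ × ℤ)) (m : ℤ × ℤ) : Prop :=
  m ∈ A ∧ ∀ x ∈ A, toLex m ≤ toLex x

theorem exists_lexMin {A : Finset (ℤ × ℤ)} (h : A.Nonempty) : ∃ m, IsLexMin A m := by
  obtain ⟨m, hm, h⟩ := A.exists_min_image (fun x => toLex x) h
  exact ⟨m, hm, h⟩

theorem IsLexMin.unique {A : Finset (ℤ × ℤ)} {m m' : ℤ × ℤ} (h : IsLexMin A m)
    (h' : IsLexMin A m') : m = m' :=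
  toLex.injective (le_antisymm (h.2 _ h'.1) (h'.2 _ h.1))

theorem toLex_le {x y : ℤ × ℤ} : toLex x ≤ toLex y ↔ x.1 < y.1 ∨ x.1 = y.1 ∧ x.2 ≤ y.2 := by
  rw [Prod.Lex.le_iff]; rfl

theorem toLex_le_add {x y z : ℤ × ℤ} : toLex (x + z) ≤ toLex (y + z) ↔ toLex x ≤ toLex y := by
  rw [toLex_le, toLex_le]
  simp

theorem IsLexMin.tr {A : Finset (ℤ × ℤ)} {m : ℤ × ℤ} (h : IsLexMin A m) (z : ℤ × ℤ) :
    IsLexMin (tr A z) (m + z) := by
  refine ⟨mem_tr.2 (by simpa using h.1), fun x hx => ?_⟩
  rw [mem_tr] at hx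
  have := h.2 _ hx
  rw [← toLex_le_add (z := z)] at this
  simpa using this

open Classical in
/-- canonical shapes: the lexicographic minimum is the origin -/
def Can (R : ℕ) : Finset (Finset (ℤ × ℤ)) := (anchoredShapes R).filter fun A => IsLexMin A 0

open Classical in
theorem mem_Can {R : ℕ} {A : Finset (ℤ × ℤ)} :
    A ∈ Can R ↔ A ⊆ bx R ∧ IsLexMin A 0 := by
  rw [Can, Finset.mem_filter, mem_anchored]
  constructor
  · rintro ⟨⟨h1, _⟩, h3⟩; exact ⟨h1, h3⟩
  · rintro ⟨h1, h3⟩; exact ⟨⟨h1, h3.1⟩, h3⟩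

theorem Can.nonempty {R : ℕ} {A : Finset (ℤ × ℤ)} (h : A ∈ Can R) : A.Nonempty :=
  ⟨0, (mem_Can.1 h).2.1⟩

/-- double counting of anchors -/
theorem anchor_sum (R R' : ℕ) (hR : R ≤ R') (g : Finset (ℤ × ℤ) → ℝ) (hg : TrInv g)
    (hr : Rng R g) :
    ∑ A ∈ anchoredShapes R, g A / A.card = ∑ A ∈ Can R', g A := by
  have h1 : ∀ A ∈ Can R', g A = ∑ a ∈ A, g A / A.card := by
    intro A hA
    have h0 : (A.card : ℝ) ≠ 0 := by
      have := (Can.nonempty hA).card_pos
      exact_mod_cast this.ne'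
    rw [Finset.sum_const, nsmul_eq_mul]
    field_simp
  rw [Finset.sum_congr rfl h1, Finset.sum_sigma']
  symm
  refine Finset.sum_bij_ne_zero (fun p _ _ => tr p.1 (-p.2)) ?_ ?_ ?_ ?_
  · rintro ⟨A, a⟩ h hne
    simp only [mem_sigma] at h
    dsimp only at hne ⊢
    have hgA : g A ≠ 0 := by intro h0; apply hne; rw [h0]; simp
    rw [mem_anchored]
    constructor
    · intro x hx
      rw [mem_tr] at hx
      have := hr A hgA _ hx _ h.2
      rw [mem_bx]
      simpa using this
    · rw [mem_tr]; simpa using h.2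
  · rintro ⟨A, a⟩ h hne ⟨A', a'⟩ h' hne' heq
    simp only [mem_sigma] at h h'
    dsimp only at heq
    have hm := ((mem_Can.1 h.1).2).tr (-a)
    have hm' := ((mem_Can.1 h'.1).2).tr (-a')
    rw [heq] at hm
    have hu := hm.unique hm'
    have ha : a = a' := by simpa using hu
    subst ha
    have : A = A' := by
      have := congrArg (fun B => tr B a) heq
      simpa [tr_tr] using this
    subst this
    rfl
  · intro A hA hne
    have hgA : g A ≠ 0 := by intro h0; apply hne; rw [h0]; simp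
    rw [mem_anchored] at hA
    obtain ⟨m, hm⟩ := exists_lexMin ⟨_, hA.2⟩
    have hmem : (0 : ℤ × ℤ) - m ∈ tr A (-m) := by
      rw [mem_tr]; simpa using hA.2
    have hcard : (tr A (-m)).card = A.card := card_tr _ _
    refine ⟨⟨tr A (-m), -m⟩, ?_, ?_, ?_⟩
    · simp only [mem_sigma]
      refine ⟨mem_Can.2 ⟨?_, ?_⟩, by simpa using hmem⟩
      · intro x hx
        rw [mem_tr] at hx
        have := hr A hgA _ hx _ hm.1
        refine bx_mono hR ?_
        rw [mem_bx]
        simpa using this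
      · simpa using hm.tr (-m)
    · dsimp only
      rw [hg, hcard]
      exact hne
    · dsimp only
      rw [tr_tr]; simp
  · rintro ⟨A, a⟩ h hne
    dsimp only
    rw [hg, card_tr]

/-! ### torus -/

/-- bond variable on the torus -/
def epsT {L : ℕ} (σ : TorusConfig L) (e : (ZMod L × ZMod L) × Fin 2) : ℝ :=
  spinSign (σ e.1) * spinSign (σ (e.1 + toTorus L (unitVec e.2)))

/-- product of the spins over the torus translate `u + A` -/
def sT {L : ℕ} (σ : TorusConfig L) (u : ZMod L × ZMod L) (A : Finset (ℤ × ℤ)) : ℝ :=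
  ∏ x ∈ A, spinSign (σ (u + toTorus L x))

theorem toTorus_add (L : ℕ) (x y : ℤ × ℤ) : toTorus L (x + y) = toTorus L x + toTorus L y := by
  simp [toTorus]

theorem sT_tr {L : ℕ} (σ : TorusConfig L) (u : ZMod L × ZMod L) (A : Finset (ℤ × ℤ)) (z : ℤ × ℤ) :
    sT σ u (tr A z) = sT σ (u + toTorus L z) A := by
  rw [sT, tr, Finset.prod_image (fun x _ y _ h => add_left_injective z h), sT]
  refine Finset.prod_congr rfl fun x _ => ?_
  rw [toTorus_add, add_comm (toTorus L x), add_assoc]

theorem sum_sT_tr {L : ℕ} [NeZero L] (σ : TorusConfig L) (A : Finset (ℤ × ℤ)) (z : ℤ × ℤ) :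
    ∑ u : ZMod L × ZMod L, sT σ u (tr A z) = ∑ u : ZMod L × ZMod L, sT σ u A := by
  simp only [sT_tr]
  exact Fintype.sum_equiv (Equiv.addRight (toTorus L z)) _ _ fun u => rfl

theorem pr_zero_mem_Can {R : ℕ} (hR : 1 ≤ R) (j : Fin 2) : pr (0, j) ∈ Can R := by
  rw [mem_Can]
  have h1 : (1 : ℤ) ≤ R := by exact_mod_cast hR
  constructor
  · intro x hx
    simp only [pr, mem_insert, mem_singleton, zero_add] at hx
    rw [mem_bx]
    rcases hx with rfl | rfl
    · simp
    · unfold unitVec
      split_ifs <;> simp <;> omega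
  · refine ⟨by simp [pr], fun x hx => ?_⟩
    simp only [pr, mem_insert, mem_singleton, zero_add] at hx
    rw [toLex_le]
    rcases hx with rfl | rfl
    · right; simp
    · unfold unitVec
      split_ifs <;> simp

theorem isNN_Can {R : ℕ} {A : Finset (ℤ × ℤ)} (hA : A ∈ Can R) (h : IsNN A) :
    ∃ j : Fin 2, A = pr (0, j) := by
  obtain ⟨⟨z, j⟩, rfl⟩ := h
  have h0 : IsLexMin (pr (0, j)) 0 := (mem_Can.1 (pr_zero_mem_Can le_rfl j)).2
  have h1 : pr (z, j) = tr (pr (0, j)) z := by
    ext x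
    simp only [pr, mem_insert, mem_singleton, mem_tr, zero_add]
    constructor
    · rintro (rfl | rfl)
      · left; simp
      · right; simp
    · rintro (h | h)
      · left; exact sub_eq_zero.1 h
      · right; rw [← h]; simp
  have h2 := h0.tr z
  rw [← h1] at h2
  have h3 := h2.unique (mem_Can.1 hA).2
  simp only [zero_add] at h3
  exact ⟨j, by rw [h3]⟩

open Classical in
theorem nn_sum_Can {R : ℕ} (hR : 1 ≤ R) (g : Finset (ℤ × ℤ) → ℝ) :
    ∑ A ∈ Can R, (if IsNN A then (1 : ℝ) else 0) * g A = ∑ j : Fin 2, g (pr (0, j)) := by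
  simp only [ite_mul, one_mul, zero_mul]
  rw [← Finset.sum_filter]
  have : (Can R).filter (fun A => IsNN A) = (univ : Finset (Fin 2)).image fun j => pr (0, j) := by
    ext A
    rw [Finset.mem_filter, Finset.mem_image]
    constructor
    · rintro ⟨h1, h2⟩
      obtain ⟨j, rfl⟩ := isNN_Can h1 h2
      exact ⟨j, mem_univ _, rfl⟩
    · rintro ⟨j, _, rfl⟩
      exact ⟨pr_zero_mem_Can hR j, _, rfl⟩
  rw [this, Finset.sum_image]
  intro i _ j _ h
  have := pr_injective h
  simpa using this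

theorem sT_pr {L : ℕ} (σ : TorusConfig L) (u : ZMod L × ZMod L) (j : Fin 2) :
    sT σ u (pr (0, j)) = epsT σ (u, j) := by
  rw [sT, pr, Finset.prod_pair, epsT]
  · have h0 : toTorus L (0 : ℤ × ℤ) = 0 := by simp [toTorus]
    rw [h0, add_zero, zero_add]
  · intro h
    exact unitVec_ne_zero j (by simpa using h.symm)

theorem TrInv.tpot {J lam β : ℝ} {V : Finset (ℤ × ℤ) → ℝ} (hV : TrInv V) :
    TrInv (tpot J lam β V) := by
  intro A z
  have : IsNN (tr A z) ↔ IsNN A := by
    constructor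
    · rintro ⟨⟨w, j⟩, h⟩
      refine ⟨(w - z, j), ?_⟩
      have := congrArg (fun B => tr B (-z)) h
      simp only [tr_tr, add_neg_cancel, tr_zero] at this
      rw [this]
      ext x
      simp only [pr, mem_insert, mem_singleton, mem_tr, sub_neg_eq_add]
      constructor
      · rintro (h | h)
        · left; rw [← h]; simp
        · right
          have : x = w + unitVec j - z := by rw [← h]; simp
          rw [this]; abel
      · rintro (rfl | rfl)
        · left; simp
        · right; abel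
    · rintro ⟨⟨w, j⟩, rfl⟩
      refine ⟨(w + z, j), ?_⟩
      ext x
      simp only [pr, mem_insert, mem_singleton, mem_tr]
      constructor
      · rintro (h | h)
        · left; rw [← h]; simp
        · right
          have : x = w + unitVec j + z := by rw [← h]; simp
          rw [this]; abel
      · rintro (rfl | rfl)
        · left; simp
        · right; abel
  unfold J4Defx653.tpot
  rw [hV, this]

open Classical in
/-- **section 0, torus** -/
theorem neg_beta_torus (L : ℕ) [NeZero L] (J lam β : ℝ) (R : ℕ)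
    (V : Finset (ℤ × ℤ) → ℝ) (hV : TrInv V) (hr : Rng R V) (σ : TorusConfig L) :
    -β * energy L J lam R V σ =
      (criticalBeta J * J) * ∑ e : (ZMod L × ZMod L) × Fin 2, epsT σ e +
        ∑ u : ZMod L × ZMod L, ∑ A ∈ Can (max R 1), tpot J lam β V A * sT σ u A := by
  have hpair : ∑ u : ZMod L × ZMod L,
      (spinSign (σ u) * spinSign (σ (u.1 + 1, u.2)) +
        spinSign (σ u) * spinSign (σ (u.1, u.2 + 1))) =
      ∑ e : (ZMod L × ZMod L) × Fin 2, epsT σ e := by
    have e1 : ∑ e : (ZMod L × ZMod L) × Fin 2, epsT σ e =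
        ∑ u : ZMod L × ZMod L, ∑ j : Fin 2, epsT σ (u, j) := Fintype.sum_prod_type _
    rw [e1]
    refine Finset.sum_congr rfl fun u _ => ?_
    rw [Fin.sum_univ_two, epsT, epsT]
    obtain ⟨u1, u2⟩ := u
    simp [unitVec, toTorus]
  have hshape : ∑ u : ZMod L × ZMod L, ∑ A ∈ anchoredShapes R,
      V A / A.card * ∏ x ∈ A, spinSign (σ (u + toTorus L x)) =
      ∑ A ∈ Can (max R 1), V A * ∑ u : ZMod L × ZMod L, sT σ u A := by
    rw [Finset.sum_comm (s := (univ : Finset (ZMod L × ZMod L)))]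
    rw [← anchor_sum R (max R 1) (le_max_left _ _)
      (fun A => V A * ∑ u : ZMod L × ZMod L, sT σ u A)]
    · refine Finset.sum_congr rfl fun A _ => ?_
      rw [← Finset.mul_sum]
      simp only [sT]
      ring
    · intro A z
      dsimp only
      rw [hV, sum_sT_tr]
    · intro A hA
      exact hr A (left_ne_zero_of_mul hA)
  have hnn : ∑ e : (ZMod L × ZMod L) × Fin 2, epsT σ e =
      ∑ A ∈ Can (max R 1), (if IsNN A then (1 : ℝ) else 0) *
        ∑ u : ZMod L × ZMod L, sT σ u A := by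
    rw [nn_sum_Can (le_max_right R 1) (fun A => ∑ u : ZMod L × ZMod L, sT σ u A)]
    have e1 : ∑ e : (ZMod L × ZMod L) × Fin 2, epsT σ e =
        ∑ j : Fin 2, ∑ u : ZMod L × ZMod L, epsT σ (u, j) := by
      rw [Fintype.sum_prod_type]
      exact Finset.sum_comm
    rw [e1]
    refine Finset.sum_congr rfl fun j _ => Finset.sum_congr rfl fun u _ => (sT_pr σ u j).symm
  rw [Finset.sum_comm (s := (univ : Finset (ZMod L × ZMod L)))]
  have hsum : ∑ A ∈ Can (max R 1), ∑ u : ZMod L × ZMod L, tpot J lam β V A * sT σ u A =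
      β * lam * ∑ A ∈ Can (max R 1), V A * ∑ u : ZMod L × ZMod L, sT σ u A +
        (β - criticalBeta J) * J * ∑ e : (ZMod L × ZMod L) × Fin 2, epsT σ e := by
    rw [hnn, Finset.mul_sum, Finset.mul_sum, ← Finset.sum_add_distrib]
    refine Finset.sum_congr rfl fun A _ => ?_
    rw [← Finset.mul_sum, tpot]; ring
  rw [hsum, energy, hpair, hshape]
  ring

/-! ### domain sums through canonical shapes -/

/-- sums over `BB T b R` as sums over pairs (position, canonical shape) -/
theorem BB_sum (T : Finset (ℤ × ℤ)) (b : BoundaryCondition) (R : ℕ)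
    (U : Finset (ℤ × ℤ) → ℝ) (hU : TrInv U) (hr : Rng R U) (g : Finset (ℤ × ℤ) → ℝ) :
    ∑ B ∈ BB T b R, U B * g B =
      ∑ u ∈ thick T R, ∑ A ∈ (Can R).filter (fun A => tr A u ∈ BB T b R), U A * g (tr A u) := by
  rw [Finset.sum_sigma']
  symm
  refine Finset.sum_bij_ne_zero (fun p _ _ => tr p.2 p.1) ?_ ?_ ?_ ?_
  · rintro ⟨u, A⟩ h _
    simp only [mem_sigma, mem_filter] at h
    exact h.2.2
  · rintro ⟨u, A⟩ h _ ⟨u', A'⟩ h' _ heq
    simp only [mem_sigma, mem_filter] at h h'
    dsimp only at heq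
    have hm := ((mem_Can.1 h.2.1).2).tr u
    have hm' := ((mem_Can.1 h'.2.1).2).tr u'
    rw [heq] at hm
    have hu : u = u' := by simpa using hm.unique hm'
    subst hu
    have := tr_injective u heq
    subst this
    rfl
  · intro B hB hne
    have hUB : U B ≠ 0 := left_ne_zero_of_mul hne
    have hB' := mem_BB.1 hB
    have hBne : B.Nonempty := by
      obtain ⟨x, hx⟩ := hB'.2.2
      exact ⟨x, (mem_inter.1 hx).1⟩
    obtain ⟨m, hm⟩ := exists_lexMin hBne
    refine ⟨⟨m, tr B (-m)⟩, ?_, ?_, ?_⟩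
    · simp only [mem_sigma, mem_filter]
      refine ⟨hB'.1 hm.1, mem_Can.2 ⟨?_, ?_⟩, ?_⟩
      · intro x hx
        rw [mem_tr] at hx
        have := hr B hUB _ hx _ hm.1
        rw [mem_bx]
        simpa using this
      · simpa using hm.tr (-m)
      · rw [tr_tr]; simpa using hB
    · dsimp only
      rw [tr_tr, hU]
      simpa using hne
    · dsimp only
      rw [tr_tr]; simp
  · rintro ⟨u, A⟩ _ _
    dsimp only
    rw [hU]

end Crest.Agent.R165.J4Defx653
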