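import Crest.Agent.R165.J4RR_653

/-!
# Row 165 (S0250), block J4: the eps-algebra with coefficients in a commutative algebra `A` (helper653)

`RA A E = AddMonoidAlgebra A (E →₀ ZMod 2)`; same API as `J4RR_653`, plus constants `CA a` and the
inclusion `ofR : RR E → RA A E`.
-/

set_option autoImplicit false

noncomputable section

open Finset
open scoped ENNReal

namespace Crest.Agent.R165.J4RRAx653

open Crest.Agent.R165.J4RRx653

variable {E : Type*} {E' : Type*}
variable {A : Type*} [CommRing A]

/-- bond variables with coefficients in `A` -/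
abbrev RA (A : Type*) [CommRing A] (E : Type*) : Type _ := AddMonoidAlgebra A (E →₀ ZMod 2)

/-- basis element -/
def epA (S : E →₀ ZMod 2) : RA A E := AddMonoidAlgebra.single S 1

/-- constants -/
def CA (a : A) : RA A E := algebraMap A (RA A E) a

theorem CA_mul (a : A) (F : RA A E) : CA a * F = a • F := (Algebra.smul_def a F).symm

theorem epA_add (S T : E →₀ ZMod 2) : (epA (S + T) : RA A E) = epA S * epA T := by
  rw [epA, epA, epA, AddMonoidAlgebra.single_mul_single, one_mul]

@[simp] theorem epA_zero : (epA (0 : E →₀ ZMod 2) : RA A E) = 1 := rfl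

theorem epA_mul_self (S : E →₀ ZMod 2) : (epA S * epA S : RA A E) = 1 := by
  rw [← epA_add, add_self_zero, epA_zero]

theorem singleA_eq (S : E →₀ ZMod 2) (c : A) :
    (AddMonoidAlgebra.single S c : RA A E) = c • epA S := by
  rw [epA, AddMonoidAlgebra.smul_single, smul_eq_mul, mul_one]

theorem RA.ind {P : RA A E → Prop} (h0 : P 0) (hadd : ∀ F G, P F → P G → P (F + G))
    (hs : ∀ (c : A) S, P (c • epA S)) (F : RA A E) : P F :=
  AddMonoidAlgebra.induction_linear F h0 (fun F G => hadd F G) fun S c => by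
    rw [singleA_eq]; exact hs c S

/-- `epA S ↦ ∏_{e ∈ S} g e` -/
def THA (g : E → A) : RA A E →ₗ[A] A :=
  (Finsupp.linearCombination A fun S : E →₀ ZMod 2 => ∏ e ∈ S.support, g e) ∘ₗ
    (AddMonoidAlgebra.coeffLinearEquiv A).toLinearMap

@[simp] theorem THA_ep (g : E → A) (S : E →₀ ZMod 2) : THA g (epA S) = ∏ e ∈ S.support, g e := by
  simp [THA, epA]

@[simp] theorem THA_one (g : E → A) : THA g (1 : RA A E) = 1 := by
  rw [← epA_zero, THA_ep]; simp

theorem THA_CA_mul (g : E → A) (a : A) (F : RA A E) : THA g (CA a * F) = a * THA g F := by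
  rw [CA_mul, map_smul, smul_eq_mul]

@[simp] theorem THA_CA (g : E → A) (a : A) : THA g (CA a) = a := by
  have := THA_CA_mul g a 1
  rwa [mul_one, THA_one, mul_one] at this

/-! ### supports -/

/-- elements using only the edges of `U` -/
def RInA (A : Type*) [CommRing A] (U : Set E) : Subalgebra A (RA A E) :=
  (Submodule.span A (epA '' {S : E →₀ ZMod 2 | (S.support : Set E) ⊆ U})).toSubalgebra
    (Submodule.subset_span ⟨0, by simp, epA_zero⟩)
    (by
      intro F G hF hG
      induction hF using Submodule.span_induction with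
      | mem F hF =>
        induction hG using Submodule.span_induction with
        | mem G hG =>
          obtain ⟨S, hS, rfl⟩ := hF
          obtain ⟨T, hT, rfl⟩ := hG
          rw [← epA_add]
          classical
          refine Submodule.subset_span ⟨S + T, ?_, rfl⟩
          intro e he
          have := Finsupp.support_add (Finset.mem_coe.1 he)
          rcases Finset.mem_union.1 this with h | h
          · exact hS (Finset.mem_coe.2 h)
          · exact hT (Finset.mem_coe.2 h)
        | zero => simp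
        | add x y _ _ hx hy => rw [mul_add]; exact Submodule.add_mem _ hx hy
        | smul c x _ hx => rw [mul_smul_comm]; exact Submodule.smul_mem _ _ hx
      | zero => simp
      | add x y _ _ hx hy => rw [add_mul]; exact Submodule.add_mem _ hx hy
      | smul c x _ hx => rw [smul_mul_assoc]; exact Submodule.smul_mem _ _ hx)

theorem mem_RInA {U : Set E} {F : RA A E} :
    F ∈ RInA A U ↔ F ∈ Submodule.span A (epA '' {S : E →₀ ZMod 2 | (S.support : Set E) ⊆ U}) :=
  Iff.rfl

theorem epA_mem_RInA {U : Set E} {S : E →₀ ZMod 2} (h : (S.support : Set E) ⊆ U) :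
    (epA S : RA A E) ∈ RInA A U :=
  Submodule.subset_span ⟨S, h, rfl⟩

theorem CA_mem_RInA (U : Set E) (a : A) : (CA a : RA A E) ∈ RInA A U :=
  Subalgebra.algebraMap_mem _ a

theorem RInA_mono {U U' : Set E} (h : U ⊆ U') : RInA A U ≤ RInA A U' := by
  intro F hF
  rw [mem_RInA] at hF ⊢
  exact Submodule.span_mono (Set.image_mono fun S hS => Set.Subset.trans hS h) hF

theorem RInA_ind {U : Set E} {P : RA A E → Prop} (h0 : P 0)
    (hadd : ∀ F G, P F → P G → P (F + G))
    (hs : ∀ (c : A) S, (S.support : Set E) ⊆ U → P (c • epA S)) {F : RA A E}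
    (hF : F ∈ RInA A U) : P F := by
  rw [mem_RInA] at hF
  have key : ∀ c : A, P (c • F) := by
    induction hF using Submodule.span_induction with
    | mem x hx => obtain ⟨S, hS, rfl⟩ := hx; intro c; exact hs c S hS
    | zero => intro c; simpa using h0
    | add x y _ _ hx hy => intro c; rw [smul_add]; exact hadd _ _ (hx c) (hy c)
    | smul d x _ hx => intro c; rw [smul_smul]; exact hx _
  simpa using key 1

theorem THA_congr_of_mem {U : Set E} {g g' : E → A} (h : ∀ e ∈ U, g e = g' e) {F : RA A E}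
    (hF : F ∈ RInA A U) : THA g F = THA g' F := by
  refine RInA_ind (P := fun F => THA g F = THA g' F) ?_ ?_ ?_ hF
  · simp
  · intro F G hF hG; rw [map_add, map_add, hF, hG]
  · intro c S hS
    rw [map_smul, map_smul, THA_ep, THA_ep]
    congr 1
    exact Finset.prod_congr rfl fun e he => h e (hS (Finset.mem_coe.2 he))

/-- **multiplicativity on disjoint supports** -/
theorem THA_mul (g : E → A) {U U' : Set E} (hd : Disjoint U U') {F G : RA A E}
    (hF : F ∈ RInA A U) (hG : G ∈ RInA A U') : THA g (F * G) = THA g F * THA g G := by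
  classical
  refine RInA_ind (P := fun F => THA g (F * G) = THA g F * THA g G) ?_ ?_ ?_ hF
  · simp
  · intro F F' h h'; rw [add_mul, map_add, map_add, h, h', add_mul]
  · intro c S hS
    rw [smul_mul_assoc, map_smul, map_smul, smul_mul_assoc]
    congr 1
    refine RInA_ind (P := fun G => THA g (epA S * G) = THA g (epA S) * THA g G) ?_ ?_ ?_ hG
    · simp
    · intro F F' h h'; rw [mul_add, map_add, map_add, h, h', mul_add]
    · intro c T hT
      rw [mul_smul_comm, map_smul, map_smul, mul_smul_comm, ← epA_add, THA_ep, THA_ep, THA_ep]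
      congr 1
      have hdis : Disjoint S.support T.support := by
        rw [← Finset.disjoint_coe]
        exact Disjoint.mono hS hT hd
      rw [Finsupp.support_add_eq hdis, Finset.prod_union hdis]

/-- `THA g` is multiplicative when `g e * g e = 1` -/
theorem THA_mul_sq (g : E → A) (hg : ∀ e, g e * g e = 1) (F G : RA A E) :
    THA g (F * G) = THA g F * THA g G := by
  have key : ∀ S T : E →₀ ZMod 2, ∏ e ∈ (S + T).support, g e =
      (∏ e ∈ S.support, g e) * ∏ e ∈ T.support, g e := by
    classical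
    have key : ∀ S : E →₀ ZMod 2, ∏ e ∈ S.support, g e = S.prod fun e k => g e ^ k.val := by
      intro S
      rw [Finsupp.prod]
      refine Finset.prod_congr rfl fun e he => ?_
      have : S e = 1 := by
        have h0 : S e ≠ 0 := by simpa using he
        revert h0
        generalize S e = k
        revert k
        decide
      rw [this]
      simp [ZMod.val_one]
    intro S T
    rw [key, key, key]
    refine Finsupp.prod_add_index' (fun e => by simp) ?_
    intro e k l
    have h2 : g e ^ 2 = 1 := by rw [pow_two, hg]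
    have : ∀ k l : ZMod 2, (k + l).val = k.val + l.val ∨ ((k + l).val = 0 ∧ k.val + l.val = 2) := by
      decide
    rcases this k l with h | ⟨h, h'⟩
    · rw [h, pow_add]
    · rw [← pow_add, h, h', h2, pow_zero]
  induction F using RA.ind with
  | h0 => simp
  | hadd F F' h h' => rw [add_mul, map_add, map_add, h, h', add_mul]
  | hs c S =>
    rw [smul_mul_assoc, map_smul, map_smul, smul_mul_assoc]
    congr 1
    induction G using RA.ind with
    | h0 => simp
    | hadd F F' h h' => rw [mul_add, map_add, map_add, h, h', mul_add]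
    | hs c T =>
      rw [mul_smul_comm, map_smul, map_smul, mul_smul_comm, ← epA_add, THA_ep, THA_ep, THA_ep,
        key]

/-- evaluation homomorphism at commuting involutions -/
def THAh (g : E → A) (hg : ∀ e, g e * g e = 1) : RA A E →ₐ[A] A :=
  AlgHom.ofLinearMap (THA g) (THA_one g) (THA_mul_sq g hg)

@[simp] theorem THAh_apply (g : E → A) (hg : ∀ e, g e * g e = 1) (F : RA A E) :
    THAh g hg F = THA g F := rfl

theorem THA_prod_sq (g : E → A) (hg : ∀ e, g e * g e = 1) {ι : Type*} (s : Finset ι)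
    (F : ι → RA A E) : THA g (∏ i ∈ s, F i) = ∏ i ∈ s, THA g (F i) := by
  rw [← THAh_apply g hg, map_prod]; rfl

/-- naturality in the coefficient ring (through the basis) -/
theorem THA_map {B : Type*} [CommRing B] (f : A →+* B) (g : E → A) (F : RA A E) :
    f (THA g F) = ∑ S ∈ F.coeff.support, f (F.coeff S) * ∏ e ∈ S.support, f (g e) := by
  simp only [THA, LinearMap.comp_apply, Finsupp.linearCombination_apply, Finsupp.sum, map_sum,
    smul_eq_mul, map_mul, map_prod]
  rfl

/-! ### norms -/

/-- ring seminorm with values in `ℝ≥0∞` -/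
structure RSemi (N : A → ℝ≥0∞) : Prop where
  zero : N 0 = 0
  one : N 1 ≤ 1
  add : ∀ a b, N (a + b) ≤ N a + N b
  mul : ∀ a b, N (a * b) ≤ N a * N b

theorem RSemi.sum {N : A → ℝ≥0∞} (hN : RSemi N) {ι : Type*} (s : Finset ι) (f : ι → A) :
    N (∑ i ∈ s, f i) ≤ ∑ i ∈ s, N (f i) := by
  classical
  induction s using Finset.induction_on with
  | empty => simp [hN.zero]
  | insert i s hi ih =>
    rw [Finset.sum_insert hi, Finset.sum_insert hi]
    exact (hN.add _ _).trans (by gcongr)

theorem RSemi.prod {N : A → ℝ≥0∞} (hN : RSemi N) {ι : Type*} (s : Finset ι) (f : ι → A) :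
    N (∏ i ∈ s, f i) ≤ ∏ i ∈ s, N (f i) := by
  classical
  induction s using Finset.induction_on with
  | empty => simpa using hN.one
  | insert i s hi ih =>
    rw [Finset.prod_insert hi, Finset.prod_insert hi]
    exact (hN.mul _ _).trans (by gcongr)

/-- weighted `ℓ¹` norm -/
def nmA (N : A → ℝ≥0∞) (c : E → ℝ≥0∞) (F : RA A E) : ℝ≥0∞ :=
  ∑ S ∈ F.coeff.support, N (F.coeff S) * wtS c S

theorem nmA_eq_sum {N : A → ℝ≥0∞} (hN : RSemi N) (c : E → ℝ≥0∞) (F : RA A E)
    {s : Finset (E →₀ ZMod 2)} (hs : F.coeff.support ⊆ s) :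
    nmA N c F = ∑ S ∈ s, N (F.coeff S) * wtS c S := by
  rw [nmA]
  refine Finset.sum_subset hs fun S _ hS => ?_
  have : F.coeff S = 0 := by simpa using hS
  rw [this, hN.zero]; simp

@[simp] theorem nmA_zero (N : A → ℝ≥0∞) (c : E → ℝ≥0∞) : nmA N c (0 : RA A E) = 0 := by
  simp [nmA]

theorem nmA_add_le {N : A → ℝ≥0∞} (hN : RSemi N) (c : E → ℝ≥0∞) (F G : RA A E) :
    nmA N c (F + G) ≤ nmA N c F + nmA N c G := by
  classical
  rw [nmA_eq_sum hN c (F + G) (s := F.coeff.support ∪ G.coeff.support) ?_,
    nmA_eq_sum hN c F (s := F.coeff.support ∪ G.coeff.support) Finset.subset_union_left,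
    nmA_eq_sum hN c G (s := F.coeff.support ∪ G.coeff.support) Finset.subset_union_right,
    ← Finset.sum_add_distrib]
  · refine Finset.sum_le_sum fun S _ => ?_
    rw [← add_mul]
    gcongr
    rw [AddMonoidAlgebra.coeff_add, Finsupp.add_apply]
    exact hN.add _ _
  · rw [AddMonoidAlgebra.coeff_add]
    exact Finsupp.support_add

theorem nmA_smul_le {N : A → ℝ≥0∞} (hN : RSemi N) (c : E → ℝ≥0∞) (r : A) (F : RA A E) :
    nmA N c (r • F) ≤ N r * nmA N c F := by
  classical
  rw [nmA_eq_sum hN c (r • F) (s := F.coeff.support) ?_, nmA, Finset.mul_sum]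
  · refine Finset.sum_le_sum fun S _ => ?_
    rw [← mul_assoc]
    gcongr
    rw [AddMonoidAlgebra.coeff_smul, Finsupp.smul_apply, smul_eq_mul]
    exact hN.mul _ _
  · rw [AddMonoidAlgebra.coeff_smul]
    exact Finsupp.support_smul

theorem nmA_ep_le {N : A → ℝ≥0∞} (hN : RSemi N) (c : E → ℝ≥0∞) (S : E →₀ ZMod 2) :
    nmA N c (epA S : RA A E) ≤ wtS c S := by
  classical
  rw [nmA_eq_sum hN c (epA S) (s := {S}) ?_]
  · rw [Finset.sum_singleton, epA, AddMonoidAlgebra.coeff_single, Finsupp.single_eq_same]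
    calc N 1 * wtS c S ≤ 1 * wtS c S := by gcongr; exact hN.one
      _ = _ := one_mul _
  · rw [epA, AddMonoidAlgebra.coeff_single]
    exact Finsupp.support_single_subset

theorem nmA_one_le {N : A → ℝ≥0∞} (hN : RSemi N) (c : E → ℝ≥0∞) :
    nmA N c (1 : RA A E) ≤ 1 := by
  rw [← epA_zero]
  exact (nmA_ep_le hN c 0).trans (by simp)

theorem nmA_CA_le {N : A → ℝ≥0∞} (hN : RSemi N) (c : E → ℝ≥0∞) (a : A) :
    nmA N c (CA a : RA A E) ≤ N a := by
  have : (CA a : RA A E) = a • 1 := by rw [← CA_mul, mul_one]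
  rw [this]
  calc nmA N c (a • (1 : RA A E)) ≤ N a * nmA N c (1 : RA A E) := nmA_smul_le hN c a 1
    _ ≤ N a * 1 := by gcongr; exact nmA_one_le hN c
    _ = N a := mul_one _

theorem nmA_sum_le {N : A → ℝ≥0∞} (hN : RSemi N) (c : E → ℝ≥0∞) {ι : Type*} (s : Finset ι)
    (F : ι → RA A E) : nmA N c (∑ i ∈ s, F i) ≤ ∑ i ∈ s, nmA N c (F i) := by
  classical
  induction s using Finset.induction_on with
  | empty => simp
  | insert i s hi ih =>
    rw [Finset.sum_insert hi, Finset.sum_insert hi]
    exact (nmA_add_le hN c _ _).trans (by gcongr)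

theorem RA_eq_sum (F : RA A E) : F = ∑ S ∈ F.coeff.support, F.coeff S • epA S := by
  conv_lhs => rw [← AddMonoidAlgebra.ofCoeff_coeff F, ← Finsupp.sum_single F.coeff]
  rw [Finsupp.sum, AddMonoidAlgebra.ofCoeff_sum]
  exact Finset.sum_congr rfl fun S _ => singleA_eq S _

theorem nmA_mul_le {N : A → ℝ≥0∞} (hN : RSemi N) {c : E → ℝ≥0∞} (hc : ∀ e, 1 ≤ c e)
    (F G : RA A E) : nmA N c (F * G) ≤ nmA N c F * nmA N c G := by
  classical
  have h1 : ∀ (F : RA A E) (T : E →₀ ZMod 2), nmA N c (F * epA T) ≤ nmA N c F * wtS c T := by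
    intro F T
    calc nmA N c (F * epA T) =
          nmA N c (∑ S ∈ F.coeff.support, F.coeff S • (epA (S + T) : RA A E)) := by
          conv_lhs => rw [RA_eq_sum F]
          rw [Finset.sum_mul]
          congr 1
          refine Finset.sum_congr rfl fun S _ => ?_
          rw [smul_mul_assoc, epA_add]
      _ ≤ ∑ S ∈ F.coeff.support, nmA N c (F.coeff S • (epA (S + T) : RA A E)) :=
          nmA_sum_le hN _ _ _
      _ ≤ ∑ S ∈ F.coeff.support, N (F.coeff S) * (wtS c S * wtS c T) := by
          refine Finset.sum_le_sum fun S _ => (nmA_smul_le hN _ _ _).trans ?_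
          gcongr
          exact (nmA_ep_le hN _ _).trans (wtS_add_le hc S T)
      _ = nmA N c F * wtS c T := by
          rw [nmA, Finset.sum_mul]
          exact Finset.sum_congr rfl fun S _ => by rw [mul_assoc]
  calc nmA N c (F * G) = nmA N c (∑ T ∈ G.coeff.support, G.coeff T • (F * epA T)) := by
        conv_lhs => rw [RA_eq_sum G]
        rw [Finset.mul_sum]
        congr 1
        refine Finset.sum_congr rfl fun S _ => ?_
        rw [mul_smul_comm]
    _ ≤ ∑ T ∈ G.coeff.support, nmA N c (G.coeff T • (F * epA T)) := nmA_sum_le hN _ _ _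
    _ ≤ ∑ T ∈ G.coeff.support, N (G.coeff T) * (nmA N c F * wtS c T) := by
        refine Finset.sum_le_sum fun S _ => (nmA_smul_le hN _ _ _).trans ?_
        gcongr
        exact h1 F S
    _ = nmA N c F * nmA N c G := by
        rw [nmA, nmA, Finset.mul_sum]
        exact Finset.sum_congr rfl fun S _ => by ring

theorem nmA_prod_le {N : A → ℝ≥0∞} (hN : RSemi N) {c : E → ℝ≥0∞} (hc : ∀ e, 1 ≤ c e)
    {ι : Type*} (s : Finset ι) (F : ι → RA A E) :
    nmA N c (∏ i ∈ s, F i) ≤ ∏ i ∈ s, nmA N c (F i) := by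
  classical
  induction s using Finset.induction_on with
  | empty => simpa using nmA_one_le hN c
  | insert i s hi ih =>
    rw [Finset.prod_insert hi, Finset.prod_insert hi]
    exact (nmA_mul_le hN hc _ _).trans (by gcongr)

/-- the norm `nmA` is itself a ring seminorm -/
theorem rsemi_nmA {N : A → ℝ≥0∞} (hN : RSemi N) {c : E → ℝ≥0∞} (hc : ∀ e, 1 ≤ c e) :
    RSemi (nmA N c : RA A E → ℝ≥0∞) :=
  ⟨nmA_zero N c, nmA_one_le hN c, nmA_add_le hN c, nmA_mul_le hN hc⟩

/-- **norms of the image under `THA`** -/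
theorem N_THA_le {N : A → ℝ≥0∞} (hN : RSemi N) (g : E → A) {c : E → ℝ≥0∞}
    (hg : ∀ e, N (g e) ≤ c e) (F : RA A E) : N (THA g F) ≤ nmA N c F := by
  classical
  conv_lhs => rw [RA_eq_sum F]
  rw [map_sum, nmA]
  refine (hN.sum _ _).trans (Finset.sum_le_sum fun S _ => ?_)
  rw [map_smul, THA_ep, smul_eq_mul]
  refine (hN.mul _ _).trans ?_
  gcongr
  refine (hN.prod _ _).trans ?_
  rw [wtS]
  gcongr
  exact hg _

/-! ### the inclusion of `RR E` -/

section ofR

variable [Algebra ℝ A]

/-- the inclusion of real coefficients -/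
def ofR (A : Type*) [CommRing A] [Algebra ℝ A] : RR E →ₐ[ℝ] RA A E :=
  AddMonoidAlgebra.mapAlgHom (E →₀ ZMod 2) (Algebra.ofId ℝ A)

@[simp] theorem ofR_ep (S : E →₀ ZMod 2) : ofR A (ep S) = (epA S : RA A E) := by
  simp [ofR, ep, epA]

theorem ofR_smul (r : ℝ) (F : RR E) : ofR A (r • F) = (algebraMap ℝ A r) • ofR A F := by
  rw [map_smul, algebraMap_smul]

theorem THA_ofR (g : E → A) (F : RR E) : THA g (ofR A F) = TH g F := by
  induction F using RR.ind with
  | h0 => simp
  | hadd F G hF hG => rw [map_add, map_add, map_add, hF, hG]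
  | hs c S => rw [ofR_smul, map_smul, map_smul, ofR_ep, THA_ep, TH_ep, smul_eq_mul,
      ← Algebra.smul_def]

theorem ofR_mem {U : Set E} {F : RR E} (hF : F ∈ RIn U) : ofR A F ∈ RInA A U := by
  refine RIn_ind (P := fun F => ofR A F ∈ RInA A U) ?_ ?_ ?_ hF
  · simp
  · intro F G hF hG; rw [map_add]; exact add_mem hF hG
  · intro c S hS
    rw [ofR_smul, ofR_ep]
    exact Subalgebra.smul_mem _ (epA_mem_RInA hS) _

theorem nmA_ofR_le {N : A → ℝ≥0∞} (hN : RSemi N) (hR : ∀ r : ℝ, N (algebraMap ℝ A r) ≤ ‖r‖ₑ)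
    (c : E → ℝ≥0∞) (F : RR E) : nmA N c (ofR A F) ≤ nmE c F := by
  refine le_nmE (N := fun F => nmA N c (ofR A F)) (by simp) (fun F G => ?_) (fun r F => ?_) ?_ F
  · rw [map_add]; exact nmA_add_le hN _ _ _
  · rw [ofR_smul]
    refine (nmA_smul_le hN _ _ _).trans ?_
    gcongr
    exact hR r
  · intro S
    rw [ofR_ep]
    exact nmA_ep_le hN _ _

end ofR

/-! ### functoriality in the edge set -/

/-- the algebra homomorphism induced by a map of edges -/
def emA (f : E → E') : RA A E →ₐ[A] RA A E' :=
  AddMonoidAlgebra.mapDomainAlgHom A A (Finsupp.mapDomain.addMonoidHom f)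

@[simp] theorem emA_ep (f : E → E') (S : E →₀ ZMod 2) :
    emA f (epA S : RA A E) = epA (S.mapDomain f) := by
  simp [emA, epA]

theorem emA_comp {E'' : Type*} (f : E → E') (f' : E' → E'') (F : RA A E) :
    emA f' (emA f F) = emA (f' ∘ f) F := by
  induction F using RA.ind with
  | h0 => simp
  | hadd F G hF hG => rw [map_add, map_add, map_add, hF, hG]
  | hs c S => rw [map_smul, map_smul, map_smul, emA_ep, emA_ep, emA_ep, Finsupp.mapDomain_comp]

theorem THA_emA {f : E → E'} (hf : Function.Injective f) (g : E' → A) (F : RA A E) :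
    THA g (emA f F) = THA (fun e => g (f e)) F := by
  induction F using RA.ind with
  | h0 => simp
  | hadd F G hF hG => rw [map_add, map_add, map_add, hF, hG]
  | hs c S =>
    rw [map_smul, map_smul, map_smul, emA_ep, THA_ep, THA_ep, support_mapDomain_of_injective hf,
      Finset.prod_map]
    rfl

theorem emA_ofR [Algebra ℝ A] (f : E → E') (F : RR E) : emA f (ofR A F) = ofR A (em f F) := by
  induction F using RR.ind with
  | h0 => simp
  | hadd F G hF hG => rw [map_add, map_add, map_add, map_add, hF, hG]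
  | hs c S => rw [ofR_smul, map_smul, map_smul, ofR_smul, ofR_ep, emA_ep, em_ep, ofR_ep]

theorem emA_mem_RInA {f : E → E'} {U : Set E} {F : RA A E} (hF : F ∈ RInA A U) :
    emA f F ∈ RInA A (f '' U) := by
  classical
  refine RInA_ind (P := fun F => emA f F ∈ RInA A (f '' U)) ?_ ?_ ?_ hF
  · simp
  · intro F G hF hG; rw [map_add]; exact add_mem hF hG
  · intro c S hS
    rw [map_smul, emA_ep]
    refine Subalgebra.smul_mem _ (epA_mem_RInA ?_) c
    intro e he
    have := Finsupp.mapDomain_support (Finset.mem_coe.1 he)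
    obtain ⟨e', he', rfl⟩ := Finset.mem_image.1 this
    exact ⟨e', hS (Finset.mem_coe.2 he'), rfl⟩

end Crest.Agent.R165.J4RRAx653
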