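import Crest.Agent.R165.J4Act3_126
import Crest.Agent.R165.J4RRA_653

/-!
# Row 165 (S0250), block J4: items given by bond polynomials and constants (helper126)

* `FSemi N`      : extended ring seminorm, submultiplicative for finite bounds (e.g. `pnorm w`)
* `Dat`          : items `(Y i, a i, Fe i)`: support, constant in `A`, element of the eps-algebra
* `Dat.items`    : the corresponding system `Items` in `RA A E`; `w T = (∏ a) * TH g (∏ Fe)`
* `Dat.w_le`, `Dat.w_lip` : norm of the weights, Lipschitz bound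
* `actN_bound`, `actN_quad`, `actN_lip`, `actN_lip2` : bounds of the activities for norms which
  depend on the support
-/

set_option autoImplicit false
set_option linter.unusedSectionVars false

noncomputable section

open Finset
open scoped ENNReal

namespace Crest.Agent.R165.J4Datx126
open Crest.Agent.R165.KCompx892 Crest.Agent.R165.J4Actx126
open Crest.Agent.R165.J4RRx653 Crest.Agent.R165.J4RRAx653

/-! ### extended ring seminorms -/

/-- extended ring seminorm, submultiplicative for finite bounds -/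
structure FSemi {A : Type*} [CommRing A] [Algebra ℝ A] (N : A → ℝ≥0∞) : Prop where
  zero : N 0 = 0
  one : N 1 ≤ 1
  add : ∀ a b, N (a + b) ≤ N a + N b
  smul : ∀ (r : ℝ) a, N (r • a) ≤ ‖r‖ₑ * N a
  mul : ∀ a b s t, N a ≤ s → N b ≤ t → s ≠ ∞ → t ≠ ∞ → N (a * b) ≤ s * t

section fsemi
variable {A : Type*} [CommRing A] [Algebra ℝ A] {N : A → ℝ≥0∞}

theorem FSemi.nsum (h : FSemi N) : NSum N := ⟨h.zero, h.add⟩

theorem FSemi.sum (h : FSemi N) {κ : Type*} (s : Finset κ) (f : κ → A) :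
    N (∑ i ∈ s, f i) ≤ ∑ i ∈ s, N (f i) := h.nsum.sum s f

theorem FSemi.neg (h : FSemi N) (a : A) : N (-a) ≤ N a := by
  have := h.smul (-1) a
  simpa using this

theorem FSemi.sub (h : FSemi N) (a b : A) : N (a - b) ≤ N a + N b := by
  rw [sub_eq_add_neg]
  exact (h.add _ _).trans (add_le_add le_rfl (h.neg b))

theorem FSemi.prod (h : FSemi N) {κ : Type*} (s : Finset κ) (f : κ → A) (c : κ → ℝ≥0∞)
    (hc : ∀ i ∈ s, c i ≠ ∞) (hf : ∀ i ∈ s, N (f i) ≤ c i) : N (∏ i ∈ s, f i) ≤ ∏ i ∈ s, c i := by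
  classical
  induction s using Finset.induction_on with
  | empty => simpa using h.one
  | insert i s hi ih =>
    rw [Finset.prod_insert hi, Finset.prod_insert hi]
    refine h.mul _ _ _ _ (hf i (Finset.mem_insert_self _ _))
      (ih (fun j hj => hc j (Finset.mem_insert_of_mem hj))
        (fun j hj => hf j (Finset.mem_insert_of_mem hj)))
      (hc i (Finset.mem_insert_self _ _)) ?_
    exact ENNReal.prod_ne_top fun j hj => hc j (Finset.mem_insert_of_mem hj)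

/-- telescoping -/
theorem FSemi.prod_sub (h : FSemi N) {κ : Type*} (s : Finset κ) (f f' : κ → A) (c d : κ → ℝ≥0∞)
    (η : ℝ≥0∞) (hη : η ≠ ∞) (hc : ∀ i ∈ s, c i ≠ ∞) (hd : ∀ i ∈ s, d i ≠ ∞)
    (hf : ∀ i ∈ s, N (f i) ≤ c i) (hf' : ∀ i ∈ s, N (f' i) ≤ c i)
    (hfd : ∀ i ∈ s, N (f i - f' i) ≤ η * d i) :
    N (∏ i ∈ s, f i - ∏ i ∈ s, f' i) ≤ η * ∏ i ∈ s, (c i + d i) := by
  classical
  induction s using Finset.induction_on with
  | empty => simp [h.zero]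
  | insert i s hi ih =>
    have ih' := ih (fun j hj => hc j (Finset.mem_insert_of_mem hj))
        (fun j hj => hd j (Finset.mem_insert_of_mem hj))
        (fun j hj => hf j (Finset.mem_insert_of_mem hj))
        (fun j hj => hf' j (Finset.mem_insert_of_mem hj))
        (fun j hj => hfd j (Finset.mem_insert_of_mem hj))
    have hi' := Finset.mem_insert_self i s
    have hfin : ∏ j ∈ s, (c j + d j) ≠ ∞ := ENNReal.prod_ne_top fun j hj =>
      ENNReal.add_ne_top.2 ⟨hc j (Finset.mem_insert_of_mem hj), hd j (Finset.mem_insert_of_mem hj)⟩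
    have hp : N (∏ j ∈ s, f j) ≤ ∏ j ∈ s, (c j + d j) :=
      h.prod s f _ (fun j hj => ENNReal.add_ne_top.2
        ⟨hc j (Finset.mem_insert_of_mem hj), hd j (Finset.mem_insert_of_mem hj)⟩)
        (fun j hj => (hf j (Finset.mem_insert_of_mem hj)).trans le_self_add)
    rw [Finset.prod_insert hi, Finset.prod_insert hi, Finset.prod_insert hi]
    have e : f i * ∏ j ∈ s, f j - f' i * ∏ j ∈ s, f' j =
        (f i - f' i) * ∏ j ∈ s, f j + f' i * (∏ j ∈ s, f j - ∏ j ∈ s, f' j) := by ring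
    rw [e]
    refine (h.add _ _).trans ?_
    have h1 := h.mul _ _ _ _ (hfd i hi') hp (ENNReal.mul_ne_top hη (hd i hi')) hfin
    have h2 := h.mul _ _ _ _ (hf' i hi') ih' (hc i hi') (ENNReal.mul_ne_top hη hfin)
    refine (add_le_add h1 h2).trans (le_of_eq ?_)
    ring

end fsemi

/-! ### norms of `TH g` -/

section TH
variable {E A : Type*} [CommRing A] [Algebra ℝ A] {N : A → ℝ≥0∞}

theorem le_nmE' {N : RR E → ℝ≥0∞} (h0 : N 0 = 0) (hadd : ∀ F G, N (F + G) ≤ N F + N G)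
    (hsmul : ∀ (r : ℝ) F, N (r • F) ≤ ‖r‖ₑ * N F) {c : E → ℝ≥0∞} {η : ℝ≥0∞}
    (h : ∀ S, N (ep S) ≤ η * wtS c S) (F : RR E) : N F ≤ η * nmE c F := by
  classical
  have hF : F = ∑ S ∈ F.coeff.support, F.coeff S • ep S := by
    conv_lhs => rw [← AddMonoidAlgebra.ofCoeff_coeff F, ← Finsupp.sum_single F.coeff]
    rw [Finsupp.sum, AddMonoidAlgebra.ofCoeff_sum]
    exact Finset.sum_congr rfl fun S _ => single_eq S _
  have hsum : ∀ s : Finset (E →₀ ZMod 2), N (∑ S ∈ s, F.coeff S • ep S) ≤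
      ∑ S ∈ s, N (F.coeff S • ep S) := by
    intro s
    induction s using Finset.induction_on with
    | empty => simp [h0]
    | insert a s ha ih =>
      rw [Finset.sum_insert ha, Finset.sum_insert ha]
      exact (hadd _ _).trans (add_le_add le_rfl ih)
  conv_lhs => rw [hF]
  refine (hsum _).trans ?_
  rw [nmE, Finset.mul_sum]
  refine Finset.sum_le_sum fun S _ => (hsmul _ _).trans ?_
  calc ‖F.coeff S‖ₑ * N (ep S) ≤ ‖F.coeff S‖ₑ * (η * wtS c S) := mul_le_mul_right (h S) _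
    _ = η * (‖F.coeff S‖ₑ * wtS c S) := by ring

theorem TH_zero_outside (g : E → A) {U : Set E} {F : RR E} (hF : F ∈ RIn U) :
    TH g F = TH (fun e => by classical exact if e ∈ U then g e else 0) F := by
  classical
  refine RIn_ind (P := fun F => TH g F = TH (fun e => if e ∈ U then g e else 0) F) ?_ ?_ ?_ hF
  · simp
  · intro F G hF hG; rw [map_add, map_add, hF, hG]
  · intro c S hS
    rw [map_smul, map_smul, TH_ep, TH_ep]
    congr 1
    refine Finset.prod_congr rfl fun e he => ?_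
    rw [if_pos (hS (Finset.mem_coe.2 he))]

theorem TH_le (h : FSemi N) (g : E → A) {U : Set E} {c : E → ℝ≥0∞} (hc : ∀ e, c e ≠ ∞)
    (hg : ∀ e ∈ U, N (g e) ≤ c e) {F : RR E} (hF : F ∈ RIn U) : N (TH g F) ≤ nmE c F := by
  classical
  rw [TH_zero_outside g hF]
  have hg' : ∀ e, N (if e ∈ U then g e else 0) ≤ c e := by
    intro e
    split_ifs with h'
    · exact hg e h'
    · rw [h.zero]; exact zero_le
  refine le_nmE (N := fun F => N (TH (fun e => if e ∈ U then g e else 0) F)) (by simp [h.zero])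
    (fun F G => by rw [map_add]; exact h.add _ _)
    (fun r F => by rw [map_smul]; exact h.smul _ _) ?_ F
  intro S
  rw [TH_ep, wtS]
  exact h.prod _ _ _ (fun e _ => hc e) (fun e _ => hg' e)

theorem TH_sub_le (h : FSemi N) (g g' : E → A) {U : Set E} {c d : E → ℝ≥0∞} {η : ℝ≥0∞}
    (hη : η ≠ ∞) (hc : ∀ e, c e ≠ ∞) (hd : ∀ e, d e ≠ ∞)
    (hg : ∀ e ∈ U, N (g e) ≤ c e) (hg' : ∀ e ∈ U, N (g' e) ≤ c e)
    (hgd : ∀ e ∈ U, N (g e - g' e) ≤ η * d e) {F : RR E} (hF : F ∈ RIn U) :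
    N (TH g F - TH g' F) ≤ η * nmE (fun e => c e + d e) F := by
  classical
  rw [TH_zero_outside g hF, TH_zero_outside g' hF]
  have h1 : ∀ e, N (if e ∈ U then g e else 0) ≤ c e := by
    intro e
    split_ifs with h'
    · exact hg e h'
    · rw [h.zero]; exact zero_le
  have h2 : ∀ e, N (if e ∈ U then g' e else 0) ≤ c e := by
    intro e
    split_ifs with h'
    · exact hg' e h'
    · rw [h.zero]; exact zero_le
  have h3 : ∀ e, N ((if e ∈ U then g e else 0) - (if e ∈ U then g' e else 0)) ≤ η * d e := by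
    intro e
    split_ifs with h'
    · exact hgd e h'
    · rw [sub_zero, h.zero]; exact zero_le
  refine le_nmE' (N := fun F => N (TH (fun e => if e ∈ U then g e else 0) F -
      TH (fun e => if e ∈ U then g' e else 0) F)) (by simp [h.zero])
      (fun F G => by
        rw [map_add, map_add, add_sub_add_comm]; exact h.add _ _)
      (fun r F => by rw [map_smul, map_smul, ← smul_sub]; exact h.smul _ _) (fun S => ?_) F
  rw [TH_ep, TH_ep, wtS]
  exact h.prod_sub _ _ _ _ _ η hη (fun e _ => hc e) (fun e _ => hd e) (fun e _ => h1 e)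
    (fun e _ => h2 e) (fun e _ => h3 e)

end TH

/-! ### data -/

section dat
variable {ι F E A : Type*} [DecidableEq ι] [DecidableEq F] [CommRing A] [Algebra ℝ A]

/-- items given by constants and bond polynomials -/
structure Dat (ι F E A : Type*) [CommRing A] [Algebra ℝ A] where
  /-- faces of an edge -/
  fa : E → Finset F
  /-- image of the bond variables -/
  g : E → A
  /-- supports -/
  Y : ι → Finset F
  /-- constants -/
  a : ι → A
  /-- bond polynomials -/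
  Fe : ι → RR E
  fa_ne : ∀ e, (fa e).Nonempty
  ne : ∀ i, (Y i).Nonempty
  mem : ∀ i, Fe i ∈ RIn {e | fa e ⊆ Y i}

namespace Dat
variable (D : Dat ι F E A)

/-- edges with all faces in `U` -/
def eIn (U : Finset F) : Set E := {e | D.fa e ⊆ U}

omit [DecidableEq ι] [DecidableEq F] in
theorem eIn_mono {U U' : Finset F} (h : U ⊆ U') : D.eIn U ⊆ D.eIn U' := fun _ he => he.trans h

omit [DecidableEq ι] [DecidableEq F] in
theorem eIn_disjoint {U U' : Finset F} (h : Disjoint U U') : Disjoint (D.eIn U) (D.eIn U') := by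
  rw [Set.disjoint_left]
  intro e he he'
  obtain ⟨f, hf⟩ := D.fa_ne e
  exact Finset.disjoint_left.1 h (he hf) (he' hf)

theorem prod_mem (T : Finset ι) : ∏ i ∈ T, D.Fe i ∈ RIn (D.eIn (supp D.Y T)) := by
  refine Subalgebra.prod_mem _ fun i hi => ?_
  refine RIn_mono ?_ (D.mem i)
  exact D.eIn_mono (Finset.subset_biUnion_of_mem D.Y hi)

theorem prod_k (T : Finset ι) : ∏ i ∈ T, (CA (D.a i) * ofR A (D.Fe i) : RA A E) =
    CA (∏ i ∈ T, D.a i) * ofR A (∏ i ∈ T, D.Fe i) := by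
  rw [Finset.prod_mul_distrib, map_prod]
  congr 1
  exact (map_prod (algebraMap A (RA A E)) _ _).symm

/-- the system of items -/
def items : Items ι F (RA A E) A where
  Y := D.Y
  k i := CA (D.a i) * ofR A (D.Fe i)
  Th := (THA D.g).toAddMonoidHom
  ne := D.ne
  one := THA_one _
  mul S T h := by
    have e : (∏ i ∈ S, (CA (D.a i) * ofR A (D.Fe i) : RA A E)) *
        ∏ i ∈ T, (CA (D.a i) * ofR A (D.Fe i) : RA A E) =
        CA ((∏ i ∈ S, D.a i) * ∏ i ∈ T, D.a i) *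
          ofR A ((∏ i ∈ S, D.Fe i) * ∏ i ∈ T, D.Fe i) := by
      rw [prod_k, prod_k, map_mul]
      have : (CA ((∏ i ∈ S, D.a i) * ∏ i ∈ T, D.a i) : RA A E) =
        CA (∏ i ∈ S, D.a i) * CA (∏ i ∈ T, D.a i) := map_mul (algebraMap A (RA A E)) _ _
      rw [this]; ring
    change THA D.g _ = THA D.g _ * THA D.g _
    rw [e, prod_k, prod_k, THA_CA_mul, THA_CA_mul, THA_CA_mul, THA_ofR, THA_ofR, THA_ofR,
      TH_mul D.g (D.eIn_disjoint h) (D.prod_mem S) (D.prod_mem T)]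
    ring

theorem w_eq (T : Finset ι) : D.items.w T = (∏ i ∈ T, D.a i) * TH D.g (∏ i ∈ T, D.Fe i) := by
  change THA D.g (∏ i ∈ T, (CA (D.a i) * ofR A (D.Fe i) : RA A E)) = _
  rw [prod_k, THA_CA_mul, THA_ofR]

theorem Th_k (i : ι) : D.items.Th (D.items.k i) = D.a i * TH D.g (D.Fe i) := by
  change THA D.g (CA (D.a i) * ofR A (D.Fe i) : RA A E) = _
  rw [THA_CA_mul, THA_ofR]

/-- the full product -/
theorem Th_prod [Fintype ι] : D.items.Th (∏ i, (1 + D.items.k i)) =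
    THA D.g (∏ i, (1 + CA (D.a i) * ofR A (D.Fe i))) := rfl

theorem w_le {N : A → ℝ≥0∞} (h : FSemi N) (T : Finset ι) {c : E → ℝ≥0∞} (hc : ∀ e, c e ≠ ∞)
    (hc1 : ∀ e, 1 ≤ c e) (hg : ∀ e ∈ D.eIn (supp D.Y T), N (D.g e) ≤ c e) (α φ : ι → ℝ≥0∞)
    (hα : ∀ i ∈ T, α i ≠ ∞) (hφ : ∀ i ∈ T, φ i ≠ ∞)
    (ha : ∀ i ∈ T, N (D.a i) ≤ α i) (hF : ∀ i ∈ T, nmE c (D.Fe i) ≤ φ i) :
    N (D.items.w T) ≤ ∏ i ∈ T, (α i * φ i) := by
  rw [D.w_eq, Finset.prod_mul_distrib]
  refine h.mul _ _ _ _ (h.prod _ _ _ hα ha) ?_ (ENNReal.prod_ne_top hα) (ENNReal.prod_ne_top hφ)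
  refine (TH_le h D.g hc hg (D.prod_mem T)).trans ((nmE_prod_le hc1 _ _).trans ?_)
  exact Finset.prod_le_prod' hF

theorem w_lip (D' : Dat ι F E A) (hfa : D'.fa = D.fa) (hY : D'.Y = D.Y)
    {N : A → ℝ≥0∞} (h : FSemi N) (T : Finset ι) {c d : E → ℝ≥0∞} {η : ℝ≥0∞} (hη : η ≠ ∞)
    (hc : ∀ e, c e ≠ ∞) (hd : ∀ e, d e ≠ ∞)
    (hc1 : ∀ e, 1 ≤ c e) (hg : ∀ e ∈ D.eIn (supp D.Y T), N (D.g e) ≤ c e)
    (hg' : ∀ e ∈ D.eIn (supp D.Y T), N (D'.g e) ≤ c e)
    (hgd : ∀ e ∈ D.eIn (supp D.Y T), N (D.g e - D'.g e) ≤ η * d e)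
    (α δ φ ψ : ι → ℝ≥0∞)
    (hα : ∀ i ∈ T, α i ≠ ∞) (hδ : ∀ i ∈ T, δ i ≠ ∞) (hφ : ∀ i ∈ T, φ i ≠ ∞)
    (hψ : ∀ i ∈ T, ψ i ≠ ∞)
    (ha : ∀ i ∈ T, N (D.a i) ≤ α i) (ha' : ∀ i ∈ T, N (D'.a i) ≤ α i)
    (had : ∀ i ∈ T, N (D.a i - D'.a i) ≤ η * δ i)
    (hF : ∀ i ∈ T, nmE (fun e => c e + d e) (D.Fe i) ≤ φ i)
    (hF' : ∀ i ∈ T, nmE (fun e => c e + d e) (D'.Fe i) ≤ φ i)
    (hFd : ∀ i ∈ T, nmE (fun e => c e + d e) (D.Fe i - D'.Fe i) ≤ η * ψ i) :
    N (D.items.w T - D'.items.w T) ≤ (3 * η) * ∏ i ∈ T, ((α i + δ i) * (φ i + ψ i)) := by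
  have hcd1 : ∀ e, 1 ≤ c e + d e := fun e => (hc1 e).trans le_self_add
  have hcd : ∀ e, c e + d e ≠ ∞ := fun e => ENNReal.add_ne_top.2 ⟨hc e, hd e⟩
  have hmem' : ∏ i ∈ T, D'.Fe i ∈ RIn (D.eIn (supp D.Y T)) := by
    have := D'.prod_mem T
    unfold eIn at this ⊢
    rwa [hfa, hY] at this
  rw [D.w_eq, D'.w_eq]
  set P := ∏ i ∈ T, D.a i
  set P' := ∏ i ∈ T, D'.a i
  set G := ∏ i ∈ T, D.Fe i
  set G' := ∏ i ∈ T, D'.Fe i
  have e : P * TH D.g G - P' * TH D'.g G' =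
      (P - P') * TH D.g G + P' * (TH D.g (G - G')) + P' * (TH D.g G' - TH D'.g G') := by
    rw [map_sub]; ring
  have hαδ : ∀ i ∈ T, α i + δ i ≠ ∞ := fun i hi => ENNReal.add_ne_top.2 ⟨hα i hi, hδ i hi⟩
  have hφψ : ∀ i ∈ T, φ i + ψ i ≠ ∞ := fun i hi => ENNReal.add_ne_top.2 ⟨hφ i hi, hψ i hi⟩
  set X := ∏ i ∈ T, (α i + δ i) with hX
  set Z := ∏ i ∈ T, (φ i + ψ i) with hZ
  have hXf : X ≠ ∞ := ENNReal.prod_ne_top hαδ
  have hZf : Z ≠ ∞ := ENNReal.prod_ne_top hφψ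
  have hP' : N P' ≤ X := h.prod _ _ _ hαδ fun i hi => (ha' i hi).trans le_self_add
  have hPd : N (P - P') ≤ η * X := h.prod_sub _ _ _ _ _ η hη hα hδ ha ha' had
  have hGn : ∀ (D₀ : ι → RR E), (∀ i ∈ T, nmE (fun e => c e + d e) (D₀ i) ≤ φ i) →
      nmE (fun e => c e + d e) (∏ i ∈ T, D₀ i) ≤ Z := fun D₀ h0 =>
    (nmE_prod_le hcd1 _ _).trans (Finset.prod_le_prod' fun i hi => (h0 i hi).trans le_self_add)
  have hgcd : ∀ e ∈ D.eIn (supp D.Y T), N (D.g e) ≤ c e + d e := fun e he =>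
    (hg e he).trans le_self_add
  have hG : N (TH D.g G) ≤ Z :=
    (TH_le h D.g hcd hgcd (D.prod_mem T)).trans (hGn _ hF)
  have hGd : N (TH D.g (G - G')) ≤ η * Z := by
    refine (TH_le h D.g hcd hgcd (sub_mem (D.prod_mem T) hmem')).trans ?_
    have hfs : FSemi (nmE (fun e => c e + d e) : RR E → ℝ≥0∞) :=
      { zero := nmE_zero _
        one := (nmE_one _).le
        add := nmE_add_le _
        smul := nmE_smul_le _
        mul := fun a b s t hs ht _ _ => (nmE_mul_le hcd1 a b).trans (mul_le_mul' hs ht) }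
    exact hfs.prod_sub _ _ _ _ _ η hη hφ hψ hF hF' hFd
  have hGg : N (TH D.g G' - TH D'.g G') ≤ η * Z :=
    (TH_sub_le h D.g D'.g hη hc hd hg hg' hgd hmem').trans (by gcongr; exact hGn _ hF')
  rw [e, Finset.prod_mul_distrib]
  refine (h.add _ _).trans ?_
  have t1 := h.mul _ _ _ _ hPd hG (ENNReal.mul_ne_top hη hXf) hZf
  have t2 := h.mul _ _ _ _ hP' hGd hXf (ENNReal.mul_ne_top hη hZf)
  have t3 := h.mul _ _ _ _ hP' hGg hXf (ENNReal.mul_ne_top hη hZf)
  refine (add_le_add ((h.add _ _).trans (add_le_add t1 t2)) t3).trans (le_of_eq ?_)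
  ring

end Dat

end dat

/-! ### bounds of the activities, norms depending on the support -/

section bounds
variable {ι F RR' A : Type*} [DecidableEq ι] [DecidableEq F] [CommRing RR'] [CommRing A]

/-- **bound of the activities** -/
theorem actN_bound [Fintype ι] (I : Items ι F RR' A) {N : Finset F → A → ℝ≥0∞}
    (hA : ∀ U, NSum (N U)) (Γ : ℝ≥0∞) (hΓ : 1 ≤ Γ) (a : ι → ℝ≥0∞)
    (ha : ∀ T : Finset ι, N (supp I.Y T) (I.w T) ≤ ∏ i ∈ T, a i)
    (f : F) (𝒮 : Finset (Finset F)) :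
    ∑ U ∈ 𝒮 with f ∈ U, Γ ^ U.card * N U (I.act U) ≤ tot I.Y (aG Γ I.Y a) f := by
  classical
  have := gen_bound I.Y Γ hΓ a (fun T => N (supp I.Y T) (I.w T)) 1
    (fun T => by rw [one_mul]; exact ha T) f 𝒮
  rw [one_mul] at this
  refine le_trans (Finset.sum_le_sum fun U _ => ?_) this
  refine mul_le_mul_right ?_ _
  unfold Items.act
  refine ((hA U).sum _ _).trans (le_of_eq ?_)
  refine Finset.sum_congr ?_ fun T hT => ?_
  · ext; simp
  · rw [(Finset.mem_filter.1 hT).2.2]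

/-- **second order bound of the activities** -/
theorem actN_quad [Fintype ι] (I : Items ι F RR' A) {N : Finset F → A → ℝ≥0∞}
    (hA : ∀ U, NSum (N U)) (Γ : ℝ≥0∞) (hΓ : 1 ≤ Γ) (a : ι → ℝ≥0∞)
    (ha : ∀ T : Finset ι, N (supp I.Y T) (I.w T) ≤ ∏ i ∈ T, a i)
    (f : F) (𝒮 : Finset (Finset F)) :
    ∑ U ∈ 𝒮 with f ∈ U, Γ ^ U.card * N U (I.act U - I.act1 U) ≤ tot2 I.Y (aG Γ I.Y a) f := by
  classical
  have := gen_bound2 I.Y Γ hΓ a (fun T => N (supp I.Y T) (I.w T)) 1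
    (fun T => by rw [one_mul]; exact ha T) f 𝒮
  rw [one_mul] at this
  refine le_trans (Finset.sum_le_sum fun U _ => ?_) this
  refine mul_le_mul_right ?_ _
  rw [I.act_sub_act1]
  refine ((hA U).sum _ _).trans (le_of_eq ?_)
  refine Finset.sum_congr ?_ fun T hT => ?_
  · ext; simp
  · rw [(Finset.mem_filter.1 hT).2.2]

/-- **Lipschitz bound of the activities** -/
theorem actN_lip [Fintype ι] (I I' : Items ι F RR' A) (hY : I'.Y = I.Y)
    {N : Finset F → A → ℝ≥0∞} (hA : ∀ U, NSum (N U))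
    (Γ : ℝ≥0∞) (hΓ : 1 ≤ Γ) (b : ι → ℝ≥0∞) (η : ℝ≥0∞)
    (ha : ∀ T : Finset ι, N (supp I.Y T) (I.w T - I'.w T) ≤ η * ∏ i ∈ T, b i)
    (f : F) (𝒮 : Finset (Finset F)) :
    ∑ U ∈ 𝒮 with f ∈ U, Γ ^ U.card * N U (I.act U - I'.act U) ≤ η * tot I.Y (aG Γ I.Y b) f := by
  classical
  have := gen_bound I.Y Γ hΓ b (fun T => N (supp I.Y T) (I.w T - I'.w T)) η ha f 𝒮
  refine le_trans (Finset.sum_le_sum fun U _ => ?_) this
  refine mul_le_mul_right ?_ _
  unfold Items.act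
  rw [hY, ← Finset.sum_sub_distrib]
  refine ((hA U).sum _ _).trans (le_of_eq ?_)
  refine Finset.sum_congr ?_ fun T hT => ?_
  · ext; simp
  · rw [(Finset.mem_filter.1 hT).2.2]

/-- **second order Lipschitz bound of the activities** -/
theorem actN_lip2 [Fintype ι] (I I' : Items ι F RR' A) (hY : I'.Y = I.Y)
    {N : Finset F → A → ℝ≥0∞} (hA : ∀ U, NSum (N U))
    (Γ : ℝ≥0∞) (hΓ : 1 ≤ Γ) (b : ι → ℝ≥0∞) (η : ℝ≥0∞)
    (ha : ∀ T : Finset ι, N (supp I.Y T) (I.w T - I'.w T) ≤ η * ∏ i ∈ T, b i)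
    (f : F) (𝒮 : Finset (Finset F)) :
    ∑ U ∈ 𝒮 with f ∈ U, Γ ^ U.card * N U ((I.act U - I.act1 U) - (I'.act U - I'.act1 U)) ≤
      η * tot2 I.Y (aG Γ I.Y b) f := by
  classical
  have := gen_bound2 I.Y Γ hΓ b (fun T => N (supp I.Y T) (I.w T - I'.w T)) η ha f 𝒮
  refine le_trans (Finset.sum_le_sum fun U _ => ?_) this
  refine mul_le_mul_right ?_ _
  rw [I.act_sub_act1, I'.act_sub_act1, hY, ← Finset.sum_sub_distrib]
  refine ((hA U).sum _ _).trans (le_of_eq ?_)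
  refine Finset.sum_congr ?_ fun T hT => ?_
  · ext; simp
  · rw [(Finset.mem_filter.1 hT).2.2]

end bounds

end Crest.Agent.R165.J4Datx126
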