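import Crest.Prelude.Def_PerturbedIsing

/-!
# Row 165 (S0250), block J4, section 0: one potential (helper653)

Exact combinatorial identities for the energies:

* `neg_beta_energy` (domain, all three boundary conditions):
  `-β * domainEnergy T b J lam R V s = K * ∑_{e ∈ EE T b} eps_e + ∑_{B ∈ BB T b R'} t(B) σ_B`
* `neg_beta_torus` : the same on the torus, indexed by `(u, A)`, `A` a canonical shape.

`t(B) = β lam V(B) + (β - β₀) J [B nearest neighbour pair]`, `K = β₀ J = log(1+√2)/2`.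
-/

set_option autoImplicit false

noncomputable section

open Finset
open Crest.ProbabilityR.IsingModel

namespace Crest.Agent.R165.J4Defx653

/-- spin product over a finite set of sites -/
def sB (s : ℤ × ℤ → Bool) (B : Finset (ℤ × ℤ)) : ℝ := ∏ x ∈ B, spinSign (s x)

/-- bond variable of the edge `(z, j)`, i.e. of the pair `{z, z + unitVec j}` -/
def epsE (s : ℤ × ℤ → Bool) (e : (ℤ × ℤ) × Fin 2) : ℝ :=
  spinSign (s e.1) * spinSign (s (e.1 + unitVec e.2))

/-- the pair of end points of an edge -/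
def pr (e : (ℤ × ℤ) × Fin 2) : Finset (ℤ × ℤ) := {e.1, e.1 + unitVec e.2}

/-- translate of a finite set -/
def tr (B : Finset (ℤ × ℤ)) (z : ℤ × ℤ) : Finset (ℤ × ℤ) := B.image fun x => x + z

/-- the box `[-R, R]²` -/
def bx (R : ℕ) : Finset (ℤ × ℤ) := Icc (-(R : ℤ)) R ×ˢ Icc (-(R : ℤ)) R

/-- sites at sup-distance at most `R` from `T` -/
def thick (T : Finset (ℤ × ℤ)) (R : ℕ) : Finset (ℤ × ℤ) := T.biUnion fun z => (bx R).image fun x => x + z

/-- the edges of the energy: inside `T` (free), meeting `T` (plus, minus) -/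
def EE (T : Finset (ℤ × ℤ)) (b : BoundaryCondition) : Finset ((ℤ × ℤ) × Fin 2) :=
  ((thick T 1) ×ˢ (univ : Finset (Fin 2))).filter fun e =>
    (b = BoundaryCondition.free → e.1 ∈ T ∧ e.1 + unitVec e.2 ∈ T) ∧
      (e.1 ∈ T ∨ e.1 + unitVec e.2 ∈ T)

/-- the finite sets of the energy: nonempty, inside `T` (free), meeting `T` (plus, minus),
inside the `R`-neighbourhood of `T` -/
def BB (T : Finset (ℤ × ℤ)) (b : BoundaryCondition) (R : ℕ) : Finset (Finset (ℤ × ℤ)) :=
  (thick T R).powerset.filter fun B =>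
    (b = BoundaryCondition.free → B ⊆ T) ∧ (B ∩ T).Nonempty

/-- nearest neighbour pairs -/
def IsNN (B : Finset (ℤ × ℤ)) : Prop := ∃ e : (ℤ × ℤ) × Fin 2, B = pr e

open Classical in
/-- the potential which contains both the perturbation and the shift of the temperature -/
def tpot (J lam β : ℝ) (V : Finset (ℤ × ℤ) → ℝ) (B : Finset (ℤ × ℤ)) : ℝ :=
  β * lam * V B + (β - criticalBeta J) * J * (if IsNN B then 1 else 0)

/-- translation invariance -/
def TrInv (U : Finset (ℤ × ℤ) → ℝ) : Prop := ∀ A z, U (tr A z) = U A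

/-- finite range -/
def Rng (R : ℕ) (U : Finset (ℤ × ℤ) → ℝ) : Prop :=
  ∀ A, U A ≠ 0 → ∀ x ∈ A, ∀ y ∈ A, |x.1 - y.1| ≤ (R : ℤ) ∧ |x.2 - y.2| ≤ (R : ℤ)

/-! ### elementary lemmas -/

theorem spinSign_sq (b : Bool) : spinSign b * spinSign b = 1 := by cases b <;> simp [spinSign]

theorem abs_spinSign (b : Bool) : |spinSign b| = 1 := by cases b <;> simp [spinSign]

theorem mem_bx {R : ℕ} {x : ℤ × ℤ} : x ∈ bx R ↔ |x.1| ≤ (R : ℤ) ∧ |x.2| ≤ (R : ℤ) := by
  simp only [bx, mem_product, mem_Icc, abs_le]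

theorem bx_mono {R R' : ℕ} (h : R ≤ R') : bx R ⊆ bx R' := by
  intro x hx
  rw [mem_bx] at hx ⊢
  have : (R : ℤ) ≤ R' := by exact_mod_cast h
  exact ⟨hx.1.trans this, hx.2.trans this⟩

theorem mem_thick {T : Finset (ℤ × ℤ)} {R : ℕ} {x : ℤ × ℤ} :
    x ∈ thick T R ↔ ∃ z ∈ T, x - z ∈ bx R := by
  simp only [thick, mem_biUnion, mem_image]
  constructor
  · rintro ⟨z, hz, y, hy, rfl⟩
    exact ⟨z, hz, by simpa using hy⟩
  · rintro ⟨z, hz, hx⟩
    exact ⟨z, hz, x - z, hx, by simp⟩

theorem subset_thick {T : Finset (ℤ × ℤ)} {R : ℕ} : T ⊆ thick T R := by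
  intro x hx
  rw [mem_thick]
  exact ⟨x, hx, by simp [mem_bx]⟩

theorem tr_injective (z : ℤ × ℤ) : Function.Injective fun B => tr B z :=
  Finset.image_injective (add_left_injective z)

theorem mem_tr {B : Finset (ℤ × ℤ)} {z x : ℤ × ℤ} : x ∈ tr B z ↔ x - z ∈ B := by
  simp only [tr, mem_image]
  constructor
  · rintro ⟨y, hy, rfl⟩; simpa using hy
  · intro h; exact ⟨x - z, h, by simp⟩

theorem tr_tr (B : Finset (ℤ × ℤ)) (z w : ℤ × ℤ) : tr (tr B z) w = tr B (z + w) := by
  ext x
  simp only [mem_tr]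
  rw [sub_sub, add_comm w z]

@[simp] theorem tr_zero (B : Finset (ℤ × ℤ)) : tr B 0 = B := by
  ext x; simp [mem_tr]

theorem card_tr (B : Finset (ℤ × ℤ)) (z : ℤ × ℤ) : (tr B z).card = B.card :=
  Finset.card_image_of_injective _ (add_left_injective z)

theorem mem_anchored {R : ℕ} {A : Finset (ℤ × ℤ)} :
    A ∈ anchoredShapes R ↔ A ⊆ bx R ∧ (0 : ℤ × ℤ) ∈ A := by
  simp only [anchoredShapes, mem_filter, mem_powerset, bx]
  rfl

theorem sB_tr (s : ℤ × ℤ → Bool) (A : Finset (ℤ × ℤ)) (z : ℤ × ℤ) :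
    sB s (tr A z) = ∏ x ∈ A, spinSign (s (z + x)) := by
  rw [sB, tr, Finset.prod_image (fun x _ y _ h => add_left_injective z h)]
  exact Finset.prod_congr rfl fun x _ => by rw [add_comm]

/-! ### the pair sum -/

theorem mem_EE {T : Finset (ℤ × ℤ)} {b : BoundaryCondition} {e : (ℤ × ℤ) × Fin 2} :
    e ∈ EE T b ↔ (b = BoundaryCondition.free → e.1 ∈ T ∧ e.1 + unitVec e.2 ∈ T) ∧
      (e.1 ∈ T ∨ e.1 + unitVec e.2 ∈ T) := by
  simp only [EE, mem_filter, mem_product, mem_univ, and_true]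
  constructor
  · exact fun h => h.2
  · intro h
    refine ⟨?_, h⟩
    rcases h.2 with h' | h'
    · exact subset_thick h'
    · rw [mem_thick]
      refine ⟨_, h', ?_⟩
      rw [mem_bx]
      have : e.1 - (e.1 + unitVec e.2) = -unitVec e.2 := by abel
      rw [this]
      unfold unitVec
      split_ifs <;> simp

theorem pair_sum (T : Finset (ℤ × ℤ)) (b : BoundaryCondition) (s : ℤ × ℤ → Bool) :
    ((∑ z ∈ T, ∑ j : Fin 2,
          if b = BoundaryCondition.free ∧ z + unitVec j ∉ T then 0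
          else spinSign (s z) * spinSign (s (z + unitVec j))) +
        ∑ z ∈ T, ∑ j : Fin 2,
          if b ≠ BoundaryCondition.free ∧ z - unitVec j ∉ T then
            spinSign (s (z - unitVec j)) * spinSign (s z)
          else 0) = ∑ e ∈ EE T b, epsE s e := by
  have h1 : (∑ z ∈ T, ∑ j : Fin 2,
          if b = BoundaryCondition.free ∧ z + unitVec j ∉ T then 0
          else spinSign (s z) * spinSign (s (z + unitVec j))) =
        ∑ e ∈ (EE T b).filter (fun e => e.1 ∈ T), epsE s e := by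
    rw [← Finset.sum_product']
    symm
    refine Finset.sum_subset_zero_on_sdiff ?_ ?_ ?_
    · intro e he
      rw [mem_filter] at he
      exact mem_product.2 ⟨he.2, mem_univ _⟩
    · intro e he
      rw [mem_sdiff, mem_product, mem_filter, mem_EE] at he
      obtain ⟨⟨h1, -⟩, h2⟩ := he
      rw [if_pos]
      by_contra hc
      apply h2
      refine ⟨⟨fun hb => ⟨h1, ?_⟩, Or.inl h1⟩, h1⟩
      by_contra h3
      exact hc ⟨hb, h3⟩
    · intro e he
      rw [mem_filter, mem_EE] at he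
      rw [if_neg]
      · rfl
      · rintro ⟨hb, h⟩
        exact h (he.1.1 hb).2
  have h2 : (∑ z ∈ T, ∑ j : Fin 2,
          if b ≠ BoundaryCondition.free ∧ z - unitVec j ∉ T then
            spinSign (s (z - unitVec j)) * spinSign (s z)
          else 0) =
        ∑ e ∈ (EE T b).filter (fun e => ¬ e.1 ∈ T), epsE s e := by
    rw [← Finset.sum_product', ← Finset.sum_filter]
    refine Finset.sum_bij' (fun e _ => (e.1 - unitVec e.2, e.2)) (fun e _ => (e.1 + unitVec e.2, e.2))
      ?_ ?_ ?_ ?_ ?_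
    · intro e he
      rw [mem_filter, mem_product] at he
      rw [mem_filter, mem_EE]
      refine ⟨⟨fun hb => absurd hb he.2.1, Or.inr ?_⟩, he.2.2⟩
      simpa using he.1.1
    · intro e he
      rw [mem_filter, mem_EE] at he
      rw [mem_filter, mem_product]
      obtain ⟨⟨ha, hb⟩, hc⟩ := he
      refine ⟨⟨by rcases hb with hb | hb; exact absurd hb hc; exact hb, mem_univ _⟩, ?_, ?_⟩
      · intro hf; exact hc (ha hf).1
      · simpa using hc
    · intro e _; simp
    · intro e _; simp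
    · intro e _
      simp [epsE]
  rw [h1, h2, Finset.sum_filter_add_sum_filter_not]

/-! ### double counting of anchors, domain -/

theorem mem_BB {T : Finset (ℤ × ℤ)} {b : BoundaryCondition} {R : ℕ} {B : Finset (ℤ × ℤ)} :
    B ∈ BB T b R ↔ B ⊆ thick T R ∧ (b = BoundaryCondition.free → B ⊆ T) ∧ (B ∩ T).Nonempty := by
  simp only [BB, mem_filter, mem_powerset]

theorem shape_sum (T : Finset (ℤ × ℤ)) (b : BoundaryCondition) (R R' : ℕ) (hR : R ≤ R')
    (U : Finset (ℤ × ℤ) → ℝ) (hU : TrInv U) (hr : Rng R U) (s : ℤ × ℤ → Bool) :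
    (∑ z ∈ T, ∑ A ∈ anchoredShapes R,
      if b = BoundaryCondition.free then
        (if ∀ x ∈ A, z + x ∈ T then U A / A.card * ∏ x ∈ A, spinSign (s (z + x)) else 0)
      else U A / (A.filter fun x => z + x ∈ T).card * ∏ x ∈ A, spinSign (s (z + x))) =
    ∑ B ∈ BB T b R', U B * sB s B := by
  have key : ∀ z ∈ T, (∑ A ∈ anchoredShapes R,
      if b = BoundaryCondition.free then
        (if ∀ x ∈ A, z + x ∈ T then U A / A.card * ∏ x ∈ A, spinSign (s (z + x)) else 0)
      else U A / (A.filter fun x => z + x ∈ T).card * ∏ x ∈ A, spinSign (s (z + x))) =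
      ∑ B ∈ (BB T b R').filter (fun B => z ∈ B), U B / (B ∩ T).card * sB s B := by
    intro z hz
    have himg : (∑ A ∈ anchoredShapes R,
      if b = BoundaryCondition.free then
        (if ∀ x ∈ A, z + x ∈ T then U A / A.card * ∏ x ∈ A, spinSign (s (z + x)) else 0)
      else U A / (A.filter fun x => z + x ∈ T).card * ∏ x ∈ A, spinSign (s (z + x))) =
      ∑ B ∈ (anchoredShapes R).image (fun A => tr A z),
        (if (b = BoundaryCondition.free → B ⊆ T) then U B / (B ∩ T).card * sB s B else 0) := by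
      rw [Finset.sum_image (fun x _ y _ h => tr_injective z h)]
      refine Finset.sum_congr rfl fun A _ => ?_
      rw [hU, sB_tr]
      have hsub : tr A z ⊆ T ↔ ∀ x ∈ A, z + x ∈ T := by
        constructor
        · intro h x hx
          exact h (mem_tr.2 (by simpa using hx))
        · intro h x hx
          have := h _ (mem_tr.1 hx)
          simpa using this
      by_cases hb : b = BoundaryCondition.free
      · rw [if_pos hb]
        by_cases hA : ∀ x ∈ A, z + x ∈ T
        · rw [if_pos hA, if_pos (fun _ => hsub.2 hA), Finset.inter_eq_left.2 (hsub.2 hA), card_tr]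
        · rw [if_neg hA, if_neg]
          intro h
          exact hA (hsub.1 (h hb))
      · rw [if_neg hb, if_pos (fun h => absurd h hb)]
        congr 3
        have : tr A z ∩ T = tr (A.filter fun x => z + x ∈ T) z := by
          ext x
          simp only [mem_inter, mem_tr, mem_filter]
          constructor
          · rintro ⟨h1, h2⟩; exact ⟨h1, by simpa using h2⟩
          · rintro ⟨h1, h2⟩; exact ⟨h1, by simpa using h2⟩
        rw [this, card_tr]
    rw [himg, ← Finset.sum_filter]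
    refine Finset.sum_subset ?_ ?_
    · intro B hB
      rw [mem_filter, mem_image] at hB
      obtain ⟨⟨A, hA, rfl⟩, hf⟩ := hB
      rw [mem_anchored] at hA
      have hzA : z ∈ tr A z := mem_tr.2 (by simpa using hA.2)
      rw [mem_filter, mem_BB]
      refine ⟨⟨?_, hf, ⟨z, mem_inter.2 ⟨hzA, hz⟩⟩⟩, hzA⟩
      intro x hx
      rw [mem_thick]
      exact ⟨z, hz, bx_mono hR (hA.1 (mem_tr.1 hx))⟩
    · intro B hB hB'
      rw [mem_filter, mem_BB] at hB
      obtain ⟨⟨h1, h2, h3⟩, hzB⟩ := hB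
      by_cases hUB : U B = 0
      · rw [hUB]; simp
      · exfalso
        apply hB'
        rw [mem_filter, mem_image]
        refine ⟨⟨tr B (-z), ?_, ?_⟩, h2⟩
        · rw [mem_anchored]
          constructor
          · intro x hx
            rw [mem_tr] at hx
            have := hr B hUB _ hx z hzB
            rw [mem_bx]
            simpa using this
          · rw [mem_tr]; simpa using hzB
        · rw [tr_tr]; simp
  rw [Finset.sum_congr rfl key]
  rw [Finset.sum_sigma']
  have : ∀ B ∈ BB T b R', U B * sB s B = ∑ z ∈ B ∩ T, U B / (B ∩ T).card * sB s B := by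
    intro B hB
    rw [mem_BB] at hB
    rw [Finset.sum_const, nsmul_eq_mul]
    have h0 : ((B ∩ T).card : ℝ) ≠ 0 := by
      have := hB.2.2.card_pos
      exact_mod_cast this.ne'
    field_simp
  rw [Finset.sum_congr rfl this, Finset.sum_sigma']
  refine Finset.sum_bij' (fun p _ => ⟨p.2, p.1⟩) (fun p _ => ⟨p.2, p.1⟩) ?_ ?_ ?_ ?_ ?_
  · rintro ⟨z, B⟩ h
    simp only [mem_sigma, mem_filter, mem_inter] at h ⊢
    exact ⟨h.2.1, h.2.2, h.1⟩
  · rintro ⟨B, z⟩ h
    simp only [mem_sigma, mem_filter, mem_inter] at h ⊢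
    exact ⟨h.2.2, h.1, h.2.1⟩
  · rintro ⟨z, B⟩ _; rfl
  · rintro ⟨B, z⟩ _; rfl
  · rintro ⟨z, B⟩ _; rfl

/-! ### nearest neighbour pairs -/

theorem unitVec_ne_zero (j : Fin 2) : unitVec j ≠ 0 := by
  unfold unitVec
  split_ifs <;> simp

theorem pr_injective : Function.Injective pr := by
  rintro ⟨z, i⟩ ⟨w, j⟩ h
  simp only [pr] at h
  have h1 : z ∈ ({w, w + unitVec j} : Finset (ℤ × ℤ)) := h ▸ by simp
  have h2 : z + unitVec i ∈ ({w, w + unitVec j} : Finset (ℤ × ℤ)) := h ▸ by simp
  have h3 : w ∈ ({z, z + unitVec i} : Finset (ℤ × ℤ)) := h ▸ by simp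
  have h4 : w + unitVec j ∈ ({z, z + unitVec i} : Finset (ℤ × ℤ)) := h ▸ by simp
  simp only [mem_insert, mem_singleton] at h1 h2 h3 h4
  obtain ⟨z1, z2⟩ := z
  obtain ⟨w1, w2⟩ := w
  fin_cases i <;> fin_cases j <;> simp [unitVec, Prod.ext_iff] at h1 h2 h3 h4 ⊢ <;> omega

theorem sB_pr (s : ℤ × ℤ → Bool) (e : (ℤ × ℤ) × Fin 2) : sB s (pr e) = epsE s e := by
  rw [sB, pr, Finset.prod_pair, epsE]
  intro h
  exact unitVec_ne_zero e.2 (by simpa using h.symm)

theorem pr_mem_BB {T : Finset (ℤ × ℤ)} {b : BoundaryCondition} {R : ℕ} (hR : 1 ≤ R)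
    {e : (ℤ × ℤ) × Fin 2} : pr e ∈ BB T b R ↔ e ∈ EE T b := by
  rw [mem_BB, mem_EE]
  have hbx : unitVec e.2 ∈ bx R ∧ -unitVec e.2 ∈ bx R := by
    have : (1 : ℤ) ≤ R := by exact_mod_cast hR
    rw [mem_bx, mem_bx]
    unfold unitVec
    split_ifs <;> simp <;> omega
  have h0 : (0 : ℤ × ℤ) ∈ bx R := by rw [mem_bx]; simp
  have hsub : pr e ⊆ T ↔ e.1 ∈ T ∧ e.1 + unitVec e.2 ∈ T := by
    simp [pr, Finset.insert_subset_iff]
  have hne : (pr e ∩ T).Nonempty ↔ (e.1 ∈ T ∨ e.1 + unitVec e.2 ∈ T) := by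
    constructor
    · rintro ⟨x, hx⟩
      simp only [pr, mem_inter, mem_insert, mem_singleton] at hx
      rcases hx with ⟨rfl | rfl, h⟩
      · exact Or.inl h
      · exact Or.inr h
    · rintro (h | h)
      · exact ⟨e.1, by simp [pr, h]⟩
      · exact ⟨e.1 + unitVec e.2, by simp [pr, h]⟩
  rw [hsub, hne]
  constructor
  · exact fun h => h.2
  · intro h
    refine ⟨?_, h⟩
    intro x hx
    rw [mem_thick]
    simp only [pr, mem_insert, mem_singleton] at hx
    rcases h.2 with h' | h'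
    · refine ⟨_, h', ?_⟩
      rcases hx with rfl | rfl
      · simpa using h0
      · simpa using hbx.1
    · refine ⟨_, h', ?_⟩
      rcases hx with rfl | rfl
      · simpa using hbx.2
      · simpa using h0

open Classical in
theorem nn_sum (T : Finset (ℤ × ℤ)) (b : BoundaryCondition) (R : ℕ) (hR : 1 ≤ R)
    (s : ℤ × ℤ → Bool) :
    ∑ B ∈ BB T b R, (if IsNN B then (1 : ℝ) else 0) * sB s B = ∑ e ∈ EE T b, epsE s e := by
  have : ∑ e ∈ EE T b, epsE s e = ∑ B ∈ (EE T b).image pr, sB s B := by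
    rw [Finset.sum_image (fun x _ y _ h => pr_injective h)]
    exact Finset.sum_congr rfl fun e _ => (sB_pr s e).symm
  rw [this]
  simp only [ite_mul, one_mul, zero_mul]
  rw [← Finset.sum_filter]
  refine Finset.sum_congr ?_ fun _ _ => rfl
  ext B
  rw [Finset.mem_filter, Finset.mem_image]
  constructor
  · rintro ⟨h, e, rfl⟩
    exact ⟨e, (pr_mem_BB hR).1 h, rfl⟩
  · rintro ⟨e, he, rfl⟩
    exact ⟨(pr_mem_BB hR).2 he, e, rfl⟩

/-- **section 0, domain**: all dependence on `lam` and on `β - β₀` is in one potential. -/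
theorem neg_beta_energy (T : Finset (ℤ × ℤ)) (b : BoundaryCondition) (J lam β : ℝ) (R : ℕ)
    (V : Finset (ℤ × ℤ) → ℝ) (hV : TrInv V) (hr : Rng R V) (s : ℤ × ℤ → Bool) :
    -β * domainEnergy T b J lam R V s =
      (criticalBeta J * J) * ∑ e ∈ EE T b, epsE s e +
        ∑ B ∈ BB T b (max R 1), tpot J lam β V B * sB s B := by
  have h1 : ∑ B ∈ BB T b (max R 1), tpot J lam β V B * sB s B =
      β * lam * ∑ B ∈ BB T b (max R 1), V B * sB s B +
        (β - criticalBeta J) * J * ∑ e ∈ EE T b, epsE s e := by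
    rw [← nn_sum T b (max R 1) (le_max_right _ _) s, Finset.mul_sum, Finset.mul_sum,
      ← Finset.sum_add_distrib]
    refine Finset.sum_congr rfl fun B _ => ?_
    rw [tpot]; ring
  rw [h1, domainEnergy, pair_sum,
    shape_sum T b R (max R 1) (le_max_left _ _) V hV hr s]
  ring

end Crest.Agent.R165.J4Defx653
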