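import Crest.Agent.R165.J4PB_653
import Crest.Agent.R165.J4Can_653
import Crest.Agent.R165.J1a_606

/-!
# Row 165 (S0250), block J4: faces of shapes and edges (helper126)

* `cz`, `fz u`, `ez u` : lattice points / faces / edges of `ℤ²` placed at `u : G × G`
* `faE e`  : the two faces of a bond
* `Yf A`   : the faces touching the bounding box of `A`
* `faE_subset` : bonds inside the bounding box have their faces in `Yf`
* `Yf_tr`, `Yf_rB`, `Yf_fB` : covariance; `card_Yf_le`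
-/

set_option autoImplicit false
set_option linter.unusedSectionVars false
set_option linter.unnecessarySeqFocus false

noncomputable section

open Finset
open Crest.ProbabilityR.IsingModel

namespace Crest.Agent.R165.J4Geox126
open Crest.Agent.R165.J4Defx653 Crest.Agent.R165.J4Pathx653 Crest.Agent.R165.J4RRx653
open Crest.Agent.R165.J1ax606 (HE EG pe qe pe_zero pe_one qe_zero qe_one)

section gen
variable {G : Type*} [CommRing G] [DecidableEq G]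

/-- reduction of a lattice point -/
def cz (G : Type*) [CommRing G] (z : ℤ × ℤ) : G × G := ((z.1 : G), (z.2 : G))

/-- the lattice point `z` placed at `u` -/
def fz (u : G × G) (z : ℤ × ℤ) : G × G := u + cz G z

/-- the bond `e` placed at `u` -/
def ez (u : G × G) (e : Ed) : EG G := (fz u e.1, e.2)

/-- the two faces of a bond -/
def faE (e : EG G) : Finset (G × G) := {(pe e).1, (qe e).1}

theorem faE_nonempty (e : EG G) : (faE e).Nonempty := ⟨_, Finset.mem_insert_self _ _⟩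

theorem cz_add (z w : ℤ × ℤ) : cz G (z + w) = cz G z + cz G w := by
  simp [cz]

theorem cz_sub (z w : ℤ × ℤ) : cz G (z - w) = cz G z - cz G w := by
  simp [cz]

theorem cz_e1 : cz G (1, 0) = ((1 : G), (0 : G)) := by simp [cz]
theorem cz_e2 : cz G (0, 1) = ((0 : G), (1 : G)) := by simp [cz]
@[simp] theorem cz_zero : cz G 0 = 0 := by simp [cz]

theorem fz_sub (u : G × G) (z w : ℤ × ℤ) : fz u (z - w) = fz u z - cz G w := by
  rw [fz, fz, cz_sub]; abel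

theorem fz_add (u : G × G) (z w : ℤ × ℤ) : fz u (z + w) = fz u z + cz G w := by
  rw [fz, fz, cz_add]; abel

@[simp] theorem fz_zero (u : G × G) : fz u 0 = u := by simp [fz]

theorem faE_ez (u : G × G) (e : Ed) : faE (ez u e) = (faE e).image (fz u) := by
  obtain ⟨z, j⟩ := e
  unfold faE ez
  rw [Finset.image_insert, Finset.image_singleton]
  fin_cases j
  · change ({(pe (fz u z, 0)).1, (qe (fz u z, 0)).1} : Finset (G × G)) =
      {fz u (pe (z, 0)).1, fz u (qe (z, 0)).1}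
    rw [pe_zero, qe_zero, pe_zero, qe_zero]
    change ({fz u z, fz u z - (0, 1)} : Finset (G × G)) = {fz u z, fz u (z - (0, 1))}
    rw [fz_sub, cz_e2]
  · change ({(pe (fz u z, 1)).1, (qe (fz u z, 1)).1} : Finset (G × G)) =
      {fz u (pe (z, 1)).1, fz u (qe (z, 1)).1}
    rw [pe_one, qe_one, pe_one, qe_one]
    change ({fz u z - (1, 0), fz u z} : Finset (G × G)) = {fz u (z - (1, 0)), fz u z}
    rw [fz_sub, cz_e1]

end gen

/-! ### faces of shapes -/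

/-- the faces touching the bounding box of `A` -/
def Yf (A : Finset (ℤ × ℤ)) : Finset (ℤ × ℤ) :=
  (A.biUnion fun p => A.biUnion fun q => Icc (p.1 - 1) q.1) ×ˢ
    (A.biUnion fun p => A.biUnion fun q => Icc (p.2 - 1) q.2)

theorem mem_Yf {A : Finset (ℤ × ℤ)} {f : ℤ × ℤ} :
    f ∈ Yf A ↔ (∃ p ∈ A, p.1 - 1 ≤ f.1) ∧ (∃ q ∈ A, f.1 ≤ q.1) ∧ (∃ p ∈ A, p.2 - 1 ≤ f.2) ∧
      (∃ q ∈ A, f.2 ≤ q.2) := by
  unfold Yf
  simp only [mem_product, mem_biUnion, mem_Icc]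
  constructor
  · rintro ⟨⟨p, hp, q, hq, h1, h2⟩, ⟨r, hr, s, hs, h3, h4⟩⟩
    exact ⟨⟨p, hp, h1⟩, ⟨q, hq, h2⟩, ⟨r, hr, h3⟩, ⟨s, hs, h4⟩⟩
  · rintro ⟨⟨p, hp, h1⟩, ⟨q, hq, h2⟩, ⟨r, hr, h3⟩, ⟨s, hs, h4⟩⟩
    exact ⟨⟨p, hp, q, hq, h1, h2⟩, ⟨r, hr, s, hs, h3, h4⟩⟩

theorem subset_Yf (A : Finset (ℤ × ℤ)) : A ⊆ Yf A := fun x hx =>
  mem_Yf.2 ⟨⟨x, hx, by omega⟩, ⟨x, hx, le_rfl⟩, ⟨x, hx, by omega⟩, ⟨x, hx, le_rfl⟩⟩

theorem Yf_nonempty {A : Finset (ℤ × ℤ)} (h : A.Nonempty) : (Yf A).Nonempty := h.mono (subset_Yf A)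

theorem Yf_subset {A : Finset (ℤ × ℤ)} {R : ℕ} (h : A ⊆ bx R) :
    Yf A ⊆ Icc (-(R : ℤ) - 1) R ×ˢ Icc (-(R : ℤ) - 1) R := by
  intro f hf
  rw [mem_Yf] at hf
  obtain ⟨⟨p, hp, h1⟩, ⟨q, hq, h2⟩, ⟨r, hr, h3⟩, ⟨s, hs, h4⟩⟩ := hf
  have hp' := mem_bx.1 (h hp)
  have hq' := mem_bx.1 (h hq)
  have hr' := mem_bx.1 (h hr)
  have hs' := mem_bx.1 (h hs)
  rw [abs_le, abs_le] at hp' hq' hr' hs'
  rw [mem_product, mem_Icc, mem_Icc]
  omega

theorem card_Yf_le {A : Finset (ℤ × ℤ)} {R : ℕ} (h : A ⊆ bx R) : (Yf A).card ≤ (2 * R + 2) ^ 2 := by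
  refine (Finset.card_le_card (Yf_subset h)).trans ?_
  rw [Finset.card_product, Int.card_Icc]
  have : ((R : ℤ) + 1 - (-(R : ℤ) - 1)).toNat = 2 * R + 2 := by omega
  rw [this, pow_two]

/-- bonds inside the bounding box have their faces in `Yf` -/
theorem faE_subset {A : Finset (ℤ × ℤ)} {e : Ed} (h : e ∈ edIn (hull A)) : faE e ⊆ Yf A := by
  obtain ⟨z, j⟩ := e
  obtain ⟨h1, h2⟩ := h
  obtain ⟨⟨a1, ha1, ha1'⟩, ⟨a2, ha2, ha2'⟩, ⟨a3, ha3, ha3'⟩, ⟨a4, ha4, ha4'⟩⟩ := h1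
  dsimp only at ha1' ha2' ha3' ha4'
  intro f hf
  unfold faE at hf
  rw [mem_insert, mem_singleton] at hf
  have key : ∀ f : ℤ × ℤ, z.1 - 1 ≤ f.1 → f.1 ≤ z.1 → z.2 - 1 ≤ f.2 → f.2 ≤ z.2 → f ∈ Yf A := by
    intro f g1 g2 g3 g4
    exact mem_Yf.2 ⟨⟨a1, ha1, by omega⟩, ⟨a2, ha2, by omega⟩, ⟨a3, ha3, by omega⟩,
      ⟨a4, ha4, by omega⟩⟩
  have hj : j = 0 ∨ j = 1 := by
    fin_cases j
    · exact Or.inl rfl
    · exact Or.inr rfl
  rcases hj with rfl | rfl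
  · rw [pe_zero, qe_zero] at hf
    rcases hf with rfl | rfl
    · exact key _ (by omega) le_rfl (by omega) le_rfl
    · refine key _ ?_ ?_ ?_ ?_ <;> simp
  · rw [pe_one, qe_one] at hf
    rcases hf with rfl | rfl
    · refine key _ ?_ ?_ ?_ ?_ <;> simp
    · exact key _ (by omega) le_rfl (by omega) le_rfl

theorem mem_Yf_tr {A : Finset (ℤ × ℤ)} {z f : ℤ × ℤ} : f ∈ Yf (tr A z) ↔ f - z ∈ Yf A := by
  have h1 : ∀ P : ℤ × ℤ → Prop, (∃ p ∈ tr A z, P p) ↔ ∃ p ∈ A, P (p + z) := by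
    intro P
    constructor
    · rintro ⟨p, hp, h⟩
      rw [mem_tr] at hp
      exact ⟨p - z, hp, by simpa using h⟩
    · rintro ⟨p, hp, h⟩
      exact ⟨p + z, mem_tr.2 (by simpa using hp), h⟩
  rw [mem_Yf, mem_Yf, h1, h1, h1, h1]
  refine and_congr ?_ (and_congr ?_ (and_congr ?_ ?_)) <;>
  refine exists_congr fun p => and_congr_right fun _ => ?_ <;>
  simp only [Prod.fst_add, Prod.snd_add, Prod.fst_sub, Prod.snd_sub] <;> omega

theorem Yf_tr (A : Finset (ℤ × ℤ)) (z : ℤ × ℤ) : Yf (tr A z) = (Yf A).image (fun f => f + z) := by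
  ext f
  rw [mem_Yf_tr, mem_image]
  constructor
  · intro h; exact ⟨f - z, h, by simp⟩
  · rintro ⟨g, hg, rfl⟩; simpa using hg

/-- rotation of faces (by a right angle about the origin) -/
def rF (f : ℤ × ℤ) : ℤ × ℤ := (-f.2 - 1, f.1)

/-- reflection of faces in the first axis -/
def gF (f : ℤ × ℤ) : ℤ × ℤ := (f.1, -f.2 - 1)

theorem mem_Yf_rB {A : Finset (ℤ × ℤ)} {f : ℤ × ℤ} : rF f ∈ Yf (rB A) ↔ f ∈ Yf A := by
  have h1 : ∀ P : ℤ × ℤ → Prop, (∃ p ∈ rB A, P p) ↔ ∃ p ∈ A, P (rotate p) := by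
    intro P
    simp only [rB, mem_image]
    constructor
    · rintro ⟨p, ⟨q, hq, rfl⟩, h⟩; exact ⟨q, hq, h⟩
    · rintro ⟨q, hq, h⟩; exact ⟨_, ⟨q, hq, rfl⟩, h⟩
  rw [mem_Yf, mem_Yf, h1, h1, h1, h1]
  unfold rotate rF
  dsimp only
  constructor
  · rintro ⟨⟨p, hp, a1⟩, ⟨q, hq, a2⟩, ⟨r, hr, a3⟩, ⟨s, hs, a4⟩⟩
    exact ⟨⟨r, hr, by omega⟩, ⟨s, hs, by omega⟩, ⟨q, hq, by omega⟩, ⟨p, hp, by omega⟩⟩
  · rintro ⟨⟨p, hp, a1⟩, ⟨q, hq, a2⟩, ⟨r, hr, a3⟩, ⟨s, hs, a4⟩⟩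
    exact ⟨⟨s, hs, by omega⟩, ⟨r, hr, by omega⟩, ⟨p, hp, by omega⟩, ⟨q, hq, by omega⟩⟩

theorem mem_Yf_fB {A : Finset (ℤ × ℤ)} {f : ℤ × ℤ} : gF f ∈ Yf (fB A) ↔ f ∈ Yf A := by
  have h1 : ∀ P : ℤ × ℤ → Prop, (∃ p ∈ fB A, P p) ↔ ∃ p ∈ A, P (reflect p) := by
    intro P
    simp only [fB, mem_image]
    constructor
    · rintro ⟨p, ⟨q, hq, rfl⟩, h⟩; exact ⟨q, hq, h⟩
    · rintro ⟨q, hq, h⟩; exact ⟨_, ⟨q, hq, rfl⟩, h⟩
  rw [mem_Yf, mem_Yf, h1, h1, h1, h1]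
  unfold reflect gF
  dsimp only
  constructor
  · rintro ⟨⟨p, hp, a1⟩, ⟨q, hq, a2⟩, ⟨r, hr, a3⟩, ⟨s, hs, a4⟩⟩
    exact ⟨⟨p, hp, by omega⟩, ⟨q, hq, by omega⟩, ⟨s, hs, by omega⟩, ⟨r, hr, by omega⟩⟩
  · rintro ⟨⟨p, hp, a1⟩, ⟨q, hq, a2⟩, ⟨r, hr, a3⟩, ⟨s, hs, a4⟩⟩
    exact ⟨⟨p, hp, by omega⟩, ⟨q, hq, by omega⟩, ⟨s, hs, by omega⟩, ⟨r, hr, by omega⟩⟩

theorem rF_inj : Function.Injective rF := by
  intro f g h
  unfold rF at h
  rw [Prod.mk.injEq] at h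
  exact Prod.ext h.2 (by omega)

theorem gF_inj : Function.Injective gF := by
  intro f g h
  unfold gF at h
  rw [Prod.mk.injEq] at h
  exact Prod.ext h.1 (by omega)

theorem Yf_rB (A : Finset (ℤ × ℤ)) : Yf (rB A) = (Yf A).image rF := by
  ext f
  rw [mem_image]
  constructor
  · intro h
    have e : rF (f.2, -f.1 - 1) = f := by unfold rF; ext <;> dsimp only <;> omega
    refine ⟨(f.2, -f.1 - 1), ?_, e⟩
    rw [← mem_Yf_rB, e]; exact h
  · rintro ⟨g, hg, rfl⟩; exact mem_Yf_rB.2 hg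

theorem Yf_fB (A : Finset (ℤ × ℤ)) : Yf (fB A) = (Yf A).image gF := by
  ext f
  rw [mem_image]
  constructor
  · intro h
    have e : gF (f.1, -f.2 - 1) = f := by unfold gF; ext <;> dsimp only <;> omega
    refine ⟨(f.1, -f.2 - 1), ?_, e⟩
    rw [← mem_Yf_fB, e]; exact h
  · rintro ⟨g, hg, rfl⟩; exact mem_Yf_fB.2 hg

/-! ### faces of rotated and reflected bonds -/

theorem faE_trEd (z : ℤ × ℤ) (e : Ed) : faE (trEd z e) = (faE e).image (fun f => f + z) := by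
  have h : trEd z e = ez (G := ℤ) z e := by
    unfold trEd ez fz cz
    rw [Prod.mk.injEq]
    refine ⟨?_, rfl⟩
    simp only [Int.cast_id]
    rw [add_comm]
  rw [h, faE_ez]
  congr 1
  funext f
  unfold fz cz
  simp only [Int.cast_id]
  rw [add_comm]

theorem faE_rotEd (e : Ed) : faE (rotEd e) = (faE e).image rF := by
  obtain ⟨⟨x, y⟩, j⟩ := e
  have hj : j = 0 ∨ j = 1 := by
    fin_cases j
    · exact Or.inl rfl
    · exact Or.inr rfl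
  unfold faE
  rw [image_insert, image_singleton]
  rcases hj with rfl | rfl
  · simp [rotEd, rotate, rF, pe, qe]
  · simp [rotEd, rotate, rF, pe, qe]
    exact Finset.pair_comm _ _

theorem faE_refEd (e : Ed) : faE (refEd e) = (faE e).image gF := by
  obtain ⟨⟨x, y⟩, j⟩ := e
  have hj : j = 0 ∨ j = 1 := by
    fin_cases j
    · exact Or.inl rfl
    · exact Or.inr rfl
  unfold faE
  rw [image_insert, image_singleton]
  rcases hj with rfl | rfl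
  · simp [refEd, reflect, gF, pe, qe]
    exact Finset.pair_comm _ _
  · simp [refEd, reflect, gF, pe, qe]

end Crest.Agent.R165.J4Geox126
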