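import Crest.Agent.R165.KComp_892

/-!
# Row 165: K-representation, part 4 : tree-free bounds (helper892)

Items `ι`, relation `r`, nonnegative weights `a : ι → ℝ≥0∞`.

* `tree_free`  : breadth first induction, no trees
* `pinned`, `pinned_two` : sums over connected `T ∋ s`
* `quad_exp`, `quad_bound` : quadratic bound
* `lip_bound` : Lipschitz form (marked item), a corollary of the quadratic bound
-/

set_option autoImplicit false
set_option linter.unusedSectionVars false
set_option linter.unusedVariables false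

open Finset
open scoped ENNReal

namespace Crest.Agent.R165.KBoundx892

open KCompx892

variable {ι : Type*} [DecidableEq ι]

/-- every nonempty part of `T` is joined to the rest of `S ∪ T` -/
def Reach (r : ι → ι → Prop) (S T : Finset ι) : Prop :=
  ∀ A ⊆ T, A.Nonempty → ∃ a ∈ A, ∃ b ∈ (S ∪ T) \ A, r a b

lemma prod_one_add_mono {x : ι → ℝ≥0∞} {S T : Finset ι} (h : S ⊆ T) :
    ∏ t ∈ S, (1 + x t) ≤ ∏ t ∈ T, (1 + x t) := by
  classical
  rw [← Finset.prod_sdiff h]
  calc ∏ t ∈ S, (1 + x t) = 1 * ∏ t ∈ S, (1 + x t) := (one_mul _).symm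
    _ ≤ (∏ t ∈ T \ S, (1 + x t)) * ∏ t ∈ S, (1 + x t) := by
        gcongr
        have : ∀ U : Finset ι, (1 : ℝ≥0∞) ≤ ∏ t ∈ U, (1 + x t) := by
          intro U
          induction U using Finset.induction_on with
          | empty => simp
          | @insert u U hu ih =>
            rw [Finset.prod_insert hu]
            calc (1 : ℝ≥0∞) = 1 * 1 := (one_mul 1).symm
              _ ≤ (1 + x u) * ∏ t ∈ U, (1 + x t) := by
                  gcongr
                  exact le_self_add
        exact this _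

open Classical in
/-- **tree-free bound** -/
theorem tree_free (r : ι → ι → Prop) (a G : ι → ℝ≥0∞) (n : ℕ) :
    ∀ (I S : Finset ι), I.card ≤ n → S ⊆ I →
      (∀ s ∈ I, ∏ t ∈ I.filter (fun t => r t s ∧ t ≠ s), (1 + a t * G t) ≤ G s) →
      ∑ T ∈ (I \ S).powerset.filter (fun T => Reach r S T), ∏ t ∈ T, a t ≤ ∏ s ∈ S, G s := by
  -- the sum for `S = ∅`
  have hempty : ∀ I : Finset ι,
      ∑ T ∈ (I \ ∅).powerset.filter (fun T => Reach r ∅ T), ∏ t ∈ T, a t ≤ 1 := by
    intro I
    have : (I \ ∅).powerset.filter (fun T => Reach r ∅ T) ⊆ {∅} := by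
      intro T hT
      rw [Finset.mem_singleton]
      by_contra hne
      obtain ⟨x, hx, b, hb, _⟩ := (Finset.mem_filter.1 hT).2 T (Finset.Subset.refl _)
        (Finset.nonempty_iff_ne_empty.2 hne)
      simp at hb
    refine (Finset.sum_le_sum_of_subset this).trans ?_
    simp
  induction n with
  | zero =>
    intro I S hI hS _
    have hI0 : I = ∅ := Finset.card_eq_zero.1 (Nat.le_zero.1 hI)
    subst hI0
    have hS0 : S = ∅ := Finset.subset_empty.1 hS
    subst hS0
    simpa using hempty ∅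
  | succ n ih =>
    intro I S hI hS hG
    rcases S.eq_empty_or_nonempty with hS0 | ⟨s, hs⟩
    · subst hS0
      simpa using hempty I
    -- notation
    set S0 := S.erase s with hS0
    set I' := I.erase s with hI'
    set M := (I \ S).filter (fun t => r t s) with hM
    have hsI : s ∈ I := hS hs
    have hI'card : I'.card ≤ n := by
      rw [hI', Finset.card_erase_of_mem hsI]; omega
    have hMI' : M ⊆ I' := by
      intro t ht
      rw [hM, Finset.mem_filter, Finset.mem_sdiff] at ht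
      exact Finset.mem_erase.2 ⟨fun h => ht.1.2 (h ▸ hs), ht.1.1⟩
    have hS0I' : S0 ⊆ I' := by
      intro t ht
      rw [hS0, Finset.mem_erase] at ht
      exact Finset.mem_erase.2 ⟨ht.1, hS ht.2⟩
    have hG' : ∀ u ∈ I', ∏ t ∈ I'.filter (fun t => r t u ∧ t ≠ u), (1 + a t * G t) ≤ G u := by
      intro u hu
      refine le_trans (prod_one_add_mono ?_) (hG u (Finset.mem_of_mem_erase hu))
      intro t ht
      rw [Finset.mem_filter] at ht ⊢
      exact ⟨Finset.mem_of_mem_erase ht.1, ht.2⟩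
    -- the injection
    set 𝒮 : Finset (Σ _ : Finset ι, Finset ι) := M.powerset.sigma
      (fun N => (I' \ (S0 ∪ N)).powerset.filter (fun T => Reach r (S0 ∪ N) T)) with h𝒮
    have hmaps : ∀ T ∈ (I \ S).powerset.filter (fun T => Reach r S T),
        (⟨T.filter (fun t => r t s), T.filter (fun t => ¬ r t s)⟩ : Σ _ : Finset ι, Finset ι)
          ∈ 𝒮 := by
      intro T hT
      rw [Finset.mem_filter, Finset.mem_powerset] at hT
      obtain ⟨hTI, hR⟩ := hT
      rw [h𝒮, Finset.mem_sigma, Finset.mem_powerset, Finset.mem_filter, Finset.mem_powerset]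
      dsimp only
      refine ⟨?_, ?_, ?_⟩
      · intro t ht
        rw [Finset.mem_filter] at ht
        rw [hM, Finset.mem_filter]
        exact ⟨hTI ht.1, ht.2⟩
      · intro t ht
        rw [Finset.mem_filter] at ht
        have h1 := Finset.mem_sdiff.1 (hTI ht.1)
        rw [Finset.mem_sdiff, Finset.mem_union, hI', Finset.mem_erase]
        refine ⟨⟨fun h => h1.2 (h ▸ hs), h1.1⟩, ?_⟩
        rintro (h | h)
        · exact h1.2 (Finset.mem_of_mem_erase h)
        · exact ht.2 (Finset.mem_filter.1 h).2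
      · intro A hA hne
        obtain ⟨x, hx, b, hb, hxb⟩ := hR A (hA.trans (Finset.filter_subset _ _)) hne
        have hbs : b ≠ s := by
          rintro rfl
          exact (Finset.mem_filter.1 (hA hx)).2 hxb
        refine ⟨x, hx, b, ?_, hxb⟩
        rw [Finset.mem_sdiff, Finset.mem_union] at hb
        rw [Finset.mem_sdiff, Finset.mem_union, Finset.mem_union]
        refine ⟨?_, hb.2⟩
        rcases hb.1 with h | h
        · exact Or.inl (Or.inl (Finset.mem_erase.2 ⟨hbs, h⟩))
        · by_cases hr : r b s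
          · exact Or.inl (Or.inr (Finset.mem_filter.2 ⟨h, hr⟩))
          · exact Or.inr (Finset.mem_filter.2 ⟨h, hr⟩)
    have hinj : Set.InjOn (fun T : Finset ι =>
        (⟨T.filter (fun t => r t s), T.filter (fun t => ¬ r t s)⟩ : Σ _ : Finset ι, Finset ι))
        (↑((I \ S).powerset.filter (fun T => Reach r S T)) : Set (Finset ι)) := by
      intro T _ T' _ h
      dsimp only at h
      rw [Sigma.mk.injEq] at h
      obtain ⟨h1, h2⟩ := h
      have h2' := eq_of_heq h2
      rw [← Finset.filter_union_filter_not_eq (fun t => r t s) T, h1, h2',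
        Finset.filter_union_filter_not_eq]
    calc ∑ T ∈ (I \ S).powerset.filter (fun T => Reach r S T), ∏ t ∈ T, a t
        = ∑ T ∈ (I \ S).powerset.filter (fun T => Reach r S T),
            (fun p : Σ _ : Finset ι, Finset ι => (∏ t ∈ p.1, a t) * ∏ t ∈ p.2, a t)
              ⟨T.filter (fun t => r t s), T.filter (fun t => ¬ r t s)⟩ := by
          refine Finset.sum_congr rfl fun T _ => ?_
          exact (Finset.prod_filter_mul_prod_filter_not T (fun t => r t s) a).symm
      _ = ∑ p ∈ ((I \ S).powerset.filter (fun T => Reach r S T)).image (fun T : Finset ι =>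
            (⟨T.filter (fun t => r t s), T.filter (fun t => ¬ r t s)⟩ :
              Σ _ : Finset ι, Finset ι)), ((∏ t ∈ p.1, a t) * ∏ t ∈ p.2, a t) := by
          rw [Finset.sum_image hinj]
      _ ≤ ∑ p ∈ 𝒮, ((∏ t ∈ p.1, a t) * ∏ t ∈ p.2, a t) := by
          refine Finset.sum_le_sum_of_subset ?_
          intro p hp
          obtain ⟨T, hT, rfl⟩ := Finset.mem_image.1 hp
          exact hmaps T hT
      _ = ∑ N ∈ M.powerset, (∏ t ∈ N, a t) *
            ∑ T ∈ (I' \ (S0 ∪ N)).powerset.filter (fun T => Reach r (S0 ∪ N) T),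
              ∏ t ∈ T, a t := by
          rw [h𝒮, Finset.sum_sigma]
          refine Finset.sum_congr rfl fun N _ => ?_
          rw [Finset.mul_sum]
      _ ≤ ∑ N ∈ M.powerset, (∏ t ∈ N, a t) * ∏ u ∈ S0 ∪ N, G u := by
          refine Finset.sum_le_sum fun N hN => ?_
          gcongr
          refine ih I' (S0 ∪ N) hI'card ?_ hG'
          exact Finset.union_subset hS0I' ((Finset.mem_powerset.1 hN).trans hMI')
      _ = ∑ N ∈ M.powerset, (∏ u ∈ S0, G u) * ∏ t ∈ N, (a t * G t) := by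
          refine Finset.sum_congr rfl fun N hN => ?_
          rw [Finset.prod_union, Finset.prod_mul_distrib]
          · ring
          · rw [Finset.disjoint_left]
            intro t ht htN
            have := Finset.mem_powerset.1 hN htN
            rw [hM, Finset.mem_filter, Finset.mem_sdiff] at this
            exact this.1.2 (Finset.mem_of_mem_erase ht)
      _ = (∏ u ∈ S0, G u) * ∏ t ∈ M, (1 + a t * G t) := by
          rw [← Finset.mul_sum, Finset.prod_one_add]
      _ ≤ (∏ u ∈ S0, G u) * G s := by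
          gcongr
          refine le_trans (prod_one_add_mono ?_) (hG s hsI)
          intro t ht
          rw [hM, Finset.mem_filter, Finset.mem_sdiff] at ht
          rw [Finset.mem_filter]
          exact ⟨ht.1.1, ht.2, fun h => ht.1.2 (h ▸ hs)⟩
      _ = ∏ s ∈ S, G s := by
          rw [hS0, Finset.prod_erase_mul _ _ hs]

lemma reach_of_conn {r : ι → ι → Prop} {T : Finset ι} {s : ι} (h : Conn r T) (hs : s ∈ T) :
    Reach r {s} (T.erase s) := by
  intro A hA hne
  by_contra hcon
  push Not at hcon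
  have hAT : A ⊆ T := hA.trans (Finset.erase_subset _ _)
  have := h.2 A hAT hne (fun a ha b hb hr => by
    refine hcon a ha b ?_ hr
    rw [Finset.mem_sdiff] at hb ⊢
    refine ⟨?_, hb.2⟩
    rw [Finset.mem_union, Finset.mem_singleton, Finset.mem_erase]
    by_cases h' : b = s
    · exact Or.inl h'
    · exact Or.inr ⟨h', hb.1⟩)
  subst this
  exact absurd rfl (Finset.mem_erase.1 (hA hs)).1

open Classical in
/-- sums over connected sets containing `s` -/
theorem pinned (r : ι → ι → Prop) (a G : ι → ℝ≥0∞) (I : Finset ι)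
    (hG : ∀ s ∈ I, ∏ t ∈ I.filter (fun t => r t s ∧ t ≠ s), (1 + a t * G t) ≤ G s)
    {s : ι} (hs : s ∈ I) :
    ∑ T ∈ I.powerset.filter (fun T => Conn r T ∧ s ∈ T), ∏ t ∈ T.erase s, a t ≤ G s := by
  have h := tree_free r a G I.card I {s} le_rfl (Finset.singleton_subset_iff.2 hs) hG
  rw [Finset.prod_singleton] at h
  refine le_trans ?_ h
  have hinj : Set.InjOn (fun T : Finset ι => T.erase s)
      (↑(I.powerset.filter (fun T => Conn r T ∧ s ∈ T)) : Set (Finset ι)) := by
    intro T hT T' hT' h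
    rw [Finset.mem_coe, Finset.mem_filter] at hT hT'
    dsimp only at h
    rw [← Finset.insert_erase hT.2.2, h, Finset.insert_erase hT'.2.2]
  rw [← Finset.sum_image (f := fun T => ∏ t ∈ T, a t) hinj]
  refine Finset.sum_le_sum_of_subset ?_
  intro T hT
  obtain ⟨T', hT', rfl⟩ := Finset.mem_image.1 hT
  rw [Finset.mem_filter, Finset.mem_powerset] at hT' ⊢
  refine ⟨?_, reach_of_conn hT'.2.1 hT'.2.2⟩
  intro t ht
  rw [Finset.mem_erase] at ht
  exact Finset.mem_sdiff.2 ⟨hT'.1 ht.2, by simpa using ht.1⟩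

open Classical in
/-- at least two items -/
theorem pinned_two (r : ι → ι → Prop) (a G : ι → ℝ≥0∞) (I : Finset ι)
    (hG : ∀ s ∈ I, ∏ t ∈ I.filter (fun t => r t s ∧ t ≠ s), (1 + a t * G t) ≤ G s)
    {s : ι} (hs : s ∈ I) :
    ∑ T ∈ I.powerset.filter (fun T => Conn r T ∧ s ∈ T ∧ 2 ≤ T.card), ∏ t ∈ T.erase s, a t
      ≤ G s - 1 := by
  have h := pinned r a G I hG hs
  refine ENNReal.le_sub_of_add_le_right ENNReal.one_ne_top (le_trans (le_of_eq ?_) h)
  have hsing : Conn r {s} := by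
    refine ⟨Finset.singleton_nonempty s, fun A hA hne _ => ?_⟩
    rcases Finset.subset_singleton_iff.1 hA with h | h
    · exact absurd h hne.ne_empty
    · exact h
  have hsplit : I.powerset.filter (fun T => Conn r T ∧ s ∈ T)
      = insert {s} (I.powerset.filter (fun T => Conn r T ∧ s ∈ T ∧ 2 ≤ T.card)) := by
    ext T
    rw [Finset.mem_insert, Finset.mem_filter, Finset.mem_filter, Finset.mem_powerset]
    constructor
    · rintro ⟨h1, h2, h3⟩
      by_cases hc : 2 ≤ T.card
      · exact Or.inr ⟨h1, h2, h3, hc⟩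
      · left
        have hc1 : T.card = 1 := by
          have := Finset.card_pos.2 h2.1
          omega
        obtain ⟨t, rfl⟩ := Finset.card_eq_one.1 hc1
        rw [Finset.mem_singleton] at h3
        rw [h3]
    · rintro (h | ⟨h1, h2, h3, _⟩)
      · subst h
        exact ⟨Finset.singleton_subset_iff.2 hs, hsing, Finset.mem_singleton_self s⟩
      · exact ⟨h1, h2, h3⟩
  rw [hsplit, Finset.sum_insert, add_comm]
  · simp
  · intro h
    have := (Finset.mem_filter.1 h).2.2.2
    simp at this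

open Classical in
/-- sums over the connected sets with at least two items which meet `J` -/
theorem quad0 (r : ι → ι → Prop) (a G : ι → ℝ≥0∞) (I J : Finset ι)
    (hG : ∀ s ∈ I, ∏ t ∈ I.filter (fun t => r t s ∧ t ≠ s), (1 + a t * G t) ≤ G s)
    (hJ : J ⊆ I) :
    ∑ T ∈ I.powerset.filter (fun T => Conn r T ∧ 2 ≤ T.card ∧ (T ∩ J).Nonempty), ∏ t ∈ T, a t
      ≤ ∑ s ∈ J, a s * (G s - 1) := by
  calc ∑ T ∈ I.powerset.filter (fun T => Conn r T ∧ 2 ≤ T.card ∧ (T ∩ J).Nonempty), ∏ t ∈ T, a t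
      ≤ ∑ T ∈ I.powerset.filter (fun T => Conn r T ∧ 2 ≤ T.card ∧ (T ∩ J).Nonempty),
          ∑ s ∈ J, if s ∈ T then ∏ t ∈ T, a t else 0 := by
        refine Finset.sum_le_sum fun T hT => ?_
        obtain ⟨s, hs⟩ := (Finset.mem_filter.1 hT).2.2.2
        rw [Finset.mem_inter] at hs
        calc ∏ t ∈ T, a t = if s ∈ T then ∏ t ∈ T, a t else 0 := (if_pos hs.1).symm
          _ ≤ _ := Finset.single_le_sum (f := fun s => if s ∈ T then ∏ t ∈ T, a t else 0)
              (fun _ _ => zero_le) hs.2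
    _ = ∑ s ∈ J, ∑ T ∈ I.powerset.filter (fun T => Conn r T ∧ 2 ≤ T.card ∧ (T ∩ J).Nonempty),
          if s ∈ T then ∏ t ∈ T, a t else 0 := Finset.sum_comm
    _ ≤ ∑ s ∈ J, a s * (G s - 1) := by
        refine Finset.sum_le_sum fun s hs => ?_
        refine le_trans ?_ (mul_le_mul_right (pinned_two r a G I hG (hJ hs)) (a s))
        rw [← Finset.sum_filter, Finset.mul_sum]
        refine le_trans (Finset.sum_le_sum_of_subset (t := I.powerset.filter
          (fun T => Conn r T ∧ s ∈ T ∧ 2 ≤ T.card)) ?_) (Finset.sum_le_sum fun T hT => ?_)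
        · intro T hT
          rw [Finset.mem_filter, Finset.mem_filter] at hT
          rw [Finset.mem_filter]
          exact ⟨hT.1.1, hT.1.2.1, hT.2, hT.1.2.2.1⟩
        · rw [Finset.mul_prod_erase _ _ (Finset.mem_filter.1 hT).2.2.1]

lemma sum_biUnion_le {X : Type*} (Y : Finset X) (f : X → Finset ι) (g : ι → ℝ≥0∞) :
    ∑ t ∈ Y.biUnion f, g t ≤ ∑ y ∈ Y, ∑ t ∈ f y, g t := by
  classical
  induction Y using Finset.induction_on with
  | empty => simp
  | @insert y Y hy ih =>
    rw [Finset.biUnion_insert, Finset.sum_insert hy]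
    calc ∑ t ∈ f y ∪ Y.biUnion f, g t
        ≤ ∑ t ∈ f y ∪ Y.biUnion f, g t + ∑ t ∈ f y ∩ Y.biUnion f, g t := le_self_add
      _ = ∑ t ∈ f y, g t + ∑ t ∈ Y.biUnion f, g t := Finset.sum_union_inter
      _ ≤ _ := by gcongr

/-! ### exponential weights -/

lemma prod_one_add_le_exp (S : Finset ι) (x : ι → ℝ≥0∞) {c : ℝ} (hc : 0 ≤ c)
    (h : ∑ t ∈ S, x t ≤ ENNReal.ofReal c) :
    ∏ t ∈ S, (1 + x t) ≤ ENNReal.ofReal (Real.exp c) := by
  classical
  have hfin : ∀ t ∈ S, x t ≠ ∞ := by
    intro t ht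
    refine ne_top_of_le_ne_top ENNReal.ofReal_ne_top (le_trans ?_ h)
    exact Finset.single_le_sum (f := x) (fun _ _ => zero_le) ht
  have h1 : ∏ t ∈ S, (1 + x t) = ENNReal.ofReal (∏ t ∈ S, (1 + (x t).toReal)) := by
    rw [ENNReal.ofReal_prod_of_nonneg (fun t _ => by positivity)]
    refine Finset.prod_congr rfl fun t ht => ?_
    rw [ENNReal.ofReal_add zero_le_one ENNReal.toReal_nonneg, ENNReal.ofReal_one,
      ENNReal.ofReal_toReal (hfin t ht)]
  rw [h1]
  refine ENNReal.ofReal_le_ofReal ?_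
  have h2 : ∏ t ∈ S, (1 + (x t).toReal) ≤ Real.exp (∑ t ∈ S, (x t).toReal) := by
    rw [Real.exp_sum]
    refine Finset.prod_le_prod (fun t _ => by positivity) fun t _ => ?_
    rw [add_comm]
    exact Real.add_one_le_exp _
  refine h2.trans (Real.exp_le_exp.2 ?_)
  rw [← ENNReal.toReal_sum hfin]
  exact ENNReal.toReal_le_of_le_ofReal hc h

open Classical in
/-- exponential form of `quad0` -/
theorem quad_exp (r : ι → ι → Prop) (a : ι → ℝ≥0∞) (g : ι → ℝ) (hg : ∀ t, 0 ≤ g t)
    (I J : Finset ι)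
    (h : ∀ s ∈ I, ∑ t ∈ I.filter (fun t => r t s ∧ t ≠ s), a t * ENNReal.ofReal (Real.exp (g t))
      ≤ ENNReal.ofReal (g s))
    (hJ : J ⊆ I) :
    ∑ T ∈ I.powerset.filter (fun T => Conn r T ∧ 2 ≤ T.card ∧ (T ∩ J).Nonempty), ∏ t ∈ T, a t
      ≤ ∑ s ∈ J, a s * ENNReal.ofReal (Real.exp (g s) - 1) := by
  have := quad0 r a (fun t => ENNReal.ofReal (Real.exp (g t))) I J
    (fun s hs => prod_one_add_le_exp _ _ (hg s) (h s hs)) hJ
  refine this.trans (Finset.sum_le_sum fun s _ => ?_)
  rw [ENNReal.ofReal_sub _ zero_le_one, ENNReal.ofReal_one]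

lemma exp_sub_one_le {δ σ : ℝ} (hδ : 0 ≤ δ) (hδ1 : δ ≤ 1) (hσ : 0 ≤ σ) :
    Real.exp (δ * σ) - 1 ≤ δ * Real.exp (2 * σ) := by
  have h1 : Real.exp (δ * σ) - 1 ≤ δ * σ * Real.exp (δ * σ) := by
    have h := Real.add_one_le_exp (-(δ * σ))
    have he := Real.exp_pos (δ * σ)
    have h2 : Real.exp (-(δ * σ)) * Real.exp (δ * σ) = 1 := by
      rw [← Real.exp_add]; simp
    nlinarith
  have h3 : Real.exp (δ * σ) ≤ Real.exp σ := Real.exp_le_exp.2 (by nlinarith)
  have h4 : σ ≤ Real.exp σ := by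
    have := Real.add_one_le_exp σ; linarith
  have h5 : Real.exp (2 * σ) = Real.exp σ * Real.exp σ := by
    rw [← Real.exp_add]; ring_nf
  rw [h5]
  have h6 : σ * Real.exp (δ * σ) ≤ Real.exp σ * Real.exp σ :=
    mul_le_mul h4 h3 (Real.exp_pos _).le (Real.exp_pos _).le
  nlinarith

open Classical in
/-- **quadratic bound in net form** -/
theorem quad_bound {X : Type*} (near : X → ι → Prop) (r : ι → ι → Prop) (a : ι → ℝ≥0∞)
    (σ : ι → ℝ) (hσ : ∀ t, 0 ≤ σ t) (I J : Finset ι) {C N : ℝ} (hC : 0 ≤ C) (hN0 : 0 ≤ N)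
    (hnet : ∀ s ∈ I, ∃ Y : Finset X, (Y.card : ℝ) ≤ C * σ s ∧
      ∀ t ∈ I, r t s → ∃ y ∈ Y, near y t)
    (hN : ∀ y, ∑ t ∈ I.filter (near y), a t * ENNReal.ofReal (Real.exp (2 * σ t))
      ≤ ENNReal.ofReal N)
    (hCN : C * N ≤ 1) (x : X) (hJ : J ⊆ I) (hJx : ∀ t ∈ J, near x t) :
    ∑ T ∈ I.powerset.filter (fun T => Conn r T ∧ 2 ≤ T.card ∧ (T ∩ J).Nonempty), ∏ t ∈ T, a t
      ≤ ENNReal.ofReal (C * N * N) := by
  set δ := C * N with hδ
  have hδ0 : 0 ≤ δ := mul_nonneg hC hN0
  have hmain := quad_exp r a (fun t => δ * σ t) (fun t => mul_nonneg hδ0 (hσ t)) I J ?_ hJ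
  · refine hmain.trans ?_
    calc ∑ s ∈ J, a s * ENNReal.ofReal (Real.exp (δ * σ s) - 1)
        ≤ ∑ s ∈ J, ENNReal.ofReal δ * (a s * ENNReal.ofReal (Real.exp (2 * σ s))) := by
          refine Finset.sum_le_sum fun s _ => ?_
          calc a s * ENNReal.ofReal (Real.exp (δ * σ s) - 1)
              ≤ a s * ENNReal.ofReal (δ * Real.exp (2 * σ s)) := by
                gcongr
                exact exp_sub_one_le hδ0 hCN (hσ s)
            _ = ENNReal.ofReal δ * (a s * ENNReal.ofReal (Real.exp (2 * σ s))) := by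
                rw [ENNReal.ofReal_mul hδ0]; ring
      _ = ENNReal.ofReal δ * ∑ s ∈ J, (a s * ENNReal.ofReal (Real.exp (2 * σ s))) := by
          rw [Finset.mul_sum]
      _ ≤ ENNReal.ofReal δ * ENNReal.ofReal N := by
          gcongr
          refine le_trans (Finset.sum_le_sum_of_subset ?_) (hN x)
          intro t ht
          exact Finset.mem_filter.2 ⟨hJ ht, hJx t ht⟩
      _ = ENNReal.ofReal (δ * N) := (ENNReal.ofReal_mul hδ0).symm
  · intro s hs
    obtain ⟨Y, hY, hYn⟩ := hnet s hs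
    calc ∑ t ∈ I.filter (fun t => r t s ∧ t ≠ s), a t * ENNReal.ofReal (Real.exp (δ * σ t))
        ≤ ∑ t ∈ I.filter (fun t => r t s ∧ t ≠ s), a t * ENNReal.ofReal (Real.exp (2 * σ t)) := by
          refine Finset.sum_le_sum fun t _ => ?_
          refine mul_le_mul_right (ENNReal.ofReal_le_ofReal (Real.exp_le_exp.2 ?_)) _
          exact mul_le_mul_of_nonneg_right (le_trans hCN (by norm_num)) (hσ t)
      _ ≤ ∑ t ∈ Y.biUnion (fun y => I.filter (near y)),
            a t * ENNReal.ofReal (Real.exp (2 * σ t)) := by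
          refine Finset.sum_le_sum_of_subset ?_
          intro t ht
          rw [Finset.mem_filter] at ht
          obtain ⟨y, hy, hyt⟩ := hYn t ht.1 ht.2.1
          exact Finset.mem_biUnion.2 ⟨y, hy, Finset.mem_filter.2 ⟨ht.1, hyt⟩⟩
      _ ≤ ∑ y ∈ Y, ∑ t ∈ I.filter (near y), a t * ENNReal.ofReal (Real.exp (2 * σ t)) :=
          sum_biUnion_le _ _ _
      _ ≤ ∑ y ∈ Y, ENNReal.ofReal N := Finset.sum_le_sum fun y _ => hN y
      _ = (Y.card : ℝ≥0∞) * ENNReal.ofReal N := by
          rw [Finset.sum_const, nsmul_eq_mul]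
      _ = ENNReal.ofReal ((Y.card : ℝ) * N) := by
          rw [ENNReal.ofReal_mul (Nat.cast_nonneg _), ENNReal.ofReal_natCast]
      _ ≤ ENNReal.ofReal (δ * σ s) := by
          refine ENNReal.ofReal_le_ofReal ?_
          calc (Y.card : ℝ) * N ≤ C * σ s * N := mul_le_mul_of_nonneg_right hY hN0
            _ = δ * σ s := by rw [hδ]; ring

lemma marked_le_prod (T : Finset ι) (a d : ι → ℝ≥0∞) (ε : ℝ≥0∞) :
    ε * ∑ u ∈ T, d u * ∏ t ∈ T.erase u, a t ≤ ∏ t ∈ T, (a t + ε * d t) := by
  classical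
  induction T using Finset.induction_on with
  | empty => simp
  | @insert v T hv ih =>
    rw [Finset.prod_insert hv, Finset.sum_insert hv, Finset.erase_insert hv]
    have h1 : ∏ t ∈ T, a t ≤ ∏ t ∈ T, (a t + ε * d t) :=
      Finset.prod_le_prod' fun t _ => le_self_add
    have h2 : ∑ u ∈ T, d u * ∏ t ∈ (insert v T).erase u, a t
        = a v * ∑ u ∈ T, d u * ∏ t ∈ T.erase u, a t := by
      rw [Finset.mul_sum]
      refine Finset.sum_congr rfl fun u hu => ?_
      have huv : u ≠ v := fun h => hv (h ▸ hu)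
      rw [Finset.erase_insert_of_ne (Ne.symm huv), Finset.prod_insert]
      · ring
      · intro h; exact hv (Finset.mem_of_mem_erase h)
    rw [h2, mul_add, add_mul]
    calc ε * (d v * ∏ t ∈ T, a t) + ε * (a v * ∑ u ∈ T, d u * ∏ t ∈ T.erase u, a t)
        = (ε * d v) * (∏ t ∈ T, a t) + a v * (ε * ∑ u ∈ T, d u * ∏ t ∈ T.erase u, a t) := by ring
      _ ≤ (ε * d v) * (∏ t ∈ T, (a t + ε * d t)) + a v * ∏ t ∈ T, (a t + ε * d t) := by
          gcongr
      _ = a v * ∏ t ∈ T, (a t + ε * d t) + (ε * d v) * ∏ t ∈ T, (a t + ε * d t) := add_comm _ _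

open Classical in
/-- **Lipschitz bound (marked item)** -/
theorem lip_bound {X : Type*} (near : X → ι → Prop) (r : ι → ι → Prop) (a d : ι → ℝ≥0∞)
    (σ : ι → ℝ) (hσ : ∀ t, 0 ≤ σ t) (I J : Finset ι) {C N D : ℝ} (hC : 0 ≤ C) (hN0 : 0 < N)
    (hD0 : 0 < D)
    (hnet : ∀ s ∈ I, ∃ Y : Finset X, (Y.card : ℝ) ≤ C * σ s ∧
      ∀ t ∈ I, r t s → ∃ y ∈ Y, near y t)
    (hN : ∀ y, ∑ t ∈ I.filter (near y), a t * ENNReal.ofReal (Real.exp (2 * σ t))
      ≤ ENNReal.ofReal N)
    (hD : ∀ y, ∑ t ∈ I.filter (near y), d t * ENNReal.ofReal (Real.exp (2 * σ t))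
      ≤ ENNReal.ofReal D)
    (hCN : 2 * C * N ≤ 1) (x : X) (hJ : J ⊆ I) (hJx : ∀ t ∈ J, near x t) :
    ∑ T ∈ I.powerset.filter (fun T => Conn r T ∧ 2 ≤ T.card ∧ (T ∩ J).Nonempty),
        ∑ u ∈ T, d u * ∏ t ∈ T.erase u, a t
      ≤ ENNReal.ofReal (4 * C * N * D) := by
  set ε : ℝ≥0∞ := ENNReal.ofReal (N / D) with hε
  have hε0 : ε ≠ 0 := by
    rw [hε, Ne, ENNReal.ofReal_eq_zero, not_le]; positivity
  have hεt : ε ≠ ∞ := ENNReal.ofReal_ne_top
  have hq := quad_bound near r (fun t => a t + ε * d t) σ hσ I J (C := C) (N := 2 * N) hC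
    (by positivity) hnet (fun y => ?_) (by linarith) x hJ hJx
  · have h1 : ε * ∑ T ∈ I.powerset.filter (fun T => Conn r T ∧ 2 ≤ T.card ∧ (T ∩ J).Nonempty),
        ∑ u ∈ T, d u * ∏ t ∈ T.erase u, a t ≤ ENNReal.ofReal (C * (2 * N) * (2 * N)) := by
      refine le_trans ?_ hq
      rw [Finset.mul_sum]
      exact Finset.sum_le_sum fun T _ => marked_le_prod T a d ε
    have h2 : ENNReal.ofReal (C * (2 * N) * (2 * N)) = ε * ENNReal.ofReal (4 * C * N * D) := by
      rw [hε, ← ENNReal.ofReal_mul (by positivity)]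
      congr 1
      field_simp
      ring
    rw [h2] at h1
    exact (ENNReal.mul_le_mul_iff_right hε0 hεt).1 h1
  · calc ∑ t ∈ I.filter (near y), (a t + ε * d t) * ENNReal.ofReal (Real.exp (2 * σ t))
        = ∑ t ∈ I.filter (near y), a t * ENNReal.ofReal (Real.exp (2 * σ t))
          + ε * ∑ t ∈ I.filter (near y), d t * ENNReal.ofReal (Real.exp (2 * σ t)) := by
          rw [Finset.mul_sum, ← Finset.sum_add_distrib]
          refine Finset.sum_congr rfl fun t _ => ?_
          ring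
      _ ≤ ENNReal.ofReal N + ε * ENNReal.ofReal D := by
          gcongr
          · exact hN y
          · exact hD y
      _ = ENNReal.ofReal (2 * N) := by
          rw [hε, ← ENNReal.ofReal_mul (by positivity), ← ENNReal.ofReal_add (by positivity)
            (by positivity)]
          congr 1
          field_simp
          ring

end Crest.Agent.R165.KBoundx892
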