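import Crest.Agent.R165.J4Act1_126
import Crest.Agent.R165.KBound_892

/-!
# Row 165 (S0250), block J4: numerical bounds of the animal sums (helper126)

If every support has at most `m` faces and every face carries total weight at most `ε`,
`4 ε m ≤ 1`, then `tot ≤ 2 ε` and `tot2 ≤ 4 m ε²`.
-/

set_option autoImplicit false
set_option linter.unusedSectionVars false

open Finset
open scoped ENNReal

namespace Crest.Agent.R165.J4Actx126
open Crest.Agent.R165.KCompx892 Crest.Agent.R165.KBoundx892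

variable {ι F : Type*} [DecidableEq ι] [DecidableEq F] [Fintype ι]

theorem animal_le (Y : ι → Finset F) (a : ι → ℝ≥0∞) {m : ℕ} {ε : ℝ} (hε : 0 ≤ ε)
    (hm : ∀ i, (Y i).card ≤ m) (ha : ∀ f, ∑ i with f ∈ Y i, a i ≤ ENNReal.ofReal ε)
    (hsm : 4 * ε * m ≤ 1) (i : ι) :
    animal (touch Y) a i ≤ ENNReal.ofReal (Real.exp (2 * ε * m)) := by
  classical
  have hx : 2 * ε * m ≤ 1 / 2 := by linarith
  have hx0 : 0 ≤ 2 * ε * m := by positivity
  have hexp2 : Real.exp (2 * ε * m) ≤ 2 := by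
    calc Real.exp (2 * ε * m) ≤ Real.exp (1 / 2) := Real.exp_le_exp.2 hx
      _ ≤ 2 := by
        have h := Real.exp_bound_div_one_sub_of_interval (x := 1 / 2) (by norm_num) (by norm_num)
        norm_num at h ⊢
        exact h
  set G : ℝ≥0∞ := ENNReal.ofReal (Real.exp (2 * ε * m)) with hG
  have hG2 : G ≤ 2 := by
    rw [hG]
    calc ENNReal.ofReal (Real.exp (2 * ε * m)) ≤ ENNReal.ofReal 2 := ENNReal.ofReal_le_ofReal hexp2
      _ = 2 := by norm_num
  have h := pinned (touch Y) a (fun _ => G) univ ?_ (Finset.mem_univ i)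
  · rw [Finset.powerset_univ] at h
    exact h
  · intro s _
    refine prod_one_add_le_exp _ _ hx0 ?_
    have h1 : ∑ t ∈ univ.filter (fun t => touch Y t s ∧ t ≠ s), a t * G ≤
        ∑ t ∈ univ.filter (fun t => touch Y t s ∧ t ≠ s), a t * 2 :=
      Finset.sum_le_sum fun t _ => mul_le_mul_right hG2 _
    refine h1.trans ?_
    rw [← Finset.sum_mul]
    have h2 : ∑ t ∈ univ.filter (fun t => touch Y t s ∧ t ≠ s), a t ≤
        ∑ f ∈ Y s, ∑ t with f ∈ Y t, a t := by
      refine le_trans (Finset.sum_le_sum_of_subset ?_) (sum_biUnion_le (Y s)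
        (fun f => univ.filter (fun t => f ∈ Y t)) a)
      intro t ht
      rw [Finset.mem_filter] at ht
      have h3 : ¬ Disjoint (Y t) (Y s) := ht.2.1
      rw [Finset.not_disjoint_iff] at h3
      obtain ⟨f, hf, hf'⟩ := h3
      exact Finset.mem_biUnion.2 ⟨f, hf', Finset.mem_filter.2 ⟨Finset.mem_univ _, hf⟩⟩
    have h4 : ∑ f ∈ Y s, ∑ t with f ∈ Y t, a t ≤ (m : ℝ≥0∞) * ENNReal.ofReal ε := by
      calc ∑ f ∈ Y s, ∑ t with f ∈ Y t, a t ≤ ∑ _f ∈ Y s, ENNReal.ofReal ε :=
            Finset.sum_le_sum fun f _ => ha f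
        _ = ((Y s).card : ℝ≥0∞) * ENNReal.ofReal ε := by rw [Finset.sum_const, nsmul_eq_mul]
        _ ≤ (m : ℝ≥0∞) * ENNReal.ofReal ε := by
            gcongr
            exact_mod_cast hm s
    calc (∑ t ∈ univ.filter (fun t => touch Y t s ∧ t ≠ s), a t) * 2
        ≤ ((m : ℝ≥0∞) * ENNReal.ofReal ε) * 2 := by
          gcongr
          exact h2.trans h4
      _ = ENNReal.ofReal (2 * ε * m) := by
          rw [ENNReal.ofReal_mul (by positivity), ENNReal.ofReal_mul (by norm_num),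
            ENNReal.ofReal_natCast, ENNReal.ofReal_ofNat]
          ring

theorem tot_bound (Y : ι → Finset F) (a : ι → ℝ≥0∞) {m : ℕ} {ε : ℝ} (hε : 0 ≤ ε)
    (hm : ∀ i, (Y i).card ≤ m) (ha : ∀ f, ∑ i with f ∈ Y i, a i ≤ ENNReal.ofReal ε)
    (hsm : 4 * ε * m ≤ 1) (f : F) : tot Y a f ≤ ENNReal.ofReal (2 * ε) := by
  classical
  have hx : 2 * ε * m ≤ 1 / 2 := by linarith
  have hexp2 : Real.exp (2 * ε * m) ≤ 2 := by
    calc Real.exp (2 * ε * m) ≤ Real.exp (1 / 2) := Real.exp_le_exp.2 hx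
      _ ≤ 2 := by
        have h := Real.exp_bound_div_one_sub_of_interval (x := 1 / 2) (by norm_num) (by norm_num)
        norm_num at h ⊢
        exact h
  refine (tot_le Y a f).trans ?_
  calc ∑ i with f ∈ Y i, a i * animal (touch Y) a i
      ≤ ∑ i with f ∈ Y i, a i * 2 := by
        refine Finset.sum_le_sum fun i _ => mul_le_mul_right ?_ _
        refine (animal_le Y a hε hm ha hsm i).trans ?_
        calc ENNReal.ofReal (Real.exp (2 * ε * m)) ≤ ENNReal.ofReal 2 :=
              ENNReal.ofReal_le_ofReal hexp2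
          _ = 2 := by norm_num
    _ = (∑ i with f ∈ Y i, a i) * 2 := by rw [Finset.sum_mul]
    _ ≤ ENNReal.ofReal ε * 2 := by gcongr; exact ha f
    _ = ENNReal.ofReal (2 * ε) := by
        rw [ENNReal.ofReal_mul (by norm_num), ENNReal.ofReal_ofNat, mul_comm]

theorem tot2_bound (Y : ι → Finset F) (a : ι → ℝ≥0∞) {m : ℕ} {ε : ℝ} (hε : 0 ≤ ε)
    (hm : ∀ i, (Y i).card ≤ m) (ha : ∀ f, ∑ i with f ∈ Y i, a i ≤ ENNReal.ofReal ε)
    (hsm : 4 * ε * m ≤ 1) (f : F) : tot2 Y a f ≤ ENNReal.ofReal (4 * m * ε ^ 2) := by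
  classical
  have hx : 2 * ε * m ≤ 1 / 2 := by linarith
  have hx0 : 0 ≤ 2 * ε * m := by positivity
  have hexp : Real.exp (2 * ε * m) - 1 ≤ 4 * ε * m := by
    have h := Real.exp_bound_div_one_sub_of_interval (x := 2 * ε * m) hx0 (by linarith)
    have h2 : 1 / (1 - 2 * ε * m) ≤ 1 + 2 * (2 * ε * m) := by
      rw [div_le_iff₀ (by linarith)]
      nlinarith
    linarith
  refine (tot2_le Y a f).trans ?_
  have han : ∀ i, animal2 (touch Y) a i ≤ ENNReal.ofReal (4 * ε * m) := by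
    intro i
    have h1 := animal_le Y a hε hm ha hsm i
    rw [← one_add_animal2] at h1
    have h2 : ENNReal.ofReal (Real.exp (2 * ε * m)) ≤ 1 + ENNReal.ofReal (4 * ε * m) := by
      calc ENNReal.ofReal (Real.exp (2 * ε * m)) ≤ ENNReal.ofReal (1 + 4 * ε * m) :=
            ENNReal.ofReal_le_ofReal (by linarith)
        _ = 1 + ENNReal.ofReal (4 * ε * m) := by
            rw [ENNReal.ofReal_add (by norm_num) (by positivity), ENNReal.ofReal_one]
    exact (ENNReal.add_le_add_iff_left ENNReal.one_ne_top).1 (h1.trans h2)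
  calc ∑ i with f ∈ Y i, a i * animal2 (touch Y) a i
      ≤ ∑ i with f ∈ Y i, a i * ENNReal.ofReal (4 * ε * m) :=
        Finset.sum_le_sum fun i _ => mul_le_mul_right (han i) _
    _ = (∑ i with f ∈ Y i, a i) * ENNReal.ofReal (4 * ε * m) := by rw [Finset.sum_mul]
    _ ≤ ENNReal.ofReal ε * ENNReal.ofReal (4 * ε * m) := by gcongr; exact ha f
    _ = ENNReal.ofReal (4 * m * ε ^ 2) := by
        rw [← ENNReal.ofReal_mul hε]
        congr 1; ring

end Crest.Agent.R165.J4Actx126
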