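import Crest.Agent.R165.J4K0_126
import Crest.Agent.R165.J4Tot_126

/-!
# Row 165 (S0250), block J4: bounds of the initial activities (helper126)

`N U` : norms on the algebra depending on the support `U`, with `N U (b e) ≤ c`, `N U (I4 f) ≤ c`
for bonds and faces inside `U`.  For backgrounds with `|t| ≤ θ`, `|s - 1| ≤ θ`, `|y| ≤ 1`:

* `K0_bound` : `∑_{U ∋ f} Γ^{|U|} N U (K0 U) ≤ 2 ε`
* `K0_quad`  : the part with at least two items, `≤ 4 m ε²`
* `K0_lip`, `K0_lip2` : Lipschitz bounds in `(t, s)`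
* `K0_src`  : families with at least one item which is not a source
with `ε = Kc * θ + εs`, `4 ε m ≤ 1`.
-/

set_option autoImplicit false
set_option linter.unusedSectionVars false

noncomputable section

open Finset
open scoped ENNReal

namespace Crest.Agent.R165.J4K0Bx126
open Crest.Agent.R165.KCompx892 Crest.Agent.R165.J4Actx126
open Crest.Agent.R165.J4Datx126 Crest.Agent.R165.J4Geox126 Crest.Agent.R165.J4K0x126
open Crest.Agent.R165.J4Defx653 Crest.Agent.R165.J4Pathx653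
open Crest.Agent.R165.J4RRx653 Crest.Agent.R165.J4RRAx653
open Crest.Agent.R165.J1ax606 (HE EG pe qe pe_zero pe_one qe_zero qe_one)

/-! ### elementary estimates -/

theorem abs_exp_sub_le {x y : ℝ} (hx : |x| ≤ 1) (hy : |y| ≤ 1) :
    |Real.exp x - Real.exp y| ≤ 3 * |x - y| := by
  wlog h : y ≤ x generalizing x y
  · rw [abs_sub_comm, abs_sub_comm x y]
    exact this hy hx (le_of_not_ge h)
  have h1 : Real.exp y ≤ Real.exp x := Real.exp_le_exp.2 h
  rw [abs_of_nonneg (by linarith), abs_of_nonneg (by linarith)]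
  have h2 : Real.exp x ≤ 3 := by
    have h3 : Real.exp x ≤ Real.exp 1 := Real.exp_le_exp.2 (abs_le.1 hx).2
    have := Real.exp_one_lt_d9
    linarith
  have h3 : Real.exp x * (1 + (y - x)) ≤ Real.exp y := by
    have h4 := Real.add_one_le_exp (y - x)
    have h5 : Real.exp y = Real.exp x * Real.exp (y - x) := by
      rw [← Real.exp_add]; ring_nf
    rw [h5]
    exact mul_le_mul_of_nonneg_left (by linarith) (Real.exp_pos x).le
  nlinarith [Real.exp_pos x]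

theorem abs_cosh_sub_le {x y : ℝ} (hx : |x| ≤ 1) (hy : |y| ≤ 1) :
    |Real.cosh x - Real.cosh y| ≤ 3 * |x - y| := by
  have h1 := abs_exp_sub_le hx hy
  have h2 := abs_exp_sub_le (x := -x) (y := -y) (by rwa [abs_neg]) (by rwa [abs_neg])
  have h3 : |(-x) - (-y)| = |x - y| := by rw [← abs_neg]; ring_nf
  rw [h3] at h2
  rw [Real.cosh_eq, Real.cosh_eq]
  have e : (Real.exp x + Real.exp (-x)) / 2 - (Real.exp y + Real.exp (-y)) / 2 =
      ((Real.exp x - Real.exp y) + (Real.exp (-x) - Real.exp (-y))) / 2 := by ring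
  rw [e, abs_div, abs_of_pos (by norm_num : (0 : ℝ) < 2)]
  have := abs_add_le (Real.exp x - Real.exp y) (Real.exp (-x) - Real.exp (-y))
  linarith

theorem abs_sinh_sub_le {x y : ℝ} (hx : |x| ≤ 1) (hy : |y| ≤ 1) :
    |Real.sinh x - Real.sinh y| ≤ 3 * |x - y| := by
  have h1 := abs_exp_sub_le hx hy
  have h2 := abs_exp_sub_le (x := -x) (y := -y) (by rwa [abs_neg]) (by rwa [abs_neg])
  have h3 : |(-x) - (-y)| = |x - y| := by rw [← abs_neg]; ring_nf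
  rw [h3] at h2
  rw [Real.sinh_eq, Real.sinh_eq]
  have e : (Real.exp x - Real.exp (-x)) / 2 - (Real.exp y - Real.exp (-y)) / 2 =
      ((Real.exp x - Real.exp y) - (Real.exp (-x) - Real.exp (-y))) / 2 := by ring
  rw [e, abs_div, abs_of_pos (by norm_num : (0 : ℝ) < 2)]
  have := abs_sub (Real.exp x - Real.exp y) (Real.exp (-x) - Real.exp (-y))
  linarith

theorem nmE_em_const {E E' : Type*} {w : ℝ≥0∞} (hw : 1 ≤ w) (f : E → E') (F : RR E) :
    nmE (fun _ => w) (em f F) ≤ nmE (fun _ => w) F := by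
  refine le_nmE (N := fun F => nmE (fun _ => w) (em f F)) (by simp) (fun F G => ?_)
    (fun r F => ?_) ?_ F
  · rw [map_add]; exact nmE_add_le _ _ _
  · rw [map_smul]; exact nmE_smul_le _ _ _
  · intro S
    classical
    rw [em_ep, nmE_ep, wtS, wtS, Finset.prod_const, Finset.prod_const]
    refine pow_le_pow_right₀ hw ?_
    exact (Finset.card_le_card Finsupp.mapDomain_support).trans Finset.card_image_le

theorem Can_diam {R : ℕ} {S : Finset (ℤ × ℤ)} (hS : S ∈ Can R) :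
    ∀ x ∈ S, ∀ y ∈ S, |x.1 - y.1| ≤ ((2 * R : ℕ) : ℤ) ∧ |x.2 - y.2| ≤ ((2 * R : ℕ) : ℤ) := by
  intro x hx y hy
  have h1 := mem_bx.1 ((mem_Can.1 hS).1 hx)
  have h2 := mem_bx.1 ((mem_Can.1 hS).1 hy)
  rw [abs_le, abs_le] at h1 h2
  push_cast
  constructor <;> rw [abs_le] <;> constructor <;> linarith [h1.1.1, h1.1.2, h1.2.1, h1.2.2,
    h2.1.1, h2.1.2, h2.2.1, h2.2.2]

theorem nmE_kB_le {w : ℝ} (hw : 1 ≤ w) {t θ : ℝ} (ht : |t| ≤ θ) (hθ : θ ≤ 1) {R : ℕ}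
    {S : Finset (ℤ × ℤ)} (hS : S ∈ Can R) (hev : Even S.card) :
    nmE (fun _ => ENNReal.ofReal w) (kB t S) ≤
      ENNReal.ofReal (6 * θ * w ^ (2 * (2 * R + 1) ^ 2)) := by
  have hw' : (1 : ℝ≥0∞) ≤ ENNReal.ofReal w := by
    rw [← ENNReal.ofReal_one]; exact ENNReal.ofReal_le_ofReal hw
  have h0 : 0 ≤ θ := (abs_nonneg t).trans ht
  have h1 : |Real.cosh t - 1| ≤ 3 * θ := by
    have := abs_cosh_sub_le (x := t) (y := 0) (ht.trans hθ) (by simp)
    rw [Real.cosh_zero, sub_zero] at this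
    linarith
  have h2 : |Real.sinh t| ≤ 3 * θ := by
    have := abs_sinh_sub_le (x := t) (y := 0) (ht.trans hθ) (by simp)
    rw [Real.sinh_zero, sub_zero, sub_zero] at this
    linarith
  have hM : 1 ≤ w ^ (2 * (2 * R + 1) ^ 2) := one_le_pow₀ hw
  have h3 := nmE_PB_le hw' hev (Can_diam hS)
  unfold kB
  refine (nmE_add_le _ _ _).trans ((add_le_add (nmE_smul_le _ _ _) (nmE_smul_le _ _ _)).trans ?_)
  rw [nmE_one, mul_one, Real.enorm_eq_ofReal_abs, Real.enorm_eq_ofReal_abs]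
  calc ENNReal.ofReal |Real.cosh t - 1| + ENNReal.ofReal |Real.sinh t| * nmE (cw (ENNReal.ofReal w)) (PB S)
      ≤ ENNReal.ofReal (3 * θ) + ENNReal.ofReal (3 * θ) *
          ENNReal.ofReal w ^ (2 * (2 * R + 1) ^ 2) := by gcongr
    _ = ENNReal.ofReal (3 * θ + 3 * θ * w ^ (2 * (2 * R + 1) ^ 2)) := by
        rw [← ENNReal.ofReal_pow (by linarith), ← ENNReal.ofReal_mul (by positivity),
          ← ENNReal.ofReal_add (by positivity) (by positivity)]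
    _ ≤ _ := ENNReal.ofReal_le_ofReal (by nlinarith)

theorem nmE_kB_sub_le {w : ℝ} (hw : 1 ≤ w) {t t' δ : ℝ} (ht : |t| ≤ 1) (ht' : |t'| ≤ 1)
    (hd : |t - t'| ≤ δ) {R : ℕ} {S : Finset (ℤ × ℤ)} (hS : S ∈ Can R) (hev : Even S.card) :
    nmE (fun _ => ENNReal.ofReal w) (kB t S - kB t' S) ≤
      ENNReal.ofReal (6 * δ * w ^ (2 * (2 * R + 1) ^ 2)) := by
  have hw' : (1 : ℝ≥0∞) ≤ ENNReal.ofReal w := by
    rw [← ENNReal.ofReal_one]; exact ENNReal.ofReal_le_ofReal hw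
  have h0 : 0 ≤ δ := (abs_nonneg _).trans hd
  have h1 : |Real.cosh t - Real.cosh t'| ≤ 3 * δ := by
    have := abs_cosh_sub_le ht ht'
    linarith
  have h2 : |Real.sinh t - Real.sinh t'| ≤ 3 * δ := by
    have := abs_sinh_sub_le ht ht'
    linarith
  have hM : 1 ≤ w ^ (2 * (2 * R + 1) ^ 2) := one_le_pow₀ hw
  have h3 := nmE_PB_le hw' hev (Can_diam hS)
  have e : kB t S - kB t' S = (Real.cosh t - Real.cosh t') • (1 : RR Ed) +
      (Real.sinh t - Real.sinh t') • PB S := by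
    unfold kB
    simp only [sub_smul]
    abel
  rw [e]
  refine (nmE_add_le _ _ _).trans ((add_le_add (nmE_smul_le _ _ _) (nmE_smul_le _ _ _)).trans ?_)
  rw [nmE_one, mul_one, Real.enorm_eq_ofReal_abs, Real.enorm_eq_ofReal_abs]
  calc ENNReal.ofReal |Real.cosh t - Real.cosh t'| + ENNReal.ofReal |Real.sinh t - Real.sinh t'| *
        nmE (cw (ENNReal.ofReal w)) (PB S)
      ≤ ENNReal.ofReal (3 * δ) + ENNReal.ofReal (3 * δ) *
          ENNReal.ofReal w ^ (2 * (2 * R + 1) ^ 2) := by gcongr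
    _ = ENNReal.ofReal (3 * δ + 3 * δ * w ^ (2 * (2 * R + 1) ^ 2)) := by
        rw [← ENNReal.ofReal_pow (by linarith), ← ENNReal.ofReal_mul (by positivity),
          ← ENNReal.ofReal_add (by positivity) (by positivity)]
    _ ≤ _ := ENNReal.ofReal_le_ofReal (by nlinarith)

/-! ### restriction of the labels -/

section restr
variable {G : Type*} [CommRing G] [DecidableEq G]
variable {A : Type*} [CommRing A] [Algebra ℝ A] {κ : Type*} [DecidableEq κ] [Fintype κ]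
variable (fr : Fr G A) (B : Bk G κ A)

/-- the activity does not depend on the ambient set of labels -/
theorem act_dat_eq {𝔍 : Finset (Ix G κ)} (h𝔍 : ∀ i ∈ 𝔍, B.okI i) {U : Finset (G × G)}
    (h : B.ixs U ⊆ 𝔍) : (B.dat fr 𝔍 h𝔍).items.act U = B.K0 fr U := by
  symm
  have key := act_transport (I := (B.datU fr U).items) (I' := (B.dat fr 𝔍 h𝔍).items)
    (ψ := fun f : G × G => f) (U := U)
    (e := fun i => (⟨i.1, h i.2⟩ : {i // i ∈ 𝔍})) ?_ (AddMonoidHom.id A) ?_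
  · rw [Finset.image_id'] at key
    exact key
  · refine ⟨fun _ _ _ _ h => h, fun i _ j _ hij => ?_, fun i _ => ?_, fun i' hi' => ?_⟩
    · exact Subtype.ext (Subtype.mk.injEq _ _ _ _ ▸ hij)
    · exact (Finset.image_id').symm
    · rw [Finset.image_id'] at hi'
      exact ⟨⟨i'.1, B.mem_ixs.2 ⟨h𝔍 _ i'.2, hi'⟩⟩, hi', rfl⟩
  · intro T _
    change (B.datU fr U).items.w T = (B.dat fr 𝔍 h𝔍).items.w _
    rw [Dat.w_eq, Dat.w_eq, Finset.prod_image, Finset.prod_image]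
    · rfl
    · intro i _ j _ hij
      exact Subtype.ext (Subtype.mk.injEq _ _ _ _ ▸ hij)
    · intro i _ j _ hij
      exact Subtype.ext (Subtype.mk.injEq _ _ _ _ ▸ hij)

/-- value of a single item -/
def val (i : Ix G κ) : A := B.aI fr i * TH (B.g fr) (B.FI i)

/-- the first order part of the initial activities -/
def K01 (U : Finset (G × G)) : A := ∑ i ∈ B.ixs U with B.YI i = U, val fr B i

theorem act1_dat_eq {𝔍 : Finset (Ix G κ)} (h𝔍 : ∀ i ∈ 𝔍, B.okI i) {U : Finset (G × G)}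
    (h : B.ixs U ⊆ 𝔍) : (B.dat fr 𝔍 h𝔍).items.act1 U = K01 fr B U := by
  classical
  unfold Items.act1 K01
  have h1 : ∀ i : {i // i ∈ 𝔍}, (B.dat fr 𝔍 h𝔍).items.Th ((B.dat fr 𝔍 h𝔍).items.k i) =
      val fr B i.1 := fun i => Dat.Th_k _ i
  rw [Finset.sum_congr rfl fun i _ => h1 i]
  rw [Finset.sum_filter]
  change (∑ a : {i // i ∈ 𝔍}, if B.YI a.1 = U then val fr B a.1 else 0) = _
  rw [Finset.sum_coe_sort 𝔍 (fun i => if B.YI i = U then val fr B i else 0),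
    ← Finset.sum_filter]
  refine Finset.sum_congr ?_ fun _ _ => rfl
  ext i
  rw [Finset.mem_filter, Finset.mem_filter]
  constructor
  · rintro ⟨h2, h3⟩
    exact ⟨B.mem_ixs.2 ⟨h𝔍 i h2, h3.le⟩, h3⟩
  · rintro ⟨h2, h3⟩
    exact ⟨h h2, h3⟩

end restr

/-! ### hypotheses -/

section bounds
variable {G : Type*} [CommRing G] [DecidableEq G]
variable {A : Type*} [CommRing A] [Algebra ℝ A] {κ : Type*} [DecidableEq κ] [Fintype κ]

/-- the norms -/
structure NHyp (fr : Fr G A) (N : Finset (G × G) → A → ℝ≥0∞) (c : ℝ) : Prop where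
  semi : ∀ U, FSemi (N U)
  c1 : 1 ≤ c
  b : ∀ U e, faE e ⊆ U → N U (fr.b e) ≤ ENNReal.ofReal c
  I4 : ∀ U, ∀ f ∈ U, N U (fr.I4 f) ≤ ENNReal.ofReal c

/-- the background -/
structure BHyp (B : Bk G κ A) (θ : ℝ) : Prop where
  θ0 : 0 ≤ θ
  θ1 : θ ≤ 1
  y : ∀ e, |B.y e| ≤ 1
  s : ∀ f, |B.s f - 1| ≤ θ
  t : ∀ S ∈ Can B.R, Even S.card → |B.t S| ≤ θ

/-- weight of a bond variable -/
def wc (c : ℝ) : ℝ := 2 * (1 + 8 * c)

/-- weight of a bond polynomial -/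
def Mc (R : ℕ) (c : ℝ) : ℝ := wc c ^ (2 * (2 * R + 1) ^ 2)

/-- number of faces of a shape -/
def m0 (R : ℕ) : ℕ := (2 * R + 2) ^ 2

/-- the constant of the total weight at a face -/
def Kc (R : ℕ) (Γ c : ℝ) : ℝ := 12 * Mc R c * Γ ^ m0 R * ((Can R).card * m0 R + 5)

/-- the sources -/
structure SHyp (B : Bk G κ A) (N : Finset (G × G) → A → ℝ≥0∞) (c Γ εs : ℝ) (α φ : κ → ℝ≥0∞) :
    Prop where
  αt : ∀ k, α k ≠ ∞
  φt : ∀ k, φ k ≠ ∞
  a : ∀ k U, B.Ys k ⊆ U → N U (B.as k) ≤ α k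
  F : ∀ k, nmE (fun _ => ENNReal.ofReal (wc c)) (B.Fs k) ≤ φ k
  card : ∀ k, (B.Ys k).card ≤ m0 B.R
  tot : ∀ f, ∑ k with f ∈ B.Ys k, ENNReal.ofReal Γ ^ (B.Ys k).card * (α k * φ k) ≤
    ENNReal.ofReal εs

theorem wc_one {c : ℝ} (h : 1 ≤ c) : 1 ≤ wc c := by unfold wc; linarith

theorem wc_sq_le_Mc (R : ℕ) {c : ℝ} (h : 1 ≤ c) : wc c ^ 2 ≤ Mc R c := by
  unfold Mc
  refine pow_le_pow_right₀ (wc_one h) ?_
  have : 1 ≤ (2 * R + 1) ^ 2 := Nat.one_le_pow _ _ (by omega)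
  omega

theorem c_le_Mc (R : ℕ) {c : ℝ} (h : 1 ≤ c) : 4 * c ^ 2 ≤ Mc R c := by
  refine le_trans ?_ (wc_sq_le_Mc R h)
  unfold wc
  nlinarith

theorem Mc_pos (R : ℕ) {c : ℝ} (h : 1 ≤ c) : 0 < Mc R c := by
  have := c_le_Mc R h
  nlinarith

theorem two_le_m0 (R : ℕ) : 4 ≤ m0 R := by
  unfold m0
  have : 2 ≤ 2 * R + 2 := by omega
  calc 4 = 2 ^ 2 := by norm_num
    _ ≤ (2 * R + 2) ^ 2 := Nat.pow_le_pow_left this 2

variable {fr : Fr G A} {B B' : Bk G κ A} {N : Finset (G × G) → A → ℝ≥0∞} {c θ : ℝ}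

/-- weights of the labels -/
def aW (B : Bk G κ A) (θ c : ℝ) (α φ : κ → ℝ≥0∞) : Ix G κ → ℝ≥0∞
  | .inr (.inr (.inr k)) => α k * φ k
  | _ => ENNReal.ofReal (12 * θ * Mc B.R c)

/-- constants, first factor -/
def αW (θ c : ℝ) (α : κ → ℝ≥0∞) : Ix G κ → ℝ≥0∞
  | .inl _ => 1
  | .inr (.inl _) => ENNReal.ofReal (8 * θ * c ^ 2)
  | .inr (.inr (.inl _)) => ENNReal.ofReal (8 * θ * c ^ 2)
  | .inr (.inr (.inr k)) => α k

def δW (θ c : ℝ) : Ix G κ → ℝ≥0∞
  | .inl _ => 0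
  | .inr (.inl _) => ENNReal.ofReal (16 * θ * c ^ 2)
  | .inr (.inr (.inl _)) => ENNReal.ofReal (16 * θ * c ^ 2)
  | .inr (.inr (.inr _)) => 0

def φW (B : Bk G κ A) (θ c : ℝ) (φ : κ → ℝ≥0∞) : Ix G κ → ℝ≥0∞
  | .inl _ => ENNReal.ofReal (6 * θ * Mc B.R c)
  | .inr (.inl _) => 1
  | .inr (.inr (.inl _)) => 1
  | .inr (.inr (.inr k)) => φ k

def ψW (B : Bk G κ A) (θ c : ℝ) : Ix G κ → ℝ≥0∞
  | .inl _ => ENNReal.ofReal (6 * θ * Mc B.R c)
  | .inr _ => 0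

theorem W_le (hθ : 0 ≤ θ) (hc : 1 ≤ c) (α φ : κ → ℝ≥0∞) (i : Ix G κ) :
    (αW θ c α i + δW θ c i) * (φW B θ c φ i + ψW B θ c i) ≤ aW B θ c α φ i := by
  have hM := c_le_Mc B.R hc
  have hM0 := Mc_pos B.R hc
  rcases i with p | f | e | k
  · change (1 + 0) * (ENNReal.ofReal (6 * θ * Mc B.R c) + ENNReal.ofReal (6 * θ * Mc B.R c)) ≤
      ENNReal.ofReal (12 * θ * Mc B.R c)
    rw [add_zero, one_mul, ← ENNReal.ofReal_add (by positivity) (by positivity)]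
    exact ENNReal.ofReal_le_ofReal (by linarith)
  · change (ENNReal.ofReal (8 * θ * c ^ 2) + ENNReal.ofReal (16 * θ * c ^ 2)) * (1 + 0) ≤
      ENNReal.ofReal (12 * θ * Mc B.R c)
    rw [add_zero, mul_one, ← ENNReal.ofReal_add (by positivity) (by positivity)]
    refine ENNReal.ofReal_le_ofReal ?_
    have : θ * (4 * c ^ 2) ≤ θ * Mc B.R c := mul_le_mul_of_nonneg_left hM hθ
    nlinarith [mul_nonneg hθ (sq_nonneg c)]
  · change (ENNReal.ofReal (8 * θ * c ^ 2) + ENNReal.ofReal (16 * θ * c ^ 2)) * (1 + 0) ≤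
      ENNReal.ofReal (12 * θ * Mc B.R c)
    rw [add_zero, mul_one, ← ENNReal.ofReal_add (by positivity) (by positivity)]
    refine ENNReal.ofReal_le_ofReal ?_
    have : θ * (4 * c ^ 2) ≤ θ * Mc B.R c := mul_le_mul_of_nonneg_left hM hθ
    nlinarith [mul_nonneg hθ (sq_nonneg c)]
  · change (α k + 0) * (φ k + 0) ≤ α k * φ k
    rw [add_zero, add_zero]

theorem W_le' (hθ : 0 ≤ θ) (hc : 1 ≤ c) (α φ : κ → ℝ≥0∞) (i : Ix G κ) :
    αW θ c α i * φW B θ c φ i ≤ aW B θ c α φ i :=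
  (mul_le_mul' le_self_add le_self_add).trans (W_le hθ hc α φ i)

/-! ### item bounds -/

theorem BHyp.s_abs (hB : BHyp B θ) (f : G × G) : |B.s f| ≤ 2 := by
  have h1 := hB.s f
  have h2 := hB.θ1
  rw [abs_le] at h1 ⊢
  constructor <;> linarith [h1.1, h1.2]

theorem BHyp.ss (hB : BHyp B θ) (f f' : G × G) : |B.s f * B.s f' - 1| ≤ 3 * θ := by
  have h1 := hB.s f
  have h2 := hB.s f'
  have h3 := hB.s_abs f
  have e : B.s f * B.s f' - 1 = B.s f * (B.s f' - 1) + (B.s f - 1) := by ring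
  rw [e]
  refine (abs_add_le _ _).trans ?_
  rw [abs_mul]
  have : |B.s f| * |B.s f' - 1| ≤ 2 * θ := mul_le_mul h3 h2 (abs_nonneg _) (by norm_num)
  linarith

theorem BHyp.ss_sub (hB : BHyp B θ) (hB' : BHyp B' θ) {δ : ℝ} (hs : ∀ f, |B.s f - B'.s f| ≤ δ)
    (f f' : G × G) : |B.s f * B.s f' - B'.s f * B'.s f'| ≤ 4 * δ := by
  have h0 : 0 ≤ δ := (abs_nonneg _).trans (hs f)
  have e : B.s f * B.s f' - B'.s f * B'.s f' =
      B.s f * (B.s f' - B'.s f') + (B.s f - B'.s f) * B'.s f' := by ring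
  rw [e]
  refine (abs_add_le _ _).trans ?_
  rw [abs_mul, abs_mul]
  have h1 : |B.s f| * |B.s f' - B'.s f'| ≤ 2 * δ :=
    mul_le_mul (hB.s_abs f) (hs f') (abs_nonneg _) (by norm_num)
  have h2 : |B.s f - B'.s f| * |B'.s f'| ≤ δ * 2 :=
    mul_le_mul (hs f) (hB'.s_abs f') (abs_nonneg _) h0
  linarith

theorem smul_le_real {N : A → ℝ≥0∞} (h : FSemi N) {r : ℝ} {a : A} {x y : ℝ} (hx : |r| ≤ x)
    (hy : N a ≤ ENNReal.ofReal y) : N (r • a) ≤ ENNReal.ofReal (x * y) := by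
  have hx0 : 0 ≤ x := (abs_nonneg r).trans hx
  refine (h.smul _ _).trans ?_
  rw [Real.enorm_eq_ofReal_abs, ENNReal.ofReal_mul hx0]
  exact mul_le_mul' (ENNReal.ofReal_le_ofReal hx) hy

theorem g_le (hN : NHyp fr N c) (hB : BHyp B θ) (U : Finset (G × G)) (e : EG G)
    (he : faE e ⊆ U) : N U (B.g fr e) ≤ ENNReal.ofReal (1 + 8 * c) := by
  unfold Bk.g
  have h1 : |2 * (B.y e * (B.s (pe e).1 * B.s (qe e).1))| ≤ 8 := by
    rw [abs_mul, abs_mul, abs_mul, abs_of_pos (by norm_num : (0 : ℝ) < 2)]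
    have := hB.y e
    have := hB.s_abs (pe e).1
    have := hB.s_abs (qe e).1
    have h2 : |B.s (pe e).1| * |B.s (qe e).1| ≤ 2 * 2 := by gcongr
    have h3 : |B.y e| * (|B.s (pe e).1| * |B.s (qe e).1|) ≤ 1 * (2 * 2) := by gcongr
    linarith
  have hc := hN.c1
  refine ((hN.semi U).sub _ _).trans ?_
  rw [ENNReal.ofReal_add (by norm_num) (by linarith), ENNReal.ofReal_one]
  exact add_le_add (hN.semi U).one (smul_le_real (hN.semi U) h1 (hN.b U e he))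

theorem g_sub_le (hN : NHyp fr N c) (hB : BHyp B θ) (hB' : BHyp B' θ) {δ : ℝ}
    (hy : B'.y = B.y) (hs : ∀ f, |B.s f - B'.s f| ≤ δ) (U : Finset (G × G)) (e : EG G)
    (he : faE e ⊆ U) : N U (B.g fr e - B'.g fr e) ≤ ENNReal.ofReal (8 * δ * c) := by
  unfold Bk.g
  have e1 : (1 : A) - (2 * (B.y e * (B.s (pe e).1 * B.s (qe e).1))) • fr.b e -
      (1 - (2 * (B'.y e * (B'.s (pe e).1 * B'.s (qe e).1))) • fr.b e) =
      (-(2 * (B.y e * (B.s (pe e).1 * B.s (qe e).1 - B'.s (pe e).1 * B'.s (qe e).1)))) •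
        fr.b e := by
    rw [hy, sub_sub_sub_cancel_left, ← sub_smul]
    congr 1
    ring
  rw [e1]
  refine smul_le_real (hN.semi U) ?_ (hN.b U e he)
  rw [abs_neg, abs_mul, abs_mul, abs_of_pos (by norm_num : (0 : ℝ) < 2)]
  have h1 := hB.ss_sub hB' hs (pe e).1 (qe e).1
  have h2 := hB.y e
  have h0 : 0 ≤ δ := (abs_nonneg _).trans (hs e.1)
  have h3 : |B.y e| * |B.s (pe e).1 * B.s (qe e).1 - B'.s (pe e).1 * B'.s (qe e).1| ≤
      1 * (4 * δ) := mul_le_mul h2 h1 (abs_nonneg _) (by norm_num)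
  linarith

theorem a_le (hN : NHyp fr N c) (hB : BHyp B θ) {α : κ → ℝ≥0∞}
    (hα : ∀ k U, B.Ys k ⊆ U → N U (B.as k) ≤ α k) (U : Finset (G × G)) (i : Ix G κ)
    (hi : B.YI i ⊆ U) : N U (B.aI fr i) ≤ αW θ c α i := by
  have hc := hN.c1
  have h0 := hB.θ0
  have h1 := hB.θ1
  rcases i with p | f | e | k
  · exact (hN.semi U).one
  · change N U (B.cI f • fr.I4 f + (B.cI f ^ 2 / 2) • (fr.I4 f * fr.I4 f)) ≤
      ENNReal.ofReal (8 * θ * c ^ 2)
    have hf : f ∈ U := hi (Finset.mem_singleton_self f)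
    have hcI : |B.cI f| ≤ 3 * θ := hB.ss f f
    have hI := hN.I4 U f hf
    have h2 : |B.cI f ^ 2 / 2| ≤ 9 / 2 * θ := by
      rw [abs_div, abs_pow, abs_of_pos (by norm_num : (0 : ℝ) < 2)]
      have : |B.cI f| ^ 2 ≤ (3 * θ) ^ 2 := pow_le_pow_left₀ (abs_nonneg _) hcI 2
      nlinarith
    have h3 : N U (fr.I4 f * fr.I4 f) ≤ ENNReal.ofReal (c * c) := by
      rw [ENNReal.ofReal_mul (by linarith)]
      exact (hN.semi U).mul _ _ _ _ hI hI ENNReal.ofReal_ne_top ENNReal.ofReal_ne_top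
    refine ((hN.semi U).add _ _).trans ((add_le_add (smul_le_real (hN.semi U) hcI hI)
      (smul_le_real (hN.semi U) h2 h3)).trans ?_)
    rw [← ENNReal.ofReal_add (by positivity) (by positivity)]
    refine ENNReal.ofReal_le_ofReal ?_
    have h4 : θ * c ≤ θ * c ^ 2 := mul_le_mul_of_nonneg_left (by nlinarith) h0
    nlinarith
  · change N U ((B.y e * (B.s (pe e).1 * B.s (qe e).1 - 1)) • fr.b e) ≤
      ENNReal.ofReal (8 * θ * c ^ 2)
    have h2 : |B.y e * (B.s (pe e).1 * B.s (qe e).1 - 1)| ≤ 3 * θ := by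
      rw [abs_mul]
      have := mul_le_mul (hB.y e) (hB.ss (pe e).1 (qe e).1) (abs_nonneg _) (by norm_num)
      linarith
    refine (smul_le_real (hN.semi U) h2 (hN.b U e hi)).trans (ENNReal.ofReal_le_ofReal ?_)
    have h4 : θ * c ≤ θ * c ^ 2 := mul_le_mul_of_nonneg_left (by nlinarith) h0
    nlinarith [mul_nonneg h0 (sq_nonneg c)]
  · exact hα k U hi

theorem a_sub_le (hN : NHyp fr N c) (hB : BHyp B θ) (hB' : BHyp B' θ) {δ : ℝ}
    (hy : B'.y = B.y) (has : B'.as = B.as) (hs : ∀ f, |B.s f - B'.s f| ≤ δ)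
    (U : Finset (G × G)) (i : Ix G κ) (hi : B.YI i ⊆ U) {η : ℝ} (hη : δ ≤ η * θ) (hη0 : 0 ≤ η) :
    N U (B.aI fr i - B'.aI fr i) ≤ ENNReal.ofReal η * δW θ c i := by
  have hc := hN.c1
  have h0 := hB.θ0
  have h1 := hB.θ1
  have hδ0 : 0 ≤ δ := (abs_nonneg _).trans (hs 0)
  rcases i with p | f | e | k
  · change N U ((1 : A) - 1) ≤ _
    rw [sub_self, (hN.semi U).zero]; exact zero_le
  · change N U (B.cI f • fr.I4 f + (B.cI f ^ 2 / 2) • (fr.I4 f * fr.I4 f) -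
      (B'.cI f • fr.I4 f + (B'.cI f ^ 2 / 2) • (fr.I4 f * fr.I4 f))) ≤
      ENNReal.ofReal η * ENNReal.ofReal (16 * θ * c ^ 2)
    have hf : f ∈ U := hi (Finset.mem_singleton_self f)
    have hI := hN.I4 U f hf
    have e1 : B.cI f • fr.I4 f + (B.cI f ^ 2 / 2) • (fr.I4 f * fr.I4 f) -
      (B'.cI f • fr.I4 f + (B'.cI f ^ 2 / 2) • (fr.I4 f * fr.I4 f)) =
      (B.cI f - B'.cI f) • fr.I4 f + ((B.cI f ^ 2 - B'.cI f ^ 2) / 2) • (fr.I4 f * fr.I4 f) := by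
      rw [sub_smul, sub_div, sub_smul]; abel
    rw [e1]
    have h2 : |B.cI f - B'.cI f| ≤ 4 * δ := by
      have := hB.ss_sub hB' hs f f
      unfold Bk.cI
      rwa [sub_sub_sub_cancel_right]
    have h3 : |(B.cI f ^ 2 - B'.cI f ^ 2) / 2| ≤ 12 * δ := by
      have e2 : B.cI f ^ 2 - B'.cI f ^ 2 = (B.cI f - B'.cI f) * (B.cI f + B'.cI f) := by ring
      rw [e2, abs_div, abs_mul, abs_of_pos (by norm_num : (0 : ℝ) < 2)]
      have h4 : |B.cI f + B'.cI f| ≤ 6 := by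
        refine (abs_add_le _ _).trans ?_
        have := hB.ss f f
        have := hB'.ss f f
        unfold Bk.cI
        linarith
      have h5 : |B.cI f - B'.cI f| * |B.cI f + B'.cI f| ≤ (4 * δ) * 6 :=
        mul_le_mul h2 h4 (abs_nonneg _) (by linarith)
      linarith
    have h4 : N U (fr.I4 f * fr.I4 f) ≤ ENNReal.ofReal (c * c) := by
      rw [ENNReal.ofReal_mul (by linarith)]
      exact (hN.semi U).mul _ _ _ _ hI hI ENNReal.ofReal_ne_top ENNReal.ofReal_ne_top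
    refine ((hN.semi U).add _ _).trans ((add_le_add (smul_le_real (hN.semi U) h2 hI)
      (smul_le_real (hN.semi U) h3 h4)).trans ?_)
    rw [← ENNReal.ofReal_add (by positivity) (by positivity), ← ENNReal.ofReal_mul hη0]
    refine ENNReal.ofReal_le_ofReal ?_
    have h5 : δ * c ≤ δ * c ^ 2 := mul_le_mul_of_nonneg_left (by nlinarith) hδ0
    have h6 : δ * c ^ 2 ≤ (η * θ) * c ^ 2 := mul_le_mul_of_nonneg_right hη (sq_nonneg c)
    nlinarith
  · change N U ((B.y e * (B.s (pe e).1 * B.s (qe e).1 - 1)) • fr.b e -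
      (B'.y e * (B'.s (pe e).1 * B'.s (qe e).1 - 1)) • fr.b e) ≤
      ENNReal.ofReal η * ENNReal.ofReal (16 * θ * c ^ 2)
    have e1 : (B.y e * (B.s (pe e).1 * B.s (qe e).1 - 1)) • fr.b e -
      (B'.y e * (B'.s (pe e).1 * B'.s (qe e).1 - 1)) • fr.b e =
      (B.y e * (B.s (pe e).1 * B.s (qe e).1 - B'.s (pe e).1 * B'.s (qe e).1)) • fr.b e := by
      rw [hy, ← sub_smul]; congr 1; ring
    rw [e1]
    have h2 : |B.y e * (B.s (pe e).1 * B.s (qe e).1 - B'.s (pe e).1 * B'.s (qe e).1)| ≤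
        4 * δ := by
      rw [abs_mul]
      have := mul_le_mul (hB.y e) (hB.ss_sub hB' hs (pe e).1 (qe e).1) (abs_nonneg _)
        (by norm_num)
      linarith
    refine (smul_le_real (hN.semi U) h2 (hN.b U e hi)).trans ?_
    rw [← ENNReal.ofReal_mul hη0]
    refine ENNReal.ofReal_le_ofReal ?_
    have h5 : δ * c ≤ δ * c ^ 2 := mul_le_mul_of_nonneg_left (by nlinarith) hδ0
    have h6 : δ * c ^ 2 ≤ (η * θ) * c ^ 2 := mul_le_mul_of_nonneg_right hη (sq_nonneg c)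
    nlinarith [mul_nonneg (mul_nonneg hη0 h0) (sq_nonneg c)]
  · change N U (B.as k - B'.as k) ≤ _
    rw [has, sub_self, (hN.semi U).zero]; exact zero_le

theorem F_le (hc : 1 ≤ c) (hB : BHyp B θ) {φ : κ → ℝ≥0∞}
    (hφ : ∀ k, nmE (fun _ => ENNReal.ofReal (wc c)) (B.Fs k) ≤ φ k) (i : Ix G κ)
    (hi : B.okI i) : nmE (fun _ => ENNReal.ofReal (wc c)) (B.FI i) ≤ φW B θ c φ i := by
  have hw : (1 : ℝ≥0∞) ≤ ENNReal.ofReal (wc c) := by
    rw [← ENNReal.ofReal_one]; exact ENNReal.ofReal_le_ofReal (wc_one hc)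
  rcases i with p | f | e | k
  · exact (nmE_em_const hw _ _).trans
      (nmE_kB_le (wc_one hc) (hB.t _ hi.1.1 hi.1.2) hB.θ1 hi.1.1 hi.1.2)
  · change nmE _ (1 : RR (EG G)) ≤ 1
    rw [nmE_one]
  · change nmE _ (1 : RR (EG G)) ≤ 1
    rw [nmE_one]
  · exact hφ k

theorem F_sub_le (hc : 1 ≤ c) (hB : BHyp B θ) (hB' : BHyp B' θ) {δ : ℝ} (hR : B'.R = B.R)
    (hFs : B'.Fs = B.Fs) (ht : ∀ S ∈ Can B.R, Even S.card → |B.t S - B'.t S| ≤ δ) (i : Ix G κ)
    (hi : B.okI i) {η : ℝ} (hη : δ ≤ η * θ) (hη0 : 0 ≤ η) :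
    nmE (fun _ => ENNReal.ofReal (wc c)) (B.FI i - B'.FI i) ≤
      ENNReal.ofReal η * ψW B θ c i := by
  have hw : (1 : ℝ≥0∞) ≤ ENNReal.ofReal (wc c) := by
    rw [← ENNReal.ofReal_one]; exact ENNReal.ofReal_le_ofReal (wc_one hc)
  have hM := Mc_pos B.R hc
  rcases i with p | f | e | k
  · change nmE _ (em (ez p.1) (kB (B.t p.2) p.2) - em (ez p.1) (kB (B'.t p.2) p.2)) ≤
      ENNReal.ofReal η * ENNReal.ofReal (6 * θ * Mc B.R c)
    rw [← map_sub]
    refine (nmE_em_const hw _ _).trans ?_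
    refine (nmE_kB_sub_le (wc_one hc) ((hB.t _ hi.1.1 hi.1.2).trans hB.θ1)
      ((hB'.t _ (by rw [hR]; exact hi.1.1) hi.1.2).trans hB'.θ1) (ht _ hi.1.1 hi.1.2) hi.1.1
      hi.1.2).trans ?_
    rw [← ENNReal.ofReal_mul hη0]
    refine ENNReal.ofReal_le_ofReal ?_
    change 6 * δ * Mc B.R c ≤ η * (6 * θ * Mc B.R c)
    have := mul_le_mul_of_nonneg_right hη hM.le
    linarith
  · change nmE _ ((1 : RR (EG G)) - 1) ≤ _
    rw [sub_self, nmE_zero]; exact zero_le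
  · change nmE _ ((1 : RR (EG G)) - 1) ≤ _
    rw [sub_self, nmE_zero]; exact zero_le
  · change nmE _ (B.Fs k - B'.Fs k) ≤ _
    rw [hFs, sub_self, nmE_zero]; exact zero_le

end bounds

/-! ### counting -/

section count
variable {G : Type*} [CommRing G] [DecidableEq G]
variable {A : Type*} [CommRing A] [Algebra ℝ A] {κ : Type*} [DecidableEq κ] [Fintype κ]

/-- labels of shapes through the face `f` -/
def shpF (R : ℕ) (f : G × G) : Finset ((G × G) × Finset (ℤ × ℤ)) :=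
  (Can R).biUnion fun S => (Yf S).image fun z => (f - cz G z, S)

/-- bonds of a face -/
def edgF (f : G × G) : Finset (EG G) := {(f, 0), (f + (0, 1), 0), (f, 1), (f + (1, 0), 1)}

theorem card_shpF (R : ℕ) (f : G × G) : (shpF R f).card ≤ (Can R).card * m0 R := by
  unfold shpF
  refine Finset.card_biUnion_le.trans ?_
  refine (Finset.sum_le_card_nsmul _ _ (m0 R) fun S hS => ?_).trans (le_of_eq (by simp))
  exact Finset.card_image_le.trans (card_Yf_le (mem_Can.1 hS).1)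

theorem card_edgF (f : G × G) : (edgF f).card ≤ 4 := Finset.card_le_four

theorem mem_edgF {f : G × G} {e : EG G} (h : f ∈ faE e) : e ∈ edgF f := by
  obtain ⟨z, j⟩ := e
  unfold edgF
  simp only [Finset.mem_insert, Finset.mem_singleton]
  have hj : j = 0 ∨ j = 1 := by
    fin_cases j
    · exact Or.inl rfl
    · exact Or.inr rfl
  unfold faE at h
  rw [Finset.mem_insert, Finset.mem_singleton] at h
  rcases hj with rfl | rfl
  · rw [pe_zero, qe_zero] at h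
    rcases h with h | h
    · left; rw [h]
    · right; left
      rw [h]
      change (z, (0 : Fin 2)) = (z - (0, 1) + (0, 1), 0)
      rw [sub_add_cancel]
  · rw [pe_one, qe_one] at h
    rcases h with h | h
    · right; right; right
      rw [h]
      change (z, (1 : Fin 2)) = (z - (1, 0) + (1, 0), 1)
      rw [sub_add_cancel]
    · right; right; left; rw [h]

/-- labels through the face `f` -/
def ixF (B : Bk G κ A) (f : G × G) : Finset (Ix G κ) :=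
  (shpF B.R f).disjSum (({f} : Finset (G × G)).disjSum ((edgF f).disjSum
    (univ.filter fun k => f ∈ B.Ys k)))

theorem mem_ixF {B : Bk G κ A} {f : G × G} {i : Ix G κ} (hi : B.okI i) (hf : f ∈ B.YI i) :
    i ∈ ixF B f := by
  unfold ixF
  rcases i with p | g | e | k
  · rw [Finset.inl_mem_disjSum]
    obtain ⟨z, hz, hzf⟩ := Finset.mem_image.1 hf
    unfold shpF
    rw [Finset.mem_biUnion]
    refine ⟨p.2, hi.1.1, Finset.mem_image.2 ⟨z, hz, ?_⟩⟩
    refine Prod.ext ?_ rfl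
    change f - cz G z = p.1
    rw [← hzf]
    exact add_sub_cancel_right _ _
  · rw [Finset.inr_mem_disjSum, Finset.inl_mem_disjSum, Finset.mem_singleton]
    exact (Finset.mem_singleton.1 hf).symm
  · rw [Finset.inr_mem_disjSum, Finset.inr_mem_disjSum, Finset.inl_mem_disjSum]
    exact mem_edgF hf
  · rw [Finset.inr_mem_disjSum, Finset.inr_mem_disjSum, Finset.inr_mem_disjSum,
      Finset.mem_filter]
    exact ⟨Finset.mem_univ _, hf⟩

theorem card_YI_le {B : Bk G κ A} (hc : ∀ k, (B.Ys k).card ≤ m0 B.R) {i : Ix G κ}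
    (hi : B.okI i) : (B.YI i).card ≤ m0 B.R := by
  have h4 := two_le_m0 B.R
  rcases i with p | g | e | k
  · exact Finset.card_image_le.trans (card_Yf_le (mem_Can.1 hi.1.1).1)
  · change ({g} : Finset (G × G)).card ≤ _
    rw [Finset.card_singleton]; omega
  · change (faE e).card ≤ _
    have : (faE e).card ≤ 2 := by unfold faE; exact Finset.card_le_two
    omega
  · exact hc k

/-- **total weight at a face** -/
theorem face_sum_le {B : Bk G κ A} {N : Finset (G × G) → A → ℝ≥0∞} {c θ Γ εs : ℝ}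
    {α φ : κ → ℝ≥0∞} (hθ : 0 ≤ θ) (hc : 1 ≤ c) (hΓ : 1 ≤ Γ) (hεs : 0 ≤ εs)
    (hS : SHyp B N c Γ εs α φ) {𝔍 : Finset (Ix G κ)} (h𝔍 : ∀ i ∈ 𝔍, B.okI i) (f : G × G) :
    ∑ i ∈ 𝔍 with f ∈ B.YI i, ENNReal.ofReal Γ ^ (B.YI i).card * aW B θ c α φ i ≤
      ENNReal.ofReal (Kc B.R Γ c * θ + εs) := by
  classical
  have hM := Mc_pos B.R hc
  have hsub : 𝔍.filter (fun i => f ∈ B.YI i) ⊆
      (ixF B f).filter (fun i => B.okI i) := by
    intro i hi
    rw [Finset.mem_filter] at hi ⊢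
    exact ⟨mem_ixF (h𝔍 i hi.1) hi.2, h𝔍 i hi.1⟩
  have hΓ1 : (1 : ℝ≥0∞) ≤ ENNReal.ofReal Γ := by
    rw [← ENNReal.ofReal_one]; exact ENNReal.ofReal_le_ofReal hΓ
  obtain ⟨X, hX⟩ : ∃ X : ℝ, X = Γ ^ m0 B.R * (12 * θ * Mc B.R c) := ⟨_, rfl⟩
  have hX0 : 0 ≤ X := by rw [hX]; positivity
  -- pointwise bound
  set bd : Ix G κ → ℝ≥0∞ := fun i => match i with
    | .inr (.inr (.inr k)) => ENNReal.ofReal Γ ^ (B.Ys k).card * (α k * φ k)
    | _ => ENNReal.ofReal X with hbd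
  have hpt : ∀ i, B.okI i → ENNReal.ofReal Γ ^ (B.YI i).card * aW B θ c α φ i ≤ bd i := by
    intro i hi
    have hcard := card_YI_le hS.card hi
    have key : ENNReal.ofReal Γ ^ (B.YI i).card * ENNReal.ofReal (12 * θ * Mc B.R c) ≤
        ENNReal.ofReal X := by
      rw [hX, ENNReal.ofReal_mul (p := Γ ^ m0 B.R) (by positivity),
        ENNReal.ofReal_pow (by linarith)]
      exact mul_le_mul_left (pow_le_pow_right₀ hΓ1 hcard) _
    rcases i with p | g | e | k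
    · exact key
    · exact key
    · exact key
    · exact le_rfl
  calc ∑ i ∈ 𝔍 with f ∈ B.YI i, ENNReal.ofReal Γ ^ (B.YI i).card * aW B θ c α φ i
      ≤ ∑ i ∈ (ixF B f).filter (fun i => B.okI i),
          ENNReal.ofReal Γ ^ (B.YI i).card * aW B θ c α φ i := Finset.sum_le_sum_of_subset hsub
    _ ≤ ∑ i ∈ (ixF B f).filter (fun i => B.okI i), bd i :=
        Finset.sum_le_sum fun i hi => hpt i (Finset.mem_filter.1 hi).2
    _ ≤ ∑ i ∈ ixF B f, bd i := Finset.sum_le_sum_of_subset (Finset.filter_subset _ _)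
    _ = (∑ _p ∈ shpF B.R f, ENNReal.ofReal X) + (ENNReal.ofReal X +
          ((∑ _e ∈ edgF f, ENNReal.ofReal X) +
            ∑ k with f ∈ B.Ys k, ENNReal.ofReal Γ ^ (B.Ys k).card * (α k * φ k))) := by
        unfold ixF
        rw [Finset.sum_disjSum, Finset.sum_disjSum, Finset.sum_disjSum, Finset.sum_singleton]
    _ ≤ (((Can B.R).card * m0 B.R : ℕ) : ℝ≥0∞) * ENNReal.ofReal X + (ENNReal.ofReal X +
          (4 * ENNReal.ofReal X + ENNReal.ofReal εs)) := by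
        refine add_le_add ?_ (add_le_add le_rfl (add_le_add ?_ (hS.tot f)))
        · rw [Finset.sum_const, nsmul_eq_mul]
          gcongr
          exact_mod_cast card_shpF B.R f
        · rw [Finset.sum_const, nsmul_eq_mul]
          gcongr
          exact_mod_cast card_edgF f
    _ = ENNReal.ofReal ((((Can B.R).card * m0 B.R : ℕ) : ℝ) * X + (X + (4 * X + εs))) := by
        rw [ENNReal.ofReal_add (by positivity) (by positivity), ENNReal.ofReal_add (by positivity)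
          (by positivity), ENNReal.ofReal_add (by positivity) hεs,
          ENNReal.ofReal_mul (by positivity), ENNReal.ofReal_mul (by norm_num),
          ENNReal.ofReal_natCast, ENNReal.ofReal_ofNat]
    _ ≤ _ := by
        refine ENNReal.ofReal_le_ofReal (le_of_eq ?_)
        rw [hX]
        unfold Kc
        push_cast
        ring

end count

/-! ### the bounds -/

section main
variable {G : Type*} [CommRing G] [DecidableEq G]
variable {A : Type*} [CommRing A] [Algebra ℝ A] {κ : Type*} [DecidableEq κ] [Fintype κ]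
variable {fr : Fr G A} {B B' : Bk G κ A} {N : Finset (G × G) → A → ℝ≥0∞} {c θ Γ εs : ℝ}
variable {α φ : κ → ℝ≥0∞}

theorem αt_top (hS : SHyp B N c Γ εs α φ) (i : Ix G κ) : αW θ c α i ≠ ∞ := by
  rcases i with p | f | e | k
  · exact ENNReal.one_ne_top
  · exact ENNReal.ofReal_ne_top
  · exact ENNReal.ofReal_ne_top
  · exact hS.αt k

theorem δt_top (i : Ix G κ) : δW θ c i ≠ ∞ := by
  rcases i with p | f | e | k
  · exact ENNReal.zero_ne_top
  · exact ENNReal.ofReal_ne_top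
  · exact ENNReal.ofReal_ne_top
  · exact ENNReal.zero_ne_top

theorem φt_top (hS : SHyp B N c Γ εs α φ) (i : Ix G κ) : φW B θ c φ i ≠ ∞ := by
  rcases i with p | f | e | k
  · exact ENNReal.ofReal_ne_top
  · exact ENNReal.one_ne_top
  · exact ENNReal.one_ne_top
  · exact hS.φt k

theorem ψt_top (i : Ix G κ) : ψW B θ c i ≠ ∞ := by
  rcases i with p | f
  · exact ENNReal.ofReal_ne_top
  · exact ENNReal.zero_ne_top

/-- norm of the weights of the item sets -/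
theorem w_bound (hN : NHyp fr N c) (hB : BHyp B θ) (hS : SHyp B N c Γ εs α φ)
    {𝔍 : Finset (Ix G κ)} (h𝔍 : ∀ i ∈ 𝔍, B.okI i) (T : Finset {i // i ∈ 𝔍}) :
    N (supp (B.dat fr 𝔍 h𝔍).Y T) ((B.dat fr 𝔍 h𝔍).items.w T) ≤
      ∏ i ∈ T, aW B θ c α φ i.1 := by
  have hc := hN.c1
  have hw : (1 : ℝ≥0∞) ≤ ENNReal.ofReal (wc c) := by
    rw [← ENNReal.ofReal_one]; exact ENNReal.ofReal_le_ofReal (wc_one hc)
  have hgw : (1 + 8 * c) ≤ wc c := by unfold wc; linarith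
  set U := supp (B.dat fr 𝔍 h𝔍).Y T with hU
  have hYU : ∀ i ∈ T, B.YI i.1 ⊆ U := fun i hi =>
    Finset.subset_biUnion_of_mem (B.dat fr 𝔍 h𝔍).Y hi
  refine ((B.dat fr 𝔍 h𝔍).w_le (hN.semi U) T (c := fun _ => ENNReal.ofReal (wc c))
    (fun _ => ENNReal.ofReal_ne_top) (fun _ => hw) ?_ (fun i => αW θ c α i.1)
    (fun i => φW B θ c φ i.1) (fun i _ => αt_top hS i.1) (fun i _ => φt_top hS i.1) ?_ ?_).trans ?_
  · intro e he
    exact (g_le hN hB U e he).trans (ENNReal.ofReal_le_ofReal hgw)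
  · intro i hi
    exact a_le hN hB hS.a U i.1 (hYU i hi)
  · intro i hi
    exact F_le hc hB hS.F i.1 (h𝔍 _ i.2)
  · exact Finset.prod_le_prod' fun i _ => W_le' hB.θ0 hc α φ i.1

/-- norm of the differences of the weights -/
theorem w_sub_bound (hN : NHyp fr N c) (hB : BHyp B θ) (hB' : BHyp B' θ)
    (hS : SHyp B N c Γ εs α φ) {δ : ℝ} (hR : B'.R = B.R) (hYs : B'.Ys = B.Ys)
    (hy : B'.y = B.y) (has : B'.as = B.as) (hFs : B'.Fs = B.Fs)
    (hs : ∀ f, |B.s f - B'.s f| ≤ δ)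
    (ht : ∀ S ∈ Can B.R, Even S.card → |B.t S - B'.t S| ≤ δ)
    {η : ℝ} (hη : δ ≤ η * θ) (hη0 : 0 ≤ η)
    {𝔍 : Finset (Ix G κ)} (h𝔍 : ∀ i ∈ 𝔍, B.okI i) (h𝔍' : ∀ i ∈ 𝔍, B'.okI i)
    (T : Finset {i // i ∈ 𝔍}) :
    N (supp (B.dat fr 𝔍 h𝔍).Y T) ((B.dat fr 𝔍 h𝔍).items.w T - (B'.dat fr 𝔍 h𝔍').items.w T) ≤
      (3 * ENNReal.ofReal η) * ∏ i ∈ T, aW B θ c α φ i.1 := by
  have hc := hN.c1
  have h0 := hB.θ0
  have h1 := hB.θ1
  have hYI : B'.YI = B.YI := by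
    funext i
    rcases i with p | f | e | k
    · rfl
    · rfl
    · rfl
    · change B'.Ys k = B.Ys k
      rw [hYs]
  have hw : (1 : ℝ≥0∞) ≤ ENNReal.ofReal (1 + 8 * c) := by
    rw [← ENNReal.ofReal_one]; exact ENNReal.ofReal_le_ofReal (by linarith)
  have hsum : ENNReal.ofReal (1 + 8 * c) + ENNReal.ofReal (1 + 8 * c) =
      ENNReal.ofReal (wc c) := by
    rw [← ENNReal.ofReal_add (by linarith) (by linarith)]
    unfold wc; congr 1; ring
  set U := supp (B.dat fr 𝔍 h𝔍).Y T with hU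
  have hYU : ∀ i ∈ T, B.YI i.1 ⊆ U := fun i hi =>
    Finset.subset_biUnion_of_mem (B.dat fr 𝔍 h𝔍).Y hi
  have hYU' : ∀ i ∈ T, B'.YI i.1 ⊆ U := fun i hi => by rw [hYI]; exact hYU i hi
  have hαeq : ∀ k U, B'.Ys k ⊆ U → N U (B'.as k) ≤ α k := fun k U h => by
    rw [has]; exact hS.a k U (by rw [← hYs]; exact h)
  have hφeq : ∀ k, nmE (fun _ => ENNReal.ofReal (wc c)) (B'.Fs k) ≤ φ k := fun k => by
    rw [hFs]; exact hS.F k
  have hφW : φW B' θ c φ = φW B θ c φ := by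
    funext i
    rcases i with p | f | e | k
    · change ENNReal.ofReal (6 * θ * Mc B'.R c) = ENNReal.ofReal (6 * θ * Mc B.R c)
      rw [hR]
    · rfl
    · rfl
    · rfl
  refine ((B.dat fr 𝔍 h𝔍).w_lip (B'.dat fr 𝔍 h𝔍') rfl ?_ (hN.semi U) T
    (c := fun _ => ENNReal.ofReal (1 + 8 * c)) (d := fun _ => ENNReal.ofReal (1 + 8 * c))
    (η := ENNReal.ofReal η) ENNReal.ofReal_ne_top
    (fun _ => ENNReal.ofReal_ne_top) (fun _ => ENNReal.ofReal_ne_top) (fun _ => hw)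
    ?_ ?_ ?_ (fun i => αW θ c α i.1) (fun i => δW θ c i.1)
    (fun i => φW B θ c φ i.1) (fun i => ψW B θ c i.1)
    (fun i _ => αt_top hS i.1) (fun i _ => δt_top i.1) (fun i _ => φt_top hS i.1)
    (fun i _ => ψt_top i.1) ?_ ?_ ?_ ?_ ?_ ?_).trans ?_
  · funext i
    change B'.YI i.1 = B.YI i.1
    rw [hYI]
  · intro e he
    exact g_le hN hB U e he
  · intro e he
    exact g_le hN hB' U e he
  · intro e he
    refine (g_sub_le hN hB hB' hy hs U e he).trans ?_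
    rw [← ENNReal.ofReal_mul hη0]
    refine ENNReal.ofReal_le_ofReal ?_
    have h2 : 8 * δ * c ≤ 8 * (η * θ) * c := by
      have := mul_le_mul_of_nonneg_right hη (by linarith : (0 : ℝ) ≤ 8 * c)
      linarith
    have h3 : η * θ ≤ η := by nlinarith
    have h4 : 8 * (η * θ) * c ≤ 8 * η * c := by
      have := mul_le_mul_of_nonneg_right h3 (by linarith : (0 : ℝ) ≤ 8 * c)
      linarith
    nlinarith
  · intro i hi
    exact a_le hN hB hS.a U i.1 (hYU i hi)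
  · intro i hi
    exact a_le hN hB' hαeq U i.1 (hYU' i hi)
  · intro i hi
    exact a_sub_le hN hB hB' hy has hs U i.1 (hYU i hi) hη hη0
  · intro i hi
    simp only [hsum]
    exact F_le hc hB hS.F i.1 (h𝔍 _ i.2)
  · intro i hi
    simp only [hsum]
    rw [← hφW]
    exact F_le hc hB' hφeq i.1 (h𝔍' _ i.2)
  · intro i hi
    simp only [hsum]
    exact F_sub_le hc hB hB' hR hFs ht i.1 (h𝔍 _ i.2) hη hη0
  · gcongr with i _
    exact W_le hB.θ0 hc α φ i.1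

theorem aG_sum_le (hθ : 0 ≤ θ) (hc : 1 ≤ c) (hΓ : 1 ≤ Γ) (hεs : 0 ≤ εs)
    (hS : SHyp B N c Γ εs α φ) {𝔍 : Finset (Ix G κ)} (h𝔍 : ∀ i ∈ 𝔍, B.okI i) (f : G × G) :
    ∑ i : {i // i ∈ 𝔍} with f ∈ (B.dat fr 𝔍 h𝔍).Y i,
      aG (ENNReal.ofReal Γ) (B.dat fr 𝔍 h𝔍).Y (fun i => aW B θ c α φ i.1) i ≤
      ENNReal.ofReal (Kc B.R Γ c * θ + εs) := by
  classical
  refine le_trans (le_of_eq ?_) (face_sum_le hθ hc hΓ hεs hS h𝔍 f)
  unfold aG
  rw [Finset.sum_filter, Finset.sum_filter]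
  exact Finset.sum_coe_sort 𝔍 (fun i => if f ∈ B.YI i then
    ENNReal.ofReal Γ ^ (B.YI i).card * aW B θ c α φ i else 0)

theorem Kc_nonneg (R : ℕ) {Γ c : ℝ} (hΓ : 1 ≤ Γ) (hc : 1 ≤ c) : 0 ≤ Kc R Γ c := by
  have := Mc_pos R hc
  unfold Kc
  positivity

/-- an ambient set of labels for a finite family of face sets -/
theorem exists_amb (B : Bk G κ A) (𝒮 : Finset (Finset (G × G))) :
    ∃ Λ : Finset (G × G), ∀ U ∈ 𝒮, B.ixs U ⊆ B.ixs Λ :=
  ⟨𝒮.biUnion id, fun _ hU => B.ixs_mono (Finset.subset_biUnion_of_mem id hU)⟩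

/-- **bound of the initial activities** -/
theorem K0_bound (hN : NHyp fr N c) (hB : BHyp B θ) (hΓ : 1 ≤ Γ) (hεs : 0 ≤ εs)
    (hS : SHyp B N c Γ εs α φ) (hsm : 4 * (Kc B.R Γ c * θ + εs) * m0 B.R ≤ 1) (f : G × G)
    (𝒮 : Finset (Finset (G × G))) :
    ∑ U ∈ 𝒮 with f ∈ U, ENNReal.ofReal Γ ^ U.card * N U (B.K0 fr U) ≤
      ENNReal.ofReal (2 * (Kc B.R Γ c * θ + εs)) := by
  classical
  have hΓ1 : (1 : ℝ≥0∞) ≤ ENNReal.ofReal Γ := by
    rw [← ENNReal.ofReal_one]; exact ENNReal.ofReal_le_ofReal hΓ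
  have hε0 : 0 ≤ Kc B.R Γ c * θ + εs := by
    have := Kc_nonneg B.R hΓ hN.c1
    have := hB.θ0
    positivity
  obtain ⟨Λ, hΛ⟩ := exists_amb B 𝒮
  have key := actN_bound (B.dat fr (B.ixs Λ) B.ixs_ok).items (fun U => (hN.semi U).nsum)
    (ENNReal.ofReal Γ) hΓ1 (fun i => aW B θ c α φ i.1)
    (fun T => w_bound hN hB hS B.ixs_ok T) f 𝒮
  refine le_trans (le_of_eq ?_) (key.trans (tot_bound _ _ hε0
    (fun i => card_YI_le hS.card (B.ixs_ok _ i.2))
    (fun f => aG_sum_le (fr := fr) hB.θ0 hN.c1 hΓ hεs hS B.ixs_ok f) hsm f))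
  refine Finset.sum_congr rfl fun U hU => ?_
  rw [act_dat_eq fr B B.ixs_ok (hΛ U (Finset.mem_filter.1 hU).1)]

/-- **second order bound of the initial activities** -/
theorem K0_quad (hN : NHyp fr N c) (hB : BHyp B θ) (hΓ : 1 ≤ Γ) (hεs : 0 ≤ εs)
    (hS : SHyp B N c Γ εs α φ) (hsm : 4 * (Kc B.R Γ c * θ + εs) * m0 B.R ≤ 1) (f : G × G)
    (𝒮 : Finset (Finset (G × G))) :
    ∑ U ∈ 𝒮 with f ∈ U, ENNReal.ofReal Γ ^ U.card * N U (B.K0 fr U - K01 fr B U) ≤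
      ENNReal.ofReal (4 * m0 B.R * (Kc B.R Γ c * θ + εs) ^ 2) := by
  classical
  have hΓ1 : (1 : ℝ≥0∞) ≤ ENNReal.ofReal Γ := by
    rw [← ENNReal.ofReal_one]; exact ENNReal.ofReal_le_ofReal hΓ
  have hε0 : 0 ≤ Kc B.R Γ c * θ + εs := by
    have := Kc_nonneg B.R hΓ hN.c1
    have := hB.θ0
    positivity
  obtain ⟨Λ, hΛ⟩ := exists_amb B 𝒮
  have key := actN_quad (B.dat fr (B.ixs Λ) B.ixs_ok).items (fun U => (hN.semi U).nsum)
    (ENNReal.ofReal Γ) hΓ1 (fun i => aW B θ c α φ i.1)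
    (fun T => w_bound hN hB hS B.ixs_ok T) f 𝒮
  refine le_trans (le_of_eq ?_) (key.trans (tot2_bound _ _ hε0
    (fun i => card_YI_le hS.card (B.ixs_ok _ i.2))
    (fun f => aG_sum_le (fr := fr) hB.θ0 hN.c1 hΓ hεs hS B.ixs_ok f) hsm f))
  refine Finset.sum_congr rfl fun U hU => ?_
  rw [act_dat_eq fr B B.ixs_ok (hΛ U (Finset.mem_filter.1 hU).1),
    act1_dat_eq fr B B.ixs_ok (hΛ U (Finset.mem_filter.1 hU).1)]

/-- the two backgrounds have the same labels, bonds and sources -/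
structure Same (B B' : Bk G κ A) : Prop where
  R : B'.R = B.R
  Ys : B'.Ys = B.Ys
  y : B'.y = B.y
  as : B'.as = B.as
  Fs : B'.Fs = B.Fs
  ok : B'.ok = B.ok

theorem Same.okI (h : Same B B') {i : Ix G κ} : B'.okI i ↔ B.okI i := by
  rcases i with p | f | e | k
  · change ((p.2 ∈ Can B'.R ∧ Even p.2.card) ∧ B'.ok p.1 p.2) ↔
      ((p.2 ∈ Can B.R ∧ Even p.2.card) ∧ B.ok p.1 p.2)
    rw [h.R, h.ok]
  · exact Iff.rfl
  · exact Iff.rfl
  · change (B'.Ys k).Nonempty ↔ (B.Ys k).Nonempty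
    rw [h.Ys]

theorem Same.YI (h : Same B B') (i : Ix G κ) : B'.YI i = B.YI i := by
  rcases i with p | f | e | k
  · rfl
  · rfl
  · rfl
  · change B'.Ys k = B.Ys k
    rw [h.Ys]

theorem Same.ixs (h : Same B B') (U : Finset (G × G)) : B'.ixs U = B.ixs U := by
  ext i
  rw [B'.mem_ixs, B.mem_ixs, h.okI, h.YI]

/-- **Lipschitz bound of the initial activities** -/
theorem K0_lip (hN : NHyp fr N c) (hB : BHyp B θ) (hB' : BHyp B' θ) (hΓ : 1 ≤ Γ) (hεs : 0 ≤ εs)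
    (hS : SHyp B N c Γ εs α φ) (hsm : 4 * (Kc B.R Γ c * θ + εs) * m0 B.R ≤ 1)
    (h : Same B B') {δ : ℝ} (hs : ∀ f, |B.s f - B'.s f| ≤ δ)
    (ht : ∀ S ∈ Can B.R, Even S.card → |B.t S - B'.t S| ≤ δ)
    {η : ℝ} (hη : δ ≤ η * θ) (hη0 : 0 ≤ η) (f : G × G) (𝒮 : Finset (Finset (G × G))) :
    ∑ U ∈ 𝒮 with f ∈ U, ENNReal.ofReal Γ ^ U.card * N U (B.K0 fr U - B'.K0 fr U) ≤
      ENNReal.ofReal (6 * η * (Kc B.R Γ c * θ + εs)) := by
  classical
  have hΓ1 : (1 : ℝ≥0∞) ≤ ENNReal.ofReal Γ := by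
    rw [← ENNReal.ofReal_one]; exact ENNReal.ofReal_le_ofReal hΓ
  have hε0 : 0 ≤ Kc B.R Γ c * θ + εs := by
    have := Kc_nonneg B.R hΓ hN.c1
    have := hB.θ0
    positivity
  obtain ⟨Λ, hΛ⟩ := exists_amb B 𝒮
  have hok' : ∀ i ∈ B.ixs Λ, B'.okI i := fun i hi => h.okI.2 (B.ixs_ok i hi)
  have key := actN_lip (B.dat fr (B.ixs Λ) B.ixs_ok).items (B'.dat fr (B.ixs Λ) hok').items
    (by funext i; exact h.YI i.1) (fun U => (hN.semi U).nsum)
    (ENNReal.ofReal Γ) hΓ1 (fun i => aW B θ c α φ i.1) (3 * ENNReal.ofReal η)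
    (fun T => w_sub_bound hN hB hB' hS h.R h.Ys h.y h.as h.Fs hs ht hη hη0 B.ixs_ok hok' T) f 𝒮
  have h3 : (3 * ENNReal.ofReal η) * ENNReal.ofReal (2 * (Kc B.R Γ c * θ + εs)) =
      ENNReal.ofReal (6 * η * (Kc B.R Γ c * θ + εs)) := by
    rw [← ENNReal.ofReal_ofNat (n := 3), ← ENNReal.ofReal_mul (by norm_num),
      ← ENNReal.ofReal_mul (by positivity)]
    congr 1; ring
  rw [← h3]
  refine le_trans (le_of_eq ?_) (key.trans (mul_le_mul_right (tot_bound _ _ hε0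
    (fun i => card_YI_le hS.card (B.ixs_ok _ i.2))
    (fun f => aG_sum_le (fr := fr) hB.θ0 hN.c1 hΓ hεs hS B.ixs_ok f) hsm f) _))
  refine Finset.sum_congr rfl fun U hU => ?_
  rw [act_dat_eq fr B B.ixs_ok (hΛ U (Finset.mem_filter.1 hU).1),
    act_dat_eq fr B' hok' (by rw [h.ixs]; exact hΛ U (Finset.mem_filter.1 hU).1)]

/-- **second order Lipschitz bound of the initial activities** -/
theorem K0_lip2 (hN : NHyp fr N c) (hB : BHyp B θ) (hB' : BHyp B' θ) (hΓ : 1 ≤ Γ)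
    (hεs : 0 ≤ εs)
    (hS : SHyp B N c Γ εs α φ) (hsm : 4 * (Kc B.R Γ c * θ + εs) * m0 B.R ≤ 1)
    (h : Same B B') {δ : ℝ} (hs : ∀ f, |B.s f - B'.s f| ≤ δ)
    (ht : ∀ S ∈ Can B.R, Even S.card → |B.t S - B'.t S| ≤ δ)
    {η : ℝ} (hη : δ ≤ η * θ) (hη0 : 0 ≤ η) (f : G × G) (𝒮 : Finset (Finset (G × G))) :
    ∑ U ∈ 𝒮 with f ∈ U, ENNReal.ofReal Γ ^ U.card *
      N U ((B.K0 fr U - K01 fr B U) - (B'.K0 fr U - K01 fr B' U)) ≤
      ENNReal.ofReal (12 * η * m0 B.R * (Kc B.R Γ c * θ + εs) ^ 2) := by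
  classical
  have hΓ1 : (1 : ℝ≥0∞) ≤ ENNReal.ofReal Γ := by
    rw [← ENNReal.ofReal_one]; exact ENNReal.ofReal_le_ofReal hΓ
  have hε0 : 0 ≤ Kc B.R Γ c * θ + εs := by
    have := Kc_nonneg B.R hΓ hN.c1
    have := hB.θ0
    positivity
  obtain ⟨Λ, hΛ⟩ := exists_amb B 𝒮
  have hok' : ∀ i ∈ B.ixs Λ, B'.okI i := fun i hi => h.okI.2 (B.ixs_ok i hi)
  have key := actN_lip2 (B.dat fr (B.ixs Λ) B.ixs_ok).items (B'.dat fr (B.ixs Λ) hok').items
    (by funext i; exact h.YI i.1) (fun U => (hN.semi U).nsum)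
    (ENNReal.ofReal Γ) hΓ1 (fun i => aW B θ c α φ i.1) (3 * ENNReal.ofReal η)
    (fun T => w_sub_bound hN hB hB' hS h.R h.Ys h.y h.as h.Fs hs ht hη hη0 B.ixs_ok hok' T) f 𝒮
  have h3 : (3 * ENNReal.ofReal η) * ENNReal.ofReal (4 * m0 B.R * (Kc B.R Γ c * θ + εs) ^ 2) =
      ENNReal.ofReal (12 * η * m0 B.R * (Kc B.R Γ c * θ + εs) ^ 2) := by
    rw [← ENNReal.ofReal_ofNat (n := 3), ← ENNReal.ofReal_mul (by norm_num),
      ← ENNReal.ofReal_mul (by positivity)]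
    congr 1; ring
  rw [← h3]
  refine le_trans (le_of_eq ?_) (key.trans (mul_le_mul_right (tot2_bound _ _ hε0
    (fun i => card_YI_le hS.card (B.ixs_ok _ i.2))
    (fun f => aG_sum_le (fr := fr) hB.θ0 hN.c1 hΓ hεs hS B.ixs_ok f) hsm f) _))
  refine Finset.sum_congr rfl fun U hU => ?_
  have hU1 := hΛ U (Finset.mem_filter.1 hU).1
  have hU2 : B'.ixs U ⊆ B.ixs Λ := by rw [h.ixs]; exact hU1
  rw [act_dat_eq fr B B.ixs_ok hU1, act_dat_eq fr B' hok' hU2,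
    act1_dat_eq fr B B.ixs_ok hU1, act1_dat_eq fr B' hok' hU2]

end main

end Crest.Agent.R165.J4K0Bx126
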