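import Crest.Agent.R165.J4K0Map_126

/-!
# Row 165 (S0250), block J4: dropping dead labels, transport along live labels (helper126)

* `act_dat_sum` : the activity of `B.dat fr 𝔍 h` as a sum over subsets of `𝔍`
* `act_drop`    : labels with `aI = 0` or `FI = 0` can be dropped
* `dat_map`     : transport of activities along a bijection of label sets
-/

set_option autoImplicit false
set_option linter.unusedSectionVars false

noncomputable section

open Finset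

namespace Crest.Agent.R165.J4K0Dx126
open Crest.Agent.R165.KCompx892 Crest.Agent.R165.J4Actx126
open Crest.Agent.R165.J4Datx126 Crest.Agent.R165.J4Geox126 Crest.Agent.R165.J4K0x126
open Crest.Agent.R165.J4K0Mapx126
open Crest.Agent.R165.J4Defx653 Crest.Agent.R165.J4Pathx653
open Crest.Agent.R165.J4RRx653 Crest.Agent.R165.J4RRAx653
open Crest.Agent.R165.J1ax606 (HE EG pe qe pe_zero pe_one qe_zero qe_one)

variable {G : Type*} [CommRing G] [DecidableEq G]
variable {A : Type*} [CommRing A] [Algebra ℝ A] {κ : Type*} [DecidableEq κ]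

/-- weight of a finite set of labels -/
def wJ (fr : Fr G A) (B : Bk G κ A) (T : Finset (Ix G κ)) : A :=
  (∏ i ∈ T, B.aI fr i) * TH (B.g fr) (∏ i ∈ T, B.FI i)

theorem wJ_zero {fr : Fr G A} {B : Bk G κ A} {T : Finset (Ix G κ)} {i : Ix G κ} (hi : i ∈ T)
    (h : B.aI fr i = 0 ∨ B.FI i = 0) : wJ fr B T = 0 := by
  unfold wJ
  rcases h with h | h
  · rw [Finset.prod_eq_zero hi h, zero_mul]
  · rw [Finset.prod_eq_zero hi h, map_zero, mul_zero]

open Classical in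
/-- the activity as a sum over subsets of the label set -/
theorem act_dat_sum (fr : Fr G A) (B : Bk G κ A) (𝔍 : Finset (Ix G κ)) (h𝔍 : ∀ i ∈ 𝔍, B.okI i)
    (U : Finset (G × G)) : (B.dat fr 𝔍 h𝔍).items.act U =
      ∑ T ∈ 𝔍.powerset with Conn (touch B.YI) T ∧ supp B.YI T = U, wJ fr B T := by
  have hv : Function.Injective (Subtype.val : {i // i ∈ 𝔍} → Ix G κ) := Subtype.val_injective
  have hsupp : ∀ T : Finset {i // i ∈ 𝔍},
      supp B.YI (T.image Subtype.val) = supp (B.dat fr 𝔍 h𝔍).items.Y T := by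
    intro T
    have := supp_image (Y := (B.dat fr 𝔍 h𝔍).items.Y) (Y' := B.YI) (e := Subtype.val)
      (ψ := fun f => f) (T := T) (fun i _ => (Finset.image_id').symm)
    rw [this, Finset.image_id']
  have hconn : ∀ T : Finset {i // i ∈ 𝔍},
      Conn (touch B.YI) (T.image Subtype.val) ↔ Conn (touch (B.dat fr 𝔍 h𝔍).items.Y) T := by
    intro T
    exact conn_image hv.injOn fun i _ j _ => Iff.rfl
  unfold Items.act
  refine Finset.sum_nbij' (fun T => T.image Subtype.val) (fun T => T.subtype (· ∈ 𝔍)) ?_ ?_ ?_ ?_ ?_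
  · intro T hT
    rw [Finset.mem_filter] at hT ⊢
    refine ⟨?_, (hconn T).2 hT.2.1, by rw [hsupp]; exact hT.2.2⟩
    rw [Finset.mem_powerset]
    intro i hi
    obtain ⟨j, -, rfl⟩ := Finset.mem_image.1 hi
    exact j.2
  · intro T hT
    rw [Finset.mem_filter, Finset.mem_powerset] at hT
    have e : (T.subtype (· ∈ 𝔍)).image Subtype.val = T := by
      ext i
      rw [Finset.mem_image]
      constructor
      · rintro ⟨j, hj, rfl⟩
        exact (Finset.mem_subtype.1 hj)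
      · intro hi
        exact ⟨⟨i, hT.1 hi⟩, Finset.mem_subtype.2 hi, rfl⟩
    rw [Finset.mem_filter]
    refine ⟨Finset.mem_univ _, ?_, ?_⟩
    · rw [← hconn, e]; exact hT.2.1
    · rw [← hsupp, e]; exact hT.2.2
  · intro T _
    ext i
    rw [Finset.mem_subtype, Finset.mem_image]
    constructor
    · rintro ⟨j, hj, hij⟩
      rw [hv hij] at hj
      exact hj
    · intro hi
      exact ⟨i, hi, rfl⟩
  · intro T hT
    rw [Finset.mem_filter, Finset.mem_powerset] at hT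
    ext i
    rw [Finset.mem_image]
    constructor
    · rintro ⟨j, hj, rfl⟩
      exact (Finset.mem_subtype.1 hj)
    · intro hi
      exact ⟨⟨i, hT.1 hi⟩, Finset.mem_subtype.2 hi, rfl⟩
  · intro T _
    rw [Dat.w_eq]
    unfold wJ
    rw [Finset.prod_image hv.injOn, Finset.prod_image hv.injOn]
    rfl

/-- **dead labels can be dropped** -/
theorem act_drop (fr : Fr G A) (B : Bk G κ A) {𝔍 𝔍' : Finset (Ix G κ)} (hsub : 𝔍' ⊆ 𝔍)
    (h𝔍 : ∀ i ∈ 𝔍, B.okI i) (h𝔍' : ∀ i ∈ 𝔍', B.okI i) {U : Finset (G × G)}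
    (hd : ∀ i ∈ 𝔍, B.YI i ⊆ U → i ∉ 𝔍' → B.aI fr i = 0 ∨ B.FI i = 0) :
    (B.dat fr 𝔍 h𝔍).items.act U = (B.dat fr 𝔍' h𝔍').items.act U := by
  classical
  rw [act_dat_sum, act_dat_sum]
  symm
  refine Finset.sum_subset ?_ ?_
  · intro T hT
    rw [Finset.mem_filter, Finset.mem_powerset] at hT ⊢
    exact ⟨hT.1.trans hsub, hT.2⟩
  · intro T hT hT'
    rw [Finset.mem_filter, Finset.mem_powerset] at hT hT'
    have h1 : ¬ T ⊆ 𝔍' := fun h => hT' ⟨h, hT.2⟩
    obtain ⟨i, hi, hi'⟩ := Finset.not_subset.1 h1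
    exact wJ_zero hi (hd i (hT.1 hi) (supp_subset_iff.1 hT.2.2.le i hi) hi')

/-- dropping for the initial activities -/
theorem K0_drop [Fintype κ] (fr : Fr G A) (B : Bk G κ A) {U : Finset (G × G)}
    {𝔍 : Finset (Ix G κ)} (hsub : 𝔍 ⊆ B.ixs U) (h𝔍 : ∀ i ∈ 𝔍, B.okI i)
    (hd : ∀ i, B.okI i → B.YI i ⊆ U → i ∉ 𝔍 → B.aI fr i = 0 ∨ B.FI i = 0) :
    B.K0 fr U = (B.dat fr 𝔍 h𝔍).items.act U :=
  act_drop fr B hsub B.ixs_ok h𝔍 fun i hi hiU hi' => hd i (B.ixs_ok i hi) hiU hi'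

section map
variable {G' : Type*} [CommRing G'] [DecidableEq G']
variable {A' : Type*} [CommRing A'] [Algebra ℝ A'] {κ' : Type*} [DecidableEq κ']

/-- **transport of activities along a bijection of label sets** -/
theorem dat_map {fr : Fr G A} {B : Bk G κ A} {fr' : Fr G' A'} {B' : Bk G' κ' A'}
    {ψ : G × G → G' × G'} {eb : EG G → EG G'} {m : Ix G κ → Ix G' κ'} {τ : A →ₐ[ℝ] A'}
    {U : Finset (G × G)} {𝔍 : Finset (Ix G κ)} {𝔍' : Finset (Ix G' κ')}
    (h𝔍 : ∀ i ∈ 𝔍, B.okI i) (h𝔍' : ∀ i ∈ 𝔍', B'.okI i) (hU : ∀ i ∈ 𝔍, B.YI i ⊆ U)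
    (face : Set.InjOn ψ U) (einj : Set.InjOn eb {e | faE e ⊆ U})
    (g : ∀ e, faE e ⊆ U → τ (B.g fr e) = B'.g fr' (eb e))
    (mem : ∀ i ∈ 𝔍, m i ∈ 𝔍') (minj : Set.InjOn m 𝔍) (surj : ∀ i' ∈ 𝔍', ∃ i ∈ 𝔍, m i = i')
    (Y : ∀ i ∈ 𝔍, B'.YI (m i) = (B.YI i).image ψ)
    (a : ∀ i ∈ 𝔍, τ (B.aI fr i) = B'.aI fr' (m i))
    (F : ∀ i ∈ 𝔍, B'.FI (m i) = em eb (B.FI i)) :
    τ ((B.dat fr 𝔍 h𝔍).items.act U) = (B'.dat fr' 𝔍' h𝔍').items.act (U.image ψ) := by
  have hinj : Function.Injective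
      (fun i : {i // i ∈ 𝔍} => (⟨m i.1, mem i.1 i.2⟩ : {i // i ∈ 𝔍'})) := by
    intro i j hij
    have : m i.1 = m j.1 := congrArg Subtype.val hij
    exact Subtype.ext (minj i.2 j.2 this)
  have key := act_transport (I := (B.dat fr 𝔍 h𝔍).items) (I' := (B'.dat fr' 𝔍' h𝔍').items)
    (ψ := ψ) (U := U) (e := fun i => (⟨m i.1, mem i.1 i.2⟩ : {i // i ∈ 𝔍'})) ?_
    (τ : A →+* A').toAddMonoidHom ?_
  · exact key
  · refine ⟨face, fun i _ j _ hij => hinj hij, fun i _ => ?_, fun i' hi' => ?_⟩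
    · exact Y _ i.2
    · obtain ⟨i, h1, h3⟩ := surj i'.1 i'.2
      exact ⟨⟨i, h1⟩, hU i h1, Subtype.ext h3⟩
  · intro T _
    change τ ((B.dat fr 𝔍 h𝔍).items.w T) = (B'.dat fr' 𝔍' h𝔍').items.w _
    rw [Dat.w_eq, Dat.w_eq, Finset.prod_image fun i _ j _ hij => hinj hij,
      Finset.prod_image fun i _ j _ hij => hinj hij, map_mul, map_prod]
    congr 1
    · refine Finset.prod_congr rfl fun i _ => ?_
      exact a _ i.2
    · have hFU : ∏ i ∈ T, (B.dat fr 𝔍 h𝔍).Fe i ∈ RIn {e : EG G | faE e ⊆ U} := by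
        refine Subalgebra.prod_mem _ fun i _ => ?_
        refine RIn_mono ?_ (B.FI_mem (h𝔍 i.1 i.2))
        intro e he
        exact Finset.Subset.trans he (hU i.1 i.2)
      change τ (TH (B.g fr) (∏ i ∈ T, (B.dat fr 𝔍 h𝔍).Fe i)) =
        TH (B'.g fr') (∏ i ∈ T, B'.FI (m i.1))
      have e1 : ∏ i ∈ T, B'.FI (m i.1) = em eb (∏ i ∈ T, (B.dat fr 𝔍 h𝔍).Fe i) := by
        rw [map_prod]
        exact Finset.prod_congr rfl fun i _ => F _ i.2
      rw [e1, TH_em_on einj _ hFU, TH_algHom]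
      exact TH_congr_of_mem (fun e he => g e he) hFU

end map

end Crest.Agent.R165.J4K0Dx126
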