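import Crest.Agent.R165.Quad3_897
import Crest.Agent.R165.KConn_892

/-!
# Row 165, block G, leaf INIT-R: reclustering of the initial activities (helper892)

The initial state of the flow is `ZZ (· = ·) Λ K₀` (J4, helper126).  Here it is reclustered at the
touching relation `near'` of the first scale:

* `K1 near' K₀ = KK (· = ·) near' K₀ 0`
* `ZZ_K1`      : `ZZ (· = ·) Λ K₀ = ZZ near' Λ (K1 near' K₀)`
* `K1_supp`, `K1_mem`, `K1_conn`, `K1_map`, `K1_congr`, `K1_empty`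
* `NN_card`    : the norm `NN d 0 Γ` is `sup_f ∑_{U ∋ f} Γ^|U| x U`
* `K1_NN`, `K1_sub_NN`, `K1_lip` : `N(K1) ≤ n' ε + n (3 n' ε)²`, `N(K1 - K₀) ≤ n (3 n' ε)²`,
  `N(K1 - K1') ≤ n' η + 4 n (3 n')² (ε + ε') η` in any family of norms
* `K1_NK`, `K1_NK_lip`, `K1_NK_sub` : the same on `GDefx387.NK`
-/

set_option autoImplicit false
set_option linter.unusedSectionVars false
set_option linter.unusedVariables false

open Finset
open scoped ENNReal

noncomputable section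

namespace Crest.Agent.R165.KInitx892

open Crest.Agent.R165.KCompx892 Crest.Agent.R165.KStepx892 Crest.Agent.R165.KMapx892
  Crest.Agent.R165.Quadx897 Crest.Agent.R165.Quad2x897 Crest.Agent.R165.Packx915
  Crest.Agent.R165.NSumx915

/-! ### the reclustered activities -/

section alg

variable {X : Type*} [DecidableEq X] {A : Type*} [CommRing A]

/-- the initial activities reclustered at the touching relation `near'` -/
def K1 (near' : X → X → Prop) (K₀ : Finset X → A) : Finset X → A :=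
  KK (fun a b => a = b) near' K₀ (fun _ => 0)

/-- **the identity** -/
theorem ZZ_K1 {near' : X → X → Prop} (hs : ∀ a b, near' a b → near' b a) (hr : ∀ a, near' a a)
    (Λ : Finset X) (K₀ : Finset X → A) :
    ZZ (fun a b => a = b) Λ K₀ = ZZ near' Λ (K1 near' K₀) := by
  have h := step (near := fun a b : X => a = b) (near' := near')
    (fun a b hab => by rw [hab]; exact hr b) hs hr Λ K₀ (fun _ => (0 : A))
  rw [K1, ← h]
  simp

theorem K1_eq {near' : X → X → Prop} (K₀ : Finset X → A) {W : Finset X} (hW : W.Nonempty) :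
    K1 near' K₀ W = K₀ W + QQ (fun a b => a = b) near' K₀ (fun _ => 0) W := by
  rw [K1, KK_eq_QQ hW, add_zero]

theorem K1_empty (near' : X → X → Prop) (K₀ : Finset X → A) : K1 near' K₀ ∅ = 0 :=
  KK_empty _ _ _ _

/-- supports do not grow -/
theorem K1_supp {near' : X → X → Prop} {Λ : Finset X} {K₀ : Finset X → A}
    (h : ∀ U, ¬ U ⊆ Λ → K₀ U = 0) {W : Finset X} (hW : ¬ W ⊆ Λ) : K1 near' K₀ W = 0 :=
  KFlowx337.Sys.KK_supp _ _ h (fun _ _ => rfl) hW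

/-- locality -/
theorem K1_mem [Algebra ℝ A] (G : Finset X → Subalgebra ℝ A)
    (hG : ∀ U W : Finset X, U ⊆ W → G U ≤ G W) (near' : X → X → Prop) {K₀ : Finset X → A}
    (W : Finset X) (hK : ∀ U ⊆ W, K₀ U ∈ G U) : K1 near' K₀ W ∈ G W :=
  KFlowx337.Sys.KK_mem G hG _ _ W hK (fun U _ => (G U).zero_mem)

theorem K1_congr {near' : X → X → Prop} {K₀ K₀' : Finset X → A} {W : Finset X}
    (h : ∀ U ⊆ W, U.Nonempty → K₀ U = K₀' U) : K1 near' K₀ W = K1 near' K₀' W :=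
  KK_congr h (fun _ _ _ => rfl)

/-- covariance -/
theorem K1_map {X' : Type*} [DecidableEq X'] {A' : Type*} [CommRing A'] {near₁ : X → X → Prop}
    {near₂ : X' → X' → Prop} {W : Finset X} {ψ : X → X'} {φ : X' → X}
    (h : PIso (fun a b => a = b) near₁ (fun a b => a = b) near₂ W ψ φ) (τ : A →+* A')
    {K₀ : Finset X → A} {K₀' : Finset X' → A'}
    (hK : ∀ U ⊆ W, U.Nonempty → τ (K₀ U) = K₀' (U.image ψ)) :
    τ (K1 near₁ K₀ W) = K1 near₂ K₀' (W.image ψ) :=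
  KK_map h τ hK (fun _ _ _ => by rw [map_zero])

/-- supports of `K1` are connected -/
theorem K1_conn {d : X → X → ℕ} (hd : PD d) {R R' : ℕ} (hRR : R ≤ R') {K₀ : Finset X → A}
    (hK : ∀ U, K₀ U ≠ 0 → Packx915.Conn d R U) {W : Finset X}
    (hW : K1 (fun a b => d a b ≤ R') K₀ W ≠ 0) : Packx915.Conn d R' W :=
  Quad2x897.KK_conn hd hRR hK (fun _ h => absurd rfl h) _ hW

end alg

/-! ### the norm at scale `0` counts faces -/

section card

variable {X : Type*} {d : X → X → ℕ}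

theorem sep_zero (h0 : ∀ a b, d a b = 0 → a = b) (U : Finset X) : Packx915.Sep d 0 U := by
  intro a _ b _ hab
  by_contra hcon
  exact hab (h0 a b (by omega))

theorem pack_card (h0 : ∀ a b, d a b = 0 → a = b) (U : Finset X) : pack d 0 U = U.card :=
  le_antisymm pack_le_card (card_le_pack (Finset.Subset.refl U) (sep_zero h0 U))

theorem near_mem (hd : PD d) (h0 : ∀ a b, d a b = 0 → a = b) (f : X) (U : Finset X) :
    near d 0 f U ↔ f ∈ U := by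
  constructor
  · rintro ⟨u, hu, hfu⟩
    rw [h0 f u (by omega)]
    exact hu
  · exact near_of_mem hd

theorem NN_card (hd : PD d) (h0 : ∀ a b, d a b = 0 → a = b) (Γ : ℝ≥0∞) (x : Finset X → ℝ≥0∞) :
    NN d 0 Γ x = ⨆ f, ∑' U, Set.indicator {U : Finset X | f ∈ U} (fun U => Γ ^ U.card * x U) U := by
  unfold NN bs
  refine iSup_congr fun f => tsum_congr fun U => ?_
  by_cases h : f ∈ U
  · rw [Set.indicator_of_mem (show U ∈ {U | near d 0 f U} from (near_mem hd h0 f U).2 h),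
      Set.indicator_of_mem (show U ∈ {U : Finset X | f ∈ U} from h), pack_card h0]
  · rw [Set.indicator_of_notMem (show U ∉ {U | near d 0 f U} from fun h' =>
        h ((near_mem hd h0 f U).1 h')),
      Set.indicator_of_notMem (show U ∉ {U : Finset X | f ∈ U} from h)]

theorem NN_card_le (hd : PD d) (h0 : ∀ a b, d a b = 0 → a = b) {Γ ε : ℝ≥0∞}
    {x : Finset X → ℝ≥0∞}
    (h : ∀ f, ∑' U, Set.indicator {U : Finset X | f ∈ U} (fun U => Γ ^ U.card * x U) U ≤ ε) :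
    NN d 0 Γ x ≤ ε := by
  rw [NN_card hd h0]
  exact iSup_le h

end card

/-! ### the bounds -/

section norms

variable {X : Type*} [DecidableEq X] {d : X → X → ℕ} {r' R R' : ℕ} {Γ : ℝ≥0∞}
  {A : Type*} [CommRing A] {nm : Finset X → A → ℝ≥0∞}

/-- **quadratic part** of the reclustering -/
theorem K1_sub_NN (hd : PD d) {n n' : ℕ} (hΓ : 3 ≤ Γ) (hR : 4 * R + 2 ≤ r')
    (hcov : Cov d (r' + R') r' n) (hcov' : Cov d r' 0 n') (hN : NormFam nm)
    {K₀ : Finset X → A} (hK : ∀ U, K₀ U ≠ 0 → Packx915.Conn d R U)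
    {ε : ℝ≥0∞} (HK : NN d 0 Γ (fun U => nm U (K₀ U)) ≤ ε) (hs : n * (3 * n' * ε) ≤ 1)
    (hε : ε ≠ ∞) :
    NN d r' Γ (fun W => nm W (K1 (fun a b => d a b ≤ R') K₀ W - K₀ W)) ≤ n * (3 * n' * ε) ^ 2 := by
  have h := QQ_NN (R' := R') (Γ := Γ) hd hΓ (by omega) hcov hcov' hN hK
    (B := fun _ => (0 : A)) (fun _ h => absurd rfl h) (εK := ε) (εB := 0) HK
    (by simp only [hN.zero]; exact NSumx915.NN_zero.le) (by rw [add_zero]; exact hs) hε
    ENNReal.zero_ne_top (fun a b => a = b)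
  rw [add_zero] at h
  refine le_trans (NN_mono_ne fun W hW => ?_) h
  rw [K1_eq K₀ hW, add_sub_cancel_left]

/-- **norm of the reclustered activities** -/
theorem K1_NN (hd : PD d) {n n' : ℕ} (hΓ : 3 ≤ Γ) (hR : 4 * R + 2 ≤ r')
    (hcov : Cov d (r' + R') r' n) (hcov' : Cov d r' 0 n') (hN : NormFam nm)
    {K₀ : Finset X → A} (hK : ∀ U, K₀ U ≠ 0 → Packx915.Conn d R U)
    {ε : ℝ≥0∞} (HK : NN d 0 Γ (fun U => nm U (K₀ U)) ≤ ε) (hs : n * (3 * n' * ε) ≤ 1)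
    (hε : ε ≠ ∞) :
    NN d r' Γ (fun W => nm W (K1 (fun a b => d a b ≤ R') K₀ W))
      ≤ n' * ε + n * (3 * n' * ε) ^ 2 := by
  have hΓ1 : 1 ≤ Γ := le_trans (by norm_num) hΓ
  have h1 : NN d r' Γ (fun W => nm W (K1 (fun a b => d a b ≤ R') K₀ W))
      ≤ NN d r' Γ (fun W => nm W (K₀ W) + nm W (K1 (fun a b => d a b ≤ R') K₀ W - K₀ W)) := by
    refine NN_mono_ne fun W hW => le_trans (le_of_eq ?_) (hN.add _ _ _)
    rw [add_sub_cancel]
  refine h1.trans ((NN_add_le _ _).trans (add_le_add ?_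
    (K1_sub_NN hd hΓ hR hcov hcov' hN hK HK hs hε)))
  exact (NN_scale hΓ1 (Nat.zero_le _) hcov' _).trans (mul_le_mul_right HK _)

/-- **Lipschitz bound** -/
theorem K1_lip (hd : PD d) {n n' : ℕ} (hΓ : 3 ≤ Γ) (hR : 4 * R + 2 ≤ r')
    (hcov : Cov d (r' + R') r' n) (hcov' : Cov d r' 0 n') (hN : NormFam nm)
    {K₀ K₂ : Finset X → A} (hK : ∀ U, K₀ U ≠ 0 → Packx915.Conn d R U)
    (hK₂ : ∀ U, K₂ U ≠ 0 → Packx915.Conn d R U)
    {ε ε₂ η : ℝ≥0∞} (HK : NN d 0 Γ (fun U => nm U (K₀ U)) ≤ ε)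
    (HK₂ : NN d 0 Γ (fun U => nm U (K₂ U)) ≤ ε₂)
    (Hd : NN d 0 Γ (fun U => nm U (K₀ U - K₂ U)) ≤ η)
    (hs : n * (2 * (3 * n' * (ε + ε₂))) ≤ 1) (hε : ε ≠ ∞) (hε₂ : ε₂ ≠ ∞) (hη : η ≠ ∞) :
    NN d r' Γ (fun W => nm W (K1 (fun a b => d a b ≤ R') K₀ W
        - K1 (fun a b => d a b ≤ R') K₂ W))
      ≤ n' * η + 4 * n * (3 * n') ^ 2 * (ε + ε₂) * η := by
  have hΓ1 : 1 ≤ Γ := le_trans (by norm_num) hΓ
  have hz : NN d 0 Γ (fun U => nm U (0 : A)) ≤ 0 := by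
    simp only [hN.zero]; exact NSumx915.NN_zero.le
  have h := QQ_NN_lip (R' := R') (Γ := Γ) hd hΓ (by omega) hcov hcov' hN hK
    (B := fun _ => (0 : A)) (fun _ h => absurd rfl h) hK₂
    (B₂ := fun _ => (0 : A)) (fun _ h => absurd rfl h) (εK := ε) (εB := 0) (εK₂ := ε₂) (εB₂ := 0)
    (ηK := η) (ηB := 0) HK hz HK₂ hz Hd (by simp only [sub_zero]; exact hz)
    (by rw [add_zero, add_zero]; exact hs) hε ENNReal.zero_ne_top hε₂ ENNReal.zero_ne_top hη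
    ENNReal.zero_ne_top (fun a b => a = b)
  rw [add_zero, add_zero, add_zero] at h
  have h1 : NN d r' Γ (fun W => nm W (K1 (fun a b => d a b ≤ R') K₀ W
        - K1 (fun a b => d a b ≤ R') K₂ W))
      ≤ NN d r' Γ (fun W => nm W (K₀ W - K₂ W)
        + nm W (QQ (fun a b => a = b) (fun a b => d a b ≤ R') K₀ (fun _ => 0) W
          - QQ (fun a b => a = b) (fun a b => d a b ≤ R') K₂ (fun _ => 0) W)) := by
    refine NN_mono_ne fun W hW => ?_
    rw [K1_eq K₀ hW, K1_eq K₂ hW]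
    refine le_trans (le_of_eq ?_) (hN.add _ _ _)
    congr 1
    ring
  refine h1.trans ((NN_add_le _ _).trans (add_le_add ?_ h))
  exact (NN_scale hΓ1 (Nat.zero_le _) hcov' _).trans (mul_le_mul_right Hd _)

end norms

/-! ### the norms of `GDef_387` -/

section gdef

open Crest.Agent.R165.Gr0x606 Crest.Agent.R165.Gr1x606 Crest.Agent.R165.Latx683
  Crest.Agent.R165.PNormx417 Crest.Agent.R165.GDefx387 Crest.Agent.R165.Bridgex915
  Crest.Agent.R165.GeOpsx337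

variable {G : Type} [CommRing G] [CN G] [GoodG G] [DecidableEq G]

theorem fd_eq_zero {f g : G × G} (h : fd f g = 0) : f = g := by
  rw [fd_eq_dG] at h
  exact MetGx723.dG_eq_zero.1 h

/-- a ball of radius `s` contains at most `(2 s + 1)²` faces -/
theorem cov_card (s : ℕ) : Cov (fd : G × G → G × G → ℕ) s 0 ((2 * s + 1) ^ 2) := by
  intro f
  refine ⟨MetGx723.boxG f s, MetGx723.card_boxG_le f s, fun u hu => ⟨u, ?_, ?_⟩⟩
  · rw [MetGx723.mem_boxG, ← fd_eq_dG, fd_comm]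
    exact hu
  · rw [fd_self]

/-- input norm of the initial activities: `sup_f ∑_{U ∋ f} Γ^|U| |K U|` -/
def NI (Γ : ℝ≥0∞) (x : Finset (G × G) → ℝ≥0∞) : ℝ≥0∞ :=
  ⨆ f, ∑' U, Set.indicator {U : Finset (G × G) | f ∈ U} (fun U => Γ ^ U.card * x U) U

theorem NN_eq_NI (Γ : ℝ≥0∞) (x : Finset (G × G) → ℝ≥0∞) : NN fd 0 Γ x = NI Γ x :=
  NN_card pd_fd (fun _ _ h => fd_eq_zero h) Γ x

theorem NK_le_NN (w : BW G) (a : ℝ) (r : ℕ) (Γ : ℝ≥0∞) (p : Finset (G × G) → Prop)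
    (K : Finset (G × G) → Ge (Fld G)) :
    NK w a r Γ p (fun U => (K U : Gr (Fld G))) ≤ NN fd r Γ (fun U => pG (wU w a r U) (K U)) := by
  rw [NK_eq_NN]
  exact NN_mono fun U => act_le U

/-- `K1` at touching range `R'` -/
abbrev K1f (R' : ℕ) (K₀ : Finset (G × G) → Ge (Fld G)) : Finset (G × G) → Ge (Fld G) :=
  K1 (fun a b => fd a b ≤ R') K₀

theorem ZZ_K1f (R' : ℕ) (Λ : Finset (G × G)) (K₀ : Finset (G × G) → Ge (Fld G)) :
    ZZ (fun a b => a = b) Λ K₀ = ZZ (fun a b => fd a b ≤ R') Λ (K1f R' K₀) :=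
  ZZ_K1 (fun a b h => by rw [fd_comm]; exact h) (fun a => by rw [fd_self]; exact Nat.zero_le _) Λ K₀

theorem K1f_conn {R R' : ℕ} (hRR : R ≤ R') {K₀ : Finset (G × G) → Ge (Fld G)}
    (hK : ∀ U, K₀ U ≠ 0 → Packx915.Conn fd R U) {W : Finset (G × G)} (hW : K1f R' K₀ W ≠ 0) :
    Packx915.Conn fd R' W := K1_conn pd_fd hRR hK hW

/-- constants of the reclustering of the initial state -/
def nI (r' : ℕ) : ℕ := (2 * r' + 1) ^ 2

/-- covering number `(r' + R', r')` -/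
def mI (r' R' : ℕ) : ℕ := (2 * ((r' + R') / r') + 3) ^ 2

/-- **norm of `K1`** -/
theorem K1_NK (w : BW G) (a : ℝ) {r' R R' : ℕ} {Γ : ℝ≥0∞} (hΓ : 3 ≤ Γ) (hR : 4 * R + 2 ≤ r')
    {K₀ : Finset (G × G) → Ge (Fld G)} (hK : ∀ U, K₀ U ≠ 0 → Packx915.Conn fd R U) {ε : ℝ≥0∞}
    (HK : NI Γ (fun U => pG (wU w a r' U) (K₀ U)) ≤ ε)
    (hs : mI r' R' * (3 * nI r' * ε) ≤ 1) (hε : ε ≠ ∞) (p : Finset (G × G) → Prop) :
    NK w a r' Γ p (fun U => (K1f R' K₀ U : Gr (Fld G)))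
      ≤ nI r' * ε + mI r' R' * (3 * nI r' * ε) ^ 2 :=
  (NK_le_NN w a r' Γ p _).trans (K1_NN pd_fd hΓ hR (cov_fd (by omega) _) (cov_card r')
    (normFam_pG w a r') hK (by rw [NN_eq_NI]; exact HK) hs hε)

/-- **quadratic part of `K1`** -/
theorem K1_NK_sub (w : BW G) (a : ℝ) {r' R R' : ℕ} {Γ : ℝ≥0∞} (hΓ : 3 ≤ Γ) (hR : 4 * R + 2 ≤ r')
    {K₀ : Finset (G × G) → Ge (Fld G)} (hK : ∀ U, K₀ U ≠ 0 → Packx915.Conn fd R U) {ε : ℝ≥0∞}
    (HK : NI Γ (fun U => pG (wU w a r' U) (K₀ U)) ≤ ε)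
    (hs : mI r' R' * (3 * nI r' * ε) ≤ 1) (hε : ε ≠ ∞) (p : Finset (G × G) → Prop) :
    NK w a r' Γ p (fun U => ((K1f R' K₀ U - K₀ U : Ge (Fld G)) : Gr (Fld G)))
      ≤ mI r' R' * (3 * nI r' * ε) ^ 2 :=
  (NK_le_NN w a r' Γ p _).trans (K1_sub_NN pd_fd hΓ hR (cov_fd (by omega) _) (cov_card r')
    (normFam_pG w a r') hK (by rw [NN_eq_NI]; exact HK) hs hε)

/-- **Lipschitz bound of `K1`** -/
theorem K1_NK_lip (w : BW G) (a : ℝ) {r' R R' : ℕ} {Γ : ℝ≥0∞} (hΓ : 3 ≤ Γ) (hR : 4 * R + 2 ≤ r')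
    {K₀ K₂ : Finset (G × G) → Ge (Fld G)} (hK : ∀ U, K₀ U ≠ 0 → Packx915.Conn fd R U)
    (hK₂ : ∀ U, K₂ U ≠ 0 → Packx915.Conn fd R U) {ε ε₂ η : ℝ≥0∞}
    (HK : NI Γ (fun U => pG (wU w a r' U) (K₀ U)) ≤ ε)
    (HK₂ : NI Γ (fun U => pG (wU w a r' U) (K₂ U)) ≤ ε₂)
    (Hd : NI Γ (fun U => pG (wU w a r' U) (K₀ U - K₂ U)) ≤ η)
    (hs : mI r' R' * (2 * (3 * nI r' * (ε + ε₂))) ≤ 1) (hε : ε ≠ ∞) (hε₂ : ε₂ ≠ ∞) (hη : η ≠ ∞)
    (p : Finset (G × G) → Prop) :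
    NK w a r' Γ p (fun U => ((K1f R' K₀ U - K1f R' K₂ U : Ge (Fld G)) : Gr (Fld G)))
      ≤ nI r' * η + 4 * mI r' R' * (3 * nI r') ^ 2 * (ε + ε₂) * η :=
  (NK_le_NN w a r' Γ p _).trans (K1_lip pd_fd hΓ hR (cov_fd (by omega) _) (cov_card r')
    (normFam_pG w a r') hK hK₂ (by rw [NN_eq_NI]; exact HK) (by rw [NN_eq_NI]; exact HK₂)
    (by rw [NN_eq_NI]; exact Hd) hs hε hε₂ hη)

end gdef

end Crest.Agent.R165.KInitx892

end
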