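import Crest.Agent.R165.J4K0Map_126
import Crest.Agent.R165.KInit_892

/-!
# Row 165 (S0250), block J4: supports, locality, connectedness of the initial activities (helper126)

* `K0_ne`    : a nonzero activity has a nonzero connected family of items
* `K0_empty`, `K0_supp`, `K0_supp'` : supports
* `K0_mem`   : locality (any monotone family of subalgebras)
* `K0_conn`  : the supports are connected at range `1` (hence `Packx915.Conn fd R` for `1 ≤ R`)
-/

set_option autoImplicit false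
set_option linter.unusedSectionVars false

noncomputable section

open Finset

namespace Crest.Agent.R165.J4K0Lx126
open Crest.Agent.R165.KCompx892 Crest.Agent.R165.J4Actx126
open Crest.Agent.R165.J4Datx126 Crest.Agent.R165.J4Geox126 Crest.Agent.R165.J4K0x126
open Crest.Agent.R165.J4K0Mapx126
open Crest.Agent.R165.J4Defx653 Crest.Agent.R165.J4Pathx653
open Crest.Agent.R165.J4RRx653 Crest.Agent.R165.J4RRAx653
open Crest.Agent.R165.J1ax606 (HE EG pe qe pe_zero pe_one qe_zero qe_one)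

section alg
variable {G : Type*} [CommRing G] [DecidableEq G]
variable {A : Type*} [CommRing A] [Algebra ℝ A] {κ : Type*} [DecidableEq κ] [Fintype κ]
variable {fr : Fr G A} {B : Bk G κ A}

theorem TH_zero' {E : Type*} (g : E → A) : TH g (0 : RR E) = 0 := map_zero _

/-- a nonzero activity has a connected family of nonzero items -/
theorem K0_ne {U : Finset (G × G)} (h : B.K0 fr U ≠ 0) :
    ∃ T : Finset {i // i ∈ B.ixs U}, Conn (touch (B.datU fr U).Y) T ∧
      supp (B.datU fr U).Y T = U ∧ ∀ i ∈ T, B.aI fr i.1 ≠ 0 ∧ B.FI i.1 ≠ 0 := by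
  classical
  have h' : ∑ T : Finset {i // i ∈ B.ixs U} with Conn (touch (B.datU fr U).items.Y) T ∧
      supp (B.datU fr U).items.Y T = U, (B.datU fr U).items.w T ≠ 0 := by
    intro h0
    apply h
    unfold Bk.K0 Items.act
    convert h0
  obtain ⟨T, hT, hne⟩ := Finset.exists_ne_zero_of_sum_ne_zero h'
  rw [Finset.mem_filter] at hT
  refine ⟨T, hT.2.1, hT.2.2, fun i hi => ⟨fun h0 => hne ?_, fun h0 => hne ?_⟩⟩
  · rw [Dat.w_eq]
    have : ∏ i ∈ T, (B.datU fr U).a i = 0 := Finset.prod_eq_zero hi h0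
    rw [this, zero_mul]
  · rw [Dat.w_eq]
    have : ∏ i ∈ T, (B.datU fr U).Fe i = 0 := Finset.prod_eq_zero hi h0
    rw [this, map_zero, mul_zero]

/-- the activity of the empty set vanishes -/
theorem K0_empty : B.K0 fr ∅ = 0 := by
  by_contra h
  obtain ⟨T, hT, hs, -⟩ := K0_ne h
  obtain ⟨i, hi⟩ := hT.1
  have h1 : (B.datU fr ∅).Y i ⊆ ∅ :=
    (Finset.subset_biUnion_of_mem (B.datU fr ∅).Y hi).trans hs.le
  obtain ⟨f, hf⟩ := (B.datU fr ∅).ne i
  exact absurd (h1 hf) (Finset.notMem_empty f)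

/-- **supports**: if the items which are not inside `Λ` vanish, so do the activities -/
theorem K0_supp {Λ : Finset (G × G)}
    (h : ∀ i, B.okI i → ¬ B.YI i ⊆ Λ → B.aI fr i = 0 ∨ B.FI i = 0) {U : Finset (G × G)}
    (hU : ¬ U ⊆ Λ) : B.K0 fr U = 0 := by
  by_contra h0
  obtain ⟨T, hT, hs, hne⟩ := K0_ne h0
  apply hU
  rw [← hs]
  intro x hx
  obtain ⟨i, hi, hxi⟩ := Finset.mem_biUnion.1 hx
  by_contra hxΛ
  have hok : B.okI i.1 := B.ixs_ok i.1 i.2
  rcases h i.1 hok (fun hsub => hxΛ (hsub hxi)) with h1 | h1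
  · exact (hne i hi).1 h1
  · exact (hne i hi).2 h1

/-- the same in terms of the data -/
theorem K0_supp' {Λ : Finset (G × G)}
    (ht : ∀ u, ∀ S ∈ Can B.R, Even S.card → B.ok u S → B.t S ≠ 0 →
      (Yf S).image (fz u) ⊆ Λ)
    (hs : ∀ f, f ∉ Λ → B.s f * B.s f = 1)
    (he : ∀ e, ¬ faE e ⊆ Λ → B.y e = 0 ∨ B.s (pe e).1 * B.s (qe e).1 = 1)
    (hk : ∀ k, B.Ys k ⊆ Λ) {U : Finset (G × G)} (hU : ¬ U ⊆ Λ) : B.K0 fr U = 0 := by
  refine K0_supp (fun i hi hn => ?_) hU
  rcases i with p | f | e | k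
  · right
    change em (ez p.1) (kB (B.t p.2) p.2) = 0
    by_cases h0 : B.t p.2 = 0
    · rw [h0, kB_zero, map_zero]
    · exact absurd (ht p.1 p.2 hi.1.1 hi.1.2 hi.2 h0) hn
  · left
    change B.cI f • fr.I4 f + (B.cI f ^ 2 / 2) • (fr.I4 f * fr.I4 f) = 0
    have hf : f ∉ Λ := fun h => hn (Finset.singleton_subset_iff.2 h)
    have : B.cI f = 0 := by unfold Bk.cI; rw [hs f hf, sub_self]
    rw [this]; simp
  · left
    change (B.y e * (B.s (pe e).1 * B.s (qe e).1 - 1)) • fr.b e = 0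
    rcases he e hn with h1 | h1
    · rw [h1, zero_mul, zero_smul]
    · rw [h1, sub_self, mul_zero, zero_smul]
  · exact absurd (hk k) hn

theorem TH_mem_of {E : Type*} {g : E → A} {S : Subalgebra ℝ A} {U : Set E}
    (hg : ∀ e ∈ U, g e ∈ S) {F : RR E} (hF : F ∈ RIn U) : TH g F ∈ S := by
  refine RIn_ind (P := fun F => TH g F ∈ S) ?_ ?_ ?_ hF
  · rw [map_zero]; exact zero_mem _
  · intro F G hF hG; rw [map_add]; exact add_mem hF hG
  · intro c T hT
    rw [map_smul, TH_ep]
    exact Subalgebra.smul_mem _ (Subalgebra.prod_mem _ fun e he => hg e (hT he)) _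

/-- **locality** -/
theorem K0_mem (S : Finset (G × G) → Subalgebra ℝ A)
    (hb : ∀ U e, faE e ⊆ U → fr.b e ∈ S U) (hI : ∀ U, ∀ f ∈ U, fr.I4 f ∈ S U)
    (hk : ∀ U k, B.Ys k ⊆ U → B.as k ∈ S U) (U : Finset (G × G)) : B.K0 fr U ∈ S U := by
  classical
  have key : ∀ T : Finset {i // i ∈ B.ixs U}, (B.datU fr U).items.w T ∈ S U := by
    intro T
    rw [Dat.w_eq]
    have hYU : ∀ i : {i // i ∈ B.ixs U}, B.YI i.1 ⊆ U := fun i => (B.mem_ixs.1 i.2).2
    refine mul_mem (Subalgebra.prod_mem _ fun i _ => ?_) ?_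
    · obtain ⟨i, hi⟩ := i
      have hYi := hYU ⟨i, hi⟩
      change B.aI fr i ∈ S U
      rcases i with p | f | e | k
      · exact one_mem _
      · have h1 := hI U f (hYi (Finset.mem_singleton_self f))
        exact add_mem (Subalgebra.smul_mem _ h1 _) (Subalgebra.smul_mem _ (mul_mem h1 h1) _)
      · exact Subalgebra.smul_mem _ (hb U e hYi) _
      · exact hk U k hYi
    · have hFU : ∏ i ∈ T, (B.datU fr U).Fe i ∈ RIn {e : EG G | faE e ⊆ U} := by
        refine Subalgebra.prod_mem _ fun i _ => ?_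
        refine RIn_mono ?_ (B.FI_mem (B.ixs_ok i.1 i.2))
        intro e he
        exact Finset.Subset.trans he (hYU i)
      refine TH_mem_of (fun e he => ?_) hFU
      exact sub_mem (one_mem _) (Subalgebra.smul_mem _ (hb U e he) _)
  unfold Bk.K0 Items.act
  exact Subalgebra.sum_mem _ fun T _ => key T

end alg

/-! ### connectedness -/

section conn
open Crest.Agent.R165.GDefx387

variable {G : Type} [CommRing G] [DecidableEq G] [CN G]
variable {A : Type*} [CommRing A] [Algebra ℝ A] {κ : Type*} [DecidableEq κ] [Fintype κ]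
variable {fr : Fr G A} {B : Bk G κ A}

theorem fd_e1 (f : G × G) : fd f (f + (1, 0)) ≤ 1 := by
  unfold fd
  have e1 : f.1 - (f + (1, 0)).1 = -1 := by simp
  have e2 : f.2 - (f + (1, 0)).2 = 0 := by simp
  rw [e1, e2, CN.cn_neg, CN.cn_zero]
  have := CN.cn_one (G := G)
  omega

theorem fd_e2 (f : G × G) : fd f (f + (0, 1)) ≤ 1 := by
  unfold fd
  have e1 : f.1 - (f + (0, 1)).1 = 0 := by simp
  have e2 : f.2 - (f + (0, 1)).2 = -1 := by simp
  rw [e1, e2, CN.cn_neg, CN.cn_zero]
  have := CN.cn_one (G := G)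
  omega

/-- the faces of a shape are connected by unit steps -/
theorem conn_Yf {S : Finset (ℤ × ℤ)} (hS : (0 : ℤ × ℤ) ∈ S) (u : G × G) :
    Packx915.Conn fd 1 ((Yf S).image (fz u)) := by
  intro A' hA hne hneU
  by_contra hcon
  push Not at hcon
  have hstep : ∀ a b : G × G, a ∈ (Yf S).image (fz u) → b ∈ (Yf S).image (fz u) → fd a b ≤ 1 →
      (a ∈ A' ↔ b ∈ A') := by
    intro a b ha hb hab
    constructor
    · intro h
      by_contra h'
      have := hcon a h b hb h'
      omega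
    · intro h
      by_contra h'
      have := hcon b h a ha h'
      rw [fd_comm] at this
      omega
  have key : ∀ z ∈ Yf S, (fz u z ∈ A' ↔ fz u 0 ∈ A') := by
    refine Yf_ind (subset_Yf S hS) Iff.rfl ?_ ?_
    · intro z hz hz'
      have h1 := hstep (fz u z) (fz u (z + (1, 0))) (Finset.mem_image_of_mem _ hz)
        (Finset.mem_image_of_mem _ hz') (by rw [fz_e1]; exact fd_e1 _)
      rw [h1]
    · intro z hz hz'
      have h1 := hstep (fz u z) (fz u (z + (0, 1))) (Finset.mem_image_of_mem _ hz)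
        (Finset.mem_image_of_mem _ hz') (by rw [fz_e2]; exact fd_e2 _)
      rw [h1]
  obtain ⟨a, ha⟩ := hne
  obtain ⟨z, hz, rfl⟩ := Finset.mem_image.1 (hA ha)
  have h0 : fz u 0 ∈ A' := (key z hz).1 ha
  apply hneU
  apply Finset.Subset.antisymm hA
  intro b hb
  obtain ⟨z', hz', rfl⟩ := Finset.mem_image.1 hb
  exact (key z' hz').2 h0

theorem conn_faE (e : EG G) : Packx915.Conn fd 1 (faE e) := by
  refine Packx915.conn_of_diam ?_
  have hj : e.2 = 0 ∨ e.2 = 1 := fin2 e.2
  have key : ∀ a b : G × G, fd a b ≤ 1 → ∀ x ∈ ({a, b} : Finset (G × G)),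
      ∀ y ∈ ({a, b} : Finset (G × G)), fd x y ≤ 1 := by
    intro a b hab x hx y hy
    rw [Finset.mem_insert, Finset.mem_singleton] at hx hy
    rcases hx with rfl | rfl <;> rcases hy with rfl | rfl
    · rw [fd_self]; omega
    · exact hab
    · rw [fd_comm]; exact hab
    · rw [fd_self]; omega
  unfold faE
  obtain ⟨z, j⟩ := e
  rcases hj with h | h
  · dsimp only at h
    rw [h, pe_zero, qe_zero]
    refine key _ _ ?_
    rw [fd_comm]
    have := fd_e2 (z - (0, 1))
    rwa [sub_add_cancel] at this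
  · dsimp only at h
    rw [h, pe_one, qe_one]
    refine key _ _ ?_
    have := fd_e1 (z - (1, 0))
    rwa [sub_add_cancel] at this

theorem conn_YI (hk : ∀ k, Packx915.Conn fd 1 (B.Ys k)) {i : Ix G κ} (hi : B.okI i) :
    Packx915.Conn fd 1 (B.YI i) := by
  rcases i with p | f | e | k
  · exact conn_Yf (mem_Can.1 hi.1.1).2.1 p.1
  · exact Packx915.conn_singleton f
  · exact conn_faE e
  · exact hk k

/-- **connectedness of the supports** -/
theorem K0_conn1 (hk : ∀ k, Packx915.Conn fd 1 (B.Ys k)) {U : Finset (G × G)}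
    (h : B.K0 fr U ≠ 0) : Packx915.Conn fd 1 U := by
  obtain ⟨T, hT, hs, -⟩ := K0_ne h
  suffices key : Packx915.Conn fd 1 (@Finset.biUnion {i // i ∈ B.ixs U} (G × G)
      (fun a b => Classical.propDecidable (a = b)) T fun i => B.YI i.1) by
    have e : (@Finset.biUnion {i // i ∈ B.ixs U} (G × G)
      (fun a b => Classical.propDecidable (a = b)) T fun i => B.YI i.1) = U := by
      refine Eq.trans ?_ hs
      unfold supp
      congr!
    rwa [e] at key
  refine Packx915.conn_biUnion T (fun i => B.YI i.1)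
    (fun i _ => conn_YI hk (B.ixs_ok i.1 i.2)) ?_
  intro J hJ hne hneT
  by_contra hcon
  push Not at hcon
  apply hneT
  refine hT.2 J hJ hne ?_
  intro i hi j hj hij
  rw [Finset.mem_sdiff] at hj
  have h1 : ¬ Disjoint ((B.datU fr U).Y i) ((B.datU fr U).Y j) := hij
  rw [Finset.not_disjoint_iff] at h1
  obtain ⟨a, ha, hb⟩ := h1
  have := hcon i hi j hj.1 hj.2 a ha a hb
  rw [fd_self] at this
  omega

theorem K0_conn (hk : ∀ k, Packx915.Conn fd 1 (B.Ys k)) {R : ℕ} (hR : 1 ≤ R)
    {U : Finset (G × G)} (h : B.K0 fr U ≠ 0) : Packx915.Conn fd R U :=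
  (K0_conn1 hk h).mono hR

end conn

end Crest.Agent.R165.J4K0Lx126
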