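import Crest.Agent.R165.J4K0_126

/-!
# Row 165 (S0250), block J4: covariance and locality of the initial activities (helper126)

* `TH_em_on`, `em_congr_on` : transport of bond polynomials along maps injective on the bonds used
* `KMap`, `K0_map`  : the general transport of `K0` (face map, bond map, label map, algebra map)
* `Chart0`, `K0_chart` : translation type charts with gauge (plane, torus, domains)
* `K0_D4` ...
-/

set_option autoImplicit false
set_option linter.unusedSectionVars false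

noncomputable section

open Finset

namespace Crest.Agent.R165.J4K0Mapx126
open Crest.Agent.R165.KCompx892 Crest.Agent.R165.J4Actx126
open Crest.Agent.R165.J4Datx126 Crest.Agent.R165.J4Geox126 Crest.Agent.R165.J4K0x126
open Crest.Agent.R165.J4Defx653 Crest.Agent.R165.J4Pathx653
open Crest.Agent.R165.J4RRx653 Crest.Agent.R165.J4RRAx653
open Crest.Agent.R165.J1ax606 (HE EG pe qe pe_zero pe_one qe_zero qe_one)

section RRlem
variable {E E' : Type*}

theorem TH_em_on {A : Type*} [CommRing A] [Algebra ℝ A] {f : E → E'} {U : Set E}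
    (hf : Set.InjOn f U) (g : E' → A) {F : RR E} (hF : F ∈ RIn U) :
    TH g (em f F) = TH (fun e => g (f e)) F := by
  classical
  refine RIn_ind (P := fun F => TH g (em f F) = TH (fun e => g (f e)) F) ?_ ?_ ?_ hF
  · simp
  · intro F G h1 h2
    rw [map_add, map_add, map_add, h1, h2]
  · intro c S hS
    rw [map_smul, map_smul, map_smul, em_ep, TH_ep, TH_ep,
      Finsupp.mapDomain_support_of_injOn S (hf.mono hS), Finset.prod_image]
    exact fun x hx y hy h => hf (hS hx) (hS hy) h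

theorem em_congr_on {f f' : E → E'} {U : Set E} (h : ∀ e ∈ U, f e = f' e) {F : RR E}
    (hF : F ∈ RIn U) : em f F = em f' F := by
  refine RIn_ind (P := fun F => em f F = em f' F) ?_ ?_ ?_ hF
  · simp
  · intro F G h1 h2
    rw [map_add, map_add, h1, h2]
  · intro c S hS
    rw [map_smul, map_smul, em_ep, em_ep,
      Finsupp.mapDomain_congr (g := f') fun x hx => h x (hS hx)]

end RRlem

section general
variable {G : Type*} [CommRing G] [DecidableEq G]
variable {A : Type*} [CommRing A] [Algebra ℝ A] {κ : Type*} [DecidableEq κ] [Fintype κ]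
variable {G' : Type*} [CommRing G'] [DecidableEq G']
variable {A' : Type*} [CommRing A'] [Algebra ℝ A'] {κ' : Type*} [DecidableEq κ'] [Fintype κ']

/-- the general transport hypotheses -/
structure KMap (fr : Fr G A) (B : Bk G κ A) (fr' : Fr G' A') (B' : Bk G' κ' A')
    (ψ : G × G → G' × G') (eb : EG G → EG G') (m : Ix G κ → Ix G' κ') (τ : A →ₐ[ℝ] A')
    (U : Finset (G × G)) : Prop where
  face : Set.InjOn ψ U
  einj : Set.InjOn eb {e | faE e ⊆ U}
  g : ∀ e, faE e ⊆ U → τ (B.g fr e) = B'.g fr' (eb e)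
  minj : ∀ i j, B.okI i → B.YI i ⊆ U → B.okI j → B.YI j ⊆ U → m i = m j → i = j
  ok : ∀ i, B.okI i → B.YI i ⊆ U → B'.okI (m i)
  Y : ∀ i, B.okI i → B.YI i ⊆ U → B'.YI (m i) = (B.YI i).image ψ
  surj : ∀ i', B'.okI i' → B'.YI i' ⊆ U.image ψ → ∃ i, B.okI i ∧ B.YI i ⊆ U ∧ m i = i'
  a : ∀ i, B.okI i → B.YI i ⊆ U → τ (B.aI fr i) = B'.aI fr' (m i)
  F : ∀ i, B.okI i → B.YI i ⊆ U → B'.FI (m i) = em eb (B.FI i)

/-- **general transport of the initial activities** -/
theorem K0_map {fr : Fr G A} {B : Bk G κ A} {fr' : Fr G' A'} {B' : Bk G' κ' A'}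
    {ψ : G × G → G' × G'} {eb : EG G → EG G'} {m : Ix G κ → Ix G' κ'} {τ : A →ₐ[ℝ] A'}
    {U : Finset (G × G)} (h : KMap fr B fr' B' ψ eb m τ U) :
    τ (B.K0 fr U) = B'.K0 fr' (U.image ψ) := by
  have hok : ∀ i : {i // i ∈ B.ixs U}, B.okI i.1 ∧ B.YI i.1 ⊆ U := fun i => B.mem_ixs.1 i.2
  have hmem : ∀ i : {i // i ∈ B.ixs U}, m i.1 ∈ B'.ixs (U.image ψ) := fun i => by
    rw [B'.mem_ixs]
    refine ⟨h.ok _ (hok i).1 (hok i).2, ?_⟩
    rw [h.Y _ (hok i).1 (hok i).2]
    exact Finset.image_subset_image (hok i).2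
  have hinj : Function.Injective
      (fun i : {i // i ∈ B.ixs U} => (⟨m i.1, hmem i⟩ : {i // i ∈ B'.ixs (U.image ψ)})) := by
    intro i j hij
    have : m i.1 = m j.1 := congrArg Subtype.val hij
    exact Subtype.ext (h.minj _ _ (hok i).1 (hok i).2 (hok j).1 (hok j).2 this)
  have key := act_transport (I := (B.datU fr U).items) (I' := (B'.datU fr' (U.image ψ)).items)
    (ψ := ψ) (U := U)
    (e := fun i => (⟨m i.1, hmem i⟩ : {i // i ∈ B'.ixs (U.image ψ)})) ?_
    (τ : A →+* A').toAddMonoidHom ?_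
  · exact key
  · refine ⟨h.face, fun i _ j _ hij => hinj hij, fun i _ => ?_, fun i' hi' => ?_⟩
    · exact h.Y _ (hok i).1 (hok i).2
    · obtain ⟨i, h1, h2, h3⟩ := h.surj i'.1 (B'.mem_ixs.1 i'.2).1 hi'
      exact ⟨⟨i, B.mem_ixs.2 ⟨h1, h2⟩⟩, h2, Subtype.ext h3⟩
  · intro T _
    change τ ((B.datU fr U).items.w T) = (B'.datU fr' (U.image ψ)).items.w _
    rw [Dat.w_eq, Dat.w_eq, Finset.prod_image fun i _ j _ hij => hinj hij,
      Finset.prod_image fun i _ j _ hij => hinj hij, map_mul, map_prod]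
    congr 1
    · refine Finset.prod_congr rfl fun i _ => ?_
      exact h.a _ (hok i).1 (hok i).2
    · have hFU : ∏ i ∈ T, (B.datU fr U).Fe i ∈ RIn {e : EG G | faE e ⊆ U} := by
        refine Subalgebra.prod_mem _ fun i _ => ?_
        refine RIn_mono ?_ (B.FI_mem (hok i).1)
        intro e he
        exact Finset.Subset.trans he (hok i).2
      change τ (TH (B.g fr) (∏ i ∈ T, (B.datU fr U).Fe i)) =
        TH (B'.g fr') (∏ i ∈ T, B'.FI (m i.1))
      have e1 : ∏ i ∈ T, B'.FI (m i.1) = em eb (∏ i ∈ T, (B.datU fr U).Fe i) := by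
        rw [map_prod]
        exact Finset.prod_congr rfl fun i _ => h.F _ (hok i).1 (hok i).2
      rw [e1, TH_em_on h.einj _ hFU, TH_algHom]
      exact TH_congr_of_mem (fun e he => h.g e he) hFU

end general

/-! ### walking inside the faces of a shape -/

theorem int_walk {Q : ℤ → Prop} (a : ℤ) (h0 : Q 0)
    (h : ∀ i, min 0 a ≤ i → i + 1 ≤ max 0 a → (Q i ↔ Q (i + 1))) : Q a := by
  rcases le_total 0 a with ha | ha
  · have key : ∀ n : ℕ, (n : ℤ) ≤ a → Q n := by
      intro n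
      induction n with
      | zero => intro _; exact h0
      | succ n ih =>
        intro hn
        rw [Nat.cast_succ] at hn ⊢
        exact (h n (by rw [min_eq_left ha]; omega) (by rw [max_eq_right ha]; exact hn)).1
          (ih (by omega))
    have := key a.toNat (by omega)
    rwa [Int.toNat_of_nonneg ha] at this
  · have key : ∀ n : ℕ, a ≤ -(n : ℤ) → Q (-(n : ℤ)) := by
      intro n
      induction n with
      | zero => intro _; simpa using h0
      | succ n ih =>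
        intro hn
        rw [Nat.cast_succ] at hn ⊢
        have h1 := h (-((n : ℤ) + 1)) (by rw [min_eq_right ha]; exact hn)
          (by rw [max_eq_left ha]; omega)
        rw [show -((n : ℤ) + 1) + 1 = -(n : ℤ) by ring] at h1
        exact h1.2 (ih (by omega))
    have := key (-a).toNat (by omega)
    rwa [Int.toNat_of_nonneg (by omega), neg_neg] at this

theorem Yf_mid {S : Finset (ℤ × ℤ)} {z w : ℤ × ℤ} (h0 : (0 : ℤ × ℤ) ∈ Yf S) (hz : z ∈ Yf S)
    (h1 : min 0 z.1 ≤ w.1) (h2 : w.1 ≤ max 0 z.1) (h3 : min 0 z.2 ≤ w.2) (h4 : w.2 ≤ max 0 z.2) :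
    w ∈ Yf S := by
  rw [mem_Yf] at h0 hz ⊢
  obtain ⟨⟨p, hp, a1⟩, ⟨q, hq, a2⟩, ⟨r, hr, a3⟩, ⟨s, hs, a4⟩⟩ := h0
  obtain ⟨⟨p', hp', b1⟩, ⟨q', hq', b2⟩, ⟨r', hr', b3⟩, ⟨s', hs', b4⟩⟩ := hz
  simp only [Prod.fst_zero, Prod.snd_zero] at a1 a2 a3 a4
  refine ⟨?_, ?_, ?_, ?_⟩
  · rcases le_total 0 z.1 with h | h
    · rw [min_eq_left h] at h1; exact ⟨p, hp, by omega⟩
    · rw [min_eq_right h] at h1; exact ⟨p', hp', by omega⟩
  · rcases le_total 0 z.1 with h | h
    · rw [max_eq_right h] at h2; exact ⟨q', hq', by omega⟩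
    · rw [max_eq_left h] at h2; exact ⟨q, hq, by omega⟩
  · rcases le_total 0 z.2 with h | h
    · rw [min_eq_left h] at h3; exact ⟨r, hr, by omega⟩
    · rw [min_eq_right h] at h3; exact ⟨r', hr', by omega⟩
  · rcases le_total 0 z.2 with h | h
    · rw [max_eq_right h] at h4; exact ⟨s', hs', by omega⟩
    · rw [max_eq_left h] at h4; exact ⟨s, hs, by omega⟩

/-- induction along the faces of a shape -/
theorem Yf_ind {S : Finset (ℤ × ℤ)} {P : ℤ × ℤ → Prop} (hY : (0 : ℤ × ℤ) ∈ Yf S) (h0 : P 0)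
    (h1 : ∀ z ∈ Yf S, z + (1, 0) ∈ Yf S → (P z ↔ P (z + (1, 0))))
    (h2 : ∀ z ∈ Yf S, z + (0, 1) ∈ Yf S → (P z ↔ P (z + (0, 1)))) : ∀ z ∈ Yf S, P z := by
  intro z hz
  have a1 : P (z.1, 0) := by
    refine int_walk (Q := fun x => P (x, 0)) z.1 h0 fun i hi hi' => ?_
    have m1 : ((i, 0) : ℤ × ℤ) ∈ Yf S := Yf_mid hY hz hi (by dsimp only; omega) (by simp) (by simp)
    have m2 : ((i, 0) : ℤ × ℤ) + (1, 0) ∈ Yf S :=
      Yf_mid hY hz (by simp only [Prod.mk_add_mk]; omega) (by simpa using hi') (by simp) (by simp)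
    have := h1 _ m1 m2
    simpa using this
  have a2 : P (z.1, z.2) := by
    refine int_walk (Q := fun y => P (z.1, y)) z.2 a1 fun i hi hi' => ?_
    have m1 : ((z.1, i) : ℤ × ℤ) ∈ Yf S := Yf_mid hY hz (by simp) (by simp) hi (by dsimp only; omega)
    have m2 : ((z.1, i) : ℤ × ℤ) + (0, 1) ∈ Yf S :=
      Yf_mid hY hz (by simp) (by simp) (by simp only [Prod.mk_add_mk]; omega) (by simpa using hi')
    have := h2 _ m1 m2
    simpa using this
  exact a2

section walk
variable {G : Type*} [CommRing G] [DecidableEq G] {G' : Type*} [CommRing G'] [DecidableEq G']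

/-- the face map respects and reflects the unit steps inside `U` -/
structure Steps (ψ : G × G → G' × G') (U : Finset (G × G)) : Prop where
  face : Set.InjOn ψ U
  e1 : ∀ f ∈ U, f + (1, 0) ∈ U → ψ (f + (1, 0)) = ψ f + (1, 0)
  e2 : ∀ f ∈ U, f + (0, 1) ∈ U → ψ (f + (0, 1)) = ψ f + (0, 1)
  c1 : ∀ f ∈ U, ψ f + (1, 0) ∈ U.image ψ → f + (1, 0) ∈ U
  c2 : ∀ f ∈ U, ψ f + (0, 1) ∈ U.image ψ → f + (0, 1) ∈ U

theorem fz_e1 (u : G × G) (z : ℤ × ℤ) : fz u (z + (1, 0)) = fz u z + (1, 0) := by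
  rw [fz_add, cz_e1]

theorem fz_e2 (u : G × G) (z : ℤ × ℤ) : fz u (z + (0, 1)) = fz u z + (0, 1) := by
  rw [fz_add, cz_e2]

theorem Steps.fwd {ψ : G × G → G' × G'} {U : Finset (G × G)} (h : Steps ψ U) {u : G × G}
    {S : Finset (ℤ × ℤ)} (hS : (0 : ℤ × ℤ) ∈ S) (hU : (Yf S).image (fz u) ⊆ U) :
    ∀ z ∈ Yf S, ψ (fz u z) = fz (ψ u) z := by
  have hm : ∀ z ∈ Yf S, fz u z ∈ U := fun z hz => hU (Finset.mem_image_of_mem _ hz)
  refine Yf_ind (subset_Yf S hS) (by rw [fz_zero, fz_zero]) ?_ ?_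
  · intro z hz hz'
    have h1 := hm _ hz'
    rw [fz_e1] at h1
    rw [fz_e1, fz_e1, h.e1 _ (hm z hz) h1, add_left_inj]
  · intro z hz hz'
    have h1 := hm _ hz'
    rw [fz_e2] at h1
    rw [fz_e2, fz_e2, h.e2 _ (hm z hz) h1, add_left_inj]

theorem Steps.bwd {ψ : G × G → G' × G'} {U : Finset (G × G)} (h : Steps ψ U) {u : G × G}
    {S : Finset (ℤ × ℤ)} (hS : (0 : ℤ × ℤ) ∈ S) (hu : u ∈ U)
    (hU : (Yf S).image (fz (ψ u)) ⊆ U.image ψ) : (Yf S).image (fz u) ⊆ U := by
  have hm : ∀ z ∈ Yf S, fz (ψ u) z ∈ U.image ψ := fun z hz => hU (Finset.mem_image_of_mem _ hz)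
  have key : ∀ z ∈ Yf S, fz u z ∈ U ∧ ψ (fz u z) = fz (ψ u) z := by
    refine Yf_ind (subset_Yf S hS) (by rw [fz_zero, fz_zero]; exact ⟨hu, rfl⟩) ?_ ?_
    · intro z hz hz'
      rw [fz_e1, fz_e1]
      constructor
      · rintro ⟨h1, h2⟩
        have h3 := hm _ hz'
        rw [fz_e1, ← h2] at h3
        have h4 := h.c1 _ h1 h3
        exact ⟨h4, by rw [h.e1 _ h1 h4, h2]⟩
      · rintro ⟨h1, h2⟩
        obtain ⟨k, hk, hk'⟩ := Finset.mem_image.1 (hm z hz)
        have h3 : k + (1, 0) ∈ U := h.c1 _ hk (by rw [hk', ← h2]; exact Finset.mem_image_of_mem ψ h1)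
        have h4 : k + (1, 0) = fz u z + (1, 0) :=
          h.face h3 h1 (by rw [h.e1 _ hk h3, hk', h2])
        rw [add_left_inj] at h4
        rw [← h4]
        exact ⟨hk, hk'⟩
    · intro z hz hz'
      rw [fz_e2, fz_e2]
      constructor
      · rintro ⟨h1, h2⟩
        have h3 := hm _ hz'
        rw [fz_e2, ← h2] at h3
        have h4 := h.c2 _ h1 h3
        exact ⟨h4, by rw [h.e2 _ h1 h4, h2]⟩
      · rintro ⟨h1, h2⟩
        obtain ⟨k, hk, hk'⟩ := Finset.mem_image.1 (hm z hz)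
        have h3 : k + (0, 1) ∈ U := h.c2 _ hk (by rw [hk', ← h2]; exact Finset.mem_image_of_mem ψ h1)
        have h4 : k + (0, 1) = fz u z + (0, 1) :=
          h.face h3 h1 (by rw [h.e2 _ hk h3, hk', h2])
        rw [add_left_inj] at h4
        rw [← h4]
        exact ⟨hk, hk'⟩
  intro x hx
  obtain ⟨z, hz, rfl⟩ := Finset.mem_image.1 hx
  exact (key z hz).1

/-- the bond map -/
def ebm (ψ : G × G → G' × G') (e : EG G) : EG G' := (ψ e.1, e.2)

theorem fin2 (j : Fin 2) : j = 0 ∨ j = 1 := by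
  fin_cases j
  · exact Or.inl rfl
  · exact Or.inr rfl

theorem faE_zero (z : G × G) : faE ((z, 0) : EG G) = {z, z - (0, 1)} := by
  unfold faE; rw [pe_zero, qe_zero]

theorem faE_one (z : G × G) : faE ((z, 1) : EG G) = {z - (1, 0), z} := by
  unfold faE; rw [pe_one, qe_one]

theorem Steps.faE {ψ : G × G → G' × G'} {U : Finset (G × G)} (h : Steps ψ U) {e : EG G}
    (he : faE e ⊆ U) : J4Geox126.faE (ebm ψ e) = (J4Geox126.faE e).image ψ := by
  obtain ⟨z, j⟩ := e
  rcases fin2 j with rfl | rfl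
  · unfold ebm
    rw [faE_zero] at he ⊢
    rw [faE_zero, Finset.image_insert, Finset.image_singleton]
    rw [Finset.insert_subset_iff, Finset.singleton_subset_iff] at he
    have h1 := h.e2 (z - (0, 1)) he.2 (by rw [sub_add_cancel]; exact he.1)
    rw [sub_add_cancel] at h1
    dsimp only
    rw [h1, add_sub_cancel_right]
  · unfold ebm
    rw [faE_one] at he ⊢
    rw [faE_one, Finset.image_insert, Finset.image_singleton]
    rw [Finset.insert_subset_iff, Finset.singleton_subset_iff] at he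
    have h1 := h.e1 (z - (1, 0)) he.1 (by rw [sub_add_cancel]; exact he.2)
    rw [sub_add_cancel] at h1
    dsimp only
    rw [h1, add_sub_cancel_right]

theorem Steps.faE_surj {ψ : G × G → G' × G'} {U : Finset (G × G)} (h : Steps ψ U) {e' : EG G'}
    (he : J4Geox126.faE e' ⊆ U.image ψ) : ∃ e : EG G, J4Geox126.faE e ⊆ U ∧ ebm ψ e = e' := by
  obtain ⟨z', j⟩ := e'
  rcases fin2 j with rfl | rfl
  · rw [faE_zero, Finset.insert_subset_iff, Finset.singleton_subset_iff] at he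
    obtain ⟨z, hz, rfl⟩ := Finset.mem_image.1 he.1
    obtain ⟨k, hk, hk'⟩ := Finset.mem_image.1 he.2
    have hk2 : ψ k + (0, 1) = ψ z := by rw [hk', sub_add_cancel]
    have h1 : k + (0, 1) ∈ U := h.c2 k hk (by rw [hk2]; exact he.1)
    have h2 : k + (0, 1) = z := h.face h1 hz (by rw [h.e2 k hk h1, hk2])
    refine ⟨(z, 0), ?_, rfl⟩
    rw [faE_zero, Finset.insert_subset_iff, Finset.singleton_subset_iff]
    refine ⟨hz, ?_⟩
    rw [← h2, add_sub_cancel_right]
    exact hk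
  · rw [faE_one, Finset.insert_subset_iff, Finset.singleton_subset_iff] at he
    obtain ⟨z, hz, rfl⟩ := Finset.mem_image.1 he.2
    obtain ⟨k, hk, hk'⟩ := Finset.mem_image.1 he.1
    have hk2 : ψ k + (1, 0) = ψ z := by rw [hk', sub_add_cancel]
    have h1 : k + (1, 0) ∈ U := h.c1 k hk (by rw [hk2]; exact he.2)
    have h2 : k + (1, 0) = z := h.face h1 hz (by rw [h.e1 k hk h1, hk2])
    refine ⟨(z, 1), ?_, rfl⟩
    rw [faE_one, Finset.insert_subset_iff, Finset.singleton_subset_iff]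
    refine ⟨?_, hz⟩
    rw [← h2, add_sub_cancel_right]
    exact hk

theorem ebm_injOn {ψ : G × G → G' × G'} {U : Finset (G × G)} (h : Set.InjOn ψ U) :
    Set.InjOn (ebm ψ) {e | J4Geox126.faE e ⊆ U} := by
  rintro ⟨z, j⟩ he ⟨w, k⟩ he' hh
  unfold ebm at hh
  rw [Prod.mk.injEq] at hh
  dsimp only at hh
  rw [Prod.mk.injEq]
  exact ⟨h (he (Bk.fst_mem_faE _)) (he' (Bk.fst_mem_faE _)) hh.1, hh.2⟩

end walk

/-! ### charts of translation type -/

section chart
variable {G : Type*} [CommRing G] [DecidableEq G]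
variable {A : Type*} [CommRing A] [Algebra ℝ A] {κ : Type*} [DecidableEq κ] [Fintype κ]
variable {G' : Type*} [CommRing G'] [DecidableEq G']
variable {A' : Type*} [CommRing A'] [Algebra ℝ A'] {κ' : Type*} [DecidableEq κ'] [Fintype κ']

/-- compatibility of two backgrounds along a chart on `U` -/
structure Chart0 (fr : Fr G A) (B : Bk G κ A) (fr' : Fr G' A') (B' : Bk G' κ' A')
    (ψ : G × G → G' × G') (sm : κ → Option κ') (τ : A →ₐ[ℝ] A') (U : Finset (G × G)) : Prop
    extends Steps ψ U where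
  yb : ∀ e, faE e ⊆ U → τ (B.y e • fr.b e) = B'.y (ebm ψ e) • fr'.b (ebm ψ e)
  s : ∀ f ∈ U, B.s f = B'.s (ψ f)
  I4 : ∀ f ∈ U, τ (fr.I4 f) = fr'.I4 (ψ f)
  R : B.R = B'.R
  t : ∀ S ∈ Can B.R, Even S.card → B.t S = B'.t S
  ok : ∀ u ∈ U, ∀ S ∈ Can B.R, Even S.card → (Yf S).image (fz u) ⊆ U →
    (B.ok u S ↔ B'.ok (ψ u) S)
  src : ∀ k, (B.Ys k).Nonempty → B.Ys k ⊆ U → ∃ k', sm k = some k' ∧
    B'.Ys k' = (B.Ys k).image ψ ∧ τ (B.as k) = B'.as k' ∧ B'.Fs k' = em (ebm ψ) (B.Fs k)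
  src_inj : ∀ k, (B.Ys k).Nonempty → B.Ys k ⊆ U → ∀ l, (B.Ys l).Nonempty → B.Ys l ⊆ U →
    sm k = sm l → k = l
  src_surj : ∀ k', (B'.Ys k').Nonempty → B'.Ys k' ⊆ U.image ψ →
    ∃ k, (B.Ys k).Nonempty ∧ B.Ys k ⊆ U ∧ sm k = some k'

/-- the label map of a chart -/
def mch (ψ : G × G → G' × G') (sm : κ → Option κ') : Ix G κ → Ix G' κ'
  | .inl p => .inl (ψ p.1, p.2)
  | .inr (.inl f) => .inr (.inl (ψ f))
  | .inr (.inr (.inl e)) => .inr (.inr (.inl (ebm ψ e)))
  | .inr (.inr (.inr k)) => match sm k with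
    | some k' => .inr (.inr (.inr k'))
    | none => .inr (.inl 0)

variable {fr : Fr G A} {B : Bk G κ A} {fr' : Fr G' A'} {B' : Bk G' κ' A'}
    {ψ : G × G → G' × G'} {sm : κ → Option κ'} {τ : A →ₐ[ℝ] A'} {U : Finset (G × G)}

theorem Chart0.s_faE (h : Chart0 fr B fr' B' ψ sm τ U) {e : EG G} (he : faE e ⊆ U) :
    B.s (pe e).1 * B.s (qe e).1 = B'.s (pe (ebm ψ e)).1 * B'.s (qe (ebm ψ e)).1 := by
  obtain ⟨z, j⟩ := e
  rcases fin2 j with rfl | rfl
  · rw [faE_zero, Finset.insert_subset_iff, Finset.singleton_subset_iff] at he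
    unfold ebm
    rw [pe_zero, qe_zero, pe_zero, qe_zero]
    dsimp only
    have h1 := h.e2 (z - (0, 1)) he.2 (by rw [sub_add_cancel]; exact he.1)
    rw [sub_add_cancel] at h1
    rw [h.s _ he.1, h.s _ he.2, h1, add_sub_cancel_right]
  · rw [faE_one, Finset.insert_subset_iff, Finset.singleton_subset_iff] at he
    unfold ebm
    rw [pe_one, qe_one, pe_one, qe_one]
    dsimp only
    have h1 := h.e1 (z - (1, 0)) he.1 (by rw [sub_add_cancel]; exact he.2)
    rw [sub_add_cancel] at h1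
    rw [h.s _ he.1, h.s _ he.2, h1, add_sub_cancel_right]

theorem Chart0.g (h : Chart0 fr B fr' B' ψ sm τ U) {e : EG G} (he : faE e ⊆ U) :
    τ (B.g fr e) = B'.g fr' (ebm ψ e) := by
  unfold Bk.g
  have e1 : ∀ (x c : ℝ) (b : A), (2 * (x * c)) • b = (2 * c) • (x • b) := by
    intro x c b; rw [smul_smul]; ring_nf
  have e2 : ∀ (x c : ℝ) (b : A'), (2 * (x * c)) • b = (2 * c) • (x • b) := by
    intro x c b; rw [smul_smul]; ring_nf
  rw [map_sub, map_one, e1, e2, map_smul, h.yb e he, h.s_faE he]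

theorem Chart0.kmap (h : Chart0 fr B fr' B' ψ sm τ U) :
    KMap fr B fr' B' ψ (ebm ψ) (mch ψ sm) τ U where
  face := h.face
  einj := ebm_injOn h.face
  g e he := h.g he
  minj i j hi hiU hj hjU hij := by
    rcases i with p | f | e | k
    · rcases j with p' | f' | e' | k'
      · unfold mch at hij
        rw [Sum.inl.injEq, Prod.mk.injEq] at hij
        have h1 : p.1 ∈ U := hiU (Bk.base_mem _ (mem_Can.1 hi.1.1).2.1)
        have h2 : p'.1 ∈ U := hjU (Bk.base_mem _ (mem_Can.1 hj.1.1).2.1)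
        rw [Sum.inl.injEq]
        exact Prod.ext (h.face h1 h2 hij.1) hij.2
      · unfold mch at hij; cases hij
      · unfold mch at hij; cases hij
      · obtain ⟨k'', hk, -⟩ := h.src k' hj hjU
        unfold mch at hij; simp only [hk] at hij; cases hij
    · rcases j with p' | f' | e' | k'
      · unfold mch at hij; cases hij
      · unfold mch at hij
        rw [Sum.inr.injEq, Sum.inl.injEq] at hij
        have h1 : f ∈ U := hiU (Finset.mem_singleton_self f)
        have h2 : f' ∈ U := hjU (Finset.mem_singleton_self f')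
        rw [h.face h1 h2 hij]
      · unfold mch at hij; cases hij
      · obtain ⟨k'', hk, -⟩ := h.src k' hj hjU
        unfold mch at hij; simp only [hk] at hij; cases hij
    · rcases j with p' | f' | e' | k'
      · unfold mch at hij; cases hij
      · unfold mch at hij; cases hij
      · unfold mch at hij
        rw [Sum.inr.injEq, Sum.inr.injEq, Sum.inl.injEq] at hij
        rw [ebm_injOn h.face hiU hjU hij]
      · obtain ⟨k'', hk, -⟩ := h.src k' hj hjU
        unfold mch at hij; simp only [hk] at hij; cases hij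
    · obtain ⟨l, hl, -⟩ := h.src k hi hiU
      rcases j with p' | f' | e' | k'
      · unfold mch at hij; simp only [hl] at hij; cases hij
      · unfold mch at hij; simp only [hl] at hij; cases hij
      · unfold mch at hij; simp only [hl] at hij; cases hij
      · obtain ⟨l', hl', -⟩ := h.src k' hj hjU
        unfold mch at hij
        simp only [hl, hl', Sum.inr.injEq] at hij
        have : k = k' := h.src_inj k hi hiU k' hj hjU (by rw [hl, hl', hij])
        rw [this]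
  ok i hi hiU := by
    rcases i with p | f | e | k
    · have h1 : p.1 ∈ U := hiU (Bk.base_mem _ (mem_Can.1 hi.1.1).2.1)
      refine ⟨⟨?_, hi.1.2⟩, (h.ok _ h1 _ hi.1.1 hi.1.2 hiU).1 hi.2⟩
      rw [← h.R]; exact hi.1.1
    · trivial
    · trivial
    · obtain ⟨l, hl, h2, -⟩ := h.src k hi hiU
      unfold mch
      simp only [hl]
      change (B'.Ys l).Nonempty
      rw [h2]
      exact Finset.Nonempty.image hi _
  Y i hi hiU := by
    rcases i with p | f | e | k
    · change (Yf p.2).image (fz (ψ p.1)) = ((Yf p.2).image (fz p.1)).image ψ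
      rw [Finset.image_image]
      exact Finset.image_congr fun z hz => (h.fwd (mem_Can.1 hi.1.1).2.1 hiU z hz).symm
    · exact (Finset.image_singleton _ _).symm
    · exact h.toSteps.faE hiU
    · obtain ⟨l, hl, h2, -⟩ := h.src k hi hiU
      unfold mch
      simp only [hl]
      exact h2
  surj i' hi' hiU' := by
    rcases i' with p | f | e | k
    · have h0 : p.1 ∈ U.image ψ := hiU' (Bk.base_mem _ (mem_Can.1 hi'.1.1).2.1)
      obtain ⟨u, hu, hu'⟩ := Finset.mem_image.1 h0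
      have hc : p.2 ∈ Can B.R := by rw [h.R]; exact hi'.1.1
      have h1 : (Yf p.2).image (fz u) ⊆ U := by
        refine h.bwd (mem_Can.1 hi'.1.1).2.1 hu ?_
        rw [hu']; exact hiU'
      refine ⟨.inl (u, p.2), ⟨⟨hc, hi'.1.2⟩, ?_⟩, h1, ?_⟩
      · refine (h.ok u hu _ hc hi'.1.2 h1).2 ?_
        rw [hu']; exact hi'.2
      · change (Sum.inl (ψ u, p.2) : Ix G' κ') = _
        rw [hu']
    · obtain ⟨g, hg, hg'⟩ := Finset.mem_image.1 (hiU' (Finset.mem_singleton_self f))
      refine ⟨.inr (.inl g), trivial, Finset.singleton_subset_iff.2 hg, ?_⟩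
      change (Sum.inr (Sum.inl (ψ g)) : Ix G' κ') = _
      rw [hg']
    · obtain ⟨g, hg, hg'⟩ := h.faE_surj hiU'
      refine ⟨.inr (.inr (.inl g)), trivial, hg, ?_⟩
      change (Sum.inr (Sum.inr (Sum.inl (ebm ψ g))) : Ix G' κ') = _
      rw [hg']
    · obtain ⟨l, h1, h2, h3⟩ := h.src_surj k hi' hiU'
      refine ⟨.inr (.inr (.inr l)), h1, h2, ?_⟩
      unfold mch
      simp only [h3]
  a i hi hiU := by
    rcases i with p | f | e | k
    · exact map_one τ
    · change τ (B.cI f • fr.I4 f + (B.cI f ^ 2 / 2) • (fr.I4 f * fr.I4 f)) =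
        B'.cI (ψ f) • fr'.I4 (ψ f) + (B'.cI (ψ f) ^ 2 / 2) • (fr'.I4 (ψ f) * fr'.I4 (ψ f))
      have hf : f ∈ U := hiU (Finset.mem_singleton_self f)
      have hc : B.cI f = B'.cI (ψ f) := by unfold Bk.cI; rw [h.s f hf]
      rw [map_add, map_smul, map_smul, map_mul, h.I4 f hf, hc]
    · change τ ((B.y e * (B.s (pe e).1 * B.s (qe e).1 - 1)) • fr.b e) =
        (B'.y (ebm ψ e) * (B'.s (pe (ebm ψ e)).1 * B'.s (qe (ebm ψ e)).1 - 1)) •
          fr'.b (ebm ψ e)
      rw [mul_comm (B.y e), mul_smul, map_smul, h.yb e hiU, h.s_faE hiU, smul_smul, mul_comm]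
    · obtain ⟨l, hl, h2, h3, -⟩ := h.src k hi hiU
      unfold mch
      simp only [hl]
      exact h3
  F i hi hiU := by
    rcases i with p | f | e | k
    · change em (ez (ψ p.1)) (kB (B'.t p.2) p.2) = em (ebm ψ) (em (ez p.1) (kB (B.t p.2) p.2))
      rw [em_comp, ← h.t _ hi.1.1 hi.1.2]
      refine em_congr_on ?_ (kB_mem (B.t p.2) p.2 hi.1.2)
      intro e he
      have h1 : e.1 ∈ Yf p.2 := faE_subset he (Bk.fst_mem_faE e)
      change ez (ψ p.1) e = ebm ψ (ez p.1 e)
      unfold ebm ez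
      rw [h.fwd (mem_Can.1 hi.1.1).2.1 hiU _ h1]
    · exact (map_one _).symm
    · exact (map_one _).symm
    · obtain ⟨l, hl, h2, h3, h4⟩ := h.src k hi hiU
      unfold mch
      simp only [hl]
      exact h4

/-- **covariance of the initial activities under charts** -/
theorem K0_chart (h : Chart0 fr B fr' B' ψ sm τ U) : τ (B.K0 fr U) = B'.K0 fr' (U.image ψ) :=
  K0_map h.kmap

end chart

end Crest.Agent.R165.J4K0Mapx126
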