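import Crest.Agent.R165.J4K0D_126
import Crest.Agent.R165.J4K0B_126
import Crest.Agent.R165.J4K0L_126
import Crest.Agent.R165.SrcStep2_54

/-!
# Row 165 (S0250), block J4: source free part, single sources, rest (helper126)

Sources with pairwise disjoint supports:

* `Nsr fr B U` : the source free part of `B.K0 fr U`
* `Ld fr B U`  : the single sources `k` with `Ys k = U`
* `Rst fr B U` : the rest: connected label sets with a source and another label
* `K0_split`   : `B.K0 fr U = Nsr + Ld + Rst`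
* `rest_total` : `∑_U Γ^|U| N U (Rst U) ≤ (θ / θ₁) ∑_k (3 Γ)^|Ys k| α k φ k`
-/

set_option autoImplicit false
set_option linter.unusedSectionVars false

noncomputable section

open Finset
open scoped ENNReal

namespace Crest.Agent.R165.J4K0Rx126
open Crest.Agent.R165.KCompx892 Crest.Agent.R165.J4Actx126
open Crest.Agent.R165.J4Datx126 Crest.Agent.R165.J4Geox126 Crest.Agent.R165.J4K0x126
open Crest.Agent.R165.J4K0Dx126 Crest.Agent.R165.J4K0Bx126 Crest.Agent.R165.J4K0Lx126
open Crest.Agent.R165.J4Defx653 Crest.Agent.R165.J4Pathx653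
open Crest.Agent.R165.J4RRx653 Crest.Agent.R165.J4RRAx653
open Crest.Agent.R165.J1ax606 (HE EG pe qe pe_zero pe_one qe_zero qe_one)

section gen
variable {G : Type*} [CommRing G] [DecidableEq G]
variable {A : Type*} [CommRing A] [Algebra ℝ A] {κ : Type*} [DecidableEq κ] [Fintype κ]

open scoped Classical

/-- the label of a source -/
abbrev sL (k : κ) : Ix G κ := Sum.inr (Sum.inr (Sum.inr k))

/-- source labels -/
def isS : Ix G κ → Prop
  | .inr (.inr (.inr _)) => True
  | _ => False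

theorem isS_iff {i : Ix G κ} : isS i ↔ ∃ k, i = sL k := by
  rcases i with p | f | e | k
  · exact ⟨fun h => h.elim, fun ⟨k, h⟩ => by cases h⟩
  · exact ⟨fun h => h.elim, fun ⟨k, h⟩ => by cases h⟩
  · exact ⟨fun h => h.elim, fun ⟨k, h⟩ => by cases h⟩
  · exact ⟨fun _ => ⟨k, rfl⟩, fun _ => trivial⟩

variable (fr : Fr G A) (B : Bk G κ A)

/-- the labels inside `U` which are not sources -/
def nsl (U : Finset (G × G)) : Finset (Ix G κ) := (B.ixs U).filter fun i => ¬ isS i

theorem mem_nsl {U : Finset (G × G)} {i : Ix G κ} :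
    i ∈ nsl B U ↔ (B.okI i ∧ B.YI i ⊆ U) ∧ ¬ isS i := by
  unfold nsl
  rw [Finset.mem_filter, B.mem_ixs]

theorem nsl_ok {U : Finset (G × G)} : ∀ i ∈ nsl B U, B.okI i :=
  fun _ hi => ((mem_nsl B).1 hi).1.1

/-- the source free part -/
def Nsr (U : Finset (G × G)) : A := (B.dat fr (nsl B U) (nsl_ok B)).items.act U

/-- the single sources -/
def Ld (U : Finset (G × G)) : A :=
  ∑ k with (B.Ys k).Nonempty ∧ B.Ys k = U, J4K0Bx126.val fr B (sL k)

/-- the families of the rest -/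
def fam (Λ : Finset (G × G)) : Finset (Finset (Ix G κ)) :=
  (B.ixs Λ).powerset.filter fun T => Conn (touch B.YI) T ∧ (∃ k, sL k ∈ T) ∧ 2 ≤ T.card

/-- the rest -/
def Rst (U : Finset (G × G)) : A := ∑ T ∈ fam B U with supp B.YI T = U, wJ fr B T

variable {B}

theorem touch_YI_refl {i : Ix G κ} (h : B.okI i) : touch B.YI i i := fun h' =>
  (B.YI_nonempty h).ne_empty (Finset.disjoint_self_iff_empty _ |>.1 h')

theorem split3 {ι M : Type*} [AddCommMonoid M] (S : Finset ι) (p q : ι → Prop) (w : ι → M) :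
    ∑ T ∈ S, w T = ∑ T ∈ S with ¬ p T, w T + ∑ T ∈ S with p T ∧ ¬ q T, w T +
      ∑ T ∈ S with p T ∧ q T, w T := by
  rw [← Finset.sum_filter_add_sum_filter_not S p,
    ← Finset.sum_filter_add_sum_filter_not (S.filter p) q, Finset.filter_filter,
    Finset.filter_filter]
  abel

/-- the families of the activity -/
def famK (B : Bk G κ A) (U : Finset (G × G)) : Finset (Finset (Ix G κ)) :=
  (B.ixs U).powerset.filter fun T => Conn (touch B.YI) T ∧ supp B.YI T = U

theorem mem_famK {U : Finset (G × G)} {T : Finset (Ix G κ)} :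
    T ∈ famK B U ↔ T ⊆ B.ixs U ∧ Conn (touch B.YI) T ∧ supp B.YI T = U := by
  unfold famK
  rw [Finset.mem_filter, Finset.mem_powerset]

theorem K0_famK (U : Finset (G × G)) : B.K0 fr U = ∑ T ∈ famK B U, wJ fr B T :=
  act_dat_sum fr B (B.ixs U) B.ixs_ok U

theorem Nsr_famK (U : Finset (G × G)) :
    Nsr fr B U = ∑ T ∈ famK B U with ¬ ∃ k, sL k ∈ T, wJ fr B T := by
  unfold Nsr
  rw [act_dat_sum]
  refine Finset.sum_congr ?_ fun _ _ => rfl
  ext T
  rw [Finset.mem_filter, Finset.mem_filter, mem_famK, Finset.mem_powerset]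
  constructor
  · rintro ⟨h2, h3⟩
    refine ⟨⟨fun i hi => B.mem_ixs.2 ((mem_nsl B).1 (h2 hi)).1, h3⟩, ?_⟩
    rintro ⟨k, hk⟩
    exact ((mem_nsl B).1 (h2 hk)).2 trivial
  · rintro ⟨⟨h2, h3⟩, h4⟩
    refine ⟨fun i hi => (mem_nsl B).2 ⟨B.mem_ixs.1 (h2 hi), fun hs => ?_⟩, h3⟩
    obtain ⟨k, rfl⟩ := isS_iff.1 hs
    exact h4 ⟨k, hi⟩

theorem Rst_famK (U : Finset (G × G)) :
    Rst fr B U = ∑ T ∈ famK B U with (∃ k, sL k ∈ T) ∧ 2 ≤ T.card, wJ fr B T := by
  unfold Rst
  refine Finset.sum_congr ?_ fun _ _ => rfl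
  ext T
  unfold fam
  rw [Finset.mem_filter, Finset.mem_filter, Finset.mem_filter, mem_famK, Finset.mem_powerset]
  tauto

theorem Ld_famK (U : Finset (G × G)) :
    Ld fr B U = ∑ T ∈ famK B U with (∃ k, sL k ∈ T) ∧ ¬ 2 ≤ T.card, wJ fr B T := by
  unfold Ld
  refine Finset.sum_bij (fun k _ => {sL k}) ?_ ?_ ?_ ?_
  · intro k hk
    rw [Finset.mem_filter] at hk
    rw [Finset.mem_filter, mem_famK, Finset.singleton_subset_iff, B.mem_ixs]
    refine ⟨⟨⟨hk.2.1, hk.2.2.le⟩, conn_singleton _, ?_⟩, ⟨k, Finset.mem_singleton_self _⟩, ?_⟩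
    · unfold supp
      rw [Finset.singleton_biUnion]
      exact hk.2.2
    · rw [Finset.card_singleton]; omega
  · intro k _ k' _ h
    have := Finset.singleton_injective h
    simpa using this
  · intro T hT
    rw [Finset.mem_filter, mem_famK] at hT
    obtain ⟨⟨h4, -, h5⟩, ⟨k, hk⟩, h6⟩ := hT
    have h7 : T = {sL k} := by
      refine (Finset.eq_of_subset_of_card_le (Finset.singleton_subset_iff.2 hk) ?_).symm
      rw [Finset.card_singleton]; omega
    refine ⟨k, ?_, h7.symm⟩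
    rw [Finset.mem_filter]
    refine ⟨Finset.mem_univ _, (B.mem_ixs.1 (h4 hk)).1, ?_⟩
    rw [h7] at h5
    unfold supp at h5
    rw [Finset.singleton_biUnion] at h5
    exact h5
  · intro k _
    unfold wJ J4K0Bx126.val
    rw [Finset.prod_singleton, Finset.prod_singleton]

/-- **the decomposition** -/
theorem K0_split (U : Finset (G × G)) : B.K0 fr U = Nsr fr B U + Ld fr B U + Rst fr B U := by
  rw [K0_famK, split3 (famK B U) (fun T => ∃ k, sL k ∈ T) (fun T => 2 ≤ T.card), Nsr_famK,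
    Ld_famK, Rst_famK]
  congr!

/-- the rest is carried by connected families -/
theorem Rst_ne {U : Finset (G × G)} (h : Rst fr B U ≠ 0) :
    ∃ T : Finset (Ix G κ), T ⊆ B.ixs U ∧ Conn (touch B.YI) T ∧ supp B.YI T = U := by
  unfold Rst at h
  obtain ⟨T, hT, -⟩ := Finset.exists_ne_zero_of_sum_ne_zero h
  unfold fam at hT
  rw [Finset.mem_filter, Finset.mem_filter, Finset.mem_powerset] at hT
  exact ⟨T, hT.1.1, hT.1.2.1, hT.2⟩

/-! ### bounds -/

variable {fr} {N : Finset (G × G) → A → ℝ≥0∞} {c θ Γ εs : ℝ} {α φ : κ → ℝ≥0∞}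

/-- norm of the weight of a label set -/
theorem wJ_bound (hN : NHyp fr N c) (hB : BHyp B θ) (hS : SHyp B N c Γ εs α φ)
    {T : Finset (Ix G κ)} (hT : ∀ i ∈ T, B.okI i) :
    N (supp B.YI T) (wJ fr B T) ≤ ∏ i ∈ T, aW B θ c α φ i := by
  have h := w_bound hN hB hS hT (Finset.univ : Finset {i // i ∈ T})
  have e1 : supp (B.dat fr T hT).Y Finset.univ = supp B.YI T := by
    unfold supp
    ext f
    rw [Finset.mem_biUnion, Finset.mem_biUnion]
    constructor
    · rintro ⟨i, -, hi⟩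
      exact ⟨i.1, i.2, hi⟩
    · rintro ⟨i, hi, hf⟩
      exact ⟨⟨i, hi⟩, Finset.mem_univ _, hf⟩
  have e2 : (B.dat fr T hT).items.w Finset.univ = wJ fr B T := by
    rw [Dat.w_eq]
    unfold wJ
    congr 1
    · exact Finset.prod_coe_sort T (fun i => B.aI fr i)
    · exact congrArg _ (Finset.prod_coe_sort T (fun i => B.FI i))
  rw [e1, e2, Finset.prod_coe_sort T (fun i => aW B θ c α φ i)] at h
  exact h

theorem aW_mono {θ₁ : ℝ} (hc : 1 ≤ c) (h : θ ≤ θ₁) (i : Ix G κ) :
    aW B θ c α φ i ≤ aW B θ₁ c α φ i := by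
  have hM := Mc_pos B.R hc
  have key : ENNReal.ofReal (12 * θ * Mc B.R c) ≤ ENNReal.ofReal (12 * θ₁ * Mc B.R c) := by
    refine ENNReal.ofReal_le_ofReal ?_
    have := mul_le_mul_of_nonneg_right h hM.le
    linarith
  rcases i with p | f | e | k
  · exact key
  · exact key
  · exact key
  · exact le_rfl

theorem aW_ns {θ₁ : ℝ} (hθ : 0 ≤ θ) (hθ₁ : 0 < θ₁) {i : Ix G κ} (hi : ¬ isS i) :
    aW B θ c α φ i = ENNReal.ofReal (θ / θ₁) * aW B θ₁ c α φ i := by
  have key : ENNReal.ofReal (12 * θ * Mc B.R c) =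
      ENNReal.ofReal (θ / θ₁) * ENNReal.ofReal (12 * θ₁ * Mc B.R c) := by
    rw [← ENNReal.ofReal_mul (by positivity)]
    congr 1
    field_simp
  rcases i with p | f | e | k
  · exact key
  · exact key
  · exact key
  · exact absurd trivial hi

/-- a connected family with a source and at least two labels has another kind of label -/
theorem exists_ns (disj : ∀ k k', k ≠ k' → Disjoint (B.Ys k) (B.Ys k')) {T : Finset (Ix G κ)}
    (hT : Conn (touch B.YI) T) {k : κ} (hk : sL k ∈ T) (h2 : 2 ≤ T.card) : ∃ j ∈ T, ¬ isS j := by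
  by_contra hcon
  push Not at hcon
  have h := hT.2 {sL k} (Finset.singleton_subset_iff.2 hk) (Finset.singleton_nonempty _) (by
    intro a ha b hb hab
    rw [Finset.mem_singleton] at ha
    rw [Finset.mem_sdiff, Finset.mem_singleton] at hb
    obtain ⟨k', rfl⟩ := isS_iff.1 (hcon b hb.1)
    subst ha
    apply hab
    exact disj k k' fun h => hb.2 (by rw [h]))
  rw [← h, Finset.card_singleton] at h2
  omega

/-- **total norm of the rest** -/
theorem rest_total (hN : NHyp fr N c) (hB : BHyp B θ) (hΓ : 1 ≤ Γ) (hεs : 0 ≤ εs)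
    (hS : SHyp B N c (3 * Γ) εs α φ) {θ₁ : ℝ} (hθ₁ : 0 < θ₁) (hθθ : θ ≤ θ₁)
    (hsm : Kc B.R (3 * Γ) c * θ₁ + εs ≤ 1)
    (disj : ∀ k k', k ≠ k' → Disjoint (B.Ys k) (B.Ys k')) (𝒮 : Finset (Finset (G × G))) :
    ∑ U ∈ 𝒮, ENNReal.ofReal Γ ^ U.card * N U (Rst fr B U) ≤
      ENNReal.ofReal (θ / θ₁) *
        ∑ k, ENNReal.ofReal (3 * Γ) ^ (B.Ys k).card * (α k * φ k) := by
  have hΓ1 : (1 : ℝ≥0∞) ≤ ENNReal.ofReal Γ := by
    rw [← ENNReal.ofReal_one]; exact ENNReal.ofReal_le_ofReal hΓ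
  have hc := hN.c1
  set Λ : Finset (G × G) := 𝒮.biUnion id with hΛ
  -- item weights with sizes
  set a0 : Ix G κ → ℝ≥0∞ := fun i => ENNReal.ofReal Γ ^ (B.YI i).card * aW B θ c α φ i with ha0
  set a1 : Ix G κ → ℝ≥0∞ := fun i => if i ∈ B.ixs Λ then
    ENNReal.ofReal Γ ^ (B.YI i).card * aW B θ₁ c α φ i else 0 with ha1
  set b : Ix G κ → ℝ≥0∞ := fun i => if isS i then a1 i else 0 with hb
  have hfamΛ : ∀ U ∈ 𝒮, fam B U ⊆ fam B Λ := by
    intro U hU T hT
    unfold fam at hT ⊢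
    rw [Finset.mem_filter, Finset.mem_powerset] at hT ⊢
    exact ⟨hT.1.trans (B.ixs_mono (Finset.subset_biUnion_of_mem id hU)), hT.2⟩
  -- one set
  have hone : ∀ U ∈ 𝒮, ENNReal.ofReal Γ ^ U.card * N U (Rst fr B U) ≤
      ∑ T ∈ fam B Λ, if supp B.YI T = U then ∏ i ∈ T, a0 i else 0 := by
    intro U hU
    unfold Rst
    have h1 : N U (∑ T ∈ fam B U with supp B.YI T = U, wJ fr B T) ≤
        ∑ T ∈ fam B U with supp B.YI T = U, ∏ i ∈ T, aW B θ c α φ i := by
      refine ((hN.semi U).nsum.sum _ _).trans (Finset.sum_le_sum fun T hT => ?_)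
      rw [Finset.mem_filter] at hT
      have hok : ∀ i ∈ T, B.okI i := by
        intro i hi
        unfold fam at hT
        rw [Finset.mem_filter, Finset.mem_powerset] at hT
        exact B.ixs_ok i (hT.1.1 hi)
      have := wJ_bound hN hB hS hok
      rw [hT.2] at this
      exact this
    refine (mul_le_mul_right h1 _).trans ?_
    rw [Finset.mul_sum, Finset.sum_filter]
    refine le_trans ?_ (Finset.sum_le_sum_of_subset (hfamΛ U hU))
    refine Finset.sum_le_sum fun T _ => ?_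
    by_cases h : supp B.YI T = U
    · rw [if_pos h, if_pos h, ← h]
      exact size_le (ENNReal.ofReal Γ) hΓ1 B.YI (aW B θ c α φ) T
    · rw [if_neg h, if_neg h]
  have hsum : ∑ U ∈ 𝒮, ENNReal.ofReal Γ ^ U.card * N U (Rst fr B U) ≤
      ∑ T ∈ fam B Λ, ∏ i ∈ T, a0 i := by
    refine (Finset.sum_le_sum hone).trans ?_
    rw [Finset.sum_comm]
    refine Finset.sum_le_sum fun T _ => ?_
    rw [Finset.sum_ite_eq]
    split_ifs
    · exact le_rfl
    · exact zero_le
  -- the marked form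
  have hmark : ∀ T ∈ fam B Λ, ∏ i ∈ T, a0 i ≤ ENNReal.ofReal (θ / θ₁) *
      (if Conn (touch B.YI) T ∧ 2 ≤ T.card then ∑ t ∈ T, b t * ∏ s ∈ T.erase t, a1 s else 0) := by
    intro T hT
    unfold fam at hT
    rw [Finset.mem_filter, Finset.mem_powerset] at hT
    obtain ⟨hsub, hconn, ⟨k, hk⟩, h2⟩ := hT
    obtain ⟨j, hj, hjs⟩ := exists_ns disj hconn hk h2
    rw [if_pos ⟨hconn, h2⟩]
    have hle : ∀ i ∈ T, a0 i ≤ a1 i := by
      intro i hi
      rw [ha0, ha1]
      dsimp only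
      rw [if_pos (hsub hi)]
      exact mul_le_mul_right (aW_mono hc hθθ i) _
    have e1 : ∏ i ∈ T, a0 i ≤ ENNReal.ofReal (θ / θ₁) * ∏ i ∈ T, a1 i := by
      rw [← Finset.mul_prod_erase T a0 hj, ← Finset.mul_prod_erase T a1 hj, ← mul_assoc]
      refine mul_le_mul' (le_of_eq ?_) (Finset.prod_le_prod' fun i hi =>
        hle i (Finset.mem_of_mem_erase hi))
      rw [ha0, ha1]
      dsimp only
      rw [if_pos (hsub hj), aW_ns hB.θ0 hθ₁ hjs]
      ring
    refine e1.trans (mul_le_mul_right ?_ _)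
    have e2 : ∏ i ∈ T, a1 i = b (sL k) * ∏ s ∈ T.erase (sL k), a1 s := by
      rw [← Finset.mul_prod_erase T a1 hk]
      congr 1
      rw [hb]
      exact (if_pos trivial).symm
    rw [e2]
    exact Finset.single_le_sum (f := fun t => b t * ∏ s ∈ T.erase t, a1 s)
      (fun _ _ => zero_le) hk
  refine hsum.trans ((Finset.sum_le_sum hmark).trans ?_)
  rw [← Finset.mul_sum]
  refine mul_le_mul_right ?_ _
  refine (ENNReal.sum_le_tsum (f := fun T : Finset (Ix G κ) =>
    (if Conn (touch B.YI) T ∧ 2 ≤ T.card then ∑ t ∈ T, b t * ∏ s ∈ T.erase t, a1 s else 0))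
    (fam B Λ)).trans ?_
  have hε0 : 0 ≤ Kc B.R (3 * Γ) c * θ₁ + εs := by
    have := Kc_nonneg B.R (by linarith : (1 : ℝ) ≤ 3 * Γ) hc
    positivity
  have h3Γ : ∀ n : ℕ, ENNReal.ofReal Γ ^ n * 3 ^ n = ENNReal.ofReal (3 * Γ) ^ n := by
    intro n
    rw [ENNReal.ofReal_mul (by norm_num), mul_pow, ENNReal.ofReal_ofNat, mul_comm]
  refine (SrcStepx54.marked_total (β := G × G) (fun x y hxy => touch_symm x y hxy) a1 b
    (fun i => (B.YI i).card) (fun f i => f ∈ B.YI i) (C := 1)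
    (ε := ENNReal.ofReal (Kc B.R (3 * Γ) c * θ₁ + εs)) ?_ ?_ ?_).trans ?_
  · intro f
    rw [tsum_eq_sum (s := B.ixs Λ)]
    · refine le_trans (le_of_eq ?_)
        (face_sum_le hθ₁.le hc (by linarith : (1 : ℝ) ≤ 3 * Γ) hεs hS
          (𝔍 := B.ixs Λ) B.ixs_ok f)
      rw [Finset.sum_filter]
      refine Finset.sum_congr rfl fun i hi => ?_
      have e5 : a1 i * 3 ^ (B.YI i).card =
          ENNReal.ofReal (3 * Γ) ^ (B.YI i).card * aW B θ₁ c α φ i := by
        rw [ha1]
        dsimp only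
        rw [if_pos hi, ← h3Γ]
        ring
      by_cases hf : f ∈ B.YI i
      · rw [if_pos hf, if_pos hf, e5]
      · rw [if_neg hf, if_neg hf]
    · intro i hi
      rw [ha1]
      dsimp only
      rw [if_neg hi, zero_mul, ite_self]
  · intro i
    refine ⟨B.YI i, by rw [one_mul], fun j hj => ?_⟩
    unfold touch at hj
    rw [Finset.not_disjoint_iff] at hj
    obtain ⟨f, hf, hf'⟩ := hj
    exact ⟨f, hf, hf'⟩
  · rw [one_mul, ← ENNReal.ofReal_one]
    exact ENNReal.ofReal_le_ofReal hsm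
  · rw [one_mul]
    have h1 : ENNReal.ofReal (Kc B.R (3 * Γ) c * θ₁ + εs) ≤ 1 := by
      rw [← ENNReal.ofReal_one]
      exact ENNReal.ofReal_le_ofReal hsm
    refine (mul_le_mul_left h1 _).trans ?_
    rw [one_mul]
    have hinj : Function.Injective (sL : κ → Ix G κ) := fun k k' h => by
      simpa using h
    have h2 : ∑' t : Ix G κ, b t * 3 ^ (B.YI t).card =
        ∑ k : κ, b (sL k) * 3 ^ (B.YI (sL k : Ix G κ)).card := by
      rw [← tsum_fintype (L := SummationFilter.unconditional κ)]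
      refine (hinj.tsum_eq (f := fun t : Ix G κ => b t * 3 ^ (B.YI t).card) ?_).symm
      intro t ht
      rw [Function.mem_support] at ht
      by_cases hs : isS t
      · obtain ⟨k, rfl⟩ := isS_iff.1 hs
        exact ⟨k, rfl⟩
      · exfalso
        apply ht
        rw [hb]
        dsimp only
        rw [if_neg hs, zero_mul]
    rw [h2]
    refine Finset.sum_le_sum fun k _ => ?_
    rw [hb, ha1]
    dsimp only
    rw [if_pos (show isS (sL k : Ix G κ) from trivial)]
    by_cases h4 : (sL k : Ix G κ) ∈ B.ixs Λ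
    · rw [if_pos h4]
      have e3 : B.YI (sL k : Ix G κ) = B.Ys k := rfl
      have e4 : aW B θ₁ c α φ (sL k : Ix G κ) = α k * φ k := rfl
      rw [e3, e4, ← h3Γ]
      exact le_of_eq (by ring)
    · rw [if_neg h4, zero_mul]
      exact zero_le

end gen

end Crest.Agent.R165.J4K0Rx126
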