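import Crest.Agent.R165.J4Dat_126
import Crest.Agent.R165.J4Geo_126

/-!
# Row 165 (S0250), block J4: the initial activities `K0` (helper126)

Lattice over any commutative ring `G` (`ℤ`: plane, domains; `ZMod M`: torus).

* `Fr G A`  : the algebraic frame: bilinears `b e` of the bonds, intra-face forms `I4 f`, in a
  commutative algebra `A` (e.g. the even elements of a Grassmann algebra)
* `Bk G κ A`: a background: signed weights `y`, field rescaling `s`, allowed shapes `ok`, potential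
  `t`, range `R`, local sources
* items: shapes `(u, A)` with value `em (kB (t A) A)`, faces with value `exp((s_f²-1) I4 f) - 1`,
  bonds with value `(s_f s_{f'} - 1) y_e b_e`, sources `as k * Fs k`
* `K0 fr B U` : the activity of the face set `U`
* `K0_ZZ` : the expansion of the full product over a finite set of faces
-/

set_option autoImplicit false
set_option linter.unusedSectionVars false

noncomputable section

open Finset

namespace Crest.Agent.R165.J4K0x126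
open Crest.Agent.R165.KCompx892 Crest.Agent.R165.KStepx892 Crest.Agent.R165.J4Actx126
open Crest.Agent.R165.J4Datx126 Crest.Agent.R165.J4Geox126
open Crest.Agent.R165.J4Defx653 Crest.Agent.R165.J4Pathx653
open Crest.Agent.R165.J4RRx653 Crest.Agent.R165.J4RRAx653
open Crest.Agent.R165.J1ax606 (HE EG pe qe pe_zero pe_one qe_zero qe_one)

variable {G : Type*} [CommRing G] [DecidableEq G]
variable {A : Type*} [CommRing A] [Algebra ℝ A] {κ : Type*} [DecidableEq κ]

/-- the algebraic frame -/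
structure Fr (G : Type*) (A : Type*) [CommRing A] [Algebra ℝ A] where
  /-- bilinear of a bond -/
  b : EG G → A
  /-- intra-face quadratic form -/
  I4 : G × G → A

/-- a background with potential and sources -/
structure Bk (G : Type*) [CommRing G] [DecidableEq G] (κ : Type*) (A : Type*) [CommRing A]
    [Algebra ℝ A] where
  /-- signed weights -/
  y : EG G → ℝ
  /-- rescaling of the fields -/
  s : G × G → ℝ
  /-- allowed shapes -/
  ok : G × G → Finset (ℤ × ℤ) → Prop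
  /-- potential on canonical shapes -/
  t : Finset (ℤ × ℤ) → ℝ
  /-- range -/
  R : ℕ
  /-- supports of the sources -/
  Ys : κ → Finset (G × G)
  /-- constants of the sources -/
  as : κ → A
  /-- bond polynomials of the sources -/
  Fs : κ → RR (EG G)
  Fs_mem : ∀ k, Fs k ∈ RIn {e | faE e ⊆ Ys k}

/-- labels of items: shapes, faces, bonds, sources -/
abbrev Ix (G κ : Type*) : Type _ := ((G × G) × Finset (ℤ × ℤ)) ⊕ ((G × G) ⊕ (EG G ⊕ κ))

instance subDec {α : Type*} (s : Finset α) : DecidableEq {i // i ∈ s} := Classical.decEq _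

namespace Bk

variable (fr : Fr G A) (B : Bk G κ A)

/-- image of the bond variable of `e` -/
def g (e : EG G) : A := 1 - (2 * (B.y e * (B.s (pe e).1 * B.s (qe e).1))) • fr.b e

/-- supports -/
def YI : Ix G κ → Finset (G × G)
  | .inl p => (Yf p.2).image (fz p.1)
  | .inr (.inl f) => {f}
  | .inr (.inr (.inl e)) => faE e
  | .inr (.inr (.inr k)) => B.Ys k

/-- the coefficient of the intra-face form -/
def cI (f : G × G) : ℝ := B.s f * B.s f - 1

/-- constants -/
def aI : Ix G κ → A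
  | .inl _ => 1
  | .inr (.inl f) => B.cI f • fr.I4 f + (B.cI f ^ 2 / 2) • (fr.I4 f * fr.I4 f)
  | .inr (.inr (.inl e)) => (B.y e * (B.s (pe e).1 * B.s (qe e).1 - 1)) • fr.b e
  | .inr (.inr (.inr k)) => B.as k

/-- bond polynomials -/
def FI : Ix G κ → RR (EG G)
  | .inl p => em (ez p.1) (kB (B.t p.2) p.2)
  | .inr (.inl _) => 1
  | .inr (.inr (.inl _)) => 1
  | .inr (.inr (.inr k)) => B.Fs k

/-- admissible labels -/
def okI : Ix G κ → Prop
  | .inl p => (p.2 ∈ Can B.R ∧ Even p.2.card) ∧ B.ok p.1 p.2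
  | .inr (.inl _) => True
  | .inr (.inr (.inl _)) => True
  | .inr (.inr (.inr k)) => (B.Ys k).Nonempty

theorem YI_nonempty {i : Ix G κ} (h : B.okI i) : (B.YI i).Nonempty := by
  rcases i with p | f | e | k
  · exact (Yf_nonempty (Can.nonempty h.1.1)).image _
  · exact Finset.singleton_nonempty f
  · exact faE_nonempty e
  · exact h

theorem em_kB_mem (u : G × G) (t : ℝ) (S : Finset (ℤ × ℤ)) (h : Even S.card) :
    em (ez u) (kB t S) ∈ RIn {e : EG G | faE e ⊆ (Yf S).image (fz u)} := by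
  refine RIn_mono ?_ (em_mem_RIn (kB_mem t S h))
  rintro _ ⟨e, he, rfl⟩
  change faE (ez u e) ⊆ _
  rw [faE_ez]
  exact Finset.image_subset_image (faE_subset he)

theorem FI_mem {i : Ix G κ} (h : B.okI i) : B.FI i ∈ RIn {e | faE e ⊆ B.YI i} := by
  rcases i with p | f | e | k
  · exact em_kB_mem _ _ _ h.1.2
  · exact one_mem _
  · exact one_mem _
  · exact B.Fs_mem k

/-- the data on a finite set of admissible labels -/
def dat (𝔍 : Finset (Ix G κ)) (h𝔍 : ∀ i ∈ 𝔍, B.okI i) :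
    Dat {i // i ∈ 𝔍} (G × G) (EG G) A where
  fa := faE
  g := B.g fr
  Y i := B.YI i.1
  a i := B.aI fr i.1
  Fe i := B.FI i.1
  fa_ne := faE_nonempty
  ne i := B.YI_nonempty (h𝔍 i.1 i.2)
  mem i := B.FI_mem (h𝔍 i.1 i.2)

/-! ### labels inside a finite set of faces -/

open Classical in
/-- shapes inside `U` -/
def shp (U : Finset (G × G)) : Finset ((G × G) × Finset (ℤ × ℤ)) :=
  (U ×ˢ Can B.R).filter fun p => (Even p.2.card ∧ B.ok p.1 p.2) ∧ (Yf p.2).image (fz p.1) ⊆ U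

/-- bonds inside `U` -/
def edg (U : Finset (G × G)) : Finset (EG G) :=
  (U ×ˢ (univ : Finset (Fin 2))).filter fun e => faE e ⊆ U

/-- sources inside `U` -/
def srcs [Fintype κ] (U : Finset (G × G)) : Finset κ :=
  univ.filter fun k => (B.Ys k).Nonempty ∧ B.Ys k ⊆ U

theorem fst_mem_faE (e : EG G) : e.1 ∈ faE e := by
  obtain ⟨z, j⟩ := e
  have hj : j = 0 ∨ j = 1 := by
    fin_cases j
    · exact Or.inl rfl
    · exact Or.inr rfl
  unfold faE
  rw [Finset.mem_insert, Finset.mem_singleton]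
  rcases hj with rfl | rfl
  · left; rw [pe_zero]
  · right; rw [qe_one]

theorem mem_edg {U : Finset (G × G)} {e : EG G} : e ∈ edg U ↔ faE e ⊆ U := by
  unfold edg
  rw [Finset.mem_filter, Finset.mem_product]
  constructor
  · exact fun h => h.2
  · exact fun h => ⟨⟨h (fst_mem_faE e), Finset.mem_univ _⟩, h⟩

theorem base_mem (u : G × G) {S : Finset (ℤ × ℤ)} (h : (0 : ℤ × ℤ) ∈ S) :
    u ∈ (Yf S).image (fz u) :=
  Finset.mem_image.2 ⟨0, subset_Yf S h, fz_zero u⟩

theorem mem_shp {U : Finset (G × G)} {p : (G × G) × Finset (ℤ × ℤ)} :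
    p ∈ B.shp U ↔ ((p.2 ∈ Can B.R ∧ Even p.2.card) ∧ B.ok p.1 p.2) ∧
      (Yf p.2).image (fz p.1) ⊆ U := by
  classical
  unfold shp
  rw [Finset.mem_filter, Finset.mem_product]
  constructor
  · rintro ⟨⟨_, h1⟩, ⟨h2, h3⟩, h4⟩
    exact ⟨⟨⟨h1, h2⟩, h3⟩, h4⟩
  · rintro ⟨⟨⟨h1, h2⟩, h3⟩, h4⟩
    exact ⟨⟨h4 (base_mem p.1 (mem_Can.1 h1).2.1), h1⟩, ⟨h2, h3⟩, h4⟩

/-- the labels inside `U` -/
def ixs [Fintype κ] (U : Finset (G × G)) : Finset (Ix G κ) :=
  (B.shp U).disjSum (U.disjSum ((edg U).disjSum (B.srcs U)))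

theorem mem_ixs [Fintype κ] {U : Finset (G × G)} {i : Ix G κ} :
    i ∈ B.ixs U ↔ B.okI i ∧ B.YI i ⊆ U := by
  unfold ixs
  rcases i with p | f | e | k
  · rw [Finset.inl_mem_disjSum, mem_shp]; rfl
  · rw [Finset.inr_mem_disjSum, Finset.inl_mem_disjSum]
    change _ ↔ True ∧ ({f} : Finset (G × G)) ⊆ U
    rw [Finset.singleton_subset_iff, true_and]
  · rw [Finset.inr_mem_disjSum, Finset.inr_mem_disjSum, Finset.inl_mem_disjSum, mem_edg]
    change _ ↔ True ∧ faE e ⊆ U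
    rw [true_and]
  · rw [Finset.inr_mem_disjSum, Finset.inr_mem_disjSum, Finset.inr_mem_disjSum]
    unfold srcs
    rw [Finset.mem_filter]
    change _ ↔ (B.Ys k).Nonempty ∧ B.Ys k ⊆ U
    simp

theorem ixs_mono [Fintype κ] {U U' : Finset (G × G)} (h : U ⊆ U') : B.ixs U ⊆ B.ixs U' := by
  intro i hi
  rw [mem_ixs] at hi ⊢
  exact ⟨hi.1, hi.2.trans h⟩

theorem ixs_ok [Fintype κ] {U : Finset (G × G)} : ∀ i ∈ B.ixs U, B.okI i :=
  fun _ hi => (B.mem_ixs.1 hi).1

/-- the data inside `U` -/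
def datU [Fintype κ] (U : Finset (G × G)) : Dat {i // i ∈ B.ixs U} (G × G) (EG G) A :=
  B.dat fr (B.ixs U) B.ixs_ok

/-- **the initial activities** -/
def K0 [Fintype κ] (U : Finset (G × G)) : A := (B.datU fr U).items.act U

/-- restriction of the labels does not change the activity -/
theorem act_eq_K0 [Fintype κ] {U Λ : Finset (G × G)} (h : U ⊆ Λ) :
    (B.datU fr Λ).items.act U = B.K0 fr U := by
  symm
  have key := act_transport (I := (B.datU fr U).items) (I' := (B.datU fr Λ).items)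
    (ψ := fun f : G × G => f) (U := U)
    (e := fun i => (⟨i.1, B.ixs_mono h i.2⟩ : {i // i ∈ B.ixs Λ})) ?_ (AddMonoidHom.id A) ?_
  · rw [Finset.image_id'] at key
    exact key
  · refine ⟨fun _ _ _ _ h => h, fun i _ j _ hij => ?_, fun i _ => ?_, fun i' hi' => ?_⟩
    · exact Subtype.ext (Subtype.mk.injEq _ _ _ _ ▸ hij)
    · exact (Finset.image_id').symm
    · rw [Finset.image_id'] at hi'
      refine ⟨⟨i'.1, B.mem_ixs.2 ⟨B.ixs_ok _ i'.2, hi'⟩⟩, hi', rfl⟩
  · intro T _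
    change (B.datU fr U).items.w T = (B.datU fr Λ).items.w _
    rw [Dat.w_eq, Dat.w_eq, Finset.prod_image, Finset.prod_image]
    · rfl
    · intro i _ j _ hij
      exact Subtype.ext (Subtype.mk.injEq _ _ _ _ ▸ hij)
    · intro i _ j _ hij
      exact Subtype.ext (Subtype.mk.injEq _ _ _ _ ▸ hij)

/-- **the expansion**: full product inside `Λ` = polymer gas of the initial activities -/
theorem K0_ZZ [Fintype κ] (Λ : Finset (G × G)) :
    THA (B.g fr) ((∏ p ∈ B.shp Λ, (1 + ofR A (em (ez p.1) (kB (B.t p.2) p.2)))) *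
        ∏ k ∈ B.srcs Λ, (1 + CA (B.as k) * ofR A (B.Fs k))) *
      (∏ f ∈ Λ, (1 + (B.cI f • fr.I4 f + (B.cI f ^ 2 / 2) • (fr.I4 f * fr.I4 f)))) *
      (∏ e ∈ edg Λ, (1 + (B.y e * (B.s (pe e).1 * B.s (qe e).1 - 1)) • fr.b e)) =
    ZZ (fun a b : G × G => a = b) Λ (B.K0 fr) := by
  have h1 := (B.datU fr Λ).items.ZZ_act Λ (fun i => (B.mem_ixs.1 i.2).2)
  have h2 : ZZ (fun a b : G × G => a = b) Λ (B.datU fr Λ).items.act =
      ZZ (fun a b : G × G => a = b) Λ (B.K0 fr) := by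
    classical
    unfold ZZ
    refine Finset.sum_congr rfl fun P hP => Finset.prod_congr rfl fun U hU => ?_
    have hP1 := (Finset.mem_powerset.1 (Finset.mem_filter.1 hP).1) hU
    exact B.act_eq_K0 fr (Finset.mem_powerset.1 hP1)
  rw [← h2, ← h1]
  change _ = THA (B.g fr) (∏ i : {i // i ∈ B.ixs Λ}, (1 + CA (B.aI fr i.1) * ofR A (B.FI i.1)))
  rw [Finset.prod_coe_sort (B.ixs Λ) (fun i => (1 + CA (B.aI fr i) * ofR A (B.FI i) : RA A (EG G)))]
  unfold ixs
  rw [Finset.prod_disjSum, Finset.prod_disjSum, Finset.prod_disjSum]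
  have hCA1 : (CA (1 : A) : RA A (EG G)) = 1 := map_one _
  have e1 : ∀ p ∈ B.shp Λ, (1 + CA (B.aI fr (Sum.inl p)) * ofR A (B.FI (Sum.inl p)) :
      RA A (EG G)) = 1 + ofR A (em (ez p.1) (kB (B.t p.2) p.2)) := by
    intro p _
    change 1 + CA (1 : A) * ofR A (em (ez p.1) (kB (B.t p.2) p.2)) = _
    rw [hCA1, one_mul]
  have e2 : ∀ f ∈ Λ, (1 + CA (B.aI fr (Sum.inr (Sum.inl f))) *
      ofR A (B.FI (Sum.inr (Sum.inl f))) : RA A (EG G)) =
      CA (1 + (B.cI f • fr.I4 f + (B.cI f ^ 2 / 2) • (fr.I4 f * fr.I4 f))) := by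
    intro f _
    change 1 + CA (B.cI f • fr.I4 f + (B.cI f ^ 2 / 2) • (fr.I4 f * fr.I4 f)) *
      ofR A (1 : RR (EG G)) = _
    rw [map_one, mul_one, ← hCA1]
    exact (map_add (algebraMap A (RA A (EG G))) _ _).symm
  have e3 : ∀ e ∈ edg Λ, (1 + CA (B.aI fr (Sum.inr (Sum.inr (Sum.inl e)))) *
      ofR A (B.FI (Sum.inr (Sum.inr (Sum.inl e)))) : RA A (EG G)) =
      CA (1 + (B.y e * (B.s (pe e).1 * B.s (qe e).1 - 1)) • fr.b e) := by
    intro e _
    change 1 + CA ((B.y e * (B.s (pe e).1 * B.s (qe e).1 - 1)) • fr.b e) *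
      ofR A (1 : RR (EG G)) = _
    rw [map_one, mul_one, ← hCA1]
    exact (map_add (algebraMap A (RA A (EG G))) _ _).symm
  rw [Finset.prod_congr rfl e1, Finset.prod_congr rfl e2, Finset.prod_congr rfl e3]
  have e4 : (∏ f ∈ Λ, (CA (1 + (B.cI f • fr.I4 f + (B.cI f ^ 2 / 2) • (fr.I4 f * fr.I4 f))) :
      RA A (EG G))) = CA (∏ f ∈ Λ, (1 + (B.cI f • fr.I4 f + (B.cI f ^ 2 / 2) •
        (fr.I4 f * fr.I4 f)))) := (map_prod (algebraMap A (RA A (EG G))) _ _).symm
  have e5 : (∏ e ∈ edg Λ, (CA (1 + (B.y e * (B.s (pe e).1 * B.s (qe e).1 - 1)) • fr.b e) :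
      RA A (EG G))) = CA (∏ e ∈ edg Λ, (1 + (B.y e * (B.s (pe e).1 * B.s (qe e).1 - 1)) • fr.b e)) :=
    (map_prod (algebraMap A (RA A (EG G))) _ _).symm
  rw [e4, e5]
  set P := ∏ p ∈ B.shp Λ, (1 + ofR A (em (ez p.1) (kB (B.t p.2) p.2)) : RA A (EG G))
  set a1 := ∏ f ∈ Λ, (1 + (B.cI f • fr.I4 f + (B.cI f ^ 2 / 2) • (fr.I4 f * fr.I4 f)))
  set a2 := ∏ e ∈ edg Λ, (1 + (B.y e * (B.s (pe e).1 * B.s (qe e).1 - 1)) • fr.b e)
  have e6 : ∏ k ∈ B.srcs Λ, (1 + CA (B.aI fr (Sum.inr (Sum.inr (Sum.inr k)))) *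
      ofR A (B.FI (Sum.inr (Sum.inr (Sum.inr k)))) : RA A (EG G)) =
      ∏ k ∈ B.srcs Λ, (1 + CA (B.as k) * ofR A (B.Fs k)) := rfl
  rw [e6]
  set S := ∏ k ∈ B.srcs Λ, (1 + CA (B.as k) * ofR A (B.Fs k) : RA A (EG G))
  have e7 : P * (CA a1 * (CA a2 * S)) = CA a1 * (CA a2 * (P * S)) := by ring
  rw [e7, THA_CA_mul, THA_CA_mul]
  ring

end Bk

end Crest.Agent.R165.J4K0x126
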