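import Crest.Agent.R165.J4Path_653

/-!
# Row 165 (S0250), block J4, section 2: the covariant representation `PB` (helper653)

`PB B : RR Ed`, for a finite set `B` of sites of even cardinality:

* `PB_eval`  : `TH (epsE s) (PB B) = sB s B`
* `PB_mem`   : `PB B ∈ RIn (edIn (hull B))`
* `PB_tr`, `PB_rB`, `PB_fB` : covariance under translations, rotation, reflection
* `nmE_PB_le`
* `kB t B`   : `(cosh t - 1) + sinh t • PB B`; `kB_eval`, `prod_kB_eval`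
-/

set_option autoImplicit false

noncomputable section

open Finset
open Crest.ProbabilityR.IsingModel
open Crest.Agent.R165.J4Defx653 Crest.Agent.R165.J4RRx653
open scoped ENNReal

namespace Crest.Agent.R165.J4Pathx653

open Classical in
/-- some representation of `A` by edges of its bounding box -/
def ga0 (A : Finset (ℤ × ℤ)) : RR Ed :=
  if h : ∃ S, Rep (hull A) A S then ep h.choose else 0

theorem ga0_spec (A : Finset (ℤ × ℤ)) (hA : Even A.card) :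
    ∃ S, Rep (hull A) A S ∧ ga0 A = ep S := by
  have h := exists_rep A hA
  refine ⟨h.choose, h.choose_spec, ?_⟩
  rw [ga0, dif_pos h]

open Classical in
/-- the lexicographic minimum (0 for the empty set) -/
def lmin (B : Finset (ℤ × ℤ)) : ℤ × ℤ := if h : B.Nonempty then (exists_lexMin h).choose else 0

theorem lmin_spec {B : Finset (ℤ × ℤ)} (h : B.Nonempty) : IsLexMin B (lmin B) := by
  rw [lmin, dif_pos h]
  exact (exists_lexMin h).choose_spec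

theorem lmin_tr {B : Finset (ℤ × ℤ)} (h : B.Nonempty) (z : ℤ × ℤ) : lmin (tr B z) = lmin B + z := by
  have h1 := (lmin_spec h).tr z
  have h2 := lmin_spec (B := tr B z) ⟨_, h1.1⟩
  exact h2.unique h1

/-- translation covariant choice -/
def ga1 (B : Finset (ℤ × ℤ)) : RR Ed := em (trEd (lmin B)) (ga0 (tr B (-lmin B)))

theorem RIn_em_iff {f : Ed → Ed} (hf : Function.Injective f) {U U' : Set Ed}
    (h : ∀ e, f e ∈ U' ↔ e ∈ U) {F : RR Ed} (hF : F ∈ RIn U) : em f F ∈ RIn U' := by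
  refine RIn_mono ?_ (em_mem_RIn hF)
  rintro _ ⟨e, he, rfl⟩
  exact (h e).2 he

theorem hull_tr_neg (B : Finset (ℤ × ℤ)) (z x : ℤ × ℤ) :
    x ∈ hull (tr B (-z)) ↔ x + z ∈ hull B := by
  have := hull_tr (tr B (-z)) z x
  rw [tr_tr, neg_add_cancel, tr_zero] at this
  exact this.symm

theorem edIn_tr_neg (B : Finset (ℤ × ℤ)) (z : ℤ × ℤ) (e : Ed) :
    trEd z e ∈ edIn (hull B) ↔ e ∈ edIn (hull (tr B (-z))) := by
  have := edIn_tr (tr B (-z)) z e
  rw [tr_tr, neg_add_cancel, tr_zero] at this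
  exact this

theorem ga1_eval (B : Finset (ℤ × ℤ)) (hB : Even B.card) (s : ℤ × ℤ → Bool) :
    TH (epsE s) (ga1 B) = sB s B := by
  obtain ⟨S, hS, hg⟩ := ga0_spec (tr B (-lmin B)) (by rw [card_tr]; exact hB)
  rw [ga1, TH_em (trEd_inj _)]
  have : (fun e => epsE s (trEd (lmin B) e)) = epsE (fun x => s (x + lmin B)) := by
    funext e; exact epsE_trEd s _ e
  rw [this, hg, hS.2, sB_tr']
  congr 1
  funext x
  simp

theorem ga1_mem (B : Finset (ℤ × ℤ)) (hB : Even B.card) : ga1 B ∈ RIn (edIn (hull B)) := by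
  obtain ⟨S, hS, hg⟩ := ga0_spec (tr B (-lmin B)) (by rw [card_tr]; exact hB)
  rw [ga1, hg]
  exact RIn_em_iff (trEd_inj _) (fun e => edIn_tr_neg B (lmin B) e) (ep_mem_RIn hS.1)

theorem em_trEd_zero (F : RR Ed) : em (trEd 0) F = F := by
  have : trEd 0 = id := by funext e; simp [trEd]
  rw [this, em_id]

theorem em_trEd_trEd (z w : ℤ × ℤ) (F : RR Ed) : em (trEd w) (em (trEd z) F) = em (trEd (z + w)) F := by
  rw [em_comp]
  congr 2
  funext e
  exact trEd_trEd z w e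

theorem ga1_tr {B : Finset (ℤ × ℤ)} (z : ℤ × ℤ) (hB : B.Nonempty) :
    ga1 (tr B z) = em (trEd z) (ga1 B) := by
  rw [ga1, ga1, lmin_tr hB, tr_tr, em_trEd_trEd]
  congr 3
  abel

/-- the rotation average -/
def ga2 (B : Finset (ℤ × ℤ)) : RR Ed :=
  (1 / 4 : ℝ) • (ga1 B + em rotEd (em rotEd (em rotEd (ga1 (rB B)))) +
    em rotEd (em rotEd (ga1 (rB (rB B)))) + em rotEd (ga1 (rB (rB (rB B)))))

/-- **the covariant representation** -/
def PB (B : Finset (ℤ × ℤ)) : RR Ed := (1 / 2 : ℝ) • (ga2 B + em refEd (ga2 (fB B)))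

theorem em_rot_four (F : RR Ed) : em rotEd (em rotEd (em rotEd (em rotEd F))) = F := by
  rw [em_comp, em_comp, em_comp]
  have : (((rotEd ∘ rotEd) ∘ rotEd) ∘ rotEd) = id := by
    funext e; exact rotEd_four e
  rw [this, em_id]

theorem em_ref_two (F : RR Ed) : em refEd (em refEd F) = F := by
  rw [em_comp]
  have : refEd ∘ refEd = id := by
    funext e; exact refEd_refEd e
  rw [this, em_id]

theorem em_ref_rot (F : RR Ed) :
    em refEd (em rotEd F) = em rotEd (em rotEd (em rotEd (em refEd F))) := by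
  rw [em_comp, em_comp, em_comp, em_comp]
  congr 2
  funext e; exact refEd_rotEd e

theorem em_rot_ref (F : RR Ed) :
    em rotEd (em refEd F) = em refEd (em rotEd (em rotEd (em rotEd F))) := by
  rw [em_ref_rot, em_ref_rot, em_ref_rot, em_rot_four, em_rot_four]

theorem ga2_rB (B : Finset (ℤ × ℤ)) : ga2 (rB B) = em rotEd (ga2 B) := by
  rw [ga2, ga2, map_smul, map_add, map_add, map_add, em_rot_four, rB_four]
  congr 1
  abel

theorem rB_rB_rB_fB (B : Finset (ℤ × ℤ)) : rB (fB B) = fB (rB (rB (rB B))) := by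
  rw [fB_rB, fB_rB, fB_rB, rB_four, rB_four]

theorem PB_rB (B : Finset (ℤ × ℤ)) : PB (rB B) = em rotEd (PB B) := by
  rw [PB, PB, map_smul, map_add, ga2_rB, fB_rB, ga2_rB, ga2_rB, ga2_rB]
  congr 2
  rw [em_rot_ref]

theorem PB_fB (B : Finset (ℤ × ℤ)) : PB (fB B) = em refEd (PB B) := by
  rw [PB, PB, map_smul, map_add, fB_fB, em_ref_two, add_comm]

theorem em_rot_tr (z : ℤ × ℤ) (F : RR Ed) :
    em rotEd (em (trEd z) F) = em (trEd (rotate z)) (em rotEd F) := by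
  rw [em_comp, em_comp]
  congr 2
  funext e; exact rotEd_trEd z e

theorem em_ref_tr (z : ℤ × ℤ) (F : RR Ed) :
    em refEd (em (trEd z) F) = em (trEd (reflect z)) (em refEd F) := by
  rw [em_comp, em_comp]
  congr 2
  funext e; exact refEd_trEd z e

theorem rB_nonempty {B : Finset (ℤ × ℤ)} (hB : B.Nonempty) : (rB B).Nonempty := hB.image _
theorem fB_nonempty {B : Finset (ℤ × ℤ)} (hB : B.Nonempty) : (fB B).Nonempty := hB.image _

theorem ga2_tr {B : Finset (ℤ × ℤ)} (z : ℤ × ℤ) (hB : B.Nonempty) :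
    ga2 (tr B z) = em (trEd z) (ga2 B) := by
  have h1 := rB_nonempty hB
  have h2 := rB_nonempty h1
  have h3 := rB_nonempty h2
  simp only [ga2, rB_tr, ga1_tr _ hB, ga1_tr _ h1, ga1_tr _ h2, ga1_tr _ h3, em_rot_tr,
    rotate_four, map_smul, map_add]

theorem PB_tr {B : Finset (ℤ × ℤ)} (z : ℤ × ℤ) (hB : B.Nonempty) :
    PB (tr B z) = em (trEd z) (PB B) := by
  simp only [PB, fB_tr, ga2_tr _ hB, ga2_tr _ (fB_nonempty hB), em_ref_tr, reflect_reflect,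
    map_smul, map_add]

theorem TH_em_rot (s : ℤ × ℤ → Bool) (F : RR Ed) :
    TH (epsE s) (em rotEd F) = TH (epsE (s ∘ rotate)) F := by
  rw [TH_em rotEd_inj]
  congr 2
  funext e; exact epsE_rotEd s e

theorem TH_em_ref (s : ℤ × ℤ → Bool) (F : RR Ed) :
    TH (epsE s) (em refEd F) = TH (epsE (s ∘ reflect)) F := by
  rw [TH_em refEd_inj]
  congr 2
  funext e; exact epsE_refEd s e

theorem rot4_comp (s : ℤ × ℤ → Bool) : (((s ∘ rotate) ∘ rotate) ∘ rotate) ∘ rotate = s := by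
  funext x; simp only [Function.comp_apply, rotate_four]
theorem ref2_comp (s : ℤ × ℤ → Bool) : (s ∘ reflect) ∘ reflect = s := by
  funext x; simp only [Function.comp_apply, reflect_reflect]

theorem ga2_eval (B : Finset (ℤ × ℤ)) (hB : Even B.card) (s : ℤ × ℤ → Bool) :
    TH (epsE s) (ga2 B) = sB s B := by
  have e1 : Even (rB B).card := by rw [card_rB]; exact hB
  have e2 : Even (rB (rB B)).card := by rw [card_rB]; exact e1
  have e3 : Even (rB (rB (rB B))).card := by rw [card_rB]; exact e2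
  rw [ga2, map_smul, map_add, map_add, map_add, TH_em_rot, TH_em_rot, TH_em_rot, TH_em_rot,
    TH_em_rot, TH_em_rot, ga1_eval _ hB, ga1_eval _ e1, ga1_eval _ e2, ga1_eval _ e3]
  simp only [sB_rB, rot4_comp]
  rw [smul_eq_mul]
  ring

theorem PB_eval (B : Finset (ℤ × ℤ)) (hB : Even B.card) (s : ℤ × ℤ → Bool) :
    TH (epsE s) (PB B) = sB s B := by
  have e1 : Even (fB B).card := by rw [card_fB]; exact hB
  rw [PB, map_smul, map_add, TH_em_ref, ga2_eval _ hB, ga2_eval _ e1, sB_fB, ref2_comp, smul_eq_mul]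
  ring

theorem ga2_mem (B : Finset (ℤ × ℤ)) (hB : Even B.card) : ga2 B ∈ RIn (edIn (hull B)) := by
  have e1 : Even (rB B).card := by rw [card_rB]; exact hB
  have e2 : Even (rB (rB B)).card := by rw [card_rB]; exact e1
  have e3 : Even (rB (rB (rB B))).card := by rw [card_rB]; exact e2
  have r : ∀ (B : Finset (ℤ × ℤ)) (F : RR Ed), F ∈ RIn (edIn (hull B)) →
      em rotEd F ∈ RIn (edIn (hull (rB B))) :=
    fun B F hF => RIn_em_iff rotEd_inj (fun e => edIn_rB B e) hF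
  have m3 := r _ _ (ga1_mem _ e3)
  have m2 := r _ _ (r _ _ (ga1_mem _ e2))
  have m1 := r _ _ (r _ _ (r _ _ (ga1_mem _ e1)))
  rw [rB_four] at m1 m2 m3
  exact Subalgebra.smul_mem _ (add_mem (add_mem (add_mem (ga1_mem _ hB) m1) m2) m3) _

theorem PB_mem (B : Finset (ℤ × ℤ)) (hB : Even B.card) : PB B ∈ RIn (edIn (hull B)) := by
  have e1 : Even (fB B).card := by rw [card_fB]; exact hB
  have m := RIn_em_iff refEd_inj (fun e => edIn_fB (fB B) e) (ga2_mem _ e1)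
  rw [fB_fB] at m
  exact Subalgebra.smul_mem _ (add_mem (ga2_mem _ hB) m) _

/-! ### norms -/

/-- constant weight -/
abbrev cw (w : ℝ≥0∞) : Ed → ℝ≥0∞ := fun _ => w

theorem wtS_cw (w : ℝ≥0∞) (S : Ed →₀ ZMod 2) : wtS (cw w) S = w ^ S.support.card := by
  rw [wtS, Finset.prod_const]

theorem nmE_em_cw {w : ℝ≥0∞} (hw : 1 ≤ w) (f : Ed → Ed) (F : RR Ed) :
    nmE (cw w) (em f F) ≤ nmE (cw w) F := by
  refine le_nmE (N := fun F => nmE (cw w) (em f F)) (by simp) (fun F G => ?_) (fun r F => ?_) ?_ F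
  · rw [map_add]; exact nmE_add_le _ _ _
  · rw [map_smul]; exact nmE_smul_le _ _ _
  · intro S
    classical
    rw [em_ep, nmE_ep, wtS_cw, wtS_cw]
    refine pow_le_pow_right₀ hw ?_
    exact (Finset.card_le_card Finsupp.mapDomain_support).trans Finset.card_image_le

/-- the number of edges of a bounding box -/
theorem card_edIn_hull_le {B : Finset (ℤ × ℤ)} {R : ℕ}
    (hB : ∀ x ∈ B, ∀ y ∈ B, |x.1 - y.1| ≤ (R : ℤ) ∧ |x.2 - y.2| ≤ (R : ℤ))
    {s : Finset Ed} (hs : (s : Set Ed) ⊆ edIn (hull B)) : s.card ≤ 2 * (R + 1) ^ 2 := by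
  rcases B.eq_empty_or_nonempty with rfl | hne
  · have : s = ∅ := by
      rw [Finset.eq_empty_iff_forall_notMem]
      intro e he
      obtain ⟨⟨y, hy, _⟩, _⟩ := (hs (Finset.mem_coe.2 he)).1
      simp at hy
    subst this; simp
  · obtain ⟨a1, ha1, h1⟩ := B.exists_min_image (fun z => z.1) hne
    obtain ⟨a2, ha2, h2⟩ := B.exists_min_image (fun z => z.2) hne
    have hsub : s ⊆ (Icc a1.1 (a1.1 + R) ×ˢ Icc a2.2 (a2.2 + R)) ×ˢ (univ : Finset (Fin 2)) := by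
      intro e he
      obtain ⟨⟨y1, hy1, g1⟩, ⟨y2, hy2, g2⟩, ⟨y3, hy3, g3⟩, ⟨y4, hy4, g4⟩⟩ :=
        (hs (Finset.mem_coe.2 he)).1
      have k1 := (hB y2 hy2 a1 ha1).1
      have k2 := (hB y4 hy4 a2 ha2).2
      have l1 := h1 y1 hy1
      have l2 := h2 y3 hy3
      rw [abs_le] at k1 k2
      simp only [mem_product, mem_Icc, mem_univ, and_true]
      refine ⟨⟨?_, ?_⟩, ⟨?_, ?_⟩⟩ <;> linarith
    refine (Finset.card_le_card hsub).trans ?_
    rw [Finset.card_product, Finset.card_product, Int.card_Icc, Int.card_Icc, Finset.card_univ,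
      Fintype.card_fin]
    have e1 : (a1.1 + R + 1 - a1.1).toNat = R + 1 := by omega
    have e2 : (a2.2 + R + 1 - a2.2).toNat = R + 1 := by omega
    rw [e1, e2]
    apply le_of_eq
    ring

theorem diam_tr {B : Finset (ℤ × ℤ)} {R : ℕ}
    (hB : ∀ x ∈ B, ∀ y ∈ B, |x.1 - y.1| ≤ (R : ℤ) ∧ |x.2 - y.2| ≤ (R : ℤ)) (z : ℤ × ℤ) :
    ∀ x ∈ tr B z, ∀ y ∈ tr B z, |x.1 - y.1| ≤ (R : ℤ) ∧ |x.2 - y.2| ≤ (R : ℤ) := by
  intro x hx y hy
  have := hB _ (mem_tr.1 hx) _ (mem_tr.1 hy)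
  simpa using this

theorem diam_rB {B : Finset (ℤ × ℤ)} {R : ℕ}
    (hB : ∀ x ∈ B, ∀ y ∈ B, |x.1 - y.1| ≤ (R : ℤ) ∧ |x.2 - y.2| ≤ (R : ℤ)) :
    ∀ x ∈ rB B, ∀ y ∈ rB B, |x.1 - y.1| ≤ (R : ℤ) ∧ |x.2 - y.2| ≤ (R : ℤ) := by
  intro x hx y hy
  obtain ⟨x', hx', rfl⟩ := Finset.mem_image.1 hx
  obtain ⟨y', hy', rfl⟩ := Finset.mem_image.1 hy
  have := hB _ hx' _ hy'
  refine ⟨?_, this.1⟩
  have e : (rotate x').1 - (rotate y').1 = -(x'.2 - y'.2) := by simp [rotate]; ring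
  rw [e, abs_neg]
  exact this.2

theorem diam_fB {B : Finset (ℤ × ℤ)} {R : ℕ}
    (hB : ∀ x ∈ B, ∀ y ∈ B, |x.1 - y.1| ≤ (R : ℤ) ∧ |x.2 - y.2| ≤ (R : ℤ)) :
    ∀ x ∈ fB B, ∀ y ∈ fB B, |x.1 - y.1| ≤ (R : ℤ) ∧ |x.2 - y.2| ≤ (R : ℤ) := by
  intro x hx y hy
  obtain ⟨x', hx', rfl⟩ := Finset.mem_image.1 hx
  obtain ⟨y', hy', rfl⟩ := Finset.mem_image.1 hy
  have := hB _ hx' _ hy'
  refine ⟨this.1, ?_⟩
  have e : (reflect x').2 - (reflect y').2 = -(x'.2 - y'.2) := by simp [reflect]; ring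
  rw [e, abs_neg]
  exact this.2

theorem nmE_ga1_le {w : ℝ≥0∞} (hw : 1 ≤ w) {B : Finset (ℤ × ℤ)} {R : ℕ} (hev : Even B.card)
    (hB : ∀ x ∈ B, ∀ y ∈ B, |x.1 - y.1| ≤ (R : ℤ) ∧ |x.2 - y.2| ≤ (R : ℤ)) :
    nmE (cw w) (ga1 B) ≤ w ^ (2 * (R + 1) ^ 2) := by
  obtain ⟨S, hS, hg⟩ := ga0_spec (tr B (-lmin B)) (by rw [card_tr]; exact hev)
  refine (nmE_em_cw hw _ _).trans ?_
  rw [hg, nmE_ep, wtS_cw]
  exact pow_le_pow_right₀ hw (card_edIn_hull_le (diam_tr hB _) hS.1)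

theorem nmE_avg4 {w : ℝ≥0∞} {M : ℝ≥0∞} {a b c d : RR Ed} (ha : nmE (cw w) a ≤ M)
    (hb : nmE (cw w) b ≤ M) (hc : nmE (cw w) c ≤ M) (hd : nmE (cw w) d ≤ M) :
    nmE (cw w) ((1 / 4 : ℝ) • (a + b + c + d)) ≤ M := by
  refine (nmE_smul_le _ _ _).trans ?_
  have h1 : nmE (cw w) (a + b + c + d) ≤ M + M + M + M :=
    (nmE_add_le _ _ _).trans (add_le_add ((nmE_add_le _ _ _).trans (add_le_add
      ((nmE_add_le _ _ _).trans (add_le_add ha hb)) hc)) hd)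
  have h2 : ‖(1 / 4 : ℝ)‖ₑ * 4 = 1 := by
    rw [Real.enorm_eq_ofReal (by norm_num), ← ENNReal.ofReal_ofNat (n := 4),
      ← ENNReal.ofReal_mul (by norm_num)]
    norm_num
  calc ‖(1 / 4 : ℝ)‖ₑ * nmE (cw w) (a + b + c + d) ≤ ‖(1 / 4 : ℝ)‖ₑ * (M + M + M + M) := by gcongr
    _ = (‖(1 / 4 : ℝ)‖ₑ * 4) * M := by ring
    _ = M := by rw [h2, one_mul]

theorem nmE_avg2 {w : ℝ≥0∞} {M : ℝ≥0∞} {a b : RR Ed} (ha : nmE (cw w) a ≤ M)
    (hb : nmE (cw w) b ≤ M) : nmE (cw w) ((1 / 2 : ℝ) • (a + b)) ≤ M := by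
  refine (nmE_smul_le _ _ _).trans ?_
  have h1 : nmE (cw w) (a + b) ≤ M + M := (nmE_add_le _ _ _).trans (add_le_add ha hb)
  have h2 : ‖(1 / 2 : ℝ)‖ₑ * 2 = 1 := by
    rw [Real.enorm_eq_ofReal (by norm_num), ← ENNReal.ofReal_ofNat (n := 2),
      ← ENNReal.ofReal_mul (by norm_num)]
    norm_num
  calc ‖(1 / 2 : ℝ)‖ₑ * nmE (cw w) (a + b) ≤ ‖(1 / 2 : ℝ)‖ₑ * (M + M) := by gcongr
    _ = (‖(1 / 2 : ℝ)‖ₑ * 2) * M := by ring
    _ = M := by rw [h2, one_mul]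

theorem nmE_ga2_le {w : ℝ≥0∞} (hw : 1 ≤ w) {B : Finset (ℤ × ℤ)} {R : ℕ} (hev : Even B.card)
    (hB : ∀ x ∈ B, ∀ y ∈ B, |x.1 - y.1| ≤ (R : ℤ) ∧ |x.2 - y.2| ≤ (R : ℤ)) :
    nmE (cw w) (ga2 B) ≤ w ^ (2 * (R + 1) ^ 2) := by
  have e1 : Even (rB B).card := by rw [card_rB]; exact hev
  have e2 : Even (rB (rB B)).card := by rw [card_rB]; exact e1
  have e3 : Even (rB (rB (rB B))).card := by rw [card_rB]; exact e2
  have d1 := diam_rB hB
  have d2 := diam_rB d1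
  have d3 := diam_rB d2
  refine nmE_avg4 (nmE_ga1_le hw hev hB) ?_ ?_ ?_
  · exact (nmE_em_cw hw _ _).trans ((nmE_em_cw hw _ _).trans ((nmE_em_cw hw _ _).trans
      (nmE_ga1_le hw e1 d1)))
  · exact (nmE_em_cw hw _ _).trans ((nmE_em_cw hw _ _).trans (nmE_ga1_le hw e2 d2))
  · exact (nmE_em_cw hw _ _).trans (nmE_ga1_le hw e3 d3)

theorem nmE_PB_le {w : ℝ≥0∞} (hw : 1 ≤ w) {B : Finset (ℤ × ℤ)} {R : ℕ} (hev : Even B.card)
    (hB : ∀ x ∈ B, ∀ y ∈ B, |x.1 - y.1| ≤ (R : ℤ) ∧ |x.2 - y.2| ≤ (R : ℤ)) :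
    nmE (cw w) (PB B) ≤ w ^ (2 * (R + 1) ^ 2) := by
  have e1 : Even (fB B).card := by rw [card_fB]; exact hev
  exact nmE_avg2 (nmE_ga2_le hw hev hB)
    ((nmE_em_cw hw _ _).trans (nmE_ga2_le hw e1 (diam_fB hB)))

/-! ### the factors `1 + kB` -/

/-- `exp(t σ_B) - 1` as an element of `RR` -/
def kB (t : ℝ) (B : Finset (ℤ × ℤ)) : RR Ed :=
  (Real.cosh t - 1) • (1 : RR Ed) + Real.sinh t • PB B

@[simp] theorem kB_zero (B : Finset (ℤ × ℤ)) : kB 0 B = 0 := by simp [kB]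

theorem sB_pm (s : ℤ × ℤ → Bool) (B : Finset (ℤ × ℤ)) : sB s B = 1 ∨ sB s B = -1 :=
  mul_self_eq_one_iff.1 (sB_sq s B)

theorem kB_eval (t : ℝ) (B : Finset (ℤ × ℤ)) (hB : Even B.card) (s : ℤ × ℤ → Bool) :
    TH (epsE s) (1 + kB t B) = Real.exp (t * sB s B) := by
  rw [kB, map_add, map_add, map_smul, map_smul, TH_one, PB_eval B hB, smul_eq_mul, smul_eq_mul]
  rcases sB_pm s B with h | h <;> rw [h]
  · rw [mul_one, mul_one, mul_one, ← Real.cosh_add_sinh]; ring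
  · rw [mul_neg_one, mul_neg_one, mul_one, ← Real.cosh_sub_sinh]; ring

theorem prod_kB_eval (t : Finset (ℤ × ℤ) → ℝ) (Λ : Finset (Finset (ℤ × ℤ)))
    (hev : ∀ B ∈ Λ, t B ≠ 0 → Even B.card) (s : ℤ × ℤ → Bool) :
    TH (epsE s) (∏ B ∈ Λ, (1 + kB (t B) B)) = Real.exp (∑ B ∈ Λ, t B * sB s B) := by
  rw [TH_prod_sq _ (epsE_sq s), Real.exp_sum]
  refine Finset.prod_congr rfl fun B hB => ?_
  by_cases h : t B = 0
  · rw [h, kB_zero, add_zero, TH_one, zero_mul, Real.exp_zero]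
  · exact kB_eval _ _ (hev B hB h) s

theorem kB_mem (t : ℝ) (B : Finset (ℤ × ℤ)) (hB : Even B.card) : kB t B ∈ RIn (edIn (hull B)) :=
  add_mem (Subalgebra.smul_mem _ (one_mem _) _) (Subalgebra.smul_mem _ (PB_mem B hB) _)

theorem kB_tr (t : ℝ) {B : Finset (ℤ × ℤ)} (z : ℤ × ℤ) (hB : B.Nonempty) :
    kB t (tr B z) = em (trEd z) (kB t B) := by
  rw [kB, kB, PB_tr z hB, map_add, map_smul, map_smul, map_one]

theorem kB_rB (t : ℝ) (B : Finset (ℤ × ℤ)) : kB t (rB B) = em rotEd (kB t B) := by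
  rw [kB, kB, PB_rB, map_add, map_smul, map_smul, map_one]

theorem kB_fB (t : ℝ) (B : Finset (ℤ × ℤ)) : kB t (fB B) = em refEd (kB t B) := by
  rw [kB, kB, PB_fB, map_add, map_smul, map_smul, map_one]

/-- the neighbour pairs: `PB` of an edge need not be `ep` of the edge, but it has the same
evaluation; edges themselves are represented by `ep (single e 1)`. -/
theorem TH_single (s : ℤ × ℤ → Bool) (e : Ed) :
    TH (epsE s) (ep (Finsupp.single e 1)) = epsE s e := by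
  rw [TH_ep, Finsupp.support_single_ne_zero _ one_ne_zero, Finset.prod_singleton]

end Crest.Agent.R165.J4Pathx653
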