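import Crest.Agent.R165.J4RR_653
import Crest.Agent.R165.J4Can_653

/-!
# Row 165 (S0250), block J4, section 2: representation of even spin products by bond variables
(helper653)

* `edIn U`   : edges with both end points in `U`
* `hull B`   : bounding box
* `PB B`     : element of `RR` with `PB_mem`, `PB_eval`, `PB_tr`, `PB_rot`, `PB_ref`, `nmE_PB_le`
* `kB t B`   : `(cosh t - 1) + sinh t • PB B`, `kB_eval`, `prod_kB_eval`
-/

set_option autoImplicit false

noncomputable section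

open Finset
open Crest.ProbabilityR.IsingModel
open Crest.Agent.R165.J4Defx653 Crest.Agent.R165.J4RRx653
open scoped ENNReal

namespace Crest.Agent.R165.J4Pathx653

/-- edges of the square lattice, `(z, j) = {z, z + unitVec j}` -/
abbrev Ed : Type := (ℤ × ℤ) × Fin 2

theorem epsE_sq (s : ℤ × ℤ → Bool) (e : Ed) : epsE s e * epsE s e = 1 := by
  have h1 := spinSign_sq (s e.1)
  have h2 := spinSign_sq (s (e.1 + unitVec e.2))
  calc epsE s e * epsE s e = (spinSign (s e.1) * spinSign (s e.1)) *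
        (spinSign (s (e.1 + unitVec e.2)) * spinSign (s (e.1 + unitVec e.2))) := by
        rw [epsE]; ring
    _ = 1 := by rw [h1, h2, one_mul]

theorem sB_sq (s : ℤ × ℤ → Bool) (B : Finset (ℤ × ℤ)) : sB s B * sB s B = 1 := by
  rw [sB, ← Finset.prod_mul_distrib]
  exact Finset.prod_eq_one fun x _ => spinSign_sq _

/-- edges with both end points in `U` -/
def edIn (U : Set (ℤ × ℤ)) : Set Ed := {e | e.1 ∈ U ∧ e.1 + unitVec e.2 ∈ U}

theorem edIn_mono {U U' : Set (ℤ × ℤ)} (h : U ⊆ U') : edIn U ⊆ edIn U' :=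
  fun _ he => ⟨h he.1, h he.2⟩

/-- bounding box -/
def hull (B : Finset (ℤ × ℤ)) : Set (ℤ × ℤ) :=
  {x | (∃ y ∈ B, y.1 ≤ x.1) ∧ (∃ y ∈ B, x.1 ≤ y.1) ∧ (∃ y ∈ B, y.2 ≤ x.2) ∧ (∃ y ∈ B, x.2 ≤ y.2)}

theorem subset_hull (B : Finset (ℤ × ℤ)) : (B : Set (ℤ × ℤ)) ⊆ hull B :=
  fun x hx => ⟨⟨x, hx, le_rfl⟩, ⟨x, hx, le_rfl⟩, ⟨x, hx, le_rfl⟩, ⟨x, hx, le_rfl⟩⟩

/-! ### paths -/

/-- `x` and `y` are joined by a set of edges inside `U` -/
def Jn (U : Set (ℤ × ℤ)) (x y : ℤ × ℤ) : Prop :=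
  ∃ S : Ed →₀ ZMod 2, (S.support : Set Ed) ⊆ edIn U ∧
    ∀ s : ℤ × ℤ → Bool, TH (epsE s) (ep S) = spinSign (s x) * spinSign (s y)

theorem Jn.refl (U : Set (ℤ × ℤ)) (x : ℤ × ℤ) : Jn U x x :=
  ⟨0, by simp, fun s => by rw [ep_zero, TH_one, spinSign_sq]⟩

theorem Jn.symm {U : Set (ℤ × ℤ)} {x y : ℤ × ℤ} (h : Jn U x y) : Jn U y x := by
  obtain ⟨S, h1, h2⟩ := h
  exact ⟨S, h1, fun s => by rw [h2, mul_comm]⟩

theorem support_add_subset {U : Set Ed} {S T : Ed →₀ ZMod 2} (hS : (S.support : Set Ed) ⊆ U)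
    (hT : (T.support : Set Ed) ⊆ U) : ((S + T).support : Set Ed) ⊆ U := by
  intro e he
  rcases Finset.mem_union.1 (Finsupp.support_add (Finset.mem_coe.1 he)) with h | h
  · exact hS (Finset.mem_coe.2 h)
  · exact hT (Finset.mem_coe.2 h)

theorem Jn.trans {U : Set (ℤ × ℤ)} {x y z : ℤ × ℤ} (h : Jn U x y) (h' : Jn U y z) : Jn U x z := by
  obtain ⟨S, h1, h2⟩ := h
  obtain ⟨T, h3, h4⟩ := h'
  refine ⟨S + T, support_add_subset h1 h3, fun s => ?_⟩
  rw [ep_add, TH_mul_sq _ (epsE_sq s), h2, h4]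
  have := spinSign_sq (s y)
  calc spinSign (s x) * spinSign (s y) * (spinSign (s y) * spinSign (s z)) =
        spinSign (s x) * spinSign (s z) * (spinSign (s y) * spinSign (s y)) := by ring
    _ = _ := by rw [this, mul_one]

theorem Jn.edge {U : Set (ℤ × ℤ)} (e : Ed) (he : e ∈ edIn U) : Jn U e.1 (e.1 + unitVec e.2) := by
  refine ⟨Finsupp.single e 1, ?_, fun s => ?_⟩
  · rw [Finsupp.support_single_ne_zero _ one_ne_zero]
    simpa using he
  · rw [TH_ep, Finsupp.support_single_ne_zero _ one_ne_zero, Finset.prod_singleton, epsE]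

theorem unitVec_zero : unitVec 0 = (1, 0) := rfl
theorem unitVec_one : unitVec 1 = (0, 1) := rfl

theorem Jn_box (p q x : ℤ × ℤ) (hx : x ∈ Set.Icc p q) : Jn (Set.Icc p q) p x := by
  have hcol : ∀ n : ℕ, p.2 + n ≤ q.2 → Jn (Set.Icc p q) p (p.1, p.2 + n) := by
    intro n
    induction n with
    | zero => intro _; simpa using Jn.refl _ p
    | succ n ih =>
      intro hn
      push_cast at hn
      refine (ih (by omega)).trans ?_
      have h1 : p.1 ≤ q.1 := (hx.1.1).trans hx.2.1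
      have := Jn.edge (U := Set.Icc p q) ((p.1, p.2 + n), 1) ⟨?_, ?_⟩
      · rw [unitVec_one] at this
        convert this using 1
        ext <;> simp
        ring
      · refine ⟨⟨le_rfl, ?_⟩, ⟨h1, ?_⟩⟩ <;> dsimp only <;> omega
      · rw [unitVec_one]
        refine ⟨⟨?_, ?_⟩, ⟨?_, ?_⟩⟩ <;> simp <;> omega
  have hrow : ∀ n : ℕ, p.1 + n ≤ q.1 → Jn (Set.Icc p q) (p.1, x.2) (p.1 + n, x.2) := by
    intro n
    induction n with
    | zero => intro _; simpa using Jn.refl _ (p.1, x.2)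
    | succ n ih =>
      intro hn
      push_cast at hn
      refine (ih (by omega)).trans ?_
      have hx2 := hx.1.2
      have hx3 := hx.2.2
      have := Jn.edge (U := Set.Icc p q) ((p.1 + n, x.2), 0) ⟨?_, ?_⟩
      · rw [unitVec_zero] at this
        convert this using 1
        ext <;> simp
        ring
      · refine ⟨⟨?_, hx2⟩, ⟨?_, hx3⟩⟩ <;> dsimp only <;> omega
      · rw [unitVec_zero]
        refine ⟨⟨?_, ?_⟩, ⟨?_, ?_⟩⟩ <;> simp <;> omega
  have h2 := hcol (x.2 - p.2).toNat (by have := hx.1.2; have := hx.2.2; omega)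
  have h1 := hrow (x.1 - p.1).toNat (by have := hx.1.1; have := hx.2.1; omega)
  have e2 : p.2 + ((x.2 - p.2).toNat : ℤ) = x.2 := by have := hx.1.2; omega
  have e1 : p.1 + ((x.1 - p.1).toNat : ℤ) = x.1 := by have := hx.1.1; omega
  rw [e2] at h2
  rw [e1] at h1
  exact h2.trans h1

/-- `B` is represented by edges inside `U` -/
def Rep (U : Set (ℤ × ℤ)) (B : Finset (ℤ × ℤ)) (S : Ed →₀ ZMod 2) : Prop :=
  (S.support : Set Ed) ⊆ edIn U ∧ ∀ s : ℤ × ℤ → Bool, TH (epsE s) (ep S) = sB s B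

theorem exists_rep_box (p q : ℤ × ℤ) (n : ℕ) : ∀ B : Finset (ℤ × ℤ), B.card = 2 * n →
    (∀ x ∈ B, x ∈ Set.Icc p q) → ∃ S, Rep (Set.Icc p q) B S := by
  induction n with
  | zero =>
    intro B hB _
    have : B = ∅ := Finset.card_eq_zero.1 (by simpa using hB)
    subst this
    exact ⟨0, by simp, fun s => by simp [sB]⟩
  | succ n ih =>
    intro B hB hU
    obtain ⟨x, hx⟩ : B.Nonempty := Finset.card_pos.1 (by omega)
    have hc1 : (B.erase x).card = 2 * n + 1 := by rw [Finset.card_erase_of_mem hx]; omega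
    obtain ⟨y, hy⟩ : (B.erase x).Nonempty := Finset.card_pos.1 (by omega)
    have hc2 : ((B.erase x).erase y).card = 2 * n := by rw [Finset.card_erase_of_mem hy]; omega
    obtain ⟨S, hS1, hS2⟩ := ih _ hc2 fun z hz =>
      hU z (Finset.mem_of_mem_erase (Finset.mem_of_mem_erase hz))
    obtain ⟨T, hT1, hT2⟩ := (Jn_box p q x (hU x hx)).symm.trans
      (Jn_box p q y (hU y (Finset.mem_of_mem_erase hy)))
    refine ⟨S + T, support_add_subset hS1 hT1, fun s => ?_⟩
    rw [ep_add, TH_mul_sq _ (epsE_sq s), hS2, hT2, sB, sB, ← Finset.mul_prod_erase B _ hx,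
      ← Finset.mul_prod_erase (B.erase x) _ hy]
    ring

theorem exists_rep (B : Finset (ℤ × ℤ)) (hB : Even B.card) : ∃ S, Rep (hull B) B S := by
  rcases B.eq_empty_or_nonempty with rfl | hne
  · exact ⟨0, by simp, fun s => by simp [sB]⟩
  · obtain ⟨a1, ha1, h1⟩ := B.exists_min_image (fun z => z.1) hne
    obtain ⟨a2, ha2, h2⟩ := B.exists_min_image (fun z => z.2) hne
    obtain ⟨b1, hb1, h3⟩ := B.exists_max_image (fun z => z.1) hne
    obtain ⟨b2, hb2, h4⟩ := B.exists_max_image (fun z => z.2) hne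
    obtain ⟨n, hn⟩ := hB
    obtain ⟨S, hS1, hS2⟩ := exists_rep_box (a1.1, a2.2) (b1.1, b2.2) n B (by omega)
      fun x hx => ⟨⟨h1 x hx, h2 x hx⟩, ⟨h3 x hx, h4 x hx⟩⟩
    refine ⟨S, hS1.trans (edIn_mono ?_), hS2⟩
    intro x hx
    exact ⟨⟨a1, ha1, hx.1.1⟩, ⟨b1, hb1, hx.2.1⟩, ⟨a2, ha2, hx.1.2⟩, ⟨b2, hb2, hx.2.2⟩⟩

/-! ### lattice symmetries acting on edges -/

/-- translation of edges -/
def trEd (z : ℤ × ℤ) (e : Ed) : Ed := (e.1 + z, e.2)

/-- rotation of edges -/
def rotEd (e : Ed) : Ed :=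
  if e.2 = 0 then (rotate e.1, 1) else (rotate e.1 - (1, 0), 0)

/-- reflection of edges -/
def refEd (e : Ed) : Ed :=
  if e.2 = 0 then (reflect e.1, 0) else (reflect e.1 - (0, 1), 1)

theorem trEd_inj (z : ℤ × ℤ) : Function.Injective (trEd z) := by
  rintro ⟨a, i⟩ ⟨b, j⟩ h
  simp only [trEd, Prod.mk.injEq, add_left_inj] at h
  rw [h.1, h.2]

theorem rotEd_four (e : Ed) : rotEd (rotEd (rotEd (rotEd e))) = e := by
  obtain ⟨⟨a, b⟩, j⟩ := e
  fin_cases j <;> simp [rotEd, rotate]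

theorem refEd_refEd (e : Ed) : refEd (refEd e) = e := by
  obtain ⟨⟨a, b⟩, j⟩ := e
  fin_cases j <;> simp [refEd, reflect]

theorem refEd_rotEd (e : Ed) : refEd (rotEd e) = rotEd (rotEd (rotEd (refEd e))) := by
  obtain ⟨⟨a, b⟩, j⟩ := e
  fin_cases j <;> simp [refEd, rotEd, reflect, rotate]

theorem rotEd_inj : Function.Injective rotEd := by
  intro a b h
  rw [← rotEd_four a, h, rotEd_four]

theorem refEd_inj : Function.Injective refEd := by
  intro a b h
  rw [← refEd_refEd a, h, refEd_refEd]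

theorem trEd_trEd (z w : ℤ × ℤ) (e : Ed) : trEd w (trEd z e) = trEd (z + w) e := by
  simp [trEd, add_assoc]

theorem rotEd_trEd (z : ℤ × ℤ) (e : Ed) : rotEd (trEd z e) = trEd (rotate z) (rotEd e) := by
  obtain ⟨⟨a, b⟩, j⟩ := e
  obtain ⟨c, d⟩ := z
  fin_cases j <;> simp [rotEd, trEd, rotate] <;> ring

theorem refEd_trEd (z : ℤ × ℤ) (e : Ed) : refEd (trEd z e) = trEd (reflect z) (refEd e) := by
  obtain ⟨⟨a, b⟩, j⟩ := e
  obtain ⟨c, d⟩ := z
  fin_cases j <;> simp [refEd, trEd, reflect] <;> ring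

theorem pr_trEd (z : ℤ × ℤ) (e : Ed) : pr (trEd z e) = tr (pr e) z := by
  ext x
  simp only [pr, trEd, mem_insert, mem_singleton, mem_tr]
  constructor
  · rintro (rfl | rfl)
    · left; simp
    · right; abel
  · rintro (h | h)
    · left; rw [← h]; simp
    · right
      have : x = e.1 + unitVec e.2 + z := by rw [← h]; simp
      rw [this]; abel

theorem pr_rotEd (e : Ed) : pr (rotEd e) = (pr e).image rotate := by
  obtain ⟨⟨a, b⟩, j⟩ := e
  fin_cases j
  · simp [pr, rotEd, rotate, unitVec, Finset.image_insert]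
  · simp only [pr, rotEd, rotate, unitVec, Finset.image_insert, Finset.image_singleton]
    ext x
    simp
    have e : -b - 1 = -1 + -b := by ring
    rw [e]
    tauto

theorem pr_refEd (e : Ed) : pr (refEd e) = (pr e).image reflect := by
  obtain ⟨⟨a, b⟩, j⟩ := e
  fin_cases j
  · simp [pr, refEd, reflect, unitVec, Finset.image_insert]
  · simp only [pr, refEd, reflect, unitVec, Finset.image_insert, Finset.image_singleton]
    ext x
    simp
    constructor
    · rintro (h | h)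
      · right; rw [h]; ext <;> simp; ring
      · left; exact h
    · rintro (h | h)
      · right; exact h
      · left; rw [h]; ext <;> simp; ring

/-- rotate a finite set -/
def rB (B : Finset (ℤ × ℤ)) : Finset (ℤ × ℤ) := B.image rotate
/-- reflect a finite set -/
def fB (B : Finset (ℤ × ℤ)) : Finset (ℤ × ℤ) := B.image reflect

theorem rotate_four (x : ℤ × ℤ) : rotate (rotate (rotate (rotate x))) = x := by
  simp [rotate]
theorem reflect_reflect (x : ℤ × ℤ) : reflect (reflect x) = x := by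
  simp [reflect]
theorem reflect_rotate (x : ℤ × ℤ) : reflect (rotate x) = rotate (rotate (rotate (reflect x))) := by
  simp [rotate, reflect]
theorem rotate_inj : Function.Injective rotate := by
  intro a b h; rw [← rotate_four a, h, rotate_four]
theorem reflect_inj : Function.Injective reflect := by
  intro a b h; rw [← reflect_reflect a, h, reflect_reflect]
theorem rotate_add (x y : ℤ × ℤ) : rotate (x + y) = rotate x + rotate y := by
  simp [rotate]; ring
theorem reflect_add (x y : ℤ × ℤ) : reflect (x + y) = reflect x + reflect y := by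
  simp [reflect]; ring

theorem rB_four (B : Finset (ℤ × ℤ)) : rB (rB (rB (rB B))) = B := by
  simp only [rB, Finset.image_image]
  have : (rotate ∘ (rotate ∘ (rotate ∘ rotate))) = id := by
    funext x; exact rotate_four x
  rw [this, Finset.image_id]
theorem fB_fB (B : Finset (ℤ × ℤ)) : fB (fB B) = B := by
  simp only [fB, Finset.image_image]
  have : (reflect ∘ reflect) = id := by
    funext x; exact reflect_reflect x
  rw [this, Finset.image_id]
theorem fB_rB (B : Finset (ℤ × ℤ)) : fB (rB B) = rB (rB (rB (fB B))) := by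
  simp only [fB, rB, Finset.image_image]
  congr 1
  funext x; exact reflect_rotate x
theorem rB_tr (B : Finset (ℤ × ℤ)) (z : ℤ × ℤ) : rB (tr B z) = tr (rB B) (rotate z) := by
  simp only [rB, tr, Finset.image_image]
  congr 1
  funext x; exact rotate_add x z
theorem fB_tr (B : Finset (ℤ × ℤ)) (z : ℤ × ℤ) : fB (tr B z) = tr (fB B) (reflect z) := by
  simp only [fB, tr, Finset.image_image]
  congr 1
  funext x; exact reflect_add x z
theorem card_rB (B : Finset (ℤ × ℤ)) : (rB B).card = B.card :=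
  Finset.card_image_of_injective _ rotate_inj
theorem card_fB (B : Finset (ℤ × ℤ)) : (fB B).card = B.card :=
  Finset.card_image_of_injective _ reflect_inj

theorem sB_rB (s : ℤ × ℤ → Bool) (B : Finset (ℤ × ℤ)) : sB s (rB B) = sB (s ∘ rotate) B := by
  rw [sB, rB, Finset.prod_image (fun x _ y _ h => rotate_inj h)]; rfl
theorem sB_fB (s : ℤ × ℤ → Bool) (B : Finset (ℤ × ℤ)) : sB s (fB B) = sB (s ∘ reflect) B := by
  rw [sB, fB, Finset.prod_image (fun x _ y _ h => reflect_inj h)]; rfl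
theorem sB_tr' (s : ℤ × ℤ → Bool) (B : Finset (ℤ × ℤ)) (z : ℤ × ℤ) :
    sB s (tr B z) = sB (fun x => s (x + z)) B := by
  rw [sB, tr, Finset.prod_image (fun x _ y _ h => add_left_injective z h)]; rfl

theorem epsE_trEd (s : ℤ × ℤ → Bool) (z : ℤ × ℤ) (e : Ed) :
    epsE s (trEd z e) = epsE (fun x => s (x + z)) e := by
  rw [← sB_pr, ← sB_pr, pr_trEd, sB_tr']
theorem epsE_rotEd (s : ℤ × ℤ → Bool) (e : Ed) : epsE s (rotEd e) = epsE (s ∘ rotate) e := by
  rw [← sB_pr, ← sB_pr, pr_rotEd, ← rB, sB_rB]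
theorem epsE_refEd (s : ℤ × ℤ → Bool) (e : Ed) : epsE s (refEd e) = epsE (s ∘ reflect) e := by
  rw [← sB_pr, ← sB_pr, pr_refEd, ← fB, sB_fB]

theorem hull_tr (B : Finset (ℤ × ℤ)) (z x : ℤ × ℤ) : x + z ∈ hull (tr B z) ↔ x ∈ hull B := by
  have key : ∀ P : ℤ × ℤ → Prop, (∃ y ∈ tr B z, P y) ↔ ∃ y ∈ B, P (y + z) := by
    intro P
    constructor
    · rintro ⟨y, hy, h⟩
      exact ⟨y - z, mem_tr.1 hy, by simpa using h⟩
    · rintro ⟨y, hy, h⟩
      exact ⟨y + z, mem_tr.2 (by simpa using hy), h⟩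
  simp only [hull, Set.mem_setOf_eq, key]
  simp

theorem hull_rB (B : Finset (ℤ × ℤ)) (x : ℤ × ℤ) : rotate x ∈ hull (rB B) ↔ x ∈ hull B := by
  simp only [hull, Set.mem_setOf_eq, rB, Finset.mem_image, exists_exists_and_eq_and, rotate,
    neg_le_neg_iff]
  tauto

theorem hull_fB (B : Finset (ℤ × ℤ)) (x : ℤ × ℤ) : reflect x ∈ hull (fB B) ↔ x ∈ hull B := by
  simp only [hull, Set.mem_setOf_eq, fB, Finset.mem_image, exists_exists_and_eq_and, reflect,
    neg_le_neg_iff]
  tauto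

theorem edIn_tr (B : Finset (ℤ × ℤ)) (z : ℤ × ℤ) (e : Ed) :
    trEd z e ∈ edIn (hull (tr B z)) ↔ e ∈ edIn (hull B) := by
  simp only [edIn, Set.mem_setOf_eq, trEd]
  rw [hull_tr, show e.1 + z + unitVec e.2 = e.1 + unitVec e.2 + z by abel, hull_tr]

theorem mem_edIn_iff_pr (U : Set (ℤ × ℤ)) (e : Ed) : e ∈ edIn U ↔ ∀ x ∈ pr e, x ∈ U := by
  simp [edIn, pr]

theorem edIn_rB (B : Finset (ℤ × ℤ)) (e : Ed) :
    rotEd e ∈ edIn (hull (rB B)) ↔ e ∈ edIn (hull B) := by
  rw [mem_edIn_iff_pr, mem_edIn_iff_pr, pr_rotEd]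
  simp only [Finset.mem_image, forall_exists_index, and_imp, forall_apply_eq_imp_iff₂, hull_rB]

theorem edIn_fB (B : Finset (ℤ × ℤ)) (e : Ed) :
    refEd e ∈ edIn (hull (fB B)) ↔ e ∈ edIn (hull B) := by
  rw [mem_edIn_iff_pr, mem_edIn_iff_pr, pr_refEd]
  simp only [Finset.mem_image, forall_exists_index, and_imp, forall_apply_eq_imp_iff₂, hull_fB]

end Crest.Agent.R165.J4Pathx653
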