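import Crest.Agent.R165.Ev_653

/-!
# Row 165 (S0250), block J4, section 1: the eps-algebra `RR E` and the map `TH` (helper653)

`RR E` = group algebra of the `𝔽₂`-vector space of finite edge sets, i.e. polynomials in commuting
variables `eps_e` with `eps_e² = 1`.

* `ep S`        : the basis element `∏_{e ∈ S} eps_e`
* `TH g`        : the linear map `ep S ↦ ∏_{e ∈ S} g e` into a commutative algebra
* `RIn U`       : the subalgebra of elements using only edges of `U`
* `TH_mul`      : `TH g` is multiplicative on disjoint supports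
* `TH_mul_sq`   : `TH g` is multiplicative when `g e * g e = 1`
* `nmE c`       : the weighted `ℓ¹` norm (values in `ℝ≥0∞`), submultiplicative for `c ≥ 1`
* `seminorm_TH_le`
* `em f`        : functoriality in the edge set
-/

set_option autoImplicit false

noncomputable section

open Finset
open scoped ENNReal

namespace Crest.Agent.R165.J4RRx653

variable {E : Type*} {E' : Type*}

/-- the algebra of the bond variables -/
abbrev RR (E : Type*) : Type _ := AddMonoidAlgebra ℝ (E →₀ ZMod 2)

/-- basis element -/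
def ep (S : E →₀ ZMod 2) : RR E := AddMonoidAlgebra.single S 1

theorem ep_add (S T : E →₀ ZMod 2) : ep (S + T) = ep S * ep T := by
  rw [ep, ep, ep, AddMonoidAlgebra.single_mul_single, one_mul]

@[simp] theorem ep_zero : ep (0 : E →₀ ZMod 2) = 1 := rfl

theorem add_self_zero (S : E →₀ ZMod 2) : S + S = 0 := by
  ext e
  rw [Finsupp.add_apply, Finsupp.zero_apply]
  generalize S e = k
  revert k
  decide

theorem ep_mul_self (S : E →₀ ZMod 2) : ep S * ep S = 1 := by
  rw [← ep_add, add_self_zero, ep_zero]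

theorem single_eq (S : E →₀ ZMod 2) (c : ℝ) : AddMonoidAlgebra.single S c = c • ep S := by
  rw [ep, AddMonoidAlgebra.smul_single, smul_eq_mul, mul_one]

theorem RR.ind {P : RR E → Prop} (h0 : P 0) (hadd : ∀ F G, P F → P G → P (F + G))
    (hs : ∀ (c : ℝ) S, P (c • ep S)) (F : RR E) : P F :=
  AddMonoidAlgebra.induction_linear F h0 (fun F G => hadd F G) fun S c => by
    rw [single_eq]; exact hs c S

/-! ### the linear map `TH` -/

section TH

variable {A : Type*} [CommRing A] [Algebra ℝ A]

/-- `ep S ↦ ∏_{e ∈ S} g e` -/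
def TH (g : E → A) : RR E →ₗ[ℝ] A :=
  (Finsupp.linearCombination ℝ fun S : E →₀ ZMod 2 => ∏ e ∈ S.support, g e) ∘ₗ
    (AddMonoidAlgebra.coeffLinearEquiv ℝ).toLinearMap

@[simp] theorem TH_ep (g : E → A) (S : E →₀ ZMod 2) : TH g (ep S) = ∏ e ∈ S.support, g e := by
  simp [TH, ep]

@[simp] theorem TH_one (g : E → A) : TH g (1 : RR E) = 1 := by
  rw [← ep_zero, TH_ep]; simp

theorem TH_congr {g g' : E → A} (F : RR E) (h : ∀ S, F.coeff S ≠ 0 → ∀ e ∈ S.support, g e = g' e) :
    TH g F = TH g' F := by
  simp only [TH, LinearMap.comp_apply, Finsupp.linearCombination_apply, Finsupp.sum]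
  refine Finset.sum_congr rfl fun S hS => ?_
  congr 1
  refine Finset.prod_congr rfl fun e he => h S ?_ e he
  simpa using hS

/-- naturality in the algebra -/
theorem TH_algHom {B : Type*} [CommRing B] [Algebra ℝ B] (f : A →ₐ[ℝ] B) (g : E → A) (F : RR E) :
    f (TH g F) = TH (fun e => f (g e)) F := by
  induction F using RR.ind with
  | h0 => simp
  | hadd F G hF hG => rw [map_add, map_add, map_add, hF, hG]
  | hs c S => rw [map_smul, map_smul, map_smul, TH_ep, TH_ep, map_prod]

end TH

/-! ### supports -/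

/-- elements using only the edges of `U` -/
def RIn (U : Set E) : Subalgebra ℝ (RR E) :=
  (Submodule.span ℝ (ep '' {S : E →₀ ZMod 2 | (S.support : Set E) ⊆ U})).toSubalgebra
    (Submodule.subset_span ⟨0, by simp, ep_zero⟩)
    (by
      intro F G hF hG
      induction hF using Submodule.span_induction with
      | mem F hF =>
        induction hG using Submodule.span_induction with
        | mem G hG =>
          obtain ⟨S, hS, rfl⟩ := hF
          obtain ⟨T, hT, rfl⟩ := hG
          rw [← ep_add]
          classical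
          refine Submodule.subset_span ⟨S + T, ?_, rfl⟩
          intro e he
          have := Finsupp.support_add (Finset.mem_coe.1 he)
          rcases Finset.mem_union.1 this with h | h
          · exact hS (Finset.mem_coe.2 h)
          · exact hT (Finset.mem_coe.2 h)
        | zero => simp
        | add x y _ _ hx hy => rw [mul_add]; exact Submodule.add_mem _ hx hy
        | smul c x _ hx => rw [mul_smul_comm]; exact Submodule.smul_mem _ _ hx
      | zero => simp
      | add x y _ _ hx hy => rw [add_mul]; exact Submodule.add_mem _ hx hy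
      | smul c x _ hx => rw [smul_mul_assoc]; exact Submodule.smul_mem _ _ hx)

theorem mem_RIn {U : Set E} {F : RR E} :
    F ∈ RIn U ↔ F ∈ Submodule.span ℝ (ep '' {S : E →₀ ZMod 2 | (S.support : Set E) ⊆ U}) :=
  Iff.rfl

theorem ep_mem_RIn {U : Set E} {S : E →₀ ZMod 2} (h : (S.support : Set E) ⊆ U) : ep S ∈ RIn U :=
  Submodule.subset_span ⟨S, h, rfl⟩

theorem RIn_mono {U U' : Set E} (h : U ⊆ U') : RIn U ≤ RIn U' := by
  intro F hF
  rw [mem_RIn] at hF ⊢
  exact Submodule.span_mono (Set.image_mono fun S hS => Set.Subset.trans hS h) hF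

theorem RIn_ind {U : Set E} {P : RR E → Prop} (h0 : P 0) (hadd : ∀ F G, P F → P G → P (F + G))
    (hs : ∀ (c : ℝ) S, (S.support : Set E) ⊆ U → P (c • ep S)) {F : RR E} (hF : F ∈ RIn U) :
    P F := by
  rw [mem_RIn] at hF
  have key : ∀ c : ℝ, P (c • F) := by
    induction hF using Submodule.span_induction with
    | mem x hx => obtain ⟨S, hS, rfl⟩ := hx; intro c; exact hs c S hS
    | zero => intro c; simpa using h0
    | add x y _ _ hx hy => intro c; rw [smul_add]; exact hadd _ _ (hx c) (hy c)
    | smul d x _ hx => intro c; rw [smul_smul]; exact hx _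
  simpa using key 1

section TH2

variable {A : Type*} [CommRing A] [Algebra ℝ A]

theorem TH_congr_of_mem {U : Set E} {g g' : E → A} (h : ∀ e ∈ U, g e = g' e) {F : RR E}
    (hF : F ∈ RIn U) : TH g F = TH g' F := by
  refine RIn_ind (P := fun F => TH g F = TH g' F) ?_ ?_ ?_ hF
  · simp
  · intro F G hF hG; rw [map_add, map_add, hF, hG]
  · intro c S hS
    rw [map_smul, map_smul, TH_ep, TH_ep]
    congr 1
    exact Finset.prod_congr rfl fun e he => h e (hS (Finset.mem_coe.2 he))

/-- **multiplicativity on disjoint supports** -/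
theorem TH_mul (g : E → A) {U U' : Set E} (hd : Disjoint U U') {F G : RR E} (hF : F ∈ RIn U)
    (hG : G ∈ RIn U') : TH g (F * G) = TH g F * TH g G := by
  classical
  refine RIn_ind (P := fun F => TH g (F * G) = TH g F * TH g G) ?_ ?_ ?_ hF
  · simp
  · intro F F' h h'; rw [add_mul, map_add, map_add, h, h', add_mul]
  · intro c S hS
    rw [smul_mul_assoc, map_smul, map_smul, smul_mul_assoc]
    congr 1
    refine RIn_ind (P := fun G => TH g (ep S * G) = TH g (ep S) * TH g G) ?_ ?_ ?_ hG
    · simp
    · intro F F' h h'; rw [mul_add, map_add, map_add, h, h', mul_add]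
    · intro c T hT
      rw [mul_smul_comm, map_smul, map_smul, mul_smul_comm, ← ep_add, TH_ep, TH_ep, TH_ep]
      congr 1
      have hdis : Disjoint S.support T.support := by
        rw [← Finset.disjoint_coe]
        exact Disjoint.mono hS hT hd
      rw [Finsupp.support_add_eq hdis, Finset.prod_union hdis]

theorem prod_support_add_of_sq (g : E → A) (hg : ∀ e, g e * g e = 1) (S T : E →₀ ZMod 2) :
    ∏ e ∈ (S + T).support, g e = (∏ e ∈ S.support, g e) * ∏ e ∈ T.support, g e := by
  classical
  have key : ∀ S : E →₀ ZMod 2, ∏ e ∈ S.support, g e = S.prod fun e k => g e ^ k.val := by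
    intro S
    rw [Finsupp.prod]
    refine Finset.prod_congr rfl fun e he => ?_
    have : S e = 1 := by
      have h0 : S e ≠ 0 := by simpa using he
      revert h0
      generalize S e = k
      revert k
      decide
    rw [this]
    simp [ZMod.val_one]
  rw [key, key, key]
  refine Finsupp.prod_add_index' (fun e => by simp) ?_
  intro e k l
  have h2 : g e ^ 2 = 1 := by rw [pow_two, hg]
  have : ∀ k l : ZMod 2, (k + l).val = k.val + l.val ∨ ((k + l).val = 0 ∧ k.val + l.val = 2) := by
    decide
  rcases this k l with h | ⟨h, h'⟩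
  · rw [h, pow_add]
  · rw [← pow_add, h, h', h2, pow_zero]

/-- `TH g` is multiplicative when `g e * g e = 1` -/
theorem TH_mul_sq (g : E → A) (hg : ∀ e, g e * g e = 1) (F G : RR E) :
    TH g (F * G) = TH g F * TH g G := by
  induction F using RR.ind with
  | h0 => simp
  | hadd F F' h h' => rw [add_mul, map_add, map_add, h, h', add_mul]
  | hs c S =>
    rw [smul_mul_assoc, map_smul, map_smul, smul_mul_assoc]
    congr 1
    induction G using RR.ind with
    | h0 => simp
    | hadd F F' h h' => rw [mul_add, map_add, map_add, h, h', mul_add]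
    | hs c T =>
      rw [mul_smul_comm, map_smul, map_smul, mul_smul_comm, ← ep_add, TH_ep, TH_ep, TH_ep,
        prod_support_add_of_sq g hg]

/-- evaluation homomorphism at commuting involutions -/
def THh (g : E → A) (hg : ∀ e, g e * g e = 1) : RR E →ₐ[ℝ] A :=
  AlgHom.ofLinearMap (TH g) (TH_one g) (TH_mul_sq g hg)

@[simp] theorem THh_apply (g : E → A) (hg : ∀ e, g e * g e = 1) (F : RR E) :
    THh g hg F = TH g F := rfl

theorem TH_prod_sq (g : E → A) (hg : ∀ e, g e * g e = 1) {ι : Type*} (s : Finset ι)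
    (F : ι → RR E) : TH g (∏ i ∈ s, F i) = ∏ i ∈ s, TH g (F i) := by
  rw [← THh_apply g hg, map_prod]; rfl

end TH2

/-! ### norms -/

/-- weight of an edge set -/
def wtS (c : E → ℝ≥0∞) (S : E →₀ ZMod 2) : ℝ≥0∞ := ∏ e ∈ S.support, c e

/-- weighted `ℓ¹` norm -/
def nmE (c : E → ℝ≥0∞) (F : RR E) : ℝ≥0∞ := ∑ S ∈ F.coeff.support, ‖F.coeff S‖ₑ * wtS c S

theorem nmE_eq_sum (c : E → ℝ≥0∞) (F : RR E) {s : Finset (E →₀ ZMod 2)} (hs : F.coeff.support ⊆ s) :
    nmE c F = ∑ S ∈ s, ‖F.coeff S‖ₑ * wtS c S := by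
  rw [nmE]
  refine Finset.sum_subset hs fun S _ hS => ?_
  have : F.coeff S = 0 := by simpa using hS
  rw [this]; simp

@[simp] theorem nmE_zero (c : E → ℝ≥0∞) : nmE c (0 : RR E) = 0 := by simp [nmE]

theorem nmE_add_le (c : E → ℝ≥0∞) (F G : RR E) : nmE c (F + G) ≤ nmE c F + nmE c G := by
  classical
  rw [nmE_eq_sum c (F + G) (s := F.coeff.support ∪ G.coeff.support) ?_,
    nmE_eq_sum c F (s := F.coeff.support ∪ G.coeff.support) Finset.subset_union_left,
    nmE_eq_sum c G (s := F.coeff.support ∪ G.coeff.support) Finset.subset_union_right,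
    ← Finset.sum_add_distrib]
  · refine Finset.sum_le_sum fun S _ => ?_
    rw [← add_mul]
    gcongr
    rw [AddMonoidAlgebra.coeff_add, Finsupp.add_apply]
    exact enorm_add_le _ _
  · rw [AddMonoidAlgebra.coeff_add]
    exact Finsupp.support_add

theorem nmE_smul_le (c : E → ℝ≥0∞) (r : ℝ) (F : RR E) : nmE c (r • F) ≤ ‖r‖ₑ * nmE c F := by
  classical
  rw [nmE_eq_sum c (r • F) (s := F.coeff.support) ?_, nmE, Finset.mul_sum]
  · refine Finset.sum_le_sum fun S _ => ?_
    rw [← mul_assoc]
    gcongr
    rw [AddMonoidAlgebra.coeff_smul, Finsupp.smul_apply, smul_eq_mul, enorm_mul]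
  · rw [AddMonoidAlgebra.coeff_smul]
    exact Finsupp.support_smul

@[simp] theorem nmE_ep (c : E → ℝ≥0∞) (S : E →₀ ZMod 2) : nmE c (ep S) = wtS c S := by
  classical
  rw [nmE_eq_sum c (ep S) (s := {S}) ?_]
  · simp [ep]
  · rw [ep, AddMonoidAlgebra.coeff_single]
    exact Finsupp.support_single_subset

@[simp] theorem wtS_zero (c : E → ℝ≥0∞) : wtS c (0 : E →₀ ZMod 2) = 1 := by simp [wtS]

@[simp] theorem nmE_one (c : E → ℝ≥0∞) : nmE c (1 : RR E) = 1 := by
  rw [← ep_zero, nmE_ep, wtS_zero]

theorem nmE_sum_le (c : E → ℝ≥0∞) {ι : Type*} (s : Finset ι) (F : ι → RR E) :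
    nmE c (∑ i ∈ s, F i) ≤ ∑ i ∈ s, nmE c (F i) := by
  classical
  induction s using Finset.induction_on with
  | empty => simp
  | insert i s hi ih =>
    rw [Finset.sum_insert hi, Finset.sum_insert hi]
    exact (nmE_add_le c _ _).trans (by gcongr)

theorem wtS_add_le {c : E → ℝ≥0∞} (hc : ∀ e, 1 ≤ c e) (S T : E →₀ ZMod 2) :
    wtS c (S + T) ≤ wtS c S * wtS c T := by
  classical
  rw [wtS, wtS, wtS]
  calc ∏ e ∈ (S + T).support, c e ≤ ∏ e ∈ S.support ∪ T.support, c e :=
        Finset.prod_le_prod_of_subset_of_one_le' Finsupp.support_add fun e _ _ => hc e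
    _ ≤ (∏ e ∈ S.support ∪ T.support, c e) * ∏ e ∈ S.support ∩ T.support, c e := by
        refine le_mul_of_one_le_right (zero_le) ?_
        exact Finset.one_le_prod'' fun e => hc e
    _ = (∏ e ∈ S.support, c e) * ∏ e ∈ T.support, c e := Finset.prod_union_inter

/-- a seminorm bounded on the basis is bounded by `nmE` -/
theorem le_nmE {N : RR E → ℝ≥0∞} (h0 : N 0 = 0) (hadd : ∀ F G, N (F + G) ≤ N F + N G)
    (hsmul : ∀ (r : ℝ) F, N (r • F) ≤ ‖r‖ₑ * N F) {c : E → ℝ≥0∞}
    (h : ∀ S, N (ep S) ≤ wtS c S) (F : RR E) : N F ≤ nmE c F := by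
  classical
  have hF : F = ∑ S ∈ F.coeff.support, F.coeff S • ep S := by
    conv_lhs => rw [← AddMonoidAlgebra.ofCoeff_coeff F, ← Finsupp.sum_single F.coeff]
    rw [Finsupp.sum, AddMonoidAlgebra.ofCoeff_sum]
    exact Finset.sum_congr rfl fun S _ => single_eq S _
  have hsum : ∀ s : Finset (E →₀ ZMod 2), N (∑ S ∈ s, F.coeff S • ep S) ≤
      ∑ S ∈ s, ‖F.coeff S‖ₑ * wtS c S := by
    intro s
    induction s using Finset.induction_on with
    | empty => simp [h0]
    | insert S s hS ih =>
      rw [Finset.sum_insert hS, Finset.sum_insert hS]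
      exact (hadd _ _).trans (add_le_add ((hsmul _ _).trans (by gcongr; exact h S)) ih)
  calc N F = N (∑ S ∈ F.coeff.support, F.coeff S • ep S) := congrArg N hF
    _ ≤ _ := hsum _

theorem nmE_mul_le {c : E → ℝ≥0∞} (hc : ∀ e, 1 ≤ c e) (F G : RR E) :
    nmE c (F * G) ≤ nmE c F * nmE c G := by
  classical
  have hG : G = ∑ S ∈ G.coeff.support, G.coeff S • ep S := by
    conv_lhs => rw [← AddMonoidAlgebra.ofCoeff_coeff G, ← Finsupp.sum_single G.coeff]
    rw [Finsupp.sum, AddMonoidAlgebra.ofCoeff_sum]
    exact Finset.sum_congr rfl fun S _ => single_eq S _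
  have h1 : ∀ (F : RR E) (T : E →₀ ZMod 2), nmE c (F * ep T) ≤ nmE c F * wtS c T := by
    intro F T
    have hF : F = ∑ S ∈ F.coeff.support, F.coeff S • ep S := by
      conv_lhs => rw [← AddMonoidAlgebra.ofCoeff_coeff F, ← Finsupp.sum_single F.coeff]
      rw [Finsupp.sum, AddMonoidAlgebra.ofCoeff_sum]
      exact Finset.sum_congr rfl fun S _ => single_eq S _
    calc nmE c (F * ep T) = nmE c (∑ S ∈ F.coeff.support, F.coeff S • ep (S + T)) := by
          conv_lhs => rw [hF]
          rw [Finset.sum_mul]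
          congr 1
          refine Finset.sum_congr rfl fun S _ => ?_
          rw [smul_mul_assoc, ep_add]
      _ ≤ ∑ S ∈ F.coeff.support, nmE c (F.coeff S • ep (S + T)) := nmE_sum_le _ _ _
      _ ≤ ∑ S ∈ F.coeff.support, ‖F.coeff S‖ₑ * (wtS c S * wtS c T) := by
          refine Finset.sum_le_sum fun S _ => (nmE_smul_le _ _ _).trans ?_
          gcongr
          rw [nmE_ep]
          exact wtS_add_le hc S T
      _ = nmE c F * wtS c T := by
          rw [nmE, Finset.sum_mul]
          exact Finset.sum_congr rfl fun S _ => by rw [mul_assoc]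
  calc nmE c (F * G) = nmE c (∑ T ∈ G.coeff.support, G.coeff T • (F * ep T)) := by
        conv_lhs => rw [hG]
        rw [Finset.mul_sum]
        congr 1
        refine Finset.sum_congr rfl fun S _ => ?_
        rw [mul_smul_comm]
    _ ≤ ∑ T ∈ G.coeff.support, nmE c (G.coeff T • (F * ep T)) := nmE_sum_le _ _ _
    _ ≤ ∑ T ∈ G.coeff.support, ‖G.coeff T‖ₑ * (nmE c F * wtS c T) := by
        refine Finset.sum_le_sum fun S _ => (nmE_smul_le _ _ _).trans ?_
        gcongr
        exact h1 F S
    _ = nmE c F * nmE c G := by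
        rw [nmE, nmE, Finset.mul_sum]
        exact Finset.sum_congr rfl fun S _ => by ring

theorem nmE_prod_le {c : E → ℝ≥0∞} (hc : ∀ e, 1 ≤ c e) {ι : Type*} (s : Finset ι)
    (F : ι → RR E) : nmE c (∏ i ∈ s, F i) ≤ ∏ i ∈ s, nmE c (F i) := by
  classical
  induction s using Finset.induction_on with
  | empty => simp
  | insert i s hi ih =>
    rw [Finset.prod_insert hi, Finset.prod_insert hi]
    exact (nmE_mul_le hc _ _).trans (by gcongr)

/-- monotonicity in the weight, localised to the support -/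
theorem nmE_mono_of_mem {c c' : E → ℝ≥0∞} {U : Set E} (h : ∀ e ∈ U, c e ≤ c' e)
    {F : RR E} (hF : ∀ S, F.coeff S ≠ 0 → (S.support : Set E) ⊆ U) : nmE c F ≤ nmE c' F := by
  rw [nmE, nmE]
  refine Finset.sum_le_sum fun S hS => ?_
  gcongr
  rw [wtS, wtS]
  refine Finset.prod_le_prod' fun e he => h e (hF S ?_ (Finset.mem_coe.2 he))
  simpa using hS

theorem nmE_mono {c c' : E → ℝ≥0∞} (h : ∀ e, c e ≤ c' e) (F : RR E) : nmE c F ≤ nmE c' F :=
  nmE_mono_of_mem (U := Set.univ) (fun e _ => h e) fun _ _ => Set.subset_univ _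

/-- norms of the image under `TH` -/
theorem seminorm_TH_le {A : Type*} [CommRing A] [Algebra ℝ A] {N : A → ℝ≥0∞} (h0 : N 0 = 0)
    (h1 : N 1 ≤ 1) (hadd : ∀ a b, N (a + b) ≤ N a + N b)
    (hsmul : ∀ (r : ℝ) a, N (r • a) ≤ ‖r‖ₑ * N a) (hmul : ∀ a b, N (a * b) ≤ N a * N b)
    (g : E → A) {c : E → ℝ≥0∞} (hg : ∀ e, N (g e) ≤ c e) (F : RR E) :
    N (TH g F) ≤ nmE c F := by
  classical
  refine le_nmE (N := fun F => N (TH g F)) (by simp [h0]) (fun F G => by
    rw [map_add]; exact hadd _ _) (fun r F => by rw [map_smul]; exact hsmul _ _) ?_ F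
  intro S
  rw [TH_ep, wtS]
  have : ∀ s : Finset E, N (∏ e ∈ s, g e) ≤ ∏ e ∈ s, c e := by
    intro s
    induction s using Finset.induction_on with
    | empty => simpa using h1
    | insert e s he ih =>
      rw [Finset.prod_insert he, Finset.prod_insert he]
      exact (hmul _ _).trans (by gcongr; exact hg e)
  exact this _

/-! ### functoriality in the edge set -/

/-- the algebra homomorphism induced by a map of edges -/
def em (f : E → E') : RR E →ₐ[ℝ] RR E' :=
  AddMonoidAlgebra.mapDomainAlgHom ℝ ℝ (Finsupp.mapDomain.addMonoidHom f)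

@[simp] theorem em_ep (f : E → E') (S : E →₀ ZMod 2) : em f (ep S) = ep (S.mapDomain f) := by
  simp [em, ep]

theorem em_comp {E'' : Type*} (f : E → E') (f' : E' → E'') (F : RR E) :
    em f' (em f F) = em (f' ∘ f) F := by
  induction F using RR.ind with
  | h0 => simp
  | hadd F G hF hG => rw [map_add, map_add, map_add, hF, hG]
  | hs c S => rw [map_smul, map_smul, map_smul, em_ep, em_ep, em_ep, Finsupp.mapDomain_comp]

@[simp] theorem em_id (F : RR E) : em (id : E → E) F = F := by
  induction F using RR.ind with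
  | h0 => simp
  | hadd F G hF hG => rw [map_add, hF, hG]
  | hs c S => rw [map_smul, em_ep, Finsupp.mapDomain_id]

theorem support_mapDomain_of_injective {f : E → E'} (hf : Function.Injective f)
    (S : E →₀ ZMod 2) : (S.mapDomain f).support = S.support.map ⟨f, hf⟩ := by
  classical
  ext e'
  rw [Finset.mem_map]
  constructor
  · intro h
    have := Finsupp.mapDomain_support h
    obtain ⟨e, he, rfl⟩ := Finset.mem_image.1 this
    exact ⟨e, he, rfl⟩
  · rintro ⟨e, he, rfl⟩
    rw [Finsupp.mem_support_iff]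
    rw [show (⟨f, hf⟩ : E ↪ E') e = f e from rfl, Finsupp.mapDomain_apply hf]
    exact Finsupp.mem_support_iff.1 he

theorem TH_em {A : Type*} [CommRing A] [Algebra ℝ A] {f : E → E'} (hf : Function.Injective f)
    (g : E' → A) (F : RR E) : TH g (em f F) = TH (fun e => g (f e)) F := by
  induction F using RR.ind with
  | h0 => simp
  | hadd F G hF hG => rw [map_add, map_add, map_add, hF, hG]
  | hs c S =>
    rw [map_smul, map_smul, map_smul, em_ep, TH_ep, TH_ep, support_mapDomain_of_injective hf,
      Finset.prod_map]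
    rfl

/-- for involutions no injectivity is needed -/
theorem TH_em_sq {A : Type*} [CommRing A] [Algebra ℝ A] (f : E → E')
    (g : E' → A) (hg : ∀ e, g e * g e = 1) (F : RR E) :
    TH g (em f F) = TH (fun e => g (f e)) F := by
  classical
  induction F using RR.ind with
  | h0 => simp
  | hadd F G hF hG => rw [map_add, map_add, map_add, hF, hG]
  | hs c S =>
    rw [map_smul, map_smul, map_smul, em_ep]
    congr 1
    induction S using Finsupp.induction_linear with
    | zero => simp
    | add S T hS hT =>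
      rw [Finsupp.mapDomain_add, ep_add, ep_add, TH_mul_sq g hg, TH_mul_sq _ (fun e => hg (f e)),
        hS, hT]
    | single e k =>
      rw [Finsupp.mapDomain_single]
      by_cases hk : k = 0
      · subst hk; simp
      · rw [TH_ep, TH_ep, Finsupp.support_single_ne_zero _ hk, Finsupp.support_single_ne_zero _ hk]
        simp

theorem em_mem_RIn {f : E → E'} {U : Set E} {F : RR E} (hF : F ∈ RIn U) :
    em f F ∈ RIn (f '' U) := by
  classical
  refine RIn_ind (P := fun F => em f F ∈ RIn (f '' U)) ?_ ?_ ?_ hF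
  · simp
  · intro F G hF hG; rw [map_add]; exact add_mem hF hG
  · intro c S hS
    rw [map_smul, em_ep]
    refine Subalgebra.smul_mem _ (ep_mem_RIn ?_) c
    intro e he
    have := Finsupp.mapDomain_support (Finset.mem_coe.1 he)
    obtain ⟨e', he', rfl⟩ := Finset.mem_image.1 this
    exact ⟨e', hS (Finset.mem_coe.2 he'), rfl⟩

theorem coeff_of_mem_RIn {U : Set E} {F : RR E} (hF : F ∈ RIn U) (S : E →₀ ZMod 2)
    (hS : F.coeff S ≠ 0) : (S.support : Set E) ⊆ U := by
  classical
  revert hS
  refine RIn_ind (P := fun F => F.coeff S ≠ 0 → (S.support : Set E) ⊆ U) ?_ ?_ ?_ hF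
  · intro h; simp at h
  · intro F G hF hG h
    rw [AddMonoidAlgebra.coeff_add, Finsupp.add_apply] at h
    by_cases h1 : F.coeff S = 0
    · rw [h1, zero_add] at h; exact hG h
    · exact hF h1
  · intro c T hT h
    rw [AddMonoidAlgebra.coeff_smul, Finsupp.smul_apply, ep, AddMonoidAlgebra.coeff_single,
      Finsupp.single_apply] at h
    by_cases hTS : T = S
    · rw [← hTS]; exact hT
    · rw [if_neg hTS] at h; simp at h

end Crest.Agent.R165.J4RRx653
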