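import Crest.Agent.R165.UDomC_420
import Crest.Agent.R165.J4Def_653

/-!
# Row 165 (S0250), J-side chain for domains, lam ≠ 0, part 1 (helper408)

`domainExpect_pert` : the perturbed Gibbs average (free, plus; any `beta`, `lam`) as a ratio of
critical `N`-sums of `UDomC_420` with the extra factor `exp (Σ_B t(B) σ_B)` of `J4Def_653`.
-/

set_option autoImplicit false

noncomputable section

open Crest.ProbabilityR.IsingModel Finset

namespace Crest.Agent.R165.JD1x408

open Crest.Agent.R165.UDomAx420 Crest.Agent.R165.UDomCx420 Crest.Agent.R165.J1ax606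
open Crest.Agent.R165.J1bx606
open Crest.Agent.R165.Latx683 (BW wDom ray wX)
open Crest.Agent.R165.J4Defx653 (sB epsE EE BB tpot TrInv Rng mem_EE neg_beta_energy)

theorem EE_eq_EB (T : Finset (ℤ × ℤ)) (b : BoundaryCondition) : EE T b = EB T b := by
  ext e
  rw [mem_EE]
  unfold EB
  by_cases hb : b = BoundaryCondition.free
  · rw [if_pos hb, mem_EFree]
    simp only [hb, forall_true_left, tip]
    constructor
    · exact fun h => h.1
    · exact fun h => ⟨h, Or.inl h.1⟩
  · rw [if_neg hb, mem_EPlus]
    simp only [hb, false_imp_iff, true_and, tip]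

theorem epsE_eq_eps (s : ℤ × ℤ → Bool) (e : PEdge) : epsE s e = UDomAx420.eps s e := rfl

theorem criticalBeta_mul {J : ℝ} (hJ : J ≠ 0) : criticalBeta J * J = criticalBeta 1 := by
  unfold criticalBeta
  field_simp

/-- the interaction `Σ_B t(B) σ_B` -/
def pot (T : Finset (ℤ × ℤ)) (b : BoundaryCondition) (J lam β : ℝ) (R : ℕ)
    (V : Finset (ℤ × ℤ) → ℝ) (s : ℤ × ℤ → Bool) : ℝ :=
  ∑ B ∈ BB T b (max R 1), tpot J lam β V B * sB s B

/-- the Boltzmann factor -/
theorem exp_energy (T : Finset (ℤ × ℤ)) (b : BoundaryCondition) {J : ℝ} (hJ : J ≠ 0) (lam β : ℝ)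
    (R : ℕ) (V : Finset (ℤ × ℤ) → ℝ) (hV : TrInv V) (hr : Rng R V) (s : ℤ × ℤ → Bool) :
    Real.exp (-β * domainEnergy T b J lam R V s) =
      Real.exp (criticalBeta 1) ^ (EB T b).card *
        (Real.exp (pot T b J lam β R V s) * wallW (EB T b) (fun _ => UDomAx420.xc) s) := by
  rw [neg_beta_energy T b J lam β R V hV hr s, Real.exp_add, criticalBeta_mul hJ, EE_eq_EB]
  have h1 : Real.exp (criticalBeta 1 * ∑ e ∈ EB T b, epsE s e) =
      Real.exp (criticalBeta 1) ^ (EB T b).card * wallW (EB T b) (fun _ => UDomAx420.xc) s := by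
    rw [Finset.mul_sum, Real.exp_sum]
    simp only [epsE_eq_eps, exp_eps]
    rw [Finset.prod_mul_distrib, Finset.prod_const, wallW, exp_neg_two_criticalBeta]
  rw [h1, pot]
  ring

/-- **perturbed Gibbs average (free, plus) as a ratio of critical sums over minus sets** -/
theorem domainExpect_pert (D : Set ℂ) (a : ℝ) (h : (domainSites D a).Finite)
    (b : BoundaryCondition) (hb : b ≠ BoundaryCondition.minus) {J : ℝ} (hJ : J ≠ 0) (lam β : ℝ)
    (R : ℕ) (V : Finset (ℤ × ℤ) → ℝ) (hV : TrInv V) (hr : Rng R V)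
    (f : (ℤ × ℤ → Bool) → ℝ) :
    domainExpect D a b J lam R V β f =
      Nsum h.toFinset (wDom (domainSites D a) (decide (b = BoundaryCondition.free)))
        (fun s => f s * Real.exp (pot h.toFinset b J lam β R V s)) /
      Nsum h.toFinset (wDom (domainSites D a) (decide (b = BoundaryCondition.free)))
        (fun s => Real.exp (pot h.toFinset b J lam β R V s)) := by
  unfold domainExpect
  rw [dif_pos h]
  have hc : ((h.toFinset : Finset (ℤ × ℤ)) : Set (ℤ × ℤ)) = domainSites D a := h.coe_toFinset
  have hk : Real.exp (criticalBeta 1) ^ (EB h.toFinset b).card ≠ 0 :=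
    pow_ne_zero _ (Real.exp_pos _).ne'
  have key : ∀ g : (ℤ × ℤ → Bool) → ℝ,
      ∑ σ : h.toFinset → Bool, g (extendConfig h.toFinset b σ) *
        Real.exp (-β * domainEnergy h.toFinset b J lam R V (extendConfig h.toFinset b σ)) =
      Real.exp (criticalBeta 1) ^ (EB h.toFinset b).card *
        Nsum h.toFinset (wDom (domainSites D a) (decide (b = BoundaryCondition.free)))
          (fun s => g s * Real.exp (pot h.toFinset b J lam β R V s)) := by
    intro g
    rw [sum_conf h.toFinset b hb (fun s => g s *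
      Real.exp (-β * domainEnergy h.toFinset b J lam R V s))]
    unfold Nsum
    rw [Finset.mul_sum]
    refine Finset.sum_congr rfl fun N hN => ?_
    rw [exp_energy h.toFinset b hJ lam β R V hV hr, wallW_dom h.toFinset b
      (Finset.mem_powerset.1 hN), hc]
    ring
  have key1 := key (fun _ => 1)
  simp only [one_mul] at key1
  rw [key f, key1, mul_div_mul_left _ _ hk]

end Crest.Agent.R165.JD1x408
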