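import Crest.Agent.R165.J4K0B_126

/-!
# Row 165 (S0250): the initial activities with sources of arbitrary support (helper806)

Kotecky-Preiss with variable sizes: items are either small (at most `m` faces) or carry an
extra factor `exp #Y` in the weight budget.

* `tot_bound_big` : `tot Y a f ≤ 2 ε`, `4 ε m ≤ 1`
* `SHyp0`         : the hypotheses on the sources without `card`, `tot`
* `K0_bound_big`  : `∑_{U ∋ f} Γ^{|U|} N U (K0 U) ≤ 2 (Kc θ + εs)` when the sources satisfy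
  `∑_{k ∋ f} (3 Γ)^{#Ys k} α_k φ_k ≤ εs` (no bound on the size of the supports)
-/

set_option autoImplicit false
set_option linter.unusedSectionVars false

noncomputable section

open Finset
open scoped ENNReal

namespace Crest.Agent.R165.K0Bigx806
open Crest.Agent.R165.KCompx892 Crest.Agent.R165.KBoundx892 Crest.Agent.R165.J4Actx126
open Crest.Agent.R165.J4Datx126 Crest.Agent.R165.J4Geox126 Crest.Agent.R165.J4K0x126
open Crest.Agent.R165.J4K0Bx126
open Crest.Agent.R165.J4Defx653 Crest.Agent.R165.J4Pathx653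
open Crest.Agent.R165.J4RRx653 Crest.Agent.R165.J4RRAx653
open Crest.Agent.R165.J1ax606 (HE EG pe qe pe_zero pe_one qe_zero qe_one)

section tot

variable {ι F : Type*} [DecidableEq ι] [DecidableEq F] [Fintype ι]

theorem wG_le {n m : ℕ} {a b : ℝ≥0∞} {ε : ℝ} (hε : 0 ≤ ε) (hm1 : 1 ≤ m) (hsm : 4 * ε * m ≤ 1)
    (hab : (n ≤ m ∧ a ≤ b) ∨ a * ENNReal.ofReal (Real.exp n) ≤ b) :
    a * ENNReal.ofReal (Real.exp (2 * ε * n)) ≤ b * 2 := by
  have hm1' : (1 : ℝ) ≤ m := by exact_mod_cast hm1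
  rcases hab with ⟨h1, h2⟩ | h
  · have hx : 2 * ε * n ≤ 1 / 2 := by
      have h3 : (n : ℝ) ≤ m := by exact_mod_cast h1
      have h4 : ε * n ≤ ε * m := mul_le_mul_of_nonneg_left h3 hε
      linarith
    refine mul_le_mul' h2 ?_
    calc ENNReal.ofReal (Real.exp (2 * ε * n)) ≤ ENNReal.ofReal 2 := by
          refine ENNReal.ofReal_le_ofReal ((Real.exp_le_exp.2 hx).trans ?_)
          have h := Real.exp_bound_div_one_sub_of_interval (x := 1 / 2) (by norm_num)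
            (by norm_num)
          norm_num at h ⊢
          exact h
      _ = 2 := by norm_num
  · have h4 : ε ≤ 1 / 4 := by nlinarith
    have h5 : 2 * ε * n ≤ n := by
      have : (0 : ℝ) ≤ n := Nat.cast_nonneg n
      nlinarith
    calc a * ENNReal.ofReal (Real.exp (2 * ε * n)) ≤ a * ENNReal.ofReal (Real.exp n) :=
          mul_le_mul_right (ENNReal.ofReal_le_ofReal (Real.exp_le_exp.2 h5)) _
      _ ≤ b := h
      _ = b * 1 := (mul_one _).symm
      _ ≤ b * 2 := mul_le_mul_right (by norm_num) _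

theorem animal_le_big (Y : ι → Finset F) (a b : ι → ℝ≥0∞) {m : ℕ} {ε : ℝ} (hε : 0 ≤ ε)
    (hm1 : 1 ≤ m)
    (hab : ∀ i, ((Y i).card ≤ m ∧ a i ≤ b i) ∨ a i * ENNReal.ofReal (Real.exp (Y i).card) ≤ b i)
    (hb : ∀ f, ∑ i with f ∈ Y i, b i ≤ ENNReal.ofReal ε)
    (hsm : 4 * ε * m ≤ 1) (i : ι) :
    animal (touch Y) a i ≤ ENNReal.ofReal (Real.exp (2 * ε * (Y i).card)) := by
  classical
  have h := pinned (touch Y) a (fun s => ENNReal.ofReal (Real.exp (2 * ε * (Y s).card))) univ ?_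
    (Finset.mem_univ i)
  · rw [Finset.powerset_univ] at h
    exact h
  · intro s _
    have hx0 : 0 ≤ 2 * ε * (Y s).card := by positivity
    refine prod_one_add_le_exp _ _ hx0 ?_
    have h1 : ∑ t ∈ univ.filter (fun t => touch Y t s ∧ t ≠ s),
        a t * ENNReal.ofReal (Real.exp (2 * ε * (Y t).card)) ≤
        ∑ t ∈ univ.filter (fun t => touch Y t s ∧ t ≠ s), b t * 2 :=
      Finset.sum_le_sum fun t _ => wG_le hε hm1 hsm (hab t)
    refine h1.trans ?_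
    rw [← Finset.sum_mul]
    have h2 : ∑ t ∈ univ.filter (fun t => touch Y t s ∧ t ≠ s), b t ≤
        ∑ f ∈ Y s, ∑ t with f ∈ Y t, b t := by
      refine le_trans (Finset.sum_le_sum_of_subset ?_) (sum_biUnion_le (Y s)
        (fun f => univ.filter (fun t => f ∈ Y t)) b)
      intro t ht
      rw [Finset.mem_filter] at ht
      have h3 : ¬ Disjoint (Y t) (Y s) := ht.2.1
      rw [Finset.not_disjoint_iff] at h3
      obtain ⟨f, hf, hf'⟩ := h3
      exact Finset.mem_biUnion.2 ⟨f, hf', Finset.mem_filter.2 ⟨Finset.mem_univ _, hf⟩⟩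
    have h4 : ∑ f ∈ Y s, ∑ t with f ∈ Y t, b t ≤ ((Y s).card : ℝ≥0∞) * ENNReal.ofReal ε := by
      calc ∑ f ∈ Y s, ∑ t with f ∈ Y t, b t ≤ ∑ _f ∈ Y s, ENNReal.ofReal ε :=
            Finset.sum_le_sum fun f _ => hb f
        _ = ((Y s).card : ℝ≥0∞) * ENNReal.ofReal ε := by rw [Finset.sum_const, nsmul_eq_mul]
    calc (∑ t ∈ univ.filter (fun t => touch Y t s ∧ t ≠ s), b t) * 2
        ≤ (((Y s).card : ℝ≥0∞) * ENNReal.ofReal ε) * 2 := by
          gcongr
          exact h2.trans h4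
      _ = ENNReal.ofReal (2 * ε * (Y s).card) := by
          rw [ENNReal.ofReal_mul (by positivity), ENNReal.ofReal_mul (by norm_num),
            ENNReal.ofReal_natCast, ENNReal.ofReal_ofNat]
          ring

/-- **Kotecky-Preiss with variable sizes** -/
theorem tot_bound_big (Y : ι → Finset F) (a b : ι → ℝ≥0∞) {m : ℕ} {ε : ℝ} (hε : 0 ≤ ε)
    (hm1 : 1 ≤ m)
    (hab : ∀ i, ((Y i).card ≤ m ∧ a i ≤ b i) ∨ a i * ENNReal.ofReal (Real.exp (Y i).card) ≤ b i)
    (hb : ∀ f, ∑ i with f ∈ Y i, b i ≤ ENNReal.ofReal ε)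
    (hsm : 4 * ε * m ≤ 1) (f : F) : tot Y a f ≤ ENNReal.ofReal (2 * ε) := by
  classical
  refine (tot_le Y a f).trans ?_
  calc ∑ i with f ∈ Y i, a i * animal (touch Y) a i
      ≤ ∑ i with f ∈ Y i, b i * 2 := by
        refine Finset.sum_le_sum fun i _ => ?_
        refine le_trans (mul_le_mul_right (animal_le_big Y a b hε hm1 hab hb hsm i) _) ?_
        exact wG_le hε hm1 hsm (hab i)
    _ = (∑ i with f ∈ Y i, b i) * 2 := by rw [Finset.sum_mul]
    _ ≤ ENNReal.ofReal ε * 2 := by gcongr; exact hb f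
    _ = ENNReal.ofReal (2 * ε) := by
        rw [ENNReal.ofReal_mul (by norm_num), ENNReal.ofReal_ofNat, mul_comm]

end tot

/-! ### sources of arbitrary support -/

section src

variable {G : Type*} [CommRing G] [DecidableEq G]
variable {A : Type*} [CommRing A] [Algebra ℝ A] {κ : Type*} [DecidableEq κ] [Fintype κ]

/-- the sources: no bound on the size of the supports -/
structure SHyp0 (B : Bk G κ A) (N : Finset (G × G) → A → ℝ≥0∞) (c : ℝ) (α φ : κ → ℝ≥0∞) :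
    Prop where
  αt : ∀ k, α k ≠ ∞
  φt : ∀ k, φ k ≠ ∞
  a : ∀ k U, B.Ys k ⊆ U → N U (B.as k) ≤ α k
  F : ∀ k, nmE (fun _ => ENNReal.ofReal (wc c)) (B.Fs k) ≤ φ k

variable {fr : Fr G A} {B : Bk G κ A} {N : Finset (G × G) → A → ℝ≥0∞} {c θ Γ εs : ℝ}
variable {α φ : κ → ℝ≥0∞}

theorem αt_top0 (hS : SHyp0 B N c α φ) (i : Ix G κ) : αW θ c α i ≠ ∞ := by
  rcases i with p | f | e | k
  · exact ENNReal.one_ne_top
  · exact ENNReal.ofReal_ne_top
  · exact ENNReal.ofReal_ne_top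
  · exact hS.αt k

theorem φt_top0 (hS : SHyp0 B N c α φ) (i : Ix G κ) : φW B θ c φ i ≠ ∞ := by
  rcases i with p | f | e | k
  · exact ENNReal.ofReal_ne_top
  · exact ENNReal.one_ne_top
  · exact ENNReal.one_ne_top
  · exact hS.φt k

/-- norm of the weights of the item sets -/
theorem w_bound0 (hN : NHyp fr N c) (hB : BHyp B θ) (hS : SHyp0 B N c α φ)
    {𝔍 : Finset (Ix G κ)} (h𝔍 : ∀ i ∈ 𝔍, B.okI i) (T : Finset {i // i ∈ 𝔍}) :
    N (supp (B.dat fr 𝔍 h𝔍).Y T) ((B.dat fr 𝔍 h𝔍).items.w T) ≤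
      ∏ i ∈ T, aW B θ c α φ i.1 := by
  have hc := hN.c1
  have hw : (1 : ℝ≥0∞) ≤ ENNReal.ofReal (wc c) := by
    rw [← ENNReal.ofReal_one]; exact ENNReal.ofReal_le_ofReal (wc_one hc)
  have hgw : (1 + 8 * c) ≤ wc c := by unfold wc; linarith
  set U := supp (B.dat fr 𝔍 h𝔍).Y T with hU
  have hYU : ∀ i ∈ T, B.YI i.1 ⊆ U := fun i hi =>
    Finset.subset_biUnion_of_mem (B.dat fr 𝔍 h𝔍).Y hi
  refine ((B.dat fr 𝔍 h𝔍).w_le (hN.semi U) T (c := fun _ => ENNReal.ofReal (wc c))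
    (fun _ => ENNReal.ofReal_ne_top) (fun _ => hw) ?_ (fun i => αW θ c α i.1)
    (fun i => φW B θ c φ i.1) (fun i _ => αt_top0 hS i.1) (fun i _ => φt_top0 hS i.1) ?_ ?_).trans
    ?_
  · intro e he
    exact (g_le hN hB U e he).trans (ENNReal.ofReal_le_ofReal hgw)
  · intro i hi
    exact a_le hN hB hS.a U i.1 (hYU i hi)
  · intro i hi
    exact F_le hc hB hS.F i.1 (h𝔍 _ i.2)
  · exact Finset.prod_le_prod' fun i _ => W_le' hB.θ0 hc α φ i.1

/-- the weight budgets -/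
def bW (B : Bk G κ A) (Γ θ c : ℝ) (α φ : κ → ℝ≥0∞) : Ix G κ → ℝ≥0∞
  | .inr (.inr (.inr k)) => ENNReal.ofReal (3 * Γ) ^ (B.Ys k).card * (α k * φ k)
  | _ => ENNReal.ofReal (Γ ^ m0 B.R * (12 * θ * Mc B.R c))

theorem exp_nat_le (n : ℕ) : Real.exp n ≤ 3 ^ n := by
  have h1 : Real.exp n = Real.exp 1 ^ n := by rw [← Real.exp_nat_mul, mul_one]
  rw [h1]
  have := Real.exp_one_lt_d9
  exact pow_le_pow_left₀ (Real.exp_pos 1).le (by linarith) n

theorem aG_bW (hθ : 0 ≤ θ) (hc : 1 ≤ c) (hΓ : 1 ≤ Γ) {i : Ix G κ} (hi : B.okI i) :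
    ((B.YI i).card ≤ m0 B.R ∧ ENNReal.ofReal Γ ^ (B.YI i).card * aW B θ c α φ i ≤
        bW B Γ θ c α φ i) ∨
      (ENNReal.ofReal Γ ^ (B.YI i).card * aW B θ c α φ i) *
        ENNReal.ofReal (Real.exp (B.YI i).card) ≤ bW B Γ θ c α φ i := by
  have hM := Mc_pos B.R hc
  have h4 := two_le_m0 B.R
  have hΓ1 : (1 : ℝ≥0∞) ≤ ENNReal.ofReal Γ := by
    rw [← ENNReal.ofReal_one]; exact ENNReal.ofReal_le_ofReal hΓ
  have key : ∀ n : ℕ, n ≤ m0 B.R →
      ENNReal.ofReal Γ ^ n * ENNReal.ofReal (12 * θ * Mc B.R c) ≤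
        ENNReal.ofReal (Γ ^ m0 B.R * (12 * θ * Mc B.R c)) := by
    intro n hn
    rw [ENNReal.ofReal_mul (p := Γ ^ m0 B.R) (by positivity),
      ENNReal.ofReal_pow (by linarith)]
    exact mul_le_mul_left (pow_le_pow_right₀ hΓ1 hn) _
  rcases i with p | g | e | k
  · left
    have h : (B.YI (Sum.inl p)).card ≤ m0 B.R :=
      Finset.card_image_le.trans (card_Yf_le (mem_Can.1 hi.1.1).1)
    exact ⟨h, key _ h⟩
  · left
    have h : (B.YI (Sum.inr (Sum.inl g))).card ≤ m0 B.R := by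
      change ({g} : Finset (G × G)).card ≤ _
      rw [Finset.card_singleton]; omega
    exact ⟨h, key _ h⟩
  · left
    have h : (B.YI (Sum.inr (Sum.inr (Sum.inl e)))).card ≤ m0 B.R := by
      change (faE e).card ≤ _
      have : (faE e).card ≤ 2 := by unfold faE; exact Finset.card_le_two
      omega
    exact ⟨h, key _ h⟩
  · right
    change (ENNReal.ofReal Γ ^ (B.Ys k).card * (α k * φ k)) *
        ENNReal.ofReal (Real.exp (B.Ys k).card) ≤
      ENNReal.ofReal (3 * Γ) ^ (B.Ys k).card * (α k * φ k)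
    calc (ENNReal.ofReal Γ ^ (B.Ys k).card * (α k * φ k)) *
          ENNReal.ofReal (Real.exp (B.Ys k).card)
        ≤ (ENNReal.ofReal Γ ^ (B.Ys k).card * (α k * φ k)) *
          ENNReal.ofReal (3 ^ (B.Ys k).card) :=
          mul_le_mul_right (ENNReal.ofReal_le_ofReal (exp_nat_le _)) _
      _ = ENNReal.ofReal (3 * Γ) ^ (B.Ys k).card * (α k * φ k) := by
          rw [ENNReal.ofReal_mul (by norm_num : (0 : ℝ) ≤ 3), mul_pow,
            ENNReal.ofReal_pow (by norm_num : (0 : ℝ) ≤ 3)]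
          ring

/-- **total budget at a face** -/
theorem bW_sum_le (hθ : 0 ≤ θ) (hc : 1 ≤ c) (hΓ : 1 ≤ Γ) (hεs : 0 ≤ εs)
    (htot : ∀ f, ∑ k with f ∈ B.Ys k, ENNReal.ofReal (3 * Γ) ^ (B.Ys k).card * (α k * φ k) ≤
      ENNReal.ofReal εs)
    {𝔍 : Finset (Ix G κ)} (h𝔍 : ∀ i ∈ 𝔍, B.okI i) (f : G × G) :
    ∑ i ∈ 𝔍 with f ∈ B.YI i, bW B Γ θ c α φ i ≤ ENNReal.ofReal (Kc B.R Γ c * θ + εs) := by
  classical
  have hM := Mc_pos B.R hc
  have hsub : 𝔍.filter (fun i => f ∈ B.YI i) ⊆ ixF B f := by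
    intro i hi
    rw [Finset.mem_filter] at hi
    exact mem_ixF (h𝔍 i hi.1) hi.2
  obtain ⟨X, hX⟩ : ∃ X : ℝ, X = Γ ^ m0 B.R * (12 * θ * Mc B.R c) := ⟨_, rfl⟩
  have hX0 : 0 ≤ X := by rw [hX]; positivity
  calc ∑ i ∈ 𝔍 with f ∈ B.YI i, bW B Γ θ c α φ i
      ≤ ∑ i ∈ ixF B f, bW B Γ θ c α φ i := Finset.sum_le_sum_of_subset hsub
    _ = (∑ _p ∈ shpF B.R f, ENNReal.ofReal X) + (ENNReal.ofReal X +
          ((∑ _e ∈ edgF f, ENNReal.ofReal X) +
            ∑ k with f ∈ B.Ys k,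
              ENNReal.ofReal (3 * Γ) ^ (B.Ys k).card * (α k * φ k))) := by
        unfold ixF
        rw [Finset.sum_disjSum, Finset.sum_disjSum, Finset.sum_disjSum, Finset.sum_singleton, hX]
        rfl
    _ ≤ (((Can B.R).card * m0 B.R : ℕ) : ℝ≥0∞) * ENNReal.ofReal X + (ENNReal.ofReal X +
          (4 * ENNReal.ofReal X + ENNReal.ofReal εs)) := by
        refine add_le_add ?_ (add_le_add le_rfl (add_le_add ?_ (htot f)))
        · rw [Finset.sum_const, nsmul_eq_mul]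
          gcongr
          exact_mod_cast card_shpF B.R f
        · rw [Finset.sum_const, nsmul_eq_mul]
          gcongr
          exact_mod_cast card_edgF f
    _ = ENNReal.ofReal ((((Can B.R).card * m0 B.R : ℕ) : ℝ) * X + (X + (4 * X + εs))) := by
        rw [ENNReal.ofReal_add (by positivity) (by positivity), ENNReal.ofReal_add (by positivity)
          (by positivity), ENNReal.ofReal_add (by positivity) hεs,
          ENNReal.ofReal_mul (by positivity), ENNReal.ofReal_mul (by norm_num),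
          ENNReal.ofReal_natCast, ENNReal.ofReal_ofNat]
    _ ≤ _ := by
        refine ENNReal.ofReal_le_ofReal (le_of_eq ?_)
        rw [hX]
        unfold Kc
        push_cast
        ring

/-- the animal sum of the item weights -/
theorem tot_items_le (hN : NHyp fr N c) (hB : BHyp B θ) (hΓ : 1 ≤ Γ) (hεs : 0 ≤ εs)
    (htot : ∀ f, ∑ k with f ∈ B.Ys k, ENNReal.ofReal (3 * Γ) ^ (B.Ys k).card * (α k * φ k) ≤
      ENNReal.ofReal εs)
    (hsm : 4 * (Kc B.R Γ c * θ + εs) * m0 B.R ≤ 1) {𝔍 : Finset (Ix G κ)}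
    (h𝔍 : ∀ i ∈ 𝔍, B.okI i) (Y : {i // i ∈ 𝔍} → Finset (G × G)) (hY : ∀ i, Y i = B.YI i.1)
    (a : {i // i ∈ 𝔍} → ℝ≥0∞)
    (ha : ∀ i, a i = ENNReal.ofReal Γ ^ (B.YI i.1).card * aW B θ c α φ i.1) (f : G × G) :
    tot Y a f ≤ ENNReal.ofReal (2 * (Kc B.R Γ c * θ + εs)) := by
  classical
  have hε0 : 0 ≤ Kc B.R Γ c * θ + εs := by
    have := Kc_nonneg B.R hΓ hN.c1
    have := hB.θ0
    positivity
  have hm1 : 1 ≤ m0 B.R := by have := two_le_m0 B.R; omega
  refine tot_bound_big Y a (fun i => bW B Γ θ c α φ i.1) hε0 hm1 (fun i => ?_) (fun f => ?_)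
    hsm f
  · rw [hY, ha]
    exact aG_bW (α := α) (φ := φ) hB.θ0 hN.c1 hΓ (h𝔍 _ i.2)
  · refine le_trans (le_of_eq ?_)
      (bW_sum_le (B := B) (θ := θ) (c := c) (α := α) (φ := φ) hB.θ0 hN.c1 hΓ hεs htot h𝔍 f)
    simp only [hY]
    rw [Finset.sum_filter, Finset.sum_filter]
    exact Finset.sum_coe_sort 𝔍 (fun i => if f ∈ B.YI i then bW B Γ θ c α φ i else 0)

/-- **bound of the initial activities, sources of arbitrary support** -/
theorem K0_bound_big (hN : NHyp fr N c) (hB : BHyp B θ) (hΓ : 1 ≤ Γ) (hεs : 0 ≤ εs)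
    (hS : SHyp0 B N c α φ)
    (htot : ∀ f, ∑ k with f ∈ B.Ys k, ENNReal.ofReal (3 * Γ) ^ (B.Ys k).card * (α k * φ k) ≤
      ENNReal.ofReal εs)
    (hsm : 4 * (Kc B.R Γ c * θ + εs) * m0 B.R ≤ 1) (f : G × G)
    (𝒮 : Finset (Finset (G × G))) :
    ∑ U ∈ 𝒮 with f ∈ U, ENNReal.ofReal Γ ^ U.card * N U (B.K0 fr U) ≤
      ENNReal.ofReal (2 * (Kc B.R Γ c * θ + εs)) := by
  classical
  have hΓ1 : (1 : ℝ≥0∞) ≤ ENNReal.ofReal Γ := by
    rw [← ENNReal.ofReal_one]; exact ENNReal.ofReal_le_ofReal hΓ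
  obtain ⟨Λ, hΛ⟩ := exists_amb B 𝒮
  have key := actN_bound (B.dat fr (B.ixs Λ) B.ixs_ok).items (fun U => (hN.semi U).nsum)
    (ENNReal.ofReal Γ) hΓ1 (fun i => aW B θ c α φ i.1)
    (fun T => w_bound0 hN hB hS B.ixs_ok T) f 𝒮
  refine le_trans (le_of_eq ?_) (key.trans (tot_items_le hN hB hΓ hεs htot hsm B.ixs_ok _
    (fun _ => rfl) _ (fun _ => rfl) f))
  refine Finset.sum_congr rfl fun U hU => ?_
  rw [act_dat_eq fr B B.ixs_ok (hΛ U (Finset.mem_filter.1 hU).1)]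

end src

end Crest.Agent.R165.K0Bigx806
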