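import Crest.Agent.R165.J4K0_126
import Crest.Agent.R165.KInit_892

/-!
# Row 165 (S0250), block J: supports and locality of the initial activities `Bk.K0` (helper950)

General, any frame `fr : Fr G A` and background `B : Bk G κ A` of 126:
* `dead fr B i` : the item of the label `i` vanishes
* `K0_empty`, `K0_ne`, `K0_supp`, `K0_mem`, `K0_conn`, and the versions `K1_K0_*` after reclustering
-/

set_option autoImplicit false
set_option linter.unusedSectionVars false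

open Finset

noncomputable section

namespace Crest.Agent.R165.K0Locx950

open Crest.Agent.R165.KCompx892 Crest.Agent.R165.KStepx892 Crest.Agent.R165.J4Actx126
open Crest.Agent.R165.J4Datx126 Crest.Agent.R165.J4Geox126
open Crest.Agent.R165.J4Defx653 Crest.Agent.R165.J4Pathx653
open Crest.Agent.R165.J4RRx653 Crest.Agent.R165.J4RRAx653
open Crest.Agent.R165.J4K0x126
open Crest.Agent.R165.J1ax606 (HE EG pe qe pe_zero pe_one qe_zero qe_one)

/-! ### general facts -/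

section gen

variable {G : Type*} [CommRing G] [DecidableEq G] {A : Type*} [CommRing A] [Algebra ℝ A]
  {κ : Type*} [DecidableEq κ]

/-- the item of the label `i` vanishes -/
def dead (fr : Fr G A) (B : Bk G κ A) (i : Ix G κ) : Prop := B.aI fr i = 0 ∨ B.FI i = 0

variable [Fintype κ] (fr : Fr G A) (B : Bk G κ A)

theorem K0_empty : B.K0 fr ∅ = 0 := (B.datU fr ∅).items.act_empty

/-- where a non-zero activity comes from -/
theorem K0_ne {U : Finset (G × G)} (h : B.K0 fr U ≠ 0) :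
    ∃ T : Finset {i // i ∈ B.ixs U}, Conn (touch (B.datU fr U).Y) T ∧
      supp (B.datU fr U).Y T = U ∧ ∀ i ∈ T, ¬ dead fr B i.1 := by
  classical
  unfold Bk.K0 Items.act at h
  obtain ⟨T, hT, hne⟩ := Finset.exists_ne_zero_of_sum_ne_zero h
  rw [Finset.mem_filter] at hT
  refine ⟨T, hT.2.1, hT.2.2, fun i hi hd => hne ?_⟩
  rw [Dat.w_eq]
  rcases hd with h0 | h0
  · rw [Finset.prod_eq_zero hi (show (B.datU fr U).a i = 0 from h0), zero_mul]
  · rw [Finset.prod_eq_zero hi (show (B.datU fr U).Fe i = 0 from h0), map_zero, mul_zero]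

/-- **supports**: the activities live on the supports of the non-zero items -/
theorem K0_supp {Λ : Finset (G × G)} (hΛ : ∀ i, B.okI i → ¬ dead fr B i → B.YI i ⊆ Λ)
    {U : Finset (G × G)} (hU : ¬ U ⊆ Λ) : B.K0 fr U = 0 := by
  by_contra h
  obtain ⟨T, -, hs, hd⟩ := K0_ne fr B h
  apply hU
  rw [← hs]
  intro f hf
  obtain ⟨i, hi, hfi⟩ := Finset.mem_biUnion.1 hf
  exact hΛ i.1 (B.ixs_ok _ i.2) (hd i hi) hfi

/-- **connectedness** of the supports -/
theorem K0_conn {d : G × G → G × G → ℕ} (h0 : ∀ a, d a a = 0) {R : ℕ}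
    (hY : ∀ i, B.okI i → ¬ dead fr B i → Packx915.Conn d R (B.YI i)) {U : Finset (G × G)}
    (hU : B.K0 fr U ≠ 0) : Packx915.Conn d R U := by
  obtain ⟨T, hc, hs, hd⟩ := K0_ne fr B hU
  have hT : ∀ J ⊆ T, J.Nonempty → J ≠ T →
      ∃ i ∈ J, ∃ j ∈ T, j ∉ J ∧ ∃ a ∈ B.YI i.1, ∃ b ∈ B.YI j.1, d a b ≤ R := by
    intro J hJ hne hJT
    by_contra hcon
    apply hJT
    refine hc.2 J hJ hne fun i hi j hj ht => hcon ?_
    obtain ⟨hj1, hj2⟩ := Finset.mem_sdiff.1 hj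
    obtain ⟨f, hf1, hf2⟩ := Finset.not_disjoint_iff.1 ht
    exact ⟨i, hi, j, hj1, hj2, f, hf1, f, hf2, by rw [h0]; exact Nat.zero_le _⟩
  have key := Packx915.conn_biUnion T (fun i => B.YI i.1)
    (fun i hi => hY i.1 (B.ixs_ok _ i.2) (hd i hi)) hT
  convert key using 1
  refine hs.symm.trans ?_
  ext f
  simp only [supp, Finset.mem_biUnion]
  rfl

omit [Algebra ℝ A] [CommRing G] [DecidableEq G] [DecidableEq κ] [Fintype κ] in
theorem TH_mem [Algebra ℝ A] {E : Type*} {g : E → A} {S : Subalgebra ℝ A} {U : Set E}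
    (h : ∀ e ∈ U, g e ∈ S) {F : RR E} (hF : F ∈ RIn U) : TH g F ∈ S := by
  refine RIn_ind (P := fun F => TH g F ∈ S) ?_ ?_ ?_ hF
  · rw [map_zero]; exact S.zero_mem
  · intro F G hF hG; rw [map_add]; exact S.add_mem hF hG
  · intro c T hT
    rw [map_smul, TH_ep]
    exact S.smul_mem (S.prod_mem fun e he => h e (hT (Finset.mem_coe.2 he))) c

/-- **locality** of the activities -/
theorem K0_mem (𝒢 : Finset (G × G) → Subalgebra ℝ A) (hG : ∀ U W, U ⊆ W → 𝒢 U ≤ 𝒢 W)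
    (hb : ∀ e, fr.b e ∈ 𝒢 (faE e)) (hI : ∀ f, fr.I4 f ∈ 𝒢 {f})
    (hs : ∀ k, (B.Ys k).Nonempty → B.as k ∈ 𝒢 (B.Ys k)) (U : Finset (G × G)) :
    B.K0 fr U ∈ 𝒢 U := by
  classical
  unfold Bk.K0 Items.act
  refine Subalgebra.sum_mem _ fun T hT => ?_
  rw [Finset.mem_filter] at hT
  rw [Dat.w_eq]
  have haI : ∀ i, B.okI i → B.aI fr i ∈ 𝒢 (B.YI i) := by
    intro i hi
    rcases i with p | f | e | k
    · exact one_mem _
    · exact add_mem (Subalgebra.smul_mem _ (hI f) _)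
        (Subalgebra.smul_mem _ (mul_mem (hI f) (hI f)) _)
    · exact Subalgebra.smul_mem _ (hb e) _
    · exact hs k hi
  have hg : ∀ e, faE e ⊆ U → B.g fr e ∈ 𝒢 U := fun e he =>
    sub_mem (one_mem _) (Subalgebra.smul_mem _ (hG _ _ he (hb e)) _)
  have hsub : ∀ i ∈ T, B.YI i.1 ⊆ U := by
    intro i hi
    exact (Finset.subset_biUnion_of_mem (B.datU fr U).Y hi).trans hT.2.2.le
  refine mul_mem (Subalgebra.prod_mem _ fun i hi => ?_) (TH_mem (U := {e | faE e ⊆ U}) hg ?_)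
  · exact hG _ _ (hsub i hi) (haI i.1 (B.ixs_ok _ i.2))
  · refine Subalgebra.prod_mem _ fun i hi => ?_
    exact RIn_mono (fun e he => Finset.Subset.trans he (hsub i hi)) ((B.datU fr U).mem i)

/-! ### `K1` -/

variable (near' : G × G → G × G → Prop)

theorem K1_K0_empty : KInitx892.K1 near' (B.K0 fr) ∅ = 0 := KInitx892.K1_empty _ _

theorem K1_K0_supp {Λ : Finset (G × G)} (hΛ : ∀ i, B.okI i → ¬ dead fr B i → B.YI i ⊆ Λ)
    {U : Finset (G × G)} (hU : ¬ U ⊆ Λ) : KInitx892.K1 near' (B.K0 fr) U = 0 :=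
  KInitx892.K1_supp (fun _ h => K0_supp fr B hΛ h) hU

theorem K1_K0_mem (𝒢 : Finset (G × G) → Subalgebra ℝ A) (hG : ∀ U W, U ⊆ W → 𝒢 U ≤ 𝒢 W)
    (hb : ∀ e, fr.b e ∈ 𝒢 (faE e)) (hI : ∀ f, fr.I4 f ∈ 𝒢 {f})
    (hs : ∀ k, (B.Ys k).Nonempty → B.as k ∈ 𝒢 (B.Ys k)) (U : Finset (G × G)) :
    KInitx892.K1 near' (B.K0 fr) U ∈ 𝒢 U :=
  KInitx892.K1_mem 𝒢 hG near' U fun W _ => K0_mem fr B 𝒢 hG hb hI hs W

end gen

end Crest.Agent.R165.K0Locx950
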