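import Mathlib

/-!
# Row 165: K-representation, part 1 : connected components of finite families (helper892)

Combinatorics of finite sets of items with a symmetric reflexive relation `r` ("touching"):

* `Conn r T`  : `T` is nonempty and cannot be separated into two non-touching parts
* `comp r T t` : the connected component of `t` in `T`;  `comps r T` : the finset of components
* `sum_eq_sum_families` : for a weight `w` multiplicative over non-touching unions
  `∑_T w T = ∑_P ∏_{C ∈ P} w C`, `P` over the families of pairwise non-touching connected sets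
-/

set_option autoImplicit false
set_option linter.unusedSectionVars false

open Finset

namespace Crest.Agent.R165.KCompx892

variable {ι : Type*} [DecidableEq ι]

/-- no element of `S` touches an element of `T` -/
def NoTouch (r : ι → ι → Prop) (S T : Finset ι) : Prop := ∀ a ∈ S, ∀ b ∈ T, ¬ r a b

/-- nonempty and not separable -/
def Conn (r : ι → ι → Prop) (T : Finset ι) : Prop :=
  T.Nonempty ∧ ∀ A ⊆ T, A.Nonempty → NoTouch r A (T \ A) → A = T

/-- one step inside `T` -/
def stepIn (r : ι → ι → Prop) (T : Finset ι) (a b : ι) : Prop := a ∈ T ∧ b ∈ T ∧ r a b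

open Classical in
/-- the component of `t` in `T` -/
noncomputable def comp (r : ι → ι → Prop) (T : Finset ι) (t : ι) : Finset ι :=
  T.filter fun b => Relation.ReflTransGen (stepIn r T) t b

open Classical in
/-- the components of `T` -/
noncomputable def comps (r : ι → ι → Prop) (T : Finset ι) : Finset (Finset ι) :=
  T.image fun t => comp r T t

section basic

variable {r : ι → ι → Prop}

lemma NoTouch.symm (hs : ∀ a b, r a b → r b a) {S T : Finset ι} (h : NoTouch r S T) : NoTouch r T S :=
  fun b hb a ha hr => h a ha b hb (hs _ _ hr)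

lemma NoTouch.mono {S T S' T' : Finset ι} (h : NoTouch r S T) (h1 : S' ⊆ S) (h2 : T' ⊆ T) :
    NoTouch r S' T' := fun a ha b hb => h a (h1 ha) b (h2 hb)

lemma NoTouch.disjoint (hr : ∀ a, r a a) {S T : Finset ι} (h : NoTouch r S T) : Disjoint S T := by
  rw [Finset.disjoint_left]
  intro a ha hb
  exact h a ha a hb (hr a)

lemma mem_comp {T : Finset ι} {t b : ι} :
    b ∈ comp r T t ↔ b ∈ T ∧ Relation.ReflTransGen (stepIn r T) t b := by
  classical
  unfold comp
  exact Finset.mem_filter

lemma comp_subset (T : Finset ι) (t : ι) : comp r T t ⊆ T := fun _ h => (mem_comp.1 h).1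

lemma self_mem_comp {T : Finset ι} {t : ι} (h : t ∈ T) : t ∈ comp r T t :=
  mem_comp.2 ⟨h, Relation.ReflTransGen.refl⟩

lemma noTouch_comp (T : Finset ι) (t : ι) : NoTouch r (comp r T t) (T \ comp r T t) := by
  intro a ha b hb hr
  rw [Finset.mem_sdiff] at hb
  refine hb.2 (mem_comp.2 ⟨hb.1, ?_⟩)
  exact (mem_comp.1 ha).2.tail ⟨(mem_comp.1 ha).1, hb.1, hr⟩

lemma conn_comp (hs : ∀ a b, r a b → r b a) {T : Finset ι} {t : ι} (h : t ∈ T) : Conn r (comp r T t) := by
  refine ⟨⟨t, self_mem_comp h⟩, fun A hA hne hN => ?_⟩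
  -- every element of the component is in the same part as `t`
  have key : ∀ b, Relation.ReflTransGen (stepIn r T) t b → b ∈ comp r T t → (b ∈ A ↔ t ∈ A) := by
    intro b hb
    induction hb with
    | refl => intro _; exact Iff.rfl
    | @tail b c hb hc ih =>
      intro hcm
      have hbm : b ∈ comp r T t := mem_comp.2 ⟨hc.1, hb⟩
      rw [← ih hbm]
      constructor
      · intro hcA
        by_contra hbA
        exact hN c hcA b (Finset.mem_sdiff.2 ⟨hbm, hbA⟩) (hs _ _ hc.2.2)
      · intro hbA
        by_contra hcA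
        exact hN b hbA c (Finset.mem_sdiff.2 ⟨hcm, hcA⟩) hc.2.2
  obtain ⟨a, ha⟩ := hne
  have hta : t ∈ A := (key a (mem_comp.1 (hA ha)).2 (hA ha)).1 ha
  exact Finset.Subset.antisymm hA fun b hb => (key b (mem_comp.1 hb).2 hb).2 hta

lemma comp_eq_of {T C : Finset ι} {t : ι} (hC : Conn r C) (ht : t ∈ C)
    (hCT : C ⊆ T) (hN : NoTouch r C (T \ C)) : comp r T t = C := by
  -- the component is contained in `C`
  have h1 : comp r T t ⊆ C := by
    intro b hb
    have hb2 := (mem_comp.1 hb).2
    clear hb
    induction hb2 with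
    | refl => exact ht
    | @tail b c _ hc ih =>
      by_contra hcC
      exact hN b ih c (Finset.mem_sdiff.2 ⟨hc.2.1, hcC⟩) hc.2.2
  refine hC.2 _ h1 ⟨t, self_mem_comp (hCT ht)⟩ ?_
  exact (noTouch_comp T t).mono (Finset.Subset.refl _)
    (Finset.sdiff_subset_sdiff hCT (Finset.Subset.refl _))

lemma comp_eq_comp (hs : ∀ a b, r a b → r b a) {T : Finset ι} {s t : ι} (ht : t ∈ T)
    (h : s ∈ comp r T t) : comp r T s = comp r T t :=
  comp_eq_of (conn_comp hs ht) h (comp_subset T t) (noTouch_comp T t)

/-- a family of pairwise non-touching connected sets -/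
structure Fam (r : ι → ι → Prop) (P : Finset (Finset ι)) : Prop where
  conn : ∀ C ∈ P, Conn r C
  sep : ∀ C ∈ P, ∀ C' ∈ P, C ≠ C' → NoTouch r C C'

lemma fam_comps (hs : ∀ a b, r a b → r b a) (T : Finset ι) : Fam r (comps r T) := by
  classical
  constructor
  · intro C hC
    unfold comps at hC
    obtain ⟨t, ht, rfl⟩ := Finset.mem_image.1 hC
    exact conn_comp hs ht
  · intro C hC C' hC' hne
    unfold comps at hC hC'
    obtain ⟨t, ht, rfl⟩ := Finset.mem_image.1 hC
    obtain ⟨t', ht', rfl⟩ := Finset.mem_image.1 hC'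
    refine (noTouch_comp T t).mono (Finset.Subset.refl _) fun b hb => ?_
    refine Finset.mem_sdiff.2 ⟨comp_subset T t' hb, fun hb' => hne ?_⟩
    rw [← comp_eq_comp hs ht hb', comp_eq_comp hs ht' hb]

lemma biUnion_comps (T : Finset ι) : (comps r T).biUnion id = T := by
  classical
  ext b
  simp only [Finset.mem_biUnion, id, comps, Finset.mem_image]
  constructor
  · rintro ⟨C, ⟨t, ht, rfl⟩, hb⟩
    exact comp_subset T t hb
  · intro hb
    exact ⟨_, ⟨b, hb, rfl⟩, self_mem_comp hb⟩

lemma comps_biUnion (hs : ∀ a b, r a b → r b a) {P : Finset (Finset ι)} (hP : Fam r P) :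
    comps r (P.biUnion id) = P := by
  classical
  have key : ∀ C ∈ P, ∀ t ∈ C, comp r (P.biUnion id) t = C := by
    intro C hC t ht
    refine comp_eq_of (hP.conn C hC) ht (fun b hb => ?_) (fun a ha b hb => ?_)
    · exact Finset.mem_biUnion.2 ⟨C, hC, hb⟩
    · rw [Finset.mem_sdiff, Finset.mem_biUnion] at hb
      obtain ⟨⟨C', hC', hb'⟩, hbC⟩ := hb
      have hne : C ≠ C' := fun h => hbC (h ▸ hb')
      exact hP.sep C hC C' hC' hne a ha b hb'
  ext C
  simp only [comps, Finset.mem_image]
  constructor
  · rintro ⟨t, ht, rfl⟩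
    obtain ⟨C, hC, hb⟩ := Finset.mem_biUnion.1 ht
    rw [key C hC t hb]; exact hC
  · intro hC
    obtain ⟨t, ht⟩ := (hP.conn C hC).1
    exact ⟨t, Finset.mem_biUnion.2 ⟨C, hC, ht⟩, key C hC t ht⟩

/-- a weight that is multiplicative over non-touching unions -/
structure Mult (r : ι → ι → Prop) {A : Type*} [CommMonoid A] (w : Finset ι → A) : Prop where
  empty : w ∅ = 1
  union : ∀ S T : Finset ι, NoTouch r S T → w (S ∪ T) = w S * w T

lemma Mult.prod {A : Type*} [CommMonoid A] {w : Finset ι → A} (hw : Mult r w)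
    (P : Finset (Finset ι)) (hP : ∀ C ∈ P, ∀ C' ∈ P, C ≠ C' → NoTouch r C C') :
    w (P.biUnion id) = ∏ C ∈ P, w C := by
  classical
  induction P using Finset.induction_on with
  | empty => simpa using hw.empty
  | @insert C P hC ih =>
    rw [Finset.biUnion_insert, Finset.prod_insert hC, id, hw.union, ih]
    · intro C₁ h1 C₂ h2 h
      exact hP C₁ (Finset.mem_insert_of_mem h1) C₂ (Finset.mem_insert_of_mem h2) h
    · intro a ha b hb
      obtain ⟨C', hC', hb'⟩ := Finset.mem_biUnion.1 hb
      refine hP C (Finset.mem_insert_self _ _) C' (Finset.mem_insert_of_mem hC') ?_ a ha b hb'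
      rintro rfl
      exact hC hC'

end basic

section sums

variable {r : ι → ι → Prop} {A : Type*} [CommSemiring A] [Fintype ι]

open Classical in
/-- **decomposition into connected components** -/
theorem sum_eq_sum_families (hs : ∀ a b, r a b → r b a) {w : Finset ι → A} (hw : Mult r w) :
    ∑ T : Finset ι, w T = ∑ P : Finset (Finset ι) with Fam r P, ∏ C ∈ P, w C := by
  refine Finset.sum_bij' (fun T _ => comps r T) (fun P _ => P.biUnion id) ?_ ?_ ?_ ?_ ?_
  · intro T _
    exact Finset.mem_filter.2 ⟨Finset.mem_univ _, fam_comps hs T⟩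
  · intro P _; exact Finset.mem_univ _
  · intro T _; exact biUnion_comps T
  · intro P hP; exact comps_biUnion hs (Finset.mem_filter.1 hP).2
  · intro T _
    conv_lhs => rw [← biUnion_comps (r := r) T]
    exact hw.prod _ (fam_comps hs T).sep

end sums

end Crest.Agent.R165.KCompx892
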