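import Mathlib

/-!
# Row 165 (S0250), block G: exponential and logarithm in a commutative Banach algebra,
measured in an auxiliary algebra norm

`A` is a commutative complete normed real algebra (the reference norm only fixes the topology),
`N : A → ℝ` an auxiliary submultiplicative norm, equivalent to the reference norm (`ANorm N`).
In finite dimension every algebra norm is an `ANorm` (`ANorm.of_finiteDimensional`).

* `lg x = ∑' n, ((-1)^n/(n+1)) • x^(n+1)`, `exp_lg : N x < 1 → exp (lg x) = 1 + x`;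
* `N_lg_le : N x < 1 → N (lg x) ≤ -log (1 - N x)`;
* `exp_inj_of_N : N (u - v) < 1 → exp u = exp v → u = v`;
* `lg_exp_sub_one`, `N_exp_sub_one_le`, `N_mul_exp_le`, naturality `map_lg`.
-/

set_option autoImplicit false

noncomputable section

namespace Crest.Agent.R165.KP1x900

open NormedSpace Finset Filter Topology

variable {A : Type*} [NormedCommRing A] [NormedAlgebra ℝ A]

/-- an auxiliary submultiplicative norm, equivalent to the reference norm -/
structure ANorm (N : A → ℝ) : Prop where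
  add_le : ∀ x y, N (x + y) ≤ N x + N y
  smul_le : ∀ (c : ℝ) x, N (c • x) ≤ |c| * N x
  mul_le : ∀ x y, N (x * y) ≤ N x * N y
  lower : ∃ c : ℝ, 0 < c ∧ ∀ x, ‖x‖ ≤ c * N x
  upper : ∃ C : ℝ, ∀ x, N x ≤ C * ‖x‖

namespace ANorm

variable {N : A → ℝ} (hN : ANorm N)

include hN

theorem nonneg (x : A) : 0 ≤ N x := by
  obtain ⟨c, hc, h⟩ := hN.lower
  have h1 := (norm_nonneg x).trans (h x)
  exact nonneg_of_mul_nonneg_right h1 hc

theorem zero : N 0 = 0 := by
  refine le_antisymm ?_ (hN.nonneg 0)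
  obtain ⟨C, h⟩ := hN.upper
  simpa using h 0

theorem eq_zero {x : A} (h : N x = 0) : x = 0 := by
  obtain ⟨c, hc, hh⟩ := hN.lower
  have := hh x
  rw [h, mul_zero] at this
  exact norm_le_zero_iff.1 this

theorem neg (x : A) : N (-x) = N x := by
  have key : ∀ y : A, N (-y) ≤ N y := fun y => by
    have := hN.smul_le (-1) y
    simpa using this
  refine le_antisymm (key x) ?_
  simpa using key (-x)

theorem sub_le (x y : A) : N (x - y) ≤ N x + N y := by
  rw [sub_eq_add_neg]
  exact (hN.add_le _ _).trans_eq (by rw [hN.neg])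

theorem sum_le {ι : Type*} (s : Finset ι) (f : ι → A) : N (∑ i ∈ s, f i) ≤ ∑ i ∈ s, N (f i) := by
  classical
  induction s using Finset.induction_on with
  | empty => simp [hN.zero]
  | insert i s hi ih =>
    rw [Finset.sum_insert hi, Finset.sum_insert hi]
    exact (hN.add_le _ _).trans (by linarith)

theorem smul_eq (c : ℝ) (x : A) : N (c • x) = |c| * N x := by
  refine le_antisymm (hN.smul_le c x) ?_
  rcases eq_or_ne c 0 with rfl | hc
  · simp [hN.nonneg]
  have h := hN.smul_le c⁻¹ (c • x)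
  rw [smul_smul, inv_mul_cancel₀ hc, one_smul, abs_inv] at h
  have hc' : 0 < |c| := abs_pos.2 hc
  calc |c| * N x ≤ |c| * (|c|⁻¹ * N (c • x)) := mul_le_mul_of_nonneg_left h hc'.le
    _ = N (c • x) := by rw [← mul_assoc, mul_inv_cancel₀ hc'.ne', one_mul]

theorem pow_le (x : A) (n : ℕ) : N (x ^ (n + 1)) ≤ N x ^ (n + 1) := by
  induction n with
  | zero => simp
  | succ n ih =>
    rw [pow_succ x (n + 1), pow_succ (N x) (n + 1)]
    exact (hN.mul_le _ _).trans (mul_le_mul_of_nonneg_right ih (hN.nonneg _))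

theorem mul_pow_le (y x : A) (n : ℕ) : N (y * x ^ n) ≤ N y * N x ^ n := by
  induction n with
  | zero => simp
  | succ n ih =>
    rw [pow_succ x n, pow_succ (N x) n, ← mul_assoc, ← mul_assoc]
    exact (hN.mul_le _ _).trans (mul_le_mul_of_nonneg_right ih (hN.nonneg _))

theorem continuous : Continuous N := by
  obtain ⟨C, h⟩ := hN.upper
  have hC : ∀ x y, |N x - N y| ≤ |C| * ‖x - y‖ := by
    intro x y
    have h1 : N x ≤ N (x - y) + N y := by
      have := hN.add_le (x - y) y
      rwa [sub_add_cancel] at this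
    have h2 : N y ≤ N (x - y) + N x := by
      have := hN.add_le (y - x) x
      rw [sub_add_cancel] at this
      have h3 : N (y - x) = N (x - y) := by rw [← hN.neg, neg_sub]
      rwa [h3] at this
    have h3 : N (x - y) ≤ |C| * ‖x - y‖ :=
      (h _).trans (mul_le_mul_of_nonneg_right (le_abs_self _) (norm_nonneg _))
    rw [abs_le]
    constructor <;> linarith
  exact (LipschitzWith.of_dist_le_mul (K := ⟨|C|, abs_nonneg _⟩) fun x y => by
    rw [Real.dist_eq, dist_eq_norm]
    exact hC x y).continuous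

variable [CompleteSpace A]

theorem summable {f : ℕ → A} {g : ℕ → ℝ} (h : ∀ n, N (f n) ≤ g n) (hg : Summable g) :
    Summable f := by
  obtain ⟨c, hc, hh⟩ := hN.lower
  refine Summable.of_norm_bounded (hg.mul_left c) fun n => ?_
  exact (hh _).trans (mul_le_mul_of_nonneg_left (h n) hc.le)

theorem tsum_le {f : ℕ → A} {g : ℕ → ℝ} (h : ∀ n, N (f n) ≤ g n) (hg : Summable g) :
    N (∑' n, f n) ≤ ∑' n, g n := by
  have hs : Summable f := hN.summable h hg
  have hlim : Tendsto (fun s : Finset ℕ => N (∑ i ∈ s, f i)) atTop (𝓝 (N (∑' n, f n))) :=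
    (hN.continuous.tendsto _).comp hs.hasSum
  refine le_of_tendsto hlim (Eventually.of_forall fun s => ?_)
  refine (hN.sum_le s f).trans ((Finset.sum_le_sum fun i _ => h i).trans ?_)
  exact hg.sum_le_tsum s fun i _ => (hN.nonneg _).trans (h i)

omit hN [CompleteSpace A] in
/-- in finite dimension every algebra norm is equivalent to the reference norm -/
theorem of_finiteDimensional [FiniteDimensional ℝ A] {M : A → ℝ}
    (add_le : ∀ x y, M (x + y) ≤ M x + M y) (smul_le : ∀ (c : ℝ) x, M (c • x) ≤ |c| * M x)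
    (mul_le : ∀ x y, M (x * y) ≤ M x * M y) (eq_zero : ∀ x, M x = 0 → x = 0) : ANorm M := by
  classical
  have hzero : M 0 ≤ 0 := by simpa using smul_le 0 0
  have hneg : ∀ x, M (-x) ≤ M x := fun x => by simpa using smul_le (-1) x
  have hnn : ∀ x, 0 ≤ M x := fun x => by
    have h1 := add_le x (-x)
    have h2 := hneg x
    have h3 : 0 ≤ M 0 := by
      have := add_le 0 0
      rw [add_zero] at this
      linarith
    rw [add_neg_cancel] at h1
    linarith
  have hsum : ∀ (s : Finset (Module.Free.ChooseBasisIndex ℝ A))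
      (f : Module.Free.ChooseBasisIndex ℝ A → A), M (∑ i ∈ s, f i) ≤ ∑ i ∈ s, M (f i) := by
    intro s f
    induction s using Finset.induction_on with
    | empty => simpa using hzero
    | insert i s hi ih =>
      rw [Finset.sum_insert hi, Finset.sum_insert hi]
      exact (add_le _ _).trans (by linarith)
  have hupper : ∃ C : ℝ, ∀ x, M x ≤ C * ‖x‖ := by
    let b := Module.Free.chooseBasis ℝ A
    refine ⟨∑ i, ‖LinearMap.toContinuousLinearMap (b.coord i)‖ * M (b i), fun x => ?_⟩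
    have h1 : M x ≤ ∑ i, M (b.repr x i • b i) := by
      conv_lhs => rw [← b.sum_repr x]
      exact hsum _ _
    refine h1.trans ?_
    rw [Finset.sum_mul]
    refine Finset.sum_le_sum fun i _ => ?_
    refine (smul_le _ _).trans ?_
    have h2 : |b.repr x i| ≤ ‖LinearMap.toContinuousLinearMap (b.coord i)‖ * ‖x‖ :=
      (LinearMap.toContinuousLinearMap (b.coord i)).le_opNorm x
    calc |b.repr x i| * M (b i) ≤ (‖LinearMap.toContinuousLinearMap (b.coord i)‖ * ‖x‖) * M (b i) :=
          mul_le_mul_of_nonneg_right h2 (hnn _)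
      _ = _ := by ring
  have hcont : Continuous M := by
    obtain ⟨C, h⟩ := hupper
    have hC : ∀ x y, |M x - M y| ≤ |C| * ‖x - y‖ := by
      intro x y
      have h1 : M x ≤ M (x - y) + M y := by
        have := add_le (x - y) y
        rwa [sub_add_cancel] at this
      have h2 : M y ≤ M (x - y) + M x := by
        have := add_le (y - x) x
        rw [sub_add_cancel] at this
        have h3 : M (y - x) ≤ M (x - y) := by 
          have := hneg (x - y)
          rwa [neg_sub] at this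
        linarith
      have h3 : M (x - y) ≤ |C| * ‖x - y‖ :=
        (h _).trans (mul_le_mul_of_nonneg_right (le_abs_self _) (norm_nonneg _))
      rw [abs_le]
      constructor <;> linarith
    exact (LipschitzWith.of_dist_le_mul (K := ⟨|C|, abs_nonneg _⟩) fun x y => by
      rw [Real.dist_eq, dist_eq_norm]
      exact hC x y).continuous
  have hlower : ∃ c : ℝ, 0 < c ∧ ∀ x, ‖x‖ ≤ c * M x := by
    have : ProperSpace A := FiniteDimensional.proper_real A
    rcases (Metric.sphere (0 : A) 1).eq_empty_or_nonempty with he | hne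
    · refine ⟨1, one_pos, fun x => ?_⟩
      rcases eq_or_ne x 0 with rfl | hx
      · simpa using hnn 0
      · exfalso
        have : (‖x‖⁻¹ • x) ∈ Metric.sphere (0 : A) 1 := by
          simp [norm_smul, inv_mul_cancel₀ (norm_ne_zero_iff.2 hx)]
        rw [he] at this
        exact this
    · obtain ⟨x0, hx0, hmin⟩ := (isCompact_sphere (0 : A) 1).exists_isMinOn hne hcont.continuousOn
      have hx0' : ‖x0‖ = 1 := by simpa using hx0
      have hpos : 0 < M x0 := by
        rcases (hnn x0).lt_or_eq with h | h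
        · exact h
        · have := eq_zero x0 h.symm
          rw [this, norm_zero] at hx0'
          exact absurd hx0' (by norm_num)
      refine ⟨(M x0)⁻¹, inv_pos.2 hpos, fun x => ?_⟩
      rcases eq_or_ne x 0 with rfl | hx
      · simpa using mul_nonneg (inv_pos.2 hpos).le (hnn 0)
      · have hxn : 0 < ‖x‖ := norm_pos_iff.2 hx
        have hmem : (‖x‖⁻¹ • x) ∈ Metric.sphere (0 : A) 1 := by
          simp [norm_smul, inv_mul_cancel₀ hxn.ne']
        have h1 : M x0 ≤ M (‖x‖⁻¹ • x) := hmin hmem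
        have h2 := h1.trans (smul_le _ _)
        rw [abs_of_pos (inv_pos.2 hxn)] at h2
        rw [inv_mul_eq_div, le_div_iff₀ hpos]
        calc ‖x‖ * M x0 ≤ ‖x‖ * (‖x‖⁻¹ * M x) := mul_le_mul_of_nonneg_left h2 hxn.le
          _ = M x := by rw [← mul_assoc, mul_inv_cancel₀ hxn.ne', one_mul]
  exact ⟨add_le, smul_le, mul_le, hlower, hupper⟩

omit [CompleteSpace A] in
/-- the difference norm on `A × A`: an estimate in this norm is a Lipschitz estimate in `N` -/
theorem prod {δ : ℝ} (hδ : 0 < δ) :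
    ANorm (fun p : A × A => max (N p.1) (N p.2) + N (p.1 - p.2) / δ) where
  add_le p q := by
    have h1 := hN.add_le p.1 q.1
    have h2 := hN.add_le p.2 q.2
    have h3 := hN.add_le (p.1 - p.2) (q.1 - q.2)
    have h4 : (p + q).1 - (p + q).2 = (p.1 - p.2) + (q.1 - q.2) := by
      simp only [Prod.fst_add, Prod.snd_add]; abel
    have h5 : N ((p + q).1 - (p + q).2) / δ ≤ N (p.1 - p.2) / δ + N (q.1 - q.2) / δ := by
      rw [h4, ← add_div]; gcongr
    have h6 : max (N (p + q).1) (N (p + q).2) ≤ max (N p.1) (N p.2) + max (N q.1) (N q.2) := by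
      refine max_le (h1.trans (add_le_add (le_max_left _ _) (le_max_left _ _)))
        (h2.trans (add_le_add (le_max_right _ _) (le_max_right _ _)))
    linarith
  smul_le c p := by
    have h1 := hN.smul_le c p.1
    have h2 := hN.smul_le c p.2
    have h3 := hN.smul_le c (p.1 - p.2)
    have h4 : (c • p).1 - (c • p).2 = c • (p.1 - p.2) := by
      simp only [Prod.smul_fst, Prod.smul_snd, smul_sub]
    have h5 : N ((c • p).1 - (c • p).2) / δ ≤ |c| * (N (p.1 - p.2) / δ) := by
      rw [h4, ← mul_div_assoc]; gcongr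
    have h6 : max (N (c • p).1) (N (c • p).2) ≤ |c| * max (N p.1) (N p.2) := by
      refine max_le (h1.trans (mul_le_mul_of_nonneg_left (le_max_left _ _) (abs_nonneg _)))
        (h2.trans (mul_le_mul_of_nonneg_left (le_max_right _ _) (abs_nonneg _)))
    rw [mul_add]
    linarith
  mul_le p q := by
    have hp1 := hN.nonneg p.1
    have hp2 := hN.nonneg p.2
    have hq1 := hN.nonneg q.1
    have hq2 := hN.nonneg q.2
    have hdp := hN.nonneg (p.1 - p.2)
    have hdq := hN.nonneg (q.1 - q.2)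
    have h1 := hN.mul_le p.1 q.1
    have h2 := hN.mul_le p.2 q.2
    have h4 : (p * q).1 - (p * q).2 = (p.1 - p.2) * q.1 + p.2 * (q.1 - q.2) := by
      simp only [Prod.fst_mul, Prod.snd_mul]; ring
    set m := max (N p.1) (N p.2)
    set m' := max (N q.1) (N q.2)
    have hm1 : N p.1 ≤ m := le_max_left _ _
    have hm2 : N p.2 ≤ m := le_max_right _ _
    have hm1' : N q.1 ≤ m' := le_max_left _ _
    have hm2' : N q.2 ≤ m' := le_max_right _ _
    have h5 : N ((p * q).1 - (p * q).2) / δ ≤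
        (N (p.1 - p.2) / δ) * m' + m * (N (q.1 - q.2) / δ) := by
      rw [h4, div_mul_eq_mul_div, ← mul_div_assoc, ← add_div]
      gcongr
      refine (hN.add_le _ _).trans (add_le_add ((hN.mul_le _ _).trans ?_)
        ((hN.mul_le _ _).trans ?_))
      · exact mul_le_mul_of_nonneg_left hm1' hdp
      · exact mul_le_mul_of_nonneg_right hm2 hdq
    have h6 : max (N (p * q).1) (N (p * q).2) ≤ m * m' := by
      refine max_le (h1.trans (mul_le_mul hm1 hm1' hq1 (hp1.trans hm1)))
        (h2.trans (mul_le_mul hm2 hm2' hq2 (hp2.trans hm2)))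
    have h7 : 0 ≤ (N (p.1 - p.2) / δ) * (N (q.1 - q.2) / δ) := by positivity
    nlinarith
  lower := by
    obtain ⟨c, hc, h⟩ := hN.lower
    refine ⟨c, hc, fun p => ?_⟩
    have h3 : 0 ≤ N (p.1 - p.2) / δ := div_nonneg (hN.nonneg _) hδ.le
    rw [Prod.norm_def]
    refine max_le ((h _).trans ?_) ((h _).trans ?_)
    · refine mul_le_mul_of_nonneg_left ?_ hc.le
      linarith [le_max_left (N p.1) (N p.2)]
    · refine mul_le_mul_of_nonneg_left ?_ hc.le
      linarith [le_max_right (N p.1) (N p.2)]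
  upper := by
    obtain ⟨C, h⟩ := hN.upper
    refine ⟨|C| + (|C| + |C|) / δ, fun p => ?_⟩
    have hC : ∀ x, N x ≤ |C| * ‖x‖ := fun x =>
      (h x).trans (mul_le_mul_of_nonneg_right (le_abs_self _) (norm_nonneg _))
    have h1 : N p.1 ≤ |C| * ‖p‖ := (hC _).trans
      (mul_le_mul_of_nonneg_left (norm_fst_le p) (abs_nonneg _))
    have h2 : N p.2 ≤ |C| * ‖p‖ := (hC _).trans
      (mul_le_mul_of_nonneg_left (norm_snd_le p) (abs_nonneg _))
    have h3 : N (p.1 - p.2) ≤ (|C| + |C|) * ‖p‖ := (hN.sub_le _ _).trans (by linarith)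
    have h4 : N (p.1 - p.2) / δ ≤ ((|C| + |C|) / δ) * ‖p‖ := by
      rw [div_mul_eq_mul_div]; gcongr
    rw [add_mul]
    exact add_le_add (max_le h1 h2) h4

end ANorm


/-- the logarithm series `log (1 + x)` -/
def lg (x : A) : A := ∑' n : ℕ, ((-1 : ℝ) ^ n / (n + 1)) • x ^ (n + 1)

variable [CompleteSpace A] {N : A → ℝ} (hN : ANorm N)

theorem hasSum_exp (x : A) : HasSum (fun n : ℕ => ((n.factorial : ℝ)⁻¹) • x ^ n) (exp x) :=
  NormedSpace.exp_series_hasSum_exp' (𝕂 := ℝ) x

theorem exp_add' (x y : A) : exp (x + y) = exp x * exp y :=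
  exp_add_of_mem_ball (𝕂 := ℝ) ((expSeries_radius_eq_top ℝ A).symm ▸ edist_lt_top _ _)
    ((expSeries_radius_eq_top ℝ A).symm ▸ edist_lt_top _ _)

theorem exp_mul_exp_neg (x : A) : exp x * exp (-x) = 1 := by
  rw [← exp_add', add_neg_cancel, exp_zero]

theorem exp_neg_mul_exp (x : A) : exp (-x) * exp x = 1 := by
  rw [← exp_add', neg_add_cancel, exp_zero]

theorem isUnit_exp' (x : A) : IsUnit (exp x) :=
  IsUnit.of_mul_eq_one _ (exp_mul_exp_neg x)

theorem exp_sum' {ι : Type*} (s : Finset ι) (f : ι → A) :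
    exp (∑ i ∈ s, f i) = ∏ i ∈ s, exp (f i) := by
  classical
  induction s using Finset.induction_on with
  | empty => simp
  | insert i s hi ih => rw [Finset.sum_insert hi, Finset.prod_insert hi, exp_add', ih]

theorem hasSum_real_exp (t : ℝ) : HasSum (fun n : ℕ => ((n.factorial : ℝ)⁻¹) * t ^ n) (Real.exp t) := by
  have := NormedSpace.exp_series_hasSum_exp' (𝕂 := ℝ) t
  rw [← Real.exp_eq_exp_ℝ] at this
  simpa using this

include hN

/-- `N (y * exp x) ≤ N y * e^(N x)` -/
theorem N_mul_exp_le (y x : A) : N (y * exp x) ≤ N y * Real.exp (N x) := by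
  have h1 : y * exp x = ∑' n : ℕ, ((n.factorial : ℝ)⁻¹) • (y * x ^ n) := by
    rw [← ((hasSum_exp x).mul_left y).tsum_eq]
    simp
  have h2 := (hasSum_real_exp (N x)).mul_left (N y)
  rw [h1, ← h2.tsum_eq]
  refine hN.tsum_le (fun n => ?_) h2.summable
  refine (hN.smul_le _ _).trans ?_
  rw [abs_of_nonneg (by positivity)]
  calc ((n.factorial : ℝ)⁻¹) * N (y * x ^ n) ≤ ((n.factorial : ℝ)⁻¹) * (N y * N x ^ n) :=
        mul_le_mul_of_nonneg_left (hN.mul_pow_le _ _ _) (by positivity)
    _ = _ := by ring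

omit hN in
theorem exp_sub_one_eq (x : A) :
    exp x - 1 = ∑' n : ℕ, (((n + 1).factorial : ℝ)⁻¹) • x ^ (n + 1) := by
  have h := hasSum_exp x
  have h2 := h.summable.tsum_eq_zero_add
  rw [h.tsum_eq] at h2
  rw [h2]; simp

theorem N_exp_sub_one_le (x : A) : N (exp x - 1) ≤ Real.exp (N x) - 1 := by
  have h := hasSum_real_exp (N x)
  have h2 := h.summable.tsum_eq_zero_add
  rw [h.tsum_eq] at h2
  have h3 : Real.exp (N x) - 1 = ∑' n : ℕ, (((n + 1).factorial : ℝ)⁻¹) * N x ^ (n + 1) := by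
    rw [h2]; simp
  rw [h3, exp_sub_one_eq]
  refine hN.tsum_le (fun n => ?_) ((summable_nat_add_iff 1).2 h.summable)
  refine (hN.smul_le _ _).trans ?_
  rw [abs_of_nonneg (by positivity)]
  exact mul_le_mul_of_nonneg_left (hN.pow_le _ _) (by positivity)

theorem N_exp_sub_one_sub_le (x : A) : N (exp x - 1 - x) ≤ Real.exp (N x) - 1 - N x := by
  have h := hasSum_real_exp (N x)
  have h2 : Real.exp (N x) - 1 - N x = ∑' n : ℕ, (((n + 2).factorial : ℝ)⁻¹) * N x ^ (n + 2) := by
    have := h.summable.sum_add_tsum_nat_add 2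
    rw [h.tsum_eq, Finset.sum_range_succ, Finset.sum_range_one] at this
    rw [← this]; simp; ring
  have h3 : exp x - 1 - x = ∑' n : ℕ, (((n + 2).factorial : ℝ)⁻¹) • x ^ (n + 2) := by
    have hh := hasSum_exp x
    have := hh.summable.sum_add_tsum_nat_add 2
    rw [hh.tsum_eq, Finset.sum_range_succ, Finset.sum_range_one] at this
    rw [← this]; simp; abel
  rw [h2, h3]
  refine hN.tsum_le (fun n => ?_) ((summable_nat_add_iff 2).2 h.summable)
  refine (hN.smul_le _ _).trans ?_
  rw [abs_of_nonneg (by positivity)]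
  exact mul_le_mul_of_nonneg_left (hN.pow_le _ (n + 1)) (by positivity)

theorem eq_zero_of_exp_eq_one {x : A} (hx : N x < 1) (h : exp x = 1) : x = 0 := by
  have h1 := N_exp_sub_one_sub_le hN x
  rw [h, sub_self, zero_sub, hN.neg] at h1
  have h0 := hN.nonneg x
  have h2 : Real.exp (N x) - 1 - N x ≤ N x ^ 2 := by
    have := Real.abs_exp_sub_one_sub_id_le (x := N x) (by rw [abs_of_nonneg h0]; exact hx.le)
    exact (le_abs_self _).trans this
  refine hN.eq_zero (le_antisymm ?_ h0)
  nlinarith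

theorem exp_inj_of_N {u v : A} (huv : N (u - v) < 1) (h : exp u = exp v) : u = v := by
  refine sub_eq_zero.1 (eq_zero_of_exp_eq_one hN huv ?_)
  rw [sub_eq_add_neg, exp_add', h, exp_mul_exp_neg]

omit [CompleteSpace A] in
theorem N_lg_term_le (x : A) (n : ℕ) :
    N (((-1 : ℝ) ^ n / (n + 1)) • x ^ (n + 1)) ≤ N x ^ (n + 1) / (n + 1) := by
  refine (hN.smul_le _ _).trans ?_
  rw [abs_div, abs_pow, abs_neg, abs_one, one_pow, abs_of_pos (by positivity : (0:ℝ) < (n:ℝ) + 1),
    one_div, inv_mul_eq_div]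
  gcongr
  exact hN.pow_le _ _

omit [CompleteSpace A] in
theorem hasSum_log (x : A) (hx : N x < 1) :
    HasSum (fun n : ℕ => N x ^ (n + 1) / (n + 1)) (-Real.log (1 - N x)) :=
  Real.hasSum_pow_div_log_of_abs_lt_one (by rw [abs_of_nonneg (hN.nonneg x)]; exact hx)

theorem summable_lg {x : A} (hx : N x < 1) :
    Summable (fun n : ℕ => ((-1 : ℝ) ^ n / (n + 1)) • x ^ (n + 1)) :=
  hN.summable (N_lg_term_le hN x) (hasSum_log hN x hx).summable

theorem N_lg_le {x : A} (hx : N x < 1) : N (lg x) ≤ -Real.log (1 - N x) := by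
  rw [← (hasSum_log hN x hx).tsum_eq]
  exact hN.tsum_le (N_lg_term_le hN x) (hasSum_log hN x hx).summable

omit hN [CompleteSpace A] in
theorem neg_log_le {t : ℝ} (_h0 : 0 ≤ t) (h1 : t < 1) : -Real.log (1 - t) ≤ t / (1 - t) := by
  have h := Real.one_sub_inv_le_log_of_pos (by linarith : (0:ℝ) < 1 - t)
  have h2 : (1:ℝ) - (1 - t)⁻¹ = -(t / (1 - t)) := by
    have : (1:ℝ) - t ≠ 0 := by linarith
    field_simp
    ring
  linarith

theorem N_lg_le_div {x : A} (hx : N x < 1) : N (lg x) ≤ N x / (1 - N x) :=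
  (N_lg_le hN hx).trans (neg_log_le (hN.nonneg x) hx)

theorem N_lg_le_two {x : A} (hx : N x ≤ 1 / 2) : N (lg x) ≤ 2 * N x := by
  refine (N_lg_le_div hN (by linarith)).trans ?_
  have h0 := hN.nonneg x
  rw [div_le_iff₀ (by linarith)]
  nlinarith


theorem N_lg_sub_le {x : A} (hx : N x < 1) : N (lg x - x) ≤ -Real.log (1 - N x) - N x := by
  have h := hasSum_log hN x hx
  have h2 : -Real.log (1 - N x) - N x = ∑' n : ℕ, N x ^ (n + 1 + 1) / (((n + 1 : ℕ) : ℝ) + 1) := by
    have := h.summable.tsum_eq_zero_add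
    rw [h.tsum_eq] at this
    rw [this]; simp
  have h3 : lg x - x = ∑' n : ℕ, ((-1 : ℝ) ^ (n + 1) / (((n + 1 : ℕ) : ℝ) + 1)) • x ^ (n + 1 + 1) := by
    have := (summable_lg hN hx).tsum_eq_zero_add
    rw [lg, this]; simp
  rw [h2, h3]
  exact hN.tsum_le (fun n => N_lg_term_le hN x (n + 1)) ((summable_nat_add_iff 1).2 h.summable)

theorem hasDerivAt_lg {x : A} (hx : N x < 1) {t : ℝ} (ht : t ∈ Set.Icc (0 : ℝ) 1) :
    HasDerivAt (fun s : ℝ => lg (s • x)) (∑' n : ℕ, ((-1 : ℝ) ^ n * t ^ n) • x ^ (n + 1)) t := by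
  obtain ⟨c, hc, hlow⟩ := hN.lower
  have h0 := hN.nonneg x
  -- a radius slightly larger than one
  obtain ⟨ρ, hρ1, hρ2⟩ : ∃ ρ : ℝ, 1 < ρ ∧ ρ * N x < 1 := by
    refine ⟨2 / (1 + N x), ?_, ?_⟩
    · rw [lt_div_iff₀ (by linarith)]; linarith
    · rw [div_mul_eq_mul_div, div_lt_one (by linarith)]; linarith
  have hg : Summable fun n : ℕ => c * (ρ ^ n * N x ^ (n + 1)) := by
    have : Summable fun n : ℕ => (c * N x) * (ρ * N x) ^ n :=
      (summable_geometric_of_lt_one (by positivity) hρ2).mul_left _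
    refine this.congr fun n => ?_
    rw [mul_pow]; ring
  have hfun : (fun s : ℝ => lg (s • x)) =
      fun s : ℝ => ∑' n : ℕ, ((-1 : ℝ) ^ n / (n + 1) * s ^ (n + 1)) • x ^ (n + 1) := by
    funext s
    unfold lg
    refine tsum_congr fun n => ?_
    rw [smul_pow, smul_smul]
  rw [hfun]
  have ht0 : (0 : ℝ) ∈ Set.Ioo (-ρ) ρ := ⟨by linarith, by linarith⟩
  have ht1 : t ∈ Set.Ioo (-ρ) ρ := ⟨by linarith [ht.1], by linarith [ht.2]⟩
  refine hasDerivAt_tsum_of_isPreconnected (𝕜 := ℝ) (t := Set.Ioo (-ρ) ρ) (y₀ := 0)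
    (g := fun (n : ℕ) (s : ℝ) => ((-1 : ℝ) ^ n / (n + 1) * s ^ (n + 1)) • x ^ (n + 1))
    (g' := fun (n : ℕ) (s : ℝ) => ((-1 : ℝ) ^ n * s ^ n) • x ^ (n + 1)) hg isOpen_Ioo
    isPreconnected_Ioo ?_ ?_ ht0 ?_ ht1
  · intro n y _
    have h1 : HasDerivAt (fun s : ℝ => (-1 : ℝ) ^ n / (n + 1) * s ^ (n + 1))
        ((-1 : ℝ) ^ n * y ^ n) y := by
      have := (hasDerivAt_pow (n + 1) y).const_mul ((-1 : ℝ) ^ n / (n + 1))
      refine this.congr_deriv ?_
      have hn : ((n : ℝ) + 1) ≠ 0 := by positivity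
      push_cast
      field_simp
    exact h1.smul_const (x ^ (n + 1))
  · intro n y hy
    rw [norm_smul, Real.norm_eq_abs, abs_mul, abs_pow, abs_neg, abs_one, one_pow, one_mul, abs_pow]
    have hy' : |y| ≤ ρ := abs_le.2 ⟨hy.1.le, hy.2.le⟩
    calc |y| ^ n * ‖x ^ (n + 1)‖ ≤ ρ ^ n * (c * N x ^ (n + 1)) := by
          refine mul_le_mul (pow_le_pow_left₀ (abs_nonneg _) hy' n) ?_ (norm_nonneg _)
            (by positivity)
          exact (hlow _).trans (mul_le_mul_of_nonneg_left (hN.pow_le x n) hc.le)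
      _ = _ := by ring
  · simp

omit [CompleteSpace A] in
theorem geom_summable_bound (x : A) {t : ℝ} (ht : t ∈ Set.Icc (0 : ℝ) 1) (n : ℕ) :
    N (((-1 : ℝ) ^ n * t ^ n) • x ^ (n + 1)) ≤ N x ^ (n + 1) := by
  refine (hN.smul_le _ _).trans ?_
  rw [abs_mul, abs_pow, abs_neg, abs_one, one_pow, one_mul, abs_pow, abs_of_nonneg ht.1]
  have h1 : t ^ n ≤ 1 := pow_le_one₀ ht.1 ht.2
  calc t ^ n * N (x ^ (n + 1)) ≤ 1 * N x ^ (n + 1) :=
        mul_le_mul h1 (hN.pow_le x n) (hN.nonneg _) zero_le_one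
    _ = _ := one_mul _

theorem geom_eq {x : A} (hx : N x < 1) {t : ℝ} (ht : t ∈ Set.Icc (0 : ℝ) 1) :
    (1 + t • x) * (∑' n : ℕ, ((-1 : ℝ) ^ n * t ^ n) • x ^ (n + 1)) = x := by
  have h0 := hN.nonneg x
  have hgs : Summable fun n : ℕ => N x ^ (n + 1) := by
    refine ((summable_geometric_of_lt_one h0 hx).mul_left (N x)).congr fun n => ?_
    rw [pow_succ]; ring
  have hs : Summable fun n : ℕ => ((-1 : ℝ) ^ n * t ^ n) • x ^ (n + 1) :=
    hN.summable (geom_summable_bound hN x ht) hgs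
  have h1 := hs.tsum_eq_zero_add
  have h2 : ∑' n : ℕ, ((-1 : ℝ) ^ (n + 1) * t ^ (n + 1)) • x ^ (n + 1 + 1) =
      -(t • x) * ∑' n : ℕ, ((-1 : ℝ) ^ n * t ^ n) • x ^ (n + 1) := by
    rw [← hs.tsum_mul_left]
    refine tsum_congr fun n => ?_
    rw [neg_mul, smul_mul_smul_comm, ← neg_smul]
    congr 1
    · ring
    · ring
  set G := ∑' n : ℕ, ((-1 : ℝ) ^ n * t ^ n) • x ^ (n + 1) with hG
  rw [h2] at h1
  simp only [pow_zero, mul_one, zero_add, pow_one, one_smul] at h1
  calc (1 + t • x) * G = G + (t • x) * G := by ring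
    _ = (x + -(t • x) * G) + (t • x) * G := by rw [← h1]
    _ = x := by ring

/-- `exp (log (1 + x)) = 1 + x` -/
theorem exp_lg {x : A} (hx : N x < 1) : exp (lg x) = 1 + x := by
  have key : ∀ t ∈ Set.Icc (0 : ℝ) 1, exp (-lg (t • x)) * (1 + t • x) =
      exp (-lg ((0 : ℝ) • x)) * (1 + (0 : ℝ) • x) := by
    have hd : ∀ t ∈ Set.Icc (0 : ℝ) 1,
        HasDerivAt (fun s : ℝ => exp (-lg (s • x)) * (1 + s • x)) 0 t := by
      intro t ht
      have h1 := (hasDerivAt_lg hN hx ht).neg
      have h2 : HasFDerivAt exp (exp (-lg (t • x)) • (1 : A →L[ℝ] A)) (-lg (t • x)) :=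
        hasFDerivAt_exp (𝕂 := ℝ)
      have h3 := h2.comp_hasDerivAt t h1
      have h4 : HasDerivAt (fun s : ℝ => (1 : A) + s • x) x t := by
        have := (hasDerivAt_id t).smul_const x
        simpa using this.const_add (1 : A)
      have h5 := h3.mul h4
      refine h5.congr_deriv ?_
      simp only [smul_apply, one_apply_eq_self, smul_eq_mul, Function.comp]
      have h6 := geom_eq hN hx ht
      set G := ∑' n : ℕ, ((-1 : ℝ) ^ n * t ^ n) • x ^ (n + 1)
      calc exp (-lg (t • x)) * -G * (1 + t • x) + exp (-lg (t • x)) * x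
          = exp (-lg (t • x)) * (x - (1 + t • x) * G) := by ring
        _ = 0 := by rw [h6, sub_self, mul_zero]
    intro t ht
    exact constant_of_has_deriv_right_zero
      (f := fun s : ℝ => exp (-lg (s • x)) * (1 + s • x))
      (fun s hs => (hd s hs).continuousAt.continuousWithinAt)
      (fun s hs => (hd s ⟨hs.1, hs.2.le⟩).hasDerivWithinAt) t ht
  have h1 := key 1 ⟨zero_le_one, le_rfl⟩
  have hl0 : lg ((0 : ℝ) • x) = 0 := by simp [lg]
  rw [one_smul, hl0, neg_zero, exp_zero, zero_smul, add_zero, mul_one] at h1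
  calc exp (lg x) = exp (lg x) * (exp (-lg x) * (1 + x)) := by rw [h1, mul_one]
    _ = 1 + x := by rw [← mul_assoc, exp_mul_exp_neg, one_mul]

theorem isUnit_one_add {x : A} (hx : N x < 1) : IsUnit (1 + x) := by
  rw [← exp_lg hN hx]; exact isUnit_exp' _

omit hN [CompleteSpace A] in
@[simp] theorem lg_zero : lg (0 : A) = 0 := by simp [lg]

/-- `log (exp u) = u` for small `u` -/
theorem lg_exp_sub_one {u : A} (hu : N u ≤ 1 / 4) : lg (exp u - 1) = u := by
  have h0 := hN.nonneg u
  have h1 := N_exp_sub_one_le hN u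
  have h2 : Real.exp (N u) - 1 ≤ 1 / 3 := by
    have h3 : Real.exp (N u) ≤ Real.exp (1 / 4) := Real.exp_le_exp.2 hu
    have h4 : Real.exp (1 / 4) ≤ 4 / 3 := by
      have := Real.add_one_le_exp (-(1 / 4 : ℝ))
      rw [Real.exp_neg] at this
      have hp := Real.exp_pos (1 / 4)
      rw [← sub_nonneg] at this ⊢
      have h5 : (0:ℝ) ≤ ((Real.exp (1 / 4))⁻¹ - (-(1 / 4) + 1)) * Real.exp (1 / 4) :=
        mul_nonneg this hp.le
      rw [sub_mul, inv_mul_cancel₀ hp.ne'] at h5
      linarith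
    linarith
  have h3 : N (exp u - 1) < 1 := by linarith
  refine exp_inj_of_N hN ?_ ?_
  · refine (hN.sub_le _ _).trans_lt ?_
    have h4 := N_lg_le_two hN (x := exp u - 1) (by linarith)
    have h5 := N_lg_le_div hN h3
    have h6 : N (exp u - 1) / (1 - N (exp u - 1)) ≤ 1 / 2 := by
      rw [div_le_iff₀ (by linarith)]; linarith
    linarith
  · rw [exp_lg hN h3]; ring

/-- naturality of the logarithm -/
theorem map_lg {B : Type*} [NormedCommRing B] [NormedAlgebra ℝ B] (f : A →ₐ[ℝ] B)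
    (hf : Continuous f) {x : A} (hx : N x < 1) : f (lg x) = lg (f x) := by
  have h := (summable_lg hN hx).hasSum.map f hf
  unfold lg
  rw [← h.tsum_eq]
  refine tsum_congr fun n => ?_
  simp

omit hN in
/-- naturality of the exponential -/
theorem map_exp' {B : Type*} [NormedCommRing B] [NormedAlgebra ℝ B] (f : A →ₐ[ℝ] B)
    (hf : Continuous f) (x : A) : f (exp x) = exp (f x) :=
  map_exp_of_mem_ball (𝕂 := ℝ) f hf x ((expSeries_radius_eq_top ℝ A).symm ▸ edist_lt_top _ _)

end Crest.Agent.R165.KP1x900
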