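import Crest.Agent.R165.J1b_606

/-!
# Row 165 (S0250), block J: Kramers-Wannier, part 1 (helper871)

On top of helper606's `Gr1`, `J1a`, `J1b`.

* `cPs cs` : the product of the Clifford operators `cP h`, `h ∈ cs` (corner operators; the half-edge
  `(f, i)` stands for the corner between the directions `i` and `i + 1` of the face `f`, which sits
  at the vertex `cv (f, i)`)
* `E0_cPs_sstar` : toggling the four edges at the vertex `v` multiplies
  `E0 (cPs cs (mon S))` by `(-1)^(number of corners of cs at v)`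
* `E0_cPs_mon_abs` : `|E0 (cPs cs (mon S))| = 1` if all faces have the right parity
* `E0_cPs_mon_zero` : it vanishes otherwise
-/

set_option autoImplicit false
set_option linter.unusedSimpArgs false
set_option linter.unusedSectionVars false

noncomputable section

namespace Crest.Agent.R165.Kw1x871

open Crest.Agent.R165.Gr0x606 Crest.Agent.R165.Gr1x606 Crest.Agent.R165.J1ax606
  Crest.Agent.R165.J1bx606

/-! ### corner operators -/

section ops
variable {ι : Type*}

/-- product of the operators `cP h` -/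
def cPs (cs : List ι) (a : Gr (VI ι)) : Gr (VI ι) := cs.foldr (fun h b => cP h b) a

@[simp] theorem cPs_nil (a : Gr (VI ι)) : cPs [] a = a := rfl
@[simp] theorem cPs_cons (h : ι) (cs : List ι) (a : Gr (VI ι)) :
    cPs (h :: cs) a = cP h (cPs cs a) := rfl

theorem cPs_append (cs ds : List ι) (a : Gr (VI ι)) : cPs (cs ++ ds) a = cPs cs (cPs ds a) := by
  induction cs with
  | nil => rfl
  | cons h cs ih => rw [List.cons_append, cPs_cons, ih, cPs_cons]

/-- `cPs` as a linear map -/
def cPL (cs : List ι) : Gr (VI ι) →ₗ[ℝ] Gr (VI ι) where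
  toFun := cPs cs
  map_add' a b := by
    induction cs with
    | nil => rfl
    | cons h cs ih => rw [cPs_cons, cPs_cons, cPs_cons, ih, map_add]
  map_smul' c a := by
    induction cs with
    | nil => rfl
    | cons h cs ih => rw [cPs_cons, cPs_cons, ih]; simp

@[simp] theorem cPL_apply (cs : List ι) (a : Gr (VI ι)) : cPL cs a = cPs cs a := rfl

end ops

section gen
variable {G : Type*} [CommRing G] [DecidableEq G]

/-- the vertex of the corner between the directions `i`, `i+1` of the face `f` -/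
def cv (h : HE G) : G × G :=
  h.1 + (if h.2 = 0 then (1, 0) else if h.2 = 1 then (1, 1) else if h.2 = 2 then (0, 1) else (0, 0))

/-- the plaquette operator at the vertex `v` -/
def plaq (v : G × G) (a : Gr (VI (HE G))) : Gr (VI (HE G)) :=
  cP (v - (1, 0) - (0, 1), 1) (cM (v - (0, 1), 3) (cP (v - (0, 1), 2) (cM (v, 0) (cP (v, 3)
    (cM (v - (1, 0), 1) (cP (v - (1, 0), 0) (cM (v - (1, 0) - (0, 1), 2) a)))))))

theorem E0_plaq' (v : G × G) (a : Gr (VI (HE G))) : E0 (plaq v a) = E0 a :=
  E0_plaq _ _ _ _ a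

theorem plaq_mon (S : Finset (EG G)) (v : G × G) :
    plaq v (mon S : Gr (VI (HE G))) = (mon (sstar S v) : Gr (VI (HE G))) := by
  have e1 := tog_mon S (v - (1, 0), 0)
  rw [pe_zero, qe_zero] at e1
  have e2 := tog_mon' (symmDiff S {(v - (1, 0), 0)}) (v, 1)
  rw [pe_one, qe_one] at e2
  have e3 := tog_mon' (symmDiff (symmDiff S {(v - (1, 0), 0)}) {(v, 1)}) (v, 0)
  rw [pe_zero, qe_zero] at e3
  have e4 := tog_mon (symmDiff (symmDiff (symmDiff S {(v - (1, 0), 0)}) {(v, 1)}) {(v, 0)})
    (v - (0, 1), 1)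
  rw [pe_one, qe_one, sub_right_comm v (0, 1) (1, 0)] at e4
  rw [plaq, e1, e2, map_neg, map_neg, e3, neg_neg, e4, sstar]

/-- the sign of a corner at a vertex -/
def csg (v : G × G) (h : HE G) : ℝ := if cv h = v then -1 else 1

theorem cP_comm_aux (k h : HE G) (a : Gr (VI (HE G))) :
    cP k (cP h a) = (if k = h then (1 : ℝ) else -1) • cP h (cP k a) := by
  by_cases e : k = h
  · subst e; simp
  · rw [if_neg e, cP_cP_ne e, neg_one_smul]

theorem cM_comm_aux (k h : HE G) (a : Gr (VI (HE G))) :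
    cM k (cP h a) = -cP h (cM k a) := cM_cP k h a

theorem plaq_cP (v : G × G) (h : HE G) (a : Gr (VI (HE G))) :
    plaq v (cP h a) = csg v h • cP h (plaq v a) := by
  have key : csg v h = (if (v - (1, 0) - (0, 1), (1 : Fin 4)) = h then (1 : ℝ) else -1) *
      ((if (v - (0, 1), (2 : Fin 4)) = h then (1 : ℝ) else -1) *
      ((if (v, (3 : Fin 4)) = h then (1 : ℝ) else -1) *
      (if (v - (1, 0), (0 : Fin 4)) = h then (1 : ℝ) else -1))) := by
    obtain ⟨f, i⟩ := h
    unfold csg cv
    have c0 : (v - (1, 0), (0 : Fin 4)) = (f, i) ↔ i = 0 ∧ f + (1, 0) = v := by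
      rw [Prod.mk.injEq, sub_eq_iff_eq_add]
      constructor
      · rintro ⟨h1, h2⟩; exact ⟨h2.symm, h1.symm⟩
      · rintro ⟨h1, h2⟩; exact ⟨h2.symm, h1.symm⟩
    have c1 : (v - (1, 0) - (0, 1), (1 : Fin 4)) = (f, i) ↔ i = 1 ∧ f + (1, 1) = v := by
      have e11 : ((1, 0) + (0, 1) : G × G) = (1, 1) := by simp
      rw [Prod.mk.injEq, sub_sub, e11, sub_eq_iff_eq_add]
      constructor
      · rintro ⟨h1, h2⟩; exact ⟨h2.symm, h1.symm⟩
      · rintro ⟨h1, h2⟩; exact ⟨h2.symm, h1.symm⟩
    have c2 : (v - (0, 1), (2 : Fin 4)) = (f, i) ↔ i = 2 ∧ f + (0, 1) = v := by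
      rw [Prod.mk.injEq, sub_eq_iff_eq_add]
      constructor
      · rintro ⟨h1, h2⟩; exact ⟨h2.symm, h1.symm⟩
      · rintro ⟨h1, h2⟩; exact ⟨h2.symm, h1.symm⟩
    have c3 : (v, (3 : Fin 4)) = (f, i) ↔ i = 3 ∧ f + (0, 0) = v := by
      rw [Prod.mk.injEq]
      constructor
      · rintro ⟨h1, h2⟩; exact ⟨h2.symm, by rw [← h1]; ext <;> simp⟩
      · rintro ⟨h1, h2⟩; exact ⟨by rw [← h2]; ext <;> simp, h1.symm⟩
    rw [if_congr c0 rfl rfl, if_congr c1 rfl rfl, if_congr c2 rfl rfl, if_congr c3 rfl rfl]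
    fin_cases i
    · by_cases hh : f + (1, 0) = v <;> simp [hh]
    · by_cases hh : f + (1, 1) = v <;> simp [hh]
    · by_cases hh : f + (0, 1) = v <;> simp [hh]
    · by_cases hh : f + (0, 0) = v <;> simp [hh]
  unfold plaq
  simp only [cM_comm_aux, cP_comm_aux _ h, map_neg, map_smul, smul_neg, neg_neg, smul_smul]
  rw [key]
  congr 1
  ring

theorem plaq_smul (v : G × G) (c : ℝ) (a : Gr (VI (HE G))) : plaq v (c • a) = c • plaq v a := by
  unfold plaq
  simp only [map_smul]

/-- sign of a list of corners at a vertex -/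
def csgs (v : G × G) (cs : List (HE G)) : ℝ := (cs.map (csg v)).prod

@[simp] theorem csgs_nil (v : G × G) : csgs v ([] : List (HE G)) = 1 := rfl
@[simp] theorem csgs_cons (v : G × G) (h : HE G) (cs : List (HE G)) :
    csgs v (h :: cs) = csg v h * csgs v cs := by simp [csgs]

theorem plaq_cPs (v : G × G) (cs : List (HE G)) (a : Gr (VI (HE G))) :
    plaq v (cPs cs a) = csgs v cs • cPs cs (plaq v a) := by
  induction cs with
  | nil => simp
  | cons h cs ih =>
    rw [cPs_cons, plaq_cP, ih, cPs_cons, csgs_cons, map_smul, smul_smul]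

theorem csg_sq (v : G × G) (h : HE G) : csg v h * csg v h = 1 := by
  unfold csg; split_ifs <;> norm_num

theorem csgs_sq (v : G × G) (cs : List (HE G)) : csgs v cs * csgs v cs = 1 := by
  induction cs with
  | nil => simp
  | cons h cs ih =>
    rw [csgs_cons, mul_mul_mul_comm, csg_sq, ih, one_mul]

/-- **star moves with corner insertions** -/
theorem E0_cPs_sstar (cs : List (HE G)) (S : Finset (EG G)) (v : G × G) :
    E0 (cPs cs (mon (sstar S v) : Gr (VI (HE G)))) =
      csgs v cs * E0 (cPs cs (mon S : Gr (VI (HE G)))) := by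
  have h := E0_plaq' v (cPs cs (mon S : Gr (VI (HE G))))
  rw [plaq_cPs, map_smul, plaq_mon, smul_eq_mul] at h
  rw [← h, ← mul_assoc, csgs_sq, one_mul]

end gen

end Crest.Agent.R165.Kw1x871
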