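import Crest.Agent.R165.Kw1_871

/-!
# Row 165 (S0250), block J: Kramers-Wannier, part 2 (helper871): monomials

`Mo A a` : `a` is up to sign the product of the generators in the finite set `A` of half-edges.
`|E0 a| = 1` if every face has an even number of half-edges in `A`, and `E0 a = 0` otherwise.
-/

set_option autoImplicit false
set_option linter.unusedSimpArgs false
set_option linter.unusedSectionVars false

noncomputable section

namespace Crest.Agent.R165.Kw2x871

open Crest.Agent.R165.Gr0x606 Crest.Agent.R165.Gr1x606 Crest.Agent.R165.J1ax606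
  Crest.Agent.R165.J1bx606 Crest.Agent.R165.Kw1x871

section mono
variable {ι : Type*} [DecidableEq ι]

/-- `a` is, up to sign, the product of the generators in `A` -/
inductive Mo : Finset ι → Gr (VI ι) → Prop
  | one : Mo ∅ 1
  | cons {A : Finset ι} {a : Gr (VI ι)} (h : ι) (hh : h ∉ A) : Mo A a → Mo (insert h A) (ph h * a)
  | neg {A : Finset ι} {a : Gr (VI ι)} : Mo A a → Mo A (-a)

theorem Mo.de_zero {A : Finset ι} {a : Gr (VI ι)} (ha : Mo A a) {h : ι} (hh : h ∉ A) :
    de h a = 0 := by
  induction ha with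
  | one => simp
  | cons k hk _ ih =>
    rw [Finset.mem_insert, not_or] at hh
    rw [de_ph_mul_ne hh.1, ih hh.2]
    simp
  | neg _ ih => rw [map_neg, ih hh, neg_zero]

theorem Mo.front {A : Finset ι} {a : Gr (VI ι)} (ha : Mo A a) {h : ι} (hh : h ∈ A) :
    ∃ a', Mo (A.erase h) a' ∧ a = ph h * a' := by
  induction ha with
  | one => simp at hh
  | @cons A a k hk ha ih =>
    by_cases hkh : h = k
    · subst hkh
      refine ⟨a, ?_, rfl⟩
      rwa [Finset.erase_insert hk]
    · have hA : h ∈ A := by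
        rcases Finset.mem_insert.1 hh with h1 | h1
        · exact absurd h1 hkh
        · exact h1
      obtain ⟨a', ha', rfl⟩ := ih hA
      refine ⟨-(ph k * a'), ?_, ?_⟩
      · have : (insert k A).erase h = insert k (A.erase h) := by
          rw [Finset.erase_insert_of_ne (Ne.symm hkh)]
        rw [this]
        exact Mo.neg (Mo.cons k (fun hc => hk (Finset.mem_of_mem_erase hc)) ha')
      · rw [ph_anti_mul k h, mul_neg]
  | neg _ ih =>
    obtain ⟨a', ha', h'⟩ := ih hh
    exact ⟨-a', ha'.neg, by rw [h', mul_neg]⟩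

theorem Mo.cP_of_notMem {A : Finset ι} {a : Gr (VI ι)} (ha : Mo A a) {h : ι} (hh : h ∉ A) :
    cP h a = ph h * a := by rw [cP_apply, ha.de_zero hh, add_zero]

theorem Mo.cM_of_notMem {A : Finset ι} {a : Gr (VI ι)} (ha : Mo A a) {h : ι} (hh : h ∉ A) :
    cM h a = ph h * a := by rw [cM_apply, ha.de_zero hh, sub_zero]

theorem Mo.cP_ph {A : Finset ι} {a : Gr (VI ι)} (ha : Mo A a) {h : ι} (hh : h ∉ A) :
    cP h (ph h * a) = a := by
  rw [cP_apply, ph_ph_mul_self, zero_add, de_ph_mul_self, ha.de_zero hh, mul_zero, sub_zero]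

theorem Mo.cM_ph {A : Finset ι} {a : Gr (VI ι)} (ha : Mo A a) {h : ι} (hh : h ∉ A) :
    cM h (ph h * a) = -a := by
  rw [cM_apply, ph_ph_mul_self, zero_sub, de_ph_mul_self, ha.de_zero hh, mul_zero, sub_zero]

/-- the corner operators map monomials to monomials -/
theorem Mo.cP {A : Finset ι} {a : Gr (VI ι)} (ha : Mo A a) (h : ι) :
    Mo (symmDiff A {h}) (Gr1x606.cP h a) := by
  by_cases hh : h ∈ A
  · have h1 : symmDiff A {h} = A.erase h := by
      ext x; simp only [Finset.mem_symmDiff, Finset.mem_singleton, Finset.mem_erase]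
      by_cases hx : x = h
      · subst hx; simp [hh]
      · simp [hx]
    obtain ⟨a', ha', rfl⟩ := ha.front hh
    rw [h1, ha'.cP_ph (Finset.notMem_erase h A)]
    exact ha'
  · have h1 : symmDiff A {h} = insert h A := by
      ext x; simp only [Finset.mem_symmDiff, Finset.mem_singleton, Finset.mem_insert]
      by_cases hx : x = h
      · subst hx; simp [hh]
      · simp [hx]
    rw [h1, ha.cP_of_notMem hh]
    exact Mo.cons h hh ha

/-- the set of half-edges with odd multiplicity -/
def oddl (cs : List ι) : Finset ι := cs.foldr (fun h A => symmDiff A {h}) ∅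

theorem Mo.cPs {A : Finset ι} {a : Gr (VI ι)} (ha : Mo A a) (cs : List ι) :
    Mo (cs.foldr (fun h B => symmDiff B {h}) A) (Kw1x871.cPs cs a) := by
  induction cs with
  | nil => exact ha
  | cons h cs ih => exact ih.cP h

end mono

section gen
variable {G : Type*} [DecidableEq G]

/-- the sign of the corner relation -/
def tau (i : Fin 4) : ℝ := if i = 3 then 1 else -1

theorem tau_abs (i : Fin 4) : |tau i| = 1 := by
  unfold tau; split_ifs <;> norm_num

/-- corner relations, uniformly -/
theorem E0_corner (f : G × G) (i : Fin 4) (a : Gr (VI (HE G))) :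
    E0 (cP (f, i) a) = tau i * E0 (cM (f, i + 1) a) := by
  fin_cases i
  · have := E0_r01 f a
    simpa [tau] using this
  · have := E0_r12 f a
    simpa [tau] using this
  · have := E0_r23 f a
    simpa [tau] using this
  · have := E0_r30 f a
    simpa [tau] using this

/-- removal of a corner pair -/
theorem Mo.remove {A : Finset (HE G)} {a : Gr (VI (HE G))} (ha : Mo A a) (f : G × G) (i : Fin 4)
    (h1 : (f, i) ∈ A) (h2 : (f, i + 1) ∈ A) :
    ∃ a', Mo ((A.erase (f, i)).erase (f, i + 1)) a' ∧ |E0 a| = |E0 a'| := by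
  obtain ⟨a1, ha1, rfl⟩ := ha.front h1
  have hne : ((f, i + 1) : HE G) ≠ (f, i) := by
    intro hc
    rw [Prod.mk.injEq] at hc
    have := hc.2
    revert this
    fin_cases i <;> simp
  have h2' : (f, i + 1) ∈ A.erase (f, i) := Finset.mem_erase.2 ⟨hne, h2⟩
  obtain ⟨a2, ha2, rfl⟩ := ha1.front h2'
  refine ⟨a2, ha2, ?_⟩
  have e1 := E0_corner f i (ph (f, i + 1) * a2)
  rw [ha1.cP_of_notMem (Finset.notMem_erase _ _), ha2.cM_ph (Finset.notMem_erase _ _), map_neg] at e1
  rw [e1, abs_mul, tau_abs, one_mul, abs_neg]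

/-- sliding along a corner -/
theorem Mo.slide {A : Finset (HE G)} {a : Gr (VI (HE G))} (ha : Mo A a) (f : G × G) (i : Fin 4)
    (h1 : (f, i) ∈ A) (h2 : (f, i + 1) ∉ A) :
    ∃ a', Mo (insert (f, i + 1) (A.erase (f, i))) a' ∧ |E0 a| = |E0 a'| := by
  obtain ⟨a1, ha1, rfl⟩ := ha.front h1
  have h2' : (f, i + 1) ∉ A.erase (f, i) := fun hc => h2 (Finset.mem_of_mem_erase hc)
  refine ⟨ph (f, i + 1) * a1, Mo.cons _ h2' ha1, ?_⟩
  have e1 := E0_corner f i a1
  rw [ha1.cP_of_notMem (Finset.notMem_erase _ _), ha1.cM_of_notMem h2'] at e1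
  rw [e1, abs_mul, tau_abs, one_mul]

/-- the number of half-edges of `A` at the face `f` -/
def nat_ (A : Finset (HE G)) (f : G × G) : ℕ := (A.filter fun h => h.1 = f).card

/-- parity kills -/
theorem Mo.E0_zero {A : Finset (HE G)} {a : Gr (VI (HE G))} (ha : Mo A a) (f : G × G)
    (h : Odd (nat_ A f)) : E0 a = 0 := by
  set σ : HE G → ℝ := fun h => if h.1 = f then -1 else 1 with hσ
  have h1 : ∀ b : Gr (VI (HE G)), E0 (mp (dil σ) b) = E0 b := by
    intro b
    refine EE_dil K0 K0 K0_anti K0_anti σ ?_ _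
    intro i j
    by_cases e : i.1 = j.1
    · have : σ i * σ j = 1 := by
        simp only [hσ, e]; split_ifs <;> norm_num
      rw [this, one_mul]
    · have : K0 i j = 0 := if_neg e
      rw [this, mul_zero]
  have h2 : mp (dil σ) a = ((-1 : ℝ) ^ (nat_ A f)) • a := by
    clear h h1
    induction ha with
    | one => simp [nat_]
    | @cons A a k hk ha ih =>
      rw [map_mul, ih, mp_dil_ph]
      unfold nat_
      rw [Finset.filter_insert]
      by_cases e : k.1 = f
      · rw [if_pos e, Finset.card_insert_of_notMem (by simp [hk]), pow_succ]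
        simp only [hσ, e, if_true]
        rw [smul_mul_smul_comm]
        congr 1
        ring
      · rw [if_neg e]
        simp only [hσ, e, if_false]
        rw [one_smul, mul_smul_comm]
    | neg _ ih => rw [map_neg, ih, smul_neg]
  have h3 := h1 a
  rw [h2, h.neg_one_pow, map_smul, smul_eq_mul] at h3
  linarith

theorem nat_eq (A : Finset (HE G)) (f : G × G) :
    nat_ A f = ∑ i : Fin 4, if (f, i) ∈ A then 1 else 0 := by
  unfold nat_
  have hinj : Function.Injective fun i : Fin 4 => ((f, i) : HE G) := fun i j h => (Prod.mk.inj h).2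
  have h : (A.filter fun h => h.1 = f) =
      (Finset.univ.filter fun i : Fin 4 => (f, i) ∈ A).image fun i : Fin 4 => ((f, i) : HE G) := by
    ext x
    rw [Finset.mem_filter, Finset.mem_image]
    constructor
    · rintro ⟨h1, h2⟩
      have hx : x = (f, x.2) := by rw [← h2]
      exact ⟨x.2, Finset.mem_filter.2 ⟨Finset.mem_univ _, hx ▸ h1⟩, hx.symm⟩
    · rintro ⟨j, h1, h2⟩
      rw [← h2]
      exact ⟨(Finset.mem_filter.1 h1).2, rfl⟩
  rw [h, Finset.card_image_of_injective _ hinj, Finset.card_filter]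

/-- two half-edges at one face can be removed -/
theorem Mo.two {A : Finset (HE G)} {a : Gr (VI (HE G))} (ha : Mo A a) (f : G × G)
    (h : 2 ≤ nat_ A f) :
    ∃ i j, i ≠ j ∧ (f, i) ∈ A ∧ (f, j) ∈ A ∧
      ∃ a', Mo ((A.erase (f, i)).erase (f, j)) a' ∧ |E0 a| = |E0 a'| := by
  have cons : ∀ i : Fin 4, (f, i) ∈ A → (f, i + 1) ∈ A → ∃ i j, i ≠ j ∧ (f, i) ∈ A ∧ (f, j) ∈ A ∧
      ∃ a', Mo ((A.erase (f, i)).erase (f, j)) a' ∧ |E0 a| = |E0 a'| := by
    intro i h1 h2
    refine ⟨i, i + 1, ?_, h1, h2, ha.remove f i h1 h2⟩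
    fin_cases i <;> simp
  have opp : ∀ i : Fin 4, (f, i) ∈ A → (f, i + 1) ∉ A → (f, i + 1 + 1) ∈ A →
      ∃ i j, i ≠ j ∧ (f, i) ∈ A ∧ (f, j) ∈ A ∧
      ∃ a', Mo ((A.erase (f, i)).erase (f, j)) a' ∧ |E0 a| = |E0 a'| := by
    intro i h1 h2 h3
    obtain ⟨a1, ha1, e1⟩ := ha.slide f i h1 h2
    have hne : (i + 1 + 1 : Fin 4) ≠ i := by fin_cases i <;> simp
    have hne2 : (i + 1 + 1 : Fin 4) ≠ i + 1 := by fin_cases i <;> simp
    obtain ⟨a2, ha2, e2⟩ := ha1.remove f (i + 1) (Finset.mem_insert_self _ _)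
      (Finset.mem_insert_of_mem (Finset.mem_erase.2 ⟨fun hc => hne (Prod.mk.inj hc).2, h3⟩))
    refine ⟨i, i + 1 + 1, hne.symm, h1, h3, a2, ?_, e1.trans e2⟩
    rw [Finset.erase_insert (fun hc => h2 (Finset.mem_of_mem_erase hc))] at ha2
    exact ha2
  by_cases m0 : (f, (0 : Fin 4)) ∈ A <;> by_cases m1 : (f, (1 : Fin 4)) ∈ A <;>
    by_cases m2 : (f, (2 : Fin 4)) ∈ A <;> by_cases m3 : (f, (3 : Fin 4)) ∈ A
  all_goals first
    | exact cons 0 m0 m1
    | exact cons 1 m1 m2
    | exact cons 2 m2 m3
    | exact cons 3 m3 m0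
    | exact opp 0 m0 m1 m2
    | exact opp 1 m1 m2 m3
    | (exfalso
       rw [nat_eq, Fin.sum_univ_four] at h
       simp only [m0, m1, m2, m3, if_true, if_false] at h
       omega)

/-- all half-edges at one face can be removed if their number is even -/
theorem Mo.clear {A : Finset (HE G)} {a : Gr (VI (HE G))} (ha : Mo A a) (f : G × G)
    (h : Even (nat_ A f)) :
    ∃ a', Mo (A.filter fun h => h.1 ≠ f) a' ∧ |E0 a| = |E0 a'| := by
  induction hn : nat_ A f using Nat.strong_induction_on generalizing A a with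
  | _ n ih =>
  by_cases h0 : nat_ A f = 0
  · have : (A.filter fun h => h.1 ≠ f) = A := by
      unfold nat_ at h0
      rw [Finset.card_eq_zero, Finset.filter_eq_empty_iff] at h0
      rw [Finset.filter_eq_self]
      exact fun x hx => h0 hx
    rw [this]
    exact ⟨a, ha, rfl⟩
  · have h2 : 2 ≤ nat_ A f := by
      obtain ⟨k, hk⟩ := h
      omega
    obtain ⟨i, j, hij, hi, hj, a', ha', e⟩ := ha.two f h2
    have hc : nat_ ((A.erase (f, i)).erase (f, j)) f = nat_ A f - 2 := by
      unfold nat_
      rw [Finset.filter_erase, Finset.filter_erase, Finset.card_erase_of_mem,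
        Finset.card_erase_of_mem]
      · omega
      · simp [hi]
      · rw [Finset.mem_erase, Finset.mem_filter]
        exact ⟨fun hc => hij (Prod.mk.inj hc).2.symm, hj, rfl⟩
    have hev : Even (nat_ ((A.erase (f, i)).erase (f, j)) f) := by
      rw [hc]
      obtain ⟨k, hk⟩ := h
      exact ⟨k - 1, by omega⟩
    obtain ⟨a'', ha'', e'⟩ := ih (nat_ A f - 2) (by omega) ha' hev hc
    refine ⟨a'', ?_, e.trans e'⟩
    have : ((A.erase (f, i)).erase (f, j)).filter (fun h => h.1 ≠ f) = A.filter fun h => h.1 ≠ f := by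
      ext x
      simp only [Finset.mem_filter, Finset.mem_erase]
      constructor
      · rintro ⟨⟨_, _, h1⟩, h2⟩
        exact ⟨h1, h2⟩
      · rintro ⟨h1, h2⟩
        refine ⟨⟨?_, ?_, h1⟩, h2⟩
        · rintro rfl; exact h2 rfl
        · rintro rfl; exact h2 rfl
    rw [this] at ha''
    exact ha''

/-- **even monomials have absolute value one** -/
theorem Mo.E0_abs {A : Finset (HE G)} {a : Gr (VI (HE G))} (ha : Mo A a)
    (h : ∀ f, Even (nat_ A f)) : |E0 a| = 1 := by
  induction hn : A.card using Nat.strong_induction_on generalizing A a with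
  | _ n ih =>
  by_cases h0 : A = ∅
  · subst h0
    clear hn ih h
    have : ∀ {B : Finset (HE G)} {b : Gr (VI (HE G))}, Mo B b → B = ∅ → |E0 b| = 1 := by
      intro B b hb
      induction hb with
      | one => intro _; simp [E0]
      | cons k hk _ _ => intro hc; exact absurd hc (Finset.insert_ne_empty _ _)
      | neg _ ih => intro hc; rw [map_neg, abs_neg]; exact ih hc
    exact this ha rfl
  · obtain ⟨⟨f, i⟩, hx⟩ := Finset.nonempty_iff_ne_empty.2 h0
    obtain ⟨a', ha', e⟩ := ha.clear f (h f)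
    rw [e]
    refine ih (A.filter fun h => h.1 ≠ f).card ?_ ha' ?_ rfl
    · rw [← hn]
      apply Finset.card_lt_card
      rw [Finset.ssubset_iff_subset_ne]
      refine ⟨Finset.filter_subset _ _, fun hc => ?_⟩
      have := hc ▸ hx
      rw [Finset.mem_filter] at this
      exact this.2 rfl
    · intro g
      unfold nat_
      rw [Finset.filter_filter]
      by_cases hg : g = f
      · subst hg
        have : (A.filter fun h => h.1 ≠ g ∧ h.1 = g) = ∅ := by
          rw [Finset.filter_eq_empty_iff]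
          intro x _ hx
          exact hx.1 hx.2
        rw [this]; simp
      · have : (A.filter fun h => h.1 ≠ f ∧ h.1 = g) = A.filter fun h => h.1 = g := by
          apply Finset.filter_congr
          intro x _
          constructor
          · exact fun h => h.2
          · intro h
            refine ⟨?_, h⟩
            rw [h]
            exact hg
        rw [this]
        exact h g

end gen

end Crest.Agent.R165.Kw2x871
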