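import Crest.Agent.R165.Kw2_871
import Crest.Agent.R165.J1c_606

/-!
# Row 165 (S0250), block J: Kramers-Wannier, part 3 (helper871): the plane

* `Ok cs S` : the edge set `S` has at every face the parity of the number of corners of `cs`
* `E0_cPs_mon_abs`, `E0_cPs_mon_zero`
* `KW_sum` : if the signs `s` have flux `(-1)^(number of corners at v)` at every vertex `v`, then
  `E0 (cPs cs (∏_{e ∈ B} (1 + s_e x_e b_e))) = ε ∑_{P ⊆ B, Ok cs P} ∏_{e ∈ P} x_e`, `|ε| = 1`
  with `ε` independent of `B` and `x`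
-/

set_option autoImplicit false
set_option linter.unusedSimpArgs false
set_option linter.unusedSectionVars false

noncomputable section

namespace Crest.Agent.R165.Kw3x871

open Crest.Agent.R165.Gr0x606 Crest.Agent.R165.Gr1x606 Crest.Agent.R165.J1ax606
  Crest.Agent.R165.J1bx606 Crest.Agent.R165.J1cx606 Crest.Agent.R165.Kw1x871
  Crest.Agent.R165.Kw2x871

section gen
variable {G : Type*} [CommRing G] [DecidableEq G]

/-- parity of the degree of the edge set `S` at the face `f` -/
def dgE (S : Finset (EG G)) (f : G × G) : ZMod 2 :=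
  ind S (f, 0) + ind S (f + (1, 0), 1) + (ind S (f + (0, 1), 0) + ind S (f, 1))

theorem evAt_iff (S : Finset (EG G)) (f : G × G) : EvAt S f ↔ dgE S f = 0 := Iff.rfl

/-- parity of the number of corners at the face `f` -/
def cnt (cs : List (HE G)) (f : G × G) : ZMod 2 := (cs.map fun h => if h.1 = f then (1 : ZMod 2) else 0).sum

@[simp] theorem cnt_nil (f : G × G) : cnt ([] : List (HE G)) f = 0 := rfl
@[simp] theorem cnt_cons (h : HE G) (cs : List (HE G)) (f : G × G) :
    cnt (h :: cs) f = (if h.1 = f then 1 else 0) + cnt cs f := by simp [cnt]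

/-- the parity condition -/
def Ok (cs : List (HE G)) (S : Finset (EG G)) : Prop := ∀ f, dgE S f = cnt cs f

theorem nat_symmDiff (A : Finset (HE G)) (h : HE G) (f : G × G) :
    ((nat_ (symmDiff A {h}) f : ℕ) : ZMod 2) = (if h.1 = f then 1 else 0) + (nat_ A f : ℕ) := by
  unfold nat_
  by_cases hh : h ∈ A
  · have h1 : symmDiff A {h} = A.erase h := by
      ext x; simp only [Finset.mem_symmDiff, Finset.mem_singleton, Finset.mem_erase]
      by_cases hx : x = h
      · subst hx; simp [hh]
      · simp [hx]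
    rw [h1, Finset.filter_erase]
    by_cases hf : h.1 = f
    · have hm : h ∈ A.filter fun x => x.1 = f := Finset.mem_filter.2 ⟨hh, hf⟩
      rw [if_pos hf]
      have := Finset.card_erase_add_one hm
      rw [← this]
      push_cast
      generalize (((A.filter fun x => x.1 = f).erase h).card : ZMod 2) = z
      revert z; decide
    · rw [if_neg hf, zero_add, Finset.erase_eq_of_notMem]
      simp [hf]
  · have h1 : symmDiff A {h} = insert h A := by
      ext x; simp only [Finset.mem_symmDiff, Finset.mem_singleton, Finset.mem_insert]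
      by_cases hx : x = h
      · subst hx; simp [hh]
      · simp [hx]
    rw [h1, Finset.filter_insert]
    by_cases hf : h.1 = f
    · rw [if_pos hf, if_pos hf, Finset.card_insert_of_notMem (by simp [hh])]
      push_cast
      ring
    · rw [if_neg hf, if_neg hf, zero_add]

theorem nat_foldr (A : Finset (HE G)) (cs : List (HE G)) (f : G × G) :
    ((nat_ (cs.foldr (fun h B => symmDiff B {h}) A) f : ℕ) : ZMod 2) = cnt cs f + (nat_ A f : ℕ) := by
  induction cs with
  | nil => simp
  | cons h cs ih =>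
    rw [List.foldr_cons, nat_symmDiff, ih, cnt_cons, add_assoc]

/-- the monomial of an edge set -/
theorem mo_mon (S : Finset (EG G)) :
    ∃ A : Finset (HE G), Mo A (mon S : Gr (VI (HE G))) ∧
      (∀ h ∈ A, ∃ e ∈ S, h = pe e ∨ h = qe e) ∧
      ∀ f, nat_ A f = (S.filter fun e => (pe e).1 = f).card + (S.filter fun e => (qe e).1 = f).card := by
  induction S using Finset.induction_on with
  | empty =>
    refine ⟨∅, ?_, ?_, ?_⟩
    · exact Mo.one
    · simp
    · intro f; simp [nat_]
  | insert e S he ih =>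
    obtain ⟨A, hA, hm, hn⟩ := ih
    have hq : qe e ∉ A := by
      intro hc
      obtain ⟨e', he', h | h⟩ := hm _ hc
      · exact pe_ne_qe e' e h.symm
      · exact he (qe_inj h ▸ he')
    have hp : pe e ∉ insert (qe e) A := by
      intro hc
      rcases Finset.mem_insert.1 hc with hc | hc
      · exact pe_ne_qe e e hc
      obtain ⟨e', he', h | h⟩ := hm _ hc
      · exact he (pe_inj h ▸ he')
      · exact pe_ne_qe e e' h
    refine ⟨insert (pe e) (insert (qe e) A), ?_, ?_, ?_⟩
    · rw [mon_insert he, Ge.coe_mul, coe_bb, mul_assoc]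
      exact Mo.cons _ hp (Mo.cons _ hq hA)
    · intro h hh
      rcases Finset.mem_insert.1 hh with rfl | hh
      · exact ⟨e, Finset.mem_insert_self _ _, Or.inl rfl⟩
      rcases Finset.mem_insert.1 hh with rfl | hh
      · exact ⟨e, Finset.mem_insert_self _ _, Or.inr rfl⟩
      obtain ⟨e', he', h'⟩ := hm _ hh
      exact ⟨e', Finset.mem_insert_of_mem he', h'⟩
    · intro f
      have h1 : nat_ (insert (pe e) (insert (qe e) A)) f =
          (if (pe e).1 = f then 1 else 0) + ((if (qe e).1 = f then 1 else 0) + nat_ A f) := by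
        unfold nat_
        rw [Finset.filter_insert, Finset.filter_insert]
        by_cases h2 : (pe e).1 = f <;> by_cases h3 : (qe e).1 = f
        · rw [if_pos h2, if_pos h2, if_pos h3, if_pos h3, Finset.card_insert_of_notMem,
            Finset.card_insert_of_notMem]
          · ring
          · simp [hq]
          · rw [Finset.mem_insert, Finset.mem_filter]
            rintro (hc | hc)
            · exact hp (hc ▸ Finset.mem_insert_self _ _)
            · exact hp (Finset.mem_insert_of_mem hc.1)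
        · rw [if_pos h2, if_pos h2, if_neg h3, if_neg h3, Finset.card_insert_of_notMem]
          · ring
          · rw [Finset.mem_filter]
            exact fun hc => hp (Finset.mem_insert_of_mem hc.1)
        · rw [if_neg h2, if_neg h2, if_pos h3, if_pos h3, Finset.card_insert_of_notMem]
          · ring
          · simp [hq]
        · rw [if_neg h2, if_neg h2, if_neg h3, if_neg h3]
          ring
      rw [h1, hn, Finset.filter_insert, Finset.filter_insert]
      by_cases h2 : (pe e).1 = f <;> by_cases h3 : (qe e).1 = f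
      · rw [if_pos h2, if_pos h2, if_pos h3, if_pos h3, Finset.card_insert_of_notMem (by simp [he]),
          Finset.card_insert_of_notMem (by simp [he])]
        ring
      · rw [if_pos h2, if_pos h2, if_neg h3, if_neg h3, Finset.card_insert_of_notMem (by simp [he])]
        ring
      · rw [if_neg h2, if_neg h2, if_pos h3, if_pos h3, Finset.card_insert_of_notMem (by simp [he])]
        ring
      · rw [if_neg h2, if_neg h2, if_neg h3, if_neg h3]
        ring

theorem mo_cPs_mon (cs : List (HE G)) (S : Finset (EG G)) :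
    ∃ A : Finset (HE G), Mo A (cPs cs (mon S : Gr (VI (HE G)))) ∧
      ∀ f, ((nat_ A f : ℕ) : ZMod 2) = cnt cs f + dgE S f := by
  obtain ⟨A, hA, _, hn⟩ := mo_mon S
  refine ⟨_, hA.cPs cs, fun f => ?_⟩
  rw [nat_foldr, hn, Nat.cast_add, card_pe, card_qe]
  rfl

theorem zadd_self (z : ZMod 2) : z + z = 0 := by revert z; decide

/-- absolute value one -/
theorem E0_cPs_mon_abs (cs : List (HE G)) (S : Finset (EG G)) (h : Ok cs S) :
    |E0 (cPs cs (mon S : Gr (VI (HE G))))| = 1 := by
  obtain ⟨A, hA, hn⟩ := mo_cPs_mon cs S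
  refine hA.E0_abs fun f => ?_
  rw [← ZMod.natCast_eq_zero_iff_even, hn, h f]
  exact zadd_self _

/-- parity -/
theorem E0_cPs_mon_zero (cs : List (HE G)) (S : Finset (EG G)) (h : ¬Ok cs S) :
    E0 (cPs cs (mon S : Gr (VI (HE G)))) = 0 := by
  obtain ⟨A, hA, hn⟩ := mo_cPs_mon cs S
  unfold Ok at h
  push Not at h
  obtain ⟨f, hf⟩ := h
  refine hA.E0_zero f ?_
  rw [← Nat.not_even_iff_odd, ← ZMod.natCast_eq_zero_iff_even, hn]
  intro hc
  apply hf
  revert hc
  generalize cnt cs f = a
  generalize dgE S f = b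
  revert a b; decide

theorem symmDiff_empty (S : Finset (EG G)) : symmDiff S ∅ = S := by
  ext x; simp [Finset.mem_symmDiff]

theorem symmDiff_sstar (S W : Finset (EG G)) (v : G × G) :
    symmDiff S (sstar W v) = sstar (symmDiff S W) v := by
  unfold sstar
  simp only [symmDiff_assoc]

theorem E0_cPs_walls (cs : List (HE G)) (S : Finset (EG G)) (N : Finset (G × G)) :
    E0 (cPs cs (mon (symmDiff S (walls N)) : Gr (VI (HE G)))) =
      (∏ v ∈ N, csgs v cs) * E0 (cPs cs (mon S : Gr (VI (HE G)))) := by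
  induction N using Finset.induction_on with
  | empty => rw [walls_empty, symmDiff_empty, Finset.prod_empty, one_mul]
  | insert v N hv ih =>
    rw [walls_insert hv, symmDiff_sstar, E0_cPs_sstar, ih, Finset.prod_insert hv, mul_assoc]

/-- signs -/
def Sg (s : EG G → ℝ) : Prop := ∀ e, s e * s e = 1

theorem prod_symmDiff_single {s : EG G → ℝ} (hs : Sg s) (S : Finset (EG G)) (e : EG G) :
    ∏ e' ∈ symmDiff S {e}, s e' = s e * ∏ e' ∈ S, s e' := by
  by_cases he : e ∈ S
  · have h1 : symmDiff S {e} = S.erase e := by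
      ext x; simp only [Finset.mem_symmDiff, Finset.mem_singleton, Finset.mem_erase]
      by_cases hx : x = e
      · subst hx; simp [he]
      · simp [hx]
    rw [h1, ← Finset.mul_prod_erase S s he, ← mul_assoc, hs, one_mul]
  · have h1 : symmDiff S {e} = insert e S := by
      ext x; simp only [Finset.mem_symmDiff, Finset.mem_singleton, Finset.mem_insert]
      by_cases hx : x = e
      · subst hx; simp [he]
      · simp [hx]
    rw [h1, Finset.prod_insert he]

/-- the flux of the signs `s` at the vertex `v` -/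
def flux (s : EG G → ℝ) (v : G × G) : ℝ :=
  s (v - (1, 0), 0) * s (v, 1) * s (v, 0) * s (v - (0, 1), 1)

theorem prod_sstar {s : EG G → ℝ} (hs : Sg s) (S : Finset (EG G)) (v : G × G) :
    ∏ e ∈ sstar S v, s e = flux s v * ∏ e ∈ S, s e := by
  unfold sstar flux
  rw [prod_symmDiff_single hs, prod_symmDiff_single hs, prod_symmDiff_single hs,
    prod_symmDiff_single hs]
  ring

theorem prod_walls {s : EG G → ℝ} (hs : Sg s) (S : Finset (EG G)) (N : Finset (G × G)) :
    ∏ e ∈ symmDiff S (walls N), s e = (∏ v ∈ N, flux s v) * ∏ e ∈ S, s e := by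
  induction N using Finset.induction_on with
  | empty => rw [walls_empty, symmDiff_empty, Finset.prod_empty, one_mul]
  | insert v N hv ih =>
    rw [walls_insert hv, symmDiff_sstar, prod_sstar hs, ih, Finset.prod_insert hv, mul_assoc]

theorem prod_sq {s : EG G → ℝ} (hs : Sg s) (S : Finset (EG G)) :
    (∏ e ∈ S, s e) * ∏ e ∈ S, s e = 1 := by
  rw [← Finset.prod_mul_distrib]
  exact Finset.prod_eq_one fun e _ => hs e

theorem dgE_symmDiff (S S' : Finset (EG G)) (f : G × G) :
    dgE (symmDiff S S') f = dgE S f + dgE S' f := by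
  have h : ∀ e, ind (symmDiff S S') e = ind S e + ind S' e := by
    intro e
    unfold ind
    by_cases h1 : e ∈ S <;> by_cases h2 : e ∈ S'
    · rw [if_neg (by simp [Finset.mem_symmDiff, h1, h2]), if_pos h1, if_pos h2]; decide
    · rw [if_pos (by simp [Finset.mem_symmDiff, h1, h2]), if_pos h1, if_neg h2]; decide
    · rw [if_pos (by simp [Finset.mem_symmDiff, h1, h2]), if_neg h1, if_pos h2]; decide
    · rw [if_neg (by simp [Finset.mem_symmDiff, h1, h2]), if_neg h1, if_neg h2]; decide
  unfold dgE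
  simp only [h]
  ring

end gen

/-! ### the plane -/

/-- two admissible edge sets differ by walls -/
theorem Ok.walls {cs : List (HE ℤ)} {S S' : Finset (EG ℤ)} (h : Ok cs S) (h' : Ok cs S') :
    ∃ N : Finset (ℤ × ℤ), S' = symmDiff S (J1bx606.walls N) := by
  obtain ⟨N, hN⟩ := exists_walls (symmDiff S S') fun f => by
    rw [evAt_iff, dgE_symmDiff, h f, h' f]
    exact zadd_self _
  exact ⟨N, by rw [hN, symmDiff_symmDiff_cancel_left]⟩

/-- **constancy of the sign** -/
theorem sign_const {cs : List (HE ℤ)} {s : EG ℤ → ℝ} (hs : Sg s)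
    (hf : ∀ v, flux s v = csgs v cs) {S S' : Finset (EG ℤ)} (h : Ok cs S) (h' : Ok cs S') :
    (∏ e ∈ S', s e) * E0 (cPs cs (mon S' : Gr (VI (HE ℤ)))) =
      (∏ e ∈ S, s e) * E0 (cPs cs (mon S : Gr (VI (HE ℤ)))) := by
  obtain ⟨N, rfl⟩ := h.walls h'
  rw [prod_walls hs, E0_cPs_walls]
  have h1 : (∏ v ∈ N, flux s v) * ∏ v ∈ N, csgs v cs = 1 := by
    rw [← Finset.prod_mul_distrib]
    exact Finset.prod_eq_one fun v _ => by rw [hf, csgs_sq]
  calc _ = ((∏ v ∈ N, flux s v) * ∏ v ∈ N, csgs v cs) *
      ((∏ e ∈ S, s e) * E0 (cPs cs (mon S : Gr (VI (HE ℤ))))) := by ring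
    _ = _ := by rw [h1, one_mul]

/-- expansion of the product with a linear functional in front -/
theorem lin_prod {G : Type*} [CommRing G] [DecidableEq G] (L : Gr (VI (HE G)) →ₗ[ℝ] ℝ) (A : Finset (EG G)) (y : EG G → ℝ) :
    L ((∏ e ∈ A, (1 + y e • bb e) : Ge (VI (HE G))) : Gr (VI (HE G))) =
      ∑ S ∈ A.powerset, (∏ e ∈ S, y e) * L (mon S : Gr (VI (HE G))) := by
  rw [Finset.prod_one_add]
  have : ∀ S : Finset (EG G), ∏ e ∈ S, y e • bb e = (∏ e ∈ S, y e) • mon S := by
    intro S
    rw [mon, Finset.prod_smul]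
  simp only [this]
  have h2 : ((∑ S ∈ A.powerset, (∏ e ∈ S, y e) • mon S : Ge (VI (HE G))) : Gr (VI (HE G))) =
      ∑ S ∈ A.powerset, (∏ e ∈ S, y e) • (mon S : Gr (VI (HE G))) := by
    have := map_sum (Ge (VI (HE G))).val (fun S => (∏ e ∈ S, y e) • mon S) A.powerset
    exact this
  rw [h2, map_sum]
  refine Finset.sum_congr rfl fun S _ => ?_
  rw [map_smul, smul_eq_mul]

open Classical in
/-- **Kramers-Wannier, sum form** -/
theorem KW_sum (cs : List (HE ℤ)) {s : EG ℤ → ℝ} (hs : Sg s) (hf : ∀ v, flux s v = csgs v cs) :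
    ∃ ε : ℝ, |ε| = 1 ∧ ∀ (B : Finset (EG ℤ)) (x : EG ℤ → ℝ),
      E0 (cPs cs ((∏ e ∈ B, (1 + (s e * x e) • bb e) : Ge (VI (HE ℤ))) : Gr (VI (HE ℤ)))) =
        ε * ∑ P ∈ B.powerset.filter (Ok cs), ∏ e ∈ P, x e := by
  have exp : ∀ (B : Finset (EG ℤ)) (x : EG ℤ → ℝ),
      E0 (cPs cs ((∏ e ∈ B, (1 + (s e * x e) • bb e) : Ge (VI (HE ℤ))) : Gr (VI (HE ℤ)))) =
      ∑ P ∈ B.powerset.filter (Ok cs), ((∏ e ∈ P, s e) * E0 (cPs cs (mon P : Gr (VI (HE ℤ))))) *
        ∏ e ∈ P, x e := by
    intro B x
    have h := lin_prod (E0 ∘ₗ cPL cs) B (fun e => s e * x e)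
    simp only [LinearMap.comp_apply, cPL_apply] at h
    rw [h, Finset.sum_filter]
    refine Finset.sum_congr rfl fun P _ => ?_
    split_ifs with hP
    · rw [Finset.prod_mul_distrib]; ring
    · rw [E0_cPs_mon_zero cs P hP, mul_zero]
  by_cases hex : ∃ P : Finset (EG ℤ), Ok cs P
  · obtain ⟨P0, h0⟩ := hex
    refine ⟨(∏ e ∈ P0, s e) * E0 (cPs cs (mon P0 : Gr (VI (HE ℤ)))), ?_, fun B x => ?_⟩
    · rw [abs_mul, E0_cPs_mon_abs cs P0 h0, mul_one]
      have := prod_sq hs P0
      have h2 : |∏ e ∈ P0, s e| * |∏ e ∈ P0, s e| = 1 := by rw [← abs_mul, this, abs_one]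
      have h3 := abs_nonneg (∏ e ∈ P0, s e)
      nlinarith
    · rw [exp, Finset.mul_sum]
      refine Finset.sum_congr rfl fun P hP => ?_
      rw [sign_const hs hf h0 (Finset.mem_filter.1 hP).2]
  · refine ⟨1, abs_one, fun B x => ?_⟩
    rw [exp, one_mul]
    have : B.powerset.filter (Ok cs) = ∅ := by
      rw [Finset.filter_eq_empty_iff]
      exact fun P _ hP => hex ⟨P, hP⟩
    rw [this, Finset.sum_empty, Finset.sum_empty]

end Crest.Agent.R165.Kw3x871
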