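import Crest.Agent.R165.KwHi_408
import Crest.Agent.R165.J1c_606

/-!
# Row 165 (S0250): low-temperature (domain wall) form, plus boundary conditions (helper408)

`sN N` = the configuration with minus spins exactly on `N`.

* `plus_sum` : `∑_σ F(σ) ∏_{e meets T} (1 + xc ε_e) = (1+xc)^{|E|} ∑_{N ⊆ T} F(sN N) xc^|walls N|`
* `plus_expect` : `⟨F⟩^+_T = ∑_{N ⊆ T} F(sN N) xc^|walls N| / ∑_{N ⊆ T} xc^|walls N|`
* `image_walls` : if `T` has no holes, `walls` is a bijection from subsets of `T` onto the edge sets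
  which are even at every face
* `spin_ray` : `σ_u (sN N) = ∏_{e ∈ walls N} (-1)^[e on the horizontal ray from u]`
* `plus_ray` : `∑_{N ⊆ T} ∏_{x ∈ X} σ_x(sN N) ∏_{walls N} y_e = ∑_{N ⊆ T} ∏_{walls N} y^X_e`
-/

set_option autoImplicit false

noncomputable section

open Finset
open Crest.ProbabilityR.IsingModel

namespace Crest.Agent.R165.KwLox408

open J4Defx653 KwHix408 J1ax606 J1bx606 J1cx606

/-- the configuration with minus spins exactly on `N` -/
def sN (N : Finset (ℤ × ℤ)) : ℤ × ℤ → Bool := fun v => decide (v ∉ N)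

theorem spinSign_sN (N : Finset (ℤ × ℤ)) (v : ℤ × ℤ) :
    spinSign (sN N v) = if v ∈ N then -1 else 1 := by
  unfold sN spinSign
  by_cases h : v ∈ N <;> simp [h]

theorem uv_eq (j : Fin 2) : (uv j : ℤ × ℤ) = unitVec j := rfl

/-- bond variables of `sN N` -/
theorem epsE_sN (N : Finset (ℤ × ℤ)) (e : (ℤ × ℤ) × Fin 2) :
    epsE (sN N) e = if e ∈ walls N then -1 else 1 := by
  unfold epsE
  rw [spinSign_sN, spinSign_sN]
  have := @mem_walls ℤ _ _ N e
  rw [uv_eq] at this
  by_cases h1 : e.1 ∈ N <;> by_cases h2 : e.1 + unitVec e.2 ∈ N <;> simp [this, h1, h2]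

theorem EE_plus (T : Finset (ℤ × ℤ)) : EE T .plus = touch T := by
  ext e
  rw [mem_EE, mem_touch, uv_eq]
  simp

theorem one_sub_xc : 1 - xc = xc * (1 + xc) := by
  have := xc_sq; linarith

theorem ext_mem {T : Finset (ℤ × ℤ)} {b : BoundaryCondition} {σ : T → Bool} {v : ℤ × ℤ}
    (hv : v ∈ T) : extendConfig T b σ v = σ ⟨v, hv⟩ := dif_pos hv

theorem ext_not_mem {T : Finset (ℤ × ℤ)} {b : BoundaryCondition} {σ : T → Bool} {v : ℤ × ℤ}
    (hv : v ∉ T) : extendConfig T b σ v = b.exterior := dif_neg hv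

/-- configurations on `T` extended by plus = subsets of `T` -/
theorem sum_config (T : Finset (ℤ × ℤ)) (F : (ℤ × ℤ → Bool) → ℝ) :
    ∑ σ : T → Bool, F (extendConfig T .plus σ) = ∑ N ∈ T.powerset, F (sN N) := by
  classical
  refine Finset.sum_bij' (fun σ _ => T.filter fun v => extendConfig T .plus σ v = false)
    (fun N _ => fun v : T => sN N v) ?_ ?_ ?_ ?_ ?_
  · intro σ _
    exact Finset.mem_powerset.2 (Finset.filter_subset _ _)
  · intro N _
    exact Finset.mem_univ _
  · intro σ _
    funext v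
    have hv := v.2
    have h1 : (v : ℤ × ℤ) ∉ (T.filter fun v => extendConfig T .plus σ v = false) ↔ σ v = true := by
      rw [Finset.mem_filter, ext_mem hv]
      simp [hv]
    unfold sN
    cases hσ : σ v
    · rw [decide_eq_false_iff_not, h1, hσ]; simp
    · rw [decide_eq_true_iff, h1, hσ]
  · intro N hN
    rw [Finset.mem_powerset] at hN
    ext v
    rw [Finset.mem_filter]
    constructor
    · rintro ⟨hv, h⟩
      rw [ext_mem hv] at h
      simpa [sN] using h
    · intro hv
      refine ⟨hN hv, ?_⟩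
      rw [ext_mem (hN hv)]
      simpa [sN] using hv
  · intro σ _
    congr 1
    funext v
    unfold sN
    by_cases hv : v ∈ T
    · have h1 : v ∉ (T.filter fun v => extendConfig T .plus σ v = false) ↔ σ ⟨v, hv⟩ = true := by
        rw [Finset.mem_filter, ext_mem hv]
        simp [hv]
      rw [ext_mem hv]
      cases hσ : σ ⟨v, hv⟩
      · symm; rw [decide_eq_false_iff_not, h1, hσ]; simp
      · symm; rw [decide_eq_true_iff, h1, hσ]
    · rw [ext_not_mem hv]
      have h1 : v ∉ (T.filter fun v => extendConfig T .plus σ v = false) := by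
        rw [Finset.mem_filter]; exact fun h => hv h.1
      simp [h1, BoundaryCondition.exterior]

/-- the edge factor in domain wall form, critical weights -/
theorem prod_edge (T N : Finset (ℤ × ℤ)) (hN : N ⊆ T) :
    ∏ e ∈ EE T .plus, (1 + xc * epsE (sN N) e) =
      (1 + xc) ^ (EE T .plus).card * xc ^ (walls N).card := by
  rw [EE_plus]
  have h1 : ∀ e ∈ touch T, (1 + xc * epsE (sN N) e) =
      (1 + xc) * (if e ∈ walls N then xc else 1) := by
    intro e _
    rw [epsE_sN]
    split_ifs
    · have := one_sub_xc; linarith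
    · ring
  rw [Finset.prod_congr rfl h1, Finset.prod_mul_distrib, Finset.prod_const, Finset.prod_ite_mem,
    Finset.inter_eq_right.2 (walls_subset_touch hN), Finset.prod_const]

theorem plus_sum (T : Finset (ℤ × ℤ)) (F : (ℤ × ℤ → Bool) → ℝ) :
    ∑ σ : T → Bool, F (extendConfig T .plus σ) *
        ∏ e ∈ EE T .plus, (1 + xc * epsE (extendConfig T .plus σ) e) =
      (1 + xc) ^ (EE T .plus).card * ∑ N ∈ T.powerset, F (sN N) * xc ^ (walls N).card := by
  rw [sum_config T (fun s => F s * ∏ e ∈ EE T .plus, (1 + xc * epsE s e)), Finset.mul_sum]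
  refine Finset.sum_congr rfl fun N hN => ?_
  rw [prod_edge T N (Finset.mem_powerset.1 hN)]
  ring

/-- **domain wall form**, plus boundary conditions -/
theorem gE_plus (T : Finset (ℤ × ℤ)) (F : (ℤ × ℤ → Bool) → ℝ) :
    gE T .plus (fun _ => xc) F =
      (∑ N ∈ T.powerset, F (sN N) * xc ^ (walls N).card) /
        ∑ N ∈ T.powerset, xc ^ (walls N).card := by
  unfold gE
  have h := plus_sum T (fun _ => 1)
  simp only [one_mul] at h
  rw [plus_sum, h, mul_div_mul_left]
  have := xc_pos
  positivity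

/-- **KW-lo** -/
theorem plus_expect (D : Set ℂ) (a : ℝ) (R : ℕ) (V : Finset (ℤ × ℤ) → ℝ)
    (h : (domainSites D a).Finite) (F : (ℤ × ℤ → Bool) → ℝ) :
    domainExpect D a .plus 1 0 R V (criticalBeta 1) F =
      (∑ N ∈ h.toFinset.powerset, F (sN N) * xc ^ (walls N).card) /
        ∑ N ∈ h.toFinset.powerset, xc ^ (walls N).card := by
  rw [expect_eq D a .plus R V _ h, gE_plus]

theorem evAt_walls (N : Finset (ℤ × ℤ)) (f : ℤ × ℤ) : EvAt (walls N) f := by
  by_contra h
  have h1 := E0_mon_walls (G := ℤ) N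
  rw [E0_mon_odd _ f h] at h1
  exact zero_ne_one h1

open Classical in
/-- walls of subsets of `T` = even edge sets touching `T` -/
theorem image_walls (T : Finset (ℤ × ℤ)) (hT : NoHole T) :
    T.powerset.image walls = (touch T).powerset.filter fun P => ∀ f, EvAt P f := by
  ext P
  rw [Finset.mem_image, Finset.mem_filter, Finset.mem_powerset]
  constructor
  · rintro ⟨N, hN, rfl⟩
    exact ⟨walls_subset_touch (Finset.mem_powerset.1 hN), fun f => evAt_walls N f⟩
  · rintro ⟨h1, h2⟩
    obtain ⟨N, hN⟩ := exists_walls P h2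
    exact ⟨N, Finset.mem_powerset.2 (hT N (hN ▸ h1)), hN⟩

open Classical in
/-- sums over minus sets as sums over even edge sets -/
theorem sum_walls (T : Finset (ℤ × ℤ)) (hT : NoHole T) (G : Finset ((ℤ × ℤ) × Fin 2) → ℝ) :
    ∑ N ∈ T.powerset, G (walls N) =
      ∑ P ∈ (touch T).powerset.filter (fun P => ∀ f, EvAt P f), G P := by
  rw [← image_walls T hT, Finset.sum_image fun N _ N' _ h => walls_inj h]

/-! ### spins as products along rays -/

/-- the horizontal bonds to the right of `u` -/
def OnRay (u : ℤ × ℤ) (e : (ℤ × ℤ) × Fin 2) : Prop := e.2 = 0 ∧ e.1.2 = u.2 ∧ u.1 ≤ e.1.1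

instance (u : ℤ × ℤ) (e : (ℤ × ℤ) × Fin 2) : Decidable (OnRay u e) := by
  unfold OnRay; infer_instance

/-- `σ_u = ∏_{e on the ray from u} ε_e` -/
theorem spin_ray (N : Finset (ℤ × ℤ)) (u : ℤ × ℤ) :
    spinSign (sN N u) = ∏ e ∈ walls N, if OnRay u e then -1 else 1 := by
  -- induction on the distance to the right end of `N`
  have key : ∀ (n : ℕ) (u : ℤ × ℤ), (∀ z ∈ N, z.1 < u.1 + n) →
      spinSign (sN N u) = ∏ e ∈ walls N, if OnRay u e then -1 else 1 := by
    intro n
    induction n with
    | zero =>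
      intro u hu
      rw [spinSign_sN, if_neg (fun h => by have := hu u h; simp at this)]
      symm
      refine Finset.prod_eq_one fun e he => ?_
      rw [if_neg]
      rintro ⟨h1, h2, h3⟩
      rw [mem_walls, uv_eq, h1] at he
      apply he
      constructor
      · intro h
        have := hu _ h
        simp at this; omega
      · intro h
        have := hu _ h
        simp [unitVec] at this; omega
    | succ n ih =>
      intro u hu
      have h1 := ih (u + unitVec 0) (fun z hz => by
        have := hu z hz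
        simp only [unitVec, if_true, Prod.fst_add]
        push_cast at this
        omega)
      have h2 : ∀ e : (ℤ × ℤ) × Fin 2, (if OnRay u e then (-1 : ℝ) else 1) =
          (if e = (u, 0) then -1 else 1) * (if OnRay (u + unitVec 0) e then -1 else 1) := by
        rintro ⟨⟨i, j⟩, k⟩
        obtain ⟨a, b⟩ := u
        simp only [OnRay, unitVec, if_true, Prod.mk_add_mk, add_zero, Prod.mk.injEq]
        by_cases hk : k = 0
        · by_cases hj : j = b
          · by_cases hi : i = a
            · subst hi; simp [hk, hj]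
            · by_cases hle : a ≤ i
              · have : a + 1 ≤ i := by omega
                simp [hk, hj, hi, hle, this]
              · have : ¬ a + 1 ≤ i := by omega
                simp [hk, hj, hi, hle, this]
          · simp [hk, hj]
        · simp [hk]
      rw [Finset.prod_congr rfl fun e _ => h2 e, Finset.prod_mul_distrib, ← h1,
        Finset.prod_ite_eq' (walls N) (u, (0 : Fin 2)) (fun _ => (-1 : ℝ)), ← epsE_sN]
      unfold epsE
      rw [mul_assoc, spinSign_sq, mul_one]
  obtain ⟨R, hR⟩ : ∃ n : ℕ, ∀ z ∈ N, z.1 < u.1 + n := by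
    refine ⟨(∑ z ∈ N, |z.1 - u.1| + 1).toNat, fun z hz => ?_⟩
    have h1 : |z.1 - u.1| ≤ ∑ z ∈ N, |z.1 - u.1| :=
      Finset.single_le_sum (f := fun z : ℤ × ℤ => |z.1 - u.1|) (fun _ _ => abs_nonneg _) hz
    have h2 := le_abs_self (z.1 - u.1)
    omega
  exact key R u hR

/-- spin insertions = signs of the weights -/
theorem plus_ray {n : ℕ} (u : Fin n → ℤ × ℤ) (N : Finset (ℤ × ℤ)) (y : (ℤ × ℤ) × Fin 2 → ℝ) :
    (∏ i, spinSign (sN N (u i))) * ∏ e ∈ walls N, y e =
      ∏ e ∈ walls N, (y e * ∏ i, if OnRay (u i) e then -1 else 1) := by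
  rw [Finset.prod_congr rfl fun i _ => spin_ray N (u i), Finset.prod_comm, ← Finset.prod_mul_distrib]
  refine Finset.prod_congr rfl fun e _ => ?_
  ring

/-- **plus boundary conditions, spins and bond functions in terms of Grassmann expectations** (J1) -/
theorem plus_J1 (T : Finset (ℤ × ℤ)) (hT : NoHole T) {n : ℕ} (u : Fin n → ℤ × ℤ)
    (y : (ℤ × ℤ) × Fin 2 → ℝ) :
    ∑ N ∈ T.powerset, (∏ i, spinSign (sN N (u i))) * ∏ e ∈ walls N, y e =
      E0 ((∏ e ∈ touch T, (1 + (y e * ∏ i, if OnRay (u i) e then -1 else 1) • bb e) :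
        Gr1x606.Ge (Gr1x606.VI (HE ℤ))) : Gr0x606.Gr (Gr1x606.VI (HE ℤ))) := by
  rw [← J1 T hT]
  exact Finset.sum_congr rfl fun N _ => plus_ray u N y

end Crest.Agent.R165.KwLox408
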