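import Crest.Agent.R165.Kw3_871
import Crest.Agent.R165.KwLo_408

/-!
# Row 165 (S0250), block J: Kramers-Wannier, part 4 (helper871): field form and ratios

* `lf h` : the field of the corner `h` (`S - E - N - W`, `S + E - N - W`, `S + E + N - W`,
  `S + E + N + W`)
* `E0_lf` : `E0 (cP h a) = E0 (φ(lf h) a)`, and the same for products of corners at distinct faces
* `KW_num` : `E0 (∏ φ(lf c) · ∏_{e ∈ B} (1 + s_e x_e b_e)) = ε ∑_{P ⊆ B, Ok cs P} ∏_{e ∈ P} x_e`
* `KW_den` : `E0 (∏_{e ∈ B} (1 + s_e x_e b_e)) = ∑_{N ⊆ T} ∏_{c ∈ cs} σ_{cv c}(N) ∏_{walls N} x_e`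
-/

set_option autoImplicit false
set_option linter.unusedSimpArgs false
set_option linter.unusedSectionVars false

noncomputable section

namespace Crest.Agent.R165.Kw4x871

open Crest.Agent.R165.Gr0x606 Crest.Agent.R165.Gr1x606 Crest.Agent.R165.J1ax606
  Crest.Agent.R165.J1bx606 Crest.Agent.R165.J1cx606 Crest.Agent.R165.Kw1x871
  Crest.Agent.R165.Kw2x871 Crest.Agent.R165.Kw3x871

section gen
variable {G : Type*} [DecidableEq G]

/-- coefficients of the corner fields -/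
def lk (i j : Fin 4) : ℝ := if j ≤ i then 1 else if i = 0 ∧ j = 0 then 1 else -1

/-- the field of a corner -/
def lf (h : HE G) : VI (HE G) := ∑ j : Fin 4, (if j ≤ h.2 then (1 : ℝ) else -1) • Finsupp.single (h.1, j) (1 : ℝ)

theorem fi_lf (h : HE G) : fi (lf h) = ∑ j : Fin 4, (if j ≤ h.2 then (1 : ℝ) else -1) • ph (h.1, j) := by
  unfold lf
  rw [fi, map_sum]
  refine Finset.sum_congr rfl fun j _ => ?_
  rw [map_smul]
  rfl

/-- field form of the corner operator -/
theorem E0_cP_lf (h : HE G) (a : Gr (VI (HE G))) : E0 (cP h a) = E0 (fi (lf h) * a) := by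
  obtain ⟨f, i⟩ := h
  rw [fi_lf, Finset.sum_mul, map_sum, cP_apply, map_add]
  simp only [smul_mul_assoc, map_smul, smul_eq_mul, E0_ph_mul, Fin.sum_univ_four]
  fin_cases i <;> simp [k4] <;> ring

theorem cP_fi_lf {h k : HE G} (hk : k.1 ≠ h.1) (a : Gr (VI (HE G))) :
    cP k (fi (lf h) * a) = -(fi (lf h) * cP k a) := by
  have hne : ∀ j : Fin 4, k ≠ (h.1, j) := fun j hc => hk (by rw [hc])
  have hj : ∀ j : Fin 4, cP k (ph (h.1, j) * a) = -(ph (h.1, j) * cP k a) := by
    intro j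
    rw [cP_apply, cP_apply, de_ph_mul_ne (hne j), ph_anti_mul, mul_add]
    abel
  rw [fi_lf, Finset.sum_mul, Finset.sum_mul, map_sum, ← Finset.sum_neg_distrib]
  refine Finset.sum_congr rfl fun j _ => ?_
  rw [smul_mul_assoc, map_smul, hj, smul_mul_assoc, smul_neg]

/-- sign of the length -/
def sgl {α : Type*} (cs : List α) : ℝ := (-1) ^ cs.length

theorem cPs_fi_lf {h : HE G} (cs : List (HE G)) (hcs : ∀ k ∈ cs, k.1 ≠ h.1) (a : Gr (VI (HE G))) :
    cPs cs (fi (lf h) * a) = sgl cs • (fi (lf h) * cPs cs a) := by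
  induction cs with
  | nil => simp [sgl]
  | cons k cs ih =>
    rw [cPs_cons, ih (fun k' hk' => hcs k' (List.mem_cons_of_mem _ hk')), map_smul,
      cP_fi_lf (hcs k List.mem_cons_self), cPs_cons]
    simp [sgl, pow_succ]

/-- product of the corner fields -/
def lfs (cs : List (HE G)) : Gr (VI (HE G)) := (cs.map fun h => fi (lf h)).prod

@[simp] theorem lfs_nil : lfs ([] : List (HE G)) = 1 := rfl
@[simp] theorem lfs_cons (h : HE G) (cs : List (HE G)) : lfs (h :: cs) = fi (lf h) * lfs cs := by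
  simp [lfs]

theorem lfs_mul_fi (cs : List (HE G)) (x : VI (HE G)) :
    lfs cs * fi x = sgl cs • (fi x * lfs cs) := by
  induction cs with
  | nil => simp [sgl]
  | cons k cs ih =>
    rw [lfs_cons, mul_assoc, ih, mul_smul_comm, ← mul_assoc, fi_anti (lf k) x, neg_mul, mul_assoc]
    simp [sgl, pow_succ]

theorem sgl_sq {α : Type*} (cs : List α) : sgl cs * sgl cs = 1 := by
  unfold sgl; rw [← mul_pow]; norm_num

/-- **field form** for corners at distinct faces -/
theorem E0_lf (cs : List (HE G)) (hcs : (cs.map Prod.fst).Nodup) (a : Gr (VI (HE G))) :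
    E0 (cPs cs a) = E0 (lfs cs * a) := by
  induction cs generalizing a with
  | nil => simp
  | cons h cs ih =>
    rw [List.map_cons, List.nodup_cons] at hcs
    have hne : ∀ k ∈ cs, k.1 ≠ h.1 := by
      intro k hk hc
      exact hcs.1 (List.mem_map.2 ⟨k, hk, hc⟩)
    have h1 : fi (lf h) * cPs cs a = sgl cs • cPs cs (fi (lf h) * a) := by
      rw [cPs_fi_lf cs hne, smul_smul, sgl_sq, one_smul]
    rw [cPs_cons, E0_cP_lf, h1, map_smul, ih hcs.2, ← mul_assoc, lfs_mul_fi, smul_mul_assoc,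
      map_smul, smul_smul, sgl_sq, one_smul, lfs_cons]

end gen

/-! ### numerator and denominator -/

open Classical in
/-- **numerator** -/
theorem KW_num (cs : List (HE ℤ)) (hcs : (cs.map Prod.fst).Nodup) {s : EG ℤ → ℝ} (hs : Sg s)
    (hf : ∀ v, flux s v = csgs v cs) :
    ∃ ε : ℝ, |ε| = 1 ∧ ∀ (B : Finset (EG ℤ)) (x : EG ℤ → ℝ),
      E0 (lfs cs * ((∏ e ∈ B, (1 + (s e * x e) • bb e) : Ge (VI (HE ℤ))) : Gr (VI (HE ℤ)))) =
        ε * ∑ P ∈ B.powerset.filter (Ok cs), ∏ e ∈ P, x e := by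
  obtain ⟨ε, h1, h2⟩ := KW_sum cs hs hf
  exact ⟨ε, h1, fun B x => by rw [← E0_lf cs hcs]; exact h2 B x⟩

/-- spin of the vertex `v` in the configuration with minus spins `N` -/
def spn (N : Finset (ℤ × ℤ)) (v : ℤ × ℤ) : ℝ := if v ∈ N then -1 else 1

/-- product of the spins at the corners -/
def spns (N : Finset (ℤ × ℤ)) (cs : List (HE ℤ)) : ℝ := (cs.map fun h => spn N (cv h)).prod

@[simp] theorem spns_nil (N : Finset (ℤ × ℤ)) : spns N [] = 1 := rfl
@[simp] theorem spns_cons (N : Finset (ℤ × ℤ)) (h : HE ℤ) (cs : List (HE ℤ)) :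
    spns N (h :: cs) = spn N (cv h) * spns N cs := by simp [spns]

theorem prod_csg (N : Finset (ℤ × ℤ)) (h : HE ℤ) : ∏ v ∈ N, csg v h = spn N (cv h) := by
  unfold csg spn
  rw [Finset.prod_ite_eq N (cv h) (fun _ => (-1 : ℝ))]

theorem prod_csgs (N : Finset (ℤ × ℤ)) (cs : List (HE ℤ)) : ∏ v ∈ N, csgs v cs = spns N cs := by
  induction cs with
  | nil => simp
  | cons h cs ih =>
    rw [spns_cons, ← ih, ← prod_csg, ← Finset.prod_mul_distrib]
    exact Finset.prod_congr rfl fun v _ => csgs_cons v h cs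

/-- `T` is exactly filled by the even subsets of `B` -/
def Fills (B : Finset (EG ℤ)) (T : Finset (ℤ × ℤ)) : Prop := ∀ N : Finset (ℤ × ℤ), walls N ⊆ B ↔ N ⊆ T

theorem fills_touch {T : Finset (ℤ × ℤ)} (hT : NoHole T) : Fills (touch T) T :=
  fun N => ⟨hT N, walls_subset_touch⟩

theorem prod_walls_s {cs : List (HE ℤ)} {s : EG ℤ → ℝ} (hs : Sg s)
    (hf : ∀ v, flux s v = csgs v cs) (N : Finset (ℤ × ℤ)) : ∏ e ∈ walls N, s e = spns N cs := by
  have h := prod_walls hs (∅ : Finset (EG ℤ)) N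
  rw [Finset.prod_empty, mul_one] at h
  have h2 : symmDiff (∅ : Finset (EG ℤ)) (walls N) = walls N := by
    ext x; simp [Finset.mem_symmDiff]
  rw [h2] at h
  rw [h, ← prod_csgs]
  exact Finset.prod_congr rfl fun v _ => hf v

/-- sums over even subsets of `B` -/
theorem sum_even {B : Finset (EG ℤ)} {T : Finset (ℤ × ℤ)} (hB : Fills B T)
    (g : Finset (EG ℤ) → ℝ) :
    ∑ S ∈ B.powerset, g S * E0 (mon S : Gr (VI (HE ℤ))) = ∑ N ∈ T.powerset, g (walls N) := by
  have h1 : ∑ S ∈ B.powerset, g S * E0 (mon S : Gr (VI (HE ℤ))) =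
      ∑ S ∈ T.powerset.image walls, g S * E0 (mon S : Gr (VI (HE ℤ))) := by
    symm
    apply Finset.sum_subset
    · intro S hS
      obtain ⟨N, hN, rfl⟩ := Finset.mem_image.1 hS
      rw [Finset.mem_powerset] at hN ⊢
      exact (hB N).2 hN
    · intro S hS hS'
      rw [Finset.mem_powerset] at hS
      have : ∃ f, ¬EvAt S f := by
        by_contra hc
        push Not at hc
        obtain ⟨N, hN⟩ := exists_walls S hc
        apply hS'
        rw [Finset.mem_image]
        exact ⟨N, Finset.mem_powerset.2 ((hB N).1 (hN ▸ hS)), hN⟩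
      obtain ⟨f, hf⟩ := this
      rw [E0_mon_odd S f hf, mul_zero]
  rw [h1, Finset.sum_image fun N _ N' _ h => walls_inj h]
  refine Finset.sum_congr rfl fun N _ => ?_
  rw [E0_mon_walls, mul_one]

/-- J1 for general edge sets -/
theorem J1_fills {B : Finset (EG ℤ)} {T : Finset (ℤ × ℤ)} (hB : Fills B T) (y : EG ℤ → ℝ) :
    E0 ((∏ e ∈ B, (1 + y e • bb e) : Ge (VI (HE ℤ))) : Gr (VI (HE ℤ))) =
      ∑ N ∈ T.powerset, ∏ e ∈ walls N, y e := by
  rw [E0_prod, sum_even hB fun S => ∏ e ∈ S, y e]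

/-- **denominator** -/
theorem KW_den {cs : List (HE ℤ)} {s : EG ℤ → ℝ} (hs : Sg s)
    (hf : ∀ v, flux s v = csgs v cs) {B : Finset (EG ℤ)} {T : Finset (ℤ × ℤ)} (hB : Fills B T)
    (x : EG ℤ → ℝ) :
    E0 ((∏ e ∈ B, (1 + (s e * x e) • bb e) : Ge (VI (HE ℤ))) : Gr (VI (HE ℤ))) =
      ∑ N ∈ T.powerset, spns N cs * ∏ e ∈ walls N, x e := by
  rw [J1_fills hB]
  refine Finset.sum_congr rfl fun N _ => ?_
  rw [Finset.prod_mul_distrib, prod_walls_s hs hf]

open Classical in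
/-- even subsets of `B`, without signs -/
theorem sum_ok_nil {B : Finset (EG ℤ)} {T : Finset (ℤ × ℤ)} (hB : Fills B T)
    (x : EG ℤ → ℝ) :
    ∑ P ∈ B.powerset.filter (Ok []), ∏ e ∈ P, x e = ∑ N ∈ T.powerset, ∏ e ∈ walls N, x e := by
  have h : B.powerset.filter (Ok []) = T.powerset.image walls := by
    ext S
    rw [Finset.mem_filter, Finset.mem_image, Finset.mem_powerset]
    constructor
    · rintro ⟨h1, h2⟩
      obtain ⟨N, hN⟩ := exists_walls S h2
      exact ⟨N, Finset.mem_powerset.2 ((hB N).1 (hN ▸ h1)), hN⟩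
    · rintro ⟨N, hN, rfl⟩
      exact ⟨(hB N).2 (Finset.mem_powerset.1 hN), fun f => KwLox408.evAt_walls N f⟩
  rw [h, Finset.sum_image fun N _ N' _ h => walls_inj h]

end Crest.Agent.R165.Kw4x871
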