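import Crest.Agent.R165.Kw4_871

/-!
# Row 165 (S0250), block J: Kramers-Wannier, part 5 (helper871): spin form

The free Ising model lives on the nodes (faces of the half-edge system), the plus model on the
vertices; `dE (n, j)` is the edge of the vertex lattice dual to the node edge `{n, n + e_j}`.

* `KW` : `⟨σ_X⟩^free_{B} = |E_S [∏ φ(lf c)]| · |⟨∏_c σ_{cv c}⟩^+_T|` for every covariance `S` which
  represents `∏_{e ∈ B} (1 + s_e xc b_e)`
* `KW_free` : the free model on the node set `T'` (all inner edges)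
* `KW_touch` : the edges touching `T` (N4 of note 862)
* `flux_ray` : the cuts along rays to the right have the right flux
-/

set_option autoImplicit false
set_option linter.unusedSimpArgs false
set_option linter.unusedSectionVars false

noncomputable section

open Crest.ProbabilityR.IsingModel

namespace Crest.Agent.R165.Kw5x871

open Crest.Agent.R165.Gr0x606 Crest.Agent.R165.Gr1x606 Crest.Agent.R165.J1ax606
  Crest.Agent.R165.J1bx606 Crest.Agent.R165.J1cx606 Crest.Agent.R165.Kw1x871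
  Crest.Agent.R165.Kw2x871 Crest.Agent.R165.Kw3x871 Crest.Agent.R165.Kw4x871
open KwHix408 KwLox408 J4Defx653

/-! ### node edges and their duals -/

/-- dual of the node edge `{n, n + e_j}` -/
def dE (e : EG ℤ) : EG ℤ := if e.2 = 0 then (e.1 + (1, 0), 1) else (e.1 + (0, 1), 0)

/-- inverse of `dE` -/
def dI (e : EG ℤ) : EG ℤ := if e.2 = 0 then (e.1 - (0, 1), 1) else (e.1 - (1, 0), 0)

@[simp] theorem dE_dI (e : EG ℤ) : dE (dI e) = e := by
  obtain ⟨z, j⟩ := e
  fin_cases j <;> simp [dE, dI]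

@[simp] theorem dI_dE (e : EG ℤ) : dI (dE e) = e := by
  obtain ⟨z, j⟩ := e
  fin_cases j <;> simp [dE, dI]

theorem dE_inj : Function.Injective dE := fun a b h => by rw [← dI_dE a, h, dI_dE]
theorem dI_inj : Function.Injective dI := fun a b h => by rw [← dE_dI a, h, dE_dI]

theorem mem_image_dE {P : Finset (EG ℤ)} {e : EG ℤ} : e ∈ P.image dE ↔ dI e ∈ P := by
  rw [Finset.mem_image]
  constructor
  · rintro ⟨a, ha, rfl⟩; rwa [dI_dE]
  · intro h; exact ⟨_, h, dE_dI e⟩

theorem mem_image_dI {P : Finset (EG ℤ)} {e : EG ℤ} : e ∈ P.image dI ↔ dE e ∈ P := by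
  rw [Finset.mem_image]
  constructor
  · rintro ⟨a, ha, rfl⟩; rwa [dE_dI]
  · intro h; exact ⟨_, h, dI_dE e⟩

/-- degrees -/
theorem deg_cast (P : Finset (EG ℤ)) (v : ℤ × ℤ) : ((deg P v : ℕ) : ZMod 2) = dgE (P.image dE) v := by
  have hi : ∀ e, ind (P.image dE) e = ind P (dI e) := by
    intro e
    unfold ind
    simp only [mem_image_dE]
  have h0 : dgE (P.image dE) v = ind P (v - (0, 1), 1) + ind P (v, 0) +
      (ind P (v, 1) + ind P (v - (1, 0), 0)) := by
    unfold dgE
    simp only [hi]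
    simp [dI]
  have h1 : ∀ w : EG ℤ, ind P w = ∑ e ∈ P, if e = w then (1 : ZMod 2) else 0 := by
    intro w
    rw [Finset.sum_ite_eq' P w (fun _ => (1 : ZMod 2))]
    rfl
  rw [h0, h1, h1, h1, h1]
  unfold deg
  rw [Nat.cast_sum, ← Finset.sum_add_distrib, ← Finset.sum_add_distrib, ← Finset.sum_add_distrib]
  refine Finset.sum_congr rfl fun e _ => ?_
  obtain ⟨⟨a, b⟩, j⟩ := e
  obtain ⟨c, d⟩ := v
  push_cast
  fin_cases j
  · simp only [Fin.zero_eta, Fin.isValue, unitVec, Prod.mk.injEq, Prod.mk_add_mk, Prod.mk_sub_mk,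
      add_zero, sub_zero, and_true, and_false, zero_ne_one, one_ne_zero, if_false, if_true, zero_add,
      eq_sub_iff_add_eq]
  · simp only [Fin.mk_one, Fin.isValue, unitVec, Prod.mk.injEq, Prod.mk_add_mk, Prod.mk_sub_mk,
      add_zero, sub_zero, and_true, and_false, zero_ne_one, one_ne_zero, if_false, if_true, zero_add,
      eq_sub_iff_add_eq]
    ring

theorem cnt_eq (cs : List (HE ℤ)) (hcs : (cs.map Prod.fst).Nodup) (f : ℤ × ℤ) :
    cnt cs f = if f ∈ (cs.map Prod.fst).toFinset then 1 else 0 := by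
  induction cs with
  | nil => simp
  | cons h cs ih =>
    rw [List.map_cons, List.nodup_cons] at hcs
    rw [cnt_cons, ih hcs.2, List.map_cons, List.toFinset_cons]
    by_cases hf : h.1 = f
    · subst hf
      rw [if_pos rfl, if_neg (by rw [List.mem_toFinset]; exact hcs.1), if_pos (by simp), add_zero]
    · rw [if_neg hf, zero_add]
      have : f ∈ insert h.1 (cs.map Prod.fst).toFinset ↔ f ∈ (cs.map Prod.fst).toFinset := by
        rw [Finset.mem_insert]
        constructor
        · rintro (h1 | h1)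
          · exact absurd h1.symm hf
          · exact h1
        · exact Or.inr
      simp only [this]

/-- the parity condition on nodes -/
theorem ok_iff (T' : Finset (ℤ × ℤ)) (cs : List (HE ℤ)) (hcs : (cs.map Prod.fst).Nodup)
    (hX : ∀ c ∈ cs, c.1 ∈ T') (P : Finset (EG ℤ)) (hP : ∀ e ∈ P, e.1 ∈ T' ∧ e.1 + unitVec e.2 ∈ T') :
    Ok cs (P.image dE) ↔ Bdy T' (cs.map Prod.fst).toFinset P := by
  have hodd : ∀ v, Odd (deg P v) ↔ dgE (P.image dE) v = 1 := by
    intro v
    rw [← deg_cast, ← Nat.not_even_iff_odd, ← ZMod.natCast_eq_zero_iff_even]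
    generalize ((deg P v : ℕ) : ZMod 2) = z
    revert z; decide
  have h01 : ∀ z w : ZMod 2, (z = 1 ↔ w = 1) ↔ z = w := by decide
  constructor
  · intro h v _
    rw [hodd, h v, cnt_eq cs hcs]
    split_ifs with h1 <;> simp [h1]
  · intro h v
    by_cases hv : v ∈ T'
    · have h1 := h v hv
      rw [hodd] at h1
      rw [← h01, h1, cnt_eq cs hcs]
      split_ifs with h1 <;> simp [h1]
    · have h1 : deg P v = 0 := by
        unfold deg
        refine Finset.sum_eq_zero fun e he => ?_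
        have n1 : ¬e.1 = v := fun hc => hv (hc ▸ (hP e he).1)
        have n2 : ¬e.1 + unitVec e.2 = v := fun hc => hv (hc ▸ (hP e he).2)
        rw [if_neg n1, if_neg n2, add_zero]
      rw [← deg_cast, h1, cnt_eq cs hcs, if_neg]
      · simp
      · rw [List.mem_toFinset, List.mem_map]
        rintro ⟨c, hc, rfl⟩
        exact hv (hX c hc)

/-- free couplings on the edge set `B` -/
def wB (B : Finset (EG ℤ)) (x : EG ℤ → ℝ) (e : EG ℤ) : ℝ := if dE e ∈ B then x (dE e) else 0

open Classical in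
theorem sum_nodes (T' : Finset (ℤ × ℤ)) (cs : List (HE ℤ)) (hcs : (cs.map Prod.fst).Nodup)
    (hX : ∀ c ∈ cs, c.1 ∈ T') (B : Finset (EG ℤ)) (hB : ∀ e, dE e ∈ B → e ∈ EE T' .free)
    (x : EG ℤ → ℝ) :
    ∑ P ∈ (EE T' .free).powerset.filter (Bdy T' (cs.map Prod.fst).toFinset), ∏ e ∈ P, wB B x e =
      ∑ P ∈ B.powerset.filter (Ok cs), ∏ e ∈ P, x e := by
  have hsub : ∀ P ∈ (EE T' .free).powerset.filter (Bdy T' (cs.map Prod.fst).toFinset),
      ¬(P.image dE ⊆ B) → ∏ e ∈ P, wB B x e = 0 := by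
    intro P _ h
    rw [Finset.not_subset] at h
    obtain ⟨e, he, he'⟩ := h
    rw [mem_image_dE] at he
    refine Finset.prod_eq_zero he ?_
    unfold wB
    rw [dE_dI, if_neg he']
  rw [← Finset.sum_filter_of_ne (p := fun P => P.image dE ⊆ B)
    (fun P hP h => by by_contra hc; exact h (hsub P hP hc))]
  refine Finset.sum_bij' (fun P _ => P.image dE) (fun P _ => P.image dI) ?_ ?_ ?_ ?_ ?_
  · intro P hP
    rw [Finset.mem_filter, Finset.mem_filter, Finset.mem_powerset] at hP
    rw [Finset.mem_filter, Finset.mem_powerset]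
    refine ⟨hP.2, (ok_iff T' cs hcs hX P fun e he => ?_).2 hP.1.2⟩
    exact (mem_EE.1 (hP.1.1 he)).1 rfl
  · intro P hP
    rw [Finset.mem_filter, Finset.mem_powerset] at hP
    have hEE : ∀ e ∈ P.image dI, e ∈ EE T' .free := by
      intro e he
      rw [mem_image_dI] at he
      exact hB e (hP.1 he)
    have him : (P.image dI).image dE = P := by
      ext e; rw [mem_image_dE, mem_image_dI, dE_dI]
    rw [Finset.mem_filter, Finset.mem_filter, Finset.mem_powerset]
    refine ⟨⟨hEE, (ok_iff T' cs hcs hX _ fun e he => ?_).1 (by rw [him]; exact hP.2)⟩, by rw [him]; exact hP.1⟩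
    exact (mem_EE.1 (hEE e he)).1 rfl
  · intro P _
    ext e; rw [mem_image_dI, mem_image_dE, dI_dE]
  · intro P _
    ext e; rw [mem_image_dE, mem_image_dI, dE_dI]
  · intro P hP
    rw [Finset.mem_filter] at hP
    rw [Finset.prod_image fun a _ b _ h => dE_inj h]
    refine Finset.prod_congr rfl fun e he => ?_
    unfold wB
    rw [if_pos (hP.2 (Finset.mem_image_of_mem _ he))]

/-! ### the theorem -/

/-- `S` represents the Gaussian state with density `∏_{e ∈ B} (1 + y_e b_e)` -/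
def Rep (B : Finset (EG ℤ)) (y : EG ℤ → ℝ) (S : Cov (VI (HE ℤ))) : Prop :=
  ∀ F : Gr (VI (HE ℤ)),
    E0 (F * ((∏ e ∈ B, (1 + y e • bb e) : Ge (VI (HE ℤ))) : Gr (VI (HE ℤ)))) =
      E0 ((∏ e ∈ B, (1 + y e • bb e) : Ge (VI (HE ℤ))) : Gr (VI (HE ℤ))) * EE S F

theorem spin_list (N : Finset (ℤ × ℤ)) (cs : List (HE ℤ)) :
    (cs.map fun h => spinSign (sN N (cv h))).prod = spns N cs := by
  unfold spns spn
  congr 1
  refine List.map_congr_left fun h _ => ?_
  rw [spinSign_sN]

/-- **Kramers-Wannier for Pfaffians of corner fields**, general weights -/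
theorem KW_weights {cs : List (HE ℤ)} (hcs : (cs.map Prod.fst).Nodup) {s : EG ℤ → ℝ} (hs : Sg s)
    (hf : ∀ v, flux s v = csgs v cs) {B : Finset (EG ℤ)} {T : Finset (ℤ × ℤ)} (hB : Fills B T)
    {T' : Finset (ℤ × ℤ)} (hX : ∀ c ∈ cs, c.1 ∈ T') (hBT : ∀ e, dE e ∈ B → e ∈ EE T' .free)
    (x : EG ℤ → ℝ) (S : Cov (VI (HE ℤ))) (hS : Rep B (fun e => s e * x e) S) :
    |∑ σ : T' → Bool, sB (extendConfig T' .free σ) (cs.map Prod.fst).toFinset *
        ∏ e ∈ EE T' .free, (1 + wB B x e * epsE (extendConfig T' .free σ) e)| =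
      2 ^ T'.card * |EE S (lfs cs)| *
        |∑ N ∈ T.powerset, (cs.map fun h => spinSign (sN N (cv h))).prod * ∏ e ∈ walls N, x e| := by
  classical
  have hXT : (cs.map Prod.fst).toFinset ⊆ T' := by
    intro v hv
    rw [List.mem_toFinset, List.mem_map] at hv
    obtain ⟨c, hc, rfl⟩ := hv
    exact hX c hc
  rw [hiT T' (wB B x) _ hXT, sum_nodes T' cs hcs hX B hBT x, abs_mul,
    abs_of_pos (by positivity : (0 : ℝ) < 2 ^ T'.card), mul_assoc]
  congr 1
  obtain ⟨ε, hε, hn⟩ := KW_num cs hcs hs hf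
  have h1 := hn B x
  have h2 := KW_den hs hf hB x
  have h3 := hS (lfs cs)
  rw [h1, h2] at h3
  have h4 := congrArg abs h3
  rw [abs_mul, hε, one_mul, abs_mul] at h4
  simp only [spin_list]
  rw [h4, mul_comm]

open Classical in
theorem KW_sums {cs : List (HE ℤ)} (hcs : (cs.map Prod.fst).Nodup) {s : EG ℤ → ℝ} (hs : Sg s)
    (hf : ∀ v, flux s v = csgs v cs) {B : Finset (EG ℤ)} {T : Finset (ℤ × ℤ)} (hB : Fills B T)
    (x : EG ℤ → ℝ) (S : Cov (VI (HE ℤ))) (hS : Rep B (fun e => s e * x e) S) :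
    |∑ P ∈ B.powerset.filter (Ok cs), ∏ e ∈ P, x e| =
      |EE S (lfs cs)| * |∑ N ∈ T.powerset, spns N cs * ∏ e ∈ walls N, x e| := by
  obtain ⟨ε, hε, hn⟩ := KW_num cs hcs hs hf
  have h1 := hn B x
  have h2 := KW_den hs hf hB x
  have h3 := hS (lfs cs)
  rw [h1, h2] at h3
  have h4 := congrArg abs h3
  rw [abs_mul, hε, one_mul, abs_mul] at h4
  rw [h4, mul_comm]

/-- **Kramers-Wannier for Pfaffians of corner fields** at the critical point -/
theorem KW {cs : List (HE ℤ)} (hcs : (cs.map Prod.fst).Nodup) {s : EG ℤ → ℝ} (hs : Sg s)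
    (hf : ∀ v, flux s v = csgs v cs) {B : Finset (EG ℤ)} {T : Finset (ℤ × ℤ)} (hB : Fills B T)
    {T' : Finset (ℤ × ℤ)} (hX : ∀ c ∈ cs, c.1 ∈ T') (hBT : ∀ e, dE e ∈ B → e ∈ EE T' .free)
    (S : Cov (VI (HE ℤ))) (hS : Rep B (fun e => s e * xc) S) :
    |gE T' .free (wB B fun _ => xc) (fun σ => sB σ (cs.map Prod.fst).toFinset)| =
      |EE S (lfs cs)| * |gE T .plus (fun _ => xc) (fun σ => (cs.map fun h => spinSign (σ (cv h))).prod)| := by
  classical
  have hXT : (cs.map Prod.fst).toFinset ⊆ T' := by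
    intro v hv
    rw [List.mem_toFinset, List.mem_map] at hv
    obtain ⟨c, hc, rfl⟩ := hv
    exact hX c hc
  have h0 := sum_nodes T' [] (by simp) (by simp) B hBT (fun _ => xc)
  rw [sum_ok_nil hB] at h0
  simp only [List.map_nil, List.toFinset_nil] at h0
  rw [gE_free T' _ _ hXT, sum_nodes T' cs hcs hX B hBT, h0, gE_plus]
  have h1 := KW_sums hcs hs hf hB (fun _ => xc) S hS
  simp only [spin_list]
  simp only [Finset.prod_const] at h1 ⊢
  rw [abs_div, abs_div, h1, mul_div_assoc]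

/-! ### the two standard situations -/

/-- the vertices all of whose four nodes are in `T'` -/
def starT (T' : Finset (ℤ × ℤ)) : Finset (ℤ × ℤ) :=
  T'.filter fun v => v - (1, 0) ∈ T' ∧ v - (0, 1) ∈ T' ∧ v - (1, 1) ∈ T'

/-- no holes, for a set of nodes -/
def NHF (T' : Finset (ℤ × ℤ)) : Prop :=
  ∀ N : Finset (ℤ × ℤ), walls N ⊆ (EE T' .free).image dE → N ⊆ starT T'

theorem fills_free {T' : Finset (ℤ × ℤ)} (h : NHF T') : Fills ((EE T' .free).image dE) (starT T') := by
  intro N
  refine ⟨h N, fun hN => ?_⟩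
  intro e he
  rw [mem_image_dE, mem_EE]
  have he' := walls_subset_touch hN he
  rw [mem_touch] at he'
  have key : dI e = dI e → (dI e).1 ∈ T' ∧ (dI e).1 + unitVec (dI e).2 ∈ T' := by
    intro _
    obtain ⟨⟨a, b⟩, j⟩ := e
    fin_cases j
    · simp only [starT, Finset.mem_filter, uv, unitVec, dI, Fin.zero_eta, Fin.isValue, if_true,
        Prod.mk_add_mk, Prod.mk_sub_mk, sub_zero, add_zero, add_sub_cancel_right, one_ne_zero,
        if_false, sub_add_cancel] at he' ⊢
      rcases he' with h1 | h1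
      · exact ⟨h1.2.2.1, h1.1⟩
      · exact ⟨h1.2.2.2, h1.2.1⟩
    · simp only [starT, Finset.mem_filter, uv, unitVec, dI, Fin.mk_one, Fin.isValue, if_true,
        Prod.mk_add_mk, Prod.mk_sub_mk, sub_zero, add_zero, add_sub_cancel_right, one_ne_zero,
        if_false, sub_add_cancel] at he' ⊢
      rcases he' with h1 | h1
      · exact ⟨h1.2.1, h1.1⟩
      · exact ⟨h1.2.2.2, h1.2.2.1⟩
  exact ⟨fun _ => key rfl, Or.inl (key rfl).1⟩

theorem gE_congr {T : Finset (ℤ × ℤ)} {b : BoundaryCondition} {w w' : (ℤ × ℤ) × Fin 2 → ℝ}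
    (h : ∀ e ∈ EE T b, w e = w' e) (f : (ℤ × ℤ → Bool) → ℝ) : gE T b w f = gE T b w' f := by
  unfold gE
  have : ∀ σ : T → Bool, ∏ e ∈ EE T b, (1 + w e * epsE (extendConfig T b σ) e) =
      ∏ e ∈ EE T b, (1 + w' e * epsE (extendConfig T b σ) e) := fun σ =>
    Finset.prod_congr rfl fun e he => by rw [h e he]
  simp only [this]

/-- **Kramers-Wannier, free model on the nodes `T'`** -/
theorem KW_free {cs : List (HE ℤ)} (hcs : (cs.map Prod.fst).Nodup) {s : EG ℤ → ℝ} (hs : Sg s)
    (hf : ∀ v, flux s v = csgs v cs) {T' : Finset (ℤ × ℤ)} (hT : NHF T') (hX : ∀ c ∈ cs, c.1 ∈ T')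
    (S : Cov (VI (HE ℤ))) (hS : Rep ((EE T' .free).image dE) (fun e => s e * xc) S) :
    |gE T' .free (fun _ => xc) (fun σ => sB σ (cs.map Prod.fst).toFinset)| =
      |EE S (lfs cs)| * |gE (starT T') .plus (fun _ => xc)
        (fun σ => (cs.map fun h => spinSign (σ (cv h))).prod)| := by
  rw [← KW hcs hs hf (fills_free hT) hX (fun e he => by rwa [mem_image_dE, dI_dE] at he) S hS]
  congr 1
  refine gE_congr (fun e he => ?_) _
  unfold wB
  rw [if_pos (Finset.mem_image_of_mem _ he)]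

/-- **Kramers-Wannier, plus model on `T`** (N4): the free model has the edges dual to the edges
touching `T` -/
theorem KW_touch {cs : List (HE ℤ)} (hcs : (cs.map Prod.fst).Nodup) {s : EG ℤ → ℝ} (hs : Sg s)
    (hf : ∀ v, flux s v = csgs v cs) {T T' : Finset (ℤ × ℤ)} (hT : NoHole T)
    (hX : ∀ c ∈ cs, c.1 ∈ T') (hTT : ∀ e, dE e ∈ touch T → e ∈ EE T' .free)
    (S : Cov (VI (HE ℤ))) (hS : Rep (touch T) (fun e => s e * xc) S) :
    |gE T' .free (wB (touch T) fun _ => xc) (fun σ => sB σ (cs.map Prod.fst).toFinset)| =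
      |EE S (lfs cs)| * |gE T .plus (fun _ => xc)
        (fun σ => (cs.map fun h => spinSign (σ (cv h))).prod)| :=
  KW hcs hs hf (fills_touch hT) hX hTT S hS

/-! ### rays -/

/-- signs along the rays to the right of the vertices `vs` -/
def rayS (vs : List (ℤ × ℤ)) (e : EG ℤ) : ℝ := (vs.map fun v => if OnRay v e then (-1 : ℝ) else 1).prod

@[simp] theorem rayS_nil (e : EG ℤ) : rayS [] e = 1 := rfl
@[simp] theorem rayS_cons (v : ℤ × ℤ) (vs : List (ℤ × ℤ)) (e : EG ℤ) :
    rayS (v :: vs) e = (if OnRay v e then (-1 : ℝ) else 1) * rayS vs e := by simp [rayS]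

theorem sg_rayS (vs : List (ℤ × ℤ)) : Sg (rayS vs) := by
  intro e
  induction vs with
  | nil => simp
  | cons v vs ih =>
    rw [rayS_cons, mul_mul_mul_comm, ih, mul_one]
    split_ifs <;> norm_num

theorem flux_one (u v : ℤ × ℤ) :
    flux (fun e => if OnRay u e then (-1 : ℝ) else 1) v = if u = v then -1 else 1 := by
  obtain ⟨a, b⟩ := u
  obtain ⟨c, d⟩ := v
  unfold flux
  simp only [OnRay, Prod.mk_sub_mk, sub_zero, Prod.mk.injEq, zero_ne_one, one_ne_zero, false_and,
    true_and, if_false, mul_one, Fin.isValue]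
  by_cases hd : d = b
  · subst hd
    by_cases h1 : a ≤ c - 1
    · have h2 : a ≤ c := by omega
      have h3 : ¬a = c := by omega
      simp [h1, h2, h3]
    · by_cases h2 : a ≤ c
      · have h3 : a = c := by omega
        subst h3
        simp
      · have h3 : ¬a = c := by omega
        simp [h1, h2, h3]
  · have hd' : ¬b = d := fun h => hd h.symm
    simp [hd, hd']

theorem flux_mul (s t : EG ℤ → ℝ) (v : ℤ × ℤ) :
    flux (fun e => s e * t e) v = flux s v * flux t v := by
  unfold flux; ring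

theorem flux_rayS (vs : List (ℤ × ℤ)) (v : ℤ × ℤ) :
    flux (rayS vs) v = (vs.map fun u => if u = v then (-1 : ℝ) else 1).prod := by
  induction vs with
  | nil => simp [flux, rayS]
  | cons u vs ih =>
    have : rayS (u :: vs) = fun e => (if OnRay u e then (-1 : ℝ) else 1) * rayS vs e := by
      funext e; simp
    rw [this, flux_mul, flux_one, ih]
    simp

/-- the rays starting at the corners have the right flux -/
theorem flux_ray (cs : List (HE ℤ)) (v : ℤ × ℤ) : flux (rayS (cs.map cv)) v = csgs v cs := by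
  rw [flux_rayS]
  unfold csgs
  rw [List.map_map]
  rfl

end Crest.Agent.R165.Kw5x871
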