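import Crest.Agent.R165.PfDet_408
import Crest.Agent.R165.GramH_439

/-!
# Row 165 (S0250), block J (helper871): the square of a Pfaffian is a determinant

* `EE_pr_sq` : `(EE S (φ(x₀) ⋯ φ(x_{n-1})))² = det (S(x_i, x_j))` for every covariance `S` on every
  real vector space (no invertibility), by doubling: `S ⊕ (-S)` and the fields `φ ± φ'`.
-/

set_option autoImplicit false
set_option linter.unusedSimpArgs false
set_option linter.unusedSectionVars false

noncomputable section

namespace Crest.Agent.R165.Kw6x871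

open Crest.Agent.R165.Gr0x606 PfDetx408 GramHx439

variable {V : Type*} [AddCommGroup V] [Module ℝ V]

/-! ### parity -/

theorem inv'_pr {n : ℕ} (Q : Fin n → V) : inv' (pr Q) = (-1 : ℝ) ^ n • pr Q := by
  induction n with
  | zero => simp
  | succ n ih =>
    rw [pr_succ, map_mul, inv'_fi, ih, mul_smul_comm, pow_succ, neg_mul, smul_neg, mul_neg_one,
      neg_smul]

theorem EE_inv' (S : Cov V) (a : Gr V) : EE S (inv' a) = EE S a := by
  have h := EE_unique S ((EE S).comp (inv' : Gr V →ₐ[ℝ] Gr V).toLinearMap) ?_ a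
  · simpa using h
  · intro x b
    simp only [LinearMap.comp_apply, AlgHom.toLinearMap_apply, map_mul, inv'_fi, neg_mul, map_neg,
      EE_fi_mul, dd_inv', neg_neg]

theorem EE_pr_odd (S : Cov V) {n : ℕ} (hn : Odd n) (Q : Fin n → V) : EE S (pr Q) = 0 := by
  have h := EE_inv' S (pr Q)
  rw [inv'_pr, hn.neg_one_pow, neg_one_smul, map_neg] at h
  linarith

/-- the opposite covariance -/
theorem EE_neg_pr (S : Cov V) (m : ℕ) (Q : Fin (2 * m) → V) :
    EE (-S) (pr Q) = (-1) ^ m * EE S (pr Q) := by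
  induction m with
  | zero =>
    have h : pr Q = 1 := rfl
    rw [h]; simp
  | succ m ih =>
    have key : ∀ T : Cov V, EE T (pr (n := 2 * m + 1 + 1) Q) =
        ∑ k : Fin (2 * m + 1), (-1 : ℝ) ^ (k : ℕ) * T.b (Q 0) (Q k.succ) *
          EE T (pr fun i => Q (k.succAbove i).succ) := by
      intro T
      rw [pr_succ, EE_fi_mul, dd_pr, map_sum]
      refine Finset.sum_congr rfl fun k _ => ?_
      rw [map_smul, smul_eq_mul]
      rfl
    have e1 := key (-S)
    have e2 := key S
    have e3 : EE (-S) (pr (n := 2 * m + 1 + 1) Q) = (-1) ^ (m + 1) * EE S (pr (n := 2 * m + 1 + 1) Q) := by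
      rw [e1, e2, Finset.mul_sum]
      refine Finset.sum_congr rfl fun k _ => ?_
      rw [ih]
      have : (-S).b (Q 0) (Q k.succ) = -S.b (Q 0) (Q k.succ) := rfl
      rw [this, pow_succ]
      ring
    exact e3

/-! ### reversal -/

theorem rp_mul_fi {n : ℕ} (P : Fin n → V) (x : V) : fi x * rp P = (-1 : ℝ) ^ n • (rp P * fi x) := by
  induction n with
  | zero => simp
  | succ n ih =>
    rw [rp_succ, ← mul_assoc, fi_anti x, neg_mul, mul_assoc, ih, mul_smul_comm, ← smul_neg,
      pow_succ, mul_neg_one, neg_smul, smul_neg, mul_assoc]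

theorem rp_eq {n : ℕ} (P : Fin n → V) : ∃ c : ℝ, rp P = c • pr P ∧ (∀ m, n = 2 * m → c = (-1) ^ m) := by
  -- the sign depends on `n` only
  have key : ∀ n : ℕ, ∃ c : ℝ, (∀ P : Fin n → V, rp P = c • pr P) ∧
      (∀ m, n = 2 * m → c = (-1) ^ m) ∧ (∀ m, n = 2 * m + 1 → c = (-1) ^ m) := by
    intro n
    induction n with
    | zero =>
      refine ⟨1, fun P => by simp, ?_, ?_⟩
      · intro m hm
        have : m = 0 := by omega
        rw [this]; simp
      · intro m hm; omega
    | succ n ih =>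
      obtain ⟨c, h1, h2, h3⟩ := ih
      refine ⟨(-1) ^ n * c, fun P => ?_, ?_, ?_⟩
      · rw [rp_succ, rp_mul_fi, h1, pr_castSucc, smul_mul_assoc, smul_smul]
      · intro m hm
        obtain ⟨k, rfl⟩ : ∃ k, m = k + 1 := ⟨m - 1, by omega⟩
        have hn : n = 2 * k + 1 := by omega
        rw [h3 k hn, hn, pow_succ, pow_mul]
        norm_num
        rw [pow_succ]; ring
      · intro m hm
        have hn : n = 2 * m := by omega
        rw [h2 m hn, hn, pow_mul]
        norm_num
  obtain ⟨c, h1, h2, _⟩ := key n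
  exact ⟨c, h1 P, h2⟩

/-! ### doubling -/

/-- `S ⊕ (-S)` -/
def dbl (S : Cov V) : Cov (V × V) where
  b := S.b.compl₁₂ (LinearMap.fst ℝ V V) (LinearMap.fst ℝ V V) -
    S.b.compl₁₂ (LinearMap.snd ℝ V V) (LinearMap.snd ℝ V V)
  alt x := by
    simp [S.alt]

theorem dbl_b (S : Cov V) (x y : V × V) : (dbl S).b x y = S.b x.1 y.1 - S.b x.2 y.2 := by
  simp [dbl]

theorem fi_pair (x : V) : fi ((x, x) : V × V) * fi ((x, -x) : V × V) =
    (-2 : ℝ) • (fi ((x, 0) : V × V) * fi ((0, x) : V × V)) := by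
  have h1 : ((x, x) : V × V) = (x, 0) + (0, x) := by simp
  have h2 : ((x, -x) : V × V) = (x, 0) + (-1 : ℝ) • (0, x) := by simp
  rw [h1, h2, fi_add, fi_add, fi_smul]
  have h3 := fi_anti ((0, x) : V × V) ((x, 0) : V × V)
  rw [add_mul, mul_add, mul_add, fi_mul_self, mul_smul_comm, mul_smul_comm, fi_mul_self, h3]
  module

theorem inter_pair (x : ℕ → V) (n : ℕ) :
    inter (fun k => ((x k, x k) : V × V)) (fun k => ((x k, -x k) : V × V)) n =
      (-2 : ℝ) ^ n • inter (fun k => ((x k, 0) : V × V)) (fun k => ((0, x k) : V × V)) n := by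
  induction n with
  | zero => simp [inter]
  | succ n ih =>
    rw [inter, ih, fi_pair, inter, mul_smul_comm, smul_mul_assoc, smul_smul, pow_succ]
    congr 1
    ring

theorem mp_pr {W : Type*} [AddCommGroup W] [Module ℝ W] (f : V →ₗ[ℝ] W) {n : ℕ} (Q : Fin n → V) :
    mp f (pr Q) = pr (fun i => f (Q i)) := by
  induction n with
  | zero => simp
  | succ n ih => rw [pr_succ, map_mul, mp_fi, ih, pr_succ]

theorem mp_rp {W : Type*} [AddCommGroup W] [Module ℝ W] (f : V →ₗ[ℝ] W) {n : ℕ} (Q : Fin n → V) :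
    mp f (rp Q) = rp (fun i => f (Q i)) := by
  induction n with
  | zero => simp
  | succ n ih => rw [rp_succ, map_mul, mp_fi, ih, rp_succ]

theorem rp_mem {U : Set V} {n : ℕ} (Q : Fin n → V) (h : ∀ i, Q i ∈ U) :
    rp Q ∈ Algebra.adjoin ℝ (fi '' U : Set (Gr V)) := by
  induction n with
  | zero => exact one_mem _
  | succ n ih =>
    rw [rp_succ]
    exact mul_mem (Algebra.subset_adjoin ⟨_, h _, rfl⟩) (ih _ fun i => h _)

theorem pr_mem {U : Set V} {n : ℕ} (Q : Fin n → V) (h : ∀ i, Q i ∈ U) :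
    pr Q ∈ Algebra.adjoin ℝ (fi '' U : Set (Gr V)) := by
  induction n with
  | zero => exact one_mem _
  | succ n ih =>
    rw [pr_succ]
    exact mul_mem (Algebra.subset_adjoin ⟨_, h _, rfl⟩) (ih _ fun i => h _)

theorem EE_dbl (S : Cov V) {n m : ℕ} (P : Fin n → V) (Q : Fin m → V) :
    EE (dbl S) (rp (fun i => ((P i, 0) : V × V)) * pr (fun i => ((0, Q i) : V × V))) =
      EE S (rp P) * EE (-S) (pr Q) := by
  have h1 : conv (dbl S) (rp (fun i => ((P i, 0) : V × V)) * pr (fun i => ((0, Q i) : V × V))) =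
      conv (dbl S) (rp (fun i => ((P i, 0) : V × V))) *
        conv (dbl S) (pr (fun i => ((0, Q i) : V × V))) := by
    refine conv_mul (dbl S) {x : V × V | x.2 = 0} _ _ (rp_mem _ fun i => by simp) ?_
    intro x hx
    refine dd_eq_zero_of_mem (U := {x : V × V | x.1 = 0}) _ ?_ (pr_mem _ fun i => by simp)
    intro y hy
    have hx' : x.2 = 0 := hx
    have hy' : y.1 = 0 := hy
    rw [dbl_b, hx', hy']
    simp
  rw [EE_apply, h1, map_mul, ← EE_apply, ← EE_apply]
  congr 1
  · have h2 := mp_rp (LinearMap.inl ℝ V V) P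
    simp only [LinearMap.inl_apply] at h2
    rw [← h2]
    refine EE_mp _ _ _ ?_ _
    intro x y
    simp [dbl_b]
  · have h2 := mp_pr (LinearMap.inr ℝ V V) Q
    simp only [LinearMap.inr_apply] at h2
    rw [← h2]
    refine EE_mp _ _ _ ?_ _
    intro x y
    simp only [dbl_b, LinearMap.inr_apply, map_zero, LinearMap.zero_apply, zero_sub]
    rfl

/-- **the square of a Gaussian moment is a determinant** -/
theorem EE_pr_sq (S : Cov V) {n : ℕ} (x : Fin n → V) :
    (EE S (pr x)) ^ 2 = (Matrix.of fun i j : Fin n => S.b (x i) (x j)).det := by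
  -- extend to a sequence
  let y : ℕ → V := fun k => if h : k < n then x ⟨k, h⟩ else 0
  have hy : ∀ i : Fin n, y i = x i := fun i => by simp [y]
  have h1 := EE_inter (dbl S) (fun k => ((y k, y k) : V × V)) (fun k => ((y k, -y k) : V × V)) n
    (fun i j => by rw [dbl_b]; simp)
  rw [inter_pair, map_smul, inter_eq, EE_dbl, smul_eq_mul] at h1
  simp only [hy] at h1
  have h2 : (Matrix.of fun j k : Fin n => (dbl S).b ((x j, x j) : V × V) ((x k, -x k) : V × V)) =
      (2 : ℝ) • (Matrix.of fun i j : Fin n => S.b (x i) (x j)) := by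
    ext i j
    simp only [Matrix.of_apply, dbl_b, Matrix.smul_apply, map_neg, smul_eq_mul]
    ring
  rw [h2, Matrix.det_smul, Fintype.card_fin] at h1
  have h2n : (2 : ℝ) ^ n ≠ 0 := by positivity
  rcases Nat.even_or_odd' n with ⟨m, hm | hm⟩
  · subst hm
    obtain ⟨c, hc, hc'⟩ := rp_eq x
    rw [hc, map_smul, EE_neg_pr, hc' m rfl, smul_eq_mul, pow_mul (-2 : ℝ), pow_mul (2 : ℝ)] at h1
    norm_num at h1
    have h4 : (4 : ℝ) ^ m ≠ 0 := by positivity
    have h5 : ((-1 : ℝ) ^ m) * ((-1) ^ m) = 1 := by rw [← mul_pow]; norm_num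
    have h6 : (4 : ℝ) ^ m * (EE S (pr x)) ^ 2 =
        4 ^ m * (Matrix.of fun i j : Fin (2 * m) => S.b (x i) (x j)).det := by
      rw [← h1]
      calc (4 : ℝ) ^ m * (EE S (pr x)) ^ 2 = (((-1 : ℝ) ^ m) * ((-1) ^ m)) * (4 ^ m * (EE S (pr x)) ^ 2) := by
            rw [h5, one_mul]
        _ = _ := by ring
    exact mul_left_cancel₀ h4 h6
  · have hodd : Odd n := ⟨m, hm⟩
    rw [EE_pr_odd (-S) hodd, mul_zero, mul_zero] at h1
    rw [EE_pr_odd S hodd]
    have := mul_left_cancel₀ h2n (h1.symm.trans (mul_zero ((2 : ℝ) ^ n)).symm)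
    rw [this]; ring

/-- list form -/
theorem pr_list (l : List V) : pr (fun i : Fin l.length => l.get i) = (l.map fi).prod := by
  induction l with
  | nil => rfl
  | cons a l ih =>
    rw [List.map_cons, List.prod_cons, ← ih]
    rfl

theorem EE_list_sq (S : Cov V) (l : List V) :
    (EE S (l.map fi).prod) ^ 2 =
      (Matrix.of fun i j : Fin l.length => S.b (l.get i) (l.get j)).det := by
  rw [← pr_list, EE_pr_sq]

end Crest.Agent.R165.Kw6x871
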