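import Crest.Agent.R165.Kw5_871
import Crest.Agent.R165.Kw6_871
import Crest.Agent.R165.J2a_606

/-!
# Row 165 (S0250), block J: Kramers-Wannier, part 7 (helper871): final forms

* `nhf_of_noHole` : `NoHole T' → NHF T'`
* `rep_of_inv` : `IsInv w S` represents the product over any finite set carrying `w`
* `MM S cs` : the antisymmetric matrix `S(l_{c_i}, l_{c_j})` of the corner fields
* `KW_free_inv`, `KW_touch_inv` : Kramers-Wannier for `IsInv`
* `det_free`, `det_touch` : the same with `det (MM S cs)`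
* `two_touch` : N4, two corners at distinct faces
-/

set_option autoImplicit false
set_option linter.unusedSimpArgs false
set_option linter.unusedSectionVars false

noncomputable section

open Crest.ProbabilityR.IsingModel

namespace Crest.Agent.R165.Kw7x871

open Crest.Agent.R165.Gr0x606 Crest.Agent.R165.Gr1x606 Crest.Agent.R165.J1ax606
  Crest.Agent.R165.J1bx606 Crest.Agent.R165.J1cx606 Crest.Agent.R165.Kw1x871
  Crest.Agent.R165.Kw2x871 Crest.Agent.R165.Kw3x871 Crest.Agent.R165.Kw4x871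
  Crest.Agent.R165.Kw5x871 Crest.Agent.R165.Kw6x871
open KwHix408 KwLox408 J4Defx653 J2ax606

/-! ### no holes -/

theorem nhf_of_noHole {T' : Finset (ℤ × ℤ)} (hT : NoHole T') : NHF T' := by
  intro N hN
  -- a node outside `T'` has its four corners all in `N` or all outside `N`
  have hno : ∀ n : ℤ × ℤ, n ∉ T' → ∀ e : EG ℤ, (dI e).1 = n ∨ (dI e).1 + unitVec (dI e).2 = n →
      (e.1 ∈ N ↔ e.1 + uv e.2 ∈ N) := by
    intro n hn e he
    by_contra hc
    have h1 := hN (mem_walls.2 hc)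
    rw [mem_image_dE, mem_EE] at h1
    have h2 := h1.1 rfl
    rcases he with he | he
    · exact hn (he ▸ h2.1)
    · exact hn (he ▸ h2.2)
  have hS : ∀ n : ℤ × ℤ, n ∉ T' → (n ∈ N ↔ n + (1, 0) ∈ N) := by
    intro n hn
    have := hno n hn (n, 0) (Or.inr (by simp [dI, unitVec]))
    simpa [uv] using this
  have hW : ∀ n : ℤ × ℤ, n ∉ T' → (n ∈ N ↔ n + (0, 1) ∈ N) := by
    intro n hn
    have := hno n hn (n, 1) (Or.inr (by simp [dI, unitVec]))
    simpa [uv] using this
  have hE : ∀ n : ℤ × ℤ, n ∉ T' → (n + (1, 0) ∈ N ↔ n + (1, 1) ∈ N) := by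
    intro n hn
    have := hno n hn (n + (1, 0), 1) (Or.inl (by simp [dI]))
    have e1 : n + (1, 0) + (uv 1 : ℤ × ℤ) = n + (1, 1) := by
      rw [add_assoc]; congr 1
    rw [e1] at this
    exact this
  have h1 : walls (N \ T') ⊆ touch T' := by
    intro e he
    rw [mem_touch]
    by_contra hc
    rw [not_or] at hc
    rw [mem_walls, Finset.mem_sdiff, Finset.mem_sdiff] at he
    apply he
    obtain ⟨z, j⟩ := e
    simp only at hc ⊢
    have key : z ∈ N ↔ z + uv j ∈ N := by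
      fin_cases j
      · exact hS z hc.1
      · exact hW z hc.1
    tauto
  have h2 := hT _ h1
  have h3 : N ⊆ T' := by
    intro v hv
    by_contra hc
    exact hc (h2 (Finset.mem_sdiff.2 ⟨hv, hc⟩))
  intro v hv
  unfold starT
  rw [Finset.mem_filter]
  refine ⟨h3 hv, ?_, ?_, ?_⟩
  · by_contra hc
    have := hS _ hc
    rw [sub_add_cancel] at this
    exact hc (h3 (this.2 hv))
  · by_contra hc
    have := hW _ hc
    rw [sub_add_cancel] at this
    exact hc (h3 (this.2 hv))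
  · by_contra hc
    have h4 := hS _ hc
    have h5 := hE _ hc
    rw [sub_add_cancel] at h5
    exact hc (h3 (h4.2 (h5.2 hv)))

/-! ### inverses -/

/-- inverses of `A_w` represent the Gaussian state -/
theorem rep_of_inv {B : Finset (EG ℤ)} {y w : EG ℤ → ℝ} {S : HE ℤ → HE ℤ → ℝ} (hS : IsInv w S)
    (hw : ∀ e, e ∉ B → w e = 0) (hwy : ∀ e ∈ B, w e = y e) : Rep B y (covOf S hS.anti) := by
  intro F
  have h1 := E0_PP hS B hw F
  have h2 : PP w B = ∏ e ∈ B, (1 + y e • bb e) := by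
    unfold PP
    exact Finset.prod_congr rfl fun e he => by rw [hwy e he]
  rw [h2] at h1
  rw [← h1]
  congr 1
  exact (IsEv.comm (Ge.isEv _) F).symm

/-- the matrix of the corner fields -/
def MM (S : Cov (VI (HE ℤ))) (cs : List (HE ℤ)) : Matrix (Fin cs.length) (Fin cs.length) ℝ :=
  Matrix.of fun i j => S.b (lf (cs.get i)) (lf (cs.get j))

theorem MM_transpose (S : Cov (VI (HE ℤ))) (cs : List (HE ℤ)) : (MM S cs).transpose = -MM S cs := by
  ext i j
  simp only [MM, Matrix.transpose_apply, Matrix.of_apply, Matrix.neg_apply]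
  exact S.skew _ _

/-- `Pf² = det` for corner fields -/
theorem lfs_sq (S : Cov (VI (HE ℤ))) (cs : List (HE ℤ)) : (EE S (lfs cs)) ^ 2 = (MM S cs).det := by
  have h1 : lfs cs = PfDetx408.pr fun i : Fin cs.length => lf (cs.get i) := by
    induction cs with
    | nil => rfl
    | cons a l ih =>
      rw [lfs_cons, ih]
      rfl
  rw [h1, EE_pr_sq]
  rfl

/-- the value of the covariance on corner fields, explicitly -/
theorem b_lf {S : HE ℤ → HE ℤ → ℝ} (hS : ∀ i j, S i j = -S j i) (c d : HE ℤ) :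
    (covOf S hS).b (lf c) (lf d) = ∑ i : Fin 4, ∑ j : Fin 4,
      (if i ≤ c.2 then (1 : ℝ) else -1) * ((if j ≤ d.2 then (1 : ℝ) else -1) * S (c.1, i) (d.1, j)) := by
  unfold lf
  simp only [map_sum, LinearMap.sum_apply, map_smul, LinearMap.smul_apply, smul_eq_mul, covOf_b,
    formOf_single, Finset.mul_sum]
  rw [Finset.sum_comm]
  refine Finset.sum_congr rfl fun i _ => Finset.sum_congr rfl fun j _ => ?_
  ring

/-- **Kramers-Wannier, free model on the nodes `T'`**, for inverses. `w` = signed weights of the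
half-edge system on the nodes: `s_e xc` on the (duals of the) bonds inside `T'`, `0` elsewhere. -/
theorem KW_free_inv {cs : List (HE ℤ)} (hcs : (cs.map Prod.fst).Nodup) {s : EG ℤ → ℝ} (hs : Sg s)
    (hf : ∀ v, flux s v = csgs v cs) {T' : Finset (ℤ × ℤ)} (hT : NoHole T') (hX : ∀ c ∈ cs, c.1 ∈ T')
    {w : EG ℤ → ℝ} {S : HE ℤ → HE ℤ → ℝ} (hS : IsInv w S)
    (hw : ∀ e, e ∉ (EE T' .free).image dE → w e = 0)
    (hwy : ∀ e ∈ (EE T' .free).image dE, w e = s e * xc) :
    |gE T' .free (fun _ => xc) (fun σ => sB σ (cs.map Prod.fst).toFinset)| =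
      |EE (covOf S hS.anti) (lfs cs)| * |gE (starT T') .plus (fun _ => xc)
        (fun σ => (cs.map fun h => spinSign (σ (cv h))).prod)| :=
  KW_free hcs hs hf (nhf_of_noHole hT) hX _ (rep_of_inv hS hw hwy)

/-- **Kramers-Wannier, plus model on `T`**, for inverses -/
theorem KW_touch_inv {cs : List (HE ℤ)} (hcs : (cs.map Prod.fst).Nodup) {s : EG ℤ → ℝ} (hs : Sg s)
    (hf : ∀ v, flux s v = csgs v cs) {T T' : Finset (ℤ × ℤ)} (hT : NoHole T)
    (hX : ∀ c ∈ cs, c.1 ∈ T') (hTT : ∀ e, dE e ∈ touch T → e ∈ EE T' .free)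
    {w : EG ℤ → ℝ} {S : HE ℤ → HE ℤ → ℝ} (hS : IsInv w S)
    (hw : ∀ e, e ∉ touch T → w e = 0) (hwy : ∀ e ∈ touch T, w e = s e * xc) :
    |gE T' .free (wB (touch T) fun _ => xc) (fun σ => sB σ (cs.map Prod.fst).toFinset)| =
      |EE (covOf S hS.anti) (lfs cs)| * |gE T .plus (fun _ => xc)
        (fun σ => (cs.map fun h => spinSign (σ (cv h))).prod)| :=
  KW_touch hcs hs hf hT hX hTT _ (rep_of_inv hS hw hwy)

theorem det_free {cs : List (HE ℤ)} (hcs : (cs.map Prod.fst).Nodup) {s : EG ℤ → ℝ} (hs : Sg s)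
    (hf : ∀ v, flux s v = csgs v cs) {T' : Finset (ℤ × ℤ)} (hT : NoHole T') (hX : ∀ c ∈ cs, c.1 ∈ T')
    {w : EG ℤ → ℝ} {S : HE ℤ → HE ℤ → ℝ} (hS : IsInv w S)
    (hw : ∀ e, e ∉ (EE T' .free).image dE → w e = 0)
    (hwy : ∀ e ∈ (EE T' .free).image dE, w e = s e * xc) :
    (gE T' .free (fun _ => xc) (fun σ => sB σ (cs.map Prod.fst).toFinset)) ^ 2 =
      (MM (covOf S hS.anti) cs).det * (gE (starT T') .plus (fun _ => xc)
        (fun σ => (cs.map fun h => spinSign (σ (cv h))).prod)) ^ 2 := by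
  have h := KW_free_inv hcs hs hf hT hX hS hw hwy
  rw [← lfs_sq, ← sq_abs, h, mul_pow, sq_abs, sq_abs]

theorem det_touch {cs : List (HE ℤ)} (hcs : (cs.map Prod.fst).Nodup) {s : EG ℤ → ℝ} (hs : Sg s)
    (hf : ∀ v, flux s v = csgs v cs) {T T' : Finset (ℤ × ℤ)} (hT : NoHole T)
    (hX : ∀ c ∈ cs, c.1 ∈ T') (hTT : ∀ e, dE e ∈ touch T → e ∈ EE T' .free)
    {w : EG ℤ → ℝ} {S : HE ℤ → HE ℤ → ℝ} (hS : IsInv w S)
    (hw : ∀ e, e ∉ touch T → w e = 0) (hwy : ∀ e ∈ touch T, w e = s e * xc) :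
    (gE T' .free (wB (touch T) fun _ => xc) (fun σ => sB σ (cs.map Prod.fst).toFinset)) ^ 2 =
      (MM (covOf S hS.anti) cs).det * (gE T .plus (fun _ => xc)
        (fun σ => (cs.map fun h => spinSign (σ (cv h))).prod)) ^ 2 := by
  have h := KW_touch_inv hcs hs hf hT hX hTT hS hw hwy
  rw [← lfs_sq, ← sq_abs, h, mul_pow, sq_abs, sq_abs]

/-- the nodes around the vertices of `T` -/
def nodes (T : Finset (ℤ × ℤ)) : Finset (ℤ × ℤ) :=
  T.biUnion fun v => {v, v - (1, 0), v - (0, 1), v - (1, 1)}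

theorem mem_nodes {T : Finset (ℤ × ℤ)} {n : ℤ × ℤ} :
    n ∈ nodes T ↔ n ∈ T ∨ n + (1, 0) ∈ T ∨ n + (0, 1) ∈ T ∨ n + (1, 1) ∈ T := by
  unfold nodes
  simp only [Finset.mem_biUnion, Finset.mem_insert, Finset.mem_singleton]
  constructor
  · rintro ⟨v, hv, rfl | rfl | rfl | rfl⟩
    · exact Or.inl hv
    · rw [sub_add_cancel]; exact Or.inr (Or.inl hv)
    · rw [sub_add_cancel]; exact Or.inr (Or.inr (Or.inl hv))
    · rw [sub_add_cancel]; exact Or.inr (Or.inr (Or.inr hv))
  · rintro (h | h | h | h)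
    · exact ⟨_, h, Or.inl rfl⟩
    · exact ⟨_, h, Or.inr (Or.inl (by rw [add_sub_cancel_right]))⟩
    · exact ⟨_, h, Or.inr (Or.inr (Or.inl (by rw [add_sub_cancel_right])))⟩
    · exact ⟨_, h, Or.inr (Or.inr (Or.inr (by rw [add_sub_cancel_right])))⟩

theorem touch_nodes (T : Finset (ℤ × ℤ)) (e : EG ℤ) (he : dE e ∈ touch T) : e ∈ EE (nodes T) .free := by
  obtain ⟨n, j⟩ := e
  rw [mem_touch] at he
  have key : n ∈ nodes T ∧ n + unitVec j ∈ nodes T := by
    rw [mem_nodes, mem_nodes]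
    fin_cases j
    · simp only [dE, Fin.zero_eta, Fin.isValue, if_true, uv, one_ne_zero, if_false, unitVec] at he ⊢
      have e1 : n + (1, 0) + (0, 1) = n + (1, 1) := by rw [add_assoc]; congr 1
      rw [e1] at he ⊢
      tauto
    · simp only [dE, Fin.mk_one, Fin.isValue, one_ne_zero, if_false, uv, if_true, unitVec] at he ⊢
      have e1 : n + (0, 1) + (1, 0) = n + (1, 1) := by rw [add_assoc]; congr 1
      rw [e1] at he ⊢
      tauto
  rw [mem_EE]
  exact ⟨fun _ => key, Or.inl key.1⟩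

theorem cv_nodes {T : Finset (ℤ × ℤ)} {c : HE ℤ} (hc : cv c ∈ T) : c.1 ∈ nodes T := by
  obtain ⟨f, i⟩ := c
  rw [mem_nodes]
  unfold cv at hc
  fin_cases i
  · exact Or.inr (Or.inl (by simpa using hc))
  · exact Or.inr (Or.inr (Or.inr (by simpa using hc)))
  · exact Or.inr (Or.inr (Or.inl (by simpa using hc)))
  · left
    have : f + ((0, 0) : ℤ × ℤ) = f := by ext <;> simp
    simpa [this] using hc

/-- **N4**: two corners at distinct faces, plus background on `T` branched at their vertices -/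
theorem two_touch {c d : HE ℤ} (hcd : c.1 ≠ d.1) {T : Finset (ℤ × ℤ)} (hT : NoHole T)
    (hc : cv c ∈ T) (hd : cv d ∈ T) {w : EG ℤ → ℝ} {S : HE ℤ → HE ℤ → ℝ} (hS : IsInv w S)
    (hw : ∀ e, e ∉ touch T → w e = 0)
    (hwy : ∀ e ∈ touch T, w e = rayS [cv c, cv d] e * xc) :
    |gE (nodes T) .free (wB (touch T) fun _ => xc)
        (fun σ => spinSign (σ c.1) * spinSign (σ d.1))| =
      |(covOf S hS.anti).b (lf c) (lf d)| * |gE T .plus (fun _ => xc)
        (fun σ => spinSign (σ (cv c)) * spinSign (σ (cv d)))| := by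
  have hcs : (([c, d] : List (HE ℤ)).map Prod.fst).Nodup := by simp [hcd]
  have hX : ∀ k ∈ ([c, d] : List (HE ℤ)), k.1 ∈ nodes T := by
    intro k hk
    rw [List.mem_cons, List.mem_singleton] at hk
    rcases hk with rfl | rfl
    · exact cv_nodes hc
    · exact cv_nodes hd
  have h := KW_touch_inv (cs := [c, d]) hcs (sg_rayS [cv c, cv d]) (flux_ray [c, d]) hT hX
    (touch_nodes T) hS hw hwy
  have h1 : ∀ σ : ℤ × ℤ → Bool, sB σ (([c, d] : List (HE ℤ)).map Prod.fst).toFinset =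
      spinSign (σ c.1) * spinSign (σ d.1) := by
    intro σ
    simp [sB, hcd]
  have h2 : ∀ σ : ℤ × ℤ → Bool, (([c, d] : List (HE ℤ)).map fun h => spinSign (σ (cv h))).prod =
      spinSign (σ (cv c)) * spinSign (σ (cv d)) := by
    intro σ
    simp
  simp only [h1, h2] at h
  have h3 : EE (covOf S hS.anti) (lfs [c, d]) = (covOf S hS.anti).b (lf c) (lf d) := by
    simp only [lfs_cons, lfs_nil, mul_one, EE_fi_fi]
  rw [h3] at h
  exact h

end Crest.Agent.R165.Kw7x871
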