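import Crest.Agent.R165.J4Def_653

/-!
# Row 165 (S0250): high-temperature expansion, free boundary conditions (helper408)

* `xc = √2 - 1 = tanh β_c = exp (-2 β_c)` (`J = 1`)
* `expect_eq` : `domainExpect` at `lam = 0`, `J = 1`, `β = β_c` as a ratio with edge factors `1 + xc ε_e`
* `hiT` : `∑_σ σ_X ∏_{e ⊆ T} (1 + w_e ε_e) = 2^|T| ∑_{P : ∂P = X} ∏_{e ∈ P} w_e` for arbitrary weights
* `free_expect` : `⟨σ_X⟩^free_T = ∑_{∂P = X} xc^|P| / ∑_{∂P = ∅} xc^|P|`
-/

set_option autoImplicit false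

noncomputable section

open Finset
open Crest.ProbabilityR.IsingModel

namespace Crest.Agent.R165.KwHix408

open J4Defx653

/-- the critical weight -/
def xc : ℝ := Real.sqrt 2 - 1

theorem xc_pos : 0 < xc := by
  have : (1 : ℝ) < Real.sqrt 2 := by
    rw [Real.lt_sqrt (by norm_num)]; norm_num
  unfold xc; linarith

theorem sqrt2_sq : Real.sqrt 2 * Real.sqrt 2 = 2 := Real.mul_self_sqrt (by norm_num)

theorem xc_sq : xc * xc + 2 * xc = 1 := by
  have := sqrt2_sq
  unfold xc; nlinarith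

theorem xc_lt_one : xc < 1 := by
  have := xc_sq; have := xc_pos; nlinarith

theorem exp_two_beta : Real.exp (2 * criticalBeta 1) = 1 + Real.sqrt 2 := by
  have h : 2 * criticalBeta 1 = Real.log (1 + Real.sqrt 2) := by
    unfold criticalBeta; ring
  rw [h, Real.exp_log (by positivity)]

/-- `exp (-2 β_c) = xc` -/
theorem exp_neg_two_beta : Real.exp (-(2 * criticalBeta 1)) = xc := by
  rw [Real.exp_neg, exp_two_beta]
  have h := xc_sq
  have h2 : Real.sqrt 2 = xc + 1 := by unfold xc; ring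
  rw [h2]
  refine (eq_inv_of_mul_eq_one_left ?_).symm
  nlinarith

/-- `tanh β_c = xc` in multiplicative form -/
theorem sinh_eq : Real.sinh (criticalBeta 1) = xc * Real.cosh (criticalBeta 1) := by
  have h1 := exp_neg_two_beta
  have h2 : Real.exp (-criticalBeta 1) = xc * Real.exp (criticalBeta 1) := by
    rw [← h1, ← Real.exp_add]; congr 1; ring
  rw [Real.sinh_eq, Real.cosh_eq, h2]
  have := xc_sq
  have h3 : 0 < Real.exp (criticalBeta 1) := Real.exp_pos _
  nlinarith

theorem tanh_eq : Real.tanh (criticalBeta 1) = xc := by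
  rw [Real.tanh_eq_sinh_div_cosh, sinh_eq, mul_div_assoc, div_self (Real.cosh_pos _).ne', mul_one]

theorem exp_sign (t : ℝ) (ht : t = 1 ∨ t = -1) :
    Real.exp (criticalBeta 1 * t) = Real.cosh (criticalBeta 1) * (1 + xc * t) := by
  have h := sinh_eq
  rcases ht with rfl | rfl
  · rw [mul_one, mul_one, mul_add, mul_one, mul_comm _ xc, ← h, Real.cosh_add_sinh]
  · have : Real.cosh (criticalBeta 1) * (1 + xc * -1) =
      Real.cosh (criticalBeta 1) - xc * Real.cosh (criticalBeta 1) := by ring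
    rw [this, ← h, Real.cosh_sub_sinh, mul_neg, mul_one]

theorem epsE_sign (s : ℤ × ℤ → Bool) (e : (ℤ × ℤ) × Fin 2) : epsE s e = 1 ∨ epsE s e = -1 := by
  unfold epsE
  cases s e.1 <;> cases s (e.1 + unitVec e.2) <;> simp [spinSign]

/-- the energy at `lam = 0`, `J = 1` -/
theorem energy_zero (T : Finset (ℤ × ℤ)) (b : BoundaryCondition) (R : ℕ)
    (V : Finset (ℤ × ℤ) → ℝ) (s : ℤ × ℤ → Bool) :
    domainEnergy T b 1 0 R V s = -∑ e ∈ EE T b, epsE s e := by
  rw [← pair_sum]
  unfold domainEnergy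
  ring

theorem weight_eq (T : Finset (ℤ × ℤ)) (b : BoundaryCondition) (R : ℕ)
    (V : Finset (ℤ × ℤ) → ℝ) (s : ℤ × ℤ → Bool) :
    Real.exp (-criticalBeta 1 * domainEnergy T b 1 0 R V s) =
      Real.cosh (criticalBeta 1) ^ (EE T b).card * ∏ e ∈ EE T b, (1 + xc * epsE s e) := by
  have h : -criticalBeta 1 * domainEnergy T b 1 0 R V s =
      ∑ e ∈ EE T b, criticalBeta 1 * epsE s e := by
    rw [energy_zero, neg_mul_neg, Finset.mul_sum]
  rw [h, Real.exp_sum, Finset.prod_congr rfl fun e _ => exp_sign _ (epsE_sign s e),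
    Finset.prod_mul_distrib, Finset.prod_const]

/-- ratio with edge factors `1 + w_e ε_e` -/
def gE (T : Finset (ℤ × ℤ)) (b : BoundaryCondition) (w : (ℤ × ℤ) × Fin 2 → ℝ)
    (f : (ℤ × ℤ → Bool) → ℝ) : ℝ :=
  (∑ σ : T → Bool, f (extendConfig T b σ) *
      ∏ e ∈ EE T b, (1 + w e * epsE (extendConfig T b σ) e)) /
    ∑ σ : T → Bool, ∏ e ∈ EE T b, (1 + w e * epsE (extendConfig T b σ) e)

/-- `domainExpect` at `lam = 0`, `J = 1`, `β = β_c` -/
theorem expect_eq (D : Set ℂ) (a : ℝ) (b : BoundaryCondition) (R : ℕ)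
    (V : Finset (ℤ × ℤ) → ℝ) (f : (ℤ × ℤ → Bool) → ℝ) (h : (domainSites D a).Finite) :
    domainExpect D a b 1 0 R V (criticalBeta 1) f = gE h.toFinset b (fun _ => xc) f := by
  unfold domainExpect gE
  rw [dif_pos h]
  have hc : Real.cosh (criticalBeta 1) ^ (EE h.toFinset b).card ≠ 0 :=
    pow_ne_zero _ (Real.cosh_pos _).ne'
  have h1 : (∑ σ : h.toFinset → Bool, f (extendConfig h.toFinset b σ) *
        Real.exp (-criticalBeta 1 * domainEnergy h.toFinset b 1 0 R V (extendConfig h.toFinset b σ)))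
      = Real.cosh (criticalBeta 1) ^ (EE h.toFinset b).card *
        ∑ σ : h.toFinset → Bool, f (extendConfig h.toFinset b σ) *
          ∏ e ∈ EE h.toFinset b, (1 + xc * epsE (extendConfig h.toFinset b σ) e) := by
    rw [Finset.mul_sum]
    refine Finset.sum_congr rfl fun σ _ => ?_
    rw [weight_eq]; ring
  have h2 : (∑ σ : h.toFinset → Bool,
        Real.exp (-criticalBeta 1 * domainEnergy h.toFinset b 1 0 R V (extendConfig h.toFinset b σ)))
      = Real.cosh (criticalBeta 1) ^ (EE h.toFinset b).card *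
        ∑ σ : h.toFinset → Bool,
          ∏ e ∈ EE h.toFinset b, (1 + xc * epsE (extendConfig h.toFinset b σ) e) := by
    rw [Finset.mul_sum]
    refine Finset.sum_congr rfl fun σ _ => ?_
    rw [weight_eq]
  rw [h1, h2, mul_div_mul_left _ _ hc]

/-! ### the high-temperature expansion -/

/-- degree of the node `v` in the edge set `P` -/
def deg (P : Finset ((ℤ × ℤ) × Fin 2)) (v : ℤ × ℤ) : ℕ :=
  ∑ e ∈ P, ((if e.1 = v then 1 else 0) + (if e.1 + unitVec e.2 = v then 1 else 0))

/-- the odd nodes of `P` inside `T` are exactly `X` -/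
def Bdy (T : Finset (ℤ × ℤ)) (X : Finset (ℤ × ℤ)) (P : Finset ((ℤ × ℤ) × Fin 2)) : Prop :=
  ∀ v ∈ T, (Odd (deg P v) ↔ v ∈ X)

theorem spinSign_pow_even (c : Bool) {n : ℕ} (h : Even n) : spinSign c ^ n = 1 := by
  obtain ⟨k, rfl⟩ := h
  rw [← two_mul, pow_mul, pow_two, spinSign_sq, one_pow]

theorem sum_pow (n : ℕ) : ∑ c : Bool, spinSign c ^ n = if Even n then 2 else 0 := by
  rw [Fintype.sum_bool]
  split_ifs with h
  · rw [spinSign_pow_even _ h, spinSign_pow_even _ h]; norm_num
  · have h' := Nat.not_even_iff_odd.1 h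
    simp only [spinSign, if_true, one_pow, Bool.false_eq_true, if_false, h'.neg_one_pow]
    norm_num

theorem sum_spins (T : Finset (ℤ × ℤ)) (n : T → ℕ) :
    ∑ σ : T → Bool, ∏ v : T, spinSign (σ v) ^ n v = if ∀ v, Even (n v) then (2 : ℝ) ^ T.card else 0 := by
  have h := Finset.prod_univ_sum (fun _ : T => (univ : Finset Bool))
    (fun (v : T) (c : Bool) => spinSign c ^ n v)
  rw [Fintype.piFinset_univ] at h
  rw [← h]
  simp only [sum_pow]
  split_ifs with hn
  · rw [Finset.prod_congr rfl fun v _ => if_pos (hn v), Finset.prod_const, Finset.card_univ,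
      Fintype.card_coe]
  · push Not at hn
    obtain ⟨v, hv⟩ := hn
    exact Finset.prod_eq_zero (mem_univ v) (if_neg hv)

/-- a product of bond variables inside `T` is a product of powers of spins -/
theorem prod_eps (T : Finset (ℤ × ℤ)) (b : BoundaryCondition) (σ : T → Bool)
    (P : Finset ((ℤ × ℤ) × Fin 2)) (hP : ∀ e ∈ P, e.1 ∈ T ∧ e.1 + unitVec e.2 ∈ T) :
    ∏ e ∈ P, epsE (extendConfig T b σ) e = ∏ v : T, spinSign (σ v) ^ deg P v := by
  have h1 : ∀ (u : ℤ × ℤ) (hu : u ∈ T), spinSign (extendConfig T b σ u) =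
      ∏ v : T, spinSign (σ v) ^ (if u = v then 1 else 0) := by
    intro u hu
    rw [Finset.prod_eq_single (⟨u, hu⟩ : T)]
    · simp [extendConfig, hu]
    · intro v _ hv
      rw [if_neg, pow_zero]
      rintro rfl
      exact hv rfl
    · intro h; exact absurd (mem_univ _) h
  have h2 : ∀ e ∈ P, epsE (extendConfig T b σ) e = ∏ v : T, spinSign (σ v) ^
      ((if e.1 = v then 1 else 0) + (if e.1 + unitVec e.2 = v then 1 else 0)) := by
    intro e he
    unfold epsE
    rw [h1 _ (hP e he).1, h1 _ (hP e he).2, ← Finset.prod_mul_distrib]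
    refine Finset.prod_congr rfl fun v _ => ?_
    rw [← pow_add]
  rw [Finset.prod_congr rfl h2, Finset.prod_comm]
  refine Finset.prod_congr rfl fun v _ => ?_
  rw [Finset.prod_pow_eq_pow_sum]
  rfl

theorem sB_eq (T : Finset (ℤ × ℤ)) (b : BoundaryCondition) (σ : T → Bool)
    (X : Finset (ℤ × ℤ)) (hX : X ⊆ T) :
    sB (extendConfig T b σ) X = ∏ v : T, spinSign (σ v) ^ (if (v : ℤ × ℤ) ∈ X then 1 else 0) := by
  have h1 : ∀ v : T, spinSign (σ v) ^ (if (v : ℤ × ℤ) ∈ X then 1 else 0) =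
      if (v : ℤ × ℤ) ∈ X then spinSign (extendConfig T b σ v) else 1 := by
    intro v
    split_ifs with h
    · simp [extendConfig]
    · rw [pow_zero]
  rw [Finset.prod_congr rfl fun v _ => h1 v,
    Finset.prod_coe_sort T (fun x => if x ∈ X then spinSign (extendConfig T b σ x) else 1),
    Finset.prod_ite_mem, Finset.inter_eq_right.2 hX, sB]

open Classical in
/-- **high-temperature expansion**, free boundary conditions, arbitrary weights -/
theorem hiT (T : Finset (ℤ × ℤ)) (w : (ℤ × ℤ) × Fin 2 → ℝ) (X : Finset (ℤ × ℤ)) (hX : X ⊆ T) :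
    ∑ σ : T → Bool, sB (extendConfig T .free σ) X *
        ∏ e ∈ EE T .free, (1 + w e * epsE (extendConfig T .free σ) e) =
      2 ^ T.card * ∑ P ∈ (EE T .free).powerset.filter (Bdy T X), ∏ e ∈ P, w e := by
  have h1 : ∀ σ : T → Bool, sB (extendConfig T .free σ) X *
        ∏ e ∈ EE T .free, (1 + w e * epsE (extendConfig T .free σ) e) =
      ∑ P ∈ (EE T .free).powerset, (∏ e ∈ P, w e) *
        ∏ v : T, spinSign (σ v) ^ ((if (v : ℤ × ℤ) ∈ X then 1 else 0) + deg P v) := by
    intro σ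
    rw [Finset.prod_one_add, Finset.mul_sum]
    refine Finset.sum_congr rfl fun P hP => ?_
    rw [Finset.mem_powerset] at hP
    rw [Finset.prod_mul_distrib, prod_eps T _ σ P (fun e he => (mem_EE.1 (hP he)).1 rfl),
      sB_eq T _ σ X hX]
    simp only [pow_add, Finset.prod_mul_distrib]
    ring
  rw [Finset.sum_congr rfl fun σ _ => h1 σ, Finset.sum_comm]
  simp only [← Finset.mul_sum, sum_spins]
  rw [Finset.mul_sum, Finset.sum_filter]
  refine Finset.sum_congr rfl fun P _ => ?_
  have h2 : (∀ v : T, Even ((if (v : ℤ × ℤ) ∈ X then 1 else 0) + deg P v)) ↔ Bdy T X P := by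
    constructor
    · intro h v hv
      have := h ⟨v, hv⟩
      simp only at this
      by_cases hx : v ∈ X
      · rw [if_pos hx, add_comm, Nat.even_add_one, Nat.not_even_iff_odd] at this
        exact ⟨fun _ => hx, fun _ => this⟩
      · rw [if_neg hx, zero_add] at this
        exact ⟨fun ho => absurd this (Nat.not_even_iff_odd.2 ho), fun h' => absurd h' hx⟩
    · intro h v
      have := h v v.2
      by_cases hx : (v : ℤ × ℤ) ∈ X
      · rw [if_pos hx, add_comm, Nat.even_add_one, Nat.not_even_iff_odd]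
        exact this.2 hx
      · rw [if_neg hx, zero_add, ← Nat.not_odd_iff_even]
        exact fun ho => hx (this.1 ho)
  by_cases hb : Bdy T X P
  · rw [if_pos (h2.2 hb), if_pos hb]; ring
  · rw [if_neg (fun h => hb (h2.1 h)), if_neg hb]; ring

open Classical in
/-- ratio form -/
theorem gE_free (T : Finset (ℤ × ℤ)) (w : (ℤ × ℤ) × Fin 2 → ℝ) (X : Finset (ℤ × ℤ)) (hX : X ⊆ T) :
    gE T .free w (fun s => sB s X) =
      (∑ P ∈ (EE T .free).powerset.filter (Bdy T X), ∏ e ∈ P, w e) /
        ∑ P ∈ (EE T .free).powerset.filter (Bdy T ∅), ∏ e ∈ P, w e := by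
  unfold gE
  rw [hiT T w X hX]
  have h := hiT T w ∅ (empty_subset _)
  simp only [sB, Finset.prod_empty, one_mul] at h
  rw [h, mul_div_mul_left _ _ (by positivity)]

open Classical in
/-- **KW-hi** -/
theorem free_expect (D : Set ℂ) (a : ℝ) (R : ℕ) (V : Finset (ℤ × ℤ) → ℝ)
    (h : (domainSites D a).Finite) (X : Finset (ℤ × ℤ)) (hX : X ⊆ h.toFinset) :
    domainExpect D a .free 1 0 R V (criticalBeta 1) (fun s => sB s X) =
      (∑ P ∈ (EE h.toFinset .free).powerset.filter (Bdy h.toFinset X), xc ^ P.card) /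
        ∑ P ∈ (EE h.toFinset .free).powerset.filter (Bdy h.toFinset ∅), xc ^ P.card := by
  rw [expect_eq D a .free R V _ h, gE_free _ _ _ hX]
  simp only [Finset.prod_const]

end Crest.Agent.R165.KwHix408
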