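import Crest.Agent.R165.LogD_813
import Crest.Agent.R165.PsiLim2_375

/-!
# Row 165 (S0250), block U4 (helper813): the step `(1,-1)` and the unit steps

* `Small` : `a⁻¹ formS S P Q → 0` for sources `P = O(a^{5/2})`, `Q = o(a^{3/2})`
* `diag2` : `a⁻¹ (formS l_{S2} l_{N2} - 1) → - Σ_d ∫ pN2(z - x₀, d) U(z, d)`
* `unit1` : the column `S(·, l_S)` at the half-edge `(X, S)` converges to a universal constant
-/

set_option autoImplicit false

noncomputable section

open Filter Topology Set MeasureTheory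
open Crest.ProbabilityR.IsingModel

namespace Crest.Agent.R165.LogDx813

open Crest.Agent.R165.Latx683 Crest.Agent.R165.Br1x644 Crest.Agent.R165.Gr2x813
open Crest.Agent.R165.Gr3x813 Crest.Agent.R165.PsiLx375
open Crest.Agent.R165.Br5x644 (PsiS2 PsiN2 Aop_PsiS2 Aop_PsiN2 PsiS2_lN2 PsiN2_lS2 Gen Gen2)

variable {κ : Type*} {l : Filter κ} [l.IsCountablyGenerated]
variable {a : κ → ℝ} {W : κ → BW ℤ} {X : κ → ℤ × ℤ} {σ : κ → ℤ × ℤ → ℝ}
  {S : κ → HE ℤ → HE ℤ → ℝ} {x₀ : ℂ} {δ : ℝ}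

/-- small pairings -/
def Small (l : Filter κ) (a : κ → ℝ) (S : κ → HE ℤ → HE ℤ → ℝ) : Prop :=
  ∀ (P Q : κ → Fld ℤ) (K K' : Set ℂ) (C : ℝ), Bornology.IsBounded K → Bornology.IsBounded K' →
    (∀ᶠ k in l, ∀ h, P k h ≠ 0 → meshPoint (a k) h.1 ∈ K) →
    (∀ᶠ k in l, ∀ h, Q k h ≠ 0 → meshPoint (a k) h.1 ∈ K') →
    (∀ᶠ k in l, ∀ h, |P k h| ≤ C * a k ^ (5 / 2 : ℝ)) →
    (∀ᶠ k in l, ∀ h, |Q k h| ≤ C * a k ^ (3 / 2 : ℝ)) →
    (∀ᵐ z : ℂ, ∀ i, Tendsto (fun k => a k ^ (-(3 / 2) : ℝ) * Q k (meshIndex (a k) z, i)) l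
      (𝓝 0)) → Tendsto (fun k => (a k)⁻¹ * formS (S k) (P k) (Q k)) l (𝓝 0)

theorem abs_sq {s : ℝ} (h : s * s = 1) : |s| = 1 := by
  rw [← abs_mul_abs_self] at h
  nlinarith [abs_nonneg s]

/-! ### commutators: support, size -/

omit [l.IsCountablyGenerated] in
theorem supp_of {χ : ℂ → ℝ} {r0 R0 : ℝ} (D : Dat l a W X σ S x₀ δ) (H : Cut χ r0 R0) {R : ℝ}
    (hR : R0 < R) {Ψ : HE ℤ → ℝ} {P : κ → Fld ℤ} (hP : ∀ᶠ k in l, ∀ h, P k h =
      σ k h.1 * comm wB (fun f => χ (meshPoint (a k) f)) Ψ (h.1 - X k, h.2)) :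
    ∀ᶠ k in l, ∀ h, P k h ≠ 0 → meshPoint (a k) h.1 ∈ ann x₀ (r0 / 2) R := by
  have hr := H.pos
  have hm : (0 : ℝ) < min (r0 / 4) ((R - R0) / 2) := lt_min (by linarith) (by linarith)
  filter_upwards [D.pos, D.small hm, D.smallX hm, hP] with k hk h1 h2 hP h hh
  rw [hP h] at hh
  obtain ⟨h3, h4⟩ := comm_supp H wB Ψ hk _ (right_ne_zero_of_mul hh)
  simp only [mesh_sub] at h3 h4
  have m1 := min_le_left (r0 / 4) ((R - R0) / 2)
  have m2 := min_le_right (r0 / 4) ((R - R0) / 2)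
  have e : meshPoint (a k) h.1 - x₀ =
    (meshPoint (a k) h.1 - meshPoint (a k) (X k)) + (meshPoint (a k) (X k) - x₀) := by ring
  have n1 := norm_add_le (meshPoint (a k) h.1 - meshPoint (a k) (X k))
    (meshPoint (a k) (X k) - x₀)
  have n2 := norm_sub_le_norm_add (meshPoint (a k) h.1 - meshPoint (a k) (X k))
    (meshPoint (a k) (X k) - x₀)
  rw [← e] at n1 n2
  constructor
  · linarith
  · linarith

omit [l.IsCountablyGenerated] in
theorem size_of {χ : ℂ → ℝ} {r0 R0 : ℝ} (D : Dat l a W X σ S x₀ δ) (H : Cut χ r0 R0)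
    {Ψ : HE ℤ → ℝ} {α K : ℝ} (hb : ∀ b : ℝ, 0 < b → b ≤ r0 / 2 → ∀ h : HE ℤ,
      |comm wB (fun f => χ (meshPoint b f)) Ψ h| ≤ K * b ^ α)
    {P : κ → Fld ℤ} (hP : ∀ᶠ k in l, ∀ h, P k h =
      σ k h.1 * comm wB (fun f => χ (meshPoint (a k) f)) Ψ (h.1 - X k, h.2)) :
    ∀ᶠ k in l, ∀ h, |P k h| ≤ K * a k ^ α := by
  have hr := H.pos
  filter_upwards [D.pos, D.small (show 0 < r0 / 2 by positivity), hP] with k hk h1 hP h
  rw [hP h, abs_mul, abs_sq (D.sq k h.1), one_mul]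
  exact hb _ hk h1.le _

/-! ### the difference `PsiS2 - PsiS` -/

theorem comm_sub (w : BW ℤ) (χ : ℤ × ℤ → ℝ) (Ψ Φ : HE ℤ → ℝ) (h : HE ℤ) :
    comm w χ (Ψ - Φ) h = comm w χ Ψ h - comm w χ Φ h := by
  unfold Gr2x813.comm edge
  simp only [Pi.sub_apply]; ring

theorem cD_bound {χ : ℂ → ℝ} {r0 R0 : ℝ} (H : Cut χ r0 R0) :
    ∃ K : ℝ, 0 ≤ K ∧ ∀ a : ℝ, 0 < a → a ≤ r0 / 2 → ∀ h : HE ℤ,
    |comm wB (fun f => χ (meshPoint a f)) (PsiS2 - PsiS) h| ≤ K * a ^ (3 / 2 : ℝ) := by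
  obtain ⟨K1, h1, hK1⟩ := cS_bound H
  obtain ⟨K2, h2, hK2⟩ := cS2_bound H
  refine ⟨K2 + K1, by positivity, fun a ha har h => ?_⟩
  rw [comm_sub]
  refine (abs_sub _ _).trans ?_
  rw [add_mul]
  exact add_le_add (hK2 a ha har h) (hK1 a ha har h)

omit [l.IsCountablyGenerated] in
theorem cD_lim {χ : ℂ → ℝ} {r0 R0 : ℝ} (H : Cut χ r0 R0) (ha : Tendsto a l (𝓝[>] 0)) :
    ∀ᵐ z : ℂ, ∀ f : κ → ℤ × ℤ, Tendsto (fun k => meshPoint (a k) (f k)) l (𝓝 z) →
      ∀ d, Tendsto (fun k => a k ^ (-(3 / 2) : ℝ) *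
        comm wB (fun f => χ (meshPoint (a k) f)) (PsiS2 - PsiS) (f k, d)) l (𝓝 0) := by
  filter_upwards [ae_gen2] with z hz f hf d
  have h1 := cS_lim H ha hf hz.1 d
  have h2 := cS2_lim H ha hf hz d
  have h3 := h2.sub h1
  rw [sub_self] at h3
  refine h3.congr fun k => ?_
  rw [comm_sub]; ring

/-! ### the step `(1,-1)` -/

theorem col_add (S : HE ℤ → HE ℤ → ℝ) (u v : Fld ℤ) : col S (u + v) = col S u + col S v := by
  funext h
  exact pr_add _ _ _

/-- **step `(1,-1)`** -/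
theorem diag2 (D : Dat l a W X σ S x₀ δ) {U : ℂ → Fin 4 → ℝ} (E : Eta l a W X σ S x₀ δ U)
    (hsm : Small l a S) {χ χ' : ℂ → ℝ} {r0 R0 r1 R1 : ℝ} (H : Cut χ r0 R0) (hR : R0 < δ)
    (H' : Cut χ' r1 R1) (hR1 : R1 < r0 / 2) :
    Tendsto (fun k => (a k)⁻¹ * (formS (S k) (lS2 (W k) (X k)) (lN2 (W k) (X k)) - 1)) l
      (𝓝 (-∑ d, ∫ z, pN2 χ (z - x₀) d * U z d)) := by
  have hr := H.pos
  have hr1 := H'.pos
  have hR1δ : R1 < δ := by
    have : r0 ≤ R0 := by
      by_contra hc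
      have h1 : (0 : ℝ) ≤ (r0 + max R0 0) / 2 := by positivity
      have h2 : max R0 0 < r0 := max_lt (not_le.1 hc) hr
      have h3 := H.one (((r0 + max R0 0) / 2 : ℝ) : ℂ) (by
        rw [Complex.norm_real, Real.norm_eq_abs, abs_of_nonneg h1]; linarith)
      have h4 := H.zero (((r0 + max R0 0) / 2 : ℝ) : ℂ) (by
        rw [Complex.norm_real, Real.norm_eq_abs, abs_of_nonneg h1]
        linarith [le_max_left R0 0])
      rw [h3] at h4
      exact one_ne_zero h4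
    linarith
  obtain ⟨P, V, hP, hG, -, hc⟩ := gen_ev D H hR near_N2
    (L := fun k => σ k (dn (X k)) • lN2 (W k) (X k)) (D.locX.mono fun k h => srcN2 (D.sq k) h.2)
  obtain ⟨Q, V', hQ, hG', hV', -⟩ := gen_ev D H' hR1δ near_D
    (L := fun k => σ k (dn (X k)) • lS2 (W k) (X k) - σ k (X k) • lS (W k) (X k))
    (D.locX.mono fun k h => (srcS2 (D.sq k) h.1).sub (srcS (D.sq k) h.1))
  obtain ⟨K, hK0, hK⟩ := cN2_bound H
  obtain ⟨K', hK0', hK'⟩ := cD_bound H'
  have h1 := lim_pairS D E H hR hK (q := pN2 χ) (by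
    filter_upwards [ae_gen2] with z hz f hf d
    have := cN2_lim H D.ha hf hz d
    exact this) hP
  have e : (2 - 5 / 2 - 1 / 2 : ℝ) = -1 := by norm_num
  rw [e] at h1
  have hsP := supp_of D H (R := R0 + 1) (by linarith) hP
  have hsQ := supp_of D H' (R := r0 / 2) hR1 hQ
  have hzP := size_of D H hK hP
  have hzQ := size_of D H' hK' hQ
  have h2 : Tendsto (fun k => (a k)⁻¹ * formS (S k) (P k) (Q k)) l (𝓝 0) := by
    refine hsm P Q (ann x₀ (r0 / 2) (R0 + 1)) (ann x₀ (r1 / 2) (r0 / 2)) (max K K')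
      (ann_bdd _ _ _) (ann_bdd _ _ _) hsP hsQ ?_ ?_ ?_
    · filter_upwards [hzP, D.pos] with k h1 h2 h
      exact (h1 h).trans (mul_le_mul_of_nonneg_right (le_max_left _ _)
        (Real.rpow_pos_of_pos h2 _).le)
    · filter_upwards [hzQ, D.pos] with k h1 h2 h
      exact (h1 h).trans (mul_le_mul_of_nonneg_right (le_max_right _ _)
        (Real.rpow_pos_of_pos h2 _).le)
    · have h3 : ∀ᵐ z : ℂ, ∀ f : κ → ℤ × ℤ,
          Tendsto (fun k => meshPoint (a k) (f k)) l (𝓝 (z - x₀)) →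
          ∀ d, Tendsto (fun k => a k ^ (-(3 / 2) : ℝ) *
            comm wB (fun f => χ' (meshPoint (a k) f)) (PsiS2 - PsiS) (f k, d)) l (𝓝 0) :=
        (measurePreserving_sub_right volume x₀).quasiMeasurePreserving.ae (cD_lim H' D.ha)
      filter_upwards [h3] with z hz d
      have h4 := hz (fun k => meshIndex (a k) z - X k) (by
        simp only [mesh_sub]
        exact (Pairx599.tendsto_meshPoint D.ha z).sub D.hX) d
      rw [tendsto_zero_iff_abs_tendsto_zero] at h4 ⊢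
      refine h4.congr' ?_
      filter_upwards [hQ] with k hQ
      simp only [Function.comp, hQ, abs_mul, abs_sq (D.sq k _), one_mul]
  have h3 := (h1.add h2).neg
  rw [add_zero] at h3
  refine h3.congr' ?_
  filter_upwards [hG, hG', hc, hV', hsP, hP, hQ, D.locX, D.pos, D.cov,
    D.small (show 0 < (r0 / 2 - R1) / 2 by linarith),
    D.smallX (show 0 < (r0 / 2 - R1) / 2 by linarith)] with
    k hG hG' hc hV' hsP hPk hQk hloc hpos hcov hsmall hsmallX
  have hσX := D.sq k (X k)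
  have hσd := D.sq k (dn (X k))
  -- abbreviations
  set LN := σ k (dn (X k)) • lN2 (W k) (X k) with hLN
  set LS := σ k (X k) • lS (W k) (X k) with hLS
  set LS2 := σ k (dn (X k)) • lS2 (W k) (X k) with hLS2
  have hS2 : LS2 = LS + (LS2 - LS) := by abel
  -- the disjoint supports
  have hdis : pr (V' k) (P k) = 0 := by
    rw [pr_comm]
    rw [pr_eq_sum (P k) _ _ (Finset.Subset.refl _)]
    refine Finset.sum_eq_zero fun h hh => ?_
    rw [Finsupp.mem_support_iff] at hh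
    have h5 := (hsP h hh).1
    rw [hV' h]
    have h6 : χ' (meshPoint (a k) (h.1 - X k)) = 0 := by
      refine H'.zero _ ?_
      rw [mesh_sub]
      have e : meshPoint (a k) h.1 - x₀ =
        (meshPoint (a k) h.1 - meshPoint (a k) (X k)) + (meshPoint (a k) (X k) - x₀) := by ring
      have n1 := norm_add_le (meshPoint (a k) h.1 - meshPoint (a k) (X k))
        (meshPoint (a k) (X k) - x₀)
      rw [← e] at n1
      linarith
    rw [h6]; ring
  have t1 := hG LS2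
  have t2 : formS (S k) (P k) LS2 = pr (P k) (col (S k) LS) + formS (S k) (P k) (Q k) := by
    rw [hS2, map_add, formS_eq]
    congr 1
    rw [formS_skew hcov.skew, hG' (P k), hdis, sub_zero, formS_skew hcov.skew, neg_neg]
  have t3 := hc PsiS2 _ bS (srcS2 (D.sq k) hloc.1) bS_S2 bS_near
  rw [sum_bS, AS2_0, AS2_1] at t3
  have t4 := PsiN2_lS2
  have t5 : formS (S k) LS2 LN = formS (S k) (lS2 (W k) (X k)) (lN2 (W k) (X k)) := by
    rw [hLS2, hLN, LinearMap.map_smul₂, map_smul, smul_eq_mul, smul_eq_mul]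
    linear_combination (formS (S k) (lS2 (W k) (X k)) (lN2 (W k) (X k))) * hσd
  rw [← t5, formS_skew hcov.skew LS2 LN, t1, t2, t3, Real.rpow_neg_one]
  linear_combination (-(a k)⁻¹) * t4

/-! ### the unit step -/

/-- the constant of the unit step -/
def cU : ℝ := ∑ g ∈ bS, Aop wB PsiS g * (PsiS2 - PsiS) g

/-- **unit step**: the column at the half-edge `(X, S)` converges -/
theorem unit1 (D : Dat l a W X σ S x₀ δ) {U : ℂ → Fin 4 → ℝ} (E : Eta l a W X σ S x₀ δ U)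
    {χ : ℂ → ℝ} {r0 R0 : ℝ} (H : Cut χ r0 R0) (hR : R0 < δ) :
    Tendsto (fun k => col (S k) (lS (W k) (X k)) (X k, 0)) l
      (𝓝 (-(Latx683.xc / (1 - Latx683.xc ^ 2)) * cU)) := by
  obtain ⟨P, V, hP, hG, -, hc⟩ := gen_ev D H hR near_D
    (L := fun k => σ k (dn (X k)) • lS2 (W k) (X k) - σ k (X k) • lS (W k) (X k))
    (D.locX.mono fun k h => (srcS2 (D.sq k) h.1).sub (srcS (D.sq k) h.1))
  obtain ⟨K, -, hK⟩ := cD_bound H
  have h1 := lim_pairS D E H hR hK (q := fun _ _ => 0) (cD_lim H D.ha) hP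
  have e : (2 - 3 / 2 - 1 / 2 : ℝ) = 0 := by norm_num
  rw [e] at h1
  simp only [zero_mul, integral_zero, Finset.sum_const_zero, Real.rpow_zero, one_mul] at h1
  have h2 : Tendsto (fun k => -(Latx683.xc / (1 - Latx683.xc ^ 2)) *
      (pr (P k) (col (S k) (σ k (X k) • lS (W k) (X k))) + cU)) l
      (𝓝 (-(Latx683.xc / (1 - Latx683.xc ^ 2)) * (0 + cU))) := (h1.add_const cU).const_mul _
  rw [zero_add] at h2
  refine h2.congr' ?_
  filter_upwards [hG, hc, D.locX, D.cov] with k hG hc hloc hcov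
  have hσX := D.sq k (X k)
  have hσd := D.sq k (dn (X k))
  have hx1 : (1 - Latx683.xc ^ 2) ≠ 0 := by
    have h5 : Latx683.xc ^ 2 + 2 * Latx683.xc - 1 = 0 := by
      unfold Latx683.xc
      have := Real.sq_sqrt (show (0 : ℝ) ≤ 2 by norm_num)
      nlinarith
    have h6 : Latx683.xc < 1 := by
      unfold Latx683.xc
      have : Real.sqrt 2 < 2 := by
        rw [Real.sqrt_lt' (by norm_num)]; norm_num
      linarith
    have h7 : 0 < Latx683.xc := by
      unfold Latx683.xc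
      have : 1 < Real.sqrt 2 := by
        rw [Real.lt_sqrt (by norm_num)]; norm_num
      linarith
    nlinarith
  set LS := σ k (X k) • lS (W k) (X k) with hLS
  set LS2 := σ k (dn (X k)) • lS2 (W k) (X k) with hLS2
  set s := col (S k) LS with hs
  have hy := loc_dn hloc.1
  -- values
  have v1 : formS (S k) LS LS = s (X k, 0) * σ k (X k) +
      Latx683.xc * (σ k (dn (X k)) * s (dn (X k), 2)) := by
    rw [formS_eq]
    nth_rewrite 1 [hLS]
    rw [pr_smul, pr_lS]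
    have h3 : ((X k).1, (X k).2 - 1) = dn (X k) := rfl
    rw [h3] at hy ⊢
    linear_combination (σ k (X k) * yN (W k) (dn (X k)) * s (dn (X k), 2)) * hσd
      - (σ k (X k) * σ k (dn (X k)) * s (dn (X k), 2)) * hy
      + (Latx683.xc * σ k (dn (X k)) * s (dn (X k), 2)) * hσX
  have v2 : formS (S k) LS2 LS = σ k (dn (X k)) * s (dn (X k), 2) +
      Latx683.xc * (s (X k, 0) * σ k (X k)) := by
    rw [formS_eq]
    nth_rewrite 1 [hLS2]
    unfold lS2
    rw [pr_smul, pr_sub, pr_single, pr_single]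
    have h3 : ((X k).1, (X k).2 - 1) = dn (X k) := rfl
    rw [h3] at hy ⊢
    linear_combination (-s (X k, 0)) * hy
  have v3 : formS (S k) LS LS = 0 := by
    have := formS_skew hcov.skew LS LS
    linarith
  have v4 : formS (S k) (LS2 - LS) LS = pr (P k) s - pr (V k) LS := by
    rw [hG LS, formS_eq]
  rw [map_sub, LinearMap.sub_apply, v3, sub_zero, v2] at v4
  have v5 := hc PsiS _ bS (srcS (D.sq k) hloc.1) bS_S bS_near
  have v6 : pr (V k) LS = -cU := v5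
  rw [v6, sub_neg_eq_add] at v4
  have v7 : col (S k) (lS (W k) (X k)) (X k, 0) = s (X k, 0) * σ k (X k) := by
    rw [hs, hLS, col_smul]
    linear_combination (-(col (S k) (lS (W k) (X k)) (X k, 0))) * hσX
  rw [v7]
  have v8 := v1.symm.trans v3
  field_simp
  linear_combination Latx683.xc * v4 - v8

end Crest.Agent.R165.LogDx813
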