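import Crest.Agent.R165.PathSeq_641

/-!
# Row 165 (S0250), block U4 (helper813): glue

`ldd_glue` : `LDD` from positivity, the two diagonal step quotients and the CONVERGENCE (to anything) of
the ratio of one unit step.  The limit is `1`: `R(X) R(X + e₁) = Z(X + 2 e₁) / Z(X) → 1`.
-/

set_option autoImplicit false

noncomputable section

open Filter Topology Set
open Crest.ProbabilityR.IsingModel

namespace Crest.Agent.R165.LogGx813

open Crest.Agent.R165.PathIntx641 Crest.Agent.R165.PathSeqx641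
open Crest.Agent.R165.ConfTopx641 Crest.Agent.R165.PathGlx641 Crest.Agent.R165.PathDfx641

variable {n : ℕ} {D : Set ℂ} {Z : ℝ → (Fin n → ℤ × ℤ) → ℝ}
  {g : Fin n → Fin 2 → (Fin n → ℂ) → ℝ}

/-- a step with convergent quotient has ratio tending to `1` -/
theorem ratio_of_qv {x : Fin n → ℂ} {i : Fin n} {v : ℤ × ℤ} {q : ℝ}
    (h : Tendsto (qv Z i v) (NF x) (𝓝 q)) :
    Tendsto (fun p : ℝ × (Fin n → ℤ × ℤ) => Z p.1 (sh p.2 i v) / Z p.1 p.2) (NF x) (𝓝 1) := by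
  have ha0 : Tendsto (fun p : ℝ × (Fin n → ℤ × ℤ) => p.1) (NF x) (𝓝 0) :=
    (nf_fst x).mono_right nhdsWithin_le_nhds
  have h1 := (ha0.mul h).add_const 1
  rw [zero_mul, zero_add] at h1
  refine h1.congr' ?_
  filter_upwards [nf_pos x] with p hp
  unfold qv
  field_simp
  ring

/-- the unit ratio is `1` as soon as it converges -/
theorem unit_one (hpos : ∀ x ∈ Conf n D, ∀ᶠ p : ℝ × (Fin n → ℤ × ℤ) in NF x, 0 < Z p.1 p.2)
    (hp : ∀ i, UC (Conf n D) (qv Z i (1, 1)) fun x => g i 0 x + g i 1 x)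
    (hm : ∀ i, UC (Conf n D) (qv Z i (1, -1)) fun x => g i 0 x - g i 1 x)
    (hax : ∀ i, ∀ x ∈ Conf n D, ∃ ρ : ℝ, Tendsto (fun p : ℝ × (Fin n → ℤ × ℤ) =>
      Z p.1 (sh p.2 i (1, 0)) / Z p.1 p.2) (NF x) (𝓝 ρ)) (i : Fin n) (j : Fin 2) :
    UC (Conf n D) (fun p => Z p.1 (sh p.2 i (unitVec j)) / Z p.1 p.2) fun _ => 1 := by
  have key : ∀ x ∈ Conf n D, Tendsto (fun p : ℝ × (Fin n → ℤ × ℤ) =>
      Z p.1 (sh p.2 i (1, 0)) / Z p.1 p.2) (NF x) (𝓝 1) := by
    intro x hx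
    rcases eq_or_neBot (NF x) with hbot | hne
    · rw [hbot]; exact tendsto_bot
    obtain ⟨ρ, hρ⟩ := hax i x hx
    have h1 := hρ.mul (hρ.comp (nf_shift x i (1, 0)))
    have h2 := ratio_of_qv (UC.two_step hpos hp hm i 0 x hx)
    have hpos1 := (nf_shift x i (1, 0)).eventually (hpos x hx)
    have h3 : Tendsto (fun p : ℝ × (Fin n → ℤ × ℤ) =>
        Z p.1 (sh p.2 i ((2 : ℤ) • unitVec 0)) / Z p.1 p.2) (NF x) (𝓝 (ρ * ρ)) := by
      refine h1.congr' ?_
      filter_upwards [hpos x hx, hpos1] with p h3 h4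
      simp only [Function.comp, sh_sh] at h4 ⊢
      have e : ((1 : ℤ), (0 : ℤ)) + (1, 0) = (2 : ℤ) • unitVec 0 := by
        simp [unitVec]
      rw [e]
      field_simp
    have h4 : ρ * ρ = 1 := tendsto_nhds_unique h3 h2
    have h5 : 0 ≤ ρ := by
      refine ge_of_tendsto hρ ?_
      filter_upwards [hpos x hx, hpos1] with p h3 h4
      exact (div_pos h4 h3).le
    have h6 : ρ = 1 := by nlinarith
    rw [← h6]; exact hρ
  intro x hx
  fin_cases j
  · have e : unitVec 0 = ((1 : ℤ), (0 : ℤ)) := by simp [unitVec]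
    simp only [Fin.zero_eta, e]
    exact key x hx
  · have e : unitVec 1 = ((0 : ℤ), (1 : ℤ)) := by simp [unitVec]
    simp only [Fin.mk_one, e]
    have h1 := (key x hx).comp (nf_shift x i (0, 1))
    have h2 := ratio_of_qv (hp i x hx)
    have hpos1 := (nf_shift x i (0, 1)).eventually (hpos x hx)
    have hpos2 := (nf_shift x i (1, 1)).eventually (hpos x hx)
    have h3 := h2.div h1 one_ne_zero
    rw [div_one] at h3
    refine h3.congr' ?_
    filter_upwards [hpos x hx, hpos1, hpos2] with p h4 h5 h6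
    simp only [Pi.div_apply, Function.comp, sh_sh] at h5 h6 ⊢
    have e2 : ((0 : ℤ), (1 : ℤ)) + (1, 0) = (1, 1) := by simp
    rw [e2]
    field_simp

/-- **glue** -/
theorem ldd_glue (hD : IsOpen D) (hc : IsPreconnected D)
    (hpos : ∀ x ∈ Conf n D, ∀ᶠ p : ℝ × (Fin n → ℤ × ℤ) in NF x, 0 < Z p.1 p.2)
    (hp : ∀ i, UC (Conf n D) (qv Z i (1, 1)) fun x => g i 0 x + g i 1 x)
    (hm : ∀ i, UC (Conf n D) (qv Z i (1, -1)) fun x => g i 0 x - g i 1 x)
    (hax : ∀ i, ∀ x ∈ Conf n D, ∃ ρ : ℝ, Tendsto (fun p : ℝ × (Fin n → ℤ × ℤ) =>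
      Z p.1 (sh p.2 i (1, 0)) / Z p.1 p.2) (NF x) (𝓝 ρ)) : LDD n D Z g :=
  LDD.of_diag hD hc hpos hp hm (unit_one hpos hp hm hax)

end Crest.Agent.R165.LogGx813
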