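import Crest.Agent.R165.LdGen_817
import Crest.Agent.R165.LogD2_813
import Crest.Agent.R165.LogG_813

/-!
# Row 165 (S0250), block U (helper817): logarithmic derivatives from resolvent convergence, II

* `exists_cut`, `two_cut` : two-variable Green identity with disjoint cut-offs
* `step_lim` : `a^(1-p-q) (formS L_P L_Q - const) → L`
* `diag1'`, `diag2'`, `unit'` : the steps `(1,1)`, `(1,-1)`, `(1,0)`
-/

set_option autoImplicit false

noncomputable section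

open MeasureTheory Filter Topology Set Metric
open Crest.ProbabilityR.IsingModel

namespace Crest.Agent.R165.LdGenx817

open Crest.Agent.R165.Embx622 Crest.Agent.R165.LdPairx817
open Crest.Agent.R165.Tr1x40 (Face)
open Crest.Agent.R165.RIfx891 (lv)
open Crest.Agent.R165.Mac0x622 (Om rX rX_ne)
open Crest.Agent.R165.Latx683 Crest.Agent.R165.Br1x644 Crest.Agent.R165.Gr2x813
open Crest.Agent.R165.Gr3x813 Crest.Agent.R165.PsiLx375 Crest.Agent.R165.LogDx813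
open Crest.Agent.R165.Br5x644 (PsiS2 PsiN2 Gen Gen2 Cv sz PsiN2_lS2)

theorem exists_cut {r0 R0 : ℝ} (h0 : 0 < r0) (h1 : r0 < R0) : ∃ χ : ℂ → ℝ, Cut χ r0 R0 := by
  let f : ContDiffBump (0 : ℂ) := ⟨r0, R0, h0, h1⟩
  refine ⟨f, h0, fun z hz => ?_, fun z hz => ?_, f.contDiff⟩
  · exact f.one_of_mem_closedBall (by rw [mem_closedBall, dist_zero_right]; exact hz.le)
  · exact f.zero_of_le_dist (by rw [dist_zero_right]; exact hz)

section two

variable {a : ℕ → ℝ} {W : ℕ → BW ℤ} {X : ℕ → ℤ × ℤ} {σ : ℕ → ℤ × ℤ → ℝ}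
  {S : ℕ → HE ℤ → HE ℤ → ℝ} {x₀ : ℂ} {δ : ℝ}

/-- **two-variable Green identity with disjoint cut-offs**, `Q` inside, `P` outside -/
theorem two_cut (D : Dat atTop a W X σ S x₀ δ) {χ χ' : ℂ → ℝ} {r0 R0 r1 R1 : ℝ} (H : Cut χ r0 R0)
    (hrR : r0 ≤ R0) (hR : R0 < δ) (H' : Cut χ' r1 R1) (hR1 : R1 < r0 / 2)
    {ΨP ΨQ : HE ℤ → ℝ}
    (hnP : ∀ g : HE ℤ, Aop wB ΨP g ≠ 0 → |g.1.1| ≤ 2 ∧ |g.1.2| ≤ 2)
    (hnQ : ∀ g : HE ℤ, Aop wB ΨQ g ≠ 0 → |g.1.1| ≤ 2 ∧ |g.1.2| ≤ 2)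
    {B : Finset (HE ℤ)} (hB : ∀ g, g ∉ B → Aop wB ΨQ g = 0)
    (hB2 : ∀ g ∈ B, |g.1.1| ≤ 2 ∧ |g.1.2| ≤ 2)
    {LP LQ : ℕ → Fld ℤ} (hLP : ∀ᶠ k in atTop, Src ΨP (X k) (σ k) (LP k))
    (hLQ : ∀ᶠ k in atTop, Src ΨQ (X k) (σ k) (LQ k)) :
    ∃ P Q : ℕ → Fld ℤ,
      (∀ᶠ k in atTop, ∀ h, P k h =
        σ k h.1 * comm wB (fun f => χ (meshPoint (a k) f)) ΨP (h.1 - X k, h.2)) ∧
      (∀ᶠ k in atTop, ∀ h, Q k h =
        σ k h.1 * comm wB (fun f => χ' (meshPoint (a k) f)) ΨQ (h.1 - X k, h.2)) ∧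
      ∀ᶠ k in atTop, formS (S k) (LP k) (LQ k) - ∑ g ∈ B, Aop wB ΨQ g * ΨP g =
        formS (S k) (P k) (Q k) := by
  have hr := H.pos
  have hR1δ : R1 < δ := by linarith
  obtain ⟨P, V, hP, hG, -, hc⟩ := gen_ev D H hR hnP hLP
  obtain ⟨Q, V', hQ, hG', hV', -⟩ := gen_ev D H' hR1δ hnQ hLQ
  refine ⟨P, Q, hP, hQ, ?_⟩
  have hsP := supp_of D H (R := R0 + 1) (by linarith) hP
  filter_upwards [hG, hG', hc, hV', hsP, D.cov, hLQ,
    D.small (show 0 < (r0 / 2 - R1) / 2 by linarith),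
    D.smallX (show 0 < (r0 / 2 - R1) / 2 by linarith)] with
    k hG hG' hc hV' hsP hcov hLQ hsmall hsmallX
  have hdis : pr (V' k) (P k) = 0 := by
    rw [pr_comm]
    rw [pr_eq_sum (P k) _ _ (Finset.Subset.refl _)]
    refine Finset.sum_eq_zero fun h hh => ?_
    rw [Finsupp.mem_support_iff] at hh
    have h5 := (hsP h hh).1
    rw [hV' h]
    have h6 : χ' (meshPoint (a k) (h.1 - X k)) = 0 := by
      refine H'.zero _ ?_
      rw [LogDx813.mesh_sub]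
      have e : meshPoint (a k) h.1 - x₀ =
        (meshPoint (a k) h.1 - meshPoint (a k) (X k)) + (meshPoint (a k) (X k) - x₀) := by ring
      have n1 := norm_add_le (meshPoint (a k) h.1 - meshPoint (a k) (X k))
        (meshPoint (a k) (X k) - x₀)
      rw [← e] at n1
      linarith
    rw [h6]; ring
  have t1 := hG (LQ k)
  have t2 : formS (S k) (P k) (LQ k) = formS (S k) (P k) (Q k) := by
    rw [formS_skew hcov.skew, hG' (P k), hdis, sub_zero, formS_skew hcov.skew, neg_neg]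
  have t3 := hc ΨQ _ B hLQ hB hB2
  rw [t1, t2, t3]; ring

end two

section lim

variable {D : Set ℂ} {n : ℕ} {x : Fin n → ℂ} {w : ℝ → BW ℤ} {x₀ : ℂ} {δ : ℝ}

/-- **limits of the step ratios** -/
theorem step_lim (hD : IsOpen D) (hRC : RC D x w) (hδ : 0 < δ)
    (hball : ∀ z, z ≠ x₀ → ‖z - x₀‖ < δ → z ∈ Om D x)
    {ΨP ΨQ : HE ℤ → ℝ} {p q : ℝ} {cP cQ : ℂ → ℂ} (HP : SrcD ΨP p cP) (HQ : SrcD ΨQ q cQ)
    {B : Finset (HE ℤ)} (hB : ∀ g, g ∉ B → Aop wB ΨQ g = 0)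
    (hB2 : ∀ g ∈ B, |g.1.1| ≤ 2 ∧ |g.1.2| ≤ 2)
    {s : ℂ → ℝ} (hsm : Measurable s) (hs1 : ∀ z, |s z| ≤ 1) :
    ∃ L : ℝ, ((∀ z, cP z = 0) → L = 0) ∧
      ∀ (a : ℕ → ℝ) (X : ℕ → Fin n → ℤ × ℤ), (∀ k, 0 < a k) → Tendsto a atTop (𝓝 0) →
        (∀ i, Tendsto (fun k => meshPoint (a k) (X k i)) atTop (𝓝 (x i))) →
        ∀ (i : Fin n) (σ : ℕ → ℤ × ℤ → ℝ) (S : ℕ → HE ℤ → HE ℤ → ℝ),
        Dat atTop a (fun k => wX (w (a k)) (X k)) (fun k => X k i) σ S x₀ δ →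
        (∀ᵐ z : ℂ, Tendsto (fun k => σ k (meshIndex (a k) z)) atTop (𝓝 (s z))) →
        ∀ LP LQ : ℕ → Fld ℤ, (∀ᶠ k in atTop, Src ΨP (X k i) (σ k) (LP k)) →
        (∀ᶠ k in atTop, Src ΨQ (X k i) (σ k) (LQ k)) →
        Tendsto (fun k => a k ^ (1 - p - q) *
          (formS (S k) (LP k) (LQ k) - ∑ g ∈ B, Aop wB ΨQ g * ΨP g)) atTop (𝓝 L) := by
  -- radii : Q in `δ/64 < r < δ/32`, P in `δ/4 < r < δ/3`
  obtain ⟨χ, H⟩ := exists_cut (r0 := δ / 4) (R0 := δ / 3) (by positivity) (by linarith)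
  obtain ⟨χ', H'⟩ := exists_cut (r0 := δ / 64) (R0 := δ / 32) (by positivity) (by linarith)
  obtain ⟨F, ⟨gg, hgg, hF⟩, hloc⟩ := gl hRC hball HQ H' (by linarith) (by linarith) hsm hs1
  refine ⟨∑ d, ∫ z, (s z * dens χ cP (z - x₀) d) * lv (F z) d, fun h0 => ?_, ?_⟩
  · refine Finset.sum_eq_zero fun d _ => ?_
    have : ∀ z, (s z * dens χ cP (z - x₀) d) * lv (F z) d = 0 := by
      intro z
      unfold dens
      rw [h0, lv_zero]; ring
    simp only [this, integral_zero]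
  · intro a X hpos hlim htip i σ S hDat hσ LP LQ hLP hLQ
    obtain ⟨P, Q, hP, hQ, hE⟩ := two_cut hDat H (by linarith) (by linarith) H' (by linarith)
      HP.near HQ.near hB hB2 hLP hLQ
    have hsub : ann x₀ (δ / 4 / 2) (2 * (δ / 3)) ⊆ Om D x \ ann x₀ (δ / 64 / 2) (2 * (δ / 32)) := by
      intro z hz
      refine ⟨ann_sub hball (by positivity) (by linarith) hz, fun h => ?_⟩
      have h1 := hz.1
      have h2 := h.2
      linarith
    have key := gl_pair HP H (by linarith) hD (ann_closed x₀ (δ / 64 / 2) (2 * (δ / 32))) hsub hgg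
      hF hpos hlim hDat hσ hP (hloc a X hpos hlim htip i σ S hDat hσ Q hQ)
    refine key.congr' ?_
    filter_upwards [hE] with k hk
    rw [hk]

end lim

/-! ### the unit step -/

theorem xc_facts : (1 - Latx683.xc ^ 2) ≠ 0 := by
  have h5 : Latx683.xc ^ 2 + 2 * Latx683.xc - 1 = 0 := by
    unfold Latx683.xc
    have := Real.sq_sqrt (show (0 : ℝ) ≤ 2 by norm_num)
    nlinarith
  have h6 : Latx683.xc < 1 := by
    unfold Latx683.xc
    have : Real.sqrt 2 < 2 := by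
      rw [Real.sqrt_lt' (by norm_num)]; norm_num
    linarith
  have h7 : 0 < Latx683.xc := by
    unfold Latx683.xc
    have : 1 < Real.sqrt 2 := by
      rw [Real.lt_sqrt (by norm_num)]; norm_num
    linarith
  nlinarith

/-- the column of `l_S` at the half-edge `(X, S)` -/
theorem unit_id {W : BW ℤ} {X : ℤ × ℤ} {σ : ℤ × ℤ → ℝ} {S : HE ℤ → HE ℤ → ℝ}
    (hσ : ∀ f, σ f * σ f = 1) (hloc : LocAt W wB X σ X) (hcov : IsCov W S) :
    col S (lS W X) (X, 0) = -(Latx683.xc / (1 - Latx683.xc ^ 2)) *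
      formS S (σ (dn X) • lS2 W X - σ X • lS W X) (σ X • lS W X) := by
  have hσX := hσ X
  have hσd := hσ (dn X)
  have hx1 := xc_facts
  set LS := σ X • lS W X with hLS
  set LS2 := σ (dn X) • lS2 W X with hLS2
  set s := col S LS with hs
  have hy := loc_dn hloc
  have v1 : formS S LS LS = s (X, 0) * σ X + Latx683.xc * (σ (dn X) * s (dn X, 2)) := by
    rw [formS_eq]
    nth_rewrite 1 [hLS]
    rw [pr_smul, pr_lS]
    have h3 : (X.1, X.2 - 1) = dn X := rfl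
    rw [h3] at hy ⊢
    linear_combination (σ X * yN W (dn X) * s (dn X, 2)) * hσd
      - (σ X * σ (dn X) * s (dn X, 2)) * hy
      + (Latx683.xc * σ (dn X) * s (dn X, 2)) * hσX
  have v2 : formS S LS2 LS = σ (dn X) * s (dn X, 2) + Latx683.xc * (s (X, 0) * σ X) := by
    rw [formS_eq]
    nth_rewrite 1 [hLS2]
    unfold lS2
    rw [pr_smul, pr_sub, pr_single, pr_single]
    have h3 : (X.1, X.2 - 1) = dn X := rfl
    rw [h3] at hy ⊢
    linear_combination (-s (X, 0)) * hy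
  have v3 : formS S LS LS = 0 := by
    have := formS_skew hcov.skew LS LS
    linarith
  have v4 : formS S (LS2 - LS) LS = σ (dn X) * s (dn X, 2) + Latx683.xc * (s (X, 0) * σ X) := by
    rw [map_sub, LinearMap.sub_apply, v3, sub_zero, v2]
  have v7 : col S (lS W X) (X, 0) = s (X, 0) * σ X := by
    rw [hs, hLS, col_smul]
    linear_combination (-(col S (lS W X) (X, 0))) * hσX
  rw [v7, v4]
  have v8 := v1.symm.trans v3
  field_simp
  linear_combination v8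

end Crest.Agent.R165.LdGenx817
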