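import Crest.Agent.R165.Gr3_813
import Crest.Agent.R165.Pair_599
import Crest.Agent.R165.Br8_644
import Crest.Agent.R165.PsiLim_375

/-!
# Row 165 (S0250), block U4 (helper813): limits of the step ratios

`l` is a countably generated filter, `a → 0⁺`, `meshPoint a X → x₀`, the background `W` is near `x₀` the
plane with one branch vertex, up to a gauge `σ`.

* `Src Ψ X σ L` : `L` is the gauged source vector of `Ψ`
* `gen1` : Green identity for a source vector, `pr_cut` : the constants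
* `Dat`, `Eta` : the local data, the limit of the column with source at the branch
* `lim_pair` : limits of the pairings with a commutator
* `diag1` : `a⁻¹ (formS l_N l_S - 1) → Σ_d ∫ pN(z - x₀, d) U(z, d)` (step `(1,1)`)
* `diag2` : the same for the step `(1,-1)`
* `unit1` : the unit step ratio converges to a universal constant
-/

set_option autoImplicit false

noncomputable section

open Filter Topology Set MeasureTheory
open Crest.ProbabilityR.IsingModel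

namespace Crest.Agent.R165.LogDx813

open Crest.Agent.R165.Latx683 Crest.Agent.R165.Br1x644 Crest.Agent.R165.Gr2x813
open Crest.Agent.R165.Gr3x813 Crest.Agent.R165.PsiLx375
open Crest.Agent.R165.Br5x644 (PsiS2 PsiN2 Aop_PsiS2 Aop_PsiN2 PsiS2_lN2 PsiN2_lS2 Gen Gen2)

/-! ### source vectors -/

/-- `L` is the gauged source vector of `Ψ` -/
def Src (Ψ : HE ℤ → ℝ) (X : ℤ × ℤ) (σ : ℤ × ℤ → ℝ) (L : Fld ℤ) : Prop :=
  ∀ h : HE ℤ, L h = -(σ h.1 * Aop wB Ψ (h.1 - X, h.2))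

theorem Src.sub {Ψ Φ : HE ℤ → ℝ} {X : ℤ × ℤ} {σ : ℤ × ℤ → ℝ} {L M : Fld ℤ}
    (h1 : Src Ψ X σ L) (h2 : Src Φ X σ M) : Src (Ψ - Φ) X σ (L - M) := by
  intro h
  rw [Finsupp.sub_apply, h1 h, h2 h, map_sub, Pi.sub_apply]; ring

/-- Green identity for a source vector -/
theorem gen1 {w : BW ℤ} {X : ℤ × ℤ} {σ : ℤ × ℤ → ℝ} (hσ : ∀ f, σ f * σ f = 1)
    {S : HE ℤ → HE ℤ → ℝ} (hS : IsCov w S) {χ : ℤ × ℤ → ℝ} (hχ : χ.support.Finite)
    (hloc : ∀ f, χ f ≠ 0 → LocAt w wB X σ f) {Ψ : HE ℤ → ℝ} {L : Fld ℤ} (hL : Src Ψ X σ L)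
    (h1 : ∀ h : HE ℤ, Aop wB Ψ h ≠ 0 → χ (h.1 + X) = 1) :
    ∃ P : Fld ℤ, (∀ h, P h = σ h.1 * comm wB (fun f => χ (f + X)) Ψ (h.1 - X, h.2)) ∧
      ∀ v : Fld ℤ, formS S L v = formS S P v - pr (cutF χ hχ (gsh X σ Ψ)) v := by
  obtain ⟨P, hP, hPv⟩ := cut_eq hσ hχ hloc (Ψ := Ψ) (l := L) hL (by
    intro h hh
    have := h1 _ hh
    simpa using this)
  exact ⟨P, hPv, fun v => green1' hS hP v⟩

/-- the constants -/
theorem pr_cut {X : ℤ × ℤ} {σ : ℤ × ℤ → ℝ} (hσ : ∀ f, σ f * σ f = 1) {χ : ℤ × ℤ → ℝ}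
    (hχ : χ.support.Finite) {Φ : HE ℤ → ℝ} {M : Fld ℤ} (hM : Src Φ X σ M) (Ψ : HE ℤ → ℝ)
    {B : Finset (HE ℤ)} (hB : ∀ g, g ∉ B → Aop wB Φ g = 0) (h1 : ∀ g ∈ B, χ (g.1 + X) = 1) :
    pr (cutF χ hχ (gsh X σ Ψ)) M = -∑ g ∈ B, Aop wB Φ g * Ψ g := by
  classical
  rw [pr_comm]
  let e : HE ℤ ↪ HE ℤ := ⟨fun g => (g.1 + X, g.2), fun g g' h => by
    simp only [Prod.mk.injEq, add_left_inj] at h
    exact Prod.ext h.1 h.2⟩
  rw [pr_eq_sum M _ (B.map e) (by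
    intro h hh
    rw [Finsupp.mem_support_iff, hM h] at hh
    rw [Finset.mem_map]
    refine ⟨(h.1 - X, h.2), ?_, ?_⟩
    · by_contra hc
      exact hh (by rw [hB _ hc]; ring)
    · show ((h.1 - X) + X, h.2) = h
      rw [sub_add_cancel]), Finset.sum_map, ← Finset.sum_neg_distrib]
  refine Finset.sum_congr rfl fun g hg => ?_
  have e1 : e g = (g.1 + X, g.2) := rfl
  rw [e1, hM, cutF_apply]
  simp only [gsh, add_sub_cancel_right, h1 g hg]
  have := hσ (g.1 + X)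
  linear_combination (-(Aop wB Φ g * Ψ g)) * this

/-! ### the four corners at the branch -/

/-- the two half-edges at the ray, where `PsiS`, `PsiS2` have their source -/
def bS : Finset (HE ℤ) := {(((0, 0), 0) : HE ℤ), (((0, -1), 2) : HE ℤ)}

theorem bS_S (g : HE ℤ) (h : g ∉ bS) : Aop wB PsiS g = 0 := by
  simp only [bS, Finset.mem_insert, Finset.mem_singleton, not_or] at h
  rw [Aop_PsiS, if_neg h.2, if_neg h.1]

theorem bS_S2 (g : HE ℤ) (h : g ∉ bS) : Aop wB PsiS2 g = 0 := by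
  simp only [bS, Finset.mem_insert, Finset.mem_singleton, not_or] at h
  rw [Aop_PsiS2, if_neg h.1, if_neg h.2]

theorem sum_bS (F : HE ℤ → ℝ) : ∑ g ∈ bS, F g = F ((0, 0), 0) + F ((0, -1), 2) := by
  unfold bS
  rw [Finset.sum_pair (by simp)]

theorem AS_0 : Aop wB PsiS ((0, 0), 0) = -1 := by
  rw [Aop_PsiS, if_neg (by simp), if_pos rfl]
theorem AS_1 : Aop wB PsiS ((0, -1), 2) = -Latx683.xc := by
  rw [Aop_PsiS, if_pos rfl]
theorem AS2_0 : Aop wB PsiS2 ((0, 0), 0) = -Latx683.xc := by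
  rw [Aop_PsiS2, if_pos rfl]
theorem AS2_1 : Aop wB PsiS2 ((0, -1), 2) = -1 := by
  rw [Aop_PsiS2, if_neg (by simp), if_pos rfl]

theorem near_S (g : HE ℤ) (h : Aop wB PsiS g ≠ 0) : |g.1.1| ≤ 2 ∧ |g.1.2| ≤ 2 := by
  by_contra hc
  refine h (bS_S g fun hg => hc ?_)
  simp only [bS, Finset.mem_insert, Finset.mem_singleton] at hg
  rcases hg with rfl | rfl <;> norm_num

theorem near_S2 (g : HE ℤ) (h : Aop wB PsiS2 g ≠ 0) : |g.1.1| ≤ 2 ∧ |g.1.2| ≤ 2 := by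
  by_contra hc
  refine h (bS_S2 g fun hg => hc ?_)
  simp only [bS, Finset.mem_insert, Finset.mem_singleton] at hg
  rcases hg with rfl | rfl <;> norm_num

theorem near_N (g : HE ℤ) (h : Aop wB PsiN g ≠ 0) : |g.1.1| ≤ 2 ∧ |g.1.2| ≤ 2 := by
  rw [Aop_PsiN] at h
  by_cases h1 : g = ((0, 0), 2)
  · rw [h1]; norm_num
  · rw [if_neg h1] at h
    by_cases h2 : g = ((0, 1), 0)
    · rw [h2]; norm_num
    · rw [if_neg h2] at h; exact absurd rfl h

theorem near_N2 (g : HE ℤ) (h : Aop wB PsiN2 g ≠ 0) : |g.1.1| ≤ 2 ∧ |g.1.2| ≤ 2 := by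
  rw [Aop_PsiN2] at h
  by_cases h1 : g = ((0, -1), 0)
  · rw [h1]; norm_num
  · rw [if_neg h1] at h
    by_cases h2 : g = ((0, -2), 2)
    · rw [h2]; norm_num
    · rw [if_neg h2] at h; exact absurd rfl h

theorem near_D (g : HE ℤ) (h : Aop wB (PsiS2 - PsiS) g ≠ 0) : |g.1.1| ≤ 2 ∧ |g.1.2| ≤ 2 := by
  rw [map_sub, Pi.sub_apply] at h
  by_cases h1 : Aop wB PsiS g = 0
  · refine near_S2 g fun h2 => h ?_
    rw [h1, h2, sub_zero]
  · exact near_S g h1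

/-- corner at the branch, face below -/
def lS2 (w : BW ℤ) (X : ℤ × ℤ) : Fld ℤ :=
  Finsupp.single ((X.1, X.2 - 1), 2) 1 - Finsupp.single (X, 0) (yN w (X.1, X.2 - 1))

/-- opposite corner of the face below -/
def lN2 (w : BW ℤ) (X : ℤ × ℤ) : Fld ℤ :=
  Finsupp.single ((X.1, X.2 - 1), 0) 1 + Finsupp.single ((X.1, X.2 - 2), 2) (yN w (X.1, X.2 - 2))

/-- the face below -/
def dn (X : ℤ × ℤ) : ℤ × ℤ := (X.1, X.2 - 1)

theorem srcS {w : BW ℤ} {X : ℤ × ℤ} {σ : ℤ × ℤ → ℝ} (hσ : ∀ f, σ f * σ f = 1)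
    (hX : LocAt w wB X σ X) : Src PsiS X σ (σ X • lS w X) := src_S hσ hX

theorem srcN {w : BW ℤ} {X : ℤ × ℤ} {σ : ℤ × ℤ → ℝ} (hσ : ∀ f, σ f * σ f = 1)
    (hX : LocAt w wB X σ X) : Src PsiN X σ (σ X • lN w X) := src_N hσ hX

theorem loc_dn {w : BW ℤ} {X : ℤ × ℤ} {σ : ℤ × ℤ → ℝ} (hX : LocAt w wB X σ X) :
    yN w (X.1, X.2 - 1) * σ (dn X) = -(σ X * Latx683.xc) := by
  have h0 := hX 0
  simp only [ew_zero, nbf_zero, sub_self] at h0
  have e0 : yN wB ((0 : ℤ × ℤ).1, (0 : ℤ × ℤ).2 - 1) = -Latx683.xc := by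
    have := yN_wB 0 (-1)
    simp only [sg] at this
    rw [show (((0 : ℤ × ℤ).1, (0 : ℤ × ℤ).2 - 1) : ℤ × ℤ) = (0, -1) from rfl, this]
    norm_num
  rw [e0] at h0
  unfold dn
  linear_combination h0

theorem srcS2 {w : BW ℤ} {X : ℤ × ℤ} {σ : ℤ × ℤ → ℝ} (hσ : ∀ f, σ f * σ f = 1)
    (hX : LocAt w wB X σ X) : Src PsiS2 X σ (σ (dn X) • lS2 w X) := by
  have h1 := loc_dn hX
  have h2 := hσ (dn X)
  have h3 := hσ X
  rintro ⟨f, d⟩
  rw [Finsupp.smul_apply, lS2, Finsupp.sub_apply, Finsupp.single_apply, Finsupp.single_apply,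
    Aop_PsiS2, smul_eq_mul]
  simp only [Prod.mk.injEq, sub_eq_iff]
  have e1 : X + (0, 0) = X := by simp
  have e2 : X + (0, -1) = (X.1, X.2 - 1) := by ext <;> simp [sub_eq_add_neg]
  rw [e1, e2]
  by_cases hA : f = (X.1, X.2 - 1) ∧ d = 2
  · obtain ⟨rfl, rfl⟩ := hA
    rw [if_pos (by simp), if_neg (by simp), if_neg (by simp), if_pos (by simp)]
    unfold dn; ring
  · by_cases hB : f = X ∧ d = 0
    · obtain ⟨rfl, rfl⟩ := hB
      rw [if_neg (by simp), if_pos (by simp), if_pos (by simp)]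
      linear_combination (-1 : ℝ) * h1
    · rw [if_neg (fun h => hA ⟨h.1.symm, h.2.symm⟩), if_neg (fun h => hB ⟨h.1.symm, h.2.symm⟩),
        if_neg hB, if_neg hA]
      ring

theorem srcN2 {w : BW ℤ} {X : ℤ × ℤ} {σ : ℤ × ℤ → ℝ} (hσ : ∀ f, σ f * σ f = 1)
    (hX : LocAt w wB X σ (dn X)) : Src PsiN2 X σ (σ (dn X) • lN2 w X) := by
  have h0 := hX 0
  simp only [ew_zero, nbf_zero] at h0
  have e0 : yN wB ((dn X - X).1, (dn X - X).2 - 1) = Latx683.xc := by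
    have := yN_wB 0 (-2)
    simp only [sg] at this
    have e : ((dn X - X).1, (dn X - X).2 - 1) = ((0, -2) : ℤ × ℤ) := by
      unfold dn
      ext <;> simp
    rw [e, this]
    norm_num
  rw [e0] at h0
  have e3 : ((dn X).1, (dn X).2 - 1) = ((X.1, X.2 - 2) : ℤ × ℤ) := by
    unfold dn
    ext
    · rfl
    · show X.2 - 1 - 1 = X.2 - 2; ring
  rw [e3] at h0
  have h2 := hσ (X.1, X.2 - 2)
  have h3 := hσ (dn X)
  rintro ⟨f, d⟩
  rw [Finsupp.smul_apply, lN2, Finsupp.add_apply, Finsupp.single_apply, Finsupp.single_apply,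
    Aop_PsiN2, smul_eq_mul]
  simp only [Prod.mk.injEq, sub_eq_iff]
  have e1 : X + (0, -1) = (X.1, X.2 - 1) := by ext <;> simp [sub_eq_add_neg]
  have e2 : X + (0, -2) = (X.1, X.2 - 2) := by ext <;> simp [sub_eq_add_neg]
  rw [e1, e2]
  by_cases hA : f = (X.1, X.2 - 1) ∧ d = 0
  · obtain ⟨rfl, rfl⟩ := hA
    rw [if_pos (by simp), if_neg (by simp), if_pos (by simp)]
    unfold dn; ring
  · by_cases hB : f = (X.1, X.2 - 2) ∧ d = 2
    · obtain ⟨rfl, rfl⟩ := hB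
      rw [if_neg (by simp), if_pos (by simp), if_neg (by simp), if_pos (by simp)]
      linear_combination (-(σ (dn X) * yN w (X.1, X.2 - 2))) * h2
        + (σ (dn X) * σ (X.1, X.2 - 2)) * h0 + Latx683.xc * σ (X.1, X.2 - 2) * h3
    · rw [if_neg (fun h => hA ⟨h.1.symm, h.2.symm⟩), if_neg (fun h => hB ⟨h.1.symm, h.2.symm⟩),
        if_neg hA, if_neg hB]
      ring

/-! ### filter level -/

theorem ev_choice {κ α : Type*} [Nonempty α] {l : Filter κ} {p : κ → α → Prop}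
    (h : ∀ᶠ k in l, ∃ y, p k y) : ∃ f : κ → α, ∀ᶠ k in l, p k (f k) := by
  classical
  refine ⟨fun k => if h : ∃ y, p k y then h.choose else Classical.arbitrary α,
    h.mono fun k hk => ?_⟩
  simp only [dif_pos hk]
  exact hk.choose_spec

section flt

variable {κ : Type*} {l : Filter κ} [l.IsCountablyGenerated]

/-- closed annulus -/
def ann (x₀ : ℂ) (r R : ℝ) : Set ℂ := {z | r ≤ ‖z - x₀‖ ∧ ‖z - x₀‖ ≤ R}

theorem ann_bdd (x₀ : ℂ) (r R : ℝ) : Bornology.IsBounded (ann x₀ r R) := by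
  refine (Metric.isBounded_closedBall (x := x₀) (r := R)).subset fun z hz => ?_
  rw [Metric.mem_closedBall, dist_eq_norm]
  exact hz.2

theorem ann_closed (x₀ : ℂ) (r R : ℝ) : IsClosed (ann x₀ r R) := by
  have h : Continuous fun z : ℂ => ‖z - x₀‖ := (continuous_id.sub continuous_const).norm
  exact (isClosed_le continuous_const h).inter (isClosed_le h continuous_const)

theorem mesh_sub (a : ℝ) (f X : ℤ × ℤ) :
    meshPoint a (f - X) = meshPoint a f - meshPoint a X := by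
  apply Complex.ext <;> simp [meshPoint] <;> ring

theorem mesh_add (a : ℝ) (f X : ℤ × ℤ) :
    meshPoint a (f + X) = meshPoint a f + meshPoint a X := by
  apply Complex.ext <;> simp [meshPoint] <;> ring

/-- limits of the pairings with a commutator `σ [A, χ] Ψ` -/
theorem lim_pair {a : κ → ℝ} (ha : Tendsto a l (𝓝[>] 0)) {X : κ → ℤ × ℤ} {x₀ : ℂ}
    (hX : Tendsto (fun k => meshPoint (a k) (X k)) l (𝓝 x₀)) {σ : κ → ℤ × ℤ → ℝ}
    (hσ : ∀ k f, σ k f * σ k f = 1) {χ : ℂ → ℝ} {r0 R0 R : ℝ} (H : Cut χ r0 R0) (hR : R0 < R)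
    {Ψ : HE ℤ → ℝ} {α K : ℝ}
    (hb : ∀ b : ℝ, 0 < b → b ≤ r0 / 2 → ∀ h : HE ℤ,
      |comm wB (fun f => χ (meshPoint b f)) Ψ h| ≤ K * b ^ α) {q : ℂ → Fin 4 → ℝ}
    (hq : ∀ᵐ z : ℂ, ∀ f : κ → ℤ × ℤ, Tendsto (fun k => meshPoint (a k) (f k)) l (𝓝 z) →
      ∀ d, Tendsto (fun k => a k ^ (-α) * comm wB (fun f => χ (meshPoint (a k) f)) Ψ (f k, d)) l
        (𝓝 (q z d)))
    {P : κ → Fld ℤ} (hP : ∀ᶠ k in l, ∀ h, P k h =
      σ k h.1 * comm wB (fun f => χ (meshPoint (a k) f)) Ψ (h.1 - X k, h.2))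
    {s : κ → HE ℤ → ℝ} {β C' : ℝ} {U : ℂ → Fin 4 → ℝ}
    (bs : ∀ᶠ k in l, ∀ h : HE ℤ, meshPoint (a k) h.1 ∈ ann x₀ (r0 / 2) R → |s k h| ≤ C' * a k ^ β)
    (ls : ∀ᵐ z : ℂ, z ∈ ann x₀ (r0 / 2) R → ∀ d, Tendsto (fun k => a k ^ (-β) *
      (σ k (meshIndex (a k) z) * s k (meshIndex (a k) z, d))) l (𝓝 (U z d))) :
    Tendsto (fun k => a k ^ (2 - α - β) * pr (P k) (s k)) l
      (𝓝 (∑ d, ∫ z, q (z - x₀) d * U z d)) := by
  have hr := H.pos
  have hpos : ∀ᶠ k in l, 0 < a k := (tendsto_nhdsWithin_iff.1 ha).2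
  have ha0 : Tendsto a l (𝓝 0) := tendsto_nhds_of_tendsto_nhdsWithin ha
  have hσ0 : ∀ k f, σ k f ≠ 0 := fun k f h => by
    have := hσ k f; rw [h] at this; simp at this
  set P' : κ → HE ℤ → ℝ := fun k h =>
    comm wB (fun f => χ (meshPoint (a k) f)) Ψ (h.1 - X k, h.2) with hP'
  set u : κ → HE ℤ → ℝ := fun k h => σ k h.1 * s k h with hu
  have key := Pairx599.pair1 (l := l) ha (K := ann x₀ (r0 / 2) R) (ann_bdd _ _ _) (P := P')
    (u := u) (p := fun z d => q (z - x₀) d) (U := U) (α := α) (β := β) (C := K) (C' := C')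
    (A := fun k => (P k).support) ?_ ?_ ?_ ?_ ?_ ?_
  · refine key.congr' ?_
    filter_upwards [hP] with k hk
    congr 1
    rw [pr_eq_sum (P k) (s k) _ (Finset.Subset.refl _)]
    refine Finset.sum_congr rfl fun h _ => ?_
    simp only [hP', hu, hk h]; ring
  · filter_upwards [hP] with k hk h hh
    rw [Finsupp.mem_support_iff, not_not, hk h] at hh
    exact (mul_eq_zero.1 hh).resolve_left (hσ0 k _)
  · have h1 : ∀ᶠ k in l, a k < min (r0 / 4) ((R - R0) / 2) :=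
      ha0.eventually (gt_mem_nhds (lt_min (by linarith) (by linarith)))
    have h2 : ∀ᶠ k in l, ‖meshPoint (a k) (X k) - x₀‖ < min (r0 / 4) ((R - R0) / 2) := by
      have := hX.eventually (Metric.ball_mem_nhds x₀
        (lt_min (by linarith) (by linarith) : (0 : ℝ) < min (r0 / 4) ((R - R0) / 2)))
      filter_upwards [this] with k hk
      rwa [← dist_eq_norm]
    filter_upwards [hpos, h1, h2] with k hk h1 h2 h hh
    obtain ⟨h3, h4⟩ := comm_supp H wB Ψ hk _ hh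
    simp only [mesh_sub] at h3 h4
    have m1 := min_le_left (r0 / 4) ((R - R0) / 2)
    have m2 := min_le_right (r0 / 4) ((R - R0) / 2)
    have e : meshPoint (a k) h.1 - x₀ =
      (meshPoint (a k) h.1 - meshPoint (a k) (X k)) + (meshPoint (a k) (X k) - x₀) := by ring
    have n1 := norm_add_le (meshPoint (a k) h.1 - meshPoint (a k) (X k))
      (meshPoint (a k) (X k) - x₀)
    have n2 := norm_sub_le_norm_add (meshPoint (a k) h.1 - meshPoint (a k) (X k))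
      (meshPoint (a k) (X k) - x₀)
    rw [← e] at n1 n2
    constructor
    · linarith
    · linarith
  · have h1 : ∀ᶠ k in l, a k ≤ r0 / 2 := ha0.eventually (ge_mem_nhds (by linarith))
    filter_upwards [hpos, h1] with k hk h1 h
    exact hb _ hk h1 _
  · filter_upwards [bs] with k hk h hh
    have := hk h hh
    simp only [hu, abs_mul]
    have e : |σ k h.1| = 1 := by
      have := hσ k h.1
      rw [← abs_mul_abs_self] at this
      nlinarith [abs_nonneg (σ k h.1)]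
    rwa [e, one_mul]
  · have h1 : ∀ᵐ z : ℂ, ∀ f : κ → ℤ × ℤ, Tendsto (fun k => meshPoint (a k) (f k)) l (𝓝 (z - x₀)) →
        ∀ d, Tendsto (fun k => a k ^ (-α) * comm wB (fun f => χ (meshPoint (a k) f)) Ψ (f k, d)) l
          (𝓝 (q (z - x₀) d)) :=
      (measurePreserving_sub_right volume x₀).quasiMeasurePreserving.ae hq
    filter_upwards [h1] with z hz d
    refine hz (fun k => meshIndex (a k) z - X k) ?_ d
    simp only [mesh_sub]
    exact (Pairx599.tendsto_meshPoint ha z).sub hX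
  · filter_upwards [ls] with z hz hzK d
    exact hz ((ann_closed x₀ (r0 / 2) R).closure_eq ▸ hzK) d

/-- local data near the branch point `x₀` -/
structure Dat (l : Filter κ) (a : κ → ℝ) (W : κ → BW ℤ) (X : κ → ℤ × ℤ) (σ : κ → ℤ × ℤ → ℝ)
    (S : κ → HE ℤ → HE ℤ → ℝ) (x₀ : ℂ) (δ : ℝ) : Prop where
  ha : Tendsto a l (𝓝[>] 0)
  hX : Tendsto (fun k => meshPoint (a k) (X k)) l (𝓝 x₀)
  sq : ∀ k f, σ k f * σ k f = 1
  dpos : 0 < δ
  loc : ∀ᶠ k in l, ∀ f, ‖meshPoint (a k) f - x₀‖ < δ → LocAt (W k) wB (X k) (σ k) f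
  cov : ∀ᶠ k in l, IsCov (W k) (S k)

/-- limit of the column with source at the branch -/
structure Eta (l : Filter κ) (a : κ → ℝ) (W : κ → BW ℤ) (X : κ → ℤ × ℤ) (σ : κ → ℤ × ℤ → ℝ)
    (S : κ → HE ℤ → HE ℤ → ℝ) (x₀ : ℂ) (δ : ℝ) (U : ℂ → Fin 4 → ℝ) : Prop where
  bd : ∀ r R : ℝ, 0 < r → R < δ → ∃ C : ℝ, ∀ᶠ k in l, ∀ h : HE ℤ,
    meshPoint (a k) h.1 ∈ ann x₀ r R → |col (S k) (lS (W k) (X k)) h| ≤ C * a k ^ (1 / 2 : ℝ)
  lim : ∀ᵐ z : ℂ, z ≠ x₀ → ‖z - x₀‖ < δ → ∀ d, Tendsto (fun k => a k ^ (-(1 / 2) : ℝ) *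
    (σ k (meshIndex (a k) z) * (σ k (X k) * col (S k) (lS (W k) (X k)) (meshIndex (a k) z, d)))) l
    (𝓝 (U z d))

variable {a : κ → ℝ} {W : κ → BW ℤ} {X : κ → ℤ × ℤ} {σ : κ → ℤ × ℤ → ℝ}
  {S : κ → HE ℤ → HE ℤ → ℝ} {x₀ : ℂ} {δ : ℝ}

omit [l.IsCountablyGenerated] in
theorem Dat.pos (D : Dat l a W X σ S x₀ δ) : ∀ᶠ k in l, 0 < a k := (tendsto_nhdsWithin_iff.1 D.ha).2

omit [l.IsCountablyGenerated] in
theorem Dat.small (D : Dat l a W X σ S x₀ δ) {r : ℝ} (hr : 0 < r) : ∀ᶠ k in l, a k < r :=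
  (tendsto_nhds_of_tendsto_nhdsWithin D.ha).eventually (gt_mem_nhds hr)

omit [l.IsCountablyGenerated] in
theorem Dat.smallX (D : Dat l a W X σ S x₀ δ) {r : ℝ} (hr : 0 < r) :
    ∀ᶠ k in l, ‖meshPoint (a k) (X k) - x₀‖ < r := by
  filter_upwards [D.hX.eventually (Metric.ball_mem_nhds x₀ hr)] with k hk
  rwa [← dist_eq_norm]

omit [l.IsCountablyGenerated] in
/-- the background at the branch itself -/
theorem Dat.locX (D : Dat l a W X σ S x₀ δ) :
    ∀ᶠ k in l, LocAt (W k) wB (X k) (σ k) (X k) ∧ LocAt (W k) wB (X k) (σ k) (dn (X k)) := by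
  filter_upwards [D.loc, D.pos, D.small (half_pos D.dpos), D.smallX (half_pos D.dpos)]
    with k h1 h2 h3 h4
  refine ⟨h1 _ (by linarith [D.dpos]), h1 _ ?_⟩
  have e : meshPoint (a k) (dn (X k)) - x₀ = (meshPoint (a k) (X k) - x₀) - (a k : ℂ) * Complex.I := by
    apply Complex.ext <;> simp [meshPoint, dn]
    ring
  rw [e]
  have := norm_sub_le (meshPoint (a k) (X k) - x₀) ((a k : ℂ) * Complex.I)
  rw [norm_mul, Complex.norm_I, mul_one, Complex.norm_real, Real.norm_eq_abs, abs_of_pos h2] at this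
  linarith

omit [l.IsCountablyGenerated] in
/-- the cut-off on the lattice -/
theorem ev_cut (D : Dat l a W X σ S x₀ δ) {χ : ℂ → ℝ} {r0 R0 : ℝ} (H : Cut χ r0 R0) (hR : R0 < δ) :
    ∀ᶠ k in l, (Function.support fun f : ℤ × ℤ => χ (meshPoint (a k) (f - X k))).Finite ∧
      (∀ f, χ (meshPoint (a k) (f - X k)) ≠ 0 → LocAt (W k) wB (X k) (σ k) f) ∧
      ∀ g : ℤ × ℤ, |g.1| ≤ 2 → |g.2| ≤ 2 → χ (meshPoint (a k) g) = 1 := by
  have hr := H.pos
  filter_upwards [D.pos, D.small (show 0 < r0 / 8 by positivity), D.smallX (sub_pos.2 hR), D.loc]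
    with k hk h1 h2 h3
  refine ⟨?_, fun f hf => h3 f ?_, fun g hg1 hg2 => H.one _ ?_⟩
  · have h4 := Pairx599.finite_mesh (Metric.isBounded_closedBall (x := (0 : ℂ)) (r := R0)) hk
    refine (h4.image fun g => g + X k).subset fun f hf => ?_
    rw [Function.mem_support] at hf
    refine ⟨f - X k, ?_, sub_add_cancel _ _⟩
    show meshPoint (a k) (f - X k) ∈ Metric.closedBall (0 : ℂ) R0
    rw [Metric.mem_closedBall, dist_zero_right]
    by_contra hc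
    exact hf (H.zero _ (not_le.1 hc).le)
  · have h5 : ‖meshPoint (a k) (f - X k)‖ < R0 := by
      by_contra hc
      exact hf (H.zero _ (not_lt.1 hc))
    have e : meshPoint (a k) f - x₀ = meshPoint (a k) (f - X k) + (meshPoint (a k) (X k) - x₀) := by
      rw [mesh_sub]; ring
    rw [e]
    exact (norm_add_le _ _).trans_lt (by linarith)
  · have h5 := Complex.norm_le_abs_re_add_abs_im (meshPoint (a k) g)
    have e1 : |(meshPoint (a k) g).re| ≤ 2 * a k := by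
      show |a k * (g.1 : ℝ)| ≤ _
      rw [abs_mul, abs_of_pos hk]
      have : |(g.1 : ℝ)| ≤ 2 := by exact_mod_cast hg1
      nlinarith
    have e2 : |(meshPoint (a k) g).im| ≤ 2 * a k := by
      show |a k * (g.2 : ℝ)| ≤ _
      rw [abs_mul, abs_of_pos hk]
      have : |(g.2 : ℝ)| ≤ 2 := by exact_mod_cast hg2
      nlinarith
    linarith

omit [l.IsCountablyGenerated] in
/-- Green identity along the filter -/
theorem gen_ev (D : Dat l a W X σ S x₀ δ) {χ : ℂ → ℝ} {r0 R0 : ℝ} (H : Cut χ r0 R0) (hR : R0 < δ)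
    {Ψ : HE ℤ → ℝ} (hn : ∀ g : HE ℤ, Aop wB Ψ g ≠ 0 → |g.1.1| ≤ 2 ∧ |g.1.2| ≤ 2)
    {L : κ → Fld ℤ} (hL : ∀ᶠ k in l, Src Ψ (X k) (σ k) (L k)) :
    ∃ P V : κ → Fld ℤ,
      (∀ᶠ k in l, ∀ h, P k h =
        σ k h.1 * comm wB (fun f => χ (meshPoint (a k) f)) Ψ (h.1 - X k, h.2)) ∧
      (∀ᶠ k in l, ∀ v, formS (S k) (L k) v = formS (S k) (P k) v - pr (V k) v) ∧
      (∀ᶠ k in l, ∀ h, V k h = χ (meshPoint (a k) (h.1 - X k)) * gsh (X k) (σ k) Ψ h) ∧
      ∀ᶠ k in l, ∀ (Φ : HE ℤ → ℝ) (M : Fld ℤ) (B : Finset (HE ℤ)), Src Φ (X k) (σ k) M →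
        (∀ g, g ∉ B → Aop wB Φ g = 0) → (∀ g ∈ B, |g.1.1| ≤ 2 ∧ |g.1.2| ≤ 2) →
        pr (V k) M = -∑ g ∈ B, Aop wB Φ g * Ψ g := by
  have h := ev_cut D H hR
  have key : ∀ᶠ k in l, ∃ PV : Fld ℤ × Fld ℤ,
      (∀ h, PV.1 h = σ k h.1 * comm wB (fun f => χ (meshPoint (a k) f)) Ψ (h.1 - X k, h.2)) ∧
      (∀ v, formS (S k) (L k) v = formS (S k) PV.1 v - pr PV.2 v) ∧
      (∀ h, PV.2 h = χ (meshPoint (a k) (h.1 - X k)) * gsh (X k) (σ k) Ψ h) ∧
      ∀ (Φ : HE ℤ → ℝ) (M : Fld ℤ) (B : Finset (HE ℤ)), Src Φ (X k) (σ k) M →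
        (∀ g, g ∉ B → Aop wB Φ g = 0) → (∀ g ∈ B, |g.1.1| ≤ 2 ∧ |g.1.2| ≤ 2) →
        pr PV.2 M = -∑ g ∈ B, Aop wB Φ g * Ψ g := by
    filter_upwards [h, hL, D.cov] with k hk hLk hc
    obtain ⟨hfin, hloc, hone⟩ := hk
    have e0 : (fun f : ℤ × ℤ => (fun f => χ (meshPoint (a k) (f - X k))) (f + X k)) =
        fun f => χ (meshPoint (a k) f) := by
      funext f; simp only [add_sub_cancel_right]
    obtain ⟨P, hP1, hP2⟩ := gen1 (D.sq k) hc hfin hloc hLk (by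
      intro g hg
      simp only [add_sub_cancel_right]
      exact hone _ (hn g hg).1 (hn g hg).2)
    refine ⟨(P, cutF _ hfin (gsh (X k) (σ k) Ψ)), ?_, hP2, fun h => ?_, ?_⟩
    · intro h
      rw [hP1 h, e0]
    · rw [cutF_apply]
    · intro Φ M B hM hB hB2
      refine pr_cut (D.sq k) hfin hM Ψ hB fun g hg => ?_
      simp only [add_sub_cancel_right]
      exact hone _ (hB2 g hg).1 (hB2 g hg).2
  obtain ⟨PV, hPV⟩ := ev_choice key
  exact ⟨fun k => (PV k).1, fun k => (PV k).2, hPV.mono fun k h => h.1, hPV.mono fun k h => h.2.1,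
    hPV.mono fun k h => h.2.2.1, hPV.mono fun k h => h.2.2.2⟩

theorem bS_near (g : HE ℤ) (hg : g ∈ bS) : |g.1.1| ≤ 2 ∧ |g.1.2| ≤ 2 := by
  simp only [bS, Finset.mem_insert, Finset.mem_singleton] at hg
  rcases hg with rfl | rfl <;> norm_num

/-- the column of the gauged source -/
theorem col_smul (S : HE ℤ → HE ℤ → ℝ) (c : ℝ) (v : Fld ℤ) (h : HE ℤ) :
    col S (c • v) h = c * col S v h := pr_smul _ _ _

/-- pairing of a commutator with the branch column -/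
theorem lim_pairS (D : Dat l a W X σ S x₀ δ) {U : ℂ → Fin 4 → ℝ} (E : Eta l a W X σ S x₀ δ U)
    {χ : ℂ → ℝ} {r0 R0 : ℝ} (H : Cut χ r0 R0) (hR : R0 < δ) {Ψ : HE ℤ → ℝ} {α K : ℝ}
    (hb : ∀ b : ℝ, 0 < b → b ≤ r0 / 2 → ∀ h : HE ℤ,
      |comm wB (fun f => χ (meshPoint b f)) Ψ h| ≤ K * b ^ α) {q : ℂ → Fin 4 → ℝ}
    (hq : ∀ᵐ z : ℂ, ∀ f : κ → ℤ × ℤ, Tendsto (fun k => meshPoint (a k) (f k)) l (𝓝 z) →
      ∀ d, Tendsto (fun k => a k ^ (-α) * comm wB (fun f => χ (meshPoint (a k) f)) Ψ (f k, d)) l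
        (𝓝 (q z d)))
    {P : κ → Fld ℤ} (hP : ∀ᶠ k in l, ∀ h, P k h =
      σ k h.1 * comm wB (fun f => χ (meshPoint (a k) f)) Ψ (h.1 - X k, h.2)) :
    Tendsto (fun k => a k ^ (2 - α - 1 / 2) *
      pr (P k) (col (S k) (σ k (X k) • lS (W k) (X k)))) l (𝓝 (∑ d, ∫ z, q (z - x₀) d * U z d)) := by
  have hr := H.pos
  have hRR : R0 < (R0 + δ) / 2 := by linarith
  obtain ⟨C, hC⟩ := E.bd (r0 / 2) ((R0 + δ) / 2) (by positivity) (by linarith)
  refine lim_pair D.ha D.hX D.sq H hRR hb hq hP (C' := C) ?_ ?_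
  · filter_upwards [hC] with k hk h hh
    rw [col_smul, abs_mul]
    have e : |σ k (X k)| = 1 := by
      have := D.sq k (X k)
      rw [← abs_mul_abs_self] at this
      nlinarith [abs_nonneg (σ k (X k))]
    rw [e, one_mul]
    exact hk h hh
  · filter_upwards [E.lim] with z hz hzA d
    have h1 : z ≠ x₀ := by
      rintro rfl
      have := hzA.1
      rw [sub_self, norm_zero] at this
      linarith
    refine (hz h1 (by linarith [hzA.2]) d).congr fun k => ?_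
    rw [col_smul]

/-- **step `(1,1)`** -/
theorem diag1 (D : Dat l a W X σ S x₀ δ) {U : ℂ → Fin 4 → ℝ} (E : Eta l a W X σ S x₀ δ U)
    {χ : ℂ → ℝ} {r0 R0 : ℝ} (H : Cut χ r0 R0) (hR : R0 < δ) :
    Tendsto (fun k => (a k)⁻¹ * (formS (S k) (lN (W k) (X k)) (lS (W k) (X k)) - 1)) l
      (𝓝 (∑ d, ∫ z, pN χ (z - x₀) d * U z d)) := by
  obtain ⟨P, V, hP, hG, -, hc⟩ := gen_ev D H hR near_N
    (L := fun k => σ k (X k) • lN (W k) (X k)) (D.locX.mono fun k h => srcN (D.sq k) h.1)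
  obtain ⟨K, -, hK⟩ := cN_bound H
  have h1 := lim_pairS D E H hR hK (q := pN χ) (by
    filter_upwards [ae_gen] with z hz f hf d
    have := cN_lim H D.ha hf hz d
    exact this) hP
  have e : (2 - 5 / 2 - 1 / 2 : ℝ) = -1 := by norm_num
  rw [e] at h1
  refine h1.congr' ?_
  filter_upwards [hG, hc, D.locX, D.pos] with k hG hc hloc hpos
  have hσX := D.sq k (X k)
  have h2 := hG (σ k (X k) • lS (W k) (X k))
  have h3 := hc PsiS _ bS (srcS (D.sq k) hloc.1) bS_S bS_near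
  rw [sum_bS, AS_0, AS_1] at h3
  have h4 := PsiN_lS
  rw [formS_eq (S k) (P k)] at h2
  have h5 : formS (S k) (σ k (X k) • lN (W k) (X k)) (σ k (X k) • lS (W k) (X k)) =
      formS (S k) (lN (W k) (X k)) (lS (W k) (X k)) := by
    rw [LinearMap.map_smul₂, map_smul, smul_eq_mul, smul_eq_mul]
    linear_combination (formS (S k) (lN (W k) (X k)) (lS (W k) (X k))) * hσX
  rw [h5] at h2
  rw [Real.rpow_neg_one, h2, h3]
  linear_combination (a k)⁻¹ * h4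

end flt

end Crest.Agent.R165.LogDx813
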