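import Crest.Agent.R165.LdPair_817
import Crest.Agent.R165.LogD_813
import Crest.Agent.R165.PsiLim2_375
import Crest.Agent.R165.FrFin_887

/-!
# Row 165 (S0250), block U (helper817): logarithmic derivatives from resolvent convergence

* `RC D x w` : resolvent convergence for the backgrounds `wX (w a) X`, `a → 0`, `a X → x`
* `SrcD Ψ p c` : a branch field of order `p` with continuum amplitude `c`
* `gl` : limit of the column of a commutator, `gl_pair` : limit of the pairing of two commutators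
-/

set_option autoImplicit false

noncomputable section

open MeasureTheory Filter Topology Set Metric
open Crest.ProbabilityR.IsingModel

namespace Crest.Agent.R165.LdGenx817

open Crest.Agent.R165.Embx622 Crest.Agent.R165.LdPairx817
open Crest.Agent.R165.Tr1x40 (Face)
open Crest.Agent.R165.RIfx891 (lv)
open Crest.Agent.R165.Mac0x622 (Om rX rX_ne)
open Crest.Agent.R165.MacIx622 (ResConv)
open Crest.Agent.R165.Latx683 Crest.Agent.R165.Br1x644 Crest.Agent.R165.Gr2x813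
open Crest.Agent.R165.Gr3x813 Crest.Agent.R165.PsiLx375 Crest.Agent.R165.LogDx813
open Crest.Agent.R165.Br5x644 (PsiS2 PsiN2 Gen Gen2 Cv sz)
open Crest.Agent.R165.FrFinx887 (toF cur A_toF)
open Crest.Agent.R165.PathIntx641 (mc)

/-! ### resolvent convergence -/

/-- resolvent convergence for the backgrounds `wX (w a) X` -/
def RC (D : Set ℂ) {n : ℕ} (x : Fin n → ℂ) (w : ℝ → BW ℤ) : Prop :=
  ∀ K : Set ℂ, IsCompact K → K ⊆ Om D x → ∀ G : ℂ → Fin 4 → ℝ,
    (∀ h, MemLp (fun z => G z h) 2 volume) → (∀ z, z ∉ K → ∀ h, G z h = 0) →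
    ∃ F : ℂ → ℂ,
      (∃ gg : ℂ → ℂ, ContinuousOn gg (Om D x \ K) ∧ ∀ z ∈ Om D x \ K, F z * rX x z = gg z) ∧
      ∀ (a : ℕ → ℝ) (X : ℕ → Fin n → ℤ × ℤ), (∀ k, 0 < a k) → Tendsto a atTop (𝓝 0) →
        (∀ i, Tendsto (fun k => meshPoint (a k) (X k i)) atTop (𝓝 (x i))) →
        ∀ g φ : ℕ → Tr1x40.Fld,
        (∀ᶠ k in atTop, ∀ f h, g k f h ≠ 0 → meshPoint (a k) f ∈ K) →
        (∀ h, Tendsto (fun k => ∫⁻ z, ENNReal.ofReal
          ((emb (a k) (fun f => g k f h) z - G z h) ^ 2)) atTop (𝓝 0)) →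
        (∀ᶠ k in atTop, Tendsto (fun b : Face × Fin 4 => φ k b.1 b.2) cofinite (𝓝 0)) →
        (∀ᶠ k in atTop, ∀ f h, Tr1x40.A (toF (wX (w (a k)) (X k))) (φ k) f h = a k * g k f h) →
        ∀ z₀ ∈ Om D x, ∃ ρ > 0, ∀ h, Tendsto (fun k => ∫⁻ z in ball z₀ ρ, ENNReal.ofReal
          ((emb (a k) (fun f => φ k f h) z - lv (F z) h) ^ 2)) atTop (𝓝 0)

theorem rc_of {D : Set ℂ} {n : ℕ} {x : Fin n → ℂ} {w : ℝ → BW ℤ}
    {CC : (ℕ → ℝ) → (ℕ → Tr1x40.Fld) → (ℕ → Fin n → Face) → Prop} {Q : Set ℂ → (ℂ → ℂ) → Prop}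
    (h : ResConv (Om D x) x CC Q)
    (hCC : ∀ (a : ℕ → ℝ) (X : ℕ → Fin n → ℤ × ℤ), (∀ k, 0 < a k) → Tendsto a atTop (𝓝 0) →
      (∀ i, Tendsto (fun k => meshPoint (a k) (X k i)) atTop (𝓝 (x i))) →
      ∃ N, ∀ M ≥ N, CC (fun k => a (k + M)) (fun k => toF (wX (w (a (k + M))) (X (k + M))))
        (fun k => X (k + M))) : RC D x w := by
  intro K hK hKO G hG hG0
  obtain ⟨F, -, h2, h3⟩ := h K hK hKO G hG hG0
  refine ⟨F, h2, fun a X hpos hlim htip g φ hg hconv hφ heq z₀ hz₀ => ?_⟩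
  obtain ⟨N, hN⟩ := hCC a X hpos hlim htip
  obtain ⟨N', hN'⟩ := eventually_atTop.1 hφ
  set M := max N N' with hM
  have htop : Tendsto (fun k => k + M) atTop atTop := tendsto_add_atTop_nat M
  obtain ⟨ρ, hρ, hr⟩ := h3 _ _ _ (hN M (le_max_left _ _)) (fun k => g (k + M)) (fun k => φ (k + M))
    (htop.eventually hg) (fun i => (hconv i).comp htop)
    (fun k => hN' _ ((le_max_right _ _).trans (Nat.le_add_left _ _))) (htop.eventually heq) z₀ hz₀
  exact ⟨ρ, hρ, fun i => (tendsto_add_atTop_iff_nat M).1 (hr i)⟩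

/-! ### regularity of the limit -/

theorem measurable_rX {n : ℕ} (x : Fin n → ℂ) : Measurable (rX x) := by
  unfold rX
  exact Finset.measurable_fun_prod _ fun j _ => (measurable_const.sub measurable_id).pow_const _

theorem norm_rX {n : ℕ} (x : Fin n → ℂ) (z : ℂ) :
    ‖rX x z‖ = ∏ j, ‖x j - z‖ ^ (1 / 2 : ℝ) := by
  unfold rX
  rw [norm_prod]
  refine Finset.prod_congr rfl fun j _ => ?_
  rw [show (1 / 2 : ℂ) = ((1 / 2 : ℝ) : ℂ) by push_cast; ring, Complex.norm_cpow_real]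

theorem nice {D : Set ℂ} {n : ℕ} {x : Fin n → ℂ} {K : Set ℂ} {F gg : ℂ → ℂ}
    (hgg : ContinuousOn gg (Om D x \ K)) (hF : ∀ z ∈ Om D x \ K, F z * rX x z = gg z) (d : Fin 4)
    (K' : Set ℂ) (hK' : IsCompact K') (hK'O : K' ⊆ Om D x \ K) :
    AEStronglyMeasurable (fun z => lv (F z) d) (volume.restrict K') ∧
      ∃ B : ℝ, ∀ z ∈ K', |lv (F z) d| ≤ B := by
  have hne : ∀ z ∈ K', ∀ i, x i ≠ z := fun z hz i h => (hK'O hz).1.2 ⟨i, h⟩
  have e : ∀ z ∈ K', F z = gg z * (rX x z)⁻¹ := by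
    intro z hz
    rw [← hF z (hK'O hz), mul_assoc, mul_inv_cancel₀ (rX_ne (hne z hz)), mul_one]
  constructor
  · have h1 : AEStronglyMeasurable (fun z => gg z * (rX x z)⁻¹) (volume.restrict K') :=
      ((hgg.mono hK'O).aestronglyMeasurable_of_isCompact hK' hK'.measurableSet).mul
        (measurable_rX x).inv.aestronglyMeasurable
    have h2 : AEStronglyMeasurable F (volume.restrict K') := by
      refine h1.congr ?_
      rw [Filter.EventuallyEq, ae_restrict_iff' hK'.measurableSet]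
      exact Eventually.of_forall fun z hz => (e z hz).symm
    exact (Mac1x622.lv_continuous d).comp_aestronglyMeasurable h2
  · rcases K'.eq_empty_or_nonempty with hem | hnem
    · exact ⟨0, fun z hz => by rw [hem] at hz; exact absurd hz (notMem_empty z)⟩
    obtain ⟨M, hM⟩ := hK'.exists_bound_of_continuousOn (hgg.mono hK'O)
    have hc : Continuous fun z : ℂ => ∏ j, ‖x j - z‖ ^ (1 / 2 : ℝ) := by
      refine continuous_finsetProd _ fun j _ => ?_
      exact ((continuous_const.sub continuous_id).norm).rpow_const fun _ => Or.inr (by norm_num)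
    obtain ⟨z₁, hz₁, hmin⟩ := hK'.exists_isMinOn hnem hc.continuousOn
    set m := ∏ j, ‖x j - z₁‖ ^ (1 / 2 : ℝ) with hm
    have hm0 : 0 < m := Finset.prod_pos fun j _ =>
      Real.rpow_pos_of_pos (norm_pos_iff.2 (sub_ne_zero.2 (hne z₁ hz₁ j))) _
    refine ⟨|M| / m, fun z hz => (Mac3x622.abs_lv_le _ _).trans ?_⟩
    rw [e z hz, norm_mul, norm_inv, norm_rX, ← div_eq_mul_inv]
    exact div_le_div₀ (abs_nonneg _) ((hM z hz).trans (le_abs_self M)) hm0 (hmin hz)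

/-! ### branch fields -/

/-- branch field of order `p` with continuum amplitude `c` -/
structure SrcD (Ψ : HE ℤ → ℝ) (p : ℝ) (c : ℂ → ℂ) : Prop where
  near : ∀ g : HE ℤ, Aop wB Ψ g ≠ 0 → |g.1.1| ≤ 2 ∧ |g.1.2| ≤ 2
  hp : 0 ≤ p
  bd : ∃ C : ℝ, 0 ≤ C ∧ ∀ (x y : ℤ) (d : Fin 4), |Ψ ((x, y), d)| ≤ C / sz x y ^ p
  lim : ∀ (a : ℕ → ℝ) (z : ℂ), Gen2 z.re z.im → ∀ (X Y : ℕ → ℤ) (d : Fin 4),
    Cv atTop a X Y z.re z.im →
    Tendsto (fun k => a k ^ (-p) * Ψ ((X k, Y k), d)) atTop (𝓝 (lv (c z) d))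
  meas : Measurable c
  bdd : ∀ r : ℝ, 0 < r → ∃ B : ℝ, 0 ≤ B ∧ ∀ z : ℂ, r ≤ ‖z‖ → ‖c z‖ ≤ B

/-- continuum density of a commutator -/
def dens (χ : ℂ → ℝ) (c : ℂ → ℂ) (z : ℂ) (d : Fin 4) : ℝ :=
  fderiv ℝ χ z (ed d) * (sgd d * (Latx683.xc * lv (c z) (opd d)))

theorem zt_bd {r : ℝ} (hr : 0 < r) {z : ℂ} (hz : r ≤ ‖z‖) : ‖Br5x644.zt z‖ ≤ r ^ (-(1/2) : ℝ) := by
  rw [norm_zt]
  exact Real.rpow_le_rpow_of_nonpos hr hz (by norm_num)

theorem bddS (k : ℂ) (r : ℝ) (hr : 0 < r) :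
    ∃ B : ℝ, 0 ≤ B ∧ ∀ z : ℂ, r ≤ ‖z‖ → ‖k * Br5x644.zt z‖ ≤ B := by
  refine ⟨‖k‖ * r ^ (-(1/2) : ℝ), by positivity, fun z hz => ?_⟩
  rw [norm_mul]
  exact mul_le_mul_of_nonneg_left (zt_bd hr hz) (norm_nonneg _)

theorem bddN (k : ℂ) (r : ℝ) (hr : 0 < r) :
    ∃ B : ℝ, 0 ≤ B ∧ ∀ z : ℂ, r ≤ ‖z‖ → ‖k * (Br5x644.zt z / z)‖ ≤ B := by
  refine ⟨‖k‖ * (r ^ (-(1/2) : ℝ) / r), by positivity, fun z hz => ?_⟩
  rw [norm_mul, norm_div]
  exact mul_le_mul_of_nonneg_left (div_le_div₀ (by positivity) (zt_bd hr hz) hr hz) (norm_nonneg _)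

theorem srcD_S : SrcD PsiS (1 / 2) fun z => -(Br5x644.kp : ℂ) * Br5x644.zt z where
  near := near_S
  hp := by norm_num
  bd := Br5x644.PsiS_bound
  lim a z hg X Y d h := Br5x644.lim_PsiS BrAx375.brA h hg.1 d
  meas := measurable_const.mul measurable_zt
  bdd := bddS _

theorem srcD_N : SrcD PsiN (3 / 2)
    fun z => (Br5x644.kp : ℂ) * ((1 - Complex.I) / 2) * (Br5x644.zt z / z) where
  near := near_N
  hp := by norm_num
  bd := Br5x644.PsiN_bound
  lim a z hg X Y d h := Br5x644.lim_PsiN BrAx375.brA h hg.1 d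
  meas := measurable_const.mul (measurable_zt.div measurable_id)
  bdd := bddN _

theorem srcD_S2 : SrcD PsiS2 (1 / 2) fun z => -(Br5x644.kp : ℂ) * Br5x644.zt z where
  near := near_S2
  hp := by norm_num
  bd := Br5x644.PsiS2_bound
  lim a z hg X Y d h := Br5x644.lim_PsiS2 BrAx375.brA h hg d
  meas := measurable_const.mul measurable_zt
  bdd := bddS _

theorem srcD_N2 : SrcD PsiN2 (3 / 2)
    fun z => (Br5x644.kp : ℂ) * ((1 + Complex.I) / 2) * (Br5x644.zt z / z) where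
  near := near_N2
  hp := by norm_num
  bd := Br5x644.PsiN2_bound
  lim a z hg X Y d h := Br5x644.lim_PsiN2 BrAx375.brA h hg d
  meas := measurable_const.mul (measurable_zt.div measurable_id)
  bdd := bddN _

theorem lv_zero (d : Fin 4) : lv 0 d = 0 := by fin_cases d <;> simp [lv]

theorem srcD_D : SrcD (PsiS2 - PsiS) (1 / 2) fun _ => 0 where
  near := near_D
  hp := by norm_num
  bd := by
    obtain ⟨C, hC, h⟩ := Br5x644.PsiS_bound
    obtain ⟨C', hC', h'⟩ := Br5x644.PsiS2_bound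
    refine ⟨C' + C, by positivity, fun x y d => ?_⟩
    rw [Pi.sub_apply, add_div]
    exact (abs_sub _ _).trans (add_le_add (h' x y d) (h x y d))
  lim a z hg X Y d h := by
    have h1 := Br5x644.lim_PsiS2 BrAx375.brA h hg d
    have h2 := Br5x644.lim_PsiS BrAx375.brA h hg.1 d
    have h3 := h1.sub h2
    rw [sub_self] at h3
    rw [lv_zero]
    refine h3.congr fun k => ?_
    rw [Pi.sub_apply]; ring
  meas := measurable_const
  bdd r _ := ⟨0, le_rfl, fun z _ => by simp⟩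

theorem SrcD.comm_lim {Ψ : HE ℤ → ℝ} {p : ℝ} {c : ℂ → ℂ} (HQ : SrcD Ψ p c) {χ : ℂ → ℝ} {r0 R0 : ℝ}
    (H : Cut χ r0 R0) {a : ℕ → ℝ} (ha : Tendsto a atTop (𝓝[>] 0)) {f : ℕ → ℤ × ℤ} {z : ℂ}
    (hf : Tendsto (fun k => meshPoint (a k) (f k)) atTop (𝓝 z)) (hg : Gen2 z.re z.im) (d : Fin 4) :
    Tendsto (fun k => a k ^ (-(p + 1)) * comm wB (fun f => χ (meshPoint (a k) f)) Ψ (f k, d)) atTop
      (𝓝 (dens χ c z d)) :=
  PsiLx375.comm_lim H ha hf hg.1 (fun X Y d h => HQ.lim a z hg X Y d h) d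

theorem measurable_dens {χ : ℂ → ℝ} {r0 R0 : ℝ} (H : Cut χ r0 R0) {c : ℂ → ℂ} (hc : Measurable c)
    (d : Fin 4) : Measurable fun z => dens χ c z d := by
  unfold dens
  exact (H.cont_fderiv _).measurable.mul (((measurable_lv hc _).const_mul _).const_mul _)

/-! ### the limit of the column of a commutator -/

section gl

variable {D : Set ℂ} {n : ℕ} {x : Fin n → ℂ} {w : ℝ → BW ℤ} {x₀ : ℂ} {δ : ℝ}

/-- lattice support of a commutator centred at `X` -/
theorem supp_ann {Ψ : HE ℤ → ℝ} {χ : ℂ → ℝ} {r0 R0 : ℝ} (H : Cut χ r0 R0) (hrR : r0 ≤ R0) {b : ℝ}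
    (hb : 0 < b) {X : ℤ × ℤ} (h1 : b < r0 / 4) (h2 : ‖meshPoint b X - x₀‖ < r0 / 4) (h : HE ℤ)
    (hh : comm wB (fun f => χ (meshPoint b f)) Ψ (h.1 - X, h.2) ≠ 0) :
    meshPoint b h.1 ∈ ann x₀ (r0 / 2) (2 * R0) := by
  obtain ⟨h3, h4⟩ := comm_supp H wB Ψ hb _ hh
  have hr := H.pos
  simp only [LogDx813.mesh_sub] at h3 h4
  have e : meshPoint b h.1 - x₀ =
    (meshPoint b h.1 - meshPoint b X) + (meshPoint b X - x₀) := by ring
  have n1 := norm_add_le (meshPoint b h.1 - meshPoint b X) (meshPoint b X - x₀)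
  have n2 := norm_sub_le_norm_add (meshPoint b h.1 - meshPoint b X) (meshPoint b X - x₀)
  rw [← e] at n1 n2
  constructor
  · linarith
  · linarith

theorem ann_compact (x₀ : ℂ) (r R : ℝ) : IsCompact (ann x₀ r R) :=
  Metric.isCompact_of_isClosed_isBounded (ann_closed x₀ r R) (ann_bdd x₀ r R)

theorem ann_sub (hball : ∀ z, z ≠ x₀ → ‖z - x₀‖ < δ → z ∈ Om D x) {r R : ℝ} (hr : 0 < r)
    (hR : R < δ) : ann x₀ r R ⊆ Om D x := by
  intro z hz
  refine hball z ?_ (hz.2.trans_lt hR)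
  rintro rfl
  have := hz.1
  rw [sub_self, norm_zero] at this
  linarith

theorem col_zero {W : BW ℤ} {S : HE ℤ → HE ℤ → ℝ} (hS : IsCov W S) (v : Fld ℤ) :
    Tendsto (fun b : Face × Fin 4 => col S v b) cofinite (𝓝 0) := by
  have h : Tendsto (fun b : HE ℤ => ∑ h' ∈ v.support, v h' * S b h') cofinite
      (𝓝 (∑ h' ∈ v.support, v h' * 0)) :=
    tendsto_finsetSum _ fun h' _ => (hS.zero h').const_mul _
  simp only [mul_zero, Finset.sum_const_zero] at h
  exact h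

/-- **the limit of the column of a commutator** -/
theorem gl (hRC : RC D x w) (hball : ∀ z, z ≠ x₀ → ‖z - x₀‖ < δ → z ∈ Om D x) {Ψ : HE ℤ → ℝ}
    {p : ℝ} {c : ℂ → ℂ} (HQ : SrcD Ψ p c) {χ : ℂ → ℝ} {r0 R0 : ℝ} (H : Cut χ r0 R0) (hrR : r0 ≤ R0)
    (hR : 2 * R0 < δ) {s : ℂ → ℝ} (hsm : Measurable s) (hs1 : ∀ z, |s z| ≤ 1) :
    ∃ F : ℂ → ℂ, (∃ gg : ℂ → ℂ, ContinuousOn gg (Om D x \ ann x₀ (r0 / 2) (2 * R0)) ∧
        ∀ z ∈ Om D x \ ann x₀ (r0 / 2) (2 * R0), F z * rX x z = gg z) ∧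
      ∀ (a : ℕ → ℝ) (X : ℕ → Fin n → ℤ × ℤ), (∀ k, 0 < a k) → Tendsto a atTop (𝓝 0) →
        (∀ i, Tendsto (fun k => meshPoint (a k) (X k i)) atTop (𝓝 (x i))) →
        ∀ (i : Fin n) (σ : ℕ → ℤ × ℤ → ℝ) (S : ℕ → HE ℤ → HE ℤ → ℝ),
        Dat atTop a (fun k => wX (w (a k)) (X k)) (fun k => X k i) σ S x₀ δ →
        (∀ᵐ z : ℂ, Tendsto (fun k => σ k (meshIndex (a k) z)) atTop (𝓝 (s z))) →
        ∀ Q : ℕ → Fld ℤ, (∀ᶠ k in atTop, ∀ h, Q k h =
          σ k h.1 * comm wB (fun f => χ (meshPoint (a k) f)) Ψ (h.1 - X k i, h.2)) →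
        ∀ z₀ ∈ Om D x, ∃ ρ > 0, ∀ d : Fin 4, Tendsto (fun k => ∫⁻ z in ball z₀ ρ, ENNReal.ofReal
          ((emb (a k) (fun f => a k ^ (-p) * col (S k) (Q k) (f, d)) z - lv (F z) d) ^ 2))
          atTop (𝓝 0) := by
  classical
  have hr := H.pos
  have hR0 : 0 < R0 := lt_of_lt_of_le hr hrR
  obtain ⟨B, hB0, hB⟩ := HQ.bdd r0 hr
  obtain ⟨M, hM0, hM⟩ := dens_bdd H hB0 hB
  obtain ⟨C, hC0, hCb⟩ := HQ.bd
  obtain ⟨K, hK0, hK⟩ := comm_bound H HQ.hp hC0 hCb
  set G : ℂ → Fin 4 → ℝ := fun z d => -(s z * dens χ c (z - x₀) d) with hG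
  have hGm : ∀ d, Measurable fun z => G z d := fun d =>
    (hsm.mul ((measurable_dens H HQ.meas d).comp (measurable_id.sub_const x₀))).neg
  have hGb : ∀ d z, |G z d| ≤ M := by
    intro d z
    rw [hG]
    simp only [abs_neg, abs_mul]
    calc |s z| * |dens χ c (z - x₀) d| ≤ 1 * M :=
          mul_le_mul (hs1 z) (hM _ _) (abs_nonneg _) zero_le_one
      _ = M := one_mul _
  have hGz : ∀ z, z ∉ ann x₀ (r0 / 2) (2 * R0) → ∀ d, G z d = 0 := by
    intro z hz d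
    have h0 : fderiv ℝ χ (z - x₀) = 0 := by
      by_cases h1 : ‖z - x₀‖ < r0
      · exact H.fderiv_zero_in h1
      · refine H.fderiv_zero_out ?_
        by_contra h2
        refine hz ⟨by linarith [not_lt.1 h1], by linarith [not_lt.1 h2]⟩
    simp only [hG, dens, h0]
    simp
  have hBm : MeasurableSet (closedBall x₀ (3 * R0)) := isClosed_closedBall.measurableSet
  have hBv : volume (closedBall x₀ (3 * R0)) ≠ ⊤ := measure_closedBall_lt_top.ne
  have hGz' : ∀ z, z ∉ closedBall x₀ (3 * R0) → ∀ d, G z d = 0 := by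
    intro z hz d
    refine hGz z (fun h => hz ?_) d
    rw [mem_closedBall, dist_eq_norm]
    linarith [h.2]
  have hmem : ∀ d, MemLp (fun z => G z d) 2 volume := by
    intro d
    have e : (fun z => G z d) = (closedBall x₀ (3 * R0)).indicator fun z => G z d := by
      funext z
      by_cases hz : z ∈ closedBall x₀ (3 * R0)
      · rw [indicator_of_mem hz]
      · rw [indicator_of_notMem hz, hGz' z hz d]
    rw [e, memLp_indicator_iff_restrict hBm]
    have : IsFiniteMeasure (volume.restrict (closedBall x₀ (3 * R0))) :=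
      ⟨by rw [Measure.restrict_apply_univ]; exact hBv.lt_top⟩
    exact MemLp.of_bound (hGm d).aestronglyMeasurable M (Eventually.of_forall fun z => hGb d z)
  obtain ⟨F, hF1, hF2⟩ := hRC (ann x₀ (r0 / 2) (2 * R0)) (ann_compact _ _ _)
    (ann_sub hball (by positivity) hR) G hmem hGz
  refine ⟨F, hF1, fun a X hpos hlim htip i σ S hDat hσ Q hQ => ?_⟩
  have hat : Tendsto a atTop (𝓝[>] 0) := hDat.ha
  have hsq : ∀ k f, |σ k f| = 1 := by
    intro k f
    have := hDat.sq k f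
    rw [← abs_mul_abs_self] at this
    nlinarith [abs_nonneg (σ k f)]
  refine hF2 a X hpos hlim htip (fun k f h => -(a k ^ (-(p + 1)) * Q k (f, h)))
    (fun k f h => a k ^ (-p) * col (S k) (Q k) (f, h)) ?_ ?_ ?_ ?_
  · filter_upwards [hQ, hDat.small (show 0 < r0 / 4 by positivity),
      hDat.smallX (show 0 < r0 / 4 by positivity)] with k h1 h2 h3 f h hh
    refine supp_ann (Ψ := Ψ) H hrR (hpos k) h2 h3 (f, h) ?_
    intro h0
    refine hh ?_
    rw [h1, h0, mul_zero, mul_zero, neg_zero]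
  · intro d
    refine Mac3x622.l2_of_dom hBm hBv (C := max K M) ?_ (fun u hu => hGz' u hu d) ?_
      (fun u => (hGb d u).trans (le_max_right _ _)) (hGm d) ?_
    · filter_upwards [hQ, hDat.small (show 0 < r0 / 4 by positivity),
        hDat.smallX (show 0 < r0 / 4 by positivity)] with k h1 h2 h3 u hu
      show -(a k ^ (-(p + 1)) * Q k (meshIndex (a k) u, d)) = 0
      by_contra hne
      refine hu ?_
      have h4 : meshPoint (a k) (meshIndex (a k) u) ∈ ann x₀ (r0 / 2) (2 * R0) := by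
        refine supp_ann (Ψ := Ψ) H hrR (hpos k) h2 h3 (meshIndex (a k) u, d) ?_
        intro h0
        refine hne ?_
        rw [h1, h0, mul_zero, mul_zero, neg_zero]
      have h5 := Pairx599.norm_mesh_sub (hpos k) u
      have h6 : ‖u - x₀‖ ≤ ‖meshPoint (a k) (meshIndex (a k) u) - u‖ +
          ‖meshPoint (a k) (meshIndex (a k) u) - x₀‖ := by
        have : u - x₀ = -(meshPoint (a k) (meshIndex (a k) u) - u) +
          (meshPoint (a k) (meshIndex (a k) u) - x₀) := by ring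
        rw [this]
        exact (norm_add_le _ _).trans (by rw [norm_neg])
      rw [mem_closedBall, dist_eq_norm]
      linarith [h4.2]
    · filter_upwards [hQ, hDat.small (show 0 < r0 / 4 by positivity)] with k h1 h2 f
      rw [abs_neg, abs_mul, h1, abs_mul, hsq, one_mul,
        abs_of_pos (Real.rpow_pos_of_pos (hpos k) _)]
      have h3 := hK (a k) (hpos k) (by linarith) (f - X k i, d)
      refine le_trans ?_ (le_max_left K M)
      calc a k ^ (-(p + 1)) * |comm wB (fun f => χ (meshPoint (a k) f)) Ψ (f - X k i, d)|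
          ≤ a k ^ (-(p + 1)) * (K * a k ^ (p + 1)) :=
            mul_le_mul_of_nonneg_left h3 (Real.rpow_pos_of_pos (hpos k) _).le
        _ = K := by
            rw [mul_left_comm, ← Real.rpow_add (hpos k), neg_add_cancel, Real.rpow_zero, mul_one]
    · have hm : ∀ᵐ z : ℂ, Gen2 (z - x₀).re (z - x₀).im := ae_gen2_sub x₀
      filter_upwards [hm, hσ] with z h1 h2
      have h3 : Tendsto (fun k => meshPoint (a k) (meshIndex (a k) z - X k i)) atTop
          (𝓝 (z - x₀)) := by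
        simp only [LogDx813.mesh_sub]
        exact (Pairx599.tendsto_meshPoint hat z).sub hDat.hX
      have h4 := (h2.mul (HQ.comm_lim H hat h3 h1 d)).neg
      refine h4.congr' ?_
      filter_upwards [hQ] with k hk
      show -(σ k (meshIndex (a k) z) * _) = -(a k ^ (-(p + 1)) * Q k (meshIndex (a k) z, d))
      rw [hk]; ring
  · filter_upwards [hDat.cov] with k hk
    have := (col_zero hk (Q k)).const_mul (a k ^ (-p))
    rw [mul_zero] at this
    exact this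
  · filter_upwards [hDat.cov] with k hk f h
    have h1 := A_toF (wX (w (a k)) (X k)) ((a k ^ (-p)) • col (S k) (Q k)) f h
    have h2 : cur ((a k ^ (-p)) • col (S k) (Q k)) =
        fun f h => a k ^ (-p) * col (S k) (Q k) (f, h) := by
      funext f h
      simp [cur]
    rw [h2] at h1
    rw [h1, map_smul, Aop_col hk, Pi.smul_apply, smul_eq_mul]
    have h3 : a k ^ (-p) = a k * a k ^ (-(p + 1)) := by
      have : a k * a k ^ (-(p + 1)) = a k ^ (1 : ℝ) * a k ^ (-(p + 1)) := by rw [Real.rpow_one]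
      rw [this, ← Real.rpow_add (hpos k)]
      congr 1; ring
    rw [h3]; ring

/-- **the limit of the pairing of two commutators**, the second one with the limit `F` of `gl` -/
theorem gl_pair {Ψ : HE ℤ → ℝ} {p : ℝ} {c : ℂ → ℂ} (HP : SrcD Ψ p c) {χ : ℂ → ℝ} {r0 R0 : ℝ}
    (H : Cut χ r0 R0) (hrR : r0 ≤ R0) (hD : IsOpen D)
    {KQ : Set ℂ} (hKQ : IsClosed KQ) (hsub : ann x₀ (r0 / 2) (2 * R0) ⊆ Om D x \ KQ)
    {F gg : ℂ → ℂ} (hgg : ContinuousOn gg (Om D x \ KQ))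
    (hF : ∀ z ∈ Om D x \ KQ, F z * rX x z = gg z) {s : ℂ → ℝ}
    {a : ℕ → ℝ} {X : ℕ → Fin n → ℤ × ℤ} (hpos : ∀ k, 0 < a k) (hlim : Tendsto a atTop (𝓝 0))
    {i : Fin n} {σ : ℕ → ℤ × ℤ → ℝ} {S : ℕ → HE ℤ → HE ℤ → ℝ}
    (hDat : Dat atTop a (fun k => wX (w (a k)) (X k)) (fun k => X k i) σ S x₀ δ)
    (hσ : ∀ᵐ z : ℂ, Tendsto (fun k => σ k (meshIndex (a k) z)) atTop (𝓝 (s z)))
    {P Q : ℕ → Fld ℤ} (hP : ∀ᶠ k in atTop, ∀ h, P k h =
      σ k h.1 * comm wB (fun f => χ (meshPoint (a k) f)) Ψ (h.1 - X k i, h.2))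
    {q : ℝ} (hloc : ∀ z₀ ∈ Om D x, ∃ ρ > 0, ∀ d : Fin 4, Tendsto (fun k => ∫⁻ z in ball z₀ ρ,
      ENNReal.ofReal ((emb (a k) (fun f => a k ^ (-q) * col (S k) (Q k) (f, d)) z
        - lv (F z) d) ^ 2)) atTop (𝓝 0)) :
    Tendsto (fun k => a k ^ (1 - p - q) * formS (S k) (P k) (Q k)) atTop
      (𝓝 (∑ d, ∫ z, (s z * dens χ c (z - x₀) d) * lv (F z) d)) := by
  classical
  have hr := H.pos
  obtain ⟨C, hC0, hCb⟩ := HP.bd
  obtain ⟨K, hK0, hK⟩ := comm_bound H HP.hp hC0 hCb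
  have hOm : IsOpen (Om D x \ KQ) := (hD.sdiff (finite_range x).isClosed).sdiff hKQ
  have hat : Tendsto a atTop (𝓝[>] 0) := hDat.ha
  have hsq : ∀ k f, |σ k f| = 1 := by
    intro k f
    have := hDat.sq k f
    rw [← abs_mul_abs_self] at this
    nlinarith [abs_nonneg (σ k f)]
  have key : ∀ d : Fin 4, Tendsto (fun k => a k ^ 2 * ∑' u : ℤ × ℤ,
      (a k ^ (-(p + 1)) * P k (u, d)) * (a k ^ (-q) * col (S k) (Q k) (u, d))) atTop
      (𝓝 (∫ z, (s z * dens χ c (z - x₀) d) * lv (F z) d)) := by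
    intro d
    refine pair_lim hOm (ann_compact x₀ (r0 / 2) (2 * R0)) hsub hpos hlim
      (p := fun k u => a k ^ (-(p + 1)) * P k (u, d))
      (φ := fun k u => a k ^ (-q) * col (S k) (Q k) (u, d)) (f := fun z => lv (F z) d)
      (g := fun z => s z * dens χ c (z - x₀) d) (C := K) ?_ ?_ ?_ ?_ ?_
    · intro z₀ hz₀
      obtain ⟨ρ, hρ, h⟩ := hloc z₀ hz₀.1
      exact ⟨ρ, hρ, h d⟩
    · exact fun K' hK' hK'O => nice hgg hF d K' hK' hK'O
    · filter_upwards [hP, hDat.small (show 0 < r0 / 4 by positivity),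
        hDat.smallX (show 0 < r0 / 4 by positivity)] with k h1 h2 h3 u hu
      refine supp_ann (Ψ := Ψ) H hrR (hpos k) h2 h3 (u, d) ?_
      intro h0
      refine hu ?_
      rw [h1, h0, mul_zero, mul_zero]
    · filter_upwards [hP, hDat.small (show 0 < r0 / 4 by positivity)] with k h1 h2 u
      rw [abs_mul, h1, abs_mul, hsq, one_mul, abs_of_pos (Real.rpow_pos_of_pos (hpos k) _)]
      have h3 := hK (a k) (hpos k) (by linarith) (u - X k i, d)
      calc a k ^ (-(p + 1)) * |comm wB (fun f => χ (meshPoint (a k) f)) Ψ (u - X k i, d)|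
          ≤ a k ^ (-(p + 1)) * (K * a k ^ (p + 1)) :=
            mul_le_mul_of_nonneg_left h3 (Real.rpow_pos_of_pos (hpos k) _).le
        _ = K := by
            rw [mul_left_comm, ← Real.rpow_add (hpos k), neg_add_cancel, Real.rpow_zero, mul_one]
    · have hm : ∀ᵐ z : ℂ, Gen2 (z - x₀).re (z - x₀).im := ae_gen2_sub x₀
      filter_upwards [hm, hσ] with z h1 h2
      have h3 : Tendsto (fun k => meshPoint (a k) (meshIndex (a k) z - X k i)) atTop
          (𝓝 (z - x₀)) := by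
        simp only [LogDx813.mesh_sub]
        exact (Pairx599.tendsto_meshPoint hat z).sub hDat.hX
      have h4 := h2.mul (HP.comm_lim H hat h3 h1 d)
      refine h4.congr' ?_
      filter_upwards [hP] with k hk
      rw [hk]; ring
  refine (tendsto_finsetSum (Finset.univ : Finset (Fin 4)) fun d _ => key d).congr' ?_
  refine Eventually.of_forall fun k => ?_
  simp only
  rw [formS_eq, pr_eq_sum (P k) (col (S k) (Q k)) _ (Finset.Subset.refl _),
    Pairx599.sum_he (F := fun h => P k h * col (S k) (Q k) h) (A := (P k).support)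
      (fun h hh => by rw [Finsupp.notMem_support_iff.1 hh, zero_mul]), Finset.mul_sum]
  refine Finset.sum_congr rfl fun d _ => ?_
  have e : ∀ u : ℤ × ℤ, (a k ^ (-(p + 1)) * P k (u, d)) * (a k ^ (-q) * col (S k) (Q k) (u, d)) =
      a k ^ (-(p + 1) - q) * (P k (u, d) * col (S k) (Q k) (u, d)) := by
    intro u
    rw [sub_eq_add_neg (-(p + 1)), Real.rpow_add (hpos k)]; ring
  simp only [e]
  rw [tsum_mul_left, ← mul_assoc, ← Real.rpow_natCast, ← Real.rpow_add (hpos k)]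
  congr 2
  push_cast; ring

end gl

end Crest.Agent.R165.LdGenx817
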