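import Crest.Agent.R165.Mac2_622

/-!
# Row 165 (S0250), U4/MAC (helper622): convergence of the sources and of the columns

* `Cut y r χ` : cut-off at `y`, equal to `1` on `|z-y| ≤ r/2`, to `0` off `|z-y| < 3r/4`
* `Gs` : the limit source, `gsrcp_L2` : convergence
* `col` : convergence of the regular columns from `ResConv`.
-/

set_option autoImplicit false
set_option linter.unusedVariables false
set_option linter.unusedSimpArgs false

noncomputable section

open MeasureTheory Filter Topology Set Metric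
open Crest.ProbabilityR.IsingModel
open Crest.Agent.R165.Tr1x40 Crest.Agent.R165.RIfx891 Crest.Agent.R165.Embx622
open Crest.Agent.R165.Upx622 Crest.Agent.R165.Tr2x40
open Crest.Agent.R165.Mac0x622 Crest.Agent.R165.Mac1x622 Crest.Agent.R165.MacIx622
open Crest.Agent.R165.Mac2x622

namespace Crest.Agent.R165.Mac3x622

/-- direction of a half-edge -/
def dv (h : Fin 4) : ℂ :=
  match h with
  | 0 => -Complex.I
  | 1 => 1
  | 2 => Complex.I
  | 3 => -1

theorem norm_dv (h : Fin 4) : ‖dv h‖ = 1 := by fin_cases h <;> simp [dv]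

theorem mesh_nb (t : ℝ) (f : Face) (h : Fin 4) :
    meshPoint t (nb f h) = meshPoint t f + t * dv h := by
  fin_cases h <;> apply Complex.ext <;> simp [dv, meshPoint_re, meshPoint_im, nb] <;> ring

/-- a smooth cut-off at `y` -/
structure Cut (y : ℂ) (r : ℝ) (χ : ℂ → ℝ) : Prop where
  smooth : ContDiff ℝ 1 χ
  one : ∀ z, ‖z - y‖ ≤ r / 2 → χ z = 1
  zero : ∀ z, 3 * r / 4 ≤ ‖z - y‖ → χ z = 0
  nonneg : ∀ z, 0 ≤ χ z
  le_one : ∀ z, χ z ≤ 1
  lip : ∃ C : NNReal, LipschitzWith C χ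

theorem exists_cut (y : ℂ) {r : ℝ} (hr : 0 < r) : ∃ χ, Cut y r χ := by
  let f : ContDiffBump y := ⟨r / 2, 3 * r / 4, by linarith, by linarith⟩
  refine ⟨f, f.contDiff, ?_, ?_, fun z => f.nonneg, fun z => f.le_one, ?_⟩
  · intro z hz
    exact f.one_of_mem_closedBall (by rw [mem_closedBall, dist_eq_norm]; exact hz)
  · intro z hz
    exact f.zero_of_le_dist (by rw [dist_eq_norm]; exact hz)
  · exact ContDiff.lipschitzWith_of_hasCompactSupport f.hasCompactSupport
      (f.contDiff (n := 1)) (by simp)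

/-- difference quotients -/
theorem quot_tendsto {χ : ℂ → ℝ} (hχ : ContDiff ℝ 1 χ) {t : ℕ → ℝ} (ht : ∀ k, 0 < t k)
    (hlim : Tendsto t atTop (𝓝 0)) {P : ℕ → ℂ} {u : ℂ} (hP : Tendsto P atTop (𝓝 u)) (d : ℂ) :
    Tendsto (fun k => (t k)⁻¹ * (χ (P k + t k * d) - χ (P k))) atTop (𝓝 (fderiv ℝ χ u d)) := by
  have hs : HasStrictFDerivAt χ (fderiv ℝ χ u) u := hχ.contDiffAt.hasStrictFDerivAt (by simp)
  have h1 := hs.isLittleO
  have h2 : Tendsto (fun k => (P k + t k * d, P k)) atTop (𝓝 (u, u)) := by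
    have h3 : Tendsto (fun k => P k + t k * d) atTop (𝓝 (u + (0 : ℝ) * d)) :=
      hP.add (((Complex.continuous_ofReal.tendsto 0).comp hlim).mul_const d)
    simp only [Complex.ofReal_zero, zero_mul, add_zero] at h3
    exact h3.prodMk_nhds hP
  have h4 := h1.comp_tendsto h2
  have h5 : (fun k => χ (P k + t k * d) - χ (P k) - t k * fderiv ℝ χ u d) =o[atTop] t := by
    have h6 : (fun k => χ (P k + t k * d) - χ (P k) - t k * fderiv ℝ χ u d) =o[atTop]
        fun k => (t k : ℂ) * d := by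
      refine (h4.congr_left fun k => ?_).congr_right fun k => ?_
      · simp only [Function.comp, add_sub_cancel_left]
        have : (t k : ℂ) * d = (t k) • d := by simp
        rw [this, map_smul, smul_eq_mul]
      · simp [Function.comp]
    refine h6.trans_isBigO ?_
    refine Asymptotics.IsBigO.of_bound ‖d‖ (Eventually.of_forall fun k => ?_)
    rw [norm_mul, Complex.norm_real, mul_comm]
  have h6 := h5.tendsto_div_nhds_zero
  have h7 := h6.add_const (fderiv ℝ χ u d)
  rw [zero_add] at h7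
  refine h7.congr fun k => ?_
  have := (ht k).ne'
  field_simp
  ring

/-- amplitude of the plane kernel with source amplitude `c` -/
def sC (c : ℂ) : ℂ := Complex.I * c / (2 * Real.pi * xc)

theorem src_eq (b : Fin 4) : src b = sC (ud b) := rfl

/-- amplitude of the source vector `p` -/
def cp (p : Fin 4 → ℝ) : ℂ := ∑ i, (p i : ℂ) * ud i

theorem sC_cp (p : Fin 4 → ℝ) : sC (cp p) = ∑ i, (p i : ℂ) * src i := by
  unfold sC cp src
  rw [Finset.mul_sum, Finset.sum_div]
  exact Finset.sum_congr rfl fun i _ => by ring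

theorem lv_smul' (s : ℝ) (c : ℂ) (h : Fin 4) : lv ((s : ℂ) * c) h = s * lv c h := lv_real_mul s c h

theorem lv_sum {ι : Type*} (s : Finset ι) (F : ι → ℂ) (h : Fin 4) :
    lv (∑ i ∈ s, F i) h = ∑ i ∈ s, lv (F i) h := by
  classical
  induction s using Finset.induction_on with
  | empty => simp [lv_ud]
  | insert a s ha ih => rw [Finset.sum_insert ha, Finset.sum_insert ha, lv_add, ih]

theorem lv_zero (h : Fin 4) : lv 0 h = 0 := by simp [lv_ud]

/-- the light vector determines its amplitude -/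
theorem lv_inj {c d : ℂ} (h1 : lv c 1 = lv d 1) (h3 : lv c 3 = lv d 3) : c = d := by
  simp only [lv] at h1 h3
  exact Complex.ext h1 (by linarith)

theorem abs_lv_le (c : ℂ) (h : Fin 4) : |lv c h| ≤ ‖c‖ := by
  rw [lv_ud]
  refine (Complex.abs_re_le_norm _).trans ?_
  rw [norm_mul]
  have : ‖ud h‖ = 1 := by
    unfold ud
    rw [← Complex.ofReal_neg, Complex.norm_exp_ofReal_mul_I]
  rw [this, mul_one]

/-- the limit source -/
def Gs {n : ℕ} (x : Fin n → ℂ) (y : ℂ) (χ : ℂ → ℝ) (c : ℂ) (z : ℂ) (h : Fin 4) : ℝ :=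
  -(sg h * xc * fderiv ℝ χ z (dv h) * (gc x y z * lv (sC c / (z - y)) (op h)))

/-- column with source vector `p` -/
def regp (a : ℝ) (c γ : Face → ℝ) (S : Face × Fin 4 → Face × Fin 4 → ℝ) (f' : Face)
    (p : Fin 4 → ℝ) : Fld := fun f h => ∑ i, p i * reg a c γ S (f', i) f h

/-- its source -/
def gsrcp (a : ℝ) (c γ : Face → ℝ) (f' : Face) (p : Fin 4 → ℝ) : Fld :=
  fun f h => ∑ i, p i * gsrc a c γ (f', i) f h

theorem A_sum (w : Fld) {ι : Type*} (s : Finset ι) (q : ι → ℝ) (Φ : ι → Fld) (f : Face)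
    (h : Fin 4) : A w (fun f h => ∑ i ∈ s, q i * Φ i f h) f h = ∑ i ∈ s, q i * A w (Φ i) f h := by
  classical
  induction s using Finset.induction_on with
  | empty =>
    simp only [Finset.sum_empty]
    have := A_smul w 0 (fun _ _ => 0) f h
    simpa using this
  | insert a s ha ih =>
    have e : (fun f h => ∑ i ∈ insert a s, q i * Φ i f h)
        = fun f h => q a * Φ a f h + ∑ i ∈ s, q i * Φ i f h := by
      funext f h; rw [Finset.sum_insert ha]
    rw [e, A_add w (fun f h => q a * Φ a f h) (fun f h => ∑ i ∈ s, q i * Φ i f h), A_smul,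
      Finset.sum_insert ha, ih]

theorem A_regp {w : Fld} {a : ℝ} (ha : 0 < a) {c γ : Face → ℝ}
    {S : Face × Fin 4 → Face × Fin 4 → ℝ} (hS : Cov40 w S) (hγ : ∀ f, γ f ^ 2 = 1)
    (f' : Face) (hc : c f' = 1) (p : Fin 4 → ℝ)
    (hw : ∀ f h, (c f ≠ 0 ∨ c (nb f h) ≠ 0) → w f h = xc * (γ f * γ (nb f h)))
    (f : Face) (h : Fin 4) :
    A w (regp a c γ S f' p) f h = a * gsrcp a c γ f' p f h := by
  unfold regp gsrcp
  rw [A_sum w Finset.univ p (fun i => reg a c γ S (f', i)), Finset.mul_sum]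
  refine Finset.sum_congr rfl fun i _ => ?_
  rw [A_reg ha hS hγ (f', i) hc hw]
  ring

/-! ### the source on the lattice -/

theorem nb_norm (t : ℝ) (ht : 0 < t) (f : Face) (h : Fin 4) (z : ℂ) :
    |‖meshPoint t (nb f h) - z‖ - ‖meshPoint t f - z‖| ≤ t := by
  refine (abs_norm_sub_norm_le _ _).trans ?_
  rw [mesh_nb]
  have : meshPoint t f + t * dv h - z - (meshPoint t f - z) = t * dv h := by ring
  rw [this, norm_mul, norm_dv, mul_one, Complex.norm_real, Real.norm_eq_abs, abs_of_pos ht]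

/-- the source lives on the annulus `r/4 ≤ |z - y| ≤ r` -/
theorem gsrc_supp {y : ℂ} {r : ℝ} {χ : ℂ → ℝ} (hχ : Cut y r χ) {t : ℝ} (ht : 0 < t)
    (htr : t ≤ r / 16) (γ : Face → ℝ) (b : Face × Fin 4) (f : Face) (h : Fin 4)
    (hne : gsrc t (fun f => χ (meshPoint t f)) γ b f h ≠ 0) :
    r / 4 < ‖meshPoint t f - y‖ ∧ ‖meshPoint t f - y‖ < r := by
  have h0 := abs_le.1 (nb_norm t ht f h y)
  have h1 : χ (meshPoint t (nb f h)) ≠ χ (meshPoint t f) := by
    intro hc
    apply hne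
    simp only [gsrc, hc, sub_self, mul_zero, zero_mul, neg_zero]
  constructor
  · by_contra hc
    push Not at hc
    apply h1
    rw [hχ.one _ (by linarith), hχ.one _ (by linarith)]
  · by_contra hc
    push Not at hc
    apply h1
    rw [hχ.zero _ (by linarith), hχ.zero _ (by linarith)]

theorem gsrc_bound {y : ℂ} {r : ℝ} (hr : 0 < r) {χ : ℂ → ℝ} (hχ : Cut y r χ) {L : NNReal}
    (hL : LipschitzWith L χ) {t : ℝ} (ht : 0 < t)
    (htr : t ≤ r / 16) {γ : Face → ℝ} (hγ : ∀ f, γ f ^ 2 = 1) (b : Face × Fin 4)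
    (hb : ‖meshPoint t b.1 - y‖ ≤ r / 16) (f : Face) (h : Fin 4) :
    |gsrc t (fun f => χ (meshPoint t f)) γ b f h| ≤ L * (4000000 / (r / 8)) := by
  by_cases hne : gsrc t (fun f => χ (meshPoint t f)) γ b f h = 0
  · rw [hne, abs_zero]; positivity
  have h0 := abs_le.1 (nb_norm t ht f h y)
  obtain ⟨h1, h2⟩ := gsrc_supp hχ ht htr γ b f h hne
  have h3 : r / 8 ≤ ‖meshPoint t (nb f h) - meshPoint t b.1‖ := by
    have h4 : ‖meshPoint t (nb f h) - y‖ ≤ ‖meshPoint t (nb f h) - meshPoint t b.1‖ +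
      ‖meshPoint t b.1 - y‖ := norm_sub_le_norm_sub_add_norm_sub _ _ _
    linarith
  have h4 := sp_bound ht b (nb f h) (op h) (d := r / 8) (by linarith) h3
  have h5 : |t⁻¹ * (χ (meshPoint t (nb f h)) - χ (meshPoint t f))| ≤ L := by
    have h6 := hL.dist_le_mul (meshPoint t (nb f h)) (meshPoint t f)
    rw [Real.dist_eq, dist_eq_norm, mesh_nb, add_sub_cancel_left, norm_mul, norm_dv, mul_one,
      Complex.norm_real, Real.norm_eq_abs, abs_of_pos ht] at h6
    rw [abs_mul, abs_inv, abs_of_pos ht, mesh_nb]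
    rw [inv_mul_le_iff₀ ht]
    linarith
  have h6 : |γ f| = 1 := by
    have := hγ f
    rw [← sq_abs] at this
    nlinarith [abs_nonneg (γ f)]
  unfold gsrc
  rw [abs_neg, abs_mul, abs_mul, abs_mul, abs_mul (γ f), h6, one_mul]
  have h7 : |sg h| = 1 := by fin_cases h <;> simp [sg]
  rw [h7, one_mul, abs_of_pos xc_pos]
  have hx := xc_lt_one
  have hx0 := xc_pos
  have h8 : 0 ≤ |t⁻¹ * (χ (meshPoint t (nb f h)) - χ (meshPoint t f))| := abs_nonneg _
  have h9 : xc * |t⁻¹ * (χ (meshPoint t (nb f h)) - χ (meshPoint t f))| ≤ L := by nlinarith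
  exact mul_le_mul h9 h4 (abs_nonneg _) (by positivity)

/-- pointwise convergence of the source -/
theorem gsrc_tendsto {n : ℕ} {x : Fin n → ℂ} {y : ℂ} {r : ℝ} {χ : ℂ → ℝ} (hχ : Cut y r χ)
    {a : ℕ → ℝ} (hpos : ∀ k, 0 < a k) (hlim : Tendsto a atTop (𝓝 0)) {V : ℕ → Fin n → Face}
    (tip : ∀ i, Tendsto (fun k => meshPoint (a k) (V k i)) atTop (𝓝 (x i)))
    {f' : ℕ → Face} (hf' : Tendsto (fun k => meshPoint (a k) (f' k)) atTop (𝓝 y)) (i : Fin 4)
    {u : ℂ} (hu : ∀ i, (x i).im ≠ u.im) (huy : u ≠ y) (h : Fin 4) :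
    Tendsto (fun k => emb (a k) (fun f => gsrc (a k) (fun f => χ (meshPoint (a k) f))
      (gz x y (V k)) (f' k, i) f h) u) atTop (𝓝 (Gs x y χ (ud i) u h)) := by
  have hP : Tendsto (fun k => meshPoint (a k) (meshIndex (a k) u)) atTop (𝓝 u) := by
    rw [tendsto_iff_norm_sub_tendsto_zero]
    refine squeeze_zero (fun _ => norm_nonneg _) (fun k => norm_mesh_sub (hpos k) u) ?_
    simpa using hlim.const_mul 2
  have h1 := quot_tendsto hχ.smooth hpos hlim hP (dv h)
  have h2 : Tendsto (fun k => gz x y (V k) (meshIndex (a k) u)) atTop (𝓝 (gc x y u)) :=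
    tendsto_const_nhds.congr' ((gz_tendsto hpos hlim tip y hu).mono fun k hk => hk.symm)
  have hP' : Tendsto (fun k => meshPoint (a k) (nb (meshIndex (a k) u) h)) atTop (𝓝 u) := by
    have h3 : Tendsto (fun k => meshPoint (a k) (meshIndex (a k) u) + a k * dv h) atTop
        (𝓝 (u + (0 : ℝ) * dv h)) :=
      hP.add (((Complex.continuous_ofReal.tendsto 0).comp hlim).mul_const _)
    simp only [Complex.ofReal_zero, zero_mul, add_zero] at h3
    exact h3.congr fun k => (mesh_nb _ _ _).symm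
  have h3 := sp_tendsto hpos hlim huy hP' hf' i (op h)
  have h4 := ((h1.const_mul (sg h * xc)).mul (h2.mul h3)).neg
  rw [sc_lv] at h4
  unfold Gs
  rw [src_eq] at h4
  refine h4.congr fun k => ?_
  simp only [emb, gsrc, mesh_nb]

theorem Gs_bound {n : ℕ} (x : Fin n → ℂ) {y : ℂ} {r : ℝ} (hr : 0 < r) {χ : ℂ → ℝ}
    (hχ : Cut y r χ) {L : NNReal} (hL : LipschitzWith L χ) (c : ℂ) (z : ℂ) (h : Fin 4) :
    |Gs x y χ c z h| ≤ L * (‖sC c‖ / (r / 2)) := by
  unfold Gs
  by_cases hz : ‖z - y‖ < r / 2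
  · have h1 : fderiv ℝ χ z = 0 := by
      have h2 : χ =ᶠ[𝓝 z] fun _ => 1 := by
        have : ∀ᶠ u in 𝓝 z, ‖u - y‖ < r / 2 :=
          ((continuous_id.sub continuous_const).norm.tendsto z).eventually (eventually_lt_nhds hz)
        filter_upwards [this] with u hu
        exact hχ.one u hu.le
      rw [h2.fderiv_eq]
      exact fderiv_const_apply _
    rw [h1]
    simp only [zero_apply, mul_zero, zero_mul, neg_zero, abs_zero]
    positivity
  · push Not at hz
    rw [abs_neg, abs_mul, abs_mul, abs_mul, abs_mul (gc x y z), gc_abs, one_mul]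
    have h7 : |sg h| = 1 := by fin_cases h <;> simp [sg]
    rw [h7, one_mul, abs_of_pos xc_pos]
    have h1 : |fderiv ℝ χ z (dv h)| ≤ L := by
      have h2 := (fderiv ℝ χ z).le_opNorm (dv h)
      rw [norm_dv, mul_one, Real.norm_eq_abs] at h2
      exact h2.trans (norm_fderiv_le_of_lipschitz ℝ hL)
    have h2 : |lv (sC c / (z - y)) (op h)| ≤ ‖sC c‖ / (r / 2) := by
      refine (abs_lv_le _ _).trans ?_
      rw [norm_div]
      gcongr
    have hx := xc_lt_one
    have hx0 := xc_pos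
    have h8 : 0 ≤ |fderiv ℝ χ z (dv h)| := abs_nonneg _
    have h9 : xc * |fderiv ℝ χ z (dv h)| ≤ L := by nlinarith
    exact mul_le_mul h9 h2 (abs_nonneg _) (by positivity)

theorem Gs_zero {n : ℕ} (x : Fin n → ℂ) {y : ℂ} {r : ℝ} (hr : 0 < r) {χ : ℂ → ℝ}
    (hχ : Cut y r χ) (c : ℂ) (z : ℂ) (h : Fin 4) (hz : ‖z - y‖ < r / 2 ∨ 3 * r / 4 < ‖z - y‖) :
    Gs x y χ c z h = 0 := by
  have h1 : fderiv ℝ χ z = 0 := by
    rcases hz with hz | hz
    · have h2 : χ =ᶠ[𝓝 z] fun _ => 1 := by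
        have : ∀ᶠ u in 𝓝 z, ‖u - y‖ < r / 2 :=
          ((continuous_id.sub continuous_const).norm.tendsto z).eventually (eventually_lt_nhds hz)
        filter_upwards [this] with u hu
        exact hχ.one u hu.le
      rw [h2.fderiv_eq]
      exact fderiv_const_apply _
    · have h2 : χ =ᶠ[𝓝 z] fun _ => 0 := by
        have : ∀ᶠ u in 𝓝 z, 3 * r / 4 < ‖u - y‖ :=
          ((continuous_id.sub continuous_const).norm.tendsto z).eventually (eventually_gt_nhds hz)
        filter_upwards [this] with u hu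
        exact hχ.zero u hu.le
      rw [h2.fderiv_eq]
      exact fderiv_const_apply _
  unfold Gs
  rw [h1]
  simp

theorem gc_measurable {n : ℕ} (x : Fin n → ℂ) (y : ℂ) : Measurable (gc x y) := by
  classical
  have e : gc x y = fun u => ∏ i, (if rel (x i) y ∧ (x i).im < u.im then (-1 : ℝ) else 1) := by
    funext u; unfold gc; rfl
  rw [e]
  refine Finset.measurable_prod _ fun i _ => ?_
  refine Measurable.ite ?_ measurable_const measurable_const
  by_cases h : rel (x i) y
  · simp only [h, true_and]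
    exact measurableSet_lt measurable_const Complex.measurable_im
  · simp [h]

theorem Gs_measurable {n : ℕ} (x : Fin n → ℂ) {y : ℂ} {r : ℝ} {χ : ℂ → ℝ}
    (hχ : Cut y r χ) (c : ℂ) (h : Fin 4) : Measurable fun z => Gs x y χ c z h := by
  unfold Gs
  have h1 : Measurable fun z => fderiv ℝ χ z (dv h) :=
    ((hχ.smooth.continuous_fderiv (by simp)).clm_apply continuous_const).measurable
  have h2 : Measurable fun z : ℂ => lv (sC c / (z - y)) (op h) :=
    (lv_continuous _).measurable.comp (measurable_const.div (measurable_id.sub_const y))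
  exact ((h1.const_mul _).mul ((gc_measurable x y).mul h2)).neg

/-- `L²` convergence from bounded convergence on a bounded set -/
theorem l2_of_dom {a : ℕ → ℝ} {v : ℕ → Face → ℝ} {G : ℂ → ℝ} {B : Set ℂ}
    (hB : MeasurableSet B) (hBf : volume B ≠ ⊤) {C : ℝ}
    (hv : ∀ᶠ k in atTop, ∀ u, u ∉ B → emb (a k) (v k) u = 0) (hG : ∀ u, u ∉ B → G u = 0)
    (hb : ∀ᶠ k in atTop, ∀ f, |v k f| ≤ C) (hGb : ∀ u, |G u| ≤ C) (hGm : Measurable G)
    (hp : ∀ᵐ u, Tendsto (fun k => emb (a k) (v k) u) atTop (𝓝 (G u))) :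
    Tendsto (fun k => ∫⁻ z, ENNReal.ofReal ((emb (a k) (v k) z - G z) ^ 2)) atTop (𝓝 0) := by
  have h0 : (0 : ENNReal) = ∫⁻ z : ℂ, (0 : ENNReal) := by simp
  rw [h0]
  refine tendsto_lintegral_filter_of_dominated_convergence
    (B.indicator fun _ => ENNReal.ofReal ((2 * C) ^ 2)) (Eventually.of_forall fun k => ?_) ?_ ?_ ?_
  · exact (((emb_measurable _ _).sub hGm).pow_const 2).ennreal_ofReal
  · filter_upwards [hv, hb] with k h1 h2
    refine Eventually.of_forall fun u => ?_
    by_cases hu : u ∈ B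
    · rw [indicator_of_mem hu]
      apply ENNReal.ofReal_le_ofReal
      have h3 : |emb (a k) (v k) u - G u| ≤ 2 * C := by
        have h4 := h2 (meshIndex (a k) u)
        have h5 := hGb u
        refine (abs_sub _ _).trans ?_
        have : |emb (a k) (v k) u| ≤ C := h4
        linarith
      rw [← sq_abs]
      gcongr
    · rw [indicator_of_notMem hu, h1 u hu, hG u hu]
      simp
  · rw [lintegral_indicator hB, setLIntegral_const]
    exact ENNReal.mul_ne_top ENNReal.ofReal_ne_top hBf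
  · filter_upwards [hp] with u hu
    have h1 : Tendsto (fun k => (emb (a k) (v k) u - G u) ^ 2) atTop (𝓝 0) := by
      have := (hu.sub_const (G u)).pow 2
      simpa using this
    have h2 := (ENNReal.continuous_ofReal.tendsto 0).comp h1
    rw [ENNReal.ofReal_zero] at h2
    exact h2

theorem Gs_sum {n : ℕ} (x : Fin n → ℂ) (y : ℂ) (χ : ℂ → ℝ) (p : Fin 4 → ℝ) (z : ℂ) (h : Fin 4) :
    Gs x y χ (cp p) z h = ∑ i, p i * Gs x y χ (ud i) z h := by
  unfold Gs
  rw [sC_cp, Finset.sum_div, lv_sum]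
  have e : ∀ i, lv (((p i : ℂ) * src i) / (z - y)) (op h) = p i * lv (sC (ud i) / (z - y)) (op h) := by
    intro i
    rw [mul_div_assoc, lv_real_mul, src_eq]
  simp only [e]
  rw [Finset.mul_sum, Finset.mul_sum, ← Finset.sum_neg_distrib]
  exact Finset.sum_congr rfl fun i _ => by ring

/-- **`L²` convergence of the sources** -/
theorem gsrcp_L2 {n : ℕ} {x : Fin n → ℂ} {y : ℂ} {r : ℝ} (hr : 0 < r) {χ : ℂ → ℝ}
    (hχ : Cut y r χ) {a : ℕ → ℝ} (hpos : ∀ k, 0 < a k) (hlim : Tendsto a atTop (𝓝 0))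
    {V : ℕ → Fin n → Face}
    (tip : ∀ i, Tendsto (fun k => meshPoint (a k) (V k i)) atTop (𝓝 (x i)))
    {f' : ℕ → Face} (hf' : Tendsto (fun k => meshPoint (a k) (f' k)) atTop (𝓝 y))
    (p : Fin 4 → ℝ) (h : Fin 4) :
    Tendsto (fun k => ∫⁻ z, ENNReal.ofReal ((emb (a k) (fun f => gsrcp (a k)
      (fun f => χ (meshPoint (a k) f)) (gz x y (V k)) (f' k) p f h) z
        - Gs x y χ (cp p) z h) ^ 2)) atTop (𝓝 0) := by
  obtain ⟨L, hL⟩ := hχ.lip
  have ea : ∀ᶠ k in atTop, a k < r / 16 := hlim.eventually (eventually_lt_nhds (by positivity))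
  have ef : ∀ᶠ k in atTop, ‖meshPoint (a k) (f' k) - y‖ < r / 16 := by
    have := tendsto_iff_norm_sub_tendsto_zero.1 hf'
    exact this.eventually (eventually_lt_nhds (by positivity))
  set C : ℝ := (∑ i, |p i|) * (L * (4000000 / (r / 8))) + L * (‖sC (cp p)‖ / (r / 2)) with hC
  have hs0 : 0 ≤ ∑ i, |p i| := Finset.sum_nonneg fun i _ => abs_nonneg _
  refine l2_of_dom (B := closedBall y (2 * r)) (C := C) isClosed_closedBall.measurableSet
    measure_closedBall_lt_top.ne ?_ ?_ ?_ ?_ (Gs_measurable x hχ _ h) ?_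
  · filter_upwards [ea] with k hk u hu
    rw [mem_closedBall, dist_eq_norm, not_le] at hu
    unfold emb gsrcp
    refine Finset.sum_eq_zero fun i _ => ?_
    by_contra hne
    have h1 := gsrc_supp hχ (hpos k) hk.le (gz x y (V k)) (f' k, i) (meshIndex (a k) u) h
      (right_ne_zero_of_mul hne)
    have h2 := norm_mesh_sub (hpos k) u
    have h3 : ‖u - y‖ ≤ ‖u - meshPoint (a k) (meshIndex (a k) u)‖ +
      ‖meshPoint (a k) (meshIndex (a k) u) - y‖ := norm_sub_le_norm_sub_add_norm_sub _ _ _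
    rw [norm_sub_rev u (meshPoint _ _)] at h3
    linarith [h1.2]
  · intro u hu
    rw [mem_closedBall, dist_eq_norm, not_le] at hu
    exact Gs_zero x hr hχ _ _ _ (Or.inr (by linarith))
  · filter_upwards [ea, ef] with k h1 h2 f
    unfold gsrcp
    refine (Finset.abs_sum_le_sum_abs _ _).trans ?_
    have h3 : ∀ i ∈ Finset.univ, |p i * gsrc (a k) (fun f => χ (meshPoint (a k) f))
        (gz x y (V k)) (f' k, i) f h| ≤ |p i| * (L * (4000000 / (r / 8))) := by
      intro i _
      rw [abs_mul]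
      gcongr
      exact gsrc_bound hr hχ hL (hpos k) h1.le (gz_sq x y (V k)) (f' k, i) h2.le f h
    refine (Finset.sum_le_sum h3).trans ?_
    rw [← Finset.sum_mul, hC]
    have : 0 ≤ (L : ℝ) * (‖sC (cp p)‖ / (r / 2)) := by positivity
    linarith
  · intro u
    refine (Gs_bound x hr hχ hL _ _ _).trans ?_
    rw [hC]
    have : 0 ≤ (∑ i, |p i|) * ((L : ℝ) * (4000000 / (r / 8))) := by positivity
    linarith
  · have h1 : ∀ᵐ u : ℂ, u ≠ y := by
      rw [ae_iff]
      simp
    have h2 := ae_im_ne x (univ : Set ℂ)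
    rw [Measure.restrict_univ] at h2
    filter_upwards [h1, h2] with u hu1 hu2
    rw [Gs_sum]
    unfold emb gsrcp
    refine tendsto_finsetSum _ fun i _ => ?_
    exact (gsrc_tendsto hχ hpos hlim tip hf' i hu2 hu1 h).const_mul (p i)

theorem Gs_memLp {n : ℕ} (x : Fin n → ℂ) {y : ℂ} {r : ℝ} (hr : 0 < r) {χ : ℂ → ℝ}
    (hχ : Cut y r χ) (c : ℂ) (h : Fin 4) : MemLp (fun z => Gs x y χ c z h) 2 volume := by
  obtain ⟨L, hL⟩ := hχ.lip
  have h1 : MemLp ((closedBall y (2 * r)).indicator fun _ : ℂ => (L * (‖sC c‖ / (r / 2)) : ℝ)) 2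
      (volume : Measure ℂ) :=
    memLp_indicator_const 2 isClosed_closedBall.measurableSet _
      (Or.inr measure_closedBall_lt_top.ne)
  refine h1.mono (Gs_measurable x hχ c h).aestronglyMeasurable (Eventually.of_forall fun u => ?_)
  by_cases hu : u ∈ closedBall y (2 * r)
  · rw [indicator_of_mem hu, Real.norm_eq_abs, Real.norm_eq_abs]
    refine (Gs_bound x hr hχ hL _ _ _).trans (le_abs_self _)
  · rw [indicator_of_notMem hu]
    rw [mem_closedBall, dist_eq_norm, not_le] at hu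
    rw [Gs_zero x hr hχ _ _ _ (Or.inr (by linarith))]

end Crest.Agent.R165.Mac3x622
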