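import Crest.Agent.R165.MacI_622
import Crest.Agent.R165.Mac3_622
import Crest.Agent.R165.Pair_599

/-!
# Row 165 (S0250), block U (helper817): pairing of a weak source with a strongly convergent field

* `lintegral_cover` : local `L²` convergence is uniform on compact sets
* `pair_lim` : `a² ∑ p_k φ_k → ∫ g f` if `p_k → g` boundedly a.e. with support in a compact subset
  of `Om` and `φ_k → f` in `L²_loc(Om)`
-/

set_option autoImplicit false

noncomputable section

open MeasureTheory Filter Topology Set Metric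
open Crest.ProbabilityR.IsingModel
open Crest.Agent.R165.Embx622
open Crest.Agent.R165.Pairx599 (norm_mesh_sub finite_mesh summable_of_supp)

namespace Crest.Agent.R165.LdPairx817

theorem lintegral_biUnion_le {t : Finset ℂ} {s : ℂ → Set ℂ} (f : ℂ → ENNReal) :
    ∫⁻ z in ⋃ i ∈ t, s i, f z ≤ ∑ i ∈ t, ∫⁻ z in s i, f z := by
  classical
  induction t using Finset.induction_on with
  | empty => simp
  | insert i t hi ih =>
    rw [Finset.set_biUnion_insert, Finset.sum_insert hi]
    exact (lintegral_union_le f _ _).trans (add_le_add le_rfl ih)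

/-- local `L²` convergence is convergence on compact sets -/
theorem lintegral_cover {Om K : Set ℂ} (hK : IsCompact K) (hKO : K ⊆ Om)
    {h : ℕ → ℂ → ENNReal}
    (hloc : ∀ z₀ ∈ Om, ∃ ρ > 0, Tendsto (fun k => ∫⁻ z in ball z₀ ρ, h k z) atTop (𝓝 0)) :
    Tendsto (fun k => ∫⁻ z in K, h k z) atTop (𝓝 0) := by
  classical
  choose! ρ hρ hlim using hloc
  obtain ⟨t, htK, ht⟩ := hK.elim_nhds_subcover (fun z => ball z (if z ∈ Om then ρ z else 1))
    (fun z hz => ball_mem_nhds z (by rw [if_pos (hKO hz)]; exact hρ z (hKO hz)))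
  have h1 : Tendsto (fun k => ∑ z ∈ t, ∫⁻ y in ball z (ρ z), h k y) atTop (𝓝 (∑ z ∈ t, 0)) :=
    tendsto_finsetSum _ fun z hz => hlim z (hKO (htK z hz))
  rw [Finset.sum_const_zero] at h1
  refine tendsto_of_tendsto_of_tendsto_of_le_of_le tendsto_const_nhds h1 (fun _ => zero_le) ?_
  intro k
  have h2 : K ⊆ ⋃ z ∈ t, ball z (ρ z) := by
    intro y hy
    obtain ⟨z, hz, hyz⟩ := mem_iUnion₂.1 (ht hy)
    rw [if_pos (hKO (htK z hz))] at hyz
    exact mem_iUnion₂.2 ⟨z, hz, hyz⟩
  exact (lintegral_mono_set h2).trans (lintegral_biUnion_le _)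

/-- **pairing of a bounded a.e. convergent sequence with a strongly convergent one** -/
theorem pair_lim {Om K : Set ℂ} (hOm : IsOpen Om) (hK : IsCompact K) (hKO : K ⊆ Om) {a : ℕ → ℝ}
    (hpos : ∀ k, 0 < a k) (hlim : Tendsto a atTop (𝓝 0)) {φ p : ℕ → ℤ × ℤ → ℝ} {f g : ℂ → ℝ}
    {C : ℝ}
    (hloc : ∀ z₀ ∈ Om, ∃ ρ > 0, Tendsto (fun k => ∫⁻ z in ball z₀ ρ,
      ENNReal.ofReal ((emb (a k) (φ k) z - f z) ^ 2)) atTop (𝓝 0))
    (hfm : ∀ K' : Set ℂ, IsCompact K' → K' ⊆ Om →
      AEStronglyMeasurable f (volume.restrict K') ∧ ∃ B : ℝ, ∀ z ∈ K', |f z| ≤ B)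
    (hp : ∀ᶠ k in atTop, ∀ u, p k u ≠ 0 → meshPoint (a k) u ∈ K)
    (hC : ∀ᶠ k in atTop, ∀ u, |p k u| ≤ C)
    (hl : ∀ᵐ z : ℂ, Tendsto (fun k => p k (meshIndex (a k) z)) atTop (𝓝 (g z))) :
    Tendsto (fun k => a k ^ 2 * ∑' u, p k u * φ k u) atTop (𝓝 (∫ z, g z * f z)) := by
  classical
  obtain ⟨K', hK', hKK', hK'O⟩ := exists_compact_between hK hOm hKO
  obtain ⟨hfme, B, hB⟩ := hfm K' hK' hK'O
  have hKm : MeasurableSet K' := hK'.measurableSet
  have hvol : volume K' ≠ ⊤ := hK'.measure_ne_top
  -- cells near `K` are in `K'`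
  obtain ⟨δ, hδ, hthick⟩ := hK.exists_thickening_subset_open isOpen_interior hKK'
  have hsm : ∀ᶠ k in atTop, 2 * a k < δ := by
    have : Tendsto (fun k => 2 * a k) atTop (𝓝 0) := by simpa using hlim.const_mul 2
    exact this.eventually (gt_mem_nhds hδ)
  have hin : ∀ᶠ k in atTop, ∀ z : ℂ, z ∉ K' → p k (meshIndex (a k) z) = 0 := by
    filter_upwards [hp, hsm] with k h1 h2 z hz
    by_contra hne
    refine hz (interior_subset (hthick ?_))
    rw [mem_thickening_iff]
    refine ⟨_, h1 _ hne, ?_⟩
    rw [dist_comm, dist_eq_norm]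
    exact (norm_mesh_sub (hpos k) z).trans_lt h2
  -- the limit of the `p`
  have hg0 : ∀ᵐ z : ℂ, z ∉ K' → g z = 0 := by
    filter_upwards [hl] with z hz hzK
    refine tendsto_nhds_unique hz (tendsto_const_nhds.congr' ?_)
    filter_upwards [hin] with k hk
    exact (hk z hzK).symm
  -- first part
  set I : ℕ → ENNReal := fun k => ∫⁻ z in K', ENNReal.ofReal ((emb (a k) (φ k) z - f z) ^ 2) with hI
  have hI0 : Tendsto I atTop (𝓝 0) := lintegral_cover hK' hK'O hloc
  -- dominated convergence
  have hdom : Tendsto (fun k => ∫ z, emb (a k) (p k) z * K'.indicator f z) atTop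
      (𝓝 (∫ z, g z * K'.indicator f z)) := by
    refine tendsto_integral_filter_of_dominated_convergence
      (K'.indicator fun _ => |C| * |B|) ?_ ?_ ?_ ?_
    · refine Eventually.of_forall fun k => ?_
      refine (emb_measurable _ _).aestronglyMeasurable.mul ?_
      exact (aestronglyMeasurable_indicator_iff hKm).2 hfme
    · filter_upwards [hC] with k hk
      refine Eventually.of_forall fun z => ?_
      by_cases hz : z ∈ K'
      · rw [indicator_of_mem hz, indicator_of_mem hz, norm_mul]
        exact mul_le_mul ((hk _).trans (le_abs_self C)) ((hB z hz).trans (le_abs_self B))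
          (norm_nonneg _) (abs_nonneg _)
      · rw [indicator_of_notMem hz, indicator_of_notMem hz, mul_zero, norm_zero]
    · exact (integrable_indicator_iff hKm).2 (integrableOn_const hvol)
    · filter_upwards [hl] with z hz
      exact hz.mul_const _
  have hgf : ∫ z, g z * K'.indicator f z = ∫ z, g z * f z := by
    refine integral_congr_ae ?_
    filter_upwards [hg0] with z hz
    by_cases h : z ∈ K'
    · rw [indicator_of_mem h]
    · rw [hz h, zero_mul, zero_mul]
  rw [hgf] at hdom
  -- the difference
  have hsum : ∀ᶠ k in atTop, ∀ c : ℤ × ℤ → ℝ, Summable fun u => ‖p k u * c u‖ := by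
    filter_upwards [hp] with k hk c
    refine summable_of_supp (g := fun u => p k u * c u) hK.isBounded (hpos k) fun u hu => ?_
    exact hk u (left_ne_zero_of_mul hu)
  have hD : Tendsto (fun k => ∫ z, (emb (a k) (fun u => p k u * φ k u) z -
      emb (a k) (p k) z * K'.indicator f z)) atTop (𝓝 0) := by
    rw [tendsto_zero_iff_enorm_tendsto_zero]
    have hJ : Tendsto (fun k => ∫⁻ z, ‖emb (a k) (fun u => p k u * φ k u) z -
        emb (a k) (p k) z * K'.indicator f z‖ₑ) atTop (𝓝 0) := by
      rw [ENNReal.tendsto_nhds_zero]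
      intro ε hε
      have hε2 : 0 < ε / 2 := ENNReal.half_pos hε.ne'
      obtain ⟨η, hη, hηε⟩ : ∃ η : ℝ, 0 < η ∧ ENNReal.ofReal (|C| * η) * volume K' ≤ ε / 2 := by
        have h1 : Tendsto (fun η : ℝ => ENNReal.ofReal (|C| * η) * volume K') (𝓝[>] 0)
            (𝓝 (ENNReal.ofReal (|C| * 0) * volume K')) := by
          refine ENNReal.Tendsto.mul_const ?_ (Or.inr hvol)
          refine (ENNReal.continuous_ofReal.tendsto _).comp ?_
          exact ((continuous_const.mul continuous_id).tendsto 0).mono_left nhdsWithin_le_nhds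
        rw [mul_zero, ENNReal.ofReal_zero, zero_mul] at h1
        obtain ⟨η, h2, h3⟩ := ((ENNReal.tendsto_nhds_zero.1 h1 _ hε2).and
          self_mem_nhdsWithin).exists
        exact ⟨η, h3, h2⟩
      have h2 : Tendsto (fun k => ENNReal.ofReal (|C| / η) * I k) atTop (𝓝 0) := by
        have := ENNReal.Tendsto.const_mul (a := ENNReal.ofReal (|C| / η)) hI0
          (Or.inr ENNReal.ofReal_ne_top)
        rwa [mul_zero] at this
      filter_upwards [ENNReal.tendsto_nhds_zero.1 h2 _ hε2, hC, hin] with k h3 h4 h5
      have h6 : ∀ z, ‖emb (a k) (fun u => p k u * φ k u) z -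
          emb (a k) (p k) z * K'.indicator f z‖ₑ ≤ K'.indicator (fun z => ENNReal.ofReal (|C| * η) +
            ENNReal.ofReal (|C| / η) * ENNReal.ofReal ((emb (a k) (φ k) z - f z) ^ 2)) z := by
        intro z
        by_cases hz : z ∈ K'
        · rw [indicator_of_mem hz, indicator_of_mem hz]
          have e : emb (a k) (fun u => p k u * φ k u) z - emb (a k) (p k) z * f z =
              emb (a k) (p k) z * (emb (a k) (φ k) z - f z) := by
            simp only [emb]; ring
          rw [e, ← ofReal_norm, ← ENNReal.ofReal_mul (by positivity),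
            ← ENNReal.ofReal_add (by positivity) (by positivity)]
          refine ENNReal.ofReal_le_ofReal ?_
          set t := emb (a k) (φ k) z - f z with ht
          have h7 : |emb (a k) (p k) z| ≤ |C| := (h4 _).trans (le_abs_self C)
          rw [norm_mul, Real.norm_eq_abs, Real.norm_eq_abs]
          have h8 : |t| ≤ η + t ^ 2 / η := by
            rcases le_total |t| η with h | h
            · have : 0 ≤ t ^ 2 / η := by positivity
              linarith
            · have h9 : |t| ≤ t ^ 2 / η := by
                rw [le_div_iff₀ hη, ← sq_abs, sq]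
                exact mul_le_mul_of_nonneg_left h (abs_nonneg _)
              linarith
          calc |emb (a k) (p k) z| * |t| ≤ |C| * (η + t ^ 2 / η) :=
                mul_le_mul h7 h8 (abs_nonneg _) (abs_nonneg _)
            _ = |C| * η + |C| / η * t ^ 2 := by ring
        · rw [indicator_of_notMem hz, indicator_of_notMem hz]
          have : emb (a k) (fun u => p k u * φ k u) z = 0 := by
            simp only [emb, h5 z hz, zero_mul]
          rw [this, mul_zero, sub_zero, enorm_zero]
      refine (lintegral_mono h6).trans ?_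
      rw [lintegral_indicator hKm, lintegral_add_left measurable_const, setLIntegral_const,
        lintegral_const_mul' _ _ ENNReal.ofReal_ne_top]
      calc _ ≤ ε / 2 + ε / 2 := add_le_add hηε h3
        _ = ε := ENNReal.add_halves ε
    exact tendsto_of_tendsto_of_tendsto_of_le_of_le tendsto_const_nhds hJ (fun _ => zero_le)
      fun k => enorm_integral_le_lintegral_enorm _
  have hfin := hD.add hdom
  rw [zero_add] at hfin
  refine hfin.congr' ?_
  filter_upwards [hsum, hC, hp] with k h1 h2 h3
  have i1 : Integrable fun z => emb (a k) (fun u => p k u * φ k u) z :=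
    integrable_emb (hpos k) (h1 _)
  have i2 : Integrable fun z => emb (a k) (p k) z * K'.indicator f z := by
    have h4 : Integrable fun z => emb (a k) (p k) z := by
      refine integrable_emb (hpos k) ?_
      have := h1 fun _ => 1
      simpa using this
    refine Integrable.mul_bdd (c := |B|) h4 ((aestronglyMeasurable_indicator_iff hKm).2 hfme)
      (Eventually.of_forall fun z => ?_)
    by_cases hz : z ∈ K'
    · rw [indicator_of_mem hz]
      exact (hB z hz).trans (le_abs_self B)
    · rw [indicator_of_notMem hz, norm_zero]; exact abs_nonneg _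
  rw [integral_sub i1 i2, sub_add_cancel, integral_emb (hpos k) (h1 _), smul_eq_mul]

end Crest.Agent.R165.LdPairx817
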