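import Crest.Agent.R165.Lim2_943
import Crest.Agent.R165.Int_811

/-!
# Row 165 (S0250), block R: limit passage, part 3

Locally uniform limits of exact solutions `A w φ = 0` in a plane gauge (`w = x_c`):
the limit is the light field of a holomorphic function (`exact_limit`), and it is strong in `L²`
when there is no concentration (`exact_strong`).
-/

set_option autoImplicit false

noncomputable section

namespace Crest.Agent.R165.Lim3x943

open Filter Topology MeasureTheory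
open Crest.Agent.R165.Lim1x943 (pt flr d1 LocBd LocUnif LocZero Bds lim)
open Crest.Agent.R165.Lim2x943 (NC sq2)
open Crest.Agent.R165.Tr1x40 (Face Fld A xc Ph nsq)
open Crest.Agent.R165.PotAx894 (Q)
open Crest.Agent.R165.PotBx894 (DL DD Harm)
open Crest.Agent.R165.Intx811 (mass)

/-- light field of the amplitude `c = a + i b`: components `Re (c e^{-3 i θ_h / 2})` -/
def lc (c : ℂ) (h : Fin 4) : ℝ :=
  match h with
  | 0 => -(c.re + c.im) / Real.sqrt 2
  | 1 => c.re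
  | 2 => (c.im - c.re) / Real.sqrt 2
  | 3 => -c.im

@[simp] theorem lc_zero (c : ℂ) : lc c 0 = -(c.re + c.im) / Real.sqrt 2 := rfl
@[simp] theorem lc_one (c : ℂ) : lc c 1 = c.re := rfl
@[simp] theorem lc_two (c : ℂ) : lc c 2 = (c.im - c.re) / Real.sqrt 2 := rfl
@[simp] theorem lc_three (c : ℂ) : lc c 3 = -c.im := rfl

variable {ι : Type*}

/-- shifts -/
theorem shift_mem {r δ : ℝ} (hr : 0 < r) (τ : ℤ × ℤ) (h : (|(τ.1 : ℝ)| + |(τ.2 : ℝ)|) / r ≤ δ)
    (f : ℤ × ℤ) : d1 (pt r (f + τ)) (pt r f) ≤ δ := by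
  refine le_trans (le_of_eq ?_) h
  unfold d1
  simp only [Lim1x943.pt_re, Lim1x943.pt_im, Prod.fst_add, Prod.snd_add]
  push_cast
  rw [← sub_div, ← sub_div, abs_div, abs_div, abs_of_pos hr, ← add_div]
  congr 2 <;> congr 1 <;> ring

theorem eventually_shift {U : Filter ι} {r : ι → ℝ} (hr : Tendsto r U atTop) {δ : ℝ} (hδ : 0 < δ)
    (τ : ℤ × ℤ) : ∀ᶠ n in U, ∀ f, d1 (pt (r n) (f + τ)) (pt (r n) f) ≤ δ := by
  filter_upwards [hr.eventually_gt_atTop 0,
    hr.eventually_ge_atTop ((|(τ.1 : ℝ)| + |(τ.2 : ℝ)|) / δ)] with n h1 h2 f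
  refine shift_mem h1 τ ?_ f
  rw [div_le_iff₀ h1]
  rwa [div_le_iff₀ hδ, mul_comm] at h2

theorem locBd_shift {U : Filter ι} {r : ι → ℝ} (hr : Tendsto r U atTop) {Ω : Set ℂ}
    (hΩ : IsOpen Ω) {w : ι → ℤ × ℤ → ℝ} (h : LocBd U r Ω w) (τ : ℤ × ℤ) :
    LocBd U r Ω fun n f => w n (f + τ) := by
  intro K hK hKΩ
  obtain ⟨δ, hδ, K', hK', hK'Ω, -, hnb⟩ := Lim1x943.exists_nbhd hΩ hK hKΩ
  obtain ⟨M, hM⟩ := h K' hK' hK'Ω
  refine ⟨M, ?_⟩
  filter_upwards [hM, eventually_shift hr hδ τ] with n hn hs f hf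
  exact hn _ (hnb _ hf _ (hs f))

theorem locUnif_shift {U : Filter ι} {r : ι → ℝ} (hr : Tendsto r U atTop) {Ω : Set ℂ}
    (hΩ : IsOpen Ω) {w : ι → ℤ × ℤ → ℝ} {W : ℂ → ℝ} (h : LocUnif U r Ω w W)
    (hW : ContinuousOn W Ω) (τ : ℤ × ℤ) : LocUnif U r Ω (fun n f => w n (f + τ)) W := by
  intro K hK hKΩ η hη
  obtain ⟨δ, hδ, K', hK', hK'Ω, hKK', hnb⟩ := Lim1x943.exists_nbhd hΩ hK hKΩ
  have huc := hK'.uniformContinuousOn_of_continuous (hW.mono hK'Ω)
  rw [Metric.uniformContinuousOn_iff] at huc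
  obtain ⟨δ1, hδ1, huc⟩ := huc (η / 2) (by positivity)
  filter_upwards [h K' hK' hK'Ω (η / 2) (by positivity), eventually_shift hr hδ τ,
    eventually_shift hr (half_pos hδ1) τ] with n hn hs hs1 f hf
  have h1 : pt (r n) (f + τ) ∈ K' := hnb _ hf _ (hs f)
  have h2 := hn _ h1
  have h3 := huc _ h1 _ (hKK' hf) (by
    have := Lim1x943.dist_le_d1 (pt (r n) (f + τ)) (pt (r n) f)
    have := hs1 f
    linarith)
  rw [Real.dist_eq] at h3
  have h4 := abs_add_le (w n (f + τ) - W (pt (r n) (f + τ)))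
    (W (pt (r n) (f + τ)) - W (pt (r n) f))
  rw [sub_add_sub_cancel] at h4
  linarith

theorem locZero_div {U : Filter ι} {r : ι → ℝ} (hr : Tendsto r U atTop) {Ω : Set ℂ}
    {w : ι → ℤ × ℤ → ℝ} (h : LocBd U r Ω w) : LocZero U r Ω fun n f => w n f / r n := by
  intro K hK hKΩ η hη
  obtain ⟨M, hM⟩ := h K hK hKΩ
  filter_upwards [hM, hr.eventually_gt_atTop 0, hr.eventually_ge_atTop (M / η)] with n hn h1 h2 f hf
  rw [sub_zero, abs_div, abs_of_pos h1, div_le_iff₀ h1]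
  rw [div_le_iff₀ hη] at h2
  exact (hn f hf).trans (by linarith)

/-- exact solutions with bounded mass in plane boxes around all points of compacts of `Ω` -/
def ExOn (U : Filter ι) (r : ι → ℝ) (Ω : Set ℂ) (w φ : ι → Fld) : Prop :=
  ∀ K : Set ℂ, IsCompact K → K ⊆ Ω → ∃ ρ : ℝ, 0 < ρ ∧ ∃ M : ℝ, ∀ᶠ n in U, ∀ f,
    pt (r n) f ∈ K → (∀ g ∈ Q f ⌊ρ * r n⌋₊, ∀ h, w n g h = xc) ∧
      (∀ g ∈ Q f ⌊ρ * r n⌋₊, ∀ h, A (w n) (φ n) g h = 0) ∧ mass (φ n) f ⌊ρ * r n⌋₊ ≤ M

theorem ExOn.locBd_DL {U : Filter ι} {r : ι → ℝ} (hr : Tendsto r U atTop) {Ω : Set ℂ}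
    {w φ : ι → Fld} (hex : ExOn U r Ω w φ) (a : Fin 4) (l : List Bool) :
    LocBd U r Ω fun n f => r n ^ (l.length + 1) * DL l (fun g => φ n g a) f := by
  intro K hK hKΩ
  obtain ⟨ρ, hρ, M, hM⟩ := hex K hK hKΩ
  obtain ⟨C, hC, hest⟩ := Intx811.pt_est l
  refine ⟨C * (2 / ρ) ^ (l.length + 1) * Real.sqrt M, ?_⟩
  filter_upwards [hM, hr.eventually_gt_atTop 0,
    hr.eventually_ge_atTop ((4 * (l.length + 1) + 2) / ρ)] with n hn h1 h2 f hf
  obtain ⟨hw, he, hm⟩ := hn f hf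
  rw [div_le_iff₀ hρ, mul_comm (r n)] at h2
  set R := ⌊ρ * r n⌋₊ with hR
  have hR1 : (ρ * r n) < R + 1 := Nat.lt_floor_add_one _
  have hR2 : 4 * (l.length + 1) + 1 ≤ R := by
    have : ((4 * (l.length + 1) + 1 : ℕ) : ℝ) < (R : ℝ) + 1 := by push_cast; linarith
    have h3 : 4 * (l.length + 1) + 1 < R + 1 := by exact_mod_cast this
    omega
  have hharm : Harm (fun g => φ n g a) f (R - 1) :=
    Intx811.harm (w := w n) (r := R - 1) (by rwa [Nat.sub_add_cancel (by omega)])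
      (by rwa [Nat.sub_add_cancel (by omega)]) a
  have h3 := hest (φ n) f R a (by omega) hharm
  have hR0 : (0 : ℝ) < R := by
    have : 0 < R := by omega
    exact_mod_cast this
  have hR3 : ρ * r n / 2 ≤ R := by
    have h5 : (1 : ℝ) ≤ R := by
      have : 1 ≤ R := by omega
      exact_mod_cast this
    linarith
  rw [abs_mul, abs_of_pos (pow_pos h1 _)]
  calc r n ^ (l.length + 1) * |DL l (fun g => φ n g a) f|
      ≤ r n ^ (l.length + 1) * (C / (R : ℝ) ^ (l.length + 1) * Real.sqrt (mass (φ n) f R)) := by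
        gcongr
    _ ≤ r n ^ (l.length + 1) * (C / (ρ * r n / 2) ^ (l.length + 1) * Real.sqrt M) := by
        gcongr
    _ = C * (2 / ρ) ^ (l.length + 1) * Real.sqrt M := by
        rw [div_pow, mul_pow, div_pow]
        field_simp

/-- the normalised component -/
def nc (r : ι → ℝ) (φ : ι → Fld) (a : Fin 4) (n : ι) (f : ℤ × ℤ) : ℝ := r n * φ n f a

theorem ExOn.bds {U : Filter ι} {r : ι → ℝ} (hr : Tendsto r U atTop) {Ω : Set ℂ}
    {w φ : ι → Fld} (hex : ExOn U r Ω w φ) (a : Fin 4) : Bds U r Ω (nc r φ a) := by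
  have h := hex.locBd_DL hr a
  constructor
  · convert h [] using 2
    ext f
    simp [DL, nc]
  · convert h [true] using 3
    simp [DL, DD, nc, Lim1x943.D1, PotAx894.D1, Lim1x943.e1, PotAx894.e1]
    ring
  · convert h [false] using 3
    simp [DL, DD, nc, Lim1x943.D2, PotAx894.D2, Lim1x943.e2, PotAx894.e2]
    ring
  · convert h [true, true] using 3
    simp [DL, DD, nc, Lim1x943.D1, PotAx894.D1, Lim1x943.e1, PotAx894.e1]
    ring
  · convert h [true, false] using 3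
    simp [DL, DD, nc, Lim1x943.D1, PotAx894.D1, Lim1x943.e1, PotAx894.e1,
      Lim1x943.D2, PotAx894.D2, Lim1x943.e2, PotAx894.e2]
    ring
  · convert h [false, true] using 3
    simp [DL, DD, nc, Lim1x943.D1, PotAx894.D1, Lim1x943.e1, PotAx894.e1,
      Lim1x943.D2, PotAx894.D2, Lim1x943.e2, PotAx894.e2]
    ring
  · convert h [false, false] using 3
    simp [DL, DD, nc, Lim1x943.D2, PotAx894.D2, Lim1x943.e2, PotAx894.e2]
    ring

theorem differentiableOn_of_cr {Ω : Set ℂ} {A B A1 A2 B1 B2 : ℂ → ℝ}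
    (ha : ∀ z ∈ Ω, HasFDerivAt A (A1 z • Complex.reCLM + A2 z • Complex.imCLM) z)
    (hb : ∀ z ∈ Ω, HasFDerivAt B (B1 z • Complex.reCLM + B2 z • Complex.imCLM) z)
    (h1 : ∀ z ∈ Ω, B2 z = A1 z) (h2 : ∀ z ∈ Ω, B1 z = -A2 z) :
    DifferentiableOn ℂ (fun z => (⟨A z, B z⟩ : ℂ)) Ω := by
  intro z hz
  refine DifferentiableAt.differentiableWithinAt ?_
  have fa := ha z hz
  have fb := hb z hz
  have hF : HasFDerivAt (𝕜 := ℝ) (fun z => (⟨A z, B z⟩ : ℂ))
      (Complex.ofRealCLM.comp (A1 z • Complex.reCLM + A2 z • Complex.imCLM) +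
        Complex.I • Complex.ofRealCLM.comp (B1 z • Complex.reCLM + B2 z • Complex.imCLM)) z := by
    have h1 := Complex.ofRealCLM.hasFDerivAt.comp z fa
    have h2 := (Complex.ofRealCLM.hasFDerivAt.comp z fb).const_smul Complex.I
    refine (h1.add h2).congr_of_eventuallyEq (Eventually.of_forall fun w => ?_)
    simp only [Function.comp_apply, Complex.ofRealCLM_apply, smul_eq_mul, Pi.add_apply,
      Pi.smul_apply]
    apply Complex.ext <;> simp
  have hC : HasFDerivAt (𝕜 := ℂ) (fun z => (⟨A z, B z⟩ : ℂ))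
      (ContinuousLinearMap.toSpanSingleton ℂ (⟨A1 z, B1 z⟩ : ℂ)) z := by
    refine hasFDerivAt_of_restrictScalars ℝ hF ?_
    rw [h1 z hz, h2 z hz]
    refine ContinuousLinearMap.ext fun w => ?_
    apply Complex.ext
    · simp; ring
    · simp; ring
  exact hC.differentiableAt

/-- the limit component functions -/
def L (U : Ultrafilter ι) (r : ι → ℝ) (φ : ι → Fld) (a : Fin 4) : ℂ → ℝ := lim U r (nc r φ a)
/-- limits of the scaled differences -/
def G1 (U : Ultrafilter ι) (r : ι → ℝ) (φ : ι → Fld) (a : Fin 4) : ℂ → ℝ :=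
  lim U r fun n => Lim1x943.D1 (r n) (nc r φ a n)
/-- limits of the scaled differences -/
def G2 (U : Ultrafilter ι) (r : ι → ℝ) (φ : ι → Fld) (a : Fin 4) : ℂ → ℝ :=
  lim U r fun n => Lim1x943.D2 (r n) (nc r φ a n)

/-- the amplitude of the limit -/
def amp (U : Ultrafilter ι) (r : ι → ℝ) (φ : ι → Fld) (z : ℂ) : ℂ :=
  ⟨L U r φ 1 z, -L U r φ 3 z⟩

section main

variable {U : Ultrafilter ι} {r : ι → ℝ} {Ω : Set ℂ} {w φ : ι → Fld}

theorem L_spec (hr : Tendsto r U atTop) (hΩ : IsOpen Ω) (hex : ExOn U r Ω w φ) (a : Fin 4) :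
    ContinuousOn (L U r φ a) Ω ∧ LocUnif U r Ω (nc r φ a) (L U r φ a) :=
  Lim1x943.exists_limit hr hΩ (hex.bds hr a).b0 (hex.bds hr a).b1 (hex.bds hr a).b2

theorem G1_spec (hr : Tendsto r U atTop) (hΩ : IsOpen Ω) (hex : ExOn U r Ω w φ) (a : Fin 4) :
    ContinuousOn (G1 U r φ a) Ω ∧
      LocUnif U r Ω (fun n => Lim1x943.D1 (r n) (nc r φ a n)) (G1 U r φ a) :=
  Lim1x943.exists_limit hr hΩ (hex.bds hr a).b1 (hex.bds hr a).b11 (hex.bds hr a).b12

theorem G2_spec (hr : Tendsto r U atTop) (hΩ : IsOpen Ω) (hex : ExOn U r Ω w φ) (a : Fin 4) :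
    ContinuousOn (G2 U r φ a) Ω ∧
      LocUnif U r Ω (fun n => Lim1x943.D2 (r n) (nc r φ a n)) (G2 U r φ a) :=
  Lim1x943.exists_limit hr hΩ (hex.bds hr a).b2 (hex.bds hr a).b21 (hex.bds hr a).b22

theorem L_deriv (hr : Tendsto r U atTop) (hΩ : IsOpen Ω) (hex : ExOn U r Ω w φ) (a : Fin 4)
    {z : ℂ} (hz : z ∈ Ω) :
    HasFDerivAt (L U r φ a) (G1 U r φ a z • Complex.reCLM + G2 U r φ a z • Complex.imCLM) z :=
  (hex.bds hr a).hasFDerivAt hr hΩ hz

/-- eventually `w = x_c` and `A w φ = 0` at the face of `z` -/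
theorem ExOn.at (hr : Tendsto r U atTop) (hΩ : IsOpen Ω) (hex : ExOn U r Ω w φ) {z : ℂ}
    (hz : z ∈ Ω) : ∀ᶠ n in (U : Filter ι), (∀ h, w n (flr (r n) z) h = xc) ∧
      (∀ h, A (w n) (φ n) (flr (r n) z) h = 0) := by
  obtain ⟨δ, hδ, K', hK', hK'Ω, -, hnb⟩ := Lim1x943.exists_nbhd hΩ (isCompact_singleton (x := z))
    (Set.singleton_subset_iff.2 hz)
  obtain ⟨ρ, hρ, M, hM⟩ := hex K' hK' hK'Ω
  filter_upwards [hM, Lim1x943.eventually_two_div_le hr hδ] with n hn hrn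
  obtain ⟨hrn, hrd⟩ := hrn
  obtain ⟨h1, h2, -⟩ := hn _ (hnb z rfl _ ((Lim1x943.d1_pt_flr _ hrn z).trans hrd))
  exact ⟨h1 _ (PotAx894.self_mem_Q _ _), h2 _ (PotAx894.self_mem_Q _ _)⟩

/-- unscaled first differences, multiplied by `r`, tend to zero -/
theorem diff_zero (hr : Tendsto r U atTop) (hΩ : IsOpen Ω) (hex : ExOn U r Ω w φ) (a : Fin 4)
    (τ : ℤ × ℤ) {z : ℂ} (hz : z ∈ Ω) :
    Tendsto (fun n => r n * PotAx894.D1 (fun g => φ n g a) (flr (r n) z + τ)) U (𝓝 0) ∧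
    Tendsto (fun n => r n * PotAx894.D2 (fun g => φ n g a) (flr (r n) z + τ)) U (𝓝 0) := by
  constructor
  · have h1 := locZero_div hr (locBd_shift hr hΩ (hex.bds hr a).b1 τ)
    have h2 := h1.tendsto hr hΩ continuousOn_const hz
    refine h2.congr' ?_
    filter_upwards [hr.eventually_gt_atTop 0] with n hn
    simp only [Lim1x943.D1, nc, PotAx894.D1, Lim1x943.e1, PotAx894.e1]
    field_simp
  · have h1 := locZero_div hr (locBd_shift hr hΩ (hex.bds hr a).b2 τ)
    have h2 := h1.tendsto hr hΩ continuousOn_const hz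
    refine h2.congr' ?_
    filter_upwards [hr.eventually_gt_atTop 0] with n hn
    simp only [Lim1x943.D2, nc, PotAx894.D2, Lim1x943.e2, PotAx894.e2]
    field_simp

/-- the heavy part of the limit vanishes -/
theorem heavy_zero (hr : Tendsto r U atTop) (hΩ : IsOpen Ω) (hex : ExOn U r Ω w φ)
    {z : ℂ} (hz : z ∈ Ω) (h : Fin 4) : Ph (fun a => L U r φ a z) h = 0 := by
  have tL : ∀ a, Tendsto (fun n => r n * φ n (flr (r n) z) a) U (𝓝 (L U r φ a z)) := fun a =>
    Lim1x943.lim_tendsto hr hΩ (hex.bds hr a).b0 hz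
  have t1 : Tendsto (fun n => r n * Ph (φ n (flr (r n) z)) h) U
      (𝓝 (Ph (fun a => L U r φ a z) h)) := by
    fin_cases h
    · have := ((tL 0).div_const 2).add (((tL 1).sub (tL 3)).div_const (2 * Real.sqrt 2))
      refine this.congr fun n => ?_
      simp only [Ph]
      ring
    · have := ((tL 1).div_const 2).add (((tL 0).add (tL 2)).div_const (2 * Real.sqrt 2))
      refine this.congr fun n => ?_
      simp only [Ph]
      ring
    · have := ((tL 2).div_const 2).add (((tL 1).add (tL 3)).div_const (2 * Real.sqrt 2))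
      refine this.congr fun n => ?_
      simp only [Ph]
      ring
    · have := ((tL 3).div_const 2).add (((tL 2).sub (tL 0)).div_const (2 * Real.sqrt 2))
      refine this.congr fun n => ?_
      simp only [Ph]
      ring
  have dz : ∀ k, Tendsto (fun n => r n * Intx811.dif (φ n) (flr (r n) z) k) U (𝓝 0) := by
    intro k
    fin_cases k
    · have := (diff_zero hr hΩ hex 2 (-PotAx894.e2) hz).2.neg
      rw [neg_zero] at this
      refine this.congr fun n => ?_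
      simp [Intx811.dif, sub_eq_add_neg]
    · have := (diff_zero hr hΩ hex 3 0 hz).1
      refine this.congr fun n => ?_
      simp [Intx811.dif]
    · have := (diff_zero hr hΩ hex 0 0 hz).2.neg
      rw [neg_zero] at this
      refine this.congr fun n => ?_
      simp [Intx811.dif]
    · have := (diff_zero hr hΩ hex 1 (-PotAx894.e1) hz).1
      refine this.congr fun n => ?_
      simp [Intx811.dif, sub_eq_add_neg]
  have t2 : Tendsto (fun n => r n * Ph (φ n (flr (r n) z)) h) U (𝓝 0) := by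
    have key : ∀ p : ι → Fin 4 → ℝ, (∀ k, Tendsto (fun n => r n * p n k) U (𝓝 0)) →
        Tendsto (fun n => r n * (xc / 8 * Intx811.Az (p n) h)) U (𝓝 0) := by
      intro p hp
      fin_cases h
      · have := (((hp 1).add ((hp 2).const_mul (Real.sqrt 2))).add (hp 3)).const_mul (xc / 8)
        simp only [mul_zero, add_zero] at this
        refine this.congr fun n => ?_
        simp only [Intx811.Az, Fin.zero_eta, Matrix.cons_val_zero]
        ring
      · have := (((hp 0).neg.add (hp 2)).add ((hp 3).const_mul (Real.sqrt 2))).const_mul (xc / 8)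
        simp only [mul_zero, add_zero, neg_zero] at this
        refine this.congr fun n => ?_
        simp only [Intx811.Az, Fin.mk_one, Matrix.cons_val_one, Matrix.cons_val_zero]
        ring
      · have := ((((hp 0).const_mul (Real.sqrt 2)).neg.sub (hp 1)).add (hp 3)).const_mul (xc / 8)
        simp only [mul_zero, add_zero, neg_zero, sub_zero] at this
        refine this.congr fun n => ?_
        simp only [Intx811.Az, Fin.reduceFinMk, Matrix.cons_val]
        ring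
      · have := (((hp 0).neg.sub ((hp 1).const_mul (Real.sqrt 2))).sub (hp 2)).const_mul (xc / 8)
        simp only [mul_zero, neg_zero, sub_zero] at this
        refine this.congr fun n => ?_
        simp only [Intx811.Az, Fin.reduceFinMk, Matrix.cons_val]
        ring
    refine (key _ dz).congr' ?_
    filter_upwards [hex.at hr hΩ hz] with n hn
    rw [Intx811.heavy_eq hn.1 hn.2]
  exact tendsto_nhds_unique t1 t2

theorem L_zero_two (hr : Tendsto r U atTop) (hΩ : IsOpen Ω) (hex : ExOn U r Ω w φ)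
    {z : ℂ} (hz : z ∈ Ω) : L U r φ 0 z + L U r φ 2 z = -(Real.sqrt 2 * L U r φ 1 z) ∧
      L U r φ 2 z - L U r φ 0 z = -(Real.sqrt 2 * L U r φ 3 z) := by
  have h1 := heavy_zero hr hΩ hex hz 1
  have h3 := heavy_zero hr hΩ hex hz 3
  have hs := Tr1x40.sq2_pos
  simp only [Ph] at h1 h3
  field_simp at h1 h3
  constructor <;> linarith

theorem G2_rel (hr : Tendsto r U atTop) (hΩ : IsOpen Ω) (hex : ExOn U r Ω w φ)
    {z : ℂ} (hz : z ∈ Ω) : G2 U r φ 0 z + G2 U r φ 2 z = -(Real.sqrt 2 * G2 U r φ 1 z) ∧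
      G2 U r φ 2 z - G2 U r φ 0 z = -(Real.sqrt 2 * G2 U r φ 3 z) := by
  have d0 := L_deriv hr hΩ hex 0 hz
  have d1 := L_deriv hr hΩ hex 1 hz
  have d2 := L_deriv hr hΩ hex 2 hz
  have d3 := L_deriv hr hΩ hex 3 hz
  have hnhds : Ω ∈ 𝓝 z := hΩ.mem_nhds hz
  constructor
  · have e1 : HasFDerivAt (fun z => L U r φ 0 z + L U r φ 2 z) _ z := d0.add d2
    have e2 : HasFDerivAt (fun z => -(Real.sqrt 2 * L U r φ 1 z)) _ z :=
      (d1.const_mul (Real.sqrt 2)).neg
    have e3 := e1.congr_of_eventuallyEq (f₁ := fun z => -(Real.sqrt 2 * L U r φ 1 z)) (by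
      filter_upwards [hnhds] with y hy
      exact (L_zero_two hr hΩ hex hy).1.symm)
    have e4 := e3.unique e2
    have := congrArg (fun T : ℂ →L[ℝ] ℝ => T Complex.I) e4
    simpa using this
  · have e1 : HasFDerivAt (fun z => L U r φ 2 z - L U r φ 0 z) _ z := d2.sub d0
    have e2 : HasFDerivAt (fun z => -(Real.sqrt 2 * L U r φ 3 z)) _ z :=
      (d3.const_mul (Real.sqrt 2)).neg
    have e3 := e1.congr_of_eventuallyEq (f₁ := fun z => -(Real.sqrt 2 * L U r φ 3 z)) (by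
      filter_upwards [hnhds] with y hy
      exact (L_zero_two hr hΩ hex hy).2.symm)
    have e4 := e3.unique e2
    have := congrArg (fun T : ℂ →L[ℝ] ℝ => T Complex.I) e4
    simpa using this

theorem cr_lim (hr : Tendsto r U atTop) (hΩ : IsOpen Ω) (hex : ExOn U r Ω w φ)
    {z : ℂ} (hz : z ∈ Ω) : G1 U r φ 3 z = G2 U r φ 1 z ∧ G1 U r φ 1 z = -G2 U r φ 3 z := by
  have u1 : ∀ (a : Fin 4) (τ : ℤ × ℤ), Tendsto
      (fun n => r n ^ 2 * PotAx894.D1 (fun g => φ n g a) (flr (r n) z + τ)) U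
      (𝓝 (G1 U r φ a z)) := by
    intro a τ
    have h := G1_spec hr hΩ hex a
    have := (locUnif_shift hr hΩ h.2 h.1 τ).tendsto hr hΩ h.1 hz
    refine this.congr fun n => ?_
    simp only [Lim1x943.D1, nc, PotAx894.D1, Lim1x943.e1, PotAx894.e1]
    ring
  have u2 : ∀ (a : Fin 4) (τ : ℤ × ℤ), Tendsto
      (fun n => r n ^ 2 * PotAx894.D2 (fun g => φ n g a) (flr (r n) z + τ)) U
      (𝓝 (G2 U r φ a z)) := by
    intro a τ
    have h := G2_spec hr hΩ hex a
    have := (locUnif_shift hr hΩ h.2 h.1 τ).tendsto hr hΩ h.1 hz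
    refine this.congr fun n => ?_
    simp only [Lim1x943.D2, nc, PotAx894.D2, Lim1x943.e2, PotAx894.e2]
    ring
  obtain ⟨g1, g2⟩ := G2_rel hr hΩ hex hz
  have hs := Tr1x40.sq2
  have c1 : G1 U r φ 3 z + Real.sqrt 2 / 2 * (G2 U r φ 2 z + G2 U r φ 0 z) = 0 := by
    have t := (u1 3 0).add (((u2 2 (-PotAx894.e2)).add (u2 0 0)).const_mul (Real.sqrt 2 / 2))
    refine tendsto_nhds_unique (t.congr' ?_) (tendsto_const_nhds (x := (0 : ℝ)))
    filter_upwards [hex.at hr hΩ hz] with n hn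
    have := Intx811.cr1 hn.1 hn.2
    rw [sub_eq_add_neg] at this
    rw [add_zero]
    linear_combination r n ^ 2 * this
  have c2 : G1 U r φ 1 z - Real.sqrt 2 / 2 * (G2 U r φ 2 z - G2 U r φ 0 z) = 0 := by
    have t := (u1 1 (-PotAx894.e1)).sub
      (((u2 2 (-PotAx894.e2)).sub (u2 0 0)).const_mul (Real.sqrt 2 / 2))
    refine tendsto_nhds_unique (t.congr' ?_) (tendsto_const_nhds (x := (0 : ℝ)))
    filter_upwards [hex.at hr hΩ hz] with n hn
    have := Intx811.cr2 hn.1 hn.2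
    rw [sub_eq_add_neg (flr (r n) z), sub_eq_add_neg (flr (r n) z)] at this
    rw [add_zero]
    linear_combination r n ^ 2 * this
  constructor
  · linear_combination c1 - Real.sqrt 2 / 2 * g1 + G2 U r φ 1 z / 2 * hs
  · linear_combination c2 + Real.sqrt 2 / 2 * g2 - G2 U r φ 3 z / 2 * hs

theorem amp_differentiableOn (hr : Tendsto r U atTop) (hΩ : IsOpen Ω) (hex : ExOn U r Ω w φ) :
    DifferentiableOn ℂ (amp U r φ) Ω := by
  refine differentiableOn_of_cr (A := L U r φ 1) (B := fun z => -L U r φ 3 z)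
    (A1 := G1 U r φ 1) (A2 := G2 U r φ 1) (B1 := fun z => -G1 U r φ 3 z)
    (B2 := fun z => -G2 U r φ 3 z) (fun z hz => L_deriv hr hΩ hex 1 hz) (fun z hz => ?_)
    (fun z hz => ?_) (fun z hz => ?_)
  · have := (L_deriv hr hΩ hex 3 hz).neg
    have e : (-G1 U r φ 3 z) • Complex.reCLM + (-G2 U r φ 3 z) • Complex.imCLM
        = -(G1 U r φ 3 z • Complex.reCLM + G2 U r φ 3 z • Complex.imCLM) := by
      refine ContinuousLinearMap.ext fun v => ?_
      change -G1 U r φ 3 z * v.re + -G2 U r φ 3 z * v.im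
        = -(G1 U r φ 3 z * v.re + G2 U r φ 3 z * v.im)
      ring
    rw [e]
    exact this
  · rw [(cr_lim hr hΩ hex hz).2]
  · rw [(cr_lim hr hΩ hex hz).1]

theorem L_eq_lc (hr : Tendsto r U atTop) (hΩ : IsOpen Ω) (hex : ExOn U r Ω w φ)
    {z : ℂ} (hz : z ∈ Ω) (h : Fin 4) : L U r φ h z = lc (amp U r φ z) h := by
  obtain ⟨g1, g2⟩ := L_zero_two hr hΩ hex hz
  have hs := Tr1x40.sq2
  have hp := Tr1x40.sq2_pos
  fin_cases h
  · simp only [Fin.zero_eta, lc_zero, amp]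
    rw [eq_div_iff hp.ne']
    linear_combination Real.sqrt 2 / 2 * g1 - Real.sqrt 2 / 2 * g2
      + (-L U r φ 1 z / 2 + L U r φ 3 z / 2) * hs
  · simp [amp]
  · simp only [Fin.reduceFinMk, lc_two, amp]
    rw [eq_div_iff hp.ne']
    linear_combination Real.sqrt 2 / 2 * g1 + Real.sqrt 2 / 2 * g2
      + (-L U r φ 1 z / 2 - L U r φ 3 z / 2) * hs
  · simp [amp]

/-- **Limits of exact solutions**: light fields of holomorphic functions, locally uniformly. -/
theorem exact_limit (hr : Tendsto r U atTop) (hΩ : IsOpen Ω) (hex : ExOn U r Ω w φ) :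
    DifferentiableOn ℂ (amp U r φ) Ω ∧
    (∀ h, LocUnif U r Ω (fun n f => r n * φ n f h) fun z => lc (amp U r φ z) h) ∧
    (∀ z ∈ Ω, ∀ h, Tendsto (fun n => r n * φ n (flr (r n) z) h) U (𝓝 (lc (amp U r φ z) h))) := by
  refine ⟨amp_differentiableOn hr hΩ hex, fun h => ?_, fun z hz h => ?_⟩
  · exact (L_spec hr hΩ hex h).2.congr fun z hz => L_eq_lc hr hΩ hex hz h
  · rw [← L_eq_lc hr hΩ hex hz h]
    exact Lim1x943.lim_tendsto hr hΩ (hex.bds hr h).b0 hz

/-- no concentration for fields -/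
def NCf (U : Filter ι) (r : ι → ℝ) (Ω B' : Set ℂ) (φ : ι → Fld) : Prop :=
  ∀ η : ℝ, 0 < η → ∃ K : Set ℂ, IsCompact K ∧ K ⊆ Ω ∧ ∀ᶠ n in U, ∀ S : Finset (ℤ × ℤ),
    (∀ f ∈ S, pt (r n) f ∈ B' ∧ pt (r n) f ∉ K) → ∑ f ∈ S, nsq (φ n f) ≤ η

theorem NCf.nc {U : Filter ι} {B' : Set ℂ} (h : NCf U r Ω B' φ) (a : Fin 4) :
    NC U r Ω B' fun n f => r n * φ n f a := by
  intro η hη
  obtain ⟨K, hK, hKΩ, hn⟩ := h η hη
  refine ⟨K, hK, hKΩ, ?_⟩
  filter_upwards [hn] with n hn S hS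
  have h1 := hn S hS
  have h2 : ∑ f ∈ S, φ n f a ^ 2 ≤ ∑ f ∈ S, nsq (φ n f) :=
    Finset.sum_le_sum fun f _ =>
      Finset.single_le_sum (f := fun b => φ n f b ^ 2) (fun _ _ => sq_nonneg _) (Finset.mem_univ a)
  calc ∑ f ∈ S, (r n * φ n f a) ^ 2 = (∑ f ∈ S, φ n f a ^ 2) * r n ^ 2 := by
        rw [Finset.sum_mul]
        exact Finset.sum_congr rfl fun f _ => by ring
    _ ≤ η * r n ^ 2 := by
        gcongr
        exact h2.trans h1

theorem continuous_lc (h : Fin 4) : Continuous fun c => lc c h := by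
  fin_cases h
  · simp only [Fin.zero_eta, lc_zero]; fun_prop
  · simp only [Fin.mk_one, lc_one]; fun_prop
  · simp only [Fin.reduceFinMk, lc_two]; fun_prop
  · simp only [Fin.reduceFinMk, lc_three]; fun_prop

/-- **strong `L²` limits of exact solutions** -/
theorem exact_strong (hr : Tendsto r U atTop) (hΩ : IsOpen Ω) (hex : ExOn U r Ω w φ)
    {B B' : Set ℂ} (hB : Bornology.IsBounded B) (hBm : MeasurableSet B) {δ : ℝ} (hδ : 0 < δ)
    (hBB' : ∀ z ∈ B, ∀ w, d1 w z ≤ δ → w ∈ B') (hnc : NCf U r Ω B' φ) (h : Fin 4) :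
    Tendsto (fun n => ∫⁻ z in B, sq2 (r n * φ n (flr (r n) z) h
      - Ω.indicator (fun z => lc (amp U r φ z) h) z)) U (𝓝 0) := by
  obtain ⟨h1, h2, -⟩ := exact_limit hr hΩ hex
  exact Lim2x943.strong hr hΩ hB hBm hδ hBB' (hnc.nc h)
    ((continuous_lc h).comp_continuousOn h1.continuousOn) (h2 h)

end main

end Crest.Agent.R165.Lim3x943
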