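import Crest.Prelude.Def_PerturbedIsing
import Mathlib

/-!
# Row 165, blocks R / U4: mesh cells, sampling, products of strongly convergent functions (helper610)

* `cell a f` : the half open square of mesh `a` with lower left corner `a f`; volume `a²`;
* `integral_mesh` : `∫ F (meshIndex a z) dz = a² ∑ F f` for finitely supported `F`;
* `meshPoint_near`, `tendsto_meshPoint` : `a * meshIndex a z → z`;
* `tendsto_diffQ` : the discrete gradient of a strictly differentiable function converges;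
* `prod_lim` : `∫ γ_k f_k g_k → ∫ γ f g` if `f_k → f`, `g_k → g` in `L²` and `γ_k → γ` boundedly.
-/

set_option autoImplicit false

noncomputable section

open MeasureTheory Filter Topology Set
open Crest.ProbabilityR.IsingModel
open scoped ENNReal

namespace Crest.Agent.R165.LimAx610

/-! ### mesh cells -/

/-- the cell of `f` -/
def cell (a : ℝ) (f : ℤ × ℤ) : Set ℂ := {z | meshIndex a z = f}

theorem mem_cell {a : ℝ} {f : ℤ × ℤ} {z : ℂ} : z ∈ cell a f ↔ meshIndex a z = f := Iff.rfl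

theorem mem_cell_iff {a : ℝ} (ha : 0 < a) (f : ℤ × ℤ) (z : ℂ) :
    z ∈ cell a f ↔ (a * f.1 ≤ z.re ∧ z.re < a * (f.1 + 1)) ∧ (a * f.2 ≤ z.im ∧ z.im < a * (f.2 + 1)) := by
  obtain ⟨m, n⟩ := f
  simp only [cell, mem_ofPred_eq, meshIndex, Prod.mk.injEq, Int.floor_eq_iff]
  rw [le_div_iff₀ ha, div_lt_iff₀ ha, le_div_iff₀ ha, div_lt_iff₀ ha]
  constructor
  · rintro ⟨⟨h1, h2⟩, h3, h4⟩
    exact ⟨⟨by linarith, by linarith⟩, by linarith, by linarith⟩
  · rintro ⟨⟨h1, h2⟩, h3, h4⟩
    exact ⟨⟨by linarith, by linarith⟩, by linarith, by linarith⟩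

theorem cell_eq {a : ℝ} (ha : 0 < a) (f : ℤ × ℤ) :
    cell a f = Ico (a * f.1) (a * (f.1 + 1)) ×ℂ Ico (a * f.2) (a * (f.2 + 1)) := by
  ext z
  rw [mem_cell_iff ha, Complex.mem_reProdIm, mem_Ico, mem_Ico]

theorem measurableSet_reProdIm {s t : Set ℝ} (hs : MeasurableSet s) (ht : MeasurableSet t) :
    MeasurableSet (s ×ℂ t) := by
  have h : s ×ℂ t = Complex.re ⁻¹' s ∩ Complex.im ⁻¹' t := by
    ext z
    simp [Complex.mem_reProdIm]
  rw [h]
  exact (Complex.measurable_re hs).inter (Complex.measurable_im ht)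

theorem measurableSet_cell {a : ℝ} (ha : 0 < a) (f : ℤ × ℤ) : MeasurableSet (cell a f) := by
  rw [cell_eq ha]
  exact measurableSet_reProdIm measurableSet_Ico measurableSet_Ico

theorem volume_reProdIm (s t : Set ℝ) (hs : MeasurableSet s) (ht : MeasurableSet t) :
    volume (s ×ℂ t) = volume s * volume t := by
  have h : s ×ℂ t = Complex.measurableEquivRealProd ⁻¹' (s ×ˢ t) := by
    ext z
    simp [Complex.mem_reProdIm]
  rw [h, Complex.volume_preserving_equiv_real_prod.measure_preimage (hs.prod ht).nullMeasurableSet,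
    Measure.volume_eq_prod, Measure.prod_prod]

theorem volume_cell {a : ℝ} (ha : 0 < a) (f : ℤ × ℤ) : volume (cell a f) = ENNReal.ofReal (a ^ 2) := by
  rw [cell_eq ha, volume_reProdIm _ _ measurableSet_Ico measurableSet_Ico, Real.volume_Ico,
    Real.volume_Ico, ← ENNReal.ofReal_mul (by nlinarith)]
  congr 1
  ring

theorem measureReal_cell {a : ℝ} (ha : 0 < a) (f : ℤ × ℤ) : volume.real (cell a f) = a ^ 2 := by
  rw [Measure.real, volume_cell ha, ENNReal.toReal_ofReal (by positivity)]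

theorem measurable_meshIndex (a : ℝ) : Measurable (meshIndex a) := by
  unfold meshIndex
  exact (Int.measurable_floor.comp (Complex.measurable_re.div_const a)).prodMk
    (Int.measurable_floor.comp (Complex.measurable_im.div_const a))

theorem sum_indicator_cell {a : ℝ} (K : Finset (ℤ × ℤ)) (F : ℤ × ℤ → ℝ)
    (hF : ∀ f, f ∉ K → F f = 0) (z : ℂ) :
    F (meshIndex a z) = ∑ f ∈ K, (cell a f).indicator (fun _ => F f) z := by
  classical
  by_cases h : meshIndex a z ∈ K
  · rw [Finset.sum_eq_single (meshIndex a z)]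
    · rw [indicator_of_mem (show z ∈ cell a (meshIndex a z) from rfl)]
    · intro f _ hf
      rw [indicator_of_notMem]
      intro hz
      exact hf hz.symm
    · intro h'
      exact absurd h h'
  · rw [hF _ h, Finset.sum_eq_zero]
    intro f hf
    rw [indicator_of_notMem]
    intro hz
    rw [mem_cell] at hz
    rw [hz] at h
    exact h hf

/-- **cell sum = integral** -/
theorem integral_mesh {a : ℝ} (ha : 0 < a) (K : Finset (ℤ × ℤ)) (F : ℤ × ℤ → ℝ)
    (hF : ∀ f, f ∉ K → F f = 0) : ∫ z : ℂ, F (meshIndex a z) = a ^ 2 * ∑ f ∈ K, F f := by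
  have h : (fun z : ℂ => F (meshIndex a z))
      = fun z => ∑ f ∈ K, (cell a f).indicator (fun _ => F f) z := by
    funext z
    exact sum_indicator_cell K F hF z
  rw [h, integral_finsetSum]
  · rw [Finset.mul_sum]
    refine Finset.sum_congr rfl fun f _ => ?_
    rw [integral_indicator_const _ (measurableSet_cell ha f), measureReal_cell ha, smul_eq_mul]
  · intro f _
    rw [integrable_indicator_iff (measurableSet_cell ha f)]
    refine integrableOn_const ?_ ?_
    · rw [volume_cell ha]; exact ENNReal.ofReal_ne_top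
    · simp

theorem integrable_mesh {a : ℝ} (ha : 0 < a) (K : Finset (ℤ × ℤ)) (F : ℤ × ℤ → ℝ)
    (hF : ∀ f, f ∉ K → F f = 0) : Integrable (fun z : ℂ => F (meshIndex a z)) := by
  have h : (fun z : ℂ => F (meshIndex a z))
      = fun z => ∑ f ∈ K, (cell a f).indicator (fun _ => F f) z := by
    funext z
    exact sum_indicator_cell K F hF z
  rw [h]
  refine integrable_finsetSum _ fun f _ => ?_
  rw [integrable_indicator_iff (measurableSet_cell ha f)]
  refine integrableOn_const ?_ ?_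
  · rw [volume_cell ha]; exact ENNReal.ofReal_ne_top
  · simp

/-! ### mesh points -/

theorem abs_re_sub {a : ℝ} (ha : 0 < a) (z : ℂ) :
    |(meshPoint a (meshIndex a z)).re - z.re| ≤ a := by
  have h := (mem_cell_iff ha (meshIndex a z) z).1 rfl
  simp only [meshPoint]
  rw [abs_le]
  constructor <;> nlinarith [h.1.1, h.1.2]

theorem abs_im_sub {a : ℝ} (ha : 0 < a) (z : ℂ) :
    |(meshPoint a (meshIndex a z)).im - z.im| ≤ a := by
  have h := (mem_cell_iff ha (meshIndex a z) z).1 rfl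
  simp only [meshPoint]
  rw [abs_le]
  constructor <;> nlinarith [h.2.1, h.2.2]

theorem meshPoint_near {a : ℝ} (ha : 0 < a) (z : ℂ) :
    ‖meshPoint a (meshIndex a z) - z‖ ≤ 2 * a := by
  refine (Complex.norm_le_abs_re_add_abs_im _).trans ?_
  have h1 := abs_re_sub ha z
  have h2 := abs_im_sub ha z
  rw [Complex.sub_re, Complex.sub_im]
  linarith

theorem tendsto_meshPoint {ι : Type*} {l : Filter ι} {a : ι → ℝ} (ha : ∀ k, 0 < a k)
    (h0 : Tendsto a l (𝓝 0)) (z : ℂ) :
    Tendsto (fun k => meshPoint (a k) (meshIndex (a k) z)) l (𝓝 z) := by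
  rw [tendsto_iff_norm_sub_tendsto_zero]
  refine squeeze_zero (fun k => norm_nonneg _) (fun k => meshPoint_near (ha k) z) ?_
  simpa using h0.const_mul 2

theorem meshPoint_add (a : ℝ) (f : ℤ × ℤ) (m n : ℤ) :
    meshPoint a (f.1 + m, f.2 + n) = meshPoint a f + (a : ℂ) * ⟨m, n⟩ := by
  apply Complex.ext
  · simp [meshPoint]; ring
  · simp [meshPoint]; ring

/-- discrete difference quotient of `χ` at `z` in the lattice direction `(m, n)` -/
def dq (a : ℝ) (χ : ℂ → ℝ) (m n : ℤ) (z : ℂ) : ℝ :=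
  a⁻¹ * (χ (meshPoint a ((meshIndex a z).1 + m, (meshIndex a z).2 + n))
    - χ (meshPoint a (meshIndex a z)))

theorem tendsto_dq {ι : Type*} {l : Filter ι} {a : ι → ℝ} (ha : ∀ k, 0 < a k)
    (h0 : Tendsto a l (𝓝 0)) {χ : ℂ → ℝ}
    {z : ℂ} {L : ℂ →L[ℝ] ℝ} (hχ : HasStrictFDerivAt χ L z) (m n : ℤ) :
    Tendsto (fun k => dq (a k) χ m n z) l (𝓝 (L ⟨m, n⟩)) := by
  have h1 := tendsto_meshPoint ha h0 z
  have h2 : Tendsto (fun k => meshPoint (a k) (meshIndex (a k) z) + (a k : ℂ) * ⟨m, n⟩) l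
      (𝓝 z) := by
    have : Tendsto (fun k => ((a k : ℝ) : ℂ) * (⟨m, n⟩ : ℂ)) l (𝓝 0) := by
      have := (Complex.continuous_ofReal.tendsto 0).comp h0
      simpa using this.mul_const (⟨m, n⟩ : ℂ)
    simpa using h1.add this
  have h3 : Tendsto (fun k => (meshPoint (a k) (meshIndex (a k) z) + (a k : ℂ) * ⟨m, n⟩,
      meshPoint (a k) (meshIndex (a k) z))) l (𝓝 (z, z)) := by
    rw [nhds_prod_eq]
    exact h2.prodMk h1
  have h4 := hχ.isLittleO.comp_tendsto h3
  simp only [Function.comp_def, add_sub_cancel_left] at h4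
  have h5 : (fun k => dq (a k) χ m n z - L ⟨m, n⟩) =o[l] fun _ : ι => (1 : ℝ) := by
    have h6 : (fun k => (a k)⁻¹ * (χ (meshPoint (a k) (meshIndex (a k) z) + (a k : ℂ) * ⟨m, n⟩)
        - χ (meshPoint (a k) (meshIndex (a k) z)) - L ((a k : ℂ) * ⟨m, n⟩)))
        =o[l] fun k => (a k)⁻¹ * ‖((a k : ℝ) : ℂ) * (⟨m, n⟩ : ℂ)‖ :=
      (Asymptotics.isBigO_refl _ _).mul_isLittleO h4.norm_right
    have h7 : (fun k => dq (a k) χ m n z - L ⟨m, n⟩)
        = fun k => (a k)⁻¹ * (χ (meshPoint (a k) (meshIndex (a k) z) + (a k : ℂ) * ⟨m, n⟩)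
        - χ (meshPoint (a k) (meshIndex (a k) z)) - L ((a k : ℂ) * ⟨m, n⟩)) := by
      funext k
      have hL : L ((a k : ℂ) * ⟨m, n⟩) = a k * L ⟨m, n⟩ := by
        rw [show ((a k : ℝ) : ℂ) * (⟨m, n⟩ : ℂ) = (a k) • (⟨m, n⟩ : ℂ) by
          rw [Complex.real_smul], map_smul, smul_eq_mul]
      rw [dq, meshPoint_add, hL]
      have := (ha k).ne'
      field_simp
    rw [h7]
    refine h6.trans_isBigO ?_
    refine Asymptotics.IsBigO.of_bound ‖(⟨m, n⟩ : ℂ)‖ (Eventually.of_forall fun k => ?_)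
    rw [norm_mul, norm_norm, norm_mul, Complex.norm_real, norm_inv, ← mul_assoc,
      inv_mul_cancel₀ (norm_ne_zero_iff.2 (ha k).ne'), one_mul]
    simp
  rw [Asymptotics.isLittleO_one_iff] at h5
  simpa using h5.add_const (L ⟨m, n⟩)

theorem abs_dq_le {a : ℝ} (ha : 0 < a) {χ : ℂ → ℝ} {C : NNReal} (hχ : LipschitzWith C χ) (m n : ℤ)
    (z : ℂ) : |dq a χ m n z| ≤ C * ‖(⟨m, n⟩ : ℂ)‖ := by
  rw [dq, meshPoint_add, abs_mul, abs_of_pos (inv_pos.2 ha)]
  have h := hχ.dist_le_mul (meshPoint a (meshIndex a z) + (a : ℂ) * ⟨m, n⟩)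
    (meshPoint a (meshIndex a z))
  rw [Real.dist_eq, dist_eq_norm, add_sub_cancel_left, norm_mul, Complex.norm_real,
    Real.norm_eq_abs, abs_of_pos ha] at h
  calc a⁻¹ * |χ (meshPoint a (meshIndex a z) + (a : ℂ) * ⟨m, n⟩) - χ (meshPoint a (meshIndex a z))|
      ≤ a⁻¹ * (C * (a * ‖(⟨m, n⟩ : ℂ)‖)) := mul_le_mul_of_nonneg_left h (inv_pos.2 ha).le
    _ = C * ‖(⟨m, n⟩ : ℂ)‖ := by field_simp

theorem measurable_dq (a : ℝ) (χ : ℂ → ℝ) (m n : ℤ) : Measurable (dq a χ m n) := by
  have : dq a χ m n = (fun f : ℤ × ℤ => a⁻¹ * (χ (meshPoint a (f.1 + m, f.2 + n))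
      - χ (meshPoint a f))) ∘ meshIndex a := rfl
  rw [this]
  exact (measurable_of_countable _).comp (measurable_meshIndex a)

/-! ### products of strongly convergent functions -/

section prod

variable {α : Type*} [MeasurableSpace α] {μ : Measure α}

theorem eLpNorm_mul_one_le {f g : α → ℝ} (hf : AEStronglyMeasurable f μ)
    (hg : AEStronglyMeasurable g μ) :
    eLpNorm (fun x => f x * g x) 1 μ ≤ eLpNorm f 2 μ * eLpNorm g 2 μ := by
  have := eLpNorm_smul_le_mul_eLpNorm (p := 2) (q := 2) (r := 1) (μ := μ) hg hf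
  exact this

theorem tendsto_eLpNorm_mul {ι : Type*} {l : Filter ι} {f g : ι → α → ℝ} {F G : α → ℝ}
    (hf : ∀ k, AEStronglyMeasurable (f k) μ) (hg : ∀ k, AEStronglyMeasurable (g k) μ)
    (hF : MemLp F 2 μ) (hG : MemLp G 2 μ)
    (h1 : Tendsto (fun k => eLpNorm (fun x => f k x - F x) 2 μ) l (𝓝 0))
    (h2 : Tendsto (fun k => eLpNorm (fun x => g k x - G x) 2 μ) l (𝓝 0)) :
    Tendsto (fun k => eLpNorm (fun x => f k x * g k x - F x * G x) 1 μ) l (𝓝 0) := by
  have hb : ∀ k, eLpNorm (fun x => f k x * g k x - F x * G x) 1 μ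
      ≤ eLpNorm (fun x => f k x - F x) 2 μ * eLpNorm (fun x => g k x - G x) 2 μ
        + eLpNorm (fun x => f k x - F x) 2 μ * eLpNorm G 2 μ
        + eLpNorm F 2 μ * eLpNorm (fun x => g k x - G x) 2 μ := by
    intro k
    have mf : AEStronglyMeasurable (fun x => f k x - F x) μ := (hf k).sub hF.1
    have mg : AEStronglyMeasurable (fun x => g k x - G x) μ := (hg k).sub hG.1
    have e : (fun x => f k x * g k x - F x * G x)
        = ((fun x => (f k x - F x) * (g k x - G x)) + (fun x => (f k x - F x) * G x))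
          + (fun x => F x * (g k x - G x)) := by
      funext x
      simp only [Pi.add_apply]
      ring
    rw [e]
    refine (eLpNorm_add_le ((mf.mul mg).add (mf.mul hG.1)) (hF.1.mul mg) le_rfl).trans ?_
    refine add_le_add ((eLpNorm_add_le (mf.mul mg) (mf.mul hG.1) le_rfl).trans ?_) ?_
    · exact add_le_add (eLpNorm_mul_one_le mf mg) (eLpNorm_mul_one_le mf hG.1)
    · exact eLpNorm_mul_one_le hF.1 mg
  have hlim : Tendsto (fun k => eLpNorm (fun x => f k x - F x) 2 μ
        * eLpNorm (fun x => g k x - G x) 2 μ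
        + eLpNorm (fun x => f k x - F x) 2 μ * eLpNorm G 2 μ
        + eLpNorm F 2 μ * eLpNorm (fun x => g k x - G x) 2 μ) l (𝓝 0) := by
    have a1 := ENNReal.Tendsto.mul h1 (Or.inr ENNReal.zero_ne_top) h2 (Or.inr ENNReal.zero_ne_top)
    have a2 := ENNReal.Tendsto.mul_const (b := eLpNorm G 2 μ) h1 (Or.inr hG.2.ne)
    have a3 := ENNReal.Tendsto.const_mul (a := eLpNorm F 2 μ) h2 (Or.inr hF.2.ne)
    simpa using (a1.add a2).add a3
  exact tendsto_of_tendsto_of_tendsto_of_le_of_le tendsto_const_nhds hlim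
    (fun _ => bot_le) hb

/-- `∫ γ_k f_k g_k → ∫ γ F G` -/
theorem prod_lim {ι : Type*} {l : Filter ι} [l.IsCountablyGenerated] {f g : ι → α → ℝ}
    {F G : α → ℝ}
    (hf : ∀ k, AEStronglyMeasurable (f k) μ) (hg : ∀ k, AEStronglyMeasurable (g k) μ)
    (hF : MemLp F 2 μ) (hG : MemLp G 2 μ)
    (h1 : Tendsto (fun k => eLpNorm (fun x => f k x - F x) 2 μ) l (𝓝 0))
    (h2 : Tendsto (fun k => eLpNorm (fun x => g k x - G x) 2 μ) l (𝓝 0))
    {γ : ι → α → ℝ} {Γ : α → ℝ} {M : ℝ} (hγm : ∀ k, AEStronglyMeasurable (γ k) μ)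
    (hM : ∀ᶠ k in l, ∀ᵐ x ∂μ, |γ k x| ≤ M)
    (hγ : ∀ᵐ x ∂μ, F x * G x = 0 ∨ Tendsto (fun k => γ k x) l (𝓝 (Γ x))) :
    Tendsto (fun k => ∫ x, γ k x * (f k x * g k x) ∂μ) l (𝓝 (∫ x, Γ x * (F x * G x) ∂μ)) := by
  have hFG : Integrable (fun x => F x * G x) μ := hF.integrable_mul hG
  -- dominated convergence
  have d1 : Tendsto (fun k => ∫ x, γ k x * (F x * G x) ∂μ) l
      (𝓝 (∫ x, Γ x * (F x * G x) ∂μ)) := by
    refine tendsto_integral_filter_of_dominated_convergence (fun x => M * |F x * G x|)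
      (Eventually.of_forall fun k => (hγm k).mul hFG.1) ?_
      (hFG.abs.const_mul M) ?_
    · filter_upwards [hM] with k hMk
      filter_upwards [hMk] with x hx
      rw [Real.norm_eq_abs, abs_mul]
      exact mul_le_mul_of_nonneg_right hx (abs_nonneg _)
    · filter_upwards [hγ] with x hx
      rcases hx with hx | hx
      · simpa [hx] using tendsto_const_nhds
      · exact hx.mul_const _
  -- the L¹ error
  have hm : ∀ k, AEStronglyMeasurable (fun x => f k x * g k x - F x * G x) μ := fun k =>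
    ((hf k).mul (hg k)).sub hFG.1
  have d2 := tendsto_eLpNorm_mul hf hg hF hG h1 h2
  have hfin : ∀ᶠ k in l, eLpNorm (fun x => f k x * g k x - F x * G x) 1 μ < ⊤ := by
    filter_upwards [d2.eventually (gt_mem_nhds (show (0 : ℝ≥0∞) < 1 by simp))] with k hk
    exact hk.trans ENNReal.one_lt_top
  have d3 : Tendsto (fun k => ∫ x, γ k x * (f k x * g k x - F x * G x) ∂μ) l (𝓝 0) := by
    rw [tendsto_zero_iff_norm_tendsto_zero]
    have hM' : Tendsto (fun k => |M| * (eLpNorm (fun x => f k x * g k x - F x * G x) 1 μ).toReal)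
        l (𝓝 0) := by
      have := (ENNReal.tendsto_toReal ENNReal.zero_ne_top).comp d2
      simpa using this.const_mul |M|
    refine squeeze_zero' (Eventually.of_forall fun k => norm_nonneg _) ?_ hM'
    filter_upwards [hfin, hM] with k hk hMk
    have hi : Integrable (fun x => f k x * g k x - F x * G x) μ := by
      rw [← memLp_one_iff_integrable]; exact ⟨hm k, hk⟩
    calc ‖∫ x, γ k x * (f k x * g k x - F x * G x) ∂μ‖
        ≤ ∫ x, |M| * |f k x * g k x - F x * G x| ∂μ := by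
          refine norm_integral_le_of_norm_le (hi.abs.const_mul _) ?_
          filter_upwards [hMk] with x hx
          rw [Real.norm_eq_abs, abs_mul]
          exact mul_le_mul_of_nonneg_right (hx.trans (le_abs_self M)) (abs_nonneg _)
      _ = |M| * ∫ x, |f k x * g k x - F x * G x| ∂μ := integral_const_mul _ _
      _ = |M| * (eLpNorm (fun x => f k x * g k x - F x * G x) 1 μ).toReal := by
          rw [eLpNorm_one_eq_lintegral_enorm]
          congr 1
          simp_rw [← Real.norm_eq_abs]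
          rw [integral_norm_eq_lintegral_enorm (hm k)]
  have d4 := d3.add d1
  rw [zero_add] at d4
  refine d4.congr' ?_
  filter_upwards [hfin, hM] with k hk hMk
  have hi : Integrable (fun x => f k x * g k x - F x * G x) μ := by
    rw [← memLp_one_iff_integrable]; exact ⟨hm k, hk⟩
  rw [← integral_add]
  · refine integral_congr_ae (Eventually.of_forall fun x => ?_)
    simp only
    ring
  · refine hi.bdd_mul (c := |M|) (hγm k) ?_
    filter_upwards [hMk] with x hx
    rw [Real.norm_eq_abs]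
    exact hx.trans (le_abs_self M)
  · refine hFG.bdd_mul (c := |M|) (hγm k) ?_
    filter_upwards [hMk] with x hx
    rw [Real.norm_eq_abs]
    exact hx.trans (le_abs_self M)

end prod

end Crest.Agent.R165.LimAx610
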