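import Crest.Agent.R165.Tr1_40
import Crest.Agent.R165.LimA_610

/-!
# Row 165, blocks R / U4: lattice → continuum passage of the two exact laws (helper610)

`E a φ h z = φ (meshIndex a z) h`.  Sequences `a_k → 0`, weights `w_k` (`Sym`, `IsPlus`), fields
`φ_k`, `E_k φ_k → Φ` and `E_k (a_k⁻¹ A φ_k) → G` strongly in `L²(B)`, `B` a neighbourhood of the
support of the Lipschitz test function `χ`, differentiable on `D`, `Φ = 0` off `D`, and inside `D`
the weights are eventually critical.  Then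

* `law1` : `0 ≤ 2 ∫ χ ⟨A0 Φ, G⟩ + x² ∫ ∑_h ∂_h χ Φ_h²` if `0 ≤ χ`;
* `heavy` : `∫ χ hv Φ = 0` if `0 ≤ χ`;
* `law2` : `∫ ∑_h ∂_h χ Φ_h (A0 Φ)_h = 2 ∫ χ ⟨Φ, G⟩`;
* `law0` : the linear relation against light test fields.
-/

set_option autoImplicit false

noncomputable section

open MeasureTheory Filter Topology Set
open Crest.ProbabilityR.IsingModel
open Crest.Agent.R165.Tr1x40 Crest.Agent.R165.LimAx610
open scoped ENNReal

namespace Crest.Agent.R165.LimQx610

/-- sampled field -/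
def E (a : ℝ) (φ : Fld) (h : Fin 4) (z : ℂ) : ℝ := φ (meshIndex a z) h

theorem measurable_E (a : ℝ) (φ : Fld) (h : Fin 4) : Measurable (E a φ h) := by
  have : E a φ h = (fun f : ℤ × ℤ => φ f h) ∘ meshIndex a := rfl
  rw [this]
  exact (measurable_of_countable _).comp (measurable_meshIndex a)

/-- lattice offsets of the four directions -/
def off (h : Fin 4) : ℤ × ℤ :=
  match h with
  | 0 => (0, -1)
  | 1 => (1, 0)
  | 2 => (0, 1)
  | 3 => (-1, 0)

theorem nb_eq (f : Face) (h : Fin 4) : nb f h = (f.1 + (off h).1, f.2 + (off h).2) := by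
  fin_cases h <;> simp [nb, off, sub_eq_add_neg]

/-- the unit vector of the direction `h` -/
def dir (h : Fin 4) : ℂ := ⟨(off h).1, (off h).2⟩

theorem dir_zero : dir 0 = -Complex.I := by apply Complex.ext <;> simp [dir, off]
theorem dir_one : dir 1 = 1 := by apply Complex.ext <;> simp [dir, off]
theorem dir_two : dir 2 = Complex.I := by apply Complex.ext <;> simp [dir, off]
theorem dir_three : dir 3 = -1 := by apply Complex.ext <;> simp [dir, off]

theorem norm_dir (h : Fin 4) : ‖dir h‖ = 1 := by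
  fin_cases h
  · simp [dir_zero]
  · simp [dir_one]
  · simp [dir_two]
  · simp [dir_three]

/-- difference quotient in the direction `h` -/
def dh (a : ℝ) (χ : ℂ → ℝ) (h : Fin 4) (z : ℂ) : ℝ := dq a χ (off h).1 (off h).2 z

theorem dh_eq (a : ℝ) (χ : ℂ → ℝ) (h : Fin 4) (z : ℂ) :
    dh a χ h z = a⁻¹ * (χ (meshPoint a (nb (meshIndex a z) h)) - χ (meshPoint a (meshIndex a z))) := by
  rw [dh, dq, nb_eq]

theorem abs_dh_le {a : ℝ} (ha : 0 < a) {χ : ℂ → ℝ} {C : NNReal} (hχ : LipschitzWith C χ)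
    (h : Fin 4) (z : ℂ) : |dh a χ h z| ≤ C := by
  have := abs_dq_le ha hχ (off h).1 (off h).2 z
  rw [show (⟨((off h).1 : ℤ), ((off h).2 : ℤ)⟩ : ℂ) = dir h from rfl, norm_dir, mul_one] at this
  exact this

theorem measurable_dh (a : ℝ) (χ : ℂ → ℝ) (h : Fin 4) : Measurable (dh a χ h) := measurable_dq _ _ _ _

theorem tendsto_dh {ι : Type*} {l : Filter ι} {a : ι → ℝ} (ha : ∀ k, 0 < a k)
    (h0 : Tendsto a l (𝓝 0)) {χ : ℂ → ℝ}
    {z : ℂ} {L : ℂ →L[ℝ] ℝ} (hχ : HasStrictFDerivAt χ L z) (h : Fin 4) :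
    Tendsto (fun k => dh (a k) χ h z) l (𝓝 (L (dir h))) :=
  tendsto_dq ha h0 hχ _ _

/-- sampled scalar -/
def Es (a : ℝ) (χ : ℂ → ℝ) (z : ℂ) : ℝ := χ (meshPoint a (meshIndex a z))

theorem measurable_Es (a : ℝ) (χ : ℂ → ℝ) : Measurable (Es a χ) := by
  have : Es a χ = (fun f : ℤ × ℤ => χ (meshPoint a f)) ∘ meshIndex a := rfl
  rw [this]
  exact (measurable_of_countable _).comp (measurable_meshIndex a)

theorem tendsto_Es {ι : Type*} {l : Filter ι} {a : ι → ℝ} (ha : ∀ k, 0 < a k)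
    (h0 : Tendsto a l (𝓝 0)) {χ : ℂ → ℝ}
    (hχ : Continuous χ) (z : ℂ) : Tendsto (fun k => Es (a k) χ z) l (𝓝 (χ z)) :=
  (hχ.tendsto z).comp (tendsto_meshPoint ha h0 z)

/-! ### supports -/

/-- a finite box containing all faces where `χ` or one of its neighbours does not vanish -/
theorem exists_box {a : ℝ} (ha : 0 < a) {χ : ℂ → ℝ} (hc : HasCompactSupport χ) :
    ∃ K : Finset Face, (∀ f, f ∉ K → χ (meshPoint a f) = 0) ∧
      ∀ f, f ∉ K → ∀ h, χ (meshPoint a (nb f h)) = 0 := by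
  obtain ⟨R, hR⟩ := hc.isCompact.isBounded.subset_closedBall (0 : ℂ)
  have hz : ∀ z : ℂ, R < ‖z‖ → χ z = 0 := by
    intro z h
    by_contra hne
    have h1 := hR (subset_tsupport χ (Function.mem_support.2 hne))
    rw [Metric.mem_closedBall, dist_zero_right] at h1
    linarith
  obtain ⟨N, hN⟩ := exists_nat_gt (R / a)
  have hN' : R < a * N := by rw [div_lt_iff₀ ha] at hN; linarith
  have key : ∀ f : ℤ × ℤ, ((N : ℤ) ≤ |f.1| ∨ (N : ℤ) ≤ |f.2|) → χ (meshPoint a f) = 0 := by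
    intro f hf
    apply hz
    rcases hf with hf | hf
    · calc R < a * N := hN'
        _ ≤ a * |(f.1 : ℝ)| := by
          refine mul_le_mul_of_nonneg_left ?_ ha.le
          exact_mod_cast hf
        _ = |(meshPoint a f).re| := by simp [meshPoint, abs_mul, abs_of_pos ha]
        _ ≤ _ := Complex.abs_re_le_norm _
    · calc R < a * N := hN'
        _ ≤ a * |(f.2 : ℝ)| := by
          refine mul_le_mul_of_nonneg_left ?_ ha.le
          exact_mod_cast hf
        _ = |(meshPoint a f).im| := by simp [meshPoint, abs_mul, abs_of_pos ha]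
        _ ≤ _ := Complex.abs_im_le_norm _
  refine ⟨Finset.Icc (-(N : ℤ)) N ×ˢ Finset.Icc (-(N : ℤ)) N, ?_, ?_⟩
  · intro f hf
    apply key
    simp only [Finset.mem_product, Finset.mem_Icc] at hf
    by_contra hc
    push Not at hc
    rw [abs_lt, abs_lt] at hc
    exact hf ⟨⟨hc.1.1.le, hc.1.2.le⟩, hc.2.1.le, hc.2.2.le⟩
  · intro f hf h
    apply key
    simp only [Finset.mem_product, Finset.mem_Icc] at hf
    by_contra hc
    push Not at hc
    rw [abs_lt, abs_lt] at hc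
    apply hf
    obtain ⟨⟨h1, h2⟩, h3, h4⟩ := hc
    fin_cases h <;> simp only [nb] at h1 h2 h3 h4 <;>
      exact ⟨⟨by omega, by omega⟩, by omega, by omega⟩

theorem Es_eq_zero {a : ℝ} (ha : 0 < a) {χ : ℂ → ℝ} {B : Set ℂ} {δ : ℝ} (hδ : 4 * a < δ)
    (hB : Metric.thickening δ (tsupport χ) ⊆ B) {z : ℂ} (hz : z ∉ B) : Es a χ z = 0 := by
  by_contra hne
  apply hz
  apply hB
  rw [Metric.mem_thickening_iff]
  refine ⟨meshPoint a (meshIndex a z), subset_tsupport χ (Function.mem_support.2 hne), ?_⟩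
  rw [dist_comm, dist_eq_norm]
  have := meshPoint_near ha z
  linarith

theorem dh_eq_zero {a : ℝ} (ha : 0 < a) {χ : ℂ → ℝ} {B : Set ℂ} {δ : ℝ} (hδ : 4 * a < δ)
    (hB : Metric.thickening δ (tsupport χ) ⊆ B) {z : ℂ} (hz : z ∉ B) (h : Fin 4) :
    dh a χ h z = 0 := by
  rw [dh_eq]
  have e1 : χ (meshPoint a (meshIndex a z)) = 0 := Es_eq_zero ha hδ hB hz
  have e2 : χ (meshPoint a (nb (meshIndex a z) h)) = 0 := by
    by_contra hne
    apply hz
    apply hB
    rw [Metric.mem_thickening_iff]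
    refine ⟨meshPoint a (nb (meshIndex a z) h), subset_tsupport χ (Function.mem_support.2 hne), ?_⟩
    rw [dist_comm, dist_eq_norm, nb_eq, meshPoint_add,
      show (⟨((off h).1 : ℤ), ((off h).2 : ℤ)⟩ : ℂ) = dir h from rfl]
    have h1 := meshPoint_near ha z
    have h2 : ‖(a : ℂ) * dir h‖ = a := by
      rw [norm_mul, norm_dir, Complex.norm_real, Real.norm_eq_abs, abs_of_pos ha, mul_one]
    have h3 : meshPoint a (meshIndex a z) + (a : ℂ) * dir h - z
        = (meshPoint a (meshIndex a z) - z) + (a : ℂ) * dir h := by ring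
    rw [h3]
    have := norm_add_le (meshPoint a (meshIndex a z) - z) ((a : ℂ) * dir h)
    linarith
  rw [e1, e2]
  ring

/-! ### the discrete laws as integrals -/

/-- scaled source -/
def src (a : ℝ) (w φ : Fld) : Fld := fun f h => a⁻¹ * A w φ f h

theorem A_eq_src {a : ℝ} (ha : 0 < a) (w φ : Fld) (f : Face) (h : Fin 4) :
    A w φ f h = a * src a w φ f h := by
  rw [src, ← mul_assoc, mul_inv_cancel₀ ha.ne', one_mul]

/-- the first law (summed (T+) with a cut-off), integral form -/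
theorem disc1 {a : ℝ} (ha : 0 < a) (w φ : Fld) (hw : Sym w) {χ : ℂ → ℝ} (hc : HasCompactSupport χ) :
    ∫ z, a⁻¹ * (Es a χ z * (4 * Real.sqrt 2 * hv (fun h => E a φ h z)
        + ∑ h, (xc ^ 2 - w (meshIndex a z) h ^ 2) * E a φ h z ^ 2))
      = ∫ z, Es a χ z * (2 * ∑ h, A0 (fun h => E a φ h z) h * E a (src a w φ) h z
          - a * ∑ h, E a (src a w φ) h z ^ 2)
        + ∑ h, dh a χ h z * (w (meshIndex a z) h ^ 2 * E a φ h z ^ 2) := by
  obtain ⟨K, hK1, hK2⟩ := exists_box ha hc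
  have hT := Tloc w φ hw (fun f => χ (meshPoint a f)) K hK1 hK2
  have hane := ha.ne'
  set F1 : Face → ℝ := fun f => a⁻¹ * (χ (meshPoint a f) * (4 * Real.sqrt 2 * hv (φ f)
      + ∑ h, (xc ^ 2 - w f h ^ 2) * φ f h ^ 2)) with hF1
  set F2 : Face → ℝ := fun f => χ (meshPoint a f) * (2 * ∑ h, A0 (φ f) h * src a w φ f h
      - a * ∑ h, src a w φ f h ^ 2)
      + ∑ h, a⁻¹ * (χ (meshPoint a (nb f h)) - χ (meshPoint a f)) * (w f h ^ 2 * φ f h ^ 2) with hF2
  have i1 := integral_mesh ha K F1 (fun f hf => by simp [hF1, hK1 f hf])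
  have i2 := integral_mesh ha K F2 (fun f hf => by simp [hF2, hK1 f hf, hK2 f hf])
  have e1 : ∀ z, a⁻¹ * (Es a χ z * (4 * Real.sqrt 2 * hv (fun h => E a φ h z)
        + ∑ h, (xc ^ 2 - w (meshIndex a z) h ^ 2) * E a φ h z ^ 2)) = F1 (meshIndex a z) :=
    fun z => rfl
  have e2 : ∀ z, Es a χ z * (2 * ∑ h, A0 (fun h => E a φ h z) h * E a (src a w φ) h z
          - a * ∑ h, E a (src a w φ) h z ^ 2)
        + ∑ h, dh a χ h z * (w (meshIndex a z) h ^ 2 * E a φ h z ^ 2) = F2 (meshIndex a z) := by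
    intro z
    simp only [dh_eq, hF2]
    rfl
  simp_rw [e1, e2]
  rw [i1, i2]
  have s1 : ∑ f ∈ K, F1 f = a⁻¹ * ∑ f ∈ K, χ (meshPoint a f) * (4 * Real.sqrt 2 * hv (φ f)
      + ∑ h, (xc ^ 2 - w f h ^ 2) * φ f h ^ 2) := by rw [Finset.mul_sum]
  rw [s1, hT]
  have s2 : ∀ f, F2 f = a⁻¹ * (χ (meshPoint a f) * (2 * ∑ h, A0 (φ f) h * A w φ f h
        - nsq (A w φ f))) + a⁻¹ * ∑ h, (χ (meshPoint a (nb f h)) - χ (meshPoint a f))
        * (w f h ^ 2 * φ f h ^ 2) := by
    intro f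
    simp only [hF2, A_eq_src ha w φ f, nsq, Fin.sum_univ_four]
    field_simp
  simp_rw [s2]
  rw [Finset.sum_add_distrib, ← Finset.mul_sum, ← Finset.mul_sum, mul_add]

theorem A0_skew (p : Fin 4 → ℝ) : ∑ h, p h * A0 p h = 0 := by
  rw [Fin.sum_univ_four]
  simp only [A0_zero, A0_one, A0_two, A0_three]
  ring

/-- the second law (antisymmetry of `A`) with a cut-off -/
theorem antisym (w φ : Fld) (hw : Sym w) (c : Face → ℝ) (K : Finset Face)
    (h1 : ∀ f, f ∉ K → c f = 0) (h2 : ∀ f, f ∉ K → ∀ h, c (nb f h) = 0) :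
    ∑ f ∈ K, ∑ h, (c (nb f h) - c f) * (φ f h * (A w φ f h - A0 (φ f) h))
      = - 2 * ∑ f ∈ K, c f * ∑ h, φ f h * A w φ f h := by
  have hY : ∀ f h, A w φ f h - A0 (φ f) h = Y w φ f h := fun f h => by simp [A]
  have key : ∑ f ∈ K, ∑ h, c (nb f h) * (φ f h * Y w φ f h)
      = - ∑ f ∈ K, ∑ h, c f * (φ f h * Y w φ f h) := by
    have := sum_bar K (fun f h => c f * (φ f h * Y w φ f h))
      (fun f hf h => by rw [h1 f hf, zero_mul])
      (fun f hf h => by rw [h2 f hf h, zero_mul])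
    rw [← this, ← Finset.sum_neg_distrib]
    refine Finset.sum_congr rfl fun f _ => ?_
    rw [← Finset.sum_neg_distrib]
    refine Finset.sum_congr rfl fun h _ => ?_
    unfold Y
    rw [hw f h, nb_nb_op, op_op, sg_op]
    ring
  simp_rw [hY, sub_mul, Finset.sum_sub_distrib]
  rw [key]
  have e : ∑ f ∈ K, ∑ h, c f * (φ f h * Y w φ f h) = ∑ f ∈ K, c f * ∑ h, φ f h * A w φ f h := by
    refine Finset.sum_congr rfl fun f _ => ?_
    rw [← Finset.mul_sum]
    congr 1
    have : ∑ h, φ f h * A w φ f h = ∑ h, φ f h * Y w φ f h + ∑ h, φ f h * A0 (φ f) h := by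
      rw [← Finset.sum_add_distrib]
      refine Finset.sum_congr rfl fun h _ => ?_
      rw [← hY]
      ring
    rw [this, A0_skew, add_zero]
  rw [e]
  ring

theorem disc2 {a : ℝ} (ha : 0 < a) (w φ : Fld) (hw : Sym w) {χ : ℂ → ℝ} (hc : HasCompactSupport χ) :
    ∫ z, ∑ h, dh a χ h z * (E a φ h z * (a * E a (src a w φ) h z - A0 (fun h => E a φ h z) h))
      = ∫ z, -2 * (Es a χ z * ∑ h, E a φ h z * E a (src a w φ) h z) := by
  obtain ⟨K, hK1, hK2⟩ := exists_box ha hc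
  have hT := antisym w φ hw (fun f => χ (meshPoint a f)) K hK1 hK2
  have hane := ha.ne'
  set F1 : Face → ℝ := fun f => ∑ h, a⁻¹ * (χ (meshPoint a (nb f h)) - χ (meshPoint a f))
      * (φ f h * (a * src a w φ f h - A0 (φ f) h)) with hF1
  set F2 : Face → ℝ := fun f => -2 * (χ (meshPoint a f) * ∑ h, φ f h * src a w φ f h) with hF2
  have i1 := integral_mesh ha K F1 (fun f hf => by simp [hF1, hK1 f hf, hK2 f hf])
  have i2 := integral_mesh ha K F2 (fun f hf => by simp [hF2, hK1 f hf])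
  have e1 : ∀ z, ∑ h, dh a χ h z * (E a φ h z * (a * E a (src a w φ) h z
      - A0 (fun h => E a φ h z) h)) = F1 (meshIndex a z) := by
    intro z
    simp only [dh_eq, hF1]
    rfl
  have e2 : ∀ z, -2 * (Es a χ z * ∑ h, E a φ h z * E a (src a w φ) h z) = F2 (meshIndex a z) :=
    fun z => rfl
  simp_rw [e1, e2]
  rw [i1, i2]
  congr 1
  have s1 : ∀ f, F1 f = a⁻¹ * ∑ h, (χ (meshPoint a (nb f h)) - χ (meshPoint a f))
      * (φ f h * (A w φ f h - A0 (φ f) h)) := by
    intro f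
    simp only [hF1, A_eq_src ha w φ f, Finset.mul_sum]
    refine Finset.sum_congr rfl fun h _ => ?_
    ring
  simp_rw [s1]
  rw [← Finset.mul_sum, hT, Finset.mul_sum, Finset.mul_sum]
  refine Finset.sum_congr rfl fun f _ => ?_
  simp only [hF2, A_eq_src ha w φ f, Finset.mul_sum]
  refine Finset.sum_congr rfl fun h _ => ?_
  field_simp

end Crest.Agent.R165.LimQx610
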