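import Crest.Agent.R165.LimQ_610

/-!
# Row 165, blocks R / U4: the limit laws (helper610)

`LD l D B a w φ Φ G`: along the filter `l`, mesh `a → 0`, `E φ → Φ`, `E (a⁻¹ A φ) → G` strongly in
`L²(B)`.  Consequences for the limit fields, for test functions `χ` (Lipschitz, compact support,
a neighbourhood of the support inside `B`, strictly differentiable on `D`):

* `LD.law1`  : `0 ≤ χ → 0 ≤ 2 ∫_B χ ⟨A0 Φ, G⟩ + x² ∫_B ∑_h ∂_h χ Φ_h²`;
* `LD.heavy` : `0 ≤ χ → ∫_B χ hv Φ = 0`;
* `LD.law2`  : `∫_B ∑_h ∂_h χ Φ_h (A0 Φ)_h = 2 ∫_B χ ⟨Φ, G⟩`.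
-/

set_option autoImplicit false

noncomputable section

open MeasureTheory Filter Topology Set
open Crest.ProbabilityR.IsingModel
open Crest.Agent.R165.Tr1x40 Crest.Agent.R165.LimAx610 Crest.Agent.R165.LimQx610
open scoped ENNReal

namespace Crest.Agent.R165.LimRx610

/-! ### sums of products -/

section prod

variable {α : Type*} [MeasurableSpace α] {μ : Measure α}

/-- `∫ ∑_j γ_j f_j g_j → ∫ ∑_j Γ_j F_j G_j` -/
theorem prod_lim_sum {ι : Type*} {l : Filter ι} [l.IsCountablyGenerated] {J : Type*}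
    (s : Finset J) {f g : J → ι → α → ℝ} {F G : J → α → ℝ}
    (hf : ∀ j k, AEStronglyMeasurable (f j k) μ) (hg : ∀ j k, AEStronglyMeasurable (g j k) μ)
    (hF : ∀ j, MemLp (F j) 2 μ) (hG : ∀ j, MemLp (G j) 2 μ)
    (h1 : ∀ j, Tendsto (fun k => eLpNorm (fun x => f j k x - F j x) 2 μ) l (𝓝 0))
    (h2 : ∀ j, Tendsto (fun k => eLpNorm (fun x => g j k x - G j x) 2 μ) l (𝓝 0))
    {γ : J → ι → α → ℝ} {Γ : J → α → ℝ} {M : J → ℝ}
    (hγm : ∀ j k, AEStronglyMeasurable (γ j k) μ)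
    (hM : ∀ j, ∀ᶠ k in l, ∀ᵐ x ∂μ, |γ j k x| ≤ M j)
    (hγ : ∀ j, ∀ᵐ x ∂μ, F j x * G j x = 0 ∨ Tendsto (fun k => γ j k x) l (𝓝 (Γ j x)))
    (hΓ : ∀ j, Integrable (fun x => Γ j x * (F j x * G j x)) μ) :
    Tendsto (fun k => ∫ x, ∑ j ∈ s, γ j k x * (f j k x * g j k x) ∂μ) l
      (𝓝 (∫ x, ∑ j ∈ s, Γ j x * (F j x * G j x) ∂μ)) ∧
    (∀ᶠ k in l, Integrable (fun x => ∑ j ∈ s, γ j k x * (f j k x * g j k x)) μ) ∧
    Integrable (fun x => ∑ j ∈ s, Γ j x * (F j x * G j x)) μ := by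
  have hlim : Tendsto (fun k => ∑ j ∈ s, ∫ x, γ j k x * (f j k x * g j k x) ∂μ) l
      (𝓝 (∑ j ∈ s, ∫ x, Γ j x * (F j x * G j x) ∂μ)) :=
    tendsto_finsetSum _ fun j _ => prod_lim (hf j) (hg j) (hF j) (hG j) (h1 j) (h2 j)
      (hγm j) (hM j) (hγ j)
  rw [integral_finsetSum _ fun j _ => hΓ j]
  have hint : ∀ᶠ k in l, ∀ j ∈ s, Integrable (fun x => γ j k x * (f j k x * g j k x)) μ := by
    rw [Filter.eventually_all_finset]
    intro j _
    have d2 := tendsto_eLpNorm_mul (hf j) (hg j) (hF j) (hG j) (h1 j) (h2 j)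
    filter_upwards [d2.eventually (gt_mem_nhds (show (0 : ℝ≥0∞) < 1 by simp)), hM j] with k hk hMk
    have hFG : Integrable (fun x => F j x * G j x) μ := (hF j).integrable_mul (hG j)
    have hi : Integrable (fun x => f j k x * g j k x - F j x * G j x) μ := by
      rw [← memLp_one_iff_integrable]
      exact ⟨((hf j k).mul (hg j k)).sub hFG.1, hk.trans ENNReal.one_lt_top⟩
    have hi' : Integrable (fun x => f j k x * g j k x) μ := by
      have := hi.add hFG
      refine this.congr (Eventually.of_forall fun x => ?_)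
      simp
    refine hi'.bdd_mul (c := M j) (hγm j k) ?_
    filter_upwards [hMk] with x hx
    rwa [Real.norm_eq_abs]
  refine ⟨hlim.congr' ?_, ?_, integrable_finsetSum _ fun j _ => hΓ j⟩
  · filter_upwards [hint] with k hk
    rw [integral_finsetSum _ hk]
  · filter_upwards [hint] with k hk
    exact integrable_finsetSum _ hk

end prod

/-! ### the limit data -/

/-- pointwise form of the data, for countably generated filters -/
structure LD0 {ι : Type*} (l : Filter ι) (D B : Set ℂ) (a : ι → ℝ) (w φ : ι → Fld)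
    (Φ G : Fin 4 → ℂ → ℝ) : Prop where
  pos : ∀ k, 0 < a k
  lim : Tendsto a l (𝓝 0)
  sym : ∀ k, Sym (w k)
  plus : ∀ k, IsPlus (w k)
  opn : IsOpen D
  meas : MeasurableSet B
  memΦ : ∀ h, MemLp (Φ h) 2 (volume.restrict B)
  memG : ∀ h, MemLp (G h) 2 (volume.restrict B)
  zero : ∀ h, ∀ᵐ z ∂(volume.restrict B), z ∉ D → Φ h z = 0
  crit : ∀ z ∈ D, ∀ᶠ k in l, ∀ h, w k (meshIndex (a k) z) h ^ 2 = xc ^ 2
  convΦ : ∀ h, Tendsto (fun k => eLpNorm (fun z => E (a k) (φ k) h z - Φ h z) 2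
    (volume.restrict B)) l (𝓝 0)
  convG : ∀ h, Tendsto (fun k => eLpNorm (fun z => E (a k) (src (a k) (w k) (φ k)) h z - G h z) 2
    (volume.restrict B)) l (𝓝 0)

/-- `A0` on continuum fields -/
def A0c (Φ : Fin 4 → ℂ → ℝ) (h : Fin 4) (z : ℂ) : ℝ := A0 (fun j => Φ j z) h

/-- coefficients of `A0` -/
def ac (h j : Fin 4) : ℝ := A0 (fun i => if i = j then 1 else 0) h

theorem A0_eq_sum (p : Fin 4 → ℝ) (h : Fin 4) : A0 p h = ∑ j, ac h j * p j := by
  fin_cases h <;> simp [ac, Fin.sum_univ_four] <;> ring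

theorem memLp_A0c {μ : Measure ℂ} {Φ : Fin 4 → ℂ → ℝ} (h : ∀ j, MemLp (Φ j) 2 μ) (i : Fin 4) :
    MemLp (A0c Φ i) 2 μ := by
  have : A0c Φ i = fun z => ∑ j, ac i j * Φ j z := funext fun z => A0_eq_sum _ _
  rw [this]
  exact memLp_finsetSum _ fun j _ => (h j).const_mul _

theorem tendsto_A0c {ι : Type*} {l : Filter ι} {μ : Measure ℂ} {f : ι → Fin 4 → ℂ → ℝ}
    {Φ : Fin 4 → ℂ → ℝ} (hf : ∀ k j, AEStronglyMeasurable (f k j) μ)
    (h : ∀ j, MemLp (Φ j) 2 μ)
    (hc : ∀ j, Tendsto (fun k => eLpNorm (fun z => f k j z - Φ j z) 2 μ) l (𝓝 0)) (i : Fin 4) :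
    Tendsto (fun k => eLpNorm (fun z => A0c (f k) i z - A0c Φ i z) 2 μ) l (𝓝 0) := by
  have hb : ∀ k, eLpNorm (fun z => A0c (f k) i z - A0c Φ i z) 2 μ
      ≤ ∑ j, ‖ac i j‖ₑ * eLpNorm (fun z => f k j z - Φ j z) 2 μ := by
    intro k
    have e : (fun z => A0c (f k) i z - A0c Φ i z)
        = fun z => ∑ j, ac i j * (f k j z - Φ j z) := by
      funext z
      rw [A0c, A0c, A0_eq_sum, A0_eq_sum, ← Finset.sum_sub_distrib]
      exact Finset.sum_congr rfl fun j _ => by ring
    rw [e]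
    have e2 : (fun z => ∑ j, ac i j * (f k j z - Φ j z))
        = ∑ j, fun z => ac i j * (f k j z - Φ j z) := by
      funext z; simp
    rw [e2]
    refine (eLpNorm_sum_le (fun j _ => ((hf k j).sub (h j).1).const_mul _) (by norm_num)).trans ?_
    refine Finset.sum_le_sum fun j _ => ?_
    have := eLpNorm_const_smul_le (c := ac i j) (f := fun z => f k j z - Φ j z) (p := 2) (μ := μ)
    exact this
  have hlim : Tendsto (fun k => ∑ j, ‖ac i j‖ₑ * eLpNorm (fun z => f k j z - Φ j z) 2 μ) l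
      (𝓝 0) := by
    have := tendsto_finsetSum (Finset.univ : Finset (Fin 4)) fun j _ =>
      ENNReal.Tendsto.const_mul (a := ‖ac i j‖ₑ) (hc j) (Or.inr enorm_ne_top)
    simpa using this
  exact tendsto_of_tendsto_of_tendsto_of_le_of_le tendsto_const_nhds hlim (fun _ => bot_le) hb

/-- test functions -/
structure Test (D B : Set ℂ) (χ : ℂ → ℝ) (C : NNReal) : Prop where
  lip : LipschitzWith C χ
  cpt : HasCompactSupport χ
  nbd : ∃ δ > 0, Metric.thickening δ (tsupport χ) ⊆ B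
  der : ∀ z ∈ D, HasStrictFDerivAt χ (fderiv ℝ χ z) z

theorem Test.of_contDiffOn {D B : Set ℂ} {χ : ℂ → ℝ} {C : NNReal} (hD : IsOpen D)
    (lip : LipschitzWith C χ) (cpt : HasCompactSupport χ)
    (nbd : ∃ δ > 0, Metric.thickening δ (tsupport χ) ⊆ B) (hχ : ContDiffOn ℝ 1 χ D) :
    Test D B χ C :=
  ⟨lip, cpt, nbd, fun _ hz => (hχ.contDiffAt (hD.mem_nhds hz)).hasStrictFDerivAt (by norm_num)⟩

theorem Test.bdd {D B : Set ℂ} {χ : ℂ → ℝ} {C : NNReal} (T : Test D B χ C) :
    ∃ M, 0 ≤ M ∧ ∀ z, |χ z| ≤ M := by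
  obtain ⟨M, hM⟩ := T.cpt.exists_bound_of_continuous T.lip.continuous
  exact ⟨max M 0, le_max_right _ _, fun z => ((Real.norm_eq_abs _).symm.le.trans (hM z)).trans
    (le_max_left _ _)⟩

/-- derivative of the cut-off in the direction `h` -/
def dχ (χ : ℂ → ℝ) (h : Fin 4) (z : ℂ) : ℝ := fderiv ℝ χ z (dir h)

theorem measurable_dχ (χ : ℂ → ℝ) (h : Fin 4) : Measurable (dχ χ h) :=
  measurable_fderiv_apply_const ℝ χ (dir h)

theorem abs_dχ_le {χ : ℂ → ℝ} {C : NNReal} (hχ : LipschitzWith C χ) (h : Fin 4) (z : ℂ) :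
    |dχ χ h z| ≤ C := by
  have h1 := (fderiv ℝ χ z).le_opNorm (dir h)
  rw [norm_dir, mul_one, Real.norm_eq_abs] at h1
  exact h1.trans (norm_fderiv_le_of_lipschitz ℝ hχ)

theorem dχ_zero (χ : ℂ → ℝ) (z : ℂ) : dχ χ 0 z = - fderiv ℝ χ z Complex.I := by
  rw [dχ, dir_zero, map_neg]
theorem dχ_one (χ : ℂ → ℝ) (z : ℂ) : dχ χ 1 z = fderiv ℝ χ z 1 := by rw [dχ, dir_one]
theorem dχ_two (χ : ℂ → ℝ) (z : ℂ) : dχ χ 2 z = fderiv ℝ χ z Complex.I := by rw [dχ, dir_two]
theorem dχ_three (χ : ℂ → ℝ) (z : ℂ) : dχ χ 3 z = - fderiv ℝ χ z 1 := by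
  rw [dχ, dir_three, map_neg]

variable {ι : Type*} {l : Filter ι} {D B : Set ℂ} {a : ι → ℝ} {w φ : ι → Fld}
  {Φ G : Fin 4 → ℂ → ℝ}

theorem LD0.small (H : LD0 l D B a w φ Φ G) {δ : ℝ} (hδ : 0 < δ) : ∀ᶠ k in l, 4 * a k < δ := by
  have : Tendsto (fun k => 4 * a k) l (𝓝 (4 * 0)) := H.lim.const_mul 4
  rw [mul_zero] at this
  exact this.eventually (gt_mem_nhds hδ)

/-- weights sampled at a point of the plane -/
theorem measurable_w (a : ℝ) (w : Fld) (h : Fin 4) :
    Measurable fun z => w (meshIndex a z) h := measurable_E a w h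

/-- terms with the cut-off itself -/
theorem LD0.lim_src [l.IsCountablyGenerated] (H : LD0 l D B a w φ Φ G) {χ : ℂ → ℝ} {C : NNReal}
    (T : Test D B χ C) {f g : Fin 4 → ι → ℂ → ℝ} {F K : Fin 4 → ℂ → ℝ}
    (hf : ∀ h k, AEStronglyMeasurable (f h k) (volume.restrict B))
    (hF : ∀ h, MemLp (F h) 2 (volume.restrict B))
    (hc : ∀ h, Tendsto (fun k => eLpNorm (fun z => f h k z - F h z) 2 (volume.restrict B)) l (𝓝 0))
    (hg : ∀ h k, AEStronglyMeasurable (g h k) (volume.restrict B))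
    (hK : ∀ h, MemLp (K h) 2 (volume.restrict B))
    (hc' : ∀ h, Tendsto (fun k => eLpNorm (fun z => g h k z - K h z) 2
      (volume.restrict B)) l (𝓝 0)) :
    Tendsto (fun k => ∫ z in B, ∑ h, Es (a k) χ z * (f h k z * g h k z)) l
      (𝓝 (∫ z in B, ∑ h, χ z * (F h z * K h z))) ∧
    (∀ᶠ k in l, Integrable (fun z => ∑ h, Es (a k) χ z * (f h k z * g h k z))
      (volume.restrict B)) ∧
    Integrable (fun z => ∑ h, χ z * (F h z * K h z)) (volume.restrict B) := by
  obtain ⟨M, hM0, hM⟩ := T.bdd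
  refine prod_lim_sum (M := fun _ => M) Finset.univ hf hg hF hK hc hc'
    (fun h k => (measurable_Es _ _).aestronglyMeasurable)
    (fun h => Eventually.of_forall fun k => Eventually.of_forall fun z => hM _)
    (fun h => Eventually.of_forall fun z => Or.inr (tendsto_Es H.pos H.lim T.lip.continuous z))
    fun h => ?_
  exact ((hF h).integrable_mul (hK h)).bdd_mul (c := M) T.lip.continuous.aestronglyMeasurable
    (Eventually.of_forall fun z => by rw [Real.norm_eq_abs]; exact hM z)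

/-- terms with a derivative of the cut-off and a bounded coefficient `c` -/
theorem LD0.lim_grad [l.IsCountablyGenerated] (H : LD0 l D B a w φ Φ G) {χ : ℂ → ℝ} {C : NNReal}
    (T : Test D B χ C) {g : Fin 4 → ι → ℂ → ℝ} {F : Fin 4 → ℂ → ℝ}
    (hg : ∀ h k, AEStronglyMeasurable (g h k) (volume.restrict B))
    (hF : ∀ h, MemLp (F h) 2 (volume.restrict B))
    (hc : ∀ h, Tendsto (fun k => eLpNorm (fun z => g h k z - F h z) 2 (volume.restrict B)) l (𝓝 0))
    {c : Fin 4 → ι → ℂ → ℝ} {c0 M : ℝ} (hcm : ∀ h k, Measurable (c h k))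
    (hcb : ∀ h k z, |c h k z| ≤ M) (hcl : ∀ h, ∀ z ∈ D, Tendsto (fun k => c h k z) l (𝓝 c0)) :
    Tendsto (fun k => ∫ z in B, ∑ h, (dh (a k) χ h z * c h k z) * (E (a k) (φ k) h z * g h k z)) l
      (𝓝 (∫ z in B, ∑ h, (dχ χ h z * c0) * (Φ h z * F h z))) ∧
    (∀ᶠ k in l, Integrable (fun z => ∑ h, (dh (a k) χ h z * c h k z)
      * (E (a k) (φ k) h z * g h k z)) (volume.restrict B)) ∧
    Integrable (fun z => ∑ h, (dχ χ h z * c0) * (Φ h z * F h z)) (volume.restrict B) := by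
  refine prod_lim_sum (M := fun _ => C * M) Finset.univ
    (fun h k => (measurable_E _ _ _).aestronglyMeasurable) hg H.memΦ hF H.convΦ hc
    (fun h k => ((measurable_dh _ _ _).mul (hcm h k)).aestronglyMeasurable)
    (fun h => Eventually.of_forall fun k => Eventually.of_forall fun z => ?_)
    (fun h => ?_)
    fun h => ?_
  · rw [abs_mul]
    exact mul_le_mul (abs_dh_le (H.pos k) T.lip h z) (hcb h k z) (abs_nonneg _) C.2
  · filter_upwards [H.zero h] with z hz
    by_cases hzD : z ∈ D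
    · right
      exact (tendsto_dh H.pos H.lim (T.der z hzD) h).mul (hcl h z hzD)
    · left
      rw [hz hzD, zero_mul]
  · refine ((H.memΦ h).integrable_mul (hF h)).bdd_mul (c := C * |c0|)
      ((measurable_dχ χ h).mul_const c0).aestronglyMeasurable
      (Eventually.of_forall fun z => ?_)
    rw [Real.norm_eq_abs, abs_mul]
    exact mul_le_mul_of_nonneg_right (abs_dχ_le T.lip h z) (abs_nonneg _)

theorem w_sq_le {w : Fld} (hw : IsPlus w) (f : Face) (h : Fin 4) : w f h ^ 2 ≤ xc ^ 2 := by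
  rcases hw f h with h1 | h1
  · exact h1.le
  · rw [h1]; simpa using sq_nonneg xc

/-- `∫ = ∫_B` for functions vanishing off `B` -/
theorem int_B {F : ℂ → ℝ} (h : ∀ z, z ∉ B → F z = 0) : ∫ z, F z = ∫ z in B, F z :=
  (setIntegral_eq_integral_of_forall_compl_eq_zero h).symm

theorem LD0.mE (_ : LD0 l D B a w φ Φ G) (h : Fin 4) (k : ι) :
    AEStronglyMeasurable (E (a k) (φ k) h) (volume.restrict B) :=
  (measurable_E _ _ _).aestronglyMeasurable

theorem LD0.mG (_ : LD0 l D B a w φ Φ G) (h : Fin 4) (k : ι) :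
    AEStronglyMeasurable (E (a k) (src (a k) (w k) (φ k)) h) (volume.restrict B) :=
  (measurable_E _ _ _).aestronglyMeasurable

theorem measurable_A0c {f : Fin 4 → ℂ → ℝ} (hf : ∀ j, Measurable (f j)) (h : Fin 4) :
    Measurable (A0c f h) := by
  have : A0c f h = fun z => ∑ j, ac h j * f j z := funext fun z => A0_eq_sum _ _
  rw [this]
  fun_prop

/-- the right-hand side of `disc1` converges -/
theorem LD0.rhs1 [l.IsCountablyGenerated] (H : LD0 l D B a w φ Φ G) {χ : ℂ → ℝ} {C : NNReal}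
    (T : Test D B χ C) :
    Tendsto (fun k => ∫ z, (Es (a k) χ z * (2 * ∑ h, A0 (fun h => E (a k) (φ k) h z) h *
            E (a k) (src (a k) (w k) (φ k)) h z
          - a k * ∑ h, E (a k) (src (a k) (w k) (φ k)) h z ^ 2)
        + ∑ h, dh (a k) χ h z * (w k (meshIndex (a k) z) h ^ 2 * E (a k) (φ k) h z ^ 2))) l
      (𝓝 (2 * (∫ z in B, ∑ h, χ z * (A0c Φ h z * G h z))
        + ∫ z in B, ∑ h, (dχ χ h z * xc ^ 2) * (Φ h z * Φ h z))) := by
  obtain ⟨δ, hδ, hB⟩ := T.nbd
  obtain ⟨l1, i1, -⟩ := H.lim_src T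
    (fun h k => (measurable_A0c (fun j => measurable_E (a k) (φ k) j) h).aestronglyMeasurable)
    (memLp_A0c H.memΦ) (tendsto_A0c (fun k j => H.mE j k) H.memΦ H.convΦ) H.mG H.memG H.convG
  obtain ⟨l2, i2, -⟩ := H.lim_src T H.mG H.memG H.convG H.mG H.memG H.convG
  obtain ⟨l3, i3, -⟩ := H.lim_grad T (c := fun h k z => w k (meshIndex (a k) z) h ^ 2)
    (c0 := xc ^ 2) (M := xc ^ 2) H.mE H.memΦ H.convΦ
    (fun h k => (measurable_w _ _ _).pow_const 2)
    (fun h k z => by
      rw [abs_of_nonneg (sq_nonneg _)]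
      exact w_sq_le (H.plus k) _ _)
    (fun h z hz => tendsto_const_nhds.congr' (by
      filter_upwards [H.crit z hz] with k hk
      rw [hk h]))
  have lim := ((l1.const_mul 2).sub (H.lim.mul l2)).add l3
  rw [zero_mul, sub_zero] at lim
  refine lim.congr' ?_
  filter_upwards [H.small hδ, i1, i2, i3] with k hk j1 j2 j3
  rw [int_B (B := B), ← integral_const_mul, ← integral_const_mul, ← integral_sub, ← integral_add]
  · refine integral_congr_ae (Eventually.of_forall fun z => ?_)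
    simp only [A0c, Fin.sum_univ_four]
    ring
  · exact (j1.const_mul 2).sub (j2.const_mul (a k))
  · exact j3
  · exact j1.const_mul 2
  · exact j2.const_mul (a k)
  · intro z hz
    rw [Es_eq_zero (H.pos k) hk hB hz, zero_mul, zero_add]
    exact Finset.sum_eq_zero fun h _ => by rw [dh_eq_zero (H.pos k) hk hB hz, zero_mul]

/-- lattice left-hand side of the first law is nonnegative -/
theorem lhs1_nonneg {a : ℝ} (ha : 0 < a) {w φ : Fld} (hw : IsPlus w) {χ : ℂ → ℝ}
    (h0 : ∀ z, 0 ≤ χ z) (z : ℂ) :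
    0 ≤ a⁻¹ * (Es a χ z * (4 * Real.sqrt 2 * hv (fun h => E a φ h z)
        + ∑ h, (xc ^ 2 - w (meshIndex a z) h ^ 2) * E a φ h z ^ 2)) := by
  refine mul_nonneg (inv_nonneg.2 ha.le) (mul_nonneg (h0 _) (add_nonneg ?_ ?_))
  · exact mul_nonneg (by positivity) (hv_nonneg _)
  · exact Finset.sum_nonneg fun h _ => mul_nonneg (sub_nonneg.2 (w_sq_le hw _ _)) (sq_nonneg _)

/-- **first law** -/
theorem LD0.law1 [l.IsCountablyGenerated] [l.NeBot] (H : LD0 l D B a w φ Φ G) {χ : ℂ → ℝ}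
    {C : NNReal} (T : Test D B χ C) (h0 : ∀ z, 0 ≤ χ z) :
    0 ≤ 2 * (∫ z in B, ∑ h, χ z * (A0c Φ h z * G h z))
        + ∫ z in B, ∑ h, (dχ χ h z * xc ^ 2) * (Φ h z * Φ h z) := by
  refine ge_of_tendsto (H.rhs1 T) (Eventually.of_forall fun k => ?_)
  rw [← disc1 (H.pos k) (w k) (φ k) (H.sym k) T.cpt]
  exact integral_nonneg fun z => lhs1_nonneg (H.pos k) (H.plus k) h0 z

/-- **the limit is light** (weak form) -/
theorem LD0.heavy [l.IsCountablyGenerated] [l.NeBot] (H : LD0 l D B a w φ Φ G) {χ : ℂ → ℝ}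
    {C : NNReal} (T : Test D B χ C) (h0 : ∀ z, 0 ≤ χ z) :
    ∫ z in B, χ z * hv (fun h => Φ h z) = 0 := by
  obtain ⟨δ, hδ, hB⟩ := T.nbd
  obtain ⟨M, hM0, hM⟩ := T.bdd
  -- the quadratic form `hv` as a sum of products
  let c : Fin 4 → Fin 4 → ℝ :=
    ![![1 / 2, 1 / Real.sqrt 2, 0, 0], ![0, 1 / 2, 1 / Real.sqrt 2, 0],
      ![0, 0, 1 / 2, 1 / Real.sqrt 2], ![-1 / Real.sqrt 2, 0, 0, 1 / 2]]
  have hvq : ∀ p : Fin 4 → ℝ, hv p = ∑ i : Fin 4 × Fin 4, c i.1 i.2 * (p i.1 * p i.2) := by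
    intro p
    rw [Fintype.sum_prod_type]
    simp only [Fin.sum_univ_four, hv, nsq_eq, cyc, c, Matrix.cons_val]
    ring
  have hnn : ∀ k z, 0 ≤ Es (a k) χ z * hv (fun h => E (a k) (φ k) h z) := fun k z =>
    mul_nonneg (h0 _) (hv_nonneg _)
  obtain ⟨l1, i1, -⟩ := prod_lim_sum (l := l) (μ := volume.restrict B)
    (Finset.univ : Finset (Fin 4 × Fin 4))
    (f := fun i k => E (a k) (φ k) i.1) (g := fun i k => E (a k) (φ k) i.2)
    (F := fun i => Φ i.1) (G := fun i => Φ i.2)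
    (fun i k => H.mE _ _) (fun i k => H.mE _ _) (fun i => H.memΦ _) (fun i => H.memΦ _)
    (fun i => H.convΦ _) (fun i => H.convΦ _)
    (γ := fun i k z => c i.1 i.2 * Es (a k) χ z) (Γ := fun i z => c i.1 i.2 * χ z)
    (M := fun i => |c i.1 i.2| * M)
    (fun i k => ((measurable_Es _ _).const_mul _).aestronglyMeasurable)
    (fun i => Eventually.of_forall fun k => Eventually.of_forall fun z => by
      rw [abs_mul]; exact mul_le_mul_of_nonneg_left (hM _) (abs_nonneg _))
    (fun i => Eventually.of_forall fun z => Or.inr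
      ((tendsto_Es H.pos H.lim T.lip.continuous z).const_mul _))
    (fun i => ((H.memΦ i.1).integrable_mul (H.memΦ i.2)).bdd_mul (c := |c i.1 i.2| * M)
      (T.lip.continuous.const_mul _).aestronglyMeasurable
      (Eventually.of_forall fun z => by
        rw [Real.norm_eq_abs, abs_mul]
        exact mul_le_mul_of_nonneg_left (hM z) (abs_nonneg _)))
  have e1 : ∀ k, ∫ z in B, ∑ i : Fin 4 × Fin 4, c i.1 i.2 * Es (a k) χ z
      * (E (a k) (φ k) i.1 z * E (a k) (φ k) i.2 z)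
      = ∫ z in B, Es (a k) χ z * hv (fun h => E (a k) (φ k) h z) := by
    intro k
    refine integral_congr_ae (Eventually.of_forall fun z => ?_)
    simp only [hvq, Finset.mul_sum]
    exact Finset.sum_congr rfl fun i _ => by ring
  have e2 : ∫ z in B, ∑ i : Fin 4 × Fin 4, c i.1 i.2 * χ z * (Φ i.1 z * Φ i.2 z)
      = ∫ z in B, χ z * hv (fun h => Φ h z) := by
    refine integral_congr_ae (Eventually.of_forall fun z => ?_)
    simp only [hvq, Finset.mul_sum]
    exact Finset.sum_congr rfl fun i _ => by ring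
  simp only [e1, e2] at l1
  have l2 := H.lim.mul (H.rhs1 T)
  rw [zero_mul] at l2
  -- comparison
  refine le_antisymm ?_ ?_
  · have l3 : Tendsto (fun k => 4 * Real.sqrt 2 * ∫ z in B, Es (a k) χ z
        * hv (fun h => E (a k) (φ k) h z)) l
        (𝓝 (4 * Real.sqrt 2 * ∫ z in B, χ z * hv (fun h => Φ h z))) := l1.const_mul _
    have h4 : 4 * Real.sqrt 2 * ∫ z in B, χ z * hv (fun h => Φ h z) ≤ 0 := by
      refine le_of_tendsto_of_tendsto l3 l2 ?_
      filter_upwards [i1, H.small hδ] with k hk hδk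
      rw [← disc1 (H.pos k) (w k) (φ k) (H.sym k) T.cpt, ← integral_const_mul,
        ← integral_const_mul]
      have hz : ∀ z, z ∉ B → a k * ((a k)⁻¹ * (Es (a k) χ z * (4 * Real.sqrt 2 *
          hv (fun h => E (a k) (φ k) h z) + ∑ h, (xc ^ 2 - w k (meshIndex (a k) z) h ^ 2)
          * E (a k) (φ k) h z ^ 2))) = 0 := by
        intro z hz
        rw [Es_eq_zero (H.pos k) hδk hB hz]
        ring
      rw [int_B hz]
      have hK := exists_box (H.pos k) T.cpt
      obtain ⟨K, hK1, -⟩ := hK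
      refine integral_mono_of_nonneg (Eventually.of_forall fun z => ?_) ?_
        (Eventually.of_forall fun z => ?_)
      · exact mul_nonneg (by positivity) (hnn k z)
      · exact (integrable_mesh (H.pos k) K (fun f => a k * ((a k)⁻¹ * (χ (meshPoint (a k) f)
          * (4 * Real.sqrt 2 * hv (φ k f) + ∑ h, (xc ^ 2 - w k f h ^ 2) * φ k f h ^ 2))))
          (fun f hf => by rw [hK1 f hf]; ring)).integrableOn
      · have hak := (H.pos k).ne'
        simp only
        rw [← mul_assoc (a k), mul_inv_cancel₀ hak, one_mul, mul_add]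
        have : 0 ≤ Es (a k) χ z * ∑ h, (xc ^ 2 - w k (meshIndex (a k) z) h ^ 2)
            * E (a k) (φ k) h z ^ 2 :=
          mul_nonneg (h0 _) (Finset.sum_nonneg fun h _ =>
            mul_nonneg (sub_nonneg.2 (w_sq_le (H.plus k) _ _)) (sq_nonneg _))
        linarith
    have h5 : (0 : ℝ) < 4 * Real.sqrt 2 := by have := sq2_pos; positivity
    by_contra hlt
    push Not at hlt
    exact absurd h4 (not_le.2 (mul_pos h5 hlt))
  · exact ge_of_tendsto l1 (Eventually.of_forall fun k => integral_nonneg fun z => hnn k z)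

/-- **second law** -/
theorem LD0.law2 [l.IsCountablyGenerated] [l.NeBot] (H : LD0 l D B a w φ Φ G) {χ : ℂ → ℝ}
    {C : NNReal} (T : Test D B χ C) :
    ∫ z in B, ∑ h, dχ χ h z * (Φ h z * A0c Φ h z)
      = 2 * ∫ z in B, ∑ h, χ z * (Φ h z * G h z) := by
  obtain ⟨δ, hδ, hB⟩ := T.nbd
  obtain ⟨l1, i1, j1⟩ := H.lim_grad T (c := fun _ _ _ => (1 : ℝ)) (c0 := 1) (M := 1)
    (fun h k => (measurable_A0c (fun j => measurable_E (a k) (φ k) j) h).aestronglyMeasurable)
    (memLp_A0c H.memΦ) (tendsto_A0c (fun k j => H.mE j k) H.memΦ H.convΦ)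
    (fun _ _ => measurable_const) (fun _ _ _ => by simp) (fun _ _ _ => tendsto_const_nhds)
  obtain ⟨l2, i2, j2⟩ := H.lim_grad T (c := fun _ _ _ => (1 : ℝ)) (c0 := 1) (M := 1)
    H.mG H.memG H.convG
    (fun _ _ => measurable_const) (fun _ _ _ => by simp) (fun _ _ _ => tendsto_const_nhds)
  obtain ⟨l3, i3, j3⟩ := H.lim_src T H.mE H.memΦ H.convΦ H.mG H.memG H.convG
  have lim := l1.sub (H.lim.mul l2)
  rw [zero_mul, sub_zero] at lim
  have lim' := l3.const_mul 2
  have e : ∀ᶠ k in l, (∫ z in B, ∑ h, (dh (a k) χ h z * 1) * (E (a k) (φ k) h z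
        * A0c (E (a k) (φ k)) h z))
      - a k * ∫ z in B, ∑ h, (dh (a k) χ h z * 1) * (E (a k) (φ k) h z
        * E (a k) (src (a k) (w k) (φ k)) h z)
      = 2 * ∫ z in B, ∑ h, Es (a k) χ z * (E (a k) (φ k) h z
        * E (a k) (src (a k) (w k) (φ k)) h z) := by
    filter_upwards [i1, i2, H.small hδ] with k k1 k2 hk
    have hd := disc2 (H.pos k) (w k) (φ k) (H.sym k) T.cpt
    rw [int_B (B := B), int_B (B := B)] at hd
    · rw [← integral_const_mul, ← integral_sub k1 (k2.const_mul _), ← integral_const_mul]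
      have hd' := congrArg (fun x : ℝ => -x) hd
      simp only [← integral_neg] at hd'
      calc _ = ∫ z in B, -∑ h, dh (a k) χ h z * (E (a k) (φ k) h z * (a k *
            E (a k) (src (a k) (w k) (φ k)) h z - A0 (fun h => E (a k) (φ k) h z) h)) := by
            refine integral_congr_ae (Eventually.of_forall fun z => ?_)
            simp only [A0c, Fin.sum_univ_four]
            ring
        _ = _ := hd'
        _ = _ := by
            refine integral_congr_ae (Eventually.of_forall fun z => ?_)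
            simp only [Fin.sum_univ_four]
            ring
    · intro z hz
      rw [Es_eq_zero (H.pos k) hk hB hz]
      ring
    · intro z hz
      exact Finset.sum_eq_zero fun h _ => by rw [dh_eq_zero (H.pos k) hk hB hz, zero_mul]
  have := tendsto_nhds_unique (lim.congr' e) lim'
  simpa only [mul_one] using this

/-! ### the linear law -/

theorem meshIndex_meshPoint {a : ℝ} (ha : 0 < a) (f : Face) : meshIndex a (meshPoint a f) = f := by
  rw [← mem_cell, mem_cell_iff ha]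
  simp only [meshPoint]
  refine ⟨⟨le_rfl, ?_⟩, le_rfl, ?_⟩ <;> nlinarith

/-- discrete linear law against `χ e`, `e` light, where the weights are exactly critical -/
theorem disc0 {a : ℝ} (ha : 0 < a) (w φ : Fld) (hw : Sym w) {χ : ℂ → ℝ}
    (hc : HasCompactSupport χ) {e : Fin 4 → ℝ} (he : ∀ h, A0 e h + xc * sg h * e (op h) = 0)
    (hcr : ∀ z, (Es a χ z ≠ 0 ∨ ∃ h, dh a χ h z ≠ 0) → ∀ h, w (meshIndex a z) h = xc) :
    ∫ z, ∑ h, Es a χ z * (e h * E a (src a w φ) h z)
      = ∫ z, -xc * ∑ h, dh a χ h z * (sg h * e (op h) * E a φ h z) := by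
  obtain ⟨K, hK1, hK2⟩ := exists_box ha hc
  have hane := ha.ne'
  -- antisymmetry
  have hY : ∑ f ∈ K, ∑ h, χ (meshPoint a f) * (e h * Y w φ f h)
      = - ∑ f ∈ K, ∑ h, χ (meshPoint a (nb f h)) * (sg h * w f h * e (op h) * φ f h) := by
    have := sum_bar K (fun f h => χ (meshPoint a f) * (e h * Y w φ f h))
      (fun f hf h => by rw [hK1 f hf, zero_mul])
      (fun f hf h => by rw [hK2 f hf h, zero_mul])
    rw [← this, ← Finset.sum_neg_distrib]
    refine Finset.sum_congr rfl fun f _ => ?_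
    rw [← Finset.sum_neg_distrib]
    refine Finset.sum_congr rfl fun h _ => ?_
    unfold Y
    rw [hw f h, nb_nb_op, op_op, sg_op]
    ring
  have h0 : ∀ f, ∑ h, e h * A0 (φ f) h = - ∑ h, A0 e h * φ f h := by
    intro f
    simp only [Fin.sum_univ_four, A0_zero, A0_one, A0_two, A0_three]
    ring
  set F1 : Face → ℝ := fun f => ∑ h, χ (meshPoint a f) * (e h * src a w φ f h) with hF1
  set F2 : Face → ℝ := fun f => -xc * ∑ h, a⁻¹ * (χ (meshPoint a (nb f h)) - χ (meshPoint a f))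
    * (sg h * e (op h) * φ f h) with hF2
  have i1 := integral_mesh ha K F1 (fun f hf => by simp [hF1, hK1 f hf])
  have i2 := integral_mesh ha K F2 (fun f hf => by simp [hF2, hK1 f hf, hK2 f hf])
  have e1 : ∀ z, ∑ h, Es a χ z * (e h * E a (src a w φ) h z) = F1 (meshIndex a z) := fun z => rfl
  have e2 : ∀ z, -xc * ∑ h, dh a χ h z * (sg h * e (op h) * E a φ h z)
      = F2 (meshIndex a z) := by
    intro z
    simp only [dh_eq, hF2]
    rfl
  simp_rw [e1, e2]
  rw [i1, i2]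
  congr 1
  have s1 : ∀ f, F1 f = a⁻¹ * (∑ h, χ (meshPoint a f) * (e h * Y w φ f h)
      - ∑ h, χ (meshPoint a f) * (A0 e h * φ f h)) := by
    intro f
    have := h0 f
    simp only [hF1, src, A]
    simp only [Fin.sum_univ_four] at this ⊢
    linear_combination (a⁻¹ * χ (meshPoint a f)) * this
  simp_rw [s1]
  rw [← Finset.mul_sum, Finset.sum_sub_distrib, hY, ← Finset.sum_neg_distrib,
    ← Finset.sum_sub_distrib, Finset.mul_sum]
  refine Finset.sum_congr rfl fun f _ => ?_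
  -- one face
  have hcrf : ∀ h, (χ (meshPoint a (nb f h)) ≠ 0 ∨ χ (meshPoint a f) ≠ 0) → w f h = xc := by
    intro h hne
    have hm : meshIndex a (meshPoint a f) = f := meshIndex_meshPoint ha f
    have := hcr (meshPoint a f) ?_ h
    · rwa [hm] at this
    · rw [Es, hm]
      by_cases h1 : χ (meshPoint a f) = 0
      · right
        refine ⟨h, ?_⟩
        rw [dh_eq, hm, h1, sub_zero]
        exact mul_ne_zero (inv_ne_zero hane) (hne.resolve_right (by simpa using h1))
      · exact Or.inl h1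
  simp only [hF2]
  have hterm : ∀ h, -(χ (meshPoint a (nb f h)) * (sg h * w f h * e (op h) * φ f h))
      - χ (meshPoint a f) * (A0 e h * φ f h)
      = -xc * ((χ (meshPoint a (nb f h)) - χ (meshPoint a f)) * (sg h * e (op h) * φ f h)) := by
    intro h
    by_cases h1 : χ (meshPoint a (nb f h)) ≠ 0 ∨ χ (meshPoint a f) ≠ 0
    · rw [hcrf h h1]
      linear_combination (-(χ (meshPoint a f)) * φ f h) * he h
    · push Not at h1
      rw [h1.1, h1.2]
      ring
  have hs : -∑ h, χ (meshPoint a (nb f h)) * (sg h * w f h * e (op h) * φ f h)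
      - ∑ h, χ (meshPoint a f) * (A0 e h * φ f h)
      = ∑ h, (-xc * ((χ (meshPoint a (nb f h)) - χ (meshPoint a f))
        * (sg h * e (op h) * φ f h))) := by
    rw [← Finset.sum_neg_distrib, ← Finset.sum_sub_distrib]
    exact Finset.sum_congr rfl fun h _ => hterm h
  rw [hs, Finset.mul_sum, Finset.mul_sum]
  refine Finset.sum_congr rfl fun h _ => ?_
  ring

/-- **linear law** -/
theorem LD0.law0 [l.IsCountablyGenerated] [l.NeBot] (H : LD0 l D B a w φ Φ G) {χ : ℂ → ℝ}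
    {C : NNReal} (T : Test D B χ C) (hBf : volume B ≠ ⊤)
    (hcr : ∀ᶠ k in l, ∀ z ∈ B, ∀ h, w k (meshIndex (a k) z) h = xc)
    {e : Fin 4 → ℝ} (he : ∀ h, A0 e h + xc * sg h * e (op h) = 0) :
    ∫ z in B, ∑ h, χ z * (e h * G h z)
      = -xc * ∫ z in B, ∑ h, dχ χ h z * (Φ h z * (sg h * e (op h))) := by
  obtain ⟨δ, hδ, hB⟩ := T.nbd
  have : IsFiniteMeasure (volume.restrict B) := ⟨by
    rw [Measure.restrict_apply_univ]; exact lt_top_iff_ne_top.2 hBf⟩
  have hz : ∀ c : ℝ, Tendsto (fun _ : ι => eLpNorm (fun _ : ℂ => c - c) 2 (volume.restrict B)) l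
      (𝓝 0) := by
    intro c
    simp
  obtain ⟨l1, i1, j1⟩ := H.lim_src T (f := fun h _ _ => e h) (F := fun h _ => e h)
    (fun h k => aestronglyMeasurable_const) (fun h => memLp_const _) (fun h => hz _)
    H.mG H.memG H.convG
  obtain ⟨l2, i2, j2⟩ := H.lim_grad T (c := fun _ _ _ => (1 : ℝ)) (c0 := 1) (M := 1)
    (g := fun h _ _ => sg h * e (op h)) (F := fun h _ => sg h * e (op h))
    (fun h k => aestronglyMeasurable_const) (fun h => memLp_const _) (fun h => hz _)
    (fun _ _ => measurable_const) (fun _ _ _ => by simp) (fun _ _ _ => tendsto_const_nhds)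
  have lim' := l2.const_mul (-xc)
  have ee : ∀ᶠ k in l, ∫ z in B, ∑ h, Es (a k) χ z
        * (e h * E (a k) (src (a k) (w k) (φ k)) h z)
      = -xc * ∫ z in B, ∑ h, (dh (a k) χ h z * 1) * (E (a k) (φ k) h z * (sg h * e (op h))) := by
    filter_upwards [hcr, H.small hδ] with k hck hk
    have hd := disc0 (H.pos k) (w k) (φ k) (H.sym k) T.cpt he (fun z hz => hck z (by
      by_contra hzB
      rcases hz with hz | ⟨h, hz⟩
      · exact hz (Es_eq_zero (H.pos k) hk hB hzB)
      · exact hz (dh_eq_zero (H.pos k) hk hB hzB h)))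
    rw [int_B (B := B), int_B (B := B)] at hd
    · rw [hd, ← integral_const_mul]
      refine integral_congr_ae (Eventually.of_forall fun z => ?_)
      simp only [Fin.sum_univ_four]
      ring
    · intro z hz
      rw [Finset.sum_eq_zero fun h _ => by rw [dh_eq_zero (H.pos k) hk hB hz, zero_mul], mul_zero]
    · intro z hz
      exact Finset.sum_eq_zero fun h _ => by rw [Es_eq_zero (H.pos k) hk hB hz, zero_mul]
  have := tendsto_nhds_unique (l1.congr' ee) lim'
  simpa only [mul_one] using this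

/-! ### changing the data -/

theorem LD0.mono (H : LD0 l D B a w φ Φ G) {B' : Set ℂ} (hB : B' ⊆ B) (hm : MeasurableSet B') :
    LD0 l D B' a w φ Φ G where
  pos := H.pos
  lim := H.lim
  sym := H.sym
  plus := H.plus
  opn := H.opn
  meas := hm
  memΦ h := (H.memΦ h).mono_measure (Measure.restrict_mono hB le_rfl)
  memG h := (H.memG h).mono_measure (Measure.restrict_mono hB le_rfl)
  zero h := ae_mono (Measure.restrict_mono hB le_rfl) (H.zero h)
  crit := H.crit
  convΦ h := tendsto_of_tendsto_of_tendsto_of_le_of_le tendsto_const_nhds (H.convΦ h)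
    (fun _ => bot_le) fun _ => eLpNorm_mono_measure _ (Measure.restrict_mono hB le_rfl)
  convG h := tendsto_of_tendsto_of_tendsto_of_le_of_le tendsto_const_nhds (H.convG h)
    (fun _ => bot_le) fun _ => eLpNorm_mono_measure _ (Measure.restrict_mono hB le_rfl)

/-- data along a general filter -/
structure LD {ι : Type*} (l : Filter ι) (D B : Set ℂ) (a : ι → ℝ) (w φ : ι → Fld)
    (Φ G : Fin 4 → ℂ → ℝ) : Prop where
  pos : ∀ k, 0 < a k
  lim : Tendsto a l (𝓝 0)
  sym : ∀ k, Sym (w k)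
  plus : ∀ k, IsPlus (w k)
  opn : IsOpen D
  meas : MeasurableSet B
  memΦ : ∀ h, MemLp (Φ h) 2 (volume.restrict B)
  memG : ∀ h, MemLp (G h) 2 (volume.restrict B)
  zero : ∀ h, ∀ᵐ z ∂(volume.restrict B), z ∉ D → Φ h z = 0
  crit : ∀ K : Set ℂ, IsCompact K → K ⊆ D →
    ∀ᶠ k in l, ∀ z ∈ K, ∀ h, w k (meshIndex (a k) z) h ^ 2 = xc ^ 2
  convΦ : ∀ h, Tendsto (fun k => eLpNorm (fun z => E (a k) (φ k) h z - Φ h z) 2
    (volume.restrict B)) l (𝓝 0)
  convG : ∀ h, Tendsto (fun k => eLpNorm (fun z => E (a k) (src (a k) (w k) (φ k)) h z - G h z) 2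
    (volume.restrict B)) l (𝓝 0)

/-- an open set of the plane is a countable union of compact sets -/
theorem exists_compacts (hD : IsOpen D) : ∃ K : ℕ → Set ℂ, (∀ n, IsCompact (K n)) ∧
    (∀ n, K n ⊆ D) ∧ ∀ z ∈ D, ∃ n, z ∈ K n := by
  have : LocallyCompactSpace D := hD.locallyCompactSpace
  refine ⟨fun n => ((↑) : D → ℂ) '' compactCovering D n,
    fun n => (isCompact_compactCovering D n).image continuous_subtype_val,
    fun n => Subtype.coe_image_subset _ _, fun z hz => ?_⟩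
  obtain ⟨n, hn⟩ := exists_mem_compactCovering (⟨z, hz⟩ : D)
  exact ⟨n, ⟨z, hz⟩, hn, rfl⟩

/-- a countably generated filter which is coarser than `l` and still carries the data; extra
conditions `P n` may be carried along -/
theorem LD.reduce {l : Filter ι} (H : LD l D B a w φ Φ G) (P : Set ι) (hP : P ∈ l) :
    ∃ V : Filter ι, V.IsCountablyGenerated ∧ l ≤ V ∧ P ∈ V ∧ LD0 V D B a w φ Φ G := by
  obtain ⟨K, hK1, hK2, hK3⟩ := exists_compacts H.opn
  let V : Filter ι := comap a (𝓝 0) ⊓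
    (⨅ h, comap (fun k => eLpNorm (fun z => E (a k) (φ k) h z - Φ h z) 2
      (volume.restrict B)) (𝓝 0)) ⊓
    (⨅ h, comap (fun k => eLpNorm (fun z => E (a k) (src (a k) (w k) (φ k)) h z - G h z) 2
      (volume.restrict B)) (𝓝 0)) ⊓
    (⨅ n : ℕ, 𝓟 {k | ∀ z ∈ K n, ∀ h, w k (meshIndex (a k) z) h ^ 2 = xc ^ 2}) ⊓ 𝓟 P
  refine ⟨V, ?_, ?_, ?_, ?_⟩
  · infer_instance
  · refine le_inf (le_inf (le_inf (le_inf ?_ ?_) ?_) ?_) ?_
    · exact H.lim.le_comap
    · exact le_iInf fun h => (H.convΦ h).le_comap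
    · exact le_iInf fun h => (H.convG h).le_comap
    · exact le_iInf fun n => le_principal_iff.2 (H.crit (K n) (hK1 n) (hK2 n))
    · exact le_principal_iff.2 hP
  · exact mem_inf_of_right (mem_principal_self P)
  · refine ⟨H.pos, ?_, H.sym, H.plus, H.opn, H.meas, H.memΦ, H.memG, H.zero, ?_, ?_, ?_⟩
    · exact tendsto_comap.mono_left
        (inf_le_left.trans (inf_le_left.trans (inf_le_left.trans inf_le_left)))
    · intro z hz
      obtain ⟨n, hn⟩ := hK3 z hz
      have : V ≤ 𝓟 {k | ∀ z ∈ K n, ∀ h, w k (meshIndex (a k) z) h ^ 2 = xc ^ 2} :=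
        inf_le_left.trans (inf_le_right.trans (iInf_le _ n))
      exact Filter.mem_of_superset (this (mem_principal_self _)) fun k hk => hk z hn
    · intro h
      exact tendsto_comap.mono_left (inf_le_left.trans (inf_le_left.trans (inf_le_left.trans
        (inf_le_right.trans (iInf_le _ h)))))
    · intro h
      exact tendsto_comap.mono_left (inf_le_left.trans (inf_le_left.trans
        (inf_le_right.trans (iInf_le _ h))))

theorem LD.mono {l : Filter ι} (H : LD l D B a w φ Φ G) {B' : Set ℂ} (hB : B' ⊆ B)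
    (hm : MeasurableSet B') : LD l D B' a w φ Φ G where
  pos := H.pos
  lim := H.lim
  sym := H.sym
  plus := H.plus
  opn := H.opn
  meas := hm
  memΦ h := (H.memΦ h).mono_measure (Measure.restrict_mono hB le_rfl)
  memG h := (H.memG h).mono_measure (Measure.restrict_mono hB le_rfl)
  zero h := ae_mono (Measure.restrict_mono hB le_rfl) (H.zero h)
  crit := H.crit
  convΦ h := tendsto_of_tendsto_of_tendsto_of_le_of_le tendsto_const_nhds (H.convΦ h)
    (fun _ => bot_le) fun _ => eLpNorm_mono_measure _ (Measure.restrict_mono hB le_rfl)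
  convG h := tendsto_of_tendsto_of_tendsto_of_le_of_le tendsto_const_nhds (H.convG h)
    (fun _ => bot_le) fun _ => eLpNorm_mono_measure _ (Measure.restrict_mono hB le_rfl)

/-- restriction to a finer filter -/
theorem LD.le {l l' : Filter ι} (H : LD l D B a w φ Φ G) (h : l' ≤ l) :
    LD l' D B a w φ Φ G :=
  { H with
    lim := H.lim.mono_left h
    crit := fun K hK hKD => h (H.crit K hK hKD)
    convΦ := fun i => (H.convΦ i).mono_left h
    convG := fun i => (H.convG i).mono_left h }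

/-! ### the laws for general filters -/

theorem LD.law1 {l : Filter ι} [l.NeBot] (H : LD l D B a w φ Φ G) {χ : ℂ → ℝ}
    {C : NNReal} (T : Test D B χ C) (h0 : ∀ z, 0 ≤ χ z) :
    0 ≤ 2 * (∫ z in B, ∑ h, χ z * (A0c Φ h z * G h z))
        + ∫ z in B, ∑ h, (dχ χ h z * xc ^ 2) * (Φ h z * Φ h z) := by
  obtain ⟨V, hV, hl, -, H'⟩ := H.reduce univ univ_mem
  have := hV
  have : V.NeBot := NeBot.mono inferInstance hl
  exact H'.law1 T h0

theorem LD.heavy {l : Filter ι} [l.NeBot] (H : LD l D B a w φ Φ G) {χ : ℂ → ℝ}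
    {C : NNReal} (T : Test D B χ C) (h0 : ∀ z, 0 ≤ χ z) :
    ∫ z in B, χ z * hv (fun h => Φ h z) = 0 := by
  obtain ⟨V, hV, hl, -, H'⟩ := H.reduce univ univ_mem
  have := hV
  have : V.NeBot := NeBot.mono inferInstance hl
  exact H'.heavy T h0

theorem LD.law2 {l : Filter ι} [l.NeBot] (H : LD l D B a w φ Φ G) {χ : ℂ → ℝ}
    {C : NNReal} (T : Test D B χ C) :
    ∫ z in B, ∑ h, dχ χ h z * (Φ h z * A0c Φ h z)
      = 2 * ∫ z in B, ∑ h, χ z * (Φ h z * G h z) := by
  obtain ⟨V, hV, hl, -, H'⟩ := H.reduce univ univ_mem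
  have := hV
  have : V.NeBot := NeBot.mono inferInstance hl
  exact H'.law2 T

theorem LD.law0 {l : Filter ι} [l.NeBot] (H : LD l D B a w φ Φ G) {χ : ℂ → ℝ}
    {C : NNReal} (T : Test D B χ C) (hBf : volume B ≠ ⊤)
    (hcr : ∀ᶠ k in l, ∀ z ∈ B, ∀ h, w k (meshIndex (a k) z) h = xc)
    {e : Fin 4 → ℝ} (he : ∀ h, A0 e h + xc * sg h * e (op h) = 0) :
    ∫ z in B, ∑ h, χ z * (e h * G h z)
      = -xc * ∫ z in B, ∑ h, dχ χ h z * (Φ h z * (sg h * e (op h))) := by
  obtain ⟨V, hV, hl, hP, H'⟩ := H.reduce _ hcr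
  have := hV
  have : V.NeBot := NeBot.mono inferInstance hl
  exact H'.law0 T hBf hP he

end Crest.Agent.R165.LimRx610
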