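import Mathlib
import Crest.Agent.R165.GeoDefs_416

/-!
# Row 165 (S0250), block U3 (helper719): continuum spinors, INTERFACE

Normalisation: `F = e^{-iπ/4} c` (up to a positive factor), `c` = light amplitude of TEXT R-SQ;
`dH = Im (F² dz)`, `H = -H^face` extended by `0` is subharmonic, in the weak sense
`∫_D ∇χ·∇H = ∫_D Im (F² (χ_x + i χ_y)) ≤ 0` for `χ ≥ 0`.

* `rX x z = ∏ (x_j - z)^{1/2}`, cuts = horizontal rays to the right of the `x_j`;
* `db χ = χ_x + i χ_y`;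
* `IsSpin D x K F`: `F` is a spinor on `D` branched at the `x_j`, square integrable off `K`, with the two
  weak relations tested against `χ` Lipschitz, compactly supported off `K`, `C¹` in `D`;
* `Uniq` : uniqueness;
* `IsBr`, `Ai` : source at a branch point, logarithmic derivative;
* `IsKer`, `kerB`, `kerR` : source in the bulk and the two real bilinear forms.
-/

set_option autoImplicit false

open Complex Set Metric Filter Topology MeasureTheory
open scoped ComplexConjugate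

namespace Crest.Agent.R165.U3x719

variable {n : ℕ}

/-- `∏ (x_j - z)` -/
noncomputable def PX (x : Fin n → ℂ) (z : ℂ) : ℂ := ∏ j, (x j - z)

/-- `∏_{i ≠ j} (x_i - x_j)` -/
noncomputable def wX (x : Fin n → ℂ) (j : Fin n) : ℂ := ∏ i ∈ Finset.univ.erase j, (x i - x j)

/-- `∏ (x_j - z)^{1/2}`, cuts = rays to the right; on a ray: the value from below -/
noncomputable def rX (x : Fin n → ℂ) (z : ℂ) : ℂ := ∏ j, (x j - z) ^ (1 / 2 : ℂ)

/-- the same seen from above the rays -/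
noncomputable def rXa (x : Fin n → ℂ) (z : ℂ) : ℂ := by
  classical exact
  (∏ j, if (x j).im = z.im ∧ (x j).re < z.re then (-1 : ℂ) else 1) * rX x z

/-- `χ_x + i χ_y` -/
noncomputable def db (χ : ℂ → ℝ) (z : ℂ) : ℂ := (fderiv ℝ χ z 1 : ℂ) + I * (fderiv ℝ χ z I : ℂ)

/-- spinor on `D`, branched at the `x_j`, with sources in `K` -/
structure IsSpin (D : Set ℂ) (x : Fin n → ℂ) (K : Set ℂ) (F : ℂ → ℂ) : Prop where
  /-- square integrable away from `K` -/
  l2 : ∀ U : Set ℂ, IsOpen U → K ⊆ U → MemLp F 2 (volume.restrict (D \ U))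
  /-- `F rX` is holomorphic off `x`, `K` -/
  holo : ∃ g : ℂ → ℂ, DifferentiableOn ℂ g (D \ (range x ∪ K)) ∧
    ∀ᵐ z ∂volume.restrict (D \ K), F z * rX x z = g z
  /-- weak relation 1 -/
  curl : ∀ χ : ℂ → ℝ, (∃ C, LipschitzWith C χ) → HasCompactSupport χ → ContDiffOn ℝ 1 χ D →
    Disjoint (tsupport χ) K → ∫ z in D, (F z ^ 2 * db χ z).re = 0
  /-- weak relation 2 -/
  div : ∀ χ : ℂ → ℝ, (∃ C, LipschitzWith C χ) → HasCompactSupport χ → ContDiffOn ℝ 1 χ D →
    Disjoint (tsupport χ) K → (∀ z, 0 ≤ χ z) → ∫ z in D, (F z ^ 2 * db χ z).im ≤ 0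

/-- **UNIQUENESS** (U3). For a bulk source take `K = {y}`, `y ∉ range x` (last hypothesis void);
for a source at the branch point `x_i` take `K = {x i}` and e.g. `d (x i) = 0`. -/
def Uniq : Prop :=
  ∀ (D : Set ℂ) (r M : ℝ), Geo.CD D r M → ∀ (n : ℕ) (x : Fin n → ℂ), Function.Injective x →
    (∀ i, x i ∈ D) → ∀ K : Set ℂ, K.Finite → K ⊆ D → ∀ F₁ F₂ : ℂ → ℂ,
    IsSpin D x K F₁ → IsSpin D x K F₂ →
    MemLp (fun z => F₁ z - F₂ z) 2 (volume.restrict D) →
    ∀ d : ℂ → ℂ, (∀ᵐ z ∂volume.restrict D, (F₁ z - F₂ z) * rX x z = d z) →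
    (∀ j, x j ∈ K → ContinuousAt d (x j) ∧ ∃ k : ℝ, 0 ≤ k ∧ d (x j) ^ 2 / wX x j = -I * k) →
    F₁ =ᵐ[volume.restrict D] F₂

/-- source at the branch point `x_i`; `F = g / rX`, residue of `F²` at `x_i` equal to `-i`,
that is `F ~ e^{-iπ/4} (z - x_i)^{-1/2} (1 + 2 A (z - x_i) + ..)` -/
structure IsBr (D : Set ℂ) (x : Fin n → ℂ) (i : Fin n) (g : ℂ → ℂ) : Prop where
  holo : DifferentiableOn ℂ g D
  spin : IsSpin D x {x i} (fun z => g z / rX x z)
  src : g (x i) ^ 2 = I * wX x i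

/-- the coefficient `A_i`: `F² = -i (1/(z - x_i) + 4 A_i + ..)` -/
noncomputable def Ai (x : Fin n → ℂ) (i : Fin n) (g : ℂ → ℂ) : ℂ :=
  (1 / 4) * deriv (fun z => -I * g z ^ 2 / ∏ j ∈ Finset.univ.erase i, (x j - z)) (x i)

/-- source of residue `η` (for `g = F rX`) in the bulk -/
structure IsKer (D : Set ℂ) (x : Fin n → ℂ) (y η : ℂ) (g : ℂ → ℂ) : Prop where
  spin : IsSpin D x {y} (fun z => g z / rX x z)
  pole : ∃ h : ℂ → ℂ, DifferentiableOn ℂ h D ∧ ∀ z ∈ D, z ≠ y → g z = η / (z - y) + h z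

/-- `e^{iπ/4}` -/
noncomputable def e8 : ℂ := Complex.exp (Real.pi / 4 * I)

/-- normalised residue of a bulk source `c'` at `y` (gauge of `420`: seen from above the rays):
`F ~ e^{iπ/4} c' / (z - y)` -/
noncomputable def src (x : Fin n → ℂ) (y c : ℂ) : ℂ := rXa x y * e8 * c

/-- the kernel: `Re (c e^{iπ/4} F_{y,c'}(z))`; in the plane `Re (i c c' / (z - y))` -/
noncomputable def kerB (x : Fin n → ℂ) (g : ℂ → ℂ → ℂ → ℂ) (z y c c' : ℂ) : ℝ :=
  (c * e8 * (g y c' z / rXa x z)).re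

/-- the regular part of the kernel at `y`, `g y c' z = η/(z-y) + h z`, `R = (h y - η Σ 1/(2(y-x_j))) / rXa` -/
noncomputable def kerR (x : Fin n → ℂ) (g : ℂ → ℂ → ℂ → ℂ) (y c c' : ℂ) : ℝ :=
  (c * e8 * ((limUnder (𝓝[≠] y) (fun z => g y c' z - src x y c' / (z - y))) -
    src x y c' * ∑ j, 1 / (2 * (y - x j))) / rXa x y).re

end Crest.Agent.R165.U3x719
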