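import Crest.Agent.R165.Mac0_622
import Crest.Agent.R165.U3Spin_719

/-!
# Row 165 (S0250), U4/MAC, M3: INTERFACE (helper610)

Sequences `A (w k) (φ k) = a k * g k` with sources `g k` in a compact `K ⊆ Om D x`, on plus
backgrounds `LatSeq D x a w V` (helper622).

* `Srcs`     : the sequence of equations;
* `Bdd`, `NCo` : a priori bound and no concentration [helper917];
* `CompLim`  : strong limit along a filter, holomorphic off `K` [helper943, helper917];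
* `Comp`     : the compactness theorem = input of the identification [helper610];
* `ResConv'` : convergence of the resolvents = output, consumed by helper622.
-/

set_option autoImplicit false

noncomputable section

open MeasureTheory Filter Topology Set Metric
open Crest.ProbabilityR.IsingModel
open Crest.Agent.R165.Tr1x40 Crest.Agent.R165.RIfx891 Crest.Agent.R165.Embx622
open Crest.Agent.R165.Mac0x622

namespace Crest.Agent.R165.MacIx610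

/-- sources `g k → G` in `K`, solutions `φ k` finitely supported -/
structure Srcs (K : Set ℂ) (G : ℂ → Fin 4 → ℝ) (a : ℕ → ℝ) (w g φ : ℕ → Fld) : Prop where
  supp : ∀ k f, meshPoint (a k) f ∉ K → ∀ h, g k f h = 0
  conv : ∀ h, Tendsto (fun k => ∫⁻ z, ENNReal.ofReal
    ((emb (a k) (fun f => g k f h) z - G z h) ^ 2)) atTop (𝓝 0)
  fin : ∀ k, ∃ S : Finset Face, ∀ f, f ∉ S → φ k f = 0
  eqn : ∀ k f h, A (w k) (φ k) f h = a k * g k f h

/-- a priori bound: `a² |φ|² ≤ C` -/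
def Bdd (a : ℕ → ℝ) (φ : ℕ → Fld) : Prop :=
  ∃ C : ℝ, ∀ᶠ k in atTop, ∀ S : Finset Face, a k ^ 2 * ∑ f ∈ S, nsq (φ k f) ≤ C

/-- no concentration at `∂D`, at the branch points and at infinity -/
def NCo (O : Set ℂ) (a : ℕ → ℝ) (φ : ℕ → Fld) : Prop :=
  ∀ η : ℝ, 0 < η → ∃ L : Set ℂ, IsCompact L ∧ L ⊆ O ∧ ∀ᶠ k in atTop, ∀ S : Finset Face,
    (∀ f ∈ S, meshPoint (a k) f ∉ L) → a k ^ 2 * ∑ f ∈ S, nsq (φ k f) ≤ η

/-- [917] -/
def BddNC (D : Set ℂ) : Prop :=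
  ∀ (n : ℕ) (x : Fin n → ℂ), (∀ i, x i ∈ D) →
  ∀ K : Set ℂ, IsCompact K → K ⊆ Om D x → ∀ G : ℂ → Fin 4 → ℝ, (∀ h, MemLp (fun z => G z h) 2) →
  ∀ (a : ℕ → ℝ) (w : ℕ → Fld) (V : ℕ → Fin n → Face), LatSeq D x a w V →
  ∀ g φ : ℕ → Fld, Srcs K G a w g φ → Bdd a φ ∧ NCo (Om D x) a φ

/-- strong `L²` limit along `U`: light field of amplitude `F`, holomorphic off `K` -/
structure CompLim (D : Set ℂ) {n : ℕ} (x : Fin n → ℂ) (K : Set ℂ) (U : Filter ℕ) (a : ℕ → ℝ)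
    (φ : ℕ → Fld) (F : ℂ → ℂ) : Prop where
  l2 : MemLp F 2
  zero : ∀ z, z ∉ D → F z = 0
  conv : ∀ h, Tendsto (fun k => ∫⁻ z, ENNReal.ofReal
    ((emb (a k) (fun f => φ k f h) z - lv (F z) h) ^ 2)) U (𝓝 0)
  hol : ∃ gg : ℂ → ℂ, DifferentiableOn ℂ gg (Om D x \ K) ∧
    ∀ z ∈ Om D x \ K, F z * U3x719.rX x z = gg z

/-- [943 + 917]: compactness, along every ultrafilter -/
def Comp (D : Set ℂ) : Prop :=
  ∀ (n : ℕ) (x : Fin n → ℂ), (∀ i, x i ∈ D) →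
  ∀ K : Set ℂ, IsCompact K → K ⊆ Om D x → ∀ G : ℂ → Fin 4 → ℝ, (∀ h, MemLp (fun z => G z h) 2) →
  ∀ (a : ℕ → ℝ) (w : ℕ → Fld) (V : ℕ → Fin n → Face), LatSeq D x a w V →
  ∀ g φ : ℕ → Fld, Srcs K G a w g φ →
  ∀ U : Ultrafilter ℕ, (U : Filter ℕ) ≤ atTop → ∃ F : ℂ → ℂ, CompLim D x K U a φ F

/-- uniqueness for `L²` sources [719]: `K` compact, `d` holomorphic off `range x` -/
def UniqL2 (D : Set ℂ) : Prop :=
  ∀ (n : ℕ) (x : Fin n → ℂ), Function.Injective x → (∀ i, x i ∈ D) →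
  ∀ K : Set ℂ, IsCompact K → K ⊆ Om D x → ∀ F₁ F₂ : ℂ → ℂ,
    MemLp F₁ 2 (volume.restrict D) → MemLp F₂ 2 (volume.restrict D) →
    U3x719.IsSpin D x K F₁ → U3x719.IsSpin D x K F₂ →
    ∀ d : ℂ → ℂ, DifferentiableOn ℂ d (Om D x) →
    (∀ᵐ z ∂volume.restrict D, (F₁ z - F₂ z) * U3x719.rX x z = d z) →
    F₁ =ᵐ[volume.restrict D] F₂

/-- convergence of the resolvents (output of M3) -/
def ResConv' (D : Set ℂ) {n : ℕ} (x : Fin n → ℂ) : Prop :=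
  ∀ K : Set ℂ, IsCompact K → K ⊆ Om D x → ∀ G : ℂ → Fin 4 → ℝ, (∀ h, MemLp (fun z => G z h) 2) →
  ∃ F : ℂ → ℂ, (MemLp F 2 ∧ U3x719.IsSpin D x K (fun z => Complex.exp (-(Real.pi / 4 * Complex.I))
      * F z)) ∧
    (∃ gg : ℂ → ℂ, DifferentiableOn ℂ gg (Om D x \ K) ∧
      ∀ z ∈ Om D x \ K, F z * U3x719.rX x z = gg z) ∧
    ∀ (a : ℕ → ℝ) (w : ℕ → Fld) (V : ℕ → Fin n → Face), LatSeq D x a w V →
    ∀ g φ : ℕ → Fld, Srcs K G a w g φ → ∀ h, Tendsto (fun k => ∫⁻ z, ENNReal.ofReal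
      ((emb (a k) (fun f => φ k f h) z - lv (F z) h) ^ 2)) atTop (𝓝 0)

end Crest.Agent.R165.MacIx610
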