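import Crest.Agent.R165.LimR_610
import Crest.Agent.R165.MacI_610

/-!
# Row 165, blocks R / U4 (helper610): the limit laws for light fields

`Φ h z = lv (F z) h` (amplitude `F`, components `Re (F e^{-3 i θ_h / 2})`).

* `LD.curl` : `∫ (∂₁χ Im F² + ∂₂χ Re F²) = 0`, `LD.div` : `0 ≤ ∫ (∂₁χ Re F² - ∂₂χ Im F²)` for
  `0 ≤ χ`, where the sources vanish on the support of `χ`;
* `LD.hol` : linear law, `∫ χ ⟨lv f, G⟩ = x_c ∫ Im (f F (∂₁χ + i ∂₂χ))`;
* `CompLim.isSpin` : the limit of `CompLim` is a spinor in the sense of helper719.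
-/

set_option autoImplicit false

noncomputable section

open MeasureTheory Filter Topology Set
open Crest.ProbabilityR.IsingModel
open Crest.Agent.R165.Tr1x40 Crest.Agent.R165.LimAx610 Crest.Agent.R165.LimQx610
open Crest.Agent.R165.LimRx610 Crest.Agent.R165.RIfx891 Crest.Agent.R165.Embx622
open Crest.Agent.R165.Mac0x622 Crest.Agent.R165.MacIx610
open scoped ENNReal

namespace Crest.Agent.R165.LimSx610

/-! ### algebra of light vectors -/

theorem A0_lv (c : ℂ) (h : Fin 4) : A0 (lv c) h = -(xc * sg h * lv c (op h)) := by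
  have h2 := sq2
  fin_cases h <;>
    simp only [A0, lv, xc, div_sq2, sg, op]
  · linear_combination (1/2 * (c.im - c.re)) * h2
  · ring
  · linear_combination (1/2 * (c.im + c.re)) * h2
  · ring

theorem light_lv (c : ℂ) (h : Fin 4) : A0 (lv c) h + xc * sg h * lv c (op h) = 0 := by
  rw [A0_lv]; ring

/-- the flux of the second law -/
theorem flux2 (c : ℂ) (p q : ℝ) (d : Fin 4 → ℝ) (h0 : d 0 = -q) (h1 : d 1 = p) (h2 : d 2 = q)
    (h3 : d 3 = -p) :
    ∑ h, d h * (lv c h * A0 (lv c) h) = xc * (p * (c ^ 2).im + q * (c ^ 2).re) := by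
  have hs := sq2
  have hs0 := sq2_pos
  simp only [A0_lv, Fin.sum_univ_four, h0, h1, h2, h3, lv, sg, op, pow_two, Complex.mul_im,
    Complex.mul_re]
  field_simp
  linear_combination (-(xc * q * (c.re * c.re - c.im * c.im))) * hs

/-- the flux of the first law -/
theorem flux1 (c : ℂ) (p q : ℝ) (d : Fin 4 → ℝ) (h0 : d 0 = -q) (h1 : d 1 = p) (h2 : d 2 = q)
    (h3 : d 3 = -p) :
    ∑ h, d h * (lv c h * lv c h) = p * (c ^ 2).re - q * (c ^ 2).im := by
  have hs := sq2
  have hs0 := sq2_pos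
  simp only [Fin.sum_univ_four, h0, h1, h2, h3, lv, pow_two, Complex.mul_im, Complex.mul_re]
  field_simp
  linear_combination (2 * q * c.re * c.im) * hs

/-- the flux of the linear law -/
theorem flux0 (f c : ℂ) (p q : ℝ) (d : Fin 4 → ℝ) (h0 : d 0 = -q) (h1 : d 1 = p) (h2 : d 2 = q)
    (h3 : d 3 = -p) :
    ∑ h, d h * (lv c h * (sg h * lv f (op h))) = -((f * c) * (p + Complex.I * q)).im := by
  have hs := sq2
  have hs0 := sq2_pos
  simp only [Fin.sum_univ_four, h0, h1, h2, h3, lv, sg, op, Complex.mul_im, Complex.mul_re,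
    Complex.add_re, Complex.add_im, Complex.ofReal_re, Complex.ofReal_im, Complex.I_re,
    Complex.I_im]
  field_simp
  linear_combination (q * (c.re * f.re - c.im * f.im)) * hs

/-! ### the laws for light fields -/

variable {ι : Type*} {l : Filter ι} {D B : Set ℂ} {a : ι → ℝ} {w φ : ι → Fld}
  {G : Fin 4 → ℂ → ℝ} {F : ℂ → ℂ}

theorem dχ_flux (χ : ℂ → ℝ) (z : ℂ) : dχ χ 0 z = -(fderiv ℝ χ z Complex.I) ∧
    dχ χ 1 z = fderiv ℝ χ z 1 ∧ dχ χ 2 z = fderiv ℝ χ z Complex.I ∧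
    dχ χ 3 z = -(fderiv ℝ χ z 1) :=
  ⟨dχ_zero χ z, dχ_one χ z, dχ_two χ z, dχ_three χ z⟩

/-- **second law**, light fields, no source on the support of the cut-off -/
theorem curl_law [l.NeBot] (H : LD l D B a w φ (fun h z => lv (F z) h) G) {χ : ℂ → ℝ}
    {C : NNReal} (T : Test D B χ C)
    (h0 : ∀ᵐ z ∂volume.restrict B, χ z ≠ 0 → ∀ h, G h z = 0) :
    ∫ z in B, (fderiv ℝ χ z 1 * (F z ^ 2).im + fderiv ℝ χ z Complex.I * (F z ^ 2).re) = 0 := by
  have h := H.law2 T
  have e1 : ∫ z in B, ∑ h, χ z * (lv (F z) h * G h z) = 0 := by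
    rw [← integral_zero ℂ ℝ (μ := volume.restrict B)]
    refine integral_congr_ae ?_
    filter_upwards [h0] with z hz
    by_cases h : χ z = 0
    · simp [h]
    · simp [hz h]
  rw [e1, mul_zero] at h
  have e2 : ∫ z in B, ∑ h, dχ χ h z * (lv (F z) h * A0c (fun h z => lv (F z) h) h z)
      = xc * ∫ z in B, (fderiv ℝ χ z 1 * (F z ^ 2).im
        + fderiv ℝ χ z Complex.I * (F z ^ 2).re) := by
    rw [← integral_const_mul]
    refine integral_congr_ae (Eventually.of_forall fun z => ?_)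
    obtain ⟨d0, d1, d2, d3⟩ := dχ_flux χ z
    exact flux2 (F z) _ _ (fun h => dχ χ h z) d0 d1 d2 d3
  rw [e2] at h
  exact (mul_eq_zero.1 h).resolve_left xc_pos.ne'

/-- **first law**, light fields -/
theorem div_law [l.NeBot] (H : LD l D B a w φ (fun h z => lv (F z) h) G) {χ : ℂ → ℝ}
    {C : NNReal} (T : Test D B χ C) (hχ : ∀ z, 0 ≤ χ z)
    (h0 : ∀ᵐ z ∂volume.restrict B, χ z ≠ 0 → ∀ h, G h z = 0) :
    0 ≤ ∫ z in B, (fderiv ℝ χ z 1 * (F z ^ 2).re - fderiv ℝ χ z Complex.I * (F z ^ 2).im) := by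
  have h := H.law1 T hχ
  have e1 : ∫ z in B, ∑ h, χ z * (A0c (fun h z => lv (F z) h) h z * G h z) = 0 := by
    rw [← integral_zero ℂ ℝ (μ := volume.restrict B)]
    refine integral_congr_ae ?_
    filter_upwards [h0] with z hz
    by_cases h : χ z = 0
    · simp [h]
    · simp [hz h]
  rw [e1, mul_zero, zero_add] at h
  have e2 : ∫ z in B, ∑ h, dχ χ h z * xc ^ 2 * (lv (F z) h * lv (F z) h)
      = xc ^ 2 * ∫ z in B, (fderiv ℝ χ z 1 * (F z ^ 2).re
        - fderiv ℝ χ z Complex.I * (F z ^ 2).im) := by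
    rw [← integral_const_mul]
    refine integral_congr_ae (Eventually.of_forall fun z => ?_)
    obtain ⟨d0, d1, d2, d3⟩ := dχ_flux χ z
    have := flux1 (F z) _ _ (fun h => dχ χ h z) d0 d1 d2 d3
    simp only
    rw [← this, Finset.mul_sum]
    exact Finset.sum_congr rfl fun h _ => by ring
  rw [e2] at h
  exact nonneg_of_mul_nonneg_right h (by have := xc_pos; positivity)

/-- **linear law**, light fields, plane weights on `B` -/
theorem hol_law [l.NeBot] (H : LD l D B a w φ (fun h z => lv (F z) h) G) {χ : ℂ → ℝ}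
    {C : NNReal} (T : Test D B χ C) (hBf : volume B ≠ ⊤)
    (hcr : ∀ᶠ k in l, ∀ z ∈ B, ∀ h, w k (meshIndex (a k) z) h = xc) (f : ℂ) :
    ∫ z in B, ∑ h, χ z * (lv f h * G h z)
      = xc * ∫ z in B, ((f * F z) * U3x719.db χ z).im := by
  rw [H.law0 T hBf hcr (light_lv f), neg_mul, ← mul_neg, ← integral_neg]
  congr 1
  refine integral_congr_ae (Eventually.of_forall fun z => ?_)
  obtain ⟨d0, d1, d2, d3⟩ := dχ_flux χ z
  have := flux0 f (F z) _ _ (fun h => dχ χ h z) d0 d1 d2 d3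
  simp only
  rw [this, neg_neg]
  rfl

end Crest.Agent.R165.LimSx610
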