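import Crest.Agent.R165.LinStep_417

/-!
# Row 165 (S0250), block G: further per polymer steps (cluster, sources)
-/

set_option autoImplicit false
set_option linter.unusedSectionVars false

noncomputable section

namespace Crest.Agent.R165.PNormx417

open Crest.Agent.R165.Gr0x606
open scoped ENNReal

variable {V : Type*} [AddCommGroup V] [Module ℝ V]

/-- all degrees at least `m`, all legs shrink by the factor `c ≤ 1` -/
theorem scale_step {S : Cov V} {g w w' : V → ℝ≥0∞} (hg : Gram S g) {c : ℝ≥0∞} (hc : c ≤ 1)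
    (h : ∀ l, w' l + g l ≤ c * w l) {F : Gr V} {m : ℕ} (hm : ∀ n < m, hom n F = 0)
    (hF : pnorm w F ≠ ∞) : pnorm w' (conv S F) ≤ c ^ m * pnorm w F :=
  (pnorm_conv_le (w := fun l => w' l + g l) hg (fun _ => le_rfl) F).trans
    (pnorm_scale hc h hm hF)

/-- cluster step: even, no constant, all legs shrink by the factor `c ≤ 1` -/
theorem cluster_step {S : Cov V} {g w w' : V → ℝ≥0∞} (hg : Gram S g) {c : ℝ≥0∞} (hc : c ≤ 1)
    (h : ∀ l, w' l + g l ≤ c * w l) {F : Gr V} (hev : IsEv F) (hct : ct F = 0)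
    (hF : pnorm w F ≠ ∞) : pnorm w' (conv S F) ≤ c ^ 2 * pnorm w F := by
  refine scale_step hg hc h (fun n hn => ?_) hF
  have : n = 0 ∨ n = 1 := by omega
  rcases this with rfl | rfl
  · rw [hom_zero_eq, hct, map_zero]
  · exact IsEv.hom_odd hev odd_one

/-- if all weights of a finite monomial are finite and nonzero -/
theorem semi_le_of_mono_pos {N : Gr V → ℝ≥0∞} (hN : ESemi N) {w : V → ℝ≥0∞} {C : ℝ≥0∞}
    (hC : C ≠ ∞) (hw0 : ∀ l, w l = 0 → l = 0)
    (h : ∀ L : List V, mwt w L ≠ ∞ → (∀ l ∈ L, w l ≠ ∞) → (∀ l ∈ L, w l ≠ 0) →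
      N (mono L) ≤ C * mwt w L) {F : Gr V}
    (hF : pnorm w F ≠ ∞) : N F ≤ C * pnorm w F := by
  refine semi_le_of_mono hN hC (fun L hL => ?_) hF
  by_cases h00 : ∃ l ∈ L, w l = 0
  · obtain ⟨l, hl, hl0⟩ := h00
    have h1 : mono L = 0 := by
      rw [mono]
      exact List.prod_eq_zero (List.mem_map.2 ⟨l, hl, by rw [hw0 l hl0, fi_zero]⟩)
    rw [h1, hN.zero]
    exact zero_le
  · push Not at h00
    exact h L hL (ne_top_of_mwt hL h00) h00

/-- degree two minus the mode-mode part -/
theorem mode00 (P : V →ₗ[ℝ] V) {w w' : V → ℝ≥0∞} {p q : ℝ≥0∞} (hpt : p ≠ ∞) (hqt : q ≠ ∞)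
    (hp : ∀ l, w' (P l) ≤ p * w l) (hq : ∀ l, w' (l - P l) ≤ q * w l) {F : Gr V}
    (hF : pnorm w (hom 2 F) ≠ ∞) :
    pnorm w' (hom 2 F - mp P (hom 2 F)) ≤ (2 * p * q + q ^ 2) * pnorm w (hom 2 F) := by
  have h := bound_of_mono (pnorm_semi w') (hom 2 - (mp P).toLinearMap ∘ₗ hom 2) (w := w)
    (C := 2 * p * q + q ^ 2) (F := hom 2 F) (by
      simp only [ne_eq, ENNReal.add_eq_top, not_or]
      exact ⟨ENNReal.mul_ne_top (ENNReal.mul_ne_top (by norm_num) hpt) hqt,
        ENNReal.pow_ne_top hqt⟩)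
    (fun L _ => by
      rw [LinearMap.sub_apply, LinearMap.comp_apply, hom_mono, AlgHom.toLinearMap_apply]
      split_ifs with hlen
      · obtain ⟨x, y, rfl⟩ := List.length_eq_two.1 hlen
        rw [mp_mono]
        set R : V → V := fun l => l - P l with hR
        have hx : fi x = fi (P x) + fi (R x) := by
          rw [← fi_add]; congr 1; simp only [hR]; abel
        have hy : fi y = fi (P y) + fi (R y) := by
          rw [← fi_add]; congr 1; simp only [hR]; abel
        have e : mono [x, y] - mono ([x, y].map P) = mono [P x, R y] + mono [R x, P y] +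
            mono [R x, R y] := by
          simp only [List.map_cons, List.map_nil, mono_cons, mono_nil, mul_one]
          rw [hx, hy]
          noncomm_ring
        rw [e]
        have hm : ∀ a b : V, pnorm w' (mono [a, b]) ≤ w' a * w' b := fun a b => by
          simpa using pnorm_mono_le w' [a, b]
        have hb : ∀ {a b : V} {α β : ℝ≥0∞}, w' a ≤ α * w x → w' b ≤ β * w y →
            pnorm w' (mono [a, b]) ≤ (α * β) * (w x * w y) := fun {a b α β} h1 h2 =>
          (hm a b).trans ((mul_le_mul' h1 h2).trans (le_of_eq (by ring)))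
        refine (pnorm_add_le _ _ _).trans (le_trans (add_le_add ((pnorm_add_le _ _ _).trans
          (add_le_add (hb (hp x) (hq y)) (hb (hq x) (hp y)))) (hb (hq x) (hq y))) ?_)
        rw [mwt_cons, mwt_cons, mwt_nil]
        refine le_of_eq ?_
        ring
      · rw [map_zero, sub_zero, pnorm_zero]
        exact zero_le) hF
  rw [LinearMap.sub_apply, LinearMap.comp_apply, hom_hom, if_pos rfl,
    AlgHom.toLinearMap_apply] at h
  exact h

/-! ### contraction with the dual of an isolated generator -/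

theorem fi_mul_mono_eq_zero (t : V) {L : List V} {y : V} (hy : y ∈ L) (hyt : ∃ c : ℝ, y = c • t) :
    fi t * mono L = 0 := by
  obtain ⟨c, rfl⟩ := hyt
  obtain ⟨L', hL'⟩ : ∃ L', L.Perm (c • t :: L') := by
    classical
    exact ⟨L.erase (c • t), List.perm_cons_erase hy⟩
  obtain ⟨ε, _, h⟩ := mono_perm hL'
  rw [h, mul_smul_comm, mono_cons, ← mul_assoc, fi_smul, mul_smul_comm, fi_mul_self, smul_zero,
    zero_mul, smul_zero]

theorem dd_mono_eq_zero (l : Module.Dual ℝ V) (L : List V) (h : ∀ y ∈ L, l y = 0) :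
    dd l (mono L) = 0 := by
  induction L with
  | nil => simp
  | cons x L ih =>
    rw [mono_cons, dd_fi_mul, h x List.mem_cons_self,
      ih fun y hy => h y (List.mem_cons_of_mem _ hy), zero_smul, mul_zero, sub_zero]

/-- contraction with a linear form `l` which only sees multiples of `t` among the atoms -/
theorem pnorm_dd_le {w : V → ℝ≥0∞} (hw0 : ∀ x, w x = 0 → x = 0) (l : Module.Dual ℝ V) (t : V)
    {a : ℝ≥0∞} (hat : a ≠ ∞) (h1 : ∀ x, w x ≠ ∞ → l x = 0 ∨ ∃ c : ℝ, x = c • t)
    (h2 : ∀ x, ‖l x‖ₑ ≤ a * w x) {F : Gr V} (hF : pnorm w F ≠ ∞) :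
    pnorm w (dd l F) ≤ a * pnorm w F := by
  refine semi_le_of_mono_pos ((pnorm_semi w).comp (dd l)) hat hw0 (fun L hL hT h0 => ?_) hF
  induction L with
  | nil => simp
  | cons x L ih =>
    have hxT := hT x List.mem_cons_self
    have hx0 := h0 x List.mem_cons_self
    have hLT : mwt w L ≠ ∞ := by
      intro h
      rw [mwt_cons, h] at hL
      exact hL (ENNReal.mul_top hx0)
    have ih' := ih hLT (fun y hy => hT y (List.mem_cons_of_mem _ hy))
      (fun y hy => h0 y (List.mem_cons_of_mem _ hy))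
    rw [mono_cons, dd_fi_mul, mwt_cons]
    rcases h1 x hxT with hx | ⟨c, hx⟩
    · rw [hx, zero_smul, zero_sub, pnorm_neg]
      refine (pnorm_mul_le' (pnorm_fi_le w x) ih' hxT (ENNReal.mul_ne_top hat hLT)).trans
        (le_of_eq ?_)
      ring
    · by_cases hL' : ∀ y ∈ L, l y = 0
      · rw [dd_mono_eq_zero l L hL', mul_zero, sub_zero]
        refine (pnorm_smul_le _ _ _).trans ?_
        calc ‖l x‖ₑ * pnorm w (mono L) ≤ (a * w x) * mwt w L :=
              mul_le_mul' (h2 x) (pnorm_mono_le _ _)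
          _ = _ := by ring
      · push Not at hL'
        obtain ⟨y, hy, hly⟩ := hL'
        have hyt : ∃ c : ℝ, y = c • t := by
          rcases h1 y (hT y (List.mem_cons_of_mem _ hy)) with h | h
          · exact absurd h hly
          · exact h
        have h3 : fi x * mono L = 0 := by
          rw [hx, fi_smul, smul_mul_assoc, fi_mul_mono_eq_zero t hy hyt, smul_zero]
        have h4 : l x • mono L - fi x * dd l (mono L) = dd l (fi x * mono L) :=
          (dd_fi_mul l x (mono L)).symm
        rw [h4, h3, map_zero, pnorm_zero]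
        exact zero_le

/-- coefficient of a pair of isolated generators -/
theorem dd_dd_pair (l l' : Module.Dual ℝ V) (t t' : V) (O : Gr V) (h11 : l t = 1)
    (h12 : l t' = 0) (h22 : l' t' = 1) (hO : dd l O = 0) (hO' : dd l' O = 0) :
    dd l' (dd l (fi t * (fi t' * O))) = O := by
  rw [dd_fi_mul, dd_fi_mul, hO, h11, h12]
  simp only [one_smul, zero_smul, mul_zero, sub_zero]
  rw [dd_fi_mul, h22, hO']
  simp

end Crest.Agent.R165.PNormx417
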