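import Crest.Agent.R165.PNorm2_417

/-!
# Row 165 (S0250), block G: the linear part of one renormalisation step, per polymer

For a polymer `U` with weights `w` (scale `k`), `w'` (scale `k+1`), Gram weight `g` of the slice:
* `branch_step`, `boundary` : one mode, all even degrees `≥ 2`: factor `3 p q`;
* `bulk4_step` : two modes, degrees `≥ 4`: factor `11 p² q²`;
* `bulk2` : degree two after subtraction of the local part: factor `p₁² + 2 (p₀+p₁) q + q²`;
* `typed_step` : large polymers, legs near the branch points `i ∈ s` : factor `∏ c i`.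
-/

set_option autoImplicit false
set_option linter.unusedSectionVars false

noncomputable section

namespace Crest.Agent.R165.PNormx417

open Crest.Agent.R165.Gr0x606
open scoped ENNReal

variable {V : Type*} [AddCommGroup V] [Module ℝ V]

/-! ### local versions -/

theorem splits_mem (L : List V) : ∀ s ∈ splits L, (∀ x ∈ s.2.1, x ∈ L) ∧ ∀ x ∈ s.2.2, x ∈ L := by
  induction L with
  | nil => intro s hs; simp only [splits, List.mem_singleton] at hs; subst hs; simp
  | cons y L ih =>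
    intro s hs
    simp only [splits, List.mem_append, List.mem_map] at hs
    rcases hs with ⟨t, ht, rfl⟩ | ⟨t, ht, rfl⟩
    · obtain ⟨h1, h2⟩ := ih t ht
      refine ⟨fun x hx => ?_, fun x hx => List.mem_cons_of_mem _ (h2 x hx)⟩
      rcases List.mem_cons.1 hx with rfl | hx
      · exact List.mem_cons_self
      · exact List.mem_cons_of_mem _ (h1 x hx)
    · obtain ⟨h1, h2⟩ := ih t ht
      refine ⟨fun x hx => List.mem_cons_of_mem _ (h1 x hx), fun x hx => ?_⟩
      rcases List.mem_cons.1 hx with rfl | hx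
      · exact List.mem_cons_self
      · exact List.mem_cons_of_mem _ (h2 x hx)

theorem mwt_mono_list {w w' : V → ℝ≥0∞} (L : List V) (h : ∀ l ∈ L, w' l ≤ w l) :
    mwt w' L ≤ mwt w L := by
  induction L with
  | nil => simp
  | cons x L ih =>
    rw [mwt_cons, mwt_cons]
    exact mul_le_mul' (h x List.mem_cons_self) (ih fun l hl => h l (List.mem_cons_of_mem _ hl))

theorem mwt_map_list {w w' : V → ℝ≥0∞} {T : V → V} {p : ℝ≥0∞} (L : List V)
    (h : ∀ l ∈ L, w' (T l) ≤ p * w l) : mwt w' (L.map T) ≤ p ^ L.length * mwt w L := by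
  induction L with
  | nil => simp
  | cons x L ih =>
    rw [List.map_cons, mwt_cons, mwt_cons, List.length_cons, pow_succ]
    calc w' (T x) * mwt w' (L.map T) ≤ (p * w x) * (p ^ L.length * mwt w L) :=
          mul_le_mul' (h x List.mem_cons_self) (ih fun l hl => h l (List.mem_cons_of_mem _ hl))
      _ = _ := by ring

theorem ne_top_of_mwt {w : V → ℝ≥0∞} {L : List V} (h : mwt w L ≠ ∞) (h0 : ∀ l ∈ L, w l ≠ 0) :
    ∀ l ∈ L, w l ≠ ∞ := by
  induction L with
  | nil => simp
  | cons x L ih =>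
    rw [mwt_cons] at h
    have hx : w x ≠ ∞ := by
      intro hx
      rw [hx] at h
      have : mwt w L ≠ 0 := by
        intro h1
        unfold mwt at h1
        rw [List.prod_eq_zero_iff] at h1
        obtain ⟨l, hl, hl0⟩ := List.mem_map.1 h1
        exact h0 l (List.mem_cons_of_mem _ hl) hl0
      exact h (ENNReal.top_mul this)
    have hL : mwt w L ≠ ∞ := by
      intro hL
      rw [hL] at h
      exact h (ENNReal.mul_top (h0 x List.mem_cons_self))
    intro l hl
    rcases List.mem_cons.1 hl with rfl | hl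
    · exact hx
    · exact ih hL (fun l hl => h0 l (List.mem_cons_of_mem _ hl)) l hl

/-- **Pauli lemma** on a monomial, with hypotheses on its legs only -/
theorem pnorm_mono_pauli_list (P : V →ₗ[ℝ] V) (r : ℕ) [FiniteDimensional ℝ (LinearMap.range P)]
    (hr : Module.finrank ℝ (LinearMap.range P) ≤ r) {w w' : V → ℝ≥0∞} {p q : ℝ≥0∞} (L : List V)
    (hp : ∀ l ∈ L, w' (P l) ≤ p * w l) (hq : ∀ l ∈ L, w' (l - P l) ≤ q * w l) :
    pnorm w' (mono L) ≤ paul r p q L.length * mwt w L := by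
  have h0 : mono L = mp (P + (LinearMap.id - P)) (mono L) := by
    have : P + (LinearMap.id - P) = LinearMap.id := by abel
    rw [this, mp_mono]
    simp
  rw [h0, mp_add_mono]
  refine ((pnorm_semi w').list_sum _).trans ?_
  rw [List.map_map]
  have hpaul : paul r p q L.length * mwt w L =
      ((splits L).map fun s => (if s.2.1.length ≤ r then
        p ^ s.2.1.length * q ^ (L.length - s.2.1.length) else 0) *
          (mwt w s.2.1 * mwt w s.2.2)).sum := by
    rw [sum_splits_mwt (fun i => if i ≤ r then p ^ i * q ^ (L.length - i) else 0)]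
    congr 1
    unfold paul
    refine Finset.sum_congr rfl fun i _ => ?_
    split_ifs <;> simp
  rw [hpaul]
  refine List.sum_le_sum fun s hs => ?_
  simp only [Function.comp]
  refine (pnorm_smul_le _ _ _).trans ?_
  rw [splits_sign L s hs, one_mul]
  obtain ⟨hm1, hm2⟩ := splits_mem L s hs
  by_cases hlen : s.2.1.length ≤ r
  · rw [if_pos hlen, ← mono_append]
    refine (pnorm_mono_le _ _).trans ?_
    rw [mwt_append]
    have hl : L.length - s.2.1.length = s.2.2.length := by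
      have := splits_length L s hs; omega
    rw [hl]
    calc mwt w' (s.2.1.map P) * mwt w' (s.2.2.map (LinearMap.id - P : V →ₗ[ℝ] V)) ≤
        (p ^ s.2.1.length * mwt w s.2.1) * (q ^ s.2.2.length * mwt w s.2.2) :=
          mul_le_mul' (mwt_map_list _ fun l hl => hp l (hm1 l hl))
            (mwt_map_list _ fun l hl => hq l (hm2 l hl))
      _ = _ := by ring
  · rw [if_neg hlen, zero_mul]
    have hz : mono (s.2.1.map P) = 0 := by
      refine mono_eq_zero_of_rank (LinearMap.range P) _ (fun l hl => ?_) ?_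
      · obtain ⟨y, _, rfl⟩ := List.mem_map.1 hl
        exact LinearMap.mem_range_self P y
      · rw [List.length_map]; omega
    rw [hz, zero_mul, pnorm_zero]

/-! ### permutations -/

theorem mono_perm {L L' : List V} (h : L.Perm L') : ∃ ε : ℝ, ‖ε‖ₑ = 1 ∧ mono L = ε • mono L' := by
  induction h with
  | nil => exact ⟨1, by simp, by simp⟩
  | cons x _ ih =>
    obtain ⟨ε, h1, h2⟩ := ih
    exact ⟨ε, h1, by rw [mono_cons, mono_cons, h2, mul_smul_comm]⟩
  | swap x y L =>
    refine ⟨-1, by simp, ?_⟩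
    rw [mono_cons, mono_cons, mono_cons, mono_cons, ← mul_assoc, fi_anti, ← mul_assoc]
    simp
  | trans _ _ ih1 ih2 =>
    obtain ⟨ε, h1, h2⟩ := ih1
    obtain ⟨ε', h1', h2'⟩ := ih2
    exact ⟨ε * ε', by rw [enorm_mul, h1, h1', one_mul], by rw [h2, h2', smul_smul]⟩

theorem pnorm_mono_perm (w : V → ℝ≥0∞) {L L' : List V} (h : L.Perm L') :
    pnorm w (mono L) ≤ pnorm w (mono L') := by
  obtain ⟨ε, h1, h2⟩ := mono_perm h
  rw [h2]
  exact (pnorm_smul_le _ _ _).trans (by rw [h1, one_mul])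

theorem mwt_perm (w : V → ℝ≥0∞) {L L' : List V} (h : L.Perm L') : mwt w L = mwt w L' :=
  (h.map w).prod_eq

/-! ### typed Pauli lemma -/

/-- **typed Pauli lemma**: legs without type do not grow, legs of type `i` are near the defect
`i`, where the projection `P i` of rank `r i` is used. -/
theorem pnorm_mono_typed {ι : Type*} (ty : V → Option ι) (P : ι → V →ₗ[ℝ] V)
    (hfin : ∀ i, FiniteDimensional ℝ (LinearMap.range (P i))) (r : ι → ℕ)
    (hr : ∀ i, Module.finrank ℝ (LinearMap.range (P i)) ≤ r i) {w w' : V → ℝ≥0∞}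
    {p q c : ι → ℝ≥0∞} (hcT : ∀ i, c i ≠ ∞)
    (s : Finset ι) (hc : ∀ i ∈ s, ∀ n, paul (r i) (p i) (q i) n ≤ c i) :
    ∀ L : List V, mwt w L ≠ ∞ → (∀ l ∈ L, w l ≠ 0) → (∀ l ∈ L, ty l = none → w' l ≤ w l) →
      (∀ l ∈ L, ∀ i, ty l = some i → i ∈ s ∧ w' (P i l) ≤ p i * w l ∧
        w' (l - P i l) ≤ q i * w l) →
      pnorm w' (mono L) ≤ (∏ i ∈ s, c i) * mwt w L := by
  classical
  induction s using Finset.induction_on with
  | empty =>
    intro L _ _ h0 hs
    rw [Finset.prod_empty, one_mul]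
    refine (pnorm_mono_le _ _).trans (mwt_mono_list L fun l hl => h0 l hl ?_)
    rcases hty : ty l with _ | i
    · rfl
    · exact absurd (hs l hl i hty).1 (Finset.notMem_empty i)
  | insert i s his ih =>
    intro L hL hL0 h0 hs
    have hperm : L.Perm ((L.filter fun l => decide (ty l = some i)) ++
        (L.filter fun l => !decide (ty l = some i))) := (List.filter_append_perm _ L).symm
    set L1 := L.filter fun l => decide (ty l = some i) with hL1
    set L2 := L.filter fun l => !decide (ty l = some i) with hL2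
    have hw : mwt w L = mwt w L1 * mwt w L2 := by rw [mwt_perm w hperm, mwt_append]
    have hm1 : ∀ l ∈ L1, l ∈ L ∧ ty l = some i := by
      intro l hl
      simpa [hL1] using hl
    have hm2 : ∀ l ∈ L2, l ∈ L ∧ ty l ≠ some i := by
      intro l hl
      simpa [hL2] using hl
    have hn0 : ∀ M : List V, (∀ l ∈ M, l ∈ L) → mwt w M ≠ 0 := by
      intro M hM h1
      unfold mwt at h1
      rw [List.prod_eq_zero_iff] at h1
      obtain ⟨l, hl, hl0⟩ := List.mem_map.1 h1
      exact hL0 l (hM l hl) hl0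
    have ht1 : mwt w L1 ≠ ∞ := by
      intro h
      rw [hw, h] at hL
      exact hL (ENNReal.top_mul (hn0 _ fun l hl => (hm2 l hl).1))
    have ht2 : mwt w L2 ≠ ∞ := by
      intro h
      rw [hw, h] at hL
      exact hL (ENNReal.mul_top (hn0 _ fun l hl => (hm1 l hl).1))
    have b1 : pnorm w' (mono L1) ≤ c i * mwt w L1 := by
      haveI := hfin i
      refine (pnorm_mono_pauli_list (P i) (r i) (hr i) L1
        (fun l hl => (hs l (hm1 l hl).1 i (hm1 l hl).2).2.1)
        (fun l hl => (hs l (hm1 l hl).1 i (hm1 l hl).2).2.2)).trans ?_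
      exact mul_le_mul_left (hc i (Finset.mem_insert_self i s) _) _
    have b2 : pnorm w' (mono L2) ≤ (∏ j ∈ s, c j) * mwt w L2 := by
      refine ih (fun j hj => hc j (Finset.mem_insert_of_mem hj)) L2 ht2
        (fun l hl => hL0 l (hm2 l hl).1) (fun l hl => h0 l (hm2 l hl).1) ?_
      intro l hl j hj
      obtain ⟨h1, h2⟩ := hs l (hm2 l hl).1 j hj
      refine ⟨?_, h2⟩
      rcases Finset.mem_insert.1 h1 with h3 | h3
      · exact absurd (h3 ▸ hj) (hm2 l hl).2
      · exact h3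
    refine (pnorm_mono_perm w' hperm).trans ?_
    rw [mono_append, hw]
    have hfin2 : (∏ j ∈ s, c j) ≠ ∞ := ENNReal.prod_ne_top fun j _ => hcT j
    refine (pnorm_mul_le' b1 b2 (ENNReal.mul_ne_top (hcT i) ht1)
      (ENNReal.mul_ne_top hfin2 ht2)).trans (le_of_eq ?_)
    rw [Finset.prod_insert his]
    ring

/-! ### numerical bounds for `paul` -/

theorem paul_one (p q : ℝ≥0∞) (n : ℕ) :
    paul 1 p q (n + 1) = q ^ (n + 1) + (n + 1 : ℕ) * (p * q ^ n) := by
  unfold paul
  rw [Finset.sum_range_succ', Finset.sum_range_succ']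
  have : ∑ k ∈ Finset.range n, (if k + 1 + 1 ≤ 1 then ((n + 1).choose (k + 1 + 1) : ℝ≥0∞) *
      (p ^ (k + 1 + 1) * q ^ (n + 1 - (k + 1 + 1))) else 0) = 0 :=
    Finset.sum_eq_zero fun k _ => if_neg (by omega)
  rw [this]
  simp only [zero_add, le_refl, if_true, pow_one, Nat.choose_one_right, Nat.zero_le,
    Nat.choose_zero_right, Nat.cast_one, pow_zero, one_mul, Nat.sub_zero, Nat.add_sub_cancel]
  rw [add_comm]

theorem paul_one_zero (p q : ℝ≥0∞) : paul 1 p q 0 = 1 := by
  unfold paul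
  simp

theorem paul_two (p q : ℝ≥0∞) (n : ℕ) :
    paul 2 p q (n + 2) = q ^ (n + 2) + (n + 2 : ℕ) * (p * q ^ (n + 1)) +
      ((n + 2).choose 2 : ℕ) * (p ^ 2 * q ^ n) := by
  unfold paul
  rw [Finset.sum_range_succ', Finset.sum_range_succ', Finset.sum_range_succ']
  have : ∑ k ∈ Finset.range n, (if k + 1 + 1 + 1 ≤ 2 then
      ((n + 2).choose (k + 1 + 1 + 1) : ℝ≥0∞) *
      (p ^ (k + 1 + 1 + 1) * q ^ (n + 2 - (k + 1 + 1 + 1))) else 0) = 0 :=
    Finset.sum_eq_zero fun k _ => if_neg (by omega)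
  rw [this]
  have e1 : n + 2 - (0 + 1) = n + 1 := by omega
  have e2 : n + 2 - (0 + 1 + 1) = n := by omega
  have e3 : n + 2 - 0 = n + 2 := by omega
  rw [e1, e2, e3, if_pos (by norm_num), if_pos (by norm_num), if_pos (by norm_num)]
  simp only [zero_add, pow_one, Nat.choose_one_right, Nat.choose_zero_right, Nat.cast_one,
    pow_zero, one_mul]
  have e4 : (1 + 1 : ℕ) = 2 := rfl
  rw [e4]
  ring

theorem quarter_pow_mul_le {q : ℝ≥0∞} (hq : q ≤ 1 / 4) (n : ℕ) {a b : ℕ} (h : a ≤ b * 4 ^ n) :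
    (a : ℝ≥0∞) * q ^ n ≤ b := by
  have h1 : q ^ n ≤ ((4 : ℝ≥0∞) ^ n)⁻¹ := by
    rw [ENNReal.inv_pow]
    exact pow_le_pow_left' (by simpa using hq) n
  calc (a : ℝ≥0∞) * q ^ n ≤ ((b * 4 ^ n : ℕ) : ℝ≥0∞) * ((4 : ℝ≥0∞) ^ n)⁻¹ :=
        mul_le_mul' (by exact_mod_cast h) h1
    _ = b * ((4 : ℝ≥0∞) ^ n * ((4 : ℝ≥0∞) ^ n)⁻¹) := by push_cast; ring
    _ = b := by
      rw [ENNReal.mul_inv_cancel (by positivity) (ENNReal.pow_ne_top (by norm_num)), mul_one]

/-- one mode, at least two legs -/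
theorem paul_one_le {p q : ℝ≥0∞} (hq : q ≤ 1 / 4) (hqp : q ≤ p) {n : ℕ} (hn : 2 ≤ n) :
    paul 1 p q n ≤ 3 * (p * q) := by
  obtain ⟨m, rfl⟩ : ∃ m, n = m + 1 + 1 := ⟨n - 2, by omega⟩
  rw [paul_one]
  have h2 : m + 3 ≤ 3 * 4 ^ m := by
    induction m with
    | zero => norm_num
    | succ m ih => have := ih (by omega); rw [pow_succ]; omega
  calc q ^ (m + 1 + 1) + (m + 1 + 1 : ℕ) * (p * q ^ (m + 1)) =
        q * (q * q ^ m) + (m + 2 : ℕ) * (p * (q * q ^ m)) := by push_cast; ring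
    _ ≤ p * (q * q ^ m) + (m + 2 : ℕ) * (p * (q * q ^ m)) := by gcongr
    _ = (p * q) * ((m + 3 : ℕ) * q ^ m) := by push_cast; ring
    _ ≤ (p * q) * (3 : ℕ) := by gcongr; exact quarter_pow_mul_le hq m h2
    _ = _ := by push_cast; ring

/-- one mode, any number of legs -/
theorem paul_one_le_all {p q : ℝ≥0∞} (hq : q ≤ 1 / 4) (hqp : q ≤ p) (n : ℕ) :
    paul 1 p q n ≤ 1 + 2 * p := by
  rcases Nat.lt_or_ge n 2 with h | h
  · have : n = 0 ∨ n = 1 := by omega
    rcases this with rfl | rfl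
    · rw [paul_one_zero]; exact le_self_add
    · calc paul 1 p q 1 = q ^ (0 + 1) + ((0 + 1 : ℕ) : ℝ≥0∞) * (p * q ^ 0) := paul_one p q 0
        _ = q + p := by simp
        _ ≤ p + p := by gcongr
        _ = 2 * p := by ring
        _ ≤ 1 + 2 * p := le_add_self
  · refine (paul_one_le hq hqp h).trans ?_
    calc 3 * (p * q) = (3 * q) * p := by ring
      _ ≤ (3 * (1 / 4)) * p := by gcongr
      _ ≤ 2 * p := by
        gcongr
        rw [mul_one_div]
        exact ENNReal.div_le_of_le_mul (by norm_num)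
      _ ≤ _ := le_add_self

/-- two modes, at least four legs -/
theorem paul_two_le {p q : ℝ≥0∞} (hq : q ≤ 1 / 4) (hqp : q ≤ p) {n : ℕ} (hn : 4 ≤ n) :
    paul 2 p q n ≤ 11 * (p ^ 2 * q ^ 2) := by
  obtain ⟨m, rfl⟩ : ∃ m, n = m + 2 + 2 := ⟨n - 4, by omega⟩
  rw [paul_two]
  have h2 : 1 + (m + 4) + (m + 4).choose 2 ≤ 11 * 4 ^ m := by
    have hc : ∀ m : ℕ, (m + 4).choose 2 ≤ 6 * 4 ^ m := by
      intro m
      induction m with
      | zero => decide
      | succ m ih =>
        have h3 : (m + 1 + 4).choose 2 = (m + 4) + (m + 4).choose 2 := by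
          rw [show m + 1 + 4 = (m + 4) + 1 by ring, Nat.choose_succ_succ, Nat.choose_one_right]
        have h4 : m + 4 ≤ 4 * 4 ^ m := by
          clear ih h3
          induction m with
          | zero => norm_num
          | succ m ih => rw [pow_succ]; omega
        rw [h3, pow_succ]
        omega
    have h4 : m + 5 ≤ 5 * 4 ^ m := by
      clear hc
      induction m with
      | zero => norm_num
      | succ m ih => have := ih (by omega); rw [pow_succ]; omega
    have := hc m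
    omega
  calc q ^ (m + 2 + 2) + (m + 2 + 2 : ℕ) * (p * q ^ (m + 2 + 1)) +
        ((m + 2 + 2).choose 2 : ℕ) * (p ^ 2 * q ^ (m + 2)) =
        (q ^ 2 * (q ^ 2 * q ^ m)) + (m + 4 : ℕ) * ((p * q) * (q ^ 2 * q ^ m)) +
        ((m + 4).choose 2 : ℕ) * (p ^ 2 * (q ^ 2 * q ^ m)) := by push_cast; ring
    _ ≤ (p ^ 2 * (q ^ 2 * q ^ m)) + (m + 4 : ℕ) * ((p * p) * (q ^ 2 * q ^ m)) +
        ((m + 4).choose 2 : ℕ) * (p ^ 2 * (q ^ 2 * q ^ m)) := by gcongr
    _ = (p ^ 2 * q ^ 2) * (((1 + (m + 4) + (m + 4).choose 2 : ℕ) : ℝ≥0∞) * q ^ m) := by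
      push_cast; ring
    _ ≤ (p ^ 2 * q ^ 2) * (11 : ℕ) := by gcongr; exact quarter_pow_mul_le hq m h2
    _ = _ := by push_cast; ring

/-! ### the steps -/

/-- one mode (branch point or boundary), even functional without constant -/
theorem oneMode_step {S : Cov V} {g : V → ℝ≥0∞} (hg : Gram S g) (P : V →ₗ[ℝ] V)
    [FiniteDimensional ℝ (LinearMap.range P)] (hr : Module.finrank ℝ (LinearMap.range P) ≤ 1)
    {w w' : V → ℝ≥0∞} {p q : ℝ≥0∞} (hpt : p ≠ ∞) (hq4 : q ≤ 1 / 4) (hqp : q ≤ p)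
    (hp : ∀ l, w' (P l) + g (P l) ≤ p * w l) (hq : ∀ l, w' (l - P l) + g (l - P l) ≤ q * w l)
    {F : Gr V} (hev : IsEv F) (hct : ct F = 0) (hF : pnorm w F ≠ ∞) :
    pnorm w' (conv S F) ≤ 3 * (p * q) * pnorm w F := by
  have hqt : q ≠ ∞ := ne_top_of_le_ne_top (by norm_num) hq4
  refine (pnorm_conv_le (w := fun l => w' l + g l) hg (fun l => le_rfl) F).trans ?_
  refine bound_deg_sup (pnorm_semi _) LinearMap.id (C := paul 1 p q)
    (fun n => paul_ne_top hpt hqt n) (fun L _ => pnorm_mono_pauli P 1 hr hp hq L) hF ?_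
  intro n hn
  have h2 : 2 ≤ n := by
    by_contra h
    have : n = 0 ∨ n = 1 := by omega
    rcases this with rfl | rfl
    · exact hn (by rw [hom_zero_eq, hct, map_zero])
    · exact hn (IsEv.hom_odd hev odd_one)
  exact paul_one_le hq4 hqp h2

/-- two modes (bulk), degrees at least four -/
theorem bulk4_step {S : Cov V} {g : V → ℝ≥0∞} (hg : Gram S g) (P : V →ₗ[ℝ] V)
    [FiniteDimensional ℝ (LinearMap.range P)] (hr : Module.finrank ℝ (LinearMap.range P) ≤ 2)
    {w w' : V → ℝ≥0∞} {p q : ℝ≥0∞} (hpt : p ≠ ∞) (hq4 : q ≤ 1 / 4) (hqp : q ≤ p)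
    (hp : ∀ l, w' (P l) + g (P l) ≤ p * w l) (hq : ∀ l, w' (l - P l) + g (l - P l) ≤ q * w l)
    {F : Gr V} (h4 : ∀ n < 4, hom n F = 0) (hF : pnorm w F ≠ ∞) :
    pnorm w' (conv S F) ≤ 11 * (p ^ 2 * q ^ 2) * pnorm w F := by
  have hqt : q ≠ ∞ := ne_top_of_le_ne_top (by norm_num) hq4
  refine (pnorm_conv_le (w := fun l => w' l + g l) hg (fun l => le_rfl) F).trans ?_
  refine bound_deg_sup (pnorm_semi _) LinearMap.id (C := paul 2 p q)
    (fun n => paul_ne_top hpt hqt n) (fun L _ => pnorm_mono_pauli P 2 hr hp hq L) hF ?_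
  intro n hn
  exact paul_two_le hq4 hqp (not_lt.1 fun h => hn (h4 n h))

/-- large polymers with legs near several defects -/
theorem typed_step {S : Cov V} {g : V → ℝ≥0∞} (hg : Gram S g) {ι : Type*} (ty : V → Option ι)
    (P : ι → V →ₗ[ℝ] V) (hfin : ∀ i, FiniteDimensional ℝ (LinearMap.range (P i))) (r : ι → ℕ)
    (hr : ∀ i, Module.finrank ℝ (LinearMap.range (P i)) ≤ r i) {w w' : V → ℝ≥0∞}
    {p q c : ι → ℝ≥0∞} (hcT : ∀ i, c i ≠ ∞)
    (s : Finset ι) (hc : ∀ i ∈ s, ∀ n, paul (r i) (p i) (q i) n ≤ c i)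
    (hw0 : ∀ l, w l = 0 → l = 0)
    (h0 : ∀ l, w l ≠ ∞ → ty l = none → w' l + g l ≤ w l)
    (hs : ∀ l, w l ≠ ∞ → ∀ i, ty l = some i → i ∈ s ∧ w' (P i l) + g (P i l) ≤ p i * w l ∧
        w' (l - P i l) + g (l - P i l) ≤ q i * w l)
    {F : Gr V} (hF : pnorm w F ≠ ∞) :
    pnorm w' (conv S F) ≤ (∏ i ∈ s, c i) * pnorm w F := by
  refine (pnorm_conv_le (w := fun l => w' l + g l) hg (fun l => le_rfl) F).trans ?_
  refine semi_le_of_mono (pnorm_semi _) (ENNReal.prod_ne_top fun j _ => hcT j) (fun L hL => ?_) hF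
  by_cases h00 : ∃ l ∈ L, w l = 0
  · obtain ⟨l, hl, hl0⟩ := h00
    have h1 : mono L = 0 := by
      rw [mono]
      exact List.prod_eq_zero (List.mem_map.2 ⟨l, hl, by rw [hw0 l hl0, fi_zero]⟩)
    rw [h1, pnorm_zero]
    exact zero_le
  · push Not at h00
    have hlt := ne_top_of_mwt hL h00
    exact pnorm_mono_typed ty P hfin r hr hcT s hc L hL h00 (fun l hl => h0 l (hlt l hl))
      (fun l hl => hs l (hlt l hl))

/-! ### degree two: local part -/

/-- the local part of the quadratic part: `P₀∧P₀ + P₀∧P₁ + P₁∧P₀` -/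
def loc2 (P0 P1 : V →ₗ[ℝ] V) : Gr V →ₗ[ℝ] Gr V :=
  ((mp (P0 + P1)).toLinearMap - (mp P1).toLinearMap) ∘ₗ hom 2

theorem loc2_mono (P0 P1 : V →ₗ[ℝ] V) (x y : V) :
    loc2 P0 P1 (mono [x, y]) =
      fi (P0 x) * fi (P0 y) + fi (P0 x) * fi (P1 y) + fi (P1 x) * fi (P0 y) := by
  have h : hom 2 (mono [x, y]) = mono [x, y] := hom_of_mem (mono_mem [x, y])
  rw [loc2, LinearMap.comp_apply, h, LinearMap.sub_apply, AlgHom.toLinearMap_apply,
    AlgHom.toLinearMap_apply, mp_mono, mp_mono]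
  simp only [List.map_cons, List.map_nil, mono_cons, mono_nil, mul_one, LinearMap.add_apply,
    fi_add]
  noncomm_ring

theorem loc2_of_hom (P0 P1 : V →ₗ[ℝ] V) (F : Gr V) : loc2 P0 P1 (hom 2 F) = loc2 P0 P1 F := by
  simp [loc2, hom_hom]

/-- **degree two remainder** -/
theorem bulk2 (P0 P1 : V →ₗ[ℝ] V) {w w' : V → ℝ≥0∞} {p0 p1 q : ℝ≥0∞} (hp0t : p0 ≠ ∞)
    (hp1t : p1 ≠ ∞) (hqt : q ≠ ∞) (hp0 : ∀ l, w' (P0 l) ≤ p0 * w l)
    (hp1 : ∀ l, w' (P1 l) ≤ p1 * w l) (hq : ∀ l, w' (l - P0 l - P1 l) ≤ q * w l) {F : Gr V}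
    (hF : pnorm w (hom 2 F) ≠ ∞) :
    pnorm w' (hom 2 F - loc2 P0 P1 F) ≤
      (p1 ^ 2 + 2 * (p0 + p1) * q + q ^ 2) * pnorm w (hom 2 F) := by
  have h := bound_of_mono (pnorm_semi w') (hom 2 - loc2 P0 P1) (w := w)
    (C := p1 ^ 2 + 2 * (p0 + p1) * q + q ^ 2) (F := hom 2 F) (by
      simp only [ne_eq, ENNReal.add_eq_top, not_or]
      exact ⟨⟨ENNReal.pow_ne_top hp1t, ENNReal.mul_ne_top (ENNReal.mul_ne_top (by norm_num)
        (ENNReal.add_ne_top.2 ⟨hp0t, hp1t⟩)) hqt⟩, ENNReal.pow_ne_top hqt⟩)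
    (fun L _ => by
      rw [LinearMap.sub_apply, hom_mono]
      split_ifs with hlen
      · obtain ⟨x, y, rfl⟩ := List.length_eq_two.1 hlen
        rw [loc2_mono]
        set R : V → V := fun l => l - P0 l - P1 l with hR
        have hx : fi x = fi (P0 x) + fi (P1 x) + fi (R x) := by
          rw [← fi_add, ← fi_add]; congr 1; simp only [hR]; abel
        have hy : fi y = fi (P0 y) + fi (P1 y) + fi (R y) := by
          rw [← fi_add, ← fi_add]; congr 1; simp only [hR]; abel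
        have e : mono [x, y] - (fi (P0 x) * fi (P0 y) + fi (P0 x) * fi (P1 y) +
            fi (P1 x) * fi (P0 y)) = mono [P1 x, P1 y] + mono [P0 x, R y] + mono [P1 x, R y] +
            mono [R x, P0 y] + mono [R x, P1 y] + mono [R x, R y] := by
          simp only [mono_cons, mono_nil, mul_one]
          rw [hx, hy]
          noncomm_ring
        rw [e]
        have hm : ∀ a b : V, pnorm w' (mono [a, b]) ≤ w' a * w' b := fun a b => by
          simpa using pnorm_mono_le w' [a, b]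
        have hb : ∀ {a b : V} {α β : ℝ≥0∞}, w' a ≤ α * w x → w' b ≤ β * w y →
            pnorm w' (mono [a, b]) ≤ (α * β) * (w x * w y) := fun {a b α β} h1 h2 =>
          (hm a b).trans ((mul_le_mul' h1 h2).trans (le_of_eq (by ring)))
        refine (pnorm_add_le _ _ _).trans (le_trans (add_le_add ((pnorm_add_le _ _ _).trans
          (add_le_add ((pnorm_add_le _ _ _).trans (add_le_add ((pnorm_add_le _ _ _).trans
          (add_le_add ((pnorm_add_le _ _ _).trans (add_le_add (hb (hp1 x) (hp1 y))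
            (hb (hp0 x) (hq y)))) (hb (hp1 x) (hq y)))) (hb (hq x) (hp0 y)))) (hb (hq x) (hp1 y))))
            (hb (hq x) (hq y))) ?_)
        rw [mwt_cons, mwt_cons, mwt_nil]
        refine le_of_eq ?_
        ring
      · have : loc2 P0 P1 (mono L) = 0 := by
          rw [← loc2_of_hom, hom_mono, if_neg hlen, map_zero]
        rw [this, sub_zero, pnorm_zero]
        exact zero_le) hF
  rw [LinearMap.sub_apply, hom_hom, if_pos rfl, loc2_of_hom] at h
  exact h

/-- averaging does not increase an extended seminorm -/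
theorem semi_sub_avg {X : Type*} [AddCommGroup X] [Module ℝ X] {N : X → ℝ≥0∞} (hN : ESemi N)
    {ι : Type*} (U : Finset ι) (hU : U.Nonempty) (x : X) (y : ι → X) {B : ℝ≥0∞}
    (h : ∀ i ∈ U, N (x - y i) ≤ B) : N (x - (U.card : ℝ)⁻¹ • ∑ i ∈ U, y i) ≤ B := by
  have hc : (U.card : ℝ) ≠ 0 := by exact_mod_cast hU.card_pos.ne'
  have e : x - (U.card : ℝ)⁻¹ • ∑ i ∈ U, y i = (U.card : ℝ)⁻¹ • ∑ i ∈ U, (x - y i) := by
    rw [Finset.sum_sub_distrib, smul_sub, Finset.sum_const, ← Nat.cast_smul_eq_nsmul ℝ, smul_smul,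
      inv_mul_cancel₀ hc, one_smul]
  rw [e]
  refine (hN.smul _ _).trans ?_
  calc ‖(U.card : ℝ)⁻¹‖ₑ * N (∑ i ∈ U, (x - y i)) ≤ ‖(U.card : ℝ)⁻¹‖ₑ * (U.card * B) := by
        gcongr
        refine (hN.finset_sum _ _).trans ((Finset.sum_le_card_nsmul _ _ _ h).trans ?_)
        rw [nsmul_eq_mul]
    _ = ‖(U.card : ℝ)⁻¹ * (U.card : ℝ)‖ₑ * B := by
        rw [enorm_mul, mul_assoc]
        congr 2
        simp
    _ = B := by rw [inv_mul_cancel₀ hc]; simp

/-! ### the quadratic part of the convolution at the same scale -/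

theorem choose_two_mul_le {a : ℝ≥0∞} (ha : a ≤ 1 / 4) (n : ℕ) :
    (n.choose 2 : ℝ≥0∞) * a ^ (n - 2) ≤ 1 := by
  rcases Nat.lt_or_ge n 2 with h | h
  · rw [Nat.choose_eq_zero_of_lt h]; simp
  · obtain ⟨m, rfl⟩ : ∃ m, n = m + 2 := ⟨n - 2, by omega⟩
    have h2 : (m + 2).choose 2 ≤ 1 * 4 ^ m := by
      clear h
      induction m with
      | zero => decide
      | succ m ih =>
        have h3 : (m + 1 + 2).choose 2 = (m + 2) + (m + 2).choose 2 := by
          rw [show m + 1 + 2 = (m + 2) + 1 by ring, Nat.choose_succ_succ, Nat.choose_one_right]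
        have h4 : m + 2 ≤ 2 * 4 ^ m := by
          clear ih h3
          induction m with
          | zero => norm_num
          | succ m ih => rw [pow_succ]; omega
        rw [h3, pow_succ]
        omega
    have := quarter_pow_mul_le ha m h2
    simpa using this

/-- the degree two part of the convolution, at the same scale -/
theorem hom2_conv_le {S : Cov V} {g w : V → ℝ≥0∞} (hg : Gram S g) {a : ℝ≥0∞} (ha4 : a ≤ 1 / 4)
    (ha : ∀ l, g l ≤ a * w l) {F : Gr V} (hF : pnorm w F ≠ ∞) :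
    pnorm w (hom 2 (conv S F)) ≤ pnorm w F := by
  have hat : a ≠ ∞ := ne_top_of_le_ne_top (by norm_num) ha4
  refine (semi_hom_conv_le (pnorm_semi w) hg hat ENNReal.one_ne_top ha (κ := 1)
    (fun A _ => by rw [one_mul]; exact pnorm_mono_le _ _) hF).trans ?_
  rw [← tsum_pnorm_hom w F]
  refine ENNReal.tsum_le_tsum fun n => ?_
  rw [mul_one]
  exact mul_le_of_le_one_left (zero_le) (choose_two_mul_le ha4 n)

/-! ### the part of degree at least `m` -/

/-- the part of degree at least `m` -/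
def high (m : ℕ) : Gr V →ₗ[ℝ] Gr V := LinearMap.id - ∑ i ∈ Finset.range m, hom i

theorem high_apply (m : ℕ) (F : Gr V) : high m F = F - ∑ i ∈ Finset.range m, hom i F := by
  simp [high]

theorem hom_high (m n : ℕ) (F : Gr V) : hom n (high m F) = if n < m then 0 else hom n F := by
  rw [high_apply, map_sub, map_sum]
  split_ifs with h
  · rw [Finset.sum_eq_single n]
    · rw [hom_hom, if_pos rfl, sub_self]
    · intro i _ hi; rw [hom_hom, if_neg hi]
    · intro h'; exact absurd (Finset.mem_range.2 h) h'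
  · rw [Finset.sum_eq_zero, sub_zero]
    intro i hi
    have := Finset.mem_range.1 hi
    rw [hom_hom, if_neg (by omega)]

theorem high_mono (m : ℕ) (L : List V) :
    high m (mono L) = if L.length < m then 0 else mono L := by
  rw [high_apply]
  split_ifs with h
  · rw [Finset.sum_eq_single L.length]
    · rw [hom_mono, if_pos rfl, sub_self]
    · intro i _ hi; rw [hom_mono, if_neg (Ne.symm hi)]
    · intro h'; exact absurd (Finset.mem_range.2 h) h'
  · rw [Finset.sum_eq_zero, sub_zero]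
    intro i hi
    have := Finset.mem_range.1 hi
    rw [hom_mono, if_neg (by omega)]

theorem pnorm_high_le (w : V → ℝ≥0∞) (m : ℕ) (F : Gr V) : pnorm w (high m F) ≤ pnorm w F :=
  bound_of_mono_one (pnorm_semi w) (high m) (fun L _ => by
    rw [high_mono]
    split_ifs
    · simp
    · exact pnorm_mono_le _ _) F

theorem high_conv (S : Cov V) (m : ℕ) (F : Gr V) :
    high m (conv S F) = high m (conv S (high m F)) := by
  have h1 : conv S F = conv S (high m F) + conv S (∑ i ∈ Finset.range m, hom i F) := by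
    rw [← map_add, high_apply, sub_add_cancel]
  have h2 : high m (conv S (∑ i ∈ Finset.range m, hom i F)) = 0 := by
    have h3 : ∀ n, hom n (high m (conv S (∑ i ∈ Finset.range m, hom i F))) = 0 := by
      intro n
      rw [hom_high]
      split_ifs with hn
      · rfl
      · refine hom_conv_eq_zero S n _ fun j hj => ?_
        rw [map_sum]
        refine Finset.sum_eq_zero fun i hi => ?_
        have := Finset.mem_range.1 hi
        rw [hom_hom, if_neg (by omega)]
    obtain ⟨s, _, hs⟩ := exists_sum_hom (high m (conv S (∑ i ∈ Finset.range m, hom i F)))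
    rw [hs]
    exact Finset.sum_eq_zero fun n _ => h3 n
  rw [h1, map_add, h2, add_zero]

/-- **bulk step for a small polymer**: `conv S F` minus its constant part and minus the local part
(averaged over `f ∈ U`) of its quadratic part. -/
theorem bulk_step {S : Cov V} {g : V → ℝ≥0∞} (hg : Gram S g) (P : V →ₗ[ℝ] V)
    [FiniteDimensional ℝ (LinearMap.range P)] (hr : Module.finrank ℝ (LinearMap.range P) ≤ 2)
    {ι : Type*} (U : Finset ι) (hU : U.Nonempty) (P0 P1 : ι → V →ₗ[ℝ] V)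
    {w w' : V → ℝ≥0∞} {p p0 p1 q q2 a : ℝ≥0∞} (hpt : p ≠ ∞) (hq4 : q ≤ 1 / 4) (hqp : q ≤ p)
    (hp : ∀ l, w' (P l) + g (P l) ≤ p * w l) (hq : ∀ l, w' (l - P l) + g (l - P l) ≤ q * w l)
    (hp0t : p0 ≠ ∞) (hp1t : p1 ≠ ∞) (hq2t : q2 ≠ ∞)
    (hp0 : ∀ f ∈ U, ∀ l, w' (P0 f l) ≤ p0 * w l) (hp1 : ∀ f ∈ U, ∀ l, w' (P1 f l) ≤ p1 * w l)
    (hq2 : ∀ f ∈ U, ∀ l, w' (l - P0 f l - P1 f l) ≤ q2 * w l)
    (ha4 : a ≤ 1 / 4) (ha : ∀ l, g l ≤ a * w l)
    {F : Gr V} (hev : IsEv F) (hF : pnorm w F ≠ ∞) :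
    pnorm w' (conv S F - hom 0 (conv S F) -
        (U.card : ℝ)⁻¹ • ∑ f ∈ U, loc2 (P0 f) (P1 f) (conv S F)) ≤
      (11 * (p ^ 2 * q ^ 2) + (p1 ^ 2 + 2 * (p0 + p1) * q2 + q2 ^ 2)) * pnorm w F := by
  have hcev : IsEv (conv S F) := hev.conv S
  have e1 : conv S F - hom 0 (conv S F) = high 4 (conv S F) + hom 2 (conv S F) := by
    rw [high_apply]
    simp only [Finset.sum_range_succ, Finset.sum_range_zero]
    rw [IsEv.hom_odd hcev odd_one, IsEv.hom_odd hcev (by decide : Odd 3)]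
    abel
  have e2 : conv S F - hom 0 (conv S F) - (U.card : ℝ)⁻¹ • ∑ f ∈ U, loc2 (P0 f) (P1 f) (conv S F) =
      high 4 (conv S (high 4 F)) + (hom 2 (conv S F) - (U.card : ℝ)⁻¹ •
        ∑ f ∈ U, loc2 (P0 f) (P1 f) (conv S F)) := by
    rw [e1, ← high_conv]; abel
  rw [e2, add_mul]
  refine (pnorm_add_le _ _ _).trans (add_le_add ?_ ?_)
  · refine (pnorm_high_le _ _ _).trans ?_
    have hF4 : pnorm w (high 4 F) ≠ ∞ := ne_top_of_le_ne_top hF (pnorm_high_le w 4 F)
    refine (bulk4_step hg P hr hpt hq4 hqp hp hq (F := high 4 F) (fun n hn => ?_) hF4).trans ?_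
    · rw [hom_high, if_pos hn]
    · exact mul_le_mul_right (pnorm_high_le w 4 F) _
  · refine semi_sub_avg (pnorm_semi w') U hU _ _ fun f hf => ?_
    have h2 := hom2_conv_le hg ha4 ha hF
    refine (bulk2 (P0 f) (P1 f) hp0t hp1t hq2t (hp0 f hf) (hp1 f hf) (hq2 f hf)
      (F := conv S F) (ne_top_of_le_ne_top hF h2)).trans ?_
    exact mul_le_mul_right h2 _

end Crest.Agent.R165.PNormx417
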