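import Mathlib
import Crest.Agent.R165.GDef_387

/-!
# Row 165 (S0250), P10: local limits of sums of polymer constants (helper541)

* `dm U` : diameter of a finite set of faces of `ℤ × ℤ` in the sup distance `fd`
* `tail_le` : `∑` over the sets `U` with `fd x u ≤ dm U + C` for some `u ∈ U` and `d0 ≤ dm U`
  of `|c U|` is `≤ b q^{d0} A`, from the pinned bound `∑_{U ∋ f} (q^2)^{-dm U} |c U| ≤ b`
* `local_limit` : one-scale local limit theorem for `∑_U (c¹ - c⁰)(U)`
* `log_limit` : sum over scales (Tannery)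
-/

set_option autoImplicit false

noncomputable section

open Filter Topology
open scoped ENNReal
open Crest.Agent.R165.GDefx387

namespace Crest.Agent.R165.LocLimx541

/-- faces of the plane -/
abbrev Fa : Type := ℤ × ℤ

/-- diameter -/
def dm (U : Finset Fa) : ℕ := (U ×ˢ U).sup fun p => fd p.1 p.2

theorem fd_le_dm {U : Finset Fa} {u v : Fa} (hu : u ∈ U) (hv : v ∈ U) : fd u v ≤ dm U :=
  Finset.le_sup (f := fun p : Fa × Fa => fd p.1 p.2) (Finset.mk_mem_product hu hv)

theorem cn_int (a : ℤ) : CN.cn a = a.natAbs := rfl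

theorem fd_def (f g : Fa) : fd f g = max (f.1 - g.1).natAbs (f.2 - g.2).natAbs := rfl

theorem fd_add (f g x : Fa) : fd (f + x) (g + x) = fd f g := by
  rw [fd_def, fd_def]
  simp

/-- the weight function `q^{(fd x f - C)^+}` is summable -/
theorem summable_q {q : ℝ} (h0 : 0 < q) (h1 : q < 1) (C : ℕ) :
    ∑' f : Fa, ENNReal.ofReal (q ^ (fd (0 : Fa) f - C)) ≠ ∞ := by
  have hs : 0 < Real.sqrt q := Real.sqrt_pos.2 h0
  have hs1 : Real.sqrt q < 1 := by
    rw [Real.sqrt_lt' one_pos]; simpa using h1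
  have hsum : Summable fun a : ℤ => Real.sqrt q ^ a.natAbs := by
    have h2 : Summable fun n : ℕ => Real.sqrt q ^ n := summable_geometric_of_lt_one hs.le hs1
    refine Summable.of_nat_of_neg ?_ ?_
    · simpa using h2
    · simpa using h2
  have hprod : Summable fun f : ℤ × ℤ => Real.sqrt q ^ f.1.natAbs * Real.sqrt q ^ f.2.natAbs :=
    hsum.mul_of_nonneg hsum (fun a => by positivity) (fun a => by positivity)
  have hmaj : Summable fun f : ℤ × ℤ =>
      (q ^ C)⁻¹ * (Real.sqrt q ^ f.1.natAbs * Real.sqrt q ^ f.2.natAbs) := hprod.mul_left _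
  have hle : ∀ f : Fa, q ^ (fd (0 : Fa) f - C) ≤
      (q ^ C)⁻¹ * (Real.sqrt q ^ f.1.natAbs * Real.sqrt q ^ f.2.natAbs) := by
    intro f
    have e1 : fd (0 : Fa) f = max f.1.natAbs f.2.natAbs := by
      rw [fd_def]; simp
    rw [e1, ← pow_add]
    have hq : q = Real.sqrt q ^ 2 := (Real.sq_sqrt h0.le).symm
    have h3 : q ^ (max f.1.natAbs f.2.natAbs) ≤ Real.sqrt q ^ (f.1.natAbs + f.2.natAbs) := by
      conv_lhs => rw [hq]
      rw [← pow_mul]
      exact pow_le_pow_of_le_one hs.le hs1.le (by omega)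
    have h4 : q ^ (max f.1.natAbs f.2.natAbs - C) * q ^ C ≤
        Real.sqrt q ^ (f.1.natAbs + f.2.natAbs) := by
      rw [← pow_add]
      refine le_trans ?_ h3
      exact pow_le_pow_of_le_one h0.le h1.le (by omega)
    have hC : 0 < q ^ C := pow_pos h0 C
    rw [← div_eq_inv_mul, le_div_iff₀ hC]
    exact h4
  have hs2 : Summable fun f : Fa => q ^ (fd (0 : Fa) f - C) :=
    Summable.of_nonneg_of_le (fun f => by positivity) hle hmaj
  have := ENNReal.ofReal_tsum_of_nonneg (f := fun f : Fa => q ^ (fd (0 : Fa) f - C))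
    (fun f => by positivity) hs2
  rw [← this]
  exact ENNReal.ofReal_ne_top

/-- the constant `A` -/
def AA (q : ℝ) (C : ℕ) : ℝ≥0∞ := ∑' f : Fa, ENNReal.ofReal (q ^ (fd (0 : Fa) f - C))

theorem AA_translate (q : ℝ) (C : ℕ) (x : Fa) :
    ∑' f : Fa, ENNReal.ofReal (q ^ (fd x f - C)) = AA q C := by
  unfold AA
  rw [← (Equiv.addRight x).tsum_eq (fun f : Fa => ENNReal.ofReal (q ^ (fd x f - C)))]
  refine tsum_congr fun f => ?_
  have : fd x (f + x) = fd 0 f := by
    have := fd_add 0 f x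
    rwa [zero_add] at this
  simp only [Equiv.coe_addRight]
  rw [this]

/-- the set `U` sees the point `x` -/
def Sees (C : ℕ) (x : Fa) (U : Finset Fa) : Prop := ∃ u ∈ U, fd x u ≤ dm U + C

open Classical in
/-- pinned norm of a family of constants -/
def pin (q : ℝ) (c : Finset Fa → ℝ) (f : Fa) : ℝ≥0∞ :=
  ∑' U : Finset Fa, if f ∈ U then ENNReal.ofReal ((q ^ (2 * dm U))⁻¹) * ‖c U‖ₑ else 0

open Classical in
/-- **tail bound** -/
theorem tail_le {q : ℝ} (h0 : 0 < q) (h1 : q < 1) (C : ℕ) (c : Finset Fa → ℝ) {b : ℝ≥0∞}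
    (hpin : ∀ f, pin q c f ≤ b) (x : Fa) (d0 : ℕ) :
    ∑' U : Finset Fa, (if Sees C x U ∧ d0 ≤ dm U then ‖c U‖ₑ else 0) ≤
      b * ENNReal.ofReal (q ^ d0) * AA q C := by
  have key : ∀ U : Finset Fa, (if Sees C x U ∧ d0 ≤ dm U then ‖c U‖ₑ else 0) ≤
      ∑' f : Fa, (if f ∈ U then ENNReal.ofReal (q ^ d0) * ENNReal.ofReal (q ^ (fd x f - C)) *
        (ENNReal.ofReal ((q ^ (2 * dm U))⁻¹) * ‖c U‖ₑ) else 0) := by
    intro U
    split_ifs with h
    · obtain ⟨⟨u, hu, hxu⟩, hd⟩ := h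
      refine le_trans ?_ (ENNReal.le_tsum u)
      rw [if_pos hu]
      have e1 : (1 : ℝ) ≤ q ^ d0 * q ^ (fd x u - C) * (q ^ (2 * dm U))⁻¹ := by
        have hq2 : 0 < q ^ (2 * dm U) := pow_pos h0 _
        rw [← div_eq_mul_inv, le_div_iff₀ hq2, one_mul, ← pow_add]
        exact pow_le_pow_of_le_one h0.le h1.le (by omega)
      calc ‖c U‖ₑ = 1 * ‖c U‖ₑ := (one_mul _).symm
        _ ≤ ENNReal.ofReal (q ^ d0 * q ^ (fd x u - C) * (q ^ (2 * dm U))⁻¹) * ‖c U‖ₑ := by
            gcongr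
            rw [← ENNReal.ofReal_one]
            exact ENNReal.ofReal_le_ofReal e1
        _ = _ := by
            rw [ENNReal.ofReal_mul (by positivity), ENNReal.ofReal_mul (by positivity)]
            ring
    · exact zero_le
  calc _ ≤ ∑' U : Finset Fa, ∑' f : Fa, (if f ∈ U then ENNReal.ofReal (q ^ d0) *
        ENNReal.ofReal (q ^ (fd x f - C)) *
        (ENNReal.ofReal ((q ^ (2 * dm U))⁻¹) * ‖c U‖ₑ) else 0) := ENNReal.tsum_le_tsum key
    _ = ∑' f : Fa, ∑' U : Finset Fa, (if f ∈ U then ENNReal.ofReal (q ^ d0) *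
        ENNReal.ofReal (q ^ (fd x f - C)) *
        (ENNReal.ofReal ((q ^ (2 * dm U))⁻¹) * ‖c U‖ₑ) else 0) := ENNReal.tsum_comm
    _ = ∑' f : Fa, ENNReal.ofReal (q ^ d0) * ENNReal.ofReal (q ^ (fd x f - C)) * pin q c f := by
        refine tsum_congr fun f => ?_
        unfold pin
        rw [← ENNReal.tsum_mul_left]
        refine tsum_congr fun U => ?_
        split_ifs <;> simp
    _ ≤ ∑' f : Fa, ENNReal.ofReal (q ^ d0) * ENNReal.ofReal (q ^ (fd x f - C)) * b := by
        refine ENNReal.tsum_le_tsum fun f => ?_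
        gcongr
        exact hpin f
    _ = b * ENNReal.ofReal (q ^ d0) * AA q C := by
        rw [ENNReal.tsum_mul_right, ENNReal.tsum_mul_left, AA_translate]
        ring

/-! ### translations -/

/-- translation of face sets -/
def shE (x : Fa) : Finset Fa ≃ Finset Fa := Equiv.finsetCongr (Equiv.addRight x)

theorem mem_shE {x u : Fa} {U : Finset Fa} : u ∈ shE x U ↔ u - x ∈ U := by
  unfold shE
  simp only [Equiv.finsetCongr_apply, Finset.mem_map_equiv, Equiv.addRight_symm,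
    Equiv.coe_addRight, sub_eq_add_neg]

theorem add_mem_shE {x u : Fa} {U : Finset Fa} : u + x ∈ shE x U ↔ u ∈ U := by
  rw [mem_shE, add_sub_cancel_right]

theorem fd_sub (f g x : Fa) : fd (f - x) (g - x) = fd f g := by
  rw [sub_eq_add_neg, sub_eq_add_neg, fd_add]

theorem dm_shE (x : Fa) (U : Finset Fa) : dm (shE x U) = dm U := by
  apply le_antisymm
  · unfold dm
    refine Finset.sup_le fun p hp => ?_
    rw [Finset.mem_product, mem_shE, mem_shE] at hp
    rw [← fd_sub p.1 p.2 x]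
    exact fd_le_dm hp.1 hp.2
  · unfold dm
    refine Finset.sup_le fun p hp => ?_
    rw [Finset.mem_product] at hp
    rw [← fd_add p.1 p.2 x]
    exact fd_le_dm (add_mem_shE.2 hp.1) (add_mem_shE.2 hp.2)

theorem sees_shE {C : ℕ} (x : Fa) (U : Finset Fa) : Sees C x (shE x U) ↔ Sees C 0 U := by
  unfold Sees
  rw [dm_shE]
  constructor
  · rintro ⟨u, hu, h⟩
    refine ⟨u - x, mem_shE.1 hu, ?_⟩
    rw [← fd_sub x u x, sub_self] at h
    exact h
  · rintro ⟨u, hu, h⟩
    refine ⟨u + x, add_mem_shE.2 hu, ?_⟩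
    rw [← fd_add 0 u x, zero_add] at h
    exact h

/-- the data of a one-scale local limit -/
structure LocData {I : Type*} (𝓕 : Filter I) (n : ℕ) (q : ℝ) (C : ℕ) (b : ℝ≥0∞)
    (c1 c0 : I → Finset Fa → ℝ) (r1 r0 : Finset Fa → ℝ) (x : I → Fin n → Fa) : Prop where
  pin1 : ∀ᶠ i in 𝓕, ∀ f, pin q (c1 i) f ≤ b
  pin0 : ∀ᶠ i in 𝓕, ∀ f, pin q (c0 i) f ≤ b
  pinr1 : ∀ f, pin q r1 f ≤ b
  pinr0 : ∀ f, pin q r0 f ≤ b
  sees : ∀ᶠ i in 𝓕, ∀ U, c1 i U ≠ c0 i U → ∃ l, Sees C (x i l) U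
  seesr : ∀ U, r1 U ≠ r0 U → Sees C 0 U
  sep : ∀ M : ℕ, ∀ᶠ i in 𝓕, ∀ l l', l ≠ l' → M < fd (x i l) (x i l')
  loc : ∀ M : ℕ, ∀ᶠ i in 𝓕, ∀ l, ∀ U : Finset Fa, (∀ u ∈ U, fd 0 u ≤ M) →
    c1 i (shE (x i l) U) = r1 U ∧ c0 i (shE (x i l) U) = r0 U

open Classical in
/-- pinned norm of a difference -/
theorem pin_sub_le {q : ℝ} {c1 c0 : Finset Fa → ℝ} {b : ℝ≥0∞} {f : Fa} (h1 : pin q c1 f ≤ b)
    (h0 : pin q c0 f ≤ b) : pin q (fun U => c1 U - c0 U) f ≤ 2 * b := by
  have h2 : pin q (fun U => c1 U - c0 U) f ≤ pin q c1 f + pin q c0 f := by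
    unfold pin
    rw [← ENNReal.tsum_add]
    refine ENNReal.tsum_le_tsum fun U => ?_
    split_ifs
    · rw [← mul_add]
      gcongr
      exact enorm_sub_le
    · simp
  calc _ ≤ _ := h2
    _ ≤ b + b := add_le_add h1 h0
    _ = 2 * b := (two_mul b).symm

open Classical in
/-- a real family supported on sets seeing one of the points: absolute bound and tail bound -/
theorem sum_bound {q : ℝ} (h0 : 0 < q) (h1 : q < 1) {C n : ℕ} {g : Finset Fa → ℝ} {b : ℝ≥0∞}
    (hpin : ∀ f, pin q g f ≤ b) {x : Fin n → Fa} (d0 : ℕ) {p : Finset Fa → Prop}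
    [DecidablePred p] (hp : ∀ U, g U ≠ 0 → p U → ∃ l, Sees C (x l) U ∧ d0 ≤ dm U) :
    ∑' U : Finset Fa, ‖(if p U then g U else 0)‖ₑ ≤ n * (b * ENNReal.ofReal (q ^ d0) * AA q C) := by
  have key : ∀ U : Finset Fa, ‖(if p U then g U else 0)‖ₑ ≤
      ∑ l : Fin n, (if Sees C (x l) U ∧ d0 ≤ dm U then ‖g U‖ₑ else 0) := by
    intro U
    by_cases hU : p U
    · by_cases hg : g U = 0
      · simp [hg]
      · obtain ⟨l, hl⟩ := hp U hg hU
        rw [if_pos hU]
        refine le_trans ?_ (Finset.single_le_sum (fun _ _ => zero_le) (Finset.mem_univ l))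
        rw [if_pos hl]
    · simp [hU]
  calc _ ≤ ∑' U : Finset Fa, ∑ l : Fin n, (if Sees C (x l) U ∧ d0 ≤ dm U then ‖g U‖ₑ else 0) :=
        ENNReal.tsum_le_tsum key
    _ = ∑ l : Fin n, ∑' U : Finset Fa, (if Sees C (x l) U ∧ d0 ≤ dm U then ‖g U‖ₑ else 0) :=
        Summable.tsum_finsetSum fun _ _ => ENNReal.summable
    _ ≤ ∑ _l : Fin n, (b * ENNReal.ofReal (q ^ d0) * AA q C) :=
        Finset.sum_le_sum fun l _ => tail_le h0 h1 C g hpin (x l) d0
    _ = _ := by simp

theorem summable_of_enorm {g : Finset Fa → ℝ} (h : ∑' U, ‖g U‖ₑ ≠ ∞) : Summable g := by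
  have : Summable fun U => ‖g U‖ := by
    have h2 : ∑' U, ENNReal.ofReal ‖g U‖ ≠ ∞ := by
      simpa only [ofReal_norm] using h
    have h3 := ENNReal.summable_toReal h2
    refine h3.congr fun U => ?_
    rw [ENNReal.toReal_ofReal (norm_nonneg _)]
  exact this.of_norm

theorem abs_tsum_le {g : Finset Fa → ℝ} {B : ℝ≥0∞} (hB : B ≠ ∞) (h : ∑' U, ‖g U‖ₑ ≤ B) :
    |∑' U, g U| ≤ B.toReal := by
  have hne : ∑' U, ‖g U‖ₑ ≠ ∞ := ne_top_of_le_ne_top hB h
  have hs : Summable fun U => ‖g U‖ := by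
    have h2 : ∑' U, ENNReal.ofReal ‖g U‖ ≠ ∞ := by
      simpa only [ofReal_norm] using hne
    have h3 := ENNReal.summable_toReal h2
    refine h3.congr fun U => ?_
    rw [ENNReal.toReal_ofReal (norm_nonneg _)]
  have h1 := norm_tsum_le_tsum_norm hs
  rw [Real.norm_eq_abs] at h1
  refine h1.trans ?_
  rw [← ENNReal.ofReal_le_iff_le_toReal hB, ENNReal.ofReal_tsum_of_nonneg (fun _ => norm_nonneg _) hs]
  simpa only [ofReal_norm] using h

section main

variable {I : Type*} {𝓕 : Filter I} {n : ℕ} {q : ℝ} {C : ℕ} {b : ℝ≥0∞}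
  {c1 c0 : I → Finset Fa → ℝ} {r1 r0 : Finset Fa → ℝ} {x : I → Fin n → Fa}

open Classical in
/-- the sum is absolutely bounded, uniformly -/
theorem LocData.bound (h0 : 0 < q) (h1 : q < 1) (H : LocData 𝓕 n q C b c1 c0 r1 r0 x)
    (hb : b ≠ ∞) : ∀ᶠ i in 𝓕, Summable (fun U => c1 i U - c0 i U) ∧
      |∑' U, (c1 i U - c0 i U)| ≤ n * (2 * b * AA q C).toReal := by
  have hA : AA q C ≠ ∞ := summable_q h0 h1 C
  filter_upwards [H.pin1, H.pin0, H.sees] with i hi1 hi0 his
  have h2 := sum_bound h0 h1 (C := C) (g := fun U => c1 i U - c0 i U) (b := 2 * b)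
    (fun f => pin_sub_le (hi1 f) (hi0 f)) (x := x i) 0 (p := fun _ => True)
    (fun U hU _ => by
      obtain ⟨l, hl⟩ := his U (sub_ne_zero.1 hU)
      exact ⟨l, hl, Nat.zero_le _⟩)
  simp only [if_true, pow_zero, ENNReal.ofReal_one, mul_one] at h2
  have hB : (n : ℝ≥0∞) * (2 * b * AA q C) ≠ ∞ :=
    ENNReal.mul_ne_top (by simp) (ENNReal.mul_ne_top (ENNReal.mul_ne_top (by simp) hb) hA)
  refine ⟨summable_of_enorm (ne_top_of_le_ne_top hB h2), ?_⟩
  have := abs_tsum_le hB h2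
  rwa [ENNReal.toReal_mul, ENNReal.toReal_natCast] at this

open Classical in
/-- **one-scale local limit** -/
theorem LocData.limit (h0 : 0 < q) (h1 : q < 1) (H : LocData 𝓕 n q C b c1 c0 r1 r0 x)
    (hb : b ≠ ∞) : Tendsto (fun i => ∑' U, (c1 i U - c0 i U)) 𝓕
      (𝓝 (n * ∑' U, (r1 U - r0 U))) := by
  have hA : AA q C ≠ ∞ := summable_q h0 h1 C
  rw [Metric.tendsto_nhds]
  intro ε hε
  -- choose `d0`
  set B : ℝ := (2 * b * AA q C).toReal with hBdef
  have hB0 : 0 ≤ B := ENNReal.toReal_nonneg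
  obtain ⟨d0, hd0⟩ : ∃ d0 : ℕ, 2 * n * (B * q ^ d0) < ε := by
    have h2 : Tendsto (fun d : ℕ => 2 * (n : ℝ) * (B * q ^ d)) atTop (𝓝 (2 * n * (B * 0))) :=
      ((tendsto_pow_atTop_nhds_zero_of_lt_one h0.le h1).const_mul B).const_mul _
    simp only [mul_zero] at h2
    exact (h2.eventually (gt_mem_nhds hε)).exists
  set M : ℕ := 2 * d0 + C with hM
  filter_upwards [H.pin1, H.pin0, H.sees, H.sep (2 * M), H.loc M] with i hi1 hi0 his hsep hloc
  set g : Finset Fa → ℝ := fun U => c1 i U - c0 i U with hg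
  set r : Finset Fa → ℝ := fun U => r1 U - r0 U with hr
  have hpg : ∀ f, pin q g f ≤ 2 * b := fun f => pin_sub_le (hi1 f) (hi0 f)
  have hpr : ∀ f, pin q r f ≤ 2 * b := fun f => pin_sub_le (H.pinr1 f) (H.pinr0 f)
  -- the near classes
  let P : Fin n → Finset Fa → Prop := fun l U => Sees C (x i l) U ∧ dm U < d0
  let Pr : Finset Fa → Prop := fun U => Sees C 0 U ∧ dm U < d0
  have hnear : ∀ (z : Fa) (U : Finset Fa), Sees C z U → dm U < d0 → ∀ u ∈ U, fd z u ≤ M := by
    intro z U hU hd u hu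
    obtain ⟨v, hv, hzv⟩ := hU
    have h3 := fd_triangle z v u
    have h4 := fd_le_dm hv hu
    omega
  have hnonempty : ∀ (z : Fa) (U : Finset Fa), Sees C z U → ∃ u, u ∈ U := by
    rintro z U ⟨v, hv, -⟩
    exact ⟨v, hv⟩
  have hdisj : ∀ l l' U, P l U → P l' U → l = l' := by
    intro l l' U hl hl'
    by_contra hne
    obtain ⟨u, hu⟩ := hnonempty _ _ hl.1
    have h3 := hnear _ _ hl.1 hl.2 u hu
    have h4 := hnear _ _ hl'.1 hl'.2 u hu
    have h5 := fd_triangle (x i l) u (x i l')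
    rw [fd_comm u (x i l')] at h5
    have := hsep l l' hne
    omega
  -- pointwise decomposition
  have hdec : ∀ U, g U = (∑ l, if P l U then g U else 0) +
      (if (∀ l, ¬ P l U) then g U else 0) := by
    intro U
    by_cases hU : ∃ l, P l U
    · obtain ⟨l, hl⟩ := hU
      have h3 : ¬ (∀ l, ¬ P l U) := fun h => h l hl
      rw [if_neg h3, add_zero, Finset.sum_eq_single l]
      · rw [if_pos hl]
      · intro l' _ hne
        rw [if_neg fun h => hne (hdisj _ _ _ h hl)]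
      · intro h
        exact absurd (Finset.mem_univ l) h
    · push Not at hU
      rw [if_pos hU]
      rw [Finset.sum_eq_zero fun l _ => if_neg (hU l), zero_add]
  -- far part
  have hfar := sum_bound h0 h1 (C := C) (g := g) (b := 2 * b) hpg (x := x i) d0
    (p := fun U => ∀ l, ¬ P l U) (fun U hU hp => by
      obtain ⟨l, hl⟩ := his U (sub_ne_zero.1 hU)
      refine ⟨l, hl, ?_⟩
      by_contra hcon
      push Not at hcon
      exact hp l ⟨hl, hcon⟩)
  have hfarr := sum_bound h0 h1 (C := C) (g := r) (b := 2 * b) hpr (x := fun _ : Fin 1 => (0 : Fa))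
    d0 (p := fun U => ¬ Pr U) (fun U hU hp => by
      have hl := H.seesr U (sub_ne_zero.1 hU)
      refine ⟨0, hl, ?_⟩
      by_contra hcon
      push Not at hcon
      exact hp ⟨hl, hcon⟩)
  have hq0 : (0 : ℝ) ≤ q ^ d0 := by positivity
  have htop : ∀ N : ℕ, (N : ℝ≥0∞) * (2 * b * ENNReal.ofReal (q ^ d0) * AA q C) ≠ ∞ := fun N =>
    ENNReal.mul_ne_top (by simp) (ENNReal.mul_ne_top (ENNReal.mul_ne_top
      (ENNReal.mul_ne_top (by simp) hb) (by simp)) hA)
  have htoR : ∀ N : ℕ, ((N : ℝ≥0∞) * (2 * b * ENNReal.ofReal (q ^ d0) * AA q C)).toReal =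
      N * (B * q ^ d0) := by
    intro N
    rw [hBdef]
    simp only [ENNReal.toReal_mul, ENNReal.toReal_natCast, ENNReal.toReal_ofReal hq0]
    ring
  have habs := abs_tsum_le (htop n) hfar
  have habsr := abs_tsum_le (htop 1) hfarr
  rw [htoR] at habs habsr
  have hsfar := summable_of_enorm (ne_top_of_le_ne_top (htop n) hfar)
  have hsfarr := summable_of_enorm (ne_top_of_le_ne_top (htop 1) hfarr)
  -- near part
  have hsg : Summable g := by
    have h2 := sum_bound h0 h1 (C := C) (g := g) (b := 2 * b) hpg (x := x i) 0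
      (p := fun _ => True) (fun U hU _ => by
        obtain ⟨l, hl⟩ := his U (sub_ne_zero.1 hU)
        exact ⟨l, hl, Nat.zero_le _⟩)
    simp only [if_true, pow_zero, ENNReal.ofReal_one, mul_one] at h2
    exact summable_of_enorm (ne_top_of_le_ne_top (ENNReal.mul_ne_top (by simp)
      (ENNReal.mul_ne_top (ENNReal.mul_ne_top (by simp) hb) hA)) h2)
  have hsr : Summable r := by
    have h2 := sum_bound h0 h1 (C := C) (g := r) (b := 2 * b) hpr (x := fun _ : Fin 1 => (0 : Fa)) 0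
      (p := fun _ => True) (fun U hU _ => ⟨0, H.seesr U (sub_ne_zero.1 hU), Nat.zero_le _⟩)
    simp only [if_true, pow_zero, ENNReal.ofReal_one, mul_one] at h2
    exact summable_of_enorm (ne_top_of_le_ne_top (ENNReal.mul_ne_top (by simp)
      (ENNReal.mul_ne_top (ENNReal.mul_ne_top (by simp) hb) hA)) h2)
  have hind : ∀ (p : Finset Fa → Prop) [DecidablePred p] (h : Finset Fa → ℝ), Summable h →
      Summable fun U => if p U then h U else 0 := by
    intro p _ h hh
    have := hh.indicator {U | p U}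
    refine this.congr fun U => ?_
    by_cases hU : p U
    · rw [Set.indicator_of_mem (show U ∈ {U | p U} from hU), if_pos hU]
    · rw [Set.indicator_of_notMem (show U ∉ {U | p U} from hU), if_neg hU]
  have hXl : ∀ l, ∑' U, (if P l U then g U else 0) = ∑' U, (if Pr U then r U else 0) := by
    intro l
    rw [← (shE (x i l)).tsum_eq (fun U => if P l U then g U else 0)]
    refine tsum_congr fun U => ?_
    have hiff : P l (shE (x i l) U) ↔ Pr U := by
      show Sees C (x i l) (shE (x i l) U) ∧ dm (shE (x i l) U) < d0 ↔ Sees C 0 U ∧ dm U < d0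
      rw [sees_shE, dm_shE]
    by_cases hU : Pr U
    · rw [if_pos (hiff.2 hU), if_pos hU]
      have h3 := hloc l U (hnear 0 U hU.1 hU.2)
      rw [hg, hr]
      simp only [h3.1, h3.2]
    · rw [if_neg (fun h => hU (hiff.1 h)), if_neg hU]
  set X := ∑' U, (if Pr U then r U else 0) with hX
  have hsum1 : ∑' U, g U = n * X + ∑' U, (if (∀ l, ¬ P l U) then g U else 0) := by
    have e1 : ∑' U, g U = ∑' U, ((∑ l, if P l U then g U else 0) +
      (if (∀ l, ¬ P l U) then g U else 0)) := tsum_congr hdec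
    have e2 : HasSum (fun U => ∑ l, if P l U then g U else 0) (∑ _l : Fin n, X) := by
      refine hasSum_sum fun l _ => ?_
      rw [← hXl l]
      exact (hind (P l) g hsg).hasSum
    rw [e1, (e2.add hsfar.hasSum).tsum_eq]
    simp
  have hsum2 : ∑' U, r U = X + ∑' U, (if ¬ Pr U then r U else 0) := by
    have e1 : ∑' U, r U = ∑' U, ((if Pr U then r U else 0) + (if ¬ Pr U then r U else 0)) := by
      refine tsum_congr fun U => ?_
      by_cases hU : Pr U <;> simp [hU]
    rw [e1, ((hind Pr r hsr).hasSum.add hsfarr.hasSum).tsum_eq]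
  rw [Real.dist_eq, hsum1, hsum2]
  set F1 := ∑' U, (if (∀ l, ¬ P l U) then g U else 0)
  set F2 := ∑' U, (if ¬ Pr U then r U else 0)
  have e2 : (n : ℝ) * X + F1 - n * (X + F2) = F1 - n * F2 := by ring
  rw [e2]
  have h6 : |F1 - n * F2| ≤ |F1| + n * |F2| := by
    refine (abs_sub _ _).trans ?_
    rw [abs_mul, Nat.abs_cast]
  have h7 : (n : ℝ) * |F2| ≤ n * (B * q ^ d0) := by
    have : |F2| ≤ B * q ^ d0 := by
      rw [Nat.cast_one, one_mul] at habsr
      exact habsr
    exact mul_le_mul_of_nonneg_left this (by positivity)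
  linarith

/-- **sum over scales** (dominated convergence) and exponentiation -/
theorem log_limit {S : I → ℕ → ℝ} {K : I → ℕ} {ζ : ℕ → ℝ} {n : ℕ} {bd : ℕ → ℝ} (hbd : Summable bd)
    (hK : Tendsto K 𝓕 atTop) (hS : ∀ᶠ i in 𝓕, ∀ k < K i, |S i k| ≤ bd k)
    (hbd0 : ∀ k, 0 ≤ bd k)
    (hlim : ∀ k, Tendsto (fun i => S i k) 𝓕 (𝓝 (n * ζ k))) :
    Tendsto (fun i => ∑ k ∈ Finset.range (K i), S i k) 𝓕 (𝓝 (n * ∑' k, ζ k)) := by
  have h1 : Tendsto (fun i => ∑' k, (if k < K i then S i k else 0)) 𝓕 (𝓝 (∑' k, (n * ζ k))) := by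
    refine tendsto_tsum_of_dominated_convergence hbd ?_ ?_
    · intro k
      refine (hlim k).congr' ?_
      filter_upwards [hK.eventually (eventually_gt_atTop k)] with i hi
      rw [if_pos hi]
    · filter_upwards [hS] with i hi k
      by_cases hk : k < K i
      · rw [if_pos hk, Real.norm_eq_abs]
        exact hi k hk
      · rw [if_neg hk, norm_zero]
        exact hbd0 k
  rw [tsum_mul_left] at h1
  refine h1.congr fun i => ?_
  rw [tsum_eq_sum (s := Finset.range (K i))]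
  · refine Finset.sum_congr rfl fun k hk => ?_
    rw [if_pos (Finset.mem_range.1 hk)]
  · intro k hk
    rw [if_neg fun h => hk (Finset.mem_range.2 h)]

end main

end Crest.Agent.R165.LocLimx541
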