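import Crest.Agent.R165.Emb_622
import Crest.Agent.R165.PotB_894

/-!
# Row 165 (S0250), U4/MAC (helper622): from `L²` convergence to pointwise convergence

`upgrade`: let `u_k` be 5-point harmonic at all faces `f` with `a_k f` in a ball about `z₀`; if
`emb (a_k) (u_k) → Φ` in `L²` of the ball, `Φ` bounded there and continuous at `z₀`, then
`u_k (f_k) → Φ z₀` for all faces `f_k` with `a_k f_k → z₀`.
-/

set_option autoImplicit false

noncomputable section

open MeasureTheory Filter Topology Set Metric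
open Crest.ProbabilityR.IsingModel
open Crest.Agent.R165.Embx622 Crest.Agent.R165.PotAx894 Crest.Agent.R165.PotBx894

namespace Crest.Agent.R165.Upx622

/-- distance of a point from the corner of its cell -/
theorem norm_mesh_sub {a : ℝ} (ha : 0 < a) (z : ℂ) :
    ‖meshPoint a (meshIndex a z) - z‖ ≤ 2 * a := by
  have h : z ∈ cell a (meshIndex a z) := rfl
  rw [mem_cell' ha] at h
  obtain ⟨⟨h1, h2⟩, h3, h4⟩ := h
  refine (Complex.norm_le_abs_re_add_abs_im _).trans ?_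
  have e1 : |(meshPoint a (meshIndex a z) - z).re| ≤ a := by
    rw [Complex.sub_re, abs_le]
    simp only [meshPoint]
    constructor <;> nlinarith
  have e2 : |(meshPoint a (meshIndex a z) - z).im| ≤ a := by
    rw [Complex.sub_im, abs_le]
    simp only [meshPoint]
    constructor <;> nlinarith
  linarith

theorem norm_cell_sub {a : ℝ} (ha : 0 < a) {f : ℤ × ℤ} {z : ℂ} (hz : z ∈ cell a f) :
    ‖meshPoint a f - z‖ ≤ 2 * a := by
  rw [mem_cell] at hz
  rw [← hz]
  exact norm_mesh_sub ha z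

theorem meshPoint_sub (a : ℝ) (f g : ℤ × ℤ) :
    ‖meshPoint a f - meshPoint a g‖ ≤ |a| * (|((f.1 - g.1 : ℤ) : ℝ)| + |((f.2 - g.2 : ℤ) : ℝ)|) := by
  refine (Complex.norm_le_abs_re_add_abs_im _).trans ?_
  rw [Complex.sub_re, Complex.sub_im]
  simp only [meshPoint]
  rw [← mul_sub, ← mul_sub, abs_mul, abs_mul]
  push_cast
  linarith

theorem abs_le_meshPoint_sub (a : ℝ) (f g : ℤ × ℤ) :
    |a| * |((f.1 - g.1 : ℤ) : ℝ)| ≤ ‖meshPoint a f - meshPoint a g‖ ∧
    |a| * |((f.2 - g.2 : ℤ) : ℝ)| ≤ ‖meshPoint a f - meshPoint a g‖ := by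
  have h1 := Complex.abs_re_le_norm (meshPoint a f - meshPoint a g)
  have h2 := Complex.abs_im_le_norm (meshPoint a f - meshPoint a g)
  rw [Complex.sub_re] at h1
  rw [Complex.sub_im] at h2
  simp only [meshPoint] at h1 h2 ⊢
  rw [← mul_sub, abs_mul] at h1 h2
  push_cast
  exact ⟨h1, h2⟩

/-- sums over finitely many cells are bounded by the integral over any set containing them -/
theorem sum_le_lintegral {a : ℝ} (ha : 0 < a) (s : Finset (ℤ × ℤ)) (g : ℤ × ℤ → ENNReal)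
    {B : Set ℂ} (hB : MeasurableSet B) (hs : ∀ f ∈ s, cell a f ⊆ B) :
    ENNReal.ofReal (a ^ 2) * ∑ f ∈ s, g f ≤ ∫⁻ z in B, emb a g z := by
  have h1 : ∑ f ∈ s, g f = ∑' f, (s : Set (ℤ × ℤ)).indicator g f := by
    rw [tsum_eq_sum (s := s)]
    · exact Finset.sum_congr rfl fun f hf => by simp [hf]
    · intro f hf; simp [hf]
  rw [h1, ← lintegral_emb ha, ← lintegral_indicator hB]
  refine lintegral_mono fun z => ?_
  unfold emb
  by_cases hz : meshIndex a z ∈ s
  · rw [indicator_of_mem (by simpa using hz), indicator_of_mem (hs _ hz rfl)]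
  · rw [indicator_of_notMem (by simpa using hz)]
    exact zero_le

/-- differences along a box -/
theorem sub_le_of_D {u : ℤ × ℤ → ℝ} {c : ℤ × ℤ} {n : ℕ} {G : ℝ}
    (h : ∀ z ∈ Q c n, |D1 u z| ≤ G ∧ |D2 u z| ≤ G) {f g : ℤ × ℤ} (hf : f ∈ Q c n)
    (hg : g ∈ Q c n) :
    |u f - u g| ≤ G * (|((f.1 - g.1 : ℤ) : ℝ)| + |((f.2 - g.2 : ℤ) : ℝ)|) := by
  rw [mem_Q] at hf hg
  simp only [abs_le] at hf hg
  -- one dimensional estimate
  have key : ∀ (v : ℤ → ℝ) (i j : ℤ), i ≤ j → (∀ l, i ≤ l → l < j → |v (l + 1) - v l| ≤ G) →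
      |v j - v i| ≤ G * |((j - i : ℤ) : ℝ)| := by
    intro v i j hij hv
    rw [← sum_Ico_telescope v hij]
    refine (Finset.abs_sum_le_sum_abs _ _).trans ?_
    refine (Finset.sum_le_sum (g := fun _ => G) fun l hl => ?_).trans ?_
    · rw [Finset.mem_Ico] at hl; exact hv l hl.1 hl.2
    · rw [Finset.sum_const, Int.card_Ico, nsmul_eq_mul]
      have : ((j - i).toNat : ℝ) = |((j - i : ℤ) : ℝ)| := by
        rw [abs_of_nonneg (by exact_mod_cast (by omega : (0:ℤ) ≤ j - i))]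
        have : ((j - i).toNat : ℤ) = j - i := Int.toNat_of_nonneg (by omega)
        exact_mod_cast this
      rw [this]; linarith
  have key' : ∀ (v : ℤ → ℝ) (i j : ℤ), (∀ l, min i j ≤ l → l < max i j → |v (l + 1) - v l| ≤ G) →
      |v j - v i| ≤ G * |((j - i : ℤ) : ℝ)| := by
    intro v i j hv
    rcases le_total i j with hij | hij
    · exact key v i j hij (by rwa [min_eq_left hij, max_eq_right hij] at hv)
    · rw [abs_sub_comm]
      have := key v j i hij (by rwa [min_eq_right hij, max_eq_left hij] at hv)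
      rw [show ((j - i : ℤ) : ℝ) = -((i - j : ℤ) : ℝ) by push_cast; ring, abs_neg]
      exact this
  have s1 : |u (f.1, f.2) - u (g.1, f.2)| ≤ G * |((f.1 - g.1 : ℤ) : ℝ)| := by
    refine key' (fun l => u (l, f.2)) g.1 f.1 fun l h1 h2 => ?_
    have hm : (l, f.2) ∈ Q c n := by
      rw [mem_Q]
      simp only [abs_le]
      refine ⟨⟨?_, ?_⟩, hf.2⟩
      · rcases min_le_iff.1 h1 with h | h <;> omega
      · rcases lt_max_iff.1 h2 with h | h <;> omega
    have := (h _ hm).1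
    simpa [D1, e1] using this
  have s2 : |u (g.1, f.2) - u (g.1, g.2)| ≤ G * |((f.2 - g.2 : ℤ) : ℝ)| := by
    refine key' (fun l => u (g.1, l)) g.2 f.2 fun l h1 h2 => ?_
    have hm : (g.1, l) ∈ Q c n := by
      rw [mem_Q]
      simp only [abs_le]
      refine ⟨hg.1, ?_, ?_⟩
      · rcases min_le_iff.1 h1 with h | h <;> omega
      · rcases lt_max_iff.1 h2 with h | h <;> omega
    have := (h _ hm).2
    simpa [D2, e2] using this
  have s3 : |u f - u g| ≤ |u (f.1, f.2) - u (g.1, f.2)| + |u (g.1, f.2) - u (g.1, g.2)| := by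
    have : u f - u g = (u (f.1, f.2) - u (g.1, f.2)) + (u (g.1, f.2) - u (g.1, g.2)) := by ring
    rw [this]; exact abs_add_le _ _
  linarith

/-- Lipschitz estimate for a harmonic function with `L²` bound on a ball -/
theorem lip_est {a : ℝ} (ha : 0 < a) {u : ℤ × ℤ → ℝ} {z₀ : ℂ} {ρ : ℝ} (haρ : a ≤ ρ / 128)
    (harm : ∀ f, ‖meshPoint a f - z₀‖ < ρ → lap u f = 0) {M : ℝ} (hM0 : 0 ≤ M)
    (hM : ∫⁻ z in ball z₀ ρ, ENNReal.ofReal ((emb a u z) ^ 2) ≤ ENNReal.ofReal (M ^ 2))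
    {f g : ℤ × ℤ} (hf : ‖meshPoint a f - z₀‖ ≤ ρ / 128) (hg : ‖meshPoint a g - z₀‖ ≤ ρ / 128) :
    |u f - u g| ≤ 1554048 * M / ρ ^ 2 * ‖meshPoint a f - meshPoint a g‖ := by
  have hρ : 0 < ρ := by linarith
  set c := meshIndex a z₀ with hc
  have hcz : ‖meshPoint a c - z₀‖ ≤ 2 * a := norm_mesh_sub ha z₀
  set r := ⌊ρ / (4 * a)⌋₊ with hr
  have ha4 : 0 < 4 * a := by linarith
  have hq : 32 ≤ ρ / (4 * a) := by rw [le_div_iff₀ ha4]; linarith
  have hr1 : (r : ℝ) ≤ ρ / (4 * a) := Nat.floor_le (by positivity)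
  have hr2 : ρ / (4 * a) < r + 1 := Nat.lt_floor_add_one _
  have hr3 : ρ / (8 * a) ≤ r := by
    have : ρ / (8 * a) = ρ / (4 * a) / 2 := by field_simp; ring
    rw [this]; linarith
  have hra : (r : ℝ) * a ≤ ρ / 4 := by
    have := mul_le_mul_of_nonneg_right hr1 ha.le
    have e : ρ / (4 * a) * a = ρ / 4 := by field_simp
    linarith
  have hra' : ρ / 8 ≤ (r : ℝ) * a := by
    have := mul_le_mul_of_nonneg_right hr3 ha.le
    have e : ρ / (8 * a) * a = ρ / 8 := by field_simp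
    linarith
  have hr16 : 16 ≤ r := by
    have : (16 : ℝ) ≤ r := by linarith
    exact_mod_cast this
  have hr0 : (0 : ℝ) < r := by
    have : (16 : ℝ) ≤ r := by exact_mod_cast hr16
    linarith
  -- points of the box are in the ball
  have hbox : ∀ z ∈ Q c r, ‖meshPoint a z - z₀‖ ≤ ρ / 2 + 2 * a := by
    intro z hz
    rw [mem_Q] at hz
    have h1 := meshPoint_sub a z c
    rw [abs_of_pos ha] at h1
    have h2 : |((z.1 - c.1 : ℤ) : ℝ)| ≤ r := by
      have := hz.1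
      rw [← Int.cast_abs]; exact_mod_cast this
    have h3 : |((z.2 - c.2 : ℤ) : ℝ)| ≤ r := by
      have := hz.2
      rw [← Int.cast_abs]; exact_mod_cast this
    have h4 : ‖meshPoint a z - z₀‖ ≤ ‖meshPoint a z - meshPoint a c‖ + ‖meshPoint a c - z₀‖ :=
      norm_sub_le_norm_sub_add_norm_sub _ _ _
    nlinarith
  have hH : Harm u c (r - 1) := by
    intro z hz
    refine harm z (lt_of_le_of_lt (hbox z (Q_mono (Nat.sub_le _ _) hz)) ?_)
    linarith
  -- the sum of squares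
  set S := ∑ w ∈ Q c r, u w ^ 2 with hS
  have hS0 : 0 ≤ S := Finset.sum_nonneg fun _ _ => sq_nonneg _
  have hSM : a ^ 2 * S ≤ M ^ 2 := by
    have h1 := sum_le_lintegral ha (Q c r) (fun f => ENNReal.ofReal (u f ^ 2)) (B := ball z₀ ρ)
      measurableSet_ball (by
        intro f hf z hz
        rw [mem_ball, dist_eq_norm]
        have h2 := norm_cell_sub ha hz
        have h3 := hbox f hf
        have h4 : ‖z - z₀‖ ≤ ‖z - meshPoint a f‖ + ‖meshPoint a f - z₀‖ :=
          norm_sub_le_norm_sub_add_norm_sub _ _ _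
        rw [norm_sub_rev z (meshPoint a f)] at h4
        linarith)
    have h2 := h1.trans hM
    rw [← ENNReal.ofReal_sum_of_nonneg (fun _ _ => sq_nonneg _),
      ← ENNReal.ofReal_mul (by positivity)] at h2
    exact (ENNReal.ofReal_le_ofReal_iff (by positivity)).1 h2
  -- gradient bound
  set G : ℝ := 777024 * M * a / ρ ^ 2 with hG
  have hG0 : 0 ≤ G := by positivity
  have hgrad : ∀ z ∈ Q c (r / 2 / 4), |D1 u z| ≤ G ∧ |D2 u z| ≤ G := by
    intro z hz
    have h1 := interior_D_sq (by omega) hH hz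
    have h2 : 147392784 / (r : ℝ) ^ 4 * S ≤ G ^ 2 := by
      have e1 : 147392784 / (r : ℝ) ^ 4 * S = 147392784 * (a ^ 2 * S) * a ^ 2 / (r * a) ^ 4 := by
        field_simp
      rw [e1]
      have e2 : (ρ / 8) ^ 4 ≤ (r * a) ^ 4 := pow_le_pow_left₀ (by positivity) hra' 4
      have e3 : 0 < (ρ / 8) ^ 4 := by positivity
      calc 147392784 * (a ^ 2 * S) * a ^ 2 / (r * a) ^ 4
          ≤ 147392784 * M ^ 2 * a ^ 2 / (ρ / 8) ^ 4 := by
            apply div_le_div₀ (by positivity) _ e3 e2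
            gcongr
        _ = (147392784 * 4096) * (M * a / ρ ^ 2) ^ 2 := by field_simp; ring
        _ ≤ (777024 ^ 2) * (M * a / ρ ^ 2) ^ 2 := by
            apply mul_le_mul_of_nonneg_right _ (sq_nonneg _)
            norm_num
        _ = G ^ 2 := by rw [hG]; ring
    have h3 : D1 u z ^ 2 ≤ G ^ 2 := by nlinarith [sq_nonneg (D2 u z)]
    have h4 : D2 u z ^ 2 ≤ G ^ 2 := by nlinarith [sq_nonneg (D1 u z)]
    exact ⟨abs_le_of_sq_le_sq h3 hG0, abs_le_of_sq_le_sq h4 hG0⟩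
  -- membership
  have hmem : ∀ f : ℤ × ℤ, ‖meshPoint a f - z₀‖ ≤ ρ / 128 → f ∈ Q c (r / 2 / 4) := by
    intro f hf
    have h1 : ‖meshPoint a f - meshPoint a c‖ ≤ ρ / 128 + 2 * a := by
      have h4 : ‖meshPoint a f - meshPoint a c‖ ≤ ‖meshPoint a f - z₀‖ + ‖z₀ - meshPoint a c‖ :=
        norm_sub_le_norm_sub_add_norm_sub _ _ _
      rw [norm_sub_rev z₀] at h4
      linarith
    obtain ⟨h2, h3⟩ := abs_le_meshPoint_sub a f c
    rw [abs_of_pos ha] at h2 h3
    have hn : ((r / 2 / 4 : ℕ) : ℝ) * a ≥ ρ / 32 - a := by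
      have h5 : r ≤ 8 * (r / 2 / 4) + 7 := by omega
      have h6 : (r : ℝ) ≤ 8 * ((r / 2 / 4 : ℕ) : ℝ) + 7 := by exact_mod_cast h5
      have h7 : ρ / (4 * a) * a = ρ / 4 := by field_simp
      nlinarith
    have hx : ∀ m : ℤ, a * |(m : ℝ)| ≤ ρ / 128 + 2 * a → |m| ≤ ((r / 2 / 4 : ℕ) : ℤ) := by
      intro m hm
      have h8 : a * |(m : ℝ)| ≤ a * ((r / 2 / 4 : ℕ) : ℝ) := by nlinarith
      have h9 := le_of_mul_le_mul_left h8 ha
      rw [← Int.cast_abs] at h9
      have h10 : ((|m| : ℤ) : ℝ) ≤ (((r / 2 / 4 : ℕ) : ℤ) : ℝ) := by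
        rw [Int.cast_natCast]; exact h9
      exact Int.cast_le.1 h10
    rw [mem_Q]
    exact ⟨hx _ (h2.trans h1), hx _ (h3.trans h1)⟩
  have hfin := sub_le_of_D hgrad (hmem f hf) (hmem g hg)
  obtain ⟨h2, h3⟩ := abs_le_meshPoint_sub a f g
  rw [abs_of_pos ha] at h2 h3
  refine hfin.trans ?_
  have e : G * (|((f.1 - g.1 : ℤ) : ℝ)| + |((f.2 - g.2 : ℤ) : ℝ)|) =
      777024 * M / ρ ^ 2 * (a * |((f.1 - g.1 : ℤ) : ℝ)| + a * |((f.2 - g.2 : ℤ) : ℝ)|) := by
    rw [hG]; ring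
  rw [e]
  have e2 : 1554048 * M / ρ ^ 2 * ‖meshPoint a f - meshPoint a g‖ =
      777024 * M / ρ ^ 2 * (‖meshPoint a f - meshPoint a g‖ + ‖meshPoint a f - meshPoint a g‖) := by
    ring
  rw [e2]
  apply mul_le_mul_of_nonneg_left _ (by positivity)
  linarith

/-- **upgrade**: `L²` convergence on a ball of functions that are harmonic there implies convergence
along all families of faces tending to the centre -/
theorem upgrade {ι : Type*} {l : Filter ι} {a : ι → ℝ} (ha : Tendsto a l (𝓝[>] 0))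
    {u : ι → ℤ × ℤ → ℝ} {z₀ : ℂ} {ρ : ℝ} (hρ : 0 < ρ)
    (harm : ∀ᶠ k in l, ∀ f, ‖meshPoint (a k) f - z₀‖ < ρ → lap (u k) f = 0)
    {Φ : ℂ → ℝ} {B : ℝ} (hB : ∀ z ∈ ball z₀ ρ, |Φ z| ≤ B) (hc : ContinuousAt Φ z₀)
    (hL : Tendsto (fun k => ∫⁻ z in ball z₀ ρ, ENNReal.ofReal ((emb (a k) (u k) z - Φ z) ^ 2)) l
      (𝓝 0))
    {f : ι → ℤ × ℤ} (hf : Tendsto (fun k => meshPoint (a k) (f k)) l (𝓝 z₀)) :
    Tendsto (fun k => u k (f k)) l (𝓝 (Φ z₀)) := by
  have hB0 : 0 ≤ B := (abs_nonneg _).trans (hB z₀ (mem_ball_self hρ))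
  have hapos : ∀ᶠ k in l, 0 < a k := ha.eventually self_mem_nhdsWithin
  have ha0 : Tendsto a l (𝓝 0) := ha.mono_right nhdsWithin_le_nhds
  -- bound of the L² norm
  set V : ℝ := (volume (ball z₀ ρ)).toReal with hV
  have hVfin : volume (ball z₀ ρ) ≠ ⊤ := measure_ball_lt_top.ne
  set M : ℝ := Real.sqrt (2 + 2 * B ^ 2 * V) with hMdef
  have hM2 : M ^ 2 = 2 + 2 * B ^ 2 * V := Real.sq_sqrt (by positivity)
  have hM0 : 0 ≤ M := Real.sqrt_nonneg _
  have hMb : ∀ᶠ k in l, ∫⁻ z in ball z₀ ρ, ENNReal.ofReal ((emb (a k) (u k) z) ^ 2) ≤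
      ENNReal.ofReal (M ^ 2) := by
    filter_upwards [hL.eventually (eventually_le_nhds (show (0 : ENNReal) < 1 from one_pos))]
      with k hk
    calc ∫⁻ z in ball z₀ ρ, ENNReal.ofReal ((emb (a k) (u k) z) ^ 2)
        ≤ ∫⁻ z in ball z₀ ρ, (2 * ENNReal.ofReal ((emb (a k) (u k) z - Φ z) ^ 2) +
            ENNReal.ofReal (2 * B ^ 2)) := by
          refine setLIntegral_mono' measurableSet_ball fun z hz => ?_
          have h1 : |Φ z| ≤ B := hB z hz
          have h2 : Φ z ^ 2 ≤ B ^ 2 := by rw [← sq_abs]; gcongr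
          rw [show (2 : ENNReal) = ENNReal.ofReal 2 by simp, ← ENNReal.ofReal_mul (by norm_num),
            ← ENNReal.ofReal_add (by positivity) (by positivity)]
          apply ENNReal.ofReal_le_ofReal
          nlinarith [sq_nonneg (emb (a k) (u k) z - 2 * Φ z)]
      _ = 2 * (∫⁻ z in ball z₀ ρ, ENNReal.ofReal ((emb (a k) (u k) z - Φ z) ^ 2)) +
            ENNReal.ofReal (2 * B ^ 2) * volume (ball z₀ ρ) := by
          rw [lintegral_add_right _ measurable_const, lintegral_const_mul' _ _ (by simp),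
            lintegral_const, Measure.restrict_apply_univ]
      _ ≤ 2 * 1 + ENNReal.ofReal (2 * B ^ 2) * volume (ball z₀ ρ) := by gcongr
      _ = ENNReal.ofReal (M ^ 2) := by
          have e : ENNReal.ofReal (2 * B ^ 2 * V) = ENNReal.ofReal (2 * B ^ 2) *
              volume (ball z₀ ρ) := by
            rw [ENNReal.ofReal_mul (by positivity : (0 : ℝ) ≤ 2 * B ^ 2), hV,
              ENNReal.ofReal_toReal hVfin]
          rw [hM2, ENNReal.ofReal_add (by positivity) (by positivity), e]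
          simp
  set K : ℝ := 1554048 * M / ρ ^ 2 with hK
  have hK0 : 0 ≤ K := by positivity
  rw [Metric.tendsto_nhds]
  intro ε hε
  -- choice of η
  obtain ⟨η₁, hη₁, hΦ⟩ := Metric.continuousAt_iff.1 hc (ε / 4) (by positivity)
  set η : ℝ := min (min (η₁ / 2) (ρ / 256)) (ε / (16 * (K + 1))) with hη
  have hη0 : 0 < η := by positivity
  have hη1 : η ≤ η₁ / 2 := (min_le_left _ _).trans (min_le_left _ _)
  have hη2 : η ≤ ρ / 256 := (min_le_left _ _).trans (min_le_right _ _)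
  have hη3 : η ≤ ε / (16 * (K + 1)) := min_le_right _ _
  have hKη : K * (4 * η) ≤ ε / 4 := by
    have h1 : η * (16 * (K + 1)) ≤ ε := by
      rwa [le_div_iff₀ (by positivity)] at hη3
    nlinarith
  set W : ℝ := (volume (ball z₀ η)).toReal with hW
  have hWfin : volume (ball z₀ η) ≠ ⊤ := measure_ball_lt_top.ne
  have hW0 : 0 < W := ENNReal.toReal_pos (measure_ball_pos _ _ hη0).ne' hWfin
  have hsmall : ∀ᶠ k in l, ∫⁻ z in ball z₀ ρ, ENNReal.ofReal ((emb (a k) (u k) z - Φ z) ^ 2) ≤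
      ENNReal.ofReal ((ε / 4) ^ 2 * W) :=
    hL.eventually (eventually_le_nhds (by
      rw [ENNReal.ofReal_pos]; positivity))
  have hfz : ∀ᶠ k in l, ‖meshPoint (a k) (f k) - z₀‖ < η := by
    have := (Metric.tendsto_nhds.1 hf) η hη0
    simpa [dist_eq_norm] using this
  have haη : ∀ᶠ k in l, a k ≤ η / 2 := ha0.eventually (eventually_le_nhds (by positivity))
  filter_upwards [hMb, hsmall, hfz, haη, hapos, harm] with k h1 h2 h3 h4 h5 h6
  -- compare with the average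
  have key : ∀ z ∈ ball z₀ η, |u k (f k) - Φ z₀| ≤ ε / 2 + |emb (a k) (u k) z - Φ z| := by
    intro z hz
    rw [mem_ball, dist_eq_norm] at hz
    have hg : ‖meshPoint (a k) (meshIndex (a k) z) - z₀‖ ≤ 2 * η := by
      have e1 : ‖meshPoint (a k) (meshIndex (a k) z) - z₀‖ ≤
          ‖meshPoint (a k) (meshIndex (a k) z) - z‖ + ‖z - z₀‖ :=
        norm_sub_le_norm_sub_add_norm_sub _ _ _
      have e2 := norm_mesh_sub h5 z
      linarith
    have e3 := lip_est h5 (by linarith) h6 hM0 h1 (f := f k) (g := meshIndex (a k) z)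
      (by linarith) (by linarith)
    have e4 : ‖meshPoint (a k) (f k) - meshPoint (a k) (meshIndex (a k) z)‖ ≤ 4 * η := by
      have e5 : ‖meshPoint (a k) (f k) - meshPoint (a k) (meshIndex (a k) z)‖ ≤
          ‖meshPoint (a k) (f k) - z₀‖ + ‖z₀ - meshPoint (a k) (meshIndex (a k) z)‖ :=
        norm_sub_le_norm_sub_add_norm_sub _ _ _
      rw [norm_sub_rev z₀] at e5
      linarith
    have e6 : |u k (f k) - emb (a k) (u k) z| ≤ ε / 4 := by
      refine e3.trans ((mul_le_mul_of_nonneg_left e4 hK0).trans hKη)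
    have e7 : |Φ z - Φ z₀| ≤ ε / 4 := by
      have := hΦ (x := z) (by rw [dist_eq_norm]; linarith)
      rw [Real.dist_eq] at this
      exact this.le
    calc |u k (f k) - Φ z₀| = |(u k (f k) - emb (a k) (u k) z) + (emb (a k) (u k) z - Φ z) +
          (Φ z - Φ z₀)| := by ring_nf
      _ ≤ |u k (f k) - emb (a k) (u k) z| + |emb (a k) (u k) z - Φ z| + |Φ z - Φ z₀| :=
          abs_add_three _ _ _
      _ ≤ _ := by linarith
  rw [Real.dist_eq]
  by_contra hcon
  rw [not_lt] at hcon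
  have hpt : ∀ z ∈ ball z₀ η, (ε / 2) ^ 2 ≤ (emb (a k) (u k) z - Φ z) ^ 2 := by
    intro z hz
    have := key z hz
    rw [← sq_abs (emb (a k) (u k) z - Φ z)]
    have h7 : ε / 2 ≤ |emb (a k) (u k) z - Φ z| := by linarith
    gcongr
  have h8 : ENNReal.ofReal ((ε / 2) ^ 2 * W) ≤ ENNReal.ofReal ((ε / 4) ^ 2 * W) := by
    calc ENNReal.ofReal ((ε / 2) ^ 2 * W) = ∫⁻ _ in ball z₀ η, ENNReal.ofReal ((ε / 2) ^ 2) := by
          rw [lintegral_const, Measure.restrict_apply_univ, ENNReal.ofReal_mul (by positivity), hW,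
            ENNReal.ofReal_toReal hWfin]
      _ ≤ ∫⁻ z in ball z₀ η, ENNReal.ofReal ((emb (a k) (u k) z - Φ z) ^ 2) :=
          setLIntegral_mono' measurableSet_ball fun z hz => ENNReal.ofReal_le_ofReal (hpt z hz)
      _ ≤ ∫⁻ z in ball z₀ ρ, ENNReal.ofReal ((emb (a k) (u k) z - Φ z) ^ 2) :=
          lintegral_mono_set (ball_subset_ball (by linarith))
      _ ≤ _ := h2
  rw [ENNReal.ofReal_le_ofReal_iff (by positivity)] at h8
  nlinarith [mul_pos (pow_pos hε 2) hW0]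

end Crest.Agent.R165.Upx622
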