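import Crest.Agent.R165.RIface_891
import Crest.Agent.R165.Tr2_40
import Crest.Agent.R165.Up_622

/-!
# Row 165 (S0250), U4/MAC (helper622): definitions, local gauge, harmonicity

* `rays V` : signs of the spin insertions at the vertices `V i` (rays to the right)
* `LatSeq D x a w V` : sequences of plus backgrounds approximating `(D, x)`
* `Om D x = D \ range x`
* `rel x z`, `gz`, `gc` : the rays through the point `z`, lattice and continuum gauge signs near `z`
* `local_gauge` : near `z ∈ Om` the ray signs are `gz f * gz (nb f h)`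
* `rX` : `∏ (x_j - z)^(1/2)`; `gc * rX` is continuous near `z`
-/

set_option autoImplicit false
set_option linter.unusedVariables false
set_option linter.unusedSimpArgs false

noncomputable section

open MeasureTheory Filter Topology Set Metric
open Crest.ProbabilityR.IsingModel
open Crest.Agent.R165.Tr1x40 Crest.Agent.R165.RIfx891 Crest.Agent.R165.Embx622

namespace Crest.Agent.R165.Mac0x622

/-- signs of the insertions at the vertices `V i` -/
def rays {n : ℕ} (V : Fin n → Face) : Fld := fun f h => ∏ i, rayw (V i) f h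

/-- sequences of plus backgrounds approximating the domain `D` with spin insertions at `x` -/
structure LatSeq (D : Set ℂ) {n : ℕ} (x : Fin n → ℂ) (a : ℕ → ℝ) (w : ℕ → Fld)
    (V : ℕ → Fin n → Face) : Prop where
  pos : ∀ k, 0 < a k
  lim : Tendsto a atTop (𝓝 0)
  sym : ∀ k, Sym (w k)
  plus : ∀ k f h, w k f h ^ 2 = xc ^ 2 ∨ w k f h = 0
  tip : ∀ i, Tendsto (fun k => meshPoint (a k) (V k i)) atTop (𝓝 (x i))
  ins : ∀ K : Set ℂ, IsCompact K → K ⊆ D → ∀ᶠ k in atTop, ∀ f, meshPoint (a k) f ∈ K →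
    ∀ h, w k f h = rays (V k) f h * xc
  out : ∀ K : Set ℂ, IsCompact K → Disjoint K (closure D) → ∀ᶠ k in atTop, ∀ f,
    meshPoint (a k) f ∈ K → ∀ h, w k f h = 0
  bdd : ∃ R : ℝ, ∀ k f, R ≤ ‖meshPoint (a k) f‖ → ∀ h, w k f h = 0

/-- the part of the conditions that concerns the punctured domain `Om` only -/
structure OmSeq (Om : Set ℂ) {n : ℕ} (x : Fin n → ℂ) (a : ℕ → ℝ) (w : ℕ → Fld)
    (V : ℕ → Fin n → Face) : Prop where
  pos : ∀ k, 0 < a k
  lim : Tendsto a atTop (𝓝 0)
  sym : ∀ k, Sym (w k)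
  tip : ∀ i, Tendsto (fun k => meshPoint (a k) (V k i)) atTop (𝓝 (x i))
  ins : ∀ K : Set ℂ, IsCompact K → K ⊆ Om → ∀ᶠ k in atTop, ∀ f, meshPoint (a k) f ∈ K →
    ∀ h, w k f h = rays (V k) f h * xc

/-- the punctured domain -/
def Om (D : Set ℂ) {n : ℕ} (x : Fin n → ℂ) : Set ℂ := D \ range x

theorem LatSeq.omSeq {D : Set ℂ} {n : ℕ} {x : Fin n → ℂ} {a : ℕ → ℝ} {w : ℕ → Fld}
    {V : ℕ → Fin n → Face} (H : LatSeq D x a w V) : OmSeq (Om D x) x a w V :=
  ⟨H.pos, H.lim, H.sym, H.tip, fun K hK hKO => H.ins K hK (hKO.trans sdiff_subset)⟩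

theorem OmSeq.comp {O : Set ℂ} {n : ℕ} {x : Fin n → ℂ} {a : ℕ → ℝ} {w : ℕ → Fld}
    {V : ℕ → Fin n → Face} (H : OmSeq O x a w V) {φ : ℕ → ℕ} (hφ : StrictMono φ) :
    OmSeq O x (a ∘ φ) (w ∘ φ) (V ∘ φ) :=
  ⟨fun k => H.pos _, H.lim.comp hφ.tendsto_atTop, fun k => H.sym _,
    fun i => (H.tip i).comp hφ.tendsto_atTop,
    fun K hK hKO => hφ.tendsto_atTop.eventually (H.ins K hK hKO)⟩

theorem LatSeq.comp {D : Set ℂ} {n : ℕ} {x : Fin n → ℂ} {a : ℕ → ℝ} {w : ℕ → Fld}
    {V : ℕ → Fin n → Face} (H : LatSeq D x a w V) {φ : ℕ → ℕ} (hφ : StrictMono φ) :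
    LatSeq D x (a ∘ φ) (w ∘ φ) (V ∘ φ) :=
  ⟨fun k => H.pos _, H.lim.comp hφ.tendsto_atTop, fun k => H.sym _, fun k => H.plus _,
    fun i => (H.tip i).comp hφ.tendsto_atTop,
    fun K hK hKO => hφ.tendsto_atTop.eventually (H.ins K hK hKO),
    fun K hK hKO => hφ.tendsto_atTop.eventually (H.out K hK hKO),
    by obtain ⟨R, hR⟩ := H.bdd; exact ⟨R, fun k => hR _⟩⟩

theorem OmSeq.tendsto_pos {O : Set ℂ} {n : ℕ} {x : Fin n → ℂ} {a : ℕ → ℝ} {w : ℕ → Fld}
    {V : ℕ → Fin n → Face} (H : OmSeq O x a w V) : Tendsto a atTop (𝓝[>] 0) :=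
  tendsto_nhdsWithin_iff.2 ⟨H.lim, Eventually.of_forall H.pos⟩

/-! ### the gauge near a point -/

/-- the ray of `x` passes through `z` -/
def rel (x z : ℂ) : Prop := x.im = z.im ∧ x.re < z.re

/-- lattice gauge near `z` -/
def gz {n : ℕ} (x : Fin n → ℂ) (z : ℂ) (V : Fin n → Face) (f : Face) : ℝ := by
  classical exact ∏ i, if rel (x i) z ∧ (V i).2 ≤ f.2 then -1 else 1

/-- continuum gauge near `z` -/
def gc {n : ℕ} (x : Fin n → ℂ) (z u : ℂ) : ℝ := by
  classical exact ∏ i, if rel (x i) z ∧ (x i).im < u.im then -1 else 1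

theorem prod_sign_sq {n : ℕ} (p : Fin n → Prop) [∀ i, Decidable (p i)] :
    (∏ i, if p i then (-1 : ℝ) else 1) ^ 2 = 1 := by
  rw [← Finset.prod_pow]
  refine Finset.prod_eq_one fun i _ => ?_
  split_ifs <;> norm_num

theorem gz_sq {n : ℕ} (x : Fin n → ℂ) (z : ℂ) (V : Fin n → Face) (f : Face) :
    gz x z V f ^ 2 = 1 := by
  classical
  unfold gz
  exact prod_sign_sq _

theorem gc_sq {n : ℕ} (x : Fin n → ℂ) (z u : ℂ) : gc x z u ^ 2 = 1 := by
  classical
  unfold gc
  exact prod_sign_sq _

theorem gz_gauge {n : ℕ} (x : Fin n → ℂ) (z : ℂ) (V : Fin n → Face) : Gauge (gz x z V) :=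
  fun f => gz_sq x z V f

theorem gz_abs {n : ℕ} (x : Fin n → ℂ) (z : ℂ) (V : Fin n → Face) (f : Face) :
    |gz x z V f| = 1 := by
  have := gz_sq x z V f
  rw [← sq_abs] at this
  nlinarith [abs_nonneg (gz x z V f)]

theorem gc_abs {n : ℕ} (x : Fin n → ℂ) (z u : ℂ) : |gc x z u| = 1 := by
  have := gc_sq x z u
  rw [← sq_abs] at this
  nlinarith [abs_nonneg (gc x z u)]

theorem meshPoint_re (a : ℝ) (f : ℤ × ℤ) : (meshPoint a f).re = a * f.1 := rfl
theorem meshPoint_im (a : ℝ) (f : ℤ × ℤ) : (meshPoint a f).im = a * f.2 := rfl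

/-- **local gauge**: near `z ∉ range x` the ray signs are a coboundary -/
theorem local_gauge {n : ℕ} {x : Fin n → ℂ} {a : ℕ → ℝ} (hpos : ∀ k, 0 < a k)
    (hlim : Tendsto a atTop (𝓝 0)) {V : ℕ → Fin n → Face}
    (tip : ∀ i, Tendsto (fun k => meshPoint (a k) (V k i)) atTop (𝓝 (x i)))
    {z : ℂ} (hz : ∀ i, x i ≠ z) :
    ∃ ρ > 0, ∀ᶠ k in atTop, ∀ f : Face, ‖meshPoint (a k) f - z‖ < ρ → ∀ h,
      rays (V k) f h = gz x z (V k) f * gz x z (V k) (nb f h) := by
  classical
  -- one insertion at a time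
  have key : ∀ i, ∃ ρ > 0, ∀ᶠ k in atTop, ∀ f : Face, ‖meshPoint (a k) f - z‖ < ρ → ∀ h,
      rayw (V k i) f h = (if rel (x i) z ∧ (V k i).2 ≤ f.2 then (-1 : ℝ) else 1) *
        (if rel (x i) z ∧ (V k i).2 ≤ (nb f h).2 then -1 else 1) := by
    intro i
    have tr : Tendsto (fun k => a k * ((V k i).1 : ℝ)) atTop (𝓝 (x i).re) :=
      (Complex.continuous_re.tendsto _).comp (tip i)
    have ti : Tendsto (fun k => a k * ((V k i).2 : ℝ)) atTop (𝓝 (x i).im) :=
      (Complex.continuous_im.tendsto _).comp (tip i)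
    by_cases him : (x i).im = z.im
    · rcases lt_trichotomy (x i).re z.re with hre | hre | hre
      · -- the ray passes through `z`
        have hrel : rel (x i) z := ⟨him, hre⟩
        refine ⟨(z.re - (x i).re) / 2, by linarith, ?_⟩
        filter_upwards [tr.eventually (eventually_lt_nhds (show (x i).re <
          ((x i).re + z.re) / 2 by linarith))] with k hk f hf h
        have h1 : a k * (f.1 : ℝ) > ((x i).re + z.re) / 2 := by
          have := (Complex.abs_re_le_norm (meshPoint (a k) f - z)).trans_lt hf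
          rw [Complex.sub_re, meshPoint_re, abs_lt] at this
          linarith
        have h2 : (V k i).1 ≤ f.1 := by
          have h3 : a k * ((V k i).1 : ℝ) < a k * (f.1 : ℝ) := by linarith
          have h4 := lt_of_mul_lt_mul_left h3 (hpos k).le
          have h5 : (V k i).1 < f.1 := by exact_mod_cast h4
          exact h5.le
        unfold rayw
        fin_cases h <;>
          simp only [hrel, h2, and_true, true_and, nb, Fin.zero_eta, Fin.mk_one, Fin.reduceFinMk,
            Fin.isValue, Fin.reduceEq, false_and, or_false, false_or, zero_ne_one, one_ne_zero,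
            if_false, ite_self] <;>
          split_ifs <;> (try norm_num) <;> (try omega)
      · exact absurd (Complex.ext hre him) (hz i)
      · -- the ray starts to the right of `z`
        have hrel : ¬ rel (x i) z := fun h => by have := h.2; linarith
        refine ⟨((x i).re - z.re) / 2, by linarith, ?_⟩
        filter_upwards [tr.eventually (eventually_gt_nhds (show (x i).re >
          ((x i).re + z.re) / 2 by linarith))] with k hk f hf h
        have h1 : a k * (f.1 : ℝ) < ((x i).re + z.re) / 2 := by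
          have := (Complex.abs_re_le_norm (meshPoint (a k) f - z)).trans_lt hf
          rw [Complex.sub_re, meshPoint_re, abs_lt] at this
          linarith
        have h2 : ¬ (V k i).1 ≤ f.1 := by
          have h3 : a k * (f.1 : ℝ) < a k * ((V k i).1 : ℝ) := by linarith
          have h4 := lt_of_mul_lt_mul_left h3 (hpos k).le
          have h5 : f.1 < (V k i).1 := by exact_mod_cast h4
          omega
        simp [rayw, hrel, h2]
    · -- the ray is at a different height
      have hrel : ¬ rel (x i) z := fun h => him h.1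
      set d := |(x i).im - z.im| with hd
      have hd0 : 0 < d := abs_pos.2 (sub_ne_zero.2 him)
      refine ⟨d / 4, by linarith, ?_⟩
      have e1 : ∀ᶠ k in atTop, |a k * ((V k i).2 : ℝ) - (x i).im| < d / 4 := by
        have := (Metric.tendsto_nhds.1 ti) (d / 4) (by linarith)
        simpa [Real.dist_eq] using this
      have e2 : ∀ᶠ k in atTop, a k < d / 4 := hlim.eventually (eventually_lt_nhds (by linarith))
      filter_upwards [e1, e2] with k h1 h2 f hf h
      have h3 : |a k * (f.2 : ℝ) - z.im| < d / 4 := by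
        have := (Complex.abs_im_le_norm (meshPoint (a k) f - z)).trans_lt hf
        rwa [Complex.sub_im, meshPoint_im] at this
      have h4 : f.2 ≠ (V k i).2 := by
        intro hc
        rw [hc] at h3
        have : d ≤ |a k * ((V k i).2 : ℝ) - (x i).im| + |a k * ((V k i).2 : ℝ) - z.im| := by
          rw [hd]
          have e : (x i).im - z.im = -(a k * ((V k i).2 : ℝ) - (x i).im) +
            (a k * ((V k i).2 : ℝ) - z.im) := by ring
          rw [e]
          refine (abs_add_le _ _).trans ?_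
          rw [abs_neg]
        linarith
      have h5 : f.2 + 1 ≠ (V k i).2 := by
        intro hc
        have hc' : ((V k i).2 : ℝ) = (f.2 : ℝ) + 1 := by rw [← hc]; push_cast; ring
        have : d ≤ |a k * ((V k i).2 : ℝ) - (x i).im| + |a k * (f.2 : ℝ) - z.im| + a k := by
          rw [hd]
          have e : (x i).im - z.im = -(a k * ((V k i).2 : ℝ) - (x i).im) +
            (a k * (f.2 : ℝ) - z.im) + a k := by rw [hc']; ring
          rw [e]
          refine (abs_add_le _ _).trans ?_
          rw [abs_of_pos (hpos k)]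
          have := abs_add_le (-(a k * ((V k i).2 : ℝ) - (x i).im)) (a k * (f.2 : ℝ) - z.im)
          rw [abs_neg] at this
          linarith
        linarith
      simp [rayw, hrel, h4, h5]
  choose ρ hρ hk using key
  obtain ⟨r, hr0, hr⟩ : ∃ r > 0, ∀ i, r ≤ ρ i := by
    rcases isEmpty_or_nonempty (Fin n) with he | he
    · exact ⟨1, one_pos, fun i => (he.false i).elim⟩
    · refine ⟨Finset.univ.inf' Finset.univ_nonempty ρ, ?_, fun i =>
        Finset.inf'_le ρ (Finset.mem_univ i)⟩
      rw [gt_iff_lt, Finset.lt_inf'_iff]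
      exact fun i _ => hρ i
  refine ⟨r, hr0, ?_⟩
  filter_upwards [eventually_all.2 hk] with k hk f hf h
  unfold rays gz
  rw [← Finset.prod_mul_distrib]
  exact Finset.prod_congr rfl fun i _ => hk i f (hf.trans_le (hr i)) h

/-! ### the square root -/

/-- `∏ (x_j - z)^(1/2)`, cuts along the rays to the right -/
def rX {n : ℕ} (x : Fin n → ℂ) (z : ℂ) : ℂ := ∏ j, (x j - z) ^ (1 / 2 : ℂ)

theorem rX_ne {n : ℕ} {x : Fin n → ℂ} {z : ℂ} (hz : ∀ i, x i ≠ z) : rX x z ≠ 0 := by
  unfold rX
  refine Finset.prod_ne_zero_iff.2 fun i _ => ?_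
  rw [Ne, Complex.cpow_eq_zero_iff]
  exact fun h => (hz i) (sub_eq_zero.1 h.1)

/-- square root of the opposite -/
theorem cpow_half_neg {v : ℂ} (hv : 0 < v.re) :
    (-v) ^ (1 / 2 : ℂ) = (if v.im ≤ 0 then Complex.I else -Complex.I) * v ^ (1 / 2 : ℂ) := by
  have hv0 : v ≠ 0 := fun h => by rw [h] at hv; simp at hv
  have hnv0 : -v ≠ 0 := neg_ne_zero.2 hv0
  rw [Complex.cpow_def_of_ne_zero hv0, Complex.cpow_def_of_ne_zero hnv0]
  have harg : Complex.arg (-v) = Complex.arg v + (if v.im ≤ 0 then Real.pi else -Real.pi) := by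
    split_ifs with h
    · rcases lt_or_eq_of_le h with h | h
      · rw [Complex.arg_neg_eq_arg_add_pi_of_im_neg h]
      · have e : v = (v.re : ℂ) := Complex.ext rfl (by simp [h])
        rw [e, ← Complex.ofReal_neg, Complex.arg_ofReal_of_neg (by linarith),
          Complex.arg_ofReal_of_nonneg hv.le, zero_add]
    · rw [Complex.arg_neg_eq_arg_sub_pi_of_im_pos (by linarith)]; ring
  have hlog : Complex.log (-v) = Complex.log v + (if v.im ≤ 0 then (Real.pi : ℂ) else -Real.pi) *
      Complex.I := by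
    unfold Complex.log
    rw [harg, norm_neg]
    split_ifs <;> push_cast <;> ring
  rw [hlog, add_mul, Complex.exp_add, mul_comm]
  congr 1
  split_ifs
  · have : (Real.pi : ℂ) * Complex.I * (1 / 2) = Real.pi / 2 * Complex.I := by ring
    rw [this, Complex.exp_pi_div_two_mul_I]
  · have : -(Real.pi : ℂ) * Complex.I * (1 / 2) = -(Real.pi / 2 * Complex.I) := by ring
    rw [this, Complex.exp_neg, Complex.exp_pi_div_two_mul_I, Complex.inv_I]

/-- continuity of one corrected factor -/
theorem factor_continuousAt {x z : ℂ} (hz : x ≠ z) [Decidable (rel x z)] :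
    ContinuousAt (fun u : ℂ => ((if rel x z ∧ x.im < u.im then (-1 : ℝ) else 1 : ℝ) : ℂ) *
      (x - u) ^ (1 / 2 : ℂ)) z := by
  by_cases h : rel x z
  · have e : ∀ᶠ u in 𝓝 z, ((if rel x z ∧ x.im < u.im then (-1 : ℝ) else 1 : ℝ) : ℂ) *
        (x - u) ^ (1 / 2 : ℂ) = Complex.I * (u - x) ^ (1 / 2 : ℂ) := by
      have h1 : ∀ᶠ u in 𝓝 z, x.re < u.re :=
        (Complex.continuous_re.tendsto z).eventually (eventually_gt_nhds h.2)
      filter_upwards [h1] with u hu
      have h2 := cpow_half_neg (v := u - x) (by rw [Complex.sub_re]; linarith)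
      rw [neg_sub] at h2
      rw [h2]
      by_cases h3 : x.im < u.im
      · have h4 : ¬ (u - x).im ≤ 0 := by rw [Complex.sub_im]; linarith
        simp only [h, h3, h4, true_and, if_true, if_false]
        push_cast; ring
      · have h4 : (u - x).im ≤ 0 := by rw [Complex.sub_im]; linarith
        simp only [h, h3, h4, true_and, if_true, if_false]
        push_cast; ring
    refine ContinuousAt.congr ?_ (e.mono fun _ h => h.symm)
    have h5 : z - x ∈ Complex.slitPlane := by
      left; rw [Complex.sub_re]; linarith [h.2]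
    exact continuousAt_const.mul ((continuousAt_id.sub continuousAt_const).cpow
      continuousAt_const h5)
  · have h5 : x - z ∈ Complex.slitPlane := by
      rw [Complex.mem_slitPlane_iff, Complex.sub_re, Complex.sub_im]
      by_cases him : x.im = z.im
      · left
        have : z.re ≤ x.re := not_lt.1 fun hc => h ⟨him, hc⟩
        rcases lt_or_eq_of_le this with h6 | h6
        · linarith
        · exact absurd (Complex.ext h6.symm him) hz
      · right; exact sub_ne_zero.2 him
    simp only [h, false_and, if_false]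
    exact continuousAt_const.mul ((continuousAt_const.sub continuousAt_id).cpow
      continuousAt_const h5)

theorem gc_mul_rX {n : ℕ} {x : Fin n → ℂ} {z : ℂ} (hz : ∀ i, x i ≠ z) :
    ContinuousAt (fun u => (gc x z u : ℂ) * rX x u) z := by
  classical
  have e : (fun u => (gc x z u : ℂ) * rX x u) = fun u => ∏ i,
      (((if rel (x i) z ∧ (x i).im < u.im then (-1 : ℝ) else 1 : ℝ) : ℂ) *
        (x i - u) ^ (1 / 2 : ℂ)) := by
    funext u
    unfold gc rX
    rw [Finset.prod_mul_distrib]
    push_cast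
    rfl
  rw [e]
  exact tendsto_finsetProd _ fun i _ => factor_continuousAt (hz i)

/-- continuity of the gauge corrected field -/
theorem gc_mul_continuousAt {n : ℕ} {x : Fin n → ℂ} {z : ℂ} (hz : ∀ i, x i ≠ z) {F g : ℂ → ℂ}
    (hg : ContinuousAt g z) (hF : ∀ᶠ u in 𝓝 z, F u * rX x u = g u) :
    ContinuousAt (fun u => (gc x z u : ℂ) * F u) z := by
  have h1 := gc_mul_rX hz
  have hgc1 : ∀ u, (gc x z u : ℂ) ^ 2 = 1 := fun u => by
    have := gc_sq x z u; exact_mod_cast this
  have h2 : (gc x z z : ℂ) * rX x z ≠ 0 := by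
    refine mul_ne_zero (fun h => ?_) (rX_ne hz)
    have := hgc1 z
    rw [h] at this; norm_num at this
  have h3 : ∀ᶠ u in 𝓝 z, (gc x z u : ℂ) * rX x u ≠ 0 := h1.eventually_ne h2
  refine (hg.div h1 h2).congr ?_
  filter_upwards [h3, hF] with u hu hFu
  have hu' : rX x u ≠ 0 := right_ne_zero_of_mul hu
  simp only [Pi.div_apply]
  rw [← hFu, div_eq_iff hu]
  linear_combination (-(F u * rX x u)) * hgc1 u

end Crest.Agent.R165.Mac0x622
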