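import Crest.Agent.R165.Mac0_622

/-!
# Row 165 (S0250), U4/MAC (helper622): exact solutions converge pointwise

* `harm_of_exact` : near a face with coboundary weights the gauged components are harmonic
* `gauge_L2` : `L²` convergence is preserved by the gauge `gz → gc`
* `exact_pt` : if `A (w k) (φ k) = 0` near `z ∈ Om` and `emb (φ k) → lv F` in `L²` near `z`, then
  `gz · φ_k (f_k) → lv (gc F)(z)` for all faces `f_k` with `a_k f_k → z`.
-/

set_option autoImplicit false
set_option linter.unusedVariables false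
set_option linter.unusedSimpArgs false

noncomputable section

open MeasureTheory Filter Topology Set Metric
open Crest.ProbabilityR.IsingModel
open Crest.Agent.R165.Tr1x40 Crest.Agent.R165.RIfx891 Crest.Agent.R165.Embx622
open Crest.Agent.R165.PotAx894 (lap)
open Crest.Agent.R165.Upx622 Crest.Agent.R165.Tr2x40

namespace Crest.Agent.R165.Mac1x622

open Crest.Agent.R165.Mac0x622

theorem B_zero (x : ℝ) (f : Face) (h : Fin 4) : B x (fun _ _ => 0) f h = 0 := by
  have := B_smul x 0 (fun _ _ => 0) f h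
  simpa using this

/-- harmonicity of the gauged components of an exact solution -/
theorem harm_of_exact {w φ : Fld} {g : Face → ℝ} (hg : ∀ f, g f ^ 2 = 1) {f : Face}
    (hw : ∀ a b : ℤ, |a| ≤ 1 → |b| ≤ 1 → ∀ h, w (f.1 + a, f.2 + b) h
      = xc * (g (f.1 + a, f.2 + b) * g (nb (f.1 + a, f.2 + b) h)))
    (hA : ∀ a b : ℤ, |a| ≤ 1 → |b| ≤ 1 → ∀ h, A w φ (f.1 + a, f.2 + b) h = 0) (h : Fin 4) :
    lap (fun f' => g f' * φ f' h) f = 0 := by
  have h1 := B_A_gauge w φ g f hg hw h
  have h2 : B xc (fun f' h' => g f' * A w φ f' h') f h = 0 := by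
    rw [← B_zero xc f h]
    apply B_congr
    intro a b ha hb
    funext h'
    rw [hA a b ha hb h', mul_zero]
  rw [h2, mul_zero] at h1
  have h3 : LapW w φ f h = 0 := by
    rcases mul_eq_zero.1 h1.symm with h | h
    · exact absurd h c0_pos.ne'
    · exact h
  have h4 : ∀ k, w f k = xc * (g f * g (nb f k)) := by
    intro k
    have := hw 0 0 (by norm_num) (by norm_num) k
    simpa using this
  have hx : xc ≠ 0 := xc_pos.ne'
  have h5 : g f * LapW w φ f h = 4 * (g f * φ f h) - ∑ k, g (nb f k) * φ (nb f k) h := by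
    unfold LapW
    rw [mul_sub, Finset.mul_sum]
    congr 1
    · ring
    · refine Finset.sum_congr rfl fun k _ => ?_
      rw [h4 k, mul_div_cancel_left₀ _ hx]
      linear_combination (g (nb f k) * φ (nb f k) h) * hg f
  rw [h3, mul_zero, Fin.sum_univ_four] at h5
  simp only [nb] at h5
  unfold PotAx894.lap
  simp only [PotAx894.e1, PotAx894.e2, Prod.mk_add_mk, Prod.mk_sub_mk] at *
  have e1 : f + (1, 0) = (f.1 + 1, f.2) := by ext <;> simp
  have e2 : f - (1, 0) = (f.1 - 1, f.2) := by ext <;> simp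
  have e3 : f + (0, 1) = (f.1, f.2 + 1) := by ext <;> simp
  have e4 : f - (0, 1) = (f.1, f.2 - 1) := by ext <;> simp
  rw [e1, e2, e3, e4]
  linarith

/-- the lattice gauge converges a.e. to the continuum gauge -/
theorem gz_tendsto {n : ℕ} {x : Fin n → ℂ} {a : ℕ → ℝ} (hpos : ∀ k, 0 < a k)
    (hlim : Tendsto a atTop (𝓝 0)) {V : ℕ → Fin n → Face}
    (tip : ∀ i, Tendsto (fun k => meshPoint (a k) (V k i)) atTop (𝓝 (x i))) (z : ℂ) {u : ℂ}
    (hu : ∀ i, (x i).im ≠ u.im) :
    ∀ᶠ k in atTop, gz x z (V k) (meshIndex (a k) u) = gc x z u := by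
  classical
  have key : ∀ i, ∀ᶠ k in atTop, ((V k i).2 ≤ (meshIndex (a k) u).2 ↔ (x i).im < u.im) := by
    intro i
    have ti : Tendsto (fun k => a k * ((V k i).2 : ℝ)) atTop (𝓝 (x i).im) :=
      (Complex.continuous_im.tendsto _).comp (tip i)
    have tu : Tendsto (fun k => a k * ((meshIndex (a k) u).2 : ℝ)) atTop (𝓝 u.im) := by
      have h1 : Tendsto (fun k => meshPoint (a k) (meshIndex (a k) u)) atTop (𝓝 u) := by
        rw [tendsto_iff_norm_sub_tendsto_zero]
        refine squeeze_zero (fun _ => norm_nonneg _) (fun k => norm_mesh_sub (hpos k) u) ?_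
        simpa using hlim.const_mul 2
      exact (Complex.continuous_im.tendsto _).comp h1
    rcases lt_or_gt_of_ne (hu i) with h | h
    · have h1 := ti.eventually (eventually_lt_nhds (show (x i).im < ((x i).im + u.im) / 2 by
        linarith))
      have h2 := tu.eventually (eventually_gt_nhds (show u.im > ((x i).im + u.im) / 2 by
        linarith))
      filter_upwards [h1, h2] with k h1 h2
      have h3 : ((V k i).2 : ℝ) < ((meshIndex (a k) u).2 : ℝ) :=
        lt_of_mul_lt_mul_left (h1.trans h2) (hpos k).le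
      have h4 : (V k i).2 < (meshIndex (a k) u).2 := by exact_mod_cast h3
      exact ⟨fun _ => h, fun _ => h4.le⟩
    · have h1 := ti.eventually (eventually_gt_nhds (show (x i).im > ((x i).im + u.im) / 2 by
        linarith))
      have h2 := tu.eventually (eventually_lt_nhds (show u.im < ((x i).im + u.im) / 2 by
        linarith))
      filter_upwards [h1, h2] with k h1 h2
      have h3 : ((meshIndex (a k) u).2 : ℝ) < ((V k i).2 : ℝ) :=
        lt_of_mul_lt_mul_left (h2.trans h1) (hpos k).le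
      have h4 : (meshIndex (a k) u).2 < (V k i).2 := by exact_mod_cast h3
      exact ⟨fun h5 => absurd h5 (not_le.2 h4), fun h5 => absurd h5 (not_lt.2 h.le)⟩
  filter_upwards [eventually_all.2 key] with k hk
  unfold gz gc
  refine Finset.prod_congr rfl fun i _ => ?_
  have := hk i
  by_cases h : rel (x i) z <;> simp [h, this]

/-- horizontal lines are null sets -/
theorem ae_im_ne {n : ℕ} (x : Fin n → ℂ) (s : Set ℂ) :
    ∀ᵐ u ∂((volume : Measure ℂ).restrict s), ∀ i, (x i).im ≠ u.im := by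
  refine ae_restrict_of_ae ?_
  rw [ae_all_iff]
  intro i
  have h : volume {u : ℂ | (x i).im = u.im} = 0 := by
    have e : {u : ℂ | (x i).im = u.im} = Complex.measurableEquivRealProd ⁻¹'
        (univ ×ˢ {(x i).im}) := by
      ext u; simp [Complex.measurableEquivRealProd_apply, eq_comm]
    rw [e, Complex.volume_preserving_equiv_real_prod.measure_preimage_equiv,
      Measure.volume_eq_prod, Measure.prod_prod]
    simp
  rw [ae_iff]
  simpa using h

/-- `L²` convergence is preserved by the gauge -/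
theorem gauge_L2 {n : ℕ} {x : Fin n → ℂ} {a : ℕ → ℝ} (hpos : ∀ k, 0 < a k)
    (hlim : Tendsto a atTop (𝓝 0)) {V : ℕ → Fin n → Face}
    (tip : ∀ i, Tendsto (fun k => meshPoint (a k) (V k i)) atTop (𝓝 (x i))) (z : ℂ) {ρ : ℝ}
    {v : ℕ → Face → ℝ} {Φ : ℂ → ℝ} {C : ℝ} (hC : ∀ u ∈ ball z ρ, |Φ u| ≤ C)
    (hL : Tendsto (fun k => ∫⁻ u in ball z ρ, ENNReal.ofReal ((emb (a k) (v k) u - Φ u) ^ 2)) atTop
      (𝓝 0)) :
    Tendsto (fun k => ∫⁻ u in ball z ρ, ENNReal.ofReal
      ((emb (a k) (fun f => gz x z (V k) f * v k f) u - gc x z u * Φ u) ^ 2)) atTop (𝓝 0) := by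
  classical
  -- the gauge error
  have hE : Tendsto (fun k => ∫⁻ u in ball z ρ, ENNReal.ofReal
      (((emb (a k) (gz x z (V k)) u - gc x z u) * C) ^ 2)) atTop (𝓝 0) := by
    have h0 : (0 : ENNReal) = ∫⁻ u in ball z ρ, (0 : ENNReal) := by simp
    rw [h0]
    have hmeas : Measurable (gc x z) := by
      have e : gc x z = fun u => ∏ i, (if rel (x i) z ∧ (x i).im < u.im then (-1 : ℝ) else 1) := by
        funext u; unfold gc; rfl
      rw [e]
      refine Finset.measurable_prod _ fun i _ => ?_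
      refine Measurable.ite ?_ measurable_const measurable_const
      by_cases h : rel (x i) z
      · simp only [h, true_and]
        exact measurableSet_lt measurable_const Complex.measurable_im
      · simp [h]
    refine tendsto_lintegral_of_dominated_convergence
      (fun _ => ENNReal.ofReal ((2 * C) ^ 2)) (fun k => ?_) (fun k => ?_) ?_ ?_
    · exact ((((emb_measurable _ _).sub hmeas).mul_const _).pow_const 2).ennreal_ofReal
    · refine Eventually.of_forall fun u => ENNReal.ofReal_le_ofReal ?_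
      rw [mul_pow, mul_pow]
      apply mul_le_mul_of_nonneg_right _ (sq_nonneg _)
      have h1 : emb (a k) (gz x z (V k)) u ^ 2 = 1 := gz_sq _ _ _ _
      have h2 := gc_sq x z u
      nlinarith [sq_nonneg (emb (a k) (gz x z (V k)) u + gc x z u)]
    · rw [lintegral_const]
      exact ENNReal.mul_ne_top ENNReal.ofReal_ne_top (by
        rw [Measure.restrict_apply_univ]; exact measure_ball_lt_top.ne)
    · filter_upwards [ae_im_ne x (ball z ρ)] with u hu
      refine tendsto_const_nhds.congr' ?_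
      filter_upwards [gz_tendsto hpos hlim tip z hu] with k hk
      have : emb (a k) (gz x z (V k)) u = gc x z u := hk
      rw [this]; simp
  have hL2 := ENNReal.Tendsto.const_mul (a := (2 : ENNReal)) hL (Or.inr (by simp))
  have hE2 := ENNReal.Tendsto.const_mul (a := (2 : ENNReal)) hE (Or.inr (by simp))
  have hsum := hL2.add hE2
  simp only [mul_zero, add_zero] at hsum
  refine tendsto_of_tendsto_of_tendsto_of_le_of_le tendsto_const_nhds hsum (fun _ => zero_le)
    fun k => ?_
  -- pointwise inequality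
  have hmul : ∀ f : ℂ → ENNReal, 2 * ∫⁻ u in ball z ρ, f u = ∫⁻ u in ball z ρ, 2 * f u :=
    fun f => (lintegral_const_mul' _ _ (by simp)).symm
  have hmeas : Measurable fun u => (2 : ENNReal) * ENNReal.ofReal
      (((emb (a k) (gz x z (V k)) u - gc x z u) * C) ^ 2) := by
    have hmeas : Measurable (gc x z) := by
      have e : gc x z = fun u => ∏ i, (if rel (x i) z ∧ (x i).im < u.im then (-1 : ℝ) else 1) := by
        funext u; unfold gc; rfl
      rw [e]
      refine Finset.measurable_prod _ fun i _ => ?_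
      refine Measurable.ite ?_ measurable_const measurable_const
      by_cases h : rel (x i) z
      · simp only [h, true_and]
        exact measurableSet_lt measurable_const Complex.measurable_im
      · simp [h]
    exact (((((emb_measurable _ _).sub hmeas).mul_const _).pow_const 2).ennreal_ofReal).const_mul _
  simp only [hmul]
  rw [← lintegral_add_right _ hmeas]
  refine setLIntegral_mono' measurableSet_ball fun u hu => ?_
  rw [show (2 : ENNReal) = ENNReal.ofReal 2 by simp, ← ENNReal.ofReal_mul (by norm_num),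
    ← ENNReal.ofReal_mul (by norm_num), ← ENNReal.ofReal_add (by positivity) (by positivity)]
  apply ENNReal.ofReal_le_ofReal
  have h1 : emb (a k) (gz x z (V k)) u ^ 2 = 1 := gz_sq _ _ _ _
  have h2 : emb (a k) (fun f => gz x z (V k) f * v k f) u =
      emb (a k) (gz x z (V k)) u * emb (a k) (v k) u := rfl
  rw [h2]
  set G := emb (a k) (gz x z (V k)) u
  set W := emb (a k) (v k) u
  set c := gc x z u
  have h3 : Φ u ^ 2 ≤ C ^ 2 := by
    rw [← sq_abs]; have := hC u hu; gcongr
  have e : G * W - c * Φ u = G * (W - Φ u) + (G - c) * Φ u := by ring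
  rw [e]
  have h4 : (G * (W - Φ u)) ^ 2 = (W - Φ u) ^ 2 := by rw [mul_pow, h1, one_mul]
  have h5 : ((G - c) * Φ u) ^ 2 ≤ ((G - c) * C) ^ 2 := by
    rw [mul_pow, mul_pow]; gcongr
  nlinarith [sq_nonneg (G * (W - Φ u) - (G - c) * Φ u)]

theorem gc_self {n : ℕ} (x : Fin n → ℂ) (z : ℂ) : gc x z z = 1 := by
  classical
  unfold gc
  refine Finset.prod_eq_one fun i _ => ?_
  rw [if_neg]
  rintro ⟨h1, h2⟩
  exact absurd h1.1 h2.ne

theorem lv_real_mul (s : ℝ) (c : ℂ) (h : Fin 4) : lv ((s : ℂ) * c) h = s * lv c h := by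
  fin_cases h <;> simp [lv] <;> ring

theorem lv_add (c d : ℂ) (h : Fin 4) : lv (c + d) h = lv c h + lv d h := by
  fin_cases h <;> simp [lv] <;> ring

theorem lv_continuous (h : Fin 4) : Continuous fun c : ℂ => lv c h := by
  fin_cases h <;> simp only [lv] <;> fun_prop

/-- in a small ball around a point of `O` the weights are a coboundary -/
theorem weights_gauge {O : Set ℂ} {n : ℕ} {x : Fin n → ℂ} {a : ℕ → ℝ} {w : ℕ → Fld}
    {V : ℕ → Fin n → Face} (H : OmSeq O x a w V) (hO : IsOpen O) (hx : ∀ i, x i ∉ O) {z : ℂ}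
    (hz : z ∈ O) : ∃ ρ > 0, ball z ρ ⊆ O ∧ ∀ᶠ k in atTop, ∀ f : Face,
      ‖meshPoint (a k) f - z‖ < ρ → ∀ h,
      w k f h = xc * (gz x z (V k) f * gz x z (V k) (nb f h)) := by
  obtain ⟨ρ1, hρ1, h1⟩ := local_gauge H.pos H.lim H.tip (z := z)
    (fun i hc => hx i (hc ▸ hz))
  obtain ⟨ρ2, hρ2, h2⟩ := Metric.isOpen_iff.1 hO z hz
  set ρ := min ρ1 (ρ2 / 2) with hρ
  have hρ0 : 0 < ρ := by positivity
  refine ⟨ρ, hρ0, (ball_subset_ball (by have := min_le_right ρ1 (ρ2 / 2); linarith)).trans h2, ?_⟩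
  have hK := H.ins (closedBall z ρ) (isCompact_closedBall _ _)
    ((closedBall_subset_ball (by have := min_le_right ρ1 (ρ2 / 2); linarith)).trans h2)
  filter_upwards [h1, hK] with k h1 h2 f hf h
  rw [h2 f (by rw [mem_closedBall, dist_eq_norm]; exact hf.le) h,
    h1 f (hf.trans_le (min_le_left _ _)) h]
  ring

theorem mesh_add_sub {a : ℝ} (ha : 0 < a) (f : Face) {b c : ℤ} (hb : |b| ≤ 1) (hc : |c| ≤ 1) :
    ‖meshPoint a (f.1 + b, f.2 + c) - meshPoint a f‖ ≤ 2 * a := by
  have h := meshPoint_sub a (f.1 + b, f.2 + c) f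
  simp only [add_sub_cancel_left] at h
  rw [abs_of_pos ha] at h
  have h1 : |(b : ℝ)| ≤ 1 := by rw [← Int.cast_abs]; exact_mod_cast hb
  have h2 : |(c : ℝ)| ≤ 1 := by rw [← Int.cast_abs]; exact_mod_cast hc
  nlinarith

/-- **exact solutions converge pointwise** -/
theorem exact_pt {O : Set ℂ} {n : ℕ} {x : Fin n → ℂ} {a : ℕ → ℝ} {w : ℕ → Fld}
    {V : ℕ → Fin n → Face} (H : OmSeq O x a w V) (hO : IsOpen O) (hx : ∀ i, x i ∉ O) {z₀ : ℂ}
    (hz : z₀ ∈ O) {φ : ℕ → Fld} {F : ℂ → ℂ} {r : ℝ} (hr : 0 < r)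
    (hex : ∀ᶠ k in atTop, ∀ f, ‖meshPoint (a k) f - z₀‖ < r → ∀ h, A (w k) (φ k) f h = 0)
    (hF : ContinuousAt (fun u => (gc x z₀ u : ℂ) * F u) z₀)
    (hL : ∀ h, Tendsto (fun k => ∫⁻ u in ball z₀ r, ENNReal.ofReal
      ((emb (a k) (fun f => φ k f h) u - lv (F u) h) ^ 2)) atTop (𝓝 0))
    {f : ℕ → Face} (hf : Tendsto (fun k => meshPoint (a k) (f k)) atTop (𝓝 z₀)) (h : Fin 4) :
    Tendsto (fun k => gz x z₀ (V k) (f k) * φ k (f k) h) atTop (𝓝 (lv (F z₀) h)) := by
  obtain ⟨ρ1, hρ1, -, hw⟩ := weights_gauge H hO hx hz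
  -- the limit function
  set Φ : ℂ → ℝ := fun u => gc x z₀ u * lv (F u) h with hΦ
  have hΦc : ContinuousAt Φ z₀ := by
    have e : Φ = fun u => lv ((gc x z₀ u : ℂ) * F u) h := by
      funext u; rw [hΦ, lv_real_mul]
    rw [e]
    exact (lv_continuous h).continuousAt.comp hF
  have hΦ0 : Φ z₀ = lv (F z₀) h := by simp [hΦ, gc_self]
  obtain ⟨ρ2, hρ2, hb⟩ := Metric.continuousAt_iff.1 hΦc 1 one_pos
  have hbd : ∀ u ∈ ball z₀ ρ2, |Φ u| ≤ |Φ z₀| + 1 := by
    intro u hu
    have h1 := hb hu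
    rw [Real.dist_eq] at h1
    have h2 : |Φ u| ≤ |Φ z₀| + |Φ u - Φ z₀| := by
      have : Φ u = Φ z₀ + (Φ u - Φ z₀) := by ring
      calc |Φ u| = |Φ z₀ + (Φ u - Φ z₀)| := by rw [← this]
        _ ≤ _ := abs_add_le _ _
    linarith
  have hbd' : ∀ u ∈ ball z₀ ρ2, |lv (F u) h| ≤ |Φ z₀| + 1 := by
    intro u hu
    have h1 := hbd u hu
    rw [hΦ] at h1
    simp only [abs_mul, gc_abs, one_mul] at h1
    simpa [hΦ, abs_mul, gc_abs] using h1
  set ρ := min (min (ρ1 / 2) (r / 2)) ρ2 with hρ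
  have hρ0 : 0 < ρ := by positivity
  have hρr : ρ ≤ r / 2 := (min_le_left _ _).trans (min_le_right _ _)
  have hρρ1 : ρ ≤ ρ1 / 2 := (min_le_left _ _).trans (min_le_left _ _)
  have hρρ2 : ρ ≤ ρ2 := min_le_right _ _
  -- L² convergence on the small ball
  have hL' : Tendsto (fun k => ∫⁻ u in ball z₀ ρ, ENNReal.ofReal
      ((emb (a k) (fun f => φ k f h) u - lv (F u) h) ^ 2)) atTop (𝓝 0) :=
    tendsto_of_tendsto_of_tendsto_of_le_of_le tendsto_const_nhds (hL h) (fun _ => zero_le)
      fun k => lintegral_mono_set (ball_subset_ball (by linarith))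
  have hG := gauge_L2 H.pos H.lim H.tip z₀ (v := fun k f => φ k f h) (Φ := fun u => lv (F u) h)
    (fun u hu => hbd' u (ball_subset_ball hρρ2 hu)) hL'
  rw [← hΦ0]
  refine upgrade H.tendsto_pos hρ0 (u := fun k f => gz x z₀ (V k) f * φ k f h) ?_
    (fun u hu => hbd u (ball_subset_ball hρρ2 hu)) hΦc hG hf
  have ha : ∀ᶠ k in atTop, a k < ρ / 4 := H.lim.eventually (eventually_lt_nhds (by linarith))
  filter_upwards [hw, hex, ha] with k h1 h2 h3 f' hf'
  have h4 : ∀ b c : ℤ, |b| ≤ 1 → |c| ≤ 1 →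
      ‖meshPoint (a k) (f'.1 + b, f'.2 + c) - z₀‖ < 2 * ρ := by
    intro b c hb hc
    have h5 := mesh_add_sub (H.pos k) f' hb hc
    have h6 : ‖meshPoint (a k) (f'.1 + b, f'.2 + c) - z₀‖ ≤
        ‖meshPoint (a k) (f'.1 + b, f'.2 + c) - meshPoint (a k) f'‖ +
          ‖meshPoint (a k) f' - z₀‖ := norm_sub_le_norm_sub_add_norm_sub _ _ _
    linarith
  refine harm_of_exact (w := w k) (gz_sq x z₀ (V k)) ?_ ?_ h
  · intro b c hb hc h'
    exact h1 _ (by have := h4 b c hb hc; linarith) h'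
  · intro b c hb hc h'
    exact h2 _ (by have := h4 b c hb hc; linarith) h'

end Crest.Agent.R165.Mac1x622
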