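import Crest.Agent.R165.MacI_622
import Crest.Agent.R165.SpB_583

/-!
# Row 165 (S0250), U4/MAC (helper622): the singular part

* `spF b` : column of the plane kernel, `A_spF`
* `sing c γ b` : cut off plane column in the gauge `γ`, `A_sing`
* `reg a χ γ S b` : the regular column `γ' a⁻¹ (S(.,b) - sing)`, `A_reg : A w reg = a * gsrc`
* `sc` : the continuum plane kernel, `sc_lv`, `sp_tendsto`, `sp_bound`
-/

set_option autoImplicit false
set_option linter.unusedVariables false
set_option linter.unusedSimpArgs false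

noncomputable section

open MeasureTheory Filter Topology Set Metric
open Crest.ProbabilityR.IsingModel
open Crest.Agent.R165.Tr1x40 Crest.Agent.R165.RIfx891 Crest.Agent.R165.Embx622
open Crest.Agent.R165.Upx622 Crest.Agent.R165.Tr2x40
open Crest.Agent.R165.Mac0x622 Crest.Agent.R165.Mac1x622 Crest.Agent.R165.MacIx622

namespace Crest.Agent.R165.Mac2x622

/-- column of the plane kernel -/
def spF (b : Face × Fin 4) : Fld := fun f h => Spx583.SP h b.2 (f.1 - b.1.1) (f.2 - b.1.2)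

theorem xc_eq583 : Spx583.xc = xc := rfl

theorem A_row (x : ℝ) (F : Fin 4 → ℤ → ℤ → ℝ) (u f : Face) (h : Fin 4) :
    A (cst x) (fun f h => F h (f.1 - u.1) (f.2 - u.2)) f h
      = Spx583.row x F h (f.1 - u.1) (f.2 - u.2) := by
  have e1 : f.2 - 1 - u.2 = f.2 - u.2 - 1 := by ring
  have e2 : f.1 + 1 - u.1 = f.1 - u.1 + 1 := by ring
  have e3 : f.2 + 1 - u.2 = f.2 - u.2 + 1 := by ring
  have e4 : f.1 - 1 - u.1 = f.1 - u.1 - 1 := by ring
  fin_cases h
  · simp [A_S, Spx583.row, cst, e1]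
  · simp [A_E, Spx583.row, cst, e2]
  · simp [A_N, Spx583.row, cst, e3]
  · simp [A_W, Spx583.row, cst, e4]

theorem A_spF (b : Face × Fin 4) (f : Face) (h : Fin 4) :
    A (cst xc) (spF b) f h = if (f, h) = b then -1 else 0 := by
  have h1 := A_row xc (fun c => Spx583.SP c b.2) b.1 f h
  have h2 : A (cst xc) (spF b) f h
      = Spx583.row xc (fun c => Spx583.SP c b.2) h (f.1 - b.1.1) (f.2 - b.1.2) := h1
  rw [h2, ← xc_eq583, Spx583.row_SP]
  by_cases hb : (f, h) = b
  · rw [if_pos hb, if_pos]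
    subst hb
    simp
  · rw [if_neg hb, if_neg]
    rintro ⟨h3, h4, h5⟩
    apply hb
    ext
    · simp only; linarith
    · simp only; linarith
    · simp only [h3]

/-- cut off plane column in the gauge `γ` -/
def sing (c γ : Face → ℝ) (b : Face × Fin 4) : Fld := fun f h => c f * (γ f * (γ b.1 * spF b f h))

theorem A_sing {w : Fld} {c γ : Face → ℝ} (hγ : ∀ f, γ f ^ 2 = 1) (b : Face × Fin 4)
    (hw : ∀ f h, (c f ≠ 0 ∨ c (nb f h) ≠ 0) → w f h = xc * (γ f * γ (nb f h)))
    (f : Face) (h : Fin 4) :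
    A w (sing c γ b) f h = c f * (if (f, h) = b then -1 else 0)
      + sg h * xc * ((c (nb f h) - c f) * (γ f * (γ b.1 * spF b (nb f h) (op h)))) := by
  have h0 := A_cut w c (fun f h => γ f * (γ b.1 * spF b f h)) f h
  have h1 : A w (sing c γ b) f h = _ := h0
  rw [h1]
  congr 1
  · by_cases hc : c f = 0
    · rw [hc, zero_mul, zero_mul]
    · congr 1
      have h2 : w f h = gw γ (cst xc) f h := by
        rw [hw f h (Or.inl hc)]
        simp only [gw, cst]
        ring
      rw [A_congr _ f h h2, A_gauge γ (cst xc) _ f h (hγ _), A_smul, A_spF]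
      by_cases hb : (f, h) = b
      · have h3 : b.1 = f := by rw [← hb]
        rw [if_pos hb, h3]
        linear_combination (-1) * hγ f
      · rw [if_neg hb]; ring
  · by_cases hc : c f ≠ 0 ∨ c (nb f h) ≠ 0
    · rw [hw f h hc]
      linear_combination (sg h * xc * (c (nb f h) - c f) * γ f * γ b.1 *
        spF b (nb f h) (op h)) * hγ (nb f h)
    · push Not at hc
      rw [hc.1, hc.2]; ring

/-- regular column -/
def reg (a : ℝ) (c γ : Face → ℝ) (S : Face × Fin 4 → Face × Fin 4 → ℝ) (b : Face × Fin 4) : Fld :=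
  fun f h => γ b.1 * (a⁻¹ * (S (f, h) b - sing c γ b f h))

/-- its source -/
def gsrc (a : ℝ) (c γ : Face → ℝ) (b : Face × Fin 4) : Fld := fun f h =>
  -(sg h * xc * (a⁻¹ * (c (nb f h) - c f)) * (γ f * (a⁻¹ * spF b (nb f h) (op h))))

theorem A_reg {w : Fld} {a : ℝ} (ha : 0 < a) {c γ : Face → ℝ}
    {S : Face × Fin 4 → Face × Fin 4 → ℝ} (hS : Cov40 w S) (hγ : ∀ f, γ f ^ 2 = 1)
    (b : Face × Fin 4) (hc : c b.1 = 1)
    (hw : ∀ f h, (c f ≠ 0 ∨ c (nb f h) ≠ 0) → w f h = xc * (γ f * γ (nb f h)))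
    (f : Face) (h : Fin 4) :
    A w (reg a c γ S b) f h = a * gsrc a c γ b f h := by
  have h1 : A w (reg a c γ S b) f h = γ b.1 * (a⁻¹ * (A w (fun f h => S (f, h) b) f h +
      A w (fun f h => (-1) * sing c γ b f h) f h)) := by
    rw [← A_add, ← A_smul, ← A_smul]
    congr 1
    funext f h
    unfold reg
    ring
  rw [h1, hS.inv, A_smul, A_sing hγ b hw]
  unfold gsrc
  have h2 := hγ b.1
  have ha' : a ≠ 0 := ha.ne'
  by_cases hb : (f, h) = b
  · have h3 : f = b.1 := by rw [← hb]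
    rw [if_pos hb, h3, hc]
    field_simp
    linear_combination (-(sg h * xc * (c (nb b.1 h) - 1) * spF b (nb b.1 h) (op h) * γ b.1)) * h2
  · rw [if_neg hb]
    field_simp
    linear_combination (-(sg h * xc * (c (nb f h) - c f) * spF b (nb f h) (op h) * γ f)) * h2

theorem reg_zero {w : Fld} {a : ℝ} {c γ : Face → ℝ}
    {S : Face × Fin 4 → Face × Fin 4 → ℝ} (hS : Cov40 w S) {b : Face × Fin 4}
    (hc : {f | c f ≠ 0}.Finite) :
    Tendsto (fun b' : Face × Fin 4 => reg a c γ S b b'.1 b'.2) cofinite (𝓝 0) := by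
  have h1 : Tendsto (fun b' : Face × Fin 4 => γ b.1 * (a⁻¹ * S b' b)) cofinite (𝓝 0) := by
    have := ((hS.zero b).const_mul a⁻¹).const_mul (γ b.1)
    simpa using this
  refine h1.congr' ?_
  have h2 : {b' : Face × Fin 4 | c b'.1 ≠ 0}.Finite := by
    have : {b' : Face × Fin 4 | c b'.1 ≠ 0} = {f | c f ≠ 0} ×ˢ (univ : Set (Fin 4)) := by
      ext b'; simp
    rw [this]
    exact hc.prod finite_univ
  have h3 : ∀ᶠ b' : Face × Fin 4 in cofinite, c b'.1 = 0 := by
    rw [eventually_cofinite]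
    exact h2
  filter_upwards [h3] with b' hb'
  unfold reg sing
  rw [hb']
  simp

/-! ### the continuum plane kernel -/

/-- the continuum plane kernel -/
def sc (a b : Fin 4) (v : ℂ) : ℝ :=
  (1 / (2 * Real.pi * xc)) * ((Real.sin (Spx583.psi a b) * v.re + Real.cos (Spx583.psi a b) * v.im)
    / (v.re ^ 2 + v.im ^ 2))

/-- the four directions `e^{-3iθ/2}` -/
def ud (i : Fin 4) : ℂ := Complex.exp (-(3 * Real.pi / 4 * ((i.val : ℝ) - 1) : ℝ) * Complex.I)

theorem ud_zero : ud 0 = ⟨-(Real.sqrt 2 / 2), Real.sqrt 2 / 2⟩ := by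
  unfold ud
  rw [← Complex.ofReal_neg, Complex.exp_ofReal_mul_I]
  have e : -(3 * Real.pi / 4 * (((0 : Fin 4).val : ℝ) - 1)) = Real.pi - Real.pi / 4 := by
    simp; ring
  rw [e, Real.cos_pi_sub, Real.sin_pi_sub, Real.cos_pi_div_four, Real.sin_pi_div_four]
  apply Complex.ext <;> simp

theorem ud_one : ud 1 = 1 := by
  unfold ud; simp

theorem ud_two : ud 2 = ⟨-(Real.sqrt 2 / 2), -(Real.sqrt 2 / 2)⟩ := by
  unfold ud
  rw [← Complex.ofReal_neg, Complex.exp_ofReal_mul_I]
  have e : -(3 * Real.pi / 4 * (((2 : Fin 4).val : ℝ) - 1)) = -(Real.pi - Real.pi / 4) := by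
    simp; ring
  rw [e, Real.cos_neg, Real.sin_neg, Real.cos_pi_sub, Real.sin_pi_sub, Real.cos_pi_div_four,
    Real.sin_pi_div_four]
  apply Complex.ext <;> simp

theorem ud_three : ud 3 = Complex.I := by
  unfold ud
  rw [← Complex.ofReal_neg, Complex.exp_ofReal_mul_I]
  have e : -(3 * Real.pi / 4 * (((3 : Fin 4).val : ℝ) - 1)) = Real.pi / 2 - 2 * Real.pi := by
    simp; ring
  rw [e, Real.cos_sub_two_pi, Real.sin_sub_two_pi, Real.cos_pi_div_two, Real.sin_pi_div_two]
  apply Complex.ext <;> simp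

/-- the light vector of amplitude `c` has the components `Re (c u_h)` -/
theorem lv_ud (c : ℂ) (h : Fin 4) : lv c h = (c * ud h).re := by
  fin_cases h
  · simp only [Fin.zero_eta, ud_zero, lv, div_sq2, Complex.mul_re]; ring
  · simp only [Fin.mk_one, ud_one, lv, mul_one]
  · simp only [Fin.reduceFinMk, ud_two, lv, div_sq2, Complex.mul_re]; ring
  · simp only [Fin.reduceFinMk, ud_three, lv, Complex.mul_I_re]

theorem ud_mul (a b : Fin 4) :
    ud a * ud b = Complex.exp (-(Spx583.psi a b : ℝ) * Complex.I) := by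
  unfold ud Spx583.psi
  rw [← Complex.exp_add]
  congr 1
  push_cast
  ring

/-- amplitude of the source in the direction `b` -/
def src (b : Fin 4) : ℂ := Complex.I * ud b / (2 * Real.pi * xc)

theorem sc_lv (a b : Fin 4) (v : ℂ) : sc a b v = lv (src b / v) a := by
  rw [lv_ud]
  have e1 : src b / v * ud a = (1 / (2 * Real.pi * xc) : ℝ) * (Complex.I * (ud a * ud b) / v) := by
    unfold src
    push_cast
    ring
  rw [e1, Complex.re_ofReal_mul, ud_mul]
  unfold sc
  congr 1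
  rw [← Complex.ofReal_neg, Complex.exp_ofReal_mul_I, Complex.div_re, Complex.normSq_apply]
  simp only [Real.cos_neg, Real.sin_neg, Complex.mul_re, Complex.mul_im, Complex.I_re, Complex.I_im,
    Complex.add_re, Complex.add_im, Complex.ofReal_re, Complex.ofReal_im]
  ring

theorem sc_scale (a b : Fin 4) {t : ℝ} (ht : 0 < t) (m n : ℤ) :
    t⁻¹ * Spx583.SPlead a b m n = sc a b (meshPoint t (m, n)) := by
  unfold Spx583.SPlead sc
  rw [meshPoint_re, meshPoint_im, xc_eq583]
  by_cases h : (m : ℝ) ^ 2 + (n : ℝ) ^ 2 = 0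
  · have h1 : (t * (m : ℝ)) ^ 2 + (t * (n : ℝ)) ^ 2 = 0 := by
      have : (t * (m : ℝ)) ^ 2 + (t * (n : ℝ)) ^ 2 = t ^ 2 * ((m : ℝ) ^ 2 + (n : ℝ) ^ 2) := by ring
      rw [this, h, mul_zero]
    simp only [h, h1, div_zero, mul_zero]
  · have h1 : (t * (m : ℝ)) ^ 2 + (t * (n : ℝ)) ^ 2 = t ^ 2 * ((m : ℝ) ^ 2 + (n : ℝ) ^ 2) := by ring
    rw [h1]
    have hx := xc_pos.ne'
    have hp := Real.pi_ne_zero
    field_simp

theorem sc_continuousAt (a b : Fin 4) {v : ℂ} (hv : v ≠ 0) : ContinuousAt (sc a b) v := by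
  unfold sc
  have h : v.re ^ 2 + v.im ^ 2 ≠ 0 := by
    intro h
    apply hv
    have h1 : v.re = 0 := by nlinarith [sq_nonneg v.re, sq_nonneg v.im]
    have h2 : v.im = 0 := by nlinarith [sq_nonneg v.re, sq_nonneg v.im]
    exact Complex.ext h1 h2
  have c1 : Continuous fun v : ℂ =>
      Real.sin (Spx583.psi a b) * v.re + Real.cos (Spx583.psi a b) * v.im := by fun_prop
  have c2 : Continuous fun v : ℂ => v.re ^ 2 + v.im ^ 2 := by fun_prop
  exact continuousAt_const.mul (c1.continuousAt.div c2.continuousAt h)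

/-- pointwise bound of the plane kernel -/
theorem sp_bound {t : ℝ} (ht : 0 < t) (b : Face × Fin 4) (f : Face) (h : Fin 4) {d : ℝ} (hd : 0 < d)
    (hf : d ≤ ‖meshPoint t f - meshPoint t b.1‖) : |t⁻¹ * spF b f h| ≤ 4000000 / d := by
  unfold spF
  have h1 := Spx583.SP_le h b.2 (f.1 - b.1.1) (f.2 - b.1.2)
  have h2 := meshPoint_sub t f b.1
  rw [abs_of_pos ht] at h2
  push_cast at h1 h2
  set M := |(f.1 : ℝ) - b.1.1| with hM
  set N := |(f.2 : ℝ) - b.1.2| with hN
  rw [abs_mul, abs_inv, abs_of_pos ht]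
  have hM0 : 0 ≤ M := abs_nonneg _
  have hN0 : 0 ≤ N := abs_nonneg _
  have h3 : d ≤ t * (1 + M + N) := by
    refine hf.trans (h2.trans ?_)
    nlinarith
  calc t⁻¹ * |Spx583.SP h b.2 (f.1 - b.1.1) (f.2 - b.1.2)|
      ≤ t⁻¹ * (4000000 / (1 + M + N)) := by gcongr
    _ = 4000000 / (t * (1 + M + N)) := by
        have : (1 + M + N) ≠ 0 := by positivity
        field_simp
    _ ≤ 4000000 / d := by gcongr

/-- convergence of the plane kernel -/
theorem sp_tendsto {t : ℕ → ℝ} (ht : ∀ k, 0 < t k) (hlim : Tendsto t atTop (𝓝 0))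
    {f f' : ℕ → Face} {z z' : ℂ} (hne : z ≠ z')
    (hf : Tendsto (fun k => meshPoint (t k) (f k)) atTop (𝓝 z))
    (hf' : Tendsto (fun k => meshPoint (t k) (f' k)) atTop (𝓝 z')) (i h : Fin 4) :
    Tendsto (fun k => (t k)⁻¹ * spF (f' k, i) (f k) h) atTop (𝓝 (sc h i (z - z'))) := by
  set m : ℕ → ℤ := fun k => (f k).1 - (f' k).1 with hm
  set n : ℕ → ℤ := fun k => (f k).2 - (f' k).2 with hn
  have hv : Tendsto (fun k => meshPoint (t k) (m k, n k)) atTop (𝓝 (z - z')) := by
    refine (hf.sub hf').congr fun k => ?_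
    apply Complex.ext
    · rw [Complex.sub_re, meshPoint_re, meshPoint_re, meshPoint_re, hm]; push_cast; ring
    · rw [Complex.sub_im, meshPoint_im, meshPoint_im, meshPoint_im, hn]; push_cast; ring
  have hne' : z - z' ≠ 0 := sub_ne_zero.2 hne
  -- leading term
  have h1 : Tendsto (fun k => (t k)⁻¹ * Spx583.SPlead h i (m k) (n k)) atTop
      (𝓝 (sc h i (z - z'))) := by
    have := (sc_continuousAt h i hne').tendsto.comp hv
    refine this.congr fun k => ?_
    simp only [Function.comp]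
    rw [sc_scale h i (ht k)]
  -- error
  have h2 : Tendsto (fun k => (t k)⁻¹ * spF (f' k, i) (f k) h -
      (t k)⁻¹ * Spx583.SPlead h i (m k) (n k)) atTop (𝓝 0) := by
    have hnz : ∀ᶠ k in atTop, ‖z - z'‖ / 2 < ‖meshPoint (t k) (m k, n k)‖ := by
      have h3 := hv.norm
      exact h3.eventually (eventually_gt_nhds (by
        have := norm_pos_iff.2 hne'; linarith))
    have hpos : 0 < ‖z - z'‖ := norm_pos_iff.2 hne'
    have hb : ∀ᶠ k in atTop, ‖(t k)⁻¹ * spF (f' k, i) (f k) h -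
        (t k)⁻¹ * Spx583.SPlead h i (m k) (n k)‖ ≤ t k * (1000000 / (‖z - z'‖ / 2) ^ 2) := by
      filter_upwards [hnz] with k hk
      have hmn : ¬ (m k = 0 ∧ n k = 0) := by
        rintro ⟨h4, h5⟩
        rw [h4, h5] at hk
        have e0 : meshPoint (t k) (0, 0) = 0 := by
          apply Complex.ext <;> simp [meshPoint]
        rw [e0, norm_zero] at hk
        linarith
      have h4 := Spx583.SP_asymp h i (m k) (n k) hmn
      have h5 : ‖meshPoint (t k) (m k, n k)‖ ^ 2 = (t k) ^ 2 * ((m k : ℝ) ^ 2 + (n k : ℝ) ^ 2) := by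
        rw [← Complex.normSq_eq_norm_sq, Complex.normSq_apply, meshPoint_re, meshPoint_im]
        ring
      have h6 : (‖z - z'‖ / 2) ^ 2 ≤ (t k) ^ 2 * ((m k : ℝ) ^ 2 + (n k : ℝ) ^ 2) := by
        rw [← h5]; gcongr
      have h7 : 0 < (t k) ^ 2 * ((m k : ℝ) ^ 2 + (n k : ℝ) ^ 2) := lt_of_lt_of_le (by positivity) h6
      have h8 : 0 < (m k : ℝ) ^ 2 + (n k : ℝ) ^ 2 := by
        have := ht k
        by_contra hc
        push Not at hc
        nlinarith [sq_nonneg (t k)]
      rw [← mul_sub, norm_mul, Real.norm_eq_abs, Real.norm_eq_abs, abs_inv, abs_of_pos (ht k)]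
      have h9 : spF (f' k, i) (f k) h = Spx583.SP h i (m k) (n k) := rfl
      rw [h9]
      have ht' := ht k
      calc (t k)⁻¹ * |Spx583.SP h i (m k) (n k) - Spx583.SPlead h i (m k) (n k)|
          ≤ (t k)⁻¹ * (1000000 / ((m k : ℝ) ^ 2 + (n k : ℝ) ^ 2)) := by gcongr
        _ = t k * (1000000 / ((t k) ^ 2 * ((m k : ℝ) ^ 2 + (n k : ℝ) ^ 2))) := by
            field_simp
        _ ≤ _ := by gcongr
    refine squeeze_zero_norm' hb ?_
    have := hlim.mul_const (1000000 / (‖z - z'‖ / 2) ^ 2)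
    simpa using this
  have h3 := h2.add h1
  simp only [sub_add_cancel, zero_add] at h3
  exact h3

end Crest.Agent.R165.Mac2x622
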