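import Crest.Agent.R165.Mac3_622

/-!
# Row 165 (S0250), U4/MAC (helper622): convergence of the columns

* `local_gauge'`, `weights_gauge'` : the local gauge with a radius independent of the sequence
* `KR y r` : the annulus `r/4 ≤ |z-y| ≤ r`
* `CS` : sequences of the class with covariances
* `col` : `L²` convergence of the regular columns
* `col_off`, `col_diag` : pointwise convergence
-/

set_option autoImplicit false
set_option linter.unusedVariables false
set_option linter.unusedSimpArgs false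

noncomputable section

open MeasureTheory Filter Topology Set Metric
open Crest.ProbabilityR.IsingModel
open Crest.Agent.R165.Tr1x40 Crest.Agent.R165.RIfx891 Crest.Agent.R165.Embx622
open Crest.Agent.R165.Upx622 Crest.Agent.R165.Tr2x40
open Crest.Agent.R165.Mac0x622 Crest.Agent.R165.Mac1x622 Crest.Agent.R165.MacIx622
open Crest.Agent.R165.Mac2x622 Crest.Agent.R165.Mac3x622

namespace Crest.Agent.R165.Mac4x622

/-- **local gauge**, uniform radius -/
theorem local_gauge' {n : ℕ} {x : Fin n → ℂ} {z : ℂ} (hz : ∀ i, x i ≠ z) :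
    ∃ ρ > 0, ∀ (a : ℕ → ℝ) (V : ℕ → Fin n → Face), (∀ k, 0 < a k) → Tendsto a atTop (𝓝 0) →
      (∀ i, Tendsto (fun k => meshPoint (a k) (V k i)) atTop (𝓝 (x i))) →
      ∀ᶠ k in atTop, ∀ f : Face, ‖meshPoint (a k) f - z‖ < ρ → ∀ h,
        rays (V k) f h = gz x z (V k) f * gz x z (V k) (nb f h) := by
  classical
  -- one insertion at a time
  have key : ∀ i, ∃ ρ > 0, ∀ (a : ℕ → ℝ) (V : ℕ → Fin n → Face), (∀ k, 0 < a k) →
      Tendsto a atTop (𝓝 0) →
      (∀ i, Tendsto (fun k => meshPoint (a k) (V k i)) atTop (𝓝 (x i))) →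
      ∀ᶠ k in atTop, ∀ f : Face, ‖meshPoint (a k) f - z‖ < ρ → ∀ h,
      rayw (V k i) f h = (if rel (x i) z ∧ (V k i).2 ≤ f.2 then (-1 : ℝ) else 1) *
        (if rel (x i) z ∧ (V k i).2 ≤ (nb f h).2 then -1 else 1) := by
    intro i
    by_cases him : (x i).im = z.im
    · rcases lt_trichotomy (x i).re z.re with hre | hre | hre
      · -- the ray passes through `z`
        have hrel : rel (x i) z := ⟨him, hre⟩
        refine ⟨(z.re - (x i).re) / 2, by linarith, fun a V hpos hlim tip => ?_⟩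
        have tr : Tendsto (fun k => a k * ((V k i).1 : ℝ)) atTop (𝓝 (x i).re) :=
          (Complex.continuous_re.tendsto _).comp (tip i)
        filter_upwards [tr.eventually (eventually_lt_nhds (show (x i).re <
          ((x i).re + z.re) / 2 by linarith))] with k hk f hf h
        have h1 : a k * (f.1 : ℝ) > ((x i).re + z.re) / 2 := by
          have := (Complex.abs_re_le_norm (meshPoint (a k) f - z)).trans_lt hf
          rw [Complex.sub_re, meshPoint_re, abs_lt] at this
          linarith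
        have h2 : (V k i).1 ≤ f.1 := by
          have h3 : a k * ((V k i).1 : ℝ) < a k * (f.1 : ℝ) := by linarith
          have h4 := lt_of_mul_lt_mul_left h3 (hpos k).le
          have h5 : (V k i).1 < f.1 := by exact_mod_cast h4
          exact h5.le
        unfold rayw
        fin_cases h <;>
          simp only [hrel, h2, and_true, true_and, nb, Fin.zero_eta, Fin.mk_one, Fin.reduceFinMk,
            Fin.isValue, Fin.reduceEq, false_and, or_false, false_or, zero_ne_one, one_ne_zero,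
            if_false, ite_self] <;>
          split_ifs <;> (try norm_num) <;> (try omega)
      · exact absurd (Complex.ext hre him) (hz i)
      · -- the ray starts to the right of `z`
        have hrel : ¬ rel (x i) z := fun h => by have := h.2; linarith
        refine ⟨((x i).re - z.re) / 2, by linarith, fun a V hpos hlim tip => ?_⟩
        have tr : Tendsto (fun k => a k * ((V k i).1 : ℝ)) atTop (𝓝 (x i).re) :=
          (Complex.continuous_re.tendsto _).comp (tip i)
        filter_upwards [tr.eventually (eventually_gt_nhds (show (x i).re >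
          ((x i).re + z.re) / 2 by linarith))] with k hk f hf h
        have h1 : a k * (f.1 : ℝ) < ((x i).re + z.re) / 2 := by
          have := (Complex.abs_re_le_norm (meshPoint (a k) f - z)).trans_lt hf
          rw [Complex.sub_re, meshPoint_re, abs_lt] at this
          linarith
        have h2 : ¬ (V k i).1 ≤ f.1 := by
          have h3 : a k * (f.1 : ℝ) < a k * ((V k i).1 : ℝ) := by linarith
          have h4 := lt_of_mul_lt_mul_left h3 (hpos k).le
          have h5 : f.1 < (V k i).1 := by exact_mod_cast h4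
          omega
        simp [rayw, hrel, h2]
    · -- the ray is at a different height
      have hrel : ¬ rel (x i) z := fun h => him h.1
      set d := |(x i).im - z.im| with hd
      have hd0 : 0 < d := abs_pos.2 (sub_ne_zero.2 him)
      refine ⟨d / 4, by linarith, fun a V hpos hlim tip => ?_⟩
      have ti : Tendsto (fun k => a k * ((V k i).2 : ℝ)) atTop (𝓝 (x i).im) :=
        (Complex.continuous_im.tendsto _).comp (tip i)
      have e1 : ∀ᶠ k in atTop, |a k * ((V k i).2 : ℝ) - (x i).im| < d / 4 := by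
        have := (Metric.tendsto_nhds.1 ti) (d / 4) (by linarith)
        simpa [Real.dist_eq] using this
      have e2 : ∀ᶠ k in atTop, a k < d / 4 := hlim.eventually (eventually_lt_nhds (by linarith))
      filter_upwards [e1, e2] with k h1 h2 f hf h
      have h3 : |a k * (f.2 : ℝ) - z.im| < d / 4 := by
        have := (Complex.abs_im_le_norm (meshPoint (a k) f - z)).trans_lt hf
        rwa [Complex.sub_im, meshPoint_im] at this
      have h4 : f.2 ≠ (V k i).2 := by
        intro hc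
        rw [hc] at h3
        have : d ≤ |a k * ((V k i).2 : ℝ) - (x i).im| + |a k * ((V k i).2 : ℝ) - z.im| := by
          rw [hd]
          have e : (x i).im - z.im = -(a k * ((V k i).2 : ℝ) - (x i).im) +
            (a k * ((V k i).2 : ℝ) - z.im) := by ring
          rw [e]
          refine (abs_add_le _ _).trans ?_
          rw [abs_neg]
        linarith
      have h5 : f.2 + 1 ≠ (V k i).2 := by
        intro hc
        have hc' : ((V k i).2 : ℝ) = (f.2 : ℝ) + 1 := by rw [← hc]; push_cast; ring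
        have : d ≤ |a k * ((V k i).2 : ℝ) - (x i).im| + |a k * (f.2 : ℝ) - z.im| + a k := by
          rw [hd]
          have e : (x i).im - z.im = -(a k * ((V k i).2 : ℝ) - (x i).im) +
            (a k * (f.2 : ℝ) - z.im) + a k := by rw [hc']; ring
          rw [e]
          refine (abs_add_le _ _).trans ?_
          rw [abs_of_pos (hpos k)]
          have := abs_add_le (-(a k * ((V k i).2 : ℝ) - (x i).im)) (a k * (f.2 : ℝ) - z.im)
          rw [abs_neg] at this
          linarith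
        linarith
      simp [rayw, hrel, h4, h5]
  choose ρ hρ hk using key
  obtain ⟨r, hr0, hr⟩ : ∃ r > 0, ∀ i, r ≤ ρ i := by
    rcases isEmpty_or_nonempty (Fin n) with he | he
    · exact ⟨1, one_pos, fun i => (he.false i).elim⟩
    · refine ⟨Finset.univ.inf' Finset.univ_nonempty ρ, ?_, fun i =>
        Finset.inf'_le ρ (Finset.mem_univ i)⟩
      rw [gt_iff_lt, Finset.lt_inf'_iff]
      exact fun i _ => hρ i
  refine ⟨r, hr0, fun a V hpos hlim tip => ?_⟩
  filter_upwards [eventually_all.2 fun i => hk i a V hpos hlim tip] with k hk f hf h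
  unfold rays gz
  rw [← Finset.prod_mul_distrib]
  exact Finset.prod_congr rfl fun i _ => hk i f (hf.trans_le (hr i)) h

/-- the weights are a coboundary near a point, uniform radius -/
theorem weights_gauge' {O : Set ℂ} {n : ℕ} {x : Fin n → ℂ} (hO : IsOpen O) (hx : ∀ i, x i ∉ O)
    {z : ℂ} (hz : z ∈ O) : ∃ ρ > 0, ball z ρ ⊆ O ∧ ∀ (a : ℕ → ℝ) (w : ℕ → Fld)
      (V : ℕ → Fin n → Face), OmSeq O x a w V → ∀ᶠ k in atTop, ∀ f : Face,
      ‖meshPoint (a k) f - z‖ < ρ → ∀ h,
      w k f h = xc * (gz x z (V k) f * gz x z (V k) (nb f h)) := by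
  obtain ⟨ρ1, hρ1, h1⟩ := local_gauge' (x := x) (z := z) (fun i hc => hx i (hc ▸ hz))
  obtain ⟨ρ2, hρ2, h2⟩ := Metric.isOpen_iff.1 hO z hz
  set ρ := min ρ1 (ρ2 / 2) with hρ
  have hρ0 : 0 < ρ := by positivity
  refine ⟨ρ, hρ0, (ball_subset_ball (by have := min_le_right ρ1 (ρ2 / 2); linarith)).trans h2,
    fun a w V H => ?_⟩
  have hK := H.ins (closedBall z ρ) (isCompact_closedBall _ _)
    ((closedBall_subset_ball (by have := min_le_right ρ1 (ρ2 / 2); linarith)).trans h2)
  filter_upwards [h1 a V H.pos H.lim H.tip, hK] with k h1 h2 f hf h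
  rw [h2 f (by rw [mem_closedBall, dist_eq_norm]; exact hf.le) h,
    h1 f (hf.trans_le (min_le_left _ _)) h]
  ring

/-- the annulus `r/4 ≤ |z-y| ≤ r` -/
def KR (y : ℂ) (r : ℝ) : Set ℂ := closedBall y r \ ball y (r / 4)

theorem KR_compact (y : ℂ) (r : ℝ) : IsCompact (KR y r) :=
  (isCompact_closedBall y r).diff isOpen_ball

theorem mem_KR {y : ℂ} {r : ℝ} {z : ℂ} : z ∈ KR y r ↔ ‖z - y‖ ≤ r ∧ r / 4 ≤ ‖z - y‖ := by
  unfold KR
  rw [Set.mem_sdiff, mem_closedBall, mem_ball, dist_eq_norm, not_lt]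

/-- sequences of the class with their covariances -/
structure CS {n : ℕ} (CC : (ℕ → ℝ) → (ℕ → Fld) → (ℕ → Fin n → Face) → Prop) (a : ℕ → ℝ)
    (w : ℕ → Fld) (V : ℕ → Fin n → Face) (S : ℕ → Face × Fin 4 → Face × Fin 4 → ℝ) : Prop where
  cls : CC a w V
  cov : ∀ᶠ k in atTop, Cov40 (w k) (S k)

/-- the `L²` convergence of the columns with source vector `p` at `y`, cut-off `χ`, to `F` -/
def ColConv (Om : Set ℂ) {n : ℕ} (x : Fin n → ℂ)
    (CC : (ℕ → ℝ) → (ℕ → Fld) → (ℕ → Fin n → Face) → Prop) (y : ℂ) (χ : ℂ → ℝ) (c : ℂ)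
    (F : ℂ → ℂ) : Prop :=
  ∀ a w V S, CS CC a w V S → ∀ f' : ℕ → Face,
    Tendsto (fun k => meshPoint (a k) (f' k)) atTop (𝓝 y) → ∀ p : Fin 4 → ℝ, cp p = c →
    ∀ z₀ ∈ Om, ∃ ρ > 0, ∀ h, Tendsto (fun k => ∫⁻ z in ball z₀ ρ, ENNReal.ofReal
      ((emb (a k) (fun f => regp (a k) (fun f => χ (meshPoint (a k) f)) (gz x y (V k)) (S k) (f' k)
        p f h) z - lv (F z) h) ^ 2)) atTop (𝓝 0)

/-- finite support of the cut-off on the lattice -/
theorem cut_finite {y : ℂ} {r : ℝ} {χ : ℂ → ℝ} (hχ : Cut y r χ) {t : ℝ} (ht : 0 < t) :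
    {f : Face | χ (meshPoint t f) ≠ 0}.Finite := by
  obtain ⟨N, hN⟩ := exists_nat_ge ((‖y‖ + |r|) / t)
  refine Set.Finite.subset (s := Set.Icc (-(N : ℤ)) N ×ˢ Set.Icc (-(N : ℤ)) N)
    ((Set.finite_Icc _ _).prod (Set.finite_Icc _ _)) fun f hf => ?_
  have h1 : ‖meshPoint t f - y‖ < 3 * r / 4 := by
    by_contra hc
    exact hf (hχ.zero _ (not_lt.1 hc))
  have hr : 0 < r := by
    have := norm_nonneg (meshPoint t f - y)
    linarith
  have h2 : ‖meshPoint t f‖ ≤ ‖y‖ + |r| := by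
    have h3 : ‖meshPoint t f‖ ≤ ‖meshPoint t f - y‖ + ‖y‖ := by
      have := norm_add_le (meshPoint t f - y) y
      rwa [sub_add_cancel] at this
    rw [abs_of_pos hr]
    linarith
  rw [div_le_iff₀ ht] at hN
  have h3 : |t * (f.1 : ℝ)| ≤ N * t := by
    have := Complex.abs_re_le_norm (meshPoint t f)
    rw [meshPoint_re] at this
    linarith
  have h4 : |t * (f.2 : ℝ)| ≤ N * t := by
    have := Complex.abs_im_le_norm (meshPoint t f)
    rw [meshPoint_im] at this
    linarith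
  rw [abs_mul, abs_of_pos ht, mul_comm] at h3 h4
  have h5 : |(f.1 : ℝ)| ≤ N := le_of_mul_le_mul_right h3 ht
  have h6 : |(f.2 : ℝ)| ≤ N := le_of_mul_le_mul_right h4 ht
  rw [abs_le] at h5 h6
  refine ⟨⟨?_, ?_⟩, ⟨?_, ?_⟩⟩
  · exact_mod_cast h5.1
  · exact_mod_cast h5.2
  · exact_mod_cast h6.1
  · exact_mod_cast h6.2

theorem regp_zero {w : Fld} {a : ℝ} {c γ : Face → ℝ}
    {S : Face × Fin 4 → Face × Fin 4 → ℝ} (hS : Cov40 w S) (f' : Face) (p : Fin 4 → ℝ)
    (hc : {f | c f ≠ 0}.Finite) :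
    Tendsto (fun b' : Face × Fin 4 => regp a c γ S f' p b'.1 b'.2) cofinite (𝓝 0) := by
  have h : Tendsto (fun b' : Face × Fin 4 => ∑ i, p i * reg a c γ S (f', i) b'.1 b'.2) cofinite
      (𝓝 (∑ i : Fin 4, p i * 0)) :=
    tendsto_finsetSum _ fun i _ => (reg_zero hS hc).const_mul (p i)
  simp only [mul_zero, Finset.sum_const_zero] at h
  exact h

/-- radius around `y` where everything is fine -/
theorem exists_radius {Om : Set ℂ} {n : ℕ} {x : Fin n → ℂ}
    {CC : (ℕ → ℝ) → (ℕ → Fld) → (ℕ → Fin n → Face) → Prop} (hcl : ClassOK Om x CC) {y : ℂ}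
    (hy : y ∈ Om) : ∃ r₀ > 0, closedBall y r₀ ⊆ Om ∧ ∀ a w V, CC a w V → ∀ᶠ k in atTop,
      ∀ f : Face, ‖meshPoint (a k) f - y‖ < 2 * r₀ → ∀ h,
      w k f h = xc * (gz x y (V k) f * gz x y (V k) (nb f h)) := by
  obtain ⟨ρ, hρ, h1, h2⟩ := weights_gauge' hcl.opn hcl.tips hy
  refine ⟨ρ / 2, by linarith, (closedBall_subset_ball (by linarith)).trans h1,
    fun a w V hC => ?_⟩
  filter_upwards [h2 a w V (hcl.seq a w V hC)] with k hk f hf h
  exact hk f (by linarith) h

/-- **`L²` convergence of the columns** -/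
theorem col {Om : Set ℂ} {n : ℕ} {x : Fin n → ℂ}
    {CC : (ℕ → ℝ) → (ℕ → Fld) → (ℕ → Fin n → Face) → Prop} {Q : Set ℂ → (ℂ → ℂ) → Prop}
    (hRC : ResConv Om x CC Q) (hcl : ClassOK Om x CC) {y : ℂ} {r₀ : ℝ} (hr₀ : 0 < r₀)
    (hb : closedBall y r₀ ⊆ Om)
    (hw : ∀ a w V, CC a w V → ∀ᶠ k in atTop, ∀ f : Face, ‖meshPoint (a k) f - y‖ < 2 * r₀ → ∀ h,
      w k f h = xc * (gz x y (V k) f * gz x y (V k) (nb f h)))
    {r : ℝ} (hr : 0 < r) (hrr : r ≤ r₀) {χ : ℂ → ℝ} (hχ : Cut y r χ) (c : ℂ) :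
    ∃ F : ℂ → ℂ, Q (KR y r) F ∧
      (∃ gg : ℂ → ℂ, ContinuousOn gg (Om \ KR y r) ∧ ∀ z ∈ Om \ KR y r, F z * rX x z = gg z) ∧
      ColConv Om x CC y χ c F := by
  have hKO : KR y r ⊆ Om := fun z hz => hb (by
    rw [mem_closedBall, dist_eq_norm]; exact (mem_KR.1 hz).1.trans hrr)
  obtain ⟨F, hQ, hgg, hF⟩ := hRC (KR y r) (KR_compact y r) hKO (Gs x y χ c)
    (fun h => Gs_memLp x hr hχ c h) (fun z hz h => by
      refine Gs_zero x hr hχ c z h ?_
      rw [mem_KR, not_and_or, not_le, not_le] at hz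
      rcases hz with hz | hz
      · right; linarith
      · left; linarith)
  refine ⟨F, hQ, hgg, fun a w V S hS f' hf' p hp => ?_⟩
  have H := hcl.seq a w V hS.cls
  classical
  -- fields
  set c' : ℕ → Face → ℝ := fun k f => χ (meshPoint (a k) f) with hc'
  have ea : ∀ᶠ k in atTop, a k < r / 16 := H.lim.eventually (eventually_lt_nhds (by positivity))
  have ef : ∀ᶠ k in atTop, ‖meshPoint (a k) (f' k) - y‖ < r / 16 := by
    have := tendsto_iff_norm_sub_tendsto_zero.1 hf'
    exact this.eventually (eventually_lt_nhds (by positivity))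
  set φ : ℕ → Fld := fun k => if Cov40 (w k) (S k) then
    regp (a k) (c' k) (gz x y (V k)) (S k) (f' k) p else fun _ _ => 0 with hφ
  have k1 : ∀ᶠ k in atTop, ∀ f h, gsrcp (a k) (c' k) (gz x y (V k)) (f' k) p f h ≠ 0 →
      meshPoint (a k) f ∈ KR y r := by
    filter_upwards [ea] with k hk f h hne
    unfold gsrcp at hne
    obtain ⟨i, -, hi⟩ := Finset.exists_ne_zero_of_sum_ne_zero hne
    have h1 := gsrc_supp hχ (H.pos k) hk.le (gz x y (V k)) (f' k, i) f h
      (right_ne_zero_of_mul hi)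
    rw [mem_KR]
    exact ⟨h1.2.le, h1.1.le⟩
  have k2 : ∀ h, Tendsto (fun k => ∫⁻ z, ENNReal.ofReal ((emb (a k) (fun f =>
      gsrcp (a k) (c' k) (gz x y (V k)) (f' k) p f h) z - Gs x y χ c z h) ^ 2)) atTop (𝓝 0) := by
    intro h
    rw [← hp]
    exact gsrcp_L2 hr hχ H.pos H.lim H.tip hf' p h
  have k3 : ∀ k, Tendsto (fun b : Face × Fin 4 => φ k b.1 b.2) cofinite (𝓝 0) := by
    intro k
    by_cases hk : Cov40 (w k) (S k)
    · rw [hφ]
      simp only [if_pos hk]
      exact regp_zero hk (f' k) p (cut_finite hχ (H.pos k))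
    · rw [hφ]
      simp only [if_neg hk]
      exact tendsto_const_nhds
  have k4 : ∀ᶠ k in atTop, ∀ f h, A (w k) (φ k) f h =
      a k * gsrcp (a k) (c' k) (gz x y (V k)) (f' k) p f h := by
    filter_upwards [ea, ef, hS.cov, hw a w V hS.cls] with k h1 h2 h3 h4 f h
    rw [hφ]
    simp only [if_pos h3]
    refine A_regp (H.pos k) h3 (gz_sq x y (V k)) (f' k) ?_ p ?_ f h
    · exact hχ.one _ (by linarith)
    · intro f h hne
      refine h4 f ?_ h
      have h5 := abs_le.1 (nb_norm (a k) (H.pos k) f h y)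
      rcases hne with hne | hne
      · have h6 : ‖meshPoint (a k) f - y‖ < 3 * r / 4 := by
          by_contra hc
          exact hne (hχ.zero _ (not_lt.1 hc))
        linarith
      · have h6 : ‖meshPoint (a k) (nb f h) - y‖ < 3 * r / 4 := by
          by_contra hc
          exact hne (hχ.zero _ (not_lt.1 hc))
        linarith
  intro z₀ hz₀
  obtain ⟨ρ, hρ, h1⟩ := hF a w V hS.cls
    (fun k => gsrcp (a k) (c' k) (gz x y (V k)) (f' k) p) φ k1 k2 k3 k4 z₀ hz₀
  refine ⟨ρ, hρ, fun h => (h1 h).congr' ?_⟩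
  filter_upwards [hS.cov] with k hk
  rw [hφ]
  simp only [if_pos hk, hc']

/-- the regular column is exact off the annulus -/
theorem regp_exact {Om : Set ℂ} {n : ℕ} {x : Fin n → ℂ}
    {CC : (ℕ → ℝ) → (ℕ → Fld) → (ℕ → Fin n → Face) → Prop}
    (hcl : ClassOK Om x CC) {y : ℂ} {r₀ : ℝ} (hr₀ : 0 < r₀)
    (hw : ∀ a w V, CC a w V → ∀ᶠ k in atTop, ∀ f : Face, ‖meshPoint (a k) f - y‖ < 2 * r₀ → ∀ h,
      w k f h = xc * (gz x y (V k) f * gz x y (V k) (nb f h)))
    {r : ℝ} (hr : 0 < r) (hrr : r ≤ r₀) {χ : ℂ → ℝ} (hχ : Cut y r χ) {a : ℕ → ℝ} {w : ℕ → Fld}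
    {V : ℕ → Fin n → Face} {S : ℕ → Face × Fin 4 → Face × Fin 4 → ℝ} (hS : CS CC a w V S)
    {f' : ℕ → Face} (hf' : Tendsto (fun k => meshPoint (a k) (f' k)) atTop (𝓝 y))
    (p : Fin 4 → ℝ) : ∀ᶠ k in atTop, ∀ f : Face, meshPoint (a k) f ∉ KR y r → ∀ h,
      A (w k) (regp (a k) (fun f => χ (meshPoint (a k) f)) (gz x y (V k)) (S k) (f' k) p) f h
        = 0 := by
  have H := hcl.seq a w V hS.cls
  have ea : ∀ᶠ k in atTop, a k < r / 16 := H.lim.eventually (eventually_lt_nhds (by positivity))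
  have ef : ∀ᶠ k in atTop, ‖meshPoint (a k) (f' k) - y‖ < r / 16 := by
    have := tendsto_iff_norm_sub_tendsto_zero.1 hf'
    exact this.eventually (eventually_lt_nhds (by positivity))
  filter_upwards [ea, ef, hS.cov, hw a w V hS.cls] with k h1 h2 h3 h4 f hf h
  rw [A_regp (H.pos k) h3 (gz_sq x y (V k)) (f' k) (hχ.one _ (by linarith)) p]
  · have : gsrcp (a k) (fun f => χ (meshPoint (a k) f)) (gz x y (V k)) (f' k) p f h = 0 := by
      unfold gsrcp
      refine Finset.sum_eq_zero fun i _ => ?_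
      by_contra hne
      apply hf
      have h5 := gsrc_supp hχ (H.pos k) h1.le (gz x y (V k)) (f' k, i) f h
        (right_ne_zero_of_mul hne)
      rw [mem_KR]
      exact ⟨h5.2.le, h5.1.le⟩
    rw [this, mul_zero]
  · intro f h hne
    refine h4 f ?_ h
    have h5 := abs_le.1 (nb_norm (a k) (H.pos k) f h y)
    rcases hne with hne | hne
    · have h6 : ‖meshPoint (a k) f - y‖ < 3 * r / 4 := by
        by_contra hc
        exact hne (hχ.zero _ (not_lt.1 hc))
      linarith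
    · have h6 : ‖meshPoint (a k) (nb f h) - y‖ < 3 * r / 4 := by
        by_contra hc
        exact hne (hχ.zero _ (not_lt.1 hc))
      linarith

/-- **pointwise convergence of the regular columns off the annulus** -/
theorem col_pt {Om : Set ℂ} {n : ℕ} {x : Fin n → ℂ}
    {CC : (ℕ → ℝ) → (ℕ → Fld) → (ℕ → Fin n → Face) → Prop}
    (hcl : ClassOK Om x CC) {y : ℂ} {r₀ : ℝ} (hr₀ : 0 < r₀)
    (hw : ∀ a w V, CC a w V → ∀ᶠ k in atTop, ∀ f : Face, ‖meshPoint (a k) f - y‖ < 2 * r₀ → ∀ h,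
      w k f h = xc * (gz x y (V k) f * gz x y (V k) (nb f h)))
    {r : ℝ} (hr : 0 < r) (hrr : r ≤ r₀) {χ : ℂ → ℝ} (hχ : Cut y r χ) {c : ℂ} {F : ℂ → ℂ}
    (hF : ColConv Om x CC y χ c F)
    (hg : ∃ gg : ℂ → ℂ, ContinuousOn gg (Om \ KR y r) ∧ ∀ z ∈ Om \ KR y r, F z * rX x z = gg z)
    {a : ℕ → ℝ} {w : ℕ → Fld}
    {V : ℕ → Fin n → Face} {S : ℕ → Face × Fin 4 → Face × Fin 4 → ℝ} (hS : CS CC a w V S)
    {f' : ℕ → Face} (hf' : Tendsto (fun k => meshPoint (a k) (f' k)) atTop (𝓝 y))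
    {p : Fin 4 → ℝ} (hp : cp p = c) {z₀ : ℂ} (hz₀ : z₀ ∈ Om \ KR y r) {f : ℕ → Face}
    (hf : Tendsto (fun k => meshPoint (a k) (f k)) atTop (𝓝 z₀)) (h : Fin 4) :
    Tendsto (fun k => gz x z₀ (V k) (f k) * regp (a k) (fun f => χ (meshPoint (a k) f))
      (gz x y (V k)) (S k) (f' k) p (f k) h) atTop (𝓝 (lv (F z₀) h)) := by
  obtain ⟨ρ, hρ, h1⟩ := hF a w V S hS f' hf' p hp z₀ hz₀.1
  have hopen : IsOpen (Om \ KR y r) := hcl.opn.sdiff (KR_compact y r).isClosed
  obtain ⟨ρ', hρ', h2⟩ := Metric.isOpen_iff.1 hopen z₀ hz₀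
  set R := min ρ ρ' with hR
  have hR0 : 0 < R := by positivity
  obtain ⟨gg, hgg, hgF⟩ := hg
  refine exact_pt (hcl.seq a w V hS.cls) hcl.opn hcl.tips hz₀.1 (r := R) hR0 ?_ ?_ ?_ hf h
  · filter_upwards [regp_exact hcl hr₀ hw hr hrr hχ hS hf' p] with k hk f hf h
    refine hk f ?_ h
    exact (h2 (by rw [mem_ball, dist_eq_norm]; exact hf.trans_le (min_le_right _ _))).2
  · refine gc_mul_continuousAt (fun i hc => hcl.tips i (by rw [hc]; exact hz₀.1))
      (hgg.continuousAt (hopen.mem_nhds hz₀)) ?_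
    filter_upwards [hopen.mem_nhds hz₀] with u hu
    exact hgF u hu
  · intro h
    exact tendsto_of_tendsto_of_tendsto_of_le_of_le tendsto_const_nhds (h1 h) (fun _ => zero_le)
      fun k => lintegral_mono_set (ball_subset_ball (min_le_left _ _))

/-- the combined column of the covariance -/
def Sp (S : Face × Fin 4 → Face × Fin 4 → ℝ) (f' : Face) (p : Fin 4 → ℝ) (f : Face) (h : Fin 4) :
    ℝ := ∑ i, p i * S (f, h) (f', i)

theorem regp_off {a : ℝ} {c γ : Face → ℝ} {S : Face × Fin 4 → Face × Fin 4 → ℝ} {f' : Face}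
    {p : Fin 4 → ℝ} {f : Face} (hc : c f = 0) (h : Fin 4) :
    regp a c γ S f' p f h = γ f' * (a⁻¹ * Sp S f' p f h) := by
  unfold regp reg sing Sp
  rw [Finset.mul_sum, Finset.mul_sum]
  refine Finset.sum_congr rfl fun i _ => ?_
  rw [hc]; ring

theorem regp_in {a : ℝ} {c γ : Face → ℝ} {S : Face × Fin 4 → Face × Fin 4 → ℝ} {f' : Face}
    (hγ : ∀ f, γ f ^ 2 = 1) {p : Fin 4 → ℝ} {f : Face} (hc : c f = 1) (h : Fin 4) :
    γ f * regp a c γ S f' p f h = a⁻¹ * (γ f * γ f' * Sp S f' p f h -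
      ∑ i, p i * spF (f', i) f h) := by
  unfold regp reg sing Sp
  rw [Finset.mul_sum, mul_sub, Finset.mul_sum, Finset.mul_sum, Finset.mul_sum,
    ← Finset.sum_sub_distrib]
  refine Finset.sum_congr rfl fun i _ => ?_
  rw [hc]
  have h1 := hγ f
  have h2 := hγ f'
  simp only
  linear_combination (-(a⁻¹ * p i * spF (f', i) f h * γ f' ^ 2)) * h1 +
    (-(a⁻¹ * p i * spF (f', i) f h)) * h2

end Crest.Agent.R165.Mac4x622
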