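import Crest.Agent.R165.Mac4_622

/-!
# Row 165 (S0250), U4/MAC (helper622): the limit kernels

* `Dat Om x CC Q y r₀ χ F` : the columns with source at `y`, all cut-off radii `r ≤ r₀`
* `Dat.off` : `gz gz' a⁻¹ S → lv (F r c z)` for `|z - y| > r`
* `Dat.reg` : `a⁻¹ (gz gz' S - plane) → lv (F r c y)`
* `Dat.uniq`, `Dat.near_eq`, `Dat.add`, `Dat.smul`
-/

set_option autoImplicit false
set_option linter.unusedVariables false
set_option linter.unusedSimpArgs false

noncomputable section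

open MeasureTheory Filter Topology Set Metric
open Crest.ProbabilityR.IsingModel
open Crest.Agent.R165.Tr1x40 Crest.Agent.R165.RIfx891 Crest.Agent.R165.Embx622
open Crest.Agent.R165.Upx622 Crest.Agent.R165.Tr2x40
open Crest.Agent.R165.Mac0x622 Crest.Agent.R165.Mac1x622 Crest.Agent.R165.MacIx622
open Crest.Agent.R165.Mac2x622 Crest.Agent.R165.Mac3x622 Crest.Agent.R165.Mac4x622

namespace Crest.Agent.R165.Mac5x622

/-- canonical source vector of amplitude `c` -/
def pv (c : ℂ) (i : Fin 4) : ℝ :=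
  match i with
  | 0 => 0
  | 1 => c.re
  | 2 => 0
  | 3 => c.im

theorem cp_pv (c : ℂ) : cp (pv c) = c := by
  unfold cp
  rw [Fin.sum_univ_four]
  simp only [pv, ud_one, ud_three]
  apply Complex.ext <;> simp

theorem cp_single (i : Fin 4) : cp (Pi.single i 1) = ud i := by
  unfold cp
  rw [Finset.sum_eq_single i]
  · simp
  · intro j _ hj
    rw [Pi.single_eq_of_ne hj]; simp
  · intro h; exact absurd (Finset.mem_univ _) h

theorem cp_add (p q : Fin 4 → ℝ) : cp (p + q) = cp p + cp q := by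
  unfold cp
  rw [← Finset.sum_add_distrib]
  refine Finset.sum_congr rfl fun i _ => ?_
  simp only [Pi.add_apply]
  push_cast; ring

theorem cp_smul (s : ℝ) (p : Fin 4 → ℝ) : cp (s • p) = s * cp p := by
  unfold cp
  rw [Finset.mul_sum]
  refine Finset.sum_congr rfl fun i _ => ?_
  simp only [Pi.smul_apply, smul_eq_mul]
  push_cast; ring

theorem Sp_single (S : Face × Fin 4 → Face × Fin 4 → ℝ) (f' : Face) (i : Fin 4) (f : Face)
    (h : Fin 4) : Sp S f' (Pi.single i 1) f h = S (f, h) (f', i) := by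
  unfold Sp
  rw [Finset.sum_eq_single i]
  · simp
  · intro j _ hj
    rw [Pi.single_eq_of_ne hj]; simp
  · intro h; exact absurd (Finset.mem_univ _) h

theorem regp_add (a : ℝ) (c γ : Face → ℝ) (S : Face × Fin 4 → Face × Fin 4 → ℝ) (f' : Face)
    (p q : Fin 4 → ℝ) (f : Face) (h : Fin 4) :
    regp a c γ S f' (p + q) f h = regp a c γ S f' p f h + regp a c γ S f' q f h := by
  unfold regp
  rw [← Finset.sum_add_distrib]
  refine Finset.sum_congr rfl fun i _ => ?_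
  simp only [Pi.add_apply]; ring

theorem regp_smul (a : ℝ) (c γ : Face → ℝ) (S : Face × Fin 4 → Face × Fin 4 → ℝ) (f' : Face)
    (s : ℝ) (p : Fin 4 → ℝ) (f : Face) (h : Fin 4) :
    regp a c γ S f' (s • p) f h = s * regp a c γ S f' p f h := by
  unfold regp
  rw [Finset.mul_sum]
  refine Finset.sum_congr rfl fun i _ => ?_
  simp only [Pi.smul_apply, smul_eq_mul]; ring

/-- the mesh sequence of a point -/
theorem mesh_tendsto {a : ℕ → ℝ} (hpos : ∀ k, 0 < a k) (hlim : Tendsto a atTop (𝓝 0)) (z : ℂ) :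
    Tendsto (fun k => meshPoint (a k) (meshIndex (a k) z)) atTop (𝓝 z) := by
  rw [tendsto_iff_norm_sub_tendsto_zero]
  refine squeeze_zero (fun _ => norm_nonneg _) (fun k => norm_mesh_sub (hpos k) z) ?_
  simpa using hlim.const_mul 2

/-- comparison of the gauges at two near points -/
theorem gz_gz {n : ℕ} {x : Fin n → ℂ} {y z : ℂ} (h1 : ∀ i, ¬ rel (x i) y → ¬ rel (x i) z)
    (h2 : ∀ i, rel (x i) y → (x i).re < z.re) {a : ℕ → ℝ} (hpos : ∀ k, 0 < a k)
    {V : ℕ → Fin n → Face}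
    (tip : ∀ i, Tendsto (fun k => meshPoint (a k) (V k i)) atTop (𝓝 (x i))) {f : ℕ → Face}
    (hf : Tendsto (fun k => meshPoint (a k) (f k)) atTop (𝓝 z)) :
    ∀ᶠ k in atTop, gz x z (V k) (f k) * gz x y (V k) (f k) = gc x y z := by
  classical
  have key : ∀ i, ∀ᶠ k in atTop, (if rel (x i) z ∧ (V k i).2 ≤ (f k).2 then (-1 : ℝ) else 1) *
      (if rel (x i) y ∧ (V k i).2 ≤ (f k).2 then (-1 : ℝ) else 1) =
      if rel (x i) y ∧ (x i).im < z.im then (-1 : ℝ) else 1 := by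
    intro i
    have ti : Tendsto (fun k => a k * ((V k i).2 : ℝ)) atTop (𝓝 (x i).im) :=
      (Complex.continuous_im.tendsto _).comp (tip i)
    have tu : Tendsto (fun k => a k * ((f k).2 : ℝ)) atTop (𝓝 z.im) :=
      (Complex.continuous_im.tendsto _).comp hf
    by_cases hy : rel (x i) y
    · rcases lt_trichotomy (x i).im z.im with h | h | h
      · have hz : ¬ rel (x i) z := fun hz => absurd hz.1 h.ne
        have e1 := ti.eventually (eventually_lt_nhds (show (x i).im < ((x i).im + z.im) / 2 by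
          linarith))
        have e2 := tu.eventually (eventually_gt_nhds (show z.im > ((x i).im + z.im) / 2 by
          linarith))
        filter_upwards [e1, e2] with k e1 e2
        have h3 : ((V k i).2 : ℝ) < ((f k).2 : ℝ) := lt_of_mul_lt_mul_left (e1.trans e2) (hpos k).le
        have h4 : (V k i).2 ≤ (f k).2 := by exact_mod_cast h3.le
        simp [hy, hz, h, h4]
      · have hz : rel (x i) z := ⟨h, h2 i hy⟩
        refine Eventually.of_forall fun k => ?_
        have h5 : ¬ (x i).im < z.im := by rw [h]; exact lt_irrefl _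
        simp only [hy, hz, true_and, h5, if_false]
        split_ifs <;> norm_num
      · have hz : ¬ rel (x i) z := fun hz => absurd hz.1 h.ne'
        have e1 := ti.eventually (eventually_gt_nhds (show (x i).im > ((x i).im + z.im) / 2 by
          linarith))
        have e2 := tu.eventually (eventually_lt_nhds (show z.im < ((x i).im + z.im) / 2 by
          linarith))
        filter_upwards [e1, e2] with k e1 e2
        have h3 : ((f k).2 : ℝ) < ((V k i).2 : ℝ) := lt_of_mul_lt_mul_left (e2.trans e1) (hpos k).le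
        have h4 : ¬ (V k i).2 ≤ (f k).2 := not_le.2 (by exact_mod_cast h3)
        have h5 : ¬ (x i).im < z.im := not_lt.2 h.le
        simp [hy, hz, h5, h4]
    · have hz := h1 i hy
      refine Eventually.of_forall fun k => ?_
      simp [hy, hz]
  filter_upwards [eventually_all.2 key] with k hk
  unfold gz gc
  rw [← Finset.prod_mul_distrib]
  exact Finset.prod_congr rfl fun i _ => hk i

/-- radius for the comparison of the gauges -/
theorem gauge_radius {n : ℕ} {x : Fin n → ℂ} {y : ℂ} (hy : ∀ i, x i ≠ y) :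
    ∃ ρ > 0, ∀ z, ‖z - y‖ < ρ → (∀ i, ¬ rel (x i) y → ¬ rel (x i) z) ∧
      (∀ i, rel (x i) y → (x i).re < z.re) := by
  have key : ∀ i, ∃ ρ > 0, ∀ z, ‖z - y‖ < ρ → (¬ rel (x i) y → ¬ rel (x i) z) ∧
      (rel (x i) y → (x i).re < z.re) := by
    intro i
    by_cases him : (x i).im = y.im
    · have hre : (x i).re ≠ y.re := fun h => hy i (Complex.ext h him)
      refine ⟨|(x i).re - y.re|, abs_pos.2 (sub_ne_zero.2 hre), fun z hz => ?_⟩
      have h1 : |z.re - y.re| < |(x i).re - y.re| := by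
        have := (Complex.abs_re_le_norm (z - y)).trans_lt hz
        rwa [Complex.sub_re] at this
      constructor
      · intro h h'
        have h2 : y.re < (x i).re := by
          rcases lt_or_gt_of_ne hre with h3 | h3
          · exact absurd ⟨him, h3⟩ h
          · exact h3
        rw [abs_of_pos (by linarith : 0 < (x i).re - y.re), abs_lt] at h1
        have := h'.2
        linarith
      · intro h
        have h2 := h.2
        rw [abs_of_neg (by linarith : (x i).re - y.re < 0), abs_lt] at h1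
        linarith
    · refine ⟨|(x i).im - y.im|, abs_pos.2 (sub_ne_zero.2 him), fun z hz => ?_⟩
      have h1 : |z.im - y.im| < |(x i).im - y.im| := by
        have := (Complex.abs_im_le_norm (z - y)).trans_lt hz
        rwa [Complex.sub_im] at this
      constructor
      · intro _ h'
        rw [h'.1] at h1
        exact lt_irrefl _ h1
      · intro h
        exact absurd h.1 him
  choose ρ hρ hk using key
  obtain ⟨r, hr0, hr⟩ : ∃ r > 0, ∀ i, r ≤ ρ i := by
    rcases isEmpty_or_nonempty (Fin n) with he | he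
    · exact ⟨1, one_pos, fun i => (he.false i).elim⟩
    · refine ⟨Finset.univ.inf' Finset.univ_nonempty ρ, ?_, fun i =>
        Finset.inf'_le ρ (Finset.mem_univ i)⟩
      rw [gt_iff_lt, Finset.lt_inf'_iff]
      exact fun i _ => hρ i
  exact ⟨r, hr0, fun z hz => ⟨fun i => (hk i z (hz.trans_le (hr i))).1,
    fun i => (hk i z (hz.trans_le (hr i))).2⟩⟩

/-- all the columns with source at `y` -/
structure Dat (Om : Set ℂ) {n : ℕ} (x : Fin n → ℂ)
    (CC : (ℕ → ℝ) → (ℕ → Fld) → (ℕ → Fin n → Face) → Prop) (Q : Set ℂ → (ℂ → ℂ) → Prop)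
    (y : ℂ) (r₀ : ℝ) (χ : ℝ → ℂ → ℝ) (F : ℝ → ℂ → ℂ → ℂ) : Prop where
  pos : 0 < r₀
  ball : closedBall y r₀ ⊆ Om
  wts : ∀ a w V, CC a w V → ∀ᶠ k in atTop, ∀ f : Face, ‖meshPoint (a k) f - y‖ < 2 * r₀ → ∀ h,
      w k f h = xc * (gz x y (V k) f * gz x y (V k) (nb f h))
  gau : ∀ z, ‖z - y‖ < r₀ → (∀ i, ¬ rel (x i) y → ¬ rel (x i) z) ∧
      (∀ i, rel (x i) y → (x i).re < z.re)
  cut : ∀ r, 0 < r → r ≤ r₀ → Cut y r (χ r)
  q : ∀ r, 0 < r → r ≤ r₀ → ∀ c, Q (KR y r) (F r c)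
  cont : ∀ r, 0 < r → r ≤ r₀ → ∀ c, ∃ gg : ℂ → ℂ, ContinuousOn gg (Om \ KR y r) ∧
    ∀ z ∈ Om \ KR y r, F r c z * rX x z = gg z
  conv : ∀ r, 0 < r → r ≤ r₀ → ∀ c, ColConv Om x CC y (χ r) c (F r c)

theorem exists_dat {Om : Set ℂ} {n : ℕ} {x : Fin n → ℂ}
    {CC : (ℕ → ℝ) → (ℕ → Fld) → (ℕ → Fin n → Face) → Prop} {Q : Set ℂ → (ℂ → ℂ) → Prop}
    (hRC : ResConv Om x CC Q) (hcl : ClassOK Om x CC) {y : ℂ} (hy : y ∈ Om) :
    ∃ r₀ χ F, Dat Om x CC Q y r₀ χ F := by
  classical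
  obtain ⟨r₁, hr₁, hb, hw⟩ := exists_radius hcl hy
  obtain ⟨r₂, hr₂, hg⟩ := gauge_radius (x := x) (y := y) (fun i hc => hcl.tips i (hc ▸ hy))
  set r₀ := min r₁ r₂ with hr₀
  have h0 : 0 < r₀ := by positivity
  have hb' : closedBall y r₀ ⊆ Om := (closedBall_subset_closedBall (min_le_left _ _)).trans hb
  have hw' : ∀ a w V, CC a w V → ∀ᶠ k in atTop, ∀ f : Face, ‖meshPoint (a k) f - y‖ < 2 * r₀ →
      ∀ h, w k f h = xc * (gz x y (V k) f * gz x y (V k) (nb f h)) := by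
    intro a w V hC
    filter_upwards [hw a w V hC] with k hk f hf h
    exact hk f (by have := min_le_left r₁ r₂; linarith) h
  have hχ : ∀ r, ∃ χ, 0 < r → Cut y r χ := fun r => by
    by_cases h : 0 < r
    · obtain ⟨χ, hχ⟩ := exists_cut y h
      exact ⟨χ, fun _ => hχ⟩
    · exact ⟨fun _ => 0, fun h' => absurd h' h⟩
  choose χ hχ using hχ
  have hF : ∀ r c, ∃ F : ℂ → ℂ, 0 < r → r ≤ r₀ → Q (KR y r) F ∧
      (∃ gg : ℂ → ℂ, ContinuousOn gg (Om \ KR y r) ∧ ∀ z ∈ Om \ KR y r, F z * rX x z = gg z) ∧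
      ColConv Om x CC y (χ r) c F := fun r c => by
    by_cases h : 0 < r ∧ r ≤ r₀
    · obtain ⟨F, hF⟩ := col hRC hcl h0 hb' hw' h.1 h.2 (hχ r h.1) c
      exact ⟨F, fun _ _ => hF⟩
    · exact ⟨fun _ => 0, fun h1 h2 => absurd ⟨h1, h2⟩ h⟩
  choose F hF using hF
  exact ⟨r₀, χ, F, h0, hb', hw', fun z hz => hg z (hz.trans_le (min_le_right _ _)),
    fun r h1 h2 => hχ r h1, fun r h1 h2 c => (hF r c h1 h2).1, fun r h1 h2 c => (hF r c h1 h2).2.1,
    fun r h1 h2 c => (hF r c h1 h2).2.2⟩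

section

variable {Om : Set ℂ} {n : ℕ} {x : Fin n → ℂ}
  {CC : (ℕ → ℝ) → (ℕ → Fld) → (ℕ → Fin n → Face) → Prop} {Q : Set ℂ → (ℂ → ℂ) → Prop}
  {y : ℂ} {r₀ : ℝ} {χ : ℝ → ℂ → ℝ} {F : ℝ → ℂ → ℂ → ℂ}

/-- the raw pointwise limit -/
theorem Dat.pt (hD : Dat Om x CC Q y r₀ χ F) (hcl : ClassOK Om x CC) {r : ℝ} (hr : 0 < r)
    (hrr : r ≤ r₀) {a : ℕ → ℝ} {w : ℕ → Fld} {V : ℕ → Fin n → Face}
    {S : ℕ → Face × Fin 4 → Face × Fin 4 → ℝ} (hS : CS CC a w V S)
    {f' : ℕ → Face} (hf' : Tendsto (fun k => meshPoint (a k) (f' k)) atTop (𝓝 y))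
    {p : Fin 4 → ℝ} {c : ℂ} (hp : cp p = c) {z : ℂ} (hz : z ∈ Om \ KR y r) {f : ℕ → Face}
    (hf : Tendsto (fun k => meshPoint (a k) (f k)) atTop (𝓝 z)) (h : Fin 4) :
    Tendsto (fun k => gz x z (V k) (f k) * regp (a k) (fun f => χ r (meshPoint (a k) f))
      (gz x y (V k)) (S k) (f' k) p (f k) h) atTop (𝓝 (lv (F r c z) h)) :=
  col_pt hcl hD.pos hD.wts hr hrr (hD.cut r hr hrr) (hD.conv r hr hrr c) (hD.cont r hr hrr c) hS hf'
    hp hz hf h

/-- **two different points** -/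
theorem Dat.off (hD : Dat Om x CC Q y r₀ χ F) (hcl : ClassOK Om x CC) {r : ℝ} (hr : 0 < r)
    (hrr : r ≤ r₀) {a : ℕ → ℝ} {w : ℕ → Fld} {V : ℕ → Fin n → Face}
    {S : ℕ → Face × Fin 4 → Face × Fin 4 → ℝ} (hS : CS CC a w V S)
    {f' : ℕ → Face} (hf' : Tendsto (fun k => meshPoint (a k) (f' k)) atTop (𝓝 y))
    {p : Fin 4 → ℝ} {c : ℂ} (hp : cp p = c) {z : ℂ} (hz : z ∈ Om) (hzy : r < ‖z - y‖) {f : ℕ → Face}
    (hf : Tendsto (fun k => meshPoint (a k) (f k)) atTop (𝓝 z)) (h : Fin 4) :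
    Tendsto (fun k => gz x z (V k) (f k) * gz x y (V k) (f' k) *
      ((a k)⁻¹ * Sp (S k) (f' k) p (f k) h)) atTop (𝓝 (lv (F r c z) h)) := by
  have h1 := hD.pt hcl hr hrr hS hf' hp (z := z) ⟨hz, fun hc => by
    have := (mem_KR.1 hc).1; linarith⟩ hf h
  refine h1.congr' ?_
  have h2 : ∀ᶠ k in atTop, r < ‖meshPoint (a k) (f k) - y‖ :=
    ((hf.sub_const y).norm).eventually (eventually_gt_nhds hzy)
  filter_upwards [h2] with k hk
  rw [regp_off ((hD.cut r hr hrr).zero _ (by linarith)) h]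
  ring

/-- **the regular part** -/
theorem Dat.reg (hD : Dat Om x CC Q y r₀ χ F) (hcl : ClassOK Om x CC) {r : ℝ} (hr : 0 < r)
    (hrr : r ≤ r₀) {a : ℕ → ℝ} {w : ℕ → Fld} {V : ℕ → Fin n → Face}
    {S : ℕ → Face × Fin 4 → Face × Fin 4 → ℝ} (hS : CS CC a w V S)
    {f' : ℕ → Face} (hf' : Tendsto (fun k => meshPoint (a k) (f' k)) atTop (𝓝 y))
    {p : Fin 4 → ℝ} {c : ℂ} (hp : cp p = c) {f : ℕ → Face}
    (hf : Tendsto (fun k => meshPoint (a k) (f k)) atTop (𝓝 y)) (h : Fin 4) :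
    Tendsto (fun k => (a k)⁻¹ * (gz x y (V k) (f k) * gz x y (V k) (f' k) *
      Sp (S k) (f' k) p (f k) h - ∑ i, p i * spF (f' k, i) (f k) h)) atTop
      (𝓝 (lv (F r c y) h)) := by
  have hy : y ∈ Om := hD.ball (mem_closedBall_self hD.pos.le)
  have h1 := hD.pt hcl hr hrr hS hf' hp (z := y) ⟨hy, fun hc => by
    have := (mem_KR.1 hc).2
    rw [sub_self, norm_zero] at this
    linarith⟩ hf h
  refine h1.congr' ?_
  have h2 : ∀ᶠ k in atTop, ‖meshPoint (a k) (f k) - y‖ < r / 2 := by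
    have h3 := (hf.sub_const y).norm
    rw [sub_self, norm_zero] at h3
    exact h3.eventually (eventually_lt_nhds (by linarith))
  filter_upwards [h2] with k hk
  exact regp_in (gz_sq x y (V k)) ((hD.cut r hr hrr).one _ hk.le) h

/-- independence of the radius -/
theorem Dat.uniq (hD : Dat Om x CC Q y r₀ χ F) (hcl : ClassOK Om x CC)
    (hne : ∃ a w V S, CS CC a w V S) {r r' : ℝ} (hr : 0 < r) (hrr : r ≤ r₀) (hr' : 0 < r')
    (hrr' : r' ≤ r₀) (c : ℂ) {z : ℂ} (hz : z ∈ Om) (h1 : r < ‖z - y‖) (h2 : r' < ‖z - y‖) :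
    F r c z = F r' c z := by
  obtain ⟨a, w, V, S, hS⟩ := hne
  have H := hcl.seq a w V hS.cls
  have t1 := mesh_tendsto H.pos H.lim y
  have t2 := mesh_tendsto H.pos H.lim z
  have key : ∀ h, lv (F r c z) h = lv (F r' c z) h := fun h =>
    tendsto_nhds_unique (hD.off hcl hr hrr hS t1 (cp_pv c) hz h1 t2 h)
      (hD.off hcl hr' hrr' hS t1 (cp_pv c) hz h2 t2 h)
  exact lv_inj (key 1) (key 3)

/-- additivity in the amplitude -/
theorem Dat.add (hD : Dat Om x CC Q y r₀ χ F) (hcl : ClassOK Om x CC)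
    (hne : ∃ a w V S, CS CC a w V S) {r : ℝ} (hr : 0 < r) (hrr : r ≤ r₀) (c d : ℂ) {z : ℂ}
    (hz : z ∈ Om \ KR y r) : F r (c + d) z = F r c z + F r d z := by
  obtain ⟨a, w, V, S, hS⟩ := hne
  have H := hcl.seq a w V hS.cls
  have t1 := mesh_tendsto H.pos H.lim y
  have t2 := mesh_tendsto H.pos H.lim z
  have key : ∀ h, lv (F r (c + d) z) h = lv (F r c z + F r d z) h := fun h => by
    rw [lv_add]
    have h1 := hD.pt hcl hr hrr hS t1 (p := pv c + pv d) (c := c + d)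
      (by rw [cp_add, cp_pv, cp_pv]) hz t2 h
    have h2 := (hD.pt hcl hr hrr hS t1 (cp_pv c) hz t2 h).add
      (hD.pt hcl hr hrr hS t1 (cp_pv d) hz t2 h)
    refine tendsto_nhds_unique h1 (h2.congr fun k => ?_)
    rw [regp_add]; ring
  exact lv_inj (key 1) (key 3)

/-- homogeneity in the amplitude -/
theorem Dat.smul (hD : Dat Om x CC Q y r₀ χ F) (hcl : ClassOK Om x CC)
    (hne : ∃ a w V S, CS CC a w V S) {r : ℝ} (hr : 0 < r) (hrr : r ≤ r₀) (s : ℝ) (c : ℂ) {z : ℂ}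
    (hz : z ∈ Om \ KR y r) : F r (s * c) z = s * F r c z := by
  obtain ⟨a, w, V, S, hS⟩ := hne
  have H := hcl.seq a w V hS.cls
  have t1 := mesh_tendsto H.pos H.lim y
  have t2 := mesh_tendsto H.pos H.lim z
  have key : ∀ h, lv (F r (s * c) z) h = lv (s * F r c z) h := fun h => by
    rw [lv_real_mul]
    have h1 := hD.pt hcl hr hrr hS t1 (p := s • pv c) (c := s * c)
      (by rw [cp_smul, cp_pv]) hz t2 h
    have h2 := (hD.pt hcl hr hrr hS t1 (cp_pv c) hz t2 h).const_mul s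
    refine tendsto_nhds_unique h1 (h2.congr fun k => ?_)
    rw [regp_smul]; ring
  exact lv_inj (key 1) (key 3)

/-- near the source: the singular part -/
theorem Dat.near_eq (hD : Dat Om x CC Q y r₀ χ F) (hcl : ClassOK Om x CC)
    (hne : ∃ a w V S, CS CC a w V S) {r r' : ℝ} (hr : 0 < r) (hrr : r ≤ r₀) (hr' : 0 < r')
    (hrr' : r' ≤ r₀) (c : ℂ) {z : ℂ} (h1 : ‖z - y‖ < r / 4) (h2 : r' < ‖z - y‖) :
    F r' c z = F r c z + gc x y z * (sC c / (z - y)) := by
  obtain ⟨a, w, V, S, hS⟩ := hne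
  have H := hcl.seq a w V hS.cls
  have hz : z ∈ Om := hD.ball (by rw [mem_closedBall, dist_eq_norm]; linarith)
  have t1 := mesh_tendsto H.pos H.lim y
  have t2 := mesh_tendsto H.pos H.lim z
  have hzy : z ≠ y := by
    rintro rfl
    rw [sub_self, norm_zero] at h2
    linarith
  have key : ∀ h, lv (F r' c z) h = lv (F r c z + gc x y z * (sC c / (z - y))) h := fun h => by
    rw [lv_add, lv_real_mul]
    have e1 := hD.off hcl hr' hrr' hS t1 (cp_pv c) hz h2 t2 h
    have e2 := hD.pt hcl hr hrr hS t1 (cp_pv c) (z := z) ⟨hz, fun hc => by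
      have := (mem_KR.1 hc).2; linarith⟩ t2 h
    have e3 : Tendsto (fun k => gc x y z * ∑ i, pv c i *
        ((a k)⁻¹ * spF (meshIndex (a k) y, i) (meshIndex (a k) z) h)) atTop
        (𝓝 (gc x y z * lv (sC c / (z - y)) h)) := by
      have e4 : lv (sC c / (z - y)) h = ∑ i, pv c i * sc h i (z - y) := by
        have e5 : sC c = ∑ i, (pv c i : ℂ) * src i := by
          rw [← sC_cp, cp_pv]
        rw [e5, Finset.sum_div, lv_sum]
        refine Finset.sum_congr rfl fun i _ => ?_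
        rw [mul_div_assoc, lv_real_mul, sc_lv]
      rw [e4]
      refine Tendsto.const_mul _ (tendsto_finsetSum _ fun i _ => ?_)
      exact (sp_tendsto H.pos H.lim hzy t2 t1 i h).const_mul _
    have e4 := e2.add e3
    refine tendsto_nhds_unique e1 (e4.congr' ?_)
    have g1 := gz_gz (hD.gau z (by linarith)).1 (hD.gau z (by linarith)).2 H.pos H.tip t2
    have g2 : ∀ᶠ k in atTop, ‖meshPoint (a k) (meshIndex (a k) z) - y‖ < r / 2 :=
      ((t2.sub_const y).norm).eventually (eventually_lt_nhds (by linarith))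
    filter_upwards [g1, g2] with k g1 g2
    have g3 := regp_in (a := a k) (c := fun f => χ r (meshPoint (a k) f)) (γ := gz x y (V k))
      (S := S k) (f' := meshIndex (a k) y) (gz_sq x y (V k)) (p := pv c)
      (f := meshIndex (a k) z) ((hD.cut r hr hrr).one _ g2.le) h
    have g4 := gz_sq x y (V k) (meshIndex (a k) z)
    have g5 : regp (a k) (fun f => χ r (meshPoint (a k) f)) (gz x y (V k)) (S k)
        (meshIndex (a k) y) (pv c) (meshIndex (a k) z) h = gz x y (V k) (meshIndex (a k) z) *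
        ((a k)⁻¹ * (gz x y (V k) (meshIndex (a k) z) * gz x y (V k) (meshIndex (a k) y) *
          Sp (S k) (meshIndex (a k) y) (pv c) (meshIndex (a k) z) h -
          ∑ i, pv c i * spF (meshIndex (a k) y, i) (meshIndex (a k) z) h)) := by
      rw [← g3, ← mul_assoc, ← sq, g4, one_mul]
    rw [g5, ← g1]
    have g6 : ∑ i, pv c i * ((a k)⁻¹ * spF (meshIndex (a k) y, i) (meshIndex (a k) z) h) =
        (a k)⁻¹ * ∑ i, pv c i * spF (meshIndex (a k) y, i) (meshIndex (a k) z) h := by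
      rw [Finset.mul_sum]
      exact Finset.sum_congr rfl fun i _ => by ring
    rw [g6]
    linear_combination (gz x z (V k) (meshIndex (a k) z) * gz x y (V k) (meshIndex (a k) y) *
      ((a k)⁻¹ * Sp (S k) (meshIndex (a k) y) (pv c) (meshIndex (a k) z) h)) * g4
  exact lv_inj (key 1) (key 3)

end

/-! ### bounds -/

/-- **bound on disjoint compact sets** -/
theorem bdd {Om : Set ℂ} {n : ℕ} {x : Fin n → ℂ}
    {CC : (ℕ → ℝ) → (ℕ → Fld) → (ℕ → Fin n → Face) → Prop} {Q : Set ℂ → (ℂ → ℂ) → Prop}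
    (hRC : ResConv Om x CC Q) (hcl : ClassOK Om x CC) {K₁ K₂ : Set ℂ} (hK₁ : IsCompact K₁)
    (hK₂ : IsCompact K₂) (h₁ : K₁ ⊆ Om) (h₂ : K₂ ⊆ Om) (hd : Disjoint K₁ K₂) {a : ℕ → ℝ}
    {w : ℕ → Fld} {V : ℕ → Fin n → Face} {S : ℕ → Face × Fin 4 → Face × Fin 4 → ℝ}
    (hS : CS CC a w V S) : ∃ C : ℝ, ∀ᶠ k in atTop, ∀ f f' : Face,
      meshPoint (a k) f ∈ K₁ → meshPoint (a k) f' ∈ K₂ → ∀ i i' : Fin 4,
      |(a k)⁻¹ * S k (f, i) (f', i')| ≤ C := by
  by_contra hc
  push Not at hc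
  -- a bad subsequence
  have h3 : ∀ m N : ℕ, ∃ k > N, ∃ f f' : Face, meshPoint (a k) f ∈ K₁ ∧
      meshPoint (a k) f' ∈ K₂ ∧ ∃ i i' : Fin 4, (m : ℝ) < |(a k)⁻¹ * S k (f, i) (f', i')| := by
    intro m N
    have h4 := hc m
    rw [frequently_atTop] at h4
    obtain ⟨k, hk, f, f', h5, h6, i, i', h7⟩ := h4 (N + 1)
    exact ⟨k, hk, f, f', h5, h6, i, i', h7⟩
  choose k hk f f' hf hf' i i' hbig using h3
  -- strictly increasing indices
  let κ : ℕ → ℕ := fun m => Nat.rec (k 0 0) (fun m N => k (m + 1) N) m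
  have hκs : ∀ m, κ (m + 1) = k (m + 1) (κ m) := fun m => rfl
  have hκ : StrictMono κ := strictMono_nat_of_lt_succ fun m => by
    rw [hκs]; exact hk _ _
  let N : ℕ → ℕ := fun m => Nat.casesOn m 0 (fun m => κ m)
  have hN : ∀ m, κ m = k m (N m) := fun m => by cases m <;> rfl
  set F : ℕ → Face := fun m => f m (N m) with hF
  set F' : ℕ → Face := fun m => f' m (N m) with hF'
  have b1 : ∀ m, meshPoint (a (κ m)) (F m) ∈ K₁ := fun m => by rw [hN]; exact hf _ _
  have b2 : ∀ m, meshPoint (a (κ m)) (F' m) ∈ K₂ := fun m => by rw [hN]; exact hf' _ _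
  have b3 : ∀ m : ℕ, (m : ℝ) < |(a (κ m))⁻¹ * S (κ m) (F m, i m (N m)) (F' m, i' m (N m))| :=
    fun m => by rw [hN]; exact hbig _ _
  -- constant directions along a subsequence
  obtain ⟨⟨j, j'⟩, hj⟩ : ∃ q : Fin 4 × Fin 4, ∃ᶠ m in atTop, (i m (N m), i' m (N m)) = q := by
    by_contra hno
    push Not at hno
    have h5 : ∀ᶠ m in atTop, ∀ q : Fin 4 × Fin 4, (i m (N m), i' m (N m)) ≠ q :=
      eventually_all.2 fun q => hno q
    obtain ⟨m, hm⟩ := h5.exists
    exact hm _ rfl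
  obtain ⟨τ, hτ, hτj⟩ := extraction_of_frequently_atTop hj
  obtain ⟨z, hz, φ₁, hφ₁, hz1⟩ := hK₁.tendsto_subseq (fun m => b1 (τ m))
  obtain ⟨z', hz', φ₂, hφ₂, hz2⟩ := hK₂.tendsto_subseq (fun m => b2 (τ (φ₁ m)))
  set σ : ℕ → ℕ := fun m => τ (φ₁ (φ₂ m)) with hσ
  have hσm : StrictMono σ := hτ.comp (hφ₁.comp hφ₂)
  have hκσ : StrictMono (κ ∘ σ) := hκ.comp hσm
  have hzz : z ≠ z' := fun h => by
    rw [h] at hz
    exact Set.disjoint_left.1 hd hz hz'
  have hS' : CS CC (a ∘ (κ ∘ σ)) (w ∘ (κ ∘ σ)) (V ∘ (κ ∘ σ)) (S ∘ (κ ∘ σ)) :=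
    ⟨hcl.sub a w V hS.cls _ hκσ, hκσ.tendsto_atTop.eventually hS.cov⟩
  obtain ⟨r₀, χ, G, hD⟩ := exists_dat hRC hcl (h₂ hz')
  have hpos : 0 < ‖z - z'‖ := norm_pos_iff.2 (sub_ne_zero.2 hzz)
  set r := min r₀ (‖z - z'‖ / 2) with hr
  have hr0 : 0 < r := lt_min hD.pos (by linarith)
  have h6 := hD.off hcl hr0 (min_le_left _ _) hS' (f' := fun m => F' (σ m)) hz2
    (cp_single j') (h₁ hz) (lt_of_le_of_lt (min_le_right _ _) (by linarith))
    (f := fun m => F (σ m)) (hz1.comp hφ₂.tendsto_atTop) j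
  have h7 := h6.abs
  have h8 : Tendsto (fun m => |(a (κ (σ m)))⁻¹ * S (κ (σ m)) (F (σ m), j) (F' (σ m), j')|) atTop
      (𝓝 |lv (G r (ud j') z) j|) := by
    refine h7.congr fun m => ?_
    rw [Sp_single, abs_mul, abs_mul, gz_abs, gz_abs, one_mul, one_mul]
    rfl
  have h9 : Tendsto (fun m => |(a (κ (σ m)))⁻¹ * S (κ (σ m)) (F (σ m), j) (F' (σ m), j')|) atTop
      atTop := by
    refine tendsto_atTop_mono (fun m => ?_) (tendsto_natCast_atTop_atTop (R := ℝ))
    have h10 := hτj (φ₁ (φ₂ m))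
    have h11 := b3 (σ m)
    rw [Prod.mk.injEq] at h10
    have h12 : i (σ m) (N (σ m)) = j := h10.1
    have h13 : i' (σ m) (N (σ m)) = j' := h10.2
    rw [h12, h13] at h11
    have h14 : (m : ℝ) ≤ (σ m : ℝ) := by exact_mod_cast hσm.id_le m
    linarith
  exact not_tendsto_nhds_of_tendsto_atTop h9 _ h8

end Crest.Agent.R165.Mac5x622
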