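import Crest.Agent.R165.Mac2_622
import Crest.Agent.R165.U3Spin_719

/-!
# Row 165 (S0250), U4/MAC (helper622): OUTPUT interface

`MacOut D x CC g` : all limits of the kernels `a⁻¹ S` for the sequences of backgrounds of the class `CC`,
in terms of continuum kernels `g y c z` (source at `y`, amplitude `c`, `IsKer` of `U3Spin_719`).
Gauge signs `kp` are those of `UKer_420.kap`.
-/

set_option autoImplicit false
set_option linter.unusedVariables false

noncomputable section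

open MeasureTheory Filter Topology Set Metric
open Crest.ProbabilityR.IsingModel
open Crest.Agent.R165.Tr1x40 Crest.Agent.R165.RIfx891 Crest.Agent.R165.Embx622
open Crest.Agent.R165.Mac0x622 Crest.Agent.R165.MacIx622 Crest.Agent.R165.Mac2x622

namespace Crest.Agent.R165.MacOx622

/-- lattice gauge near `z`, seen from above the rays (`kap` of `UKer_420`) -/
def kp {n : ℕ} (x : Fin n → ℂ) (z : ℂ) (V : Fin n → Face) (f : Face) : ℝ := by
  classical exact ∏ i, if (x i).im = z.im ∧ (x i).re < z.re ∧ f.2 < (V i).2 then -1 else 1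

/-- the limits of the kernels -/
structure MacOut (D : Set ℂ) {n : ℕ} (x : Fin n → ℂ)
    (CC : (ℕ → ℝ) → (ℕ → Fld) → (ℕ → Fin n → Face) → Prop) (g : ℂ → ℂ → ℂ → ℂ) : Prop where
  /-- `g y c` is the continuum kernel with source at `y` -/
  ker : ∀ y ∈ Om D x, ∀ c : ℂ, U3x719.IsKer D x y (U3x719.src x y c) (g y c)
  add : ∀ y ∈ Om D x, ∀ c d z : ℂ, z ∈ D → z ≠ y → g y (c + d) z = g y c z + g y d z
  smul : ∀ y ∈ Om D x, ∀ (s : ℝ) (c z : ℂ), z ∈ D → z ≠ y → g y (s * c) z = s * g y c z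
  /-- two different points -/
  off : ∀ a w V, CC a w V → ∀ S : ℕ → Face × Fin 4 → Face × Fin 4 → ℝ,
    (∀ᶠ k in atTop, Cov40 (w k) (S k)) → ∀ z ∈ Om D x, ∀ z' ∈ Om D x, z ≠ z' →
    ∀ f f' : ℕ → Face, Tendsto (fun k => meshPoint (a k) (f k)) atTop (𝓝 z) →
      Tendsto (fun k => meshPoint (a k) (f' k)) atTop (𝓝 z') → ∀ i i' : Fin 4,
      Tendsto (fun k => (a k)⁻¹ * (kp x z (V k) (f k) * kp x z' (V k) (f' k) *
        S k (f k, i) (f' k, i'))) atTop
        (𝓝 (U3x719.kerB x g z z' (ud i) (ud i') / (2 * Real.pi * xc)))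
  /-- the regular part -/
  diag : ∀ a w V, CC a w V → ∀ S : ℕ → Face × Fin 4 → Face × Fin 4 → ℝ,
    (∀ᶠ k in atTop, Cov40 (w k) (S k)) → ∀ z ∈ Om D x,
    ∀ f f' : ℕ → Face, Tendsto (fun k => meshPoint (a k) (f k)) atTop (𝓝 z) →
      Tendsto (fun k => meshPoint (a k) (f' k)) atTop (𝓝 z) → ∀ i i' : Fin 4,
      Tendsto (fun k => (a k)⁻¹ * (kp x z (V k) (f k) * kp x z (V k) (f' k) *
        S k (f k, i) (f' k, i') - spF (f' k, i') (f k) i)) atTop
        (𝓝 (U3x719.kerR x g z (ud i) (ud i') / (2 * Real.pi * xc)))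
  /-- bounds off the diagonal -/
  bdd : ∀ K₁ K₂ : Set ℂ, IsCompact K₁ → IsCompact K₂ → K₁ ⊆ Om D x → K₂ ⊆ Om D x →
    Disjoint K₁ K₂ → ∀ a w V, CC a w V → ∀ S : ℕ → Face × Fin 4 → Face × Fin 4 → ℝ,
    (∀ᶠ k in atTop, Cov40 (w k) (S k)) → ∃ C : ℝ, ∀ᶠ k in atTop, ∀ f f' : Face,
      meshPoint (a k) f ∈ K₁ → meshPoint (a k) f' ∈ K₂ → ∀ i i' : Fin 4,
      |(a k)⁻¹ * S k (f, i) (f', i')| ≤ C

end Crest.Agent.R165.MacOx622
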