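import Crest.Agent.R165.MacS_610
import Crest.Agent.R165.Mac1_622
import Crest.Agent.R165.Cl4_722

/-!
# Row 165 (S0250), U4/MAC, M3 (helper610): differences of limits are holomorphic

`diff_hol`: two limits `F₁, F₂` (along two sequences of lattice domains) of the resolvents with the
same sources `G` satisfy `(F₁ - F₂) rX = d` a.e. with `d` holomorphic on `D \ range x`
(linear law in local gauges + Weyl's lemma).
-/

set_option autoImplicit false

noncomputable section

open MeasureTheory Filter Topology Set Metric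
open Crest.ProbabilityR.IsingModel
open Crest.Agent.R165.Tr1x40 Crest.Agent.R165.LimAx610 Crest.Agent.R165.LimQx610
open Crest.Agent.R165.LimRx610 Crest.Agent.R165.RIfx891 Crest.Agent.R165.Embx622
open Crest.Agent.R165.Mac0x622 Crest.Agent.R165.MacIx610 Crest.Agent.R165.LimSx610
open Crest.Agent.R165.MacSx610
open scoped ENNReal ContDiff

namespace Crest.Agent.R165.MacTx610

/-! ### gauge transformations of the limit data -/

section gauge

variable {ι : Type*} {l : Filter ι} {D B : Set ℂ} {a : ι → ℝ} {w φ : ι → Fld}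
  {Φ G : Fin 4 → ℂ → ℝ}

/-- gauge transformed weights -/
def gaw (s : Face → ℝ) (w : Fld) : Fld := fun f h => s f * w f h * s (nb f h)

/-- gauge transformed field -/
def gaf (s : Face → ℝ) (φ : Fld) : Fld := fun f h => s f * φ f h

theorem A_ga {s : Face → ℝ} (hs : ∀ f, s f ^ 2 = 1) (w φ : Fld) (f : Face) (h : Fin 4) :
    A (gaw s w) (gaf s φ) f h = s f * A w φ f h := by
  have e : A0 (gaf s φ f) h = s f * A0 (φ f) h := by
    fin_cases h <;> simp [A0, gaf] <;> ring
  simp only [A, e, Y, gaw]
  unfold gaf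
  linear_combination (sg h * s f * w f h * φ (nb f h) (op h)) * hs (nb f h)

/-- the gauge converges strongly to `σ` -/
def GConv (l : Filter ι) (B : Set ℂ) (a : ι → ℝ) (s : ι → Face → ℝ) (σ : ℂ → ℝ) : Prop :=
  ∀ Ψ : ℂ → ℝ, MemLp Ψ 2 (volume.restrict B) → Tendsto (fun k =>
    eLpNorm (fun z => (s k (meshIndex (a k) z) - σ z) * Ψ z) 2 (volume.restrict B)) l (𝓝 0)

theorem abs_one_of_sq {t : ℝ} (h : t ^ 2 = 1) : |t| = 1 := by
  rw [← sq_abs] at h
  nlinarith [abs_nonneg t]

theorem gconv_of_ae [l.IsCountablyGenerated] {s : ι → Face → ℝ} (hs : ∀ k f, s k f ^ 2 = 1)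
    {σ : ℂ → ℝ} (hσ : ∀ z, σ z ^ 2 = 1) (hσm : Measurable σ)
    (h : ∀ᵐ z ∂volume.restrict B, ∀ᶠ k in l, s k (meshIndex (a k) z) = σ z) :
    GConv l B a s σ := by
  -- measurable representatives suffice
  suffices hmain : ∀ Ψ : ℂ → ℝ, Measurable Ψ → MemLp Ψ 2 (volume.restrict B) → Tendsto (fun k =>
      eLpNorm (fun z => (s k (meshIndex (a k) z) - σ z) * Ψ z) 2 (volume.restrict B)) l (𝓝 0) by
    intro Ψ hΨ
    refine (hmain (hΨ.1.mk Ψ) hΨ.1.stronglyMeasurable_mk.measurable
      (hΨ.ae_eq hΨ.1.ae_eq_mk)).congr fun k => ?_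
    refine eLpNorm_congr_ae ?_
    filter_upwards [hΨ.1.ae_eq_mk] with z hz
    rw [hz]
  intro Ψ hΨm hΨ
  refine tendsto_eLpNorm ?_
  have h0 : (0 : ℝ≥0∞) = ∫⁻ _ in B, (0 : ℝ≥0∞) := by simp
  rw [h0]
  have hsm : ∀ k, Measurable fun z => s k (meshIndex (a k) z) := fun k =>
    (measurable_of_countable _).comp (measurable_meshIndex _)
  refine tendsto_lintegral_filter_of_dominated_convergence
    (fun z => ENNReal.ofReal (4 * Ψ z ^ 2)) ?_ ?_ ?_ ?_
  · exact Eventually.of_forall fun k =>
      ((((hsm k).sub hσm).mul hΨm).pow_const 2).ennreal_ofReal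
  · refine Eventually.of_forall fun k => Eventually.of_forall fun z => ?_
    refine ENNReal.ofReal_le_ofReal ?_
    rw [mul_pow]
    refine mul_le_mul_of_nonneg_right ?_ (sq_nonneg _)
    have h1 := abs_one_of_sq (hs k (meshIndex (a k) z))
    have h2 := abs_one_of_sq (hσ z)
    rw [← sq_abs]
    have h3 := abs_sub (s k (meshIndex (a k) z)) (σ z)
    have h4 := abs_nonneg (s k (meshIndex (a k) z) - σ z)
    nlinarith
  · have h2 := (hΨ.const_mul 2).2
    rw [eLpNorm_eq_sq] at h2
    intro hc
    have e : ∀ z, ENNReal.ofReal (4 * Ψ z ^ 2) = ENNReal.ofReal ((2 * Ψ z) ^ 2) := fun z => by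
      congr 1; ring
    simp only [e] at hc
    rw [hc] at h2
    simp at h2
  · filter_upwards [h] with z hz
    refine tendsto_const_nhds.congr' ?_
    filter_upwards [hz] with k hk
    rw [hk, sub_self, zero_mul]
    simp

theorem conv_gauge {s : ι → Face → ℝ} (hs : ∀ k f, s k f ^ 2 = 1)
    {σ : ℂ → ℝ} (hc : GConv l B a s σ) (hσm : Measurable σ) {f : ι → ℂ → ℝ} {Ψ : ℂ → ℝ}
    (hf : ∀ k, Measurable (f k)) (hΨ : MemLp Ψ 2 (volume.restrict B))
    (h : Tendsto (fun k => eLpNorm (fun z => f k z - Ψ z) 2 (volume.restrict B)) l (𝓝 0)) :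
    Tendsto (fun k => eLpNorm (fun z => s k (meshIndex (a k) z) * f k z - σ z * Ψ z) 2
      (volume.restrict B)) l (𝓝 0) := by
  have hsm : ∀ k, Measurable fun z => s k (meshIndex (a k) z) := fun k =>
    (measurable_of_countable _).comp (measurable_meshIndex _)
  have hb : ∀ k, eLpNorm (fun z => s k (meshIndex (a k) z) * f k z - σ z * Ψ z) 2
      (volume.restrict B) ≤ eLpNorm (fun z => f k z - Ψ z) 2 (volume.restrict B)
      + eLpNorm (fun z => (s k (meshIndex (a k) z) - σ z) * Ψ z) 2 (volume.restrict B) := by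
    intro k
    have e : (fun z => s k (meshIndex (a k) z) * f k z - σ z * Ψ z)
        = (fun z => s k (meshIndex (a k) z) * (f k z - Ψ z))
          + fun z => (s k (meshIndex (a k) z) - σ z) * Ψ z := by
      funext z
      simp only [Pi.add_apply]
      ring
    rw [e]
    refine (eLpNorm_add_le ((hsm k).aestronglyMeasurable.mul
      ((hf k).aestronglyMeasurable.sub hΨ.1))
      (((hsm k).sub hσm).aestronglyMeasurable.mul hΨ.1) (by norm_num)).trans ?_
    refine add_le_add (le_of_eq (eLpNorm_congr_norm_ae (Eventually.of_forall fun z => ?_))) le_rfl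
    show ‖s k (meshIndex (a k) z) * (f k z - Ψ z)‖ = _
    rw [norm_mul, Real.norm_eq_abs (s k _), abs_one_of_sq (hs k _), one_mul]
  have := h.add (hc Ψ hΨ)
  rw [add_zero] at this
  exact tendsto_of_tendsto_of_tendsto_of_le_of_le tendsto_const_nhds this
    (fun _ => bot_le) hb

theorem LD_gauge (H : LD l D B a w φ Φ G) {s : ι → Face → ℝ} (hs : ∀ k f, s k f ^ 2 = 1)
    {σ : ℂ → ℝ} (hσ : ∀ z, σ z ^ 2 = 1) (hσm : Measurable σ) (hc : GConv l B a s σ) :
    LD l D B a (fun k => gaw (s k) (w k)) (fun k => gaf (s k) (φ k))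
      (fun h z => σ z * Φ h z) (fun h z => σ z * G h z) where
  pos := H.pos
  lim := H.lim
  sym k f h := by
    simp only [gaw]
    rw [H.sym k f h, nb_nb_op]
    ring
  plus k f h := by
    simp only [gaw, mul_pow, hs]
    rcases H.plus k f h with h1 | h1
    · left; rw [h1]; ring
    · right; rw [h1]; ring
  opn := H.opn
  meas := H.meas
  memΦ h := by
    refine MemLp.of_le_mul (c := 1) (H.memΦ h) (hσm.aestronglyMeasurable.mul (H.memΦ h).1)
      (Eventually.of_forall fun z => ?_)
    rw [norm_mul, Real.norm_eq_abs, abs_one_of_sq (hσ z)]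
  memG h := by
    refine MemLp.of_le_mul (c := 1) (H.memG h) (hσm.aestronglyMeasurable.mul (H.memG h).1)
      (Eventually.of_forall fun z => ?_)
    rw [norm_mul, Real.norm_eq_abs, abs_one_of_sq (hσ z)]
  zero h := by
    filter_upwards [H.zero h] with z hz hzD
    rw [hz hzD, mul_zero]
  crit K hK hKD := by
    filter_upwards [H.crit K hK hKD] with k hk z hz h
    simp only [gaw, mul_pow, hs, hk z hz h]
    ring
  convΦ h := conv_gauge hs hc hσm (fun k => measurable_E _ _ _) (H.memΦ h) (H.convΦ h)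
  convG h := by
    have e : ∀ k, src (a k) (gaw (s k) (w k)) (gaf (s k) (φ k))
        = fun f h => s k f * src (a k) (w k) (φ k) f h := by
      intro k
      funext f h
      rw [src, A_ga (hs k), src]
      ring
    simp only [e]
    exact conv_gauge hs hc hσm (fun k => measurable_E (a k) (src (a k) (w k) (φ k)) h)
      (H.memG h) (H.convG h)

end gauge

/-! ### the gauge of `rX` -/

theorem factor_diff {x z : ℂ} (hz : x ≠ z) [Decidable (rel x z)] :
    ∀ᶠ u in 𝓝 z, DifferentiableAt ℂ (fun u : ℂ => ((if rel x z ∧ x.im < u.im then (-1 : ℝ) else 1 : ℝ)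
      : ℂ) * (x - u) ^ (1 / 2 : ℂ)) u := by
  by_cases h : rel x z
  · have e : ∀ᶠ u in 𝓝 z, ((if rel x z ∧ x.im < u.im then (-1 : ℝ) else 1 : ℝ) : ℂ) *
        (x - u) ^ (1 / 2 : ℂ) = Complex.I * (u - x) ^ (1 / 2 : ℂ) := by
      have h1 : ∀ᶠ u in 𝓝 z, x.re < u.re :=
        (Complex.continuous_re.tendsto z).eventually (eventually_gt_nhds h.2)
      filter_upwards [h1] with u hu
      have h2 := cpow_half_neg (v := u - x) (by rw [Complex.sub_re]; linarith)
      rw [neg_sub] at h2
      rw [h2]
      by_cases h3 : x.im < u.im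
      · have h4 : ¬ (u - x).im ≤ 0 := by rw [Complex.sub_im]; linarith
        simp only [h, h3, h4, true_and, if_true, if_false]
        push_cast; ring
      · have h4 : (u - x).im ≤ 0 := by rw [Complex.sub_im]; linarith
        simp only [h, h3, h4, true_and, if_true, if_false]
        push_cast; ring
    have h1 : ∀ᶠ u in 𝓝 z, x.re < u.re :=
      (Complex.continuous_re.tendsto z).eventually (eventually_gt_nhds h.2)
    filter_upwards [e.eventually_nhds, h1] with u hu hu1
    refine DifferentiableAt.congr_of_eventuallyEq ?_ hu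
    have h5 : u - x ∈ Complex.slitPlane := by
      left; rw [Complex.sub_re]; linarith
    exact (DifferentiableAt.cpow (differentiableAt_id.sub_const x)
      (differentiableAt_const _) h5).const_mul _
  · have h5 : x - z ∈ Complex.slitPlane := by
      rw [Complex.mem_slitPlane_iff, Complex.sub_re, Complex.sub_im]
      by_cases him : x.im = z.im
      · left
        have : z.re ≤ x.re := not_lt.1 fun hc => h ⟨him, hc⟩
        rcases lt_or_eq_of_le this with h6 | h6
        · linarith
        · exact absurd (Complex.ext h6.symm him) hz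
      · right; exact sub_ne_zero.2 him
    have h6 : ∀ᶠ u in 𝓝 z, x - u ∈ Complex.slitPlane :=
      (continuousAt_const.sub continuousAt_id).eventually
        (Complex.isOpen_slitPlane.mem_nhds h5)
    filter_upwards [h6] with u hu
    simp only [h, false_and, if_false]
    exact (DifferentiableAt.cpow (differentiableAt_id.const_sub x)
      (differentiableAt_const _) hu).const_mul _

theorem gc_rX_diff {n : ℕ} {x : Fin n → ℂ} {z : ℂ} (hz : ∀ i, x i ≠ z) :
    ∃ r > 0, DifferentiableOn ℂ (fun u => (gc x z u : ℂ) * U3x719.rX x u) (ball z r) := by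
  classical
  have e : (fun u => (gc x z u : ℂ) * U3x719.rX x u) = fun u => ∏ i,
      (((if rel (x i) z ∧ (x i).im < u.im then (-1 : ℝ) else 1 : ℝ) : ℂ) *
        (x i - u) ^ (1 / 2 : ℂ)) := by
    funext u
    unfold gc U3x719.rX
    rw [Finset.prod_mul_distrib]
    push_cast
    rfl
  rw [e]
  have h1 : ∀ᶠ u in 𝓝 z, ∀ i, DifferentiableAt ℂ (fun u : ℂ =>
      ((if rel (x i) z ∧ (x i).im < u.im then (-1 : ℝ) else 1 : ℝ) : ℂ) *
        (x i - u) ^ (1 / 2 : ℂ)) u := eventually_all.2 fun i => factor_diff (hz i)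
  obtain ⟨r, hr, hb⟩ := Metric.eventually_nhds_iff_ball.1 h1
  refine ⟨r, hr, fun u hu => ?_⟩
  exact (DifferentiableAt.fun_finsetProd fun i _ => hb u hu i).differentiableWithinAt

theorem measurable_gc {n : ℕ} (x : Fin n → ℂ) (z : ℂ) : Measurable (gc x z) := by
  classical
  have e : gc x z = fun u => ∏ i, (if rel (x i) z ∧ (x i).im < u.im then (-1 : ℝ) else 1) := by
    funext u; unfold gc; rfl
  rw [e]
  refine Finset.measurable_prod _ fun i _ => ?_
  refine Measurable.ite ?_ measurable_const measurable_const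
  by_cases h : rel (x i) z
  · simp only [h, true_and]
    exact measurableSet_lt measurable_const Complex.measurable_im
  · simp [h]

/-! ### from local to global -/

theorem patch {U : Set ℂ} {u : ℂ → ℂ} (hloc : ∀ c ∈ U, ∃ r > 0, ball c r ⊆ U ∧
    ∃ v : ℂ → ℂ, DifferentiableOn ℂ v (ball c r) ∧ ∀ᵐ z, z ∈ ball c r → u z = v z) :
    ∃ v : ℂ → ℂ, DifferentiableOn ℂ v U ∧ ∀ᵐ z, z ∈ U → u z = v z := by
  have hloc' : ∀ c : ℂ, ∃ p : ℝ × (ℂ → ℂ), c ∈ U → 0 < p.1 ∧ ball c p.1 ⊆ U ∧
      DifferentiableOn ℂ p.2 (ball c p.1) ∧ ∀ᵐ z, z ∈ ball c p.1 → u z = p.2 z := by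
    intro c
    by_cases hc : c ∈ U
    · obtain ⟨r, hr, hrU, v, hv1, hv2⟩ := hloc c hc
      exact ⟨(r, v), fun _ => ⟨hr, hrU, hv1, hv2⟩⟩
    · exact ⟨(1, 0), fun h => absurd h hc⟩
  choose p hp using hloc'
  set v : ℂ → ℂ := fun z => (p z).2 z with hv
  have hagree : ∀ c ∈ U, ∀ z ∈ ball c (p c).1, v z = (p c).2 z := by
    intro c hc z hz
    obtain ⟨c1, c2, c3, c4⟩ := hp c hc
    have hzU : z ∈ U := c2 hz
    obtain ⟨z1, z2, z3, z4⟩ := hp z hzU
    have hopen : IsOpen (ball c (p c).1 ∩ ball z (p z).1) := isOpen_ball.inter isOpen_ball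
    have hae : (p z).2 =ᵐ[volume.restrict (ball c (p c).1 ∩ ball z (p z).1)] (p c).2 := by
      rw [Filter.EventuallyEq, ae_restrict_iff' hopen.measurableSet]
      filter_upwards [c4, z4] with w hw1 hw2 hw
      rw [← hw1 hw.1, ← hw2 hw.2]
    have := Measure.eqOn_open_of_ae_eq hae hopen (z3.continuousOn.mono inter_subset_right)
      (c3.continuousOn.mono inter_subset_left)
    exact this ⟨hz, mem_ball_self z1⟩
  refine ⟨v, ?_, ?_⟩
  · intro c hc
    obtain ⟨c1, c2, c3, c4⟩ := hp c hc
    have h1 : DifferentiableAt ℂ (p c).2 c := c3.differentiableAt (ball_mem_nhds c c1)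
    have h2 : v =ᶠ[𝓝 c] (p c).2 := by
      filter_upwards [ball_mem_nhds c c1] with z hz
      exact hagree c hc z hz
    exact (h2.differentiableAt_iff.mpr h1).differentiableWithinAt
  · have hnull : volume {z | z ∈ U ∧ u z ≠ v z} = 0 := by
      refine measure_null_of_locally_null _ fun c hc => ?_
      obtain ⟨c1, c2, c3, c4⟩ := hp c hc.1
      refine ⟨ball c (p c).1 ∩ {z | z ∈ U ∧ u z ≠ v z}, ?_, ?_⟩
      · exact inter_mem (mem_nhdsWithin_of_mem_nhds (ball_mem_nhds c c1)) self_mem_nhdsWithin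
      · refine measure_mono_null ?_ (ae_iff.mp c4)
        rintro z ⟨hz1, hz2, hz3⟩
        simp only [mem_ofPred_eq, Classical.not_imp]
        refine ⟨hz1, ?_⟩
        rw [← hagree c hc.1 z hz1]; exact hz3
    rw [ae_iff]
    convert hnull using 2
    ext z; simp [Classical.not_imp]

/-! ### the local equation -/

section local_

variable {D : Set ℂ} {n : ℕ} {x : Fin n → ℂ} {K : Set ℂ} {G : ℂ → Fin 4 → ℝ} {a : ℕ → ℝ}
  {w : ℕ → Fld} {V : ℕ → Fin n → Face} {g φ : ℕ → Fld} {U : Filter ℕ} {F : ℂ → ℂ}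

theorem gconv_gz (hpos : ∀ k, 0 < a k) (hlim : Tendsto a atTop (𝓝 0))
    (tip : ∀ i, Tendsto (fun k => meshPoint (a k) (V k i)) atTop (𝓝 (x i))) (z : ℂ) (B : Set ℂ)
    (hU : U ≤ atTop) : GConv U B a (fun k => gz x z (V k)) (gc x z) := by
  have h := gconv_of_ae (l := atTop) (B := B) (a := a) (s := fun k => gz x z (V k))
    (σ := gc x z) (fun k f => gz_sq x z (V k) f) (fun u => gc_sq x z u) (measurable_gc x z) (by
      filter_upwards [Mac1x622.ae_im_ne x B] with u hu
      exact Mac1x622.gz_tendsto hpos hlim tip z hu)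
  intro Ψ hΨ
  exact (h Ψ hΨ).mono_left hU

theorem local_eq (hD : IsOpen D) (H : LatSeq D x a w V)
    (S : Srcs K G a w g φ) (hG : ∀ h, MemLp (fun z => G z h) 2) [U.NeBot] (hU : U ≤ atTop)
    (L : CompLim D x K U a φ F) {z0 : ℂ} (hz0 : z0 ∈ Om D x) :
    ∃ r0 > 0, ∀ r, 0 < r → r < r0 → ∀ (χ : ℂ → ℝ) (C : NNReal), LipschitzWith C χ →
      HasCompactSupport χ → (∃ δ > 0, Metric.thickening δ (tsupport χ) ⊆ ball z0 r) →
      ContDiff ℝ 1 χ → ∀ f : ℂ,
      ∫ z in ball z0 r, ∑ h, χ z * (lv f h * (gc x z0 z * G z h))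
        = xc * ∫ z in ball z0 r, ((f * (gc x z0 z * F z)) * U3x719.db χ z).im := by
  have hz : ∀ i, x i ≠ z0 := fun i h => hz0.2 ⟨i, h⟩
  obtain ⟨r1, hr1, hg1⟩ := local_gauge H.pos H.lim H.tip hz
  obtain ⟨r2, hr2, hb2⟩ := nhds_basis_closedBall.mem_iff.1 (hD.mem_nhds hz0.1)
  refine ⟨min r1 r2 / 2, by positivity, fun r hr hrr χ C hC hc hnb hχ f => ?_⟩
  have hm1 : min r1 r2 ≤ r1 := min_le_left _ _
  have hm2 : min r1 r2 ≤ r2 := min_le_right _ _
  have hLD := (ld hD H S hG hU L).mono (subset_univ (ball z0 r)) measurableSet_ball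
  have hLG := LD_gauge hLD (s := fun k => gz x z0 (V k)) (σ := gc x z0)
    (fun k f => gz_sq x z0 (V k) f) (fun u => gc_sq x z0 u) (measurable_gc x z0)
    (gconv_gz H.pos H.lim H.tip z0 (ball z0 r) hU)
  have eΦ : (fun (h : Fin 4) z => gc x z0 z * lv (F z) h)
      = fun h z => lv ((gc x z0 z : ℂ) * F z) h := by
    funext h z
    rw [lv_smul]
  rw [eΦ] at hLG
  have hT : Test D (ball z0 r) χ C := Test.of_contDiffOn hD hC hc hnb hχ.contDiffOn
  refine hol_law hLG hT measure_ball_lt_top.ne ?_ f
  refine hU ?_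
  have hq : 0 < min r1 r2 / 2 := by positivity
  filter_upwards [hg1, H.ins (closedBall z0 r2) (isCompact_closedBall _ _) hb2,
    mesh_eventually H.pos H.lim (half_pos hq)] with k hk1 hk2 hk3 z hz h
  have h3 := hk3 z
  rw [mem_ball, dist_eq_norm] at hz
  have h4 : ‖meshPoint (a k) (meshIndex (a k) z) - z0‖ < min r1 r2 := by
    have e : meshPoint (a k) (meshIndex (a k) z) - z0
        = (meshPoint (a k) (meshIndex (a k) z) - z) + (z - z0) := by ring
    rw [e]
    have := norm_add_le (meshPoint (a k) (meshIndex (a k) z) - z) (z - z0)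
    linarith
  have h5 := hk1 _ (h4.trans_le hm1) h
  have h6 := hk2 (meshIndex (a k) z) (by
    rw [mem_closedBall, dist_eq_norm]; exact h4.le.trans hm2) h
  simp only [gaw]
  rw [h6, h5]
  have s1 := gz_sq x z0 (V k) (meshIndex (a k) z)
  have s2 := gz_sq x z0 (V k) (nb (meshIndex (a k) z) h)
  linear_combination xc * gz x z0 (V k) (nb (meshIndex (a k) z) h) ^ 2 * s1 + xc * s2

end local_

/-- components of a smooth compactly supported function are test functions -/
theorem comp_test {B : Set ℂ} (hB : IsOpen B) {χ : ℂ → ℂ} (hχ : ContDiff ℝ ∞ χ)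
    (hc : HasCompactSupport χ) (hs : tsupport χ ⊆ B) (L : ℂ →L[ℝ] ℝ) :
    ∃ C : NNReal, LipschitzWith C (fun z => L (χ z)) ∧ HasCompactSupport (fun z => L (χ z)) ∧
      (∃ δ > 0, Metric.thickening δ (tsupport (fun z => L (χ z))) ⊆ B) ∧
      ContDiff ℝ 1 (fun z => L (χ z)) ∧ ∀ z v, fderiv ℝ (fun z => L (χ z)) z v
        = L (fderiv ℝ χ z v) := by
  have h1 : ContDiff ℝ 1 (fun z => L (χ z)) :=
    L.contDiff.comp (hχ.of_le (by exact_mod_cast le_top))
  have h2 : HasCompactSupport (fun z => L (χ z)) := hc.comp_left (g := L) (map_zero L)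
  obtain ⟨C, hC⟩ := ContDiff.lipschitzWith_of_hasCompactSupport h2 h1 one_ne_zero
  have h3 : tsupport (fun z => L (χ z)) ⊆ tsupport χ :=
    closure_mono fun z hz hz' => hz (by
      have : χ z = 0 := hz'
      simp [this])
  obtain ⟨δ, hδ, hδB⟩ := h2.isCompact.exists_thickening_subset_open hB (h3.trans hs)
  refine ⟨C, hC, h2, ⟨δ, hδ, hδB⟩, h1, fun z v => ?_⟩
  have hd : DifferentiableAt ℝ χ z := (hχ.differentiable (by simp)) z
  have := (L.hasFDerivAt.comp z hd.hasFDerivAt).fderiv
  have e : fderiv ℝ (fun z => L (χ z)) z = L.comp (fderiv ℝ χ z) := this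
  rw [e]
  rfl

/-- real test functions suffice -/
theorem wdbar_of_real {B : Set ℂ} (hB : IsOpen B) {u : ℂ → ℂ}
    (hu : IntegrableOn u B) (h : ∀ (χ : ℂ → ℝ) (C : NNReal), LipschitzWith C χ →
      HasCompactSupport χ → (∃ δ > 0, Metric.thickening δ (tsupport χ) ⊆ B) →
      ContDiff ℝ 1 χ → ∫ z in B, u z * U3x719.db χ z = 0) :
    Cl3x722.WDbar B u 0 := by
  intro χ hχ hc hs
  obtain ⟨C1, l1, c1, n1, s1, d1⟩ := comp_test hB hχ hc hs Complex.reCLM
  obtain ⟨C2, l2, c2, n2, s2, d2⟩ := comp_test hB hχ hc hs Complex.imCLM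
  have r1 := h _ C1 l1 c1 n1 s1
  have r2 := h _ C2 l2 c2 n2 s2
  have e : ∀ z, Cl1x722.dbar χ z = (U3x719.db (fun z => Complex.reCLM (χ z)) z
      + Complex.I * U3x719.db (fun z => Complex.imCLM (χ z)) z) / 2 := by
    intro z
    unfold Cl1x722.dbar U3x719.db
    rw [d1, d1, d2, d2]
    simp only [Complex.reCLM_apply, Complex.imCLM_apply]
    apply Complex.ext <;> simp <;> ring
  have bdd : ∀ (f : ℂ → ℝ) (C : NNReal), LipschitzWith C f → ∀ z, ‖U3x719.db f z‖ ≤ 2 * C := by
    intro f C hf z
    have h1 := (fderiv ℝ f z).le_opNorm 1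
    have h2 := (fderiv ℝ f z).le_opNorm Complex.I
    have h3 := norm_fderiv_le_of_lipschitz ℝ hf (x₀ := z)
    rw [norm_one, mul_one] at h1
    rw [Complex.norm_I, mul_one] at h2
    unfold U3x719.db
    refine (norm_add_le _ _).trans ?_
    rw [norm_mul, Complex.norm_I, one_mul, Complex.norm_real, Complex.norm_real]
    linarith
  have meas : ∀ f : ℂ → ℝ, Measurable (U3x719.db f) := by
    intro f
    unfold U3x719.db
    exact (Complex.measurable_ofReal.comp (measurable_fderiv_apply_const ℝ f 1)).add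
      ((Complex.measurable_ofReal.comp (measurable_fderiv_apply_const ℝ f Complex.I)).const_mul _)
  have int : ∀ (f : ℂ → ℝ) (C : NNReal), LipschitzWith C f →
      IntegrableOn (fun z => u z * U3x719.db f z) B := by
    intro f C hf
    have := Integrable.bdd_mul (c := 2 * C) hu (meas f).aestronglyMeasurable
      (Eventually.of_forall fun z => bdd f C hf z)
    refine this.congr (Eventually.of_forall fun z => ?_)
    simp only
    ring
  have i1 := int _ C1 l1
  have i2 := int _ C2 l2
  have hoff : ∀ z, z ∉ B → u z * Cl1x722.dbar χ z + (0 : ℂ → ℂ) z * χ z = 0 := by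
    intro z hz
    have hz' : z ∉ tsupport χ := fun hc => hz (hs hc)
    have : χ =ᶠ[𝓝 z] 0 := notMem_tsupport_iff_eventuallyEq.1 hz'
    have hf : fderiv ℝ χ z = 0 := by
      rw [this.fderiv_eq]
      simp
    simp [Cl1x722.dbar, hf]
  rw [← setIntegral_eq_integral_of_forall_compl_eq_zero hoff]
  calc ∫ z in B, (u z * Cl1x722.dbar χ z + (0 : ℂ → ℂ) z * χ z)
      = ∫ z in B, (2⁻¹ * (u z * U3x719.db (fun z => Complex.reCLM (χ z)) z)
        + (2⁻¹ * Complex.I) * (u z * U3x719.db (fun z => Complex.imCLM (χ z)) z)) := by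
        refine integral_congr_ae (Eventually.of_forall fun z => ?_)
        simp only [e, Pi.zero_apply, zero_mul, add_zero]
        ring
    _ = 0 := by
        rw [integral_add (i1.const_mul _) (i2.const_mul _), integral_const_mul,
          integral_const_mul, r1, r2]
        simp

/-- **differences of limits are holomorphic** -/
theorem diff_hol {D : Set ℂ} (hD : IsOpen D) {n : ℕ} {x : Fin n → ℂ} {K : Set ℂ}
    {G : ℂ → Fin 4 → ℝ} (hG : ∀ h, MemLp (fun z => G z h) 2)
    {a : ℕ → ℝ} {w : ℕ → Fld} {V : ℕ → Fin n → Face} {g φ : ℕ → Fld}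
    (H : LatSeq D x a w V) (S : Srcs K G a w g φ) {U : Filter ℕ} [U.NeBot] (hU : U ≤ atTop)
    {F : ℂ → ℂ} (L : CompLim D x K U a φ F)
    {a' : ℕ → ℝ} {w' : ℕ → Fld} {V' : ℕ → Fin n → Face} {g' φ' : ℕ → Fld}
    (H' : LatSeq D x a' w' V') (S' : Srcs K G a' w' g' φ') {U' : Filter ℕ} [U'.NeBot]
    (hU' : U' ≤ atTop) {F' : ℂ → ℂ} (L' : CompLim D x K U' a' φ' F') :
    ∃ d : ℂ → ℂ, DifferentiableOn ℂ d (Om D x) ∧
      ∀ᵐ z ∂volume.restrict D, (F z - F' z) * U3x719.rX x z = d z := by
  have hOm : IsOpen (Om D x) := hD.sdiff (finite_range x).isClosed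
  obtain ⟨d, hd1, hd2⟩ := patch (U := Om D x)
    (u := fun z => (F z - F' z) * U3x719.rX x z) (by
    intro z0 hz0
    have hz : ∀ i, x i ≠ z0 := fun i h => hz0.2 ⟨i, h⟩
    obtain ⟨r1, hr1, e1⟩ := local_eq hD H S hG hU L hz0
    obtain ⟨r2, hr2, e2⟩ := local_eq hD H' S' hG hU' L' hz0
    obtain ⟨r3, hr3, e3⟩ := gc_rX_diff hz
    obtain ⟨r4, hr4, e4⟩ := Metric.isOpen_iff.1 hOm z0 hz0
    set r := min (min r1 r2) (min r3 r4) / 2 with hr
    have hm : 0 < min (min r1 r2) (min r3 r4) := by positivity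
    have hr0 : 0 < r := by positivity
    have q1 : r < r1 := by
      have := min_le_left (min r1 r2) (min r3 r4)
      have := min_le_left r1 r2
      linarith
    have q2 : r < r2 := by
      have := min_le_left (min r1 r2) (min r3 r4)
      have := min_le_right r1 r2
      linarith
    have q3 : r < r3 := by
      have := min_le_right (min r1 r2) (min r3 r4)
      have := min_le_left r3 r4
      linarith
    have q4 : r < r4 := by
      have := min_le_right (min r1 r2) (min r3 r4)
      have := min_le_right r3 r4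
      linarith
    set B := ball z0 r with hB
    set u : ℂ → ℂ := fun z => gc x z0 z * (F z - F' z) with hu
    have hFi : IntegrableOn F B := by
      have : IsFiniteMeasure (volume.restrict B) := ⟨by
        rw [Measure.restrict_apply_univ]; exact measure_ball_lt_top⟩
      exact (L.l2.restrict B).integrable (by norm_num)
    have hFi' : IntegrableOn F' B := by
      have : IsFiniteMeasure (volume.restrict B) := ⟨by
        rw [Measure.restrict_apply_univ]; exact measure_ball_lt_top⟩
      exact (L'.l2.restrict B).integrable (by norm_num)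
    have hgcm : Measurable fun z => (gc x z0 z : ℂ) :=
      Complex.measurable_ofReal.comp (measurable_gc x z0)
    have hgF : IntegrableOn (fun z => (gc x z0 z : ℂ) * F z) B :=
      hFi.bdd_mul (c := 1) hgcm.aestronglyMeasurable (Eventually.of_forall fun z => by
        rw [Complex.norm_real, Real.norm_eq_abs, gc_abs])
    have hgF' : IntegrableOn (fun z => (gc x z0 z : ℂ) * F' z) B :=
      hFi'.bdd_mul (c := 1) hgcm.aestronglyMeasurable (Eventually.of_forall fun z => by
        rw [Complex.norm_real, Real.norm_eq_abs, gc_abs])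
    have hui : IntegrableOn u B := by
      refine (hgF.sub hgF').congr (Eventually.of_forall fun z => ?_)
      simp only [hu, Pi.sub_apply]
      ring
    have hw : Cl3x722.WDbar B u 0 := by
      refine wdbar_of_real isOpen_ball hui fun χ C hC hc hnb hχ => ?_
      have bdd : ∀ z, ‖U3x719.db χ z‖ ≤ 2 * C := by
        intro z
        have h1 := (fderiv ℝ χ z).le_opNorm 1
        have h2 := (fderiv ℝ χ z).le_opNorm Complex.I
        have h3 := norm_fderiv_le_of_lipschitz ℝ hC (x₀ := z)
        rw [norm_one, mul_one] at h1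
        rw [Complex.norm_I, mul_one] at h2
        unfold U3x719.db
        refine (norm_add_le _ _).trans ?_
        rw [norm_mul, Complex.norm_I, one_mul, Complex.norm_real, Complex.norm_real]
        linarith
      have meas : Measurable (U3x719.db χ) := by
        unfold U3x719.db
        exact (Complex.measurable_ofReal.comp (measurable_fderiv_apply_const ℝ χ 1)).add
          ((Complex.measurable_ofReal.comp
            (measurable_fderiv_apply_const ℝ χ Complex.I)).const_mul _)
      have i1 : IntegrableOn (fun z => ((gc x z0 z : ℂ) * F z) * U3x719.db χ z) B := by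
        refine (Integrable.bdd_mul (c := 2 * C) hgF meas.aestronglyMeasurable
          (Eventually.of_forall fun z => bdd z)).congr (Eventually.of_forall fun z => ?_)
        simp only
        ring
      have i2 : IntegrableOn (fun z => ((gc x z0 z : ℂ) * F' z) * U3x719.db χ z) B := by
        refine (Integrable.bdd_mul (c := 2 * C) hgF' meas.aestronglyMeasurable
          (Eventually.of_forall fun z => bdd z)).congr (Eventually.of_forall fun z => ?_)
        simp only
        ring
      set J : ℂ := ∫ z in B, ((gc x z0 z : ℂ) * F z) * U3x719.db χ z with hJ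
      set J' : ℂ := ∫ z in B, ((gc x z0 z : ℂ) * F' z) * U3x719.db χ z with hJ'
      have key : ∀ f : ℂ, (f * J).im = (f * J').im := by
        intro f
        have k1 := e1 r hr0 q1 χ C hC hc hnb hχ f
        have k2 := e2 r hr0 q2 χ C hC hc hnb hχ f
        have k3 : ∫ z in B, ((f * ((gc x z0 z : ℂ) * F z)) * U3x719.db χ z).im = (f * J).im := by
          rw [hJ, ← integral_const_mul]
          have := integral_im (𝕜 := ℂ) (i1.const_mul f)
          simp only [RCLike.im_to_complex] at this
          rw [← this]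
          refine integral_congr_ae (Eventually.of_forall fun z => ?_)
          simp only [mul_assoc]
        have k4 : ∫ z in B, ((f * ((gc x z0 z : ℂ) * F' z)) * U3x719.db χ z).im
            = (f * J').im := by
          rw [hJ', ← integral_const_mul]
          have := integral_im (𝕜 := ℂ) (i2.const_mul f)
          simp only [RCLike.im_to_complex] at this
          rw [← this]
          refine integral_congr_ae (Eventually.of_forall fun z => ?_)
          simp only [mul_assoc]
        rw [k3] at k1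
        rw [k4] at k2
        rw [k1] at k2
        exact mul_left_cancel₀ xc_pos.ne' k2
      have hJJ : J = J' := by
        have t1 := key 1
        have t2 := key Complex.I
        simp only [one_mul, Complex.mul_im, Complex.I_re, Complex.I_im, zero_mul, zero_add] at t1 t2
        exact Complex.ext t2 t1
      have e : ∫ z in B, u z * U3x719.db χ z = J - J' := by
        rw [hJ, hJ', ← integral_sub i1 i2]
        refine integral_congr_ae (Eventually.of_forall fun z => ?_)
        simp only [hu]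
        ring
      rw [e, hJJ, sub_self]
    obtain ⟨v, hv1, hv2⟩ := Cl4x722.weyl isOpen_ball hui.locallyIntegrableOn hw
    refine ⟨r, hr0, (ball_subset_ball q4.le).trans e4,
      fun z => v z * ((gc x z0 z : ℂ) * U3x719.rX x z),
      hv1.mul (e3.mono (ball_subset_ball q3.le)), ?_⟩
    filter_upwards [hv2] with z hz hzB
    rw [← hz hzB]
    simp only [hu]
    have hg : (gc x z0 z : ℂ) ^ 2 = 1 := by
      have := gc_sq x z0 z; exact_mod_cast this
    linear_combination (-(F z - F' z) * U3x719.rX x z) * hg)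
  refine ⟨d, hd1, ?_⟩
  rw [ae_restrict_iff' hD.measurableSet]
  filter_upwards [hd2, ae_not_range x] with z hz hzx hzD
  exact hz ⟨hzD, hzx⟩

end Crest.Agent.R165.MacTx610
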