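import Crest.Agent.R165.Mac5_622
import Crest.Agent.R165.MacO_622
import Crest.Agent.R165.MacT_610

/-!
# Row 165 (S0250), U4/MAC (helper622): the limits of the kernels, any resolvent convergence

* `MacLim O x CC g` : the limits (without identification of `g`)
* `gM` : the kernel function, `GSpec` : its description by the columns `F r c`
* `mac_lim` : `ResConv → MacLim` (any `Q`), with `GSpec`
-/

set_option autoImplicit false
set_option linter.unusedVariables false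
set_option linter.unusedSimpArgs false

noncomputable section

open MeasureTheory Filter Topology Set Metric
open Crest.ProbabilityR.IsingModel
open Crest.Agent.R165.Tr1x40 Crest.Agent.R165.RIfx891 Crest.Agent.R165.Embx622
open Crest.Agent.R165.Upx622 Crest.Agent.R165.Tr2x40
open Crest.Agent.R165.Mac0x622 Crest.Agent.R165.Mac1x622 Crest.Agent.R165.MacIx622
open Crest.Agent.R165.Mac2x622 Crest.Agent.R165.Mac3x622 Crest.Agent.R165.Mac4x622
open Crest.Agent.R165.Mac5x622 Crest.Agent.R165.MacOx622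

namespace Crest.Agent.R165.Mac6x622

/-- the limits of the kernels -/
structure MacLim (O : Set ℂ) {n : ℕ} (x : Fin n → ℂ)
    (CC : (ℕ → ℝ) → (ℕ → Fld) → (ℕ → Fin n → Face) → Prop) (g : ℂ → ℂ → ℂ → ℂ) : Prop where
  cont : ∀ y ∈ O, ∀ c : ℂ, ContinuousOn (g y c) (O \ {y})
  add : ∀ y ∈ O, ∀ c d z : ℂ, z ∈ O → z ≠ y → g y (c + d) z = g y c z + g y d z
  smul : ∀ y ∈ O, ∀ (s : ℝ) (c z : ℂ), z ∈ O → z ≠ y → g y (s * c) z = s * g y c z
  /-- two different points -/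
  off : ∀ a w V, CC a w V → ∀ S : ℕ → Face × Fin 4 → Face × Fin 4 → ℝ,
    (∀ᶠ k in atTop, Cov40 (w k) (S k)) → ∀ z ∈ O, ∀ z' ∈ O, z ≠ z' →
    ∀ f f' : ℕ → Face, Tendsto (fun k => meshPoint (a k) (f k)) atTop (𝓝 z) →
      Tendsto (fun k => meshPoint (a k) (f' k)) atTop (𝓝 z') → ∀ i i' : Fin 4,
      Tendsto (fun k => (a k)⁻¹ * (kp x z (V k) (f k) * kp x z' (V k) (f' k) *
        S k (f k, i) (f' k, i'))) atTop
        (𝓝 (U3x719.kerB x g z z' (ud i) (ud i') / (2 * Real.pi * xc)))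
  /-- the regular part -/
  diag : ∀ a w V, CC a w V → ∀ S : ℕ → Face × Fin 4 → Face × Fin 4 → ℝ,
    (∀ᶠ k in atTop, Cov40 (w k) (S k)) → ∀ z ∈ O,
    ∀ f f' : ℕ → Face, Tendsto (fun k => meshPoint (a k) (f k)) atTop (𝓝 z) →
      Tendsto (fun k => meshPoint (a k) (f' k)) atTop (𝓝 z) → ∀ i i' : Fin 4,
      Tendsto (fun k => (a k)⁻¹ * (kp x z (V k) (f k) * kp x z (V k) (f' k) *
        S k (f k, i) (f' k, i') - spF (f' k, i') (f k) i)) atTop
        (𝓝 (U3x719.kerR x g z (ud i) (ud i') / (2 * Real.pi * xc)))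
  /-- bounds off the diagonal -/
  bdd : ∀ K₁ K₂ : Set ℂ, IsCompact K₁ → IsCompact K₂ → K₁ ⊆ O → K₂ ⊆ O →
    Disjoint K₁ K₂ → ∀ a w V, CC a w V → ∀ S : ℕ → Face × Fin 4 → Face × Fin 4 → ℝ,
    (∀ᶠ k in atTop, Cov40 (w k) (S k)) → ∃ C : ℝ, ∀ᶠ k in atTop, ∀ f f' : Face,
      meshPoint (a k) f ∈ K₁ → meshPoint (a k) f' ∈ K₂ → ∀ i i' : Fin 4,
      |(a k)⁻¹ * S k (f, i) (f', i')| ≤ C

/-! ### signs -/

/-- sign of the rays through `z` -/
def sgn {n : ℕ} (x : Fin n → ℂ) (z : ℂ) : ℝ := by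
  classical exact ∏ i, if rel (x i) z then -1 else 1

theorem sgn_sq {n : ℕ} (x : Fin n → ℂ) (z : ℂ) : sgn x z ^ 2 = 1 := by
  classical
  unfold sgn
  exact prod_sign_sq _

theorem sgn_sqC {n : ℕ} (x : Fin n → ℂ) (z : ℂ) : (sgn x z : ℂ) ^ 2 = 1 := by
  have := sgn_sq x z; exact_mod_cast this

theorem sgn_ne {n : ℕ} (x : Fin n → ℂ) (z : ℂ) : (sgn x z : ℂ) ≠ 0 := fun h => by
  have := sgn_sqC x z
  rw [h] at this; norm_num at this

theorem kp_eq {n : ℕ} (x : Fin n → ℂ) (z : ℂ) (V : Fin n → Face) (f : Face) :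
    kp x z V f = sgn x z * gz x z V f := by
  classical
  unfold kp sgn gz
  rw [← Finset.prod_mul_distrib]
  refine Finset.prod_congr rfl fun i _ => ?_
  unfold rel
  by_cases h : (x i).im = z.im ∧ (x i).re < z.re
  · by_cases h2 : f.2 < (V i).2
    · have h3 : ¬ (V i).2 ≤ f.2 := not_le.2 h2
      simp [h.1, h.2, h2, h3]
    · have h3 : (V i).2 ≤ f.2 := not_lt.1 h2
      simp [h.1, h.2, h2, h3]
  · have h2 : ¬ ((x i).im = z.im ∧ (x i).re < z.re ∧ f.2 < (V i).2) := fun h' => h ⟨h'.1, h'.2.1⟩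
    simp [h, h2]

theorem rX_eq {n : ℕ} (x : Fin n → ℂ) (z : ℂ) : U3x719.rX x z = rX x z := rfl

theorem rXa_eq {n : ℕ} (x : Fin n → ℂ) (z : ℂ) : U3x719.rXa x z = sgn x z * rX x z := by
  classical
  unfold U3x719.rXa sgn
  rw [rX_eq]
  congr 1
  push_cast
  refine Finset.prod_congr rfl fun i _ => ?_
  unfold rel
  by_cases h : (x i).im = z.im ∧ (x i).re < z.re
  · simp [h]
  · simp only [h, if_false]
    push_cast; rfl

/-- `e^{-iπ/4}` -/
def w8 : ℂ := Complex.exp (-(Real.pi / 4 * Complex.I))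

theorem e8_w8 : U3x719.e8 * w8 = 1 := by
  unfold U3x719.e8 w8
  rw [← Complex.exp_add, add_neg_cancel, Complex.exp_zero]

theorem w8_I : w8 * Complex.I = U3x719.e8 := by
  have h1 : U3x719.e8 ^ 2 = Complex.I := by
    unfold U3x719.e8
    rw [← Complex.exp_nat_mul]
    have : ((2 : ℕ) : ℂ) * (Real.pi / 4 * Complex.I) = Real.pi / 2 * Complex.I := by
      push_cast; ring
    rw [this, Complex.exp_pi_div_two_mul_I]
  have h2 := e8_w8
  linear_combination (-w8) * h1 + U3x719.e8 * h2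

theorem e8_ne : U3x719.e8 ≠ 0 := Complex.exp_ne_zero _

theorem w8_ne : w8 ≠ 0 := Complex.exp_ne_zero _

/-! ### the kernel function -/

/-- description of the kernel function `g` by the columns -/
structure GSpec (O : Set ℂ) {n : ℕ} (x : Fin n → ℂ) (Q : Set ℂ → (ℂ → ℂ) → Prop)
    (g : ℂ → ℂ → ℂ → ℂ) (y : ℂ) (r₀ : ℝ) (F : ℝ → ℂ → ℂ → ℂ) : Prop where
  pos : 0 < r₀
  ball : closedBall y r₀ ⊆ O
  q : ∀ r, 0 < r → r ≤ r₀ → ∀ c, Q (KR y r) (F r c)
  cont : ∀ r, 0 < r → r ≤ r₀ → ∀ c, ∃ gg : ℂ → ℂ, ContinuousOn gg (O \ KR y r) ∧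
    ∀ z ∈ O \ KR y r, F r c z * rX x z = gg z
  far : ∀ r, 0 < r → r ≤ r₀ → ∀ c, ∀ z ∈ O, r < ‖z - y‖ →
    g y c z = sgn x y * (2 * Real.pi * xc * w8) * (F r c z * rX x z)
  near : ∀ r, 0 < r → r ≤ r₀ → ∀ c z, z ≠ y → ‖z - y‖ < r / 4 →
    g y c z = sgn x y * (2 * Real.pi * xc * w8) *
      ((F r c z + gc x y z * (sC c / (z - y))) * rX x z)

/-- the kernel function -/
def gM {n : ℕ} (x : Fin n → ℂ) (r₀ : ℂ → ℝ) (F : ℂ → ℝ → ℂ → ℂ → ℂ) (y c z : ℂ) : ℂ :=
  sgn x y * (2 * Real.pi * xc * w8) * (F y (min (r₀ y) (‖z - y‖ / 2)) c z * rX x z)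

section

variable {Om : Set ℂ} {n : ℕ} {x : Fin n → ℂ}
  {CC : (ℕ → ℝ) → (ℕ → Fld) → (ℕ → Fin n → Face) → Prop} {Q : Set ℂ → (ℂ → ℂ) → Prop}

theorem gM_spec (hcl : ClassOK Om x CC) (hne : ∃ a w V S, CS CC a w V S) {r₀ : ℂ → ℝ}
    {χ : ℂ → ℝ → ℂ → ℝ} {F : ℂ → ℝ → ℂ → ℂ → ℂ} {y : ℂ}
    (hD : Dat Om x CC Q y (r₀ y) (χ y) (F y)) :
    GSpec Om x Q (gM x r₀ F) y (r₀ y) (F y) where
  pos := hD.pos
  ball := hD.ball
  q := hD.q
  cont := hD.cont
  far r hr hrr c z hz hzy := by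
    have h0 : 0 < ‖z - y‖ := hr.trans hzy
    unfold gM
    rw [hD.uniq hcl hne (lt_min hD.pos (by linarith)) (min_le_left _ _) hr hrr c hz
      (lt_of_le_of_lt (min_le_right _ _) (by linarith)) hzy]
  near r hr hrr c z hzy h := by
    have h0 : 0 < ‖z - y‖ := norm_pos_iff.2 (sub_ne_zero.2 hzy)
    unfold gM
    rw [hD.near_eq hcl hne hr hrr (lt_min hD.pos (by linarith)) (min_le_left _ _) c h
      (lt_of_le_of_lt (min_le_right _ _) (by linarith))]

end

/-! ### the square root near a point -/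

/-- `gc · rX` near `y` : derivative at `y` -/
theorem R_deriv {n : ℕ} {x : Fin n → ℂ} {y : ℂ} (hy : ∀ i, x i ≠ y) :
    HasDerivAt (fun u => (gc x y u : ℂ) * rX x u) (rX x y * ∑ j, 1 / (2 * (y - x j))) y := by
  obtain ⟨r, hr, hd⟩ := MacTx610.gc_rX_diff hy
  set R : ℂ → ℂ := fun u => (gc x y u : ℂ) * rX x u with hR
  have hd' : DifferentiableAt ℂ R y := (hd.differentiableAt (ball_mem_nhds y hr))
  have hRy : R y = rX x y := by rw [hR]; simp [gc_self]
  have hsq : ∀ u, R u ^ 2 = ∏ j, (x j - u) := by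
    intro u
    rw [hR]
    simp only
    rw [mul_pow]
    have h1 : (gc x y u : ℂ) ^ 2 = 1 := by have := gc_sq x y u; exact_mod_cast this
    rw [h1, one_mul, rX, ← Finset.prod_pow]
    refine Finset.prod_congr rfl fun j _ => ?_
    rw [← Complex.cpow_nat_mul]
    norm_num
  have h1 : HasDerivAt (fun u => R u ^ 2) (2 * R y * deriv R y) y := by
    have := hd'.hasDerivAt.fun_pow 2
    simpa using this
  have h2 : HasDerivAt (fun u : ℂ => ∏ j, (x j - u)) (∑ j, (∏ i ∈ Finset.univ.erase j,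
      (x i - y)) • (-1 : ℂ)) y := by
    have := HasDerivAt.fun_finsetProd (u := (Finset.univ : Finset (Fin n)))
      (f := fun j (u : ℂ) => x j - u) (f' := fun _ => -1) (x := y)
      (fun j _ => (hasDerivAt_id y).const_sub (x j))
    exact this
  have h3 : 2 * R y * deriv R y = ∑ j, (∏ i ∈ Finset.univ.erase j, (x i - y)) • (-1 : ℂ) := by
    refine h1.unique (h2.congr_of_eventuallyEq ?_)
    exact Eventually.of_forall hsq
  have hne : R y ≠ 0 := by rw [hRy]; exact rX_ne hy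
  have h4 : ∑ j, (∏ i ∈ Finset.univ.erase j, (x i - y)) • (-1 : ℂ) =
      2 * R y ^ 2 * ∑ j, 1 / (2 * (y - x j)) := by
    rw [hsq, Finset.mul_sum]
    refine Finset.sum_congr rfl fun j _ => ?_
    rw [← Finset.mul_prod_erase Finset.univ _ (Finset.mem_univ j), smul_eq_mul]
    have h5 : x j - y ≠ 0 := sub_ne_zero.2 (hy j)
    have h6 : y - x j ≠ 0 := sub_ne_zero.2 (hy j).symm
    field_simp
    ring
  have h5 : deriv R y = rX x y * ∑ j, 1 / (2 * (y - x j)) := by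
    rw [h4] at h3
    have h6 : 2 * R y * (deriv R y - R y * ∑ j, 1 / (2 * (y - x j))) = 0 := by
      linear_combination h3
    rcases mul_eq_zero.1 h6 with h7 | h7
    · exact absurd h7 (mul_ne_zero two_ne_zero hne)
    · rw [← hRy]; linear_combination h7
  rw [← h5]
  exact hd'.hasDerivAt

/-! ### values of the limit forms -/

section

variable {O : Set ℂ} {n : ℕ} {x : Fin n → ℂ} {Q : Set ℂ → (ℂ → ℂ) → Prop}
  {g : ℂ → ℂ → ℂ → ℂ} {y : ℂ} {r₀ : ℝ} {F : ℝ → ℂ → ℂ → ℂ}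

theorem two_pi_xc_ne : (2 * Real.pi * xc : ℂ) ≠ 0 := by
  have h1 : (Real.pi : ℂ) ≠ 0 := by exact_mod_cast Real.pi_ne_zero
  have h2 : (xc : ℂ) ≠ 0 := by exact_mod_cast xc_pos.ne'
  simp [h1, h2]

theorem GSpec.kerB (hG : GSpec O x Q g y r₀ F) (hO : ∀ i, x i ∉ O) {r : ℝ} (hr : 0 < r)
    (hrr : r ≤ r₀) {z : ℂ} (hz : z ∈ O) (hzy : r < ‖z - y‖) (c c' : ℂ) :
    U3x719.kerB x g z y c c' / (2 * Real.pi * xc) =
      sgn x y * sgn x z * (c * F r c' z).re := by
  have h1 : rX x z ≠ 0 := rX_ne fun i hc => hO i (by rw [hc]; exact hz)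
  have h2 : c * U3x719.e8 * (g y c' z / U3x719.rXa x z) =
      ((2 * Real.pi * xc) * (sgn x y * sgn x z) : ℝ) * (c * F r c' z) := by
    have h3 := sgn_ne x z
    have h4 := sgn_sqC x z
    have h5 := e8_w8
    have h6 : g y c' z / U3x719.rXa x z = sgn x y * (2 * Real.pi * xc * w8) * F r c' z *
        sgn x z := by
      rw [hG.far r hr hrr c' z hz hzy, rXa_eq, div_eq_iff (mul_ne_zero h3 h1)]
      linear_combination (-(sgn x y * (2 * Real.pi * xc * w8) * F r c' z * rX x z)) * h4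
    rw [h6]
    push_cast
    linear_combination (2 * Real.pi * xc * (sgn x y * sgn x z) * (c * F r c' z)) * h5
  unfold U3x719.kerB
  rw [h2, Complex.re_ofReal_mul]
  have h3 : (2 * Real.pi * xc : ℝ) ≠ 0 := by
    have := Real.pi_pos; have := xc_pos; positivity
  rw [mul_assoc (2 * Real.pi * xc), mul_div_cancel_left₀ _ h3]

theorem k_sC (c : ℂ) : (2 * Real.pi * xc * w8) * sC c = U3x719.e8 * c := by
  unfold sC
  have h := two_pi_xc_ne
  rw [show (2 * Real.pi * xc * w8) * (Complex.I * c / (2 * Real.pi * xc)) =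
    (w8 * Complex.I * c) * ((2 * Real.pi * xc) / (2 * Real.pi * xc) : ℂ) by ring, div_self h,
    mul_one, w8_I]

theorem src_eq' {n : ℕ} (x : Fin n → ℂ) (y c : ℂ) :
    U3x719.src x y c = sgn x y * (2 * Real.pi * xc * w8) * (sC c * rX x y) := by
  unfold U3x719.src
  rw [rXa_eq]
  linear_combination (-(sgn x y * rX x y)) * k_sC c

/-- the limit of the kernel minus its pole -/
theorem GSpec.lim (hG : GSpec O x Q g y r₀ F) (hO : IsOpen O) (hx : ∀ i, x i ∉ O) {r : ℝ}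
    (hr : 0 < r) (hrr : r ≤ r₀) (c : ℂ) :
    Tendsto (fun z => g y c z - U3x719.src x y c / (z - y)) (𝓝[≠] y)
      (𝓝 (sgn x y * (2 * Real.pi * xc * w8) * (F r c y * rX x y) +
        U3x719.src x y c * ∑ j, 1 / (2 * (y - x j)))) := by
  have hy : y ∈ O := hG.ball (mem_closedBall_self hG.pos.le)
  obtain ⟨gg, hgg, hF⟩ := hG.cont r hr hrr c
  have hopen : IsOpen (O \ KR y r) := hO.sdiff (KR_compact y r).isClosed
  have hyK : y ∈ O \ KR y r := ⟨hy, fun hc => by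
    have := (mem_KR.1 hc).2
    rw [sub_self, norm_zero] at this
    linarith⟩
  have h1 : Tendsto gg (𝓝[≠] y) (𝓝 (gg y)) :=
    ((hgg.continuousAt (hopen.mem_nhds hyK)).tendsto).mono_left nhdsWithin_le_nhds
  have h2 := (hasDerivAt_iff_tendsto_slope.1 (R_deriv (x := x) (y := y)
    (fun i hc => hx i (by rw [hc]; exact hy))))
  set R : ℂ → ℂ := fun u => (gc x y u : ℂ) * rX x u with hR
  have hRy : R y = rX x y := by rw [hR]; simp [gc_self]
  set k : ℂ := sgn x y * (2 * Real.pi * xc * w8) with hk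
  have h3 : Tendsto (fun z => k * gg z + k * sC c * slope R y z) (𝓝[≠] y)
      (𝓝 (k * gg y + k * sC c * (rX x y * ∑ j, 1 / (2 * (y - x j))))) :=
    (h1.const_mul k).add (h2.const_mul (k * sC c))
  have e1 : k * gg y + k * sC c * (rX x y * ∑ j, 1 / (2 * (y - x j))) =
      k * (F r c y * rX x y) + U3x719.src x y c * ∑ j, 1 / (2 * (y - x j)) := by
    rw [hF y hyK, src_eq' x y c]
    ring
  rw [e1] at h3
  refine h3.congr' ?_
  have h4 : ∀ᶠ z in 𝓝[≠] y, ‖z - y‖ < r / 4 := by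
    have h5 : Tendsto (fun z : ℂ => ‖z - y‖) (𝓝 y) (𝓝 ‖y - y‖) :=
      ((continuous_id.sub continuous_const).norm).tendsto y
    rw [sub_self, norm_zero] at h5
    exact (h5.eventually (eventually_lt_nhds (by linarith))).filter_mono nhdsWithin_le_nhds
  have h50 : ∀ᶠ z in 𝓝 y, z ∈ O \ KR y r := hopen.mem_nhds hyK
  have h5 : ∀ᶠ z in 𝓝[≠] y, z ∈ O \ KR y r := h50.filter_mono nhdsWithin_le_nhds
  filter_upwards [h4, h5, self_mem_nhdsWithin] with z h4 h5 h6
  have hzy : z ≠ y := h6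
  have hzy' : z - y ≠ 0 := sub_ne_zero.2 hzy
  rw [hG.near r hr hrr c z hzy h4, src_eq' x y c, ← hF z h5, slope_def_field, hRy, hR]
  simp only
  field_simp
  ring

theorem GSpec.kerR (hG : GSpec O x Q g y r₀ F) (hO : IsOpen O) (hx : ∀ i, x i ∉ O) {r : ℝ}
    (hr : 0 < r) (hrr : r ≤ r₀) (c c' : ℂ) :
    U3x719.kerR x g y c c' / (2 * Real.pi * xc) = (c * F r c' y).re := by
  have hy : y ∈ O := hG.ball (mem_closedBall_self hG.pos.le)
  have h1 : rX x y ≠ 0 := rX_ne fun i hc => hx i (by rw [hc]; exact hy)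
  have h2 := (hG.lim hO hx hr hrr c').limUnder_eq
  have h3 := sgn_ne x y
  have h5 := e8_w8
  have h4 : c * U3x719.e8 * (limUnder (𝓝[≠] y) (fun z => g y c' z - U3x719.src x y c' / (z - y)) -
      U3x719.src x y c' * ∑ j, 1 / (2 * (y - x j))) / U3x719.rXa x y =
      ((2 * Real.pi * xc : ℝ) : ℂ) * (c * F r c' y) := by
    rw [h2, rXa_eq, add_sub_cancel_right, mul_div_assoc]
    have h6 : sgn x y * (2 * Real.pi * xc * w8) * (F r c' y * rX x y) / (sgn x y * rX x y) =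
        (2 * Real.pi * xc * w8) * F r c' y := by
      rw [div_eq_iff (mul_ne_zero h3 h1)]
      ring
    rw [h6]
    push_cast
    linear_combination (2 * Real.pi * xc * (c * F r c' y)) * h5
  unfold U3x719.kerR
  rw [h4, Complex.re_ofReal_mul]
  have h3 : (2 * Real.pi * xc : ℝ) ≠ 0 := by
    have := Real.pi_pos; have := xc_pos; positivity
  rw [mul_div_cancel_left₀ _ h3]

/-- continuity off the source -/
theorem GSpec.cont_g (hG : GSpec O x Q g y r₀ F) (hO : IsOpen O) (c : ℂ) :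
    ContinuousOn (g y c) (O \ {y}) := by
  intro z hz
  have hzy : 0 < ‖z - y‖ := norm_pos_iff.2 (sub_ne_zero.2 hz.2)
  set r := min r₀ (‖z - y‖ / 2) with hr
  have hr0 : 0 < r := lt_min hG.pos (by linarith)
  have hrz : r < ‖z - y‖ := lt_of_le_of_lt (min_le_right _ _) (by linarith)
  obtain ⟨gg, hgg, hF⟩ := hG.cont r hr0 (min_le_left _ _) c
  have hopen : IsOpen (O \ KR y r) := hO.sdiff (KR_compact y r).isClosed
  have hzK : z ∈ O \ KR y r := ⟨hz.1, fun hc => by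
    have := (mem_KR.1 hc).1; linarith⟩
  have h1 := (hgg.continuousAt (hopen.mem_nhds hzK)).const_mul
    (sgn x y * (2 * Real.pi * xc * w8) : ℂ)
  refine (h1.congr ?_).continuousWithinAt
  have h2 : ∀ᶠ u in 𝓝 z, r < ‖u - y‖ :=
    (((continuous_id.sub continuous_const).norm).tendsto z).eventually (eventually_gt_nhds hrz)
  filter_upwards [h2, hopen.mem_nhds hzK, hO.mem_nhds hz.1] with u h2 h3 h4
  rw [hG.far r hr0 (min_le_left _ _) c u h4 h2, hF u h3]

end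

/-! ### the theorem -/

/-- **MAC, abstract form** : resolvent convergence implies all the kernel limits -/
theorem mac_lim {Om : Set ℂ} {n : ℕ} {x : Fin n → ℂ}
    {CC : (ℕ → ℝ) → (ℕ → Fld) → (ℕ → Fin n → Face) → Prop} {Q : Set ℂ → (ℂ → ℂ) → Prop}
    (hRC : ResConv Om x CC Q) (hcl : ClassOK Om x CC) (hne : ∃ a w V S, CS CC a w V S) :
    ∃ (g : ℂ → ℂ → ℂ → ℂ) (r₀ : ℂ → ℝ) (F : ℂ → ℝ → ℂ → ℂ → ℂ), MacLim Om x CC g ∧
      ∀ y ∈ Om, GSpec Om x Q g y (r₀ y) (F y) := by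
  classical
  have h : ∀ y, ∃ (r₀ : ℝ) (χ : ℝ → ℂ → ℝ) (F : ℝ → ℂ → ℂ → ℂ), y ∈ Om →
      Dat Om x CC Q y r₀ χ F := fun y => by
    by_cases hy : y ∈ Om
    · obtain ⟨r₀, χ, F, hD⟩ := exists_dat hRC hcl hy
      exact ⟨r₀, χ, F, fun _ => hD⟩
    · exact ⟨0, fun _ _ => 0, fun _ _ _ => 0, fun h => absurd h hy⟩
  choose r₀ χ F hD using h
  have hG : ∀ y ∈ Om, GSpec Om x Q (gM x r₀ F) y (r₀ y) (F y) := fun y hy =>
    gM_spec hcl hne (hD y hy)
  refine ⟨gM x r₀ F, r₀, F, ⟨?_, ?_, ?_, ?_, ?_, ?_⟩, hG⟩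
  · exact fun y hy c => (hG y hy).cont_g hcl.opn c
  · intro y hy c d z hz hzy
    have h0 : 0 < ‖z - y‖ := norm_pos_iff.2 (sub_ne_zero.2 hzy)
    set r := min (r₀ y) (‖z - y‖ / 2) with hr
    have hr0 : 0 < r := lt_min (hD y hy).pos (by linarith)
    have hrz : r < ‖z - y‖ := lt_of_le_of_lt (min_le_right _ _) (by linarith)
    rw [(hG y hy).far r hr0 (min_le_left _ _) _ z hz hrz,
      (hG y hy).far r hr0 (min_le_left _ _) _ z hz hrz,
      (hG y hy).far r hr0 (min_le_left _ _) _ z hz hrz,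
      (hD y hy).add hcl hne hr0 (min_le_left _ _) c d ⟨hz, fun hc => by
        have := (mem_KR.1 hc).1; linarith⟩]
    ring
  · intro y hy s c z hz hzy
    have h0 : 0 < ‖z - y‖ := norm_pos_iff.2 (sub_ne_zero.2 hzy)
    set r := min (r₀ y) (‖z - y‖ / 2) with hr
    have hr0 : 0 < r := lt_min (hD y hy).pos (by linarith)
    have hrz : r < ‖z - y‖ := lt_of_le_of_lt (min_le_right _ _) (by linarith)
    rw [(hG y hy).far r hr0 (min_le_left _ _) _ z hz hrz,
      (hG y hy).far r hr0 (min_le_left _ _) _ z hz hrz,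
      (hD y hy).smul hcl hne hr0 (min_le_left _ _) s c ⟨hz, fun hc => by
        have := (mem_KR.1 hc).1; linarith⟩]
    ring
  · intro a w V hC S hS z hz z' hz' hzz f f' hf hf' i i'
    have h0 : 0 < ‖z - z'‖ := norm_pos_iff.2 (sub_ne_zero.2 hzz)
    set r := min (r₀ z') (‖z - z'‖ / 2) with hr
    have hr0 : 0 < r := lt_min (hD z' hz').pos (by linarith)
    have hrz : r < ‖z - z'‖ := lt_of_le_of_lt (min_le_right _ _) (by linarith)
    have h1 := (hD z' hz').off hcl hr0 (min_le_left _ _) ⟨hC, hS⟩ hf' (cp_single i') hz hrz hf i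
    rw [(hG z' hz').kerB hcl.tips hr0 (min_le_left _ _) hz hrz]
    have h2 := h1.const_mul (sgn x z' * sgn x z)
    rw [lv_ud, mul_comm (F z' r (ud i') z) (ud i)] at h2
    refine h2.congr fun k => ?_
    rw [kp_eq, kp_eq, Sp_single]
    ring
  · intro a w V hC S hS z hz f f' hf hf' i i'
    have h1 := (hD z hz).reg hcl (hD z hz).pos le_rfl ⟨hC, hS⟩ hf' (cp_single i') hf i
    rw [(hG z hz).kerR hcl.opn hcl.tips (hD z hz).pos le_rfl]
    rw [lv_ud, mul_comm (F z (r₀ z) (ud i') z) (ud i)] at h1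
    refine h1.congr fun k => ?_
    have h2 : ∑ j, (Pi.single i' 1 : Fin 4 → ℝ) j * spF (f' k, j) (f k) i =
        spF (f' k, i') (f k) i := by
      rw [Finset.sum_eq_single i']
      · simp
      · intro j _ hj
        rw [Pi.single_eq_of_ne hj]; simp
      · intro h; exact absurd (Finset.mem_univ _) h
    rw [kp_eq, kp_eq, Sp_single, h2]
    have h3 := sgn_sq x z
    congr 1
    linear_combination (-(gz x z (V k) (f k) * gz x z (V k) (f' k) * S k (f k, i) (f' k, i'))) * h3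
  · intro K₁ K₂ hK₁ hK₂ h₁ h₂ hd a w V hC S hS
    exact bdd hRC hcl hK₁ hK₂ h₁ h₂ hd ⟨hC, hS⟩

end Crest.Agent.R165.Mac6x622
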