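import Mathlib
import Crest.Agent.R165.U3Spin_719
import Crest.Agent.R165.GeoP4_67
import Crest.Agent.Lib.InjHolo

/-!
R165, block U3 (3) (helper67), part 1: square roots `q`, covariance of `Ai`.

* `rX_sq`, `rX_ne`, `rXa_sq`, `rXa_ne`;
* `dslope_deriv` : `(dslope φ a)'(a) = φ''(a)/2`;
* `exists_q` : for `φ` injective holomorphic on `D` there is `q` holomorphic, `q² = φ' ∏ (x_j - z)/(φ x_j - φ z)`;
* `Ai_pull` : `Ai x i (q g'∘φ) = φ'(x_i) Ai (φ∘x) i g' + φ''(x_i)/(8 φ'(x_i))`.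
-/

set_option autoImplicit false

open Complex Set Metric Filter Topology MeasureTheory
open scoped ComplexConjugate

namespace Crest.Agent.R165.U3Covx67

open Crest.Agent.R165.U3x719
open Crest.Agent.R165.Geo (CD)

variable {n : ℕ}

theorem cpow_half_sq (a : ℂ) : (a ^ (1 / 2 : ℂ)) ^ 2 = a := by
  rw [← Complex.cpow_nat_mul]
  norm_num

theorem rX_sq (x : Fin n → ℂ) (z : ℂ) : rX x z ^ 2 = PX x z := by
  unfold rX PX
  rw [← Finset.prod_pow]
  exact Finset.prod_congr rfl (fun j _ => cpow_half_sq _)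

theorem PX_ne {x : Fin n → ℂ} {z : ℂ} (h : ∀ j, x j ≠ z) : PX x z ≠ 0 := by
  unfold PX
  rw [Finset.prod_ne_zero_iff]
  exact fun j _ => sub_ne_zero.2 (h j)

theorem rX_ne {x : Fin n → ℂ} {z : ℂ} (h : ∀ j, x j ≠ z) : rX x z ≠ 0 := by
  intro h0
  have := rX_sq x z
  rw [h0] at this
  exact PX_ne h (by rw [← this]; ring)

theorem rXa_sq (x : Fin n → ℂ) (z : ℂ) : rXa x z ^ 2 = PX x z := by
  unfold rXa
  rw [mul_pow, rX_sq, ← Finset.prod_pow]
  rw [Finset.prod_eq_one, one_mul]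
  intro j _
  split_ifs <;> norm_num

theorem rXa_ne {x : Fin n → ℂ} {z : ℂ} (h : ∀ j, x j ≠ z) : rXa x z ≠ 0 := by
  intro h0
  have := rXa_sq x z
  rw [h0] at this
  exact PX_ne h (by rw [← this]; ring)

theorem wX_ne {x : Fin n → ℂ} (hx : Function.Injective x) (i : Fin n) : wX x i ≠ 0 := by
  unfold wX
  rw [Finset.prod_ne_zero_iff]
  intro j hj
  exact sub_ne_zero.2 (fun h => (Finset.ne_of_mem_erase hj) (hx h))

/-! ### derivative of `dslope` -/

theorem hasDerivAt_dslope {φ : ℂ → ℂ} {a : ℂ} (h : AnalyticAt ℂ φ a) :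
    HasDerivAt (dslope φ a) (deriv (deriv φ) a / 2) a := by
  have hs : AnalyticAt ℂ (dslope φ a) a := by
    obtain ⟨p, hp⟩ := h
    exact ⟨_, hp.has_fpower_series_dslope_fslope⟩
  have hev : ∀ᶠ z in 𝓝 a, AnalyticAt ℂ (dslope φ a) z := hs.eventually_analyticAt
  have hd : ∀ᶠ z in 𝓝 a, deriv φ z = dslope φ a z + (z - a) * deriv (dslope φ a) z := by
    filter_upwards [hev] with z hz
    have h1 : HasDerivAt (fun z => φ a + (z - a) * dslope φ a z)
        (1 * dslope φ a z + (z - a) * deriv (dslope φ a) z) z :=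
      (((hasDerivAt_id z).sub_const a).mul hz.differentiableAt.hasDerivAt).const_add (φ a)
    have h2 : (fun z => φ a + (z - a) * dslope φ a z) = φ := by
      funext w
      have := sub_smul_dslope φ a w
      rw [smul_eq_mul] at this
      rw [this]; ring
    rw [h2, one_mul] at h1
    exact h1.deriv
  have h3 : HasDerivAt (fun z => dslope φ a z + (z - a) * deriv (dslope φ a) z)
      (deriv (dslope φ a) a + (1 * deriv (dslope φ a) a + (a - a) * deriv (deriv (dslope φ a)) a))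
      a :=
    hs.differentiableAt.hasDerivAt.add
      (((hasDerivAt_id a).sub_const a).mul hs.deriv.differentiableAt.hasDerivAt)
  have h4 : deriv (deriv φ) a = 2 * deriv (dslope φ a) a := by
    have := (h3.congr_of_eventuallyEq hd).deriv
    rw [this]; ring
  rw [h4, mul_div_cancel_left₀ _ two_ne_zero]
  exact hs.differentiableAt.hasDerivAt

theorem differentiableOn_dslope' {D : Set ℂ} (hD : IsOpen D) {φ : ℂ → ℂ}
    (hφ : DifferentiableOn ℂ φ D) {a : ℂ} (ha : a ∈ D) : DifferentiableOn ℂ (dslope φ a) D :=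
  (Complex.differentiableOn_dslope (hD.mem_nhds ha)).2 hφ

theorem dslope_ne_zero' {D : Set ℂ} (hD : IsOpen D) {φ : ℂ → ℂ}
    (hφ : DifferentiableOn ℂ φ D) (hinj : InjOn φ D) {a z : ℂ} (ha : a ∈ D) (hz : z ∈ D) :
    dslope φ a z ≠ 0 := by
  rcases eq_or_ne z a with rfl | hne
  · rw [dslope_same]
    exact Crest.Agent.Lib.deriv_ne_zero_of_injOn hD hφ hinj hz
  · intro h0
    have h1 := sub_smul_dslope φ a z
    rw [h0, smul_zero] at h1
    exact hne (hinj hz ha (sub_eq_zero.1 h1.symm))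

theorem sub_eq_mul_dslope (φ : ℂ → ℂ) (a z : ℂ) : φ a - φ z = (a - z) * dslope φ a z := by
  have h1 := sub_smul_dslope φ a z
  rw [smul_eq_mul] at h1
  linear_combination h1

theorem PX_comp (φ : ℂ → ℂ) (x : Fin n → ℂ) (z : ℂ) :
    PX (fun j => φ (x j)) (φ z) = PX x z * ∏ j, dslope φ (x j) z := by
  unfold PX
  rw [← Finset.prod_mul_distrib]
  exact Finset.prod_congr rfl (fun j _ => sub_eq_mul_dslope φ (x j) z)

/-- the square root `q` of `φ' ∏ (x_j - z)/(φ x_j - φ z)` -/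
structure IsQ (D : Set ℂ) (φ : ℂ → ℂ) (x : Fin n → ℂ) (q : ℂ → ℂ) : Prop where
  diff : DifferentiableOn ℂ q D
  ne : ∀ z ∈ D, q z ≠ 0
  sq : ∀ z ∈ D, q z ^ 2 = deriv φ z * ∏ j, (dslope φ (x j) z)⁻¹

theorem exists_q {D : Set ℂ} {r M : ℝ} (h : CD D r M) {φ : ℂ → ℂ}
    (hφ : DifferentiableOn ℂ φ D) (hinj : InjOn φ D) (x : Fin n → ℂ) (hx : ∀ j, x j ∈ D) :
    ∃ q, IsQ D φ x q := by
  have hD := h.isOpen
  have hd1 : ∀ z ∈ D, deriv φ z ≠ 0 := fun z hz =>
    Crest.Agent.Lib.deriv_ne_zero_of_injOn hD hφ hinj hz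
  have hne : ∀ z ∈ D, deriv φ z * ∏ j, (dslope φ (x j) z)⁻¹ ≠ 0 := by
    intro z hz
    refine mul_ne_zero (hd1 z hz) ?_
    rw [Finset.prod_ne_zero_iff]
    exact fun j _ => inv_ne_zero (dslope_ne_zero' hD hφ hinj (hx j) hz)
  have hdiff : DifferentiableOn ℂ (fun z => deriv φ z * ∏ j, (dslope φ (x j) z)⁻¹) D := by
    refine (hφ.deriv hD).mul ?_
    refine DifferentiableOn.fun_finsetProd (fun j _ => ?_)
    exact (differentiableOn_dslope' hD hφ (hx j)).inv
      (fun z hz => dslope_ne_zero' hD hφ hinj (hx j) hz)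
  obtain ⟨s, hs, hs2⟩ := GeoPx67.CD.exists_sqrt h hdiff hne
  refine ⟨s, hs, fun z hz h0 => hne z hz ?_, hs2⟩
  rw [← hs2 z hz, h0]; ring

theorem IsQ.rel {D : Set ℂ} {φ : ℂ → ℂ} {x : Fin n → ℂ} {q : ℂ → ℂ} (hq : IsQ D φ x q)
    (hD : IsOpen D) (hφ : DifferentiableOn ℂ φ D) (hinj : InjOn φ D) (hx : ∀ j, x j ∈ D)
    {z : ℂ} (hz : z ∈ D) : q z ^ 2 * PX (fun j => φ (x j)) (φ z) = deriv φ z * PX x z := by
  rw [hq.sq z hz, PX_comp, Finset.prod_inv_distrib]
  have hne : ∏ j, dslope φ (x j) z ≠ 0 := by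
    rw [Finset.prod_ne_zero_iff]
    exact fun j _ => dslope_ne_zero' hD hφ hinj (hx j) hz
  field_simp

/-- the value of `q²` at a branch point -/
theorem IsQ.at_x {D : Set ℂ} {φ : ℂ → ℂ} {x : Fin n → ℂ} {q : ℂ → ℂ} (hq : IsQ D φ x q)
    (hD : IsOpen D) (hφ : DifferentiableOn ℂ φ D) (hinj : InjOn φ D) (hx : ∀ j, x j ∈ D)
    (i : Fin n) :
    q (x i) ^ 2 * wX (fun j => φ (x j)) i = wX x i := by
  have h1 : deriv φ (x i) ≠ 0 := Crest.Agent.Lib.deriv_ne_zero_of_injOn hD hφ hinj (hx i)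
  rw [hq.sq (x i) (hx i), ← Finset.mul_prod_erase _ _ (Finset.mem_univ i), dslope_same,
    Finset.prod_inv_distrib]
  have h2 : wX (fun j => φ (x j)) i = wX x i *
      ∏ j ∈ Finset.univ.erase i, dslope φ (x j) (x i) := by
    unfold wX
    rw [← Finset.prod_mul_distrib]
    exact Finset.prod_congr rfl (fun j _ => sub_eq_mul_dslope φ (x j) (x i))
  have h3 : ∏ j ∈ Finset.univ.erase i, dslope φ (x j) (x i) ≠ 0 := by
    rw [Finset.prod_ne_zero_iff]
    exact fun j _ => dslope_ne_zero' hD hφ hinj (hx j) (hx i)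
  rw [h2]
  field_simp

/-- **covariance of `Ai`**, function form -/
theorem Ai_pull {D : Set ℂ} (hD : IsOpen D) {φ : ℂ → ℂ} (hφ : DifferentiableOn ℂ φ D)
    (hinj : InjOn φ D) {x : Fin n → ℂ} (hxi : Function.Injective x) (hx : ∀ j, x j ∈ D)
    {q : ℂ → ℂ} (hq : IsQ D φ x q) (i : Fin n) {g' : ℂ → ℂ}
    (hg' : DifferentiableAt ℂ g' (φ (x i)))
    (hsrc : g' (φ (x i)) ^ 2 = I * wX (fun j => φ (x j)) i) :
    Ai x i (fun z => q z * g' (φ z)) =
      deriv φ (x i) * Ai (fun j => φ (x j)) i g' +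
        deriv (deriv φ) (x i) / (8 * deriv φ (x i)) := by
  have hxi' : Function.Injective (fun j => φ (x j)) := fun a b hab =>
    hxi (hinj (hx a) (hx b) hab)
  have h1 : deriv φ (x i) ≠ 0 := Crest.Agent.Lib.deriv_ne_zero_of_injOn hD hφ hinj (hx i)
  have han : AnalyticAt ℂ φ (x i) := hφ.analyticAt (hD.mem_nhds (hx i))
  set G' : ℂ → ℂ := fun w => -I * g' w ^ 2 / ∏ j ∈ Finset.univ.erase i, (φ (x j) - w) with hG'
  have hw' : ∏ j ∈ Finset.univ.erase i, (φ (x j) - φ (x i)) ≠ 0 := wX_ne hxi' i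
  have hG'1 : G' (φ (x i)) = 1 := by
    simp only [hG', hsrc]
    change -I * (I * wX (fun j => φ (x j)) i) / wX (fun j => φ (x j)) i = 1
    have : wX (fun j => φ (x j)) i ≠ 0 := wX_ne hxi' i
    field_simp
    rw [Complex.I_sq]; ring
  have hG'd : HasDerivAt G' (deriv G' (φ (x i))) (φ (x i)) := by
    refine DifferentiableAt.hasDerivAt ?_
    refine ((hg'.pow 2).const_mul (-I)).div ?_ hw'
    exact DifferentiableAt.fun_finsetProd (fun j _ => by fun_prop)
  -- the identity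
  have hev : (fun z => -I * (q z * g' (φ z)) ^ 2 / ∏ j ∈ Finset.univ.erase i, (x j - z))
      =ᶠ[𝓝 (x i)] fun z => deriv φ z * (dslope φ (x i) z)⁻¹ * G' (φ z) := by
    filter_upwards [hD.mem_nhds (hx i)] with z hz
    have hP : ∏ j ∈ Finset.univ.erase i, (φ (x j) - φ z) =
        (∏ j ∈ Finset.univ.erase i, (x j - z)) * ∏ j ∈ Finset.univ.erase i, dslope φ (x j) z := by
      rw [← Finset.prod_mul_distrib]
      exact Finset.prod_congr rfl (fun j _ => sub_eq_mul_dslope φ (x j) z)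
    have hne : ∏ j ∈ Finset.univ.erase i, dslope φ (x j) z ≠ 0 := by
      rw [Finset.prod_ne_zero_iff]
      exact fun j _ => dslope_ne_zero' hD hφ hinj (hx j) hz
    have hdi : dslope φ (x i) z ≠ 0 := dslope_ne_zero' hD hφ hinj (hx i) hz
    simp only [hG']
    rw [mul_pow, hq.sq z hz, hP, ← Finset.mul_prod_erase _ _ (Finset.mem_univ i),
      Finset.prod_inv_distrib]
    by_cases h0 : ∏ j ∈ Finset.univ.erase i, (x j - z) = 0
    · rw [h0]; simp
    · field_simp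
  have hd1 : HasDerivAt (deriv φ) (deriv (deriv φ) (x i)) (x i) :=
    han.deriv.differentiableAt.hasDerivAt
  have hd2 := (hasDerivAt_dslope han).inv (by rw [dslope_same]; exact h1)
  have hd3 : HasDerivAt (fun z => G' (φ z)) (deriv G' (φ (x i)) * deriv φ (x i)) (x i) :=
    hG'd.comp (x i) han.differentiableAt.hasDerivAt
  have hd := (hd1.mul hd2).mul hd3
  have key : deriv (fun z => -I * (q z * g' (φ z)) ^ 2 /
      ∏ j ∈ Finset.univ.erase i, (x j - z)) (x i) =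
      deriv (deriv φ) (x i) / (2 * deriv φ (x i)) + deriv φ (x i) * deriv G' (φ (x i)) := by
    rw [hev.deriv_eq]
    refine Eq.trans (hd.deriv) ?_
    simp only [dslope_same, Pi.mul_apply, Pi.inv_apply, hG'1]
    field_simp
    ring
  unfold Ai
  rw [key]
  have : deriv (fun z => -I * g' z ^ 2 / ∏ j ∈ Finset.univ.erase i, (φ (x j) - z)) (φ (x i)) =
      deriv G' (φ (x i)) := rfl
  rw [this]
  field_simp
  ring

end Crest.Agent.R165.U3Covx67
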