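import Mathlib
import Crest.Agent.R165.U3Cov1_67

/-!
R165, block U3 (3)(4) (helper67), part 2: consequences of `Uniq`.

* `IsSpin.neg`, `IsBr.neg`;
* `memLp_diff` : if `d` is holomorphic on `D` and `d²/PX` is bounded near the only source, `d / rX ∈ L²(D)`;
* `IsBr.unique` : two solutions of `IsBr` coincide up to sign;
* `IsKer.unique` : two solutions of `IsKer` coincide off `y`.
-/

set_option autoImplicit false

open Complex Set Metric Filter Topology MeasureTheory
open scoped ComplexConjugate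

namespace Crest.Agent.R165.U3Covx67

open Crest.Agent.R165.U3x719
open Crest.Agent.R165.Geo (CD)

variable {n : ℕ}

theorem measurable_rX (x : Fin n → ℂ) : Measurable (rX x) := by
  unfold rX
  refine Finset.measurable_fun_prod _ (fun j _ => ?_)
  exact (measurable_const.sub measurable_id).pow_const _

theorem IsSpin.neg {D : Set ℂ} {x : Fin n → ℂ} {K : Set ℂ} {F : ℂ → ℂ} (h : IsSpin D x K F) :
    IsSpin D x K (fun z => - F z) where
  l2 U hU hK := (h.l2 U hU hK).neg
  holo := by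
    obtain ⟨g, hg, hae⟩ := h.holo
    refine ⟨fun z => - g z, hg.neg, ?_⟩
    filter_upwards [hae] with z hz
    rw [neg_mul, hz]
  curl χ h1 h2 h3 h4 := by simpa using h.curl χ h1 h2 h3 h4
  div χ h1 h2 h3 h4 h5 := by simpa using h.div χ h1 h2 h3 h4 h5

theorem IsBr.neg {D : Set ℂ} {x : Fin n → ℂ} {i : Fin n} {g : ℂ → ℂ} (h : IsBr D x i g) :
    IsBr D x i (fun z => - g z) where
  holo := h.holo.neg
  spin := by
    have := IsSpin.neg h.spin
    simpa [neg_div] using this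
  src := by simpa using h.src

theorem Ai_neg (x : Fin n → ℂ) (i : Fin n) (g : ℂ → ℂ) : Ai x i (fun z => - g z) = Ai x i g := by
  unfold Ai
  simp

/-- `F ∈ L²(D)` if it is so off small balls around `y` and bounded near `y` -/
theorem memLp_of_ball {D : Set ℂ} {y : ℂ} (hD : IsOpen D) {F : ℂ → ℂ}
    (hF : AEStronglyMeasurable F (volume.restrict D))
    (h2 : ∀ U : Set ℂ, IsOpen U → {y} ⊆ U → MemLp F 2 (volume.restrict (D \ U)))
    (hbd : ∃ C : ℝ, ∀ᶠ z in 𝓝 y, z ≠ y → ‖F z‖ ≤ C) : MemLp F 2 (volume.restrict D) := by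
  obtain ⟨C, hC⟩ := hbd
  obtain ⟨δ, hδ, hδC⟩ := Metric.eventually_nhds_iff_ball.1 hC
  have h1 := h2 (ball y δ) isOpen_ball (by simpa using hδ)
  have h3 : MemLp F 2 (volume.restrict (D ∩ ball y δ)) := by
    have hfin : volume (D ∩ ball y δ) < ⊤ :=
      lt_of_le_of_lt (measure_mono inter_subset_right) measure_ball_lt_top
    have : IsFiniteMeasure (volume.restrict (D ∩ ball y δ)) := ⟨by
      rw [Measure.restrict_apply_univ]; exact hfin⟩
    refine MemLp.of_bound (hF.mono_measure (Measure.restrict_mono inter_subset_left le_rfl)) C ?_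
    rw [ae_restrict_iff' (hD.inter isOpen_ball).measurableSet]
    have hne : ∀ᵐ z : ℂ ∂volume, z ≠ y := by
      simp [ae_iff, measure_singleton]
    filter_upwards [hne] with z hz hzD
    exact hδC z hzD.2 hz
  rw [memLp_two_iff_integrable_sq_norm hF]
  have e1 := (memLp_two_iff_integrable_sq_norm h1.1).1 h1
  have e3 := (memLp_two_iff_integrable_sq_norm h3.1).1 h3
  have h4 : IntegrableOn (fun z => ‖F z‖ ^ 2) ((D \ ball y δ) ∪ (D ∩ ball y δ)) :=
    IntegrableOn.union e1 e3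
  rwa [sdiff_union_inter] at h4

theorem ae_off (x : Fin n → ℂ) (y : ℂ) : ∀ᵐ z : ℂ ∂volume, z ≠ y ∧ ∀ j, x j ≠ z := by
  have h1 : (({y} : Set ℂ) ∪ range x).Finite := (finite_singleton y).union (finite_range x)
  have h2 : volume (({y} : Set ℂ) ∪ range x) = 0 := h1.measure_zero _
  have h3 : ∀ᵐ z : ℂ ∂volume, z ∉ (({y} : Set ℂ) ∪ range x) := measure_eq_zero_iff_ae_notMem.1 h2
  filter_upwards [h3] with z hz
  refine ⟨fun h => hz (Or.inl h), fun j h => hz (Or.inr ⟨j, h⟩)⟩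

theorem bound_of_sq {y : ℂ} {F Q : ℂ → ℂ} (hQ : ContinuousAt Q y)
    (h : ∀ᶠ z in 𝓝 y, z ≠ y → F z ^ 2 = Q z) : ∃ C : ℝ, ∀ᶠ z in 𝓝 y, z ≠ y → ‖F z‖ ≤ C := by
  have h1 : ∀ᶠ z in 𝓝 y, ‖Q z‖ < ‖Q y‖ + 1 := by
    have : Tendsto (fun z => ‖Q z‖) (𝓝 y) (𝓝 ‖Q y‖) := hQ.norm
    exact this.eventually (gt_mem_nhds (by linarith))
  refine ⟨‖Q y‖ + 1, ?_⟩
  filter_upwards [h, h1] with z hz hz1 hne
  have h2 : ‖F z‖ ^ 2 = ‖Q z‖ := by rw [← norm_pow, hz hne]
  have h3 : 0 ≤ ‖F z‖ := norm_nonneg _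
  have h4 : 0 ≤ ‖Q y‖ := norm_nonneg _
  nlinarith

/-- the common core of the two uniqueness statements -/
theorem uniq_core (hU : Uniq) {D : Set ℂ} {r M : ℝ} (h : CD D r M) {x : Fin n → ℂ}
    (hxi : Function.Injective x) (hx : ∀ j, x j ∈ D) {y : ℂ} (hy : y ∈ D) {g₁ g₂ d : ℂ → ℂ}
    (s₁ : IsSpin D x {y} (fun z => g₁ z / rX x z)) (s₂ : IsSpin D x {y} (fun z => g₂ z / rX x z))
    (hd : DifferentiableOn ℂ d D) (hgd : ∀ z ∈ D, z ≠ y → g₁ z - g₂ z = d z)
    (hbd : ∃ C : ℝ, ∀ᶠ z in 𝓝 y, z ≠ y → ‖d z / rX x z‖ ≤ C) (hsrc : ∀ j, x j = y → d (x j) = 0) :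
    ∀ z ∈ D, d z = 0 := by
  have hDm := h.isOpen.measurableSet
  have hae : ∀ᵐ z ∂volume.restrict D, g₁ z / rX x z - g₂ z / rX x z = d z / rX x z := by
    rw [ae_restrict_iff' hDm]
    filter_upwards [ae_off x y] with z hz hzD
    rw [← sub_div, hgd z hzD hz.1]
  have hdm : AEStronglyMeasurable (fun z => d z / rX x z) (volume.restrict D) := by
    have h1 : AEStronglyMeasurable d (volume.restrict D) :=
      hd.continuousOn.aestronglyMeasurable hDm
    exact (h1.aemeasurable.div (measurable_rX x).aemeasurable).aestronglyMeasurable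
  have hL : MemLp (fun z => d z / rX x z) 2 (volume.restrict D) := by
    refine memLp_of_ball (y := y) h.isOpen hdm (fun U hU hyU => ?_) hbd
    have h1 := (s₁.l2 U hU hyU).sub (s₂.l2 U hU hyU)
    refine (memLp_congr_ae ?_).1 h1
    exact ae_mono (Measure.restrict_mono sdiff_subset le_rfl) hae
  have hL' : MemLp (fun z => g₁ z / rX x z - g₂ z / rX x z) 2 (volume.restrict D) :=
    (memLp_congr_ae hae).2 hL
  have huni := hU D r M h n x hxi hx {y} (finite_singleton y) (by simpa using hy)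
    (fun z => g₁ z / rX x z) (fun z => g₂ z / rX x z) s₁ s₂ hL' d (by
      rw [ae_restrict_iff' hDm]
      filter_upwards [ae_off x y] with z hz hzD
      rw [← sub_div, hgd z hzD hz.1, div_mul_cancel₀ _ (rX_ne hz.2)])
    (by
      intro j hj
      have hj' : x j = y := by simpa using hj
      refine ⟨(hd.differentiableAt (h.isOpen.mem_nhds (hx j))).continuousAt, 0, le_rfl, ?_⟩
      rw [hsrc j hj']; simp)
  have h0 : d =ᵐ[volume.restrict D] fun _ => 0 := by
    have huni' := huni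
    rw [Filter.EventuallyEq, ae_restrict_iff' hDm] at huni' ⊢
    filter_upwards [huni', ae_off x y] with z hz1 hz2 hzD
    have h1 := hz1 hzD
    have h2 : g₁ z = g₂ z := by
      rwa [div_left_inj' (rX_ne hz2.2)] at h1
    rw [← hgd z hzD hz2.1, h2, sub_self]
  exact Measure.eqOn_open_of_ae_eq h0 h.isOpen hd.continuousOn continuousOn_const

/-- uniqueness for a source at a branch point, same sign -/
theorem IsBr.unique_of_eq (hU : Uniq) {D : Set ℂ} {r M : ℝ} (h : CD D r M) {x : Fin n → ℂ}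
    (hxi : Function.Injective x) (hx : ∀ j, x j ∈ D) {i : Fin n} {g₁ g₂ : ℂ → ℂ}
    (h₁ : IsBr D x i g₁) (h₂ : IsBr D x i g₂) (he : g₁ (x i) = g₂ (x i)) : EqOn g₁ g₂ D := by
  have hD := h.isOpen
  have hd : DifferentiableOn ℂ (fun z => g₁ z - g₂ z) D := h₁.holo.sub h₂.holo
  set d : ℂ → ℂ := fun z => g₁ z - g₂ z with hddef
  have hdx : d (x i) = 0 := by simp [hddef, he]
  have hP : ∏ j ∈ Finset.univ.erase i, (x j - x i) ≠ 0 := wX_ne hxi i
  have hQ : ContinuousAt (fun z => -(z - x i) * dslope d (x i) z ^ 2 /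
      ∏ j ∈ Finset.univ.erase i, (x j - z)) (x i) := by
    have h1 : ContinuousAt (dslope d (x i)) (x i) :=
      ((differentiableOn_dslope' hD hd (hx i)).differentiableAt (hD.mem_nhds (hx i))).continuousAt
    have h2 : ContinuousAt (fun z => ∏ j ∈ Finset.univ.erase i, (x j - z)) (x i) := by
      have : Continuous (fun z : ℂ => ∏ j ∈ Finset.univ.erase i, (x j - z)) := by fun_prop
      exact this.continuousAt
    have h3 : ContinuousAt (fun z : ℂ => -(z - x i)) (x i) := by fun_prop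
    exact (h3.mul (h1.pow 2)).div h2 hP
  have hbd := bound_of_sq (F := fun z => d z / rX x z) hQ (by
    refine Eventually.of_forall (fun z hz => ?_)
    have h1 : d z = (z - x i) * dslope d (x i) z := by
      have := sub_smul_dslope d (x i) z
      rw [smul_eq_mul, hdx, sub_zero] at this
      exact this.symm
    simp only [div_pow]
    rw [rX_sq, h1]
    unfold PX
    rw [← Finset.mul_prod_erase _ _ (Finset.mem_univ i)]
    have hne : x i - z ≠ 0 := sub_ne_zero.2 hz.symm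
    have h2 : z - x i = -(x i - z) := by ring
    rw [h2]
    by_cases h0 : ∏ j ∈ Finset.univ.erase i, (x j - z) = 0
    · rw [h0]; simp
    · field_simp)
  have := uniq_core hU h hxi hx (hx i) h₁.spin h₂.spin hd (fun z _ _ => rfl) hbd (by
    intro j hj
    rw [hxi hj]; exact hdx)
  intro z hz
  exact sub_eq_zero.1 (this z hz)

/-- **uniqueness for a source at a branch point, up to sign** -/
theorem IsBr.unique (hU : Uniq) {D : Set ℂ} {r M : ℝ} (h : CD D r M) {x : Fin n → ℂ}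
    (hxi : Function.Injective x) (hx : ∀ j, x j ∈ D) {i : Fin n} {g₁ g₂ : ℂ → ℂ}
    (h₁ : IsBr D x i g₁) (h₂ : IsBr D x i g₂) :
    EqOn g₁ g₂ D ∨ EqOn g₁ (fun z => - g₂ z) D := by
  have hsq : g₁ (x i) ^ 2 = g₂ (x i) ^ 2 := by rw [h₁.src, h₂.src]
  rcases sq_eq_sq_iff_eq_or_eq_neg.1 hsq with h0 | h0
  · exact Or.inl (IsBr.unique_of_eq hU h hxi hx h₁ h₂ h0)
  · exact Or.inr (IsBr.unique_of_eq hU h hxi hx h₁ (IsBr.neg h₂) h0)

/-- `Ai` does not depend on the solution -/
theorem Ai_unique (hU : Uniq) {D : Set ℂ} {r M : ℝ} (h : CD D r M) {x : Fin n → ℂ}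
    (hxi : Function.Injective x) (hx : ∀ j, x j ∈ D) {i : Fin n} {g₁ g₂ : ℂ → ℂ}
    (h₁ : IsBr D x i g₁) (h₂ : IsBr D x i g₂) : Ai x i g₁ = Ai x i g₂ := by
  have key : ∀ g₂ : ℂ → ℂ, EqOn g₁ g₂ D → Ai x i g₁ = Ai x i g₂ := by
    intro g₂ he
    unfold Ai
    congr 1
    refine Filter.EventuallyEq.deriv_eq ?_
    filter_upwards [h.isOpen.mem_nhds (hx i)] with z hz
    rw [he hz]
  rcases IsBr.unique hU h hxi hx h₁ h₂ with he | he
  · exact key g₂ he
  · rw [key _ he, Ai_neg]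

/-- **uniqueness for a source in the bulk** -/
theorem IsKer.unique (hU : Uniq) {D : Set ℂ} {r M : ℝ} (h : CD D r M) {x : Fin n → ℂ}
    (hxi : Function.Injective x) (hx : ∀ j, x j ∈ D) {y η : ℂ} (hy : y ∈ D) (hxy : ∀ j, x j ≠ y)
    {g₁ g₂ : ℂ → ℂ} (h₁ : IsKer D x y η g₁) (h₂ : IsKer D x y η g₂) :
    ∀ z ∈ D, z ≠ y → g₁ z = g₂ z := by
  have hD := h.isOpen
  obtain ⟨k₁, hk₁, he₁⟩ := h₁.pole
  obtain ⟨k₂, hk₂, he₂⟩ := h₂.pole
  have hd : DifferentiableOn ℂ (fun z => k₁ z - k₂ z) D := hk₁.sub hk₂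
  set d : ℂ → ℂ := fun z => k₁ z - k₂ z with hddef
  have hgd : ∀ z ∈ D, z ≠ y → g₁ z - g₂ z = d z := by
    intro z hz hne
    rw [he₁ z hz hne, he₂ z hz hne, hddef]; ring
  have hQ : ContinuousAt (fun z => d z ^ 2 / PX x z) y := by
    have h1 : ContinuousAt d y := (hd.differentiableAt (hD.mem_nhds hy)).continuousAt
    have h2 : ContinuousAt (PX x) y := by
      have : Continuous (PX x) := by unfold PX; fun_prop
      exact this.continuousAt
    exact (h1.pow 2).div h2 (PX_ne hxy)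
  have hbd := bound_of_sq (F := fun z => d z / rX x z) hQ (by
    refine Eventually.of_forall (fun z _ => ?_)
    rw [div_pow, rX_sq])
  have := uniq_core hU h hxi hx hy h₁.spin h₂.spin hd hgd hbd (fun j hj => absurd hj (hxy j))
  intro z hz hne
  have h3 := hgd z hz hne
  rw [this z hz] at h3
  exact sub_eq_zero.1 h3

end Crest.Agent.R165.U3Covx67
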