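import Mathlib
import Crest.Agent.R165.U3Cov2_67
import Crest.Agent.R266.E0

/-!
R165, block U3 (helper67): local facts on `IsSpin`.

* `l2_removable` : `L²` removable singularities;
* `IsSpin.smul` : real scaling;
* `IsSpin.removable` : `F rX` is holomorphic across the branch points which are not in `K`.
-/

set_option autoImplicit false

open Complex Set Metric Filter Topology MeasureTheory
open scoped ComplexConjugate ENNReal

namespace Crest.Agent.R165.U3Covx67

open Crest.Agent.R165.U3x719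
open Crest.Agent.R165.Geo (CD)

variable {n : ℕ}

/-- `L²` removable singularity -/
theorem l2_removable {f : ℂ → ℂ} {c : ℂ} {δ : ℝ} (hδ : 0 < δ)
    (hf : DifferentiableOn ℂ f (ball c δ \ {c})) (h2 : MemLp f 2 (volume.restrict (ball c δ))) :
    DifferentiableOn ℂ (Function.update f c (limUnder (𝓝[≠] c) f)) (ball c δ) := by
  refine differentiableOn_update_limUnder_of_isLittleO (ball_mem_nhds c hδ) hf ?_
  -- the mass of small balls
  set μ : Measure ℂ := volume.restrict (ball c δ) with hμ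
  have hfin : ∫⁻ z, ENNReal.ofReal (‖f z‖ ^ 2) ∂μ ≠ ∞ := by
    have h3 := (memLp_two_iff_integrable_sq_norm h2.1).1 h2
    exact (h3.lintegral_lt_top).ne
  have hvol : Tendsto (fun t : ℝ => μ (ball c t)) (𝓝[>] 0) (𝓝 0) := by
    have h1 : Tendsto (fun t : ℝ => volume (ball c t)) (𝓝[>] 0) (𝓝 0) := by
      have h3 : ∀ t : ℝ, volume (ball c t) = ENNReal.ofReal t ^ 2 * NNReal.pi := fun t =>
        Complex.volume_ball c t
      simp only [h3]
      have h4 : Tendsto (fun t : ℝ => ENNReal.ofReal t ^ 2 * (NNReal.pi : ℝ≥0∞)) (𝓝[>] 0)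
          (𝓝 (ENNReal.ofReal 0 ^ 2 * (NNReal.pi : ℝ≥0∞))) := by
        have hc : Continuous (fun t : ℝ => ENNReal.ofReal t ^ 2 * (NNReal.pi : ℝ≥0∞)) := by
          refine ENNReal.continuous_mul_const ENNReal.coe_ne_top |>.comp ?_
          exact (ENNReal.continuous_pow 2).comp ENNReal.continuous_ofReal
        exact (hc.tendsto 0).mono_left nhdsWithin_le_nhds
      simpa using h4
    refine tendsto_of_tendsto_of_tendsto_of_le_of_le tendsto_const_nhds h1 (fun _ => zero_le) ?_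
    intro t
    exact Measure.restrict_apply_le _ _
  have hmass := tendsto_setLIntegral_zero hfin hvol
  rw [Asymptotics.isLittleO_iff]
  intro ε hε
  -- choose `t` with small mass
  have hη : (0:ℝ≥0∞) < ENNReal.ofReal (Real.pi * (ε / 4) ^ 2) := by
    rw [ENNReal.ofReal_pos]; positivity
  have hev1 : ∀ᶠ t : ℝ in 𝓝[>] 0,
      ∫⁻ z in ball c t, ENNReal.ofReal (‖f z‖ ^ 2) ∂μ < ENNReal.ofReal (Real.pi * (ε / 4) ^ 2) :=
    hmass.eventually (gt_mem_nhds hη)
  obtain ⟨t, ht, htpos, htδ⟩ := (hev1.and (Ioo_mem_nhdsGT hδ)).exists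
  have hfc : ∀ᶠ z in 𝓝[≠] c, ‖f c‖ ≤ ε / 2 * ‖(z - c)⁻¹‖ := by
    have h1 : Tendsto (fun z : ℂ => ‖(z - c)⁻¹‖) (𝓝[≠] c) atTop := by
      have h3 : Tendsto (fun z : ℂ => z - c) (𝓝[≠] c) (𝓝[≠] 0) := by
        refine tendsto_nhdsWithin_iff.2 ⟨?_, ?_⟩
        · have : Tendsto (fun z : ℂ => z - c) (𝓝 c) (𝓝 (c - c)) :=
            (continuous_id.sub continuous_const).tendsto c
          rw [sub_self] at this
          exact this.mono_left nhdsWithin_le_nhds
        · filter_upwards [self_mem_nhdsWithin] with z hz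
          exact sub_ne_zero.2 hz
      exact (tendsto_norm_cobounded_atTop.comp (Filter.tendsto_inv₀_nhdsNE_zero (α := ℂ))).comp h3
    filter_upwards [h1.eventually_ge_atTop (‖f c‖ / (ε / 2))] with z hz
    rwa [div_le_iff₀ (by positivity), mul_comm] at hz
  have hball : ∀ᶠ z in 𝓝[≠] c, z ∈ ball c (t / 2) ∧ z ≠ c := by
    filter_upwards [nhdsWithin_le_nhds (ball_mem_nhds c (half_pos htpos)), self_mem_nhdsWithin]
      with z h1 h2 using ⟨h1, h2⟩
  filter_upwards [hfc, hball] with z hz1 hz2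
  obtain ⟨hzb, hzc⟩ := hz2
  rw [mem_ball, dist_eq_norm] at hzb
  have hpos : 0 < ‖z - c‖ := norm_pos_iff.2 (sub_ne_zero.2 hzc)
  set ρ := ‖z - c‖ with hρ
  have hsub : ball z ρ ⊆ ball c t := by
    intro w hw
    rw [mem_ball, dist_eq_norm] at hw ⊢
    calc ‖w - c‖ = ‖(w - z) + (z - c)‖ := by congr 1; ring
      _ ≤ ‖w - z‖ + ‖z - c‖ := norm_add_le _ _
      _ < t := by linarith
  have hsub' : ball z ρ ⊆ ball c δ \ {c} := by
    intro w hw
    refine ⟨(hsub.trans (ball_subset_ball htδ.le)) hw, ?_⟩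
    rintro rfl
    rw [mem_ball, dist_eq_norm, norm_sub_rev] at hw
    exact lt_irrefl _ hw
  have hsm := Crest.Agent.R266.E0.submean hpos (hf.mono hsub')
  have hle : ∫⁻ w in ball z ρ, ENNReal.ofReal (‖f w‖ ^ 2) ≤
      ∫⁻ w in ball c t, ENNReal.ofReal (‖f w‖ ^ 2) ∂μ := by
    rw [hμ, Measure.restrict_restrict measurableSet_ball,
      inter_eq_left.2 (ball_subset_ball htδ.le)]
    exact lintegral_mono_set hsub
  have h5 : ENNReal.ofReal (Real.pi * ρ ^ 2 * ‖f z‖ ^ 2) < ENNReal.ofReal (Real.pi * (ε / 4) ^ 2) :=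
    lt_of_le_of_lt (hsm.trans hle) ht
  have h6 := (ENNReal.ofReal_lt_ofReal_iff (by positivity)).1 h5
  have h7 : (ρ * ‖f z‖) ^ 2 < (ε / 4) ^ 2 := by
    have hpi := Real.pi_pos
    have : Real.pi * (ρ * ‖f z‖) ^ 2 < Real.pi * (ε / 4) ^ 2 := by
      calc Real.pi * (ρ * ‖f z‖) ^ 2 = Real.pi * ρ ^ 2 * ‖f z‖ ^ 2 := by ring
        _ < _ := h6
    exact lt_of_mul_lt_mul_left this hpi.le
  have h8 : ρ * ‖f z‖ < ε / 4 := lt_of_pow_lt_pow_left₀ 2 (by positivity) h7
  have h9 : ‖f z‖ ≤ ε / 2 * ‖(z - c)⁻¹‖ := by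
    rw [norm_inv, ← hρ, ← div_eq_mul_inv, le_div_iff₀ hpos]
    nlinarith
  calc ‖f z - f c‖ ≤ ‖f z‖ + ‖f c‖ := norm_sub_le _ _
    _ ≤ ε / 2 * ‖(z - c)⁻¹‖ + ε / 2 * ‖(z - c)⁻¹‖ := add_le_add h9 hz1
    _ = ε * ‖(z - c)⁻¹‖ := by ring

/-- real scaling -/
theorem IsSpin.smul {D : Set ℂ} {x : Fin n → ℂ} {K : Set ℂ} {F : ℂ → ℂ} (h : IsSpin D x K F)
    (s : ℝ) : IsSpin D x K (fun z => (s : ℂ) * F z) where
  l2 U hU hK := (h.l2 U hU hK).const_mul _
  holo := by
    obtain ⟨g, hg, hae⟩ := h.holo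
    refine ⟨fun z => (s : ℂ) * g z, hg.const_mul _, ?_⟩
    filter_upwards [hae] with z hz
    rw [mul_assoc, hz]
  curl χ h1 h2 h3 h4 := by
    have := h.curl χ h1 h2 h3 h4
    have e : ∀ z, (((s : ℂ) * F z) ^ 2 * db χ z).re = s ^ 2 * (F z ^ 2 * db χ z).re := by
      intro z
      rw [show ((s : ℂ) * F z) ^ 2 * db χ z = ((s ^ 2 : ℝ) : ℂ) * (F z ^ 2 * db χ z) by
        push_cast; ring, Complex.re_ofReal_mul]
    simp only [e]
    rw [integral_const_mul, this, mul_zero]
  div χ h1 h2 h3 h4 h5 := by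
    have := h.div χ h1 h2 h3 h4 h5
    have e : ∀ z, (((s : ℂ) * F z) ^ 2 * db χ z).im = s ^ 2 * (F z ^ 2 * db χ z).im := by
      intro z
      rw [show ((s : ℂ) * F z) ^ 2 * db χ z = ((s ^ 2 : ℝ) : ℂ) * (F z ^ 2 * db χ z) by
        push_cast; ring, Complex.im_ofReal_mul]
    simp only [e]
    rw [integral_const_mul]
    exact mul_nonpos_of_nonneg_of_nonpos (sq_nonneg s) this

/-- a small closed ball around a point of `D` off `K` -/
theorem exists_small_ball {D K : Set ℂ} (hD : IsOpen D) (hK : IsClosed K) {x : Fin n → ℂ} {c : ℂ}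
    (hc : c ∈ D) (hcK : c ∉ K) : ∃ δ > 0, closedBall c δ ⊆ D ∧ Disjoint (closedBall c δ) K ∧
      ∀ j, x j ∈ closedBall c δ → x j = c := by
  have h1 : D ∩ Kᶜ ∈ 𝓝 c := (hD.inter hK.isOpen_compl).mem_nhds ⟨hc, hcK⟩
  have h2 : ({z | z ∈ range x ∧ z ≠ c} : Set ℂ)ᶜ ∈ 𝓝 c := by
    have hfin : ({z | z ∈ range x ∧ z ≠ c} : Set ℂ).Finite :=
      (finite_range x).subset (fun z hz => hz.1)
    exact hfin.isClosed.isOpen_compl.mem_nhds (fun h => h.2 rfl)
  obtain ⟨δ, hδ, hsub⟩ := Metric.nhds_basis_closedBall.mem_iff.1 (inter_mem h1 h2)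
  refine ⟨δ, hδ, fun z hz => (hsub hz).1.1, ?_, ?_⟩
  · rw [Set.disjoint_left]
    exact fun z hz hzK => (hsub hz).1.2 hzK
  · intro j hj
    by_contra hne
    exact (hsub hj).2 ⟨⟨j, rfl⟩, hne⟩

theorem IsSpin.memLp_ball {D : Set ℂ} {x : Fin n → ℂ} {K : Set ℂ} {F : ℂ → ℂ}
    (h : IsSpin D x K F) {c : ℂ} {δ : ℝ} (h1 : closedBall c δ ⊆ D)
    (h2 : Disjoint (closedBall c δ) K) : MemLp F 2 (volume.restrict (closedBall c δ)) := by
  have h3 := h.l2 (closedBall c δ)ᶜ isClosed_closedBall.isOpen_compl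
    (fun z hz hzb => Set.disjoint_left.1 h2 hzb hz)
  have h4 : D \ (closedBall c δ)ᶜ = closedBall c δ := by
    rw [sdiff_compl]
    exact inter_eq_right.2 h1
  rwa [h4] at h3

theorem rX_bdd (x : Fin n → ℂ) (c : ℂ) (δ : ℝ) : ∃ C : ℝ, ∀ z ∈ closedBall c δ, ‖rX x z‖ ≤ C := by
  have hc : Continuous (PX x) := by unfold PX; fun_prop
  obtain ⟨C, hC⟩ := (isCompact_closedBall c δ).exists_bound_of_continuousOn hc.continuousOn
  refine ⟨|C| + 1, fun z hz => ?_⟩
  have h1 : ‖rX x z‖ ^ 2 ≤ C := by rw [← norm_pow, rX_sq]; exact hC z hz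
  have h2 := le_abs_self C
  nlinarith [norm_nonneg (rX x z), abs_nonneg C]

/-- **removable branch points** -/
theorem IsSpin.removable {D : Set ℂ} {x : Fin n → ℂ} {K : Set ℂ} {F : ℂ → ℂ} (hD : IsOpen D)
    (hK : IsClosed K) (h : IsSpin D x K F) :
    ∃ g : ℂ → ℂ, DifferentiableOn ℂ g (D \ K) ∧
      ∀ᵐ z ∂volume.restrict (D \ K), F z * rX x z = g z := by
  classical
  obtain ⟨g₀, hg₀, hae⟩ := h.holo
  set g : ℂ → ℂ := fun z => if z ∈ range x then limUnder (𝓝[≠] z) g₀ else g₀ z with hg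
  refine ⟨g, ?_, ?_⟩
  · intro z hz
    obtain ⟨δ, hδ, h1, h2, h3⟩ := exists_small_ball hD hK (x := x) hz.1 hz.2
    have hsub : ball z δ \ {z} ⊆ D \ (range x ∪ K) := by
      rintro w ⟨hw, hwz⟩
      have hwc := ball_subset_closedBall hw
      refine ⟨h1 hwc, ?_⟩
      rintro (⟨j, rfl⟩ | hwK)
      · exact hwz (h3 j hwc)
      · exact Set.disjoint_left.1 h2 hwc hwK
    by_cases hzx : z ∈ range x
    · have hL : MemLp g₀ 2 (volume.restrict (ball z δ)) := by
        have hF := (IsSpin.memLp_ball h h1 h2).mono_measure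
          (Measure.restrict_mono (ball_subset_closedBall (x := z) (ε := δ)) le_rfl)
        obtain ⟨C, hC⟩ := rX_bdd x z δ
        have hFr : MemLp (fun w => rX x w * F w) 2 (volume.restrict (ball z δ)) := by
          refine MemLp.of_le_mul (c := C) hF ?_ ?_
          · exact ((measurable_rX x).aestronglyMeasurable).mul hF.1
          · rw [ae_restrict_iff' measurableSet_ball]
            refine Eventually.of_forall (fun w hw => ?_)
            rw [norm_mul]
            exact mul_le_mul_of_nonneg_right (hC w (ball_subset_closedBall hw)) (norm_nonneg _)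
        refine (memLp_congr_ae ?_).1 hFr
        have hle : volume.restrict (ball z δ) ≤ volume.restrict (D \ K) := by
          refine Measure.restrict_mono ?_ le_rfl
          intro w hw
          have hwc := ball_subset_closedBall hw
          exact ⟨h1 hwc, fun hwK => Set.disjoint_left.1 h2 hwc hwK⟩
        filter_upwards [ae_mono hle hae] with w hw
        rw [mul_comm]; exact hw
      have hrem := l2_removable hδ (hg₀.mono hsub) hL
      have heq : g =ᶠ[𝓝 z] Function.update g₀ z (limUnder (𝓝[≠] z) g₀) := by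
        filter_upwards [ball_mem_nhds z hδ] with w hw
        by_cases hwz : w = z
        · subst hwz
          simp only [hg, if_pos hzx, Function.update_self]
        · rw [Function.update_of_ne hwz]
          have : w ∉ range x := by
            rintro ⟨j, rfl⟩
            exact hwz (h3 j (ball_subset_closedBall hw))
          simp only [hg, if_neg this]
      exact ((hrem.differentiableAt (ball_mem_nhds z hδ)).congr_of_eventuallyEq
        heq).differentiableWithinAt
    · have hzm : D \ (range x ∪ K) ∈ 𝓝 z := by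
        have ho : IsOpen (D \ (range x ∪ K)) :=
          hD.sdiff ((finite_range x).isClosed.union hK)
        refine ho.mem_nhds ⟨hz.1, ?_⟩
        rintro (h' | h')
        · exact hzx h'
        · exact hz.2 h'
      have heq : g =ᶠ[𝓝 z] g₀ := by
        filter_upwards [hzm] with w hw
        have : w ∉ range x := fun h' => hw.2 (Or.inl h')
        simp only [hg, if_neg this]
      exact ((hg₀.differentiableAt hzm).congr_of_eventuallyEq heq).differentiableWithinAt
  · have hoff : ∀ᵐ z ∂volume.restrict (D \ K), z ≠ 0 ∧ ∀ j, x j ≠ z :=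
      ae_restrict_of_ae (ae_off x 0)
    filter_upwards [hae, hoff] with z hz hz2
    rw [hz]
    have : z ∉ range x := by rintro ⟨j, hj⟩; exact hz2.2 j hj
    simp only [hg, if_neg this]

end Crest.Agent.R165.U3Covx67
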