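import Crest.Agent.R165.Mac6_622
import Crest.Agent.R165.MacI_610
import Crest.Agent.R165.U3Loc1_67

/-!
# Row 165 (S0250), U4/MAC (helper622): the kernels of a domain

* `QD D x` : the property of the limits in `ResConv'` of helper610
* `resConv_of` : `ResConv' D x → ResConv (Om D x) x (LatSeq D x) (QD D x)`
* `isKer` : the kernel function is `IsKer` of `U3Spin_719`
* `mac_out` : `ResConv' D x → ∃ g, MacOut D x (LatSeq D x) g`
-/

set_option autoImplicit false
set_option linter.unusedVariables false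
set_option linter.unusedSimpArgs false

noncomputable section

open MeasureTheory Filter Topology Set Metric
open Crest.ProbabilityR.IsingModel
open Crest.Agent.R165.Tr1x40 Crest.Agent.R165.RIfx891 Crest.Agent.R165.Embx622
open Crest.Agent.R165.Upx622 Crest.Agent.R165.Tr2x40
open Crest.Agent.R165.Mac0x622 Crest.Agent.R165.Mac1x622 Crest.Agent.R165.MacIx622
open Crest.Agent.R165.Mac2x622 Crest.Agent.R165.Mac3x622 Crest.Agent.R165.Mac4x622
open Crest.Agent.R165.Mac5x622 Crest.Agent.R165.MacOx622 Crest.Agent.R165.Mac6x622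

namespace Crest.Agent.R165.Mac7x622

/-- property of the limits of resolvents in a domain -/
def QD (D : Set ℂ) {n : ℕ} (x : Fin n → ℂ) (K : Set ℂ) (F : ℂ → ℂ) : Prop :=
  MemLp F 2 ∧ U3x719.IsSpin D x K (fun z => w8 * F z) ∧
    ∃ gg : ℂ → ℂ, DifferentiableOn ℂ gg (Om D x \ K) ∧ ∀ z ∈ Om D x \ K, F z * rX x z = gg z

theorem phi_zero {w φ : Fld} {f : Face} (hw : ∀ h, w f h = 0) (hA : ∀ h, A w φ f h = 0) :
    ∀ h, φ f h = 0 := by
  have h1 : A0 (φ f) = 0 := by
    funext h
    have := hA h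
    simp only [A, Y, hw h, mul_zero, zero_mul, add_zero] at this
    exact this
  have h2 := nsq_A0_ge (φ f)
  rw [h1] at h2
  have h3 : nsq (0 : Fin 4 → ℝ) = 0 := by simp [nsq]
  rw [h3] at h2
  have h4 : nsq (φ f) = 0 := by
    have := nsq_nonneg (φ f)
    have h5 : 0 < xc ^ 2 := by have := xc_pos; positivity
    nlinarith
  intro h
  exact congrFun (nsq_eq_zero.1 h4) h

/-- finitely many faces in a disc -/
theorem disc_finite {t : ℝ} (ht : 0 < t) (R : ℝ) : {f : Face | ‖meshPoint t f‖ < R}.Finite := by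
  obtain ⟨N, hN⟩ := exists_nat_ge (|R| / t)
  refine Set.Finite.subset (s := Set.Icc (-(N : ℤ)) N ×ˢ Set.Icc (-(N : ℤ)) N)
    ((Set.finite_Icc _ _).prod (Set.finite_Icc _ _)) fun f hf => ?_
  have h2 : ‖meshPoint t f‖ ≤ |R| := (le_of_lt hf).trans (le_abs_self R)
  rw [div_le_iff₀ ht] at hN
  have h3 : |t * (f.1 : ℝ)| ≤ N * t := by
    have := Complex.abs_re_le_norm (meshPoint t f)
    rw [meshPoint_re] at this
    linarith
  have h4 : |t * (f.2 : ℝ)| ≤ N * t := by
    have := Complex.abs_im_le_norm (meshPoint t f)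
    rw [meshPoint_im] at this
    linarith
  rw [abs_mul, abs_of_pos ht, mul_comm] at h3 h4
  have h5 : |(f.1 : ℝ)| ≤ N := le_of_mul_le_mul_right h3 ht
  have h6 : |(f.2 : ℝ)| ≤ N := le_of_mul_le_mul_right h4 ht
  rw [abs_le] at h5 h6
  refine ⟨⟨?_, ?_⟩, ⟨?_, ?_⟩⟩
  · exact_mod_cast h5.1
  · exact_mod_cast h5.2
  · exact_mod_cast h6.1
  · exact_mod_cast h6.2

/-- **from `ResConv'` of helper610 to `ResConv`** -/
theorem resConv_of {D : Set ℂ} {n : ℕ} {x : Fin n → ℂ} (h : MacIx610.ResConv' D x) :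
    ResConv (Om D x) x (LatSeq D x) (QD D x) := by
  intro K hK hKO G hG hG0
  obtain ⟨F, ⟨h1, h2⟩, ⟨gg, hgg, hgF⟩, h3⟩ := h K hK hKO G hG
  refine ⟨F, ⟨h1, h2, gg, hgg, hgF⟩, ⟨gg, hgg.continuousOn, hgF⟩, ?_⟩
  intro a w V H g φ hsupp hconv hzero heqn z₀ hz₀
  refine ⟨1, one_pos, fun h => ?_⟩
  obtain ⟨N, hN⟩ := eventually_atTop.1 (hsupp.and heqn)
  have hsm : StrictMono fun k : ℕ => k + N := fun i j hij => by simpa using hij
  have H' : LatSeq D x (a ∘ fun k => k + N) (w ∘ fun k => k + N) (V ∘ fun k => k + N) :=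
    H.comp hsm
  obtain ⟨R, hR⟩ := H.bdd
  obtain ⟨R', hR'⟩ := hK.isBounded.subset_ball 0
  have hS : MacIx610.Srcs K G (a ∘ fun k => k + N) (w ∘ fun k => k + N) (fun k => g (k + N))
      (fun k => φ (k + N)) := by
    refine ⟨?_, ?_, ?_, ?_⟩
    · intro k f hf h
      by_contra hne
      exact hf ((hN (k + N) (Nat.le_add_left _ _)).1 f h hne)
    · intro h
      exact (tendsto_add_atTop_iff_nat N).2 (hconv h)
    · intro k
      set t := a (k + N) with ht
      have htp : 0 < t := H.pos _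
      refine ⟨(disc_finite htp (max R R')).toFinset, fun f hf => ?_⟩
      have hf' : max R R' ≤ ‖meshPoint t f‖ := by
        by_contra hc
        exact hf (by simpa using not_le.1 hc)
      have hw0 : ∀ h, w (k + N) f h = 0 := hR (k + N) f ((le_max_left _ _).trans hf')
      have hg0 : ∀ h, g (k + N) f h = 0 := by
        intro h
        by_contra hne
        have h4 := hR' ((hN (k + N) (Nat.le_add_left _ _)).1 f h hne)
        rw [mem_ball, dist_zero_right] at h4
        have := (le_max_right R R').trans hf'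
        rw [ht] at this
        linarith
      funext h
      refine phi_zero hw0 (fun h => ?_) h
      rw [(hN (k + N) (Nat.le_add_left _ _)).2 f h, hg0 h, mul_zero]
    · intro k f h
      exact (hN (k + N) (Nat.le_add_left _ _)).2 f h
  have h4 := h3 _ _ _ H' _ _ hS h
  have h5 : Tendsto (fun k => ∫⁻ z, ENNReal.ofReal
      ((emb (a k) (fun f => φ k f h) z - lv (F z) h) ^ 2)) atTop (𝓝 0) :=
    (tendsto_add_atTop_iff_nat N).1 h4
  exact tendsto_of_tendsto_of_tendsto_of_le_of_le tendsto_const_nhds h5 (fun _ => zero_le)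
    fun k => setLIntegral_le_lintegral _ _

/-! ### identification of the kernel function -/

/-- extension to the branch points -/
def gE {n : ℕ} (x : Fin n → ℂ) (g : ℂ → ℂ → ℂ → ℂ) (y c z : ℂ) : ℂ := by
  classical exact if z ∈ range x then limUnder (𝓝[≠] z) (g y c) else g y c z

theorem gE_of {n : ℕ} {x : Fin n → ℂ} (g : ℂ → ℂ → ℂ → ℂ) (y c : ℂ) {z : ℂ} (hz : z ∉ range x) :
    gE x g y c z = g y c z := by
  unfold gE; simp [hz]

/-- two continuous functions which agree a.e. on an open set agree -/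
theorem eq_of_ae {U : Set ℂ} (hU : IsOpen U) {f g : ℂ → ℂ} (hf : ContinuousOn f U)
    (hg : ContinuousOn g U) (h : ∀ᵐ z ∂volume.restrict U, f z = g z) : ∀ z ∈ U, f z = g z := by
  have := MeasureTheory.Measure.eqOn_open_of_ae_eq (μ := (volume : Measure ℂ)) h hU hf hg
  exact fun z hz => this hz

section

variable {D : Set ℂ} {n : ℕ} {x : Fin n → ℂ} {g : ℂ → ℂ → ℂ → ℂ} {y : ℂ} {r₀ : ℝ}
  {F : ℝ → ℂ → ℂ → ℂ}

theorem isOpen_Om (hD : IsOpen D) (x : Fin n → ℂ) : IsOpen (Om D x) :=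
  hD.sdiff (finite_range x).isClosed

/-- the constant `k = sgn · 2π x_c e^{-iπ/4}` -/
def kk (x : Fin n → ℂ) (y : ℂ) : ℂ := sgn x y * (2 * Real.pi * xc * w8)

theorem kk_ne (x : Fin n → ℂ) (y : ℂ) : kk x y ≠ 0 :=
  mul_ne_zero (sgn_ne x y) (mul_ne_zero two_pi_xc_ne w8_ne)

/-- the field of a column extends holomorphically across the branch points -/
theorem ext_far (hD : IsOpen D) (hG : GSpec (Om D x) x (QD D x) g y r₀ F) {r : ℝ} (hr : 0 < r)
    (hrr : r ≤ r₀) (c : ℂ) : ∃ G : ℂ → ℂ, DifferentiableOn ℂ G (D \ KR y r) ∧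
      (∀ z ∈ Om D x \ KR y r, F r c z * rX x z = G z) ∧
      ∀ z ∈ D, r < ‖z - y‖ → gE x g y c z = kk x y * G z := by
  obtain ⟨h1, h2, gg, hgg, hgF⟩ := hG.q r hr hrr c
  have hKc : IsClosed (KR y r) := (KR_compact y r).isClosed
  obtain ⟨G, hGd, hGe⟩ := U3Covx67.IsSpin.removable hD hKc h2
  have hO := isOpen_Om hD x
  have hOK : IsOpen (Om D x \ KR y r) := hO.sdiff hKc
  have hsub : Om D x \ KR y r ⊆ D \ KR y r := fun z hz => ⟨hz.1.1, hz.2⟩
  -- equality off the branch points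
  have h3 : ∀ z ∈ Om D x \ KR y r, w8 * gg z = G z := by
    refine eq_of_ae hOK (continuousOn_const.mul hgg.continuousOn) (hGd.continuousOn.mono hsub) ?_
    have h4 : ∀ᵐ z ∂volume.restrict (Om D x \ KR y r), w8 * F r c z * U3x719.rX x z = G z :=
      ae_mono (Measure.restrict_mono hsub le_rfl) hGe
    filter_upwards [h4, ae_restrict_mem hOK.measurableSet] with z hz hzO
    rw [← hz, ← hgF z hzO, rX_eq]
    ring
  have hw := w8_ne
  refine ⟨fun z => w8⁻¹ * G z, hGd.const_mul _, ?_, ?_⟩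
  · intro z hz
    simp only
    rw [hgF z hz, ← h3 z hz, ← mul_assoc, inv_mul_cancel₀ hw, one_mul]
  · intro z hz hzr
    by_cases hzx : z ∈ range x
    · -- branch point
      have hzD : z ∈ D \ KR y r := ⟨hz, fun hc => by
        have := (mem_KR.1 hc).1; linarith⟩
      have hopen : IsOpen (D \ KR y r) := hD.sdiff hKc
      have h5 : Tendsto (fun u => kk x y * (w8⁻¹ * G u)) (𝓝[≠] z)
          (𝓝 (kk x y * (w8⁻¹ * G z))) := by
        have := (hGd.continuousOn.continuousAt (hopen.mem_nhds hzD)).tendsto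
        exact ((this.const_mul _).const_mul _).mono_left nhdsWithin_le_nhds
      have h6 : Tendsto (g y c) (𝓝[≠] z) (𝓝 (kk x y * (w8⁻¹ * G z))) := by
        refine h5.congr' ?_
        have e1 : ∀ᶠ u in 𝓝 z, r < ‖u - y‖ :=
          (((continuous_id.sub continuous_const).norm).tendsto z).eventually
            (eventually_gt_nhds hzr)
        have e2 : ∀ᶠ u in 𝓝 z, u ∈ D \ KR y r := hopen.mem_nhds hzD
        have e3 : ∀ᶠ u in 𝓝[≠] z, u ∉ range x := by
          have h7 : ((range x) \ {z}).Finite := (finite_range x).subset sdiff_subset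
          have h8 : ∀ᶠ u in 𝓝 z, u ∉ (range x) \ {z} :=
            h7.isClosed.isOpen_compl.mem_nhds (fun h => h.2 rfl)
          filter_upwards [h8.filter_mono nhdsWithin_le_nhds, self_mem_nhdsWithin] with u hu hu'
          exact fun hx => hu ⟨hx, hu'⟩
        filter_upwards [e1.filter_mono nhdsWithin_le_nhds, e2.filter_mono nhdsWithin_le_nhds, e3]
          with u h7 h8 h9
        have hu : u ∈ Om D x \ KR y r := ⟨⟨h8.1, h9⟩, h8.2⟩
        rw [hG.far r hr hrr c u hu.1 h7, hgF u hu, ← h3 u hu]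
        have : w8⁻¹ * (w8 * gg u) = gg u := by rw [← mul_assoc, inv_mul_cancel₀ hw, one_mul]
        rw [this]
        rfl
      unfold gE
      simp only [hzx, if_true]
      exact h6.limUnder_eq
    · have hu : z ∈ Om D x \ KR y r := ⟨⟨hz, hzx⟩, fun hc => by
        have := (mem_KR.1 hc).1; linarith⟩
      simp only
      rw [gE_of g y c hzx, hG.far r hr hrr c z hu.1 hzr, hgF z hu, ← h3 z hu]
      have : w8⁻¹ * (w8 * gg z) = gg z := by rw [← mul_assoc, inv_mul_cancel₀ hw, one_mul]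
      rw [this]
      rfl

theorem far_open {r : ℝ} {y z : ℂ} (h : r < ‖z - y‖) : ∀ᶠ u in 𝓝 z, r < ‖u - y‖ :=
  (((continuous_id.sub continuous_const).norm).tendsto z).eventually (eventually_gt_nhds h)

/-- holomorphy of the extended kernel off the source -/
theorem gE_diff (hD : IsOpen D) (hG : GSpec (Om D x) x (QD D x) g y r₀ F) (c : ℂ) :
    DifferentiableOn ℂ (gE x g y c) (D \ {y}) := by
  intro z hz
  have hzy : 0 < ‖z - y‖ := norm_pos_iff.2 (sub_ne_zero.2 hz.2)
  set r := min r₀ (‖z - y‖ / 2) with hr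
  have hr0 : 0 < r := lt_min hG.pos (by linarith)
  have hrz : r < ‖z - y‖ := lt_of_le_of_lt (min_le_right _ _) (by linarith)
  obtain ⟨G, hGd, -, hGe⟩ := ext_far hD hG hr0 (min_le_left _ _) c
  have hopen : IsOpen (D \ KR y r) := hD.sdiff (KR_compact y r).isClosed
  have hzK : z ∈ D \ KR y r := ⟨hz.1, fun hc => by
    have := (mem_KR.1 hc).1; linarith⟩
  have h1 : DifferentiableAt ℂ (fun u => kk x y * G u) z :=
    (hGd.differentiableAt (hopen.mem_nhds hzK)).const_mul _
  refine (h1.congr_of_eventuallyEq ?_).differentiableWithinAt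
  filter_upwards [far_open hrz, hD.mem_nhds hz.1] with u h2 h3
  exact hGe u h3 h2

/-- the pole -/
theorem gE_pole (hD : IsOpen D) (hG : GSpec (Om D x) x (QD D x) g y r₀ F) (c : ℂ) :
    ∃ h : ℂ → ℂ, DifferentiableOn ℂ h D ∧
      ∀ z ∈ D, z ≠ y → gE x g y c z = U3x719.src x y c / (z - y) + h z := by
  classical
  have hy : y ∈ Om D x := hG.ball (mem_closedBall_self hG.pos.le)
  have hyx : ∀ i, x i ≠ y := fun i hc => hy.2 ⟨i, hc⟩
  obtain ⟨h1, h2, gg, hgg, hgF⟩ := hG.q r₀ hG.pos le_rfl c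
  obtain ⟨ρ, hρ, hRd⟩ := MacTx610.gc_rX_diff hyx
  set R : ℂ → ℂ := fun u => (gc x y u : ℂ) * U3x719.rX x u with hR
  have hRy : R y = rX x y := by rw [hR]; simp [gc_self, rX_eq]
  set h0 : ℂ → ℂ := fun z => kk x y * gg z + kk x y * sC c * dslope R y z with hh0
  set h : ℂ → ℂ := fun z => if z = y then h0 y else gE x g y c z -
    U3x719.src x y c / (z - y) with hh
  have hOK : IsOpen (Om D x \ KR y r₀) := (isOpen_Om hD x).sdiff (KR_compact y r₀).isClosed
  have hyK : y ∈ Om D x \ KR y r₀ := ⟨hy, fun hc => by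
    have := (mem_KR.1 hc).2
    rw [sub_self, norm_zero] at this
    linarith [hG.pos]⟩
  -- near the pole `h = h0`
  have hnear : ∀ᶠ z in 𝓝 y, h z = h0 z := by
    have e1 : ∀ᶠ z in 𝓝 y, ‖z - y‖ < r₀ / 4 := by
      have h5 : Tendsto (fun z : ℂ => ‖z - y‖) (𝓝 y) (𝓝 ‖y - y‖) :=
        ((continuous_id.sub continuous_const).norm).tendsto y
      rw [sub_self, norm_zero] at h5
      exact h5.eventually (eventually_lt_nhds (by linarith [hG.pos]))
    filter_upwards [e1, hOK.mem_nhds hyK] with z h4 h5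
    by_cases hzy : z = y
    · rw [hzy]; simp [hh]
    · have hzy' : z - y ≠ 0 := sub_ne_zero.2 hzy
      have hzx : z ∉ range x := h5.1.2
      simp only [hh, hzy, if_false]
      rw [gE_of g y c hzx, hG.near r₀ hG.pos le_rfl c z hzy h4, src_eq' x y c]
      simp only [hh0]
      rw [← hgF z h5, dslope_of_ne _ hzy, slope_def_field, hRy, hR]
      simp only [kk, rX_eq]
      field_simp
      ring
  refine ⟨h, ?_, ?_⟩
  · intro z hz
    by_cases hzy : z = y
    · rw [hzy]
      have d1 : DifferentiableAt ℂ gg y := hgg.differentiableAt (hOK.mem_nhds hyK)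
      have d2 : DifferentiableAt ℂ (dslope R y) y :=
        ((Complex.differentiableOn_dslope (ball_mem_nhds y hρ)).2 hRd).differentiableAt
          (ball_mem_nhds y hρ)
      have d3 : DifferentiableAt ℂ h0 y := (d1.const_mul _).add (d2.const_mul _)
      exact (d3.congr_of_eventuallyEq hnear).differentiableWithinAt
    · have d1 : DifferentiableAt ℂ (gE x g y c) z :=
        (gE_diff hD hG c).differentiableAt ((hD.sdiff isClosed_singleton).mem_nhds ⟨hz, hzy⟩)
      have d2 : DifferentiableAt ℂ (fun z => gE x g y c z - U3x719.src x y c / (z - y)) z :=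
        d1.sub ((differentiableAt_const _).div (differentiableAt_id.sub_const y)
          (sub_ne_zero.2 hzy))
      refine (d2.congr_of_eventuallyEq ?_).differentiableWithinAt
      have e1 : ∀ᶠ u in 𝓝 z, u ≠ y := isOpen_ne.mem_nhds hzy
      filter_upwards [e1] with u hu
      simp [hh, hu]
  · intro z hz hzy
    simp only [hh, hzy, if_false]
    ring

theorem db_zero {χ : ℂ → ℝ} {z : ℂ} (hz : z ∉ tsupport χ) : U3x719.db χ z = 0 := by
  unfold U3x719.db
  have h1 : χ =ᶠ[𝓝 z] fun _ => 0 := notMem_tsupport_iff_eventuallyEq.1 hz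
  rw [h1.fderiv_eq, fderiv_const_apply]
  simp

/-- the spinor property of the kernel -/
theorem gE_spin (hD : IsOpen D) (hG : GSpec (Om D x) x (QD D x) g y r₀ F) (c : ℂ) :
    U3x719.IsSpin D x {y} (fun z => gE x g y c z / U3x719.rX x z) := by
  have hy : y ∈ Om D x := hG.ball (mem_closedBall_self hG.pos.le)
  -- off a small ball the kernel is the column
  have key : ∀ r, 0 < r → r ≤ r₀ → ∀ z ∈ Om D x, r < ‖z - y‖ →
      gE x g y c z / U3x719.rX x z = ((sgn x y * (2 * Real.pi * xc) : ℝ) : ℂ) *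
        (w8 * F r c z) := by
    intro r hr hrr z hz hzr
    have h1 : rX x z ≠ 0 := rX_ne fun i hc => hz.2 ⟨i, hc⟩
    rw [gE_of g y c hz.2, hG.far r hr hrr c z hz hzr, rX_eq]
    push_cast
    field_simp
  have hnull : ∀ᵐ z ∂(volume : Measure ℂ), z ∉ range x :=
    (finite_range x).countable.ae_notMem volume
  -- a small radius off a closed set
  have rad : ∀ C : Set ℂ, IsClosed C → y ∉ C → ∃ r, 0 < r ∧ r ≤ r₀ ∧
      ∀ z ∈ C, r < ‖z - y‖ := by
    intro C hC hyC
    obtain ⟨ε, hε, hb⟩ := Metric.isOpen_iff.1 hC.isOpen_compl y hyC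
    refine ⟨min r₀ (ε / 2), lt_min hG.pos (by linarith), min_le_left _ _, fun z hz => ?_⟩
    have h1 : ε ≤ ‖z - y‖ := by
      by_contra hc
      exact hb (by rw [mem_ball, dist_eq_norm]; exact not_le.1 hc) hz
    exact lt_of_le_of_lt (min_le_right _ _) (by linarith)
  refine ⟨?_, ?_, ?_, ?_⟩
  · intro U hU hKU
    obtain ⟨r, hr, hrr, hrU⟩ := rad Uᶜ hU.isClosed_compl
      (fun h => h (hKU (mem_singleton y)))
    obtain ⟨h1, -, -⟩ := hG.q r hr hrr c
    have h2 : MemLp (fun z => ((sgn x y * (2 * Real.pi * xc) : ℝ) : ℂ) * (w8 * F r c z)) 2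
        (volume.restrict (D \ U)) :=
      ((h1.mono_measure Measure.restrict_le_self).const_mul w8).const_mul _
    refine (memLp_congr_ae ?_).1 h2
    filter_upwards [ae_restrict_of_ae hnull, ae_restrict_mem (hD.measurableSet.diff
      hU.measurableSet)] with z hz1 hz2
    exact (key r hr hrr z ⟨hz2.1, hz1⟩ (hrU z hz2.2)).symm
  · refine ⟨gE x g y c, (gE_diff hD hG c).mono ?_, ?_⟩
    · rintro z ⟨hz1, hz2⟩
      exact ⟨hz1, fun h => hz2 (Or.inr h)⟩
    · filter_upwards [ae_restrict_of_ae hnull] with z hz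
      have h1 : U3x719.rX x z ≠ 0 := rX_ne fun i hc => hz ⟨i, hc⟩
      exact div_mul_cancel₀ _ h1
  · intro χ h1 h2 h3 h4
    obtain ⟨r, hr, hrr, hrU⟩ := rad (tsupport χ) (isClosed_tsupport χ)
      (fun h => Set.disjoint_left.1 h4 h (mem_singleton y))
    obtain ⟨-, hs, -⟩ := hG.q r hr hrr c
    have h5 : Disjoint (tsupport χ) (KR y r) := by
      rw [Set.disjoint_left]
      intro z hz hzK
      have := (mem_KR.1 hzK).1
      have := hrU z hz
      linarith
    have h6 := hs.curl χ h1 h2 h3 h5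
    have h7 : ∀ᵐ z ∂volume.restrict D, ((gE x g y c z / U3x719.rX x z) ^ 2 *
        U3x719.db χ z).re = (2 * Real.pi * xc) ^ 2 * ((w8 * F r c z) ^ 2 * U3x719.db χ z).re := by
      filter_upwards [ae_restrict_of_ae hnull, ae_restrict_mem hD.measurableSet] with z hz1 hz2
      by_cases hz3 : z ∈ tsupport χ
      · rw [key r hr hrr z ⟨hz2, hz1⟩ (hrU z hz3), mul_pow, ← Complex.ofReal_pow, mul_pow,
          sgn_sq, one_mul, mul_assoc, Complex.re_ofReal_mul]
      · rw [db_zero hz3]; simp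
    rw [integral_congr_ae h7, integral_const_mul, h6, mul_zero]
  · intro χ h1 h2 h3 h4 h8
    obtain ⟨r, hr, hrr, hrU⟩ := rad (tsupport χ) (isClosed_tsupport χ)
      (fun h => Set.disjoint_left.1 h4 h (mem_singleton y))
    obtain ⟨-, hs, -⟩ := hG.q r hr hrr c
    have h5 : Disjoint (tsupport χ) (KR y r) := by
      rw [Set.disjoint_left]
      intro z hz hzK
      have := (mem_KR.1 hzK).1
      have := hrU z hz
      linarith
    have h6 := hs.div χ h1 h2 h3 h5 h8
    have h7 : ∀ᵐ z ∂volume.restrict D, ((gE x g y c z / U3x719.rX x z) ^ 2 *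
        U3x719.db χ z).im = (2 * Real.pi * xc) ^ 2 * ((w8 * F r c z) ^ 2 * U3x719.db χ z).im := by
      filter_upwards [ae_restrict_of_ae hnull, ae_restrict_mem hD.measurableSet] with z hz1 hz2
      by_cases hz3 : z ∈ tsupport χ
      · rw [key r hr hrr z ⟨hz2, hz1⟩ (hrU z hz3), mul_pow, ← Complex.ofReal_pow, mul_pow,
          sgn_sq, one_mul, mul_assoc, Complex.im_ofReal_mul]
      · rw [db_zero hz3]; simp
    rw [integral_congr_ae h7, integral_const_mul]
    exact mul_nonpos_of_nonneg_of_nonpos (sq_nonneg _) h6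

theorem gE_isKer (hD : IsOpen D) (hG : GSpec (Om D x) x (QD D x) g y r₀ F) (c : ℂ) :
    U3x719.IsKer D x y (U3x719.src x y c) (gE x g y c) :=
  ⟨gE_spin hD hG c, gE_pole hD hG c⟩

theorem kerB_gE {z : ℂ} (hz : z ∉ range x) (y c c' : ℂ) :
    U3x719.kerB x (gE x g) z y c c' = U3x719.kerB x g z y c c' := by
  unfold U3x719.kerB
  rw [gE_of g y c' hz]

theorem kerR_gE {y : ℂ} (hy : y ∉ range x) (c c' : ℂ) :
    U3x719.kerR x (gE x g) y c c' = U3x719.kerR x g y c c' := by
  unfold U3x719.kerR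
  have e1 : ∀ᶠ z in 𝓝[≠] y, z ∉ range x := by
    have h1 : ∀ᶠ z in 𝓝 y, z ∉ range x := (finite_range x).isClosed.isOpen_compl.mem_nhds hy
    exact h1.filter_mono nhdsWithin_le_nhds
  have e2 : limUnder (𝓝[≠] y) (fun z => gE x g y c' z - U3x719.src x y c' / (z - y)) =
      limUnder (𝓝[≠] y) (fun z => g y c' z - U3x719.src x y c' / (z - y)) := by
    unfold limUnder
    congr 1
    refine Filter.map_congr ?_
    filter_upwards [e1] with z hz
    rw [gE_of g y c' hz]
  rw [e2]

/-- identities extend to the branch points -/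
theorem ext_eq (hD : IsOpen D) {f₁ f₂ : ℂ → ℂ} (h1 : ContinuousOn f₁ (D \ {y}))
    (h2 : ContinuousOn f₂ (D \ {y})) (h : ∀ z ∈ Om D x, z ≠ y → f₁ z = f₂ z) :
    ∀ z ∈ D, z ≠ y → f₁ z = f₂ z := by
  intro z hz hzy
  by_cases hzx : z ∈ range x
  · have ho : IsOpen (D \ {y}) := hD.sdiff isClosed_singleton
    have hm : D \ {y} ∈ 𝓝 z := ho.mem_nhds ⟨hz, hzy⟩
    have t1 : Tendsto f₁ (𝓝[≠] z) (𝓝 (f₁ z)) :=
      (h1.continuousAt hm).tendsto.mono_left nhdsWithin_le_nhds
    have t2 : Tendsto f₂ (𝓝[≠] z) (𝓝 (f₂ z)) :=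
      (h2.continuousAt hm).tendsto.mono_left nhdsWithin_le_nhds
    refine tendsto_nhds_unique t1 (t2.congr' ?_)
    have e3 : ∀ᶠ u in 𝓝[≠] z, u ∉ range x := by
      have h7 : ((range x) \ {z}).Finite := (finite_range x).subset sdiff_subset
      have h8 : ∀ᶠ u in 𝓝 z, u ∉ (range x) \ {z} :=
        h7.isClosed.isOpen_compl.mem_nhds (fun h => h.2 rfl)
      filter_upwards [h8.filter_mono nhdsWithin_le_nhds, self_mem_nhdsWithin] with u hu hu'
      exact fun hx => hu ⟨hx, hu'⟩
    have e4 : ∀ᶠ u in 𝓝[≠] z, u ∈ D \ {y} := by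
      have : ∀ᶠ u in 𝓝 z, u ∈ D \ {y} := hm
      exact this.filter_mono nhdsWithin_le_nhds
    filter_upwards [e3, e4] with u h3 h4
    exact (h u ⟨h4.1, h3⟩ h4.2).symm
  · exact h z ⟨hz, hzx⟩ hzy

end

/-- **MAC for a domain, any class** -/
theorem mac_out' {D : Set ℂ} (hD : IsOpen D) {n : ℕ} {x : Fin n → ℂ}
    {CC : (ℕ → ℝ) → (ℕ → Fld) → (ℕ → Fin n → Face) → Prop}
    (hRC : ResConv (Om D x) x CC (QD D x)) (hcl : ClassOK (Om D x) x CC)
    (hne : ∃ a w V S, CS CC a w V S) : ∃ g, MacOut D x CC g := by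
  obtain ⟨g, r₀, F, hL, hG⟩ := mac_lim hRC hcl hne
  refine ⟨gE x g, ?_, ?_, ?_, ?_, ?_, ?_⟩
  · intro y hy c
    exact gE_isKer hD (hG y hy) c
  · intro y hy c d z hz hzy
    refine ext_eq hD (x := x) (gE_diff hD (hG y hy) (c + d)).continuousOn
      ((gE_diff hD (hG y hy) c).continuousOn.add (gE_diff hD (hG y hy) d).continuousOn) ?_ z hz hzy
    intro u hu huy
    show gE x g y (c + d) u = gE x g y c u + gE x g y d u
    rw [gE_of g y _ hu.2, gE_of g y _ hu.2, gE_of g y _ hu.2]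
    exact hL.add y hy c d u hu huy
  · intro y hy s c z hz hzy
    refine ext_eq hD (x := x) (gE_diff hD (hG y hy) (s * c)).continuousOn
      (continuousOn_const.mul (gE_diff hD (hG y hy) c).continuousOn) ?_ z hz hzy
    intro u hu huy
    show gE x g y (s * c) u = s * gE x g y c u
    rw [gE_of g y _ hu.2, gE_of g y _ hu.2]
    exact hL.smul y hy s c u hu huy
  · intro a w V hC S hS z hz z' hz' hzz f f' hf hf' i i'
    rw [kerB_gE hz.2]
    exact hL.off a w V hC S hS z hz z' hz' hzz f f' hf hf' i i'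
  · intro a w V hC S hS z hz f f' hf hf' i i'
    rw [kerR_gE hz.2]
    exact hL.diag a w V hC S hS z hz f f' hf hf' i i'
  · exact hL.bdd

/-- **MAC for a domain** -/
theorem mac_out {D : Set ℂ} (hD : IsOpen D) {n : ℕ} {x : Fin n → ℂ}
    (h : MacIx610.ResConv' D x) (hne : ∃ a w V S, CS (LatSeq D x) a w V S) :
    ∃ g, MacOut D x (LatSeq D x) g :=
  mac_out' hD (resConv_of h) (classOK_latSeq hD x) hne

end Crest.Agent.R165.Mac7x622
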