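import Crest.Agent.R165.Rel1_943
import Crest.Agent.R165.Tr2_40
import Crest.Agent.R165.PotB_894

/-!
# Row 165 (S0250), M3: the gradient estimate `|∇Ψ| ≤ C |A Ψ|` in the plane
-/

set_option autoImplicit false

noncomputable section

namespace Crest.Agent.R165.MacC1x943

open Filter Topology MeasureTheory
open Crest.Agent.R165.Tr1x40 hiding sq2
open Crest.Agent.R165.Tr2x40
open Crest.Agent.R165.Lim2x943 (sq2)
open Crest.Agent.R165.Relx943 (N2 dif1 dif2 N2_shift)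
open Crest.Agent.R165.PotAx894 (FS lap)

/-- finitely supported field -/
def FSF (Ψ : Fld) : Prop := ∀ h, FS fun f => Ψ f h

theorem N2_eq {u : ℤ × ℤ → ℝ} (hu : FS u) : N2 u = ENNReal.ofReal (∑' f, u f ^ 2) := by
  unfold N2 sq2
  rw [ENNReal.ofReal_tsum_of_nonneg (fun _ => sq_nonneg _) hu.sq.summable]

theorem N2_unit1 (u : ℤ × ℤ → ℝ) {α : ℤ} (hα : |α| ≤ 1) :
    N2 (fun f => u (f + (α, 0)) - u f) ≤ N2 (dif1 u) := by
  have h : α = -1 ∨ α = 0 ∨ α = 1 := by rw [abs_le] at hα; omega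
  rcases h with rfl | rfl | rfl
  · rw [← N2_shift _ (1, 0)]
    have e : (fun f : ℤ × ℤ => u (f + (1, 0) + (-1, 0)) - u (f + (1, 0))) = fun f => -dif1 u f := by
      ext f
      simp only [dif1, Lim1x943.e1, add_assoc, Prod.mk_add_mk]
      norm_num
      rw [show ((0 : ℤ), (0 : ℤ)) = (0 : ℤ × ℤ) from rfl, add_zero]
    rw [e]
    unfold N2
    simp only [Lim2x943.sq2_neg, le_refl]
  · have e : (fun f : ℤ × ℤ => u (f + (0, 0)) - u f) = fun _ => 0 := by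
      ext f
      rw [show ((0 : ℤ), (0 : ℤ)) = (0 : ℤ × ℤ) from rfl, add_zero, sub_self]
    rw [e]
    simp [N2, sq2]
  · exact le_rfl

theorem N2_unit2 (u : ℤ × ℤ → ℝ) {β : ℤ} (hβ : |β| ≤ 1) :
    N2 (fun f => u (f + (0, β)) - u f) ≤ N2 (dif2 u) := by
  have h : β = -1 ∨ β = 0 ∨ β = 1 := by rw [abs_le] at hβ; omega
  rcases h with rfl | rfl | rfl
  · rw [← N2_shift _ (0, 1)]
    have e : (fun f : ℤ × ℤ => u (f + (0, 1) + (0, -1)) - u (f + (0, 1))) = fun f => -dif2 u f := by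
      ext f
      simp only [dif2, Lim1x943.e2, add_assoc, Prod.mk_add_mk]
      norm_num
      rw [show ((0 : ℤ), (0 : ℤ)) = (0 : ℤ × ℤ) from rfl, add_zero]
    rw [e]
    unfold N2
    simp only [Lim2x943.sq2_neg, le_refl]
  · have e : (fun f : ℤ × ℤ => u (f + (0, 0)) - u f) = fun _ => 0 := by
      ext f
      rw [show ((0 : ℤ), (0 : ℤ)) = (0 : ℤ × ℤ) from rfl, add_zero, sub_self]
    rw [e]
    simp [N2, sq2]
  · exact le_rfl

theorem N2_unit (u : ℤ × ℤ → ℝ) {α β : ℤ} (hα : |α| ≤ 1) (hβ : |β| ≤ 1) :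
    N2 (fun f => u (f + (α, β)) - u f) ≤ 2 * (N2 (dif1 u) + N2 (dif2 u)) := by
  have h1 := Relx943.N2_add_le (fun f => u (f + (0, β) + (α, 0)) - u (f + (0, β)))
    (fun f => u (f + (0, β)) - u f)
  have h2 : N2 (fun f => u (f + (0, β) + (α, 0)) - u (f + (0, β)))
      = N2 (fun f => u (f + (α, 0)) - u f) :=
    N2_shift (fun f => u (f + (α, 0)) - u f) (0, β)
  rw [h2] at h1
  have e : (fun f : ℤ × ℤ => u (f + (0, β) + (α, 0)) - u (f + (0, β))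
      + (u (f + (0, β)) - u f)) = fun f => u (f + (α, β)) - u f := by
    ext f
    simp [add_assoc]
  rw [e] at h1
  refine h1.trans ?_
  rw [mul_add]
  gcongr
  · exact N2_unit1 u hα
  · exact N2_unit2 u hβ

/-- the unit offsets -/
def T : Finset (ℤ × ℤ) := Finset.Icc (-1) 1 ×ˢ Finset.Icc (-1) 1

theorem mem_T {τ : ℤ × ℤ} : τ ∈ T ↔ |τ.1| ≤ 1 ∧ |τ.2| ≤ 1 := by
  simp [T, Finset.mem_product, Finset.mem_Icc, abs_le]

/-- crude bound of the adjugate -/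
theorem abs_B_le {ψ : Fld} {f : Face} {m : ℝ}
    (hm : ∀ a b : ℤ, |a| ≤ 1 → |b| ≤ 1 → ∀ k, |ψ (f.1 + a, f.2 + b) k| ≤ m) (h : Fin 4) :
    |B xc ψ f h| ≤ 16 * m := by
  have hx0 : 0 < xc := xc_pos
  have hx1 : xc < 1 / 2 := by
    have := xc_sq
    nlinarith
  have h00 : ∀ k, |ψ f k| ≤ m := fun k => by simpa using hm 0 0 (by norm_num) (by norm_num) k
  have h10 : ∀ k, |ψ (f.1 + 1, f.2) k| ≤ m := fun k => by
    simpa using hm 1 0 (by norm_num) (by norm_num) k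
  have hm0 : ∀ k, |ψ (f.1 - 1, f.2) k| ≤ m := fun k => by
    simpa [sub_eq_add_neg] using hm (-1) 0 (by norm_num) (by norm_num) k
  have h01 : ∀ k, |ψ (f.1, f.2 + 1) k| ≤ m := fun k => by
    simpa using hm 0 1 (by norm_num) (by norm_num) k
  have h0m : ∀ k, |ψ (f.1, f.2 - 1) k| ≤ m := fun k => by
    simpa [sub_eq_add_neg] using hm 0 (-1) (by norm_num) (by norm_num) k
  have h11 : ∀ k, |ψ (f.1 + 1, f.2 + 1) k| ≤ m := fun k =>
    hm 1 1 (by norm_num) (by norm_num) k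
  have h1m : ∀ k, |ψ (f.1 + 1, f.2 - 1) k| ≤ m := fun k => by
    simpa [sub_eq_add_neg] using hm 1 (-1) (by norm_num) (by norm_num) k
  have hm1 : ∀ k, |ψ (f.1 - 1, f.2 + 1) k| ≤ m := fun k => by
    simpa [sub_eq_add_neg] using hm (-1) 1 (by norm_num) (by norm_num) k
  have hmm : ∀ k, |ψ (f.1 - 1, f.2 - 1) k| ≤ m := fun k => by
    simpa [sub_eq_add_neg] using hm (-1) (-1) (by norm_num) (by norm_num) k
  have hm' : 0 ≤ m := (abs_nonneg _).trans (h00 0)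
  have mul : ∀ c t : ℝ, 0 ≤ c → c ≤ 1 → |t| ≤ m → -m ≤ c * t ∧ c * t ≤ m := by
    intro c t h0 h1 ht
    rw [abs_le] at ht
    constructor <;> nlinarith
  have c1 : (0 : ℝ) ≤ xc ∧ xc ≤ 1 := ⟨hx0.le, by linarith⟩
  have c2 : (0 : ℝ) ≤ xc ^ 2 ∧ xc ^ 2 ≤ 1 := ⟨by positivity, by nlinarith⟩
  have c3 : (0 : ℝ) ≤ xc + xc ^ 3 ∧ xc + xc ^ 3 ≤ 1 := by
    constructor
    · positivity
    · have : xc ^ 3 ≤ 1 / 8 := by
        calc xc ^ 3 ≤ (1 / 2 : ℝ) ^ 3 := by gcongr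
          _ = 1 / 8 := by norm_num
      linarith
  have c4 : (0 : ℝ) ≤ 1 - xc ^ 2 ∧ 1 - xc ^ 2 ≤ 1 := ⟨by linarith [c2.2], by linarith [c2.1]⟩
  have key : ∀ τ : Face, (∀ k, |ψ τ k| ≤ m) → ∀ k, (-m ≤ ψ τ k ∧ ψ τ k ≤ m) ∧
      (-m ≤ xc * ψ τ k ∧ xc * ψ τ k ≤ m) ∧ (-m ≤ xc ^ 2 * ψ τ k ∧ xc ^ 2 * ψ τ k ≤ m) ∧
      (-m ≤ (xc + xc ^ 3) * ψ τ k ∧ (xc + xc ^ 3) * ψ τ k ≤ m) ∧
      (-m ≤ (1 - xc ^ 2) * ψ τ k ∧ (1 - xc ^ 2) * ψ τ k ≤ m) := by
    intro τ hτ k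
    exact ⟨abs_le.1 (hτ k), mul _ _ c1.1 c1.2 (hτ k), mul _ _ c2.1 c2.2 (hτ k),
      mul _ _ c3.1 c3.2 (hτ k), mul _ _ c4.1 c4.2 (hτ k)⟩
  have k00 := key _ h00
  have k10 := key _ h10
  have km0 := key _ hm0
  have k01 := key _ h01
  have k0m := key _ h0m
  have k11 := key _ h11
  have k1m := key _ h1m
  have km1 := key _ hm1
  have kmm := key _ hmm
  rw [abs_le]
  fin_cases h
  · simp only [B]
    obtain ⟨-, a1, -⟩ := k10 0
    obtain ⟨-, a2, -⟩ := km0 0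
    obtain ⟨-, a3, -⟩ := km0 1
    obtain ⟨-, a4, -⟩ := k0m 1
    obtain ⟨-, -, a5, -⟩ := kmm 1
    obtain ⟨a6, -⟩ := k00 1
    obtain ⟨-, -, -, -, a7⟩ := k00 2
    obtain ⟨-, -, -, a8, -⟩ := k0m 2
    obtain ⟨-, -, a9, -⟩ := kmm 2
    obtain ⟨-, -, a10, -⟩ := k1m 2
    obtain ⟨-, a11, -⟩ := k10 3
    obtain ⟨-, a12, -⟩ := k0m 3
    obtain ⟨-, -, a13, -⟩ := k1m 3
    obtain ⟨a14, -⟩ := k00 3
    constructor <;> linarith [a1.1, a1.2, a2.1, a2.2, a3.1, a3.2, a4.1, a4.2, a5.1, a5.2, a6.1,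
      a6.2, a7.1, a7.2, a8.1, a8.2, a9.1, a9.2, a10.1, a10.2, a11.1, a11.2, a12.1, a12.2, a13.1,
      a13.2, a14.1, a14.2]
  · simp only [B]
    obtain ⟨a1, -⟩ := k00 0
    obtain ⟨-, a2, -⟩ := k01 0
    obtain ⟨-, a3, -⟩ := k10 0
    obtain ⟨-, -, a4, -⟩ := k11 0
    obtain ⟨-, a5, -⟩ := k01 1
    obtain ⟨-, a6, -⟩ := k0m 1
    obtain ⟨-, a7, -⟩ := k10 2
    obtain ⟨-, a8, -⟩ := k0m 2
    obtain ⟨-, -, a9, -⟩ := k1m 2
    obtain ⟨a10, -⟩ := k00 2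
    obtain ⟨-, -, -, -, a11⟩ := k00 3
    obtain ⟨-, -, -, a12, -⟩ := k10 3
    obtain ⟨-, -, a13, -⟩ := k11 3
    obtain ⟨-, -, a14, -⟩ := k1m 3
    constructor <;> linarith [a1.1, a1.2, a2.1, a2.2, a3.1, a3.2, a4.1, a4.2, a5.1, a5.2, a6.1,
      a6.2, a7.1, a7.2, a8.1, a8.2, a9.1, a9.2, a10.1, a10.2, a11.1, a11.2, a12.1, a12.2, a13.1,
      a13.2, a14.1, a14.2]
  · simp only [B]
    obtain ⟨-, -, -, -, a1⟩ := k00 0
    obtain ⟨-, -, -, a2, -⟩ := k01 0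
    obtain ⟨-, -, a3, -⟩ := km1 0
    obtain ⟨-, -, a4, -⟩ := k11 0
    obtain ⟨a5, -⟩ := k00 1
    obtain ⟨-, a6, -⟩ := km0 1
    obtain ⟨-, a7, -⟩ := k01 1
    obtain ⟨-, -, a8, -⟩ := km1 1
    obtain ⟨-, a9, -⟩ := km0 2
    obtain ⟨-, a10, -⟩ := k10 2
    obtain ⟨-, a11, -⟩ := k01 3
    obtain ⟨-, a12, -⟩ := k10 3
    obtain ⟨-, -, a13, -⟩ := k11 3
    obtain ⟨a14, -⟩ := k00 3
    constructor <;> linarith [a1.1, a1.2, a2.1, a2.2, a3.1, a3.2, a4.1, a4.2, a5.1, a5.2, a6.1,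
      a6.2, a7.1, a7.2, a8.1, a8.2, a9.1, a9.2, a10.1, a10.2, a11.1, a11.2, a12.1, a12.2, a13.1,
      a13.2, a14.1, a14.2]
  · simp only [B]
    obtain ⟨a1, -⟩ := k00 0
    obtain ⟨-, a2, -⟩ := km0 0
    obtain ⟨-, a3, -⟩ := k01 0
    obtain ⟨-, -, a4, -⟩ := km1 0
    obtain ⟨-, -, -, -, a5⟩ := k00 1
    obtain ⟨-, -, -, a6, -⟩ := km0 1
    obtain ⟨-, -, a7, -⟩ := km1 1
    obtain ⟨-, -, a8, -⟩ := kmm 1
    obtain ⟨a9, -⟩ := k00 2
    obtain ⟨-, a10, -⟩ := km0 2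
    obtain ⟨-, a11, -⟩ := k0m 2
    obtain ⟨-, -, a12, -⟩ := kmm 2
    obtain ⟨-, a13, -⟩ := k0m 3
    obtain ⟨-, a14, -⟩ := k01 3
    constructor <;> linarith [a1.1, a1.2, a2.1, a2.2, a3.1, a3.2, a4.1, a4.2, a5.1, a5.2, a6.1,
      a6.2, a7.1, a7.2, a8.1, a8.2, a9.1, a9.2, a10.1, a10.2, a11.1, a11.2, a12.1, a12.2, a13.1,
      a13.2, a14.1, a14.2]

/-- `B` only sees differences -/
theorem abs_B_le_diff (ψ : Fld) (f : Face) (h : Fin 4) :
    |B xc ψ f h| ≤ 16 * ∑ p ∈ T ×ˢ (Finset.univ : Finset (Fin 4)), |ψ (f + p.1) p.2 - ψ f p.2| := by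
  have e : B xc ψ f h = B xc (fun f' k => ψ f' k - ψ f k) f h := by
    have h1 := B_add xc (fun f' k => ψ f' k - ψ f k) (fun _ => ψ f) f h
    rw [B_const, add_zero] at h1
    rw [← h1]
    congr 1
    ext f' k
    ring
  rw [e]
  refine abs_B_le (fun a b ha hb k => ?_) h
  have := Finset.single_le_sum (f := fun p : (ℤ × ℤ) × Fin 4 => |ψ (f + p.1) p.2 - ψ f p.2|)
    (s := T ×ˢ (Finset.univ : Finset (Fin 4))) (fun _ _ => abs_nonneg _)
    (a := ((a, b), k)) (by simp [mem_T, ha, hb])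
  exact this

theorem N2_B_le (ψ : Fld) (h : Fin 4) :
    N2 (fun f => B xc ψ f h) ≤ 165888 * ∑ k, (N2 (dif1 fun f => ψ f k) + N2 (dif2 fun f => ψ f k)) := by
  have h1 : ∀ f, sq2 (B xc ψ f h) ≤ 256 * (36 * ∑ p ∈ T ×ˢ (Finset.univ : Finset (Fin 4)),
      sq2 (ψ (f + p.1) p.2 - ψ f p.2)) := by
    intro f
    have h2 := abs_B_le_diff ψ f h
    have h3 := Relx943.sq2_sum_le (T ×ˢ (Finset.univ : Finset (Fin 4)))
      fun p => |ψ (f + p.1) p.2 - ψ f p.2|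
    have hcard : ((T ×ˢ (Finset.univ : Finset (Fin 4))).card : ENNReal) = 36 := by
      have : (T ×ˢ (Finset.univ : Finset (Fin 4))).card = 36 := by
        simp [T]
      rw [this]; norm_num
    rw [hcard] at h3
    have h4 : sq2 (B xc ψ f h) ≤ sq2 (16 * ∑ p ∈ T ×ˢ (Finset.univ : Finset (Fin 4)),
        |ψ (f + p.1) p.2 - ψ f p.2|) := Lim2x943.sq2_le_of_abs_le h2
    rw [Relx943.sq2_mul] at h4
    have h5 : sq2 16 = 256 := by
      unfold sq2; norm_num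
    rw [h5] at h4
    refine h4.trans ?_
    gcongr
    refine h3.trans ?_
    gcongr with p hp
    unfold sq2
    rw [sq_abs]
  calc N2 (fun f => B xc ψ f h) ≤ ∑' f, 256 * (36 * ∑ p ∈ T ×ˢ (Finset.univ : Finset (Fin 4)),
        sq2 (ψ (f + p.1) p.2 - ψ f p.2)) := ENNReal.tsum_le_tsum h1
    _ = 256 * (36 * ∑ p ∈ T ×ˢ (Finset.univ : Finset (Fin 4)),
        N2 (fun f => ψ (f + p.1) p.2 - ψ f p.2)) := by
        rw [ENNReal.tsum_mul_left, ENNReal.tsum_mul_left]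
        unfold N2
        rw [Summable.tsum_finsetSum fun _ _ => ENNReal.summable]
    _ ≤ 256 * (36 * ∑ p ∈ T ×ˢ (Finset.univ : Finset (Fin 4)),
        2 * (N2 (dif1 fun f => ψ f p.2) + N2 (dif2 fun f => ψ f p.2))) := by
        gcongr with p hp
        rw [Finset.mem_product, mem_T] at hp
        exact N2_unit (fun f => ψ f p.2) hp.1.1 hp.1.2
    _ = 165888 * ∑ k, (N2 (dif1 fun f => ψ f k) + N2 (dif2 fun f => ψ f k)) := by
        rw [Finset.sum_product]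
        have hc : (T.card : ENNReal) = 9 := by
          have : T.card = 9 := by simp [T]
          rw [this]; norm_num
        simp only [Finset.sum_const, nsmul_eq_mul, hc, ← Finset.mul_sum]
        ring

/-- total energy of a field -/
def EN (ψ : Fld) : ENNReal := ∑ k, (N2 (dif1 fun f => ψ f k) + N2 (dif2 fun f => ψ f k))

theorem exists_Q (S : Finset Face) : ∃ N : ℕ, ∀ f ∈ S, f ∈ PotAx894.Q 0 N := by
  classical
  refine ⟨S.sup fun f => f.1.natAbs + f.2.natAbs, fun f hf => ?_⟩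
  have h := Finset.le_sup (f := fun f : Face => f.1.natAbs + f.2.natAbs) hf
  rw [PotAx894.mem_Q]
  simp only [Prod.fst_zero, sub_zero, Prod.snd_zero, Int.abs_eq_natAbs]
  constructor <;> omega

theorem FSF.exists_Q {Ψ : Fld} (hΨ : FSF Ψ) : ∃ N : ℕ, ∀ f, f ∉ PotAx894.Q 0 N → ∀ h, Ψ f h = 0 := by
  classical
  have hfin : (⋃ h, Function.support fun f => Ψ f h).Finite := Set.finite_iUnion fun h => hΨ h
  obtain ⟨N, hN⟩ := MacC1x943.exists_Q hfin.toFinset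
  refine ⟨N, fun f hf h => ?_⟩
  by_contra hc
  exact hf (hN f (by rw [Set.Finite.mem_toFinset]; exact Set.mem_iUnion.2 ⟨h, hc⟩))

theorem Lap_eq (ψ : Fld) (f : Face) (h : Fin 4) : Lap ψ f h = -lap (fun f => ψ f h) f := by
  obtain ⟨i, j⟩ := f
  simp [Lap, lap, PotAx894.e1, PotAx894.e2]

/-- energy of a finitely supported field, real version -/
def ER (ψ : Fld) : ℝ :=
  ∑ k, ∑' f, (PotAx894.D1 (fun f => ψ f k) f ^ 2 + PotAx894.D2 (fun f => ψ f k) f ^ 2)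

theorem EN_eq {ψ : Fld} (hψ : FSF ψ) : EN ψ = ENNReal.ofReal (ER ψ) := by
  unfold EN ER
  rw [ENNReal.ofReal_sum_of_nonneg fun k _ => tsum_nonneg fun f => by positivity]
  refine Finset.sum_congr rfl fun k _ => ?_
  rw [show dif1 (fun f => ψ f k) = PotAx894.D1 (fun f => ψ f k) from rfl,
    show dif2 (fun f => ψ f k) = PotAx894.D2 (fun f => ψ f k) from rfl, N2_eq (hψ k).D1,
    N2_eq (hψ k).D2, ← ENNReal.ofReal_add (tsum_nonneg fun _ => sq_nonneg _)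
      (tsum_nonneg fun _ => sq_nonneg _), ← (hψ k).D1.sq.summable.tsum_add (hψ k).D2.sq.summable]

theorem ER_nonneg (ψ : Fld) : 0 ≤ ER ψ :=
  Finset.sum_nonneg fun _ _ => tsum_nonneg fun _ => by positivity

theorem energy_eq {ψ : Fld} (hψ : FSF ψ) {K : Finset Face} (hK : ∀ f, f ∉ K → ∀ h, ψ f h = 0) :
    ∑ f ∈ K, ∑ h, ψ f h * Lap ψ f h = ER ψ := by
  rw [Finset.sum_comm]
  unfold ER
  refine Finset.sum_congr rfl fun h _ => ?_
  have h1 := PotAx894.tsum_mul_lap (hψ h) fun f => ψ f h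
  rw [tsum_eq_sum (s := K) (fun f hf => by rw [hK f hf h, zero_mul])] at h1
  have h2 : ∑ f ∈ K, ψ f h * Lap ψ f h = -∑ f ∈ K, ψ f h * lap (fun f => ψ f h) f := by
    rw [← Finset.sum_neg_distrib]
    exact Finset.sum_congr rfl fun f _ => by rw [Lap_eq]; ring
  rw [h2, h1, neg_neg]
  exact tsum_congr fun f => by ring

theorem ofReal_sum_sq_le (ψ : Fld) (K : Finset Face) :
    ENNReal.ofReal (∑ f ∈ K, ∑ h, ψ f h ^ 2) ≤ ∑ h, N2 fun f => ψ f h := by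
  rw [Finset.sum_comm, ENNReal.ofReal_sum_of_nonneg fun _ _ => Finset.sum_nonneg fun _ _ =>
    sq_nonneg _]
  refine Finset.sum_le_sum fun h _ => ?_
  rw [ENNReal.ofReal_sum_of_nonneg fun _ _ => sq_nonneg _]
  exact ENNReal.sum_le_tsum (f := fun f => sq2 (ψ f h)) K

/-- the constant of the gradient estimate -/
def CG : ℝ := 663552 / c0 ^ 2

theorem CG_pos : 0 < CG := by unfold CG; have := c0_pos; positivity

/-- **gradient estimate** in the plane -/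
theorem grad_le {Ψ : Fld} (hΨ : FSF Ψ) :
    EN Ψ ≤ ENNReal.ofReal CG * ∑ h, N2 fun f => A (cst xc) Ψ f h := by
  obtain ⟨N, hN⟩ := hΨ.exists_Q
  set K := PotAx894.Q 0 (N + 1) with hK
  have hK0 : ∀ f, f ∉ K → ∀ h, Ψ f h = 0 := fun f hf h =>
    hN f (fun hc => hf (PotAx894.Q_mono (Nat.le_succ N) hc)) h
  have hK1 : ∀ f, f ∉ K → ∀ h, cst xc f h * Ψ (nb f h) (op h) = 0 := by
    intro f hf h
    rw [hN (nb f h) (fun hc => hf ?_), mul_zero]
    rw [hK]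
    rw [PotAx894.mem_Q] at hc ⊢
    simp only [Prod.fst_zero, sub_zero, Prod.snd_zero, abs_le] at hc ⊢
    push_cast
    fin_cases h <;> simp only [nb] at hc <;> constructor <;> constructor <;> omega
  have h1 := A_antisymm (sym_cst xc) Ψ (B xc Ψ) K hK0 hK1
  have h2 : ∑ f ∈ K, ∑ h, Ψ f h * A (cst xc) (B xc Ψ) f h = c0 * ER Ψ := by
    rw [← energy_eq hΨ hK0, Finset.mul_sum]
    refine Finset.sum_congr rfl fun f _ => ?_
    rw [Finset.mul_sum]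
    exact Finset.sum_congr rfl fun h _ => by rw [A_B_xc]; ring
  rw [h2] at h1
  set X : ℝ := ∑ f ∈ K, ∑ h, A (cst xc) Ψ f h ^ 2 with hX
  set Y : ℝ := ∑ f ∈ K, ∑ h, B xc Ψ f h ^ 2 with hY
  have hX0 : 0 ≤ X := Finset.sum_nonneg fun _ _ => Finset.sum_nonneg fun _ _ => sq_nonneg _
  have hY0 : 0 ≤ Y := Finset.sum_nonneg fun _ _ => Finset.sum_nonneg fun _ _ => sq_nonneg _
  have h3 : (c0 * ER Ψ) ^ 2 ≤ X * Y := by
    rw [h1, neg_sq, hX, hY, ← Finset.sum_product', ← Finset.sum_product', ← Finset.sum_product']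
    exact Finset.sum_mul_sq_le_sq_mul_sq _ _ _
  have h4 : Y ≤ 663552 * ER Ψ := by
    have h5 := ofReal_sum_sq_le (B xc Ψ) K
    have h6 : ∑ h, N2 (fun f => B xc Ψ f h) ≤ ENNReal.ofReal (663552 * ER Ψ) := by
      calc ∑ h, N2 (fun f => B xc Ψ f h) ≤ ∑ h : Fin 4, 165888 * EN Ψ :=
            Finset.sum_le_sum fun h _ => N2_B_le Ψ h
        _ = 663552 * EN Ψ := by
            rw [Finset.sum_const, Finset.card_univ, Fintype.card_fin, nsmul_eq_mul]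
            norm_num
            rw [← mul_assoc]
            norm_num
        _ = ENNReal.ofReal (663552 * ER Ψ) := by
            rw [EN_eq hΨ, ENNReal.ofReal_mul (by norm_num)]
            norm_num
    exact (ENNReal.ofReal_le_ofReal_iff (mul_nonneg (by norm_num) (ER_nonneg Ψ))).1 (h5.trans h6)
  have h7 : ER Ψ ≤ CG * X := by
    have hE := ER_nonneg Ψ
    have hc := c0_pos
    rcases hE.eq_or_lt with h0 | h0
    · rw [← h0]; exact mul_nonneg CG_pos.le hX0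
    · have h8 : c0 ^ 2 * ER Ψ ^ 2 ≤ X * (663552 * ER Ψ) := by
        calc c0 ^ 2 * ER Ψ ^ 2 = (c0 * ER Ψ) ^ 2 := by ring
          _ ≤ X * Y := h3
          _ ≤ X * (663552 * ER Ψ) := by gcongr
      have h9 : c0 ^ 2 * ER Ψ ≤ 663552 * X := by
        have : (c0 ^ 2 * ER Ψ) * ER Ψ ≤ (663552 * X) * ER Ψ := by nlinarith
        exact le_of_mul_le_mul_right this h0
      rw [CG, div_mul_eq_mul_div, le_div_iff₀ (by positivity)]
      linarith
  rw [EN_eq hΨ]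
  calc ENNReal.ofReal (ER Ψ) ≤ ENNReal.ofReal (CG * X) := ENNReal.ofReal_le_ofReal h7
    _ = ENNReal.ofReal CG * ENNReal.ofReal X := ENNReal.ofReal_mul CG_pos.le
    _ ≤ _ := by
      gcongr
      exact ofReal_sum_sq_le (A (cst xc) Ψ) K

end Crest.Agent.R165.MacC1x943
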