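import Crest.Agent.R165.MacC1_943
import Crest.Agent.R165.Mac1_622

/-!
# Row 165 (S0250), M3: local strong compactness with sources
-/

set_option autoImplicit false

noncomputable section

namespace Crest.Agent.R165.MacC2x943

open Filter Topology MeasureTheory
open Crest.ProbabilityR.IsingModel
open Crest.Agent.R165.Tr1x40 hiding sq2
open Crest.Agent.R165.Tr2x40
open Crest.Agent.R165.RIfx891 (lv)
open Crest.Agent.R165.Mac0x622 Crest.Agent.R165.Mac1x622
open Crest.Agent.R165.Lim2x943 (sq2)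
open Crest.Agent.R165.Relx943 (N2 dif1 dif2 N2_shift)
open Crest.Agent.R165.PotAx894 (FS lap)
open Crest.Agent.R165.Embx622 (emb)
open Crest.Agent.R165.MacC1x943

theorem N2_le_of_finset {a C : ℝ} {u : Face → ℝ}
    (h : ∀ S : Finset Face, a ^ 2 * ∑ f ∈ S, u f ^ 2 ≤ C) :
    ENNReal.ofReal (a ^ 2) * N2 u ≤ ENNReal.ofReal C := by
  unfold N2
  rw [← ENNReal.tsum_mul_left, ENNReal.tsum_eq_iSup_sum]
  refine iSup_le fun S => ?_
  rw [← Finset.mul_sum]
  unfold sq2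
  rw [← ENNReal.ofReal_sum_of_nonneg fun _ _ => sq_nonneg _, ← ENNReal.ofReal_mul (sq_nonneg a)]
  exact ENNReal.ofReal_le_ofReal (h S)

theorem N2_le_of_nsq {a C : ℝ} {φ : Fld}
    (h : ∀ S : Finset Face, a ^ 2 * ∑ f ∈ S, nsq (φ f) ≤ C) (k : Fin 4) :
    ENNReal.ofReal (a ^ 2) * N2 (fun f => φ f k) ≤ ENNReal.ofReal C := by
  refine N2_le_of_finset fun S => le_trans ?_ (h S)
  gcongr with f hf
  exact Finset.single_le_sum (f := fun b => φ f b ^ 2) (fun _ _ => sq_nonneg _)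
    (Finset.mem_univ k)

/-- offsets of the neighbours -/
def off (h : Fin 4) : ℤ × ℤ :=
  match h with
  | 0 => (0, -1)
  | 1 => (1, 0)
  | 2 => (0, 1)
  | 3 => (-1, 0)

theorem nb_eq (f : Face) (h : Fin 4) : nb f h = f + off h := by
  obtain ⟨i, j⟩ := f
  fin_cases h <;> simp [nb, off, sub_eq_add_neg]

theorem N2_nb (u : Face → ℝ) (h : Fin 4) : N2 (fun f => u (nb f h)) = N2 u := by
  simp_rw [nb_eq]
  exact N2_shift u (off h)

theorem N2_mono {u v : Face → ℝ} (h : ∀ f, |u f| ≤ |v f|) : N2 u ≤ N2 v := by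
  refine ENNReal.tsum_le_tsum fun f => ?_
  have := Lim2x943.sq2_le_of_abs_le (h f)
  unfold sq2 at this ⊢
  rwa [sq_abs] at this

/-- the cut-off -/
def cut (z₀ : ℂ) (ρ : ℝ) (z : ℂ) : ℝ := max 0 (min 1 (2 - 3 * ‖z - z₀‖ / ρ))

theorem cut_nonneg (z₀ : ℂ) (ρ : ℝ) (z : ℂ) : 0 ≤ cut z₀ ρ z := le_max_left _ _

theorem cut_le_one (z₀ : ℂ) (ρ : ℝ) (z : ℂ) : cut z₀ ρ z ≤ 1 :=
  max_le zero_le_one (min_le_left _ _)

theorem cut_one {z₀ : ℂ} {ρ : ℝ} (hρ : 0 < ρ) {z : ℂ} (h : ‖z - z₀‖ ≤ ρ / 3) : cut z₀ ρ z = 1 := by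
  unfold cut
  have : 3 * ‖z - z₀‖ / ρ ≤ 1 := by rw [div_le_one hρ]; linarith
  rw [min_eq_left (by linarith), max_eq_right zero_le_one]

theorem cut_zero {z₀ : ℂ} {ρ : ℝ} (hρ : 0 < ρ) {z : ℂ} (h : 2 * ρ / 3 ≤ ‖z - z₀‖) :
    cut z₀ ρ z = 0 := by
  unfold cut
  have : 2 ≤ 3 * ‖z - z₀‖ / ρ := by rw [le_div_iff₀ hρ]; linarith
  rw [max_eq_left]
  exact (min_le_right _ _).trans (by linarith)

theorem cut_lip {z₀ : ℂ} {ρ : ℝ} (hρ : 0 < ρ) (z w : ℂ) :
    |cut z₀ ρ z - cut z₀ ρ w| ≤ 3 / ρ * ‖z - w‖ := by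
  have h1 : |‖z - z₀‖ - ‖w - z₀‖| ≤ ‖z - w‖ := by
    have := abs_norm_sub_norm_le (z - z₀) (w - z₀)
    rwa [sub_sub_sub_cancel_right] at this
  have h2 : |(2 - 3 * ‖z - z₀‖ / ρ) - (2 - 3 * ‖w - z₀‖ / ρ)| ≤ 3 / ρ * ‖z - w‖ := by
    have : (2 - 3 * ‖z - z₀‖ / ρ) - (2 - 3 * ‖w - z₀‖ / ρ) = -(3 / ρ * (‖z - z₀‖ - ‖w - z₀‖)) := by
      ring
    rw [this, abs_neg, abs_mul, abs_of_pos (by positivity : 0 < 3 / ρ)]
    gcongr
  unfold cut
  refine (abs_max_sub_max_le_max _ _ _ _).trans (max_le ?_ ?_)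
  · simp; positivity
  · refine (abs_min_sub_min_le_max _ _ _ _).trans (max_le ?_ h2)
    simp; positivity

theorem norm_mesh_nb {a : ℝ} (ha : 0 < a) (f : Face) (h : Fin 4) :
    ‖meshPoint a (nb f h) - meshPoint a f‖ ≤ 2 * a := by
  rw [nb_eq]
  fin_cases h
  · exact mesh_add_sub ha f (b := 0) (c := -1) (by norm_num) (by norm_num)
  · exact mesh_add_sub ha f (b := 1) (c := 0) (by norm_num) (by norm_num)
  · exact mesh_add_sub ha f (b := 0) (c := 1) (by norm_num) (by norm_num)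
  · exact mesh_add_sub ha f (b := -1) (c := 0) (by norm_num) (by norm_num)

/-- the localised gauged field -/
def loc {n : ℕ} (x : Fin n → ℂ) (z₀ : ℂ) (ρ a : ℝ) (V : Fin n → Face) (φ : Fld) : Fld :=
  fun f h => cut z₀ ρ (meshPoint a f) * (gz x z₀ V f * φ f h)

theorem abs_loc_le {n : ℕ} (x : Fin n → ℂ) (z₀ : ℂ) (ρ a : ℝ) (V : Fin n → Face) (φ : Fld)
    (f : Face) (h : Fin 4) : |loc x z₀ ρ a V φ f h| ≤ |φ f h| := by
  unfold loc
  rw [abs_mul, abs_mul, gz_abs, one_mul, abs_of_nonneg (cut_nonneg _ _ _)]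
  have := cut_le_one z₀ ρ (meshPoint a f)
  have h2 := abs_nonneg (φ f h)
  nlinarith

/-- pointwise bound of `A` on the localised field -/
theorem A_loc_le {n : ℕ} {x : Fin n → ℂ} {z₀ : ℂ} {ρ a : ℝ} (hρ : 0 < ρ) (ha : 0 < a)
    (haρ : 6 * a ≤ ρ) {V : Fin n → Face} {w φ g : Fld}
    (hw : ∀ f : Face, ‖meshPoint a f - z₀‖ < ρ → ∀ h,
      w f h = xc * (gz x z₀ V f * gz x z₀ V (nb f h)))
    (heq : ∀ f h, A w φ f h = a * g f h) (f : Face) (h : Fin 4) :
    |A (cst xc) (loc x z₀ ρ a V φ) f h| ≤ a * |g f h| + 6 / ρ * a * |φ (nb f h) (op h)| := by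
  have hnb := norm_mesh_nb ha f h
  have hrhs : 0 ≤ a * |g f h| + 6 / ρ * a * |φ (nb f h) (op h)| := by positivity
  have e := A_cut (cst xc) (fun f => cut z₀ ρ (meshPoint a f)) (fun f h => gz x z₀ V f * φ f h) f h
  change A (cst xc) (loc x z₀ ρ a V φ) f h = _ at e
  rw [e]
  by_cases hf : ‖meshPoint a f - z₀‖ < ρ
  · have h1 : A (cst xc) (fun f h => gz x z₀ V f * φ f h) f h = gz x z₀ V f * (a * g f h) := by
      rw [← heq, ← A_gauge (gz x z₀ V) w φ f h (gz_sq _ _ _ _)]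
      apply A_congr
      simp only [cst, gw]
      rw [hw f hf h]
      have h1 := gz_sq x z₀ V f
      have h2 := gz_sq x z₀ V (nb f h)
      linear_combination (-xc * gz x z₀ V (nb f h) ^ 2) * h1 - xc * h2
    rw [h1]
    have h2 : |cut z₀ ρ (meshPoint a f) * (gz x z₀ V f * (a * g f h))| ≤ a * |g f h| := by
      rw [abs_mul, abs_mul, gz_abs, one_mul, abs_mul, abs_of_pos ha,
        abs_of_nonneg (cut_nonneg _ _ _)]
      have := cut_le_one z₀ ρ (meshPoint a f)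
      have h2 : 0 ≤ a * |g f h| := by positivity
      nlinarith
    have h3 : |sg h * cst xc f h * ((cut z₀ ρ (meshPoint a (nb f h)) - cut z₀ ρ (meshPoint a f)) *
        (gz x z₀ V (nb f h) * φ (nb f h) (op h)))| ≤ 6 / ρ * a * |φ (nb f h) (op h)| := by
      rw [abs_mul, abs_mul, abs_mul, abs_mul (gz x z₀ V (nb f h)), gz_abs, one_mul]
      have hs : |sg h| = 1 := by fin_cases h <;> simp [sg]
      have hx : |cst xc f h| ≤ 1 := by
        unfold cst
        rw [abs_of_pos xc_pos]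
        have := xc_sq
        have := xc_pos
        nlinarith
      have hc := cut_lip (z₀ := z₀) hρ (meshPoint a (nb f h)) (meshPoint a f)
      have hc2 : |cut z₀ ρ (meshPoint a (nb f h)) - cut z₀ ρ (meshPoint a f)| ≤ 6 / ρ * a := by
        refine hc.trans ?_
        calc 3 / ρ * ‖meshPoint a (nb f h) - meshPoint a f‖ ≤ 3 / ρ * (2 * a) := by gcongr
          _ = 6 / ρ * a := by ring
      rw [hs, one_mul]
      calc |cst xc f h| * (|cut z₀ ρ (meshPoint a (nb f h)) - cut z₀ ρ (meshPoint a f)| *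
            |φ (nb f h) (op h)|)
          ≤ 1 * (6 / ρ * a * |φ (nb f h) (op h)|) := by gcongr
        _ = _ := one_mul _
    exact (abs_add_le _ _).trans (add_le_add h2 h3)
  · push Not at hf
    have hc1 : cut z₀ ρ (meshPoint a f) = 0 := cut_zero hρ (by linarith)
    have hc2 : cut z₀ ρ (meshPoint a (nb f h)) = 0 := by
      refine cut_zero hρ ?_
      have h1 : ‖meshPoint a f - z₀‖ ≤ ‖meshPoint a (nb f h) - z₀‖
          + ‖meshPoint a (nb f h) - meshPoint a f‖ := by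
        have := norm_sub_le (meshPoint a (nb f h) - z₀) (meshPoint a (nb f h) - meshPoint a f)
        rw [sub_sub_sub_cancel_left] at this
        have e2 : meshPoint a f - z₀ = (meshPoint a (nb f h) - z₀)
          - (meshPoint a (nb f h) - meshPoint a f) := by ring
        rw [e2]
        exact norm_sub_le _ _
      linarith
    rw [hc1, hc2]
    simpa using hrhs

/-- `l²` bound of `A` on the localised field -/
theorem N2_A_loc {n : ℕ} {x : Fin n → ℂ} {z₀ : ℂ} {ρ a : ℝ} (hρ : 0 < ρ) (ha : 0 < a)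
    (haρ : 6 * a ≤ ρ) {V : Fin n → Face} {w φ g : Fld}
    (hw : ∀ f : Face, ‖meshPoint a f - z₀‖ < ρ → ∀ h,
      w f h = xc * (gz x z₀ V f * gz x z₀ V (nb f h)))
    (heq : ∀ f h, A w φ f h = a * g f h) (h : Fin 4) :
    N2 (fun f => A (cst xc) (loc x z₀ ρ a V φ) f h) ≤
      2 * (ENNReal.ofReal (a ^ 2) * N2 fun f => g f h) +
      2 * (ENNReal.ofReal ((6 / ρ) ^ 2) * (ENNReal.ofReal (a ^ 2) * N2 fun f => φ f (op h))) := by
  have h1 : N2 (fun f => A (cst xc) (loc x z₀ ρ a V φ) f h) ≤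
      N2 (fun f => a * |g f h| + 6 / ρ * a * |φ (nb f h) (op h)|) := by
    refine N2_mono fun f => ?_
    rw [abs_of_nonneg (by positivity : 0 ≤ a * |g f h| + 6 / ρ * a * |φ (nb f h) (op h)|)]
    exact A_loc_le hρ ha haρ hw heq f h
  refine h1.trans ((Relx943.N2_add_le _ _).trans ?_)
  have habs : ∀ u : Face → ℝ, N2 (fun f => |u f|) = N2 u := by
    intro u
    unfold N2 sq2
    simp only [sq_abs]
  have e1 : N2 (fun f => a * |g f h|) = ENNReal.ofReal (a ^ 2) * N2 fun f => g f h := by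
    rw [Relx943.N2_mul_left, habs fun f => g f h]
    rfl
  have e2 : N2 (fun f => 6 / ρ * a * |φ (nb f h) (op h)|)
      = ENNReal.ofReal ((6 / ρ) ^ 2) * (ENNReal.ofReal (a ^ 2) * N2 fun f => φ f (op h)) := by
    rw [Relx943.N2_mul_left (6 / ρ * a) fun f => |φ (nb f h) (op h)|,
      habs fun f => φ (nb f h) (op h), N2_nb (fun f => φ f (op h)) h]
    unfold sq2
    rw [mul_pow, ENNReal.ofReal_mul (sq_nonneg _), mul_assoc]
  rw [e1, e2]

end Crest.Agent.R165.MacC2x943
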