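import Crest.Agent.R165.MacNC_917
import Crest.Agent.R165.MacI_610

/-!
# Row 165 (S0250), U4/MAC (helper917): `BddNC D` of the interface `MacI_610`

`bddNC` : for every bounded open `D` with `volume (frontier D) = 0`.
-/

set_option autoImplicit false

noncomputable section

open MeasureTheory Filter Topology Set Metric
open Crest.ProbabilityR.IsingModel
open Crest.Agent.R165.Tr1x40 Crest.Agent.R165.RIfx891 Crest.Agent.R165.Embx622
open Crest.Agent.R165.Mac0x622 Crest.Agent.R165.MacNCx917 Crest.Agent.R165.MacIx610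

namespace Crest.Agent.R165.MacNC2x917

/-- the scaled mass on a finite set is at most the integral -/
theorem mass_lintegral {a : ℝ} (ha : 0 < a) (u : Face → ℝ) (S : Finset Face) :
    ENNReal.ofReal (a ^ 2 * ∑ f ∈ S, u f ^ 2) ≤ ∫⁻ z, ENNReal.ofReal (emb a u z ^ 2) := by
  have h1 : (∫⁻ z, ENNReal.ofReal (emb a u z ^ 2)) =
      ENNReal.ofReal (a ^ 2) * ∑' f, ENNReal.ofReal (u f ^ 2) :=
    lintegral_emb ha fun f => ENNReal.ofReal (u f ^ 2)
  rw [h1, ENNReal.ofReal_mul (sq_nonneg a), ENNReal.ofReal_sum_of_nonneg fun f _ => sq_nonneg _]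
  gcongr
  exact ENNReal.sum_le_tsum S

/-- `L²` convergence bounds the scaled mass -/
theorem mass_bd {a : ℕ → ℝ} (hpos : ∀ k, 0 < a k) {u : ℕ → Face → ℝ} {G : ℂ → ℝ}
    (hG : MemLp G 2)
    (hc : Tendsto (fun k => ∫⁻ z, ENNReal.ofReal ((emb (a k) (u k) z - G z) ^ 2)) atTop (𝓝 0)) :
    ∃ C : ℝ, 0 ≤ C ∧ ∀ᶠ k in atTop, ∀ S : Finset Face, a k ^ 2 * ∑ f ∈ S, u k f ^ 2 ≤ C := by
  have hGi : (∫⁻ z, ENNReal.ofReal (G z ^ 2)) < ⊤ := by
    have h1 := (memLp_two_iff_integrable_sq hG.1).1 hG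
    have h2 := h1.lintegral_lt_top
    exact h2
  set I := ∫⁻ z, ENNReal.ofReal (G z ^ 2) with hI
  have hGm : AEMeasurable (fun z => (2 : ENNReal) * ENNReal.ofReal (G z ^ 2)) volume :=
    ((hG.1.aemeasurable.pow_const 2).ennreal_ofReal).const_mul _
  refine ⟨(2 * 1 + 2 * I).toReal, ENNReal.toReal_nonneg, ?_⟩
  filter_upwards [hc.eventually (eventually_le_nhds (show (0 : ENNReal) < 1 by norm_num))]
    with k hk S
  have h1 : (∫⁻ z, ENNReal.ofReal (emb (a k) (u k) z ^ 2)) ≤ 2 * 1 + 2 * I := by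
    calc (∫⁻ z, ENNReal.ofReal (emb (a k) (u k) z ^ 2))
        ≤ ∫⁻ z, (2 * ENNReal.ofReal ((emb (a k) (u k) z - G z) ^ 2) +
          2 * ENNReal.ofReal (G z ^ 2)) := by
          refine lintegral_mono fun z => ?_
          simp only
          rw [show (2 : ENNReal) = ENNReal.ofReal 2 by simp, ← ENNReal.ofReal_mul (by norm_num),
            ← ENNReal.ofReal_mul (by norm_num), ← ENNReal.ofReal_add (by positivity)
            (by positivity)]
          apply ENNReal.ofReal_le_ofReal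
          nlinarith [sq_nonneg (emb (a k) (u k) z - 2 * G z)]
      _ = 2 * (∫⁻ z, ENNReal.ofReal ((emb (a k) (u k) z - G z) ^ 2)) + 2 * I := by
          rw [lintegral_add_right' _ hGm, lintegral_const_mul' _ _ (by simp),
            lintegral_const_mul' _ _ (by simp)]
      _ ≤ 2 * 1 + 2 * I := by gcongr
  have h2 := (mass_lintegral (hpos k) (u k) S).trans h1
  have h3 : (2 * 1 + 2 * I) ≠ ⊤ := by
    refine ENNReal.add_ne_top.2 ⟨by norm_num, ENNReal.mul_ne_top (by norm_num) hGi.ne⟩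
  exact (ENNReal.ofReal_le_iff_le_toReal h3).1 h2

/-- the equations of `MacI_610` in the form of `MacNC_917` -/
theorem src_of {D : Set ℂ} {n : ℕ} {x : Fin n → ℂ} {a : ℕ → ℝ} {w : ℕ → Fld}
    {V : ℕ → Fin n → Face} (H : LatSeq D x a w V) {K : Set ℂ} (hK : IsCompact K)
    {G : ℂ → Fin 4 → ℝ} (hG : ∀ h, MemLp (fun z => G z h) 2) {g φ : ℕ → Fld}
    (S : Srcs K G a w g φ) : ∃ G0 : ℝ, 0 ≤ G0 ∧ Src a w K g φ G0 := by
  choose C hC0 hC using fun h => mass_bd H.pos (hG h) (S.conv h)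
  refine ⟨Real.sqrt (∑ h, C h), Real.sqrt_nonneg _,
    ⟨fun k f hf => funext fun h => S.supp k f hf h, ?_, S.eqn⟩⟩
  obtain ⟨R, hR⟩ := hK.isBounded.exists_norm_le
  filter_upwards [eventually_all.2 hC] with k hk
  have ha := H.pos k
  have e : ∑' f, nsq (g k f) = ∑ f ∈ disc (a k) (R + 1), nsq (g k f) := by
    refine tsum_eq_sum fun f hf => ?_
    have h1 : meshPoint (a k) f ∉ K := by
      intro hc
      rw [mem_disc ha, not_lt] at hf
      have := hR _ hc
      linarith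
    have h2 : g k f = 0 := funext fun h => S.supp k f h1 h
    rw [h2]; simp [nsq]
  have h1 : sn (a k) (g k) ^ 2 ≤ ∑ h, C h := by
    rw [sn_sq, e]
    simp only [nsq]
    rw [Finset.sum_comm, Finset.mul_sum]
    exact Finset.sum_le_sum fun h _ => hk h _
  exact Real.le_sqrt_of_sq_le h1

/-- **`BddNC`** -/
theorem bddNC {D : Set ℂ} (hD : IsOpen D) (hDb : Bornology.IsBounded D)
    (hfr : volume (frontier D) = 0) : BddNC D := by
  intro n x _ K hK hKO G hG a w V H g φ S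
  obtain ⟨G0, hG0, hS⟩ := src_of H hK hG S
  constructor
  · obtain ⟨C, hC0, hC⟩ := mass_le H hK hG0
    refine ⟨C ^ 2, ?_⟩
    filter_upwards [hC g φ hS] with k hk T
    have ha := H.pos k
    obtain ⟨I, hI⟩ := S.fin k
    have h1 : ∑ f ∈ T, nsq (φ k f) ≤ ∑' f, nsq (φ k f) := by
      refine Summable.sum_le_tsum T (fun f _ => nsq_nonneg _) ?_
      refine summable_of_ne_finset_zero (s := I) fun f hf => ?_
      rw [hI f hf]; simp [nsq]
    have h2 := pow_le_pow_left₀ (sn_nonneg ha.le _) hk 2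
    rw [sn_sq] at h2
    exact (mul_le_mul_of_nonneg_left h1 (sq_nonneg _)).trans h2
  · intro η hη
    obtain ⟨K', hK'c, hK'O, hK'⟩ := no_conc H hD hDb hfr hK hKO hG0 hη
    exact ⟨K', hK'c, hK'O, hK' g φ hS⟩

end Crest.Agent.R165.MacNC2x917
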