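import Crest.Agent.R165.MacC2_943
import Crest.Agent.R165.MacNC2_917

/-!
# Row 165 (S0250), M3: local strong limit

`local_lim` : on a small ball of `O` the fields `emb φ_k` converge strongly in `L²`, along every
ultrafilter.
-/

set_option autoImplicit false

noncomputable section

namespace Crest.Agent.R165.MacC3x943

open Filter Topology MeasureTheory Metric
open Crest.ProbabilityR.IsingModel
open Crest.Agent.R165.Tr1x40 hiding sq2
open Crest.Agent.R165.Tr2x40
open Crest.Agent.R165.RIfx891 (lv)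
open Crest.Agent.R165.Mac0x622 Crest.Agent.R165.Mac1x622
open Crest.Agent.R165.MacIx610 (Bdd)
open Crest.Agent.R165.Lim2x943 (sq2)
open Crest.Agent.R165.Relx943 (N2 dif1 dif2 N2_shift)
open Crest.Agent.R165.PotAx894 (FS lap)
open Crest.Agent.R165.Embx622 (emb)
open Crest.Agent.R165.MacC1x943 Crest.Agent.R165.MacC2x943

/-- `L²` seminorm -/
def E (μ : Measure ℂ) (f : ℂ → ℝ) : ENNReal := eLpNorm f 2 μ

theorem E_sq (μ : Measure ℂ) (f : ℂ → ℝ) : E μ f = (∫⁻ z, sq2 (f z) ∂μ) ^ (1 / 2 : ℝ) := by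
  unfold E
  rw [eLpNorm_eq_lintegral_rpow_enorm_toReal (by norm_num) (by norm_num)]
  simp only [Lim2x943.sq2_eq_enorm, ENNReal.toReal_ofNat]

theorem E_pow (μ : Measure ℂ) (f : ℂ → ℝ) : E μ f ^ 2 = ∫⁻ z, sq2 (f z) ∂μ := by
  rw [E_sq, ← ENNReal.rpow_natCast, ← ENNReal.rpow_mul]
  norm_num

theorem E_tendsto_zero {ι : Type*} {U : Filter ι} {μ : Measure ℂ} {g : ι → ℂ → ℝ} :
    Tendsto (fun n => E μ (g n)) U (𝓝 0) ↔ Tendsto (fun n => ∫⁻ z, sq2 (g n z) ∂μ) U (𝓝 0) := by
  constructor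
  · intro h
    have := (ENNReal.continuous_pow 2).tendsto (0 : ENNReal)
    have h2 := this.comp h
    simp only [ne_eq, OfNat.ofNat_ne_zero, not_false_eq_true, zero_pow] at h2
    refine h2.congr fun n => ?_
    simp only [Function.comp, E_pow]
  · intro h
    have := ((ENNReal.continuous_rpow_const (y := (1 / 2 : ℝ))).tendsto 0).comp h
    rw [ENNReal.zero_rpow_of_pos (by norm_num)] at this
    refine this.congr fun n => ?_
    simp only [Function.comp, E_sq]

theorem memLp_emb {a : ℝ} (ha : 0 < a) {u : Face → ℝ} (hu : FS u) : MemLp (emb a u) 2 := by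
  rw [memLp_two_iff_integrable_sq (Embx622.emb_measurable a u).aestronglyMeasurable]
  have h := Embx622.integrable_emb (F := ℝ) ha (g := fun f => u f ^ 2) (by
    have : Summable fun f => ‖u f ^ 2‖ := by
      refine summable_of_hasFiniteSupport ?_
      refine hu.subset fun f hf => ?_
      simp only [Function.mem_support, ne_eq, norm_eq_zero, pow_eq_zero_iff, OfNat.ofNat_ne_zero,
        not_false_eq_true] at hf ⊢
      exact hf
    exact this)
  exact h

theorem measurable_gc {n : ℕ} (x : Fin n → ℂ) (z : ℂ) : Measurable (gc x z) := by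
  classical
  have e : gc x z = fun u => ∏ i, (if rel (x i) z ∧ (x i).im < u.im then (-1 : ℝ) else 1) := by
    funext u; unfold gc; rfl
  rw [e]
  refine Finset.measurable_prod _ fun i _ => ?_
  refine Measurable.ite ?_ measurable_const measurable_const
  by_cases h : rel (x i) z
  · simp only [h, true_and]
    exact measurableSet_lt measurable_const Complex.measurable_im
  · simp [h]

theorem loc_FSF {n : ℕ} (x : Fin n → ℂ) (z₀ : ℂ) {ρ a : ℝ} (hρ : 0 < ρ) (ha : 0 < a)
    (V : Fin n → Face) (φ : Fld) : FSF (loc x z₀ ρ a V φ) := by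
  intro h
  refine FS.of_finset (MacNCx917.disc a (‖z₀‖ + ρ)) fun f hf => ?_
  rw [MacNCx917.mem_disc ha, not_lt] at hf
  unfold loc
  rw [cut_zero hρ, zero_mul]
  have h1 : ‖meshPoint a f‖ ≤ ‖meshPoint a f - z₀‖ + ‖z₀‖ := by
    have := norm_add_le (meshPoint a f - z₀) z₀
    rwa [sub_add_cancel] at this
  linarith

/-- the gauge error tends to zero -/
theorem gauge_err {n : ℕ} {x : Fin n → ℂ} {a : ℕ → ℝ} (hpos : ∀ k, 0 < a k)
    (hlim : Tendsto a atTop (𝓝 0)) {V : ℕ → Fin n → Face}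
    (tip : ∀ i, Tendsto (fun k => meshPoint (a k) (V k i)) atTop (𝓝 (x i))) (z : ℂ) {B : Set ℂ}
    {F : ℂ → ℝ} (hF : MemLp F 2 (volume.restrict B)) :
    Tendsto (fun k => E (volume.restrict B)
      (fun u => (emb (a k) (gz x z (V k)) u - gc x z u) * F u)) atTop (𝓝 0) := by
  rw [E_tendsto_zero]
  have h0 : (0 : ENNReal) = ∫⁻ u in B, (0 : ENNReal) := by simp
  rw [h0]
  have hFi : (∫⁻ u in B, sq2 (F u)) ≠ ⊤ := by
    rw [← E_pow]
    exact ENNReal.pow_ne_top hF.2.ne
  refine tendsto_lintegral_of_dominated_convergence' (fun u => sq2 2 * sq2 (F u))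
    (fun k => ?_) (fun k => ?_) ?_ ?_
  · have h1 : AEMeasurable F (volume.restrict B) := hF.1.aemeasurable
    exact (((((Embx622.emb_measurable _ _).sub (measurable_gc x z)).aemeasurable).mul h1).pow_const
      2).ennreal_ofReal
  · refine Eventually.of_forall fun u => ?_
    change sq2 ((emb (a k) (gz x z (V k)) u - gc x z u) * F u) ≤ sq2 2 * sq2 (F u)
    rw [← Relx943.sq2_mul]
    refine Lim2x943.sq2_le_of_abs_le ?_ |>.trans (le_of_eq (?_ : sq2 |2 * F u| = _))
    · rw [abs_mul, abs_mul]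
      have h1 : |emb (a k) (gz x z (V k)) u| = 1 := gz_abs _ _ _ _
      have h2 := gc_abs x z u
      have h3 : |emb (a k) (gz x z (V k)) u - gc x z u| ≤ |(2 : ℝ)| := by
        calc |emb (a k) (gz x z (V k)) u - gc x z u|
            ≤ |emb (a k) (gz x z (V k)) u| + |gc x z u| := abs_sub _ _
          _ = |2| := by rw [h1, h2]; norm_num
      exact mul_le_mul_of_nonneg_right h3 (abs_nonneg _)
    · unfold sq2; rw [sq_abs]
  · rw [lintegral_const_mul']
    · exact ENNReal.mul_ne_top ENNReal.ofReal_ne_top hFi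
    · exact ENNReal.ofReal_ne_top
  · filter_upwards [ae_im_ne x B] with u hu
    refine tendsto_const_nhds.congr' ?_
    filter_upwards [gz_tendsto hpos hlim tip z hu] with k hk
    have : emb (a k) (gz x z (V k)) u = gc x z u := hk
    rw [this]; simp [sq2]

/-- **local strong limit** -/
theorem local_lim {O : Set ℂ} {n : ℕ} {x : Fin n → ℂ} {a : ℕ → ℝ} {w : ℕ → Fld}
    {V : ℕ → Fin n → Face} (H : OmSeq O x a w V) (hO : IsOpen O) (hx : ∀ i, x i ∉ O)
    {g φ : ℕ → Fld} (hg : Bdd a g) (hφ : Bdd a φ)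
    (heq : ∀ k f h, A (w k) (φ k) f h = a k * g k f h)
    (U : Ultrafilter ℕ) (hU : (U : Filter ℕ) ≤ atTop) {z₀ : ℂ} (hz : z₀ ∈ O) :
    ∃ ρ > 0, ∀ h, ∃ Φ : ℂ → ℝ, MemLp Φ 2 (volume.restrict (ball z₀ ρ)) ∧
      Tendsto (fun k => E (volume.restrict (ball z₀ ρ))
        (fun z => emb (a k) (fun f => φ k f h) z - Φ z)) U (𝓝 0) := by
  obtain ⟨ρ, hρ, -, hw⟩ := weights_gauge H hO hx hz
  obtain ⟨Cg, hCg⟩ := hg
  obtain ⟨Cf, hCf⟩ := hφ
  have hCg0 : 0 ≤ Cg := by
    obtain ⟨k, hk⟩ := hCg.exists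
    simpa using hk ∅
  have hCf0 : 0 ≤ Cf := by
    obtain ⟨k, hk⟩ := hCf.exists
    simpa using hk ∅
  have hsmall : ∀ᶠ k in atTop, 24 * a k ≤ ρ := by
    have := H.lim.eventually (eventually_le_nhds (show (0 : ℝ) < ρ / 24 by positivity))
    filter_upwards [this] with k hk
    linarith
  refine ⟨ρ / 4, by positivity, fun h => ?_⟩
  set u : ℕ → Face → ℝ := fun k f => loc x z₀ ρ (a k) (V k) (φ k) f h with hu
  have hFSF : ∀ k, FSF (loc x z₀ ρ (a k) (V k) (φ k)) := fun k => loc_FSF x z₀ hρ (H.pos k) _ _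
  set M1 : ℝ := CG * (4 * (2 * Cg + 2 * ((6 / ρ) ^ 2 * Cf))) with hM1
  have hCG := CG_pos
  have hM10 : 0 ≤ M1 := by positivity
  set M : ℝ := max Cf M1 with hM
  have h0 : ∀ᶠ k in atTop, ENNReal.ofReal (a k ^ 2) * N2 (u k) ≤ ENNReal.ofReal M := by
    filter_upwards [hCf] with k hk
    calc ENNReal.ofReal (a k ^ 2) * N2 (u k)
        ≤ ENNReal.ofReal (a k ^ 2) * N2 (fun f => φ k f h) := by
          gcongr
          exact N2_mono fun f => abs_loc_le _ _ _ _ _ _ _ _
      _ ≤ ENNReal.ofReal Cf := N2_le_of_nsq hk h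
      _ ≤ ENNReal.ofReal M := ENNReal.ofReal_le_ofReal (le_max_left _ _)
  have hEN : ∀ᶠ k in atTop, EN (loc x z₀ ρ (a k) (V k) (φ k)) ≤ ENNReal.ofReal M := by
    filter_upwards [hCf, hCg, hsmall, hw] with k hk1 hk2 hk3 hk4
    have ha := H.pos k
    have key : ∀ h', N2 (fun f => A (cst xc) (loc x z₀ ρ (a k) (V k) (φ k)) f h') ≤
        ENNReal.ofReal (2 * Cg + 2 * ((6 / ρ) ^ 2 * Cf)) := by
      intro h'
      refine (N2_A_loc hρ ha (by linarith) hk4 (heq k) h').trans ?_
      have e1 := N2_le_of_nsq hk2 h'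
      have e2 := N2_le_of_nsq hk1 (op h')
      calc _ ≤ 2 * ENNReal.ofReal Cg + 2 * (ENNReal.ofReal ((6 / ρ) ^ 2) * ENNReal.ofReal Cf) := by
            gcongr
        _ = ENNReal.ofReal (2 * Cg + 2 * ((6 / ρ) ^ 2 * Cf)) := by
            have p1 : (0 : ℝ) ≤ (6 / ρ) ^ 2 * Cf := by positivity
            rw [← ENNReal.ofReal_mul (sq_nonneg (6 / ρ)), ENNReal.ofReal_add (by linarith)
              (by linarith), ENNReal.ofReal_mul (p := 2) (q := Cg) zero_le_two,
              ENNReal.ofReal_mul (p := 2) (q := (6 / ρ) ^ 2 * Cf) zero_le_two,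
              ENNReal.ofReal_ofNat]
    calc _ ≤ ENNReal.ofReal CG * ∑ h', N2 fun f =>
            A (cst xc) (loc x z₀ ρ (a k) (V k) (φ k)) f h' := grad_le (hFSF k)
      _ ≤ ENNReal.ofReal CG * ∑ _h' : Fin 4, ENNReal.ofReal (2 * Cg + 2 * ((6 / ρ) ^ 2 * Cf)) := by
          gcongr with h' _
          exact key h'
      _ = ENNReal.ofReal M1 := by
          rw [Finset.sum_const, Finset.card_univ, Fintype.card_fin, nsmul_eq_mul, hM1,
            ENNReal.ofReal_mul hCG.le, ENNReal.ofReal_mul (by norm_num : (0 : ℝ) ≤ 4),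
            ENNReal.ofReal_ofNat, Nat.cast_ofNat]
      _ ≤ ENNReal.ofReal M := ENNReal.ofReal_le_ofReal (le_max_right _ _)
  have h1 : ∀ᶠ k in atTop, N2 (dif1 (u k)) ≤ ENNReal.ofReal M := by
    filter_upwards [hEN] with k hk
    refine le_trans ?_ hk
    unfold EN
    exact (le_self_add).trans (Finset.single_le_sum
      (f := fun k' => N2 (dif1 fun f => loc x z₀ ρ (a k) (V k) (φ k) f k') +
        N2 (dif2 fun f => loc x z₀ ρ (a k) (V k) (φ k) f k')) (fun _ _ => zero_le)
      (Finset.mem_univ h))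
  have h2 : ∀ᶠ k in atTop, N2 (dif2 (u k)) ≤ ENNReal.ofReal M := by
    filter_upwards [hEN] with k hk
    refine le_trans ?_ hk
    unfold EN
    exact (le_add_self).trans (Finset.single_le_sum
      (f := fun k' => N2 (dif1 fun f => loc x z₀ ρ (a k) (V k) (φ k) f k') +
        N2 (dif2 fun f => loc x z₀ ρ (a k) (V k) (φ k) f k')) (fun _ _ => zero_le)
      (Finset.mem_univ h))
  obtain ⟨F, hF, hlimF⟩ := Relx943.rellich (U := U) (H.tendsto_pos.mono_left hU)
    (hCf0.trans (le_max_left _ _)) (hU h0) (hU h1) (hU h2) (isBounded_ball (x := z₀) (r := ρ / 4))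
    measurableSet_ball (fun k => (memLp_emb (H.pos k) (hFSF k h)).restrict _)
  have hFae : AEMeasurable F (volume.restrict (ball z₀ (ρ / 4))) := hF.1.aemeasurable
  refine ⟨fun z => gc x z₀ z * F z, ?_, ?_⟩
  · refine hF.of_le ((measurable_gc x z₀).aemeasurable.mul hFae).aestronglyMeasurable
      (Eventually.of_forall fun z => ?_)
    rw [norm_mul, Real.norm_eq_abs (gc x z₀ z), gc_abs, one_mul]
  have herr := (gauge_err H.pos H.lim H.tip z₀ hF).mono_left hU
  have hsum := (show Tendsto (fun n => E (volume.restrict (ball z₀ (ρ / 4)))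
    (fun z => emb (a n) (u n) z - F z)) U (𝓝 0) from hlimF).add herr
  rw [add_zero] at hsum
  refine tendsto_of_tendsto_of_tendsto_of_le_of_le' tendsto_const_nhds hsum
    (Eventually.of_forall fun _ => zero_le) ?_
  filter_upwards [hU hsmall] with k hk
  have ha := H.pos k
  have hEE : ∀ z ∈ ball z₀ (ρ / 4), emb (a k) (fun f => φ k f h) z - gc x z₀ z * F z =
      emb (a k) (gz x z₀ (V k)) z * (emb (a k) (u k) z - F z) +
        (emb (a k) (gz x z₀ (V k)) z - gc x z₀ z) * F z := by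
    intro z hz
    have hc : cut z₀ ρ (meshPoint (a k) (meshIndex (a k) z)) = 1 := by
      refine cut_one hρ ?_
      have e1 := Upx622.norm_mesh_sub ha z
      rw [mem_ball, dist_eq_norm] at hz
      have e2 : ‖meshPoint (a k) (meshIndex (a k) z) - z₀‖ ≤
          ‖meshPoint (a k) (meshIndex (a k) z) - z‖ + ‖z - z₀‖ :=
        norm_sub_le_norm_sub_add_norm_sub _ _ _
      linarith
    have hs := gz_sq x z₀ (V k) (meshIndex (a k) z)
    simp only [emb, hu, loc]
    rw [hc]
    linear_combination (-φ k (meshIndex (a k) z) h) * hs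
  have hmeas1 : AEMeasurable (fun z => emb (a k) (gz x z₀ (V k)) z * (emb (a k) (u k) z - F z))
      (volume.restrict (ball z₀ (ρ / 4))) :=
    (Embx622.emb_measurable _ _).aemeasurable.mul
      ((Embx622.emb_measurable _ _).aemeasurable.sub hFae)
  have hmeas2 : AEMeasurable (fun z => (emb (a k) (gz x z₀ (V k)) z - gc x z₀ z) * F z)
      (volume.restrict (ball z₀ (ρ / 4))) :=
    ((Embx622.emb_measurable _ _).sub (measurable_gc x z₀)).aemeasurable.mul hFae
  calc E (volume.restrict (ball z₀ (ρ / 4)))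
        (fun z => emb (a k) (fun f => φ k f h) z - gc x z₀ z * F z)
      = E (volume.restrict (ball z₀ (ρ / 4)))
        (fun z => emb (a k) (gz x z₀ (V k)) z * (emb (a k) (u k) z - F z) +
        (emb (a k) (gz x z₀ (V k)) z - gc x z₀ z) * F z) := by
        refine eLpNorm_congr_ae ?_
        filter_upwards [ae_restrict_mem measurableSet_ball] with z hz
        exact hEE z hz
    _ ≤ E (volume.restrict (ball z₀ (ρ / 4)))
        (fun z => emb (a k) (gz x z₀ (V k)) z * (emb (a k) (u k) z - F z)) +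
        E (volume.restrict (ball z₀ (ρ / 4)))
        (fun z => (emb (a k) (gz x z₀ (V k)) z - gc x z₀ z) * F z) :=
        eLpNorm_add_le hmeas1.aestronglyMeasurable hmeas2.aestronglyMeasurable (by norm_num)
    _ = _ := by
        congr 1
        refine eLpNorm_congr_norm_ae (Eventually.of_forall fun z => ?_)
        rw [norm_mul]
        have : ‖emb (a k) (gz x z₀ (V k)) z‖ = 1 := gz_abs _ _ _ _
        rw [this, one_mul]

end Crest.Agent.R165.MacC3x943
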