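import Crest.Agent.R165.MacC3_943

/-!
# Row 165 (S0250), M3: global strong limit

`global_lim` : the fields `emb φ_k` converge strongly in `L²(ℂ)` along every ultrafilter, the limit
vanishes off `O`.
`heavy_lim` : the heavy parts tend to zero.
-/

set_option autoImplicit false

noncomputable section

namespace Crest.Agent.R165.MacC4x943

open Filter Topology MeasureTheory Metric
open Crest.ProbabilityR.IsingModel
open Crest.Agent.R165.Tr1x40 hiding sq2
open Crest.Agent.R165.Tr2x40
open Crest.Agent.R165.RIfx891 (lv)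
open Crest.Agent.R165.Mac0x622 Crest.Agent.R165.Mac1x622
open Crest.Agent.R165.MacIx610 (Bdd NCo)
open Crest.Agent.R165.Lim2x943 (sq2)
open Crest.Agent.R165.Relx943 (N2 dif1 dif2 N2_shift)
open Crest.Agent.R165.PotAx894 (FS lap)
open Crest.Agent.R165.Embx622 (emb)
open Crest.Agent.R165.MacC1x943 Crest.Agent.R165.MacC2x943 Crest.Agent.R165.MacC3x943

/-- strong convergence on `B` -/
def Cv (U : Filter ℕ) (a : ℕ → ℝ) (u : ℕ → Face → ℝ) (B : Set ℂ) : Prop :=
  ∃ Φ : ℂ → ℝ, MemLp Φ 2 (volume.restrict B) ∧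
    Tendsto (fun k => E (volume.restrict B) (fun z => emb (a k) (u k) z - Φ z)) U (𝓝 0)

theorem E_indicator {B : Set ℂ} (hB : MeasurableSet B) (f : ℂ → ℝ) :
    E volume (B.indicator f) = E (volume.restrict B) f := eLpNorm_indicator_eq_eLpNorm_restrict hB

theorem E_add_le {μ : Measure ℂ} {f g : ℂ → ℝ} (hf : AEStronglyMeasurable f μ)
    (hg : AEStronglyMeasurable g μ) : E μ (fun z => f z + g z) ≤ E μ f + E μ g :=
  eLpNorm_add_le hf hg (by norm_num)

theorem E_congr {μ : Measure ℂ} {f g : ℂ → ℝ} (h : f =ᵐ[μ] g) : E μ f = E μ g :=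
  eLpNorm_congr_ae h

theorem E_mono_set {B B' : Set ℂ} (h : B ⊆ B') (f : ℂ → ℝ) :
    E (volume.restrict B) f ≤ E (volume.restrict B') f :=
  eLpNorm_mono_measure _ (Measure.restrict_mono_set _ h)

theorem E_restrict_le (B : Set ℂ) (f : ℂ → ℝ) : E (volume.restrict B) f ≤ E volume f :=
  eLpNorm_mono_measure _ Measure.restrict_le_self

theorem Cv.empty (U : Filter ℕ) (a : ℕ → ℝ) (u : ℕ → Face → ℝ) : Cv U a u ∅ := by
  refine ⟨0, MemLp.zero, ?_⟩
  simp only [E, Measure.restrict_empty, eLpNorm_measure_zero]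
  exact tendsto_const_nhds

theorem Cv.union {U : Filter ℕ} {a : ℕ → ℝ} {u : ℕ → Face → ℝ} {B B' : Set ℂ}
    (hB : MeasurableSet B) (hB' : MeasurableSet B') (h : Cv U a u B) (h' : Cv U a u B') :
    Cv U a u (B ∪ B') := by
  classical
  obtain ⟨Φ, hΦ, hc⟩ := h
  obtain ⟨Φ', hΦ', hc'⟩ := h'
  have hC : MeasurableSet (B' \ B) := hB'.diff hB
  refine ⟨fun z => B.indicator Φ z + (B' \ B).indicator Φ' z, ?_, ?_⟩
  · refine MemLp.restrict _ (MemLp.add ?_ ?_)
    · exact (memLp_indicator_iff_restrict hB).2 hΦ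
    · exact (memLp_indicator_iff_restrict hC).2 (hΦ'.mono_measure
        (Measure.restrict_mono_set _ Set.sdiff_subset))
  · have hs := hc.add hc'
    rw [add_zero] at hs
    refine tendsto_of_tendsto_of_tendsto_of_le_of_le tendsto_const_nhds hs (fun _ => zero_le)
      fun k => ?_
    have hm1 : AEStronglyMeasurable (fun z => emb (a k) (u k) z - Φ z) (volume.restrict B) :=
      (Embx622.emb_measurable _ _).aestronglyMeasurable.sub hΦ.1
    have hm2 : AEStronglyMeasurable (fun z => emb (a k) (u k) z - Φ' z)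
        (volume.restrict (B' \ B)) :=
      (Embx622.emb_measurable _ _).aestronglyMeasurable.sub
        (hΦ'.1.mono_measure (Measure.restrict_mono_set _ Set.sdiff_subset))
    calc E (volume.restrict (B ∪ B'))
          (fun z => emb (a k) (u k) z - (B.indicator Φ z + (B' \ B).indicator Φ' z))
        = E volume ((B ∪ B').indicator
          (fun z => emb (a k) (u k) z - (B.indicator Φ z + (B' \ B).indicator Φ' z))) :=
          (E_indicator (hB.union hB') _).symm
      _ = E volume (fun z => B.indicator (fun z => emb (a k) (u k) z - Φ z) z +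
          (B' \ B).indicator (fun z => emb (a k) (u k) z - Φ' z) z) := by
          congr 1
          funext z
          by_cases h1 : z ∈ B
          · simp [Set.indicator, h1]
          · by_cases h2 : z ∈ B'
            · simp [Set.indicator, h1, h2]
            · simp [Set.indicator, h1, h2]
      _ ≤ E volume (B.indicator fun z => emb (a k) (u k) z - Φ z) +
          E volume ((B' \ B).indicator fun z => emb (a k) (u k) z - Φ' z) :=
          E_add_le ((aestronglyMeasurable_indicator_iff hB).2 hm1)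
            ((aestronglyMeasurable_indicator_iff hC).2 hm2)
      _ ≤ _ := by
          rw [E_indicator hB, E_indicator hC]
          exact add_le_add le_rfl (E_mono_set Set.sdiff_subset _)

/-- mass off a neighbourhood of `L` -/
theorem out_mass {a δ η : ℝ} (ha : 0 < a) (haδ : 2 * a ≤ δ) {L C : Set ℂ}
    (hC : MeasurableSet C) (hL : ∀ z ∈ L, ∀ w, ‖w - z‖ ≤ δ → w ∈ C) {φ : Fld} (hη : 0 ≤ η)
    (h : ∀ S : Finset Face, (∀ f ∈ S, meshPoint a f ∉ L) → a ^ 2 * ∑ f ∈ S, nsq (φ f) ≤ η)
    (k : Fin 4) :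
    E (volume.restrict Cᶜ) (emb a fun f => φ f k) ≤ ENNReal.ofReal (Real.sqrt η) := by
  classical
  have key : (∫⁻ z in Cᶜ, sq2 (emb a (fun f => φ f k) z)) ≤ ENNReal.ofReal η := by
    set v : Face → ℝ := fun f => if meshPoint a f ∈ L then 0 else φ f k with hv
    have h1 : (∫⁻ z in Cᶜ, sq2 (emb a (fun f => φ f k) z)) ≤
        ∫⁻ z in Cᶜ, sq2 (v (meshIndex a z)) := by
      refine setLIntegral_mono' hC.compl fun z hz => le_of_eq ?_
      have h2 : meshPoint a (meshIndex a z) ∉ L := by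
        intro hc
        refine hz (hL _ hc z ?_)
        rw [norm_sub_rev]
        exact (Upx622.norm_mesh_sub ha z).trans haδ
      rw [hv]
      simp only [h2, if_false]
      rfl
    refine h1.trans ((Relx943.nrm_univ_emb ha _ v).trans (N2_le_of_finset fun S => ?_))
    have e : ∑ f ∈ S, v f ^ 2 = ∑ f ∈ S.filter (fun f => meshPoint a f ∉ L), φ f k ^ 2 := by
      rw [Finset.sum_filter]
      refine Finset.sum_congr rfl fun f _ => ?_
      by_cases hf : meshPoint a f ∈ L <;> simp [hv, hf]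
    rw [e]
    refine le_trans ?_ (h (S.filter fun f => meshPoint a f ∉ L)
      fun f hf => (Finset.mem_filter.1 hf).2)
    gcongr with f hf
    exact Finset.single_le_sum (f := fun b => φ f b ^ 2) (fun _ _ => sq_nonneg _)
      (Finset.mem_univ k)
  have h2 : E (volume.restrict Cᶜ) (emb a fun f => φ f k) ^ 2 ≤
      ENNReal.ofReal (Real.sqrt η) ^ 2 := by
    rw [E_pow, ← ENNReal.ofReal_pow (Real.sqrt_nonneg _), Real.sq_sqrt hη]
    exact key
  exact (ENNReal.pow_le_pow_left_iff (by norm_num)).1 h2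

/-- **global strong limit** -/
theorem global_lim {O : Set ℂ} {n : ℕ} {x : Fin n → ℂ} {a : ℕ → ℝ} {w : ℕ → Fld}
    {V : ℕ → Fin n → Face} (H : OmSeq O x a w V) (hO : IsOpen O) (hx : ∀ i, x i ∉ O)
    {g φ : ℕ → Fld} (hg : Bdd a g) (hφ : Bdd a φ) (hNC : NCo O a φ)
    (hfin : ∀ k, FSF (φ k)) (heq : ∀ k f h, A (w k) (φ k) f h = a k * g k f h)
    (U : Ultrafilter ℕ) (hU : (U : Filter ℕ) ≤ atTop) (h : Fin 4) :
    ∃ Φ : ℂ → ℝ, MemLp Φ 2 ∧ (∀ᵐ z, z ∉ O → Φ z = 0) ∧
      Tendsto (fun k => E volume (fun z => emb (a k) (fun f => φ k f h) z - Φ z)) U (𝓝 0) := by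
  classical
  set u : ℕ → Face → ℝ := fun k f => φ k f h with hu
  have hmem : ∀ k, MemLp (emb (a k) (u k)) 2 := fun k => memLp_emb (H.pos k) (hfin k h)
  have hsmall : ∀ δ : ℝ, 0 < δ → ∀ᶠ k in atTop, 2 * a k ≤ δ := by
    intro δ hδ
    have := H.lim.eventually (eventually_le_nhds (show (0 : ℝ) < δ / 2 by positivity))
    filter_upwards [this] with k hk
    linarith
  obtain ⟨Φ, hΦ, hlim⟩ := Relx943.exists_L2_lim (U := (U : Filter ℕ)) (μ := volume)
    (fun k => emb (a k) (u k)) hmem (by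
    intro ε hε
    obtain ⟨L, hLc, hLO, hL⟩ := hNC ((ε / 2) ^ 2) (by positivity)
    obtain ⟨δ, hδ, hsub⟩ := hLc.exists_cthickening_subset_open hO hLO
    set L' := cthickening δ L with hL'
    have hL'c : IsCompact L' := hLc.cthickening
    obtain ⟨B, hBm, hLB, hB⟩ : ∃ B, MeasurableSet B ∧ L' ⊆ B ∧ Cv U a u B := by
      refine hL'c.induction_on (p := fun S => ∃ B, MeasurableSet B ∧ S ⊆ B ∧ Cv U a u B)
        ⟨∅, MeasurableSet.empty, Set.Subset.rfl, Cv.empty _ _ _⟩ ?_ ?_ ?_
      · rintro s t hst ⟨B, h1, h2, h3⟩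
        exact ⟨B, h1, hst.trans h2, h3⟩
      · rintro s t ⟨B, h1, h2, h3⟩ ⟨B', h1', h2', h3'⟩
        exact ⟨B ∪ B', h1.union h1', Set.union_subset_union h2 h2', h3.union h1 h1' h3'⟩
      · intro z hz
        obtain ⟨ρ, hρ, hΦ⟩ := local_lim H hO hx hg hφ heq U hU (hsub hz)
        obtain ⟨Φ, h1, h2⟩ := hΦ h
        exact ⟨ball z ρ, mem_nhdsWithin_of_mem_nhds (ball_mem_nhds z hρ), ball z ρ,
          measurableSet_ball, Set.Subset.rfl, Φ, h1, h2⟩
    obtain ⟨Φ, hΦ, hc⟩ := hB
    refine ⟨B.indicator Φ, (memLp_indicator_iff_restrict hBm).2 hΦ, ?_⟩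
    have hev : ∀ᶠ k in (U : Filter ℕ), E (volume.restrict B)
        (fun z => emb (a k) (u k) z - Φ z) < ENNReal.ofReal (ε / 2) :=
      hc.eventually (eventually_lt_nhds (by rw [ENNReal.ofReal_pos]; positivity))
    filter_upwards [hev, hU hL, hU (hsmall δ hδ)] with k h1 h2 h3
    have h4 : E (volume.restrict Bᶜ) (emb (a k) (u k)) ≤ ENNReal.ofReal (ε / 2) := by
      have := out_mass (H.pos k) h3 hBm (L := L) (fun z hz w hw =>
        hLB (mem_cthickening_of_dist_le w z δ L hz (by rw [dist_eq_norm]; exact hw)))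
        (by positivity) h2 h
      rwa [Real.sqrt_sq (by positivity)] at this
    have hm1 : AEStronglyMeasurable (fun z => emb (a k) (u k) z - Φ z) (volume.restrict B) :=
      (Embx622.emb_measurable _ _).aestronglyMeasurable.sub hΦ.1
    change E volume (fun z => emb (a k) (u k) z - B.indicator Φ z) ≤ _
    calc E volume (fun z => emb (a k) (u k) z - B.indicator Φ z)
        = E volume (fun z => B.indicator (fun z => emb (a k) (u k) z - Φ z) z +
          Bᶜ.indicator (emb (a k) (u k)) z) := by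
          congr 1
          funext z
          by_cases hz : z ∈ B <;> simp [Set.indicator, hz]
      _ ≤ E volume (B.indicator fun z => emb (a k) (u k) z - Φ z) +
          E volume (Bᶜ.indicator (emb (a k) (u k))) :=
          E_add_le ((aestronglyMeasurable_indicator_iff hBm).2 hm1)
            ((Embx622.emb_measurable _ _).indicator hBm.compl).aestronglyMeasurable
      _ ≤ ENNReal.ofReal (ε / 2) + ENNReal.ofReal (ε / 2) := by
          rw [E_indicator hBm, E_indicator hBm.compl]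
          exact add_le_add h1.le h4
      _ = ENNReal.ofReal ε := by
          rw [← ENNReal.ofReal_add (by positivity) (by positivity)]
          congr 1
          ring)
  refine ⟨Φ, hΦ, ?_, hlim⟩
  -- the limit vanishes off `O`
  have hz0 : E (volume.restrict Oᶜ) Φ = 0 := by
    by_contra hne
    obtain ⟨ε, hε, hεlt⟩ : ∃ ε : ℝ, 0 < ε ∧ ENNReal.ofReal ε < E (volume.restrict Oᶜ) Φ := by
      obtain ⟨q, hq0, hq⟩ := ENNReal.lt_iff_exists_nnreal_btwn.1 (pos_iff_ne_zero.2 hne)
      refine ⟨q, by exact_mod_cast hq0, ?_⟩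
      rwa [ENNReal.ofReal_coe_nnreal]
    obtain ⟨L, hLc, hLO, hL⟩ := hNC ((ε / 2) ^ 2) (by positivity)
    obtain ⟨δ, hδ, hsub⟩ := hLc.exists_cthickening_subset_open hO hLO
    have hev : ∀ᶠ k in (U : Filter ℕ), E volume
        (fun z => emb (a k) (u k) z - Φ z) < ENNReal.ofReal (ε / 2) :=
      hlim.eventually (eventually_lt_nhds (by rw [ENNReal.ofReal_pos]; positivity))
    obtain ⟨k, h1, h2, h3⟩ := (hev.and
      ((hL.filter_mono hU).and ((hsmall δ hδ).filter_mono hU))).exists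
    have h4 : E (volume.restrict Oᶜ) (emb (a k) (u k)) ≤ ENNReal.ofReal (ε / 2) := by
      have := out_mass (H.pos k) h3 hO.measurableSet (L := L) (fun z hz w hw =>
        hsub (mem_cthickening_of_dist_le w z δ L hz (by rw [dist_eq_norm]; exact hw)))
        (by positivity) h2 h
      rwa [Real.sqrt_sq (by positivity)] at this
    have h5 : E (volume.restrict Oᶜ) Φ ≤ ENNReal.ofReal ε := by
      calc E (volume.restrict Oᶜ) Φ = E (volume.restrict Oᶜ)
            (fun z => (Φ z - emb (a k) (u k) z) + emb (a k) (u k) z) := by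
            congr 1; funext z; ring
        _ ≤ E (volume.restrict Oᶜ) (fun z => Φ z - emb (a k) (u k) z) +
            E (volume.restrict Oᶜ) (emb (a k) (u k)) :=
            E_add_le ((hΦ.1.sub (Embx622.emb_measurable _ _).aestronglyMeasurable).restrict)
              (Embx622.emb_measurable _ _).aestronglyMeasurable
        _ ≤ ENNReal.ofReal (ε / 2) + ENNReal.ofReal (ε / 2) := by
            refine add_le_add ?_ h4
            refine (E_restrict_le _ _).trans (le_trans (le_of_eq ?_) h1.le)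
            exact eLpNorm_congr_norm_ae (Eventually.of_forall fun z => norm_sub_rev _ _)
        _ = ENNReal.ofReal ε := by
            rw [← ENNReal.ofReal_add (by positivity) (by positivity)]
            congr 1
            ring
    exact absurd h5 (not_le.2 hεlt)
  have h6 := (eLpNorm_eq_zero_iff hΦ.1.restrict (by norm_num)).1 hz0
  exact (ae_restrict_iff' hO.measurableSet.compl).1 h6

/-- the heavy mass is `O(a)` -/
theorem hv_small {a : ℝ} (ha : 0 < a) {w φ g : Fld} (hs : Sym w) (hp : IsPlus w)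
    (hφ : ∃ I : Finset Face, ∀ f, f ∉ I → φ f = 0) (heq : ∀ f h, A w φ f h = a * g f h)
    {Cf Cg : ℝ} (h1 : ∀ S : Finset Face, a ^ 2 * ∑ f ∈ S, nsq (φ f) ≤ Cf)
    (h2 : ∀ S : Finset Face, a ^ 2 * ∑ f ∈ S, nsq (g f) ≤ Cg) (S : Finset Face) :
    a ^ 2 * ∑ f ∈ S, hv (φ f) ≤ 30 * a * (Real.sqrt Cf * Real.sqrt Cg) := by
  obtain ⟨I, hI⟩ := hφ
  have hsp : Sqx54.Supp I φ := fun f hf h => by rw [hI f hf]; rfl
  have ht := Sqx54.trace_tsum hs hp hsp
  have hb : 0 ≤ ∑' f, bd w φ f := tsum_nonneg fun f => bd_nonneg _ _ _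
  have hsum : Summable fun f => hv (φ f) := by
    refine summable_of_ne_finset_zero (s := I) fun f hf => ?_
    rw [hI f hf]
    simp [hv, nsq, cyc]
  have h3 : ∑ f ∈ S, hv (φ f) ≤ ∑' f, hv (φ f) := hsum.sum_le_tsum S fun f _ => hv_nonneg _
  have hQ : a * Real.sqrt (∑' f, nsq (φ f)) ≤ Real.sqrt Cf := by
    refine Real.le_sqrt_of_sq_le ?_
    rw [mul_pow, Real.sq_sqrt (tsum_nonneg fun f => nsq_nonneg _),
      hsp.tsum_nsq (Finset.Subset.refl I)]
    exact h1 I
  have hG : Real.sqrt (∑' f, nsq (A w φ f)) ≤ Real.sqrt Cg := by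
    refine Real.sqrt_le_sqrt ?_
    rw [(hsp.A w).tsum_nsq (Finset.Subset.refl _)]
    refine le_trans (le_of_eq ?_) (h2 (Sqx54.thick I))
    rw [Finset.mul_sum]
    refine Finset.sum_congr rfl fun f _ => ?_
    simp only [nsq, heq, Finset.mul_sum]
    exact Finset.sum_congr rfl fun h _ => by ring
  have hQ0 := Real.sqrt_nonneg (∑' f, nsq (φ f))
  have hG0 := Real.sqrt_nonneg (∑' f, nsq (A w φ f))
  calc a ^ 2 * ∑ f ∈ S, hv (φ f)
      ≤ a ^ 2 * (30 * (Real.sqrt (∑' f, nsq (φ f)) * Real.sqrt (∑' f, nsq (A w φ f)))) := by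
        refine mul_le_mul_of_nonneg_left ?_ (sq_nonneg a)
        linarith
    _ = 30 * a * ((a * Real.sqrt (∑' f, nsq (φ f))) * Real.sqrt (∑' f, nsq (A w φ f))) := by
        ring
    _ ≤ 30 * a * (Real.sqrt Cf * Real.sqrt Cg) := by
        gcongr

/-- **lightness** -/
theorem heavy_lim {a : ℕ → ℝ} {w : ℕ → Fld} (hpos : ∀ k, 0 < a k) (hlim : Tendsto a atTop (𝓝 0))
    (hs : ∀ k, Sym (w k)) (hp : ∀ k, IsPlus (w k)) {g φ : ℕ → Fld} (hg : Bdd a g) (hφ : Bdd a φ)
    (hfin : ∀ k, ∃ I : Finset Face, ∀ f, f ∉ I → φ k f = 0)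
    (heq : ∀ k f h, A (w k) (φ k) f h = a k * g k f h) (h : Fin 4) :
    Tendsto (fun k => E volume (fun z => emb (a k) (fun f => Ph (φ k f) h) z)) atTop (𝓝 0) := by
  rw [E_tendsto_zero]
  obtain ⟨Cg, hCg⟩ := hg
  obtain ⟨Cf, hCf⟩ := hφ
  have ht : Tendsto (fun k => ENNReal.ofReal (30 * a k * (Real.sqrt Cf * Real.sqrt Cg))) atTop
      (𝓝 0) := by
    have h1 : Tendsto (fun k => 30 * a k * (Real.sqrt Cf * Real.sqrt Cg)) atTop (𝓝 0) := by
      have := (hlim.const_mul 30).mul_const (Real.sqrt Cf * Real.sqrt Cg)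
      simpa using this
    have := ENNReal.tendsto_ofReal h1
    simpa using this
  refine tendsto_of_tendsto_of_tendsto_of_le_of_le' tendsto_const_nhds ht
    (Eventually.of_forall fun _ => zero_le) ?_
  filter_upwards [hCf, hCg] with k h1 h2
  have hk := hv_small (hpos k) (hs k) (hp k) (hfin k) (heq k) h1 h2
  have e : (∫⁻ z, sq2 (emb (a k) (fun f => Ph (φ k f) h) z)) =
      ENNReal.ofReal (a k ^ 2) * N2 (fun f => Ph (φ k f) h) :=
    Embx622.lintegral_emb (hpos k) fun f => sq2 (Ph (φ k f) h)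
  rw [e]
  refine N2_le_of_finset fun S => le_trans ?_ (hk S)
  gcongr with f hf
  rw [hv_eq_nsq]
  exact Finset.single_le_sum (f := fun b => Ph (φ k f) b ^ 2) (fun _ _ => sq_nonneg _)
    (Finset.mem_univ h)

end Crest.Agent.R165.MacC4x943
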