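import Crest.Agent.R165.MacC4_943
import Crest.Agent.R165.MacT_610
import Crest.Agent.R165.Lim3_943

/-!
# Row 165 (S0250), M3: the limit is holomorphic off the sources

`gz_near` : comparison of the gauges centred at two close points
`exOn` : near a point off the sources the gauged fields are exact solutions
`F1` : the pointwise limit in the gauge centred at the point
-/

set_option autoImplicit false

noncomputable section

namespace Crest.Agent.R165.MacC5x943

open Filter Topology MeasureTheory Metric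
open Crest.ProbabilityR.IsingModel
open Crest.Agent.R165.Tr1x40 hiding sq2 pt
open Crest.Agent.R165.Tr2x40
open Crest.Agent.R165.RIfx891 (lv)
open Crest.Agent.R165.Mac0x622 Crest.Agent.R165.Mac1x622
open Crest.Agent.R165.MacIx610 (Bdd NCo)
open Crest.Agent.R165.Lim1x943 (pt flr LocUnif)
open Crest.Agent.R165.Lim2x943 (sq2)
open Crest.Agent.R165.Lim3x943 (ExOn lc)
open Crest.Agent.R165.Relx943 (N2 dif1 dif2 N2_shift)
open Crest.Agent.R165.PotAx894 (FS lap Q)
open Crest.Agent.R165.Embx622 (emb)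
open Crest.Agent.R165.MacC1x943 Crest.Agent.R165.MacC2x943 Crest.Agent.R165.MacC3x943
open Crest.Agent.R165.MacC4x943

theorem lc_eq_lv (c : ℂ) (h : Fin 4) : lc c h = lv c h := by
  fin_cases h <;> rfl

theorem pt_eq (a : ℝ) (f : Face) : pt (1 / a) f = meshPoint a f := by
  apply Complex.ext
  · simp only [pt, meshPoint_re]
    rw [div_div_eq_mul_div, div_one, mul_comm]
  · simp only [pt, meshPoint_im]
    rw [div_div_eq_mul_div, div_one, mul_comm]

/-- the height comparison is eventually decided off the horizontal line of the tip -/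
theorem height_ev {a : ℕ → ℝ} (hpos : ∀ k, 0 < a k) (hlim : Tendsto a atTop (𝓝 0))
    {v : ℕ → Face} {y : ℂ} (tip : Tendsto (fun k => meshPoint (a k) (v k)) atTop (𝓝 y)) {u : ℂ}
    (hu : y.im ≠ u.im) : ∀ᶠ k in atTop, ((v k).2 ≤ (meshIndex (a k) u).2 ↔ y.im < u.im) := by
  have ti : Tendsto (fun k => a k * ((v k).2 : ℝ)) atTop (𝓝 y.im) :=
    (Complex.continuous_im.tendsto _).comp tip
  have tu : Tendsto (fun k => a k * ((meshIndex (a k) u).2 : ℝ)) atTop (𝓝 u.im) := by
    have h1 : Tendsto (fun k => meshPoint (a k) (meshIndex (a k) u)) atTop (𝓝 u) := by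
      rw [tendsto_iff_norm_sub_tendsto_zero]
      refine squeeze_zero (fun _ => norm_nonneg _) (fun k => Upx622.norm_mesh_sub (hpos k) u) ?_
      simpa using hlim.const_mul 2
    exact (Complex.continuous_im.tendsto _).comp h1
  rcases lt_or_gt_of_ne hu with h | h
  · have h1 := ti.eventually (eventually_lt_nhds (show y.im < (y.im + u.im) / 2 by linarith))
    have h2 := tu.eventually (eventually_gt_nhds (show u.im > (y.im + u.im) / 2 by linarith))
    filter_upwards [h1, h2] with k h1 h2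
    have h3 : ((v k).2 : ℝ) < ((meshIndex (a k) u).2 : ℝ) :=
      lt_of_mul_lt_mul_left (h1.trans h2) (hpos k).le
    have h4 : (v k).2 < (meshIndex (a k) u).2 := by exact_mod_cast h3
    exact ⟨fun _ => h, fun _ => h4.le⟩
  · have h1 := ti.eventually (eventually_gt_nhds (show y.im > (y.im + u.im) / 2 by linarith))
    have h2 := tu.eventually (eventually_lt_nhds (show u.im < (y.im + u.im) / 2 by linarith))
    filter_upwards [h1, h2] with k h1 h2
    have h3 : ((meshIndex (a k) u).2 : ℝ) < ((v k).2 : ℝ) :=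
      lt_of_mul_lt_mul_left (h2.trans h1) (hpos k).le
    have h4 : (meshIndex (a k) u).2 < (v k).2 := by exact_mod_cast h3
    exact ⟨fun h5 => absurd h5 (not_le.2 h4), fun h5 => absurd h5 (not_lt.2 h.le)⟩

/-- comparison of the gauges centred at close points -/
theorem gz_near {n : ℕ} {x : Fin n → ℂ} {a : ℕ → ℝ} (hpos : ∀ k, 0 < a k)
    (hlim : Tendsto a atTop (𝓝 0)) {V : ℕ → Fin n → Face}
    (tip : ∀ i, Tendsto (fun k => meshPoint (a k) (V k i)) atTop (𝓝 (x i))) {z₁ : ℂ}
    (hz₁ : ∀ i, x i ≠ z₁) :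
    ∃ ρ > 0, ∀ z ∈ ball z₁ ρ, ∀ᶠ k in atTop,
      gz x z (V k) (meshIndex (a k) z) = gc x z₁ z * gz x z₁ (V k) (meshIndex (a k) z) := by
  classical
  have key : ∀ i, ∃ ρ > 0, ∀ z ∈ ball z₁ ρ, ∀ᶠ k in atTop,
      (if rel (x i) z ∧ (V k i).2 ≤ (meshIndex (a k) z).2 then (-1 : ℝ) else 1) =
        (if rel (x i) z₁ ∧ (x i).im < z.im then (-1 : ℝ) else 1) *
          (if rel (x i) z₁ ∧ (V k i).2 ≤ (meshIndex (a k) z).2 then (-1 : ℝ) else 1) := by
    intro i
    have hre : ∀ {z : ℂ} {ρ : ℝ}, z ∈ ball z₁ ρ → |z.re - z₁.re| < ρ ∧ |z.im - z₁.im| < ρ := by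
      intro z ρ hz
      rw [mem_ball, dist_eq_norm] at hz
      have h1 := (Complex.abs_re_le_norm (z - z₁)).trans_lt hz
      have h2 := (Complex.abs_im_le_norm (z - z₁)).trans_lt hz
      rw [Complex.sub_re] at h1
      rw [Complex.sub_im] at h2
      exact ⟨h1, h2⟩
    by_cases hrel : rel (x i) z₁
    · refine ⟨z₁.re - (x i).re, by linarith [hrel.2], fun z hz => ?_⟩
      have h1 := (abs_lt.1 (hre hz).1).1
      have hlt : (x i).re < z.re := by linarith
      by_cases him : (x i).im = z.im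
      · have hrz : rel (x i) z := ⟨him, hlt⟩
        have hnl : ¬ (x i).im < z.im := by rw [him]; exact lt_irrefl _
        refine Eventually.of_forall fun k => ?_
        simp [hrel, hrz, hnl]
      · have hrz : ¬ rel (x i) z := fun hc => him hc.1
        filter_upwards [height_ev hpos hlim (tip i) him] with k hk
        by_cases h3 : (x i).im < z.im
        · have := hk.2 h3
          simp [hrel, hrz, h3, this]
        · have : ¬ (V k i).2 ≤ (meshIndex (a k) z).2 := fun hc => h3 (hk.1 hc)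
          simp [hrz, h3, this]
    · have hrz : ∃ ρ > 0, ∀ z ∈ ball z₁ ρ, ¬ rel (x i) z := by
        by_cases him : (x i).im = z₁.im
        · have h2 : z₁.re < (x i).re := by
            rcases lt_trichotomy (x i).re z₁.re with h | h | h
            · exact absurd ⟨him, h⟩ hrel
            · exact absurd (Complex.ext h him) (hz₁ i)
            · exact h
          refine ⟨(x i).re - z₁.re, by linarith, fun z hz hc => ?_⟩
          have h3 := (abs_lt.1 (hre hz).1).2
          have := hc.2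
          linarith
        · refine ⟨|(x i).im - z₁.im|, abs_pos.2 (sub_ne_zero.2 him), fun z hz hc => ?_⟩
          have h3 := (hre hz).2
          rw [← hc.1] at h3
          exact lt_irrefl _ h3
      obtain ⟨ρ, hρ, hb⟩ := hrz
      refine ⟨ρ, hρ, fun z hz => Eventually.of_forall fun k => ?_⟩
      simp [hrel, hb z hz]
  choose ρ hρ hk using key
  obtain ⟨r, hr0, hr⟩ : ∃ r > 0, ∀ i, r ≤ ρ i := by
    rcases isEmpty_or_nonempty (Fin n) with he | he
    · exact ⟨1, one_pos, fun i => (he.false i).elim⟩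
    · refine ⟨Finset.univ.inf' Finset.univ_nonempty ρ, ?_, fun i =>
        Finset.inf'_le ρ (Finset.mem_univ i)⟩
      rw [gt_iff_lt, Finset.lt_inf'_iff]
      exact fun i _ => hρ i
  refine ⟨r, hr0, fun z hz => ?_⟩
  filter_upwards [eventually_all.2 fun i => hk i z (ball_subset_ball (hr i) hz)] with k hk
  unfold gz gc
  rw [← Finset.prod_mul_distrib]
  exact Finset.prod_congr rfl fun i _ => hk i

/-- the gauged field, normalised -/
def gf {n : ℕ} (x : Fin n → ℂ) (z₁ : ℂ) (a : ℕ → ℝ) (V : ℕ → Fin n → Face) (φ : ℕ → Fld) :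
    ℕ → Fld := fun k f h => a k * (gz x z₁ (V k) f * φ k f h)

/-- the gauged fields are exact near `z₁` -/
theorem exOn {n : ℕ} {x : Fin n → ℂ} {a : ℕ → ℝ} {w φ : ℕ → Fld} {V : ℕ → Fin n → Face}
    (hpos : ∀ k, 0 < a k) (hφ : Bdd a φ) {U : Filter ℕ} (hU : U ≤ atTop) {z₁ : ℂ} {ρ : ℝ}
    (hρ : 0 < ρ)
    (hw : ∀ᶠ k in atTop, ∀ f : Face, ‖meshPoint (a k) f - z₁‖ < ρ → ∀ h,
      w k f h = xc * (gz x z₁ (V k) f * gz x z₁ (V k) (nb f h)))
    (hex : ∀ᶠ k in atTop, ∀ f : Face, ‖meshPoint (a k) f - z₁‖ < ρ → ∀ h,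
      A (w k) (φ k) f h = 0) :
    ExOn U (fun k => 1 / a k) (ball z₁ (ρ / 2)) (fun _ => cst xc) (gf x z₁ a V φ) := by
  intro K _ hKΩ
  obtain ⟨Cf, hCf⟩ := hφ
  refine ⟨ρ / 4, by positivity, Cf, ?_⟩
  filter_upwards [hU hw, hU hex, hU hCf] with k h1 h2 h3 f hf
  have ha := hpos k
  simp only [pt_eq] at hf
  have hf1 := hKΩ hf
  rw [mem_ball, dist_eq_norm] at hf1
  refine ⟨fun g _ h => rfl, fun g hg h => ?_, ?_⟩
  · have hg1 : ‖meshPoint (a k) g - z₁‖ < ρ := by
      rw [PotAx894.mem_Q] at hg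
      have hfl : (⌊ρ / 4 * (1 / a k)⌋₊ : ℝ) ≤ ρ / 4 * (1 / a k) := Nat.floor_le (by positivity)
      have e1 : |((g.1 - f.1 : ℤ) : ℝ)| ≤ ρ / 4 * (1 / a k) := by
        have h4 : |((g.1 - f.1 : ℤ) : ℝ)| ≤ (⌊ρ / 4 * (1 / a k)⌋₊ : ℝ) := by
          rw [← Int.cast_abs]; exact_mod_cast hg.1
        exact h4.trans hfl
      have e2 : |((g.2 - f.2 : ℤ) : ℝ)| ≤ ρ / 4 * (1 / a k) := by
        have h4 : |((g.2 - f.2 : ℤ) : ℝ)| ≤ (⌊ρ / 4 * (1 / a k)⌋₊ : ℝ) := by
          rw [← Int.cast_abs]; exact_mod_cast hg.2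
        exact h4.trans hfl
      have e3 := Upx622.meshPoint_sub (a k) g f
      rw [abs_of_pos ha] at e3
      have e4 : a k * (|((g.1 - f.1 : ℤ) : ℝ)| + |((g.2 - f.2 : ℤ) : ℝ)|) ≤ ρ / 2 := by
        calc a k * (|((g.1 - f.1 : ℤ) : ℝ)| + |((g.2 - f.2 : ℤ) : ℝ)|)
            ≤ a k * (ρ / 4 * (1 / a k) + ρ / 4 * (1 / a k)) := by gcongr
          _ = ρ / 2 := by field_simp; ring
      have e5 : ‖meshPoint (a k) g - z₁‖ ≤ ‖meshPoint (a k) g - meshPoint (a k) f‖ +
          ‖meshPoint (a k) f - z₁‖ := norm_sub_le_norm_sub_add_norm_sub _ _ _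
      linarith
    have e1 : A (cst xc) (fun f h => gz x z₁ (V k) f * φ k f h) g h =
        gz x z₁ (V k) g * A (w k) (φ k) g h := by
      rw [← A_gauge (gz x z₁ (V k)) (w k) (φ k) g h (gz_sq _ _ _ _)]
      apply A_congr
      simp only [cst, gw]
      rw [h1 g hg1 h]
      have h1 := gz_sq x z₁ (V k) g
      have h2 := gz_sq x z₁ (V k) (nb g h)
      linear_combination (-xc * gz x z₁ (V k) (nb g h) ^ 2) * h1 - xc * h2
    unfold gf
    rw [A_smul, e1, h2 g hg1 h, mul_zero, mul_zero]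
  · refine le_trans (le_of_eq ?_) (h3 (Q f ⌊ρ / 4 * (1 / a k)⌋₊))
    unfold Intx811.mass
    rw [Finset.mul_sum]
    refine Finset.sum_congr rfl fun g _ => ?_
    simp only [nsq, gf, Finset.mul_sum]
    refine Finset.sum_congr rfl fun h _ => ?_
    have := gz_sq x z₁ (V k) g
    rw [mul_pow, mul_pow, this, one_mul]

/-- the pointwise limit in the gauge centred at the point -/
def F1 {n : ℕ} (x : Fin n → ℂ) (a : ℕ → ℝ) (V : ℕ → Fin n → Face) (φ : ℕ → Fld)
    (U : Filter ℕ) (z : ℂ) : ℂ :=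
  ⟨limUnder U fun k => gz x z (V k) (meshIndex (a k) z) * φ k (meshIndex (a k) z) 1,
    -limUnder U fun k => gz x z (V k) (meshIndex (a k) z) * φ k (meshIndex (a k) z) 3⟩

/-- local description of `F1` -/
theorem F1_spec {O : Set ℂ} {n : ℕ} {x : Fin n → ℂ} {a : ℕ → ℝ} {w : ℕ → Fld}
    {V : ℕ → Fin n → Face} (H : OmSeq O x a w V) (hO : IsOpen O) (hx : ∀ i, x i ∉ O)
    {φ : ℕ → Fld} (hφ : Bdd a φ) (U : Ultrafilter ℕ) (hU : (U : Filter ℕ) ≤ atTop) {z₁ : ℂ}
    (hz : z₁ ∈ O) {r : ℝ} (hr : 0 < r)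
    (hex : ∀ᶠ k in atTop, ∀ f : Face, ‖meshPoint (a k) f - z₁‖ < r → ∀ h,
      A (w k) (φ k) f h = 0) :
    ∃ s > 0, ∃ f₁ : ℂ → ℂ, DifferentiableOn ℂ f₁ (ball z₁ s) ∧
      (∀ h, LocUnif U (fun k => 1 / a k) (ball z₁ s)
        (fun k f => gz x z₁ (V k) f * φ k f h) fun z => lv (f₁ z) h) ∧
      ∀ z ∈ ball z₁ s, F1 x a V φ U z = (gc x z₁ z : ℂ) * f₁ z := by
  obtain ⟨ρ₀, hρ₀, -, hw⟩ := weights_gauge H hO hx hz
  obtain ⟨ρ₂, hρ₂, hnear⟩ := gz_near H.pos H.lim H.tip (z₁ := z₁) (fun i hc => hx i (hc ▸ hz))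
  set ρ := min ρ₀ r with hρ
  have hρ0 : 0 < ρ := lt_min hρ₀ hr
  have hE := exOn (x := x) (V := V) (φ := φ) (w := w) H.pos hφ hU hρ0
    (hw.mono fun k hk f hf => hk f (hf.trans_le (min_le_left _ _)))
    (hex.mono fun k hk f hf => hk f (hf.trans_le (min_le_right _ _)))
  have hrt : Tendsto (fun k => 1 / a k) (U : Filter ℕ) atTop :=
    Relx943.tendsto_one_div (H.tendsto_pos.mono_left hU)
  obtain ⟨h1, h2, h3⟩ := Lim3x943.exact_limit hrt isOpen_ball hE
  set f₁ := Lim3x943.amp U (fun k => 1 / a k) (gf x z₁ a V φ) with hf₁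
  have hgf : ∀ k f h, 1 / a k * gf x z₁ a V φ k f h = gz x z₁ (V k) f * φ k f h := by
    intro k f h
    have := (H.pos k).ne'
    unfold gf
    field_simp
  set s := min (ρ / 2) ρ₂ with hs
  have hs0 : 0 < s := lt_min (by positivity) hρ₂
  have hsub1 : ball z₁ s ⊆ ball z₁ (ρ / 2) := ball_subset_ball (min_le_left _ _)
  have hsub2 : ball z₁ s ⊆ ball z₁ ρ₂ := ball_subset_ball (min_le_right _ _)
  refine ⟨s, hs0, f₁, h1.mono hsub1, fun h => ?_, fun z hz => ?_⟩
  · have := (h2 h).mono hsub1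
    simp only [hgf, lc_eq_lv] at this
    exact this
  · have key : ∀ h, limUnder (U : Filter ℕ) (fun k => gz x z (V k) (meshIndex (a k) z) *
        φ k (meshIndex (a k) z) h) = gc x z₁ z * lv (f₁ z) h := by
      intro h
      have h4 := h3 z (hsub1 hz) h
      simp only [hgf, lc_eq_lv, Relx943.flr_eq] at h4
      have h5 := h4.const_mul (gc x z₁ z)
      refine Tendsto.limUnder_eq (h5.congr' ?_)
      filter_upwards [hU (hnear z (hsub2 hz))] with k hk
      rw [hk]
      ring
    unfold F1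
    rw [key 1, key 3]
    apply Complex.ext
    · simp [lv]
    · simp [lv]

/-- uniform convergence gives `L²` convergence on bounded sets -/
theorem E_of_unif {U : Filter ℕ} {B : Set ℂ} (hB : volume B ≠ ⊤) (hBm : MeasurableSet B)
    {g : ℕ → ℂ → ℝ} (h : ∀ η : ℝ, 0 < η → ∀ᶠ k in U, ∀ z ∈ B, |g k z| ≤ η) :
    Tendsto (fun k => E (volume.restrict B) (g k)) U (𝓝 0) := by
  rw [E_tendsto_zero]
  rw [ENNReal.tendsto_nhds_zero]
  intro ε hε
  -- choose `η` with `η² vol ≤ ε`
  have ht : Tendsto (fun η : ℝ => ENNReal.ofReal (η ^ 2) * volume B) (𝓝[>] 0) (𝓝 0) := by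
    have h1 : Tendsto (fun η : ℝ => ENNReal.ofReal (η ^ 2)) (𝓝[>] 0) (𝓝 0) := by
      have h2 : Tendsto (fun η : ℝ => η ^ 2) (𝓝 0) (𝓝 0) := by
        have := (continuous_pow 2).tendsto (0 : ℝ)
        simpa using this
      have := ENNReal.tendsto_ofReal (h2.mono_left (nhdsWithin_le_nhds (s := Set.Ioi (0 : ℝ))))
      simpa using this
    have := ENNReal.Tendsto.mul_const h1 (Or.inr hB)
    simpa using this
  have hev := (ENNReal.tendsto_nhds_zero.1 ht) ε hε
  obtain ⟨η, hη1, hη2⟩ := (hev.and self_mem_nhdsWithin).exists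
  filter_upwards [h η hη2] with k hk
  refine le_trans ?_ hη1
  calc (∫⁻ z in B, sq2 (g k z)) ≤ ∫⁻ _ in B, ENNReal.ofReal (η ^ 2) := by
        refine setLIntegral_mono' hBm fun z hz => ?_
        exact ENNReal.ofReal_le_ofReal (sq_le_sq' (abs_le.1 (hk z hz)).1 (abs_le.1 (hk z hz)).2)
    _ = ENNReal.ofReal (η ^ 2) * volume B := by
        rw [lintegral_const, Measure.restrict_apply_univ]

/-- the strong limit is the light field of `F1` off the sources -/
theorem F1_ae {O : Set ℂ} {n : ℕ} {x : Fin n → ℂ} {a : ℕ → ℝ} {w : ℕ → Fld}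
    {V : ℕ → Fin n → Face} (H : OmSeq O x a w V) (hO : IsOpen O) (hx : ∀ i, x i ∉ O)
    {φ : ℕ → Fld} (hφ : Bdd a φ) (U : Ultrafilter ℕ) (hU : (U : Filter ℕ) ≤ atTop) {z₁ : ℂ}
    (hz : z₁ ∈ O) {r : ℝ} (hr : 0 < r)
    (hex : ∀ᶠ k in atTop, ∀ f : Face, ‖meshPoint (a k) f - z₁‖ < r → ∀ h,
      A (w k) (φ k) f h = 0) {h : Fin 4} {Φ : ℂ → ℝ} (hΦ : MemLp Φ 2)
    (hc : Tendsto (fun k => E volume (fun z => emb (a k) (fun f => φ k f h) z - Φ z)) U (𝓝 0)) :
    ∃ s > 0, ∀ᵐ z ∂(volume.restrict (ball z₁ s)), Φ z = lv (F1 x a V φ U z) h := by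
  obtain ⟨s, hs, f₁, hd, hu, hF⟩ := F1_spec H hO hx hφ U hU hz hr hex
  have hrt : Tendsto (fun k => 1 / a k) (U : Filter ℕ) atTop :=
    Relx943.tendsto_one_div (H.tendsto_pos.mono_left hU)
  refine ⟨s / 2, by positivity, ?_⟩
  set B := ball z₁ (s / 2) with hB
  have hcl : closedBall z₁ (s / 2) ⊆ ball z₁ s := closedBall_subset_ball (by linarith)
  have hBs : B ⊆ ball z₁ s := ball_subset_closedBall.trans hcl
  have hcont : ContinuousOn (fun z => lv (f₁ z) h) (ball z₁ s) :=
    (lv_continuous h).comp_continuousOn hd.continuousOn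
  -- uniform convergence on `B`
  have t2 : Tendsto (fun k => E (volume.restrict B) (fun z =>
      emb (a k) (fun f => gz x z₁ (V k) f * φ k f h) z - lv (f₁ z) h)) U (𝓝 0) := by
    refine E_of_unif measure_ball_lt_top.ne measurableSet_ball fun η hη => ?_
    have := (hu h).unif hrt isOpen_ball hcont (isCompact_closedBall z₁ (s / 2)) hcl hη
    filter_upwards [this] with k hk z hz
    have := hk z (ball_subset_closedBall hz)
    rwa [Relx943.flr_eq] at this
  -- gauged strong convergence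
  have t1 : Tendsto (fun k => E (volume.restrict B) (fun z =>
      gc x z₁ z * Φ z - emb (a k) (fun f => gz x z₁ (V k) f * φ k f h) z)) U (𝓝 0) := by
    have herr := (gauge_err (B := B) H.pos H.lim H.tip z₁ (hΦ.restrict B)).mono_left hU
    have hsum := hc.add herr
    rw [add_zero] at hsum
    refine tendsto_of_tendsto_of_tendsto_of_le_of_le tendsto_const_nhds hsum (fun _ => zero_le)
      fun k => ?_
    have hΦm : AEStronglyMeasurable Φ (volume.restrict B) := hΦ.1.restrict
    have hm1 : AEStronglyMeasurable (fun z => -(emb (a k) (gz x z₁ (V k)) z *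
        (emb (a k) (fun f => φ k f h) z - Φ z))) (volume.restrict B) :=
      (((Embx622.emb_measurable _ _).aestronglyMeasurable).mul
        ((Embx622.emb_measurable _ _).aestronglyMeasurable.sub hΦm)).neg
    have hm2 : AEStronglyMeasurable (fun z => -((emb (a k) (gz x z₁ (V k)) z - gc x z₁ z) * Φ z))
        (volume.restrict B) :=
      (((Embx622.emb_measurable _ _).sub (measurable_gc x z₁)).aestronglyMeasurable.mul hΦm).neg
    calc E (volume.restrict B) (fun z =>
          gc x z₁ z * Φ z - emb (a k) (fun f => gz x z₁ (V k) f * φ k f h) z)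
        = E (volume.restrict B) (fun z => -(emb (a k) (gz x z₁ (V k)) z *
          (emb (a k) (fun f => φ k f h) z - Φ z)) +
            -((emb (a k) (gz x z₁ (V k)) z - gc x z₁ z) * Φ z)) := by
          congr 1
          funext z
          simp only [emb]
          ring
      _ ≤ E (volume.restrict B) (fun z => -(emb (a k) (gz x z₁ (V k)) z *
          (emb (a k) (fun f => φ k f h) z - Φ z))) +
          E (volume.restrict B) (fun z => -((emb (a k) (gz x z₁ (V k)) z - gc x z₁ z) * Φ z)) :=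
          E_add_le hm1 hm2
      _ ≤ _ := by
          refine add_le_add ?_ (le_of_eq ?_)
          · refine le_trans (le_of_eq ?_) (E_restrict_le B _)
            refine eLpNorm_congr_norm_ae (Eventually.of_forall fun z => ?_)
            rw [norm_neg, norm_mul]
            have : ‖emb (a k) (gz x z₁ (V k)) z‖ = 1 := gz_abs _ _ _ _
            rw [this, one_mul]
          · exact eLpNorm_congr_norm_ae (Eventually.of_forall fun z => norm_neg _)
  have t3 : E (volume.restrict B) (fun z => gc x z₁ z * Φ z - lv (f₁ z) h) = 0 := by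
    have hsum := t1.add t2
    rw [add_zero] at hsum
    refine le_antisymm (ge_of_tendsto' hsum fun k => ?_) zero_le
    have hΦm : AEStronglyMeasurable Φ (volume.restrict B) := hΦ.1.restrict
    have hlm : AEStronglyMeasurable (fun z => lv (f₁ z) h) (volume.restrict B) :=
      (hcont.mono hBs).aestronglyMeasurable measurableSet_ball
    calc E (volume.restrict B) (fun z => gc x z₁ z * Φ z - lv (f₁ z) h)
        = E (volume.restrict B) (fun z => (gc x z₁ z * Φ z -
          emb (a k) (fun f => gz x z₁ (V k) f * φ k f h) z) +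
          (emb (a k) (fun f => gz x z₁ (V k) f * φ k f h) z - lv (f₁ z) h)) := by
          congr 1
          funext z
          ring
      _ ≤ _ := E_add_le
          (((measurable_gc x z₁).aestronglyMeasurable.mul hΦm).sub
            (Embx622.emb_measurable _ _).aestronglyMeasurable)
          ((Embx622.emb_measurable _ _).aestronglyMeasurable.sub hlm)
  have hΦm : AEStronglyMeasurable Φ (volume.restrict B) := hΦ.1.restrict
  have hlm : AEStronglyMeasurable (fun z => lv (f₁ z) h) (volume.restrict B) :=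
    (hcont.mono hBs).aestronglyMeasurable measurableSet_ball
  have h6 := (eLpNorm_eq_zero_iff (((measurable_gc x z₁).aestronglyMeasurable.mul hΦm).sub hlm)
    (by norm_num)).1 t3
  filter_upwards [h6, ae_restrict_mem measurableSet_ball] with z hz1 hz2
  have h7 : gc x z₁ z * Φ z - lv (f₁ z) h = 0 := hz1
  rw [hF z (hBs hz2), lv_real_mul]
  have h8 := gc_sq x z₁ z
  linear_combination (gc x z₁ z) * h7 - Φ z * h8

end Crest.Agent.R165.MacC5x943
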