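import Crest.Agent.R165.MacC5_943

/-!
# Row 165 (S0250), M3: **the compactness theorem** `Comp D` of `MacI_610`
-/

set_option autoImplicit false
set_option linter.unusedSimpArgs false
set_option linter.unusedVariables false

noncomputable section

namespace Crest.Agent.R165.MacC6x943

open Filter Topology MeasureTheory Metric
open Crest.ProbabilityR.IsingModel
open Crest.Agent.R165.Tr1x40 hiding sq2 pt
open Crest.Agent.R165.Tr2x40
open Crest.Agent.R165.RIfx891 (lv lv_amp)
open Crest.Agent.R165.Mac0x622 Crest.Agent.R165.Mac1x622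
open Crest.Agent.R165.MacIx610
open Crest.Agent.R165.Lim2x943 (sq2)
open Crest.Agent.R165.PotAx894 (FS)
open Crest.Agent.R165.Embx622 (emb)
open Crest.Agent.R165.MacC1x943 Crest.Agent.R165.MacC2x943 Crest.Agent.R165.MacC3x943
open Crest.Agent.R165.MacC4x943 Crest.Agent.R165.MacC5x943

theorem Pl_sub (p q : Fin 4 → ℝ) (h : Fin 4) : Pl p h - Pl q h = Pl (fun j => p j - q j) h := by
  fin_cases h <;> simp only [Pl, inv_2sq2] <;> ring

theorem abs_Pl_le (p : Fin 4 → ℝ) (h : Fin 4) : |Pl p h| ≤ ∑ j, |p j| := by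
  have h1 : Pl p h ^ 2 ≤ (∑ j, |p j|) ^ 2 := by
    calc Pl p h ^ 2 ≤ nsq (Pl p) := Finset.single_le_sum (f := fun b => Pl p b ^ 2)
          (fun _ _ => sq_nonneg _) (Finset.mem_univ h)
      _ ≤ nsq p := by rw [← lt_eq_nsq]; exact lt_le p
      _ = ∑ j, |p j| ^ 2 := by simp only [nsq, sq_abs]
      _ ≤ (∑ j, |p j|) ^ 2 := by
          simp only [Fin.sum_univ_four]
          have h0 := abs_nonneg (p 0)
          have h1 := abs_nonneg (p 1)
          have h2 := abs_nonneg (p 2)
          have h3 := abs_nonneg (p 3)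
          nlinarith [mul_nonneg h0 h1, mul_nonneg h0 h2, mul_nonneg h0 h3, mul_nonneg h1 h2,
            mul_nonneg h1 h3, mul_nonneg h2 h3]
  exact abs_le_of_sq_le_sq h1 (Finset.sum_nonneg fun _ _ => abs_nonneg _)

theorem Pl_lv (c : ℂ) (h : Fin 4) : Pl (lv c) h = lv c h := by
  have h2 := Tr1x40.sq2
  fin_cases h <;> simp only [Pl, lv, inv_2sq2, div_sq2, Fin.zero_eta, Fin.mk_one,
    Fin.reduceFinMk]
  · linear_combination (0 : ℝ) * h2
  · linear_combination (c.re / 4) * h2
  · linear_combination (0 : ℝ) * h2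
  · linear_combination (-c.im / 4) * h2

theorem continuous_Pl (h : Fin 4) : Continuous fun p : Fin 4 → ℝ => Pl p h := by
  fin_cases h <;> simp only [Pl, Fin.zero_eta, Fin.mk_one, Fin.reduceFinMk] <;> fun_prop

theorem memLp_Pl {Φ : Fin 4 → ℂ → ℝ} (hΦ : ∀ h, MemLp (Φ h) 2) (h : Fin 4) :
    MemLp (fun z => Pl (fun j => Φ j z) h) 2 := by
  have h1 : MemLp (fun z => ∑ j, ‖Φ j z‖) 2 := memLp_finsetSum _ fun j _ => (hΦ j).norm
  refine h1.of_le ?_ (Eventually.of_forall fun z => ?_)
  · exact ((continuous_Pl h).measurable.comp_aemeasurable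
      (aemeasurable_pi_lambda _ fun j => (hΦ j).1.aemeasurable)).aestronglyMeasurable
  · rw [Real.norm_eq_abs, Real.norm_eq_abs,
      abs_of_nonneg (Finset.sum_nonneg fun _ _ => norm_nonneg _)]
    exact abs_Pl_le _ h

theorem E_Pl_le {μ : Measure ℂ} {Φ : Fin 4 → ℂ → ℝ} (hΦ : ∀ h, AEStronglyMeasurable (Φ h) μ)
    (h : Fin 4) : E μ (fun z => Pl (fun j => Φ j z) h) ≤ ∑ j, E μ (Φ j) := by
  calc E μ (fun z => Pl (fun j => Φ j z) h) ≤ E μ (fun z => ∑ j, ‖Φ j z‖) := by
        refine eLpNorm_mono_real fun z => ?_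
        exact abs_Pl_le _ h
    _ ≤ ∑ j, E μ (fun z => ‖Φ j z‖) := by
        have := eLpNorm_sum_le (μ := μ) (p := 2) (s := Finset.univ)
          (f := fun (j : Fin 4) z => ‖Φ j z‖) (fun j _ => (hΦ j).norm) (by norm_num)
        refine le_trans (le_of_eq ?_) this
        unfold E
        congr 1
    _ = ∑ j, E μ (Φ j) := Finset.sum_congr rfl fun j _ => eLpNorm_norm _

theorem ae_of_local {p : ℂ → Prop} {Ω : Set ℂ} (hΩ : MeasurableSet Ω)
    (h : ∀ z ∈ Ω, ∃ s > 0, ∀ᵐ u ∂(volume.restrict (ball z s)), p u) : ∀ᵐ z, z ∈ Ω → p z := by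
  rw [ae_iff]
  refine measure_null_of_locally_null _ fun z hz => ?_
  have hzΩ : z ∈ Ω := by
    by_contra hc
    exact hz fun h => absurd h hc
  obtain ⟨s, hs, hp⟩ := h z hzΩ
  refine ⟨{u | ¬ (u ∈ Ω → p u)} ∩ ball z s,
    Filter.inter_mem self_mem_nhdsWithin (mem_nhdsWithin_of_mem_nhds (ball_mem_nhds z hs)), ?_⟩
  rw [ae_restrict_iff' measurableSet_ball, ae_iff] at hp
  refine measure_mono_null ?_ hp
  rintro u ⟨hu1, hu2⟩ hc
  exact hu1 fun _ => hc hu2

/-- **COMPACTNESS** for every open `D` with the a priori bounds -/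
theorem comp {D : Set ℂ} (hD : IsOpen D) (hBN : BddNC D) : Comp D := by
  classical
  intro n x hx K hK hKO G hG a w V H g φ S U hU
  obtain ⟨hφ, hNC⟩ := hBN n x hx K hK hKO G hG a w V H g φ S
  have HO := H.omSeq
  have hO : IsOpen (Om D x) := hD.sdiff (Set.finite_range x).isClosed
  have hxO : ∀ i, x i ∉ Om D x := fun i hc => hc.2 ⟨i, rfl⟩
  have hg : Bdd a g := by
    choose C hC0 hC using fun h => MacNC2x917.mass_bd H.pos (hG h) (S.conv h)
    refine ⟨∑ h, C h, ?_⟩
    filter_upwards [eventually_all.2 hC] with k hk T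
    simp only [nsq]
    rw [Finset.sum_comm, Finset.mul_sum]
    exact Finset.sum_le_sum fun h _ => hk h T
  have hfin : ∀ k, FSF (φ k) := by
    intro k h
    obtain ⟨I, hI⟩ := S.fin k
    exact FS.of_finset I fun f hf => by rw [hI f hf]; rfl
  choose Φ hΦ hΦ0 hc using fun h => global_lim HO hO hxO hg hφ hNC hfin S.eqn U hU h
  have hhv := fun h => (heavy_lim H.pos H.lim H.sym (fun k f h => H.plus k f h) hg hφ S.fin S.eqn
    h).mono_left hU
  have hΩ : IsOpen (Om D x \ K) := hO.sdiff hK.isClosed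
  have hex : ∀ z₁ ∈ Om D x \ K, ∃ r > 0, ∀ᶠ k in atTop, ∀ f : Face,
      ‖meshPoint (a k) f - z₁‖ < r → ∀ h, A (w k) (φ k) f h = 0 := by
    intro z₁ hz₁
    obtain ⟨r, hr, hb⟩ := Metric.isOpen_iff.1 hK.isClosed.isOpen_compl z₁ hz₁.2
    refine ⟨r, hr, Eventually.of_forall fun k f hf h => ?_⟩
    rw [S.eqn, S.supp k f (hb (by rwa [mem_ball, dist_eq_norm])) h, mul_zero]
  set F₁ := F1 x a V φ U with hF₁
  set F : ℂ → ℂ := fun z => if z ∈ Om D x \ K then F₁ z else
    if z ∈ D then RIfx891.amp (fun j => Φ j z) else 0 with hF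
  -- the light field of `F` is the light part of the limit
  have hF1 : ∀ᵐ z, z ∈ Om D x \ K → ∀ h, Φ h z = lv (F₁ z) h := by
    refine ae_of_local hΩ.measurableSet fun z₁ hz₁ => ?_
    obtain ⟨r, hr, he⟩ := hex z₁ hz₁
    choose s hs hp using fun h => F1_ae HO hO hxO hφ U hU hz₁.1 hr he (hΦ h) (hc h)
    obtain ⟨t, ht0, ht⟩ : ∃ t > 0, ∀ h, t ≤ s h := by
      refine ⟨Finset.univ.inf' Finset.univ_nonempty s, ?_, fun i =>
        Finset.inf'_le s (Finset.mem_univ i)⟩
      rw [gt_iff_lt, Finset.lt_inf'_iff]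
      exact fun i _ => hs i
    refine ⟨t, ht0, ?_⟩
    rw [ae_all_iff]
    exact fun h => ae_restrict_of_ae_restrict_of_subset (ball_subset_ball (ht h)) (hp h)
  have hae : ∀ᵐ z, ∀ h, lv (F z) h = Pl (fun j => Φ j z) h := by
    filter_upwards [hF1, ae_all_iff.2 hΦ0] with z h1 h2 h
    rw [hF]
    by_cases hz : z ∈ Om D x \ K
    · simp only [hz, if_true]
      have e : (fun j => Φ j z) = lv (F₁ z) := funext fun j => h1 hz j
      rw [e, Pl_lv]
    · by_cases hz' : z ∈ D
      · simp only [hz, hz', if_true, if_false]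
        exact lv_amp _ h
      · simp only [hz, hz', if_false]
        have e : (fun j => Φ j z) = fun _ => 0 :=
          funext fun j => h2 j fun hc => hz' hc.1
        rw [e]
        fin_cases h <;> simp [lv, Pl]
  refine ⟨F, ⟨?_, ?_, fun h => ?_, ?_⟩⟩
  · -- `L²`
    rw [← memLp_re_im_iff]
    constructor
    · refine (memLp_Pl hΦ 1).ae_eq ?_
      filter_upwards [hae] with z hz
      exact (hz 1).symm
    · refine (memLp_Pl hΦ 3).neg.ae_eq ?_
      filter_upwards [hae] with z hz
      have := hz 3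
      simp only [lv] at this
      change -Pl (fun j => Φ j z) 3 = (F z).im
      linarith
  · intro z hz
    have h1 : z ∉ Om D x \ K := fun hc => hz hc.1.1
    simp only [hF, h1, hz, if_false]
  · have hconv : Tendsto (fun k => E volume (fun z => emb (a k) (fun f => φ k f h) z -
        lv (F z) h)) U (𝓝 0) := by
      have hsum : Tendsto (fun k => E volume (fun z => emb (a k) (fun f => Ph (φ k f) h) z) +
          ∑ j, E volume (fun z => emb (a k) (fun f => φ k f j) z - Φ j z)) U (𝓝 (0 + ∑ _j, 0)) :=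
        (hhv h).add (tendsto_finsetSum _ fun j _ => hc j)
      simp only [Finset.sum_const_zero, add_zero] at hsum
      refine tendsto_of_tendsto_of_tendsto_of_le_of_le tendsto_const_nhds hsum (fun _ => zero_le)
        fun k => ?_
      have hm : ∀ j, AEStronglyMeasurable (fun z => emb (a k) (fun f => φ k f j) z - Φ j z)
          volume := fun j =>
        (Embx622.emb_measurable _ _).aestronglyMeasurable.sub (hΦ j).1
      have hmPl : AEStronglyMeasurable (fun z => Pl (fun j =>
          emb (a k) (fun f => φ k f j) z - Φ j z) h) volume :=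
        ((continuous_Pl h).measurable.comp_aemeasurable
          (aemeasurable_pi_lambda _ fun j => (hm j).aemeasurable)).aestronglyMeasurable
      calc E volume (fun z => emb (a k) (fun f => φ k f h) z - lv (F z) h)
          = E volume (fun z => emb (a k) (fun f => Ph (φ k f) h) z +
            Pl (fun j => emb (a k) (fun f => φ k f j) z - Φ j z) h) := by
            refine E_congr ?_
            filter_upwards [hae] with z hz
            rw [hz h, ← Pl_sub]
            have e1 : emb (a k) (fun f => φ k f h) z = Ph (φ k (meshIndex (a k) z)) h +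
                Pl (φ k (meshIndex (a k) z)) h := (Ph_add_Pl _ h).symm
            rw [e1]
            simp only [emb]
            ring
        _ ≤ E volume (fun z => emb (a k) (fun f => Ph (φ k f) h) z) +
            E volume (fun z => Pl (fun j => emb (a k) (fun f => φ k f j) z - Φ j z) h) :=
            E_add_le (Embx622.emb_measurable _ _).aestronglyMeasurable hmPl
        _ ≤ _ := add_le_add le_rfl (E_Pl_le hm h)
    exact E_tendsto_zero.1 hconv
  · refine ⟨fun z => F₁ z * U3x719.rX x z, fun z₁ hz₁ => ?_, fun z hz => ?_⟩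
    · obtain ⟨r, hr, he⟩ := hex z₁ hz₁
      obtain ⟨s, hs, f₁, hd, -, hf⟩ := F1_spec HO hO hxO hφ U hU hz₁.1 hr he
      obtain ⟨t, ht, hd2⟩ := MacTx610.gc_rX_diff (x := x) (z := z₁)
        (fun i hc => hxO i (hc ▸ hz₁.1))
      have h1 : DifferentiableAt ℂ (fun u => f₁ u * ((gc x z₁ u : ℂ) * U3x719.rX x u)) z₁ :=
        (hd.differentiableAt (ball_mem_nhds z₁ hs)).mul
          (hd2.differentiableAt (ball_mem_nhds z₁ ht))
      refine (h1.congr_of_eventuallyEq ?_).differentiableWithinAt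
      filter_upwards [ball_mem_nhds z₁ hs] with u hu
      rw [hF₁, hf u hu]
      ring
    · simp only [hF, hz, if_true]

/-- **COMPACTNESS** for bounded open `D` with null boundary -/
theorem comp' {D : Set ℂ} (hD : IsOpen D) (hb : Bornology.IsBounded D)
    (hfr : volume (frontier D) = 0) : Comp D :=
  comp hD (MacNC2x917.bddNC hD hb hfr)

end Crest.Agent.R165.MacC6x943
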