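import Crest.Agent.R165.Mac1_622

/-!
# Row 165 (S0250), U4/MAC (helper622): INTERFACE resolvent convergence

* `Cov40 w S` : covariance of the background `w` in the conventions of `Tr1_40`
* `ResConv Om x CC Q` : `L²_loc` convergence of the solutions of `A φ_k = a_k g_k` with sources
  supported in a compact subset of `Om` and convergent in `L²`, for all sequences of the class `CC`;
  the limit `F` (amplitude of `RIface_891`) depends on the limit source `G` only and satisfies `Q K F`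
* `ClassOK` : what is needed of a class of sequences.
-/

set_option autoImplicit false
set_option linter.unusedVariables false

noncomputable section

open MeasureTheory Filter Topology Set Metric
open Crest.ProbabilityR.IsingModel
open Crest.Agent.R165.Tr1x40 Crest.Agent.R165.RIfx891 Crest.Agent.R165.Embx622
open Crest.Agent.R165.Mac0x622

namespace Crest.Agent.R165.MacIx622

/-- covariance of a background, conventions of `Tr1_40` -/
structure Cov40 (w : Fld) (S : Face × Fin 4 → Face × Fin 4 → ℝ) : Prop where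
  skew : ∀ b b', S b b' = -S b' b
  zero : ∀ b', Tendsto (fun b => S b b') cofinite (𝓝 0)
  inv : ∀ b' f h, A w (fun f h => S (f, h) b') f h = if (f, h) = b' then -1 else 0

/-- **resolvent convergence** (M3) -/
def ResConv (Om : Set ℂ) {n : ℕ} (x : Fin n → ℂ)
    (CC : (ℕ → ℝ) → (ℕ → Fld) → (ℕ → Fin n → Face) → Prop) (Q : Set ℂ → (ℂ → ℂ) → Prop) : Prop :=
  ∀ K : Set ℂ, IsCompact K → K ⊆ Om → ∀ G : ℂ → Fin 4 → ℝ,
    (∀ h, MemLp (fun z => G z h) 2 volume) → (∀ z, z ∉ K → ∀ h, G z h = 0) →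
    ∃ F : ℂ → ℂ, Q K F ∧
      (∃ gg : ℂ → ℂ, ContinuousOn gg (Om \ K) ∧ ∀ z ∈ Om \ K, F z * rX x z = gg z) ∧
      ∀ a w V, CC a w V → ∀ g φ : ℕ → Fld,
        (∀ᶠ k in atTop, ∀ f h, g k f h ≠ 0 → meshPoint (a k) f ∈ K) →
        (∀ h, Tendsto (fun k => ∫⁻ z, ENNReal.ofReal
          ((emb (a k) (fun f => g k f h) z - G z h) ^ 2)) atTop (𝓝 0)) →
        (∀ k, Tendsto (fun b : Face × Fin 4 => φ k b.1 b.2) cofinite (𝓝 0)) →
        (∀ᶠ k in atTop, ∀ f h, A (w k) (φ k) f h = a k * g k f h) →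
        ∀ z₀ ∈ Om, ∃ ρ > 0, ∀ h, Tendsto (fun k => ∫⁻ z in ball z₀ ρ, ENNReal.ofReal
          ((emb (a k) (fun f => φ k f h) z - lv (F z) h) ^ 2)) atTop (𝓝 0)

/-- requirements on a class of sequences of backgrounds -/
structure ClassOK (Om : Set ℂ) {n : ℕ} (x : Fin n → ℂ)
    (CC : (ℕ → ℝ) → (ℕ → Fld) → (ℕ → Fin n → Face) → Prop) : Prop where
  opn : IsOpen Om
  tips : ∀ i, x i ∉ Om
  seq : ∀ a w V, CC a w V → OmSeq Om x a w V
  sub : ∀ a w V, CC a w V → ∀ φ : ℕ → ℕ, StrictMono φ → CC (a ∘ φ) (w ∘ φ) (V ∘ φ)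

theorem classOK_latSeq {D : Set ℂ} (hD : IsOpen D) {n : ℕ} (x : Fin n → ℂ) :
    ClassOK (Om D x) x (LatSeq D x) where
  opn := hD.sdiff (finite_range x).isClosed
  tips i h := h.2 (mem_range_self i)
  seq a w V H := H.omSeq
  sub a w V H φ hφ := H.comp hφ

end Crest.Agent.R165.MacIx622
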