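import Crest.Agent.R165.MacC6_943

/-!
# Row 165 (S0250), M3, local version (plane MAC): **local compactness** `comp_loc`

Only local bounds on compacts of the open set `O`; no finite support, no global bound.
-/

set_option autoImplicit false
set_option linter.unusedSimpArgs false
set_option linter.unusedVariables false

noncomputable section

namespace Crest.Agent.R165.MacL1x943

open Filter Topology MeasureTheory Metric
open Crest.ProbabilityR.IsingModel
open Crest.Agent.R165.Tr1x40 hiding sq2 pt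
open Crest.Agent.R165.Tr2x40
open Crest.Agent.R165.RIfx891 (lv lv_amp)
open Crest.Agent.R165.Mac0x622 Crest.Agent.R165.Mac1x622
open Crest.Agent.R165.MacIx610
open Crest.Agent.R165.Lim1x943 (LocUnif)
open Crest.Agent.R165.Lim2x943 (sq2)
open Crest.Agent.R165.Relx943 (N2 dif1 dif2)
open Crest.Agent.R165.PotAx894 (FS)
open Crest.Agent.R165.Embx622 (emb)
open Crest.Agent.R165.MacC1x943 Crest.Agent.R165.MacC2x943 Crest.Agent.R165.MacC3x943
open Crest.Agent.R165.MacC4x943 Crest.Agent.R165.MacC5x943 Crest.Agent.R165.MacC6x943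

/-- bounds on compacts of `O` -/
def BddL (O : Set ℂ) (a : ℕ → ℝ) (φ : ℕ → Fld) : Prop :=
  ∀ L : Set ℂ, IsCompact L → L ⊆ O → ∃ C : ℝ, ∀ᶠ k in atTop, ∀ S : Finset Face,
    (∀ f ∈ S, meshPoint (a k) f ∈ L) → a k ^ 2 * ∑ f ∈ S, nsq (φ k f) ≤ C

/-- truncation to a ball -/
def tr (z₀ : ℂ) (ρ a : ℝ) (φ : Fld) : Fld := by
  classical exact fun f h => if ‖meshPoint a f - z₀‖ < ρ then φ f h else 0

theorem tr_of_lt {z₀ : ℂ} {ρ a : ℝ} {φ : Fld} {f : Face} (h : ‖meshPoint a f - z₀‖ < ρ) :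
    tr z₀ ρ a φ f = φ f := by
  funext k
  unfold tr
  rw [if_pos h]

theorem tr_of_le {z₀ : ℂ} {ρ a : ℝ} {φ : Fld} {f : Face} (h : ρ ≤ ‖meshPoint a f - z₀‖) :
    tr z₀ ρ a φ f = fun _ => 0 := by
  funext k
  unfold tr
  rw [if_neg (not_lt.2 h)]

theorem tr_bdd {O : Set ℂ} {a : ℕ → ℝ} {φ : ℕ → Fld} (h : BddL O a φ) {z₀ : ℂ} {ρ : ℝ}
    (hρ : closedBall z₀ ρ ⊆ O) : Bdd a fun k => tr z₀ ρ (a k) (φ k) := by
  classical
  obtain ⟨C, hC⟩ := h _ (isCompact_closedBall z₀ ρ) hρ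
  refine ⟨C, ?_⟩
  filter_upwards [hC] with k hk S
  refine le_trans (le_of_eq ?_) (hk (S.filter fun f => ‖meshPoint (a k) f - z₀‖ < ρ) ?_)
  · congr 1
    rw [Finset.sum_filter]
    refine Finset.sum_congr rfl fun f _ => ?_
    split_ifs with hf
    · rw [tr_of_lt hf]
    · rw [tr_of_le (not_lt.1 hf)]
      simp [nsq]
  · intro f hf
    rw [mem_closedBall, dist_eq_norm]
    exact (Finset.mem_filter.1 hf).2.le

theorem A_tr {z₀ : ℂ} {ρ a : ℝ} (ha : 0 < a) (haρ : 4 * a ≤ ρ) (w φ : Fld) {f : Face}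
    (hf : ‖meshPoint a f - z₀‖ < ρ / 2) (h : Fin 4) : A w (tr z₀ ρ a φ) f h = A w φ f h := by
  have h1 : ‖meshPoint a (nb f h) - z₀‖ < ρ := by
    have h2 := norm_mesh_nb ha f h
    have h3 : ‖meshPoint a (nb f h) - z₀‖ ≤ ‖meshPoint a (nb f h) - meshPoint a f‖ +
        ‖meshPoint a f - z₀‖ := norm_sub_le_norm_sub_add_norm_sub _ _ _
    linarith
  have h0 : ‖meshPoint a f - z₀‖ < ρ := by
    have := norm_nonneg (meshPoint a f - z₀)
    linarith
  exact A_congr_field w f h (tr_of_lt h0) (by rw [tr_of_lt h1])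

/-! ### the local lemmas with a local equation -/

/-- pointwise bound of `A` on the localised field -/
theorem A_loc_le' {n : ℕ} {x : Fin n → ℂ} {z₀ : ℂ} {ρ a : ℝ} (hρ : 0 < ρ) (ha : 0 < a)
    (haρ : 6 * a ≤ ρ) {V : Fin n → Face} {w φ g : Fld}
    (hw : ∀ f : Face, ‖meshPoint a f - z₀‖ < ρ → ∀ h,
      w f h = xc * (gz x z₀ V f * gz x z₀ V (nb f h)))
    (heq : ∀ f : Face, ‖meshPoint a f - z₀‖ < ρ → ∀ h, A w φ f h = a * g f h) (f : Face)
    (h : Fin 4) :
    |A (cst xc) (loc x z₀ ρ a V φ) f h| ≤ a * |g f h| + 6 / ρ * a * |φ (nb f h) (op h)| := by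
  have hnb := norm_mesh_nb ha f h
  have hrhs : 0 ≤ a * |g f h| + 6 / ρ * a * |φ (nb f h) (op h)| := by positivity
  have e := A_cut (cst xc) (fun f => cut z₀ ρ (meshPoint a f)) (fun f h => gz x z₀ V f * φ f h) f h
  change A (cst xc) (loc x z₀ ρ a V φ) f h = _ at e
  rw [e]
  by_cases hf : ‖meshPoint a f - z₀‖ < ρ
  · have h1 : A (cst xc) (fun f h => gz x z₀ V f * φ f h) f h = gz x z₀ V f * (a * g f h) := by
      rw [← heq f hf, ← A_gauge (gz x z₀ V) w φ f h (gz_sq _ _ _ _)]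
      apply A_congr
      simp only [cst, gw]
      rw [hw f hf h]
      have h1 := gz_sq x z₀ V f
      have h2 := gz_sq x z₀ V (nb f h)
      linear_combination (-xc * gz x z₀ V (nb f h) ^ 2) * h1 - xc * h2
    rw [h1]
    have h2 : |cut z₀ ρ (meshPoint a f) * (gz x z₀ V f * (a * g f h))| ≤ a * |g f h| := by
      rw [abs_mul, abs_mul, gz_abs, one_mul, abs_mul, abs_of_pos ha,
        abs_of_nonneg (cut_nonneg _ _ _)]
      have := cut_le_one z₀ ρ (meshPoint a f)
      have h2 : 0 ≤ a * |g f h| := by positivity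
      nlinarith
    have h3 : |sg h * cst xc f h * ((cut z₀ ρ (meshPoint a (nb f h)) - cut z₀ ρ (meshPoint a f)) *
        (gz x z₀ V (nb f h) * φ (nb f h) (op h)))| ≤ 6 / ρ * a * |φ (nb f h) (op h)| := by
      rw [abs_mul, abs_mul, abs_mul, abs_mul (gz x z₀ V (nb f h)), gz_abs, one_mul]
      have hs : |sg h| = 1 := by fin_cases h <;> simp [sg]
      have hx : |cst xc f h| ≤ 1 := by
        unfold cst
        rw [abs_of_pos xc_pos]
        have := xc_sq
        have := xc_pos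
        nlinarith
      have hc := cut_lip (z₀ := z₀) hρ (meshPoint a (nb f h)) (meshPoint a f)
      have hc2 : |cut z₀ ρ (meshPoint a (nb f h)) - cut z₀ ρ (meshPoint a f)| ≤ 6 / ρ * a := by
        refine hc.trans ?_
        calc 3 / ρ * ‖meshPoint a (nb f h) - meshPoint a f‖ ≤ 3 / ρ * (2 * a) := by gcongr
          _ = 6 / ρ * a := by ring
      rw [hs, one_mul]
      calc |cst xc f h| * (|cut z₀ ρ (meshPoint a (nb f h)) - cut z₀ ρ (meshPoint a f)| *
            |φ (nb f h) (op h)|)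
          ≤ 1 * (6 / ρ * a * |φ (nb f h) (op h)|) := by gcongr
        _ = _ := one_mul _
    exact (abs_add_le _ _).trans (add_le_add h2 h3)
  · push Not at hf
    have hc1 : cut z₀ ρ (meshPoint a f) = 0 := cut_zero hρ (by linarith)
    have hc2 : cut z₀ ρ (meshPoint a (nb f h)) = 0 := by
      refine cut_zero hρ ?_
      have h1 : ‖meshPoint a f - z₀‖ ≤ ‖meshPoint a f - meshPoint a (nb f h)‖ +
          ‖meshPoint a (nb f h) - z₀‖ := norm_sub_le_norm_sub_add_norm_sub _ _ _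
      rw [norm_sub_rev] at hnb
      linarith
    rw [hc1, hc2]
    simpa using hrhs

/-- `l²` bound of `A` on the localised field -/
theorem N2_A_loc' {n : ℕ} {x : Fin n → ℂ} {z₀ : ℂ} {ρ a : ℝ} (hρ : 0 < ρ) (ha : 0 < a)
    (haρ : 6 * a ≤ ρ) {V : Fin n → Face} {w φ g : Fld}
    (hw : ∀ f : Face, ‖meshPoint a f - z₀‖ < ρ → ∀ h,
      w f h = xc * (gz x z₀ V f * gz x z₀ V (nb f h)))
    (heq : ∀ f : Face, ‖meshPoint a f - z₀‖ < ρ → ∀ h, A w φ f h = a * g f h) (h : Fin 4) :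
    N2 (fun f => A (cst xc) (loc x z₀ ρ a V φ) f h) ≤
      2 * (ENNReal.ofReal (a ^ 2) * N2 fun f => g f h) +
      2 * (ENNReal.ofReal ((6 / ρ) ^ 2) * (ENNReal.ofReal (a ^ 2) * N2 fun f => φ f (op h))) := by
  have h1 : N2 (fun f => A (cst xc) (loc x z₀ ρ a V φ) f h) ≤
      N2 (fun f => a * |g f h| + 6 / ρ * a * |φ (nb f h) (op h)|) := by
    refine N2_mono fun f => ?_
    rw [abs_of_nonneg (by positivity : 0 ≤ a * |g f h| + 6 / ρ * a * |φ (nb f h) (op h)|)]
    exact A_loc_le' hρ ha haρ hw heq f h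
  refine h1.trans ((Relx943.N2_add_le _ _).trans ?_)
  have habs : ∀ u : Face → ℝ, N2 (fun f => |u f|) = N2 u := by
    intro u
    unfold N2 sq2
    simp only [sq_abs]
  have e1 : N2 (fun f => a * |g f h|) = ENNReal.ofReal (a ^ 2) * N2 fun f => g f h := by
    rw [Relx943.N2_mul_left, habs fun f => g f h]
    rfl
  have e2 : N2 (fun f => 6 / ρ * a * |φ (nb f h) (op h)|)
      = ENNReal.ofReal ((6 / ρ) ^ 2) * (ENNReal.ofReal (a ^ 2) * N2 fun f => φ f (op h)) := by
    rw [Relx943.N2_mul_left (6 / ρ * a) fun f => |φ (nb f h) (op h)|,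
      habs fun f => φ (nb f h) (op h), N2_nb (fun f => φ f (op h)) h]
    unfold sq2
    rw [mul_pow, ENNReal.ofReal_mul (sq_nonneg _), mul_assoc]
  rw [e1, e2]

/-- local strong limit, local equation -/
theorem local_lim' {O : Set ℂ} {n : ℕ} {x : Fin n → ℂ} {a : ℕ → ℝ} {w : ℕ → Fld}
    {V : ℕ → Fin n → Face} (H : OmSeq O x a w V) (hO : IsOpen O) (hx : ∀ i, x i ∉ O)
    {g φ : ℕ → Fld} (hg : Bdd a g) (hφ : Bdd a φ) {z₀ : ℂ} (hz : z₀ ∈ O) {r : ℝ} (hr : 0 < r)
    (heq : ∀ᶠ k in atTop, ∀ f : Face, ‖meshPoint (a k) f - z₀‖ < r → ∀ h,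
      A (w k) (φ k) f h = a k * g k f h)
    (U : Ultrafilter ℕ) (hU : (U : Filter ℕ) ≤ atTop) :
    ∃ ρ > 0, ∀ h, ∃ Φ : ℂ → ℝ, MemLp Φ 2 (volume.restrict (ball z₀ ρ)) ∧
      Tendsto (fun k => E (volume.restrict (ball z₀ ρ))
        (fun z => emb (a k) (fun f => φ k f h) z - Φ z)) U (𝓝 0) := by
  obtain ⟨ρ₀, hρ₀, -, hw₀⟩ := weights_gauge H hO hx hz
  set ρ := min ρ₀ r with hρdef
  have hρ : 0 < ρ := lt_min hρ₀ hr
  have hw : ∀ᶠ k in atTop, ∀ f : Face, ‖meshPoint (a k) f - z₀‖ < ρ → ∀ h,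
      w k f h = xc * (gz x z₀ (V k) f * gz x z₀ (V k) (nb f h)) :=
    hw₀.mono fun k hk f hf => hk f (hf.trans_le (min_le_left _ _))
  have heq' : ∀ᶠ k in atTop, ∀ f : Face, ‖meshPoint (a k) f - z₀‖ < ρ → ∀ h,
      A (w k) (φ k) f h = a k * g k f h :=
    heq.mono fun k hk f hf => hk f (hf.trans_le (min_le_right _ _))
  obtain ⟨Cg, hCg⟩ := hg
  obtain ⟨Cf, hCf⟩ := hφ
  have hCg0 : 0 ≤ Cg := by
    obtain ⟨k, hk⟩ := hCg.exists
    simpa using hk ∅
  have hCf0 : 0 ≤ Cf := by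
    obtain ⟨k, hk⟩ := hCf.exists
    simpa using hk ∅
  have hsmall : ∀ᶠ k in atTop, 24 * a k ≤ ρ := by
    have := H.lim.eventually (eventually_le_nhds (show (0 : ℝ) < ρ / 24 by positivity))
    filter_upwards [this] with k hk
    linarith
  refine ⟨ρ / 4, by positivity, fun h => ?_⟩
  set u : ℕ → Face → ℝ := fun k f => loc x z₀ ρ (a k) (V k) (φ k) f h with hu
  have hFSF : ∀ k, FSF (loc x z₀ ρ (a k) (V k) (φ k)) := fun k => loc_FSF x z₀ hρ (H.pos k) _ _
  set M1 : ℝ := CG * (4 * (2 * Cg + 2 * ((6 / ρ) ^ 2 * Cf))) with hM1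
  have hCG := CG_pos
  have hM10 : 0 ≤ M1 := by positivity
  set M : ℝ := max Cf M1 with hM
  have h0 : ∀ᶠ k in atTop, ENNReal.ofReal (a k ^ 2) * N2 (u k) ≤ ENNReal.ofReal M := by
    filter_upwards [hCf] with k hk
    calc ENNReal.ofReal (a k ^ 2) * N2 (u k)
        ≤ ENNReal.ofReal (a k ^ 2) * N2 (fun f => φ k f h) := by
          gcongr
          exact N2_mono fun f => abs_loc_le _ _ _ _ _ _ _ _
      _ ≤ ENNReal.ofReal Cf := N2_le_of_nsq hk h
      _ ≤ ENNReal.ofReal M := ENNReal.ofReal_le_ofReal (le_max_left _ _)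
  have hEN : ∀ᶠ k in atTop, EN (loc x z₀ ρ (a k) (V k) (φ k)) ≤ ENNReal.ofReal M := by
    filter_upwards [hCf, hCg, hsmall, hw, heq'] with k hk1 hk2 hk3 hk4 hk5
    have ha := H.pos k
    have key : ∀ h', N2 (fun f => A (cst xc) (loc x z₀ ρ (a k) (V k) (φ k)) f h') ≤
        ENNReal.ofReal (2 * Cg + 2 * ((6 / ρ) ^ 2 * Cf)) := by
      intro h'
      refine (N2_A_loc' hρ ha (by linarith) hk4 hk5 h').trans ?_
      have e1 := N2_le_of_nsq hk2 h'
      have e2 := N2_le_of_nsq hk1 (op h')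
      calc _ ≤ 2 * ENNReal.ofReal Cg + 2 * (ENNReal.ofReal ((6 / ρ) ^ 2) * ENNReal.ofReal Cf) := by
            gcongr
        _ = ENNReal.ofReal (2 * Cg + 2 * ((6 / ρ) ^ 2 * Cf)) := by
            have p1 : (0 : ℝ) ≤ (6 / ρ) ^ 2 * Cf := by positivity
            rw [← ENNReal.ofReal_mul (sq_nonneg (6 / ρ)), ENNReal.ofReal_add (by linarith)
              (by linarith), ENNReal.ofReal_mul (p := 2) (q := Cg) zero_le_two,
              ENNReal.ofReal_mul (p := 2) (q := (6 / ρ) ^ 2 * Cf) zero_le_two,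
              ENNReal.ofReal_ofNat]
    calc _ ≤ ENNReal.ofReal CG * ∑ h', N2 fun f =>
            A (cst xc) (loc x z₀ ρ (a k) (V k) (φ k)) f h' := grad_le (hFSF k)
      _ ≤ ENNReal.ofReal CG * ∑ _h' : Fin 4, ENNReal.ofReal (2 * Cg + 2 * ((6 / ρ) ^ 2 * Cf)) := by
          gcongr with h' _
          exact key h'
      _ = ENNReal.ofReal M1 := by
          rw [Finset.sum_const, Finset.card_univ, Fintype.card_fin, nsmul_eq_mul, hM1,
            ENNReal.ofReal_mul hCG.le, ENNReal.ofReal_mul (by norm_num : (0 : ℝ) ≤ 4),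
            ENNReal.ofReal_ofNat, Nat.cast_ofNat]
      _ ≤ ENNReal.ofReal M := ENNReal.ofReal_le_ofReal (le_max_right _ _)
  have h1 : ∀ᶠ k in atTop, N2 (dif1 (u k)) ≤ ENNReal.ofReal M := by
    filter_upwards [hEN] with k hk
    refine le_trans ?_ hk
    unfold EN
    exact (le_self_add).trans (Finset.single_le_sum
      (f := fun k' => N2 (dif1 fun f => loc x z₀ ρ (a k) (V k) (φ k) f k') +
        N2 (dif2 fun f => loc x z₀ ρ (a k) (V k) (φ k) f k')) (fun _ _ => zero_le)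
      (Finset.mem_univ h))
  have h2 : ∀ᶠ k in atTop, N2 (dif2 (u k)) ≤ ENNReal.ofReal M := by
    filter_upwards [hEN] with k hk
    refine le_trans ?_ hk
    unfold EN
    exact (le_add_self).trans (Finset.single_le_sum
      (f := fun k' => N2 (dif1 fun f => loc x z₀ ρ (a k) (V k) (φ k) f k') +
        N2 (dif2 fun f => loc x z₀ ρ (a k) (V k) (φ k) f k')) (fun _ _ => zero_le)
      (Finset.mem_univ h))
  obtain ⟨F, hF, hlimF⟩ := Relx943.rellich (U := U) (H.tendsto_pos.mono_left hU)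
    (hCf0.trans (le_max_left _ _)) (hU h0) (hU h1) (hU h2) (isBounded_ball (x := z₀) (r := ρ / 4))
    measurableSet_ball (fun k => (memLp_emb (H.pos k) (hFSF k h)).restrict _)
  have hFae : AEMeasurable F (volume.restrict (ball z₀ (ρ / 4))) := hF.1.aemeasurable
  refine ⟨fun z => gc x z₀ z * F z, ?_, ?_⟩
  · refine hF.of_le ((MacC3x943.measurable_gc x z₀).aemeasurable.mul hFae).aestronglyMeasurable
      (Eventually.of_forall fun z => ?_)
    rw [norm_mul, Real.norm_eq_abs (gc x z₀ z), gc_abs, one_mul]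
  have herr := (gauge_err H.pos H.lim H.tip z₀ hF).mono_left hU
  have hsum := (show Tendsto (fun n => E (volume.restrict (ball z₀ (ρ / 4)))
    (fun z => emb (a n) (u n) z - F z)) U (𝓝 0) from hlimF).add herr
  rw [add_zero] at hsum
  refine tendsto_of_tendsto_of_tendsto_of_le_of_le' tendsto_const_nhds hsum
    (Eventually.of_forall fun _ => zero_le) ?_
  filter_upwards [hU hsmall] with k hk
  have ha := H.pos k
  have hEE : ∀ z ∈ ball z₀ (ρ / 4), emb (a k) (fun f => φ k f h) z - gc x z₀ z * F z =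
      emb (a k) (gz x z₀ (V k)) z * (emb (a k) (u k) z - F z) +
        (emb (a k) (gz x z₀ (V k)) z - gc x z₀ z) * F z := by
    intro z hz
    have hc : cut z₀ ρ (meshPoint (a k) (meshIndex (a k) z)) = 1 := by
      refine cut_one hρ ?_
      have e1 := Upx622.norm_mesh_sub ha z
      rw [mem_ball, dist_eq_norm] at hz
      have e2 : ‖meshPoint (a k) (meshIndex (a k) z) - z₀‖ ≤
          ‖meshPoint (a k) (meshIndex (a k) z) - z‖ + ‖z - z₀‖ :=
        norm_sub_le_norm_sub_add_norm_sub _ _ _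
      linarith
    have hs := gz_sq x z₀ (V k) (meshIndex (a k) z)
    simp only [emb, hu, loc]
    rw [hc]
    linear_combination (-φ k (meshIndex (a k) z) h) * hs
  have hmeas1 : AEMeasurable (fun z => emb (a k) (gz x z₀ (V k)) z * (emb (a k) (u k) z - F z))
      (volume.restrict (ball z₀ (ρ / 4))) :=
    (Embx622.emb_measurable _ _).aemeasurable.mul
      ((Embx622.emb_measurable _ _).aemeasurable.sub hFae)
  have hmeas2 : AEMeasurable (fun z => (emb (a k) (gz x z₀ (V k)) z - gc x z₀ z) * F z)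
      (volume.restrict (ball z₀ (ρ / 4))) :=
    ((Embx622.emb_measurable _ _).sub (MacC3x943.measurable_gc x z₀)).aemeasurable.mul hFae
  calc E (volume.restrict (ball z₀ (ρ / 4)))
        (fun z => emb (a k) (fun f => φ k f h) z - gc x z₀ z * F z)
      = E (volume.restrict (ball z₀ (ρ / 4)))
        (fun z => emb (a k) (gz x z₀ (V k)) z * (emb (a k) (u k) z - F z) +
        (emb (a k) (gz x z₀ (V k)) z - gc x z₀ z) * F z) := by
        refine eLpNorm_congr_ae ?_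
        filter_upwards [ae_restrict_mem measurableSet_ball] with z hz
        exact hEE z hz
    _ ≤ E (volume.restrict (ball z₀ (ρ / 4)))
        (fun z => emb (a k) (gz x z₀ (V k)) z * (emb (a k) (u k) z - F z)) +
        E (volume.restrict (ball z₀ (ρ / 4)))
        (fun z => (emb (a k) (gz x z₀ (V k)) z - gc x z₀ z) * F z) :=
        eLpNorm_add_le hmeas1.aestronglyMeasurable hmeas2.aestronglyMeasurable (by norm_num)
    _ = _ := by
        congr 1
        refine eLpNorm_congr_norm_ae (Eventually.of_forall fun z => ?_)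
        rw [norm_mul]
        have : ‖emb (a k) (gz x z₀ (V k)) z‖ = 1 := gz_abs _ _ _ _
        rw [this, one_mul]

/-! ### local lightness -/

/-- mass on a set of faces -/
theorem in_mass {a η : ℝ} (ha : 0 < a) {C : Set ℂ} (hC : MeasurableSet C) {p : Face → Prop}
    (hp : ∀ z ∈ C, p (meshIndex a z)) {u : Face → ℝ}
    (h : ∀ S : Finset Face, (∀ f ∈ S, p f) → a ^ 2 * ∑ f ∈ S, u f ^ 2 ≤ η) :
    (∫⁻ z in C, sq2 (emb a u z)) ≤ ENNReal.ofReal η := by
  classical
  set v : Face → ℝ := fun f => if p f then u f else 0 with hv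
  have h1 : (∫⁻ z in C, sq2 (emb a u z)) ≤ ∫⁻ z in C, sq2 (v (meshIndex a z)) := by
    refine setLIntegral_mono' hC fun z hz => le_of_eq ?_
    rw [hv]
    simp only [hp z hz, if_true]
    rfl
  refine h1.trans ((Relx943.nrm_univ_emb ha _ v).trans (N2_le_of_finset fun S => ?_))
  have e : ∑ f ∈ S, v f ^ 2 = ∑ f ∈ S.filter p, u f ^ 2 := by
    rw [Finset.sum_filter]
    refine Finset.sum_congr rfl fun f _ => ?_
    by_cases hf : p f <;> simp [hv, hf]
  rw [e]
  exact h (S.filter p) fun f hf => (Finset.mem_filter.1 hf).2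

/-- local heavy mass -/
theorem hv_loc {z₀ : ℂ} {ρ a : ℝ} (hρ : 0 < ρ) (ha : 0 < a) (haρ : 6 * a ≤ ρ) {w φ g : Fld}
    (hs : Sym w) (hw : ∀ f : Face, ‖meshPoint a f - z₀‖ < ρ → ∀ h, w f h ^ 2 = xc ^ 2)
    (heq : ∀ f : Face, ‖meshPoint a f - z₀‖ < ρ → ∀ h, A w φ f h = a * g f h) {Cf Cg : ℝ}
    (h1 : ∀ S : Finset Face, a ^ 2 * ∑ f ∈ S, nsq (φ f) ≤ Cf)
    (h2 : ∀ S : Finset Face, a ^ 2 * ∑ f ∈ S, nsq (g f) ≤ Cg) (S : Finset Face)
    (hS : ∀ f ∈ S, ‖meshPoint a f - z₀‖ ≤ ρ / 3) :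
    a ^ 2 * ∑ f ∈ S, hv (φ f) ≤ a * ((6 + 6 / ρ) * Cf + Cg) := by
  classical
  set c : Face → ℝ := fun f => cut z₀ ρ (meshPoint a f) with hc
  set Dk := MacNCx917.disc a (‖z₀‖ + ρ) with hDk
  set K := Sqx54.thick Dk with hK
  have hnorm : ∀ f : Face, ‖meshPoint a f‖ ≤ ‖meshPoint a f - z₀‖ + ‖z₀‖ := fun f => by
    have := norm_add_le (meshPoint a f - z₀) z₀
    rwa [sub_add_cancel] at this
  have hc0 : ∀ f, f ∉ Dk → c f = 0 := by
    intro f hf
    rw [hDk, MacNCx917.mem_disc ha, not_lt] at hf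
    have := hnorm f
    exact cut_zero hρ (by linarith)
  have hT := Tloc w φ hs c K (fun f hf => hc0 f (Sqx54.not_thick hf).1)
    (fun f hf h => hc0 _ ((Sqx54.not_thick hf).2 h))
  have hfar : ∀ f : Face, ¬ ‖meshPoint a f - z₀‖ < ρ → c f = 0 := fun f hf =>
    cut_zero hρ (by push Not at hf; linarith)
  have hfar2 : ∀ f : Face, ¬ ‖meshPoint a f - z₀‖ < ρ → ∀ h, c (nb f h) = 0 := by
    intro f hf h
    push Not at hf
    refine cut_zero hρ ?_
    have hnb := norm_mesh_nb ha f h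
    have h1 : ‖meshPoint a f - z₀‖ ≤ ‖meshPoint a f - meshPoint a (nb f h)‖ +
        ‖meshPoint a (nb f h) - z₀‖ := norm_sub_le_norm_sub_add_norm_sub _ _ _
    rw [norm_sub_rev] at hnb
    linarith
  have hx1 : xc ^ 2 ≤ 1 := by
    have := xc_sq
    have := xc_pos
    nlinarith
  -- left side
  have hL : ∑ f ∈ S, hv (φ f) ≤ ∑ f ∈ K, c f * (4 * Real.sqrt 2 * hv (φ f) +
      ∑ h, (xc ^ 2 - w f h ^ 2) * φ f h ^ 2) := by
    have hsub : S ⊆ K := by
      intro f hf
      refine Sqx54.subset_thick _ ?_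
      rw [hDk, MacNCx917.mem_disc ha]
      have := hS f hf
      have := hnorm f
      linarith
    have hnn : ∀ f, 0 ≤ c f * (4 * Real.sqrt 2 * hv (φ f) +
        ∑ h, (xc ^ 2 - w f h ^ 2) * φ f h ^ 2) := by
      intro f
      by_cases hf : ‖meshPoint a f - z₀‖ < ρ
      · have e : ∑ h, (xc ^ 2 - w f h ^ 2) * φ f h ^ 2 = 0 :=
          Finset.sum_eq_zero fun h _ => by rw [hw f hf h]; ring
        rw [e, add_zero]
        have := hv_nonneg (φ f)
        have := cut_nonneg z₀ ρ (meshPoint a f)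
        positivity
      · rw [hfar f hf, zero_mul]
    refine le_trans (Finset.sum_le_sum fun f hf => ?_)
      (Finset.sum_le_sum_of_subset_of_nonneg hsub fun f _ _ => hnn f)
    have hf1 := hS f hf
    have hf2 : ‖meshPoint a f - z₀‖ < ρ := by linarith
    have e : ∑ h, (xc ^ 2 - w f h ^ 2) * φ f h ^ 2 = 0 :=
      Finset.sum_eq_zero fun h _ => by rw [hw f hf2 h]; ring
    have e2 : c f = 1 := cut_one hρ hf1
    rw [e, e2, add_zero, one_mul]
    have h3 := hv_nonneg (φ f)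
    have h4 : 1 ≤ 4 * Real.sqrt 2 := by
      have : (1 : ℝ) ≤ Real.sqrt 2 := Real.one_le_sqrt.2 (by norm_num)
      linarith
    nlinarith
  -- first term on the right
  have hR1 : ∑ f ∈ K, c f * (2 * ∑ h, A0 (φ f) h * A w φ f h - nsq (A w φ f)) ≤
      ∑ f ∈ K, a * (6 * nsq (φ f) + nsq (g f)) := by
    refine Finset.sum_le_sum fun f _ => ?_
    have hn1 := nsq_nonneg (φ f)
    have hn2 := nsq_nonneg (g f)
    by_cases hf : ‖meshPoint a f - z₀‖ < ρ
    · have e1 : 2 * ∑ h, A0 (φ f) h * A w φ f h ≤ a * (nsq (A0 (φ f)) + nsq (g f)) := by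
        simp only [nsq]
        rw [← Finset.sum_add_distrib, Finset.mul_sum, Finset.mul_sum]
        refine Finset.sum_le_sum fun h _ => ?_
        rw [heq f hf h]
        nlinarith [sq_nonneg (A0 (φ f) h - g f h)]
      have e2 : nsq (A0 (φ f)) ≤ 6 * nsq (φ f) := by
        refine (nsq_A0_le (φ f)).trans ?_
        have : Real.sqrt 2 ≤ 1.5 := by
          rw [Real.sqrt_le_left (by norm_num)]; norm_num
        nlinarith
      have e3 := nsq_nonneg (A w φ f)
      have e4 := cut_nonneg z₀ ρ (meshPoint a f)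
      have e5 := cut_le_one z₀ ρ (meshPoint a f)
      have e6 : 2 * ∑ h, A0 (φ f) h * A w φ f h - nsq (A w φ f) ≤
          a * (6 * nsq (φ f) + nsq (g f)) := by
        have : a * (nsq (A0 (φ f)) + nsq (g f)) ≤ a * (6 * nsq (φ f) + nsq (g f)) := by gcongr
        linarith
      have e7 : 0 ≤ a * (6 * nsq (φ f) + nsq (g f)) := by positivity
      calc c f * (2 * ∑ h, A0 (φ f) h * A w φ f h - nsq (A w φ f))
          ≤ c f * (a * (6 * nsq (φ f) + nsq (g f))) := mul_le_mul_of_nonneg_left e6 e4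
        _ ≤ 1 * (a * (6 * nsq (φ f) + nsq (g f))) := mul_le_mul_of_nonneg_right e5 e7
        _ = _ := one_mul _
    · rw [hfar f hf, zero_mul]
      positivity
  -- second term on the right
  have hR2 : ∑ f ∈ K, ∑ h, (c (nb f h) - c f) * (w f h ^ 2 * φ f h ^ 2) ≤
      ∑ f ∈ K, 6 / ρ * a * nsq (φ f) := by
    refine Finset.sum_le_sum fun f _ => ?_
    simp only [nsq]
    rw [Finset.mul_sum]
    refine Finset.sum_le_sum fun h _ => ?_
    by_cases hf : ‖meshPoint a f - z₀‖ < ρ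
    · rw [hw f hf h]
      have hc1 := cut_lip (z₀ := z₀) hρ (meshPoint a (nb f h)) (meshPoint a f)
      have hc2 : |cut z₀ ρ (meshPoint a (nb f h)) - cut z₀ ρ (meshPoint a f)| ≤ 6 / ρ * a := by
        refine hc1.trans ?_
        calc 3 / ρ * ‖meshPoint a (nb f h) - meshPoint a f‖ ≤ 3 / ρ * (2 * a) := by
              gcongr
              exact norm_mesh_nb ha f h
          _ = 6 / ρ * a := by ring
      have hp1 : 0 ≤ xc ^ 2 * φ f h ^ 2 := by positivity
      have hp2 : xc ^ 2 * φ f h ^ 2 ≤ φ f h ^ 2 := by nlinarith [sq_nonneg (φ f h)]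
      calc (c (nb f h) - c f) * (xc ^ 2 * φ f h ^ 2)
          ≤ |c (nb f h) - c f| * (xc ^ 2 * φ f h ^ 2) :=
            mul_le_mul_of_nonneg_right (le_abs_self _) hp1
        _ ≤ 6 / ρ * a * φ f h ^ 2 := mul_le_mul hc2 hp2 hp1 (by positivity)
    · rw [hfar f hf, hfar2 f hf h]
      simp only [sub_self, zero_mul]
      positivity
  have h3 : ∑ f ∈ S, hv (φ f) ≤ ∑ f ∈ K, a * (6 * nsq (φ f) + nsq (g f)) +
      ∑ f ∈ K, 6 / ρ * a * nsq (φ f) := by
    refine hL.trans ?_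
    rw [hT]
    exact add_le_add hR1 hR2
  have e : ∑ f ∈ K, a * (6 * nsq (φ f) + nsq (g f)) + ∑ f ∈ K, 6 / ρ * a * nsq (φ f) =
      a * ((6 + 6 / ρ) * ∑ f ∈ K, nsq (φ f) + ∑ f ∈ K, nsq (g f)) := by
    rw [← Finset.sum_add_distrib, Finset.mul_sum, ← Finset.sum_add_distrib, Finset.mul_sum]
    exact Finset.sum_congr rfl fun f _ => by ring
  rw [e] at h3
  calc a ^ 2 * ∑ f ∈ S, hv (φ f)
      ≤ a ^ 2 * (a * ((6 + 6 / ρ) * ∑ f ∈ K, nsq (φ f) + ∑ f ∈ K, nsq (g f))) :=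
        mul_le_mul_of_nonneg_left h3 (sq_nonneg a)
    _ = a * ((6 + 6 / ρ) * (a ^ 2 * ∑ f ∈ K, nsq (φ f)) + a ^ 2 * ∑ f ∈ K, nsq (g f)) := by
        ring
    _ ≤ a * ((6 + 6 / ρ) * Cf + Cg) := by
        have := h1 K
        have := h2 K
        gcongr

end Crest.Agent.R165.MacL1x943
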