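import Crest.Agent.R165.MacL1_943

/-!
# Row 165 (S0250), M3, local version: **`comp_loc`**
-/

set_option autoImplicit false
set_option linter.unusedSimpArgs false
set_option linter.unusedVariables false

noncomputable section

namespace Crest.Agent.R165.MacL2x943

open Filter Topology MeasureTheory Metric
open Crest.ProbabilityR.IsingModel
open Crest.Agent.R165.Tr1x40 hiding sq2 pt
open Crest.Agent.R165.Tr2x40
open Crest.Agent.R165.RIfx891 (lv lv_amp)
open Crest.Agent.R165.Mac0x622 Crest.Agent.R165.Mac1x622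
open Crest.Agent.R165.MacIx610
open Crest.Agent.R165.Lim1x943 (LocUnif)
open Crest.Agent.R165.Lim2x943 (sq2)
open Crest.Agent.R165.Embx622 (emb)
open Crest.Agent.R165.MacC1x943 Crest.Agent.R165.MacC2x943 Crest.Agent.R165.MacC3x943
open Crest.Agent.R165.MacC4x943 Crest.Agent.R165.MacC5x943 Crest.Agent.R165.MacC6x943
open Crest.Agent.R165.MacL1x943

variable {O : Set ℂ} {n : ℕ} {x : Fin n → ℂ} {a : ℕ → ℝ} {w : ℕ → Fld} {V : ℕ → Fin n → Face}
  {g φ : ℕ → Fld}

theorem exists_closedBall (hO : IsOpen O) {z₀ : ℂ} (hz : z₀ ∈ O) :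
    ∃ r > 0, closedBall z₀ r ⊆ O := by
  obtain ⟨r, hr, hb⟩ := Metric.isOpen_iff.1 hO z₀ hz
  exact ⟨r / 2, by positivity, (closedBall_subset_ball (by linarith)).trans hb⟩

theorem ev_small (H : OmSeq O x a w V) {ε : ℝ} (hε : 0 < ε) : ∀ᶠ k in atTop, a k ≤ ε :=
  H.lim.eventually (eventually_le_nhds hε)

theorem mesh_lt {a : ℝ} (ha : 0 < a) {z z₀ : ℂ} {r ρ : ℝ} (hz : z ∈ ball z₀ ρ)
    (h : ρ + 2 * a ≤ r) : ‖meshPoint a (meshIndex a z) - z₀‖ < r := by
  rw [mem_ball, dist_eq_norm] at hz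
  have e1 := Upx622.norm_mesh_sub ha z
  have e2 : ‖meshPoint a (meshIndex a z) - z₀‖ ≤
      ‖meshPoint a (meshIndex a z) - z‖ + ‖z - z₀‖ := norm_sub_le_norm_sub_add_norm_sub _ _ _
  linarith

/-- the truncated data -/
theorem tr_eqn (H : OmSeq O x a w V) {r : ℝ} (hr : 0 < r) (z₀ : ℂ)
    (heq : ∀ᶠ k in atTop, ∀ f h, A (w k) (φ k) f h = a k * g k f h) :
    ∀ᶠ k in atTop, ∀ f : Face, ‖meshPoint (a k) f - z₀‖ < r / 2 → ∀ h,
      A (w k) (tr z₀ r (a k) (φ k)) f h = a k * tr z₀ r (a k) (g k) f h := by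
  filter_upwards [ev_small H (show 0 < r / 4 by positivity), heq] with k hk he f hf h
  rw [A_tr (H.pos k) (by linarith) (w k) (φ k) hf h, he,
    tr_of_lt (by have := norm_nonneg (meshPoint (a k) f - z₀); linarith)]

/-- local strong limit -/
theorem loc_lim (H : OmSeq O x a w V) (hO : IsOpen O) (hx : ∀ i, x i ∉ O) (hg : BddL O a g)
    (hφ : BddL O a φ) (heq : ∀ᶠ k in atTop, ∀ f h, A (w k) (φ k) f h = a k * g k f h)
    (U : Ultrafilter ℕ) (hU : (U : Filter ℕ) ≤ atTop) {z₀ : ℂ} (hz : z₀ ∈ O) :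
    ∃ ρ > 0, ∀ h, ∃ Φ : ℂ → ℝ, MemLp Φ 2 (volume.restrict (ball z₀ ρ)) ∧
      Tendsto (fun k => E (volume.restrict (ball z₀ ρ))
        (fun z => emb (a k) (fun f => φ k f h) z - Φ z)) U (𝓝 0) := by
  obtain ⟨r, hr, hrO⟩ := exists_closedBall hO hz
  obtain ⟨ρ₁, hρ₁, hΦ⟩ := local_lim' H hO hx (tr_bdd hg hrO) (tr_bdd hφ hrO) hz
    (r := r / 2) (by positivity) (tr_eqn H hr z₀ heq) U hU
  set ρ := min ρ₁ (r / 2) with hρ
  refine ⟨ρ, lt_min hρ₁ (by positivity), fun h => ?_⟩
  obtain ⟨Φ, h1, h2⟩ := hΦ h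
  have hsub : ball z₀ ρ ⊆ ball z₀ ρ₁ := ball_subset_ball (min_le_left _ _)
  refine ⟨Φ, h1.mono_measure (Measure.restrict_mono_set _ hsub), ?_⟩
  refine tendsto_of_tendsto_of_tendsto_of_le_of_le' tendsto_const_nhds h2
    (Eventually.of_forall fun _ => zero_le) ?_
  filter_upwards [hU (ev_small H (show 0 < r / 4 by positivity))] with k hk
  refine le_trans (le_of_eq ?_) (E_mono_set hsub _)
  refine E_congr ?_
  filter_upwards [ae_restrict_mem measurableSet_ball] with z hz
  have h3 : ‖meshPoint (a k) (meshIndex (a k) z) - z₀‖ < r :=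
    mesh_lt (H.pos k) hz (by have := min_le_right ρ₁ (r / 2); linarith)
  have e1 : emb (a k) (fun f => tr z₀ r (a k) (φ k) f h) z = emb (a k) (fun f => φ k f h) z := by
    simp only [emb]
    rw [tr_of_lt h3]
  rw [e1]

/-- local lightness -/
theorem loc_heavy (H : OmSeq O x a w V) (hO : IsOpen O) (hx : ∀ i, x i ∉ O) (hg : BddL O a g)
    (hφ : BddL O a φ) (heq : ∀ᶠ k in atTop, ∀ f h, A (w k) (φ k) f h = a k * g k f h) {z₀ : ℂ}
    (hz : z₀ ∈ O) : ∃ ρ > 0, ∀ h, Tendsto (fun k => E (volume.restrict (ball z₀ ρ))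
      (emb (a k) fun f => Ph (φ k f) h)) atTop (𝓝 0) := by
  obtain ⟨r₀, hr₀, hrO⟩ := exists_closedBall hO hz
  obtain ⟨r₁, hr₁, -, hw⟩ := weights_gauge H hO hx hz
  set r := min (r₀ / 2) r₁ with hrdef
  have hr : 0 < r := lt_min (by positivity) hr₁
  obtain ⟨Cg, hCg⟩ := tr_bdd hg hrO
  obtain ⟨Cf, hCf⟩ := tr_bdd hφ hrO
  have he := tr_eqn H hr₀ z₀ heq
  refine ⟨r / 6, by positivity, fun h => ?_⟩
  rw [E_tendsto_zero]
  have ht : Tendsto (fun k => ENNReal.ofReal (a k * ((6 + 6 / r) * Cf + Cg))) atTop (𝓝 0) := by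
    have h1 := H.lim.mul_const ((6 + 6 / r) * Cf + Cg)
    rw [zero_mul] at h1
    have := ENNReal.tendsto_ofReal h1
    simpa using this
  refine tendsto_of_tendsto_of_tendsto_of_le_of_le' tendsto_const_nhds ht
    (Eventually.of_forall fun _ => zero_le) ?_
  filter_upwards [hw, hCg, hCf, he, ev_small H (show 0 < r / 12 by positivity)]
    with k h1 h2 h3 h4 h5
  have ha := H.pos k
  have hm1 := min_le_left (r₀ / 2) r₁
  have hm2 := min_le_right (r₀ / 2) r₁
  refine in_mass ha measurableSet_ball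
    (p := fun f => ‖meshPoint (a k) f - z₀‖ ≤ r / 3)
    (fun z hz => (mesh_lt ha hz (by linarith)).le) fun S hS => ?_
  refine le_trans ?_ (hv_loc hr ha (by linarith) (H.sym k)
    (φ := tr z₀ r₀ (a k) (φ k)) (g := tr z₀ r₀ (a k) (g k)) (fun f hf h' => ?_)
    (fun f hf h' => h4 f (by linarith) h') h3 h2 S hS)
  · refine mul_le_mul_of_nonneg_left (Finset.sum_le_sum fun f hf => ?_) (sq_nonneg _)
    have h6 := hS f hf
    rw [tr_of_lt (by linarith), hv_eq_nsq]
    exact Finset.single_le_sum (f := fun b => Ph (φ k f) b ^ 2) (fun _ _ => sq_nonneg _)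
      (Finset.mem_univ h)
  · rw [h1 f (by linarith) h']
    have e1 := gz_sq x z₀ (V k) f
    have e2 := gz_sq x z₀ (V k) (nb f h')
    rw [mul_pow, mul_pow, e1, e2, mul_one, mul_one]

theorem limUnder_congr {U : Filter ℕ} {u v : ℕ → ℝ} (h : u =ᶠ[U] v) :
    limUnder U u = limUnder U v := by
  unfold limUnder
  rw [Filter.map_congr h]

/-- local description of `F1` -/
theorem loc_F1 (H : OmSeq O x a w V) (hO : IsOpen O) (hx : ∀ i, x i ∉ O) (hφ : BddL O a φ)
    (U : Ultrafilter ℕ) (hU : (U : Filter ℕ) ≤ atTop) {z₁ : ℂ} (hz : z₁ ∈ O) {r : ℝ} (hr : 0 < r)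
    (hex : ∀ᶠ k in atTop, ∀ f : Face, ‖meshPoint (a k) f - z₁‖ < r → ∀ h,
      A (w k) (φ k) f h = 0) :
    ∃ s > 0, ∃ f₁ : ℂ → ℂ, DifferentiableOn ℂ f₁ (ball z₁ s) ∧
      (∀ h, LocUnif U (fun k => 1 / a k) (ball z₁ s)
        (fun k f => gz x z₁ (V k) f * φ k f h) fun z => lv (f₁ z) h) ∧
      ∀ z ∈ ball z₁ s, F1 x a V φ U z = (gc x z₁ z : ℂ) * f₁ z := by
  obtain ⟨r₀, hr₀, hrO⟩ := exists_closedBall hO hz
  set r' := min r (r₀ / 2) with hr'
  have hr'0 : 0 < r' := lt_min hr (by positivity)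
  obtain ⟨s, hs, f₁, h1, h2, h3⟩ := F1_spec H hO hx (tr_bdd hφ hrO) U hU hz hr'0 (by
    filter_upwards [hex, ev_small H (show 0 < r₀ / 4 by positivity)] with k hk ha f hf h
    have e1 := min_le_left r (r₀ / 2)
    have e2 := min_le_right r (r₀ / 2)
    rw [A_tr (H.pos k) (by linarith) (w k) (φ k) (by linarith) h]
    exact hk f (by linarith) h)
  set t := min s (r₀ / 2) with ht
  have ht0 : 0 < t := lt_min hs (by positivity)
  have hts : ball z₁ t ⊆ ball z₁ s := ball_subset_ball (min_le_left _ _)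
  have htr := min_le_right s (r₀ / 2)
  refine ⟨t, ht0, f₁, h1.mono hts, fun h => ?_, fun z hz => ?_⟩
  · intro K hK hKt η hη
    filter_upwards [(h2 h).mono hts K hK hKt η hη] with k hk f hf
    have h4 := hk f hf
    have h5 := hKt hf
    simp only [pt_eq] at h5
    rw [mem_ball, dist_eq_norm] at h5
    rwa [tr_of_lt (by linarith)] at h4
  · rw [← h3 z (hts hz)]
    have key : ∀ h, limUnder (U : Filter ℕ) (fun k => gz x z (V k) (meshIndex (a k) z) *
        φ k (meshIndex (a k) z) h) = limUnder (U : Filter ℕ) (fun k =>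
        gz x z (V k) (meshIndex (a k) z) * tr z₁ r₀ (a k) (φ k) (meshIndex (a k) z) h) := by
      intro h
      refine limUnder_congr ?_
      filter_upwards [hU (ev_small H (show 0 < r₀ / 4 by positivity))] with k hk
      rw [tr_of_lt (mesh_lt (H.pos k) hz (by linarith))]
    unfold F1
    rw [key 1, key 3]

/-- the strong limit is the light field of `F1` off the sources -/
theorem loc_F1_ae (H : OmSeq O x a w V) (hO : IsOpen O) (hx : ∀ i, x i ∉ O) (hφ : BddL O a φ)
    (U : Ultrafilter ℕ) (hU : (U : Filter ℕ) ≤ atTop) {z₁ : ℂ} (hz : z₁ ∈ O) {r : ℝ} (hr : 0 < r)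
    (hex : ∀ᶠ k in atTop, ∀ f : Face, ‖meshPoint (a k) f - z₁‖ < r → ∀ h,
      A (w k) (φ k) f h = 0) {h : Fin 4} {ρ : ℝ} (hρ : 0 < ρ) {Φ : ℂ → ℝ}
    (hΦ : MemLp Φ 2 (volume.restrict (ball z₁ ρ)))
    (hc : Tendsto (fun k => E (volume.restrict (ball z₁ ρ))
      (fun z => emb (a k) (fun f => φ k f h) z - Φ z)) U (𝓝 0)) :
    ∃ s > 0, s ≤ ρ ∧ ∀ᵐ z ∂(volume.restrict (ball z₁ s)), Φ z = lv (F1 x a V φ U z) h := by
  obtain ⟨s, hs, f₁, hd, hu, hF⟩ := loc_F1 H hO hx hφ U hU hz hr hex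
  have hrt : Tendsto (fun k => 1 / a k) (U : Filter ℕ) atTop :=
    Relx943.tendsto_one_div (H.tendsto_pos.mono_left hU)
  set t := min (s / 2) ρ with ht
  have ht0 : 0 < t := lt_min (by positivity) hρ
  refine ⟨t, ht0, min_le_right _ _, ?_⟩
  set B := ball z₁ t with hB
  have hts := min_le_left (s / 2) ρ
  have hcl : closedBall z₁ t ⊆ ball z₁ s := closedBall_subset_ball (by linarith)
  have hBs : B ⊆ ball z₁ s := ball_subset_closedBall.trans hcl
  have hBρ : B ⊆ ball z₁ ρ := ball_subset_ball (min_le_right _ _)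
  have hcont : ContinuousOn (fun z => lv (f₁ z) h) (ball z₁ s) :=
    (lv_continuous h).comp_continuousOn hd.continuousOn
  have hΦB : MemLp Φ 2 (volume.restrict B) := hΦ.mono_measure (Measure.restrict_mono_set _ hBρ)
  have hΦm : AEStronglyMeasurable Φ (volume.restrict B) := hΦB.1
  have hlm : AEStronglyMeasurable (fun z => lv (f₁ z) h) (volume.restrict B) :=
    (hcont.mono hBs).aestronglyMeasurable measurableSet_ball
  have t2 : Tendsto (fun k => E (volume.restrict B) (fun z =>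
      emb (a k) (fun f => gz x z₁ (V k) f * φ k f h) z - lv (f₁ z) h)) U (𝓝 0) := by
    refine E_of_unif measure_ball_lt_top.ne measurableSet_ball fun η hη => ?_
    have := (hu h).unif hrt isOpen_ball hcont (isCompact_closedBall z₁ t) hcl hη
    filter_upwards [this] with k hk z hz
    have := hk z (ball_subset_closedBall hz)
    rwa [Relx943.flr_eq] at this
  have t1 : Tendsto (fun k => E (volume.restrict B) (fun z =>
      gc x z₁ z * Φ z - emb (a k) (fun f => gz x z₁ (V k) f * φ k f h) z)) U (𝓝 0) := by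
    have herr := (gauge_err (B := B) H.pos H.lim H.tip z₁ hΦB).mono_left hU
    have hsum := hc.add herr
    rw [add_zero] at hsum
    refine tendsto_of_tendsto_of_tendsto_of_le_of_le tendsto_const_nhds hsum (fun _ => zero_le)
      fun k => ?_
    have hm1 : AEStronglyMeasurable (fun z => -(emb (a k) (gz x z₁ (V k)) z *
        (emb (a k) (fun f => φ k f h) z - Φ z))) (volume.restrict B) :=
      (((Embx622.emb_measurable _ _).aestronglyMeasurable).mul
        ((Embx622.emb_measurable _ _).aestronglyMeasurable.sub hΦm)).neg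
    have hm2 : AEStronglyMeasurable (fun z => -((emb (a k) (gz x z₁ (V k)) z - gc x z₁ z) * Φ z))
        (volume.restrict B) :=
      (((Embx622.emb_measurable _ _).sub
        (MacC3x943.measurable_gc x z₁)).aestronglyMeasurable.mul hΦm).neg
    calc E (volume.restrict B) (fun z =>
          gc x z₁ z * Φ z - emb (a k) (fun f => gz x z₁ (V k) f * φ k f h) z)
        = E (volume.restrict B) (fun z => -(emb (a k) (gz x z₁ (V k)) z *
          (emb (a k) (fun f => φ k f h) z - Φ z)) +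
            -((emb (a k) (gz x z₁ (V k)) z - gc x z₁ z) * Φ z)) := by
          congr 1
          funext z
          simp only [emb]
          ring
      _ ≤ E (volume.restrict B) (fun z => -(emb (a k) (gz x z₁ (V k)) z *
          (emb (a k) (fun f => φ k f h) z - Φ z))) +
          E (volume.restrict B) (fun z => -((emb (a k) (gz x z₁ (V k)) z - gc x z₁ z) * Φ z)) :=
          E_add_le hm1 hm2
      _ ≤ _ := by
          refine add_le_add ?_ (le_of_eq ?_)
          · refine le_trans (le_of_eq ?_) (E_mono_set hBρ _)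
            refine eLpNorm_congr_norm_ae (Eventually.of_forall fun z => ?_)
            rw [norm_neg, norm_mul]
            have : ‖emb (a k) (gz x z₁ (V k)) z‖ = 1 := gz_abs _ _ _ _
            rw [this, one_mul]
          · exact eLpNorm_congr_norm_ae (Eventually.of_forall fun z => norm_neg _)
  have t3 : E (volume.restrict B) (fun z => gc x z₁ z * Φ z - lv (f₁ z) h) = 0 := by
    have hsum := t1.add t2
    rw [add_zero] at hsum
    refine le_antisymm (ge_of_tendsto' hsum fun k => ?_) zero_le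
    calc E (volume.restrict B) (fun z => gc x z₁ z * Φ z - lv (f₁ z) h)
        = E (volume.restrict B) (fun z => (gc x z₁ z * Φ z -
          emb (a k) (fun f => gz x z₁ (V k) f * φ k f h) z) +
          (emb (a k) (fun f => gz x z₁ (V k) f * φ k f h) z - lv (f₁ z) h)) := by
          congr 1
          funext z
          ring
      _ ≤ _ := E_add_le
          (((MacC3x943.measurable_gc x z₁).aestronglyMeasurable.mul hΦm).sub
            (Embx622.emb_measurable _ _).aestronglyMeasurable)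
          ((Embx622.emb_measurable _ _).aestronglyMeasurable.sub hlm)
  have h6 := (eLpNorm_eq_zero_iff (((MacC3x943.measurable_gc x z₁).aestronglyMeasurable.mul
    hΦm).sub hlm) (by norm_num)).1 t3
  filter_upwards [h6, ae_restrict_mem measurableSet_ball] with z hz1 hz2
  have h7 : gc x z₁ z * Φ z - lv (f₁ z) h = 0 := hz1
  rw [hF z (hBs hz2), lv_real_mul]
  have h8 := gc_sq x z₁ z
  linear_combination (gc x z₁ z) * h7 - Φ z * h8

/-- uniqueness of the local limits -/
theorem lim_unique {U : Filter ℕ} [U.NeBot] {u : ℕ → Face → ℝ} {B B' : Set ℂ}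
    {Φ Φ' : ℂ → ℝ} (hΦ : MemLp Φ 2 (volume.restrict B)) (hΦ' : MemLp Φ' 2 (volume.restrict B'))
    (h : Tendsto (fun k => E (volume.restrict B) (fun z => emb (a k) (u k) z - Φ z)) U (𝓝 0))
    (h' : Tendsto (fun k => E (volume.restrict B') (fun z => emb (a k) (u k) z - Φ' z)) U (𝓝 0)) :
    ∀ᵐ z ∂(volume.restrict (B ∩ B')), Φ z = Φ' z := by
  have s1 : B ∩ B' ⊆ B := Set.inter_subset_left
  have s2 : B ∩ B' ⊆ B' := Set.inter_subset_right
  have m1 : AEStronglyMeasurable Φ (volume.restrict (B ∩ B')) :=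
    hΦ.1.mono_measure (Measure.restrict_mono_set _ s1)
  have m2 : AEStronglyMeasurable Φ' (volume.restrict (B ∩ B')) :=
    hΦ'.1.mono_measure (Measure.restrict_mono_set _ s2)
  have t3 : E (volume.restrict (B ∩ B')) (fun z => Φ z - Φ' z) = 0 := by
    have hsum := h.add h'
    rw [add_zero] at hsum
    refine le_antisymm (ge_of_tendsto' hsum fun k => ?_) zero_le
    calc E (volume.restrict (B ∩ B')) (fun z => Φ z - Φ' z)
        = E (volume.restrict (B ∩ B')) (fun z => (Φ z - emb (a k) (u k) z) +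
          (emb (a k) (u k) z - Φ' z)) := by
          congr 1
          funext z
          ring
      _ ≤ E (volume.restrict (B ∩ B')) (fun z => Φ z - emb (a k) (u k) z) +
          E (volume.restrict (B ∩ B')) (fun z => emb (a k) (u k) z - Φ' z) := E_add_le
          (m1.sub (Embx622.emb_measurable _ _).aestronglyMeasurable)
          ((Embx622.emb_measurable _ _).aestronglyMeasurable.sub m2)
      _ ≤ _ := by
          refine add_le_add (le_trans (le_of_eq ?_) (E_mono_set s1 _)) (E_mono_set s2 _)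
          exact eLpNorm_congr_norm_ae (Eventually.of_forall fun z => norm_sub_rev _ _)
  have h6 := (eLpNorm_eq_zero_iff (m1.sub m2) (by norm_num)).1 t3
  filter_upwards [h6] with z hz
  exact sub_eq_zero.1 hz

theorem memLp_Pl' {μ : Measure ℂ} {Φ : Fin 4 → ℂ → ℝ} (hΦ : ∀ h, MemLp (Φ h) 2 μ) (h : Fin 4) :
    MemLp (fun z => Pl (fun j => Φ j z) h) 2 μ := by
  have h1 : MemLp (fun z => ∑ j, ‖Φ j z‖) 2 μ := memLp_finsetSum _ fun j _ => (hΦ j).norm
  refine h1.of_le ?_ (Eventually.of_forall fun z => ?_)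
  · exact ((continuous_Pl h).measurable.comp_aemeasurable
      (aemeasurable_pi_lambda _ fun j => (hΦ j).1.aemeasurable)).aestronglyMeasurable
  · rw [Real.norm_eq_abs, Real.norm_eq_abs,
      abs_of_nonneg (Finset.sum_nonneg fun _ _ => norm_nonneg _)]
    exact abs_Pl_le _ h

/-- **LOCAL COMPACTNESS** -/
theorem comp_loc (H : OmSeq O x a w V) (hO : IsOpen O) (hx : ∀ i, x i ∉ O) {K : Set ℂ}
    (hK : IsClosed K)
    (supp : ∀ᶠ k in atTop, ∀ f, meshPoint (a k) f ∉ K → ∀ h, g k f h = 0) (hg : BddL O a g)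
    (hφ : BddL O a φ) (heq : ∀ᶠ k in atTop, ∀ f h, A (w k) (φ k) f h = a k * g k f h)
    (U : Ultrafilter ℕ) (hU : (U : Filter ℕ) ≤ atTop) :
    ∃ F : ℂ → ℂ, (∀ z₀ ∈ O, ∃ ρ > 0, MemLp F 2 (volume.restrict (ball z₀ ρ)) ∧
        ∀ h, Tendsto (fun k => ∫⁻ z in ball z₀ ρ, ENNReal.ofReal
          ((emb (a k) (fun f => φ k f h) z - lv (F z) h) ^ 2)) U (𝓝 0)) ∧
      ∃ gg : ℂ → ℂ, DifferentiableOn ℂ gg (O \ K) ∧
        ∀ z ∈ O \ K, F z * U3x719.rX x z = gg z := by
  classical
  have hΩ : IsOpen (O \ K) := hO.sdiff hK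
  have hex : ∀ z₁ ∈ O \ K, ∃ r > 0, ∀ᶠ k in atTop, ∀ f : Face,
      ‖meshPoint (a k) f - z₁‖ < r → ∀ h, A (w k) (φ k) f h = 0 := by
    intro z₁ hz₁
    obtain ⟨r, hr, hb⟩ := Metric.isOpen_iff.1 hK.isOpen_compl z₁ hz₁.2
    refine ⟨r, hr, ?_⟩
    filter_upwards [supp, heq] with k h1 h2 f hf h
    rw [h2, h1 f (hb (by rwa [mem_ball, dist_eq_norm])) h, mul_zero]
  have hex0 : ∀ z₀ : ℂ, ∃ ρ : ℝ, ∃ Φ : Fin 4 → ℂ → ℝ, z₀ ∈ O → 0 < ρ ∧
      ∀ h, MemLp (Φ h) 2 (volume.restrict (ball z₀ ρ)) ∧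
      Tendsto (fun k => E (volume.restrict (ball z₀ ρ))
        (fun z => emb (a k) (fun f => φ k f h) z - Φ h z)) U (𝓝 0) := by
    intro z₀
    by_cases hz : z₀ ∈ O
    · obtain ⟨ρ, hρ, h1⟩ := loc_lim H hO hx hg hφ heq U hU hz
      choose Φ hΦ using h1
      exact ⟨ρ, Φ, fun _ => ⟨hρ, hΦ⟩⟩
    · exact ⟨0, fun _ _ => 0, fun h => absurd h hz⟩
  choose ρ Φ hρΦ using hex0
  obtain ⟨T, hTO, hTc, hT⟩ := TopologicalSpace.countable_cover_nhdsWithin
    (f := fun z => ball z (ρ z)) (s := O) fun z hz =>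
      mem_nhdsWithin_of_mem_nhds (ball_mem_nhds z (hρΦ z hz).1)
  set ix : ℂ → ℂ := fun z => if h : ∃ t ∈ T, z ∈ ball t (ρ t) then h.choose else 0 with hix
  have hixs : ∀ z ∈ O, ix z ∈ T ∧ z ∈ ball (ix z) (ρ (ix z)) := by
    intro z hz
    have h1 : ∃ t ∈ T, z ∈ ball t (ρ t) := by
      have := hT hz
      simpa only [Set.mem_iUnion, exists_prop] using this
    have e : ix z = h1.choose := by rw [hix]; simp only [h1, dif_pos]
    rw [e]
    exact h1.choose_spec
  set F₁ := F1 x a V φ U with hF₁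
  set F : ℂ → ℂ := fun z => if z ∈ O \ K then F₁ z else
    RIfx891.amp (fun j => Φ (ix z) j z) with hF
  refine ⟨F, fun z₀ hz₀ => ?_, ?_⟩
  · obtain ⟨hρ₀, hΦ₀⟩ := hρΦ z₀ hz₀
    obtain ⟨ρ₁, hρ₁, hhv⟩ := loc_heavy H hO hx hg hφ heq hz₀
    obtain ⟨ρ₂, hρ₂, hbO⟩ := Metric.isOpen_iff.1 hO z₀ hz₀
    set s := min (ρ z₀) (min ρ₁ ρ₂) with hs
    have hs0 : 0 < s := lt_min hρ₀ (lt_min hρ₁ hρ₂)
    have b0 : ball z₀ s ⊆ ball z₀ (ρ z₀) := ball_subset_ball (min_le_left _ _)
    have b1 : ball z₀ s ⊆ ball z₀ ρ₁ :=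
      ball_subset_ball ((min_le_right _ _).trans (min_le_left _ _))
    have b2 : ball z₀ s ⊆ O :=
      (ball_subset_ball ((min_le_right _ _).trans (min_le_right _ _))).trans hbO
    -- comparison with the other local limits
    have hcmp : ∀ᵐ z ∂(volume.restrict (ball z₀ s)), ∀ t ∈ T, z ∈ ball t (ρ t) →
        ∀ j, Φ t j z = Φ z₀ j z := by
      rw [ae_ball_iff hTc]
      intro t ht
      have h1 : ∀ j, ∀ᵐ z ∂(volume.restrict (ball z₀ s)), z ∈ ball t (ρ t) →
          Φ t j z = Φ z₀ j z := by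
        intro j
        have h2 := lim_unique (U := (U : Filter ℕ)) ((hρΦ t (hTO ht)).2 j).1 (hΦ₀ j).1
          ((hρΦ t (hTO ht)).2 j).2 (hΦ₀ j).2
        rw [ae_restrict_iff' (measurableSet_ball.inter measurableSet_ball)] at h2
        refine ae_restrict_of_ae_restrict_of_subset b0 ?_
        rw [ae_restrict_iff' measurableSet_ball]
        filter_upwards [h2] with z hz h3 h4
        exact hz ⟨h4, h3⟩
      filter_upwards [ae_all_iff.2 h1] with z hz h3 j
      exact hz j h3
    have hF1 : ∀ᵐ z, z ∈ (O \ K) ∩ ball z₀ (ρ z₀) → ∀ h, Φ z₀ h z = lv (F₁ z) h := by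
      refine ae_of_local (hΩ.inter isOpen_ball).measurableSet fun z₁ hz₁ => ?_
      obtain ⟨r, hr, he⟩ := hex z₁ hz₁.1
      obtain ⟨ρ', hρ', hb'⟩ := Metric.isOpen_iff.1 isOpen_ball z₁ hz₁.2
      choose t ht htρ hp using fun h => loc_F1_ae H hO hx hφ U hU hz₁.1.1 hr he (h := h) hρ'
        ((hΦ₀ h).1.mono_measure (Measure.restrict_mono_set _ hb'))
        (tendsto_of_tendsto_of_tendsto_of_le_of_le tendsto_const_nhds (hΦ₀ h).2
          (fun _ => zero_le) fun k => E_mono_set hb' _)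
      obtain ⟨t', ht0, ht'⟩ : ∃ t' > 0, ∀ h, t' ≤ t h := by
        refine ⟨Finset.univ.inf' Finset.univ_nonempty t, ?_, fun i =>
          Finset.inf'_le t (Finset.mem_univ i)⟩
        rw [gt_iff_lt, Finset.lt_inf'_iff]
        exact fun i _ => ht i
      refine ⟨t', ht0, ?_⟩
      rw [ae_all_iff]
      exact fun h => ae_restrict_of_ae_restrict_of_subset (ball_subset_ball (ht' h)) (hp h)
    have hae : ∀ᵐ z ∂(volume.restrict (ball z₀ s)), ∀ h,
        lv (F z) h = Pl (fun j => Φ z₀ j z) h := by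
      filter_upwards [hcmp, ae_restrict_of_ae hF1, ae_restrict_mem measurableSet_ball]
        with z h1 h2 hzs h
      rw [hF]
      by_cases hz : z ∈ O \ K
      · simp only [hz, if_true]
        have e : (fun j => Φ z₀ j z) = lv (F₁ z) := funext fun j => h2 ⟨hz, b0 hzs⟩ j
        rw [e, Pl_lv]
      · simp only [hz, if_false]
        obtain ⟨e1, e2⟩ := hixs z (b2 hzs)
        have e : (fun j => Φ (ix z) j z) = fun j => Φ z₀ j z :=
          funext fun j => h1 _ e1 e2 j
        rw [lv_amp, e]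
    have hΦs : ∀ h, MemLp (Φ z₀ h) 2 (volume.restrict (ball z₀ s)) := fun h =>
      (hΦ₀ h).1.mono_measure (Measure.restrict_mono_set _ b0)
    refine ⟨s, hs0, ?_, fun h => ?_⟩
    · rw [← memLp_re_im_iff]
      constructor
      · refine (memLp_Pl' hΦs 1).ae_eq ?_
        filter_upwards [hae] with z hz
        exact (hz 1).symm
      · refine (memLp_Pl' hΦs 3).neg.ae_eq ?_
        filter_upwards [hae] with z hz
        have := hz 3
        simp only [lv] at this
        change -Pl (fun j => Φ z₀ j z) 3 = (F z).im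
        linarith
    · have hconv : Tendsto (fun k => E (volume.restrict (ball z₀ s)) (fun z =>
          emb (a k) (fun f => φ k f h) z - lv (F z) h)) U (𝓝 0) := by
        have hsum : Tendsto (fun k => E (volume.restrict (ball z₀ ρ₁))
            (emb (a k) fun f => Ph (φ k f) h) +
            ∑ j, E (volume.restrict (ball z₀ (ρ z₀)))
              (fun z => emb (a k) (fun f => φ k f j) z - Φ z₀ j z)) U (𝓝 (0 + ∑ _j, 0)) :=
          ((hhv h).mono_left hU).add (tendsto_finsetSum _ fun j _ => (hΦ₀ j).2)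
        simp only [Finset.sum_const_zero, add_zero] at hsum
        refine tendsto_of_tendsto_of_tendsto_of_le_of_le tendsto_const_nhds hsum
          (fun _ => zero_le) fun k => ?_
        have hm : ∀ j, AEStronglyMeasurable (fun z => emb (a k) (fun f => φ k f j) z -
            Φ z₀ j z) (volume.restrict (ball z₀ s)) := fun j =>
          (Embx622.emb_measurable _ _).aestronglyMeasurable.sub (hΦs j).1
        have hmPl : AEStronglyMeasurable (fun z => Pl (fun j =>
            emb (a k) (fun f => φ k f j) z - Φ z₀ j z) h) (volume.restrict (ball z₀ s)) :=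
          ((continuous_Pl h).measurable.comp_aemeasurable
            (aemeasurable_pi_lambda _ fun j => (hm j).aemeasurable)).aestronglyMeasurable
        calc E (volume.restrict (ball z₀ s)) (fun z =>
              emb (a k) (fun f => φ k f h) z - lv (F z) h)
            = E (volume.restrict (ball z₀ s)) (fun z => emb (a k) (fun f => Ph (φ k f) h) z +
              Pl (fun j => emb (a k) (fun f => φ k f j) z - Φ z₀ j z) h) := by
              refine E_congr ?_
              filter_upwards [hae] with z hz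
              rw [hz h, ← Pl_sub]
              have e1 : emb (a k) (fun f => φ k f h) z = Ph (φ k (meshIndex (a k) z)) h +
                  Pl (φ k (meshIndex (a k) z)) h := (Ph_add_Pl _ h).symm
              rw [e1]
              simp only [emb]
              ring
          _ ≤ E (volume.restrict (ball z₀ s)) (fun z => emb (a k) (fun f => Ph (φ k f) h) z) +
              E (volume.restrict (ball z₀ s)) (fun z => Pl (fun j =>
                emb (a k) (fun f => φ k f j) z - Φ z₀ j z) h) :=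
              E_add_le (Embx622.emb_measurable _ _).aestronglyMeasurable hmPl
          _ ≤ _ := by
              refine add_le_add (E_mono_set b1 _) ((E_Pl_le hm h).trans ?_)
              exact Finset.sum_le_sum fun j _ => E_mono_set b0 _
      exact E_tendsto_zero.1 hconv
  · refine ⟨fun z => F₁ z * U3x719.rX x z, fun z₁ hz₁ => ?_, fun z hz => ?_⟩
    · obtain ⟨r, hr, he⟩ := hex z₁ hz₁
      obtain ⟨s, hs, f₁, hd, -, hf⟩ := loc_F1 H hO hx hφ U hU hz₁.1 hr he
      obtain ⟨t, ht, hd2⟩ := MacTx610.gc_rX_diff (x := x) (z := z₁)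
        (fun i hc => hx i (hc ▸ hz₁.1))
      have h1 : DifferentiableAt ℂ (fun u => f₁ u * ((gc x z₁ u : ℂ) * U3x719.rX x u)) z₁ :=
        (hd.differentiableAt (ball_mem_nhds z₁ hs)).mul
          (hd2.differentiableAt (ball_mem_nhds z₁ ht))
      refine (h1.congr_of_eventuallyEq ?_).differentiableWithinAt
      filter_upwards [ball_mem_nhds z₁ hs] with u hu
      rw [hF₁, hf u hu]
      ring
    · simp only [hF, hz, if_true]

end Crest.Agent.R165.MacL2x943
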