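import Crest.Agent.R165.Sq4_54
import Crest.Agent.R165.Mac0_622

/-!
# Row 165 (S0250), U4/MAC (helper917): a-priori bounds and no concentration

For `LatSeq D x a w V` (helper622), `A (w k) (φ k) = a k * g k`, `g k` supported in a compact
`K ⊆ Om D x` with bounded scaled `ℓ²` norm, `volume (frontier D) = 0`:
* `supp_far` : `φ k` vanishes far away
* `mass_le` : the scaled `ℓ²` mass of `φ k` is bounded
* `no_conc` : for every `η > 0` there is a compact `K' ⊆ Om D x` outside which the mass is `≤ η`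
-/

set_option autoImplicit false

noncomputable section

open MeasureTheory Filter Topology Set Metric
open Crest.ProbabilityR.IsingModel
open Crest.Agent.R165.Tr1x40 Crest.Agent.R165.RIfx891 Crest.Agent.R165.Embx622
open Crest.Agent.R165.Mac0x622

namespace Crest.Agent.R165.MacNCx917

/-! ### the square trick with the area -/

/-- `κ(E) ≤ 5 √|E|` -/
theorem kapS_le_sqrt (E : Finset (ℤ × ℤ)) (z : ℤ × ℤ) :
    SqKx470.kapS E z ≤ 5 * Real.sqrt E.card := by
  set s := Real.sqrt (E.card : ℝ) with hs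
  have hs0 : 0 ≤ s := Real.sqrt_nonneg _
  have hs2 : s * s = E.card := Real.mul_self_sqrt (Nat.cast_nonneg _)
  set m := ⌊s⌋₊ with hm
  have hm1 : (m : ℝ) ≤ s := Nat.floor_le hs0
  have hm2 : s < m + 1 := Nat.lt_floor_add_one s
  have h1 := SqKx470.kap_le_count E z m
  have h2 : (∑ k ∈ Finset.range m, ((E.filter fun f => SqKx470.dN z f ≤ k).card : ℝ) *
      (1 / (((k : ℝ) + 1) * (k + 2)))) ≤ ∑ _k ∈ Finset.range m, (4 : ℝ) := by
    refine Finset.sum_le_sum fun k _ => ?_
    have h : ((E.filter fun f => SqKx470.dN z f ≤ k).card : ℝ) ≤ (2 * k + 1) ^ 2 := by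
      exact_mod_cast SqKx470.card_filter_le E z k
    rw [mul_one_div, div_le_iff₀ (by positivity)]
    have : (0 : ℝ) ≤ k := Nat.cast_nonneg _
    nlinarith
  rw [Finset.sum_const, Finset.card_range, nsmul_eq_mul] at h2
  have h3 : (E.card : ℝ) / (m + 1) ≤ s := by
    rw [div_le_iff₀ (by positivity), ← hs2]
    exact mul_le_mul_of_nonneg_left hm2.le hs0
  linarith

theorem wt_sum_le (E : Finset Face) (z : Face) :
    ∑ f ∈ E, Sqx54.wt (f - z) ≤ 5 * Real.sqrt E.card :=
  Sqx54.wt_of_kap (Sqx54.kap_of_kapS fun z => kapS_le_sqrt E z) z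

/-- number of cells in a set -/
theorem card_le_volume {a : ℝ} (ha : 0 < a) (E : Finset Face) {N : Set ℂ}
    (hN : ∀ z, meshIndex a z ∈ E → z ∈ N) : ENNReal.ofReal (a ^ 2) * E.card ≤ volume N := by
  have h1 : volume (meshIndex a ⁻¹' (E : Set (ℤ × ℤ))) = ENNReal.ofReal (a ^ 2) * E.card := by
    rw [← Measure.map_apply (meshIndex_measurable a) E.measurableSet, map_meshIndex ha,
      Measure.smul_apply, Measure.count_apply_finset, smul_eq_mul]
  rw [← h1]
  exact measure_mono fun z hz => hN z hz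

theorem a_sqrt_card_le {a v : ℝ} (ha : 0 < a) (hv : 0 ≤ v) (E : Finset Face) {N : Set ℂ}
    (hN : ∀ z, meshIndex a z ∈ E → z ∈ N) (hV : volume N ≤ ENNReal.ofReal (v ^ 2)) :
    a * Real.sqrt E.card ≤ v := by
  have h1 := (card_le_volume ha E hN).trans hV
  have h2 : ENNReal.ofReal (a ^ 2 * E.card) ≤ ENNReal.ofReal (v ^ 2) := by
    rwa [ENNReal.ofReal_mul (sq_nonneg a), ENNReal.ofReal_natCast]
  rw [ENNReal.ofReal_le_ofReal_iff (sq_nonneg v)] at h2
  have h3 : (a * Real.sqrt E.card) ^ 2 ≤ v ^ 2 := by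
    rwa [mul_pow, Real.sq_sqrt (Nat.cast_nonneg _)]
  exact (abs_le_of_sq_le_sq' h3 hv).2

/-- scaled `ℓ²` norm -/
def sn (a : ℝ) (φ : Fld) : ℝ := a * Real.sqrt (∑' f, nsq (φ f))

theorem sn_nonneg {a : ℝ} (ha : 0 ≤ a) (φ : Fld) : 0 ≤ sn a φ :=
  mul_nonneg ha (Real.sqrt_nonneg _)

theorem sn_sq (a : ℝ) (φ : Fld) : sn a φ ^ 2 = a ^ 2 * ∑' f, nsq (φ f) := by
  rw [sn, mul_pow, Real.sq_sqrt (tsum_nonneg fun f => nsq_nonneg _)]

/-- **square trick, scaled**: `a² ∑_E |φ|² ≤ C (a + √area E) ‖φ‖ ‖g‖` -/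
theorem sq_scaled {w φ g : Fld} {a v : ℝ} (ha : 0 < a) (hs : Sym w) (hp : IsPlus w)
    {I : Finset Face} (hφ : ∀ f, f ∉ I → φ f = 0) (hA : ∀ f h, A w φ f h = a * g f h)
    (E : Finset Face) (hv : a * Real.sqrt E.card ≤ v) :
    a ^ 2 * ∑ f ∈ E, nsq (φ f) ≤ 6000000000 * (a + 5 * v) * (sn a φ * sn a g) := by
  have hφ' : Sqx54.Supp I φ := fun f hf h => by rw [hφ f hf]; rfl
  have h := Sqx54.sq_main hs hp hφ' E _ (wt_sum_le E)
  have e1 : ∑' f, nsq (A w φ f) = a ^ 2 * ∑' f, nsq (g f) := by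
    rw [← tsum_mul_left]
    refine tsum_congr fun f => ?_
    simp only [nsq, hA, Finset.mul_sum]
    exact Finset.sum_congr rfl fun h _ => by ring
  have e2 : Real.sqrt (∑' f, nsq (A w φ f)) = a * Real.sqrt (∑' f, nsq (g f)) := by
    rw [e1, Real.sqrt_mul (sq_nonneg a), Real.sqrt_sq ha.le]
  rw [e2] at h
  have hX : 0 ≤ Real.sqrt (∑' f, nsq (φ f)) := Real.sqrt_nonneg _
  have hY : 0 ≤ Real.sqrt (∑' f, nsq (g f)) := Real.sqrt_nonneg _
  calc a ^ 2 * ∑ f ∈ E, nsq (φ f)
      ≤ a ^ 2 * (6000000000 * (1 + 5 * Real.sqrt E.card) * (Real.sqrt (∑' f, nsq (φ f)) *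
          (a * Real.sqrt (∑' f, nsq (g f))))) := mul_le_mul_of_nonneg_left h (sq_nonneg a)
    _ = 6000000000 * (a + 5 * (a * Real.sqrt E.card)) * (sn a φ * sn a g) := by
        simp only [sn]; ring
    _ ≤ 6000000000 * (a + 5 * v) * (sn a φ * sn a g) := by
        refine mul_le_mul_of_nonneg_right ?_ (mul_nonneg (sn_nonneg ha.le _) (sn_nonneg ha.le _))
        linarith

/-- **a-priori bound** -/
theorem sn_le {w φ g : Fld} {a v : ℝ} (ha : 0 < a) (hs : Sym w) (hp : IsPlus w)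
    {I : Finset Face} (hφ : ∀ f, f ∉ I → φ f = 0) (hA : ∀ f h, A w φ f h = a * g f h)
    (hv : a * Real.sqrt I.card ≤ v) :
    sn a φ ≤ 6000000000 * (a + 5 * v) * sn a g := by
  have h := sq_scaled ha hs hp hφ hA I hv
  have e : a ^ 2 * ∑ f ∈ I, nsq (φ f) = sn a φ * sn a φ := by
    rw [← sq, sn_sq]
    congr 1
    symm
    refine tsum_eq_sum fun f hf => ?_
    rw [hφ f hf]; simp [nsq]
  rw [e] at h
  have hv0 : 0 ≤ v := (by positivity : (0 : ℝ) ≤ a * Real.sqrt I.card).trans hv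
  rcases (sn_nonneg ha.le φ).eq_or_lt with h0 | h0
  · rw [← h0]
    have := sn_nonneg ha.le g
    positivity
  · refine le_of_mul_le_mul_right ?_ h0
    calc sn a φ * sn a φ ≤ _ := h
      _ = _ := by ring

/-! ### supports -/

/-- a row of a decoupled face -/
theorem zero_of_w {w φ : Fld} {f : Face} (hw : ∀ h, w f h = 0) (hA : ∀ h, A w φ f h = 0) :
    φ f = 0 := by
  have h1 : A0 (φ f) = 0 := by
    funext h
    have := hA h
    simpa [A, Y, hw h] using this
  have h2 := nsq_A0_ge (φ f)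
  rw [h1] at h2
  have h3 : nsq (0 : Fin 4 → ℝ) = 0 := by simp [nsq]
  rw [h3] at h2
  have h4 : nsq (φ f) ≤ 0 := by
    have : 0 < xc ^ 2 := pow_pos xc_pos 2
    by_contra hc
    push Not at hc
    nlinarith
  exact nsq_eq_zero.1 (le_antisymm h4 (nsq_nonneg _))

/-- faces with representative in the ball of radius `R` -/
def disc (a R : ℝ) : Finset Face :=
  letI : DecidablePred fun f : Face => ‖meshPoint a f‖ < R := Classical.decPred _
  Finset.filter (fun f : Face => ‖meshPoint a f‖ < R)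
    (Finset.Icc (-⌈R / a⌉) ⌈R / a⌉ ×ˢ Finset.Icc (-⌈R / a⌉) ⌈R / a⌉)

theorem mem_disc {a R : ℝ} (ha : 0 < a) {f : Face} : f ∈ disc a R ↔ ‖meshPoint a f‖ < R := by
  classical
  unfold disc
  rw [Finset.mem_filter, Finset.mem_product, Finset.mem_Icc, Finset.mem_Icc]
  constructor
  · exact fun h => h.2
  · intro h
    have h1 := (Complex.abs_re_le_norm (meshPoint a f)).trans_lt h
    have h2 := (Complex.abs_im_le_norm (meshPoint a f)).trans_lt h
    rw [meshPoint_re, abs_mul, abs_of_pos ha] at h1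
    rw [meshPoint_im, abs_mul, abs_of_pos ha] at h2
    have key : ∀ t : ℤ, a * |(t : ℝ)| < R → -⌈R / a⌉ ≤ t ∧ t ≤ ⌈R / a⌉ := by
      intro t ht
      have h3 : |(t : ℝ)| < R / a := by rwa [lt_div_iff₀ ha, mul_comm]
      have h4 : |(t : ℝ)| < ⌈R / a⌉ := h3.trans_le (Int.le_ceil _)
      rw [abs_lt] at h4
      constructor
      · have := h4.1.le; exact_mod_cast this
      · have := h4.2.le; exact_mod_cast this
    exact ⟨⟨key _ h1, key _ h2⟩, h⟩

theorem norm_sub_meshPoint {a : ℝ} (ha : 0 < a) (z : ℂ) :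
    ‖meshPoint a (meshIndex a z) - z‖ ≤ 2 * a := Upx622.norm_mesh_sub ha z

/-! ### sequences -/

section seq

variable {D : Set ℂ} {n : ℕ} {x : Fin n → ℂ} {a : ℕ → ℝ} {w : ℕ → Fld} {V : ℕ → Fin n → Face}

theorem _root_.Crest.Agent.R165.Mac0x622.LatSeq.isPlus (H : LatSeq D x a w V) (k : ℕ) :
    IsPlus (w k) := fun f h => H.plus k f h

/-- solutions with source in `K` and bounded scaled norm -/
structure Src (a : ℕ → ℝ) (w : ℕ → Fld) (K : Set ℂ) (g φ : ℕ → Fld) (G : ℝ) : Prop where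
  supp : ∀ k f, meshPoint (a k) f ∉ K → g k f = 0
  bd : ∀ᶠ k in atTop, sn (a k) (g k) ≤ G
  eq : ∀ k f h, A (w k) (φ k) f h = a k * g k f h

theorem Src.comp {K : Set ℂ} {g φ : ℕ → Fld} {G : ℝ} (S : Src a w K g φ G) {θ : ℕ → ℕ}
    (hθ : StrictMono θ) : Src (a ∘ θ) (w ∘ θ) K (g ∘ θ) (φ ∘ θ) G :=
  ⟨fun k => S.supp _, hθ.tendsto_atTop.eventually S.bd, fun k => S.eq _⟩

/-- `φ` vanishes at decoupled faces off the source -/
theorem Src.zero {K : Set ℂ} {g φ : ℕ → Fld} {G : ℝ} (S : Src a w K g φ G) {k : ℕ} {f : Face}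
    (hf : meshPoint (a k) f ∉ K) (hw : ∀ h, w k f h = 0) : φ k f = 0 :=
  zero_of_w hw fun h => by rw [S.eq k f h, S.supp k f hf]; simp

/-- `φ k` vanishes far away, for all `k` -/
theorem supp_far (H : LatSeq D x a w V) {K : Set ℂ} (hK : IsCompact K) {g φ : ℕ → Fld} {G : ℝ}
    (S : Src a w K g φ G) : ∃ R, 0 < R ∧ ∀ k f, R ≤ ‖meshPoint (a k) f‖ → φ k f = 0 := by
  obtain ⟨R1, hR1⟩ := H.bdd
  obtain ⟨R2, hR2⟩ := hK.isBounded.exists_norm_le
  refine ⟨max (max R1 (R2 + 1)) 1, by positivity, fun k f hf => ?_⟩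
  have h1 : R1 ≤ ‖meshPoint (a k) f‖ := ((le_max_left _ _).trans (le_max_left _ _)).trans hf
  have h2 : R2 + 1 ≤ ‖meshPoint (a k) f‖ := ((le_max_right _ _).trans (le_max_left _ _)).trans hf
  refine S.zero (fun hc => ?_) (hR1 k f h1)
  have := hR2 _ hc
  linarith

/-- **a-priori bound** -/
theorem mass_le (H : LatSeq D x a w V) {K : Set ℂ} (hK : IsCompact K) {G : ℝ} (hG : 0 ≤ G) :
    ∃ C, 0 ≤ C ∧ ∀ g φ : ℕ → Fld, Src a w K g φ G → ∀ᶠ k in atTop, sn (a k) (φ k) ≤ C := by
  obtain ⟨R1, hR1⟩ := H.bdd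
  obtain ⟨R2, hR2⟩ := hK.isBounded.exists_norm_le
  set R := max (max R1 (R2 + 1)) 1 with hR
  have hR0 : 0 < R := by positivity
  obtain ⟨v, hv0, hv⟩ : ∃ v : ℝ, 0 ≤ v ∧ volume (ball (0 : ℂ) (R + 2)) ≤ ENNReal.ofReal (v ^ 2) := by
    refine ⟨Real.sqrt (volume (ball (0 : ℂ) (R + 2))).toReal, Real.sqrt_nonneg _, ?_⟩
    rw [Real.sq_sqrt ENNReal.toReal_nonneg, ENNReal.ofReal_toReal measure_ball_lt_top.ne]
  refine ⟨6000000000 * (1 + 5 * v) * G, by positivity, fun g φ S => ?_⟩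
  filter_upwards [H.lim.eventually (eventually_le_nhds (zero_lt_one)), S.bd] with k hk hg
  have ha := H.pos k
  have hz : ∀ f, f ∉ disc (a k) R → φ k f = 0 := by
    intro f hf
    rw [mem_disc ha, not_lt] at hf
    have h1 : R1 ≤ ‖meshPoint (a k) f‖ := ((le_max_left _ _).trans (le_max_left _ _)).trans hf
    have h2 : R2 + 1 ≤ ‖meshPoint (a k) f‖ :=
      ((le_max_right _ _).trans (le_max_left _ _)).trans hf
    refine S.zero (fun hc => ?_) (hR1 k f h1)
    have := hR2 _ hc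
    linarith
  have hcard : a k * Real.sqrt (disc (a k) R).card ≤ v := by
    refine a_sqrt_card_le ha hv0 _ (N := ball 0 (R + 2)) (fun z hz => ?_) hv
    rw [mem_disc ha] at hz
    rw [mem_ball_zero_iff]
    have h1 := norm_sub_meshPoint ha z
    have h2 : ‖z‖ ≤ ‖meshPoint (a k) (meshIndex (a k) z)‖ +
        ‖meshPoint (a k) (meshIndex (a k) z) - z‖ := by
      have := norm_sub_le (meshPoint (a k) (meshIndex (a k) z))
        (meshPoint (a k) (meshIndex (a k) z) - z)
      rwa [sub_sub_cancel] at this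
    linarith
  have h := sn_le ha (H.sym k) (H.isPlus k) hz (S.eq k) hcard
  refine h.trans ?_
  have : 6000000000 * (a k + 5 * v) ≤ 6000000000 * (1 + 5 * v) := by linarith
  exact mul_le_mul this hg (sn_nonneg ha.le _) (by positivity)

/-- **no concentration** at `frontier D`, at the insertions and at infinity -/
theorem no_conc (H : LatSeq D x a w V) (hD : IsOpen D) (hDb : Bornology.IsBounded D)
    (hfr : volume (frontier D) = 0) {K : Set ℂ} (hK : IsCompact K) (hKO : K ⊆ Om D x) {G : ℝ}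
    (hG : 0 ≤ G) {η : ℝ} (hη : 0 < η) :
    ∃ K' : Set ℂ, IsCompact K' ∧ K' ⊆ Om D x ∧ ∀ g φ : ℕ → Fld, Src a w K g φ G →
      ∀ᶠ k in atTop, ∀ S : Finset Face, (∀ f ∈ S, meshPoint (a k) f ∉ K') →
        a k ^ 2 * ∑ f ∈ S, nsq (φ k f) ≤ η := by
  classical
  obtain ⟨C, hC0, hC⟩ := mass_le H hK hG
  set T : Set ℂ := frontier D ∪ range x with hT
  have hTc : IsClosed T := isClosed_frontier.union (finite_range x).isClosed
  have hTb : Bornology.IsBounded T := by
    refine Bornology.IsBounded.union ?_ (finite_range x).isBounded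
    exact hDb.closure.subset frontier_subset_closure
  have hTv : volume T = 0 := by
    refine le_antisymm ((measure_union_le _ _).trans ?_) zero_le
    rw [hfr, (finite_range x).measure_zero, add_zero]
  -- small area
  set M := 6000000000 * (C * G) + 1 with hM
  have hM0 : 0 < M := by positivity
  set v := η / (12 * M) with hv
  have hv0 : 0 < v := by positivity
  obtain ⟨δ, hδ0, hδ⟩ : ∃ δ : ℝ, 0 < δ ∧
      volume (cthickening (2 * δ) T) ≤ ENNReal.ofReal (v ^ 2) := by
    have h1 : Tendsto (fun r => volume (cthickening r T)) (𝓝 0) (𝓝 0) := by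
      have := tendsto_measure_cthickening_of_isClosed (μ := (volume : Measure ℂ)) (s := T)
        ⟨1, one_pos, (hTb.cthickening.measure_lt_top).ne⟩ hTc
      rwa [hTv] at this
    have h2 : ∀ᶠ r in 𝓝 (0 : ℝ), volume (cthickening r T) < ENNReal.ofReal (v ^ 2) :=
      h1.eventually (eventually_lt_nhds (by rw [ENNReal.ofReal_pos]; positivity))
    obtain ⟨ε, hε, hball⟩ := Metric.eventually_nhds_iff.1 h2
    refine ⟨ε / 4, by positivity, (hball ?_).le⟩
    rw [Real.dist_eq, sub_zero, abs_of_pos (by positivity)]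
    linarith
  obtain ⟨R1, hR1⟩ := H.bdd
  obtain ⟨R2, hR2⟩ := hK.isBounded.exists_norm_le
  set R := max (max R1 (R2 + 1)) 1 with hR
  set K' : Set ℂ := closure D \ thickening δ T with hK'
  set K0 : Set ℂ := (closedBall 0 R \ D) \ thickening δ (frontier D) with hK0
  have hK'c : IsCompact K' := (hDb.isCompact_closure).diff isOpen_thickening
  have hK0c : IsCompact K0 := ((isCompact_closedBall 0 R).diff hD).diff isOpen_thickening
  have hK'O : K' ⊆ Om D x := by
    rintro z ⟨hz1, hz2⟩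
    have hzT : z ∉ T := fun hc => hz2 (self_subset_thickening hδ0 _ hc)
    refine ⟨?_, fun hc => hzT (Or.inr hc)⟩
    by_contra hzD
    exact hzT (Or.inl (by rw [frontier, hD.interior_eq]; exact ⟨hz1, hzD⟩))
  have hK0d : Disjoint K0 (closure D) := by
    rw [Set.disjoint_left]
    rintro z ⟨⟨-, hz1⟩, hz2⟩ hz3
    exact hz2 (self_subset_thickening hδ0 _ (by rw [frontier, hD.interior_eq]; exact ⟨hz3, hz1⟩))
  refine ⟨K', hK'c, hK'O, fun g φ S => ?_⟩
  filter_upwards [H.lim.eventually (eventually_le_nhds (show (0 : ℝ) < min (δ / 2) v by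
    positivity)), S.bd, hC g φ S, H.out K0 hK0c hK0d] with k hk hg hφ hout E0 hE0
  have ha := H.pos k
  have hk1 : a k ≤ δ / 2 := hk.trans (min_le_left _ _)
  have hk2 : a k ≤ v := hk.trans (min_le_right _ _)
  -- reduce to the faces near `T`
  set E := E0.filter fun f => meshPoint (a k) f ∈ thickening δ T with hE
  have hsum : ∑ f ∈ E0, nsq (φ k f) = ∑ f ∈ E, nsq (φ k f) := by
    rw [hE]
    symm
    refine Finset.sum_subset (Finset.filter_subset _ _) fun f hf hf' => ?_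
    have h1 : meshPoint (a k) f ∉ thickening δ T := fun hc =>
      hf' (Finset.mem_filter.2 ⟨hf, hc⟩)
    have h2 : meshPoint (a k) f ∉ closure D := fun hc => hE0 f hf ⟨hc, h1⟩
    have h3 : meshPoint (a k) f ∉ K := fun hc => h2 (subset_closure (hKO hc).1)
    have h4 : φ k f = 0 := by
      by_cases hR3 : R ≤ ‖meshPoint (a k) f‖
      · exact S.zero h3 (hR1 k f (((le_max_left _ _).trans (le_max_left _ _)).trans hR3))
      · refine S.zero h3 (hout f ⟨⟨?_, fun hc => h2 (subset_closure hc)⟩, fun hc => h1 ?_⟩)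
        · rw [mem_closedBall_zero_iff]; exact (not_le.1 hR3).le
        · exact thickening_subset_of_subset _ subset_union_left hc
    rw [h4]; simp [nsq]
  obtain ⟨R', hR'0, hR'⟩ := supp_far H hK S
  have hz : ∀ f, f ∉ disc (a k) R' → φ k f = 0 := by
    intro f hf
    rw [mem_disc ha, not_lt] at hf
    exact hR' k f hf
  have hcard : a k * Real.sqrt E.card ≤ v := by
    refine a_sqrt_card_le ha hv0.le _ (N := cthickening (2 * δ) T) (fun z hz => ?_) hδ
    have h1 := (Finset.mem_filter.1 hz).2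
    have h2 := norm_sub_meshPoint ha z
    rw [mem_thickening_iff] at h1
    obtain ⟨y, hy, hyd⟩ := h1
    refine mem_cthickening_of_dist_le z y _ _ hy ?_
    have h3 : dist z y ≤ dist z (meshPoint (a k) (meshIndex (a k) z)) +
      dist (meshPoint (a k) (meshIndex (a k) z)) y := dist_triangle _ _ _
    have h4 : dist z (meshPoint (a k) (meshIndex (a k) z)) ≤ 2 * a k := by
      rw [dist_comm, dist_eq_norm]; exact h2
    linarith
  have h := sq_scaled ha (H.sym k) (H.isPlus k) hz (S.eq k) E hcard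
  rw [hsum]
  refine h.trans ?_
  have h5 : 6000000000 * (a k + 5 * v) ≤ 6000000000 * (6 * v) := by linarith
  have h6 : sn (a k) (φ k) * sn (a k) (g k) ≤ C * G :=
    mul_le_mul hφ hg (sn_nonneg ha.le _) hC0
  calc 6000000000 * (a k + 5 * v) * (sn (a k) (φ k) * sn (a k) (g k))
      ≤ 6000000000 * (6 * v) * (C * G) :=
        mul_le_mul h5 h6 (mul_nonneg (sn_nonneg ha.le _) (sn_nonneg ha.le _)) (by positivity)
    _ = (6000000000 * (C * G)) * (6 * v) := by ring
    _ ≤ M * (6 * v) := mul_le_mul_of_nonneg_right (by linarith) (by positivity)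
    _ = η / 2 := by rw [hv]; field_simp; ring
    _ ≤ η := by linarith

end seq

end Crest.Agent.R165.MacNCx917
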