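import Crest.Agent.R165.LimS_610

/-!
# Row 165 (S0250), U4/MAC, M3 (helper610): limits are spinors

`CompLim.ld` : a `CompLim` gives the data `LD` of the limit laws;
`CompLim.isSpin` : the limit (times `e^{-iπ/4}`) is a spinor in the sense of helper719.
-/

set_option autoImplicit false

noncomputable section

open MeasureTheory Filter Topology Set Metric
open Crest.ProbabilityR.IsingModel
open Crest.Agent.R165.Tr1x40 Crest.Agent.R165.LimAx610 Crest.Agent.R165.LimQx610
open Crest.Agent.R165.LimRx610 Crest.Agent.R165.RIfx891 Crest.Agent.R165.Embx622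
open Crest.Agent.R165.Mac0x622 Crest.Agent.R165.MacIx610 Crest.Agent.R165.LimSx610
open scoped ENNReal

namespace Crest.Agent.R165.MacSx610

/-! ### conversions -/

theorem eLpNorm_eq_sq {α : Type*} [MeasurableSpace α] {μ : Measure α} (f : α → ℝ) :
    eLpNorm f 2 μ = (∫⁻ z, ENNReal.ofReal (f z ^ 2) ∂μ) ^ ((2 : ℝ)⁻¹) := by
  rw [eLpNorm_eq_lintegral_rpow_enorm_toReal (by norm_num) (by norm_num)]
  simp only [ENNReal.toReal_ofNat, one_div]
  congr 1
  refine lintegral_congr fun z => ?_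
  rw [Real.enorm_eq_ofReal_abs, ← Nat.cast_two (R := ℝ), ENNReal.rpow_natCast,
    ← ENNReal.ofReal_pow (abs_nonneg _), sq_abs]

theorem tendsto_eLpNorm {ι α : Type*} [MeasurableSpace α] {μ : Measure α} {l : Filter ι}
    {f : ι → α → ℝ} (h : Tendsto (fun k => ∫⁻ z, ENNReal.ofReal (f k z ^ 2) ∂μ) l (𝓝 0)) :
    Tendsto (fun k => eLpNorm (f k) 2 μ) l (𝓝 0) := by
  simp only [eLpNorm_eq_sq]
  have := (ENNReal.continuous_rpow_const (y := (2 : ℝ)⁻¹)).tendsto 0
  rw [ENNReal.zero_rpow_of_pos (by norm_num)] at this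
  exact this.comp h

theorem tendsto_lintegral {ι α : Type*} [MeasurableSpace α] {μ : Measure α} {l : Filter ι}
    {f : ι → α → ℝ} (h : Tendsto (fun k => eLpNorm (f k) 2 μ) l (𝓝 0)) :
    Tendsto (fun k => ∫⁻ z, ENNReal.ofReal (f k z ^ 2) ∂μ) l (𝓝 0) := by
  have h1 := (ENNReal.continuous_pow 2).tendsto 0
  rw [zero_pow (by norm_num)] at h1
  refine (h1.comp h).congr fun k => ?_
  simp only [Function.comp_apply]
  rw [eLpNorm_eq_sq, ← ENNReal.rpow_natCast, ← ENNReal.rpow_mul]
  norm_num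

/-- `lv` is bounded by the amplitude -/
theorem abs_lv_le (c : ℂ) (h : Fin 4) : |lv c h| ≤ 2 * ‖c‖ := by
  have h1 := Complex.abs_re_le_norm c
  have h2 := Complex.abs_im_le_norm c
  have h3 : 1 ≤ Real.sqrt 2 := one_lt_sq2.le
  have key : ∀ t : ℝ, |t| ≤ 2 * ‖c‖ → |t / Real.sqrt 2| ≤ 2 * ‖c‖ := by
    intro t ht
    rw [abs_div, abs_of_pos sq2_pos]
    exact (div_le_self (abs_nonneg _) h3).trans ht
  fin_cases h
  · refine key _ ?_
    rw [abs_neg]
    exact (abs_add_le _ _).trans (by linarith)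
  · simp only [lv]
    linarith [abs_nonneg c.re]
  · refine key _ ?_
    exact (abs_sub _ _).trans (by linarith)
  · simp only [lv, abs_neg]
    linarith [abs_nonneg c.im]

theorem continuous_lv (h : Fin 4) : Continuous fun c => lv c h := by
  fin_cases h
  · simp only [lv]; fun_prop
  · simp only [lv]; fun_prop
  · simp only [lv]; fun_prop
  · simp only [lv]; fun_prop

theorem lv_zero (h : Fin 4) : lv 0 h = 0 := by
  have := abs_lv_le 0 h
  simpa using this

theorem lv_sub (c c' : ℂ) (h : Fin 4) : lv (c - c') h = lv c h - lv c' h := by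
  fin_cases h <;> simp [lv] <;> ring

theorem lv_smul (t : ℝ) (c : ℂ) (h : Fin 4) : lv (t * c) h = t * lv c h := by
  fin_cases h <;> simp [lv] <;> ring

theorem memLp_lv {μ : Measure ℂ} {F : ℂ → ℂ} (hF : MemLp F 2 μ) (h : Fin 4) :
    MemLp (fun z => lv (F z) h) 2 μ := by
  refine MemLp.of_le_mul (c := 2) hF ((continuous_lv h).comp_aestronglyMeasurable hF.1)
    (Eventually.of_forall fun z => ?_)
  rw [Real.norm_eq_abs]
  exact abs_lv_le _ _

/-- the amplitude is recovered from the light vector -/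
theorem norm_le_lv (c : ℂ) : ‖c‖ ≤ |lv c 1| + |lv c 3| := by
  simp only [lv, abs_neg]
  exact Complex.norm_le_abs_re_add_abs_im c

/-! ### geometry of the mesh -/

theorem rays_sq {n : ℕ} (V : Fin n → Face) (f : Face) (h : Fin 4) : rays V f h ^ 2 = 1 := by
  unfold rays
  rw [← Finset.prod_pow]
  exact Finset.prod_eq_one fun i _ => rayw_sq _ _ _

/-- compact neighbourhoods swallow the mesh points of nearby points -/
theorem exists_nbhd {D K : Set ℂ} (hD : IsOpen D) (hK : IsCompact K) (hKD : K ⊆ D) :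
    ∃ δ > 0, ∃ K' : Set ℂ, IsCompact K' ∧ K' ⊆ D ∧ ∀ z ∈ K, ∀ u, ‖u - z‖ ≤ δ → u ∈ K' := by
  obtain ⟨δ, hδ, hδD⟩ := hK.exists_cthickening_subset_open hD hKD
  refine ⟨δ, hδ, cthickening δ K, hK.cthickening, hδD, fun z hz u hu => ?_⟩
  exact mem_cthickening_of_dist_le u z δ K hz (by rwa [dist_eq_norm])

theorem mesh_eventually {ι : Type*} {l : Filter ι} {a : ι → ℝ} (hpos : ∀ k, 0 < a k)
    (hlim : Tendsto a l (𝓝 0)) {δ : ℝ} (hδ : 0 < δ) :
    ∀ᶠ k in l, ∀ z, ‖meshPoint (a k) (meshIndex (a k) z) - z‖ ≤ δ := by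
  filter_upwards [hlim.eventually (eventually_lt_nhds (show (0 : ℝ) < δ / 2 by linarith))] with k hk z
  exact (meshPoint_near (hpos k) z).trans (by linarith)

/-! ### the data of the limit laws -/

variable {D : Set ℂ} {n : ℕ} {x : Fin n → ℂ} {K : Set ℂ} {G : ℂ → Fin 4 → ℝ} {a : ℕ → ℝ}
  {w : ℕ → Fld} {V : ℕ → Fin n → Face} {g φ : ℕ → Fld} {U : Filter ℕ} {F : ℂ → ℂ}

theorem src_eq (hpos : ∀ k, 0 < a k) (S : Srcs K G a w g φ) (k : ℕ) :
    src (a k) (w k) (φ k) = g k := by
  funext f h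
  rw [src, S.eqn, ← mul_assoc, inv_mul_cancel₀ (hpos k).ne', one_mul]

theorem ld (hD : IsOpen D) (H : LatSeq D x a w V) (S : Srcs K G a w g φ)
    (hG : ∀ h, MemLp (fun z => G z h) 2) (hU : U ≤ atTop) (L : CompLim D x K U a φ F) :
    LD U D univ a w φ (fun h z => lv (F z) h) (fun h z => G z h) where
  pos := H.pos
  lim := H.lim.mono_left hU
  sym := H.sym
  plus := H.plus
  opn := hD
  meas := MeasurableSet.univ
  memΦ h := by rw [Measure.restrict_univ]; exact memLp_lv L.l2 h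
  memG h := by rw [Measure.restrict_univ]; exact hG h
  zero h := Eventually.of_forall fun z hz => by rw [L.zero z hz, lv_zero]
  crit K' hK' hK'D := by
    obtain ⟨δ, hδ, K2, hK2, hK2D, hnb⟩ := exists_nbhd hD hK' hK'D
    refine hU ?_
    filter_upwards [H.ins K2 hK2 hK2D, mesh_eventually H.pos H.lim hδ] with k h1 h2 z hz h
    rw [h1 _ (hnb z hz _ (h2 z)) h, mul_pow, rays_sq, one_mul]
  convΦ h := by
    rw [Measure.restrict_univ]
    exact tendsto_eLpNorm (L.conv h)
  convG h := by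
    rw [Measure.restrict_univ]
    refine (tendsto_eLpNorm (S.conv h)).mono_left hU |>.congr fun k => ?_
    rw [src_eq H.pos S]
    rfl

/-- the source vanishes off `K` -/
theorem source_zero (hpos : ∀ k, 0 < a k) (hlim : Tendsto a atTop (𝓝 0)) (hK : IsClosed K)
    (S : Srcs K G a w g φ) (hG : ∀ h, MemLp (fun z => G z h) 2) :
    ∀ᵐ z, z ∉ K → ∀ h, G z h = 0 := by
  have key : ∀ h, ∀ᵐ z, z ∉ K → G z h = 0 := by
    intro h
    have h1 : Tendsto (fun k => eLpNorm (emb (a k) (fun f => g k f h) - fun z => G z h) 2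
        (volume : Measure ℂ)) atTop (𝓝 0) := tendsto_eLpNorm (S.conv h)
    have h2 := tendstoInMeasure_of_tendsto_eLpNorm (by norm_num)
      (fun k => (emb_measurable (a k) (fun f => g k f h)).aestronglyMeasurable) (hG h).1 h1
    obtain ⟨ns, hns, hae⟩ := h2.exists_seq_tendsto_ae
    filter_upwards [hae] with z hz hzK
    have h3 : ∀ᶠ j in atTop, emb (a (ns j)) (fun f => g (ns j) f h) z = 0 := by
      obtain ⟨δ, hδ, hb⟩ := Metric.mem_nhds_iff.1 (hK.isOpen_compl.mem_nhds hzK)
      have h4 := mesh_eventually hpos hlim (half_pos hδ)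
      filter_upwards [hns.tendsto_atTop.eventually h4] with j hj
      refine S.supp _ _ ?_ h
      refine hb ?_
      rw [mem_ball, dist_eq_norm]
      exact (hj z).trans_lt (half_lt_self hδ)
    exact tendsto_nhds_unique hz (tendsto_const_nhds.congr' (h3.mono fun _ h => h.symm))
  filter_upwards [ae_all_iff.2 key] with z hz hzK h
  exact hz h hzK

/-- range of the insertions is null -/
theorem ae_not_range (x : Fin n → ℂ) : ∀ᵐ z : ℂ, z ∉ range x := by
  exact measure_eq_zero_iff_ae_notMem.1 ((finite_range x).measure_zero _)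

/-- `e^{-iπ/4}` -/
def om8 : ℂ := Complex.exp (-(Real.pi / 4 * Complex.I))

theorem om8_sq : om8 ^ 2 = -Complex.I := by
  rw [om8, ← Complex.exp_nat_mul]
  have : ((2 : ℕ) : ℂ) * -(Real.pi / 4 * Complex.I) = -(Real.pi / 2 * Complex.I) := by
    push_cast; ring
  rw [this, Complex.exp_neg, Complex.exp_pi_div_two_mul_I, Complex.inv_I]

theorem om8_ne : om8 ≠ 0 := Complex.exp_ne_zero _

/-- **limits are spinors** -/
theorem isSpin (hD : IsOpen D) (hK : IsCompact K) (H : LatSeq D x a w V)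
    (S : Srcs K G a w g φ) (hG : ∀ h, MemLp (fun z => G z h) 2) [U.NeBot] (hU : U ≤ atTop)
    (L : CompLim D x K U a φ F) : U3x719.IsSpin D x K (fun z => om8 * F z) := by
  have hLD := ld hD H S hG hU L
  have hsz := source_zero H.pos H.lim hK.isClosed S hG
  have hdb : ∀ (χ : ℂ → ℝ) z, ((om8 * F z) ^ 2 * U3x719.db χ z).re
      = fderiv ℝ χ z 1 * (F z ^ 2).im + fderiv ℝ χ z Complex.I * (F z ^ 2).re := by
    intro χ z
    rw [mul_pow, om8_sq, U3x719.db]
    simp only [Complex.mul_re, Complex.mul_im, Complex.neg_re, Complex.neg_im, Complex.I_re,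
      Complex.I_im, Complex.add_re, Complex.add_im, Complex.ofReal_re, Complex.ofReal_im]
    ring
  have hdb' : ∀ (χ : ℂ → ℝ) z, ((om8 * F z) ^ 2 * U3x719.db χ z).im
      = -(fderiv ℝ χ z 1 * (F z ^ 2).re - fderiv ℝ χ z Complex.I * (F z ^ 2).im) := by
    intro χ z
    rw [mul_pow, om8_sq, U3x719.db]
    simp only [Complex.mul_re, Complex.mul_im, Complex.neg_re, Complex.neg_im, Complex.I_re,
      Complex.I_im, Complex.add_re, Complex.add_im, Complex.ofReal_re, Complex.ofReal_im]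
    ring
  have hz : ∀ χ : ℂ → ℝ, Disjoint (tsupport χ) K →
      ∀ᵐ z ∂volume.restrict (univ : Set ℂ), χ z ≠ 0 → ∀ h, G z h = 0 := by
    intro χ hχ
    rw [Measure.restrict_univ]
    filter_upwards [hsz] with z hz hχz h
    exact hz (fun hzK => disjoint_left.1 hχ (subset_tsupport χ hχz) hzK) h
  have hnb : ∀ χ : ℂ → ℝ, ∃ δ > 0, Metric.thickening δ (tsupport χ) ⊆ (univ : Set ℂ) :=
    fun χ => ⟨1, one_pos, subset_univ _⟩
  refine ⟨fun W _ _ => ?_, ?_, ?_, ?_⟩
  · exact (L.l2.const_mul om8).restrict _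
  · obtain ⟨gg, h1, h2⟩ := L.hol
    refine ⟨fun z => om8 * gg z, ?_, ?_⟩
    · have e : D \ (range x ∪ K) = Om D x \ K := by
        ext z; simp only [Om, Set.mem_sdiff, mem_union, not_or]; tauto
      rw [e]
      exact h1.const_mul _
    · rw [ae_restrict_iff' (hD.measurableSet.diff hK.isClosed.measurableSet)]
      filter_upwards [ae_not_range x] with z hz hzD
      rw [mul_assoc, h2 z ⟨⟨hzD.1, hz⟩, hzD.2⟩]
  · rintro χ ⟨C, hC⟩ hc hχ hdis
    have hT := Test.of_contDiffOn hD hC hc (hnb χ) hχ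
    have h := curl_law hLD hT (hz χ hdis)
    rw [Measure.restrict_univ] at h
    rw [← h]
    simp only [hdb]
    refine (setIntegral_eq_integral_of_forall_compl_eq_zero fun z hzD => ?_)
    rw [L.zero z hzD]
    simp
  · rintro χ ⟨C, hC⟩ hc hχ hdis hχ0
    have hT := Test.of_contDiffOn hD hC hc (hnb χ) hχ
    have h := div_law hLD hT hχ0 (hz χ hdis)
    rw [Measure.restrict_univ] at h
    simp only [hdb', integral_neg]
    rw [neg_nonpos]
    refine h.trans (le_of_eq (setIntegral_eq_integral_of_forall_compl_eq_zero fun z hzD => ?_).symm)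
    rw [L.zero z hzD]
    simp

end Crest.Agent.R165.MacSx610
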