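import Crest.Agent.R165.MacT_610

/-!
# Row 165 (S0250), U4/MAC, M3 (helper610): convergence of the resolvents

`resConv` : compactness (`Comp`) and uniqueness (`UniqL2`) imply `ResConv'`.
-/

set_option autoImplicit false

noncomputable section

open MeasureTheory Filter Topology Set Metric
open Crest.ProbabilityR.IsingModel
open Crest.Agent.R165.Tr1x40 Crest.Agent.R165.LimAx610 Crest.Agent.R165.LimQx610
open Crest.Agent.R165.LimRx610 Crest.Agent.R165.RIfx891 Crest.Agent.R165.Embx622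
open Crest.Agent.R165.Mac0x622 Crest.Agent.R165.MacIx610 Crest.Agent.R165.LimSx610
open Crest.Agent.R165.MacSx610 Crest.Agent.R165.MacTx610
open scoped ENNReal ContDiff

namespace Crest.Agent.R165.MacUx610

/-- the zero field is a spinor -/
theorem isSpin_zero (D : Set ℂ) {n : ℕ} (x : Fin n → ℂ) (K : Set ℂ) :
    U3x719.IsSpin D x K (fun z => om8 * (0 : ℂ → ℂ) z) := by
  have e : (fun z => om8 * (0 : ℂ → ℂ) z) = fun _ => 0 := by funext z; simp
  rw [e]
  refine ⟨fun W _ _ => ?_, ⟨0, ?_, ?_⟩, ?_, ?_⟩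
  · exact MemLp.zero'
  · exact differentiableOn_const 0
  · exact Eventually.of_forall fun z => by simp
  · intro χ _ _ _ _
    simp
  · intro χ _ _ _ _ _
    simp

/-- uniqueness of the limits -/
theorem unique {D : Set ℂ} (hD : IsOpen D) (hu : UniqL2 D) {n : ℕ} {x : Fin n → ℂ}
    (hx : Function.Injective x) (hxD : ∀ i, x i ∈ D) {K : Set ℂ} (hK : IsCompact K)
    (hKO : K ⊆ Om D x)
    {G : ℂ → Fin 4 → ℝ} (hG : ∀ h, MemLp (fun z => G z h) 2)
    {a : ℕ → ℝ} {w : ℕ → Fld} {V : ℕ → Fin n → Face} {g φ : ℕ → Fld}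
    (H : LatSeq D x a w V) (S : Srcs K G a w g φ) {U : Filter ℕ} [U.NeBot] (hU : U ≤ atTop)
    {F : ℂ → ℂ} (L : CompLim D x K U a φ F)
    {a' : ℕ → ℝ} {w' : ℕ → Fld} {V' : ℕ → Fin n → Face} {g' φ' : ℕ → Fld}
    (H' : LatSeq D x a' w' V') (S' : Srcs K G a' w' g' φ') {U' : Filter ℕ} [U'.NeBot]
    (hU' : U' ≤ atTop) {F' : ℂ → ℂ} (L' : CompLim D x K U' a' φ' F') : F =ᵐ[volume] F' := by
  obtain ⟨d, hd1, hd2⟩ := diff_hol hD hG H S hU L H' S' hU' L'
  have s1 := isSpin hD hK H S hG hU L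
  have s2 := isSpin hD hK H' S' hG hU' L'
  have h := hu n x hx hxD K hK hKO (fun z => om8 * F z) (fun z => om8 * F' z)
    ((L.l2.const_mul om8).restrict D) ((L'.l2.const_mul om8).restrict D) s1 s2
    (fun z => om8 * d z) (hd1.const_mul _) (by
      filter_upwards [hd2] with z hz
      rw [← hz]; ring)
  rw [Filter.EventuallyEq, ae_restrict_iff' hD.measurableSet] at h
  filter_upwards [h] with z hz
  by_cases hzD : z ∈ D
  · exact mul_left_cancel₀ om8_ne (hz hzD)
  · rw [L.zero z hzD, L'.zero z hzD]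

/-- **convergence of the resolvents** -/
theorem resConv {D : Set ℂ} (hD : IsOpen D) (hc : Comp D) (hu : UniqL2 D) {n : ℕ}
    {x : Fin n → ℂ} (hx : Function.Injective x) (hxD : ∀ i, x i ∈ D) : ResConv' D x := by
  intro K hK hKO G hG
  by_cases hex : ∃ (a : ℕ → ℝ) (w : ℕ → Fld) (V : ℕ → Fin n → Face) (g φ : ℕ → Fld),
      LatSeq D x a w V ∧ Srcs K G a w g φ
  · obtain ⟨a, w, V, g, φ, H, S⟩ := hex
    have hU0 : ((hyperfilter ℕ : Ultrafilter ℕ) : Filter ℕ) ≤ atTop := by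
      rw [← Nat.cofinite_eq_atTop]; exact hyperfilter_le_cofinite
    obtain ⟨F, L⟩ := hc n x hxD K hK hKO G hG a w V H g φ S (hyperfilter ℕ) hU0
    refine ⟨F, ⟨L.l2, isSpin hD hK H S hG hU0 L⟩, L.hol, ?_⟩
    intro a' w' V' H' g' φ' S' h
    rw [tendsto_iff_ultrafilter]
    intro U' hU'
    obtain ⟨F', L'⟩ := hc n x hxD K hK hKO G hG a' w' V' H' g' φ' S' U' hU'
    have he := unique hD hu hx hxD hK hKO hG H S hU0 L H' S' hU' L'
    refine (L'.conv h).congr fun k => ?_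
    refine lintegral_congr_ae ?_
    filter_upwards [he] with z hz
    rw [hz]
  · refine ⟨0, ⟨MemLp.zero, isSpin_zero D x K⟩, ⟨0, differentiableOn_const 0, ?_⟩, ?_⟩
    · intro z _
      simp
    · intro a w V H g φ S
      exact absurd ⟨a, w, V, g, φ, H, S⟩ hex

end Crest.Agent.R165.MacUx610
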