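import Crest.Agent.R165.MacU_610
import Crest.Agent.R165.MacI_622
import Crest.Agent.R165.MacNC2_917

/-!
# Row 165 (S0250), U4/MAC, M3 (helper610): wiring to `ResConv` of helper622
-/

set_option autoImplicit false

noncomputable section

open MeasureTheory Filter Topology Set Metric
open Crest.ProbabilityR.IsingModel
open Crest.Agent.R165.Tr1x40 Crest.Agent.R165.RIfx891 Crest.Agent.R165.Embx622
open Crest.Agent.R165.Mac0x622 Crest.Agent.R165.MacIx610 Crest.Agent.R165.MacSx610
open Crest.Agent.R165.MacNCx917

namespace Crest.Agent.R165.MacVx610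

/-- the property of the limit: `L²` and a spinor -/
def Q (D : Set ℂ) {n : ℕ} (x : Fin n → ℂ) (K : Set ℂ) (F : ℂ → ℂ) : Prop :=
  MemLp F 2 ∧ U3x719.IsSpin D x K (fun z => om8 * F z)

theorem resConv_of {D : Set ℂ} {n : ℕ} {x : Fin n → ℂ} (h : ResConv' D x) :
    MacIx622.ResConv (Om D x) x (LatSeq D x) (Q D x) := by
  classical
  intro K hK hKO G hG _
  obtain ⟨F, hQ, ⟨gg, hgg, hggF⟩, hconv⟩ := h K hK hKO G hG
  refine ⟨F, hQ, ⟨gg, hgg.continuousOn, fun z hz => hggF z hz⟩, ?_⟩
  intro a w V H g φ hsupp hc _ heq z₀ _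
  set P : ℕ → Prop := fun k => (∀ f h, g k f h ≠ 0 → meshPoint (a k) f ∈ K) ∧
    ∀ f h, A (w k) (φ k) f h = a k * g k f h with hP
  have hPe : ∀ᶠ k in atTop, P k := hsupp.and heq
  have hA0 : ∀ (w : Fld) f h, A w (fun _ _ => 0) f h = 0 := by
    intro w f h
    fin_cases h <;> simp [A, A0, Y]
  have S : Srcs K G a w (fun k => if P k then g k else fun _ _ => 0)
      (fun k => if P k then φ k else fun _ _ => 0) := by
    refine ⟨?_, ?_, ?_, ?_⟩
    · intro k f hf h
      by_cases hk : P k
      · simp only [if_pos hk]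
        by_contra hne
        exact hf (hk.1 f h hne)
      · simp only [if_neg hk]
    · intro h
      refine (hc h).congr' ?_
      filter_upwards [hPe] with k hk
      simp only [if_pos hk]
    · intro k
      by_cases hk : P k
      · simp only [if_pos hk]
        obtain ⟨R, hR⟩ := H.bdd
        obtain ⟨R', hR'⟩ := hK.isBounded.exists_norm_le
        refine ⟨disc (a k) (max R (R' + 1)), fun f hf => ?_⟩
        have h1 : max R (R' + 1) ≤ ‖meshPoint (a k) f‖ := by
          by_contra hlt
          exact hf ((mem_disc (H.pos k)).2 (not_le.1 hlt))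
        have h2 : ∀ h, w k f h = 0 := hR k f ((le_max_left _ _).trans h1)
        refine zero_of_w h2 fun h => ?_
        rw [hk.2]
        have : g k f h = 0 := by
          by_contra hne
          have h3 := hR' _ (hk.1 f h hne)
          have h4 := (le_max_right R (R' + 1)).trans h1
          linarith
        rw [this, mul_zero]
      · exact ⟨∅, fun f _ => by simp only [if_neg hk]; rfl⟩
    · intro k f h
      by_cases hk : P k
      · simp only [if_pos hk]
        exact hk.2 f h
      · simp only [if_neg hk]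
        rw [hA0, mul_zero]
  refine ⟨1, one_pos, fun h => ?_⟩
  have h1 := hconv a w V H _ _ S h
  have h2 : Tendsto (fun k => ∫⁻ z, ENNReal.ofReal
      ((emb (a k) (fun f => φ k f h) z - lv (F z) h) ^ 2)) atTop (𝓝 0) := by
    refine h1.congr' ?_
    filter_upwards [hPe] with k hk
    simp only [if_pos hk]
  exact tendsto_of_tendsto_of_tendsto_of_le_of_le tendsto_const_nhds h2 (fun _ => bot_le)
    fun k => setLIntegral_le_lintegral _ _

/-- **M3**, from compactness and uniqueness -/
theorem resConv {D : Set ℂ} (hD : IsOpen D) (hc : Comp D) (hu : UniqL2 D) {n : ℕ}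
    {x : Fin n → ℂ} (hx : Function.Injective x) (hxD : ∀ i, x i ∈ D) :
    MacIx622.ResConv (Om D x) x (LatSeq D x) (Q D x) :=
  resConv_of (MacUx610.resConv hD hc hu hx hxD)

end Crest.Agent.R165.MacVx610
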