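import Crest.Agent.R165.KFlow_337
import Crest.Agent.R165.Spin_930

/-!
# Row 165 (S0250), block G: ratios of two flows (helper337)

* `Sys.ctE` : the total vacuum exponent is the sum over the scales of the constant terms
* `ratio` : the ratio of two partition functions = exp(sum of differences of the constant terms)
  times the ratio at the final scale
* `ratio_limit` : with `Spinx930.limit`
-/

set_option autoImplicit false

noncomputable section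

namespace Crest.Agent.R165.Telx337

open Filter Topology
open scoped ENNReal
open Crest.Agent.R165.Gr0x606 Crest.Agent.R165.Gr1x606 Crest.Agent.R165.GeOpsx337
  Crest.Agent.R165.ExpGx337 Crest.Agent.R165.KCompx892 Crest.Agent.R165.KStepx892
  Crest.Agent.R165.KMapx892 Crest.Agent.R165.GrLocx337 Crest.Agent.R165.KFlowx337
  Crest.Agent.R165.Packx915 Crest.Agent.R165.NSumx915

variable {F : Type*} [DecidableEq F] {V : Type*} [AddCommGroup V] [Module ℝ V]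
variable {V' : Type*} [AddCommGroup V'] [Module ℝ V']

/-- the constant term of the convolved activity -/
def cc (D : Sys F V) (k : ℕ) (U : Finset F) : ℝ := ctG (D.H k U)

theorem H_empty {D : Sys F V} (h : D.K0 ∅ = 0) (k : ℕ) : D.H k ∅ = 0 := by
  rw [Sys.H]
  cases k with
  | zero => rw [Sys.K_zero, h, map_zero]
  | succ k => rw [Sys.K_empty, map_zero]

theorem cc_supp {D : Sys F V} {Λ : Finset F} (h0 : ∀ U, ¬ U ⊆ Λ → D.K0 U = 0)
    (he : D.K0 ∅ = 0) (k : ℕ) {U : Finset F} (hU : U ∉ nes Λ) : cc D k U = 0 := by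
  rw [mem_nes, not_and_or] at hU
  rcases hU with hU | hU
  · rw [cc, Sys.H_supp h0 k hU, map_zero]
  · rw [Finset.not_nonempty_iff_eq_empty] at hU
    rw [hU, cc, H_empty he, map_zero]

theorem tsum_cc {D : Sys F V} {Λ : Finset F} (h0 : ∀ U, ¬ U ⊆ Λ → D.K0 U = 0)
    (he : D.K0 ∅ = 0) (k : ℕ) : ∑' U, cc D k U = ∑ U ∈ nes Λ, cc D k U :=
  tsum_eq_sum fun _ hU => cc_supp h0 he k hU

theorem summable_cc {D : Sys F V} {Λ : Finset F} (h0 : ∀ U, ¬ U ⊆ Λ → D.K0 U = 0)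
    (he : D.K0 ∅ = 0) (k : ℕ) : Summable (cc D k) :=
  summable_of_ne_finset_zero (s := nes Λ) fun _ hU => cc_supp h0 he k hU

/-- **(T1)** the total vacuum exponent -/
theorem ctE {D : Sys F V} {Λ : Finset F} (h0 : ∀ U, ¬ U ⊆ Λ → D.K0 U = 0) (he : D.K0 ∅ = 0)
    (hv : ∀ a, ctG (D.vac a) = ctG a) (n : ℕ) :
    ctG (D.E Λ n) = ∑ k ∈ Finset.range n, ∑' U, cc D k U := by
  rw [Sys.E, map_sum]
  refine Finset.sum_congr rfl fun k _ => ?_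
  rw [tsum_cc h0 he, Sys.vacE, map_sum]
  exact Finset.sum_congr rfl fun U _ => hv _

/-- what is needed about one system: algebra, volume, total and final covariance -/
structure Fl (D : Sys F V) (Λ : Finset F) (n : ℕ) (S Sf : Cov V) : Prop where
  ok : ∃ src, D.OK src ∧ ∀ x ∈ src, ∀ y, Sf.b x y = 0
  supp : ∀ U, ¬ U ⊆ Λ → D.K0 U = 0
  emp : D.K0 ∅ = 0
  vac : ∀ a, ctG (D.vac a) = ctG a
  cov : S = Sf + ∑ k ∈ Finset.range n, D.S k

/-- partition function at the initial scale -/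
def Z0 (D : Sys F V) (Λ : Finset F) (S : Cov V) : ℝ := EEG S (ZZ (D.near 0) Λ D.K0)

/-- partition function at the scale `n` -/
def Zf (D : Sys F V) (Λ : Finset F) (n : ℕ) (Sf : Cov V) : ℝ := EEG Sf (ZZ (D.near n) Λ (D.K n))

theorem Fl.Z0_eq {D : Sys F V} {Λ : Finset F} {n : ℕ} {S Sf : Cov V} (h : Fl D Λ n S Sf) :
    Z0 D Λ S = Real.exp (∑ k ∈ Finset.range n, ∑' U, cc D k U) * Zf D Λ n Sf := by
  obtain ⟨src, hok, hsrc⟩ := h.ok
  rw [Z0, Sys.total_real hok h.supp n S Sf h.cov hsrc, ctE h.supp h.emp h.vac]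
  rfl

/-- **(T2)** the ratio of two partition functions -/
theorem ratio {D₁ : Sys F V} {D₂ : Sys F V'} {Λ₁ Λ₂ : Finset F} {n : ℕ} {S₁ Sf₁ : Cov V}
    {S₂ Sf₂ : Cov V'} (h₁ : Fl D₁ Λ₁ n S₁ Sf₁) (h₂ : Fl D₂ Λ₂ n S₂ Sf₂) :
    Z0 D₁ Λ₁ S₁ / Z0 D₂ Λ₂ S₂ =
      Real.exp (∑ k ∈ Finset.range n, ∑' U, (cc D₁ k U - cc D₂ k U)) *
        (Zf D₁ Λ₁ n Sf₁ / Zf D₂ Λ₂ n Sf₂) := by
  have h3 : ∑ k ∈ Finset.range n, ∑' U, (cc D₁ k U - cc D₂ k U) =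
      ∑ k ∈ Finset.range n, ∑' U, cc D₁ k U - ∑ k ∈ Finset.range n, ∑' U, cc D₂ k U := by
    rw [← Finset.sum_sub_distrib]
    exact Finset.sum_congr rfl fun k _ =>
      (summable_cc h₁.supp h₁.emp k).tsum_sub (summable_cc h₂.supp h₂.emp k)
  rw [h₁.Z0_eq, h₂.Z0_eq, h3, Real.exp_sub, mul_div_mul_comm]

/-- **(T3)** the ratio of the partition functions with and without spins tends to
`(exp ∑ ζ_k) ^ (number of spins)` -/
theorem ratio_limit {ι α : Type*} [Fintype ι] {d : F → F → ℕ} (hd : PD d) {Γ : ℝ≥0∞}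
    (hΓ4 : 4 ≤ Γ) (hΓt : Γ ≠ ∞) {l : Filter α} {K ρ : α → ℕ} (hK : Tendsto K l atTop)
    (hρ : Tendsto ρ l atTop) {r R R' : ℕ → ℕ} {cn : ℕ → ℕ → ℕ} {A : ℕ}
    (hcn : ∀ k m, cn k m ≤ A * 2 ^ m)
    (hcov : ∀ k m, NSumx915.Cov d ((R k + r k + 1) * m + R' k) (r k) (cn k m))
    {E : ℕ → ℝ} (hE0 : ∀ k, 0 ≤ E k) (hE : Summable E) (x : α → ι → F)
    (D₁ : α → Sys F V) (D₂ : α → Sys F V') (Λ₁ Λ₂ : α → Finset F)
    (S₁ Sf₁ : α → Gr0x606.Cov V) (S₂ Sf₂ : α → Gr0x606.Cov V')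
    (h₁ : ∀ᶠ a in l, Fl (D₁ a) (Λ₁ a) (K a) (S₁ a) (Sf₁ a))
    (h₂ : ∀ᶠ a in l, Fl (D₂ a) (Λ₂ a) (K a) (S₂ a) (Sf₂ a))
    (cB : α → ℕ → ι → Finset F → ℝ) (cP : ℕ → Finset F → ℝ)
    (h : ∀ᶠ a in l, ∀ k < K a, Spinx930.SD d (r k) (R k) (R' k) (ρ a) Γ (ENNReal.ofReal (E k)) (x a)
      (cc (D₁ a) k) (cc (D₂ a) k) (cP k) (cB a k))
    {ζ : ℕ → ℝ} (hζ : Summable ζ)
    (hz : ∀ᶠ a in l, ∀ k < K a, ∀ i, ∑' U, (cB a k i U - cP k U) = ζ k)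
    (hf₁ : Tendsto (fun a => Zf (D₁ a) (Λ₁ a) (K a) (Sf₁ a)) l (𝓝 1))
    (hf₂ : Tendsto (fun a => Zf (D₂ a) (Λ₂ a) (K a) (Sf₂ a)) l (𝓝 1)) :
    Tendsto (fun a => Z0 (D₁ a) (Λ₁ a) (S₁ a) / Z0 (D₂ a) (Λ₂ a) (S₂ a)) l
      (𝓝 (Real.exp (∑' k, ζ k) ^ Fintype.card ι)) := by
  have hlim := Spinx930.limit hd hΓ4 hΓt hK hρ hcn hcov hE0 hE x (fun a k => cc (D₁ a) k)
    (fun a k => cc (D₂ a) k) cB cP h hζ hz
  have h4 := (Real.continuous_exp.tendsto _).comp hlim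
  have h5 := h4.mul (hf₁.div hf₂ one_ne_zero)
  rw [div_one, mul_one, Real.exp_nat_mul] at h5
  refine h5.congr' ?_
  filter_upwards [h₁, h₂] with a ha₁ ha₂
  exact (ratio ha₁ ha₂).symm

end Crest.Agent.R165.Telx337
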