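import Crest.Agent.R165.GSys2_387
import Crest.Agent.R165.Tel_337

/-!
# Row 165 (S0250): dependence of the flow on the initial activities near a mark (helper723)

TEXT P13, fact (F1): two initial activities which agree on all sets not containing the marked face
`f₀` give the same activities and constants on all sets not containing `f₀`, at all scales.
-/

set_option autoImplicit false
set_option linter.unusedSectionVars false

noncomputable section

open scoped ENNReal
open Crest.Agent.R165.Gr0x606 Crest.Agent.R165.Gr1x606 Crest.Agent.R165.Latx683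
open Crest.Agent.R165.GDefx387 Crest.Agent.R165.GeOpsx337 Crest.Agent.R165.KFlowx337
open Crest.Agent.R165.FRDPolyx439 Crest.Agent.R165.FRDLatx439 Crest.Agent.R165.GSysx387
open Crest.Agent.R165.PStepx417 Crest.Agent.R165.KMapx892 Crest.Agent.R165.Telx337
open Crest.Agent.R165.BgIsox432

namespace Crest.Agent.R165.MarkEqx723

variable {G : Type} [CommRing G] [CN G] [CNZ G] [DecidableEq G]
variable {M K : ℕ} (D : FRD 16 M K) (w : BW G) (mk : Finset (G × G)) (l k0 : ℕ)

/-- a set from which something is moved does not contain a marked face -/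
theorem notMem_of_inn {mk : Finset (G × G)} {l k0 n : ℕ} {f₀ : G × G} (hf : f₀ ∈ mk)
    {T U : Finset (G × G)} (hU : U ∈ (bulk w mk l k0 n).inn T) : f₀ ∉ U := by
  classical
  rw [← (bulk w mk l k0 n).mem_iff] at hU
  have hU' : T ∈ exOut (deep w mk l k0 n) (rr l k0 n) U := hU
  obtain ⟨h1, f, hfU, hd, -⟩ := (mem_exOut _ _).1 hU'
  intro h0
  have h2 := hd.2 f₀ hf
  have h3 : fd f f₀ ≤ rr l k0 n := size_le_one_iff.1 h1 f hfU f₀ h0
  have h4 : rr l k0 n ≤ rr l k0 (n + 1) := rr_mono l k0 (Nat.le_succ n)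
  have h5 : rr l k0 (n + 1) ≤ s2 * rr l k0 (n + 1) := Nat.le_mul_of_pos_left _ (by unfold s2; norm_num)
  omega

variable {K0 K0' : Finset (G × G) → Ge (Fld G)} {f₀ : G × G}

/-- **(F1)** -/
theorem K_eq (hf : f₀ ∈ mk) (h0 : ∀ U, f₀ ∉ U → K0 U = K0' U) :
    ∀ n U, f₀ ∉ U → (sys D w mk l k0 K0).K n U = (sys D w mk l k0 K0').K n U := by
  intro n
  induction n with
  | zero => exact h0
  | succ n ih =>
    intro W hW
    have hH : ∀ U : Finset (G × G), f₀ ∉ U →
        (sys D w mk l k0 K0).H n U = (sys D w mk l k0 K0').H n U := by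
      intro U hU
      unfold Sys.H
      rw [ih U hU]
      rfl
    rw [Sys.K_succ, Sys.K_succ]
    refine KK_congr (fun U hU _ => hH U fun h => hW (hU h)) fun U hU _ => ?_
    have hU0 : f₀ ∉ U := fun h => hW (hU h)
    have e1 : ((sys D w mk l k0 K0).e n).gain ((sys D w mk l k0 K0).H n) U =
        ((sys D w mk l k0 K0').e n).gain ((sys D w mk l k0 K0').H n) U := by
      unfold Extr.gain
      refine Finset.sum_congr rfl fun U' hU' => ?_
      rw [hH U' (notMem_of_inn w hf hU')]
      rfl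
    have e2 : ((sys D w mk l k0 K0).e n).lost ((sys D w mk l k0 K0).H n) U =
        ((sys D w mk l k0 K0').e n).lost ((sys D w mk l k0 K0').H n) U := by
      unfold Extr.lost
      rw [hH U hU0]
      rfl
    rw [Sys.B_eq, Sys.B_eq, Sys.A, Sys.A, AA, AA, e1, e2, hH U hU0]
    rfl

theorem H_eq (hf : f₀ ∈ mk) (h0 : ∀ U, f₀ ∉ U → K0 U = K0' U) (n : ℕ) {U : Finset (G × G)}
    (hU : f₀ ∉ U) : (sys D w mk l k0 K0).H n U = (sys D w mk l k0 K0').H n U := by
  unfold Sys.H
  rw [K_eq D w mk l k0 hf h0 n U hU]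
  rfl

/-- constants -/
theorem cc_eq (hf : f₀ ∈ mk) (h0 : ∀ U, f₀ ∉ U → K0 U = K0' U) (n : ℕ) {U : Finset (G × G)}
    (hU : f₀ ∉ U) : cc (sys D w mk l k0 K0) n U = cc (sys D w mk l k0 K0') n U := by
  unfold cc
  rw [H_eq D w mk l k0 hf h0 n hU]

end Crest.Agent.R165.MarkEqx723
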