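import Crest.Agent.R165.RIface_891
import Crest.Agent.R165.Lim2_943
import Crest.Agent.R165.SqK_470

/-!
# Row 165 (S0250), block R: sampling of the boundary mode and of the branch mode (helper841)

* `nc_of_null`: no concentration (`Lim2x943.NC`) for lattice functions which are bounded off a
  set carrying little mass, if the complement of `Ω` is a null set
* `modeB_locUnif`, `modeB_nc`, `modeB_strong`: the boundary mode
* `nsq_modeBr`, `NB_modeBr_sq_le`, `modeBr_locUnif`, `modeBr_nc`, `modeBr_strong`: the branch mode,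
  rescaled by `√r`
* `box`, `NB_sq_le_lintegral`, `lintegral_le_NB_sq`: `NB` against integrals of step functions
-/

set_option autoImplicit false
set_option linter.unusedSimpArgs false
set_option linter.unusedVariables false

noncomputable section

namespace Crest.Agent.R165.ModeSx841

open Filter Topology MeasureTheory
open Crest.Agent.R165.Tr1x40 (Face Fld nsq nsq_nonneg)
open Crest.Agent.R165.RIfx891
open Crest.Agent.R165.Lim1x943 Crest.Agent.R165.Lim2x943

variable {ι : Type*}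

/-! ### no concentration for bounded functions -/

theorem card_le_volume {r : ℝ} (hr : 0 < r) {A : Set ℂ} (hA : volume A ≠ ⊤) {S : Finset (ℤ × ℤ)}
    (h : ∀ f ∈ S, cell r f ⊆ A) : (S.card : ℝ) ≤ (volume A).toReal * r ^ 2 := by
  have h1 := sum_le_lintegral_flr hr h (fun _ => 1)
  simp only [one_mul, Finset.sum_const, nsmul_eq_mul, lintegral_one, Measure.restrict_apply,
    MeasurableSet.univ, Set.univ_inter] at h1
  have h2 := ENNReal.toReal_mono hA h1
  rw [ENNReal.toReal_mul, ENNReal.toReal_natCast, ENNReal.toReal_ofReal (by positivity),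
    mul_one_div, div_le_iff₀ (by positivity)] at h2
  exact h2

theorem nc_of_null {U : Filter ι} {r : ι → ℝ} (hr : Tendsto r U atTop) {Ω B' : Set ℂ}
    (hΩ : IsOpen Ω) (hnull : volume Ωᶜ = 0) (hB' : Bornology.IsBounded B')
    {v : ι → ℤ × ℤ → ℝ}
    (h : ∀ η : ℝ, 0 < η → ∃ (M : ℝ) (E : Set ℂ),
      (∀ᶠ n in U, ∀ f, pt (r n) f ∈ B' → pt (r n) f ∉ E → |v n f| ≤ M) ∧
      (∀ᶠ n in U, ∀ S : Finset (ℤ × ℤ), (∀ f ∈ S, pt (r n) f ∈ B' ∧ pt (r n) f ∈ E) →
        ∑ f ∈ S, v n f ^ 2 ≤ η * r n ^ 2)) : NC U r Ω B' v := by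
  intro η hη
  obtain ⟨M, E, hM, hE⟩ := h (η / 2) (by positivity)
  obtain ⟨R, hR⟩ := hB'.subset_closedBall (0 : ℂ)
  set s : Set ℂ := Ωᶜ ∩ Metric.closedBall 0 (R + 2) with hs
  have hsc : IsCompact s := (isCompact_closedBall (0 : ℂ) (R + 2)).inter_left hΩ.isClosed_compl
  have hs0 : volume s = 0 := measure_mono_null Set.inter_subset_left hnull
  have ht := tendsto_measure_cthickening_of_isCompact (μ := (volume : Measure ℂ)) hsc
  rw [hs0] at ht
  obtain ⟨t, ht0, ht1⟩ : ∃ t : ℝ, 0 < t ∧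
      volume (Metric.cthickening t s) ≤ ENNReal.ofReal (η / (2 * (M ^ 2 + 1))) := by
    have h1 := (ht.eventually (gt_mem_nhds (show (0 : ENNReal) <
      ENNReal.ofReal (η / (2 * (M ^ 2 + 1))) by
        rw [ENNReal.ofReal_pos]; positivity)))
    obtain ⟨ε, hε, hball⟩ := Metric.eventually_nhds_iff.1 h1
    refine ⟨ε / 2, by positivity, (hball ?_).le⟩
    rw [Real.dist_eq, sub_zero, abs_of_pos (by positivity)]
    linarith
  set K : Set ℂ := Metric.closedBall 0 R ∩ (Metric.thickening (t / 2) s)ᶜ with hK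
  have hKc : IsCompact K := (isCompact_closedBall (0 : ℂ) R).inter_right
    Metric.isOpen_thickening.isClosed_compl
  have hKΩ : K ⊆ Ω := by
    intro z hz
    by_contra hzΩ
    refine hz.2 (Metric.self_subset_thickening (by positivity) s ⟨hzΩ, ?_⟩)
    exact Metric.closedBall_subset_closedBall (by linarith) hz.1
  refine ⟨K, hKc, hKΩ, ?_⟩
  filter_upwards [hM, hE, eventually_two_div_le hr (by positivity : 0 < t / 2)] with n h1 h2 hrn S hS
  obtain ⟨hrn, hrd⟩ := hrn
  classical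
  rw [← Finset.sum_filter_add_sum_filter_not S (fun f => pt (r n) f ∈ E)]
  have e1 := h2 (S.filter fun f => pt (r n) f ∈ E) (fun f hf => by
    rw [Finset.mem_filter] at hf
    exact ⟨(hS f hf.1).1, hf.2⟩)
  have e2 : ∑ f ∈ S.filter (fun f => ¬ pt (r n) f ∈ E), v n f ^ 2 ≤ η / 2 * r n ^ 2 := by
    have hb : ∀ f ∈ S.filter (fun f => ¬ pt (r n) f ∈ E), v n f ^ 2 ≤ M ^ 2 + 1 := by
      intro f hf
      rw [Finset.mem_filter] at hf
      have := h1 f (hS f hf.1).1 hf.2
      have h0 := sq_le_sq' (by linarith [abs_nonneg (v n f), neg_le_of_abs_le this])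
        ((le_abs_self _).trans this)
      linarith
    refine (Finset.sum_le_card_nsmul _ _ _ hb).trans ?_
    rw [nsmul_eq_mul]
    have hc := card_le_volume hrn (A := Metric.cthickening t s)
      (S := S.filter (fun f => ¬ pt (r n) f ∈ E))
      ((ht1.trans_lt ENNReal.ofReal_lt_top).ne) (fun f hf z hz => by
        rw [Finset.mem_filter] at hf
        obtain ⟨hfB, hfK⟩ := hS f hf.1
        have hth : pt (r n) f ∈ Metric.thickening (t / 2) s := by
          by_contra hc
          exact hfK ⟨hR hfB, hc⟩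
        rw [Metric.mem_thickening_iff] at hth
        obtain ⟨w, hw, hdw⟩ := hth
        rw [mem_cell] at hz
        have a1 := dist_le_d1 (pt (r n) (flr (r n) z)) z
        have a2 := d1_pt_flr (r n) hrn z
        rw [hz] at a1 a2
        refine Metric.mem_cthickening_of_dist_le z w t s hw ?_
        have := dist_triangle z (pt (r n) f) w
        rw [dist_comm z (pt (r n) f)] at this
        linarith)
    have hv : (volume (Metric.cthickening t s)).toReal ≤ η / (2 * (M ^ 2 + 1)) := by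
      have := ENNReal.toReal_mono ENNReal.ofReal_ne_top ht1
      rwa [ENNReal.toReal_ofReal (by positivity)] at this
    calc (((S.filter (fun f => ¬ pt (r n) f ∈ E)).card : ℝ)) * (M ^ 2 + 1)
        ≤ ((volume (Metric.cthickening t s)).toReal * r n ^ 2) * (M ^ 2 + 1) := by gcongr
      _ ≤ (η / (2 * (M ^ 2 + 1)) * r n ^ 2) * (M ^ 2 + 1) := by gcongr
      _ = η / 2 * r n ^ 2 := by field_simp
  linarith

/-! ### the light vectors -/

theorem lv_sub (c c' : ℂ) (h : Fin 4) : lv (c - c') h = lv c h - lv c' h := by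
  fin_cases h <;> simp only [lv, Complex.sub_re, Complex.sub_im, Fin.zero_eta, Fin.mk_one,
    Fin.reduceFinMk] <;> ring

theorem lv_real_mul (t : ℝ) (c : ℂ) (h : Fin 4) : lv ((t : ℂ) * c) h = t * lv c h := by
  fin_cases h <;> simp only [lv, Complex.re_ofReal_mul, Complex.im_ofReal_mul, Fin.zero_eta,
    Fin.mk_one, Fin.reduceFinMk] <;> ring

theorem lv_sq_le (c : ℂ) (h : Fin 4) : lv c h ^ 2 ≤ 2 * ‖c‖ ^ 2 := by
  have h1 : lv c h ^ 2 ≤ nsq (lv c) :=
    Finset.single_le_sum (f := fun k => lv c k ^ 2) (fun k _ => sq_nonneg _) (Finset.mem_univ h)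
  rwa [nsq_lv, Complex.normSq_eq_norm_sq] at h1

theorem abs_lv_le (c : ℂ) (h : Fin 4) : |lv c h| ≤ 2 * ‖c‖ := by
  refine abs_le_of_sq_le_sq ?_ (by positivity)
  have := lv_sq_le c h
  nlinarith [norm_nonneg c, sq_nonneg ‖c‖]

theorem continuous_lv (h : Fin 4) : Continuous fun c : ℂ => lv c h := by
  fin_cases h <;> simp only [lv, Fin.zero_eta, Fin.mk_one, Fin.reduceFinMk] <;> fun_prop

/-! ### the boundary mode -/

/-- the linear form of the normal -/
def lin (n z : ℂ) : ℝ := n.re * z.re + n.im * z.im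

theorem continuous_lin (n : ℂ) : Continuous (lin n) := by
  unfold lin; fun_prop

theorem abs_lin_le (n z : ℂ) : |lin n z| ≤ 2 * ‖n‖ * ‖z‖ := by
  unfold lin
  have h1 := Complex.abs_re_le_norm n
  have h2 := Complex.abs_im_le_norm n
  have h3 := Complex.abs_re_le_norm z
  have h4 := Complex.abs_im_le_norm z
  refine (abs_add_le _ _).trans ?_
  rw [abs_mul, abs_mul]
  have h5 : |n.re| * |z.re| ≤ ‖n‖ * ‖z‖ := by gcongr
  have h6 : |n.im| * |z.im| ≤ ‖n‖ * ‖z‖ := by gcongr
  linarith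

theorem lin_sub (n n' z : ℂ) : lin n z - lin n' z = lin (n - n') z := by
  unfold lin; simp only [Complex.sub_re, Complex.sub_im]; ring

theorem dotn_zero (n : ℂ) {r : ℝ} (hr : r ≠ 0) (f : Face) :
    dotn n 0 f = r * lin n (pt r f) := by
  unfold dotn lin
  simp only [pt_re, pt_im, Prod.fst_zero, Prod.snd_zero, Int.cast_zero, sub_zero]
  field_simp

theorem isOpen_lin_ne (n : ℂ) : IsOpen {z : ℂ | lin n z ≠ 0} :=
  isOpen_ne_fun (continuous_lin n) continuous_const

/-- the line is a null set -/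
theorem volume_lin_eq {n : ℂ} (hn : n ≠ 0) : volume {z : ℂ | lin n z ≠ 0}ᶜ = 0 := by
  have h1 : {z : ℂ | lin n z ≠ 0}ᶜ ⊆ (LinearMap.ker (n.re • Complex.reLm + n.im • Complex.imLm) :
      Submodule ℝ ℂ) := by
    intro z hz
    simp only [Set.mem_compl_iff, Set.mem_ofPred_eq, not_not] at hz
    simpa [lin] using hz
  refine measure_mono_null h1 (Measure.addHaar_submodule _ _ ?_)
  intro htop
  have h2 : n ∈ (LinearMap.ker (n.re • Complex.reLm + n.im • Complex.imLm) :
      Submodule ℝ ℂ) := by rw [htop]; trivial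
  have h3 : n.re * n.re + n.im * n.im = 0 := by simpa using h2
  have h4 : n.re * n.re = 0 := by linarith [mul_self_nonneg n.re, mul_self_nonneg n.im]
  have h5 : n.im * n.im = 0 := by linarith [mul_self_nonneg n.re, mul_self_nonneg n.im]
  exact hn (Complex.ext (mul_self_eq_zero.1 h4) (mul_self_eq_zero.1 h5))

/-- the limit of the boundary mode -/
def limB (n c : ℂ) (h : Fin 4) (z : ℂ) : ℝ := if lin n z < 0 then lv c h else 0

theorem continuousOn_limB (n c : ℂ) (h : Fin 4) : ContinuousOn (limB n c h) {z | lin n z ≠ 0} := by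
  intro z hz
  refine ContinuousAt.continuousWithinAt ?_
  rcases lt_or_gt_of_ne hz with h1 | h1
  · have hev : ∀ᶠ w in 𝓝 z, limB n c h w = lv c h := by
      filter_upwards [(continuous_lin n).continuousAt.eventually (gt_mem_nhds h1)] with w hw
      exact if_pos hw
    exact (continuousAt_const (y := lv c h)).congr (hev.mono fun w hw => hw.symm)
  · have hev : ∀ᶠ w in 𝓝 z, limB n c h w = 0 := by
      filter_upwards [(continuous_lin n).continuousAt.eventually (lt_mem_nhds h1)] with w hw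
      exact if_neg (not_lt.2 hw.le)
    exact (continuousAt_const (y := (0 : ℝ))).congr (hev.mono fun w hw => hw.symm)

/-- the sampled boundary mode -/
def smpB (n c : ℂ) (h : Fin 4) (f : Face) : ℝ := modeB (fun _ => 1) 0 n c f h

theorem smpB_eq (n c : ℂ) (h : Fin 4) {r : ℝ} (hr : 0 < r) (f : Face) :
    smpB n c h f = if lin n (pt r f) ≤ 0 then lv c h else 0 := by
  unfold smpB modeB
  rw [dotn_zero n hr.ne']
  have h1 : r * lin n (pt r f) ≤ 0 ↔ lin n (pt r f) ≤ 0 :=
    ⟨fun h2 => not_lt.1 fun h3 => absurd (mul_pos hr h3) (not_lt.2 h2),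
      fun h2 => mul_nonpos_iff.2 (Or.inl ⟨hr.le, h2⟩)⟩
  simp only [h1, one_mul]

theorem modeB_locUnif {U : Filter ι} {r : ι → ℝ} (hr : Tendsto r U atTop) {nk ck : ι → ℂ}
    {n c : ℂ} (hn : Tendsto nk U (𝓝 n)) (hc : Tendsto ck U (𝓝 c)) (h : Fin 4) :
    LocUnif U r {z | lin n z ≠ 0} (fun k => smpB (nk k) (ck k) h) (limB n c h) := by
  intro K hK hKΩ η hη
  obtain ⟨R, hR⟩ := hK.isBounded.subset_closedBall (0 : ℂ)
  obtain ⟨δ, hδ, hKδ⟩ : ∃ δ : ℝ, 0 < δ ∧ ∀ z ∈ K, δ ≤ |lin n z| := by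
    rcases K.eq_empty_or_nonempty with h0 | h0
    · exact ⟨1, one_pos, fun z hz => by rw [h0] at hz; exact absurd hz (Set.notMem_empty z)⟩
    · obtain ⟨z0, hz0, hmin⟩ := hK.exists_isMinOn h0 (continuous_lin n).abs.continuousOn
      exact ⟨|lin n z0|, abs_pos.2 (hKΩ hz0), fun z hz => hmin hz⟩
  have e1 : ∀ᶠ k in U, ‖nk k - n‖ * (2 * (|R| + 1)) < δ := by
    have := (tendsto_iff_norm_sub_tendsto_zero.1 hn).mul_const (2 * (|R| + 1))
    rw [zero_mul] at this
    exact this.eventually (gt_mem_nhds hδ)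
  have e2 : ∀ᶠ k in U, 2 * ‖ck k - c‖ < η := by
    have := (tendsto_iff_norm_sub_tendsto_zero.1 hc).const_mul 2
    rw [mul_zero] at this
    exact this.eventually (gt_mem_nhds hη)
  filter_upwards [e1, e2, hr.eventually_gt_atTop 0] with k h1 h2 h3 f hf
  rw [smpB_eq _ _ _ h3]
  set z := pt (r k) f with hz
  have hzR : ‖z‖ ≤ |R| + 1 := by
    have := hR hf
    rw [Metric.mem_closedBall, dist_zero_right] at this
    linarith [le_abs_self R]
  have hd : |lin (nk k) z - lin n z| < δ := by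
    rw [lin_sub]
    refine (abs_lin_le _ _).trans_lt (lt_of_le_of_lt ?_ h1)
    have : ‖nk k - n‖ * ‖z‖ ≤ ‖nk k - n‖ * (|R| + 1) := by gcongr
    linarith
  have hl := hKδ z hf
  have hlv : |lv (ck k) h - lv c h| ≤ η := by
    rw [← lv_sub]
    exact (abs_lv_le _ _).trans h2.le
  unfold limB
  rcases lt_or_gt_of_ne (hKΩ hf) with h4 | h4
  · rw [abs_of_neg h4] at hl
    rw [if_pos h4, if_pos]
    · exact hlv
    · linarith [(abs_lt.1 hd).2]
  · rw [abs_of_pos h4] at hl
    rw [if_neg (not_lt.2 h4.le), if_neg]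
    · simpa using hη.le
    · linarith [(abs_lt.1 hd).1]

theorem modeB_nc {U : Filter ι} {r : ι → ℝ} (hr : Tendsto r U atTop) {nk ck : ι → ℂ}
    {n c : ℂ} (hn0 : n ≠ 0) (hc : Tendsto ck U (𝓝 c)) (h : Fin 4) {B' : Set ℂ}
    (hB' : Bornology.IsBounded B') :
    NC U r {z | lin n z ≠ 0} B' (fun k => smpB (nk k) (ck k) h) := by
  refine nc_of_null hr (isOpen_lin_ne n) (volume_lin_eq hn0) hB' fun η hη => ?_
  refine ⟨2 * (‖c‖ + 1), ∅, ?_, Eventually.of_forall fun k S hS => ?_⟩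
  · filter_upwards [hc.norm.eventually (gt_mem_nhds (show ‖c‖ < ‖c‖ + 1 by linarith))]
      with k hk f _ _
    unfold smpB modeB
    split_ifs
    · rw [one_mul]
      exact (abs_lv_le _ _).trans (by linarith)
    · simp; positivity
  · have : S = ∅ := Finset.eq_empty_of_forall_notMem fun f hf => (hS f hf).2
    subst this
    simp
    positivity

/-- **strong `L²` convergence of the boundary mode** -/
theorem modeB_strong {U : Filter ι} [U.NeBot] {r : ι → ℝ} (hr : Tendsto r U atTop)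
    {nk ck : ι → ℂ} {n c : ℂ} (hn : Tendsto nk U (𝓝 n)) (hc : Tendsto ck U (𝓝 c)) (hn0 : n ≠ 0)
    (h : Fin 4) {B : Set ℂ} (hB : Bornology.IsBounded B) (hBm : MeasurableSet B) :
    Tendsto (fun k => ∫⁻ z in B, sq2 (smpB (nk k) (ck k) h (flr (r k) z) - limB n c h z)) U
      (𝓝 0) := by
  have hB' : Bornology.IsBounded (Metric.cthickening 1 B) := hB.cthickening
  have key := strong hr (isOpen_lin_ne n) hB hBm one_pos
    (fun z hz w hw => Metric.mem_cthickening_of_dist_le w z 1 B hz ((dist_le_d1 w z).trans hw))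
    (modeB_nc hr (nk := nk) hn0 hc h hB') (continuousOn_limB n c h) (modeB_locUnif hr hn hc h)
  refine key.congr fun k => ?_
  refine lintegral_congr fun z => ?_
  congr 2
  by_cases hz : lin n z ≠ 0
  · rw [Set.indicator_of_mem (show z ∈ {z | lin n z ≠ 0} from hz)]
  · rw [Set.indicator_of_notMem (show z ∉ {z | lin n z ≠ 0} from hz)]
    rw [not_not] at hz
    unfold limB
    rw [if_neg (by rw [hz]; exact lt_irrefl _)]

/-! ### the branch mode -/

theorem zf_re (v f : Face) : (zf v f).re = (f.1 : ℝ) - v.1 + 1 / 2 := rfl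
theorem zf_im (v f : Face) : (zf v f).im = (f.2 : ℝ) - v.2 + 1 / 2 := rfl

theorem abs_int_half (k : ℤ) : (1 + |(k : ℝ)|) / 4 ≤ |(k : ℝ) + 1 / 2| := by
  rcases lt_trichotomy k 0 with h | h | h
  · have h1 : (k : ℝ) ≤ -1 := by exact_mod_cast Int.le_sub_one_of_lt h
    rw [abs_of_neg (by linarith), abs_of_neg (by linarith)]
    linarith
  · subst h; norm_num
  · have h1 : (1 : ℝ) ≤ k := by exact_mod_cast h
    rw [abs_of_pos (by linarith), abs_of_pos (by linarith)]
    linarith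

theorem norm_zf_ge (v f : Face) :
    (1 + |(f.1 : ℝ) - v.1| + |(f.2 : ℝ) - v.2|) / 8 ≤ ‖zf v f‖ := by
  have h1 := Complex.abs_re_le_norm (zf v f)
  have h2 := Complex.abs_im_le_norm (zf v f)
  rw [zf_re] at h1
  rw [zf_im] at h2
  have h3 := abs_int_half (f.1 - v.1)
  have h4 := abs_int_half (f.2 - v.2)
  push_cast at h3 h4
  linarith

theorem norm_zf_pos (v f : Face) : 0 < ‖zf v f‖ := by
  have := norm_zf_ge v f
  have h1 := abs_nonneg ((f.1 : ℝ) - v.1)
  have h2 := abs_nonneg ((f.2 : ℝ) - v.2)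
  linarith

theorem zf_ne_zero (v f : Face) : zf v f ≠ 0 := norm_pos_iff.1 (norm_zf_pos v f)

theorem norm_cpow_half {z : ℂ} (hz : z ≠ 0) : ‖z ^ (-(1 / 2) : ℂ)‖ ^ 2 = 1 / ‖z‖ := by
  rw [Complex.norm_cpow_of_ne_zero hz]
  have h1 : (-(1 / 2) : ℂ).im = 0 := by simp
  have h2 : (-(1 / 2) : ℂ).re = -(1 / 2) := by simp
  rw [h1, h2, mul_zero, Real.exp_zero, div_one, ← Real.rpow_natCast, ← Real.rpow_mul (norm_nonneg _)]
  norm_num
  rw [Real.rpow_neg_one]

theorem nsq_modeBr {s : Face → ℝ} (hs : Gauge s) (v f : Face) :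
    nsq (modeBr s v f) = 2 / ‖zf v f‖ := by
  have h1 : modeBr s v = gm s (fun f h => lv ((-zf v f) ^ (-(1 / 2) : ℂ)) h) := rfl
  rw [h1, nsq_gm hs]
  have h2 : (fun h => lv ((-zf v f) ^ (-(1 / 2) : ℂ)) h) = lv ((-zf v f) ^ (-(1 / 2) : ℂ)) := rfl
  rw [h2, nsq_lv, Complex.normSq_eq_norm_sq, norm_cpow_half (neg_ne_zero.2 (zf_ne_zero v f)),
    norm_neg]
  ring

theorem nsq_modeBr_le {s : Face → ℝ} (hs : Gauge s) (v f : Face) :
    nsq (modeBr s v f) ≤ 16 * (1 / (1 + |(f.1 : ℝ) - v.1| + |(f.2 : ℝ) - v.2|)) := by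
  rw [nsq_modeBr hs, mul_one_div]
  have h := norm_zf_ge v f
  have h1 := abs_nonneg ((f.1 : ℝ) - v.1)
  have h2 := abs_nonneg ((f.2 : ℝ) - v.2)
  rw [div_le_div_iff₀ (norm_zf_pos v f) (by positivity)]
  linarith

/-- the branch mode has mass `O(r)` in a box of size `r` -/
theorem NB_modeBr_sq_le {s : Face → ℝ} (hs : Gauge s) (v : Face) {r : ℝ} (hr : 0 ≤ r) :
    NB v r (modeBr s v) ^ 2 ≤ 128 * (1 + r) := by
  rw [NB_sq]
  have h1 : ∑ f ∈ bx v r, nsq (modeBr s v f) ≤ 16 * SqKx470.kapS (bx v r) v := by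
    unfold SqKx470.kapS
    rw [Finset.mul_sum]
    exact Finset.sum_le_sum fun f _ => nsq_modeBr_le hs v f
  have h2 := SqKx470.kap_box (E := bx v r) (c := v) hr (fun f hf => mem_bx_real.1 hf) v
  linarith

/-- the sampled branch mode, rescaled by `√r` -/
def smpBr (r : ℝ) (h : Fin 4) (f : Face) : ℝ := Real.sqrt r * modeBr (fun _ => 1) 0 f h

/-- the slit domain `ℂ \ [0, ∞)` -/
def slit : Set ℂ := {z | -z ∈ Complex.slitPlane}

theorem mem_slit {z : ℂ} : z ∈ slit ↔ z.re < 0 ∨ z.im ≠ 0 := by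
  unfold slit
  rw [Set.mem_ofPred_eq, Complex.mem_slitPlane_iff]
  simp

theorem isOpen_slit : IsOpen slit := Complex.isOpen_slitPlane.preimage continuous_neg

theorem volume_slit : volume slitᶜ = 0 := by
  refine measure_mono_null ?_ (volume_lin_eq (n := Complex.I) Complex.I_ne_zero)
  intro z hz
  rw [Set.mem_compl_iff, mem_slit, not_or, not_not] at hz
  simp [lin, hz.2]

/-- the limit of the branch mode -/
def limBr (h : Fin 4) (z : ℂ) : ℝ := lv ((-z) ^ (-(1 / 2) : ℂ)) h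

theorem continuousOn_limBr (h : Fin 4) : ContinuousOn (limBr h) slit := by
  refine (continuous_lv h).comp_continuousOn ?_
  exact continuousOn_id.neg.cpow_const fun z hz => hz

theorem real_mul_cpow_half {r : ℝ} (hr : 0 < r) {a : ℂ} (ha : a ≠ 0) :
    ((r : ℂ) * a) ^ (-(1 / 2) : ℂ) = ((1 / Real.sqrt r : ℝ) : ℂ) * a ^ (-(1 / 2) : ℂ) := by
  have hr' : (r : ℂ) ≠ 0 := Complex.ofReal_ne_zero.2 hr.ne'
  rw [Complex.cpow_def_of_ne_zero (mul_ne_zero hr' ha), Complex.cpow_def_of_ne_zero ha,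
    Complex.log_ofReal_mul hr ha, add_mul, Complex.exp_add]
  congr 1
  have h1 : (Real.log r : ℂ) * (-(1 / 2) : ℂ) = ((Real.log r * (-(1 / 2)) : ℝ) : ℂ) := by
    push_cast; ring
  rw [h1, ← Complex.ofReal_exp]
  congr 1
  rw [← Real.rpow_def_of_pos hr, Real.rpow_neg hr.le, Real.sqrt_eq_rpow, ← one_div]

theorem zf_zero {r : ℝ} (hr : r ≠ 0) (f : Face) :
    zf 0 f = (r : ℂ) * (pt r f + ((1 / (2 * r) : ℝ) : ℂ) * (1 + Complex.I)) := by
  apply Complex.ext
  · rw [zf_re, Complex.re_ofReal_mul]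
    simp
    field_simp
  · rw [zf_im, Complex.im_ofReal_mul]
    simp
    field_simp

theorem smpBr_eq {r : ℝ} (hr : 0 < r) (h : Fin 4) (f : Face) :
    smpBr r h f = limBr h (pt r f + ((1 / (2 * r) : ℝ) : ℂ) * (1 + Complex.I)) := by
  unfold smpBr modeBr limBr
  have h0 : -zf 0 f = (r : ℂ) * (-(pt r f + ((1 / (2 * r) : ℝ) : ℂ) * (1 + Complex.I))) := by
    rw [zf_zero hr.ne']; ring
  have h1 : -(pt r f + ((1 / (2 * r) : ℝ) : ℂ) * (1 + Complex.I)) ≠ 0 := by
    intro h2
    rw [h2, mul_zero, neg_eq_zero] at h0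
    exact zf_ne_zero 0 f h0
  rw [h0, real_mul_cpow_half hr h1, lv_real_mul, one_mul, ← mul_assoc]
  rw [mul_one_div_cancel (Real.sqrt_pos.2 hr).ne', one_mul]

/-- sampling a continuous function at the face centres -/
theorem locUnif_shift {U : Filter ι} {r : ι → ℝ} (hr : Tendsto r U atTop) {Ω : Set ℂ}
    (hΩ : IsOpen Ω) {g : ℂ → ℝ} (hg : ContinuousOn g Ω) {v : ι → ℤ × ℤ → ℝ}
    (hv : ∀ᶠ n in U, ∀ f, v n f = g (pt (r n) f + ((1 / (2 * r n) : ℝ) : ℂ) * (1 + Complex.I))) :
    LocUnif U r Ω v g := by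
  intro K hK hKΩ η hη
  obtain ⟨δ0, hδ0, K', hK', hK'Ω, hKK', hnb⟩ := exists_nbhd hΩ hK hKΩ
  have huc := (hK'.uniformContinuousOn_of_continuous (hg.mono hK'Ω))
  rw [Metric.uniformContinuousOn_iff] at huc
  obtain ⟨δ1, hδ1, huc⟩ := huc η hη
  filter_upwards [eventually_two_div_le hr (by positivity : 0 < min δ0 (δ1 / 2)), hv]
    with n hrn hvn f hf
  obtain ⟨hrn, hrd⟩ := hrn
  rw [hvn]
  set w : ℂ := pt (r n) f + ((1 / (2 * r n) : ℝ) : ℂ) * (1 + Complex.I) with hw
  have hd : d1 w (pt (r n) f) ≤ 2 / r n := by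
    unfold d1
    have e1 : w.re - (pt (r n) f).re = 1 / (2 * r n) := by simp [hw]
    have e2 : w.im - (pt (r n) f).im = 1 / (2 * r n) := by simp [hw]
    rw [e1, e2, abs_of_pos (by positivity)]
    have : 1 / (2 * r n) + 1 / (2 * r n) = 1 / r n := by field_simp; norm_num
    rw [this]
    gcongr
    norm_num
  have h1 : w ∈ K' := hnb _ hf w (hd.trans (hrd.trans (min_le_left _ _)))
  have h2 := huc w h1 (pt (r n) f) (hKK' hf) (by
    have a1 := dist_le_d1 w (pt (r n) f)
    have a2 := hrd.trans (min_le_right δ0 (δ1 / 2))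
    linarith)
  rw [Real.dist_eq] at h2
  exact h2.le

theorem modeBr_locUnif {U : Filter ι} {r : ι → ℝ} (hr : Tendsto r U atTop) (h : Fin 4) :
    LocUnif U r slit (fun k => smpBr (r k) h) (limBr h) :=
  locUnif_shift hr isOpen_slit (continuousOn_limBr h)
    ((hr.eventually_gt_atTop 0).mono fun n hn f => smpBr_eq hn h f)

/-! ### the second chart (cut to the left) -/

/-- sign of the gauge moving the cut to the left -/
def sg2 (f : Face) : ℝ := if 0 ≤ f.2 then -1 else 1

/-- the limit of the branch mode in the second chart -/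
def limBr2 (h : Fin 4) (z : ℂ) : ℝ := lv (-Complex.I * z ^ (-(1 / 2) : ℂ)) h

theorem continuousOn_limBr2 (h : Fin 4) : ContinuousOn (limBr2 h) Complex.slitPlane := by
  refine (continuous_lv h).comp_continuousOn (continuousOn_const.mul ?_)
  exact continuousOn_id.cpow_const fun z hz => hz

theorem cpow_neg_half_pos {z : ℂ} (hz : 0 < z.im) :
    (-z) ^ (-(1 / 2) : ℂ) = Complex.I * z ^ (-(1 / 2) : ℂ) := by
  have hz0 : z ≠ 0 := fun h => by rw [h] at hz; simp at hz
  have h1 : Complex.log (-z) = Complex.log z - Real.pi * Complex.I := by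
    apply Complex.ext
    · simp [Complex.log_re]
    · simp [Complex.log_im, Complex.arg_neg_eq_arg_sub_pi_of_im_pos hz]
  rw [Complex.cpow_def_of_ne_zero (neg_ne_zero.2 hz0), Complex.cpow_def_of_ne_zero hz0, h1]
  have h2 : (Complex.log z - Real.pi * Complex.I) * (-(1 / 2) : ℂ)
      = (Real.pi / 2 * Complex.I) + Complex.log z * (-(1 / 2) : ℂ) := by ring
  rw [h2, Complex.exp_add, Complex.exp_pi_div_two_mul_I]

theorem cpow_neg_half_neg {z : ℂ} (hz : z.im < 0) :
    (-z) ^ (-(1 / 2) : ℂ) = -Complex.I * z ^ (-(1 / 2) : ℂ) := by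
  have hz0 : z ≠ 0 := fun h => by rw [h] at hz; simp at hz
  have h1 : Complex.log (-z) = Complex.log z + Real.pi * Complex.I := by
    apply Complex.ext
    · simp [Complex.log_re]
    · simp [Complex.log_im, Complex.arg_neg_eq_arg_add_pi_of_im_neg hz]
  rw [Complex.cpow_def_of_ne_zero (neg_ne_zero.2 hz0), Complex.cpow_def_of_ne_zero hz0, h1]
  have h2 : (Complex.log z + Real.pi * Complex.I) * (-(1 / 2) : ℂ)
      = -(Real.pi / 2 * Complex.I) + Complex.log z * (-(1 / 2) : ℂ) := by ring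
  rw [h2, Complex.exp_add, Complex.exp_neg, Complex.exp_pi_div_two_mul_I, Complex.inv_I]

theorem sg2_modeBr (f : Face) (h : Fin 4) :
    sg2 f * modeBr (fun _ => 1) 0 f h = lv (-Complex.I * zf 0 f ^ (-(1 / 2) : ℂ)) h := by
  unfold sg2 modeBr
  rw [one_mul]
  split_ifs with h0
  · have h1 : 0 < (zf 0 f).im := by
      rw [zf_im]
      have : (0 : ℝ) ≤ f.2 := by exact_mod_cast h0
      simp only [Prod.snd_zero, Int.cast_zero, sub_zero]
      linarith
    rw [cpow_neg_half_pos h1]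
    have e : (-Complex.I * zf 0 f ^ (-(1 / 2) : ℂ))
        = ((-1 : ℝ) : ℂ) * (Complex.I * zf 0 f ^ (-(1 / 2) : ℂ)) := by push_cast; ring
    rw [e, lv_real_mul]
  · have h1 : (zf 0 f).im < 0 := by
      rw [zf_im]
      have : (f.2 : ℝ) ≤ -1 := by
        have : f.2 ≤ -1 := by omega
        exact_mod_cast this
      simp only [Prod.snd_zero, Int.cast_zero, sub_zero]
      linarith
    rw [cpow_neg_half_neg h1, one_mul]

theorem smpBr2_eq {r : ℝ} (hr : 0 < r) (h : Fin 4) (f : Face) :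
    Real.sqrt r * (sg2 f * modeBr (fun _ => 1) 0 f h)
      = limBr2 h (pt r f + ((1 / (2 * r) : ℝ) : ℂ) * (1 + Complex.I)) := by
  rw [sg2_modeBr]
  unfold limBr2
  have h1 : pt r f + ((1 / (2 * r) : ℝ) : ℂ) * (1 + Complex.I) ≠ 0 := by
    intro h2
    have h0 := zf_zero hr.ne' f
    rw [h2, mul_zero] at h0
    exact zf_ne_zero 0 f h0
  rw [zf_zero hr.ne' f, real_mul_cpow_half hr h1]
  have e : (-Complex.I * (((1 / Real.sqrt r : ℝ) : ℂ) *
      (pt r f + ((1 / (2 * r) : ℝ) : ℂ) * (1 + Complex.I)) ^ (-(1 / 2) : ℂ)))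
      = ((1 / Real.sqrt r : ℝ) : ℂ) * (-Complex.I *
      (pt r f + ((1 / (2 * r) : ℝ) : ℂ) * (1 + Complex.I)) ^ (-(1 / 2) : ℂ)) := by ring
  rw [e, lv_real_mul, ← mul_assoc, mul_one_div_cancel (Real.sqrt_pos.2 hr).ne', one_mul]

theorem modeBr_locUnif2 {U : Filter ι} {r : ι → ℝ} (hr : Tendsto r U atTop) (h : Fin 4) :
    LocUnif U r Complex.slitPlane
      (fun k f => Real.sqrt (r k) * (sg2 f * modeBr (fun _ => 1) 0 f h)) (limBr2 h) :=
  locUnif_shift hr Complex.isOpen_slitPlane (continuousOn_limBr2 h)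
    ((hr.eventually_gt_atTop 0).mono fun n hn f => smpBr2_eq hn h f)

theorem gauge_one : Gauge (fun _ => 1) := fun _ => one_pow 2

theorem smpBr_sq_le {r : ℝ} (hr : 0 ≤ r) (h : Fin 4) (f : Face) :
    smpBr r h f ^ 2 ≤ r * nsq (modeBr (fun _ => 1) 0 f) := by
  unfold smpBr
  rw [mul_pow, Real.sq_sqrt hr]
  gcongr
  exact Finset.single_le_sum (f := fun k => modeBr (fun _ => 1) 0 f k ^ 2)
    (fun k _ => sq_nonneg _) (Finset.mem_univ h)

theorem modeBr_nc {U : Filter ι} {r : ι → ℝ} (hr : Tendsto r U atTop) (h : Fin 4) {B' : Set ℂ}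
    (hB' : Bornology.IsBounded B') : NC U r slit B' (fun k => smpBr (r k) h) := by
  refine nc_of_null hr isOpen_slit volume_slit hB' fun η hη => ?_
  set ρ : ℝ := η / 256 with hρ
  have hρ0 : 0 < ρ := by positivity
  refine ⟨Real.sqrt (4 / ρ) , Metric.ball 0 ρ, ?_, ?_⟩
  · filter_upwards [hr.eventually_ge_atTop (2 / ρ), hr.eventually_gt_atTop 0] with n hn hn0 f _ hf
    rw [div_le_iff₀ hρ0] at hn
    refine Real.abs_le_sqrt ((smpBr_sq_le hn0.le h f).trans ?_)
    rw [nsq_modeBr gauge_one]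
    have h1 : ρ ≤ ‖pt (r n) f‖ := by simpa using hf
    have h2 : r n * ρ / 2 ≤ ‖zf 0 f‖ := by
      rw [zf_zero hn0.ne', norm_mul, Complex.norm_real, Real.norm_of_nonneg hn0.le, mul_div_assoc]
      gcongr
      have h3 : ‖((1 / (2 * r n) : ℝ) : ℂ) * (1 + Complex.I)‖ ≤ ρ / 2 := by
        rw [norm_mul, Complex.norm_real, Real.norm_of_nonneg (by positivity)]
        have h4 : ‖(1 : ℂ) + Complex.I‖ ≤ 2 := by
          refine (norm_add_le _ _).trans ?_
          rw [norm_one, Complex.norm_I]; norm_num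
        have h5 : 1 / (2 * r n) * ‖(1 : ℂ) + Complex.I‖ ≤ 1 / (2 * r n) * 2 := by gcongr
        refine h5.trans ?_
        rw [div_mul_eq_mul_div, div_le_div_iff₀ (by positivity) (by norm_num)]
        linarith
      have h6 := norm_sub_le (pt (r n) f + ((1 / (2 * r n) : ℝ) : ℂ) * (1 + Complex.I))
        (((1 / (2 * r n) : ℝ) : ℂ) * (1 + Complex.I))
      rw [add_sub_cancel_right] at h6
      linarith
    have h3 : 0 < r n * ρ / 2 := by positivity
    calc r n * (2 / ‖zf 0 f‖) ≤ r n * (2 / (r n * ρ / 2)) := by gcongr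
      _ = 4 / ρ := by field_simp; norm_num
  · filter_upwards [hr.eventually_ge_atTop (1 / ρ), hr.eventually_gt_atTop 0] with n hn hn0 S hS
    rw [div_le_iff₀ hρ0] at hn
    have h1 : S ⊆ bx 0 (r n * ρ) := by
      intro f hf
      have hb := (hS f hf).2
      rw [Metric.mem_ball, dist_zero_right] at hb
      rw [mem_bx_real]
      have h2 := (Complex.abs_re_le_norm (pt (r n) f)).trans hb.le
      have h3 := (Complex.abs_im_le_norm (pt (r n) f)).trans hb.le
      rw [pt_re, abs_div, abs_of_pos hn0, div_le_iff₀ hn0] at h2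
      rw [pt_im, abs_div, abs_of_pos hn0, div_le_iff₀ hn0] at h3
      simp only [Prod.fst_zero, Prod.snd_zero, Int.cast_zero, sub_zero]
      constructor <;> linarith
    calc ∑ f ∈ S, smpBr (r n) h f ^ 2
        ≤ ∑ f ∈ bx 0 (r n * ρ), r n * nsq (modeBr (fun _ => 1) 0 f) := by
          refine (Finset.sum_le_sum fun f _ => smpBr_sq_le hn0.le h f).trans ?_
          exact Finset.sum_le_sum_of_subset_of_nonneg h1 fun f _ _ =>
            mul_nonneg hn0.le (nsq_nonneg _)
      _ = r n * NB 0 (r n * ρ) (modeBr (fun _ => 1) 0) ^ 2 := by rw [NB_sq, Finset.mul_sum]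
      _ ≤ r n * (128 * (1 + r n * ρ)) := by
          gcongr
          exact NB_modeBr_sq_le gauge_one 0 (by positivity)
      _ ≤ r n * (128 * (2 * (r n * ρ))) := by gcongr; linarith
      _ = η * r n ^ 2 := by rw [hρ]; ring

/-- **strong `L²` convergence of the branch mode** -/
theorem modeBr_strong {U : Filter ι} [U.NeBot] {r : ι → ℝ} (hr : Tendsto r U atTop)
    (h : Fin 4) {B : Set ℂ} (hB : Bornology.IsBounded B) (hBm : MeasurableSet B) :
    Tendsto (fun k => ∫⁻ z in B, sq2 (smpBr (r k) h (flr (r k) z) - slit.indicator (limBr h) z)) U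
      (𝓝 0) :=
  strong hr isOpen_slit hB hBm one_pos
    (fun z hz w hw => Metric.mem_cthickening_of_dist_le w z 1 B hz ((dist_le_d1 w z).trans hw))
    (modeBr_nc hr h hB.cthickening) (continuousOn_limBr h) (modeBr_locUnif hr h)

end Crest.Agent.R165.ModeSx841
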