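import Mathlib

/-!
# Row 165 (S0250), block G5: the critical operator of the plane, constant and linear modes, D4

Faces `ℤ × ℤ`, half-edges `Face × Dir`.  Test functions are arbitrary functions on half-edges.
-/

set_option autoImplicit false

noncomputable section

namespace Crest.Agent.R165.Modesx901

/-- the four half-edges of a face -/
inductive Dir
  | S | E | N | W
  deriving DecidableEq

instance : Fintype Dir := ⟨{.S, .E, .N, .W}, by intro x; cases x <;> simp⟩

/-- faces of the square lattice -/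
abbrev Face := ℤ × ℤ

/-- half-edges -/
abbrev HE := Face × Dir

/-- test functions -/
abbrev Tst := HE → ℝ

/-- the critical weight `√2 - 1` -/
def xc : ℝ := Real.sqrt 2 - 1

/-- abbreviation for `√2` -/
def r2 : ℝ := Real.sqrt 2

theorem r2_sq : r2 * r2 = 2 := Real.mul_self_sqrt (by norm_num)
theorem r2_pos : 0 < r2 := Real.sqrt_pos.2 (by norm_num)
theorem xc_eq : xc = r2 - 1 := rfl
theorem r2_ne : r2 ≠ 0 := r2_pos.ne'
theorem xc_sq : xc * xc = 1 - 2 * xc := by
  have := r2_sq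
  rw [xc_eq]; nlinarith
theorem xc_pos : 0 < xc := by
  have h := r2_sq
  have := r2_pos
  rw [xc_eq]
  nlinarith [sq_nonneg (r2 - 1)]

/-- the critical operator of the plane -/
def Aop : Tst →ₗ[ℝ] Tst where
  toFun f := fun h => match h with
    | (x, .S) => f (x, .E) + f (x, .N) + f (x, .W) + xc * f (x - (0, 1), .N)
    | (x, .E) => -f (x, .S) + f (x, .N) + f (x, .W) + xc * f (x + (1, 0), .W)
    | (x, .N) => -f (x, .S) - f (x, .E) + f (x, .W) - xc * f (x + (0, 1), .S)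
    | (x, .W) => -f (x, .S) - f (x, .E) - f (x, .N) - xc * f (x - (1, 0), .E)
  map_add' f g := by
    ext ⟨x, d⟩
    cases d <;> simp only [Pi.add_apply] <;> ring
  map_smul' c f := by
    ext ⟨x, d⟩
    cases d <;> simp only [Pi.smul_apply, smul_eq_mul, RingHom.id_apply] <;> ring

theorem Aop_S (f : Tst) (x : Face) :
    Aop f (x, .S) = f (x, .E) + f (x, .N) + f (x, .W) + xc * f (x - (0, 1), .N) := rfl
theorem Aop_E (f : Tst) (x : Face) :
    Aop f (x, .E) = -f (x, .S) + f (x, .N) + f (x, .W) + xc * f (x + (1, 0), .W) := rfl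
theorem Aop_N (f : Tst) (x : Face) :
    Aop f (x, .N) = -f (x, .S) - f (x, .E) + f (x, .W) - xc * f (x + (0, 1), .S) := rfl
theorem Aop_W (f : Tst) (x : Face) :
    Aop f (x, .W) = -f (x, .S) - f (x, .E) - f (x, .N) - xc * f (x - (1, 0), .E) := rfl

/-- the light field with components `c = a + i b` -/
def lt (a b : Face → ℝ) : Tst := fun h => match h with
  | (x, .S) => -(r2 / 2) * (a x + b x)
  | (x, .E) => a x
  | (x, .N) => (r2 / 2) * (b x - a x)
  | (x, .W) => -b x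

/-- the heavy field with parameter `α = u + i v` -/
def hv (u v : Face → ℝ) : Tst := fun h => match h with
  | (x, .S) => u x - v x
  | (x, .E) => r2 * u x
  | (x, .N) => u x + v x
  | (x, .W) => r2 * v x

/-- constant modes -/
def m0 (a b : ℝ) : Tst := lt (fun _ => a) (fun _ => b)

/-- linear modes centred at `y`: `c = α z + β zbar`, `z = (x - y)` -/
def m1 (y : Face) (u v s t : ℝ) : Tst :=
  lt (fun x => (u + s) * (x.1 - y.1 : ℤ) + (t - v) * (x.2 - y.2 : ℤ))
     (fun x => (v + t) * (x.1 - y.1 : ℤ) + (u - s) * (x.2 - y.2 : ℤ)) +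
  (xc / 4) • hv (fun _ => u) (fun _ => v)

theorem Aop_m0 (a b : ℝ) : Aop (m0 a b) = 0 := by
  have h2 := r2_sq
  ext ⟨x, d⟩
  cases d
  · rw [Aop_S]; simp only [m0, lt, Pi.zero_apply, xc_eq]; linear_combination (b - a) / 2 * h2
  · rw [Aop_E]; simp only [m0, lt, Pi.zero_apply, xc_eq]; ring
  · rw [Aop_N]; simp only [m0, lt, Pi.zero_apply, xc_eq]; linear_combination (a + b) / 2 * h2
  · rw [Aop_W]; simp only [m0, lt, Pi.zero_apply, xc_eq]; ring

/-- `A m1(α, β) = - x m0 (i conj β)` -/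
theorem Aop_m1 (y : Face) (u v s t : ℝ) : Aop (m1 y u v s t) = -xc • m0 t s := by
  have h2 := r2_sq
  ext ⟨x, d⟩
  cases d
  · rw [Aop_S]
    simp only [m1, m0, lt, hv, Pi.add_apply, Pi.smul_apply, smul_eq_mul, xc_eq, Prod.fst_sub,
      Prod.snd_sub, Int.cast_sub, Int.cast_one, Int.cast_zero]
    grind
  · rw [Aop_E]
    simp only [m1, m0, lt, hv, Pi.add_apply, Pi.smul_apply, smul_eq_mul, xc_eq, Prod.fst_add,
      Prod.snd_add, Int.cast_sub, Int.cast_add, Int.cast_one, Int.cast_zero]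
    grind
  · rw [Aop_N]
    simp only [m1, m0, lt, hv, Pi.add_apply, Pi.smul_apply, smul_eq_mul, xc_eq, Prod.fst_add,
      Prod.snd_add, Int.cast_sub, Int.cast_add, Int.cast_one, Int.cast_zero]
    grind
  · rw [Aop_W]
    simp only [m1, m0, lt, hv, Pi.add_apply, Pi.smul_apply, smul_eq_mul, xc_eq, Prod.fst_sub,
      Prod.snd_sub, Int.cast_sub, Int.cast_one, Int.cast_zero]
    grind

/-! ### lattice symmetries, acting on test functions by pull-back -/

/-- rotation by a right angle about the centre of the face `y` -/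
def rot (y x : Face) : Face := (y.1 - (x.2 - y.2), y.2 + (x.1 - y.1))

/-- reflection `x₁ ↦ -x₁` about the centre of the face `y` -/
def ref (y x : Face) : Face := (y.1 - (x.1 - y.1), x.2)

/-- translation pull-back -/
def tauS (t : Face) : Tst →ₗ[ℝ] Tst where
  toFun f := fun h => f (h.1 + t, h.2)
  map_add' _ _ := rfl
  map_smul' _ _ := rfl

/-- rotation pull-back -/
def rhoS (y : Face) : Tst →ₗ[ℝ] Tst where
  toFun f := fun h => match h with
    | (x, .S) => f (rot y x, .E)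
    | (x, .E) => f (rot y x, .N)
    | (x, .N) => f (rot y x, .W)
    | (x, .W) => -f (rot y x, .S)
  map_add' f g := by
    ext ⟨x, d⟩
    cases d <;> simp only [Pi.add_apply]
    ring
  map_smul' c f := by
    ext ⟨x, d⟩
    cases d <;> simp only [Pi.smul_apply, smul_eq_mul, RingHom.id_apply]
    ring

/-- reflection pull-back (the real form of the complex reflection, i.e. divided by `i`) -/
def sigS (y : Face) : Tst →ₗ[ℝ] Tst where
  toFun f := fun h => match h with
    | (x, .S) => f (ref y x, .S)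
    | (x, .E) => -f (ref y x, .W)
    | (x, .N) => -f (ref y x, .N)
    | (x, .W) => -f (ref y x, .E)
  map_add' f g := by
    ext ⟨x, d⟩
    cases d <;> simp only [Pi.add_apply] <;> ring
  map_smul' c f := by
    ext ⟨x, d⟩
    cases d <;> simp only [Pi.smul_apply, smul_eq_mul, RingHom.id_apply] <;> ring

theorem rhoS_S (y : Face) (f : Tst) (x : Face) : rhoS y f (x, .S) = f (rot y x, .E) := rfl
theorem rhoS_E (y : Face) (f : Tst) (x : Face) : rhoS y f (x, .E) = f (rot y x, .N) := rfl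
theorem rhoS_N (y : Face) (f : Tst) (x : Face) : rhoS y f (x, .N) = f (rot y x, .W) := rfl
theorem rhoS_W (y : Face) (f : Tst) (x : Face) : rhoS y f (x, .W) = -f (rot y x, .S) := rfl
theorem sigS_S (y : Face) (f : Tst) (x : Face) : sigS y f (x, .S) = f (ref y x, .S) := rfl
theorem sigS_E (y : Face) (f : Tst) (x : Face) : sigS y f (x, .E) = -f (ref y x, .W) := rfl
theorem sigS_N (y : Face) (f : Tst) (x : Face) : sigS y f (x, .N) = -f (ref y x, .N) := rfl
theorem sigS_W (y : Face) (f : Tst) (x : Face) : sigS y f (x, .W) = -f (ref y x, .E) := rfl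

theorem Aop_tauS (t : Face) (f : Tst) : Aop (tauS t f) = tauS t (Aop f) := by
  ext ⟨x, d⟩
  cases d
  · simp only [Aop_S, tauS, LinearMap.coe_mk, AddHom.coe_mk, sub_add_eq_add_sub]
  · simp only [Aop_E, tauS, LinearMap.coe_mk, AddHom.coe_mk, add_right_comm]
  · simp only [Aop_N, tauS, LinearMap.coe_mk, AddHom.coe_mk, add_right_comm]
  · simp only [Aop_W, tauS, LinearMap.coe_mk, AddHom.coe_mk, sub_add_eq_add_sub]

theorem rot_sub2 (y x : Face) : rot y (x - (0, 1)) = rot y x + (1, 0) := by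
  ext <;> simp [rot] <;> ring
theorem rot_add1 (y x : Face) : rot y (x + (1, 0)) = rot y x + (0, 1) := by
  ext <;> simp [rot] <;> ring
theorem rot_add2 (y x : Face) : rot y (x + (0, 1)) = rot y x - (1, 0) := by
  ext <;> simp [rot] <;> ring
theorem rot_sub1 (y x : Face) : rot y (x - (1, 0)) = rot y x - (0, 1) := by
  ext <;> simp [rot] <;> ring
theorem ref_sub2 (y x : Face) : ref y (x - (0, 1)) = ref y x - (0, 1) := by
  ext <;> simp [ref]
theorem ref_add2 (y x : Face) : ref y (x + (0, 1)) = ref y x + (0, 1) := by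
  ext <;> simp [ref]
theorem ref_add1 (y x : Face) : ref y (x + (1, 0)) = ref y x - (1, 0) := by
  ext <;> simp [ref]; ring
theorem ref_sub1 (y x : Face) : ref y (x - (1, 0)) = ref y x + (1, 0) := by
  ext <;> simp [ref]; ring

theorem Aop_rhoS (y : Face) (f : Tst) : Aop (rhoS y f) = rhoS y (Aop f) := by
  ext ⟨x, d⟩
  cases d
  · rw [Aop_S, rhoS_S, rhoS_E, rhoS_N, rhoS_W, rhoS_N, Aop_E, rot_sub2]; ring
  · rw [Aop_E, rhoS_S, rhoS_E, rhoS_N, rhoS_W, rhoS_W, Aop_N, rot_add1]; ring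
  · rw [Aop_N, rhoS_S, rhoS_E, rhoS_N, rhoS_W, rhoS_S, Aop_W, rot_add2]; ring
  · rw [Aop_W, rhoS_S, rhoS_E, rhoS_N, rhoS_W, rhoS_E, Aop_S, rot_sub1]; ring

theorem Aop_sigS (y : Face) (f : Tst) : Aop (sigS y f) = -sigS y (Aop f) := by
  ext ⟨x, d⟩
  cases d
  · rw [Pi.neg_apply, Aop_S, sigS_S, sigS_E, sigS_N, sigS_W, sigS_N, Aop_S, ref_sub2]; ring
  · rw [Pi.neg_apply, Aop_E, sigS_S, sigS_E, sigS_N, sigS_W, sigS_W, Aop_W, ref_add1]; ring
  · rw [Pi.neg_apply, Aop_N, sigS_S, sigS_E, sigS_N, sigS_W, sigS_S, Aop_N, ref_add2]; ring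
  · rw [Pi.neg_apply, Aop_W, sigS_S, sigS_E, sigS_N, sigS_W, sigS_E, Aop_E, ref_sub1]; ring

/-! ### transformation of the modes -/

theorem tauS_m0 (t : Face) (a b : ℝ) : tauS t (m0 a b) = m0 a b := by
  ext ⟨x, d⟩; cases d <;> rfl

theorem tauS_m1 (t y : Face) (u v s w : ℝ) : tauS t (m1 (y + t) u v s w) = m1 y u v s w := by
  ext ⟨x, d⟩
  cases d <;> simp only [tauS, m1, lt, hv, LinearMap.coe_mk, AddHom.coe_mk, Pi.add_apply,
    Pi.smul_apply, smul_eq_mul, Prod.fst_add, Prod.snd_add, add_sub_add_right_eq_sub]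

theorem rhoS_m0 (y : Face) (a b : ℝ) :
    rhoS y (m0 a b) = m0 ((r2 / 2) * (b - a)) (-(r2 / 2) * (a + b)) := by
  have h2 := r2_sq
  ext ⟨x, d⟩
  cases d
  · rw [rhoS_S]; simp only [m0, lt]; grind
  · rw [rhoS_E]; simp only [m0, lt]
  · rw [rhoS_N]; simp only [m0, lt]; grind
  · rw [rhoS_W]; simp only [m0, lt]

theorem sigS_m0 (y : Face) (a b : ℝ) : sigS y (m0 a b) = m0 b a := by
  ext ⟨x, d⟩
  cases d
  · rw [sigS_S]; simp only [m0, lt]; ring
  · rw [sigS_E]; simp only [m0, lt]; ring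
  · rw [sigS_N]; simp only [m0, lt]; ring
  · rw [sigS_W]; simp only [m0, lt]

/-- `α ↦ e^{-iπ/4} α`, `β ↦ e^{3iπ/4} β` -/
theorem rhoS_m1 (y : Face) (u v s t : ℝ) :
    rhoS y (m1 y u v s t) = m1 y ((r2 / 2) * (u + v)) ((r2 / 2) * (v - u))
      (-(r2 / 2) * (s + t)) ((r2 / 2) * (s - t)) := by
  have h2 := r2_sq
  ext ⟨x, d⟩
  cases d
  · rw [rhoS_S]
    simp only [m1, lt, hv, Pi.add_apply, Pi.smul_apply, smul_eq_mul, rot]
    push_cast
    grind
  · rw [rhoS_E]
    simp only [m1, lt, hv, Pi.add_apply, Pi.smul_apply, smul_eq_mul, rot]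
    push_cast
    grind
  · rw [rhoS_N]
    simp only [m1, lt, hv, Pi.add_apply, Pi.smul_apply, smul_eq_mul, rot]
    push_cast
    grind
  · rw [rhoS_W]
    simp only [m1, lt, hv, Pi.add_apply, Pi.smul_apply, smul_eq_mul, rot]
    push_cast
    grind

/-- `α ↦ -i conj α`, `β ↦ -i conj β` -/
theorem sigS_m1 (y : Face) (u v s t : ℝ) :
    sigS y (m1 y u v s t) = m1 y (-v) (-u) (-t) (-s) := by
  ext ⟨x, d⟩
  cases d
  · rw [sigS_S]
    simp only [m1, lt, hv, Pi.add_apply, Pi.smul_apply, smul_eq_mul, ref]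
    push_cast
    ring
  · rw [sigS_E]
    simp only [m1, lt, hv, Pi.add_apply, Pi.smul_apply, smul_eq_mul, ref]
    push_cast
    ring
  · rw [sigS_N]
    simp only [m1, lt, hv, Pi.add_apply, Pi.smul_apply, smul_eq_mul, ref]
    push_cast
    ring
  · rw [sigS_W]
    simp only [m1, lt, hv, Pi.add_apply, Pi.smul_apply, smul_eq_mul, ref]
    push_cast
    ring

/-! ### classification of the invariant bilinear forms -/

theorem m0_eq (a b : ℝ) : m0 a b = a • m0 1 0 + b • m0 0 1 := by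
  ext ⟨x, d⟩
  cases d <;> simp only [m0, lt, Pi.add_apply, Pi.smul_apply, smul_eq_mul] <;> ring

theorem m1_eq (y : Face) (u v s t : ℝ) : m1 y u v s t =
    u • m1 y 1 0 0 0 + v • m1 y 0 1 0 0 + s • m1 y 0 0 1 0 + t • m1 y 0 0 0 1 := by
  ext ⟨x, d⟩
  cases d <;> simp only [m1, lt, hv, Pi.add_apply, Pi.smul_apply, smul_eq_mul] <;> ring

/-- an alternating form on the constant modes is a multiple of `Im (conj c c')` -/
theorem form_m0 (K : Tst →ₗ[ℝ] Tst →ₗ[ℝ] ℝ) (hK : ∀ f, K f f = 0) (a b a' b' : ℝ) :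
    K (m0 a b) (m0 a' b') = (a * b' - b * a') * K (m0 1 0) (m0 0 1) := by
  have h : K (m0 0 1) (m0 1 0) = -K (m0 1 0) (m0 0 1) := by
    have := hK (m0 1 0 + m0 0 1)
    simp only [map_add, LinearMap.add_apply, hK, zero_add, add_zero] at this
    linarith
  rw [m0_eq a b, m0_eq a' b']
  simp only [map_add, LinearMap.add_apply, map_smul, LinearMap.smul_apply, hK, smul_eq_mul, h]
  ring

/-- **classification**: a D4-covariant form is, on constant × linear modes, a multiple of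
`Im (c β)` -/
theorem form_m1 (K : Tst →ₗ[ℝ] Tst →ₗ[ℝ] ℝ) (y : Face)
    (hr : ∀ f g, K (rhoS y f) (rhoS y g) = K f g)
    (hs : ∀ f g, K (sigS y f) (sigS y g) = -K f g) (a b u v s t : ℝ) :
    K (m0 a b) (m1 y u v s t) = (a * t + b * s) * K (m0 1 0) (m1 y 0 0 0 1) := by
  have h2 := r2_sq
  have e1 := hr (m0 1 0) (m1 y 1 0 0 0)
  have e2 := hr (m0 1 0) (m1 y 0 1 0 0)
  have e3 := hr (m0 1 0) (m1 y 0 0 1 0)
  have e4 := hr (m0 1 0) (m1 y 0 0 0 1)
  have e5 := hr (m0 0 1) (m1 y 1 0 0 0)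
  have e6 := hr (m0 0 1) (m1 y 0 1 0 0)
  have e7 := hr (m0 0 1) (m1 y 0 0 1 0)
  have e8 := hr (m0 0 1) (m1 y 0 0 0 1)
  have g3 := hs (m0 1 0) (m1 y 0 0 1 0)
  have g4 := hs (m0 1 0) (m1 y 0 0 0 1)
  have g7 := hs (m0 0 1) (m1 y 0 0 1 0)
  have g8 := hs (m0 0 1) (m1 y 0 0 0 1)
  rw [rhoS_m0, rhoS_m1, m0_eq, m1_eq] at e1 e2 e3 e4 e5 e6 e7 e8
  rw [sigS_m0, sigS_m1, m0_eq, m1_eq] at g3 g4 g7 g8
  rw [m0_eq a b, m1_eq y u v s t]
  simp only [map_add, LinearMap.add_apply, map_smul, LinearMap.smul_apply, smul_eq_mul] at *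
  generalize K (m0 1 0) (m1 y 1 0 0 0) = k1 at *
  generalize K (m0 1 0) (m1 y 0 1 0 0) = k2 at *
  generalize K (m0 1 0) (m1 y 0 0 1 0) = k3 at *
  generalize K (m0 1 0) (m1 y 0 0 0 1) = k4 at *
  generalize K (m0 0 1) (m1 y 1 0 0 0) = l1 at *
  generalize K (m0 0 1) (m1 y 0 1 0 0) = l2 at *
  generalize K (m0 0 1) (m1 y 0 0 1 0) = l3 at *
  generalize K (m0 0 1) (m1 y 0 0 0 1) = l4 at *
  have hh : (r2 / 2) * (r2 / 2) = 1 / 2 := by linear_combination h2 / 4
  have q1 : k1 = 0 := by grind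
  have q2 : k2 = 0 := by grind
  have q5 : l1 = 0 := by grind
  have q6 : l2 = 0 := by grind
  have q3 : k3 = 0 := by grind
  have q8 : l4 = 0 := by grind
  have q7 : l3 = k4 := by grind
  rw [q1, q2, q5, q6, q3, q8, q7]
  ring

end Crest.Agent.R165.Modesx901
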