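import Mathlib
import Crest.Agent.R165.RIface_891
import Crest.Agent.R165.EXb3_811
import Crest.Agent.R165.Lim2_943

/-!
Row 165 (helper54 for helper811): discrete transfer. Strong `L²` convergence of the rescaled
components on the closed box `bC s` gives eventual bounds of the discrete norms on `bx 0 (t r)`.
-/

set_option autoImplicit false

noncomputable section

namespace Crest.Agent.R165.NBlimx54

open Finset Filter Topology MeasureTheory Crest.Agent.R165.Tr1x40 Crest.Agent.R165.RIfx891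
  Crest.Agent.R165.Lim1x943 Crest.Agent.R165.Lim2x943

/-- the cells of the faces of the box are inside the larger box -/
theorem cell_subset {r t s : ℝ} (hr : 0 < r) (h : 1 / r ≤ s - t) {f : Face}
    (hf : f ∈ bx 0 (t * r)) : cell r f ⊆ EXb3x811.bC s := by
  intro z hz
  rw [mem_cell] at hz
  rw [mem_bx_real] at hf
  simp only [Prod.fst_zero, Prod.snd_zero, Int.cast_zero, sub_zero] at hf
  have h1 := abs_floor_div r hr z.re
  have h2 := abs_floor_div r hr z.im
  have e1 : ⌊r * z.re⌋ = f.1 := congrArg Prod.fst hz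
  have e2 : ⌊r * z.im⌋ = f.2 := congrArg Prod.snd hz
  rw [e1] at h1
  rw [e2] at h2
  have b1 : |(f.1 : ℝ) / r| ≤ t := by
    rw [abs_div, abs_of_pos hr, div_le_iff₀ hr]; exact hf.1
  have b2 : |(f.2 : ℝ) / r| ≤ t := by
    rw [abs_div, abs_of_pos hr, div_le_iff₀ hr]; exact hf.2
  rw [abs_le] at h1 h2 b1 b2
  constructor
  · rw [abs_le]; constructor <;> linarith
  · rw [abs_le]; constructor <;> linarith

/-- lower bound of the integral of a component -/
theorem comp_le {r t s : ℝ} (hr : 0 < r) (h : 1 / r ≤ s - t) (φ : Fld) (a : Fin 4) :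
    ∑ f ∈ bx 0 (t * r), ENNReal.ofReal (φ f a ^ 2) ≤
      ∫⁻ z in EXb3x811.bC s, sq2 (r * φ (flr r z) a) := by
  refine le_trans (le_of_eq ?_) (sum_le_lintegral_flr (A := EXb3x811.bC s) hr
    (fun f hf => cell_subset (s := s) hr h hf) (fun f => sq2 (r * φ f a)))
  refine Finset.sum_congr rfl fun f _ => ?_
  rw [Lim2x943.sq2, ← ENNReal.ofReal_mul (sq_nonneg _)]
  congr 1
  field_simp

/-- the norm of the box in terms of the components -/
theorem NB_le {r t s : ℝ} (hr : 0 < r) (h : 1 / r ≤ s - t) (φ : Fld) :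
    ENNReal.ofReal (NB 0 (t * r) φ ^ 2) ≤
      ∑ a : Fin 4, ∫⁻ z in EXb3x811.bC s, sq2 (r * φ (flr r z) a) := by
  rw [NB_sq]
  have e : ∑ f ∈ bx 0 (t * r), nsq (φ f) = ∑ a : Fin 4, ∑ f ∈ bx 0 (t * r), φ f a ^ 2 := by
    rw [Finset.sum_comm]; rfl
  rw [e, ENNReal.ofReal_sum_of_nonneg (fun a _ => Finset.sum_nonneg fun f _ => sq_nonneg _)]
  refine Finset.sum_le_sum fun a _ => ?_
  rw [ENNReal.ofReal_sum_of_nonneg (fun f _ => sq_nonneg _)]
  exact comp_le hr h φ a

/-- **discrete transfer** -/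
theorem NB_ev {U : Filter ℕ} [U.NeBot] {r : ℕ → ℝ} (hr : Tendsto r U atTop) {φ : ℕ → Fld}
    {G : Fin 4 → ℂ → ℝ} (hG : ∀ a, Measurable (G a)) {t s : ℝ} (_ht : 0 < t) (hts : t < s)
    (hlim : ∀ a, Tendsto (fun k => ∫⁻ z in EXb3x811.bC s,
      Lim2x943.sq2 (r k * φ k (Lim1x943.flr (r k) z) a - G a z)) U (𝓝 0))
    {M : ℝ} (hM : 0 ≤ M)
    (hGM : ∑ a, ∫⁻ z in EXb3x811.bC s, Lim2x943.sq2 (G a z) ≤ ENNReal.ofReal (M ^ 2))
    {η : ℝ} (he : 0 < η) : ∀ᶠ k in U, RIfx891.NB 0 (t * r k) (φ k) ≤ M + η := by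
  have h1 : ∀ a : Fin 4, Tendsto (fun k => ∫⁻ z in EXb3x811.bC s, sq2 (r k * φ k (flr (r k) z) a))
      U (𝓝 (∫⁻ z in EXb3x811.bC s, sq2 (G a z))) := by
    intro a
    have h2 := norm_tendsto (v := fun k f => r k * φ k f a) (r := r) (hG a) (hlim a)
    have h3 := ENNReal.Tendsto.pow (n := 2) h2
    simp only [nrm_sq] at h3
    exact h3
  have h2 : Tendsto (fun k => ∑ a : Fin 4, ∫⁻ z in EXb3x811.bC s, sq2 (r k * φ k (flr (r k) z) a))
      U (𝓝 (∑ a : Fin 4, ∫⁻ z in EXb3x811.bC s, sq2 (G a z))) :=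
    tendsto_finsetSum _ fun a _ => h1 a
  have h3 : ∑ a : Fin 4, ∫⁻ z in EXb3x811.bC s, sq2 (G a z) < ENNReal.ofReal ((M + η) ^ 2) := by
    refine lt_of_le_of_lt hGM ?_
    rw [ENNReal.ofReal_lt_ofReal_iff (by positivity)]
    nlinarith
  have h4 := h2.eventually_lt_const h3
  have h5 : ∀ᶠ k in U, 1 / r k ≤ s - t := by
    have : Tendsto (fun k => 1 / r k) U (𝓝 0) := by
      simp only [one_div]
      exact tendsto_inv_atTop_zero.comp hr
    exact this.eventually_le_const (by linarith)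
  filter_upwards [h4, h5, hr.eventually_gt_atTop 0] with k hk4 hk5 hk0
  have h6 := (NB_le hk0 hk5 (φ k)).trans hk4.le
  have h7 := (ENNReal.ofReal_le_ofReal_iff (by positivity)).1 h6
  exact le_of_sq_le_sq h7 (by positivity)
where
  le_of_sq_le_sq {a b : ℝ} (h : a ^ 2 ≤ b ^ 2) (hb : 0 ≤ b) : a ≤ b := by
    by_contra hc
    push Not at hc
    nlinarith

end Crest.Agent.R165.NBlimx54
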