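import Crest.Agent.R165.NFlow_337
import Crest.Agent.R165.CmpA_432
import Crest.Agent.R165.GSys_387

/-!
# Row 165 (S0250), block G: the norm of the plane-like polymers (helper337)

* `shift` : translation of a plane chart
* `tau_conn` : a chart on a neighbourhood of a connected set is `f + v ↦ v`
* `NK_deep` : `NK w a r Γ em K ≤ NK (wPl ℤ) a r Γ True KP` if every polymer with `em U` (plane-like)
  is the image of the plane polymer in every chart
-/

set_option autoImplicit false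
set_option linter.unusedSectionVars false

noncomputable section

open scoped ENNReal
open Crest.Agent.R165.Gr0x606 Crest.Agent.R165.Gr1x606 Crest.Agent.R165.Latx683
open Crest.Agent.R165.GDefx387 Crest.Agent.R165.GeOpsx337 Crest.Agent.R165.KFlowx337
open Crest.Agent.R165.BgIsox432 Crest.Agent.R165.PNormx417 Crest.Agent.R165.GrLocx337
open Crest.Agent.R165.Packx915 Crest.Agent.R165.NSumx915 Crest.Agent.R165.Bridgex915

namespace Crest.Agent.R165.NDeepx337

variable {G : Type} [CommRing G] [CN G]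

/-- translation of a plane chart -/
def shift {w : BW G} {Z : Set (G × G)} (b : BgIso w (wPl ℤ) Z) (t : ℤ × ℤ) :
    BgIso w (wPl ℤ) Z where
  τ f := b.τ f + t
  s := b.s
  sq := b.sq
  iso f hf g hg := by
    rw [← b.iso f hf g hg]
    unfold fd
    congr 2 <;> · simp
  e1 f hf hf' := by
    rw [b.e1 f hf hf']
    ext
    · simp only [Prod.fst_add]; ring
    · simp
  e2 f hf hf' := by
    rw [b.e2 f hf hf']
    ext
    · simp
    · simp only [Prod.snd_add]; ring
  wE f hf hf' := b.wE f hf hf'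
  wN f hf hf' := b.wN f hf hf'

@[simp] theorem shift_tau {w : BW G} {Z : Set (G × G)} (b : BgIso w (wPl ℤ) Z) (t : ℤ × ℤ)
    (f : G × G) : (shift b t).τ f = b.τ f + t := rfl

/-- the relation `g = f + (τ g - τ f)` -/
def PP {w : BW G} {w' : BW ℤ} {Z : Set (G × G)} (b : BgIso w w' Z) (f g : G × G) : Prop :=
  g = (f.1 + (((b.τ g).1 - (b.τ f).1 : ℤ) : G), f.2 + (((b.τ g).2 - (b.τ f).2 : ℤ) : G))

theorem PP.refl {w : BW G} {w' : BW ℤ} {Z : Set (G × G)} (b : BgIso w w' Z) (f : G × G) :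
    PP b f f := by simp [PP]

theorem PP.trans {w : BW G} {w' : BW ℤ} {Z : Set (G × G)} {b : BgIso w w' Z} {f g h : G × G}
    (h1 : PP b f g) (h2 : PP b g h) : PP b f h := by
  have e1 : g.1 = f.1 + (((b.τ g).1 - (b.τ f).1 : ℤ) : G) := congrArg Prod.fst h1
  have e2 : g.2 = f.2 + (((b.τ g).2 - (b.τ f).2 : ℤ) : G) := congrArg Prod.snd h1
  have e3 : h.1 = g.1 + (((b.τ h).1 - (b.τ g).1 : ℤ) : G) := congrArg Prod.fst h2
  have e4 : h.2 = g.2 + (((b.τ h).2 - (b.τ g).2 : ℤ) : G) := congrArg Prod.snd h2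
  refine Prod.ext ?_ ?_
  · show h.1 = f.1 + (((b.τ h).1 - (b.τ f).1 : ℤ) : G)
    rw [e3, e1]; push_cast; ring
  · show h.2 = f.2 + (((b.τ h).2 - (b.τ f).2 : ℤ) : G)
    rw [e4, e2]; push_cast; ring

theorem PP.symm {w : BW G} {w' : BW ℤ} {Z : Set (G × G)} {b : BgIso w w' Z} {f g : G × G}
    (h1 : PP b f g) : PP b g f := by
  have e1 : g.1 = f.1 + (((b.τ g).1 - (b.τ f).1 : ℤ) : G) := congrArg Prod.fst h1
  have e2 : g.2 = f.2 + (((b.τ g).2 - (b.τ f).2 : ℤ) : G) := congrArg Prod.snd h1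
  refine Prod.ext ?_ ?_
  · show f.1 = g.1 + (((b.τ f).1 - (b.τ g).1 : ℤ) : G)
    rw [e1]; push_cast; ring
  · show f.2 = g.2 + (((b.τ f).2 - (b.τ g).2 : ℤ) : G)
    rw [e2]; push_cast; ring

/-- inside a ball -/
theorem PP.of_ball [CNZ G] {w : BW G} {w' : BW ℤ} {Z : Set (G × G)} (b : BgIso w w' Z) {x g : G × G}
    {R : ℕ} (hx : GDefx387.ball x R ⊆ Z) (hg : g ∈ GDefx387.ball x R) : PP b x g := by
  obtain ⟨m, n, hm, hn, rfl⟩ := exists_int_of_mem_ball hg
  have h := b.tau_add hx m n hm hn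
  unfold PP
  rw [h]
  simp

/-- along a connected set -/
theorem PP.conn [CNZ G] {w : BW G} {w' : BW ℤ} {U : Finset (G × G)} {s R r : ℕ}
    (b : BgIso w w' (nbhd s U)) (hU : Packx915.Conn fd R U) (hR : R ≤ s) (hr : r ≤ s)
    {f : G × G} (hf : near fd r f U) : ∀ g ∈ U, PP b f g := by
  classical
  obtain ⟨u, hu, hfu⟩ := hf
  have hball : ∀ v ∈ U, GDefx387.ball v s ⊆ nbhd s U := fun v hv => ball_subset_nbhd hv
  have h0 : PP b f u := by
    refine PP.symm (PP.of_ball b (hball u hu) ?_)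
    rw [mem_ball, fd_comm]
    omega
  set A : Finset (G × G) := U.filter (fun g => PP b f g) with hA
  have hAU : A = U := by
    by_contra hne
    obtain ⟨a, ha, c, hc, hcA, hac⟩ := hU A (Finset.filter_subset _ _)
      ⟨u, Finset.mem_filter.2 ⟨hu, h0⟩⟩ hne
    rw [hA, Finset.mem_filter] at ha
    refine hcA ?_
    rw [hA, Finset.mem_filter]
    refine ⟨hc, ha.2.trans (PP.of_ball b (hball a ha.1) ?_)⟩
    rw [mem_ball]
    omega
  intro g hg
  rw [← hAU] at hg
  exact (Finset.mem_filter.1 hg).2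

/-- the map back from the plane -/
def bk (f : G × G) (v : ℤ × ℤ) : G × G := (f.1 + (v.1 : G), f.2 + (v.2 : G))

theorem bk_tau [CNZ G] {w : BW G} {w' : BW ℤ} {U : Finset (G × G)} {s R r : ℕ}
    (b : BgIso w w' (nbhd s U)) (hU : Packx915.Conn fd R U) (hR : R ≤ s) (hr : r ≤ s)
    {f : G × G} (hf : near fd r f U) (h0 : b.τ f = 0) {g : G × G} (hg : g ∈ U) :
    bk f (b.τ g) = g := by
  have h := PP.conn b hU hR hr hf g hg
  unfold PP at h
  rw [h0] at h
  conv_rhs => rw [h]
  simp [bk]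

section deep

variable [DecidableEq G] [GoodG G] [CNZ G]

/-- **the norm of the plane-like polymers is bounded by the norm of the plane** -/
theorem NK_deep {w : BW G} {r R : ℕ} {a : ℝ} {Γ : ℝ≥0∞} (hr : 0 < r) (hR : R ≤ s2 * r)
    {K : Finset (G × G) → Gr (Fld G)} {KP : Finset (ℤ × ℤ) → Gr (Fld ℤ)}
    (em : Finset (G × G) → Prop) (hem : ∀ U, em U → Emb w r U)
    (hconn : ∀ U, K U ≠ 0 → Packx915.Conn fd R U) (hK : ∀ U, K U ∈ gr (fldS (nbhd 1 U)))
    (heq : ∀ U, em U → U.Nonempty → ∀ b : BgIso w (wPl ℤ) (nbhd (s2 * r) U),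
      mp b.push (K U) = KP (U.image b.τ)) :
    NK w a r Γ em K ≤ NK (wPl ℤ) a r Γ (fun _ => True) KP := by
  classical
  rw [NK_eq_NN, NK_eq_NN]
  have hrs : r ≤ s2 * r := Nat.le_mul_of_pos_left _ (by decide)
  have h1 : NN fd r Γ (act w a r em K) ≤
      NN fd r Γ (Set.indicator {U | em U ∧ K U ≠ 0} fun U => pnorm (wU w a r U) (K U)) := by
    refine NN_mono fun U => ?_
    by_cases hU : em U
    · by_cases h0 : K U = 0
      · rw [act_of hU, h0]; simp
      · rw [act_of hU, Set.indicator_of_mem (by exact ⟨hU, h0⟩)]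
    · rw [act_not hU]; exact bot_le
  refine h1.trans (NFlowx337.deep_le fun f => ?_)
  -- the chart of `U`, normalised at `f`
  have hch : ∀ U, em U → Nonempty {b : BgIso w (wPl ℤ) (nbhd (s2 * r) U) // b.τ f = 0} := by
    intro U hU
    obtain ⟨p⟩ := hem U hU
    refine ⟨⟨shift (ofPlane p) (-(ofPlane p).τ f), ?_⟩⟩
    rw [shift_tau, add_neg_cancel]
  let φ : Finset (G × G) → Finset (ℤ × ℤ) := fun U =>
    if h : em U then U.image (hch U h).some.1.τ else ∅
  have hφ : ∀ U (h : em U), φ U = U.image (hch U h).some.1.τ := fun U h => dif_pos h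
  refine ⟨0, φ, ?_, ?_⟩
  · rintro U ⟨hU1, hU2, hU3⟩ U' ⟨hU1', hU2', hU3'⟩ heq'
    have key : ∀ U (hn : near fd r f U) (he : em U) (h0 : K U ≠ 0), (φ U).image (bk f) = U := by
      intro U hn he h0
      rw [hφ U he]
      refine Crest.Agent.R165.KMapx892.image_image_id fun g hg => ?_
      exact bk_tau _ (hconn U h0) hR hrs hn (hch U he).some.2 hg
    have e1 := key U hU1 hU2 hU3
    have e2 := key U' hU1' hU2' hU3'
    rw [← e1, ← e2, heq']
  · rintro U hU1 ⟨hU2, hU3⟩
    have hne : U.Nonempty := hU1.nonempty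
    rw [hφ U hU2]
    set b := (hch U hU2).some with hb
    have hmem : ∀ u ∈ U, u ∈ nbhd (s2 * r) U := fun u hu => subset_nbhd U _ hu
    have hf : f ∈ nbhd (s2 * r) U := by
      obtain ⟨u, hu, hfu⟩ := hU1
      refine ⟨u, hu, ?_⟩
      rw [fd_comm]
      exact hfu.trans hrs
    refine ⟨?_, ?_, ?_⟩
    · obtain ⟨u, hu, hfu⟩ := hU1
      refine ⟨b.1.τ u, Finset.mem_image_of_mem _ hu, ?_⟩
      have h3 := b.1.iso f hf u (hmem u hu)
      rw [b.2] at h3
      rw [h3]
      exact hfu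
    · rw [← size_eq_pack, ← size_eq_pack]
      exact size_im b.1 r hmem
    · rw [act_of trivial, ← heq U hU2 hne b.1]
      refine le_of_eq ?_
      have hs : nbhd (s1 * r + MM) U ⊆ nbhd (s2 * r) U := by
        refine nbhd_mono ?_
        unfold s1 s2 MM
        omega
      have h2 := pnorm_push b.1 a r (U := U) hs (K := K U)
        (gr_mono (fldS_mono (nbhd_mono (by unfold s2; omega))) (hK U))
      rw [← h2]
      congr 1
      congr 1
      ext v
      simp only [Finset.mem_image]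

end deep

end Crest.Agent.R165.NDeepx337
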