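import Mathlib

/-!
# Abstract limit lemmas for the normalisation (helper697, R165 block U5)

* `tendsto_of_approx` : approximately constant for every `ε` implies convergent
* `limit_close`       : the limit is close to every approximate constant
* `norm_lemma`        : ratios converge and for every `ε` one configuration is almost normalised,
                        then every configuration is normalised
* `hom_trivial`       : bounded additive homomorphisms vanish
-/

set_option autoImplicit false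
set_option linter.unusedVariables false

open Filter Topology

namespace Crest.Agent.R165.Nm1x697

/-- a function which is `ε`-close to a constant eventually, for every `ε`, converges -/
lemma tendsto_of_approx {α : Type*} {l : Filter α} [NeBot l] {F : α → ℝ}
    (h : ∀ ε > 0, ∃ c : ℝ, ∀ᶠ a in l, |F a - c| ≤ ε) : ∃ L : ℝ, Tendsto F l (𝓝 L) := by
  have hc : Cauchy (map F l) := by
    rw [Metric.cauchy_iff]
    refine ⟨inferInstance, fun ε hε => ?_⟩
    obtain ⟨c, hc⟩ := h (ε / 3) (by positivity)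
    refine ⟨F '' {a | |F a - c| ≤ ε / 3}, image_mem_map hc, ?_⟩
    rintro x ⟨a, ha, rfl⟩ y ⟨b, hb, rfl⟩
    rw [Real.dist_eq]
    have : F a - F b = (F a - c) - (F b - c) := by ring
    rw [this]
    refine (abs_sub _ _).trans_lt ?_
    have ha' : |F a - c| ≤ ε / 3 := ha
    have hb' : |F b - c| ≤ ε / 3 := hb
    linarith
  obtain ⟨L, hL⟩ := cauchy_iff_exists_le_nhds.mp hc
  exact ⟨L, hL⟩

lemma limit_close {α : Type*} {l : Filter α} [NeBot l] {F : α → ℝ} {L c ε : ℝ}
    (hL : Tendsto F l (𝓝 L)) (h : ∀ᶠ a in l, |F a - c| ≤ ε) : |L - c| ≤ ε :=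
  le_of_tendsto ((hL.sub_const c).abs) h

/-- `|log y - log L| ≤ ε` if `L ≤ y ≤ (1 + ε) L` -/
lemma log_close {L y ε : ℝ} (hL : 0 < L) (hε : 0 ≤ ε) (h1 : L ≤ y) (h2 : y ≤ (1 + ε) * L) :
    |Real.log y - Real.log L| ≤ ε := by
  have hy : 0 < y := hL.trans_le h1
  have h3 : Real.log L ≤ Real.log y := Real.log_le_log hL h1
  rw [abs_of_nonneg (by linarith)]
  have h4 : Real.log y ≤ Real.log (1 + ε) + Real.log L := by
    rw [← Real.log_mul (by positivity) hL.ne']
    exact Real.log_le_log hy h2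
  have h5 : Real.log (1 + ε) ≤ ε := by
    have := Real.log_le_sub_one_of_pos (show (0 : ℝ) < 1 + ε by positivity)
    linarith
  linarith

/-- eventual closeness of logarithms from convergence to a positive limit -/
lemma log_eventually {α : Type*} {l : Filter α} {F : α → ℝ} {r : ℝ} (hr : 0 < r)
    (h : Tendsto F l (𝓝 r)) {ε : ℝ} (hε : 0 < ε) :
    ∀ᶠ a in l, 0 < F a ∧ |Real.log (F a) - Real.log r| ≤ ε := by
  have h1 : Tendsto (fun a => Real.log (F a)) l (𝓝 (Real.log r)) := h.log hr.ne'
  have h2 : ∀ᶠ a in l, |Real.log (F a) - Real.log r| < ε := by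
    have := (Metric.tendsto_nhds.mp h1) ε hε
    simpa only [Real.dist_eq] using this
  filter_upwards [h.eventually (lt_mem_nhds hr), h2] with a ha hb
  exact ⟨ha, hb.le⟩

/-- **normalisation lemma** -/
theorem norm_lemma {α X : Type*} {l : Filter α} [NeBot l] (Z : α → X → ℝ) (s : α → ℝ)
    (Lam : X → ℝ) (hpos : ∀ x, 0 < Lam x)
    (hratio : ∀ x y, Tendsto (fun a => Z a x / Z a y) l (𝓝 (Lam x / Lam y)))
    (happ : ∀ ε > 0, ∃ x, ∃ L > 0, ∀ᶠ a in l, L ≤ s a * Z a x ∧ s a * Z a x ≤ (1 + ε) * L) :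
    ∃ c > 0, ∀ x, Tendsto (fun a => s a * Z a x) l (𝓝 (c * Lam x)) := by
  obtain ⟨x₀, L₀, hL₀, h₀⟩ := happ 1 one_pos
  obtain ⟨ℓ, hℓ⟩ : ∃ ℓ, Tendsto (fun a => Real.log (s a * Z a x₀)) l (𝓝 ℓ) := by
    refine tendsto_of_approx fun ε hε => ?_
    obtain ⟨x, L, hL, h⟩ := happ (ε / 2) (by positivity)
    set r := Lam x₀ / Lam x with hr
    have hr0 : 0 < r := div_pos (hpos _) (hpos _)
    refine ⟨Real.log r + Real.log L, ?_⟩
    filter_upwards [log_eventually hr0 (hratio x₀ x) (half_pos hε), h] with a h1 h2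
    have hZx : 0 < s a * Z a x := lt_of_lt_of_le hL h2.1
    have hne : Z a x ≠ 0 := fun h => by rw [h, mul_zero] at hZx; exact lt_irrefl _ hZx
    have e : s a * Z a x₀ = (Z a x₀ / Z a x) * (s a * Z a x) := by field_simp
    rw [e, Real.log_mul h1.1.ne' hZx.ne']
    have h3 := log_close hL (half_pos hε).le h2.1 h2.2
    have h4 : Real.log (Z a x₀ / Z a x) + Real.log (s a * Z a x) - (Real.log r + Real.log L)
        = (Real.log (Z a x₀ / Z a x) - Real.log r) + (Real.log (s a * Z a x) - Real.log L) := by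
      ring
    rw [h4]
    refine (abs_add_le _ _).trans ?_
    linarith [h1.2]
  have hx₀ : Tendsto (fun a => s a * Z a x₀) l (𝓝 (Real.exp ℓ)) := by
    refine (hℓ.rexp).congr' ?_
    filter_upwards [h₀] with a ha
    exact Real.exp_log (hL₀.trans_le ha.1)
  refine ⟨Real.exp ℓ / Lam x₀, div_pos (Real.exp_pos _) (hpos _), fun x => ?_⟩
  have h1 := (hratio x x₀).mul hx₀
  have h2 : Lam x / Lam x₀ * Real.exp ℓ = Real.exp ℓ / Lam x₀ * Lam x := by ring
  rw [h2] at h1
  refine h1.congr' ?_
  filter_upwards [h₀] with a ha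
  have hZx : 0 < s a * Z a x₀ := lt_of_lt_of_le hL₀ ha.1
  have hne : Z a x₀ ≠ 0 := fun h => by rw [h, mul_zero] at hZx; exact lt_irrefl _ hZx
  field_simp

/-- bounded additive homomorphisms vanish -/
lemma hom_trivial {f : ℝ → ℝ} (hadd : ∀ s t, f (s + t) = f s + f t) {M : ℝ}
    (hM : ∀ t, f t ≤ M) (t : ℝ) : f t = 0 := by
  have h0 : f 0 = 0 := by have := hadd 0 0; simp only [add_zero] at this; linarith
  have hn : ∀ (n : ℕ) (t : ℝ), f (n * t) = n * f t := by
    intro n t
    induction n with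
    | zero => simp [h0]
    | succ n ih =>
      have : ((n + 1 : ℕ) : ℝ) * t = n * t + t := by push_cast; ring
      rw [this, hadd, ih]; push_cast; ring
  have hle : ∀ t, f t ≤ 0 := by
    intro t
    by_contra hlt
    push_neg at hlt
    obtain ⟨n, hn'⟩ := exists_nat_gt (M / f t)
    rw [div_lt_iff₀ hlt] at hn'
    have := hM (n * t)
    rw [hn] at this
    linarith
  have hneg : f (-t) = -f t := by
    have := hadd t (-t)
    rw [add_neg_cancel, h0] at this
    linarith
  have h1 := hle t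
  have h2 := hle (-t)
  rw [hneg] at h2
  linarith

end Crest.Agent.R165.Nm1x697
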