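import Crest.Prelude.Def_PerturbedIsing
import Crest.Agent.R165.Nm1_697

/-!
# The plane two-point function (helper697, R165 block U5, step S2)

Everything is stated for abstract families: `P u` is the plane two-point function, `G R a u` the
plus two-point function of the spins at `0` and `u` in the disc of radius `R` at mesh `a`.
-/

set_option autoImplicit false
set_option linter.unusedVariables false

open Filter Topology
open Crest.ProbabilityR.IsingModel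
open Crest.Agent.R165.Nm1x697

namespace Crest.Agent.R165.Nm2x697

/-- `u a` approximates the point `w` as the mesh `a` tends to zero -/
def Ap (u : ℝ → ℤ × ℤ) (w : ℂ) : Prop := Tendsto (fun a => meshPoint a (u a)) (𝓝[>] 0) (𝓝 w)

lemma floor_mul_tendsto (x : ℝ) : Tendsto (fun a : ℝ => a * (⌊x / a⌋ : ℝ)) (𝓝[>] 0) (𝓝 x) := by
  have h1 : ∀ᶠ a : ℝ in 𝓝[>] 0, x - a ≤ a * (⌊x / a⌋ : ℝ) := by
    filter_upwards [self_mem_nhdsWithin] with a ha
    have ha' : (0 : ℝ) < a := ha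
    have h := (Int.sub_one_lt_floor (x / a)).le
    have h2 := mul_le_mul_of_nonneg_left h ha'.le
    have h3 : a * (x / a - 1) = x - a := by field_simp
    linarith
  have h2 : ∀ᶠ a : ℝ in 𝓝[>] 0, a * (⌊x / a⌋ : ℝ) ≤ x := by
    filter_upwards [self_mem_nhdsWithin] with a ha
    have ha' : (0 : ℝ) < a := ha
    have h := Int.floor_le (x / a)
    have h2 := mul_le_mul_of_nonneg_left h ha'.le
    have h3 : a * (x / a) = x := by field_simp
    linarith
  refine tendsto_of_tendsto_of_tendsto_of_le_of_le' (g := fun a => x - a) (h := fun _ => x) ?_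
    tendsto_const_nhds h1 h2
  have : Tendsto (fun a : ℝ => x - a) (𝓝 0) (𝓝 (x - 0)) := (continuous_const.sub continuous_id).tendsto 0
  rw [sub_zero] at this
  exact this.mono_left nhdsWithin_le_nhds

lemma ap_iff (u : ℝ → ℤ × ℤ) (w : ℂ) : Ap u w ↔
    Tendsto (fun a : ℝ => a * ((u a).1 : ℝ)) (𝓝[>] 0) (𝓝 w.re) ∧
    Tendsto (fun a : ℝ => a * ((u a).2 : ℝ)) (𝓝[>] 0) (𝓝 w.im) := by
  unfold Ap
  constructor
  · intro h
    exact ⟨(Complex.continuous_re.tendsto w).comp h, (Complex.continuous_im.tendsto w).comp h⟩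
  · rintro ⟨h1, h2⟩
    have h3 : Tendsto (fun a : ℝ => ((a * ((u a).1 : ℝ) : ℝ) : ℂ) + ((a * ((u a).2 : ℝ) : ℝ) : ℂ) * Complex.I)
        (𝓝[>] 0) (𝓝 ((w.re : ℂ) + (w.im : ℂ) * Complex.I)) :=
      ((Complex.continuous_ofReal.tendsto _).comp h1).add
        (((Complex.continuous_ofReal.tendsto _).comp h2).mul_const _)
    rw [Complex.re_add_im] at h3
    refine h3.congr fun a => ?_
    apply Complex.ext <;> simp [meshPoint]

lemma ap_mesh (w : ℂ) : Ap (fun a => meshIndex a w) w := by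
  rw [ap_iff]
  exact ⟨floor_mul_tendsto w.re, floor_mul_tendsto w.im⟩

/-- scaling of an approximating family -/
lemma Ap.scale {u : ℝ → ℤ × ℤ} {w : ℂ} (h : Ap u w) {s : ℝ} (hs : 0 < s) :
    Ap (fun a => u (a / s)) ((s : ℂ) * w) := by
  rw [ap_iff] at h ⊢
  have hd : Tendsto (fun a : ℝ => a / s) (𝓝[>] 0) (𝓝[>] 0) := by
    refine tendsto_nhdsWithin_of_tendsto_nhds_of_eventually_within _ ?_ ?_
    · have : Tendsto (fun a : ℝ => a / s) (𝓝 0) (𝓝 (0 / s)) := (continuous_id.div_const s).tendsto 0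
      rw [zero_div] at this
      exact this.mono_left nhdsWithin_le_nhds
    · filter_upwards [self_mem_nhdsWithin] with a ha
      exact div_pos ha hs
  have h1 := (h.1.comp hd).const_mul s
  have h2 := (h.2.comp hd).const_mul s
  constructor
  · have e : ((s : ℂ) * w).re = s * w.re := by simp
    rw [e]
    refine h1.congr fun a => ?_
    simp only [Function.comp]
    field_simp
  · have e : ((s : ℂ) * w).im = s * w.im := by simp
    rw [e]
    refine h2.congr fun a => ?_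
    simp only [Function.comp]
    field_simp

lemma log_merge {G P ε : ℝ} (hG : 0 < G) (h0 : 0 < ε) (hε : ε ≤ 1 / 2) (h1 : (1 - ε) * G ≤ P)
    (h2 : P ≤ G) : 0 < P ∧ |Real.log P - Real.log G| ≤ 2 * ε := by
  have hP : 0 < P := lt_of_lt_of_le (mul_pos (by linarith) hG) h1
  refine ⟨hP, ?_⟩
  have h3 := Real.log_le_log hP h2
  rw [abs_sub_comm, abs_of_nonneg (by linarith)]
  have h4 : Real.log G ≤ Real.log (1 + 2 * ε) + Real.log P := by
    rw [← Real.log_mul (by positivity) hP.ne']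
    refine Real.log_le_log hG ?_
    have : G ≤ (1 + 2 * ε) * ((1 - ε) * G) := by
      have : (1 + 2 * ε) * ((1 - ε) * G) = G + ε * (1 - 2 * ε) * G := by ring
      rw [this]
      have : 0 ≤ ε * (1 - 2 * ε) * G := by
        apply mul_nonneg (mul_nonneg h0.le (by linarith)) hG.le
      linarith
    exact this.trans (mul_le_mul_of_nonneg_left h1 (by positivity))
  have h5 : Real.log (1 + 2 * ε) ≤ 2 * ε := by
    have := Real.log_le_sub_one_of_pos (show (0 : ℝ) < 1 + 2 * ε by positivity)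
    linarith
  linarith

/-- the input of step S2 -/
structure Inp (P : ℤ × ℤ → ℝ) (G : ℝ → ℝ → ℤ × ℤ → ℝ) (Lam : ℝ → ℂ → ℝ) : Prop where
  nonneg : ∀ R a u, 0 ≤ G R a u
  pos : ∀ R : ℝ, 0 < R → ∀ w : ℂ, w ≠ 0 → ‖w‖ < R → 0 < Lam R w
  swap : ∀ u : ℤ × ℤ, P u.swap = P u
  ratio : ∀ R : ℝ, 0 < R → ∀ w w' : ℂ, w ≠ 0 → ‖w‖ < R → w' ≠ 0 → ‖w'‖ < R →
    ∀ u u' : ℝ → ℤ × ℤ, Ap u w → Ap u' w' →
      Tendsto (fun a => G R a (u a) / G R a (u' a)) (𝓝[>] 0) (𝓝 (Lam R w / Lam R w'))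
  rot : ∀ R : ℝ, 0 < R → ∀ c : ℂ, ‖c‖ = 1 → ∀ w w' : ℂ, w ≠ 0 → ‖w‖ < R → w' ≠ 0 → ‖w'‖ < R →
    Lam R (c * w) / Lam R (c * w') = Lam R w / Lam R w'
  merge : ∀ ε > (0 : ℝ), ∃ t₀ > (0 : ℝ), ∀ R : ℝ, 0 < R → ∀ w : ℂ, w ≠ 0 → ‖w‖ < t₀ * R →
    ∀ u : ℝ → ℤ × ℤ, Ap u w → ∀ᶠ a in 𝓝[>] (0 : ℝ), (1 - ε) * G R a (u a) ≤ P (u a) ∧
      P (u a) ≤ G R a (u a)
  wu : ∃ C > (0 : ℝ), Tendsto (fun n : ℕ => (n : ℝ) ^ ((1 : ℝ) / 4) * P ((n : ℤ), (n : ℤ))) atTop (𝓝 C)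

variable {P : ℤ × ℤ → ℝ} {G : ℝ → ℝ → ℤ × ℤ → ℝ} {Lam : ℝ → ℂ → ℝ}

/-- approximation of the log ratio of the plane function by the disc -/
lemma Inp.approx (h : Inp P G Lam) {ε : ℝ} (hε : 0 < ε) {ρ : ℝ} (hρ : 0 < ρ) :
    ∃ R₀ > 0, ∀ R > R₀, ∀ w w' : ℂ, w ≠ 0 → w' ≠ 0 → ‖w‖ ≤ ρ → ‖w'‖ ≤ ρ →
      ‖w‖ < R ∧ ‖w'‖ < R ∧ ∀ u u' : ℝ → ℤ × ℤ, Ap u w → Ap u' w' →
      ∀ᶠ a in 𝓝[>] (0 : ℝ), 0 < P (u a) ∧ 0 < P (u' a) ∧
        |(Real.log (P (u a)) - Real.log (P (u' a))) - Real.log (Lam R w / Lam R w')| ≤ ε := by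
  set δ := min (ε / 5) (1 / 2) with hδ
  have hδ0 : 0 < δ := lt_min (by positivity) (by norm_num)
  have hδ1 : δ ≤ 1 / 2 := min_le_right _ _
  have hδ2 : δ ≤ ε / 5 := min_le_left _ _
  obtain ⟨t₀, ht₀, hm⟩ := h.merge δ hδ0
  refine ⟨ρ / t₀ + ρ + 1, by positivity, fun R hR w w' hw hw' hwρ hwρ' => ?_⟩
  have h1 : ρ / t₀ < R := by linarith
  rw [div_lt_iff₀ ht₀] at h1
  have hq : 0 ≤ ρ / t₀ := by positivity
  have hR0 : 0 < R := by linarith
  have hwR : ‖w‖ < R := by linarith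
  have hwR' : ‖w'‖ < R := by linarith
  have hwt : ‖w‖ < t₀ * R := by linarith
  have hwt' : ‖w'‖ < t₀ * R := by linarith
  refine ⟨hwR, hwR', fun u u' hu hu' => ?_⟩
  have hr := h.ratio R hR0 w w' hw hwR hw' hwR' u u' hu hu'
  have hr0 : 0 < Lam R w / Lam R w' := div_pos (h.pos R hR0 w hw hwR) (h.pos R hR0 w' hw' hwR')
  filter_upwards [log_eventually hr0 hr hδ0, hm R hR0 w hw hwt u hu, hm R hR0 w' hw' hwt' u' hu']
    with a h2 h3 h4
  have hg := h.nonneg R a (u a)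
  have hg' := h.nonneg R a (u' a)
  have hne : G R a (u a) ≠ 0 := fun h5 => by
    have := h2.1; rw [h5, zero_div] at this; exact lt_irrefl _ this
  have hne' : G R a (u' a) ≠ 0 := fun h5 => by
    have := h2.1; rw [h5, div_zero] at this; exact lt_irrefl _ this
  have hgp : 0 < G R a (u a) := lt_of_le_of_ne hg hne.symm
  have hgp' : 0 < G R a (u' a) := lt_of_le_of_ne hg' hne'.symm
  obtain ⟨hp, hp2⟩ := log_merge hgp hδ0 hδ1 h3.1 h3.2
  obtain ⟨hp', hp2'⟩ := log_merge hgp' hδ0 hδ1 h4.1 h4.2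
  refine ⟨hp, hp', ?_⟩
  have h6 := h2.2
  rw [Real.log_div hne hne'] at h6
  have e : (Real.log (P (u a)) - Real.log (P (u' a))) - Real.log (Lam R w / Lam R w')
      = (Real.log (P (u a)) - Real.log (G R a (u a)))
        - (Real.log (P (u' a)) - Real.log (G R a (u' a)))
        + (Real.log (G R a (u a)) - Real.log (G R a (u' a)) - Real.log (Lam R w / Lam R w')) := by
    ring
  rw [e]
  refine (abs_add_le _ _).trans ?_
  have h7 := abs_sub (Real.log (P (u a)) - Real.log (G R a (u a)))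
    (Real.log (P (u' a)) - Real.log (G R a (u' a)))
  linarith

/-- limits of log ratios -/
lemma Inp.exists_limit (h : Inp P G Lam) :
    ∃ f : ℂ → ℂ → ℝ, (∀ w w' : ℂ, w ≠ 0 → w' ≠ 0 → ∀ u u' : ℝ → ℤ × ℤ, Ap u w → Ap u' w' →
      Tendsto (fun a => Real.log (P (u a)) - Real.log (P (u' a))) (𝓝[>] 0) (𝓝 (f w w'))) ∧
      ∀ ρ > (0 : ℝ), ∀ ε > (0 : ℝ), ∃ R₀ > (0 : ℝ), ∀ R > R₀, ∀ w w' : ℂ, w ≠ 0 → w' ≠ 0 →
        ‖w‖ ≤ ρ → ‖w'‖ ≤ ρ → ‖w‖ < R ∧ ‖w'‖ < R ∧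
        |f w w' - Real.log (Lam R w / Lam R w')| ≤ ε := by
  have key : ∀ w w' : ℂ, w ≠ 0 → w' ≠ 0 → ∃ L : ℝ,
      Tendsto (fun a : ℝ => Real.log (P (meshIndex a w)) - Real.log (P (meshIndex a w')))
        (𝓝[>] 0) (𝓝 L) := by
    intro w w' hw hw'
    refine tendsto_of_approx fun ε hε => ?_
    obtain ⟨R₀, hR₀, hR⟩ := h.approx hε (ρ := ‖w‖ + ‖w'‖) (by positivity)
    obtain ⟨_, _, h3⟩ := hR (R₀ + 1) (by linarith) w w' hw hw' (by simp) (by simp)
    exact ⟨_, (h3 _ _ (ap_mesh w) (ap_mesh w')).mono fun a ha => ha.2.2⟩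
  choose! f hf using key
  have happ : ∀ ρ > (0 : ℝ), ∀ ε > (0 : ℝ), ∃ R₀ > (0 : ℝ), ∀ R > R₀, ∀ w w' : ℂ, w ≠ 0 → w' ≠ 0 →
        ‖w‖ ≤ ρ → ‖w'‖ ≤ ρ → ‖w‖ < R ∧ ‖w'‖ < R ∧
        |f w w' - Real.log (Lam R w / Lam R w')| ≤ ε := by
    intro ρ hρ ε hε
    obtain ⟨R₀, hR₀, hR⟩ := h.approx hε hρ
    refine ⟨R₀, hR₀, fun R hRR w w' hw hw' hwρ hwρ' => ?_⟩
    obtain ⟨h1, h2, h3⟩ := hR R hRR w w' hw hw' hwρ hwρ'
    exact ⟨h1, h2, limit_close (hf w w' hw hw')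
      ((h3 _ _ (ap_mesh w) (ap_mesh w')).mono fun a ha => ha.2.2)⟩
  refine ⟨f, fun w w' hw hw' u u' hu hu' => ?_, happ⟩
  obtain ⟨L, hL⟩ : ∃ L, Tendsto (fun a => Real.log (P (u a)) - Real.log (P (u' a)))
      (𝓝[>] 0) (𝓝 L) := by
    refine tendsto_of_approx fun ε hε => ?_
    obtain ⟨R₀, hR₀, hR⟩ := h.approx hε (ρ := ‖w‖ + ‖w'‖) (by positivity)
    obtain ⟨_, _, h3⟩ := hR (R₀ + 1) (by linarith) w w' hw hw' (by simp) (by simp)
    exact ⟨_, (h3 _ _ hu hu').mono fun a ha => ha.2.2⟩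
  have : L = f w w' := by
    by_contra hne
    have hpos : 0 < |L - f w w'| := abs_pos.mpr (sub_ne_zero.mpr hne)
    obtain ⟨R₀, hR₀, hR⟩ := h.approx (ε := |L - f w w'| / 3) (by positivity)
      (ρ := ‖w‖ + ‖w'‖) (by positivity)
    obtain ⟨R₁, hR₁, hR'⟩ := happ (‖w‖ + ‖w'‖) (by positivity) (|L - f w w'| / 3) (by positivity)
    set R := max R₀ R₁ + 1 with hRd
    obtain ⟨_, _, h3⟩ := hR R (by rw [hRd]; linarith [le_max_left R₀ R₁]) w w' hw hw'
      (by simp) (by simp)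
    obtain ⟨_, _, h4⟩ := hR' R (by rw [hRd]; linarith [le_max_right R₀ R₁]) w w' hw hw'
      (by simp) (by simp)
    have h5 := limit_close hL ((h3 _ _ hu hu').mono fun a ha => ha.2.2)
    have h6 : |L - f w w'| ≤ |L - Real.log (Lam R w / Lam R w')|
        + |f w w' - Real.log (Lam R w / Lam R w')| := by
      have e : L - f w w' = (L - Real.log (Lam R w / Lam R w'))
        - (f w w' - Real.log (Lam R w / Lam R w')) := by ring
      rw [e]; exact abs_sub _ _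
    linarith
  rw [← this]; exact hL

/-- **plane two-point function** -/
theorem plane_two_point (h : Inp P G Lam) :
    ∃ C₀ > (0 : ℝ), ∀ w : ℂ, w ≠ 0 → ∀ u : ℝ → ℤ × ℤ, Ap u w →
      Tendsto (fun a : ℝ => a ^ (-(1 : ℝ) / 4) * P (u a)) (𝓝[>] 0)
        (𝓝 (C₀ * ‖w‖ ^ (-(1 : ℝ) / 4))) := by
  obtain ⟨f, hf, happ⟩ := h.exists_limit
  obtain ⟨C, hC, hwu⟩ := h.wu
  -- the diagonal reference point
  set d : ℂ := ⟨1, 1⟩ with hd
  have hd0 : d ≠ 0 := fun h => by simpa [hd] using congrArg Complex.re h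
  have hfloor : Tendsto (fun a : ℝ => ⌊(1 : ℝ) / a⌋.toNat) (𝓝[>] 0) atTop := by
    have h1 : Tendsto (fun a : ℝ => (1 : ℝ) / a) (𝓝[>] 0) atTop := by
      simpa only [one_div] using tendsto_inv_nhdsGT_zero
    have h2 : Tendsto (fun a : ℝ => ⌊(1 : ℝ) / a⌋) (𝓝[>] 0) atTop := tendsto_floor_atTop.comp h1
    refine tendsto_atTop.mpr fun n => ?_
    filter_upwards [h2.eventually_ge_atTop (n : ℤ)] with a ha
    omega
  have hdiag : Tendsto (fun a : ℝ => a ^ (-(1 : ℝ) / 4) * P (meshIndex a d)) (𝓝[>] 0) (𝓝 C) := by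
    have h1 := hwu.comp hfloor
    have h2 : Tendsto (fun a : ℝ => (a * (⌊(1 : ℝ) / a⌋ : ℝ)) ^ (-(1 : ℝ) / 4)) (𝓝[>] 0) (𝓝 1) := by
      have := (floor_mul_tendsto 1).rpow_const (p := -(1 : ℝ) / 4) (Or.inl one_ne_zero)
      rwa [Real.one_rpow] at this
    have h3 := h2.mul h1
    rw [one_mul] at h3
    refine h3.congr' ?_
    have hev : ∀ᶠ a : ℝ in 𝓝[>] 0, a ≤ 1 := by
      filter_upwards [Ioc_mem_nhdsGT (show (0 : ℝ) < 1 by norm_num)] with a ha
      exact ha.2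
    filter_upwards [self_mem_nhdsWithin, hev] with a ha ha1
    have ha' : (0 : ℝ) < a := ha
    have h4 : (1 : ℤ) ≤ ⌊(1 : ℝ) / a⌋ := by
      rw [Int.le_floor]
      rw [Int.cast_one, le_div_iff₀ ha']
      linarith
    have h5 : ((⌊(1 : ℝ) / a⌋.toNat : ℕ) : ℤ) = ⌊(1 : ℝ) / a⌋ := Int.toNat_of_nonneg (by omega)
    have h6 : ((⌊(1 : ℝ) / a⌋.toNat : ℕ) : ℝ) = (⌊(1 : ℝ) / a⌋ : ℝ) := by
      exact_mod_cast congrArg (Int.cast : ℤ → ℝ) h5
    have h7 : (0 : ℝ) < (⌊(1 : ℝ) / a⌋ : ℝ) := by exact_mod_cast (by omega : (0 : ℤ) < ⌊(1 : ℝ) / a⌋)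
    have h8 : meshIndex a d = (((⌊(1 : ℝ) / a⌋.toNat : ℕ) : ℤ), ((⌊(1 : ℝ) / a⌋.toNat : ℕ) : ℤ)) := by
      rw [h5]; simp [meshIndex, hd]
    simp only [Function.comp]
    rw [h8, h6, Real.mul_rpow ha'.le h7.le]
    have h9 : (⌊(1 : ℝ) / a⌋ : ℝ) ^ (-(1 : ℝ) / 4) * (⌊(1 : ℝ) / a⌋ : ℝ) ^ ((1 : ℝ) / 4) = 1 := by
      rw [← Real.rpow_add h7]; norm_num
    linear_combination (a ^ (-(1 : ℝ) / 4) *
      P (((⌊(1 : ℝ) / a⌋.toNat : ℕ) : ℤ), ((⌊(1 : ℝ) / a⌋.toNat : ℕ) : ℤ))) * h9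
  -- convergence everywhere
  have hconv : ∀ w : ℂ, w ≠ 0 → ∀ u : ℝ → ℤ × ℤ, Ap u w →
      Tendsto (fun a : ℝ => a ^ (-(1 : ℝ) / 4) * P (u a)) (𝓝[>] 0) (𝓝 (C * Real.exp (f w d))) := by
    intro w hw u hu
    have h1 := (hf w d hw hd0 u _ hu (ap_mesh d)).rexp
    have h2 := hdiag.mul h1
    refine h2.congr' ?_
    obtain ⟨R₀, hR₀, hR⟩ := h.approx one_pos (ρ := ‖w‖ + ‖d‖) (by positivity)
    obtain ⟨_, _, h3⟩ := hR (R₀ + 1) (by linarith) w d hw hd0 (by simp) (by simp)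
    filter_upwards [h3 _ _ hu (ap_mesh d)] with a ha
    rw [Real.exp_sub, Real.exp_log ha.1, Real.exp_log ha.2.1]
    have := ha.2.1.ne'
    field_simp
  set p : ℂ → ℝ := fun w => C * Real.exp (f w d) with hp
  have hp0 : ∀ w, 0 < p w := fun w => mul_pos hC (Real.exp_pos _)
  -- scaling
  have hscale : ∀ w : ℂ, w ≠ 0 → ∀ s : ℝ, 0 < s → p ((s : ℂ) * w) = s ^ (-(1 : ℝ) / 4) * p w := by
    intro w hw s hs
    have h1 := hconv _ (mul_ne_zero (Complex.ofReal_ne_zero.mpr hs.ne') hw) _ ((ap_mesh w).scale hs)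
    have hd : Tendsto (fun a : ℝ => a / s) (𝓝[>] 0) (𝓝[>] 0) := by
      refine tendsto_nhdsWithin_of_tendsto_nhds_of_eventually_within _ ?_ ?_
      · have : Tendsto (fun a : ℝ => a / s) (𝓝 0) (𝓝 (0 / s)) :=
          (continuous_id.div_const s).tendsto 0
        rw [zero_div] at this
        exact this.mono_left nhdsWithin_le_nhds
      · filter_upwards [self_mem_nhdsWithin] with a ha
        exact div_pos ha hs
    have h2 := ((hconv w hw _ (ap_mesh w)).comp hd).const_mul (s ^ (-(1 : ℝ) / 4))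
    refine tendsto_nhds_unique h1 (h2.congr' ?_)
    filter_upwards [self_mem_nhdsWithin] with a ha
    have ha' : (0 : ℝ) < a := ha
    simp only [Function.comp]
    rw [Real.div_rpow ha'.le hs.le]
    have : s ^ (-(1 : ℝ) / 4) ≠ 0 := (Real.rpow_pos_of_pos hs _).ne'
    field_simp
  -- cocycle
  have hcoc : ∀ w w' : ℂ, w ≠ 0 → w' ≠ 0 → f w w' = f w d - f w' d := by
    intro w w' hw hw'
    have h1 := hf w w' hw hw' _ _ (ap_mesh w) (ap_mesh w')
    have h2 := (hf w d hw hd0 _ _ (ap_mesh w) (ap_mesh d)).sub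
      (hf w' d hw' hd0 _ _ (ap_mesh w') (ap_mesh d))
    refine tendsto_nhds_unique h1 (h2.congr fun a => ?_)
    ring
  -- rotation
  have hrot : ∀ c : ℂ, ‖c‖ = 1 → ∀ w w' : ℂ, w ≠ 0 → w' ≠ 0 → f (c * w) (c * w') = f w w' := by
    intro c hc w w' hw hw'
    have hc0 : c ≠ 0 := by intro h0; rw [h0, norm_zero] at hc; exact one_ne_zero hc.symm
    by_contra hne
    have hpos : 0 < |f (c * w) (c * w') - f w w'| := abs_pos.mpr (sub_ne_zero.mpr hne)
    obtain ⟨R₀, hR₀, hR⟩ := happ (‖w‖ + ‖w'‖) (by positivity)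
      (|f (c * w) (c * w') - f w w'| / 3) (by positivity)
    set R := R₀ + 1 with hRd
    have hRpos : 0 < R := by rw [hRd]; linarith
    obtain ⟨h1, h2, h3⟩ := hR R (by rw [hRd]; linarith) w w' hw hw' (by simp) (by simp)
    obtain ⟨_, _, h4⟩ := hR R (by rw [hRd]; linarith) (c * w) (c * w') (mul_ne_zero hc0 hw)
      (mul_ne_zero hc0 hw') (by rw [norm_mul, hc, one_mul]; simp)
      (by rw [norm_mul, hc, one_mul]; simp)
    rw [h.rot R hRpos c hc w w' hw h1 hw' h2] at h4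
    have h6 : |f (c * w) (c * w') - f w w'| ≤ |f (c * w) (c * w') - Real.log (Lam R w / Lam R w')|
        + |f w w' - Real.log (Lam R w / Lam R w')| := by
      have e : f (c * w) (c * w') - f w w' = (f (c * w) (c * w') - Real.log (Lam R w / Lam R w'))
        - (f w w' - Real.log (Lam R w / Lam R w')) := by ring
      rw [e]; exact abs_sub _ _
    linarith
  have hunit : ∀ t : ℝ, Complex.exp (t * Complex.I) ≠ 0 := fun t => Complex.exp_ne_zero _
  have hnorm : ∀ t : ℝ, ‖Complex.exp (t * Complex.I)‖ = 1 := fun t => by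
    rw [Complex.norm_exp_ofReal_mul_I]
  have hcirc : ∀ t : ℝ, f (Complex.exp (t * Complex.I)) d = f 1 d := by
    set χ : ℝ → ℝ := fun t => f (Complex.exp (t * Complex.I)) d - f 1 d with hχ
    have hadd : ∀ s t, χ (s + t) = χ s + χ t := by
      intro s t
      have h1 : Complex.exp (((s + t : ℝ) : ℂ) * Complex.I)
          = Complex.exp (s * Complex.I) * Complex.exp (t * Complex.I) := by
        rw [← Complex.exp_add]; congr 1; push_cast; ring
      have h2 := hrot (Complex.exp (s * Complex.I)) (hnorm s) (Complex.exp (t * Complex.I)) 1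
        (hunit t) one_ne_zero
      rw [mul_one, hcoc _ _ (mul_ne_zero (hunit s) (hunit t)) (hunit s),
        hcoc _ _ (hunit t) one_ne_zero, ← h1] at h2
      simp only [hχ]
      linarith
    -- reflection in the diagonal
    have hsw : ∀ t, χ (Real.pi / 2 - t) = χ t := by
      intro t
      have h1 := hf _ d (hunit t) hd0 _ _ (ap_mesh (Complex.exp (t * Complex.I))) (ap_mesh d)
      have h2 : Ap (fun a => (meshIndex a (Complex.exp (t * Complex.I))).swap)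
          (Complex.exp (((Real.pi / 2 - t : ℝ) : ℂ) * Complex.I)) := by
        have h3 := (ap_iff _ _).1 (ap_mesh (Complex.exp (t * Complex.I)))
        rw [ap_iff]
        have e1 : (Complex.exp (((Real.pi / 2 - t : ℝ) : ℂ) * Complex.I)).re
            = (Complex.exp (t * Complex.I)).im := by
          rw [Complex.exp_ofReal_mul_I_re, Complex.exp_ofReal_mul_I_im, Real.cos_pi_div_two_sub]
        have e2 : (Complex.exp (((Real.pi / 2 - t : ℝ) : ℂ) * Complex.I)).im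
            = (Complex.exp (t * Complex.I)).re := by
          rw [Complex.exp_ofReal_mul_I_re, Complex.exp_ofReal_mul_I_im, Real.sin_pi_div_two_sub]
        rw [e1, e2]
        exact ⟨h3.2, h3.1⟩
      have h4 := hf _ d (hunit (Real.pi / 2 - t)) hd0 _ _ h2 (ap_mesh d)
      simp only [h.swap] at h4
      have h5 := tendsto_nhds_unique h4 h1
      simp only [hχ]
      rw [h5]
    intro t
    have h1 := hadd (Real.pi / 2 - t) t
    rw [sub_add_cancel, hsw] at h1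
    have h2 := hadd (Real.pi / 2 - 0) 0
    rw [hsw, sub_zero, add_zero] at h2
    have h0 : χ 0 = 0 := by have := hadd 0 0; rw [add_zero] at this; linarith
    have h3 : χ t = 0 := by linarith
    simp only [hχ] at h3
    linarith
  refine ⟨p 1, hp0 1, fun w hw u hu => ?_⟩
  have h1 := hconv w hw u hu
  have h2 : p w = p 1 * ‖w‖ ^ (-(1 : ℝ) / 4) := by
    have hwn : 0 < ‖w‖ := norm_pos_iff.mpr hw
    have e : w = (‖w‖ : ℂ) * Complex.exp (Complex.arg w * Complex.I) :=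
      (Complex.norm_mul_exp_arg_mul_I w).symm
    rw [e, hscale _ (hunit _) _ hwn]
    simp only [hp, hcirc]
    rw [norm_mul, hnorm, mul_one, Complex.norm_real, Real.norm_of_nonneg hwn.le]
    ring
  have h3 : C * Real.exp (f w d) = p 1 * ‖w‖ ^ (-(1 : ℝ) / 4) := h2
  rw [h3] at h1
  exact h1

end Crest.Agent.R165.Nm2x697
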