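import Mathlib

/-!
# Row 165, block R, task 56 (helper304): off-centre Reg1 as a composition lemma

`V` a space of fields, `A` the half-edge operator, four seminorms (l² seminorms on boxes)

* `Ns`  on `B(z, s)`,
* `Nr`  on `B(z, r/2)` (where the background is plane-like),
* `N2`  on `B(x, 2r)`,
* `NR`  on `B(x, ρ)`.

Bulk Reg1 on `B(z, r/2)` composed with centred Reg1 (exponent `α`) on `B(x, ρ)` gives
`Ns f ≤ C (s/r) (r/ρ)^α ∑ ρ^n NR (A^n f)`.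
-/

set_option autoImplicit false

noncomputable section

namespace Crest.Agent.R165.Off304

open Finset

variable {V : Type*} [AddCommGroup V] [Module ℝ V]

/-- `nn N A ρ M f = ∑_{n ≤ M} ρ^n N (A^n f)` -/
def nn (N : Seminorm ℝ V) (A : V →ₗ[ℝ] V) (ρ : ℝ) (M : ℕ) (f : V) : ℝ :=
  ∑ n ∈ range (M + 1), ρ ^ n * N ((A ^ n) f)

theorem nn_nonneg (N : Seminorm ℝ V) (A : V →ₗ[ℝ] V) {ρ : ℝ} (hρ : 0 ≤ ρ) (M : ℕ) (f : V) :
    0 ≤ nn N A ρ M f :=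
  sum_nonneg fun n _ => mul_nonneg (pow_nonneg hρ n) (apply_nonneg _ _)

theorem nn_mono_N {N N' : Seminorm ℝ V} (h : ∀ v, N v ≤ N' v) (A : V →ₗ[ℝ] V) {ρ : ℝ}
    (hρ : 0 ≤ ρ) (M : ℕ) (f : V) : nn N A ρ M f ≤ nn N' A ρ M f :=
  sum_le_sum fun n _ => mul_le_mul_of_nonneg_left (h _) (pow_nonneg hρ n)

theorem nn_mono_M (N : Seminorm ℝ V) (A : V →ₗ[ℝ] V) {ρ : ℝ} (hρ : 0 ≤ ρ) {M M' : ℕ}
    (hM : M ≤ M') (f : V) : nn N A ρ M f ≤ nn N A ρ M' f :=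
  sum_le_sum_of_subset_of_nonneg (range_mono (by omega))
    fun n _ _ => mul_nonneg (pow_nonneg hρ n) (apply_nonneg _ _)

theorem le_nn (N : Seminorm ℝ V) (A : V →ₗ[ℝ] V) {ρ : ℝ} (hρ : 0 ≤ ρ) {n M : ℕ}
    (hn : n ≤ M) (f : V) : ρ ^ n * N ((A ^ n) f) ≤ nn N A ρ M f :=
  single_le_sum (f := fun n => ρ ^ n * N ((A ^ n) f))
    (fun n _ => mul_nonneg (pow_nonneg hρ n) (apply_nonneg _ _)) (mem_range.2 (by omega))

/-- shifting: `ρ^i nn (A^i f) ≤ nn f` -/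
theorem nn_shift (N : Seminorm ℝ V) (A : V →ₗ[ℝ] V) {ρ : ℝ} (hρ : 0 ≤ ρ) (i M M' : ℕ)
    (h : i + M ≤ M') (f : V) : ρ ^ i * nn N A ρ M ((A ^ i) f) ≤ nn N A ρ M' f := by
  unfold nn
  rw [mul_sum]
  have h1 : ∀ n ∈ range (M + 1), ρ ^ i * (ρ ^ n * N ((A ^ n) ((A ^ i) f)))
      = ρ ^ (i + n) * N ((A ^ (i + n)) f) := by
    intro n _
    rw [add_comm i n, pow_add A n i, Module.End.mul_apply, pow_add]; ring
  rw [sum_congr rfl h1]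
  have h2 : ∑ n ∈ range (M + 1), ρ ^ (i + n) * N ((A ^ (i + n)) f)
      = ∑ m ∈ (range (M + 1)).map (addLeftEmbedding i), ρ ^ m * N ((A ^ m) f) := by
    rw [sum_map]; rfl
  rw [h2]
  refine sum_le_sum_of_subset_of_nonneg ?_
    fun n _ _ => mul_nonneg (pow_nonneg hρ n) (apply_nonneg _ _)
  intro m hm
  simp only [mem_map, mem_range, addLeftEmbedding_apply] at hm ⊢
  obtain ⟨n, hn, rfl⟩ := hm
  omega

/-- **off-centre Reg1** (composition of bulk Reg1 with centred Reg1) -/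
theorem offcentre (A : V →ₗ[ℝ] V) (Ns Nr N2 NR : Seminorm ℝ V) (a b : ℕ)
    {K K' r ρ t : ℝ} (hr : 0 ≤ r) (hrρ : r ≤ ρ) (hK : 0 ≤ K)
    (hmono : ∀ v, Nr v ≤ N2 v)
    (hbulk : ∀ f, Ns f ≤ K * nn Nr A r a f)
    (hcent : ∀ f, N2 f ≤ K' * nn NR A ρ b f) (hK' : 0 ≤ K')
    (ht : t = (a + 1) * (K * K')) (f : V) :
    Ns f ≤ t * nn NR A ρ (a + b) f := by
  have hρ : 0 ≤ ρ := hr.trans hrρ
  have h1 : nn Nr A r a f ≤ nn N2 A r a f := nn_mono_N hmono A hr a f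
  have h2 : nn N2 A r a f ≤ ∑ n ∈ range (a + 1), K' * nn NR A ρ (a + b) f := by
    refine sum_le_sum fun n hn => ?_
    have hn' : n ≤ a := by simp only [mem_range] at hn; omega
    have h3 : r ^ n ≤ ρ ^ n := pow_le_pow_left₀ hr hrρ n
    have h4 := hcent ((A ^ n) f)
    have h5 := nn_shift NR A hρ n b (a + b) (by omega) f
    calc r ^ n * N2 ((A ^ n) f) ≤ ρ ^ n * N2 ((A ^ n) f) :=
          mul_le_mul_of_nonneg_right h3 (apply_nonneg _ _)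
      _ ≤ ρ ^ n * (K' * nn NR A ρ b ((A ^ n) f)) :=
          mul_le_mul_of_nonneg_left h4 (pow_nonneg hρ n)
      _ = K' * (ρ ^ n * nn NR A ρ b ((A ^ n) f)) := by ring
      _ ≤ K' * nn NR A ρ (a + b) f := mul_le_mul_of_nonneg_left h5 hK'
  rw [sum_const, card_range, nsmul_eq_mul] at h2
  calc Ns f ≤ K * nn Nr A r a f := hbulk f
    _ ≤ K * (((a + 1 : ℕ) : ℝ) * (K' * nn NR A ρ (a + b) f)) :=
        mul_le_mul_of_nonneg_left (h1.trans h2) hK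
    _ = t * nn NR A ρ (a + b) f := by rw [ht]; push_cast; ring

/-- off-centre Reg1 in the form `|f|_{B(z,s)} ≤ C (s/r) (r/ρ)^α nn_ρ f`, real exponent. -/
theorem offcentre' (A : V →ₗ[ℝ] V) (Ns Nr N2 NR : Seminorm ℝ V) (a b : ℕ)
    {C C' s r ρ α : ℝ} (hs : 0 ≤ s) (hr : 0 < r) (hrρ : r ≤ ρ) (hC : 0 ≤ C) (hC' : 0 ≤ C')
    (hmono : ∀ v, Nr v ≤ N2 v)
    (hbulk : ∀ f, Ns f ≤ C * (s / r) * nn Nr A r a f)
    (hcent : ∀ f, N2 f ≤ C' * (r / ρ) ^ α * nn NR A ρ b f) (f : V) :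
    Ns f ≤ ((a + 1) * C * C') * (s / r) * (r / ρ) ^ α * nn NR A ρ (a + b) f := by
  have hρ : 0 < ρ := hr.trans_le hrρ
  refine offcentre A Ns Nr N2 NR a b hr.le hrρ (K := C * (s / r)) (K' := C' * (r / ρ) ^ α)
    (by positivity) hmono hbulk hcent (by positivity) (by ring) f

/-- exponent one half: `|f|_{B(z,s)} ≤ C s / (r ρ)^{1/2}` -/
theorem half_form {s r ρ : ℝ} (hr : 0 < r) (hρ : 0 < ρ) :
    (s / r) * (r / ρ) ^ (1 / 2 : ℝ) = s / (r * ρ) ^ (1 / 2 : ℝ) := by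
  rw [Real.div_rpow hr.le hρ.le, Real.mul_rpow hr.le hρ.le]
  have h1 : r = r ^ (1 / 2 : ℝ) * r ^ (1 / 2 : ℝ) := by
    rw [← Real.rpow_add hr]; norm_num
  have hr' : 0 < r ^ (1 / 2 : ℝ) := Real.rpow_pos_of_pos hr _
  have hρ' : 0 < ρ ^ (1 / 2 : ℝ) := Real.rpow_pos_of_pos hρ _
  field_simp
  rw [pow_two, ← h1]

theorem one_form {s r ρ : ℝ} (hr : 0 < r) (hρ : 0 < ρ) :
    (s / r) * (r / ρ) = s / ρ := by
  field_simp

end Crest.Agent.R165.Off304
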