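import Crest.Agent.R165.Cl7e_999

/-!
# Row 165, plane clause: outgoing fields around a neutral cluster (helper999)

* `liou`      : a solution of the plane equation vanishing at infinity is zero
* `ClG`       : global cluster background (weights `± x_c`, plane up to a gauge off `bx x R`)
* `out_bound` : `φ → 0`, `A w φ = 0` off `bx x R` imply `NB x (4R) φ ≤ C R NB x R (A w φ)` and
  `|φ(f)|² ≤ C (R/|f-x|)² NB x R (A w φ)²` for `|f-x| ≥ 8R`, ABSOLUTE constant
-/

set_option autoImplicit false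

noncomputable section

namespace Crest.Agent.R165.OutBx999

open Finset Filter Topology Crest.Agent.R165.Tr1x40 Crest.Agent.R165.Schurx811
  Crest.Agent.R165.Cl7x999

/-- vanishing at infinity, with squares and natural distances -/
def Van (o : Face) (φ : Fld) : Prop :=
  ∀ ε : ℝ, 0 < ε → ∃ N : ℕ, ∀ f, N < dd f o → nsq (φ f) ≤ ε

theorem van_of_tendsto {φ : Fld} (o : Face)
    (h : Tendsto (fun g : Face × Fin 4 => φ g.1 g.2) cofinite (𝓝 0)) : Van o φ := by
  intro ε hε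
  have h1 : ∀ᶠ g : Face × Fin 4 in cofinite, |φ g.1 g.2| < Real.sqrt (ε / 4) := by
    have := (tendsto_order.1 h.abs).2 (Real.sqrt (ε / 4)) (by
      rw [abs_zero]; positivity)
    exact this
  rw [Filter.eventually_cofinite] at h1
  refine ⟨h1.toFinset.sup fun g => dd g.1 o, fun f hf => ?_⟩
  have h2 : ∀ a, φ f a ^ 2 ≤ ε / 4 := by
    intro a
    by_contra hc
    have h3 : (f, a) ∈ h1.toFinset := by
      rw [Set.Finite.mem_toFinset]
      intro h4
      apply hc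
      have h5 : |φ f a| ≤ Real.sqrt (ε / 4) := h4.le
      rw [← sq_abs, ← Real.sq_sqrt (by positivity : (0 : ℝ) ≤ ε / 4)]
      exact pow_le_pow_left₀ (abs_nonneg _) h5 2
    have h4 := Finset.le_sup (f := fun g : Face × Fin 4 => dd g.1 o) h3
    simp only at h4
    omega
  calc nsq (φ f) = ∑ a, φ f a ^ 2 := rfl
    _ ≤ ∑ _a : Fin 4, ε / 4 := sum_le_sum fun a _ => h2 a
    _ = ε := by simp; ring

theorem Van.add {o : Face} {φ ψ : Fld} (h1 : Van o φ) (h2 : Van o ψ) : Van o (φ + ψ) := by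
  intro ε hε
  obtain ⟨N1, hN1⟩ := h1 (ε / 4) (by positivity)
  obtain ⟨N2, hN2⟩ := h2 (ε / 4) (by positivity)
  refine ⟨max N1 N2, fun f hf => ?_⟩
  have a1 := hN1 f (lt_of_le_of_lt (le_max_left _ _) hf)
  have a2 := hN2 f (lt_of_le_of_lt (le_max_right _ _) hf)
  have a3 := nsq_add_le (φ f) (ψ f)
  have e : (φ + ψ) f = φ f + ψ f := rfl
  rw [e]
  linarith

/-- **Liouville**: a solution of the plane equation which vanishes at infinity is zero -/
theorem liou {o : Face} {F : Fld} (hF : A wc F = 0) (hv : Van o F) : F = 0 := by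
  set C : ℝ := 102400 * (4000000 : ℝ) ^ 2 + 100 with hC
  have hC0 : 0 < C := by rw [hC]; positivity
  funext f
  show F f = (0 : Fin 4 → ℝ)
  rw [← RIfx891.nsq_eq_zero (p := F f)]
  set s : ℕ := dd f o with hs
  have hs0 : (0 : ℝ) ≤ s := Nat.cast_nonneg s
  have hf : nsq (F f) ≤ E2 (bx o s) F :=
    single_le_sum (f := fun f => nsq (F f)) (fun _ _ => nsq_nonneg _) (by rw [mem_bx])
  have key : ∀ ε : ℝ, 0 < ε → nsq (F f) ≤ (5 * C * (s + 1) ^ 2) * ε := by
    intro ε hε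
    obtain ⟨N, hN⟩ := hv ε hε
    obtain ⟨r0, hr0⟩ := exists_nat_ge (E2 (bx o N) F / ε)
    set r : ℕ := max (max s N) r0 with hr
    have hsr : s ≤ r := (le_max_left _ _).trans (le_max_left _ _)
    have hNr : N ≤ r := (le_max_right _ _).trans (le_max_left _ _)
    have hr0r : (r0 : ℝ) ≤ r := by exact_mod_cast le_max_right _ _
    have hrp : (0 : ℝ) ≤ r := Nat.cast_nonneg r
    have h1 := interior0 o s r hsr F (fun f _ => by rw [hF]; rfl)
    have h2 : E2 (bx o r) F ≤ 5 * ε * (r + 1) ^ 2 := by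
      rw [E2_split (bx_mono o hNr) F]
      have h3 : E2 (bx o r \ bx o N) F ≤ ε * (4 * (r + 1) ^ 2) := by
        calc E2 (bx o r \ bx o N) F ≤ ∑ _f ∈ bx o r \ bx o N, ε := by
              refine sum_le_sum fun f hf => hN f ?_
              rw [Finset.mem_sdiff, mem_bx, mem_bx] at hf
              omega
          _ ≤ ∑ _f ∈ bx o r, ε :=
              sum_le_sum_of_subset_of_nonneg sdiff_subset fun _ _ _ => hε.le
          _ = (bx o r).card * ε := by rw [sum_const, nsmul_eq_mul]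
          _ ≤ ε * (4 * (r + 1) ^ 2) := by
              rw [mul_comm]
              exact mul_le_mul_of_nonneg_left (card_bx o r) hε.le
      have h4 : E2 (bx o N) F ≤ ε * (r + 1) ^ 2 := by
        have h5 : E2 (bx o N) F / ε ≤ r := hr0.trans hr0r
        rw [div_le_iff₀ hε] at h5
        have h6 : (r : ℝ) ≤ (r + 1) ^ 2 := by nlinarith
        have h7 := mul_le_mul_of_nonneg_left h6 hε.le
        linarith
      linarith
    calc nsq (F f) ≤ C * (((s : ℝ) + 1) / (r + 1)) ^ 2 * E2 (bx o r) F := hf.trans h1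
      _ ≤ C * (((s : ℝ) + 1) / (r + 1)) ^ 2 * (5 * ε * (r + 1) ^ 2) := by gcongr
      _ = (5 * C * (s + 1) ^ 2) * ε := by field_simp
  by_contra hne
  have hpos : 0 < nsq (F f) := lt_of_le_of_ne (nsq_nonneg _) (Ne.symm hne)
  have hK : 0 < 5 * C * ((s : ℝ) + 1) ^ 2 := by positivity
  have := key (nsq (F f) / (2 * (5 * C * (s + 1) ^ 2))) (by positivity)
  have e : (5 * C * ((s : ℝ) + 1) ^ 2) * (nsq (F f) / (2 * (5 * C * (s + 1) ^ 2))) =
      nsq (F f) / 2 := by field_simp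
  rw [e] at this
  linarith

theorem van_cv {c : ℝ} (P : PK c) (o : Face) (m : ℕ) (ε : Fld) : Van o (cv P.K (bx o m) ε) := by
  intro δ hδ
  have hE := E2_nonneg (bx o m) ε
  obtain ⟨N, hN⟩ := exists_nat_ge (256 * c ^ 2 * (m + 1) ^ 2 * E2 (bx o m) ε / δ)
  refine ⟨max N (2 * m), fun f hf => ?_⟩
  have h1 := nsq_cv_far P o m ε f (by
    have := le_max_right N (2 * m); omega)
  refine h1.trans ?_
  have h2 : (N : ℝ) ≤ dd f o := by
    have := le_max_left N (2 * m)
    exact_mod_cast (by omega : N ≤ dd f o)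
  have h3 : (0 : ℝ) ≤ dd f o := Nat.cast_nonneg _
  rw [div_mul_eq_mul_div, div_le_iff₀ (by positivity)]
  rw [div_le_iff₀ hδ] at hN
  nlinarith [mul_nonneg hδ.le h3, mul_nonneg hδ.le (mul_nonneg h3 h3)]

theorem Van.congr_far {o : Face} {φ ψ : Fld} (h : Van o φ) (M : ℕ)
    (he : ∀ f, M < dd f o → ψ f = φ f) : Van o ψ := by
  intro ε hε
  obtain ⟨N, hN⟩ := h ε hε
  refine ⟨max N M, fun f hf => ?_⟩
  rw [he f (lt_of_le_of_lt (le_max_right _ _) hf)]
  exact hN f (lt_of_le_of_lt (le_max_left _ _) hf)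

/-- the plane-regular part of an outgoing field is zero -/
theorem freg_eq_zero {c : ℝ} (P : PK c) {w : Fld} {o : Face} {R : ℕ} (hR : 1 ≤ R)
    (hw : Clu w o R) {φ : Fld} (hv : Van o φ) (hA : ∀ f, R < dd f o → A w φ f = 0) :
    Freg P w o R φ = 0 := by
  apply liou (o := o)
  · rw [A_Freg P hw hR]
    funext f h
    by_cases hf : R < dd f o
    · rw [show sm (ci (chi o R)) (A w φ) f h = ci (chi o R) f * A w φ f h from rfl, hA f hf]
      simp
    · rw [show sm (ci (chi o R)) (A w φ) f h = ci (chi o R) f * A w φ f h from rfl]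
      have : chi o R f = 1 := cut_eq_one (by omega) (by omega)
      simp [ci, this]
  · unfold Freg
    refine Van.add (hv.congr_far (4 * R) fun f hf => ?_) (van_cv P o _ _)
    funext h
    have : chi o R f = 0 := cut_eq_zero (by omega)
    simp [sm, ci, this]

/-- outgoing fields, natural radii -/
theorem out_clu : ∃ C : ℝ, 0 < C ∧ ∀ (w : Fld) (o : Face) (R : ℕ), 1 ≤ R → Clu w o R →
    ∀ φ : Fld, Van o φ → (∀ f, R < dd f o → A w φ f = 0) →
      E2 (bx o (8 * R)) φ ≤ C * (R : ℝ) ^ 2 * E2 (bx o R) (A w φ) ∧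
      ∀ f, 8 * R ≤ dd f o →
        nsq (φ f) ≤ C * ((R : ℝ) / dd f o) ^ 2 * E2 (bx o R) (A w φ) := by
  obtain ⟨CK, hCK, hK⟩ := K0
  refine ⟨CK * (1 + 1600 * (4000000 : ℝ) ^ 2), by positivity, ?_⟩
  intro w o R hR hw φ hv hA
  have hRr : (1 : ℝ) ≤ R := by exact_mod_cast hR
  have hF := freg_eq_zero pk0 hR hw hv hA
  have hE := E2_nonneg (bx o R) (A w φ)
  have e1 : E2 (bx o (8 * R)) (A w φ) = E2 (bx o R) (A w φ) :=
    E2_of_supp (bx_mono o (by omega)) fun f hf => hA f (by rw [mem_bx] at hf; omega)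
  have h1 := hK w o R hR hw φ
  rw [hF, e1] at h1
  have e2 : E2 (bx o (8 * R)) (0 : Fld) = 0 := by
    unfold E2
    exact sum_eq_zero fun f _ => nsq_zero
  rw [e2, zero_add] at h1
  refine ⟨h1.trans ?_, ?_⟩
  · have h2 : 0 ≤ CK * ((R : ℝ) ^ 2 * E2 (bx o R) (A w φ)) := by positivity
    nlinarith
  · intro f hf
    have hdd : (8 : ℝ) * R ≤ dd f o := by exact_mod_cast hf
    have hd0 : (0 : ℝ) < dd f o := by linarith
    have h3 : φ f = -cv (pk0).K (bx o (4 * R)) (eps w o R φ) f := by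
      have h4 := congrFun hF f
      have h5 : chi o R f = 0 := cut_eq_zero (by omega)
      funext a
      have h6 := congrFun h4 a
      simp only [Freg, Pi.add_apply, sm, ci, h5, sub_zero, one_mul, Pi.zero_apply] at h6
      simp only [Pi.neg_apply]
      linarith
    have h4 := nsq_cv_far pk0 o (4 * R) (eps w o R φ) f (by omega)
    have h5 := E2_eps hw hR φ
    have h6 : nsq (φ f) = nsq (cv (pk0).K (bx o (4 * R)) (eps w o R φ) f) := by
      rw [h3]
      unfold nsq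
      exact sum_congr rfl fun a _ => by simp
    rw [h6]
    refine h4.trans ?_
    have h7 : E2 (bx o (4 * R)) (eps w o R φ)
        ≤ (1 / (2 * R : ℕ)) ^ 2 * (CK * ((R : ℝ) ^ 2 * E2 (bx o R) (A w φ))) :=
      h5.trans (mul_le_mul_of_nonneg_left h1 (by positivity))
    have h8 : (((2 * R : ℕ) : ℝ)) = 2 * R := by push_cast; ring
    have h9 : (((4 * R : ℕ) : ℝ)) = 4 * R := by push_cast; ring
    rw [h8] at h7
    rw [h9]
    have h10 : 256 * (4000000 : ℝ) ^ 2 * (4 * R + 1) ^ 2 / ((dd f o : ℝ) + 1) ^ 2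
        ≤ 256 * (4000000 : ℝ) ^ 2 * (5 * R) ^ 2 / (dd f o : ℝ) ^ 2 := by
      gcongr
      · linarith
      · linarith
    calc 256 * (4000000 : ℝ) ^ 2 * (4 * R + 1) ^ 2 / ((dd f o : ℝ) + 1) ^ 2
          * E2 (bx o (4 * R)) (eps w o R φ)
        ≤ 256 * (4000000 : ℝ) ^ 2 * (5 * R) ^ 2 / (dd f o : ℝ) ^ 2 *
          ((1 / (2 * R)) ^ 2 * (CK * ((R : ℝ) ^ 2 * E2 (bx o R) (A w φ)))) :=
          mul_le_mul h10 h7 (E2_nonneg _ _) (by positivity)
      _ = (CK * (1600 * (4000000 : ℝ) ^ 2)) * ((R : ℝ) / dd f o) ^ 2 * E2 (bx o R) (A w φ) := by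
          field_simp; ring
      _ ≤ CK * (1 + 1600 * (4000000 : ℝ) ^ 2) * ((R : ℝ) / dd f o) ^ 2 *
          E2 (bx o R) (A w φ) := by
          gcongr; linarith

/-- global cluster background -/
structure ClG (w : Fld) (s : Face → ℝ) (x : Face) (R : ℝ) : Prop where
  sym : Sym w
  gauge : RIfx891.Gauge s
  sq : ∀ f h, w f h ^ 2 = xc ^ 2
  out : ∀ f, f ∉ RIfx891.bx x R → ∀ h, w f h = s f * s (nb f h) * xc

theorem ClG.mono {w : Fld} {s : Face → ℝ} {x : Face} {R R' : ℝ} (h : R ≤ R')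
    (H : ClG w s x R) : ClG w s x R' :=
  ⟨H.sym, H.gauge, H.sq, fun f hf => H.out f fun hc => hf (RIfx891.bx_mono x h hc)⟩

theorem ClG.clAt {w : Fld} {s : Face → ℝ} {x : Face} {R : ℝ} (H : ClG w s x R) (z : Face)
    (ρ : ℝ) : ClAt w s x R z ρ := ⟨H.sym, H.gauge, fun f _ => H.sq f, fun f _ => H.out f⟩

/-- gauge transformed weights -/
def gt (s : Face → ℝ) (w : Fld) : Fld := fun f h => s f * s (nb f h) * w f h

theorem ClG.clu {w : Fld} {s : Face → ℝ} {x : Face} {R : ℝ} (H : ClG w s x R) (hR : 0 ≤ R) :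
    Clu (gt s w) x ⌊R⌋₊ := by
  have hs := H.gauge
  refine ⟨?_, ?_, ?_⟩
  · intro f h
    unfold gt
    rw [nb_nb_op, H.sym f h]; ring
  · intro f h
    unfold gt
    rw [mul_pow, mul_pow, hs f, hs (nb f h), H.sq]; ring
  · intro f h hf
    unfold gt
    rw [H.out f (by rw [mem_rbx hR]; omega) h]
    linear_combination (s (nb f h) ^ 2 * xc) * hs f + xc * hs (nb f h)

theorem A_gt {w : Fld} {s : Face → ℝ} (hs : RIfx891.Gauge s) (φ : Fld) (f : Face) :
    A (gt s w) (RIfx891.gm s φ) f = fun h => s f * A w φ f h :=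
  RIfx891.A_gm (w := gt s w) (w' := w) hs (f := f) (fun _ => rfl) φ

/-- **outgoing fields around a neutral cluster**, absolute constant -/
theorem out_bound : ∃ C : ℝ, 0 < C ∧ ∀ (w : Fld) (s : Face → ℝ) (x : Face) (R : ℝ), 1 ≤ R →
    ClG w s x R → ∀ φ : Fld, Tendsto (fun g : Face × Fin 4 => φ g.1 g.2) cofinite (𝓝 0) →
      (∀ f, f ∉ RIfx891.bx x R → A w φ f = 0) →
      RIfx891.NB x (4 * R) φ ≤ C * R * RIfx891.NB x R (A w φ) ∧
      ∀ f, 8 * R ≤ dd f x →
        nsq (φ f) ≤ (C * (R / dd f x) * RIfx891.NB x R (A w φ)) ^ 2 := by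
  obtain ⟨C, hC, h0⟩ := out_clu
  refine ⟨Real.sqrt C, Real.sqrt_pos.2 hC, ?_⟩
  intro w s x R hR H φ hφ hA
  have hR0 : 0 ≤ R := by linarith
  have hs := H.gauge
  set n : ℕ := ⌊R⌋₊ with hn
  have hn1 : 1 ≤ n := Nat.le_floor (by simpa using hR)
  have hn1' : (1 : ℝ) ≤ n := by exact_mod_cast hn1
  have hnR : (n : ℝ) ≤ R := Nat.floor_le hR0
  have hRn : R < n + 1 := Nat.lt_floor_add_one R
  have hv : Van x (RIfx891.gm s φ) := by
    intro ε hε
    obtain ⟨N, hN⟩ := van_of_tendsto x hφ ε hε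
    exact ⟨N, fun f hf => by rw [RIfx891.nsq_gm hs]; exact hN f hf⟩
  have hA' : ∀ f, n < dd f x → A (gt s w) (RIfx891.gm s φ) f = 0 := by
    intro f hf
    rw [A_gt hs, hA f (by rw [mem_rbx hR0]; omega)]
    funext h; simp
  obtain ⟨h1, h2⟩ := h0 (gt s w) x n hn1 (H.clu hR0) (RIfx891.gm s φ) hv hA'
  have e1 : ∀ k : ℕ, E2 (bx x k) (RIfx891.gm s φ) = E2 (bx x k) φ := fun k =>
    sum_congr rfl fun f _ => RIfx891.nsq_gm hs φ f
  have e2 : E2 (bx x n) (A (gt s w) (RIfx891.gm s φ)) = E2 (bx x n) (A w φ) := by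
    refine sum_congr rfl fun f _ => ?_
    rw [A_gt hs]
    exact RIfx891.nsq_gm hs (A w φ) f
  have hN : 0 ≤ RIfx891.NB x R (A w φ) := apply_nonneg _ _
  have hsq : Real.sqrt C ^ 2 = C := Real.sq_sqrt hC.le
  rw [e1, e2] at h1
  simp only [e2, RIfx891.nsq_gm hs] at h2
  have e3 : RIfx891.NB x R (A w φ) ^ 2 = E2 (bx x n) (A w φ) := NB_sq_E2 x hR0 _
  rw [← e3] at h1 h2
  constructor
  · apply sq_le_sq_of (by positivity)
    rw [NB_sq_E2 x (by linarith) φ]
    have h3 : ⌊4 * R⌋₊ ≤ 8 * n := by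
      have h4 : (⌊4 * R⌋₊ : ℝ) ≤ 4 * R := Nat.floor_le (by linarith)
      have h5 : (⌊4 * R⌋₊ : ℝ) ≤ ((8 * n : ℕ) : ℝ) := by push_cast; linarith
      exact_mod_cast h5
    refine ((E2_mono (bx_mono x h3) φ).trans h1).trans ?_
    rw [mul_pow, mul_pow, hsq]
    gcongr
  · intro f hf
    have h3 : 8 * n ≤ dd f x := by
      have : ((8 * n : ℕ) : ℝ) ≤ dd f x := by push_cast; linarith
      exact_mod_cast this
    refine (h2 f h3).trans ?_
    rw [mul_pow, mul_pow, hsq]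
    gcongr

/-- uniqueness: an outgoing field without source is zero -/
theorem uniq0 {w : Fld} {s : Face → ℝ} {x : Face} {R : ℝ} (hR : 1 ≤ R) (H : ClG w s x R)
    {φ : Fld} (hφ : Tendsto (fun g : Face × Fin 4 => φ g.1 g.2) cofinite (𝓝 0))
    (hA : A w φ = 0) : φ = 0 := by
  obtain ⟨C, hC, h0⟩ := out_bound
  funext f
  have hd : f ∈ RIfx891.bx x (4 * (R + dd f x)) := by
    rw [mem_rbx (by positivity)]
    apply Nat.le_floor
    have : (0 : ℝ) ≤ dd f x := Nat.cast_nonneg _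
    linarith
  have h1 := (h0 w s x (R + dd f x) (by
    have : (0 : ℝ) ≤ dd f x := Nat.cast_nonneg _
    linarith) (H.mono (by
    have : (0 : ℝ) ≤ dd f x := Nat.cast_nonneg _
    linarith)) φ hφ (fun g _ => by rw [hA]; rfl)).1
  rw [hA, map_zero, mul_zero] at h1
  have h2 : RIfx891.NB x (4 * (R + dd f x)) φ = 0 := le_antisymm h1 (apply_nonneg _ _)
  rw [RIfx891.NB_eq_zero] at h2
  exact h2 f hd

end Crest.Agent.R165.OutBx999
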