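import Crest.Agent.R165.OutB_999
import Crest.Agent.R165.Mac0_622

/-!
# Row 165, plane clause: the rays of an even number of branch points are a neutral cluster
(helper999)

* `sgR`, `clG_rays` : explicit gauge; `ClG (rays V * x_c) (sgR ..) x R`
* `out_rays`        : `out_bound` for `w = rays V * x_c`
-/

set_option autoImplicit false

noncomputable section

namespace Crest.Agent.R165.OutBx999

open Finset Filter Topology Crest.Agent.R165.Tr1x40 Crest.Agent.R165.Schurx811
  Crest.Agent.R165.Cl7x999
open Crest.Agent.R165.Mac0x622 (rays)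
open Crest.Agent.R165.RIfx891 (rayw)

/-- the gauge: trivial to the left of the column `N` -/
def sgR {n : ℕ} (N : ℤ) (V : Fin n → Face) (f : Face) : ℝ :=
  if N ≤ f.1 then ∏ i, (if (V i).2 ≤ f.2 then -1 else 1) else 1

theorem gauge_sgR {n : ℕ} (N : ℤ) (V : Fin n → Face) : RIfx891.Gauge (sgR N V) := by
  intro f
  unfold sgR
  split_ifs
  · rw [← Finset.prod_pow]
    exact Finset.prod_eq_one fun i _ => by split_ifs <;> norm_num
  · norm_num

theorem rays_sq {n : ℕ} (V : Fin n → Face) (f : Face) (h : Fin 4) : rays V f h ^ 2 = 1 := by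
  unfold rays
  rw [← Finset.prod_pow]
  exact Finset.prod_eq_one fun i _ => RIfx891.rayw_sq _ _ _

theorem sym_rayw (v f : Face) (h : Fin 4) : rayw v (nb f h) (op h) = rayw v f h := by
  unfold rayw
  fin_cases h <;> simp [nb, op]

theorem sym_rays {n : ℕ} (V : Fin n → Face) : Sym (fun f h => rays V f h * xc) := by
  intro f h
  simp only [rays]
  congr 1
  exact Finset.prod_congr rfl fun i _ => sym_rayw _ _ _

theorem even_prod {n : ℕ} (hn : Even n) {c : Fin n → ℝ}
    (h : (∀ i, c i = -1) ∨ (∀ i, c i = 1)) : ∏ i, c i = 1 := by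
  rcases h with h | h
  · rw [Finset.prod_congr rfl fun i _ => h i, Finset.prod_const, Finset.card_univ,
      Fintype.card_fin, hn.neg_one_pow]
  · exact Finset.prod_eq_one fun i _ => h i

/-- **an even number of rays is a neutral cluster**, explicit gauge -/
theorem clG_rays {n : ℕ} (hn : Even n) (V : Fin n → Face) (x : Face) (R : ℕ) (hR : 1 ≤ R)
    (hV : ∀ i, dd (V i) x + 1 ≤ R) :
    ClG (fun f h => rays V f h * xc) (sgR (x.1 + R) V) x R := by
  refine ⟨sym_rays V, gauge_sgR _ _, fun f h => by rw [mul_pow, rays_sq, one_mul], ?_⟩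
  intro f hf h
  rw [mem_rbx (Nat.cast_nonneg R), Nat.floor_natCast] at hf
  have hVi : ∀ i, (x.1 - R + 1 ≤ (V i).1 ∧ (V i).1 ≤ x.1 + R - 1) ∧
      (x.2 - R + 1 ≤ (V i).2 ∧ (V i).2 ≤ x.2 + R - 1) := by
    intro i
    have h1 := hV i
    have h2 : dd (V i) x ≤ R - 1 := by omega
    rw [dd_le_iff] at h2
    have h3 : ((R - 1 : ℕ) : ℤ) = (R : ℤ) - 1 := by
      have : 1 ≤ R := by omega
      push_cast [this]; ring
    rw [h3] at h2
    obtain ⟨⟨a1, a2⟩, a3, a4⟩ := h2
    refine ⟨⟨by linarith, by linarith⟩, by linarith, by linarith⟩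
  have hf' : ¬ ((x.1 - R ≤ f.1 ∧ f.1 ≤ x.1 + R) ∧ (x.2 - R ≤ f.2 ∧ f.2 ≤ x.2 + R)) := by
    intro hc
    apply hf
    rw [dd_le_iff]
    obtain ⟨⟨a1, a2⟩, a3, a4⟩ := hc
    refine ⟨⟨by linarith, by linarith⟩, by linarith, by linarith⟩
  -- `s` is one above and below the cluster
  have hs1 : ∀ g : Face, (x.2 + R < g.2 ∨ g.2 < x.2 - R) → sgR (x.1 + R) V g = 1 := by
    intro g hg
    unfold sgR
    split_ifs with h1
    · apply even_prod hn
      rcases hg with hg | hg
      · left; intro i
        rw [if_pos (by have := (hVi i).2.2; omega)]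
      · right; intro i
        rw [if_neg (by have := (hVi i).2.1; omega)]
    · rfl
  have key : rays V f h = sgR (x.1 + R) V f * sgR (x.1 + R) V (nb f h) := by
    unfold rays
    fin_cases h
    · -- S
      simp only [Fin.zero_eta, rayw, nb, true_and, show ¬ ((0 : Fin 4) = 2) from by decide,
        false_and, or_false]
      by_cases h1 : x.1 + R ≤ f.1
      · unfold sgR
        simp only [h1, if_true]
        rw [← Finset.prod_mul_distrib]
        refine Finset.prod_congr rfl fun i _ => ?_
        have h2 := hVi i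
        rcases lt_trichotomy (V i).2 f.2 with h3 | h3 | h3
        · rw [if_neg (by omega), if_pos (by omega), if_pos (by omega)]; norm_num
        · rw [if_pos (by omega), if_pos (by omega), if_neg (by omega)]; norm_num
        · rw [if_neg (by omega), if_neg (by omega), if_neg (by omega)]; norm_num
      · unfold sgR
        simp only [h1, if_false, mul_one]
        refine Finset.prod_eq_one fun i _ => ?_
        have h2 := hVi i
        rw [if_neg (by omega)]
    · -- E
      simp only [Fin.mk_one, rayw, nb, show ¬ ((1 : Fin 4) = 0) from by decide,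
        show ¬ ((1 : Fin 4) = 2) from by decide, false_and, or_false, if_false,
        Finset.prod_const_one]
      by_cases h1 : x.1 + R ≤ f.1
      · have e : sgR (x.1 + R) V (f.1 + 1, f.2) = sgR (x.1 + R) V f := by
          unfold sgR
          rw [if_pos h1, if_pos (by simp only; omega)]
        rw [e]
        have := gauge_sgR (x.1 + R) V f
        rw [← pow_two, this]
      · have e : sgR (x.1 + R) V f = 1 := by unfold sgR; rw [if_neg h1]
        rw [e, one_mul]
        by_cases h2 : x.1 + R ≤ f.1 + 1
        · rw [hs1 _ (by simp only; omega)]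
        · unfold sgR; rw [if_neg (by simpa using h2)]
    · -- N
      simp only [Fin.reduceFinMk, rayw, nb, true_and, show ¬ ((2 : Fin 4) = 0) from by decide,
        false_and, false_or]
      by_cases h1 : x.1 + R ≤ f.1
      · unfold sgR
        simp only [h1, if_true]
        rw [← Finset.prod_mul_distrib]
        refine Finset.prod_congr rfl fun i _ => ?_
        have h2 := hVi i
        rcases lt_trichotomy (V i).2 (f.2 + 1) with h3 | h3 | h3
        · rw [if_neg (by omega), if_pos (by omega), if_pos (by omega)]; norm_num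
        · rw [if_pos (by omega), if_neg (by omega), if_pos (by omega)]; norm_num
        · rw [if_neg (by omega), if_neg (by omega), if_neg (by omega)]; norm_num
      · unfold sgR
        simp only [h1, if_false, mul_one]
        refine Finset.prod_eq_one fun i _ => ?_
        have h2 := hVi i
        rw [if_neg (by omega)]
    · -- W
      simp only [Fin.reduceFinMk, rayw, nb, show ¬ ((3 : Fin 4) = 0) from by decide,
        show ¬ ((3 : Fin 4) = 2) from by decide, false_and, or_false, if_false,
        Finset.prod_const_one]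
      by_cases h1 : x.1 + R ≤ f.1 - 1
      · have e : sgR (x.1 + R) V (f.1 - 1, f.2) = sgR (x.1 + R) V f := by
          have h3 : x.1 + (R : ℤ) ≤ f.1 := by omega
          have h4 : x.1 + (R : ℤ) ≤ ((f.1 - 1, f.2) : Face).1 := h1
          unfold sgR
          rw [if_pos h3, if_pos h4]
        rw [e]
        have := gauge_sgR (x.1 + R) V f
        rw [← pow_two, this]
      · have e : sgR (x.1 + R) V (f.1 - 1, f.2) = 1 := by
          unfold sgR; rw [if_neg (by simpa using h1)]
        rw [e, mul_one]
        by_cases h2 : x.1 + R ≤ f.1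
        · rw [hs1 _ (by omega)]
        · unfold sgR; rw [if_neg h2]
  simp only [key]

/-- **outgoing fields with an even number of branch points** -/
theorem out_rays : ∃ C : ℝ, 0 < C ∧ ∀ (n : ℕ) (_ : Even n) (V : Fin n → Face) (x : Face) (R : ℕ),
    1 ≤ R → (∀ i, dd (V i) x + 1 ≤ R) → ∀ φ g : Fld,
      Tendsto (fun g : Face × Fin 4 => φ g.1 g.2) cofinite (𝓝 0) →
      (∀ f, A (fun f h => rays V f h * xc) φ f = g f) → (∀ f, R < dd f x → g f = 0) →
      RIfx891.NB x (4 * R) φ ≤ C * R * RIfx891.NB x R g ∧
      ∀ f, 8 * R ≤ dd f x → nsq (φ f) ≤ (C * ((R : ℝ) / dd f x) * RIfx891.NB x R g) ^ 2 := by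
  obtain ⟨C, hC, h0⟩ := out_bound
  refine ⟨C, hC, ?_⟩
  intro n hn V x R hR hV φ g hφ hA hg
  have hAg : A (fun f h => rays V f h * xc) φ = g := funext hA
  have hR' : (1 : ℝ) ≤ R := by exact_mod_cast hR
  obtain ⟨h1, h2⟩ := h0 _ _ x R hR' (clG_rays hn V x R hR hV) φ hφ (fun f hf => by
    rw [hA f]
    exact hg f (by rw [mem_rbx (Nat.cast_nonneg R), Nat.floor_natCast] at hf; omega))
  rw [hAg] at h1 h2
  exact ⟨h1, fun f hf => h2 f (by exact_mod_cast hf)⟩

end Crest.Agent.R165.OutBx999
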