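import Crest.Agent.R165.Spin_930
import Crest.Agent.R165.BoxRay_432
import Crest.Agent.R165.Bridge_915

/-!
# Row 165, block F, leaf P10 (helper930): geometry of the four backgrounds

Faces and vertices are both indexed by `ℤ × ℤ`; `fd` is the sup distance.

* `exists_box` : bounding box of a nonempty face set
* `away_of_avoids` : `Avoids fd R x U` implies `Away` for the box enlarged by `R`
* `isoA` : all insertions avoided: `wX w X` is `w` around `U` (identity chart)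
* `isoB` : `U` in the ball of `X k`: `wX w X` is `wX w ![X k]` around `U` (identity chart)
* `isoC`, `isoP` : critical regions: `wX w Y` is `wX (wPl ℤ) Y`, `w` is `wPl ℤ`
* `cov_lin` : the covering numbers of linear polymers are `≤ A 2^m`
-/

set_option autoImplicit false

noncomputable section

open scoped ENNReal Classical
open Crest.Agent.R165.Gr0x606 Crest.Agent.R165.Latx683 Crest.Agent.R165.GDefx387
open Crest.Agent.R165.BgIsox432 Crest.Agent.R165.Packx915 Crest.Agent.R165.NSumx915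
open Crest.Agent.R165.Spinx930

namespace Crest.Agent.R165.P10ax930

theorem fd_int (f g : ℤ × ℤ) : fd f g = max (f.1 - g.1).natAbs (f.2 - g.2).natAbs := rfl

/-- coordinates of a point of a ball -/
theorem fd_le_iff {f g : ℤ × ℤ} {s : ℕ} : fd f g ≤ s ↔
    f.1 - s ≤ g.1 ∧ g.1 ≤ f.1 + s ∧ f.2 - s ≤ g.2 ∧ g.2 ≤ f.2 + s := by
  rw [fd_int, max_le_iff]
  constructor
  · rintro ⟨h1, h2⟩
    refine ⟨?_, ?_, ?_, ?_⟩ <;> omega
  · rintro ⟨h1, h2, h3, h4⟩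
    constructor <;> omega

/-- coordinates of a point outside a ball -/
theorem lt_fd_iff {f g : ℤ × ℤ} {s : ℕ} : s < fd f g ↔
    f.1 + s < g.1 ∨ g.1 < f.1 - s ∨ f.2 + s < g.2 ∨ g.2 < f.2 - s := by
  rw [← not_le, fd_le_iff]
  constructor
  · intro h
    by_contra hcon
    push Not at hcon
    exact h ⟨by omega, by omega, by omega, by omega⟩
  · rintro h ⟨h1, h2, h3, h4⟩
    omega

/-- bounding box -/
theorem exists_box {U : Finset (ℤ × ℤ)} (hU : U.Nonempty) : ∃ a b c d : ℤ,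
    (∀ u ∈ U, a ≤ u.1 ∧ u.1 ≤ b ∧ c ≤ u.2 ∧ u.2 ≤ d) ∧ (∃ u ∈ U, u.1 = a) ∧ (∃ u ∈ U, u.1 = b) ∧
      (∃ u ∈ U, u.2 = c) ∧ ∃ u ∈ U, u.2 = d := by
  obtain ⟨p, hp, hp'⟩ := U.exists_min_image Prod.fst hU
  obtain ⟨q, hq, hq'⟩ := U.exists_max_image Prod.fst hU
  obtain ⟨r, hr, hr'⟩ := U.exists_min_image Prod.snd hU
  obtain ⟨s, hs, hs'⟩ := U.exists_max_image Prod.snd hU
  exact ⟨p.1, q.1, r.2, s.2, fun u hu => ⟨hp' u hu, hq' u hu, hr' u hu, hs' u hu⟩, ⟨p, hp, rfl⟩,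
    ⟨q, hq, rfl⟩, ⟨r, hr, rfl⟩, ⟨s, hs, rfl⟩⟩

/-- a vertex which is avoided is not an interior vertex of the enlarged bounding box -/
theorem away_of_avoids {U : Finset (ℤ × ℤ)} {a b c d : ℤ} (ha : ∃ u ∈ U, u.1 = a)
    (hb : ∃ u ∈ U, u.1 = b) (hc : ∃ u ∈ U, u.2 = c) (hd : ∃ u ∈ U, u.2 = d) {R : ℕ} {x : ℤ × ℤ}
    (h : Avoids fd R x U) : Away (a - R) (b + R) (c - R) (d + R) x := by
  obtain ⟨u, -, s, hs, hx⟩ := h
  obtain ⟨p, hp, rfl⟩ := ha
  obtain ⟨q, hq, rfl⟩ := hb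
  obtain ⟨r, hr, rfl⟩ := hc
  obtain ⟨t, ht, rfl⟩ := hd
  have h1 := hs p hp
  have h2 := hs q hq
  have h3 := hs r hr
  have h4 := hs t ht
  rw [fd_le_iff] at h1 h2 h3 h4
  rw [lt_fd_iff] at hx
  push_cast at hx
  unfold Away
  rcases hx with hx | hx | hx | hx
  · left; omega
  · right; left; omega
  · right; right; left; omega
  · right; right; right; omega

/-- the neighbourhood of `U` lies in the enlarged bounding box -/
theorem nbhd_subset_box {U : Finset (ℤ × ℤ)} {a b c d : ℤ}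
    (h : ∀ u ∈ U, a ≤ u.1 ∧ u.1 ≤ b ∧ c ≤ u.2 ∧ u.2 ≤ d) (R : ℕ) :
    nbhd R U ⊆ boxF (a - R) (b + R) (c - R) (d + R) := by
  rintro f ⟨u, hu, huf⟩
  obtain ⟨h1, h2, h3, h4⟩ := h u hu
  obtain ⟨h5, h6, h7, h8⟩ := fd_le_iff.1 huf
  exact ⟨by omega, by omega, by omega, by omega⟩

/-- the neighbourhood of a subset of a ball lies in a box -/
theorem nbhd_subset_ballbox {U : Finset (ℤ × ℤ)} {x : ℤ × ℤ} {ρ : ℕ}
    (h : ∀ u ∈ U, fd x u ≤ ρ) (R : ℕ) :
    nbhd R U ⊆ boxF (x.1 - (ρ + R : ℕ)) (x.1 + (ρ + R : ℕ)) (x.2 - (ρ + R : ℕ))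
      (x.2 + (ρ + R : ℕ)) := by
  rintro f ⟨u, hu, huf⟩
  obtain ⟨h1, h2, h3, h4⟩ := fd_le_iff.1 (h u hu)
  obtain ⟨h5, h6, h7, h8⟩ := fd_le_iff.1 huf
  push_cast
  exact ⟨by push_cast; omega, by push_cast; omega, by push_cast; omega, by push_cast; omega⟩

theorem nbhd_subset_ball {U : Finset (ℤ × ℤ)} {x : ℤ × ℤ} {ρ : ℕ}
    (h : ∀ u ∈ U, fd x u ≤ ρ) (R : ℕ) : nbhd R U ⊆ ball x (ρ + R) := by
  rintro f ⟨u, hu, huf⟩
  have h1 := h u hu
  have h2 := fd_triangle x u f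
  rw [mem_ball]
  omega

theorem away_of_far {x y : ℤ × ℤ} {s : ℕ} (h : s < fd x y) :
    Away (x.1 - s) (x.1 + s) (x.2 - s) (x.2 + s) y := by
  rw [lt_fd_iff] at h
  unfold Away
  rcases h with h | h | h | h
  · left; omega
  · right; left; omega
  · right; right; left; omega
  · right; right; right; omega

/-! ### identity charts -/

/-- a chart whose underlying map is the identity -/
def IdIso (w w' : BW ℤ) (Z : Set (ℤ × ℤ)) : Prop :=
  ∃ b : BgIso w w' Z, ∀ f, b.τ f = f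

theorem IdIso.mono {w w' : BW ℤ} {Z Y : Set (ℤ × ℤ)} (h : IdIso w w' Z) (hY : Y ⊆ Z) :
    IdIso w w' Y := by
  obtain ⟨b, hb⟩ := h
  exact ⟨b.mono hY, hb⟩

theorem IdIso.trans {w w' w'' : BW ℤ} {Z : Set (ℤ × ℤ)} (h : IdIso w w' Z)
    (h' : IdIso w' w'' Z) : IdIso w w'' Z := by
  obtain ⟨b, hb⟩ := h
  obtain ⟨b', hb'⟩ := h'
  refine ⟨b.trans b' (fun f hf => by rw [hb]; exact hf), fun f => ?_⟩
  show b'.τ (b.τ f) = f
  rw [hb', hb]

theorem IdIso.refl (w : BW ℤ) (Z : Set (ℤ × ℤ)) : IdIso w w Z := ⟨BgIso.refl w Z, fun _ => rfl⟩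

theorem idIso_critOn {w : BW ℤ} {Z : Set (ℤ × ℤ)} (h : CritOn w Z) : IdIso w (wPl ℤ) Z :=
  ⟨critIso h, fun _ => rfl⟩

/-- critical region, with insertions -/
theorem idIso_critOn_X {w : BW ℤ} {Z : Set (ℤ × ℤ)} (h : CritOn w Z) {n : ℕ}
    (Y : Fin n → ℤ × ℤ) : IdIso (wX w Y) (wX (wPl ℤ) Y) Z := by
  refine ⟨sameIso (fun f hf hf' => ?_) (fun f hf hf' => ?_), fun _ => rfl⟩
  · have h1 : w (f.1 + 1, f.2) 1 = xc := h.1 f hf hf'
    simp only [yE, wX, wPl, h1]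
  · have h1 : w (f.1, f.2 + 1) 0 = xc := h.2 f hf hf'
    simp only [yN, wX, wPl, h1]

/-- **(h4)** all insertions are avoided -/
theorem idIso_avoid {n : ℕ} (w : BW ℤ) (X : Fin n → ℤ × ℤ) {R : ℕ} {U : Finset (ℤ × ℤ)}
    (hU : U.Nonempty) (h : ∀ i, Avoids fd R (X i) U) : IdIso (wX w X) w (nbhd R U) := by
  obtain ⟨a, b, c, d, hin, ha, hb, hc, hd⟩ := exists_box hU
  have h1 : IdIso (wX w X) w (boxF (a - R) (b + R) (c - R) (d + R)) :=
    ⟨rayIso0 w X fun i => away_of_avoids ha hb hc hd (h i), fun _ => rfl⟩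
  exact h1.mono (nbhd_subset_box hin R)

/-- **(h5)** `U` lies in the ball of radius `ρ` around the insertion `X k`, the others are far -/
theorem idIso_ball {n : ℕ} (w : BW ℤ) (X : Fin n → ℤ × ℤ) (k : Fin n) {R ρ : ℕ}
    {U : Finset (ℤ × ℤ)} (h : ∀ u ∈ U, fd (X k) u ≤ ρ)
    (hsep : ∀ i, i ≠ k → ρ + R < fd (X k) (X i)) :
    IdIso (wX w X) (wX w ![X k]) (nbhd R U) := by
  have h1 : IdIso (wX w X) (wX w ![X k]) (boxF ((X k).1 - (ρ + R : ℕ)) ((X k).1 + (ρ + R : ℕ))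
      ((X k).2 - (ρ + R : ℕ)) ((X k).2 + (ρ + R : ℕ))) :=
    ⟨rayIso1 w X k fun i hi => away_of_far (hsep i hi), fun _ => rfl⟩
  exact h1.mono (nbhd_subset_ballbox h R)

/-- **(h6)** the single insertion is avoided -/
theorem idIso_avoid1 (w : BW ℤ) (x : ℤ × ℤ) {R : ℕ} {U : Finset (ℤ × ℤ)}
    (hU : U.Nonempty) (h : Avoids fd R x U) : IdIso (wX w ![x]) w (nbhd R U) :=
  idIso_avoid w ![x] hU fun i => by
    have : (![x] : Fin 1 → ℤ × ℤ) i = x := by fin_cases i; rfl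
    rw [this]; exact h

/-- near an interior point of the domain the background with the insertion `X k` is the plane
background with that insertion -/
theorem idIso_ball_crit {n : ℕ} {w : BW ℤ} (X : Fin n → ℤ × ℤ) (k : Fin n) {R ρ : ℕ}
    {U : Finset (ℤ × ℤ)} (h : ∀ u ∈ U, fd (X k) u ≤ ρ)
    (hsep : ∀ i, i ≠ k → ρ + R < fd (X k) (X i)) (hcrit : CritOn w (ball (X k) (ρ + R))) :
    IdIso (wX w X) (wX (wPl ℤ) ![X k]) (nbhd R U) ∧ IdIso w (wPl ℤ) (nbhd R U) := by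
  have h1 := idIso_ball w X k h hsep
  exact ⟨h1.trans ((idIso_critOn_X hcrit _).mono (nbhd_subset_ball h R)),
    (idIso_critOn hcrit).mono (nbhd_subset_ball h R)⟩

/-- the domain background is critical on the ball -/
theorem critOn_ball {T : Set (ℤ × ℤ)} {x : ℤ × ℤ} {s : ℕ}
    (h : ∀ v, fd x v ≤ s + 1 → v ∈ T) (fr : Bool) : CritOn (wDom T fr) (ball x s) := by
  refine critOn_dom (fun f hf => ?_) fr
  obtain ⟨h1, h2, h3, h4⟩ := fd_le_iff.1 (mem_ball.1 hf)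
  refine ⟨h _ ?_, h _ ?_, h _ ?_, h _ ?_⟩ <;> rw [fd_le_iff] <;> push_cast <;>
    exact ⟨by omega, by omega, by omega, by omega⟩

/-! ### the backgrounds with one insertion are translates -/

/-- translation as an equivalence of face sets -/
def shiftF (x : ℤ × ℤ) : Finset (ℤ × ℤ) ≃ Finset (ℤ × ℤ) where
  toFun U := U.image fun f => (f.1 - x.1, f.2 - x.2)
  invFun U := U.image fun f => (f.1 + x.1, f.2 + x.2)
  left_inv U := by
    ext f
    simp only [Finset.mem_image]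
    constructor
    · rintro ⟨-, ⟨g, hg, rfl⟩, rfl⟩
      simpa using hg
    · intro hf
      exact ⟨_, ⟨f, hf, rfl⟩, by simp⟩
  right_inv U := by
    ext f
    simp only [Finset.mem_image]
    constructor
    · rintro ⟨-, ⟨g, hg, rfl⟩, rfl⟩
      simpa using hg
    · intro hf
      exact ⟨_, ⟨f, hf, rfl⟩, by simp⟩

theorem shiftF_apply (x : ℤ × ℤ) (U : Finset (ℤ × ℤ)) :
    shiftF x U = U.image fun f => (f.1 - x.1, f.2 - x.2) := by
  rfl

/-- sums over the polymers are translation invariant -/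
theorem tsum_shift (x : ℤ × ℤ) (c c' : Finset (ℤ × ℤ) → ℝ)
    (h : ∀ U, c U = c' (shiftF x U)) : ∑' U, c U = ∑' U, c' U := by
  rw [← (shiftF x).tsum_eq c']
  exact tsum_congr h

/-- translation chart of the plane -/
def trPl (x : ℤ × ℤ) (Z : Set (ℤ × ℤ)) : BgIso (wPl ℤ) (wPl ℤ) Z where
  τ f := (f.1 - x.1, f.2 - x.2)
  s _ := 1
  sq _ := by norm_num
  iso f _ g _ := by
    unfold fd
    simp
  e1 f _ _ := by ext <;> simp; ring
  e2 f _ _ := by ext <;> simp; ring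
  wE f _ _ := by simp [yE, wPl]
  wN f _ _ := by simp [yN, wPl]

/-! ### covering numbers -/

theorem sq_le_two_pow (m : ℕ) : (2 * m + 3) ^ 2 ≤ 24 * 2 ^ m := by
  induction m with
  | zero => norm_num
  | succ m ih =>
    rcases Nat.lt_or_ge m 2 with h | h
    · interval_cases m <;> norm_num
    · have h1 : (2 * (m + 1) + 3) ^ 2 ≤ 2 * (2 * m + 3) ^ 2 := by nlinarith
      calc (2 * (m + 1) + 3) ^ 2 ≤ 2 * (2 * m + 3) ^ 2 := h1
        _ ≤ 2 * (24 * 2 ^ m) := Nat.mul_le_mul_left _ ih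
        _ = 24 * 2 ^ (m + 1) := by ring

/-- the covering numbers of balls of radius `(R + r + 1) m + R'` by balls of radius `r`, if
`R ≤ L r` and `R' ≤ L r` -/
theorem cov_lin {r R R' L : ℕ} (hr : 0 < r) (hR : R + r + 1 ≤ L * r) (hR' : R' ≤ L * r) (m : ℕ) :
    Cov (fd : ℤ × ℤ → ℤ × ℤ → ℕ) ((R + r + 1) * m + R') r ((2 * (L * (m + 1)) + 3) ^ 2) := by
  refine (Bridgex915.cov_fd hr (L * (m + 1) * r)).mono ?_ le_rfl ?_
  · calc (R + r + 1) * m + R' ≤ L * r * m + L * r :=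
        add_le_add (Nat.mul_le_mul_right _ hR) hR'
      _ = L * (m + 1) * r := by ring
  · rw [Nat.mul_div_cancel _ hr]

/-- the covering numbers are `≤ A 2^m` with `A = 24 (2 L + 1)²`-/
theorem cov_lin_le (L m : ℕ) : (2 * (L * (m + 1)) + 3) ^ 2 ≤ 24 * (2 * L + 1) ^ 2 * 2 ^ m := by
  have h1 : 2 * (L * (m + 1)) + 3 ≤ (2 * L + 1) * (2 * m + 3) := by nlinarith
  calc (2 * (L * (m + 1)) + 3) ^ 2 ≤ ((2 * L + 1) * (2 * m + 3)) ^ 2 :=
        Nat.pow_le_pow_left h1 2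
    _ = (2 * L + 1) ^ 2 * (2 * m + 3) ^ 2 := by ring
    _ ≤ (2 * L + 1) ^ 2 * (24 * 2 ^ m) := Nat.mul_le_mul_left _ (sq_le_two_pow m)
    _ = _ := by ring

end Crest.Agent.R165.P10ax930
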