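import Crest.Agent.R165.PEnd_683
import Crest.Agent.R165.EbTor_723

/-!
# Row 165 (S0250), block F: end of the universality half, second form (helper683)

`FlowOut2` = `FlowOut` without the field `bm` (bond mean of the torus), which follows from `erp`, `dl`
and the unperturbed torus limit `UTb` (helper723's `bm_of`).

`pflow_of2 : UTb → (∀ J R V, VHyp R V → Nonempty (FlowOut2 J R V)) → PFlow`
-/

set_option autoImplicit false

noncomputable section

open Filter Topology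
open Crest.ProbabilityR.IsingModel

namespace Crest.Agent.R165.PEndx683

open Crest.Agent.R165.Topx683 Crest.Agent.R165.Centx541 Crest.Agent.R165.Redx541
  Crest.Agent.R165.Symx541 Crest.Agent.R165.Red2x541 Crest.Agent.R165.Mastx541
  Crest.Agent.R165.SRx541

/-- monotonicity of `ForP` in the conclusion -/
theorem ForP.mono {J : ℝ} {PF : ℝ → Cst → ℝ → ℝ → ℝ → Prop} {Q Q' : Cst → ℝ → ℝ → ℝ → Prop}
    (h : ForP J PF Q) (hQ : ∀ c lam β z, Q c lam β z → Q' c lam β z) : ForP J PF Q' := by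
  refine EvC.mono h fun c hc C => ?_
  obtain ⟨ε, hε, h1⟩ := hc C
  exact ⟨ε, hε, fun lam β z hl hn hp => hQ c lam β z (h1 lam β z hl hn hp)⟩

/-- everything the flow has to deliver, without the bond mean -/
structure FlowOut2 (J : ℝ) (R : ℕ) (V : Finset (ℤ × ℤ) → ℝ) where
  /-- plane flow controlled with constant `C` -/
  PF : ℝ → Cst → ℝ → ℝ → ℝ → Prop
  /-- spin renormalisation -/
  Zs : Cst → ℝ → ℝ → ℝ → ℝ
  /-- energy renormalisation -/
  Ze : Cst → ℝ → ℝ → ℝ → ℝ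
  /-- bond mean -/
  eb : Cst → ℝ → ℝ → ℝ → Fin 2 → ℝ
  /-- (P7) shooting -/
  p7 : EvC fun c => ∃ C : ℝ, ∃ ε > 0, ∃ β z : ℝ → ℝ, ∀ lam : ℝ, |lam| < ε →
    NearP J C lam (β lam) (z lam) ∧ PF C c lam (β lam) (z lam)
  zs : OneP J PF Zs
  ze : OneP J PF Ze
  /-- (P8)-(P10), domains -/
  srd : ForP J PF fun c lam β z => SRD J lam R V β (Zs c lam β z)
  /-- (P11), domains -/
  erd : ForP J PF fun c lam β z => ERD J lam R V β (Ze c lam β z) (eb c lam β z)
  /-- (P14), discs -/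
  srp : ForP J PF fun c lam β z => SRP J lam R V β (Zs c lam β z)
  /-- (P14), discs -/
  erp : ForP J PF fun c lam β z => ERP J lam R V β (Ze c lam β z) (eb c lam β z)
  /-- (P13) torus and discs have the same limit -/
  dl : ForP J PF fun _ lam β _ => DiscLim J lam R V β

/-- the unperturbed instance -/
theorem FlowOut2.discLim_zero {J : ℝ} {R : ℕ} {V : Finset (ℤ × ℤ) → ℝ} (f : FlowOut2 J R V) :
    DiscLim J 0 R V (criticalBeta J) := by
  obtain ⟨c, ⟨C, ε₁, hε₁, β, z, hβ⟩, hd⟩ := (f.p7.and f.dl).exists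
  obtain ⟨ε₂, hε₂, h2⟩ := hd C
  have l1 : |(0 : ℝ)| < ε₁ := by simpa using hε₁
  have l2 : |(0 : ℝ)| < ε₂ := by simpa using hε₂
  have h3 := h2 0 (β 0) (z 0) l2 (hβ 0 l1).1 (hβ 0 l1).2
  have h4 : β 0 = criticalBeta J := by
    have h5 := (hβ 0 l1).1
    unfold NearP at h5
    rw [abs_zero, mul_zero] at h5
    have h6 : |β 0 - criticalBeta J| ≤ 0 := by linarith [abs_nonneg (z 0)]
    exact sub_eq_zero.1 (abs_eq_zero.1 (le_antisymm h6 (abs_nonneg _)))
  rw [← h4]
  exact h3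

/-- the bond mean is a consequence -/
def FlowOut2.toFlowOut {J : ℝ} {R : ℕ} {V : Finset (ℤ × ℤ) → ℝ} (f : FlowOut2 J R V)
    (hU : UTb) (h0 : DiscLim 1 0 0 (fun _ => 0) (criticalBeta 1)) : FlowOut J R V where
  PF := f.PF
  Zs := f.Zs
  Ze := f.Ze
  eb := f.eb
  p7 := f.p7
  zs := f.zs
  ze := f.ze
  srd := f.srd
  erd := f.erd
  srp := f.srp
  erp := f.erp
  dl := f.dl
  bm := (f.erp.and f.dl).mono fun _ _ _ _ h => EbTorx723.bm_of hU h0 h.1 h.2

theorem vhyp_zero : VHyp 0 (fun _ => 0) where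
  even _ h := absurd rfl h
  range _ h := absurd rfl h
  trans _ _ := rfl
  rot _ := rfl
  refl _ := rfl

/-- **`PFlow` from the flow outputs and the unperturbed torus limit** -/
theorem pflow_of2 (hU : UTb) (h : ∀ J : ℝ, 0 < J → ∀ (R : ℕ) (V : Finset (ℤ × ℤ) → ℝ), VHyp R V →
    Nonempty (FlowOut2 J R V)) : PFlow := by
  have h0 : DiscLim 1 0 0 (fun _ => 0) (criticalBeta 1) := by
    obtain ⟨f⟩ := h 1 one_pos 0 (fun _ => 0) vhyp_zero
    exact f.discLim_zero
  refine pflow_of fun J hJ R V hV => ?_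
  obtain ⟨f⟩ := h J hJ R V hV
  exact ⟨f.toFlowOut hU h0⟩

end Crest.Agent.R165.PEndx683
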