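import Crest.Agent.R165.PStep4_417
import Crest.Agent.R165.ConstA_729
import Crest.Agent.R165.GSysPl_387

/-!
# Row 165 (S0250), block G4: the plane flow of `GSys_387`, all steps

* `pseq_ev` : `EvC`: the hypotheses `PSeq` on all steps of the plane system, contraction `η`
* `oneStep_seq` : `OneStep` for every step, in norm units (`Nm = nk / a²`)
* `orbit_sys` : the activities of the plane system along an orbit which starts at the index `1`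
* `NK_stK_le` : size of a state
-/

set_option autoImplicit false
set_option linter.unusedSectionVars false

noncomputable section

open scoped ENNReal
open Crest.Agent.R165.Gr0x606 Crest.Agent.R165.Gr1x606 Crest.Agent.R165.Latx683
open Crest.Agent.R165.PNormx417 Crest.Agent.R165.GDefx387 Crest.Agent.R165.GeOpsx337
open Crest.Agent.R165.KFlowx337 Crest.Agent.R165.Packx915 Crest.Agent.R165.Bridgex915
open Crest.Agent.R165.NSumx915 Crest.Agent.R165.FRDPolyx439 Crest.Agent.R165.FRDLatx439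
open Crest.Agent.R165.PlaneModesx901 Crest.Agent.R165.PlaneLocx901 Crest.Agent.R165.PlaneCovx901
open Crest.Agent.R165.PlaneSumx901 Crest.Agent.R165.PlaneCoefx901 Crest.Agent.R165.W2x812
open Crest.Agent.R165.Locx901 Crest.Agent.R165.GBulkx417 Crest.Agent.R165.GSysx387
open Crest.Agent.R165.GSysOKx439 Crest.Agent.R165.PEndx683 Crest.Agent.R165.Sht3x541
open Crest.Agent.R165.ConstAx729

namespace Crest.Agent.R165.PStepx417

open Crest.Agent.R165.PStepIdx901 (LocG baseG QlG PlS alQ beQ stK stH stA stN stQ lcG)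

/-! ### every step of a sequence -/

section seq

variable {a : ℝ} {L : ℕ} {r R : ℕ → ℕ} {Γ : ℝ≥0∞} {S : ℕ → Cov (Fld ℤ)} {Cb κ : ℝ}

/-- **every step of the flow**, in norm units -/
theorem oneStep_seq (h : PSeq a L r R Γ S Cb κ) (ha : 1 ≤ a) (k : ℕ) :
    OneStep (E := St a (r k) (R k) Γ) (E' := St a (r (k + 1)) (R (k + 1)) Γ)
      (fun x => Nmx x / a ^ 2) (fun x => Nmx x / a ^ 2) (fun x y => Dsx x y / a ^ 2)
      (fun x y => Dsx x y / a ^ 2) (Phi h k) (ff a r R Γ S k) (gg a r R Γ S k) κ 0 0 (cM3 L)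
      (cP2 a Cb L Γ * (a ^ 2) ^ 2) (cρ a Cb L Γ / a ^ 2) := by
  obtain ⟨g, p0, p1, q2, q0, C, hk, hκ⟩ := h.step k
  exact oneStep_a hk (h.sym k) h.κ_nonneg hκ ha

end seq

/-! ### size of a state -/

section size

variable {a : ℝ} {r : ℕ} {Γ : ℝ≥0∞} {Cb : ℝ}

/-- size of a state in the norm `nk` -/
theorem nk_stK_le (hreg : BkReg Cb) (ha : 0 ≤ a) (hr : 1 ≤ r) {n z s : ℝ} {Q : Fam}
    (hn : |n| ≤ s) (hz : |z| ≤ s) (hQ : nk a r Γ Q ≤ ENNReal.ofReal (a ^ 2 * s)) :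
    nk a r Γ (stK (n / r) z Q) ≤
      (Γ * ENNReal.ofReal (27 * Cb ^ 2) + 1) * ENNReal.ofReal (a ^ 2 * s) := by
  have hs : 0 ≤ s := (abs_nonneg _).trans hn
  have hr0 : (0 : ℝ) < r := by exact_mod_cast hr
  have h1 : nk a r Γ (baseG (n / r) z) ≤
      Γ * ENNReal.ofReal (9 * a ^ 2 * Cb ^ 2 * (|n / r| * r + 2 * |z|)) :=
    nk_base_le hreg ha hr fun _ => rfl
  have h2 : |n / r| * r = |n| := by
    rw [abs_div, abs_of_pos hr0, div_mul_cancel₀ _ hr0.ne']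
  refine (nk_add_le _ _).trans ?_
  rw [add_mul, one_mul]
  refine add_le_add (h1.trans ?_) hQ
  rw [h2, mul_assoc Γ, ← ENNReal.ofReal_mul (by positivity)]
  refine mul_le_mul_right (ENNReal.ofReal_le_ofReal ?_) _
  have h3 : |n| + 2 * |z| ≤ 3 * s := by linarith
  calc 9 * a ^ 2 * Cb ^ 2 * (|n| + 2 * |z|) ≤ 9 * a ^ 2 * Cb ^ 2 * (3 * s) := by gcongr
    _ = 27 * Cb ^ 2 * (a ^ 2 * s) := by ring

/-- size of a state in the norm `NK` of 387 -/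
theorem NK_stK_le (hreg : BkReg Cb) (ha : 0 ≤ a) (hr : 1 ≤ r) {n z s : ℝ} {Q : Fam}
    (hn : |n| ≤ s) (hz : |z| ≤ s) (hQ : nk a r Γ Q ≤ ENNReal.ofReal (a ^ 2 * s)) :
    NK (wPl ℤ) a r Γ (fun _ => True) (fun U => ((stK (n / r) z Q U : Ge (Fld ℤ)) : Gr (Fld ℤ))) ≤
      (Γ * ENNReal.ofReal (27 * Cb ^ 2) + 1) * ENNReal.ofReal (a ^ 2 * s) := by
  have h := nk_stK_le (Γ := Γ) hreg ha hr hn hz hQ
  rw [← NK_cof] at h
  exact h

end size

/-! ### the plane system -/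

section sys

variable {M K : ℕ} (D : FRD 16 M K) {Cb η : ℝ}

/-- **the hypotheses on all steps of the plane system** -/
theorem pseq_ev (h : BkReg Cb) (hM : MM + 1 ≤ M) (hη : 0 < η) :
    EvC fun c => 4 ≤ c.p ∧ 3 ≤ c.Γ ∧ 1 ≤ c.A0 ∧ 0 < c.δ ∧ c.δ ≤ 1 ∧
      ∀ a, c.A0 ≤ a → PSeq a (2 ^ c.p) (rr c.p c.k0) (nearR c.p c.k0) (ENNReal.ofReal c.Γ)
        (slC D (wPl ℤ) c.p c.k0) Cb η :=
  (pstep_ev D h hM hη).mono fun c hc => by
    obtain ⟨h1, h2, h3, h4, h5, h6⟩ := hc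
    refine ⟨h1, h2, h3, h4, h5, fun a ha => ⟨fun k => ?_, fun k => symS_slC D c.p c.k0 k, hη.le⟩⟩
    exact ⟨_, _, _, _, _, _, (h6 k a ha).2, (h6 k a ha).1.ke_le⟩

variable {a κ : ℝ} {l k0 : ℕ} {Γ : ℝ≥0∞}

/-- **one step of the plane system** -/
theorem sys_Phi' (h : PSeq a (2 ^ l) (rr l k0) (nearR l k0) Γ (slC D (wPl ℤ) l k0) Cb κ)
    (K0 : Finset Fc → Ge (Fld ℤ)) (k : ℕ) {n z s : ℝ} {x : St a (rr l k0 k) (nearR l k0 k) Γ}
    (hK : (sys D (wPl ℤ) ∅ l k0 K0).K k = stK (n / rr l k0 k) z x.Q) (hn : |n| ≤ s) (hz : |z| ≤ s)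
    (hx : Nmx x ≤ s) (hs : s ≤ cρ a Cb (2 ^ l) Γ) :
    (sys D (wPl ℤ) ∅ l k0 K0).K (k + 1) =
      stK (((2 ^ l : ℕ) * n + ff a (rr l k0) (nearR l k0) Γ (slC D (wPl ℤ) l k0) k n z x) /
          rr l k0 (k + 1))
        (z + gg a (rr l k0) (nearR l k0) Γ (slC D (wPl ℤ) l k0) k n z x) (Phi h k n z x).Q :=
  sys_Phi h (sys D (wPl ℤ) ∅ l k0 K0) k rfl (bulk_eP l k0 k) rfl rfl rfl hK hn hz hx hs

/-- **the plane system along an orbit in norm units, from the index `1` on** -/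
theorem orbit_sys (h : PSeq a (2 ^ l) (rr l k0) (nearR l k0) Γ (slC D (wPl ℤ) l k0) Cb κ)
    (K0 : Finset Fc → Ge (Fld ℤ)) {ν z : ℕ → ℝ}
    {x : ∀ k, St a (rr l k0 (k + 1)) (nearR l k0 (k + 1)) Γ}
    (hK : (sys D (wPl ℤ) ∅ l k0 K0).K 1 = stK (ν 1 / rr l k0 1) (z 1) (x 0).Q)
    (hx : ∀ k, x (k + 1) = Phi h (k + 1) (ν (k + 1)) (z (k + 1)) (x k))
    (hν : ∀ k, ν (k + 2) = (2 ^ l : ℕ) * ν (k + 1) +
      ff a (rr l k0) (nearR l k0) Γ (slC D (wPl ℤ) l k0) (k + 1) (ν (k + 1)) (z (k + 1)) (x k))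
    (hz : ∀ k, z (k + 2) = z (k + 1) +
      gg a (rr l k0) (nearR l k0) Γ (slC D (wPl ℤ) l k0) (k + 1) (ν (k + 1)) (z (k + 1)) (x k))
    (hs : ∀ k, |ν (k + 1)| ≤ cρ a Cb (2 ^ l) Γ ∧ |z (k + 1)| ≤ cρ a Cb (2 ^ l) Γ ∧
      Nmx (x k) ≤ cρ a Cb (2 ^ l) Γ) (k : ℕ) :
    (sys D (wPl ℤ) ∅ l k0 K0).K (k + 1) = stK (ν (k + 1) / rr l k0 (k + 1)) (z (k + 1)) (x k).Q :=
  orbit_eq h (sys D (wPl ℤ) ∅ l k0 K0) rfl (bulk_eP l k0) (fun _ => rfl) (fun _ => rfl)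
    hK hx hν hz hs k

end sys

end Crest.Agent.R165.PStepx417
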