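import Crest.Agent.R165.PNorm_417

/-!
# Row 165 (S0250), torus block, PP sector (helper63)

The last step of the renormalisation group in the sector with two zero modes: derivations in the
projective norm.

* `pnorm_dd_le`  : `pnorm w' (dd u F) ≤ t * pnorm w F` as soon as `2 w' ≤ w` and `‖u l‖ ≤ t * w l`
* `EE_dd_dd_le`  : `‖EE S (dd u₁ (dd u₂ F))‖ ≤ t₁ t₂ pnorm w (F - c)` for every constant `c`
-/

set_option autoImplicit false

noncomputable section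

namespace Crest.Agent.R165.PPbx63

open Crest.Agent.R165.Gr0x606 Crest.Agent.R165.PNormx417
open scoped ENNReal

variable {V : Type*} [AddCommGroup V] [Module ℝ V]

theorem two_mul_le_pow (n : ℕ) : 2 * n ≤ 2 ^ n := by
  induction n with
  | zero => simp
  | succ n ih =>
    rcases n with _ | n
    · simp
    · have : 2 * (n + 1 + 1) = 2 * (n + 1) + 2 := by ring
      rw [this, pow_succ]
      omega

theorem pow_mul_mwt_le {w w' : V → ℝ≥0∞} (h : ∀ l, 2 * w' l ≤ w l) (L : List V) :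
    2 ^ L.length * mwt w' L ≤ mwt w L := by
  induction L with
  | nil => simp
  | cons x L ih =>
    rw [List.length_cons, pow_succ, mwt_cons, mwt_cons]
    calc 2 ^ L.length * 2 * (w' x * mwt w' L) = (2 * w' x) * (2 ^ L.length * mwt w' L) := by ring
      _ ≤ w x * mwt w L := mul_le_mul' (h x) ih

/-- representation of the derivative of a monomial -/
def ddR (u : Module.Dual ℝ V) : List V → List (ℝ × List V)
  | [] => []
  | x :: L => (u x, L) :: (ddR u L).map fun p => (-p.1, x :: p.2)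

theorem rval_map_neg_cons (x : V) (R : List (ℝ × List V)) :
    rval (R.map fun p => (-p.1, x :: p.2)) = -(fi x * rval R) := by
  induction R with
  | nil => simp
  | cons p R ih => rw [List.map_cons, rval_cons, ih, rval_cons]; simp [mul_add]; abel

theorem rwt_map_neg_cons (w : V → ℝ≥0∞) (x : V) (R : List (ℝ × List V)) :
    rwt w (R.map fun p => (-p.1, x :: p.2)) = w x * rwt w R := by
  induction R with
  | nil => simp
  | cons p R ih => rw [List.map_cons, rwt_cons, ih, rwt_cons]; simp; ring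

theorem rval_ddR (u : Module.Dual ℝ V) (L : List V) : rval (ddR u L) = dd u (mono L) := by
  induction L with
  | nil => simp [ddR]
  | cons x L ih =>
    rw [ddR, rval_cons, rval_map_neg_cons, ih, mono_cons, dd_fi_mul, sub_eq_add_neg]

theorem rwt_ddR_le {w w' : V → ℝ≥0∞} (h : ∀ l, 2 * w' l ≤ w l) (u : Module.Dual ℝ V)
    {t : ℝ≥0∞} (hu : ∀ l, ‖u l‖ₑ ≤ t * w l) (L : List V) :
    2 ^ L.length * rwt w' (ddR u L) ≤ t * ((2 * L.length : ℕ) : ℝ≥0∞) * mwt w L := by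
  induction L with
  | nil => simp [ddR]
  | cons x L ih =>
    rw [ddR, rwt_cons, rwt_map_neg_cons, List.length_cons, pow_succ, mwt_cons]
    calc 2 ^ L.length * 2 * (‖u x‖ₑ * mwt w' L + w' x * rwt w' (ddR u L))
      _ = 2 * ‖u x‖ₑ * (2 ^ L.length * mwt w' L) +
            (2 * w' x) * (2 ^ L.length * rwt w' (ddR u L)) := by ring
      _ ≤ 2 * (t * w x) * mwt w L + w x * (t * ((2 * L.length : ℕ) : ℝ≥0∞) * mwt w L) := by
          gcongr
          · exact hu x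
          · exact pow_mul_mwt_le h L
          · exact h x
      _ = t * ((2 * (L.length + 1) : ℕ) : ℝ≥0∞) * (w x * mwt w L) := by
          push_cast; ring

theorem pnorm_dd_mono_le {w w' : V → ℝ≥0∞} (h : ∀ l, 2 * w' l ≤ w l) (u : Module.Dual ℝ V)
    {t : ℝ≥0∞} (hu : ∀ l, ‖u l‖ₑ ≤ t * w l) (L : List V) :
    pnorm w' (dd u (mono L)) ≤ t * mwt w L := by
  rw [← rval_ddR]
  refine (pnorm_le_rwt _ _).trans ?_
  have h1 := rwt_ddR_le h u hu L
  have h2 : ((2 * L.length : ℕ) : ℝ≥0∞) ≤ 2 ^ L.length := by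
    have := two_mul_le_pow L.length
    calc ((2 * L.length : ℕ) : ℝ≥0∞) ≤ ((2 ^ L.length : ℕ) : ℝ≥0∞) := by exact_mod_cast this
      _ = 2 ^ L.length := by push_cast; rfl
  have h3 : 2 ^ L.length * rwt w' (ddR u L) ≤ 2 ^ L.length * (t * mwt w L) := by
    refine h1.trans ?_
    calc t * ((2 * L.length : ℕ) : ℝ≥0∞) * mwt w L ≤ t * 2 ^ L.length * mwt w L := by gcongr
      _ = _ := by ring
  have h4 : (2 : ℝ≥0∞) ^ L.length ≠ 0 := by positivity
  have h5 : (2 : ℝ≥0∞) ^ L.length ≠ ∞ := ENNReal.pow_ne_top (by norm_num)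
  exact (ENNReal.mul_le_mul_iff_right h4 h5).1 h3

/-- **derivation in the projective norm** -/
theorem pnorm_dd_le {w w' : V → ℝ≥0∞} (h : ∀ l, 2 * w' l ≤ w l) (u : Module.Dual ℝ V)
    {t : ℝ≥0∞} (ht : t ≠ ∞) (hu : ∀ l, ‖u l‖ₑ ≤ t * w l) (F : Gr V) (hF : pnorm w F ≠ ∞) :
    pnorm w' (dd u F) ≤ t * pnorm w F :=
  bound_of_mono (pnorm_semi w') (dd u) ht (fun L _ => pnorm_dd_mono_le h u hu L) hF

/-- two derivations, then an expectation: the form needed in the sector with two zero modes -/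
theorem EE_dd_dd_le {w w' g : V → ℝ≥0∞} {S : Cov V} (hS : Gram S g)
    (h1 : ∀ l, 2 * g l ≤ w' l) (h2 : ∀ l, 2 * w' l ≤ w l) (u₁ u₂ : Module.Dual ℝ V)
    {t₁ t₂ : ℝ≥0∞} (ht₁ : t₁ ≠ ∞) (ht₂ : t₂ ≠ ∞) (hu₁ : ∀ l, ‖u₁ l‖ₑ ≤ t₁ * w' l)
    (hu₂ : ∀ l, ‖u₂ l‖ₑ ≤ t₂ * w l) (F : Gr V) (c : ℝ)
    (hF : pnorm w (F - algebraMap ℝ _ c) ≠ ∞) :
    ‖EE S (dd u₁ (dd u₂ F))‖ₑ ≤ t₁ * (t₂ * pnorm w (F - algebraMap ℝ _ c)) := by
  have e : dd u₂ F = dd u₂ (F - algebraMap ℝ _ c) := by rw [map_sub, dd_algebraMap, sub_zero]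
  rw [e]
  set G := F - algebraMap ℝ (Gr V) c
  have h3 := pnorm_dd_le h2 u₂ ht₂ hu₂ G hF
  have h4 : pnorm w' (dd u₂ G) ≠ ∞ := ne_top_of_le_ne_top (ENNReal.mul_ne_top ht₂ hF) h3
  have h5 := pnorm_dd_le h1 u₁ ht₁ hu₁ (dd u₂ G) h4
  refine (EE_le_pnorm hS _).trans (h5.trans ?_)
  gcongr

/-- **last step, PP sector**: real form.  `ZZ` is the partition function of the last scale,
`Z'` the amplitude of the zero-mode reduced sector. -/
theorem pp_last {w w' g : V → ℝ≥0∞} {S : Cov V} (hS : Gram S g)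
    (h1 : ∀ l, 2 * g l ≤ w' l) (h2 : ∀ l, 2 * w' l ≤ w l) (u₁ u₂ : Module.Dual ℝ V)
    {t η Z' : ℝ} (ht : 0 ≤ t) (hu₁ : ∀ l, ‖u₁ l‖ₑ ≤ ENNReal.ofReal t * w' l)
    (hu₂ : ∀ l, ‖u₂ l‖ₑ ≤ ENNReal.ofReal t * w l) (F : Gr V) (c : ℝ)
    (hη : 0 ≤ η) (hF : pnorm w (F - algebraMap ℝ _ c) ≤ ENNReal.ofReal η) :
    |Z' * EE S (dd u₁ (dd u₂ F))| ≤ |Z'| * t ^ 2 * η := by
  have h3 := EE_dd_dd_le hS h1 h2 u₁ u₂ ENNReal.ofReal_ne_top ENNReal.ofReal_ne_top hu₁ hu₂ F c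
    (ne_top_of_le_ne_top ENNReal.ofReal_ne_top hF)
  have h4 : ‖EE S (dd u₁ (dd u₂ F))‖ₑ ≤ ENNReal.ofReal (t ^ 2 * η) := by
    refine h3.trans ?_
    calc ENNReal.ofReal t * (ENNReal.ofReal t * pnorm w (F - algebraMap ℝ _ c))
        ≤ ENNReal.ofReal t * (ENNReal.ofReal t * ENNReal.ofReal η) := by gcongr
      _ = ENNReal.ofReal (t ^ 2 * η) := by
          rw [← ENNReal.ofReal_mul ht, ← ENNReal.ofReal_mul ht]; ring_nf
  have h5 : |EE S (dd u₁ (dd u₂ F))| ≤ t ^ 2 * η := by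
    have h6 : ‖EE S (dd u₁ (dd u₂ F))‖ₑ = ENNReal.ofReal |EE S (dd u₁ (dd u₂ F))| := by
      rw [← Real.norm_eq_abs, ofReal_norm]
    rw [h6] at h4
    exact (ENNReal.ofReal_le_ofReal_iff (by positivity)).1 h4
  rw [abs_mul, mul_assoc]
  gcongr

end Crest.Agent.R165.PPbx63
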