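import Crest.Agent.R165.GDef_387
import Crest.Agent.R165.PPb_63

/-!
# Row 165 (S0250), torus block, PP sector (helper63)

Zero modes against the local weights of `GDef_387`: a field configuration `φ` with `A φ = 0` and
`|φ|₂ ≤ 1` has `|l(φ)| ≤ (a √r)⁻¹ wt l`, so each of the two zero-mode derivations costs
`(a √r)⁻¹` at the last scale `r ~ N`.
-/

set_option autoImplicit false
set_option linter.unusedSectionVars false

noncomputable section

open scoped ENNReal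
open Crest.Agent.R165.Gr0x606 Crest.Agent.R165.Latx683 Crest.Agent.R165.PNormx417
open Crest.Agent.R165.GDefx387

namespace Crest.Agent.R165.PPcx63

variable {G : Type} [CommRing G] [CN G]

/-- a null vector is killed by all powers of `A` -/
theorem iter_zero (w : BW G) {φ : HE G → ℝ} (h : Aop w φ = 0) (n : ℕ) :
    (Aop w)^[n + 1] φ = 0 := by
  induction n with
  | zero => simpa using h
  | succ n ih => rw [Function.iterate_succ_apply', ih, map_zero]

theorem l2_zero : l2 (0 : HE G → ℝ) = 0 := by simp [l2]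

theorem restr_zero (Z : Set (G × G)) : restr Z (0 : HE G → ℝ) = 0 := by
  funext h; simp [restr]

theorem l2_restr_le (Z : Set (G × G)) {φ : HE G → ℝ} (hφ : Summable fun h => φ h ^ 2) :
    l2 (restr Z φ) ≤ l2 φ := by
  unfold l2
  refine Real.sqrt_le_sqrt ?_
  have h1 : ∀ h, restr Z φ h ^ 2 ≤ φ h ^ 2 := by
    intro h
    unfold restr
    split_ifs
    · exact le_rfl
    · simpa using sq_nonneg (φ h)
  exact (Summable.of_nonneg_of_le (fun h => sq_nonneg _) h1 hφ).tsum_le_tsum h1 hφ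

/-- the test seminorm of a null vector is its local Euclidean norm -/
theorem nnB_null_le (w : BW G) (r : ℕ) (x : G × G) {φ : HE G → ℝ} (h : Aop w φ = 0)
    (hφ : Summable fun h => φ h ^ 2) : nnB w r x φ ≤ l2 φ := by
  unfold nnB
  rw [Finset.sum_range_succ']
  have h0 : ∀ n ∈ Finset.range MM, (r : ℝ) ^ (n + 1) *
      l2 (restr (ball x (s1 * r)) ((Aop w)^[n + 1] φ)) = 0 := by
    intro n _
    rw [iter_zero w h, restr_zero, l2_zero, mul_zero]
  rw [Finset.sum_eq_zero h0, zero_add, pow_zero, one_mul]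
  exact l2_restr_le _ hφ

/-- **a normalised null vector is small against the local weight** -/
theorem pair_null_le (w : BW G) {a : ℝ} (ha : 0 < a) {r : ℕ} (hr : 0 < r) (x : G × G)
    {φ : HE G → ℝ} (h : Aop w φ = 0) (hφ : Summable fun h => φ h ^ 2) (h1 : l2 φ ≤ 1)
    (l : Fld G) :
    ENNReal.ofReal |pair l φ| ≤ ENNReal.ofReal (a * Real.sqrt r)⁻¹ * wt w a r x l := by
  have hr' : (0 : ℝ) < Real.sqrt r := Real.sqrt_pos.2 (by exact_mod_cast hr)
  have hpos : 0 < a * Real.sqrt r := mul_pos ha hr'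
  unfold wt
  rw [← mul_assoc, ← ENNReal.ofReal_mul (inv_nonneg.2 hpos.le), inv_mul_cancel₀ hpos.ne',
    ENNReal.ofReal_one, one_mul]
  exact le_iSup (fun f : {f : HE G → ℝ // nnB w r x f ≤ 1} => ENNReal.ofReal |pair l f.1|)
    ⟨φ, (nnB_null_le w r x h hφ).trans h1⟩

/-- the same relative to a set of faces -/
theorem pair_null_le_wU (w : BW G) {a : ℝ} (ha : 0 < a) {r : ℕ} (hr : 0 < r)
    (U : Finset (G × G)) {φ : HE G → ℝ} (h : Aop w φ = 0) (hφ : Summable fun h => φ h ^ 2)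
    (h1 : l2 φ ≤ 1) (l : Fld G) :
    ENNReal.ofReal |pair l φ| ≤ ENNReal.ofReal (a * Real.sqrt r)⁻¹ * wU w a r U l := by
  classical
  have hr' : (0 : ℝ) < Real.sqrt r := Real.sqrt_pos.2 (by exact_mod_cast hr)
  have hpos : 0 < (a * Real.sqrt r)⁻¹ := inv_pos.2 (mul_pos ha hr')
  have hne : ENNReal.ofReal (a * Real.sqrt r)⁻¹ ≠ 0 := by
    rw [Ne, ENNReal.ofReal_eq_zero, not_le]; exact hpos
  unfold wU
  rw [ENNReal.mul_iInf_of_ne hne ENNReal.ofReal_ne_top]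
  refine le_iInf fun x => ?_
  rw [ENNReal.mul_iInf_of_ne hne ENNReal.ofReal_ne_top]
  refine le_iInf fun _ => ?_
  split_ifs
  · exact pair_null_le w ha hr x h hφ h1 l
  · rw [ENNReal.mul_top hne]; exact le_top

/-- evaluation at a configuration, as a linear form -/
def ev (φ : HE G → ℝ) : Module.Dual ℝ (Fld G) := Finsupp.linearCombination ℝ φ

theorem ev_apply (φ : HE G → ℝ) (l : Fld G) : ev φ l = pair l φ := by
  rw [ev, Finsupp.linearCombination_apply]; rfl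

theorem enorm_ev (φ : HE G → ℝ) (l : Fld G) : ‖ev φ l‖ₑ = ENNReal.ofReal |pair l φ| := by
  rw [ev_apply, ← Real.norm_eq_abs, ofReal_norm]

/-- **last step in the sector with two zero modes** (weights of `GDef_387`): `φ₁, φ₂` normalised
null vectors of `A`, `g` the Gram weight of the remaining covariance, `a₀ < a₁ < a₂` amplitudes
with `2 g ≤ wU a₁`, `2 wU a₁ ≤ wU a₂`. -/
theorem pp_last_wU (w : BW G) {a₁ a₂ : ℝ} (ha₁ : 0 < a₁) {r : ℕ} (hr : 0 < r)
    (U : Finset (G × G)) {S : Cov (Fld G)} {g : Fld G → ℝ≥0∞} (hS : Gram S g)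
    (h1 : ∀ l, 2 * g l ≤ wU w a₁ r U l) (h2 : ∀ l, 2 * wU w a₁ r U l ≤ wU w a₂ r U l)
    {φ₁ φ₂ : HE G → ℝ} (hφ₁ : Aop w φ₁ = 0) (hφ₂ : Aop w φ₂ = 0)
    (hs₁ : Summable fun h => φ₁ h ^ 2) (hs₂ : Summable fun h => φ₂ h ^ 2)
    (hn₁ : l2 φ₁ ≤ 1) (hn₂ : l2 φ₂ ≤ 1) {η Z' : ℝ} (F : Gr (Fld G)) (c : ℝ)
    (hη : 0 ≤ η) (hF : pnorm (wU w a₂ r U) (F - algebraMap ℝ _ c) ≤ ENNReal.ofReal η) :
    |Z' * EE S (dd (ev φ₁) (dd (ev φ₂) F))| ≤ |Z'| / r * (η / a₁ ^ 2) := by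
  have hr' : (0 : ℝ) < Real.sqrt r := Real.sqrt_pos.2 (by exact_mod_cast hr)
  have ht : 0 ≤ (a₁ * Real.sqrt r)⁻¹ := inv_nonneg.2 (mul_pos ha₁ hr').le
  have hu₁ : ∀ l, ‖ev φ₁ l‖ₑ ≤ ENNReal.ofReal (a₁ * Real.sqrt r)⁻¹ * wU w a₁ r U l := fun l => by
    rw [enorm_ev]; exact pair_null_le_wU w ha₁ hr U hφ₁ hs₁ hn₁ l
  have hu₂ : ∀ l, ‖ev φ₂ l‖ₑ ≤ ENNReal.ofReal (a₁ * Real.sqrt r)⁻¹ * wU w a₂ r U l := fun l => by
    rw [enorm_ev]
    refine (pair_null_le_wU w ha₁ hr U hφ₂ hs₂ hn₂ l).trans ?_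
    gcongr
    refine le_trans ?_ (h2 l)
    exact le_mul_of_one_le_left (zero_le) (by norm_num)
  refine (PPbx63.pp_last hS h1 h2 (ev φ₁) (ev φ₂) ht hu₁ hu₂ F c hη hF).trans (le_of_eq ?_)
  have h4 : Real.sqrt r ^ 2 = r := Real.sq_sqrt (Nat.cast_nonneg r)
  rw [inv_pow, mul_pow, h4]
  field_simp

end Crest.Agent.R165.PPcx63
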