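import Crest.Agent.R165.TorusJ2_922
import Crest.Agent.R165.Sym_541

/-!
# Row 165 (S0250), torus clause (helper63)

Bookkeeping of the four sectors on the torus.  `(0,0)` is the sector with the zero modes.

* `sector_tendsto`  : three positive sectors with the same limit, the fourth negligible
* `torBonds_tendsto`: the torus clause of `Red2x541.PRatioB` / `ULimB` for a finite set of bonds
-/

set_option autoImplicit false

noncomputable section

open Filter Topology Finset
open Crest.ProbabilityR.IsingModel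

namespace Crest.Agent.R165.PPdx63

/-- three positive sectors with the same limit, the fourth one negligible -/
theorem sector_tendsto {f g : Fin 2 × Fin 2 → ℕ → ℝ} {l : ℝ}
    (hpos : ∀ s, s ≠ (0, 0) → ∀ᶠ N in atTop, 0 < g s N)
    (hlim : ∀ s, s ≠ (0, 0) → Tendsto (fun N => f s N / g s N) atTop (𝓝 l))
    (hf : Tendsto (fun N => f (0, 0) N / g (1, 1) N) atTop (𝓝 0))
    (hg : Tendsto (fun N => g (0, 0) N / g (1, 1) N) atTop (𝓝 0)) :
    Tendsto (fun N => (∑ s, f s N) / ∑ s, g s N) atTop (𝓝 l) := by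
  have p11 := hpos (1, 1) (by decide)
  have p10 := hpos (1, 0) (by decide)
  have p01 := hpos (0, 1) (by decide)
  have q11 := hlim (1, 1) (by decide)
  have q10 := hlim (1, 0) (by decide)
  have q01 := hlim (0, 1) (by decide)
  rw [Metric.tendsto_atTop'] at *
  intro ε hε
  -- choose a common index
  have hε4 : 0 < ε / 8 := by positivity
  set δ := min (1 / 2) (ε / (8 * (1 + |l|))) with hδ
  have hδ0 : 0 < δ := by
    rw [hδ]; refine lt_min (by norm_num) ?_; positivity
  obtain ⟨N1, h1⟩ := q11 _ hε4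
  obtain ⟨N2, h2⟩ := q10 _ hε4
  obtain ⟨N3, h3⟩ := q01 _ hε4
  obtain ⟨N4, h4⟩ := hf _ hε4
  obtain ⟨N5, h5⟩ := hg _ hδ0
  obtain ⟨N6, h6⟩ := eventually_atTop.1 (p11.and (p10.and p01))
  refine ⟨max N1 (max N2 (max N3 (max N4 (max N5 N6)))), fun n hn => ?_⟩
  have a1 := h1 n (by omega)
  have a2 := h2 n (by omega)
  have a3 := h3 n (by omega)
  have a4 := h4 n (by omega)
  have a5 := h5 n (by omega)
  obtain ⟨b1, b2, b3⟩ := h6 n (by omega)
  rw [Real.dist_eq] at a1 a2 a3 a4 a5 ⊢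
  rw [sub_zero] at a4 a5
  have hl1 : 0 < 1 + |l| := by positivity
  -- unpack
  have c1 : |f (1, 1) n - l * g (1, 1) n| ≤ ε / 8 * g (1, 1) n := by
    have : f (1, 1) n - l * g (1, 1) n = (f (1, 1) n / g (1, 1) n - l) * g (1, 1) n := by
      field_simp
    rw [this, abs_mul, abs_of_pos b1]
    exact mul_le_mul_of_nonneg_right a1.le b1.le
  have c2 : |f (1, 0) n - l * g (1, 0) n| ≤ ε / 8 * g (1, 0) n := by
    have : f (1, 0) n - l * g (1, 0) n = (f (1, 0) n / g (1, 0) n - l) * g (1, 0) n := by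
      field_simp
    rw [this, abs_mul, abs_of_pos b2]
    exact mul_le_mul_of_nonneg_right a2.le b2.le
  have c3 : |f (0, 1) n - l * g (0, 1) n| ≤ ε / 8 * g (0, 1) n := by
    have : f (0, 1) n - l * g (0, 1) n = (f (0, 1) n / g (0, 1) n - l) * g (0, 1) n := by
      field_simp
    rw [this, abs_mul, abs_of_pos b3]
    exact mul_le_mul_of_nonneg_right a3.le b3.le
  have c4 : |f (0, 0) n| ≤ ε / 8 * g (1, 1) n := by
    have : f (0, 0) n = f (0, 0) n / g (1, 1) n * g (1, 1) n := by field_simp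
    rw [this, abs_mul, abs_of_pos b1]
    exact mul_le_mul_of_nonneg_right a4.le b1.le
  have c5 : |g (0, 0) n| ≤ δ * g (1, 1) n := by
    have : g (0, 0) n = g (0, 0) n / g (1, 1) n * g (1, 1) n := by field_simp
    rw [this, abs_mul, abs_of_pos b1]
    exact mul_le_mul_of_nonneg_right a5.le b1.le
  have hsumf : ∑ s, f s n = f (0, 0) n + f (0, 1) n + f (1, 0) n + f (1, 1) n := by
    rw [Fintype.sum_prod_type]
    simp only [Fin.sum_univ_two]
    ring
  have hsumg : ∑ s, g s n = g (0, 0) n + g (0, 1) n + g (1, 0) n + g (1, 1) n := by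
    rw [Fintype.sum_prod_type]
    simp only [Fin.sum_univ_two]
    ring
  have hδ1 : δ ≤ 1 / 2 := min_le_left _ _
  have hδ2 : |l| * δ ≤ ε / 8 := by
    have : δ ≤ ε / (8 * (1 + |l|)) := min_le_right _ _
    calc |l| * δ ≤ (1 + |l|) * (ε / (8 * (1 + |l|))) := by
          apply mul_le_mul (by linarith) this hδ0.le hl1.le
      _ = ε / 8 := by field_simp
  have c5' : |l * g (0, 0) n| ≤ ε / 8 * g (1, 1) n := by
    rw [abs_mul]
    calc |l| * |g (0, 0) n| ≤ |l| * (δ * g (1, 1) n) := by gcongr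
      _ = (|l| * δ) * g (1, 1) n := by ring
      _ ≤ _ := by gcongr
  set D := g (0, 0) n + g (0, 1) n + g (1, 0) n + g (1, 1) n with hD
  have hDpos : (1 / 2) * (g (0, 1) n + g (1, 0) n + g (1, 1) n) ≤ D := by
    have h7 := (abs_le.1 c5).1
    have h8 : δ * g (1, 1) n ≤ 1 / 2 * g (1, 1) n := by gcongr
    rw [hD]
    nlinarith
  have hD0 : 0 < D := by nlinarith
  rw [hsumf, hsumg]
  have hnum : f (0, 0) n + f (0, 1) n + f (1, 0) n + f (1, 1) n - l * D =
      f (0, 0) n - l * g (0, 0) n + (f (0, 1) n - l * g (0, 1) n) + (f (1, 0) n - l * g (1, 0) n)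
        + (f (1, 1) n - l * g (1, 1) n) := by
    rw [hD]; ring
  have hbound : |f (0, 0) n + f (0, 1) n + f (1, 0) n + f (1, 1) n - l * D| ≤
      3 * (ε / 8) * (g (0, 1) n + g (1, 0) n + g (1, 1) n) := by
    rw [hnum]
    have t1 := abs_add_le (f (0, 0) n - l * g (0, 0) n + (f (0, 1) n - l * g (0, 1) n)
      + (f (1, 0) n - l * g (1, 0) n)) (f (1, 1) n - l * g (1, 1) n)
    have t2 := abs_add_le (f (0, 0) n - l * g (0, 0) n + (f (0, 1) n - l * g (0, 1) n))
      (f (1, 0) n - l * g (1, 0) n)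
    have t3 := abs_add_le (f (0, 0) n - l * g (0, 0) n) (f (0, 1) n - l * g (0, 1) n)
    have t4 := abs_sub (f (0, 0) n) (l * g (0, 0) n)
    nlinarith
  have hfin : (f (0, 0) n + f (0, 1) n + f (1, 0) n + f (1, 1) n) / D - l =
      (f (0, 0) n + f (0, 1) n + f (1, 0) n + f (1, 1) n - l * D) / D := by
    field_simp
  rw [hfin, abs_div, abs_of_pos hD0, div_lt_iff₀ hD0]
  refine lt_of_le_of_lt hbound ?_
  nlinarith

open Crest.Agent.R165.TorusCombx922 Crest.Agent.R165.TorusJ1x922 Crest.Agent.R165.TorusJ2x922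
open Crest.Agent.R165.J4RRx653 (RR)

/-- the sector weight of an element of the eps-algebra at criticality -/
def ZS {L : ℕ} [NeZero L] (s : Fin 2 × Fin 2) (F : RR (Ed L)) : ℝ :=
  ZE (sy s fun _ => Latx683.xc) (THG (sy s fun _ => Latx683.xc) F)

theorem Z4_eq {L : ℕ} [NeZero L] (F : RR (Ed L)) : Z4 F = ∑ s, ZS s F := rfl

/-- **torus clause**: `F N` represents (bonds of `S`) times the perturbation, `G N` the
perturbation, on the torus of side `N + 1`; `f s N, g s N` are their weights in the sector `s`, up to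
a common nonzero factor. -/
theorem torBonds_tendsto {J : ℝ} (hJ : 0 < J) {R : ℕ} {V : Finset (ℤ × ℤ) → ℝ}
    (hV : Topx683.VHyp R V) (lam β : ℝ) (S : Finset ((ℤ × ℤ) × Fin 2))
    {f g : Fin 2 × Fin 2 → ℕ → ℝ} {l : ℝ}
    (hrep : ∀ᶠ N : ℕ in atTop, ∃ F G : RR (Ed (N + 1)), ∃ c : ℝ, c ≠ 0 ∧
      (∀ σ, evT σ F = (∏ e ∈ S, Symx541.ep e fun z => σ (toTorus (N + 1) z)) *
        Real.exp (pertT J lam β R V σ)) ∧
      (∀ σ, evT σ G = Real.exp (pertT J lam β R V σ)) ∧
      (∀ s, f s N = c * ZS s F) ∧ (∀ s, g s N = c * ZS s G))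
    (hpos : ∀ s, s ≠ (0, 0) → ∀ᶠ N in atTop, 0 < g s N)
    (hlim : ∀ s, s ≠ (0, 0) → Tendsto (fun N => f s N / g s N) atTop (𝓝 l))
    (hf : Tendsto (fun N => f (0, 0) N / g (1, 1) N) atTop (𝓝 0))
    (hg : Tendsto (fun N => g (0, 0) N / g (1, 1) N) atTop (𝓝 0)) :
    Tendsto (fun N : ℕ => Symx541.torBonds N J lam R V β S) atTop (𝓝 l) := by
  refine (sector_tendsto hpos hlim hf hg).congr' ?_
  filter_upwards [hrep, eventually_ge_atTop 1] with N hN h1
  obtain ⟨F, G, c, hc, hF, hG, hf', hg'⟩ := hN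
  have hTr : J4Defx653.TrInv V := hV.trans
  have hRn : J4Defx653.Rng R V := hV.range
  unfold Symx541.torBonds
  rw [torusExpect_RR (by omega) hJ.ne' lam β R V hTr hRn _ F G hF hG, Z4_eq, Z4_eq]
  simp only [hf', hg', ← Finset.mul_sum]
  exact mul_div_mul_left _ _ hc

end Crest.Agent.R165.PPdx63
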