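import Crest.Agent.R165.PlaneCoef_901
import Crest.Agent.R165.Quad3_897
import Crest.Agent.R165.Extr_417
import Crest.Agent.R165.LocBridge_417

/-!
# Row 165 (S0250), block G4: the plane step, norm bounds

* `mx a r r' Γ Q` : the norm of a family with the polymers measured at scale `r` and the atoms at
  scale `r'`; `nk a r Γ = mx a r r Γ`
* `PHyp` : the hypotheses on one step in the plane
* `mx_cvG`, `mx_Ql`, `nk_Ql`, `mx_base`
-/

set_option autoImplicit false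
set_option linter.unusedSectionVars false

noncomputable section

open scoped ENNReal
open Crest.Agent.R165.Gr0x606 Crest.Agent.R165.Gr1x606 Crest.Agent.R165.Latx683
open Crest.Agent.R165.PNormx417 Crest.Agent.R165.GDefx387 Crest.Agent.R165.GeOpsx337
open Crest.Agent.R165.KFlowx337 Crest.Agent.R165.Packx915 Crest.Agent.R165.Bridgex915
open Crest.Agent.R165.NSumx915
open Crest.Agent.R165.PlaneModesx901 Crest.Agent.R165.PlaneLocx901 Crest.Agent.R165.PlaneCovx901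
open Crest.Agent.R165.PlaneSumx901 Crest.Agent.R165.PlaneCoefx901 Crest.Agent.R165.W2x812
open Crest.Agent.R165.Locx901 Crest.Agent.R165.GBulkx417

namespace Crest.Agent.R165.PStepx417

/-- families of even activities -/
abbrev Fam : Type := Finset Fc → Ge (Fld ℤ)

/-- the underlying family of Grassmann elements -/
def cof (Q : Fam) : Finset Fc → Gr (Fld ℤ) := fun U => (Q U : Gr (Fld ℤ))

/-- polymers at scale `r`, atoms at scale `r'` -/
def mx (a : ℝ) (r r' : ℕ) (Γ : ℝ≥0∞) (Q : Fam) : ℝ≥0∞ :=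
  NN fd r Γ fun U => pG (wU w₀ a r' U) (Q U)

/-- the norm of a family -/
def nk (a : ℝ) (r : ℕ) (Γ : ℝ≥0∞) (Q : Fam) : ℝ≥0∞ := mx a r r Γ Q

section basic

variable {a : ℝ} {r r' : ℕ} {Γ : ℝ≥0∞}

theorem NK_cof (Q : Fam) : NK w₀ a r Γ (fun _ => True) (cof Q) = nk a r Γ Q := by
  rw [NK_eq_NN, nk, mx]
  congr 1
  funext U
  rw [act_of trivial]
  rfl

theorem mx_mono {Q Q' : Fam} {s s' : ℕ}
    (h : ∀ U, U.Nonempty → pG (wU w₀ a s U) (Q U) ≤ pG (wU w₀ a s' U) (Q' U)) :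
    mx a r s Γ Q ≤ mx a r s' Γ Q' := Quad2x897.NN_mono_ne h

theorem mx_add_le (Q Q' : Fam) : mx a r r' Γ (fun U => Q U + Q' U) ≤
    mx a r r' Γ Q + mx a r r' Γ Q' :=
  (NN_mono fun U => pG_add_le _ _ _).trans (NN_add_le _ _)

theorem mx_sub_le (Q Q' : Fam) : mx a r r' Γ (fun U => Q U - Q' U) ≤
    mx a r r' Γ Q + mx a r r' Γ Q' :=
  (NN_mono fun U => pG_sub_le _ _ _).trans (NN_add_le _ _)

theorem mx_zero : mx a r r' Γ (fun _ => 0) = 0 := by
  rw [mx]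
  simp only [pG_zero]
  exact NN_zero

theorem nk_add_le (Q Q' : Fam) : nk a r Γ (fun U => Q U + Q' U) ≤ nk a r Γ Q + nk a r Γ Q' :=
  mx_add_le Q Q'

theorem nk_sub_le (Q Q' : Fam) : nk a r Γ (fun U => Q U - Q' U) ≤ nk a r Γ Q + nk a r Γ Q' :=
  mx_sub_le Q Q'

theorem pG_le_mx (hΓ : 1 ≤ Γ) (Q : Fam) {U : Finset Fc} (hU : U.Nonempty) :
    pG (wU w₀ a r' U) (Q U) ≤ mx a r r' Γ Q := Quad2x897.nm_le_NN pd_fd hΓ le_rfl hU

end basic

/-- hypotheses on one step in the plane -/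
structure PHyp (a : ℝ) (r r' R R' : ℕ) (Γ : ℝ≥0∞) (S : Cov (Fld ℤ)) (g : Fld ℤ → ℝ≥0∞)
    (p0 p1 q2 q0 C : ℝ≥0∞) (Cb : ℝ) : Prop where
  a_pos : 0 < a
  r_pos : 1 ≤ r
  hR : 4 * R + 3 * r + 2 ≤ r'
  hRR : R ≤ R'
  Γ_ge : 3 ≤ Γ
  Γ_top : Γ ≠ ∞
  gram : Gram S g
  blk : BulkHyp w₀ a a r r' g (fun f => (md f).P0) (fun f => (md f).P1) p0 p1 q2 q0 C
  num : BulkNum p0 p1 q2 q0 C
  kap_le : kap p0 p1 q2 q0 C ≤ 1
  reg : BkReg Cb

/-- linear part of the remainder -/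
def QlS (S : Cov (Fld ℤ)) (r : ℕ) (Q : Fam) (U : Finset Fc) : Gr (Fld ℤ) :=
  Qlin S (fun f => loc2 (md f).P0 (md f).P1) r (cof Q) U

theorem loc2_md (f : Fc) : loc2 (md f).P0 (md f).P1 = LocAt f := by
  refine LinearMap.ext fun F => ?_
  rw [loc2_eq_Loc]; rfl

section step

variable {a : ℝ} {r r' R R' : ℕ} {Γ : ℝ≥0∞} {S : Cov (Fld ℤ)} {g : Fld ℤ → ℝ≥0∞}
  {p0 p1 q2 q0 C : ℝ≥0∞} {Cb : ℝ}

theorem PHyp.one_le (h : PHyp a r r' R R' Γ S g p0 p1 q2 q0 C Cb) : 1 ≤ Γ :=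
  le_trans (by norm_num) h.Γ_ge

theorem PHyp.sum_ne (h : PHyp a r r' R R' Γ S g p0 p1 q2 q0 C Cb) : p0 + q0 ≠ 0 := fun h0 =>
  h.num.p0_ne (add_eq_zero.1 h0).1

/-- the convolution does not increase the norm -/
theorem mx_cvG (h : PHyp a r r' R R' Γ S g p0 p1 q2 q0 C Cb) (K : Fam) :
    mx a r r' Γ (fun U => cvG S (K U)) ≤ nk a r Γ K :=
  NN_mono fun U => by
    rw [pG_def, coe_cvG, pG_def]
    exact pnorm_any h.gram h.blk.W0 h.blk.W1 h.sum_ne h.num.sum_le U _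

theorem fin_P0 (f : Fc) : FiniteDimensional ℝ (LinearMap.range (md f).P0) := finDim_range_P0 (md f)

theorem rank_P0 (f : Fc) : Module.finrank ℝ (LinearMap.range (md f).P0) ≤ 2 := by
  have := finrank_range_P0 (md f)
  simpa using this

theorem isEv_cof (Q : Fam) (U : Finset Fc) : IsEv (cof Q U) := (Q U).2

/-- size of the linear remainder, mixed scales -/
theorem mx_Ql (h : PHyp a r r' R R' Γ S g p0 p1 q2 q0 C Cb) (Q Ql : Fam)
    (hQl : ∀ U, (Ql U : Gr (Fld ℤ)) = QlS S r Q U) : mx a r r' Γ Ql ≤ nk a r Γ Q :=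
  Quad2x897.NN_mono_ne fun U hU => by
    rw [pG_def, hQl, pG_def]
    by_cases hs : size r U ≤ 1
    · refine (pnorm_Qlin_small h.blk h.num h.gram fin_P0 rank_P0 (isEv_cof Q) hU hs).trans ?_
      exact mul_le_of_le_one_left zero_le h.kap_le
    · exact pnorm_Qlin_large h.blk.W0 h.blk.W1 h.sum_ne h.num.sum_le h.gram _ (cof Q) hs

/-- contraction factor of the plane step -/
def κe (r r' : ℕ) (Γ p0 p1 q2 q0 C : ℝ≥0∞) : ℝ≥0∞ :=
  (((2 * (r' / r) + 3) ^ 2 : ℕ) : ℝ≥0∞) * (kap p0 p1 q2 q0 C + Γ⁻¹)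

/-- **contraction of the linear remainder** -/
theorem nk_Ql (h : PHyp a r r' R R' Γ S g p0 p1 q2 q0 C Cb) (Q Ql : Fam)
    (hQl : ∀ U, (Ql U : Gr (Fld ℤ)) = QlS S r Q U) (hQ0 : Q ∅ = 0)
    (hconn : ∀ U, Q U ≠ 0 → Packx915.Conn fd R U) :
    nk a r' Γ Ql ≤ κe r r' Γ p0 p1 q2 q0 C * nk a r Γ Q := by
  have h1 := NK_Qlin_le h.blk h.num h.gram fin_P0 rank_P0 (isEv_cof Q)
    (show cof Q ∅ = 0 by rw [cof, hQ0]; rfl) (R := R)
    (fun U hU => hconn U fun h0 => hU (by rw [cof, h0]; rfl)) h.r_pos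
    (by have := h.hR; omega) h.one_le h.Γ_top (fun _ => True)
  rw [NK_cof] at h1
  refine le_trans (le_of_eq ?_) h1
  rw [← NK_cof]
  congr 1
  funext U
  exact hQl U

/-- families which live on single faces -/
theorem mx_single_le {K : Fam} (hK : ∀ U, (∀ f, U ≠ {f}) → K U = 0) (hrr : r ≤ r') :
    mx a r r' Γ K ≤ nk a r' Γ K := by
  refine iSup_mono fun f => ENNReal.tsum_le_tsum fun U => ?_
  by_cases hU : ∃ x, U = {x}
  · obtain ⟨x, rfl⟩ := hU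
    by_cases hn : near fd r f {x}
    · rw [Set.indicator_of_mem (by exact hn), Set.indicator_of_mem
        (show ({x} : Finset Fc) ∈ {U | near fd r' f U} from hn.mono subset_rfl hrr),
        pack_singleton, pack_singleton]
    · rw [Set.indicator_of_notMem (by exact hn)]; exact zero_le
  · push Not at hU
    have h0 : Set.indicator {U : Finset Fc | near fd r f U} (fun U =>
        Γ ^ pack fd r U * pG (wU w₀ a r' U) (K U)) U = 0 :=
      Set.indicator_apply_eq_zero.2 fun _ => by rw [hK U hU, pG_zero, mul_zero]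
    rw [h0]; exact zero_le

/-- size of the local forms -/
theorem nk_base_le (hreg : BkReg Cb) (ha : 0 ≤ a) (hr : 1 ≤ r) {bG : Fam} {ν z : ℝ}
    (hb : ∀ U, (bG U : Gr (Fld ℤ)) = base ν z U) :
    nk a r Γ bG ≤ Γ * ENNReal.ofReal (9 * a ^ 2 * Cb ^ 2 * (|ν| * r + 2 * |z|)) := by
  have h := NK_base_le hreg ha hr Γ ν z
  rw [← NK_cof]
  refine le_trans (le_of_eq ?_) h
  congr 1
  funext U
  exact hb U

theorem mx_base_le (hreg : BkReg Cb) (ha : 0 ≤ a) (hr : 1 ≤ r') (hrr : r ≤ r') {bG : Fam} {ν z : ℝ}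
    (hb : ∀ U, (bG U : Gr (Fld ℤ)) = base ν z U) :
    mx a r r' Γ bG ≤ Γ * ENNReal.ofReal (9 * a ^ 2 * Cb ^ 2 * (|ν| * r' + 2 * |z|)) := by
  refine (mx_single_le (fun U hU => ?_) hrr).trans (nk_base_le hreg ha hr hb)
  exact Subtype.ext (by rw [hb, base_of_ne ν z hU]; rfl)

/-- **coefficients** -/
theorem alK_le (h : PHyp a r r' R R' Γ S g p0 p1 q2 q0 C Cb) {Q : Fam} (hsym : PlSym (cof Q))
    (hQ : nk a r Γ Q ≠ ∞) : ENNReal.ofReal r * ‖alK r fun U => conv S (cof Q U)‖ₑ ≤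
      ENNReal.ofReal (PlaneCoefx901.cM / a ^ 2) * nk a r Γ Q := by
  rw [← NK_cof] at hQ ⊢
  exact alK_conv_le h.a_pos h.r_pos h.one_le h.gram h.num.q0_le
    (fun U l => le_mul_wU h.num.q0_ne fun x _ hl => h.blk.W0 x l hl) hsym hQ

theorem beK_le (h : PHyp a r r' R R' Γ S g p0 p1 q2 q0 C Cb) {Q : Fam} (hsym : PlSym (cof Q))
    (hQ : nk a r Γ Q ≠ ∞) : ‖beK r fun U => conv S (cof Q U)‖ₑ ≤
      ENNReal.ofReal (PlaneCoefx901.cK / a ^ 2) * nk a r Γ Q := by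
  rw [← NK_cof] at hQ ⊢
  exact beK_conv_le h.a_pos h.r_pos h.one_le h.gram h.num.q0_le
    (fun U l => le_mul_wU h.num.q0_ne fun x _ hl => h.blk.W0 x l hl) hsym hQ

end step

end Crest.Agent.R165.PStepx417
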