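import Crest.Agent.R165.PStep1_417

/-!
# Row 165 (S0250), block G4: the plane step, nonlinear bounds

* `Hf S K`, `Af Lo r H`, `Nx` : convolved activities, extraction exponent, next activities
* `DData` : the data `(n, z, Q)` of one step, `n = r ν`; `Ident` : the identity `H + A = base' + Ql`
* `mx_H_le`, `mx_A_le` : linear bounds of `H` and `A`
* `nk_rem_le`, `nk_rem_lip` : quadratic and Lipschitz bounds of `K' - H - A`
* `nk_next_le`, `nk_next_lip` : bounds of the next remainder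
-/

set_option autoImplicit false
set_option linter.unusedSectionVars false

noncomputable section

open scoped ENNReal
open Crest.Agent.R165.Gr0x606 Crest.Agent.R165.Gr1x606 Crest.Agent.R165.Latx683
open Crest.Agent.R165.PNormx417 Crest.Agent.R165.GDefx387 Crest.Agent.R165.GeOpsx337
open Crest.Agent.R165.KFlowx337 Crest.Agent.R165.Packx915 Crest.Agent.R165.Bridgex915
open Crest.Agent.R165.NSumx915 Crest.Agent.R165.KStepx892 Crest.Agent.R165.ExpGx337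
open Crest.Agent.R165.PlaneModesx901 Crest.Agent.R165.PlaneLocx901 Crest.Agent.R165.PlaneCovx901
open Crest.Agent.R165.PlaneSumx901 Crest.Agent.R165.PlaneCoefx901 Crest.Agent.R165.W2x812
open Crest.Agent.R165.Locx901 Crest.Agent.R165.GBulkx417

namespace Crest.Agent.R165.PStepx417

/-! ### the maps of one step -/

section maps

variable (Lo : Fc → Ge (Fld ℤ) →ₗ[ℝ] Ge (Fld ℤ))

/-- extraction in the plane -/
def eP (r : ℕ) : Extr Fc (Fld ℤ) := exF (fun _ => True) Lo r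

/-- extraction exponent -/
def Af (r : ℕ) (H : Fam) : Fam := AA (vac0 (Fld ℤ)) (eP Lo r) H

/-- next activities -/
def Nx (r R R' : ℕ) (H : Fam) : Fam :=
  KK (fun a b => fd a b ≤ R) (fun a b => fd a b ≤ R') H fun U => gexp (Af Lo r H U) - 1

/-- remainder of the next activities after the linear part -/
def Rm (r R R' : ℕ) (H : Fam) (U : Finset Fc) : Ge (Fld ℤ) := Nx Lo r R R' H U - H U - Af Lo r H U

theorem Af_sub (r : ℕ) (H H' : Fam) (U : Finset Fc) :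
    Af Lo r (fun U => H U - H' U) U = Af Lo r H U - Af Lo r H' U := by
  simp only [Af, AA, Extr.gain, Extr.lost, map_sub, Finset.sum_sub_distrib]
  abel

end maps

/-- the hypotheses on one step together with the scale ratio `L` -/
structure PStep (a : ℝ) (L r r' R R' : ℕ) (Γ : ℝ≥0∞) (S : Cov (Fld ℤ)) (g : Fld ℤ → ℝ≥0∞)
    (p0 p1 q2 q0 C : ℝ≥0∞) (Cb : ℝ) : Prop extends
    PHyp a r r' R R' Γ S g p0 p1 q2 q0 C Cb where
  ratio : r' = L * r
  range : R' ≤ L * r'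

/-- an element `(n, z, Q)` of the state space, with the families of its local forms -/
structure DData (r : ℕ) where
  /-- `n = r ν` -/
  n : ℝ
  /-- field strength -/
  z : ℝ
  /-- remainder -/
  Q : Fam

section data

variable {a : ℝ} {L r r' R R' : ℕ} {Γ : ℝ≥0∞} {S : Cov (Fld ℤ)} {g : Fld ℤ → ℝ≥0∞}
  {p0 p1 q2 q0 C : ℝ≥0∞} {Cb : ℝ}
  {Lo : Fc → Ge (Fld ℤ) →ₗ[ℝ] Ge (Fld ℤ)} {bG : ℝ → ℝ → Fam} {Ql : (Fam) → Fam}

/-- activities with the local forms -/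
def Kf (bG : ℝ → ℝ → Fam) (ν z : ℝ) (Q : Fam) : Fam := fun U => bG ν z U + Q U

/-- convolved activities -/
def Hf (S : Cov (Fld ℤ)) (K : Fam) : Fam := fun U => cvG S (K U)

/-- the algebraic facts used in the estimates -/
structure Ident (Lo : Fc → Ge (Fld ℤ) →ₗ[ℝ] Ge (Fld ℤ)) (bG : ℝ → ℝ → Fam) (Ql : Fam → Fam)
    (r : ℕ) (S : Cov (Fld ℤ)) : Prop where
  coe_bG : ∀ ν z U, (bG ν z U : Gr (Fld ℤ)) = base ν z U
  coe_Ql : ∀ Q U, (Ql Q U : Gr (Fld ℤ)) = QlS S r Q U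
  id1 : ∀ ν z Q, PlSym (cof Q) → ∀ U, Hf S (Kf bG ν z Q) U + Af Lo r (Hf S (Kf bG ν z Q)) U =
    bG (ν + alK r fun U => conv S (cof Q U)) (z + beK r fun U => conv S (cof Q U)) U + Ql Q U

/-- constant of the local forms -/
def cBs (a Cb : ℝ) : ℝ := 9 * a ^ 2 * Cb ^ 2

/-- constant in the bound of `H` -/
def cH (a Cb : ℝ) (Γ : ℝ≥0∞) : ℝ≥0∞ := Γ * ENNReal.ofReal (cBs a Cb * 3) + 1

/-- constant in the bound of the new local forms -/
def cN (a Cb : ℝ) (L : ℕ) (Γ : ℝ≥0∞) : ℝ≥0∞ :=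
  Γ * ENNReal.ofReal (cBs a Cb * (L * (1 + PlaneCoefx901.cM / a ^ 2) +
    2 * (1 + PlaneCoefx901.cK / a ^ 2)))

/-- constant in the bound of `A` -/
def cA (a Cb : ℝ) (L : ℕ) (Γ : ℝ≥0∞) : ℝ≥0∞ := cN a Cb L Γ + 1 + cH a Cb Γ

theorem cBs_nonneg (a Cb : ℝ) : 0 ≤ cBs a Cb := by unfold cBs; positivity

theorem cM_nonneg : 0 ≤ PlaneCoefx901.cM := by unfold PlaneCoefx901.cM; positivity
theorem cK_nonneg : 0 ≤ PlaneCoefx901.cK := by unfold PlaneCoefx901.cK; positivity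

theorem cH_top {a Cb : ℝ} {Γ : ℝ≥0∞} (h : Γ ≠ ∞) : cH a Cb Γ ≠ ∞ :=
  ENNReal.add_ne_top.2 ⟨ENNReal.mul_ne_top h ENNReal.ofReal_ne_top, ENNReal.one_ne_top⟩

theorem cN_top {a Cb : ℝ} {Γ : ℝ≥0∞} (h : Γ ≠ ∞) : cN a Cb L Γ ≠ ∞ :=
  ENNReal.mul_ne_top h ENNReal.ofReal_ne_top

theorem cA_top {a Cb : ℝ} {Γ : ℝ≥0∞} (h : Γ ≠ ∞) : cA a Cb L Γ ≠ ∞ :=
  ENNReal.add_ne_top.2 ⟨ENNReal.add_ne_top.2 ⟨cN_top h, ENNReal.one_ne_top⟩, cH_top h⟩

/-- real form of the coefficient bounds -/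
theorem coef_real (h : PHyp a r r' R R' Γ S g p0 p1 q2 q0 C Cb) {Q : Fam} (hsym : PlSym (cof Q))
    {s : ℝ} (hs : 0 ≤ s) (hQ : nk a r Γ Q ≤ ENNReal.ofReal s) :
    r * |alK r fun U => conv S (cof Q U)| ≤ PlaneCoefx901.cM / a ^ 2 * s ∧
      |beK r fun U => conv S (cof Q U)| ≤ PlaneCoefx901.cK / a ^ 2 * s := by
  have hfin : nk a r Γ Q ≠ ∞ := ne_top_of_le_ne_top ENNReal.ofReal_ne_top hQ
  have hM := cM_nonneg
  have hK := cK_nonneg
  have ha := h.a_pos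
  constructor
  · have h1 := (alK_le h hsym hfin).trans (mul_le_mul_right hQ _)
    rw [Real.enorm_eq_ofReal_abs, ← ENNReal.ofReal_mul (Nat.cast_nonneg r),
      ← ENNReal.ofReal_mul (by positivity)] at h1
    exact (ENNReal.ofReal_le_ofReal_iff (by positivity)).1 h1
  · have h1 := (beK_le h hsym hfin).trans (mul_le_mul_right hQ _)
    rw [Real.enorm_eq_ofReal_abs, ← ENNReal.ofReal_mul (by positivity)] at h1
    exact (ENNReal.ofReal_le_ofReal_iff (by positivity)).1 h1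

theorem mx_H_le (h : PStep a L r r' R R' Γ S g p0 p1 q2 q0 C Cb) (I : Ident Lo bG Ql r S)
    {n z : ℝ} {Q : Fam} {s : ℝ} (hs : 0 ≤ s) (hn : |n| ≤ s) (hz : |z| ≤ s)
    (hQ : nk a r Γ Q ≤ ENNReal.ofReal s) :
    mx a r r' Γ (Hf S (Kf bG (n / r) z Q)) ≤ cH a Cb Γ * ENNReal.ofReal s := by
  have hr0 : (0 : ℝ) < r := by exact_mod_cast h.r_pos
  refine (mx_cvG h.toPHyp _).trans ((nk_add_le _ _).trans ?_)
  rw [cH, add_mul, one_mul]
  refine add_le_add ((nk_base_le h.reg h.a_pos.le h.r_pos (I.coe_bG _ _)).trans ?_) hQ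
  rw [mul_assoc Γ, ← ENNReal.ofReal_mul (by have := cBs_nonneg a Cb; positivity)]
  refine mul_le_mul_right (ENNReal.ofReal_le_ofReal ?_) _
  have e : |n / r| * r = |n| := by
    rw [abs_div, abs_of_pos hr0, div_mul_cancel₀ _ hr0.ne']
  rw [e]
  have := cBs_nonneg a Cb
  unfold cBs at this ⊢
  nlinarith

theorem mx_N_le (h : PStep a L r r' R R' Γ S g p0 p1 q2 q0 C Cb) (I : Ident Lo bG Ql r S)
    {n z : ℝ} {Q : Fam} (hsym : PlSym (cof Q)) {s : ℝ} (hs : 0 ≤ s) (hn : |n| ≤ s) (hz : |z| ≤ s)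
    (hQ : nk a r Γ Q ≤ ENNReal.ofReal s) :
    mx a r r' Γ (bG (n / r + alK r fun U => conv S (cof Q U))
      (z + beK r fun U => conv S (cof Q U))) ≤ cN a Cb L Γ * ENNReal.ofReal s := by
  have hr0 : (0 : ℝ) < r := by exact_mod_cast h.r_pos
  have hrr : r ≤ r' := by have := h.hR; omega
  obtain ⟨hal, hbe⟩ := coef_real h.toPHyp hsym hs hQ
  refine (mx_base_le h.reg h.a_pos.le (h.r_pos.trans hrr) hrr (I.coe_bG _ _)).trans ?_
  rw [cN, mul_assoc Γ, ← ENNReal.ofReal_mul (by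
    have := cBs_nonneg a Cb; have := cM_nonneg; have := cK_nonneg; have := h.a_pos; positivity)]
  refine mul_le_mul_right (ENNReal.ofReal_le_ofReal ?_) _
  set al := alK r fun U => conv S (cof Q U)
  set be := beK r fun U => conv S (cof Q U)
  have e1 : |n / r + al| * r' ≤ L * ((1 + PlaneCoefx901.cM / a ^ 2) * s) := by
    have e2 : |n / r + al| * r ≤ (1 + PlaneCoefx901.cM / a ^ 2) * s := by
      calc |n / r + al| * r ≤ (|n / r| + |al|) * r := by gcongr; exact abs_add_le _ _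
        _ = |n| + r * |al| := by
          rw [abs_div, abs_of_pos hr0]; field_simp
        _ ≤ s + PlaneCoefx901.cM / a ^ 2 * s := add_le_add hn hal
        _ = _ := by ring
    have hL0 : (0 : ℝ) ≤ L := Nat.cast_nonneg L
    rw [h.ratio]
    push_cast
    nlinarith
  have e3 : |z + be| ≤ (1 + PlaneCoefx901.cK / a ^ 2) * s := by
    calc |z + be| ≤ |z| + |be| := abs_add_le _ _
      _ ≤ s + PlaneCoefx901.cK / a ^ 2 * s := add_le_add hz hbe
      _ = _ := by ring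
  have h0 := cBs_nonneg a Cb
  show cBs a Cb * _ ≤ _
  calc cBs a Cb * (|n / r + al| * r' + 2 * |z + be|) ≤
      cBs a Cb * (L * ((1 + PlaneCoefx901.cM / a ^ 2) * s) +
        2 * ((1 + PlaneCoefx901.cK / a ^ 2) * s)) := by gcongr
    _ = _ := by ring

theorem mx_A_le (h : PStep a L r r' R R' Γ S g p0 p1 q2 q0 C Cb) (I : Ident Lo bG Ql r S)
    {n z : ℝ} {Q : Fam} (hsym : PlSym (cof Q)) {s : ℝ} (hs : 0 ≤ s) (hn : |n| ≤ s) (hz : |z| ≤ s)
    (hQ : nk a r Γ Q ≤ ENNReal.ofReal s) :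
    mx a r r' Γ (Af Lo r (Hf S (Kf bG (n / r) z Q))) ≤ cA a Cb L Γ * ENNReal.ofReal s := by
  have e : Af Lo r (Hf S (Kf bG (n / r) z Q)) = fun U =>
      (bG (n / r + alK r fun U => conv S (cof Q U)) (z + beK r fun U => conv S (cof Q U)) U +
        Ql Q U) - Hf S (Kf bG (n / r) z Q) U := by
    funext U
    rw [← I.id1 _ _ Q hsym U]; abel
  rw [e]
  refine (mx_sub_le _ _).trans ?_
  rw [cA, add_mul]
  refine add_le_add ((mx_add_le _ _).trans ?_) (mx_H_le h I hs hn hz hQ)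
  rw [add_mul, one_mul]
  exact add_le_add (mx_N_le h I hsym hs hn hz hQ)
    ((mx_Ql h.toPHyp Q (Ql Q) (I.coe_Ql Q)).trans hQ)

/-! ### connectedness of the supports -/

theorem conn_single (R : ℕ) (f : Fc) : Packx915.Conn fd R {f} := by
  intro J hJ hne hne'
  exact absurd ((Finset.subset_singleton_iff.1 hJ).resolve_left hne.ne_empty) hne'

theorem bG_eq_zero (I : Ident Lo bG Ql r S) (ν z : ℝ) {U : Finset Fc} (hU : ∀ f, U ≠ {f}) :
    bG ν z U = 0 := Subtype.ext (by rw [I.coe_bG, base_of_ne ν z hU]; rfl)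

theorem bG_conn (I : Ident Lo bG Ql r S) (R : ℕ) (ν z : ℝ) {U : Finset Fc} (hU : bG ν z U ≠ 0) :
    Packx915.Conn fd R U := by
  by_contra hcon
  refine hU (bG_eq_zero I ν z fun f hf => hcon ?_)
  rw [hf]; exact conn_single R f

theorem H_conn (I : Ident Lo bG Ql r S) {ν z : ℝ} {Q : Fam}
    (hconn : ∀ U, Q U ≠ 0 → Packx915.Conn fd R U) (U : Finset Fc)
    (hU : Hf S (Kf bG ν z Q) U ≠ 0) : Packx915.Conn fd R U := by
  by_cases hQ : Q U = 0
  · refine bG_conn I R ν z fun h0 => hU ?_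
    rw [Hf, Kf, h0, hQ, add_zero, map_zero]
  · exact hconn U hQ

theorem Ql_zero (I : Ident Lo bG Ql r S) {Q : Fam} {U : Finset Fc} (h : Q U = 0) : Ql Q U = 0 :=
  Subtype.ext (by
    rw [I.coe_Ql, QlS, Qlin_zero _ _ _ (show cof Q U = 0 by rw [cof, h]; rfl)]; rfl)

theorem A_conn (I : Ident Lo bG Ql r S) {ν z : ℝ} {Q : Fam} (hsym : PlSym (cof Q))
    (hconn : ∀ U, Q U ≠ 0 → Packx915.Conn fd R U) (U : Finset Fc)
    (hU : Af Lo r (Hf S (Kf bG ν z Q)) U ≠ 0) : Packx915.Conn fd R U := by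
  by_contra hcon
  apply hU
  have hQ : Q U = 0 := by
    by_contra h0; exact hcon (hconn U h0)
  have hb : ∀ ν z, bG ν z U = 0 := fun ν z => by
    by_contra h0; exact hcon (bG_conn I R ν z h0)
  have h1 := I.id1 ν z Q hsym U
  rw [hb, Ql_zero I hQ, Hf, Kf, hb, hQ] at h1
  simpa using h1

/-! ### quadratic and Lipschitz bounds -/

/-- covering numbers -/
def nB (L : ℕ) : ℕ := (2 * (L + 1) + 3) ^ 2
/-- covering numbers -/
def nS (L : ℕ) : ℕ := (2 * L + 3) ^ 2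

theorem cov1 (h : PStep a L r r' R R' Γ S g p0 p1 q2 q0 C Cb) :
    Cov (fd : Fc → Fc → ℕ) (r' + R') r' (nB L) := by
  have hr := h.r_pos
  have hr' : 0 < r' := by have := h.hR; omega
  refine (cov_fd hr' (r' + R')).mono le_rfl le_rfl ?_
  have : (r' + R') / r' ≤ L + 1 := by
    rw [Nat.div_le_iff_le_mul_add_pred hr']
    have := h.range
    calc r' + R' ≤ r' + L * r' := by omega
      _ ≤ r' * (L + 1) + (r' - 1) := by rw [mul_add, mul_one, mul_comm r' L]; omega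
  unfold nB
  gcongr

theorem cov2 (h : PStep a L r r' R R' Γ S g p0 p1 q2 q0 C Cb) :
    Cov (fd : Fc → Fc → ℕ) r' r (nS L) := by
  have hr : 0 < r := h.r_pos
  refine (cov_fd hr r').mono le_rfl le_rfl ?_
  have : r' / r = L := by rw [h.ratio, Nat.mul_div_cancel _ hr]
  rw [this]
  exact le_rfl

/-- constant of the quadratic bound -/
def cQ (a Cb : ℝ) (L : ℕ) (Γ : ℝ≥0∞) : ℝ≥0∞ :=
  nB L * (3 * nS L * (cH a Cb Γ + 2 * cA a Cb L Γ)) ^ 2 + nS L * cA a Cb L Γ ^ 2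

/-- constant of the Lipschitz bound -/
def cL (a Cb : ℝ) (L : ℕ) (Γ : ℝ≥0∞) : ℝ≥0∞ :=
  4 * nB L * (3 * nS L) ^ 2 * (2 * cH a Cb Γ + 4 * cA a Cb L Γ) * (cH a Cb Γ + 5 * cA a Cb L Γ) +
    nS L * (8 * cA a Cb L Γ * cA a Cb L Γ)

/-- constant of the smallness condition -/
def cS (a Cb : ℝ) (L : ℕ) (Γ : ℝ≥0∞) : ℝ≥0∞ :=
  nB L * (2 * (3 * nS L * (2 * cH a Cb Γ + 4 * cA a Cb L Γ))) + 2 * cA a Cb L Γ

theorem cQ_top (hΓ : Γ ≠ ∞) : cQ a Cb L Γ ≠ ∞ := by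
  have h1 := cH_top (a := a) (Cb := Cb) hΓ
  have h2 := cA_top (a := a) (Cb := Cb) (L := L) hΓ
  unfold cQ
  finiteness

theorem cL_top (hΓ : Γ ≠ ∞) : cL a Cb L Γ ≠ ∞ := by
  have h1 := cH_top (a := a) (Cb := Cb) hΓ
  have h2 := cA_top (a := a) (Cb := Cb) (L := L) hΓ
  unfold cL
  finiteness

theorem cS_top (hΓ : Γ ≠ ∞) : cS a Cb L Γ ≠ ∞ := by
  have h1 := cH_top (a := a) (Cb := Cb) hΓ
  have h2 := cA_top (a := a) (Cb := Cb) (L := L) hΓ
  unfold cS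
  finiteness

theorem small_A {s : ℝ≥0∞} (hs : cS a Cb L Γ * s ≤ 1) : cA a Cb L Γ * s ≤ 1 / 2 := by
  have h1 : 2 * (cA a Cb L Γ * s) ≤ 1 := by
    refine le_trans ?_ hs
    rw [cS, add_mul, ← mul_assoc]
    exact le_add_self
  rw [ENNReal.le_div_iff_mul_le (by simp) (by simp), mul_comm]
  exact h1

/-- **quadratic bound** -/
theorem nk_Rm_le (h : PStep a L r r' R R' Γ S g p0 p1 q2 q0 C Cb) (I : Ident Lo bG Ql r S)
    {n z : ℝ} {Q : Fam} (hsym : PlSym (cof Q)) (hconn : ∀ U, Q U ≠ 0 → Packx915.Conn fd R U)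
    {s : ℝ} (hs : 0 ≤ s) (hn : |n| ≤ s) (hz : |z| ≤ s) (hQ : nk a r Γ Q ≤ ENNReal.ofReal s)
    (hsm : cS a Cb L Γ * ENNReal.ofReal s ≤ 1) :
    nk a r' Γ (Rm Lo r R R' (Hf S (Kf bG (n / r) z Q))) ≤
      cQ a Cb L Γ * ENNReal.ofReal s ^ 2 := by
  have h2 : (nB L : ℝ≥0∞) * (3 * nS L * (cH a Cb Γ * ENNReal.ofReal s +
      2 * (cA a Cb L Γ * ENNReal.ofReal s))) ≤ 1 := by
    refine le_trans ?_ hsm
    calc (nB L : ℝ≥0∞) * (3 * nS L * (cH a Cb Γ * ENNReal.ofReal s +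
          2 * (cA a Cb L Γ * ENNReal.ofReal s)))
        = (nB L * (1 * (3 * nS L * (1 * cH a Cb Γ + 2 * cA a Cb L Γ)))) * ENNReal.ofReal s := by
          ring
      _ ≤ (nB L * (2 * (3 * nS L * (2 * cH a Cb Γ + 4 * cA a Cb L Γ))) + 2 * cA a Cb L Γ) *
          ENNReal.ofReal s := by
        refine mul_le_mul_left (le_trans ?_ le_self_add) _
        gcongr <;> norm_num
  have key := Quad3x897.gstep_quad (d := (fd : Fc → Fc → ℕ)) (r := r) (r' := r') (R := R)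
    (R' := R') (w := fun U => wU w₀ a r' U) (K := Hf S (Kf bG (n / r) z Q))
    (A₀ := Af Lo r (Hf S (Kf bG (n / r) z Q))) pd_fd h.Γ_ge h.hR (cov1 h) (cov2 h)
    (fun U U' hU l => wU_anti w₀ a r' hU l) (H_conn I hconn) (A_conn I hsym hconn)
    (mx_H_le h I hs hn hz hQ) (mx_A_le h I hsym hs hn hz hQ) (small_A hsm) h2
    (ENNReal.mul_ne_top (cH_top h.Γ_top) ENNReal.ofReal_ne_top) (fun a b => fd a b ≤ R)
  refine key.trans (le_of_eq ?_)
  unfold cQ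
  ring

/-- **Lipschitz bound** -/
theorem nk_Rm_lip (h : PStep a L r r' R R' Γ S g p0 p1 q2 q0 C Cb) (I : Ident Lo bG Ql r S)
    (hadd : ∀ ν z ν' z' U, bG ν z U - bG ν' z' U = bG (ν - ν') (z - z') U)
    {n z n₂ z₂ : ℝ} {Q Q₂ : Fam} (hsym : PlSym (cof Q)) (hsym₂ : PlSym (cof Q₂))
    (hconn : ∀ U, Q U ≠ 0 → Packx915.Conn fd R U) (hconn₂ : ∀ U, Q₂ U ≠ 0 → Packx915.Conn fd R U)
    {s d : ℝ} (hs : 0 ≤ s) (hn : |n| ≤ s) (hz : |z| ≤ s) (hQ : nk a r Γ Q ≤ ENNReal.ofReal s)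
    (hn₂ : |n₂| ≤ s) (hz₂ : |z₂| ≤ s) (hQ₂ : nk a r Γ Q₂ ≤ ENNReal.ofReal s)
    (hsymd : PlSym (cof fun U => Q U - Q₂ U))
    (hd : 0 ≤ d) (hdn : |n - n₂| ≤ d) (hdz : |z - z₂| ≤ d)
    (hdQ : nk a r Γ (fun U => Q U - Q₂ U) ≤ ENNReal.ofReal d)
    (hsm : cS a Cb L Γ * ENNReal.ofReal s ≤ 1) :
    nk a r' Γ (fun U => Rm Lo r R R' (Hf S (Kf bG (n / r) z Q)) U -
        Rm Lo r R R' (Hf S (Kf bG (n₂ / r) z₂ Q₂)) U) ≤
      cL a Cb L Γ * ENNReal.ofReal s * ENNReal.ofReal d := by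
  have h2 : (nB L : ℝ≥0∞) * (2 * (3 * nS L * ((cH a Cb Γ * ENNReal.ofReal s +
      cH a Cb Γ * ENNReal.ofReal s) + (2 * (cA a Cb L Γ * ENNReal.ofReal s) +
        2 * (cA a Cb L Γ * ENNReal.ofReal s))))) ≤ 1 := by
    refine le_trans ?_ hsm
    calc _ = (nB L * (2 * (3 * nS L * (2 * cH a Cb Γ + 4 * cA a Cb L Γ)))) *
          ENNReal.ofReal s := by ring
      _ ≤ _ := mul_le_mul_left le_self_add _
  have eH : (fun U => Hf S (Kf bG (n / r) z Q) U - Hf S (Kf bG (n₂ / r) z₂ Q₂) U) =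
      Hf S (Kf bG ((n - n₂) / r) (z - z₂) fun U => Q U - Q₂ U) := by
    funext U
    simp only [Hf, Kf]
    rw [← map_sub, sub_div, ← hadd]
    congr 1
    abel
  have eA : (fun U => Af Lo r (Hf S (Kf bG (n / r) z Q)) U -
      Af Lo r (Hf S (Kf bG (n₂ / r) z₂ Q₂)) U) =
      Af Lo r (Hf S (Kf bG ((n - n₂) / r) (z - z₂) fun U => Q U - Q₂ U)) := by
    rw [← eH]
    funext U
    rw [Af_sub]
  have key := Quad3x897.gstep_lip (d := (fd : Fc → Fc → ℕ)) (r := r) (r' := r') (R := R)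
    (R' := R') (w := fun U => wU w₀ a r' U) (K := Hf S (Kf bG (n / r) z Q))
    (A₀ := Af Lo r (Hf S (Kf bG (n / r) z Q))) (K₂ := Hf S (Kf bG (n₂ / r) z₂ Q₂))
    (A₂ := Af Lo r (Hf S (Kf bG (n₂ / r) z₂ Q₂))) pd_fd h.Γ_ge h.hR (cov1 h) (cov2 h)
    (fun U U' hU l => wU_anti w₀ a r' hU l) (H_conn I hconn) (A_conn I hsym hconn)
    (H_conn I hconn₂) (A_conn I hsym₂ hconn₂)
    (mx_H_le h I hs hn hz hQ) (mx_A_le h I hsym hs hn hz hQ)
    (mx_H_le h I hs hn₂ hz₂ hQ₂) (mx_A_le h I hsym₂ hs hn₂ hz₂ hQ₂)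
    (ηK := cH a Cb Γ * ENNReal.ofReal d) (ηA := cA a Cb L Γ * ENNReal.ofReal d)
    (by have := mx_H_le h I hd hdn hdz hdQ
        rw [← eH] at this; exact this)
    (by have := mx_A_le h I hsymd hd hdn hdz hdQ
        rw [← eA] at this; exact this)
    (small_A hsm) (small_A hsm) h2
    (ENNReal.mul_ne_top (cH_top h.Γ_top) ENNReal.ofReal_ne_top)
    (ENNReal.mul_ne_top (cH_top h.Γ_top) ENNReal.ofReal_ne_top)
    (ENNReal.mul_ne_top (cH_top h.Γ_top) ENNReal.ofReal_ne_top)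
    (ENNReal.mul_ne_top (cA_top h.Γ_top) ENNReal.ofReal_ne_top) (fun a b => fd a b ≤ R)
  refine key.trans (le_of_eq ?_)
  unfold cL
  ring

end data

end Crest.Agent.R165.PStepx417
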