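import Crest.Agent.R165.Sht_541

/-!
# Row 165 (S0250): shooting lemma, second form (helper541)

As `Sht_541`, with separate constants: `M` = linear influence of the remainder on `ν, z` (known
before the initial scale is chosen), `P` = all quadratic constants (may depend on the initial scale),
`ζ` = small linear influence of `ν, z` on the remainder (the initial scale is chosen so that
`ζ ≤ ζ₀(κ, r, M)`); `K` depends only on `κ r M`.
-/

set_option autoImplicit false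

open Filter Topology Set

namespace Crest.Agent.R165.Sht2x541

open Crest.Agent.R165.Shtx541

universe u

/-- the hypotheses on one step of the flow -/
structure FlowHyp2 (E : ℕ → Type u) (Nm : ∀ k, E k → ℝ) (Ds : ∀ k, E k → E k → ℝ)
    (Φ : ∀ k, ℝ → ℝ → E k → E (k + 1)) (f g : ∀ k, ℝ → ℝ → E k → ℝ)
    (κ η ζ M P ρ : ℝ) : Prop where
  nm_nonneg : ∀ k R, 0 ≤ Nm k R
  ds_nonneg : ∀ k R R', 0 ≤ Ds k R R'
  nm : ∀ k ν z R s, |ν| ≤ s → |z| ≤ s → Nm k R ≤ s → s ≤ ρ →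
    Nm (k + 1) (Φ k ν z R) ≤ κ * Nm k R + ζ * (|ν| + |z|) + P * s ^ 2
  ds : ∀ k ν z R ν' z' R' s, |ν| ≤ s → |z| ≤ s → Nm k R ≤ s → |ν'| ≤ s → |z'| ≤ s →
    Nm k R' ≤ s → s ≤ ρ →
    Ds (k + 1) (Φ k ν z R) (Φ k ν' z' R') ≤
      κ * Ds k R R' + ζ * (|ν - ν'| + |z - z'|) + P * s * (|ν - ν'| + |z - z'| + Ds k R R')
  f_nm : ∀ k ν z R s, |ν| ≤ s → |z| ≤ s → Nm k R ≤ s → s ≤ ρ →
    |f k ν z R| ≤ M * Nm k R + (η + P * s) * (|ν| + |z|) + P * s ^ 2
  f_ds : ∀ k ν z R ν' z' R' s, |ν| ≤ s → |z| ≤ s → Nm k R ≤ s → |ν'| ≤ s → |z'| ≤ s →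
    Nm k R' ≤ s → s ≤ ρ →
    |f k ν z R - f k ν' z' R'| ≤ M * Ds k R R' + (η + P * s) * (|ν - ν'| + |z - z'|)
  g_nm : ∀ k ν z R s, |ν| ≤ s → |z| ≤ s → Nm k R ≤ s → s ≤ ρ →
    |g k ν z R| ≤ M * Nm k R + (η + P * s) * (|ν| + |z|) + P * s ^ 2
  g_ds : ∀ k ν z R ν' z' R' s, |ν| ≤ s → |z| ≤ s → Nm k R ≤ s → |ν'| ≤ s → |z'| ≤ s →
    Nm k R' ≤ s → s ≤ ρ →
    |g k ν z R - g k ν' z' R'| ≤ M * Ds k R R' + (η + P * s) * (|ν - ν'| + |z - z'|)

section Core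

variable {E : ℕ → Type u} {Nm : ∀ k, E k → ℝ} {Ds : ∀ k, E k → E k → ℝ}
  {Φ : ∀ k, ℝ → ℝ → E k → E (k + 1)} {f g : ∀ k, ℝ → ℝ → E k → ℝ} {κ η ζ M P ρ : ℝ}

/-- size of the trajectory -/
theorem traj_nm (H : FlowHyp2 E Nm Ds Φ f g κ η ζ M P ρ) {r K ε : ℝ} (hκ : 0 ≤ κ) (hr0 : 0 < r)
    (hr1 : r < 1) (hζ : 0 ≤ ζ) (hP : 0 ≤ P) (hK : 1 ≤ K) (hε : 0 < ε) (hρ : K * ε ≤ ρ)
    (hsmall : P * K ^ 2 * ε + 2 * ζ * K ≤ r - κ) {R0 : E 0} (hR0 : Nm 0 R0 ≤ ε) {ν z : ℕ → ℝ}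
    (hν : ∀ k, |ν k| ≤ K * ε * r ^ k) (hz : ∀ k, |z k| ≤ K * ε * r ^ k) (k : ℕ) :
    Nm k (traj Φ R0 ν z k) ≤ ε * r ^ k := by
  induction k with
  | zero => simpa [traj] using hR0
  | succ k ih =>
    have hrk : 0 < r ^ k := pow_pos hr0 k
    have hrk1 : r ^ k ≤ 1 := pow_le_one₀ hr0.le hr1.le
    have h1 : ε * r ^ k ≤ K * ε * r ^ k := by nlinarith [mul_pos hε hrk]
    have h2 : K * ε * r ^ k ≤ ρ := by
      have : K * ε * r ^ k ≤ K * ε * 1 := by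
        apply mul_le_mul_of_nonneg_left hrk1; positivity
      linarith
    have h3 := H.nm k (ν k) (z k) (traj Φ R0 ν z k) (K * ε * r ^ k) (hν k) (hz k) (ih.trans h1) h2
    show Nm (k + 1) (Φ k (ν k) (z k) (traj Φ R0 ν z k)) ≤ _
    refine h3.trans ?_
    have h4 : κ * Nm k (traj Φ R0 ν z k) ≤ κ * (ε * r ^ k) := mul_le_mul_of_nonneg_left ih hκ
    have h5 : P * (K * ε * r ^ k) ^ 2 ≤ (P * K ^ 2 * ε) * (ε * r ^ k) := by
      have : P * (K * ε * r ^ k) ^ 2 = (P * K ^ 2 * ε) * (ε * r ^ k) * r ^ k := by ring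
      rw [this]
      have h6 : 0 ≤ (P * K ^ 2 * ε) * (ε * r ^ k) := by positivity
      nlinarith
    have h6 : ζ * (|ν k| + |z k|) ≤ (2 * ζ * K) * (ε * r ^ k) := by
      have e1 := hν k
      have e2 := hz k
      calc ζ * (|ν k| + |z k|) ≤ ζ * (2 * (K * ε * r ^ k)) :=
            mul_le_mul_of_nonneg_left (by linarith) hζ
        _ = _ := by ring
    have h7 : (P * K ^ 2 * ε + 2 * ζ * K) * (ε * r ^ k) ≤ (r - κ) * (ε * r ^ k) :=
      mul_le_mul_of_nonneg_right hsmall (by positivity)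
    calc κ * Nm k (traj Φ R0 ν z k) + ζ * (|ν k| + |z k|) + P * (K * ε * r ^ k) ^ 2
        ≤ κ * (ε * r ^ k) + (r - κ) * (ε * r ^ k) := by linarith
      _ = ε * r ^ (k + 1) := by ring

/-- Lipschitz dependence of the trajectory -/
theorem traj_ds (H : FlowHyp2 E Nm Ds Φ f g κ η ζ M P ρ) {r K ε q : ℝ} (hκ : 0 ≤ κ) (hr0 : 0 < r)
    (hr1 : r < 1) (hζ : 0 ≤ ζ) (hP : 0 ≤ P) (hK : 1 ≤ K) (hε : 0 < ε) (hρ : K * ε ≤ ρ)
    (hsmall : P * K ^ 2 * ε + 2 * ζ * K ≤ r - κ) (hq : 0 < q)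
    (hsmall2 : P * (K * ε) * (2 + q) + 2 * ζ ≤ q * (r - κ)) {R0 : E 0} (hR0 : Nm 0 R0 ≤ ε)
    (hD0 : Ds 0 R0 R0 ≤ 0) {ν z ν' z' : ℕ → ℝ} {δ : ℝ} (hδ : 0 ≤ δ)
    (hν : ∀ k, |ν k| ≤ K * ε * r ^ k) (hz : ∀ k, |z k| ≤ K * ε * r ^ k)
    (hν' : ∀ k, |ν' k| ≤ K * ε * r ^ k) (hz' : ∀ k, |z' k| ≤ K * ε * r ^ k)
    (hdν : ∀ k, |ν k - ν' k| ≤ K * ε * r ^ k * δ) (hdz : ∀ k, |z k - z' k| ≤ K * ε * r ^ k * δ)
    (k : ℕ) :
    Ds k (traj Φ R0 ν z k) (traj Φ R0 ν' z' k) ≤ q * (K * ε * r ^ k * δ) := by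
  induction k with
  | zero =>
    refine hD0.trans ?_
    positivity
  | succ k ih =>
    have hrk : 0 < r ^ k := pow_pos hr0 k
    have hrk1 : r ^ k ≤ 1 := pow_le_one₀ hr0.le hr1.le
    have h1 : ε * r ^ k ≤ K * ε * r ^ k := by nlinarith [mul_pos hε hrk]
    have h2 : K * ε * r ^ k ≤ ρ := by
      have : K * ε * r ^ k ≤ K * ε * 1 := by
        apply mul_le_mul_of_nonneg_left hrk1; positivity
      linarith
    have h3 := H.ds k (ν k) (z k) (traj Φ R0 ν z k) (ν' k) (z' k) (traj Φ R0 ν' z' k)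
      (K * ε * r ^ k) (hν k) (hz k)
      ((traj_nm H hκ hr0 hr1 hζ hP hK hε hρ hsmall hR0 hν hz k).trans h1) (hν' k) (hz' k)
      ((traj_nm H hκ hr0 hr1 hζ hP hK hε hρ hsmall hR0 hν' hz' k).trans h1) h2
    show Ds (k + 1) (Φ k (ν k) (z k) (traj Φ R0 ν z k)) (Φ k (ν' k) (z' k) (traj Φ R0 ν' z' k)) ≤ _
    refine h3.trans ?_
    set X := K * ε * r ^ k * δ with hX
    have hX0 : 0 ≤ X := by positivity
    have h4 : κ * Ds k (traj Φ R0 ν z k) (traj Φ R0 ν' z' k) ≤ κ * (q * X) :=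
      mul_le_mul_of_nonneg_left ih hκ
    have h5 : P * (K * ε * r ^ k) * (|ν k - ν' k| + |z k - z' k| +
        Ds k (traj Φ R0 ν z k) (traj Φ R0 ν' z' k)) ≤ P * (K * ε) * ((2 + q) * X) := by
      have ha : |ν k - ν' k| + |z k - z' k| + Ds k (traj Φ R0 ν z k) (traj Φ R0 ν' z' k) ≤
          (2 + q) * X := by
        have := hdν k
        have := hdz k
        linarith
      have hb : P * (K * ε * r ^ k) ≤ P * (K * ε) := by
        apply mul_le_mul_of_nonneg_left _ hP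
        have : K * ε * r ^ k ≤ K * ε * 1 := by
          apply mul_le_mul_of_nonneg_left hrk1; positivity
        linarith
      have hc : 0 ≤ |ν k - ν' k| + |z k - z' k| + Ds k (traj Φ R0 ν z k) (traj Φ R0 ν' z' k) := by
        have := H.ds_nonneg k (traj Φ R0 ν z k) (traj Φ R0 ν' z' k)
        positivity
      calc _ ≤ P * (K * ε) * (|ν k - ν' k| + |z k - z' k| +
          Ds k (traj Φ R0 ν z k) (traj Φ R0 ν' z' k)) := mul_le_mul_of_nonneg_right hb hc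
        _ ≤ _ := mul_le_mul_of_nonneg_left ha (by positivity)
    have h7 : ζ * (|ν k - ν' k| + |z k - z' k|) ≤ 2 * ζ * X := by
      have e1 := hdν k
      have e2 := hdz k
      calc _ ≤ ζ * (2 * X) := mul_le_mul_of_nonneg_left (by linarith) hζ
        _ = _ := by ring
    have h6 : P * (K * ε) * ((2 + q) * X) + 2 * ζ * X ≤ q * (r - κ) * X := by
      have := mul_le_mul_of_nonneg_right hsmall2 hX0
      linarith
    calc _ ≤ κ * (q * X) + q * (r - κ) * X := by linarith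
      _ = q * (K * ε * r ^ (k + 1) * δ) := by rw [hX]; ring

end Core
/-- constants -/
theorem exists_consts2 {κ r M : ℝ} (hκr : κ < r) (hr1 : r < 1) (hM : 0 ≤ M) :
    ∃ K q ζ₀ : ℝ, 1 ≤ K ∧ 0 < q ∧ 0 < ζ₀ ∧ M / K ≤ (1 - r) / 4 ∧ M * q ≤ (1 - r) / 8 ∧
      ∀ ζ P ρ, 0 ≤ ζ → ζ ≤ ζ₀ → 0 ≤ P → 0 < ρ → ∃ ε₀ : ℝ, 0 < ε₀ ∧
      ∀ ε, 0 < ε → ε ≤ ε₀ → K * ε ≤ ρ ∧ P * K ^ 2 * ε + 2 * ζ * K ≤ r - κ ∧
        P * (K * ε) * (2 + q) + 2 * ζ ≤ q * (r - κ) ∧ P * (K * ε) ≤ (1 - r) / 24 := by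
  have h1r : 0 < 1 - r := by linarith
  have hrk : 0 < r - κ := by linarith
  set K := 4 * M / (1 - r) + 1 with hK
  have hK1 : 1 ≤ K := by
    have : 0 ≤ 4 * M / (1 - r) := by positivity
    linarith
  have hK0 : 0 < K := by linarith
  set q := (1 - r) / (8 * (M + 1)) with hq
  have hq0 : 0 < q := by positivity
  refine ⟨K, q, min ((r - κ) / (4 * K)) (q * (r - κ) / 4), hK1, hq0, ?_, ?_, ?_, ?_⟩
  · exact lt_min (by positivity) (by positivity)
  · rw [div_le_iff₀ hK0, hK]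
    have : (1 - r) / 4 * (4 * M / (1 - r) + 1) = M + (1 - r) / 4 := by
      field_simp
    rw [this]
    linarith
  · rw [hq]
    have : M * ((1 - r) / (8 * (M + 1))) = (M / (M + 1)) * ((1 - r) / 8) := by
      field_simp
    rw [this]
    have h2 : M / (M + 1) ≤ 1 := by
      rw [div_le_one (by linarith)]; linarith
    calc _ ≤ 1 * ((1 - r) / 8) := mul_le_mul_of_nonneg_right h2 (by positivity)
      _ = _ := one_mul _
  intro ζ P ρ hζ hζ0 hP hρ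
  have z1 := hζ0.trans (min_le_left _ _)
  have z2 := hζ0.trans (min_le_right _ _)
  rw [le_div_iff₀ (by positivity)] at z1
  refine ⟨min (ρ / K) (min ((r - κ) / (2 * (P * K ^ 2 + 1)))
    (min (q * (r - κ) / (2 * (P * K * (2 + q) + 1))) ((1 - r) / (24 * (P * K + 1))))), ?_, ?_⟩
  · refine lt_min (by positivity) (lt_min (by positivity) (lt_min (by positivity) (by positivity)))
  · intro ε hε hε2
    have e1 := hε2.trans (min_le_left _ _)
    have e2 := (hε2.trans (min_le_right _ _)).trans (min_le_left _ _)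
    have e3 := ((hε2.trans (min_le_right _ _)).trans (min_le_right _ _)).trans (min_le_left _ _)
    have e4 := ((hε2.trans (min_le_right _ _)).trans (min_le_right _ _)).trans (min_le_right _ _)
    refine ⟨?_, ?_, ?_, ?_⟩
    · rw [le_div_iff₀ hK0] at e1; linarith
    · rw [le_div_iff₀ (by positivity)] at e2
      nlinarith
    · rw [le_div_iff₀ (by positivity)] at e3
      nlinarith
    · rw [le_div_iff₀ (by positivity)] at e4
      nlinarith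

section Main

variable {E : ℕ → Type u} {Nm : ∀ k, E k → ℝ} {Ds : ∀ k, E k → E k → ℝ}
  {Φ : ∀ k, ℝ → ℝ → E k → E (k + 1)} {f g : ∀ k, ℝ → ℝ → E k → ℝ} {κ η ζ M P ρ : ℝ}

/-- the value of a flow function along the trajectory driven by a normalised sequence -/
def along (Φ : ∀ k, ℝ → ℝ → E k → E (k + 1)) (R0 : E 0) (h : ∀ k, ℝ → ℝ → E k → ℝ) (w r : ℝ)
    (a : Sq) (i : ℕ) : ℝ :=
  h i (nuS w r a i) (zS w r a i) (traj Φ R0 (nuS w r a) (zS w r a) i)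

/-- size of a flow function along a trajectory -/
theorem along_le (H : FlowHyp2 E Nm Ds Φ f g κ η ζ M P ρ) {r K ε : ℝ} (hκ : 0 ≤ κ) (hr0 : 0 < r)
    (hr1 : r < 1) (hM : 0 ≤ M) (hζ : 0 ≤ ζ) (hP : 0 ≤ P) (hK : 1 ≤ K) (hε : 0 < ε) (hρ : K * ε ≤ ρ) (hη : 0 ≤ η)
    (hsmall : P * K ^ 2 * ε + 2 * ζ * K ≤ r - κ) {R0 : E 0} (hR0 : Nm 0 R0 ≤ ε)
    (h : ∀ k, ℝ → ℝ → E k → ℝ)
    (hh : ∀ k ν z R s, |ν| ≤ s → |z| ≤ s → Nm k R ≤ s → s ≤ ρ →
      |h k ν z R| ≤ M * Nm k R + (η + P * s) * (|ν| + |z|) + P * s ^ 2) (a : Sq) (i : ℕ) :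
    |along Φ R0 h (K * ε) r a i| ≤
      (M * ε + (η + P * (K * ε)) * (2 * (K * ε)) + P * (K * ε) ^ 2) * r ^ i := by
  have hw : 0 ≤ K * ε := by positivity
  have hν := nuS_le hw hr0.le a
  have hz := zS_le hw hr0.le a
  have hrk : 0 < r ^ i := pow_pos hr0 i
  have hrk1 : r ^ i ≤ 1 := pow_le_one₀ hr0.le hr1.le
  have h0 := traj_nm H hκ hr0 hr1 hζ hP hK hε hρ hsmall hR0 hν hz i
  have h1 : ε * r ^ i ≤ K * ε * r ^ i := by nlinarith [mul_pos hε hrk]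
  have h2 : K * ε * r ^ i ≤ K * ε := by
    have : K * ε * r ^ i ≤ K * ε * 1 := by
      apply mul_le_mul_of_nonneg_left hrk1; positivity
    linarith
  have h3 := hh i _ _ _ (K * ε * r ^ i) (hν i) (hz i) (h0.trans h1) (h2.trans hρ)
  refine h3.trans ?_
  have h4 : M * Nm i (traj Φ R0 (nuS (K * ε) r a) (zS (K * ε) r a) i) ≤ M * (ε * r ^ i) :=
    mul_le_mul_of_nonneg_left h0 hM
  have h5 : (η + P * (K * ε * r ^ i)) * (|nuS (K * ε) r a i| + |zS (K * ε) r a i|) ≤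
      (η + P * (K * ε)) * (2 * (K * ε * r ^ i)) := by
    have e1 : |nuS (K * ε) r a i| + |zS (K * ε) r a i| ≤ 2 * (K * ε * r ^ i) := by
      have := hν i
      have := hz i
      linarith
    have e2 : η + P * (K * ε * r ^ i) ≤ η + P * (K * ε) := by
      have := mul_le_mul_of_nonneg_left h2 hP
      linarith
    have e3 : 0 ≤ |nuS (K * ε) r a i| + |zS (K * ε) r a i| := by positivity
    calc _ ≤ (η + P * (K * ε)) * (|nuS (K * ε) r a i| + |zS (K * ε) r a i|) :=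
          mul_le_mul_of_nonneg_right e2 e3
      _ ≤ _ := mul_le_mul_of_nonneg_left e1 (by positivity)
  have h6 : P * (K * ε * r ^ i) ^ 2 ≤ P * (K * ε) ^ 2 * r ^ i := by
    have e1 : P * (K * ε * r ^ i) ^ 2 = P * (K * ε) ^ 2 * r ^ i * r ^ i := by ring
    rw [e1]
    have e2 : 0 ≤ P * (K * ε) ^ 2 * r ^ i := by positivity
    nlinarith
  calc _ ≤ M * (ε * r ^ i) + (η + P * (K * ε)) * (2 * (K * ε * r ^ i)) +
        P * (K * ε) ^ 2 * r ^ i := by linarith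
    _ = _ := by ring

/-- Lipschitz dependence of a flow function along a trajectory -/
theorem along_sub (H : FlowHyp2 E Nm Ds Φ f g κ η ζ M P ρ) {r K ε q : ℝ} (hκ : 0 ≤ κ) (hr0 : 0 < r)
    (hr1 : r < 1) (hM : 0 ≤ M) (hζ : 0 ≤ ζ) (hP : 0 ≤ P) (hK : 1 ≤ K) (hε : 0 < ε) (hρ : K * ε ≤ ρ) (hη : 0 ≤ η)
    (hsmall : P * K ^ 2 * ε + 2 * ζ * K ≤ r - κ) (hq : 0 < q)
    (hsmall2 : P * (K * ε) * (2 + q) + 2 * ζ ≤ q * (r - κ)) {R0 : E 0} (hR0 : Nm 0 R0 ≤ ε)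
    (hD0 : Ds 0 R0 R0 ≤ 0)
    (h : ∀ k, ℝ → ℝ → E k → ℝ)
    (hh : ∀ k ν z R ν' z' R' s, |ν| ≤ s → |z| ≤ s → Nm k R ≤ s → |ν'| ≤ s → |z'| ≤ s →
      Nm k R' ≤ s → s ≤ ρ →
      |h k ν z R - h k ν' z' R'| ≤ M * Ds k R R' + (η + P * s) * (|ν - ν'| + |z - z'|))
    (a b : Sq) (i : ℕ) :
    |along Φ R0 h (K * ε) r a i - along Φ R0 h (K * ε) r b i| ≤
      (M * q * (K * ε) + (η + P * (K * ε)) * (2 * (K * ε))) * dist a b * r ^ i := by
  have hw : 0 ≤ K * ε := by positivity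
  have hν := nuS_le hw hr0.le a
  have hz := zS_le hw hr0.le a
  have hν' := nuS_le hw hr0.le b
  have hz' := zS_le hw hr0.le b
  have hdν := nuS_sub hw hr0.le a b
  have hdz := zS_sub hw hr0.le a b
  have hrk : 0 < r ^ i := pow_pos hr0 i
  have hrk1 : r ^ i ≤ 1 := pow_le_one₀ hr0.le hr1.le
  have h0 := traj_nm H hκ hr0 hr1 hζ hP hK hε hρ hsmall hR0 hν hz i
  have h0' := traj_nm H hκ hr0 hr1 hζ hP hK hε hρ hsmall hR0 hν' hz' i
  have hd := traj_ds H hκ hr0 hr1 hζ hP hK hε hρ hsmall hq hsmall2 hR0 hD0 (dist_nonneg (x := a) (y := b))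
    hν hz hν' hz' hdν hdz i
  have h1 : ε * r ^ i ≤ K * ε * r ^ i := by nlinarith [mul_pos hε hrk]
  have h2 : K * ε * r ^ i ≤ K * ε := by
    have : K * ε * r ^ i ≤ K * ε * 1 := by
      apply mul_le_mul_of_nonneg_left hrk1; positivity
    linarith
  have h3 := hh i _ _ _ _ _ _ (K * ε * r ^ i) (hν i) (hz i) (h0.trans h1) (hν' i) (hz' i)
    (h0'.trans h1) (h2.trans hρ)
  refine h3.trans ?_
  set δ := dist a b with hδ
  have hδ0 : 0 ≤ δ := dist_nonneg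
  have h4 := mul_le_mul_of_nonneg_left hd hM
  have h5 : (η + P * (K * ε * r ^ i)) * (|nuS (K * ε) r a i - nuS (K * ε) r b i| +
      |zS (K * ε) r a i - zS (K * ε) r b i|) ≤
      (η + P * (K * ε)) * (2 * (K * ε * r ^ i * δ)) := by
    have e1 : |nuS (K * ε) r a i - nuS (K * ε) r b i| +
      |zS (K * ε) r a i - zS (K * ε) r b i| ≤ 2 * (K * ε * r ^ i * δ) := by
      have := hdν i
      have := hdz i
      linarith
    have e2 : η + P * (K * ε * r ^ i) ≤ η + P * (K * ε) := by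
      have := mul_le_mul_of_nonneg_left h2 hP
      linarith
    have e3 : 0 ≤ |nuS (K * ε) r a i - nuS (K * ε) r b i| +
      |zS (K * ε) r a i - zS (K * ε) r b i| := by positivity
    calc _ ≤ (η + P * (K * ε)) * _ :=
          mul_le_mul_of_nonneg_right e2 e3
      _ ≤ _ := mul_le_mul_of_nonneg_left e1 (by positivity)
  calc _ ≤ M * (q * (K * ε * r ^ i * δ)) + (η + P * (K * ε)) * (2 * (K * ε * r ^ i * δ)) := by
        linarith
    _ = _ := by ring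

/-- **Two-parameter shooting lemma, second form.** `K` and `ζ₀` depend only on `κ r M`. -/
theorem shooting2 (κ r M : ℝ) (hκ : 0 ≤ κ) (hκr : κ < r) (hr1 : r < 1) (hM : 0 ≤ M) :
    ∃ K ζ₀ : ℝ, 1 ≤ K ∧ 0 < ζ₀ ∧
      ∀ (L η ζ P ρ : ℝ), 1 < L → 0 ≤ η → η ≤ (1 - r) / 8 → 0 ≤ ζ → ζ ≤ ζ₀ → 0 ≤ P → 0 < ρ →
      ∃ ε₀ : ℝ, 0 < ε₀ ∧
      ∀ (E : ℕ → Type u) (Nm : ∀ k, E k → ℝ) (Ds : ∀ k, E k → E k → ℝ)
        (Φ : ∀ k, ℝ → ℝ → E k → E (k + 1)) (f g : ∀ k, ℝ → ℝ → E k → ℝ),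
        FlowHyp2 E Nm Ds Φ f g κ η ζ M P ρ →
        ∀ (ε : ℝ), 0 ≤ ε → ε ≤ ε₀ → ∀ R0 : E 0, Nm 0 R0 ≤ ε → Ds 0 R0 R0 ≤ 0 →
        ∃ (ν z : ℕ → ℝ) (R : ∀ k, E k), R 0 = R0 ∧
          (∀ k, R (k + 1) = Φ k (ν k) (z k) (R k)) ∧
          (∀ k, ν (k + 1) = L * ν k + f k (ν k) (z k) (R k)) ∧
          (∀ k, z (k + 1) = z k + g k (ν k) (z k) (R k)) ∧
          (∀ k, |ν k| ≤ K * ε * r ^ k) ∧ (∀ k, |z k| ≤ K * ε * r ^ k) ∧
          (∀ k, Nm k (R k) ≤ ε * r ^ k) := by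
  have hr0 : 0 < r := lt_of_le_of_lt hκ hκr
  have h1r : 0 < 1 - r := by linarith
  obtain ⟨K, q, ζ₀, hK, hq, hζ₀, hMK, hMq, hcon⟩ := exists_consts2 hκr hr1 hM
  refine ⟨K, ζ₀, hK, hζ₀, ?_⟩
  intro L η ζ P ρ hL hη hηr hζ hζζ hP hρ
  obtain ⟨ε₀, hε₀, hall⟩ := hcon ζ P ρ hζ hζζ hP hρ
  refine ⟨ε₀, hε₀, ?_⟩
  intro E Nm Ds Φ f g H ε hε0 hεε R0 hR0 hD0
  rcases hε0.eq_or_lt with hε | hε
  · -- `ε = 0`: everything is zero
    subst hε
    have hρ' : (0 : ℝ) ≤ ρ := hρ.le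
    have hN : ∀ k, Nm k (traj Φ R0 (fun _ => 0) (fun _ => 0) k) ≤ 0 := by
      intro k
      induction k with
      | zero => simpa [traj] using hR0
      | succ k ih =>
        have h1 := H.nm k 0 0 _ 0 (by simp) (by simp) ih hρ'
        have h2 : κ * Nm k (traj Φ R0 (fun _ => 0) (fun _ => 0) k) ≤ 0 :=
          mul_nonpos_of_nonneg_of_nonpos hκ ih
        show Nm (k + 1) (Φ k 0 0 (traj Φ R0 (fun _ => 0) (fun _ => 0) k)) ≤ 0
        refine h1.trans ?_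
        simpa using h2
    have hf0 : ∀ (h : ∀ k, ℝ → ℝ → E k → ℝ), (∀ k ν z R s, |ν| ≤ s → |z| ≤ s → Nm k R ≤ s →
        s ≤ ρ → |h k ν z R| ≤ M * Nm k R + (η + P * s) * (|ν| + |z|) + P * s ^ 2) →
        ∀ k, h k 0 0 (traj Φ R0 (fun _ => 0) (fun _ => 0) k) = 0 := by
      intro h hh k
      have h1 := hh k 0 0 _ 0 (by simp) (by simp) (hN k) hρ'
      have h2 : M * Nm k (traj Φ R0 (fun _ => 0) (fun _ => 0) k) ≤ 0 :=
        mul_nonpos_of_nonneg_of_nonpos hM (hN k)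
      have h3 : |h k 0 0 (traj Φ R0 (fun _ => 0) (fun _ => 0) k)| ≤ 0 := by
        refine h1.trans ?_
        simpa using h2
      exact abs_eq_zero.1 (le_antisymm h3 (abs_nonneg _))
    refine ⟨fun _ => 0, fun _ => 0, traj Φ R0 (fun _ => 0) (fun _ => 0), rfl, fun k => rfl,
      fun k => ?_, fun k => ?_, fun k => by simp, fun k => by simp, fun k => ?_⟩
    · simp only [hf0 f H.f_nm k, mul_zero, add_zero]
    · simp only [hf0 g H.g_nm k, add_zero]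
    · simpa using hN k
  obtain ⟨hρK, hs1, hs2, hs3⟩ := hall ε hε hεε
  have hK0 : 0 < K := by linarith
  set w := K * ε with hw
  have hw0 : 0 < w := by positivity
  -- the map
  set A : ℝ := M * ε + (η + P * w) * (2 * w) + P * w ^ 2 with hA
  have hA0 : 0 ≤ A := by positivity
  have hAw : A ≤ w * (1 - r) := by
    have e1 : M * ε = M / K * w := by rw [hw]; field_simp
    have e2 : M * ε ≤ (1 - r) / 4 * w := by
      rw [e1]; exact mul_le_mul_of_nonneg_right hMK hw0.le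
    have e3 : (η + P * w) * (2 * w) ≤ ((1 - r) / 8 + (1 - r) / 24) * (2 * w) :=
      mul_le_mul_of_nonneg_right (by linarith) (by positivity)
    have e4 : P * w ^ 2 ≤ (1 - r) / 24 * w := by
      have : P * w ^ 2 = P * w * w := by ring
      rw [this]; exact mul_le_mul_of_nonneg_right hs3 hw0.le
    have e5 : 0 ≤ (1 - r) * w := by positivity
    rw [hA]
    nlinarith
  have hfb := along_le H hκ hr0 hr1 hM hζ hP hK hε hρK hη hs1 hR0 f H.f_nm
  have hgb := along_le H hκ hr0 hr1 hM hζ hP hK hε hρK hη hs1 hR0 g H.g_nm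
  set c : ℝ := L⁻¹ with hc
  have hL0 : 0 < L := by linarith
  have hc0 : 0 < c := inv_pos.2 hL0
  have hc1 : c ≤ 1 := inv_le_one_of_one_le₀ hL.le
  let U : Sq → ℕ → ℝ := fun a k => -∑' i, c ^ (i + 1) * along Φ R0 f w r a (k + i)
  let W : Sq → ℕ → ℝ := fun a k => -∑' i, (1 : ℝ) ^ (i + 1) * along Φ R0 g w r a (k + i)
  have hU : ∀ a k, |U a k| ≤ w * r ^ k := by
    intro a k
    have h1 := (tail_bound hr0 hr1 hA0 hc0.le hc1 (hfb a) k).2
    have h2 : A * r ^ k / (1 - r) ≤ w * r ^ k := by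
      rw [div_le_iff₀ h1r]
      have := mul_le_mul_of_nonneg_right hAw (pow_pos hr0 k).le
      linarith
    show |-_| ≤ _
    rw [abs_neg]
    exact h1.trans h2
  have hW : ∀ a k, |W a k| ≤ w * r ^ k := by
    intro a k
    have h1 := (tail_bound hr0 hr1 hA0 zero_le_one le_rfl (hgb a) k).2
    have h2 : A * r ^ k / (1 - r) ≤ w * r ^ k := by
      rw [div_le_iff₀ h1r]
      have := mul_le_mul_of_nonneg_right hAw (pow_pos hr0 k).le
      linarith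
    show |-_| ≤ _
    rw [abs_neg]
    exact h1.trans h2
  have hdiv : ∀ k (x : ℝ), |x| ≤ w * r ^ k → |x / (w * r ^ k)| ≤ 1 := by
    intro k x hx
    have h3 : 0 < w * r ^ k := by positivity
    rw [abs_div, abs_of_pos h3, div_le_one h3]
    exact hx
  have hTb : ∀ a k, ‖((U a k / (w * r ^ k), W a k / (w * r ^ k)) : ℝ × ℝ)‖ ≤ 1 := by
    intro a k
    rw [Prod.norm_def]
    exact max_le (hdiv k _ (hU a k)) (hdiv k _ (hW a k))
  let T : Sq → Sq := fun a =>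
    ⟨BoundedContinuousFunction.ofNormedAddCommGroupDiscrete
      (fun k => ((U a k / (w * r ^ k), W a k / (w * r ^ k)) : ℝ × ℝ)) 1 (hTb a), by
      rw [BoundedContinuousFunction.norm_le zero_le_one]
      exact hTb a⟩
  -- contraction
  set B : ℝ := M * q * w + (η + P * w) * (2 * w) with hB
  have hB0 : 0 ≤ B := by positivity
  have hBw : B ≤ 1 / 2 * (w * (1 - r)) := by
    have e2 : M * q * w ≤ (1 - r) / 8 * w := mul_le_mul_of_nonneg_right hMq hw0.le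
    have e3 : (η + P * w) * (2 * w) ≤ ((1 - r) / 8 + (1 - r) / 24) * (2 * w) :=
      mul_le_mul_of_nonneg_right (by linarith) (by positivity)
    have e5 : 0 ≤ (1 - r) * w := by positivity
    rw [hB]
    nlinarith
  have hfd := along_sub H hκ hr0 hr1 hM hζ hP hK hε hρK hη hs1 hq hs2 hR0 hD0 f H.f_ds
  have hgd := along_sub H hκ hr0 hr1 hM hζ hP hK hε hρK hη hs1 hq hs2 hR0 hD0 g H.g_ds
  have hdist : ∀ (h : ∀ k, ℝ → ℝ → E k → ℝ)
      (_hb : ∀ a i, |along Φ R0 h w r a i| ≤ A * r ^ i)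
      (_hd : ∀ a b i, |along Φ R0 h w r a i - along Φ R0 h w r b i| ≤ B * dist a b * r ^ i)
      (t : ℝ) (_ : 0 ≤ t) (_ : t ≤ 1) (a b : Sq) (k : ℕ),
      |(-∑' i, t ^ (i + 1) * along Φ R0 h w r a (k + i)) / (w * r ^ k) -
        (-∑' i, t ^ (i + 1) * along Φ R0 h w r b (k + i)) / (w * r ^ k)| ≤ 1 / 2 * dist a b := by
    intro h hb hd t ht0 ht1 a b k
    have s1 := (tail_bound hr0 hr1 hA0 ht0 ht1 (hb a) k).1
    have s2 := (tail_bound hr0 hr1 hA0 ht0 ht1 (hb b) k).1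
    have h1 := (tail_bound (F := fun i => along Φ R0 h w r a i - along Φ R0 h w r b i) hr0 hr1
      (mul_nonneg hB0 (dist_nonneg (x := a) (y := b))) ht0 ht1 (hd a b) k).2
    have h2 : (∑' i, t ^ (i + 1) * (along Φ R0 h w r a (k + i) - along Φ R0 h w r b (k + i))) =
        (∑' i, t ^ (i + 1) * along Φ R0 h w r a (k + i)) -
          ∑' i, t ^ (i + 1) * along Φ R0 h w r b (k + i) := by
      rw [← s1.tsum_sub s2]
      congr 1
      funext i
      ring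
    rw [h2] at h1
    have h3 : 0 < w * r ^ k := by positivity
    rw [← sub_div, abs_div, abs_of_pos h3, div_le_iff₀ h3]
    have h4 : |(-∑' i, t ^ (i + 1) * along Φ R0 h w r a (k + i)) -
        (-∑' i, t ^ (i + 1) * along Φ R0 h w r b (k + i))| =
        |(∑' i, t ^ (i + 1) * along Φ R0 h w r a (k + i)) -
          ∑' i, t ^ (i + 1) * along Φ R0 h w r b (k + i)| := by
      rw [← abs_neg]; congr 1; ring
    rw [h4]
    refine h1.trans ?_
    rw [div_le_iff₀ h1r]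
    have h5 := mul_le_mul_of_nonneg_right hBw
      (mul_nonneg (dist_nonneg (x := a) (y := b)) (pow_pos hr0 k).le)
    calc B * dist a b * r ^ k = B * (dist a b * r ^ k) := by ring
      _ ≤ _ := h5
      _ = _ := by ring
  have hT : ContractingWith (1 / 2 : NNReal) T := by
    refine ⟨by rw [← NNReal.coe_lt_coe]; norm_num, LipschitzWith.of_dist_le_mul fun a b => ?_⟩
    have hcoe : ((1 / 2 : NNReal) : ℝ) = 1 / 2 := by norm_num
    rw [hcoe]
    have h0 : (0 : ℝ) ≤ 1 / 2 * dist a b := by positivity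
    show dist (T a).1 (T b).1 ≤ _
    rw [BoundedContinuousFunction.dist_le h0]
    intro k
    show dist ((U a k / (w * r ^ k), W a k / (w * r ^ k)) : ℝ × ℝ)
      (U b k / (w * r ^ k), W b k / (w * r ^ k)) ≤ _
    rw [Prod.dist_eq]
    refine max_le ?_ ?_
    · rw [Real.dist_eq]
      exact hdist f hfb hfd c hc0.le hc1 a b k
    · rw [Real.dist_eq]
      exact hdist g hgb hgd 1 zero_le_one le_rfl a b k
  -- the fixed point
  obtain ⟨a, ha⟩ : ∃ a : Sq, T a = a := ⟨ContractingWith.fixedPoint T hT, hT.fixedPoint_isFixedPt⟩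
  have hfix : ∀ k, nuS w r a k = U a k ∧ zS w r a k = W a k := by
    intro k
    have h3 : 0 < w * r ^ k := by positivity
    have h1 : (T a).1 k = a.1 k := by rw [ha]
    have h2 : (T a).1 k = ((U a k / (w * r ^ k), W a k / (w * r ^ k)) : ℝ × ℝ) := rfl
    rw [h2] at h1
    unfold nuS zS
    rw [← h1]
    constructor
    · show w * r ^ k * (U a k / (w * r ^ k)) = U a k
      field_simp
    · show w * r ^ k * (W a k / (w * r ^ k)) = W a k
      field_simp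
  refine ⟨nuS w r a, zS w r a, traj Φ R0 (nuS w r a) (zS w r a), rfl, fun k => rfl, fun k => ?_,
    fun k => ?_, nuS_le hw0.le hr0.le a, zS_le hw0.le hr0.le a, ?_⟩
  · have hs := (tail_bound hr0 hr1 hA0 hc0.le hc1 (hfb a) k).1
    have := tail_shift (F := along Φ R0 f w r a) hc0.ne' k hs
    rw [(hfix (k + 1)).1, (hfix k).1]
    show -∑' i, c ^ (i + 1) * along Φ R0 f w r a (k + 1 + i) =
      L * (-∑' i, c ^ (i + 1) * along Φ R0 f w r a (k + i)) + _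
    rw [← this, hc, inv_inv, ← hc, ← (hfix k).1]
    rfl
  · have hs := (tail_bound hr0 hr1 hA0 zero_le_one le_rfl (hgb a) k).1
    have := tail_shift (F := along Φ R0 g w r a) one_ne_zero k hs
    rw [(hfix (k + 1)).2, (hfix k).2]
    show -∑' i, (1 : ℝ) ^ (i + 1) * along Φ R0 g w r a (k + 1 + i) =
      (-∑' i, (1 : ℝ) ^ (i + 1) * along Φ R0 g w r a (k + i)) + _
    rw [← this, inv_one, one_mul, ← (hfix k).2]
    rfl
  · exact traj_nm H hκ hr0 hr1 hζ hP hK hε hρK hs1 hR0 (nuS_le hw0.le hr0.le a)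
      (zS_le hw0.le hr0.le a)

end Main

end Crest.Agent.R165.Sht2x541
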