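import Crest.Agent.R165.PStep2_417
import Crest.Agent.R165.PStepId_901
import Crest.Agent.R165.Sht2_541

/-!
# Row 165 (S0250), block G4: the plane flow as a flow of the shooting lemma

* `ident` : the identity of 901 as an `Ident`
* `St a r R Γ` : symmetric, connected families of finite norm; `Nmx`, `Dsx` : norms
* `PSeq a L r R Γ S Cb κ` : the hypotheses on all steps (uniform `κ`)
* `Phi`, `ff`, `gg` : the maps of the flow;  `flowHyp2`, `flowHyp` : the hypotheses of `Sht2_541`,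
  `Sht_541`
* `flow_eq` : the activities of a system along a trajectory
-/

set_option autoImplicit false
set_option linter.unusedSectionVars false

noncomputable section

open scoped ENNReal
open Crest.Agent.R165.Gr0x606 Crest.Agent.R165.Gr1x606 Crest.Agent.R165.Latx683
open Crest.Agent.R165.PNormx417 Crest.Agent.R165.GDefx387 Crest.Agent.R165.GeOpsx337
open Crest.Agent.R165.KFlowx337 Crest.Agent.R165.Packx915 Crest.Agent.R165.Bridgex915
open Crest.Agent.R165.NSumx915 Crest.Agent.R165.KStepx892 Crest.Agent.R165.ExpGx337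
open Crest.Agent.R165.PlaneModesx901 Crest.Agent.R165.PlaneLocx901 Crest.Agent.R165.PlaneCovx901
open Crest.Agent.R165.PlaneSumx901 Crest.Agent.R165.PlaneCoefx901 Crest.Agent.R165.W2x812
open Crest.Agent.R165.Locx901 Crest.Agent.R165.GBulkx417
open Crest.Agent.R165.Shtx541 Crest.Agent.R165.Sht2x541

namespace Crest.Agent.R165.PStepx417

open Crest.Agent.R165.PStepIdx901 (LocG baseG QlG PlS alQ beQ stK stH stA stN stQ lcG)

/-! ### linearity -/

theorem baseG_add (ν z ν' z' : ℝ) (U : Finset Fc) :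
    baseG (ν + ν') (z + z') U = baseG ν z U + baseG ν' z' U := by
  by_cases h : ∃ f, U = {f}
  · obtain ⟨f, rfl⟩ := h
    rw [PStepIdx901.baseG_single, PStepIdx901.baseG_single, PStepIdx901.baseG_single, add_smul,
      add_smul]
    abel
  · push Not at h
    rw [PStepIdx901.baseG_of_ne _ _ h, PStepIdx901.baseG_of_ne _ _ h,
      PStepIdx901.baseG_of_ne _ _ h, add_zero]

theorem baseG_sub (ν z ν' z' : ℝ) (U : Finset Fc) :
    baseG ν z U - baseG ν' z' U = baseG (ν - ν') (z - z') U := by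
  have h := baseG_add (ν - ν') (z - z') ν' z' U
  rw [sub_add_cancel, sub_add_cancel] at h
  rw [h, add_sub_cancel_right]

theorem baseG_empty (ν z : ℝ) : baseG ν z ∅ = 0 :=
  PStepIdx901.baseG_of_ne _ _ fun f h => Finset.singleton_ne_empty f h.symm

theorem avgAt_sub (r : ℕ) (K K' : Finset Fc → Gr (Fld ℤ)) (f : Fc) :
    avgAt r (fun U => K U - K' U) f = avgAt r K f - avgAt r K' f := by
  simp only [avgAt, smul_sub, Finset.sum_sub_distrib]

theorem alQ_sub (S : Cov (Fld ℤ)) (r : ℕ) (Q Q' : Fam) :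
    alQ S r (fun U => Q U - Q' U) = alQ S r Q - alQ S r Q' := by
  have e : (fun U => conv S ((Q U - Q' U : Ge (Fld ℤ)) : Gr (Fld ℤ))) =
      fun U => conv S (Q U : Gr (Fld ℤ)) - conv S (Q' U : Gr (Fld ℤ)) := by
    funext U; rw [Ge.coe_sub, map_sub]
  simp only [alQ, alK]
  rw [e, avgAt_sub, map_sub]

theorem beQ_sub (S : Cov (Fld ℤ)) (r : ℕ) (Q Q' : Fam) :
    beQ S r (fun U => Q U - Q' U) = beQ S r Q - beQ S r Q' := by
  have e : (fun U => conv S ((Q U - Q' U : Ge (Fld ℤ)) : Gr (Fld ℤ))) =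
      fun U => conv S (Q U : Gr (Fld ℤ)) - conv S (Q' U : Gr (Fld ℤ)) := by
    funext U; rw [Ge.coe_sub, map_sub]
  simp only [beQ, beK]
  rw [e, avgAt_sub, map_sub]

theorem lcG_sub (r : ℕ) (K K' : Fam) (U : Finset Fc) :
    lcG r (fun U => K U - K' U) U = lcG r K U - lcG r K' U := by
  unfold lcG
  split_ifs
  · simp only [map_sub, Finset.sum_sub_distrib, smul_sub]
  · rw [sub_zero]

theorem QlG_sub (S : Cov (Fld ℤ)) (r : ℕ) (Q Q' : Fam) (U : Finset Fc) :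
    QlG S r (fun U => Q U - Q' U) U = QlG S r Q U - QlG S r Q' U := by
  have e : (fun U => cvG S (Q U - Q' U)) = fun U => cvG S (Q U) - cvG S (Q' U) := by
    funext U; rw [map_sub]
  unfold QlG
  rw [e, lcG_sub, map_sub, map_sub]
  abel

/-! ### the identity -/

/-- **the identity of 901** -/
theorem ident {S : Cov (Fld ℤ)} (hS : SymS S) (r : ℕ) : Ident LocG baseG (QlG S r) r S where
  coe_bG _ _ _ := rfl
  coe_Ql Q U := by
    rw [PStepIdx901.coe_QlG, QlS]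
    simp only [loc2_md]
    rfl
  id1 ν z Q hsym U := PStepIdx901.HA_eq hS r ν z (Q := Q) hsym U

theorem Kf_baseG (ν z : ℝ) (Q : Fam) : Kf baseG ν z Q = stK ν z Q := rfl

/-- **the new remainder** -/
theorem stQ_eq_Rm {S : Cov (Fld ℤ)} (hS : SymS S) (r R R' : ℕ) (ν z : ℝ) {Q : Fam} (hQ : PlS Q)
    (U : Finset Fc) :
    stQ (fun a b => fd a b ≤ R) (fun a b => fd a b ≤ R') S r ν z Q U =
      QlG S r Q U + Rm LocG r R R' (Hf S (Kf baseG ν z Q)) U :=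
  PStepIdx901.stQ_eq _ _ hS r ν z hQ U

theorem plS_sub {Q Q' : Fam} (h : PlS Q) (h' : PlS Q') : PlS fun U => Q U - Q' U :=
  h.map2 h' fun _ _ _ _ k k' => k.sub k'

theorem plS_zero : PlS (fun _ => 0 : Fam) where
  tau t U := by show (0 : Gr (Fld ℤ)) = mp _ 0; rw [map_zero]
  rho U := by show (0 : Gr (Fld ℤ)) = mp _ 0; rw [map_zero]
  sig U := by show (0 : Gr (Fld ℤ)) = rev' (mp _ 0); rw [map_zero, map_zero]

/-! ### the state space -/

/-- symmetric connected families of finite norm -/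
structure St (a : ℝ) (r R : ℕ) (Γ : ℝ≥0∞) where
  /-- the family -/
  Q : Fam
  sym : PlS Q
  conn : ∀ U, Q U ≠ 0 → Packx915.Conn fd R U
  emp : Q ∅ = 0
  fin : nk a r Γ Q ≠ ∞

section state

variable {a : ℝ} {r R : ℕ} {Γ : ℝ≥0∞}

/-- the zero state -/
def St.zero : St a r R Γ where
  Q _ := 0
  sym := plS_zero
  conn U h := absurd rfl h
  emp := rfl
  fin := by
    have := mx_zero (a := a) (r := r) (r' := r) (Γ := Γ)
    rw [nk]
    rw [this]
    exact ENNReal.zero_ne_top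

/-- the norm -/
def Nmx (x : St a r R Γ) : ℝ := (nk a r Γ x.Q).toReal

/-- the distance -/
def Dsx (x y : St a r R Γ) : ℝ := (nk a r Γ fun U => x.Q U - y.Q U).toReal

theorem Nmx_nonneg (x : St a r R Γ) : 0 ≤ Nmx x := ENNReal.toReal_nonneg

theorem Dsx_nonneg (x y : St a r R Γ) : 0 ≤ Dsx x y := ENNReal.toReal_nonneg

theorem ds_fin (x y : St a r R Γ) : nk a r Γ (fun U => x.Q U - y.Q U) ≠ ∞ :=
  ne_top_of_le_ne_top (ENNReal.add_ne_top.2 ⟨x.fin, y.fin⟩) (nk_sub_le x.Q y.Q)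

theorem nk_eq (x : St a r R Γ) : nk a r Γ x.Q = ENNReal.ofReal (Nmx x) :=
  (ENNReal.ofReal_toReal x.fin).symm

theorem nk_le (x : St a r R Γ) {s : ℝ} (h : Nmx x ≤ s) : nk a r Γ x.Q ≤ ENNReal.ofReal s := by
  rw [nk_eq]; exact ENNReal.ofReal_le_ofReal h

theorem nkd_eq (x y : St a r R Γ) :
    nk a r Γ (fun U => x.Q U - y.Q U) = ENNReal.ofReal (Dsx x y) :=
  (ENNReal.ofReal_toReal (ds_fin x y)).symm

theorem Dsx_self (x : St a r R Γ) : Dsx x x = 0 := by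
  unfold Dsx
  simp only [sub_self]
  have := mx_zero (a := a) (r := r) (r' := r) (Γ := Γ)
  rw [nk]
  rw [this]
  rfl

theorem Dsx_comm (x y : St a r R Γ) : Dsx x y = Dsx y x := by
  unfold Dsx nk mx
  congr 2
  funext U
  rw [← pG_neg, neg_sub]

end state

/-! ### one step in the state space -/

section step

variable {a : ℝ} {L r r' R R' : ℕ} {Γ : ℝ≥0∞} {S : Cov (Fld ℤ)} {g : Fld ℤ → ℝ≥0∞}
  {p0 p1 q2 q0 C : ℝ≥0∞} {Cb : ℝ}

/-- the new remainder -/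
def nQ (r R R' : ℕ) (S : Cov (Fld ℤ)) (n z : ℝ) (Q : Fam) : Fam :=
  stQ (fun a b => fd a b ≤ R) (fun a b => fd a b ≤ R') S r (n / r) z Q

theorem nk_nQ_le (h : PStep a L r r' R R' Γ S g p0 p1 q2 q0 C Cb) (hS : SymS S) (x : St a r R Γ)
    {n z s : ℝ} (hs : 0 ≤ s) (hn : |n| ≤ s) (hz : |z| ≤ s) (hQ : Nmx x ≤ s)
    (hsm : cS a Cb L Γ * ENNReal.ofReal s ≤ 1) :
    nk a r' Γ (nQ r R R' S n z x.Q) ≤
      κe r r' Γ p0 p1 q2 q0 C * ENNReal.ofReal (Nmx x) + cQ a Cb L Γ * ENNReal.ofReal s ^ 2 := by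
  have e : nQ r R R' S n z x.Q = fun U => QlG S r x.Q U +
      Rm LocG r R R' (Hf S (Kf baseG (n / r) z x.Q)) U := by
    funext U
    exact stQ_eq_Rm hS r R R' (n / r) z x.sym U
  rw [e]
  refine (nk_add_le _ _).trans (add_le_add ?_ ?_)
  · rw [← nk_eq]
    exact nk_Ql h.toPHyp x.Q (QlG S r x.Q) (fun U => (ident hS r).coe_Ql x.Q U) x.emp x.conn
  · exact nk_Rm_le h (ident hS r) x.sym x.conn hs hn hz (nk_le x hQ) hsm

theorem nk_nQ_lip (h : PStep a L r r' R R' Γ S g p0 p1 q2 q0 C Cb) (hS : SymS S)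
    (x y : St a r R Γ) {n z n' z' s d : ℝ} (hs : 0 ≤ s) (hn : |n| ≤ s) (hz : |z| ≤ s)
    (hQ : Nmx x ≤ s) (hn' : |n'| ≤ s) (hz' : |z'| ≤ s) (hQ' : Nmx y ≤ s) (hd : 0 ≤ d)
    (hdn : |n - n'| ≤ d) (hdz : |z - z'| ≤ d) (hdQ : Dsx x y ≤ d)
    (hsm : cS a Cb L Γ * ENNReal.ofReal s ≤ 1) :
    nk a r' Γ (fun U => nQ r R R' S n z x.Q U - nQ r R R' S n' z' y.Q U) ≤
      κe r r' Γ p0 p1 q2 q0 C * ENNReal.ofReal (Dsx x y) +
        cL a Cb L Γ * ENNReal.ofReal s * ENNReal.ofReal d := by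
  have e : (fun U => nQ r R R' S n z x.Q U - nQ r R R' S n' z' y.Q U) =
      fun U => QlG S r (fun U => x.Q U - y.Q U) U +
        (Rm LocG r R R' (Hf S (Kf baseG (n / r) z x.Q)) U -
          Rm LocG r R R' (Hf S (Kf baseG (n' / r) z' y.Q)) U) := by
    funext U
    rw [nQ, nQ, stQ_eq_Rm hS r R R' (n / r) z x.sym U, stQ_eq_Rm hS r R R' (n' / r) z' y.sym U,
      QlG_sub]
    abel
  rw [e]
  refine (nk_add_le _ _).trans (add_le_add ?_ ?_)
  · rw [← nkd_eq]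
    refine nk_Ql h.toPHyp _ (QlG S r fun U => x.Q U - y.Q U)
      (fun U => (ident hS r).coe_Ql _ U) (by rw [x.emp, y.emp, sub_zero]) fun U hU => ?_
    by_cases h0 : x.Q U = 0
    · refine y.conn U fun h1 => hU ?_
      rw [h0, h1, sub_zero]
    · exact x.conn U h0
  · exact nk_Rm_lip h (ident hS r) baseG_sub x.sym y.sym x.conn y.conn hs hn hz (nk_le x hQ) hn' hz'
      (nk_le y hQ') (plS_sub x.sym y.sym) hd hdn hdz
      (by rw [nkd_eq]; exact ENNReal.ofReal_le_ofReal hdQ) hsm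

theorem nQ_conn {hS : SymS S} (hRR : R ≤ R') {n z : ℝ} (x : St a r R Γ) (U : Finset Fc)
    (hU : nQ r R R' S n z x.Q U ≠ 0) : Packx915.Conn fd R' U := by
  by_cases hb : baseG (n / r + alQ S r x.Q) (z + beQ S r x.Q) U = 0
  · have hN : stN (fun a b => fd a b ≤ R) (fun a b => fd a b ≤ R') S r (n / r) z x.Q U ≠ 0 := by
      intro h0
      apply hU
      show stN _ _ S r (n / r) z x.Q U - baseG _ _ U = 0
      rw [h0, hb, sub_zero]
    refine Quad2x897.KK_conn pd_fd hRR (K := stH S (n / r) z x.Q)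
      (B := PStepIdx901.stB S r (n / r) z x.Q) ?_ ?_ _ hN
    · exact H_conn (ident hS r) x.conn
    · intro W hW
      refine A_conn (ident hS r) (ν := n / r) (z := z) x.sym x.conn W fun h0 => hW ?_
      have h1 : stA S r (n / r) z x.Q W = 0 := h0
      rw [PStepIdx901.stB_eq, h1, gexp_zero, sub_self]
  · exact bG_conn (ident hS r) R' _ _ hb

open Classical in
/-- the step in the state space -/
def nSt (r R R' : ℕ) {r' : ℕ} {S : Cov (Fld ℤ)} (hS : SymS S) (hRR : R ≤ R') (n z : ℝ)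
    (x : St a r R Γ) : St a r' R' Γ :=
  if h : nk a r' Γ (nQ r R R' S n z x.Q) ≠ ∞ then
    { Q := nQ r R R' S n z x.Q
      sym := PStepIdx901.plS_stQ (PStepIdx901.nInv_fd R) (PStepIdx901.nInv_fd R') hS r _ z x.sym
      conn := nQ_conn (hS := hS) hRR x
      emp := PStepIdx901.stQ_empty _ _ S r _ z x.Q
      fin := h }
  else St.zero

theorem nSt_Q {hS : SymS S} {hRR : R ≤ R'} {n z : ℝ} {x : St a r R Γ}
    (h : nk a r' Γ (nQ r R R' S n z x.Q) ≠ ∞) :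
    (nSt r R R' (r' := r') hS hRR n z x).Q = nQ r R R' S n z x.Q := by
  rw [nSt, dif_pos h]

end step

/-! ### the flow -/

/-- the hypotheses on all steps; `κ` bounds the contraction factors -/
structure PSeq (a : ℝ) (L : ℕ) (r R : ℕ → ℕ) (Γ : ℝ≥0∞) (S : ℕ → Cov (Fld ℤ)) (Cb : ℝ)
    (κ : ℝ) : Prop where
  step : ∀ k, ∃ g p0 p1 q2 q0 C, PStep a L (r k) (r (k + 1)) (R k) (R (k + 1)) Γ (S k) g p0 p1 q2 q0
    C Cb ∧ κe (r k) (r (k + 1)) Γ p0 p1 q2 q0 C ≤ ENNReal.ofReal κ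
  sym : ∀ k, SymS (S k)
  κ_nonneg : 0 ≤ κ

section flow

variable {a : ℝ} {L : ℕ} {r R : ℕ → ℕ} {Γ : ℝ≥0∞} {S : ℕ → Cov (Fld ℤ)} {Cb κ : ℝ}

theorem PSeq.hRR (h : PSeq a L r R Γ S Cb κ) (k : ℕ) : R k ≤ R (k + 1) := by
  obtain ⟨g, p0, p1, q2, q0, C, hk, -⟩ := h.step k
  exact hk.hRR

theorem PSeq.a_pos (h : PSeq a L r R Γ S Cb κ) : 0 < a := by
  obtain ⟨g, p0, p1, q2, q0, C, hk, -⟩ := h.step 0
  exact hk.a_pos

theorem PSeq.Γ_top (h : PSeq a L r R Γ S Cb κ) : Γ ≠ ∞ := by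
  obtain ⟨g, p0, p1, q2, q0, C, hk, -⟩ := h.step 0
  exact hk.Γ_top

theorem PSeq.r_pos (h : PSeq a L r R Γ S Cb κ) (k : ℕ) : 1 ≤ r k := by
  obtain ⟨g, p0, p1, q2, q0, C, hk, -⟩ := h.step k
  exact hk.r_pos

theorem PSeq.ratio (h : PSeq a L r R Γ S Cb κ) (k : ℕ) : r (k + 1) = L * r k := by
  obtain ⟨g, p0, p1, q2, q0, C, hk, -⟩ := h.step k
  exact hk.ratio

/-- the map of the flow -/
def Phi (h : PSeq a L r R Γ S Cb κ) (k : ℕ) (n z : ℝ) (x : St a (r k) (R k) Γ) :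
    St a (r (k + 1)) (R (k + 1)) Γ := nSt (r k) (R k) (R (k + 1)) (h.sym k) (h.hRR k) n z x

/-- the influence of the remainder on the mass -/
def ff (a : ℝ) (r R : ℕ → ℕ) (Γ : ℝ≥0∞) (S : ℕ → Cov (Fld ℤ)) (k : ℕ) (_ _ : ℝ)
    (x : St a (r k) (R k) Γ) : ℝ := r (k + 1) * alQ (S k) (r k) x.Q

/-- the influence of the remainder on the field strength -/
def gg (a : ℝ) (r R : ℕ → ℕ) (Γ : ℝ≥0∞) (S : ℕ → Cov (Fld ℤ)) (k : ℕ) (_ _ : ℝ)
    (x : St a (r k) (R k) Γ) : ℝ := beQ (S k) (r k) x.Q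

/-- linear constant -/
def cM2 (a : ℝ) (L : ℕ) : ℝ := L * (PlaneCoefx901.cM / a ^ 2) + PlaneCoefx901.cK / a ^ 2

/-- quadratic constant -/
def cP2 (a Cb : ℝ) (L : ℕ) (Γ : ℝ≥0∞) : ℝ := (cQ a Cb L Γ).toReal + (cL a Cb L Γ).toReal

/-- radius -/
def cρ (a Cb : ℝ) (L : ℕ) (Γ : ℝ≥0∞) : ℝ := ((cS a Cb L Γ).toReal + 1)⁻¹

theorem cM2_nonneg (a : ℝ) (L : ℕ) : 0 ≤ cM2 a L := by
  have := cM_nonneg; have := cK_nonneg; unfold cM2; positivity

theorem cP2_nonneg (a Cb : ℝ) (L : ℕ) (Γ : ℝ≥0∞) : 0 ≤ cP2 a Cb L Γ :=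
  add_nonneg ENNReal.toReal_nonneg ENNReal.toReal_nonneg

theorem cρ_pos (a Cb : ℝ) (L : ℕ) (Γ : ℝ≥0∞) : 0 < cρ a Cb L Γ := by
  have : 0 ≤ (cS a Cb L Γ).toReal := ENNReal.toReal_nonneg
  unfold cρ; positivity

theorem small_of {a Cb : ℝ} {L : ℕ} {Γ : ℝ≥0∞} (hΓ : Γ ≠ ∞) {s : ℝ} (h : s ≤ cρ a Cb L Γ) :
    cS a Cb L Γ * ENNReal.ofReal s ≤ 1 := by
  have h0 : 0 ≤ (cS a Cb L Γ).toReal := ENNReal.toReal_nonneg
  rw [← ENNReal.ofReal_toReal (cS_top (a := a) (Cb := Cb) (L := L) hΓ), ← ENNReal.ofReal_mul h0,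
    ← ENNReal.ofReal_one]
  refine ENNReal.ofReal_le_ofReal ?_
  have h1 := mul_le_mul_of_nonneg_left h h0
  refine h1.trans ?_
  unfold cρ
  rw [← div_eq_mul_inv, div_le_one (by linarith)]
  linarith

/-- real form of the coefficient bounds -/
theorem ff_le (h : PSeq a L r R Γ S Cb κ) (k : ℕ) {Q : Fam} (hs : PlS Q)
    (hf : nk a (r k) Γ Q ≠ ∞) :
    |(r (k + 1) : ℝ) * alQ (S k) (r k) Q| ≤ cM2 a L * (nk a (r k) Γ Q).toReal ∧
      |beQ (S k) (r k) Q| ≤ cM2 a L * (nk a (r k) Γ Q).toReal := by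
  obtain ⟨g, p0, p1, q2, q0, C, hk, -⟩ := h.step k
  have hM := cM_nonneg
  have hK := cK_nonneg
  have hN : 0 ≤ (nk a (r k) Γ Q).toReal := ENNReal.toReal_nonneg
  obtain ⟨h1, h2⟩ := coef_real hk.toPHyp hs hN (ENNReal.ofReal_toReal hf).ge
  have e1 : alQ (S k) (r k) Q = alK (r k) fun U => conv (S k) (cof Q U) := rfl
  have e2 : beQ (S k) (r k) Q = beK (r k) fun U => conv (S k) (cof Q U) := rfl
  rw [e1, e2]
  constructor
  · rw [abs_mul, Nat.abs_cast, hk.ratio]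
    push_cast
    have h3 := mul_le_mul_of_nonneg_left h1 (Nat.cast_nonneg (α := ℝ) L)
    have h4 : 0 ≤ PlaneCoefx901.cK / a ^ 2 * (nk a (r k) Γ Q).toReal := by positivity
    unfold cM2
    nlinarith
  · have h4 : 0 ≤ L * (PlaneCoefx901.cM / a ^ 2) * (nk a (r k) Γ Q).toReal := by positivity
    unfold cM2
    nlinarith

theorem Phi_nm (h : PSeq a L r R Γ S Cb κ) (k : ℕ) {n z s : ℝ} (x : St a (r k) (R k) Γ)
    (hn : |n| ≤ s) (hz : |z| ≤ s) (hx : Nmx x ≤ s) (hs : s ≤ cρ a Cb L Γ) :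
    (Phi h k n z x).Q = nQ (r k) (R k) (R (k + 1)) (S k) n z x.Q ∧
      Nmx (Phi h k n z x) ≤ κ * Nmx x + (cQ a Cb L Γ).toReal * s ^ 2 := by
  obtain ⟨g, p0, p1, q2, q0, C, hk, hκ⟩ := h.step k
  have hs0 : 0 ≤ s := (abs_nonneg _).trans hn
  have h1 := nk_nQ_le hk (h.sym k) x hs0 hn hz hx (small_of h.Γ_top hs)
  have hQ : cQ a Cb L Γ = ENNReal.ofReal (cQ a Cb L Γ).toReal :=
    (ENNReal.ofReal_toReal (cQ_top h.Γ_top)).symm
  have h2 : nk a (r (k + 1)) Γ (nQ (r k) (R k) (R (k + 1)) (S k) n z x.Q) ≤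
      ENNReal.ofReal (κ * Nmx x + (cQ a Cb L Γ).toReal * s ^ 2) := by
    refine h1.trans ?_
    rw [ENNReal.ofReal_add (mul_nonneg h.κ_nonneg (Nmx_nonneg x))
      (mul_nonneg ENNReal.toReal_nonneg (sq_nonneg s)), ENNReal.ofReal_mul h.κ_nonneg,
      ENNReal.ofReal_mul ENNReal.toReal_nonneg, ← hQ, ENNReal.ofReal_pow hs0]
    gcongr
  have h3 : nk a (r (k + 1)) Γ (nQ (r k) (R k) (R (k + 1)) (S k) n z x.Q) ≠ ∞ :=
    ne_top_of_le_ne_top ENNReal.ofReal_ne_top h2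
  have h4 : (Phi h k n z x).Q = nQ (r k) (R k) (R (k + 1)) (S k) n z x.Q := nSt_Q h3
  refine ⟨h4, ?_⟩
  unfold Nmx
  rw [h4]
  refine ENNReal.toReal_le_of_le_ofReal ?_ h2
  exact add_nonneg (mul_nonneg h.κ_nonneg (Nmx_nonneg x))
    (mul_nonneg ENNReal.toReal_nonneg (sq_nonneg s))

theorem Phi_ds (h : PSeq a L r R Γ S Cb κ) (k : ℕ) {n z n' z' s : ℝ} (x y : St a (r k) (R k) Γ)
    (hn : |n| ≤ s) (hz : |z| ≤ s) (hx : Nmx x ≤ s) (hn' : |n'| ≤ s) (hz' : |z'| ≤ s)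
    (hy : Nmx y ≤ s) (hs : s ≤ cρ a Cb L Γ) :
    Dsx (Phi h k n z x) (Phi h k n' z' y) ≤
      κ * Dsx x y + (cL a Cb L Γ).toReal * s * (|n - n'| + |z - z'| + Dsx x y) := by
  obtain ⟨g, p0, p1, q2, q0, C, hk, hκ⟩ := h.step k
  have hs0 : 0 ≤ s := (abs_nonneg _).trans hn
  have hD := Dsx_nonneg x y
  set d := |n - n'| + |z - z'| + Dsx x y with hd
  have hd1 : |n - n'| ≤ d := by rw [hd]; have := abs_nonneg (z - z'); linarith
  have hd2 : |z - z'| ≤ d := by rw [hd]; have := abs_nonneg (n - n'); linarith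
  have hd3 : Dsx x y ≤ d := by
    rw [hd]; have := abs_nonneg (n - n'); have := abs_nonneg (z - z'); linarith
  have hd0 : 0 ≤ d := hD.trans hd3
  have h1 := nk_nQ_lip hk (h.sym k) x y hs0 hn hz hx hn' hz' hy hd0 hd1 hd2 hd3
    (small_of h.Γ_top hs)
  have hQ : cL a Cb L Γ = ENNReal.ofReal (cL a Cb L Γ).toReal :=
    (ENNReal.ofReal_toReal (cL_top h.Γ_top)).symm
  unfold Dsx
  rw [(Phi_nm h k x hn hz hx hs).1, (Phi_nm h k y hn' hz' hy hs).1]
  refine ENNReal.toReal_le_of_le_ofReal ?_ (h1.trans ?_)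
  · exact add_nonneg (mul_nonneg h.κ_nonneg hD)
      (mul_nonneg (mul_nonneg ENNReal.toReal_nonneg hs0) hd0)
  · show _ ≤ ENNReal.ofReal (κ * Dsx x y + (cL a Cb L Γ).toReal * s * d)
    rw [ENNReal.ofReal_add (mul_nonneg h.κ_nonneg hD)
      (mul_nonneg (mul_nonneg ENNReal.toReal_nonneg hs0) hd0), ENNReal.ofReal_mul h.κ_nonneg,
      ENNReal.ofReal_mul (mul_nonneg ENNReal.toReal_nonneg hs0),
      ENNReal.ofReal_mul ENNReal.toReal_nonneg, ← hQ]
    gcongr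

/-- **the plane flow satisfies the hypotheses of the shooting lemma (second form)** -/
theorem flowHyp2 (h : PSeq a L r R Γ S Cb κ) :
    FlowHyp2 (fun k => St a (r k) (R k) Γ) (fun _ => Nmx) (fun _ => Dsx) (Phi h)
      (ff a r R Γ S) (gg a r R Γ S) κ 0 0 (cM2 a L) (cP2 a Cb L Γ) (cρ a Cb L Γ) where
  nm_nonneg _ x := Nmx_nonneg x
  ds_nonneg _ x y := Dsx_nonneg x y
  nm k ν z x s hν hz hx hs := by
    have h1 := (Phi_nm h k x hν hz hx hs).2
    have h2 : (cQ a Cb L Γ).toReal * s ^ 2 ≤ cP2 a Cb L Γ * s ^ 2 :=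
      mul_le_mul_of_nonneg_right (le_add_of_nonneg_right ENNReal.toReal_nonneg) (sq_nonneg s)
    rw [zero_mul, add_zero]
    exact h1.trans (by linarith)
  ds k ν z x ν' z' y s hν hz hx hν' hz' hy hs := by
    have h1 := Phi_ds h k x y hν hz hx hν' hz' hy hs
    have hs0 : 0 ≤ s := (abs_nonneg _).trans hν
    have hD := Dsx_nonneg x y
    have h2 : (cL a Cb L Γ).toReal * s * (|ν - ν'| + |z - z'| + Dsx x y) ≤
        cP2 a Cb L Γ * s * (|ν - ν'| + |z - z'| + Dsx x y) := by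
      refine mul_le_mul_of_nonneg_right (mul_le_mul_of_nonneg_right
        (le_add_of_nonneg_left ENNReal.toReal_nonneg) hs0) (by positivity)
    rw [zero_mul, add_zero]
    exact h1.trans (by linarith)
  f_nm k ν z x s hν hz hx hs := by
    have h1 := (ff_le h k x.sym x.fin).1
    have h2 : 0 ≤ cP2 a Cb L Γ * s * (|ν| + |z|) + cP2 a Cb L Γ * s ^ 2 := by
      have := cP2_nonneg a Cb L Γ
      have hs0 : 0 ≤ s := (abs_nonneg _).trans hν
      positivity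
    show |(r (k + 1) : ℝ) * alQ (S k) (r k) x.Q| ≤ _
    rw [zero_add]
    refine h1.trans ?_
    show cM2 a L * Nmx x ≤ _
    linarith
  f_ds k ν z x ν' z' y s hν hz hx hν' hz' hy hs := by
    have h1 := (ff_le h k (plS_sub x.sym y.sym) (ds_fin x y)).1
    have h2 : 0 ≤ cP2 a Cb L Γ * s * (|ν - ν'| + |z - z'|) := by
      have := cP2_nonneg a Cb L Γ
      have hs0 : 0 ≤ s := (abs_nonneg _).trans hν
      positivity
    show |(r (k + 1) : ℝ) * alQ (S k) (r k) x.Q - (r (k + 1) : ℝ) * alQ (S k) (r k) y.Q| ≤ _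
    rw [← mul_sub, ← alQ_sub, zero_add]
    refine h1.trans ?_
    show cM2 a L * Dsx x y ≤ _
    linarith
  g_nm k ν z x s hν hz hx hs := by
    have h1 := (ff_le h k x.sym x.fin).2
    have h2 : 0 ≤ cP2 a Cb L Γ * s * (|ν| + |z|) + cP2 a Cb L Γ * s ^ 2 := by
      have := cP2_nonneg a Cb L Γ
      have hs0 : 0 ≤ s := (abs_nonneg _).trans hν
      positivity
    show |beQ (S k) (r k) x.Q| ≤ _
    rw [zero_add]
    refine h1.trans ?_
    show cM2 a L * Nmx x ≤ _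
    linarith
  g_ds k ν z x ν' z' y s hν hz hx hν' hz' hy hs := by
    have h1 := (ff_le h k (plS_sub x.sym y.sym) (ds_fin x y)).2
    have h2 : 0 ≤ cP2 a Cb L Γ * s * (|ν - ν'| + |z - z'|) := by
      have := cP2_nonneg a Cb L Γ
      have hs0 : 0 ≤ s := (abs_nonneg _).trans hν
      positivity
    show |beQ (S k) (r k) x.Q - beQ (S k) (r k) y.Q| ≤ _
    rw [← beQ_sub, zero_add]
    refine h1.trans ?_
    show cM2 a L * Dsx x y ≤ _
    linarith

/-- the hypotheses of the shooting lemma (first form) -/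
theorem flowHyp (h : PSeq a L r R Γ S Cb κ) :
    FlowHyp (fun k => St a (r k) (R k) Γ) (fun _ => Nmx) (fun _ => Dsx) (Phi h)
      (ff a r R Γ S) (gg a r R Γ S) κ 0 (cM2 a L + cP2 a Cb L Γ) (cρ a Cb L Γ) := by
  have H := flowHyp2 h
  have hM := cM2_nonneg a L
  have hP := cP2_nonneg a Cb L Γ
  have key : ∀ {X Nx A s : ℝ}, 0 ≤ Nx → 0 ≤ A → 0 ≤ s →
      X ≤ cM2 a L * Nx + (0 + cP2 a Cb L Γ * s) * A + cP2 a Cb L Γ * s ^ 2 →
      X ≤ (cM2 a L + cP2 a Cb L Γ) * Nx + (0 + (cM2 a L + cP2 a Cb L Γ) * s) * A +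
        (cM2 a L + cP2 a Cb L Γ) * s ^ 2 := by
    intro X Nx A s hN hA hs hX
    have h1 : 0 ≤ cP2 a Cb L Γ * Nx := mul_nonneg hP hN
    have h2 : 0 ≤ cM2 a L * s * A := mul_nonneg (mul_nonneg hM hs) hA
    have h3 : 0 ≤ cM2 a L * s ^ 2 := mul_nonneg hM (sq_nonneg s)
    nlinarith
  have key2 : ∀ {X Nx A s : ℝ}, 0 ≤ Nx → 0 ≤ A → 0 ≤ s →
      X ≤ cM2 a L * Nx + (0 + cP2 a Cb L Γ * s) * A →
      X ≤ (cM2 a L + cP2 a Cb L Γ) * Nx + (0 + (cM2 a L + cP2 a Cb L Γ) * s) * A := by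
    intro X Nx A s hN hA hs hX
    have h1 : 0 ≤ cP2 a Cb L Γ * Nx := mul_nonneg hP hN
    have h2 : 0 ≤ cM2 a L * s * A := mul_nonneg (mul_nonneg hM hs) hA
    nlinarith
  refine ⟨H.nm_nonneg, H.ds_nonneg, ?_, ?_, ?_, ?_, ?_, ?_⟩
  · intro k ν z x s hν hz hx hs
    have h1 := H.nm k ν z x s hν hz hx hs
    have h3 : 0 ≤ cM2 a L * s ^ 2 := mul_nonneg hM (sq_nonneg s)
    rw [zero_mul, add_zero] at h1
    nlinarith
  · intro k ν z x ν' z' y s hν hz hx hν' hz' hy hs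
    have h1 := H.ds k ν z x ν' z' y s hν hz hx hν' hz' hy hs
    have hs0 : 0 ≤ s := (abs_nonneg _).trans hν
    have hD := Dsx_nonneg x y
    have h3 : 0 ≤ cM2 a L * s * (|ν - ν'| + |z - z'| + Dsx x y) := by positivity
    rw [zero_mul, add_zero] at h1
    nlinarith
  · intro k ν z x s hν hz hx hs
    exact key (Nmx_nonneg x) (by positivity) ((abs_nonneg _).trans hν)
      (H.f_nm k ν z x s hν hz hx hs)
  · intro k ν z x ν' z' y s hν hz hx hν' hz' hy hs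
    exact key2 (Dsx_nonneg x y) (by positivity) ((abs_nonneg _).trans hν)
      (H.f_ds k ν z x ν' z' y s hν hz hx hν' hz' hy hs)
  · intro k ν z x s hν hz hx hs
    exact key (Nmx_nonneg x) (by positivity) ((abs_nonneg _).trans hν)
      (H.g_nm k ν z x s hν hz hx hs)
  · intro k ν z x ν' z' y s hν hz hx hν' hz' hy hs
    exact key2 (Dsx_nonneg x y) (by positivity) ((abs_nonneg _).trans hν)
      (H.g_ds k ν z x ν' z' y s hν hz hx hν' hz' hy hs)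

/-- **one step of a system along the flow** -/
theorem sys_Phi (h : PSeq a L r R Γ S Cb κ) (D : Sys Fc (Fld ℤ)) (k : ℕ)
    (hv : D.vac = vac0 (Fld ℤ)) (he : D.e k = PStepIdx901.eP (r k))
    (hn1 : D.near k = fun a b => fd a b ≤ R k) (hn2 : D.near (k + 1) = fun a b => fd a b ≤ R (k + 1))
    (hSk : D.S k = S k) {n z s : ℝ} {x : St a (r k) (R k) Γ}
    (hK : D.K k = stK (n / r k) z x.Q) (hn : |n| ≤ s) (hz : |z| ≤ s) (hx : Nmx x ≤ s)
    (hs : s ≤ cρ a Cb L Γ) :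
    D.K (k + 1) = stK ((L * n + ff a r R Γ S k n z x) / r (k + 1)) (z + gg a r R Γ S k n z x)
      (Phi h k n z x).Q := by
  rw [PStepIdx901.sys_step D k hv he (n / r k) z x.Q hK, (Phi_nm h k x hn hz hx hs).1, hn1, hn2,
    hSk]
  have hr : (r k : ℝ) ≠ 0 := by
    have := h.r_pos k
    exact_mod_cast (by omega : r k ≠ 0)
  have hr' : (r (k + 1) : ℝ) ≠ 0 := by
    have := h.r_pos (k + 1)
    exact_mod_cast (by omega : r (k + 1) ≠ 0)
  have e : (L * n + ff a r R Γ S k n z x) / r (k + 1) = n / r k + alQ (S k) (r k) x.Q := by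
    have hrat : (r (k + 1) : ℝ) = L * r k := by exact_mod_cast h.ratio k
    unfold ff
    rw [add_div, mul_div_cancel_left₀ _ hr', hrat]
    congr 1
    rw [hrat] at hr'
    have hL : (L : ℝ) ≠ 0 := left_ne_zero_of_mul hr'
    field_simp
  rw [e]
  rfl

/-- **a system along a trajectory of the flow** -/
theorem flow_eq (h : PSeq a L r R Γ S Cb κ) (D : Sys Fc (Fld ℤ))
    (hv : D.vac = vac0 (Fld ℤ)) (he : ∀ k, D.e k = PStepIdx901.eP (r k))
    (hnear : ∀ k, D.near k = fun a b => fd a b ≤ R k) (hSk : ∀ k, D.S k = S k)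
    {ν z : ℕ → ℝ} {x : ∀ k, St a (r k) (R k) Γ}
    (hK : D.K 0 = stK (ν 0 / r 0) (z 0) (x 0).Q)
    (hx : ∀ k, x (k + 1) = Phi h k (ν k) (z k) (x k))
    (hν : ∀ k, ν (k + 1) = L * ν k + ff a r R Γ S k (ν k) (z k) (x k))
    (hz : ∀ k, z (k + 1) = z k + gg a r R Γ S k (ν k) (z k) (x k))
    (hs : ∀ k, |ν k| ≤ cρ a Cb L Γ ∧ |z k| ≤ cρ a Cb L Γ ∧ Nmx (x k) ≤ cρ a Cb L Γ) (k : ℕ) :
    D.K k = stK (ν k / r k) (z k) (x k).Q := by
  induction k with
  | zero => exact hK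
  | succ k ih =>
    rw [hx, hν, hz]
    exact sys_Phi h D k hv (he k) (hnear k) (hnear (k + 1)) (hSk k) ih (hs k).1 (hs k).2.1
      (hs k).2.2 le_rfl

end flow

end Crest.Agent.R165.PStepx417
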