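import Crest.Agent.R165.Sht2_541

/-!
# Row 165 (S0250): one step of the flow (helper541)

* `OneStep` : the inequalities of `FlowHyp2` for a single step `E → E'`
* `OneStep.mono`, `OneStep.scale` : monotone in the constants, change of the unit of the norm
* `FlowHyp2.of_steps`, `FlowHyp2.of_first` : a flow from its steps
-/

set_option autoImplicit false
set_option linter.unusedVariables false

namespace Crest.Agent.R165.Sht3x541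

open Crest.Agent.R165.Sht2x541

universe u

/-- the inequalities of one step -/
structure OneStep {E E' : Type u} (Nm : E → ℝ) (Nm' : E' → ℝ) (Ds : E → E → ℝ) (Ds' : E' → E' → ℝ)
    (Φ : ℝ → ℝ → E → E') (f g : ℝ → ℝ → E → ℝ) (κ η ζ M P ρ : ℝ) : Prop where
  nm : ∀ ν z R s, |ν| ≤ s → |z| ≤ s → Nm R ≤ s → s ≤ ρ →
    Nm' (Φ ν z R) ≤ κ * Nm R + ζ * (|ν| + |z|) + P * s ^ 2
  ds : ∀ ν z R ν' z' R' s, |ν| ≤ s → |z| ≤ s → Nm R ≤ s → |ν'| ≤ s → |z'| ≤ s →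
    Nm R' ≤ s → s ≤ ρ →
    Ds' (Φ ν z R) (Φ ν' z' R') ≤
      κ * Ds R R' + ζ * (|ν - ν'| + |z - z'|) + P * s * (|ν - ν'| + |z - z'| + Ds R R')
  f_nm : ∀ ν z R s, |ν| ≤ s → |z| ≤ s → Nm R ≤ s → s ≤ ρ →
    |f ν z R| ≤ M * Nm R + (η + P * s) * (|ν| + |z|) + P * s ^ 2
  f_ds : ∀ ν z R ν' z' R' s, |ν| ≤ s → |z| ≤ s → Nm R ≤ s → |ν'| ≤ s → |z'| ≤ s →
    Nm R' ≤ s → s ≤ ρ →
    |f ν z R - f ν' z' R'| ≤ M * Ds R R' + (η + P * s) * (|ν - ν'| + |z - z'|)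
  g_nm : ∀ ν z R s, |ν| ≤ s → |z| ≤ s → Nm R ≤ s → s ≤ ρ →
    |g ν z R| ≤ M * Nm R + (η + P * s) * (|ν| + |z|) + P * s ^ 2
  g_ds : ∀ ν z R ν' z' R' s, |ν| ≤ s → |z| ≤ s → Nm R ≤ s → |ν'| ≤ s → |z'| ≤ s →
    Nm R' ≤ s → s ≤ ρ →
    |g ν z R - g ν' z' R'| ≤ M * Ds R R' + (η + P * s) * (|ν - ν'| + |z - z'|)

section

variable {E E' : Type u} {Nm : E → ℝ} {Nm' : E' → ℝ} {Ds : E → E → ℝ} {Ds' : E' → E' → ℝ}
  {Φ : ℝ → ℝ → E → E'} {f g : ℝ → ℝ → E → ℝ} {κ η ζ M P ρ : ℝ}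

/-- monotone in the constants -/
theorem OneStep.mono (h : OneStep Nm Nm' Ds Ds' Φ f g κ η ζ M P ρ)
    (hN : ∀ R, 0 ≤ Nm R) (hD : ∀ R R', 0 ≤ Ds R R') {κ₁ η₁ ζ₁ M₁ P₁ ρ₁ : ℝ}
    (hκ : κ ≤ κ₁) (hη : η ≤ η₁) (hζ : ζ ≤ ζ₁) (hM : M ≤ M₁) (hP : P ≤ P₁) (hρ : ρ₁ ≤ ρ) :
    OneStep Nm Nm' Ds Ds' Φ f g κ₁ η₁ ζ₁ M₁ P₁ ρ₁ where
  nm ν z R s h1 h2 h3 h4 := by
    refine (h.nm ν z R s h1 h2 h3 (h4.trans hρ)).trans ?_
    have := hN R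
    gcongr
  ds ν z R ν' z' R' s h1 h2 h3 h1' h2' h3' h4 := by
    refine (h.ds ν z R ν' z' R' s h1 h2 h3 h1' h2' h3' (h4.trans hρ)).trans ?_
    have := hD R R'
    have hs : 0 ≤ s := (abs_nonneg _).trans h1
    gcongr
  f_nm ν z R s h1 h2 h3 h4 := by
    refine (h.f_nm ν z R s h1 h2 h3 (h4.trans hρ)).trans ?_
    have := hN R
    have hs : 0 ≤ s := (abs_nonneg _).trans h1
    gcongr
  f_ds ν z R ν' z' R' s h1 h2 h3 h1' h2' h3' h4 := by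
    refine (h.f_ds ν z R ν' z' R' s h1 h2 h3 h1' h2' h3' (h4.trans hρ)).trans ?_
    have := hD R R'
    have hs : 0 ≤ s := (abs_nonneg _).trans h1
    gcongr
  g_nm ν z R s h1 h2 h3 h4 := by
    refine (h.g_nm ν z R s h1 h2 h3 (h4.trans hρ)).trans ?_
    have := hN R
    have hs : 0 ≤ s := (abs_nonneg _).trans h1
    gcongr
  g_ds ν z R ν' z' R' s h1 h2 h3 h1' h2' h3' h4 := by
    refine (h.g_ds ν z R ν' z' R' s h1 h2 h3 h1' h2' h3' (h4.trans hρ)).trans ?_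
    have := hD R R'
    have hs : 0 ≤ s := (abs_nonneg _).trans h1
    gcongr

/-- change of the unit of the norm: `Nm / c`, `c ≥ 1` -/
theorem OneStep.scale (h : OneStep Nm Nm' Ds Ds' Φ f g κ η ζ M P ρ)
    (_hN : ∀ R, 0 ≤ Nm R) (hD : ∀ R R', 0 ≤ Ds R R') (hη : 0 ≤ η) (hζ : 0 ≤ ζ) (hP : 0 ≤ P)
    {c : ℝ} (hc : 1 ≤ c) :
    OneStep (fun R => Nm R / c) (fun R => Nm' R / c) (fun R R' => Ds R R' / c)
      (fun R R' => Ds' R R' / c) Φ f g κ η (ζ / c) (M * c) (P * c ^ 2) (ρ / c) := by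
  have hc0 : 0 < c := by linarith
  have key : ∀ {x s : ℝ}, x / c ≤ s → x ≤ c * s := fun {x s} hx => by
    rw [div_le_iff₀ hc0] at hx; linarith
  have hs1 : ∀ {x s : ℝ}, 0 ≤ s → |x| ≤ s → |x| ≤ c * s := fun {x s} h0 hx =>
    hx.trans (by nlinarith)
  have hρ' : ∀ {s : ℝ}, s ≤ ρ / c → c * s ≤ ρ := fun {s} hs => by
    rw [le_div_iff₀ hc0] at hs; linarith
  refine ⟨?_, ?_, ?_, ?_, ?_, ?_⟩
  · intro ν z R s h1 h2 h3 h4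
    have hs : 0 ≤ s := (abs_nonneg _).trans h1
    have := h.nm ν z R (c * s) (hs1 hs h1) (hs1 hs h2) (key h3) (hρ' h4)
    rw [div_le_iff₀ hc0]
    refine this.trans (le_of_sub_nonneg ?_)
    have e : (κ * (Nm R / c) + ζ / c * (|ν| + |z|) + P * c ^ 2 * s ^ 2) * c -
        (κ * Nm R + ζ * (|ν| + |z|) + P * (c * s) ^ 2) = P * s ^ 2 * c ^ 2 * (c - 1) := by
      field_simp; ring
    rw [e]
    have : 0 ≤ c - 1 := by linarith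
    positivity
  · intro ν z R ν' z' R' s h1 h2 h3 h1' h2' h3' h4
    have hs : 0 ≤ s := (abs_nonneg _).trans h1
    have := h.ds ν z R ν' z' R' (c * s) (hs1 hs h1) (hs1 hs h2) (key h3) (hs1 hs h1') (hs1 hs h2')
      (key h3') (hρ' h4)
    rw [div_le_iff₀ hc0]
    refine this.trans (le_of_sub_nonneg ?_)
    have e : (κ * (Ds R R' / c) + ζ / c * (|ν - ν'| + |z - z'|) +
        P * c ^ 2 * s * (|ν - ν'| + |z - z'| + Ds R R' / c)) * c -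
        (κ * Ds R R' + ζ * (|ν - ν'| + |z - z'|) + P * (c * s) * (|ν - ν'| + |z - z'| + Ds R R')) =
        P * s * c * ((c ^ 2 - 1) * (|ν - ν'| + |z - z'|) + (c - 1) * Ds R R') := by
      field_simp; ring
    rw [e]
    have h0 : 0 ≤ c - 1 := by linarith
    have h0' : 0 ≤ c ^ 2 - 1 := by nlinarith
    have := hD R R'
    positivity
  · intro ν z R s h1 h2 h3 h4
    have hs : 0 ≤ s := (abs_nonneg _).trans h1
    have := h.f_nm ν z R (c * s) (hs1 hs h1) (hs1 hs h2) (key h3) (hρ' h4)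
    refine this.trans (le_of_sub_nonneg ?_)
    have e : (M * c * (Nm R / c) + (η + P * c ^ 2 * s) * (|ν| + |z|) + P * c ^ 2 * s ^ 2) -
        (M * Nm R + (η + P * (c * s)) * (|ν| + |z|) + P * (c * s) ^ 2) =
        P * s * c * (c - 1) * (|ν| + |z|) := by
      field_simp; ring
    rw [e]
    have h0 : 0 ≤ c - 1 := by linarith
    positivity
  · intro ν z R ν' z' R' s h1 h2 h3 h1' h2' h3' h4
    have hs : 0 ≤ s := (abs_nonneg _).trans h1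
    have := h.f_ds ν z R ν' z' R' (c * s) (hs1 hs h1) (hs1 hs h2) (key h3) (hs1 hs h1')
      (hs1 hs h2') (key h3') (hρ' h4)
    refine this.trans (le_of_sub_nonneg ?_)
    have e : (M * c * (Ds R R' / c) + (η + P * c ^ 2 * s) * (|ν - ν'| + |z - z'|)) -
        (M * Ds R R' + (η + P * (c * s)) * (|ν - ν'| + |z - z'|)) =
        P * s * c * (c - 1) * (|ν - ν'| + |z - z'|) := by
      field_simp; ring
    rw [e]
    have h0 : 0 ≤ c - 1 := by linarith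
    positivity
  · intro ν z R s h1 h2 h3 h4
    have hs : 0 ≤ s := (abs_nonneg _).trans h1
    have := h.g_nm ν z R (c * s) (hs1 hs h1) (hs1 hs h2) (key h3) (hρ' h4)
    refine this.trans (le_of_sub_nonneg ?_)
    have e : (M * c * (Nm R / c) + (η + P * c ^ 2 * s) * (|ν| + |z|) + P * c ^ 2 * s ^ 2) -
        (M * Nm R + (η + P * (c * s)) * (|ν| + |z|) + P * (c * s) ^ 2) =
        P * s * c * (c - 1) * (|ν| + |z|) := by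
      field_simp; ring
    rw [e]
    have h0 : 0 ≤ c - 1 := by linarith
    positivity
  · intro ν z R ν' z' R' s h1 h2 h3 h1' h2' h3' h4
    have hs : 0 ≤ s := (abs_nonneg _).trans h1
    have := h.g_ds ν z R ν' z' R' (c * s) (hs1 hs h1) (hs1 hs h2) (key h3) (hs1 hs h1')
      (hs1 hs h2') (key h3') (hρ' h4)
    refine this.trans (le_of_sub_nonneg ?_)
    have e : (M * c * (Ds R R' / c) + (η + P * c ^ 2 * s) * (|ν - ν'| + |z - z'|)) -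
        (M * Ds R R' + (η + P * (c * s)) * (|ν - ν'| + |z - z'|)) =
        P * s * c * (c - 1) * (|ν - ν'| + |z - z'|) := by
      field_simp; ring
    rw [e]
    have h0 : 0 ≤ c - 1 := by linarith
    positivity

end

/-- a flow from its steps -/
theorem of_steps {E : ℕ → Type u} {Nm : ∀ k, E k → ℝ} {Ds : ∀ k, E k → E k → ℝ}
    {Φ : ∀ k, ℝ → ℝ → E k → E (k + 1)} {f g : ∀ k, ℝ → ℝ → E k → ℝ} {κ η ζ M P ρ : ℝ}
    (hN : ∀ k R, 0 ≤ Nm k R) (hD : ∀ k R R', 0 ≤ Ds k R R')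
    (h : ∀ k, OneStep (Nm k) (Nm (k + 1)) (Ds k) (Ds (k + 1)) (Φ k) (f k) (g k) κ η ζ M P ρ) :
    FlowHyp2 E Nm Ds Φ f g κ η ζ M P ρ where
  nm_nonneg := hN
  ds_nonneg := hD
  nm k := (h k).nm
  ds k := (h k).ds
  f_nm k := (h k).f_nm
  f_ds k := (h k).f_ds
  g_nm k := (h k).g_nm
  g_ds k := (h k).g_ds

/-! ### a flow with a special first step -/

/-- the state spaces: a point, then `E 1, E 2, ...` -/
def E1 (E : ℕ → Type u) : ℕ → Type u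
  | 0 => PUnit
  | k + 1 => E (k + 1)

section first

variable {E : ℕ → Type u}

/-- size -/
def nm1 (c : ℝ) (Nm : ∀ k, E k → ℝ) : ∀ k, E1 E k → ℝ
  | 0 => fun _ => c
  | k + 1 => Nm (k + 1)

/-- distance -/
def ds1 (Ds : ∀ k, E k → E k → ℝ) : ∀ k, E1 E k → E1 E k → ℝ
  | 0 => fun _ _ => 0
  | k + 1 => Ds (k + 1)

/-- the maps -/
def phi1 (Φ₀ : ℝ → ℝ → E 1) (Φ : ∀ k, ℝ → ℝ → E k → E (k + 1)) :
    ∀ k, ℝ → ℝ → E1 E k → E1 E (k + 1)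
  | 0 => fun ν z _ => Φ₀ ν z
  | k + 1 => Φ (k + 1)

/-- the flow functions -/
def f1 (f₀ : ℝ → ℝ → ℝ) (f : ∀ k, ℝ → ℝ → E k → ℝ) : ∀ k, ℝ → ℝ → E1 E k → ℝ
  | 0 => fun ν z _ => f₀ ν z
  | k + 1 => f (k + 1)

/-- **a flow with a special first step** -/
theorem of_first {Nm : ∀ k, E k → ℝ} {Ds : ∀ k, E k → E k → ℝ}
    {Φ : ∀ k, ℝ → ℝ → E k → E (k + 1)} {f g : ∀ k, ℝ → ℝ → E k → ℝ} {κ η ζ M P ρ : ℝ}
    {c : ℝ} (hc : 0 ≤ c) {Φ₀ : ℝ → ℝ → E 1} {f₀ g₀ : ℝ → ℝ → ℝ}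
    (hN : ∀ k R, 0 ≤ Nm k R) (hD : ∀ k R R', 0 ≤ Ds k R R')
    (h0 : OneStep (fun _ : PUnit.{u + 1} => c) (Nm 1) (fun _ _ => 0) (Ds 1) (fun ν z _ => Φ₀ ν z)
      (fun ν z _ => f₀ ν z) (fun ν z _ => g₀ ν z) κ η ζ M P ρ)
    (h : ∀ k, 1 ≤ k →
      OneStep (Nm k) (Nm (k + 1)) (Ds k) (Ds (k + 1)) (Φ k) (f k) (g k) κ η ζ M P ρ) :
    FlowHyp2 (E1 E) (nm1 c Nm) (ds1 Ds) (phi1 Φ₀ Φ) (f1 f₀ f) (f1 g₀ g) κ η ζ M P ρ := by
  refine of_steps ?_ ?_ ?_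
  · intro k
    cases k with
    | zero => exact fun _ => hc
    | succ k => exact hN (k + 1)
  · intro k
    cases k with
    | zero => exact fun _ _ => le_rfl
    | succ k => exact hD (k + 1)
  · intro k
    cases k with
    | zero => exact h0
    | succ k => exact h (k + 1) (by omega)

/-- **the orbit**: shooting for a flow with a special first step -/
theorem orbit {κ r M : ℝ} (hκ : 0 ≤ κ) (hκr : κ < r) (hr1 : r < 1) (hM : 0 ≤ M) :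
    ∃ K ζ₀ : ℝ, 1 ≤ K ∧ 0 < ζ₀ ∧
      ∀ (L η ζ P ρ : ℝ), 1 < L → 0 ≤ η → η ≤ (1 - r) / 8 → 0 ≤ ζ → ζ ≤ ζ₀ → 0 ≤ P → 0 < ρ →
      ∃ ε₀ : ℝ, 0 < ε₀ ∧
      ∀ (E : ℕ → Type u) (Nm : ∀ k, E k → ℝ) (Ds : ∀ k, E k → E k → ℝ)
        (Φ : ∀ k, ℝ → ℝ → E k → E (k + 1)) (f g : ∀ k, ℝ → ℝ → E k → ℝ)
        (ε : ℝ) (Φ₀ : ℝ → ℝ → E 1) (f₀ g₀ : ℝ → ℝ → ℝ),
        0 ≤ ε → ε ≤ ε₀ → (∀ k R, 0 ≤ Nm k R) → (∀ k R R', 0 ≤ Ds k R R') →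
        OneStep (fun _ : PUnit.{u + 1} => ε) (Nm 1) (fun _ _ => 0) (Ds 1) (fun ν z _ => Φ₀ ν z)
          (fun ν z _ => f₀ ν z) (fun ν z _ => g₀ ν z) κ η ζ M P ρ →
        (∀ k, 1 ≤ k →
          OneStep (Nm k) (Nm (k + 1)) (Ds k) (Ds (k + 1)) (Φ k) (f k) (g k) κ η ζ M P ρ) →
        ∃ (ν z : ℕ → ℝ) (R : ∀ k, E (k + 1)), R 0 = Φ₀ (ν 0) (z 0) ∧
          ν 1 = L * ν 0 + f₀ (ν 0) (z 0) ∧ z 1 = z 0 + g₀ (ν 0) (z 0) ∧
          (∀ k, R (k + 1) = Φ (k + 1) (ν (k + 1)) (z (k + 1)) (R k)) ∧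
          (∀ k, ν (k + 2) = L * ν (k + 1) + f (k + 1) (ν (k + 1)) (z (k + 1)) (R k)) ∧
          (∀ k, z (k + 2) = z (k + 1) + g (k + 1) (ν (k + 1)) (z (k + 1)) (R k)) ∧
          (∀ k, |ν k| ≤ K * ε * r ^ k) ∧ (∀ k, |z k| ≤ K * ε * r ^ k) ∧
          (∀ k, Nm (k + 1) (R k) ≤ ε * r ^ (k + 1)) := by
  obtain ⟨K, ζ₀, hK, hζ₀, H⟩ := shooting2.{u} κ r M hκ hκr hr1 hM
  refine ⟨K, ζ₀, hK, hζ₀, fun L η ζ P ρ hL hη hη' hζ hζ' hP hρ => ?_⟩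
  obtain ⟨ε₀, hε₀, H⟩ := H L η ζ P ρ hL hη hη' hζ hζ' hP hρ
  refine ⟨ε₀, hε₀, ?_⟩
  intro E Nm Ds Φ f g ε Φ₀ f₀ g₀ hε hεε hN hD h0 h
  obtain ⟨ν, z, R, hR0, hR, hν, hz, bν, bz, bR⟩ := H (E1 E) (nm1 ε Nm) (ds1 Ds) (phi1 Φ₀ Φ)
    (f1 f₀ f) (f1 g₀ g) (of_first hε hN hD h0 h) ε hε hεε PUnit.unit le_rfl le_rfl
  exact ⟨ν, z, fun k => R (k + 1), hR 0, hν 0, hz 0, fun k => hR (k + 1), fun k => hν (k + 1),
    fun k => hz (k + 1), bν, bz, fun k => bR (k + 1)⟩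

end first

end Crest.Agent.R165.Sht3x541
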