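import Crest.Agent.R165.PStep3_417
import Crest.Agent.R165.Sht3_541

/-!
# Row 165 (S0250), block G4: one step of the plane flow as a `OneStep` of 541

* `nSt_nm`, `nSt_ds`, `coef_le` : the bounds of one step, in the state space
* `oneStep` : `OneStep` with `Nm = nk.toReal`;  `oneStep_a` : with `Nm = nk.toReal / a²`,
  `M = L cM + cK`
* `sys_nSt` : one step of a system;  `orbit_eq` : a system along an orbit which starts at `n0`
-/

set_option autoImplicit false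
set_option linter.unusedSectionVars false

noncomputable section

open scoped ENNReal
open Crest.Agent.R165.Gr0x606 Crest.Agent.R165.Gr1x606 Crest.Agent.R165.Latx683
open Crest.Agent.R165.PNormx417 Crest.Agent.R165.GDefx387 Crest.Agent.R165.GeOpsx337
open Crest.Agent.R165.KFlowx337 Crest.Agent.R165.Packx915 Crest.Agent.R165.Bridgex915
open Crest.Agent.R165.NSumx915 Crest.Agent.R165.KStepx892 Crest.Agent.R165.ExpGx337
open Crest.Agent.R165.PlaneModesx901 Crest.Agent.R165.PlaneLocx901 Crest.Agent.R165.PlaneCovx901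
open Crest.Agent.R165.PlaneSumx901 Crest.Agent.R165.PlaneCoefx901 Crest.Agent.R165.W2x812
open Crest.Agent.R165.Locx901 Crest.Agent.R165.GBulkx417
open Crest.Agent.R165.Sht3x541

namespace Crest.Agent.R165.PStepx417

open Crest.Agent.R165.PStepIdx901 (LocG baseG QlG PlS alQ beQ stK stH stA stN stQ lcG)

section step

variable {a : ℝ} {L r r' R R' : ℕ} {Γ : ℝ≥0∞} {S : Cov (Fld ℤ)} {g : Fld ℤ → ℝ≥0∞}
  {p0 p1 q2 q0 C : ℝ≥0∞} {Cb κ : ℝ}

/-- size of the new state -/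
theorem nSt_nm (h : PStep a L r r' R R' Γ S g p0 p1 q2 q0 C Cb) (hS : SymS S) (hκ0 : 0 ≤ κ)
    (hκ : κe r r' Γ p0 p1 q2 q0 C ≤ ENNReal.ofReal κ) {n z s : ℝ} (x : St a r R Γ)
    (hn : |n| ≤ s) (hz : |z| ≤ s) (hx : Nmx x ≤ s) (hs : s ≤ cρ a Cb L Γ) :
    (nSt (r' := r') r R R' hS h.hRR n z x).Q = nQ r R R' S n z x.Q ∧
      Nmx (nSt (r' := r') r R R' hS h.hRR n z x) ≤ κ * Nmx x + (cQ a Cb L Γ).toReal * s ^ 2 := by
  have hs0 : 0 ≤ s := (abs_nonneg _).trans hn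
  have h1 := nk_nQ_le h hS x hs0 hn hz hx (small_of h.Γ_top hs)
  have hQ : cQ a Cb L Γ = ENNReal.ofReal (cQ a Cb L Γ).toReal :=
    (ENNReal.ofReal_toReal (cQ_top h.Γ_top)).symm
  have h2 : nk a r' Γ (nQ r R R' S n z x.Q) ≤
      ENNReal.ofReal (κ * Nmx x + (cQ a Cb L Γ).toReal * s ^ 2) := by
    refine h1.trans ?_
    rw [ENNReal.ofReal_add (mul_nonneg hκ0 (Nmx_nonneg x))
      (mul_nonneg ENNReal.toReal_nonneg (sq_nonneg s)), ENNReal.ofReal_mul hκ0,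
      ENNReal.ofReal_mul ENNReal.toReal_nonneg, ← hQ, ENNReal.ofReal_pow hs0]
    gcongr
  have h3 : nk a r' Γ (nQ r R R' S n z x.Q) ≠ ∞ := ne_top_of_le_ne_top ENNReal.ofReal_ne_top h2
  have h4 : (nSt (r' := r') r R R' hS h.hRR n z x).Q = nQ r R R' S n z x.Q := nSt_Q h3
  refine ⟨h4, ?_⟩
  unfold Nmx
  rw [h4]
  refine ENNReal.toReal_le_of_le_ofReal ?_ h2
  exact add_nonneg (mul_nonneg hκ0 (Nmx_nonneg x))
    (mul_nonneg ENNReal.toReal_nonneg (sq_nonneg s))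

/-- distance of the new states -/
theorem nSt_ds (h : PStep a L r r' R R' Γ S g p0 p1 q2 q0 C Cb) (hS : SymS S) (hκ0 : 0 ≤ κ)
    (hκ : κe r r' Γ p0 p1 q2 q0 C ≤ ENNReal.ofReal κ) {n z n' z' s : ℝ} (x y : St a r R Γ)
    (hn : |n| ≤ s) (hz : |z| ≤ s) (hx : Nmx x ≤ s) (hn' : |n'| ≤ s) (hz' : |z'| ≤ s)
    (hy : Nmx y ≤ s) (hs : s ≤ cρ a Cb L Γ) :
    Dsx (nSt (r' := r') r R R' hS h.hRR n z x) (nSt (r' := r') r R R' hS h.hRR n' z' y) ≤
      κ * Dsx x y + (cL a Cb L Γ).toReal * s * (|n - n'| + |z - z'| + Dsx x y) := by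
  have hs0 : 0 ≤ s := (abs_nonneg _).trans hn
  have hD := Dsx_nonneg x y
  set d := |n - n'| + |z - z'| + Dsx x y with hd
  have hd1 : |n - n'| ≤ d := by rw [hd]; have := abs_nonneg (z - z'); linarith
  have hd2 : |z - z'| ≤ d := by rw [hd]; have := abs_nonneg (n - n'); linarith
  have hd3 : Dsx x y ≤ d := by
    rw [hd]; have := abs_nonneg (n - n'); have := abs_nonneg (z - z'); linarith
  have hd0 : 0 ≤ d := hD.trans hd3
  have h1 := nk_nQ_lip h hS x y hs0 hn hz hx hn' hz' hy hd0 hd1 hd2 hd3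
    (small_of h.Γ_top hs)
  have hQ : cL a Cb L Γ = ENNReal.ofReal (cL a Cb L Γ).toReal :=
    (ENNReal.ofReal_toReal (cL_top h.Γ_top)).symm
  unfold Dsx
  rw [(nSt_nm h hS hκ0 hκ x hn hz hx hs).1, (nSt_nm h hS hκ0 hκ y hn' hz' hy hs).1]
  refine ENNReal.toReal_le_of_le_ofReal ?_ (h1.trans ?_)
  · exact add_nonneg (mul_nonneg hκ0 hD)
      (mul_nonneg (mul_nonneg ENNReal.toReal_nonneg hs0) hd0)
  · show _ ≤ ENNReal.ofReal (κ * Dsx x y + (cL a Cb L Γ).toReal * s * d)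
    rw [ENNReal.ofReal_add (mul_nonneg hκ0 hD)
      (mul_nonneg (mul_nonneg ENNReal.toReal_nonneg hs0) hd0), ENNReal.ofReal_mul hκ0,
      ENNReal.ofReal_mul (mul_nonneg ENNReal.toReal_nonneg hs0),
      ENNReal.ofReal_mul ENNReal.toReal_nonneg, ← hQ]
    gcongr

/-- the coefficients of one step, with the constants of 901 -/
theorem coef_le2 (h : PStep a L r r' R R' Γ S g p0 p1 q2 q0 C Cb) {Q : Fam} (hs : PlS Q)
    (hf : nk a r Γ Q ≠ ∞) :
    |(r' : ℝ) * alQ S r Q| ≤ L * (PlaneCoefx901.cM / a ^ 2) * (nk a r Γ Q).toReal ∧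
      |beQ S r Q| ≤ PlaneCoefx901.cK / a ^ 2 * (nk a r Γ Q).toReal := by
  have hN : 0 ≤ (nk a r Γ Q).toReal := ENNReal.toReal_nonneg
  obtain ⟨h1, h2⟩ := coef_real h.toPHyp hs hN (ENNReal.ofReal_toReal hf).ge
  have e1 : alQ S r Q = alK r fun U => conv S (cof Q U) := rfl
  have e2 : beQ S r Q = beK r fun U => conv S (cof Q U) := rfl
  rw [e1, e2]
  refine ⟨?_, h2⟩
  rw [abs_mul, Nat.abs_cast, h.ratio]
  push_cast
  have h3 := mul_le_mul_of_nonneg_left h1 (Nat.cast_nonneg (α := ℝ) L)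
  linarith

/-- the coefficients of one step -/
theorem coef_le (h : PStep a L r r' R R' Γ S g p0 p1 q2 q0 C Cb) {Q : Fam} (hs : PlS Q)
    (hf : nk a r Γ Q ≠ ∞) :
    |(r' : ℝ) * alQ S r Q| ≤ cM2 a L * (nk a r Γ Q).toReal ∧
      |beQ S r Q| ≤ cM2 a L * (nk a r Γ Q).toReal := by
  have hM := cM_nonneg
  have hK := cK_nonneg
  have hN : 0 ≤ (nk a r Γ Q).toReal := ENNReal.toReal_nonneg
  obtain ⟨h1, h2⟩ := coef_le2 h hs hf
  unfold cM2
  constructor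
  · have h4 : 0 ≤ PlaneCoefx901.cK / a ^ 2 * (nk a r Γ Q).toReal := by positivity
    nlinarith
  · have h4 : 0 ≤ L * (PlaneCoefx901.cM / a ^ 2) * (nk a r Γ Q).toReal := by positivity
    nlinarith

/-- **one step of the plane flow** -/
theorem oneStep (h : PStep a L r r' R R' Γ S g p0 p1 q2 q0 C Cb) (hS : SymS S) (hκ0 : 0 ≤ κ)
    (hκ : κe r r' Γ p0 p1 q2 q0 C ≤ ENNReal.ofReal κ) :
    OneStep (E := St a r R Γ) (E' := St a r' R' Γ) Nmx Nmx Dsx Dsx (nSt r R R' hS h.hRR)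
      (fun _ _ x => (r' : ℝ) * alQ S r x.Q) (fun _ _ x => beQ S r x.Q) κ 0 0 (cM2 a L)
      (cP2 a Cb L Γ) (cρ a Cb L Γ) where
  nm ν z x s hν hz hx hs := by
    have h1 := (nSt_nm h hS hκ0 hκ x hν hz hx hs).2
    have h2 : (cQ a Cb L Γ).toReal * s ^ 2 ≤ cP2 a Cb L Γ * s ^ 2 :=
      mul_le_mul_of_nonneg_right (le_add_of_nonneg_right ENNReal.toReal_nonneg) (sq_nonneg s)
    rw [zero_mul, add_zero]
    exact h1.trans (by linarith)
  ds ν z x ν' z' y s hν hz hx hν' hz' hy hs := by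
    have h1 := nSt_ds h hS hκ0 hκ x y hν hz hx hν' hz' hy hs
    have hs0 : 0 ≤ s := (abs_nonneg _).trans hν
    have hD := Dsx_nonneg x y
    have h2 : (cL a Cb L Γ).toReal * s * (|ν - ν'| + |z - z'| + Dsx x y) ≤
        cP2 a Cb L Γ * s * (|ν - ν'| + |z - z'| + Dsx x y) := by
      refine mul_le_mul_of_nonneg_right (mul_le_mul_of_nonneg_right
        (le_add_of_nonneg_left ENNReal.toReal_nonneg) hs0) (by positivity)
    rw [zero_mul, add_zero]
    exact h1.trans (by linarith)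
  f_nm ν z x s hν hz hx hs := by
    have h1 := (coef_le h x.sym x.fin).1
    have h2 : 0 ≤ cP2 a Cb L Γ * s * (|ν| + |z|) + cP2 a Cb L Γ * s ^ 2 := by
      have := cP2_nonneg a Cb L Γ
      have hs0 : 0 ≤ s := (abs_nonneg _).trans hν
      positivity
    rw [zero_add]
    refine h1.trans ?_
    show cM2 a L * Nmx x ≤ _
    linarith
  f_ds ν z x ν' z' y s hν hz hx hν' hz' hy hs := by
    have h1 := (coef_le h (plS_sub x.sym y.sym) (ds_fin x y)).1
    have h2 : 0 ≤ cP2 a Cb L Γ * s * (|ν - ν'| + |z - z'|) := by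
      have := cP2_nonneg a Cb L Γ
      have hs0 : 0 ≤ s := (abs_nonneg _).trans hν
      positivity
    rw [← mul_sub, ← alQ_sub, zero_add]
    refine h1.trans ?_
    show cM2 a L * Dsx x y ≤ _
    linarith
  g_nm ν z x s hν hz hx hs := by
    have h1 := (coef_le h x.sym x.fin).2
    have h2 : 0 ≤ cP2 a Cb L Γ * s * (|ν| + |z|) + cP2 a Cb L Γ * s ^ 2 := by
      have := cP2_nonneg a Cb L Γ
      have hs0 : 0 ≤ s := (abs_nonneg _).trans hν
      positivity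
    rw [zero_add]
    refine h1.trans ?_
    show cM2 a L * Nmx x ≤ _
    linarith
  g_ds ν z x ν' z' y s hν hz hx hν' hz' hy hs := by
    have h1 := (coef_le h (plS_sub x.sym y.sym) (ds_fin x y)).2
    have h2 : 0 ≤ cP2 a Cb L Γ * s * (|ν - ν'| + |z - z'|) := by
      have := cP2_nonneg a Cb L Γ
      have hs0 : 0 ≤ s := (abs_nonneg _).trans hν
      positivity
    rw [← beQ_sub, zero_add]
    refine h1.trans ?_
    show cM2 a L * Dsx x y ≤ _
    linarith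

/-- linear constant in norm units -/
def cM3 (L : ℕ) : ℝ := L * PlaneCoefx901.cM + PlaneCoefx901.cK

theorem cM3_nonneg (L : ℕ) : 0 ≤ cM3 L := by
  have := cM_nonneg; have := cK_nonneg; unfold cM3; positivity

theorem cM2_mul {a : ℝ} (ha : 0 < a) (L : ℕ) : cM2 a L * a ^ 2 = cM3 L := by
  unfold cM2 cM3
  field_simp

/-- **one step of the plane flow, norms divided by `a²`** -/
theorem oneStep_a (h : PStep a L r r' R R' Γ S g p0 p1 q2 q0 C Cb) (hS : SymS S) (hκ0 : 0 ≤ κ)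
    (hκ : κe r r' Γ p0 p1 q2 q0 C ≤ ENNReal.ofReal κ) (ha : 1 ≤ a) :
    OneStep (E := St a r R Γ) (E' := St a r' R' Γ) (fun x => Nmx x / a ^ 2)
      (fun x => Nmx x / a ^ 2) (fun x y => Dsx x y / a ^ 2) (fun x y => Dsx x y / a ^ 2)
      (nSt r R R' hS h.hRR) (fun _ _ x => (r' : ℝ) * alQ S r x.Q) (fun _ _ x => beQ S r x.Q) κ 0 0
      (cM3 L) (cP2 a Cb L Γ * (a ^ 2) ^ 2) (cρ a Cb L Γ / a ^ 2) := by
  have h1 := (oneStep h hS hκ0 hκ).scale (fun x => Nmx_nonneg x) (fun x y => Dsx_nonneg x y)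
    le_rfl le_rfl (cP2_nonneg a Cb L Γ) (c := a ^ 2) (one_le_pow₀ ha)
  rw [cM2_mul h.a_pos, zero_div] at h1
  exact h1

/-- **one step of a system along the flow** -/
theorem sys_nSt (h : PStep a L r r' R R' Γ S g p0 p1 q2 q0 C Cb) (hS : SymS S) (hκ0 : 0 ≤ κ)
    (hκ : κe r r' Γ p0 p1 q2 q0 C ≤ ENNReal.ofReal κ) (D : Sys Fc (Fld ℤ)) (k : ℕ)
    (hv : D.vac = vac0 (Fld ℤ)) (he : D.e k = PStepIdx901.eP r)
    (hn1 : D.near k = fun a b => fd a b ≤ R) (hn2 : D.near (k + 1) = fun a b => fd a b ≤ R')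
    (hSk : D.S k = S) {n z s : ℝ} {x : St a r R Γ}
    (hK : D.K k = stK (n / r) z x.Q) (hn : |n| ≤ s) (hz : |z| ≤ s) (hx : Nmx x ≤ s)
    (hs : s ≤ cρ a Cb L Γ) :
    D.K (k + 1) = stK ((L * n + (r' : ℝ) * alQ S r x.Q) / r') (z + beQ S r x.Q)
      (nSt (r' := r') r R R' hS h.hRR n z x).Q := by
  rw [PStepIdx901.sys_step D k hv he (n / r) z x.Q hK, (nSt_nm h hS hκ0 hκ x hn hz hx hs).1, hn1,
    hn2, hSk]
  have hr : (r : ℝ) ≠ 0 := by
    have := h.r_pos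
    exact_mod_cast (by omega : r ≠ 0)
  have hr' : (r' : ℝ) ≠ 0 := by
    have := h.hR
    exact_mod_cast (by omega : r' ≠ 0)
  have e : (L * n + (r' : ℝ) * alQ S r x.Q) / r' = n / r + alQ S r x.Q := by
    have hrat : (r' : ℝ) = L * r := by exact_mod_cast h.ratio
    rw [add_div, mul_div_cancel_left₀ _ hr', hrat]
    congr 1
    rw [hrat] at hr'
    have hL : (L : ℝ) ≠ 0 := left_ne_zero_of_mul hr'
    field_simp
  rw [e]
  rfl

end step

/-! ### orbits which start at the index `1` -/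

section orbit

variable {a : ℝ} {L : ℕ} {r R : ℕ → ℕ} {Γ : ℝ≥0∞} {S : ℕ → Cov (Fld ℤ)} {Cb κ : ℝ}

/-- **a system along an orbit in norm units, from the index `1` on** -/
theorem orbit_eq (h : PSeq a L r R Γ S Cb κ) (D : Sys Fc (Fld ℤ))
    (hv : D.vac = vac0 (Fld ℤ)) (he : ∀ k, D.e k = PStepIdx901.eP (r k))
    (hnear : ∀ k, D.near k = fun a b => fd a b ≤ R k) (hSk : ∀ k, D.S k = S k)
    {ν z : ℕ → ℝ} {x : ∀ k, St a (r (k + 1)) (R (k + 1)) Γ}
    (hK : D.K 1 = stK (ν 1 / r 1) (z 1) (x 0).Q)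
    (hx : ∀ k, x (k + 1) = Phi h (k + 1) (ν (k + 1)) (z (k + 1)) (x k))
    (hν : ∀ k, ν (k + 2) = L * ν (k + 1) + ff a r R Γ S (k + 1) (ν (k + 1)) (z (k + 1)) (x k))
    (hz : ∀ k, z (k + 2) = z (k + 1) + gg a r R Γ S (k + 1) (ν (k + 1)) (z (k + 1)) (x k))
    (hs : ∀ k, |ν (k + 1)| ≤ cρ a Cb L Γ ∧ |z (k + 1)| ≤ cρ a Cb L Γ ∧
      Nmx (x k) ≤ cρ a Cb L Γ) (k : ℕ) :
    D.K (k + 1) = stK (ν (k + 1) / r (k + 1)) (z (k + 1)) (x k).Q := by
  induction k with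
  | zero => exact hK
  | succ k ih =>
    rw [hx, hν, hz]
    exact sys_Phi h D (k + 1) hv (he _) (hnear _) (hnear _) (hSk _) ih (hs k).1 (hs k).2.1
      (hs k).2.2 le_rfl

end orbit

end Crest.Agent.R165.PStepx417
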