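import Crest.Agent.R165.PStepId_901
import Crest.Agent.R165.Quad3_897
import Crest.Agent.R165.W2_812

/-!
# Row 165 (S0250), block G: norms of the plane step (helper901)

One step `(a, r) → (a', r')` (PAIR of amplitudes, no relation `a' = a` is used: it only enters
through `BulkHyp`).

* `NG a r s Γ K = NN fd s Γ (pG (wU (wPl ℤ) a r U) (K U))` (weights of scale `r`, sizes at scale `s`)
* `PDat` : the hypotheses of one step
* `bet` : size of `baseG ν z`;  `M0`, `P0`, `P1` : the constants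
* `H_le`, `A_le`, `Ql_le`, `quad_le`, `stQ_le`, `stQ_lip`, `alQ_le`, `beQ_le`, `alQ_sub_le`, ...
* `stQ_conn`
-/

set_option autoImplicit false

noncomputable section

open scoped ENNReal
open Crest.Agent.R165.Gr0x606 Crest.Agent.R165.Gr1x606
open Crest.Agent.R165.Latx683
open Crest.Agent.R165.Locx901
open Crest.Agent.R165.PlaneModesx901
open Crest.Agent.R165.PlaneLocx901
open Crest.Agent.R165.PlaneCovx901
open Crest.Agent.R165.PlaneSumx901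
open Crest.Agent.R165.PlaneCoefx901
open Crest.Agent.R165.PNormx417
open Crest.Agent.R165.GDefx387
open Crest.Agent.R165.GBulkx417
open Crest.Agent.R165.GrLocx337
open Crest.Agent.R165.GeOpsx337
open Crest.Agent.R165.ExpGx337
open Crest.Agent.R165.KFlowx337
open Crest.Agent.R165.PStepx417
open Crest.Agent.R165.PStepIdx901
open Crest.Agent.R165.Packx915 Crest.Agent.R165.NSumx915 Crest.Agent.R165.Bridgex915
open Crest.Agent.R165.W2x812

namespace Crest.Agent.R165.PStepNx901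

/-- weights of scale `(a, r)`, sizes at scale `s` -/
def NG (a : ℝ) (r s : ℕ) (Γ : ℝ≥0∞) (K : Finset Fc → Ge (Fld ℤ)) : ℝ≥0∞ :=
  NN fd s Γ fun U => pG (wU w₀ a r U) (K U)

theorem NK_true (a : ℝ) (r : ℕ) (Γ : ℝ≥0∞) (K : Finset Fc → Ge (Fld ℤ)) :
    NK w₀ a r Γ (fun _ => True) (fun U => (K U : Gr (Fld ℤ))) = NG a r r Γ K := by
  rw [NK_eq_NN, NG]
  congr 1
  funext U
  rw [act_of trivial]
  rfl

/-- size of the family of local forms -/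
def bet (a : ℝ) (r : ℕ) (Γ : ℝ≥0∞) (C : ℝ) (ν z : ℝ) : ℝ≥0∞ :=
  Γ * ENNReal.ofReal (9 * a ^ 2 * C ^ 2 * (|ν| * r + 2 * |z|))

theorem bet_ne_top {a : ℝ} {r : ℕ} {Γ : ℝ≥0∞} (hΓ : Γ ≠ ∞) (C ν z : ℝ) :
    bet a r Γ C ν z ≠ ∞ := ENNReal.mul_ne_top hΓ ENNReal.ofReal_ne_top

theorem bet_add_le (a : ℝ) (r : ℕ) (Γ : ℝ≥0∞) (C ν z ν' z' : ℝ) :
    bet a r Γ C (ν + ν') (z + z') ≤ bet a r Γ C ν z + bet a r Γ C ν' z' := by
  rw [bet, bet, bet, ← mul_add, ← ENNReal.ofReal_add (by positivity) (by positivity)]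
  gcongr
  have h1 := abs_add_le ν ν'
  have h2 := abs_add_le z z'
  have h3 : |ν + ν'| * r ≤ (|ν| + |ν'|) * r := by gcongr
  nlinarith [sq_nonneg (3 * a * C), mul_nonneg (sq_nonneg a) (sq_nonneg C)]

/-- the hypotheses of one step -/
structure PDat (a a' : ℝ) (r r' R R' n n' : ℕ) (Γ : ℝ≥0∞) (C : ℝ) (g : Fld ℤ → ℝ≥0∞)
    (p0 p1 q2 q0 Cb : ℝ≥0∞) (S : Cov (Fld ℤ)) : Prop where
  ha : 0 < a
  hr : 1 ≤ r
  hΓ : 3 ≤ Γ
  hΓt : Γ ≠ ∞
  reg : BkReg C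
  H : BulkHyp w₀ a a' r r' g (fun f => (md f).P0) (fun f => (md f).P1) p0 p1 q2 q0 Cb
  N : BulkNum p0 p1 q2 q0 Cb
  gram : Gram S g
  sym : SymS S
  kap1 : kap p0 p1 q2 q0 Cb ≤ 1
  hR : 4 * R + 3 * r + 2 ≤ r'
  RR : R ≤ R'
  cov : NSumx915.Cov (fd : Fc → Fc → ℕ) (r' + R') r' n
  cov' : NSumx915.Cov (fd : Fc → Fc → ℕ) r' r n'

/-- the hypotheses on the remainder of the state -/
structure QOK (R : ℕ) (Q : Finset Fc → Ge (Fld ℤ)) : Prop where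
  sym : PlS Q
  empty : Q ∅ = 0
  conn : ∀ U, Q U ≠ 0 → Packx915.Conn fd R U

theorem QOK.sub {R : ℕ} {Q Q' : Finset Fc → Ge (Fld ℤ)} (h : QOK R Q) (h' : QOK R Q') :
    QOK R fun U => Q U - Q' U where
  sym := h.sym.map2 h'.sym fun _ _ _ _ h h' => h.sub h'
  empty := by rw [h.empty, h'.empty, sub_zero]
  conn U hU := by
    by_contra hcon
    refine hU ?_
    rw [not_imp_comm.1 (h.conn U) hcon, not_imp_comm.1 (h'.conn U) hcon, sub_zero]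

section one

variable {a a' : ℝ} {r r' R R' n n' : ℕ} {Γ : ℝ≥0∞} {C : ℝ} {g : Fld ℤ → ℝ≥0∞}
  {p0 p1 q2 q0 Cb : ℝ≥0∞} {S : Gr0x606.Cov (Fld ℤ)}

namespace PDat

variable (D : PDat a a' r r' R R' n n' Γ C g p0 p1 q2 q0 Cb S)

include D

theorem one_le : 1 ≤ Γ := le_trans (by norm_num) D.hΓ

theorem hc0 : p0 + q0 ≠ 0 := fun h => D.N.p0_ne (add_eq_zero.1 h).1

theorem wU_le (U : Finset Fc) (l : Fld ℤ) : wU w₀ a' r' U l + g l ≤ wU w₀ a r U l :=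
  (wU_add_g_le D.H.W0 D.H.W1 D.hc0 U l).trans (mul_le_of_le_one_left zero_le D.N.sum_le)

theorem pG_mix (U : Finset Fc) (F : Ge (Fld ℤ)) :
    pG (wU w₀ a' r' U) F ≤ pG (wU w₀ a r U) F :=
  pnorm_le_pnorm (fun l => le_self_add.trans (D.wU_le U l)) _

theorem pG_conv (U : Finset Fc) (F : Ge (Fld ℤ)) :
    pG (wU w₀ a' r' U) (cvG S F) ≤ pG (wU w₀ a r U) F :=
  pnorm_conv_le D.gram (D.wU_le U) _

theorem g_le (U : Finset Fc) (l : Fld ℤ) : g l ≤ q0 * wU w₀ a r U l :=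
  le_mul_wU D.N.q0_ne fun x _ hl => D.H.W0 x l hl

end PDat

/-! ### bounds of `H` and `A` -/

theorem NG_base_le (D : PDat a a' r r' R R' n n' Γ C g p0 p1 q2 q0 Cb S) (ν z : ℝ) :
    NG a r r Γ (baseG ν z) ≤ bet a r Γ C ν z := by
  rw [← NK_true]
  exact NK_base_le D.reg D.ha.le D.hr Γ ν z

theorem NG_add_le (a : ℝ) (r s : ℕ) (Γ : ℝ≥0∞) (K K' : Finset Fc → Ge (Fld ℤ)) :
    NG a r s Γ (fun U => K U + K' U) ≤ NG a r s Γ K + NG a r s Γ K' :=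
  (NN_mono fun _ => pG_add_le _ _ _).trans (NN_add_le _ _)

theorem NG_sub_le (a : ℝ) (r s : ℕ) (Γ : ℝ≥0∞) (K K' : Finset Fc → Ge (Fld ℤ)) :
    NG a r s Γ (fun U => K U - K' U) ≤ NG a r s Γ K + NG a r s Γ K' :=
  (NN_mono fun _ => pG_sub_le _ _ _).trans (NN_add_le _ _)

theorem NG_mix (D : PDat a a' r r' R R' n n' Γ C g p0 p1 q2 q0 Cb S)
    (K : Finset Fc → Ge (Fld ℤ)) : NG a' r' r Γ K ≤ NG a r r Γ K :=
  NN_mono fun U => D.pG_mix U _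

theorem NG_conv (D : PDat a a' r r' R R' n n' Γ C g p0 p1 q2 q0 Cb S)
    (K : Finset Fc → Ge (Fld ℤ)) : NG a' r' r Γ (fun U => cvG S (K U)) ≤ NG a r r Γ K :=
  NN_mono fun U => D.pG_conv U _

theorem stK_le (D : PDat a a' r r' R R' n n' Γ C g p0 p1 q2 q0 Cb S) (ν z : ℝ)
    (Q : Finset Fc → Ge (Fld ℤ)) :
    NG a r r Γ (stK ν z Q) ≤ bet a r Γ C ν z + NG a r r Γ Q :=
  (NG_add_le _ _ _ _ _ _).trans (add_le_add (NG_base_le D ν z) le_rfl)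

/-- the convolved state at the new weights -/
theorem H_le (D : PDat a a' r r' R R' n n' Γ C g p0 p1 q2 q0 Cb S) (ν z : ℝ)
    (Q : Finset Fc → Ge (Fld ℤ)) :
    NG a' r' r Γ (stH S ν z Q) ≤ bet a r Γ C ν z + NG a r r Γ Q :=
  (NG_conv D _).trans (stK_le D ν z Q)

theorem isEv_coe (Q : Finset Fc → Ge (Fld ℤ)) (U : Finset Fc) :
    IsEv ((Q U : Ge (Fld ℤ)) : Gr (Fld ℤ)) := (Q U).2

/-- finite rank of the light mode projections -/
theorem md_range (f : Fc) : LinearMap.range (md f).P0 ≤ Submodule.span ℝ (Set.range (md f).p) := by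
  rintro _ ⟨x, rfl⟩
  rw [Modes.P0_apply]
  exact Submodule.sum_mem _ fun i _ =>
    Submodule.smul_mem _ _ (Submodule.subset_span (Set.mem_range_self i))

theorem md_fin (f : Fc) : FiniteDimensional ℝ (LinearMap.range (md f).P0) :=
  have : FiniteDimensional ℝ (Submodule.span ℝ (Set.range (md f).p)) :=
    FiniteDimensional.span_of_finite ℝ (Set.finite_range _)
  Submodule.finiteDimensional_of_le (md_range f)

theorem md_rank (f : Fc) : Module.finrank ℝ (LinearMap.range (md f).P0) ≤ 2 := by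
  have : FiniteDimensional ℝ (Submodule.span ℝ (Set.range (md f).p)) :=
    FiniteDimensional.span_of_finite ℝ (Set.finite_range _)
  refine (Submodule.finrank_mono (md_range f)).trans ?_
  have h := finrank_range_le_card (R := ℝ) (md f).p
  rw [Fintype.card_fin] at h
  exact h

theorem LocAt_eq_loc2 :
    (LocAt : Fc → Gr (Fld ℤ) →ₗ[ℝ] Gr (Fld ℤ)) = fun f => loc2 (md f).P0 (md f).P1 :=
  funext fun _ => LinearMap.ext fun _ => Loc_eq_loc2 _ _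

/-- the linear part at the new weights, sizes at the old scale -/
theorem Ql_mix (D : PDat a a' r r' R R' n n' Γ C g p0 p1 q2 q0 Cb S)
    (Q : Finset Fc → Ge (Fld ℤ)) :
    NG a' r' r Γ (QlG S r Q) ≤ NG a r r Γ Q := by
  refine Quad2x897.NN_mono_ne fun U hU => ?_
  change pnorm (wU w₀ a' r' U) (QlG S r Q U : Gr (Fld ℤ)) ≤ pnorm (wU w₀ a r U) (Q U)
  rw [coe_QlG, LocAt_eq_loc2]
  by_cases hs : size r U ≤ 1
  · refine (pnorm_Qlin_small D.H D.N D.gram md_fin md_rank (isEv_coe Q) hU hs).trans ?_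
    exact mul_le_of_le_one_left zero_le D.kap1
  · exact pnorm_Qlin_large D.H.W0 D.H.W1 D.hc0 D.N.sum_le D.gram _ _ hs

/-- **the linear part**: contraction -/
theorem Ql_le (D : PDat a a' r r' R R' n n' Γ C g p0 p1 q2 q0 Cb S)
    {Q : Finset Fc → Ge (Fld ℤ)} (hQ : QOK R Q) :
    NG a' r' r' Γ (QlG S r Q) ≤
      (((2 * (r' / r) + 3) ^ 2 : ℕ) : ℝ≥0∞) * (kap p0 p1 q2 q0 Cb + Γ⁻¹) * NG a r r Γ Q := by
  have h := NK_Qlin_le D.H D.N D.gram md_fin md_rank (isEv_coe Q) (by rw [hQ.empty]; rfl)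
    (R := R) (fun U hU => hQ.conn U fun h => hU (by rw [h]; rfl)) D.hr
    (by have := D.hR; omega) D.one_le D.hΓt (fun _ => True)
  rw [NK_true] at h
  rw [← NK_true]
  refine le_trans (le_of_eq ?_) h
  congr 1
  funext U
  rw [coe_QlG, LocAt_eq_loc2]

/-! ### the coefficients -/

/-- the constant of the local part -/
def M1 (C : ℝ) : ℝ≥0∞ := ENNReal.ofReal (9 * C ^ 2 * (PlaneCoefx901.cM + 2 * cK))

theorem M1_ne_top (C : ℝ) : M1 C ≠ ∞ := ENNReal.ofReal_ne_top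

theorem eps_le (D : PDat a a' r r' R R' n n' Γ C g p0 p1 q2 q0 Cb S)
    {Q : Finset Fc → Ge (Fld ℤ)} (hQ : PlS Q) (hx : NG a r r Γ Q ≠ ∞) :
    ENNReal.ofReal r * ‖alQ S r Q‖ₑ ≤ ENNReal.ofReal (PlaneCoefx901.cM / a ^ 2) * NG a r r Γ Q ∧
      ‖beQ S r Q‖ₑ ≤ ENNReal.ofReal (cK / a ^ 2) * NG a r r Γ Q := by
  have h1 := alK_conv_le (K := fun U => (Q U : Gr (Fld ℤ))) D.ha D.hr D.one_le D.gram D.N.q0_le
    D.g_le hQ (by rw [NK_true]; exact hx)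
  have h2 := beK_conv_le (K := fun U => (Q U : Gr (Fld ℤ))) D.ha D.hr D.one_le D.gram D.N.q0_le
    D.g_le hQ (by rw [NK_true]; exact hx)
  rw [NK_true] at h1 h2
  exact ⟨h1, h2⟩

theorem bet_coef_le (D : PDat a a' r r' R R' n n' Γ C g p0 p1 q2 q0 Cb S)
    {Q : Finset Fc → Ge (Fld ℤ)} (hQ : PlS Q) (hx : NG a r r Γ Q ≠ ∞) :
    bet a r Γ C (alQ S r Q) (beQ S r Q) ≤ Γ * M1 C * NG a r r Γ Q := by
  obtain ⟨h1, h2⟩ := eps_le D hQ hx
  have ha := D.ha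
  have hcM : 0 ≤ PlaneCoefx901.cM := by unfold PlaneCoefx901.cM; positivity
  have hcK : 0 ≤ cK := by unfold cK; positivity
  rw [bet, mul_assoc Γ]
  refine mul_le_mul_right ?_ _
  have e1 : ENNReal.ofReal (9 * a ^ 2 * C ^ 2 * (|alQ S r Q| * r + 2 * |beQ S r Q|)) =
      ENNReal.ofReal (9 * a ^ 2 * C ^ 2) *
        (ENNReal.ofReal r * ‖alQ S r Q‖ₑ + 2 * ‖beQ S r Q‖ₑ) := by
    have hc : (0 : ℝ) ≤ 9 * a ^ 2 * C ^ 2 := by positivity
    have h3 : (0 : ℝ) ≤ |alQ S r Q| * r := by positivity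
    have h4 : (0 : ℝ) ≤ 2 * |beQ S r Q| := by positivity
    rw [ENNReal.ofReal_mul hc, ENNReal.ofReal_add h3 h4, ENNReal.ofReal_mul (abs_nonneg _),
      ENNReal.ofReal_mul (zero_le_two), Real.enorm_eq_ofReal_abs, Real.enorm_eq_ofReal_abs,
      mul_comm (ENNReal.ofReal |alQ S r Q|), ENNReal.ofReal_ofNat]
  rw [e1]
  calc ENNReal.ofReal (9 * a ^ 2 * C ^ 2) *
        (ENNReal.ofReal r * ‖alQ S r Q‖ₑ + 2 * ‖beQ S r Q‖ₑ)
      ≤ ENNReal.ofReal (9 * a ^ 2 * C ^ 2) * (ENNReal.ofReal (PlaneCoefx901.cM / a ^ 2) * NG a r r Γ Q +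
          2 * (ENNReal.ofReal (cK / a ^ 2) * NG a r r Γ Q)) := by gcongr
    _ = ENNReal.ofReal (9 * a ^ 2 * C ^ 2) * (ENNReal.ofReal (PlaneCoefx901.cM / a ^ 2) +
          ENNReal.ofReal 2 * ENNReal.ofReal (cK / a ^ 2)) * NG a r r Γ Q := by
        rw [show (ENNReal.ofReal 2) = 2 by simp]; ring
    _ = M1 C * NG a r r Γ Q := by
        have h5 : (0 : ℝ) ≤ PlaneCoefx901.cM / a ^ 2 := by positivity
        have h6 : (0 : ℝ) ≤ 2 * (cK / a ^ 2) := by positivity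
        have hc : (0 : ℝ) ≤ 9 * a ^ 2 * C ^ 2 := by positivity
        rw [M1, ← ENNReal.ofReal_mul zero_le_two, ← ENNReal.ofReal_add h5 h6,
          ← ENNReal.ofReal_mul hc]
        congr 2
        field_simp

/-- the constant of the exponent -/
def M0 (Γ : ℝ≥0∞) (C : ℝ) : ℝ≥0∞ := 2 + Γ * M1 C

theorem M0_ne_top {Γ : ℝ≥0∞} (hΓ : Γ ≠ ∞) (C : ℝ) : M0 Γ C ≠ ∞ :=
  ENNReal.add_ne_top.2 ⟨by simp, ENNReal.mul_ne_top hΓ (M1_ne_top C)⟩

/-- size of the state -/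
def sz (a : ℝ) (r : ℕ) (Γ : ℝ≥0∞) (C ν z : ℝ) (Q : Finset Fc → Ge (Fld ℤ)) : ℝ≥0∞ :=
  bet a r Γ C ν z + NG a r r Γ Q

theorem sz_ne_top (D : PDat a a' r r' R R' n n' Γ C g p0 p1 q2 q0 Cb S) (ν z : ℝ)
    {Q : Finset Fc → Ge (Fld ℤ)} (hx : NG a r r Γ Q ≠ ∞) : sz a r Γ C ν z Q ≠ ∞ :=
  ENNReal.add_ne_top.2 ⟨bet_ne_top D.hΓt _ _ _, hx⟩

theorem A_le (D : PDat a a' r r' R R' n n' Γ C g p0 p1 q2 q0 Cb S) (ν z : ℝ)
    {Q : Finset Fc → Ge (Fld ℤ)} (hQ : PlS Q) (hx : NG a r r Γ Q ≠ ∞) :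
    NG a' r' r Γ (stA S r ν z Q) ≤ M0 Γ C * sz a r Γ C ν z Q := by
  have e : stA S r ν z Q = fun U =>
      (baseG (ν + alQ S r Q) (z + beQ S r Q) U + QlG S r Q U) - stH S ν z Q U := by
    funext U
    have h := HA_eq D.sym r ν z hQ U
    rw [← h]
    change _ = stH S ν z Q U + stA S r ν z Q U - stH S ν z Q U
    abel
  rw [e]
  have h1 : NG a' r' r Γ (baseG (ν + alQ S r Q) (z + beQ S r Q)) ≤
      bet a r Γ C ν z + Γ * M1 C * NG a r r Γ Q :=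
    (NG_mix D _).trans ((NG_base_le D _ _).trans ((bet_add_le _ _ _ _ _ _ _ _).trans
      (add_le_add le_rfl (bet_coef_le D hQ hx))))
  refine (NG_sub_le _ _ _ _ _ _).trans ((add_le_add ((NG_add_le _ _ _ _ _ _).trans
    (add_le_add h1 (Ql_mix D Q))) (H_le D ν z Q)).trans ?_)
  rw [M0, sz]
  calc bet a r Γ C ν z + Γ * M1 C * NG a r r Γ Q + NG a r r Γ Q +
        (bet a r Γ C ν z + NG a r r Γ Q)
      = 2 * bet a r Γ C ν z + (2 + Γ * M1 C) * NG a r r Γ Q := by ring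
    _ ≤ (2 + Γ * M1 C) * bet a r Γ C ν z + (2 + Γ * M1 C) * NG a r r Γ Q := by
        gcongr; exact le_self_add
    _ = _ := by ring

/-! ### connectedness -/

theorem conn_stK {Q : Finset Fc → Ge (Fld ℤ)} (hQ : ∀ U, Q U ≠ 0 → Packx915.Conn fd R U)
    (ν z : ℝ) (U : Finset Fc) (h : stK ν z Q U ≠ 0) : Packx915.Conn fd R U := by
  by_cases hs : ∃ f, U = {f}
  · obtain ⟨f, rfl⟩ := hs
    exact Packx915.conn_singleton f
  · push Not at hs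
    refine hQ U fun h0 => h ?_
    rw [stK, h0, baseG_of_ne ν z hs, add_zero]

theorem conn_stH {Q : Finset Fc → Ge (Fld ℤ)} (hQ : ∀ U, Q U ≠ 0 → Packx915.Conn fd R U)
    (S : Gr0x606.Cov (Fld ℤ)) (ν z : ℝ) (U : Finset Fc) (h : stH S ν z Q U ≠ 0) :
    Packx915.Conn fd R U :=
  conn_stK hQ ν z U fun h0 => h (by rw [stH, h0, map_zero])

theorem conn_stA {Q : Finset Fc → Ge (Fld ℤ)} (hQ : ∀ U, Q U ≠ 0 → Packx915.Conn fd R U)
    (S : Gr0x606.Cov (Fld ℤ)) (r : ℕ) (ν z : ℝ) (U : Finset Fc) (h : stA S r ν z Q U ≠ 0) :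
    Packx915.Conn fd R U := by
  by_cases hs : ∃ f, U = {f}
  · obtain ⟨f, rfl⟩ := hs
    exact Packx915.conn_singleton f
  · push Not at hs
    refine conn_stH hQ S ν z U fun h0 => h ?_
    rw [stA, AA, lost_eP, lcG, h0, eP, gain_exF_zero _ _ r _ (fun f _ => hs f)]
    simp

theorem conn_stB {Q : Finset Fc → Ge (Fld ℤ)} (hQ : ∀ U, Q U ≠ 0 → Packx915.Conn fd R U)
    (S : Gr0x606.Cov (Fld ℤ)) (r : ℕ) (ν z : ℝ) (U : Finset Fc) (h : stB S r ν z Q U ≠ 0) :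
    Packx915.Conn fd R U :=
  conn_stA hQ S r ν z U fun h0 => h (by rw [stB_eq, h0, gexp_zero, sub_self])

theorem conn_stN (hRR : R ≤ R') {Q : Finset Fc → Ge (Fld ℤ)}
    (hQ : ∀ U, Q U ≠ 0 → Packx915.Conn fd R U) (near : Fc → Fc → Prop)
    (S : Gr0x606.Cov (Fld ℤ)) (r : ℕ) (ν z : ℝ) (U : Finset Fc)
    (h : stN near (fun a b => fd a b ≤ R') S r ν z Q U ≠ 0) : Packx915.Conn fd R' U :=
  Quad2x897.KK_conn pd_fd hRR (conn_stH hQ S ν z) (conn_stB hQ S r ν z) near h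

theorem conn_stQ (hRR : R ≤ R') {Q : Finset Fc → Ge (Fld ℤ)}
    (hQ : ∀ U, Q U ≠ 0 → Packx915.Conn fd R U) (near : Fc → Fc → Prop)
    (S : Gr0x606.Cov (Fld ℤ)) (r : ℕ) (ν z : ℝ) (U : Finset Fc)
    (h : stQ near (fun a b => fd a b ≤ R') S r ν z Q U ≠ 0) : Packx915.Conn fd R' U := by
  by_cases hs : ∃ f, U = {f}
  · obtain ⟨f, rfl⟩ := hs
    exact Packx915.conn_singleton f
  · push Not at hs
    refine conn_stN hRR hQ near S r ν z U fun h0 => h ?_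
    rw [stQ, h0, baseG_of_ne _ _ hs, sub_zero]

/-- **the new remainder satisfies the structural hypotheses** -/
theorem QOK.step (D : PDat a a' r r' R R' n n' Γ C g p0 p1 q2 q0 Cb S) (ν z : ℝ)
    {Q : Finset Fc → Ge (Fld ℤ)} (hQ : QOK R Q) {near : Fc → Fc → Prop} (hn : NInv near) :
    QOK R' (stQ near (fun a b => fd a b ≤ R') S r ν z Q) where
  sym := plS_stQ hn (nInv_fd R') D.sym r ν z hQ.sym
  empty := stQ_empty _ _ _ _ _ _ _
  conn U h := conn_stQ D.RR hQ.conn near S r ν z U h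

/-! ### the quadratic part -/

/-- the constant of the quadratic part -/
def P0 (n n' : ℕ) (Γ : ℝ≥0∞) (C : ℝ) : ℝ≥0∞ :=
  n * (3 * n' * (1 + 2 * M0 Γ C)) ^ 2 + n' * M0 Γ C ^ 2

/-- the smallness condition -/
def Sm (n n' : ℕ) (Γ : ℝ≥0∞) (C : ℝ) (s : ℝ≥0∞) : Prop :=
  M0 Γ C * s ≤ 1 / 2 ∧ n * (3 * n' * ((1 + 2 * M0 Γ C) * s)) ≤ 1

theorem quad_le (D : PDat a a' r r' R R' n n' Γ C g p0 p1 q2 q0 Cb S) (ν z : ℝ)
    {Q : Finset Fc → Ge (Fld ℤ)} (hQ : QOK R Q) (near : Fc → Fc → Prop)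
    (hx : NG a r r Γ Q ≠ ∞) (hs : Sm n n' Γ C (sz a r Γ C ν z Q)) :
    NG a' r' r' Γ (fun U => stN near (fun a b => fd a b ≤ R') S r ν z Q U -
        stH S ν z Q U - stA S r ν z Q U) ≤
      P0 n n' Γ C * sz a r Γ C ν z Q ^ 2 := by
  have h := Quad3x897.gstep_quad (w := fun U => wU w₀ a' r' U) pd_fd D.hΓ D.hR D.cov D.cov'
    (fun U U' hU l => wU_anti w₀ a' r' hU l) (K := stH S ν z Q) (A₀ := stA S r ν z Q)
    (conn_stH hQ.conn S ν z) (conn_stA hQ.conn S r ν z) (H_le D ν z Q) (A_le D ν z hQ.sym hx)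
    hs.1 (by
      refine le_trans (le_of_eq ?_) hs.2
      rw [sz]; ring) (sz_ne_top D ν z hx) near
  refine h.trans (le_of_eq ?_)
  rw [P0, sz]; ring

/-- **(N4): the new remainder** -/
theorem stQ_le (D : PDat a a' r r' R R' n n' Γ C g p0 p1 q2 q0 Cb S) (ν z : ℝ)
    {Q : Finset Fc → Ge (Fld ℤ)} (hQ : QOK R Q) (near : Fc → Fc → Prop)
    (hx : NG a r r Γ Q ≠ ∞) (hs : Sm n n' Γ C (sz a r Γ C ν z Q)) :
    NG a' r' r' Γ (stQ near (fun a b => fd a b ≤ R') S r ν z Q) ≤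
      (((2 * (r' / r) + 3) ^ 2 : ℕ) : ℝ≥0∞) * (kap p0 p1 q2 q0 Cb + Γ⁻¹) * NG a r r Γ Q +
        P0 n n' Γ C * sz a r Γ C ν z Q ^ 2 := by
  have e : stQ near (fun a b => fd a b ≤ R') S r ν z Q = fun U => QlG S r Q U +
      (stN near (fun a b => fd a b ≤ R') S r ν z Q U - stH S ν z Q U - stA S r ν z Q U) := by
    funext U
    exact stQ_eq near _ D.sym r ν z hQ.sym U
  rw [e]
  exact (NG_add_le _ _ _ _ _ _).trans (add_le_add (Ql_le D hQ) (quad_le D ν z hQ near hx hs))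

/-! ### linearity -/

theorem alQ_sub (S : Gr0x606.Cov (Fld ℤ)) (r : ℕ) (Q Q' : Finset Fc → Ge (Fld ℤ)) :
    alQ S r (fun U => Q U - Q' U) = alQ S r Q - alQ S r Q' := by
  unfold alQ alK avgAt
  rw [← map_sub, ← Finset.sum_sub_distrib]
  refine congrArg _ (Finset.sum_congr rfl fun U _ => ?_)
  rw [← smul_sub, ← map_sub, ← Ge.coe_sub]

theorem beQ_sub (S : Gr0x606.Cov (Fld ℤ)) (r : ℕ) (Q Q' : Finset Fc → Ge (Fld ℤ)) :
    beQ S r (fun U => Q U - Q' U) = beQ S r Q - beQ S r Q' := by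
  unfold beQ beK avgAt
  rw [← map_sub, ← Finset.sum_sub_distrib]
  refine congrArg _ (Finset.sum_congr rfl fun U _ => ?_)
  rw [← smul_sub, ← map_sub, ← Ge.coe_sub]

theorem baseG_sub (ν z ν' z' : ℝ) (U : Finset Fc) :
    baseG (ν - ν') (z - z') U = baseG ν z U - baseG ν' z' U := by
  by_cases h : ∃ f, U = {f}
  · obtain ⟨f, rfl⟩ := h
    rw [baseG_single, baseG_single, baseG_single, sub_smul, sub_smul]
    abel
  · push Not at h
    rw [baseG_of_ne _ _ h, baseG_of_ne _ _ h, baseG_of_ne _ _ h, sub_zero]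

theorem stK_sub (ν z ν' z' : ℝ) (Q Q' : Finset Fc → Ge (Fld ℤ)) (U : Finset Fc) :
    stK (ν - ν') (z - z') (fun U => Q U - Q' U) U = stK ν z Q U - stK ν' z' Q' U := by
  rw [stK, stK, stK, baseG_sub]
  abel

theorem stH_sub (S : Gr0x606.Cov (Fld ℤ)) (ν z ν' z' : ℝ) (Q Q' : Finset Fc → Ge (Fld ℤ))
    (U : Finset Fc) :
    stH S (ν - ν') (z - z') (fun U => Q U - Q' U) U = stH S ν z Q U - stH S ν' z' Q' U := by
  rw [stH, stH, stH, stK_sub, map_sub]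

theorem lcG_sub (r : ℕ) (K K' : Finset Fc → Ge (Fld ℤ)) (U : Finset Fc) :
    lcG r (fun U => K U - K' U) U = lcG r K U - lcG r K' U := by
  unfold lcG
  split_ifs
  · rw [← smul_sub, ← Finset.sum_sub_distrib]
    exact congrArg _ (Finset.sum_congr rfl fun f _ => map_sub _ _ _)
  · rw [sub_zero]

theorem QlG_sub (S : Gr0x606.Cov (Fld ℤ)) (r : ℕ) (Q Q' : Finset Fc → Ge (Fld ℤ))
    (U : Finset Fc) :
    QlG S r (fun U => Q U - Q' U) U = QlG S r Q U - QlG S r Q' U := by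
  have e : (fun U => cvG S (Q U - Q' U)) = fun U => cvG S (Q U) - cvG S (Q' U) := by
    funext U; rw [map_sub]
  rw [QlG, QlG, QlG, e, lcG_sub, map_sub, map_sub]
  abel

theorem gain_sub (r : ℕ) (K K' : Finset Fc → Ge (Fld ℤ)) (T : Finset Fc) :
    (eP r).gain (fun U => K U - K' U) T = (eP r).gain K T - (eP r).gain K' T := by
  rw [Extr.gain, Extr.gain, Extr.gain, ← Finset.sum_sub_distrib]
  exact Finset.sum_congr rfl fun U _ => map_sub _ _ _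

theorem stA_sub (S : Gr0x606.Cov (Fld ℤ)) (r : ℕ) (ν z ν' z' : ℝ)
    (Q Q' : Finset Fc → Ge (Fld ℤ)) (U : Finset Fc) :
    stA S r (ν - ν') (z - z') (fun U => Q U - Q' U) U =
      stA S r ν z Q U - stA S r ν' z' Q' U := by
  have e : stH S (ν - ν') (z - z') (fun U => Q U - Q' U) =
      fun U => stH S ν z Q U - stH S ν' z' Q' U := by
    funext U; exact stH_sub S ν z ν' z' Q Q' U
  rw [stA, stA, stA, AA, AA, AA, e, lost_eP, lost_eP, lost_eP, gain_sub, lcG_sub, map_sub]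
  abel

/-! ### Lipschitz bounds -/

/-- the constant of the Lipschitz bound -/
def P1 (n n' : ℕ) (Γ : ℝ≥0∞) (C : ℝ) : ℝ≥0∞ :=
  4 * n * (3 * n') ^ 2 * ((1 + 2 * M0 Γ C) * (1 + 5 * M0 Γ C)) + 4 * n' * M0 Γ C ^ 2

/-- the smallness condition for two data -/
def Sm2 (n n' : ℕ) (Γ : ℝ≥0∞) (C : ℝ) (s s' : ℝ≥0∞) : Prop :=
  M0 Γ C * s ≤ 1 / 2 ∧ M0 Γ C * s' ≤ 1 / 2 ∧
    n * (2 * (3 * n' * ((1 + 2 * M0 Γ C) * (s + s')))) ≤ 1

/-- size of the difference of two states -/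
def dsz (a : ℝ) (r : ℕ) (Γ : ℝ≥0∞) (C ν z : ℝ) (Q : Finset Fc → Ge (Fld ℤ)) (ν' z' : ℝ)
    (Q' : Finset Fc → Ge (Fld ℤ)) : ℝ≥0∞ :=
  sz a r Γ C (ν - ν') (z - z') fun U => Q U - Q' U

theorem NG_sub_ne_top {a : ℝ} {r s : ℕ} {Γ : ℝ≥0∞} {K K' : Finset Fc → Ge (Fld ℤ)}
    (h : NG a r s Γ K ≠ ∞) (h' : NG a r s Γ K' ≠ ∞) : NG a r s Γ (fun U => K U - K' U) ≠ ∞ :=
  ne_top_of_le_ne_top (ENNReal.add_ne_top.2 ⟨h, h'⟩) (NG_sub_le _ _ _ _ _ _)

theorem quad_lip (D : PDat a a' r r' R R' n n' Γ C g p0 p1 q2 q0 Cb S) {ν z ν' z' : ℝ}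
    {Q Q' : Finset Fc → Ge (Fld ℤ)} (hQ : QOK R Q) (hQ' : QOK R Q') (near : Fc → Fc → Prop)
    (hx : NG a r r Γ Q ≠ ∞) (hx' : NG a r r Γ Q' ≠ ∞)
    (hs : Sm2 n n' Γ C (sz a r Γ C ν z Q) (sz a r Γ C ν' z' Q')) :
    NG a' r' r' Γ (fun U =>
        (stN near (fun a b => fd a b ≤ R') S r ν z Q U - stH S ν z Q U - stA S r ν z Q U) -
        (stN near (fun a b => fd a b ≤ R') S r ν' z' Q' U - stH S ν' z' Q' U -
          stA S r ν' z' Q' U)) ≤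
      P1 n n' Γ C * (sz a r Γ C ν z Q + sz a r Γ C ν' z' Q') * dsz a r Γ C ν z Q ν' z' Q' := by
  have hd := NG_sub_ne_top hx hx'
  have hsub := hQ.sub hQ'
  have h1 : NG a' r' r Γ (fun U => stH S ν z Q U - stH S ν' z' Q' U) ≤
      dsz a r Γ C ν z Q ν' z' Q' := by
    have e : (fun U => stH S ν z Q U - stH S ν' z' Q' U) =
        stH S (ν - ν') (z - z') fun U => Q U - Q' U := by
      funext U; rw [stH_sub]
    rw [e]
    exact H_le D _ _ _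
  have h2 : NG a' r' r Γ (fun U => stA S r ν z Q U - stA S r ν' z' Q' U) ≤
      M0 Γ C * dsz a r Γ C ν z Q ν' z' Q' := by
    have e : (fun U => stA S r ν z Q U - stA S r ν' z' Q' U) =
        stA S r (ν - ν') (z - z') fun U => Q U - Q' U := by
      funext U; rw [stA_sub]
    rw [e]
    exact A_le D _ _ hsub.sym hd
  have hdt : dsz a r Γ C ν z Q ν' z' Q' ≠ ∞ := sz_ne_top D _ _ hd
  have h := Quad3x897.gstep_lip (w := fun U => wU w₀ a' r' U) pd_fd D.hΓ D.hR D.cov D.cov'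
    (fun U U' hU l => wU_anti w₀ a' r' hU l) (K := stH S ν z Q) (A₀ := stA S r ν z Q)
    (K₂ := stH S ν' z' Q') (A₂ := stA S r ν' z' Q')
    (conn_stH hQ.conn S ν z) (conn_stA hQ.conn S r ν z)
    (conn_stH hQ'.conn S ν' z') (conn_stA hQ'.conn S r ν' z')
    (H_le D ν z Q) (A_le D ν z hQ.sym hx) (H_le D ν' z' Q') (A_le D ν' z' hQ'.sym hx')
    h1 h2 hs.1 hs.2.1 (by
      refine le_trans (le_of_eq ?_) hs.2.2
      rw [sz, sz]; ring)
    (sz_ne_top D ν z hx) (sz_ne_top D ν' z' hx') hdt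
    (ENNReal.mul_ne_top (M0_ne_top D.hΓt C) hdt) near
  refine h.trans (le_of_eq ?_)
  rw [P1, sz, sz]; ring

/-- **Lipschitz bound of the new remainder** -/
theorem stQ_lip (D : PDat a a' r r' R R' n n' Γ C g p0 p1 q2 q0 Cb S) {ν z ν' z' : ℝ}
    {Q Q' : Finset Fc → Ge (Fld ℤ)} (hQ : QOK R Q) (hQ' : QOK R Q') (near : Fc → Fc → Prop)
    (hx : NG a r r Γ Q ≠ ∞) (hx' : NG a r r Γ Q' ≠ ∞)
    (hs : Sm2 n n' Γ C (sz a r Γ C ν z Q) (sz a r Γ C ν' z' Q')) :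
    NG a' r' r' Γ (fun U => stQ near (fun a b => fd a b ≤ R') S r ν z Q U -
        stQ near (fun a b => fd a b ≤ R') S r ν' z' Q' U) ≤
      (((2 * (r' / r) + 3) ^ 2 : ℕ) : ℝ≥0∞) * (kap p0 p1 q2 q0 Cb + Γ⁻¹) *
          NG a r r Γ (fun U => Q U - Q' U) +
        P1 n n' Γ C * (sz a r Γ C ν z Q + sz a r Γ C ν' z' Q') *
          dsz a r Γ C ν z Q ν' z' Q' := by
  have e : (fun U => stQ near (fun a b => fd a b ≤ R') S r ν z Q U -
        stQ near (fun a b => fd a b ≤ R') S r ν' z' Q' U) = fun U =>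
      QlG S r (fun U => Q U - Q' U) U +
      ((stN near (fun a b => fd a b ≤ R') S r ν z Q U - stH S ν z Q U - stA S r ν z Q U) -
        (stN near (fun a b => fd a b ≤ R') S r ν' z' Q' U - stH S ν' z' Q' U -
          stA S r ν' z' Q' U)) := by
    funext U
    rw [stQ_eq near _ D.sym r ν z hQ.sym U, stQ_eq near _ D.sym r ν' z' hQ'.sym U, QlG_sub]
    abel
  rw [e]
  exact (NG_add_le _ _ _ _ _ _).trans (add_le_add (Ql_le D (hQ.sub hQ'))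
    (quad_lip D hQ hQ' near hx hx' hs))

/-- Lipschitz bound of the coefficients -/
theorem eps_lip (D : PDat a a' r r' R R' n n' Γ C g p0 p1 q2 q0 Cb S)
    {Q Q' : Finset Fc → Ge (Fld ℤ)} (hQ : PlS Q) (hQ' : PlS Q') (hx : NG a r r Γ Q ≠ ∞)
    (hx' : NG a r r Γ Q' ≠ ∞) :
    ENNReal.ofReal r * ‖alQ S r Q - alQ S r Q'‖ₑ ≤
        ENNReal.ofReal (PlaneCoefx901.cM / a ^ 2) * NG a r r Γ (fun U => Q U - Q' U) ∧
      ‖beQ S r Q - beQ S r Q'‖ₑ ≤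
        ENNReal.ofReal (cK / a ^ 2) * NG a r r Γ (fun U => Q U - Q' U) := by
  have h := eps_le D (hQ.map2 hQ' fun _ _ _ _ h h' => h.sub h') (NG_sub_ne_top hx hx')
  rw [alQ_sub, beQ_sub] at h
  exact h

end one

end Crest.Agent.R165.PStepNx901
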