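import Crest.Agent.R165.FrFin_887
import Crest.Agent.R165.Pair_599
import Crest.Agent.R165.Gr2_813
import Crest.Agent.R165.Cov2_359

/-!
# Row 165 (S0250), block U (helper470): small sources have small pairings (for helper813)

* `fsh_col` : columns of the covariance of a plus background are finitely supported
* `form_sq_le` : `S(P,Q)² ≤ (∑ P²) (CG(R/a + 1))² (∑ Q²)`
* `pair_small` : `P = O(a^{5/2})`, `Q = O(a^{3/2})`, `a^{-3/2} Q → 0` a.e. `⟹ a^{-1} S(P,Q) → 0`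
-/

set_option autoImplicit false

noncomputable section

open Filter Topology MeasureTheory
open Crest.ProbabilityR.IsingModel

namespace Crest.Agent.R165.PairSmx470

open Crest.Agent.R165.Latx683 Crest.Agent.R165.Gr2x813 Crest.Agent.R165.FrFinx887
open Crest.Agent.R165.GDefx387 (l2)
open Crest.Agent.R165.Pairx599
open Crest.Agent.R165.Covx359 (exists_isCov_plus)

/-- columns of the covariance are finitely supported -/
theorem fsh_col {n : ℕ} {T : Finset (ℤ × ℤ)} {X : Fin n → ℤ × ℤ} {S : HE ℤ → HE ℤ → ℝ}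
    (hS : IsCov (wX (wDom (T : Set (ℤ × ℤ)) false) X) S) (v : Fld ℤ) : FSH (col S v) := by
  classical
  obtain ⟨S', -, hF, hu⟩ := exists_isCov_plus T X
  have hSS : S = S' := hu S hS
  rw [hSS]
  unfold FSH
  refine ((v.support.finite_toSet.biUnion fun k _ => hF.fin k)).subset ?_
  intro h hh
  simp only [Function.mem_support] at hh
  by_contra hc
  apply hh
  unfold col pr
  rw [Finsupp.sum]
  refine Finset.sum_eq_zero fun k hk => ?_
  have : S' h k = 0 := by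
    by_contra h0
    exact hc (Set.mem_biUnion (Finset.mem_coe.2 hk) h0)
  simp only [this, mul_zero]

theorem l2_sq {φ : HE ℤ → ℝ} (K : Finset (HE ℤ)) (hK : ∀ g, g ∉ K → φ g = 0) :
    l2 φ ^ 2 = ∑ g ∈ K, φ g ^ 2 := by
  unfold l2
  rw [Real.sq_sqrt (tsum_nonneg fun _ => sq_nonneg _)]
  refine tsum_eq_sum fun g hg => ?_
  rw [hK g hg]; ring

theorem l2_nonneg (φ : HE ℤ → ℝ) : 0 ≤ l2 φ := Real.sqrt_nonneg _

/-- Cauchy-Schwarz -/
theorem pr_sq_le (u : Fld ℤ) {φ : HE ℤ → ℝ} (hφ' : FSH φ) : pr u φ ^ 2 ≤ l2 u ^ 2 * l2 φ ^ 2 := by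
  classical
  have hφ : (Function.support φ).Finite := hφ'
  have h1 : l2 (u : HE ℤ → ℝ) ^ 2 = ∑ g ∈ u.support ∪ (Set.Finite.toFinset hφ), u g ^ 2 := by
    refine l2_sq _ fun g hg => ?_
    rw [Finset.mem_union, not_or] at hg
    exact Finsupp.notMem_support_iff.1 hg.1
  have h2 : l2 φ ^ 2 = ∑ g ∈ u.support ∪ (Set.Finite.toFinset hφ), φ g ^ 2 := by
    refine l2_sq _ fun g hg => ?_
    rw [Finset.mem_union, not_or, Set.Finite.mem_toFinset] at hg
    exact Function.notMem_support.1 hg.2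
  rw [h1, h2, pr_eq_sum u φ _ Finset.subset_union_left]
  exact Finset.sum_mul_sq_le_sq_mul_sq _ _ _

/-- a priori bound of the form by the gap -/
theorem form_sq_le {n : ℕ} {T : Finset (ℤ × ℤ)} {X : Fin n → ℤ × ℤ} {S : HE ℤ → HE ℤ → ℝ}
    (hS : IsCov (wX (wDom (T : Set (ℤ × ℤ)) false) X) S) {r : ℝ} (hr : 0 ≤ r)
    (hT : ∀ f ∈ T, |(f.1 : ℝ)| ≤ r ∧ |(f.2 : ℝ)| ≤ r) (P Q : Fld ℤ) :
    formS S P Q ^ 2 ≤ CG (r + 1) ^ 2 * (l2 P ^ 2 * l2 Q ^ 2) := by
  have hφ := fsh_col hS Q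
  have h1 := pr_sq_le P hφ
  have h2 := plus_gap_box X (T := T) (c := (0, 0)) hr (fun f hf => by
    have := hT f hf
    simpa using this) hφ
  rw [Aop_col hS] at h2
  have h3 : l2 (fun g => -Q g) = l2 Q := by
    unfold l2
    congr 1
    exact tsum_congr fun g => by ring
  rw [h3] at h2
  rw [formS_eq]
  have h4 : l2 (col S Q) ^ 2 ≤ (CG (r + 1) * l2 Q) ^ 2 := pow_le_pow_left₀ (l2_nonneg _) h2 2
  calc pr P (col S Q) ^ 2 ≤ l2 P ^ 2 * l2 (col S Q) ^ 2 := h1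
    _ ≤ l2 P ^ 2 * (CG (r + 1) * l2 Q) ^ 2 := mul_le_mul_of_nonneg_left h4 (sq_nonneg _)
    _ = CG (r + 1) ^ 2 * (l2 P ^ 2 * l2 Q ^ 2) := by ring

/-- the gap constant is `O(1/a)` -/
theorem CG_le {R a : ℝ} (ha : 0 < a) (ha1 : a ≤ 1) :
    CG (R / a + 1) ≤ (CG (R + 1)) / a := by
  have hCQ : (0 : ℝ) ≤ PlGapx887.CQ := by unfold PlGapx887.CQ; norm_num
  unfold CG
  rw [le_div_iff₀ ha]
  have e : (PlGapx887.CQ * (9 + 8 * (R / a + 1)) + 3) * a =
      PlGapx887.CQ * (17 * a + 8 * R) + 3 * a := by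
    field_simp; ring
  rw [e]
  nlinarith

theorem l2_sq_tsum (u : Fld ℤ) : l2 u ^ 2 = ∑ i : Fin 4, ∑' f : ℤ × ℤ, u (f, i) ^ 2 := by
  rw [l2_sq u.support fun g hg => Finsupp.notMem_support_iff.1 hg]
  exact sum_he (F := fun h => u h ^ 2) fun h hh => by
    rw [Finsupp.notMem_support_iff.1 hh]; ring

/-- `l²` bound of a source of order `a^α` -/
theorem l2_le {K : Set ℂ} (hK : Bornology.IsBounded K) {a : ℝ} (ha : 0 < a) (ha1 : a < 1)
    {P : Fld ℤ} (supp : ∀ h, P h ≠ 0 → meshPoint a h.1 ∈ K) {C α : ℝ}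
    (b : ∀ h, |P h| ≤ C * a ^ α) :
    l2 P ^ 2 ≤ 4 * (C ^ 2 * (volume (Metric.thickening 3 K)).toReal) * a ^ (2 * α - 2) := by
  have key : ∀ i : Fin 4, a ^ 2 * ∑' f : ℤ × ℤ, (a ^ (-α) * P (f, i)) ^ 2 ≤
      C ^ 2 * (volume (Metric.thickening 3 K)).toReal := by
    intro i
    have h1 := norm_tsum_le (E := ℝ) hK ha ha1 (g := fun f => (a ^ (-α) * P (f, i)) ^ 2) (C := C ^ 2)
      (fun f hf => supp (f, i) fun h0 => hf (by rw [h0]; ring)) (fun f => by
        have h2 := b (f, i)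
        have h3 : |a ^ (-α) * P (f, i)| ≤ C := by
          rw [abs_mul, abs_of_pos (Real.rpow_pos_of_pos ha _)]
          calc a ^ (-α) * |P (f, i)| ≤ a ^ (-α) * (C * a ^ α) :=
                mul_le_mul_of_nonneg_left h2 (Real.rpow_pos_of_pos ha _).le
            _ = C := by
                rw [mul_left_comm, ← Real.rpow_add ha, neg_add_cancel, Real.rpow_zero, mul_one]
        rw [Real.norm_eq_abs, abs_of_nonneg (sq_nonneg _), ← sq_abs]
        exact pow_le_pow_left₀ (abs_nonneg _) h3 2)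
    rw [smul_eq_mul, abs_of_nonneg (sq_nonneg C)] at h1
    exact (le_abs_self _).trans h1
  have e : ∀ i : Fin 4, ∑' f : ℤ × ℤ, (a ^ (-α) * P (f, i)) ^ 2 =
      a ^ (-(2 * α)) * ∑' f : ℤ × ℤ, P (f, i) ^ 2 := by
    intro i
    rw [← tsum_mul_left]
    refine tsum_congr fun f => ?_
    rw [mul_pow, ← Real.rpow_natCast, ← Real.rpow_mul ha.le]
    congr 2
    push_cast; ring
  have h5 : ∑ i : Fin 4, a ^ 2 * (a ^ (-(2 * α)) * ∑' f : ℤ × ℤ, P (f, i) ^ 2) ≤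
      4 * (C ^ 2 * (volume (Metric.thickening 3 K)).toReal) := by
    have := Finset.sum_le_sum fun i (_ : i ∈ (Finset.univ : Finset (Fin 4))) => key i
    simp only [e, Finset.sum_const, Finset.card_univ, Fintype.card_fin, nsmul_eq_mul] at this
    exact_mod_cast this
  rw [← Finset.mul_sum, ← Finset.mul_sum, ← l2_sq_tsum] at h5
  have h6 : a ^ 2 * (a ^ (-(2 * α)) * l2 P ^ 2) = a ^ (-(2 * α - 2)) * l2 P ^ 2 := by
    rw [← mul_assoc, ← Real.rpow_natCast a 2, ← Real.rpow_add ha]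
    congr 2
    push_cast; ring
  rw [h6, Real.rpow_neg ha.le, inv_mul_le_iff₀ (Real.rpow_pos_of_pos ha _)] at h5
  linarith

/-- **small sources have small pairings** -/
theorem pair_small {κ : Type} {l : Filter κ} [l.IsCountablyGenerated] {a : κ → ℝ}
    (ha : Tendsto a l (𝓝[>] 0)) {T : κ → Finset (ℤ × ℤ)} {n : ℕ} {X : κ → Fin n → ℤ × ℤ}
    {S : κ → HE ℤ → HE ℤ → ℝ}
    (hT : ∃ R : ℝ, ∀ᶠ k in l, ∀ z ∈ T k, ‖meshPoint (a k) z‖ ≤ R)
    (hS : ∀ᶠ k in l, IsCov (wX (wDom (T k : Set (ℤ × ℤ)) false) (X k)) (S k))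
    {P Q : κ → Fld ℤ} {K K' : Set ℂ} (hK : Bornology.IsBounded K) (hK' : Bornology.IsBounded K')
    (suppP : ∀ᶠ k in l, ∀ h, P k h ≠ 0 → meshPoint (a k) h.1 ∈ K)
    (suppQ : ∀ᶠ k in l, ∀ h, Q k h ≠ 0 → meshPoint (a k) h.1 ∈ K') {C : ℝ}
    (bP : ∀ᶠ k in l, ∀ h, |P k h| ≤ C * a k ^ (5 / 2 : ℝ))
    (bQ : ∀ᶠ k in l, ∀ h, |Q k h| ≤ C * a k ^ (3 / 2 : ℝ))
    (limQ : ∀ᵐ z : ℂ, ∀ i, Tendsto (fun k => a k ^ (-(3 / 2) : ℝ) * Q k (meshIndex (a k) z, i)) l
      (𝓝 0)) :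
    Tendsto (fun k => (a k)⁻¹ * formS (S k) (P k) (Q k)) l (𝓝 0) := by
  obtain ⟨R, hR⟩ := hT
  have hpos : ∀ᶠ k in l, 0 < a k := ha self_mem_nhdsWithin
  have hlt : ∀ᶠ k in l, a k < 1 := by
    have h0 : Tendsto a l (𝓝 0) := ha.mono_right nhdsWithin_le_nhds
    exact h0.eventually (Iio_mem_nhds one_pos)
  -- the `l²` norm of `Q`
  have key : ∀ i : Fin 4, Tendsto (fun k => (a k) ^ 2 • ∑' f : ℤ × ℤ,
      ((a k) ^ (-(3 / 2) : ℝ) * Q k (f, i)) ^ 2) l (𝓝 (∫ _ : ℂ, (0 : ℝ))) := by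
    intro i
    refine tendsto_tsum ha hK' (C := C ^ 2) ?_ ?_ ?_
    · filter_upwards [suppQ] with k h f hf
      exact h (f, i) fun h0 => hf (by rw [h0]; ring)
    · filter_upwards [hpos, bQ] with k hk h2 f
      have h3 : |a k ^ (-(3 / 2) : ℝ) * Q k (f, i)| ≤ C := by
        rw [abs_mul, abs_of_pos (Real.rpow_pos_of_pos hk _)]
        calc a k ^ (-(3 / 2) : ℝ) * |Q k (f, i)| ≤ a k ^ (-(3 / 2) : ℝ) * (C * a k ^ (3 / 2 : ℝ)) :=
              mul_le_mul_of_nonneg_left (h2 _) (Real.rpow_pos_of_pos hk _).le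
          _ = C := by
              rw [mul_left_comm, ← Real.rpow_add hk, neg_add_cancel, Real.rpow_zero, mul_one]
      rw [Real.norm_eq_abs, abs_of_nonneg (sq_nonneg _), ← sq_abs]
      exact pow_le_pow_left₀ (abs_nonneg _) h3 2
    · filter_upwards [limQ] with z hz
      have := (hz i).pow 2
      simpa using this
  have key2 : Tendsto (fun k => (a k)⁻¹ * l2 (Q k) ^ 2) l (𝓝 0) := by
    have h1 := tendsto_finsetSum (Finset.univ : Finset (Fin 4)) fun i _ => key i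
    simp only [integral_zero, Finset.sum_const_zero] at h1
    refine h1.congr' ?_
    filter_upwards [hpos] with k hk
    rw [l2_sq_tsum, Finset.mul_sum]
    refine Finset.sum_congr rfl fun i _ => ?_
    rw [smul_eq_mul, ← tsum_mul_left, ← tsum_mul_left]
    refine tsum_congr fun f => ?_
    rw [mul_pow, ← Real.rpow_natCast (a k ^ (-(3 / 2) : ℝ)), ← Real.rpow_mul hk.le, ← mul_assoc,
      ← Real.rpow_natCast (a k), ← Real.rpow_add hk, ← Real.rpow_neg_one]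
    congr 2
    push_cast; norm_num
  set M : ℝ := (CG (|R| + 1)) ^ 2 * (4 * (C ^ 2 * (volume (Metric.thickening 3 K)).toReal)) with hM
  have key3 : Tendsto (fun k => M * ((a k)⁻¹ * l2 (Q k) ^ 2)) l (𝓝 0) := by
    simpa using key2.const_mul M
  have key4 : Tendsto (fun k => Real.sqrt (M * ((a k)⁻¹ * l2 (Q k) ^ 2))) l (𝓝 0) := by
    have := (Real.continuous_sqrt.tendsto 0).comp key3
    rw [Real.sqrt_zero] at this
    exact this
  refine squeeze_zero_norm' ?_ key4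
  filter_upwards [hpos, hlt, hR, hS, suppP, bP] with k hk hk1 hRk hSk h1 h2
  rw [Real.norm_eq_abs]
  apply Real.abs_le_sqrt
  have hr0 : 0 ≤ |R| / a k := by positivity
  have hbox : ∀ f ∈ T k, |(f.1 : ℝ)| ≤ |R| / a k ∧ |(f.2 : ℝ)| ≤ |R| / a k := by
    intro f hf
    have h3 := (hRk f hf).trans (le_abs_self R)
    constructor
    · rw [le_div_iff₀ hk]
      have := Complex.abs_re_le_norm (meshPoint (a k) f)
      simp only [meshPoint] at this h3 ⊢
      rw [abs_mul, abs_of_pos hk] at this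
      linarith
    · rw [le_div_iff₀ hk]
      have := Complex.abs_im_le_norm (meshPoint (a k) f)
      simp only [meshPoint] at this h3 ⊢
      rw [abs_mul, abs_of_pos hk] at this
      linarith
  have h4 := form_sq_le hSk hr0 hbox (P k) (Q k)
  have h5 := l2_le hK hk hk1 h1 h2
  have h6 := CG_le (R := |R|) hk hk1.le
  have h7 : 0 ≤ CG (|R| / a k + 1) := CG_nonneg (by positivity)
  have h8 : CG (|R| / a k + 1) ^ 2 ≤ (CG (|R| + 1) / a k) ^ 2 := pow_le_pow_left₀ h7 h6 2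
  have e1 : a k ^ (2 * (5 / 2 : ℝ) - 2) = a k ^ 3 := by
    rw [← Real.rpow_natCast]; congr 1; push_cast; norm_num
  rw [e1] at h5
  rw [mul_pow]
  calc (a k)⁻¹ ^ 2 * formS (S k) (P k) (Q k) ^ 2
      ≤ (a k)⁻¹ ^ 2 * (CG (|R| / a k + 1) ^ 2 * (l2 (P k) ^ 2 * l2 (Q k) ^ 2)) :=
        mul_le_mul_of_nonneg_left h4 (by positivity)
    _ ≤ (a k)⁻¹ ^ 2 * ((CG (|R| + 1) / a k) ^ 2 * ((4 * (C ^ 2 *
          (volume (Metric.thickening 3 K)).toReal) * a k ^ 3) * l2 (Q k) ^ 2)) := by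
        refine mul_le_mul_of_nonneg_left ?_ (by positivity)
        refine mul_le_mul h8 ?_ (by positivity) (by positivity)
        exact mul_le_mul_of_nonneg_right h5 (by positivity)
    _ = M * ((a k)⁻¹ * l2 (Q k) ^ 2) := by
        rw [hM]; field_simp

end Crest.Agent.R165.PairSmx470
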