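import Crest.Agent.R165.PathGl_641

/-!
# Row 165 (S0250), block U5: differentiability of the limit ratios and covariance (helper641)
-/

set_option autoImplicit false

noncomputable section

open Filter Topology Set
open Crest.ProbabilityR.IsingModel

namespace Crest.Agent.R165.PathDfx641

open ConfTopx641 PathIntx641 PathGlx641

/-- the real linear functional `h ↦ Σ Re (A_i h_i)` -/
def cl {n : ℕ} (A : Fin n → ℂ) : (Fin n → ℂ) →L[ℝ] ℝ :=
  ∑ i, Complex.reCLM.comp ((ContinuousLinearMap.mul ℝ ℂ (A i)).comp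
    (ContinuousLinearMap.proj (R := ℝ) (φ := fun _ : Fin n => ℂ) i))

theorem cl_apply {n : ℕ} (A : Fin n → ℂ) (h : Fin n → ℂ) : cl A h = ∑ i, (A i * h i).re := by
  simp [cl]

/-- the complex gradient of the log-derivative -/
def cg {n : ℕ} (g : Fin n → Fin 2 → (Fin n → ℂ) → ℝ) (x : Fin n → ℂ) (i : Fin n) : ℂ :=
  (g i 0 x : ℂ) - (g i 1 x : ℂ) * Complex.I

theorem cl_cg {n : ℕ} (g : Fin n → Fin 2 → (Fin n → ℂ) → ℝ) (x h : Fin n → ℂ) :
    cl (cg g x) h = ∑ p : Fin n × Fin 2, g p.1 p.2 x * cc p.2 (h p.1) := by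
  rw [cl_apply, Fintype.sum_prod_type]
  refine Finset.sum_congr rfl fun i _ => ?_
  rw [Fin.sum_univ_two]
  simp [cg, cc]

theorem cc_sub (j : Fin 2) (z w : ℂ) : cc j (z - w) = cc j z - cc j w := by
  unfold cc; split_ifs <;> simp

theorem abs_cc_le (j : Fin 2) (z : ℂ) : |cc j z| ≤ ‖z‖ := by
  unfold cc; split_ifs
  · exact Complex.abs_re_le_norm z
  · exact Complex.abs_im_le_norm z

theorem cc_add_smul (j : Fin 2) (z : ℂ) (t : ℝ) : cc j (z + t * cv (unitVec j)) = cc j z + t := by
  fin_cases j <;> simp [cc, cv, unitVec]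

theorem box_csh {n : ℕ} (x : Fin n → ℂ) (i : Fin n) (j : Fin 2) (t : ℝ) {z : Fin n → ℂ}
    (hz : z ∈ Box x (csh x i ((t : ℂ) * cv (unitVec j)))) :
    ∃ s ∈ uIcc 0 t, z = csh x i ((s : ℂ) * cv (unitVec j)) := by
  have sing : ∀ (a b : ℝ), a ∈ uIcc b b → a = b := fun a b h => by
    rw [uIcc_self] at h; exact h
  have key : ∀ p q : ℝ, q ∈ uIcc p (p + t) → q - p ∈ uIcc 0 t := by
    intro p q hs
    rcases le_total 0 t with h | h
    · rw [uIcc_of_le (by linarith)] at hs
      rw [uIcc_of_le h]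
      exact ⟨by linarith [hs.1], by linarith [hs.2]⟩
    · rw [uIcc_of_ge (by linarith)] at hs
      rw [uIcc_of_ge h]
      exact ⟨by linarith [hs.1], by linarith [hs.2]⟩
  refine ⟨cc j (z i) - cc j (x i), ?_, ?_⟩
  · have h := hz i
    simp only [csh, Function.update_self] at h
    fin_cases j
    · have h1 : (z i).re ∈ uIcc (x i).re ((x i).re + t) := by
        have := h.1
        simpa [cv, unitVec] using this
      exact key _ _ h1
    · have h1 : (z i).im ∈ uIcc (x i).im ((x i).im + t) := by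
        have := h.2
        simpa [cv, unitVec] using this
      exact key _ _ h1
  · funext k
    have h := hz k
    by_cases hk : k = i
    · subst hk
      simp only [csh, Function.update_self] at h ⊢
      fin_cases j
      · have h1 : (z k).im = (x k).im := by
          apply sing
          have := h.2
          simpa [cv, unitVec] using this
        apply Complex.ext
        · simp [cc, cv, unitVec]
        · simp [cc, cv, unitVec, h1]
      · have h1 : (z k).re = (x k).re := by
          apply sing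
          have := h.1
          simpa [cv, unitVec] using this
        apply Complex.ext
        · simp [cc, cv, unitVec, h1]
        · simp [cc, cv, unitVec]
    · simp only [csh, Function.update_of_ne hk] at h ⊢
      exact Complex.ext (sing _ _ h.1) (sing _ _ h.2)

/-- **segment formula** -/
theorem _root_.Crest.Agent.R165.PathGlx641.LD.rel_axis {n : ℕ} {U : Set (Fin n → ℂ)}
    {Z : ℝ → (Fin n → ℤ × ℤ) → ℝ} {g : Fin n → Fin 2 → (Fin n → ℂ) → ℝ} (H : LD U Z g)
    {x : Fin n → ℂ} {i : Fin n} {j : Fin 2} {t : ℝ}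
    (hseg : ∀ s ∈ uIcc 0 t, csh x i ((s : ℂ) * cv (unitVec j)) ∈ U) :
    Rel Z x (csh x i ((t : ℂ) * cv (unitVec j)))
      (Real.exp (∫ s in (0 : ℝ)..t, g i j (csh x i ((s : ℂ) * cv (unitVec j))))) := by
  set y := csh x i ((t : ℂ) * cv (unitVec j)) with hy
  have hbox : Box x y ⊆ U := by
    intro z hz
    obtain ⟨s, hs, rfl⟩ := box_csh x i j t hz
    exact hseg s hs
  obtain ⟨G, hG, hR⟩ := H.rel_box hbox
  have hyi : cc j (y i) - cc j (x i) = t := by
    simp only [hy, csh, Function.update_self, cc_add_smul]; ring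
  have h1 := H.rel_seg hbox ∅ i j (by simp) (𝓝[>] 0) le_rfl _ _ (tendsto_mesh x) (tendsto_mesh y)
  simp only [lm_empty, cm_empty, hyi] at h1
  have h2 : Tendsto (fun a => mc a (lm (insert (i, j) ∅) (fun i => meshIndex a (x i))
      (fun i => meshIndex a (y i)))) (𝓝[>] 0) (𝓝 y) := by
    have e : cm (insert (i, j) ∅) x y = y := by
      rw [cm_insert ∅ x y i j (by simp), hyi, cm_empty]
    simp only [mc_lm]
    nth_rewrite 2 [← e]
    exact ((continuous_cm (insert (i, j) ∅)).tendsto (x, y)).comp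
      ((tendsto_mesh x).prodMk_nhds (tendsto_mesh y))
  have h3 := hR (𝓝[>] 0) le_rfl _ _ (tendsto_mesh x) h2
  rw [← tendsto_nhds_unique h3 h1]
  exact hR

section main

variable {n : ℕ} {D : Set ℂ} {Z : ℝ → (Fin n → ℤ × ℤ) → ℝ}
  {g : Fin n → Fin 2 → (Fin n → ℂ) → ℝ}

/-- segment formula for the limit -/
theorem gl_axis {U : Set (Fin n → ℂ)} (H : LD U Z g)
    {x : Fin n → ℂ} {i : Fin n} {j : Fin 2} {t : ℝ}
    (hseg : ∀ s ∈ uIcc 0 t, csh x i ((s : ℂ) * cv (unitVec j)) ∈ U) :
    Real.log (Gl Z x (csh x i ((t : ℂ) * cv (unitVec j)))) =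
      ∫ s in (0 : ℝ)..t, g i j (csh x i ((s : ℂ) * cv (unitVec j))) := by
  rw [(H.rel_axis hseg).gl_eq, Real.log_exp]

/-- first order expansion of the logarithm of the limit ratio -/
theorem LDD.log_gl_mix (H : LDD n D Z g) {x : Fin n → ℂ} (hx : x ∈ Conf n D)
    (S : Finset (Fin n × Fin 2)) : ∀ ε > 0, ∀ᶠ y in 𝓝 x,
      |Real.log (Gl Z x (cm S x y)) - ∑ p ∈ S, g p.1 p.2 x * (cc p.2 (y p.1) - cc p.2 (x p.1))|
        ≤ ε * dist y x := by
  classical
  obtain ⟨U, hxU, hU⟩ := H.loc x hx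
  -- a small ball inside everything
  have hopen : IsOpen (U ∩ Conf n D) := hU.isOpen.inter (Conf.isOpen n H.isOpen)
  obtain ⟨r, hr, hrU⟩ := Metric.isOpen_iff.1 hopen x ⟨hxU, hx⟩
  induction S using Finset.induction_on with
  | empty =>
    intro ε hε
    refine Eventually.of_forall fun y => ?_
    simp only [cm_empty, Finset.sum_empty, sub_zero]
    rw [H.gl_self hx, Real.log_one, abs_zero]
    positivity
  | insert p S hp ih =>
    obtain ⟨i, j⟩ := p
    intro ε hε
    have hc : ContinuousAt (g i j) x := (hU.cont i j).continuousAt (hU.isOpen.mem_nhds hxU)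
    obtain ⟨δ, hδ, hδg⟩ := Metric.continuousAt_iff.1 hc (ε / 2) (half_pos hε)
    filter_upwards [ih (ε / 2) (half_pos hε),
      Metric.ball_mem_nhds x (lt_min (half_pos hr) (half_pos hδ))] with y h1 h2
    rw [Metric.mem_ball] at h2
    have h2r : dist y x < r / 2 := h2.trans_le (min_le_left _ _)
    have h2δ : dist y x < δ / 2 := h2.trans_le (min_le_right _ _)
    have hboxr : ∀ z ∈ Box x y, z ∈ U ∧ z ∈ Conf n D := fun z hz =>
      hrU (by rw [Metric.mem_ball]; exact (box_dist hz).trans_lt (by linarith))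
    have hm1 : cm S x y ∈ Conf n D := (hboxr _ (cm_mem_box S x y)).2
    have hm2 : cm (insert (i, j) S) x y ∈ Conf n D :=
      (hboxr _ (cm_mem_box (insert (i, j) S) x y)).2
    set t : ℝ := cc j (y i) - cc j (x i) with ht
    have hax : Real.log (Gl Z (cm S x y) (cm (insert (i, j) S) x y)) =
        ∫ s in (0 : ℝ)..t, g i j (csh (cm S x y) i ((s : ℂ) * cv (unitVec j))) := by
      rw [cm_insert S x y i j hp]
      exact gl_axis hU fun s hs => (hboxr _ (seg_mem_box S x y i j hp s hs)).1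
    have hlog : Real.log (Gl Z x (cm (insert (i, j) S) x y)) =
        Real.log (Gl Z x (cm S x y)) + Real.log (Gl Z (cm S x y) (cm (insert (i, j) S) x y)) := by
      rw [← H.gl_mul hx hm1 hm2,
        Real.log_mul (H.gl_pos hx hm1).ne' (H.gl_pos hm1 hm2).ne']
    have hbd : |(∫ s in (0 : ℝ)..t, g i j (csh (cm S x y) i ((s : ℂ) * cv (unitVec j)))) -
        g i j x * t| ≤ ε / 2 * dist y x := by
      have hint : IntervalIntegrable (fun s : ℝ => g i j (csh (cm S x y) i ((s : ℂ) * cv (unitVec j))))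
          MeasureTheory.volume 0 t := by
        apply ContinuousOn.intervalIntegrable
        refine (hU.cont i j).comp ?_ fun s hs => (hboxr _ (seg_mem_box S x y i j hp s hs)).1
        exact ((continuous_csh _ i).comp
          (Complex.continuous_ofReal.mul continuous_const)).continuousOn
      have e : g i j x * t = ∫ _ in (0 : ℝ)..t, g i j x := by
        rw [intervalIntegral.integral_const, smul_eq_mul]; ring
      rw [e, ← intervalIntegral.integral_sub hint intervalIntegrable_const, ← Real.norm_eq_abs]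
      have := intervalIntegral.norm_integral_le_of_norm_le_const
        (f := fun s : ℝ => g i j (csh (cm S x y) i ((s : ℂ) * cv (unitVec j))) - g i j x)
        (C := ε / 2) (a := 0) (b := t) ?_
      · refine this.trans ?_
        rw [sub_zero]
        refine mul_le_mul_of_nonneg_left ?_ (half_pos hε).le
        rw [ht, ← cc_sub]
        refine (abs_cc_le _ _).trans ?_
        rw [← dist_eq_norm]; exact dist_le_pi_dist y x i
      · intro s hs
        have hs' : s ∈ uIcc 0 t := uIoc_subset_uIcc hs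
        have hz := seg_mem_box S x y i j hp s hs'
        have hd : dist (csh (cm S x y) i ((s : ℂ) * cv (unitVec j))) x < δ :=
          (box_dist hz).trans_lt (by linarith)
        have := hδg hd
        rw [Real.dist_eq] at this
        rw [Real.norm_eq_abs]
        exact this.le
    rw [Finset.sum_insert hp, hlog, hax]
    simp only
    have e : Real.log (Gl Z x (cm S x y)) +
        (∫ s in (0 : ℝ)..t, g i j (csh (cm S x y) i ((s : ℂ) * cv (unitVec j)))) -
        (g i j x * (cc j (y i) - cc j (x i)) +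
          ∑ p ∈ S, g p.1 p.2 x * (cc p.2 (y p.1) - cc p.2 (x p.1))) =
        (Real.log (Gl Z x (cm S x y)) -
          ∑ p ∈ S, g p.1 p.2 x * (cc p.2 (y p.1) - cc p.2 (x p.1))) +
        ((∫ s in (0 : ℝ)..t, g i j (csh (cm S x y) i ((s : ℂ) * cv (unitVec j)))) -
          g i j x * t) := by
      rw [ht]; ring
    rw [e]
    refine (abs_add_le _ _).trans ?_
    linarith

/-- **differentiability of the logarithm of the limit ratio** -/
theorem LDD.hasFDerivAt (H : LDD n D Z g) {x₀ x : Fin n → ℂ} (hx₀ : x₀ ∈ Conf n D)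
    (hx : x ∈ Conf n D) :
    HasFDerivAt (fun y => Real.log (Gl Z x₀ y)) (cl (cg g x)) x := by
  have h1 : HasFDerivAt (fun y => Real.log (Gl Z x y)) (cl (cg g x)) x := by
    rw [hasFDerivAt_iff_isLittleO_nhds_zero, Asymptotics.isLittleO_iff]
    intro ε hε
    have h := LDD.log_gl_mix H hx Finset.univ ε hε
    have h' : Tendsto (fun h : Fin n → ℂ => x + h) (𝓝 0) (𝓝 x) := by
      have : Continuous fun h : Fin n → ℂ => x + h := continuous_const.add continuous_id
      simpa using this.tendsto 0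
    filter_upwards [h'.eventually h] with v hv
    simp only [cm_univ] at hv
    rw [Real.norm_eq_abs, H.gl_self hx, Real.log_one, sub_zero, cl_cg]
    have e : ∀ p : Fin n × Fin 2, cc p.2 ((x + v) p.1) - cc p.2 (x p.1) = cc p.2 (v p.1) := by
      intro p
      rw [← cc_sub]; simp
    simp only [e] at hv
    have e2 : dist (x + v) x = ‖v‖ := by rw [dist_eq_norm]; simp
    rw [e2] at hv
    exact hv
  have h2 : (fun y => Real.log (Gl Z x₀ y)) =ᶠ[𝓝 x]
      fun y => Real.log (Gl Z x₀ x) + Real.log (Gl Z x y) := by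
    filter_upwards [(Conf.isOpen n H.isOpen).mem_nhds hx] with y hy
    rw [← H.gl_mul hx₀ hx hy, Real.log_mul (H.gl_pos hx₀ hx).ne' (H.gl_pos hx hy).ne']
  exact (h1.const_add _).congr_of_eventuallyEq h2

/-- derivative of `log ‖w‖` -/
theorem hasFDerivAt_log_norm {w : ℂ} (hw : w ≠ 0) :
    HasFDerivAt (fun z : ℂ => Real.log ‖z‖)
      (Complex.reCLM.comp (ContinuousLinearMap.mul ℝ ℂ w⁻¹)) w := by
  have h1 : HasFDerivAt (fun z : ℂ => ‖z‖ ^ 2) (2 • innerSL ℝ w) w :=
    (hasStrictFDerivAt_norm_sq w).hasFDerivAt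
  have hne : ‖w‖ ^ 2 ≠ 0 := pow_ne_zero _ (norm_ne_zero_iff.2 hw)
  have h2 := (h1.log hne).const_mul (1 / 2)
  have e : (fun z : ℂ => Real.log ‖z‖) = fun z : ℂ => 1 / 2 * Real.log (‖z‖ ^ 2) := by
    funext z
    rw [Real.log_pow]; push_cast; ring
  rw [e]
  refine h2.congr_fderiv ?_
  ext h
  simp only [ContinuousLinearMap.comp_apply, ContinuousLinearMap.mul_apply', Complex.reCLM_apply,
    smul_apply, innerSL_apply_apply, smul_eq_mul, nsmul_eq_mul]
  rw [Complex.inner, Complex.inv_def]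
  have hn : ‖w‖ ^ 2 = Complex.normSq w := Complex.sq_norm w
  rw [hn]
  have hne' : Complex.normSq w ≠ 0 := by rw [← hn]; exact hne
  simp only [Complex.mul_re, Complex.mul_im, Complex.conj_re, Complex.conj_im, Complex.ofReal_re,
    Complex.ofReal_im]
  push_cast
  field_simp
  ring

/-- **covariance up to a constant**: two families of log-derivatives related by the conformal
covariance rule with weight `κ` -/
theorem cov {D' : Set ℂ} {Z' : ℝ → (Fin n → ℤ × ℤ) → ℝ} {g' : Fin n → Fin 2 → (Fin n → ℂ) → ℝ}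
    (H : LDD n D Z g) (H' : LDD n D' Z' g') {φ : ℂ → ℂ} (hφ : DifferentiableOn ℂ φ D)
    (hinj : InjOn φ D) (hmaps : MapsTo φ D D') (hφ' : ∀ z ∈ D, deriv φ z ≠ 0) {κ : ℝ}
    (hrel : ∀ x ∈ Conf n D, ∀ i, cg g x i = deriv φ (x i) * cg g' (fun k => φ (x k)) i +
      κ * (deriv (deriv φ) (x i) / deriv φ (x i)))
    {x y : Fin n → ℂ} (hx : x ∈ Conf n D) (hy : y ∈ Conf n D) :
    Gl Z x y * ∏ i, ‖deriv φ (x i)‖ ^ κ =
      Gl Z' (fun k => φ (x k)) (fun k => φ (y k)) * ∏ i, ‖deriv φ (y i)‖ ^ κ := by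
  have hmem : ∀ z ∈ Conf n D, (fun k => φ (z k)) ∈ Conf n D' := fun z hz =>
    ⟨fun i => hmaps (hz.1 i), fun i j hij => hz.2 (hinj (hz.1 i) (hz.1 j) hij)⟩
  have hopen := Conf.isOpen n H.isOpen
  have hconn := Conf.isPreconnected n H.isOpen H.conn
  -- derivative of the map on configurations
  have hd1 : ∀ z ∈ D, HasDerivAt φ (deriv φ z) z := fun z hz =>
    ((hφ z hz).differentiableAt (H.isOpen.mem_nhds hz)).hasDerivAt
  have hdd : DifferentiableOn ℂ (deriv φ) D := hφ.deriv H.isOpen
  have hd2 : ∀ z ∈ D, HasDerivAt (deriv φ) (deriv (deriv φ) z) z := fun z hz =>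
    ((hdd z hz).differentiableAt (H.isOpen.mem_nhds hz)).hasDerivAt
  let pr : (i : Fin n) → (Fin n → ℂ) →L[ℝ] ℂ := fun i =>
    ContinuousLinearMap.proj (R := ℝ) (φ := fun _ : Fin n => ℂ) i
  have hpr : ∀ (i : Fin n) (z : Fin n → ℂ), HasFDerivAt (fun z : Fin n → ℂ => z i) (pr i) z :=
    fun i z => (pr i).hasFDerivAt
  have hcomp : ∀ (f : ℂ → ℂ) (f' : ℂ) (i : Fin n) (z : Fin n → ℂ), HasDerivAt f f' (z i) →
      HasFDerivAt (fun z : Fin n → ℂ => f (z i))
        ((ContinuousLinearMap.mul ℝ ℂ f').comp (pr i)) z := by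
    intro f f' i z hf
    have h1 : HasFDerivAt f ((ContinuousLinearMap.mul ℝ ℂ f')) (z i) := by
      have := hf.hasFDerivAt.restrictScalars ℝ
      refine this.congr_fderiv ?_
      ext h
      simp [mul_comm]
    exact h1.comp z (hpr i z)
  let L : (Fin n → ℂ) → ℝ := fun z =>
    Real.log (Gl Z x z) - Real.log (Gl Z' (fun k => φ (x k)) (fun k => φ (z k))) -
      κ * ∑ i, Real.log ‖deriv φ (z i)‖
  have hL : ∀ z ∈ Conf n D, HasFDerivAt L (0 : (Fin n → ℂ) →L[ℝ] ℝ) z := by
    intro z hz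
    have h1 := LDD.hasFDerivAt H hx hz
    have h2 : HasFDerivAt (fun w : Fin n → ℂ => (fun k => φ (w k)))
        (ContinuousLinearMap.pi fun i =>
          (ContinuousLinearMap.mul ℝ ℂ (deriv φ (z i))).comp (pr i)) z := by
      rw [hasFDerivAt_pi]
      intro i
      exact hcomp φ _ i z (hd1 _ (hz.1 i))
    have h3 := (LDD.hasFDerivAt H' (hmem x hx) (hmem z hz)).comp z h2
    have h4 : ∀ i, HasFDerivAt (fun w : Fin n → ℂ => Real.log ‖deriv φ (w i)‖)
        ((Complex.reCLM.comp (ContinuousLinearMap.mul ℝ ℂ (deriv φ (z i))⁻¹)).comp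
          ((ContinuousLinearMap.mul ℝ ℂ (deriv (deriv φ) (z i))).comp (pr i))) z := fun i =>
      HasFDerivAt.comp (g := fun z : ℂ => Real.log ‖z‖) z (hasFDerivAt_log_norm (hφ' _ (hz.1 i)))
        (hcomp (deriv φ) _ i z (hd2 _ (hz.1 i)))
    have h5 := HasFDerivAt.fun_sum (u := Finset.univ) fun i _ => h4 i
    have h6 := (h1.sub h3).sub (h5.const_mul κ)
    refine h6.congr_fderiv ?_
    ext h
    simp only [zero_apply, sub_apply,
      ContinuousLinearMap.comp_apply, smul_apply,
      sum_apply, cl_apply, ContinuousLinearMap.coe_pi',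
      ContinuousLinearMap.mul_apply', Complex.reCLM_apply, smul_eq_mul, pr,
      ContinuousLinearMap.proj_apply]
    rw [Finset.mul_sum, ← Finset.sum_sub_distrib, ← Finset.sum_sub_distrib]
    refine Finset.sum_eq_zero fun i _ => ?_
    rw [hrel z hz i]
    have e1 : κ * ((deriv φ (z i))⁻¹ * (deriv (deriv φ) (z i) * h i)).re =
        (κ * (deriv (deriv φ) (z i) / deriv φ (z i)) * h i).re := by
      rw [show (κ : ℂ) * (deriv (deriv φ) (z i) / deriv φ (z i)) * h i =
        (κ : ℂ) * ((deriv φ (z i))⁻¹ * (deriv (deriv φ) (z i) * h i)) by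
          rw [div_eq_mul_inv]; ring, Complex.re_ofReal_mul]
    rw [e1, ← Complex.sub_re, ← Complex.sub_re]
    ring_nf
    simp
  have hconst := hopen.is_const_of_fderiv_eq_zero hconn
    (fun z hz => (hL z hz).differentiableAt.differentiableWithinAt)
    (fun z hz => (hL z hz).fderiv) hx hy
  simp only [L] at hconst
  rw [H.gl_self hx, H'.gl_self (hmem x hx), Real.log_one] at hconst
  have hp : ∀ z ∈ Conf n D, (∏ i, ‖deriv φ (z i)‖ ^ κ) =
      Real.exp (κ * ∑ i, Real.log ‖deriv φ (z i)‖) := by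
    intro z hz
    rw [Finset.mul_sum, Real.exp_sum]
    refine Finset.prod_congr rfl fun i _ => ?_
    rw [Real.rpow_def_of_pos (norm_pos_iff.2 (hφ' _ (hz.1 i))), mul_comm]
  rw [hp x hx, hp y hy, ← Real.exp_log (H.gl_pos hx hy),
    ← Real.exp_log (H'.gl_pos (hmem x hx) (hmem y hy)), ← Real.exp_add, ← Real.exp_add]
  congr 1
  linarith

end main

end Crest.Agent.R165.PathDfx641
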