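import Crest.Agent.R165.PathInt_641

/-!
# Row 165 (S0250), block U5: global convergence of ratios (helper641)

`LDD n D Z g` : locally uniform one-step expansions on the configuration space of `D`.
Output: `LDD.ratio` (all ratios converge, independently of the lattice approximation), the limit
`Gl`, its cocycle property, the segment formula, differentiability of its logarithm, and the
comparison of two families whose log-derivatives are related by the conformal covariance rule.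
-/

set_option autoImplicit false

noncomputable section

open Filter Topology Set
open Crest.ProbabilityR.IsingModel

namespace Crest.Agent.R165.PathGlx641

open ConfTopx641 PathIntx641

/-- real coordinate of a complex number -/
def cc (j : Fin 2) (z : ℂ) : ℝ := if j = 0 then z.re else z.im

/-- integer coordinate -/
def cz (j : Fin 2) (z : ℤ × ℤ) : ℤ := if j = 0 then z.1 else z.2

/-- mixture of complex configurations -/
def cm {n : ℕ} (S : Finset (Fin n × Fin 2)) (x y : Fin n → ℂ) : Fin n → ℂ := fun i =>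
  ⟨if (i, 0) ∈ S then (y i).re else (x i).re, if (i, 1) ∈ S then (y i).im else (x i).im⟩

/-- mixture of lattice configurations -/
def lm {n : ℕ} (S : Finset (Fin n × Fin 2)) (u w : Fin n → ℤ × ℤ) : Fin n → ℤ × ℤ := fun i =>
  (if (i, 0) ∈ S then (w i).1 else (u i).1, if (i, 1) ∈ S then (w i).2 else (u i).2)

theorem mc_lm {n : ℕ} (a : ℝ) (S : Finset (Fin n × Fin 2)) (u w : Fin n → ℤ × ℤ) :
    mc a (lm S u w) = cm S (mc a u) (mc a w) := by
  funext i
  apply Complex.ext
  · simp only [mc, lm, cm, meshPoint]; split_ifs <;> rfl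
  · simp only [mc, lm, cm, meshPoint]; split_ifs <;> rfl

@[simp] theorem cm_empty {n : ℕ} (x y : Fin n → ℂ) : cm ∅ x y = x := by
  funext i; simp [cm]

@[simp] theorem lm_empty {n : ℕ} (x y : Fin n → ℤ × ℤ) : lm ∅ x y = x := by
  funext i; simp [lm]

@[simp] theorem cm_univ {n : ℕ} (x y : Fin n → ℂ) : cm Finset.univ x y = y := by
  funext i; simp [cm]

@[simp] theorem lm_univ {n : ℕ} (x y : Fin n → ℤ × ℤ) : lm Finset.univ x y = y := by
  funext i; simp [lm]

theorem cv_unitVec_zero : cv (unitVec 0) = 1 := by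
  apply Complex.ext <;> simp [cv, unitVec]

theorem cv_unitVec_one : cv (unitVec 1) = Complex.I := by
  apply Complex.ext <;> simp [cv, unitVec]

theorem cm_insert {n : ℕ} (S : Finset (Fin n × Fin 2)) (x y : Fin n → ℂ) (i : Fin n) (j : Fin 2)
    (h : (i, j) ∉ S) :
    cm (insert (i, j) S) x y =
      csh (cm S x y) i (((cc j (y i) - cc j (x i) : ℝ) : ℂ) * cv (unitVec j)) := by
  funext k
  by_cases hk : k = i
  · subst hk
    simp only [csh, Function.update_self]
    fin_cases j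
    · change (k, 0) ∉ S at h
      apply Complex.ext
      · simp [cm, cc, h, cv, unitVec]
      · simp [cm, cc, cv, unitVec]
    · change (k, 1) ∉ S at h
      apply Complex.ext
      · simp [cm, cc, cv, unitVec]
      · simp [cm, cc, h, cv, unitVec]
  · simp only [csh, Function.update_of_ne hk]
    apply Complex.ext <;> simp [cm, hk]

theorem lm_insert {n : ℕ} (S : Finset (Fin n × Fin 2)) (x y : Fin n → ℤ × ℤ) (i : Fin n) (j : Fin 2)
    (h : (i, j) ∉ S) :
    lm (insert (i, j) S) x y = sh (lm S x y) i ((cz j (y i) - cz j (x i)) • unitVec j) := by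
  funext k
  by_cases hk : k = i
  · subst hk
    simp only [sh, Function.update_self]
    fin_cases j
    · change (k, 0) ∉ S at h
      apply Prod.ext
      · simp [lm, cz, h, unitVec]
      · simp [lm, cz, unitVec]
    · change (k, 1) ∉ S at h
      apply Prod.ext
      · simp [lm, cz, unitVec]
      · simp [lm, cz, h, unitVec]
  · simp only [sh, Function.update_of_ne hk]
    apply Prod.ext <;> simp [lm, hk]

theorem continuous_cm {n : ℕ} (S : Finset (Fin n × Fin 2)) :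
    Continuous fun p : (Fin n → ℂ) × (Fin n → ℂ) => cm S p.1 p.2 := by
  refine continuous_pi fun i => ?_
  have h : (fun p : (Fin n → ℂ) × (Fin n → ℂ) => cm S p.1 p.2 i) = fun p =>
      (((if (i, 0) ∈ S then (p.2 i).re else (p.1 i).re : ℝ) : ℂ) +
        ((if (i, 1) ∈ S then (p.2 i).im else (p.1 i).im : ℝ) : ℂ) * Complex.I) := by
    funext p
    apply Complex.ext <;> simp [cm]
  rw [h]
  refine Continuous.add ?_ (Continuous.mul ?_ continuous_const)
  · split_ifs
    · fun_prop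
    · fun_prop
  · split_ifs
    · fun_prop
    · fun_prop

/-- the closed box spanned by two configurations -/
def Box {n : ℕ} (x y : Fin n → ℂ) : Set (Fin n → ℂ) :=
  {z | ∀ i, (z i).re ∈ uIcc (x i).re (y i).re ∧ (z i).im ∈ uIcc (x i).im (y i).im}

theorem seg_mem_box {n : ℕ} (S : Finset (Fin n × Fin 2)) (x y : Fin n → ℂ) (i : Fin n) (j : Fin 2)
    (h : (i, j) ∉ S) (s : ℝ) (hs : s ∈ uIcc 0 (cc j (y i) - cc j (x i))) :
    csh (cm S x y) i ((s : ℂ) * cv (unitVec j)) ∈ Box x y := by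
  have key : ∀ p q : ℝ, s ∈ uIcc 0 (q - p) → p + s ∈ uIcc p q := by
    intro p q hs
    rcases le_total 0 (q - p) with h | h
    · rw [uIcc_of_le h] at hs
      rw [uIcc_of_le (by linarith)]
      exact ⟨by linarith [hs.1], by linarith [hs.2]⟩
    · rw [uIcc_of_ge h] at hs
      rw [uIcc_of_ge (by linarith)]
      exact ⟨by linarith [hs.1], by linarith [hs.2]⟩
  have mixre : ∀ k, (cm S x y k).re ∈ uIcc (x k).re (y k).re := by
    intro k; simp only [cm]; split_ifs
    · exact right_mem_uIcc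
    · exact left_mem_uIcc
  have mixim : ∀ k, (cm S x y k).im ∈ uIcc (x k).im (y k).im := by
    intro k; simp only [cm]; split_ifs
    · exact right_mem_uIcc
    · exact left_mem_uIcc
  intro k
  by_cases hk : k = i
  · subst hk
    simp only [csh, Function.update_self]
    fin_cases j
    · change (k, 0) ∉ S at h
      have hs' : s ∈ uIcc 0 ((y k).re - (x k).re) := hs
      refine ⟨?_, ?_⟩
      · have : (cm S x y k + (s : ℂ) * cv (unitVec 0)).re = (x k).re + s := by
          simp [cm, h, cv, unitVec]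
        change (cm S x y k + (s : ℂ) * cv (unitVec 0)).re ∈ _
        rw [this]; exact key _ _ hs'
      · have : (cm S x y k + (s : ℂ) * cv (unitVec 0)).im = (cm S x y k).im := by
          simp [cv, unitVec]
        change (cm S x y k + (s : ℂ) * cv (unitVec 0)).im ∈ _
        rw [this]; exact mixim k
    · change (k, 1) ∉ S at h
      have hs' : s ∈ uIcc 0 ((y k).im - (x k).im) := hs
      refine ⟨?_, ?_⟩
      · have : (cm S x y k + (s : ℂ) * cv (unitVec 1)).re = (cm S x y k).re := by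
          simp [cv, unitVec]
        change (cm S x y k + (s : ℂ) * cv (unitVec 1)).re ∈ _
        rw [this]; exact mixre k
      · have : (cm S x y k + (s : ℂ) * cv (unitVec 1)).im = (x k).im + s := by
          simp [cm, h, cv, unitVec]
        change (cm S x y k + (s : ℂ) * cv (unitVec 1)).im ∈ _
        rw [this]; exact key _ _ hs'
  · simp only [csh, Function.update_of_ne hk]
    exact ⟨mixre k, mixim k⟩

theorem cm_mem_box {n : ℕ} (S : Finset (Fin n × Fin 2)) (x y : Fin n → ℂ) : cm S x y ∈ Box x y := by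
  intro k
  refine ⟨?_, ?_⟩ <;> simp only [cm] <;> split_ifs
  · exact right_mem_uIcc
  · exact left_mem_uIcc
  · exact right_mem_uIcc
  · exact left_mem_uIcc

theorem box_dist {n : ℕ} {x y z : Fin n → ℂ} (hz : z ∈ Box x y) : dist z x ≤ 2 * dist y x := by
  rw [dist_pi_le_iff (by positivity)]
  intro i
  have h1 : |(z i).re - (x i).re| ≤ dist y x := by
    have h2 : |(z i).re - (x i).re| ≤ |(y i).re - (x i).re| :=
      abs_sub_left_of_mem_uIcc (hz i).1
    refine h2.trans ?_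
    have h3 : |(y i).re - (x i).re| ≤ ‖y i - x i‖ := by
      rw [← Complex.sub_re]; exact Complex.abs_re_le_norm _
    exact h3.trans (by rw [← dist_eq_norm]; exact dist_le_pi_dist y x i)
  have h1' : |(z i).im - (x i).im| ≤ dist y x := by
    have h2 : |(z i).im - (x i).im| ≤ |(y i).im - (x i).im| :=
      abs_sub_left_of_mem_uIcc (hz i).2
    refine h2.trans ?_
    have h3 : |(y i).im - (x i).im| ≤ ‖y i - x i‖ := by
      rw [← Complex.sub_im]; exact Complex.abs_im_le_norm _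
    exact h3.trans (by rw [← dist_eq_norm]; exact dist_le_pi_dist y x i)
  rw [dist_eq_norm]
  refine (Complex.norm_le_abs_re_add_abs_im _).trans ?_
  rw [Complex.sub_re, Complex.sub_im]
  linarith

/-- integrated expansions along axis segments in `U` (see `LD.of_axis` for the usual way to
obtain it from one-step expansions, and `PathSeq_641` for diagonal steps) -/
structure LD {n : ℕ} (U : Set (Fin n → ℂ)) (Z : ℝ → (Fin n → ℤ × ℤ) → ℝ)
    (g : Fin n → Fin 2 → (Fin n → ℂ) → ℝ) : Prop where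
  isOpen : IsOpen U
  pos : PosOn U Z
  cont : ∀ i j, ContinuousOn (g i j) U
  seg : ∀ (i : Fin n) (j : Fin 2) (x : Fin n → ℂ) (T : ℝ),
    (∀ s ∈ uIcc 0 T, csh x i ((s : ℂ) * cv (unitVec j)) ∈ U) → ∀ l : Filter ℝ, l ≤ 𝓝[>] 0 →
    ∀ u : ℝ → Fin n → ℤ × ℤ, Tendsto (fun a => mc a (u a)) l (𝓝 x) →
    ∀ N : ℝ → ℤ, Tendsto (fun a => a * (N a : ℝ)) l (𝓝 T) →
    Tendsto (fun a => Z a (sh (u a) i (N a • unitVec j)) / Z a (u a)) l
      (𝓝 (Real.exp (∫ s in (0 : ℝ)..T, g i j (csh x i ((s : ℂ) * cv (unitVec j))))))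

/-- axis-step expansions on `U` -/
theorem LD.of_axis {n : ℕ} {U : Set (Fin n → ℂ)} {Z : ℝ → (Fin n → ℤ × ℤ) → ℝ}
    {g : Fin n → Fin 2 → (Fin n → ℂ) → ℝ} (hU : IsOpen U) (hpos : PosOn U Z)
    (hg : ∀ i j, ContinuousOn (g i j) U) (hld : ∀ i j, LDv U Z i (unitVec j) (g i j)) :
    LD U Z g where
  isOpen := hU
  pos := hpos
  cont := hg
  seg i j _ _ hseg _ hl _ hu _ hN := segment_int hU hpos (hg i j) (hld i j) hseg hl hu hN

/-- the relation: ratios converge, for every lattice approximation and along every filter -/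
def Rel {n : ℕ} (Z : ℝ → (Fin n → ℤ × ℤ) → ℝ) (x y : Fin n → ℂ) (G : ℝ) : Prop :=
  ∀ l : Filter ℝ, l ≤ 𝓝[>] 0 → ∀ u w : ℝ → Fin n → ℤ × ℤ,
    Tendsto (fun a => mc a (u a)) l (𝓝 x) → Tendsto (fun a => mc a (w a)) l (𝓝 y) →
    Tendsto (fun a => Z a (w a) / Z a (u a)) l (𝓝 G)

theorem tendsto_comp_cc {l : Filter ℝ} {u : ℝ → ℂ} {x : ℂ} (h : Tendsto u l (𝓝 x)) (j : Fin 2) :
    Tendsto (fun a => cc j (u a)) l (𝓝 (cc j x)) := by
  unfold cc
  split_ifs
  · exact (Complex.continuous_re.tendsto x).comp h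
  · exact (Complex.continuous_im.tendsto x).comp h

theorem cc_meshPoint (a : ℝ) (j : Fin 2) (z : ℤ × ℤ) : cc j (meshPoint a z) = a * cz j z := by
  unfold cc cz meshPoint; split_ifs <;> rfl

theorem ev_pos {n : ℕ} {U : Set (Fin n → ℂ)} {Z : ℝ → (Fin n → ℤ × ℤ) → ℝ} (hU : IsOpen U)
    (hpos : PosOn U Z) {l : Filter ℝ} (hl : l ≤ 𝓝[>] 0) {u : ℝ → Fin n → ℤ × ℤ} {x : Fin n → ℂ}
    (hx : x ∈ U) (hu : Tendsto (fun a => mc a (u a)) l (𝓝 x)) : ∀ᶠ a in l, 0 < Z a (u a) := by
  filter_upwards [hl hpos, hu.eventually (hU.mem_nhds hx)] with a h1 h2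
  exact h1 _ h2

/-- one axis-parallel segment -/
theorem LD.rel_seg {n : ℕ} {U : Set (Fin n → ℂ)} {Z : ℝ → (Fin n → ℤ × ℤ) → ℝ}
    {g : Fin n → Fin 2 → (Fin n → ℂ) → ℝ} (H : LD U Z g) {x y : Fin n → ℂ}
    (hbox : Box x y ⊆ U) (S : Finset (Fin n × Fin 2)) (i : Fin n) (j : Fin 2) (h : (i, j) ∉ S)
    (l : Filter ℝ) (hl : l ≤ 𝓝[>] 0) (u w : ℝ → Fin n → ℤ × ℤ)
    (hu : Tendsto (fun a => mc a (u a)) l (𝓝 x)) (hw : Tendsto (fun a => mc a (w a)) l (𝓝 y)) :
    Tendsto (fun a => Z a (lm (insert (i, j) S) (u a) (w a)) / Z a (lm S (u a) (w a))) l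
      (𝓝 (Real.exp (∫ s in (0 : ℝ)..(cc j (y i) - cc j (x i)),
        g i j (csh (cm S x y) i ((s : ℂ) * cv (unitVec j)))))) := by
  have hbase : Tendsto (fun a => mc a (lm S (u a) (w a))) l (𝓝 (cm S x y)) := by
    simp only [mc_lm]
    exact ((continuous_cm S).tendsto (x, y)).comp (hu.prodMk_nhds hw)
  have hN : Tendsto (fun a => a * ((cz j (w a i) - cz j (u a i) : ℤ) : ℝ)) l
      (𝓝 (cc j (y i) - cc j (x i))) := by
    have h1 := tendsto_comp_cc (tendsto_pi_nhds.1 hw i) j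
    have h2 := tendsto_comp_cc (tendsto_pi_nhds.1 hu i) j
    refine (h1.sub h2).congr fun a => ?_
    simp only [mc, cc_meshPoint]
    push_cast; ring
  have := H.seg i j (cm S x y) _ (fun s hs => hbox (seg_mem_box S x y i j h s hs)) l hl _ hbase _ hN
  refine this.congr fun a => ?_
  rw [lm_insert S (u a) (w a) i j h]

/-- **box lemma** -/
theorem LD.rel_box {n : ℕ} {U : Set (Fin n → ℂ)} {Z : ℝ → (Fin n → ℤ × ℤ) → ℝ}
    {g : Fin n → Fin 2 → (Fin n → ℂ) → ℝ} (H : LD U Z g) {x y : Fin n → ℂ}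
    (hbox : Box x y ⊆ U) : ∃ G : ℝ, 0 < G ∧ Rel Z x y G := by
  classical
  have hx : x ∈ U := hbox (by simpa using cm_mem_box ∅ x y)
  have key : ∀ S : Finset (Fin n × Fin 2), ∃ G : ℝ, 0 < G ∧
      ∀ l : Filter ℝ, l ≤ 𝓝[>] 0 → ∀ u w : ℝ → Fin n → ℤ × ℤ,
        Tendsto (fun a => mc a (u a)) l (𝓝 x) → Tendsto (fun a => mc a (w a)) l (𝓝 y) →
        Tendsto (fun a => Z a (lm S (u a) (w a)) / Z a (u a)) l (𝓝 G) := by
    intro S
    induction S using Finset.induction_on with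
    | empty =>
      refine ⟨1, one_pos, fun l hl u w hu _ => ?_⟩
      refine tendsto_const_nhds.congr' ?_
      filter_upwards [ev_pos H.isOpen H.pos hl hx hu] with a ha
      simp only [lm_empty]
      exact (div_self ha.ne').symm
    | insert p S hp ih =>
      obtain ⟨i, j⟩ := p
      obtain ⟨G, hG, hGt⟩ := ih
      refine ⟨Real.exp (∫ s in (0 : ℝ)..(cc j (y i) - cc j (x i)),
        g i j (csh (cm S x y) i ((s : ℂ) * cv (unitVec j)))) * G,
        mul_pos (Real.exp_pos _) hG, fun l hl u w hu hw => ?_⟩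
      refine ((H.rel_seg hbox S i j hp l hl u w hu hw).mul (hGt l hl u w hu hw)).congr' ?_
      have hbase : Tendsto (fun a => mc a (lm S (u a) (w a))) l (𝓝 (cm S x y)) := by
        simp only [mc_lm]
        exact ((continuous_cm S).tendsto (x, y)).comp (hu.prodMk_nhds hw)
      filter_upwards [ev_pos H.isOpen H.pos hl (hbox (cm_mem_box S x y)) hbase] with a ha
      rw [div_mul_div_cancel₀ ha.ne']
  obtain ⟨G, hG, hGt⟩ := key Finset.univ
  refine ⟨G, hG, fun l hl u w hu hw => ?_⟩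
  simpa only [lm_univ] using hGt l hl u w hu hw

/-- locally uniform one-step expansions on the configuration space of `D` -/
structure LDD (n : ℕ) (D : Set ℂ) (Z : ℝ → (Fin n → ℤ × ℤ) → ℝ)
    (g : Fin n → Fin 2 → (Fin n → ℂ) → ℝ) : Prop where
  isOpen : IsOpen D
  conn : IsPreconnected D
  loc : ∀ x ∈ Conf n D, ∃ U, x ∈ U ∧ LD U Z g

theorem tendsto_mesh {n : ℕ} (x : Fin n → ℂ) :
    Tendsto (fun a => mc a (fun i => meshIndex a (x i))) (𝓝[>] 0) (𝓝 x) := by
  rw [tendsto_pi_nhds]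
  intro i
  have key : ∀ r : ℝ, Tendsto (fun a : ℝ => a * (⌊r / a⌋ : ℝ)) (𝓝[>] 0) (𝓝 r) := by
    intro r
    have h1 : Tendsto (fun a : ℝ => r - a) (𝓝[>] 0) (𝓝 r) := by
      have : Tendsto (fun a : ℝ => r - a) (𝓝 0) (𝓝 (r - 0)) := tendsto_const_nhds.sub tendsto_id
      rw [sub_zero] at this
      exact this.mono_left nhdsWithin_le_nhds
    refine tendsto_of_tendsto_of_tendsto_of_le_of_le' h1 tendsto_const_nhds ?_ ?_
    · filter_upwards [self_mem_nhdsWithin] with a ha
      have ha' : (0 : ℝ) < a := ha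
      have h := Int.lt_floor_add_one (r / a)
      have h2 : r < a * (⌊r / a⌋ + 1) := by
        rw [div_lt_iff₀ ha'] at h
        linarith
      linarith
    · filter_upwards [self_mem_nhdsWithin] with a ha
      have ha' : (0 : ℝ) < a := ha
      have h := Int.floor_le (r / a)
      rw [le_div_iff₀ ha'] at h
      linarith
  have e : (fun a => mc a (fun i => meshIndex a (x i)) i) = fun a : ℝ =>
      ((a * (⌊(x i).re / a⌋ : ℝ) : ℝ) : ℂ) + ((a * (⌊(x i).im / a⌋ : ℝ) : ℝ) : ℂ) * Complex.I := by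
    funext a
    apply Complex.ext <;> simp [mc, meshPoint, meshIndex]
  rw [e]
  have e2 : x i = (((x i).re : ℝ) : ℂ) + (((x i).im : ℝ) : ℂ) * Complex.I :=
    (Complex.re_add_im (x i)).symm
  rw [e2]
  simp only [Complex.add_re, Complex.ofReal_re, Complex.mul_re, Complex.I_re, mul_zero,
    Complex.ofReal_im, Complex.I_im, mul_one, sub_self, add_zero, Complex.add_im, Complex.mul_im,
    zero_add]
  exact ((Complex.continuous_ofReal.tendsto _).comp (key _)).add
    (((Complex.continuous_ofReal.tendsto _).comp (key _)).mul_const _)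

variable {n : ℕ} {D : Set ℂ} {Z : ℝ → (Fin n → ℤ × ℤ) → ℝ}
  {g : Fin n → Fin 2 → (Fin n → ℂ) → ℝ}

theorem LDD.ev_pos (H : LDD n D Z g) {x : Fin n → ℂ} (hx : x ∈ Conf n D) {l : Filter ℝ}
    (hl : l ≤ 𝓝[>] 0) {u : ℝ → Fin n → ℤ × ℤ} (hu : Tendsto (fun a => mc a (u a)) l (𝓝 x)) :
    ∀ᶠ a in l, 0 < Z a (u a) := by
  obtain ⟨U, hxU, hU⟩ := H.loc x hx
  exact PathGlx641.ev_pos hU.isOpen hU.pos hl hxU hu

theorem Rel.unique {x y : Fin n → ℂ} {G G' : ℝ} (h : Rel Z x y G) (h' : Rel Z x y G') : G = G' := by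
  have h1 := h (𝓝[>] 0) le_rfl _ _ (tendsto_mesh x) (tendsto_mesh y)
  have h2 := h' (𝓝[>] 0) le_rfl _ _ (tendsto_mesh x) (tendsto_mesh y)
  exact tendsto_nhds_unique h1 h2

theorem Rel.symm {x y : Fin n → ℂ} {G : ℝ} (h : Rel Z x y G) (hG : 0 < G) : Rel Z y x G⁻¹ := by
  intro l hl u w hu hw
  have := (h l hl w u hw hu).inv₀ hG.ne'
  refine this.congr fun a => ?_
  rw [inv_div]

theorem LDD.rel_trans (H : LDD n D Z g) {x y z : Fin n → ℂ} (hy : y ∈ Conf n D) {G G' : ℝ}
    (h : Rel Z x y G) (h' : Rel Z y z G') : Rel Z x z (G * G') := by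
  intro l hl u w hu hw
  have hm : Tendsto (fun a => mc a (fun i => meshIndex a (y i))) l (𝓝 y) :=
    (tendsto_mesh y).mono_left hl
  have h1 := h l hl u _ hu hm
  have h2 := h' l hl _ w hm hw
  refine (h1.mul h2).congr' ?_
  filter_upwards [H.ev_pos hy hl hm] with a ha
  rw [mul_comm, div_mul_div_cancel₀ ha.ne']

theorem LDD.rel_local (H : LDD n D Z g) {x : Fin n → ℂ} (hx : x ∈ Conf n D) :
    ∀ᶠ y in 𝓝 x, ∃ G : ℝ, 0 < G ∧ Rel Z x y G := by
  obtain ⟨U, hxU, hU⟩ := H.loc x hx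
  obtain ⟨r, hr, hrU⟩ := Metric.isOpen_iff.1 hU.isOpen x hxU
  filter_upwards [Metric.ball_mem_nhds x (half_pos hr)] with y hy
  refine hU.rel_box fun z hz => hrU ?_
  rw [Metric.mem_ball] at hy ⊢
  exact (box_dist hz).trans_lt (by linarith)

/-- **all ratios converge** -/
theorem LDD.ratio (H : LDD n D Z g) {x y : Fin n → ℂ} (hx : x ∈ Conf n D) (hy : y ∈ Conf n D) :
    ∃ G : ℝ, 0 < G ∧ Rel Z x y G := by
  refine rel_of_local H.isOpen H.conn (fun x y => ∃ G : ℝ, 0 < G ∧ Rel Z x y G)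
    (fun x hx => H.rel_local hx) ?_ ?_ hx hy
  · rintro x y z - hy - ⟨G, hG, h⟩ ⟨G', hG', h'⟩
    exact ⟨G * G', mul_pos hG hG', H.rel_trans hy h h'⟩
  · rintro x y - - ⟨G, hG, h⟩
    exact ⟨G⁻¹, inv_pos.2 hG, h.symm hG⟩

/-- the limit ratio -/
def Gl (Z : ℝ → (Fin n → ℤ × ℤ) → ℝ) (x y : Fin n → ℂ) : ℝ :=
  limUnder (𝓝[>] (0 : ℝ)) fun a => Z a (fun i => meshIndex a (y i)) / Z a (fun i => meshIndex a (x i))

theorem Rel.gl_eq {x y : Fin n → ℂ} {G : ℝ} (h : Rel Z x y G) : Gl Z x y = G :=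
  (h (𝓝[>] 0) le_rfl _ _ (tendsto_mesh x) (tendsto_mesh y)).limUnder_eq

theorem LDD.rel_gl (H : LDD n D Z g) {x y : Fin n → ℂ} (hx : x ∈ Conf n D) (hy : y ∈ Conf n D) :
    Rel Z x y (Gl Z x y) := by
  obtain ⟨G, _, h⟩ := H.ratio hx hy
  rw [h.gl_eq]; exact h

theorem LDD.gl_pos (H : LDD n D Z g) {x y : Fin n → ℂ} (hx : x ∈ Conf n D) (hy : y ∈ Conf n D) :
    0 < Gl Z x y := by
  obtain ⟨G, hG, h⟩ := H.ratio hx hy
  rw [h.gl_eq]; exact hG

theorem LDD.tendsto_gl (H : LDD n D Z g) {x y : Fin n → ℂ} (hx : x ∈ Conf n D)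
    (hy : y ∈ Conf n D) :
    Tendsto (fun a => Z a (fun i => meshIndex a (y i)) / Z a (fun i => meshIndex a (x i)))
      (𝓝[>] 0) (𝓝 (Gl Z x y)) :=
  H.rel_gl hx hy _ le_rfl _ _ (tendsto_mesh x) (tendsto_mesh y)

theorem LDD.gl_mul (H : LDD n D Z g) {x y z : Fin n → ℂ} (hx : x ∈ Conf n D) (hy : y ∈ Conf n D)
    (hz : z ∈ Conf n D) : Gl Z x y * Gl Z y z = Gl Z x z :=
  (H.rel_trans hy (H.rel_gl hx hy) (H.rel_gl hy hz)).gl_eq.symm

theorem LDD.gl_self (H : LDD n D Z g) {x : Fin n → ℂ} (hx : x ∈ Conf n D) : Gl Z x x = 1 := by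
  have h := H.gl_mul hx hx hx
  have := (H.gl_pos hx hx).ne'
  exact mul_left_cancel₀ this (by rw [h, mul_one])

theorem LDD.gl_symm (H : LDD n D Z g) {x y : Fin n → ℂ} (hx : x ∈ Conf n D) (hy : y ∈ Conf n D) :
    Gl Z y x = (Gl Z x y)⁻¹ := by
  have h := H.gl_mul hx hy hx
  rw [H.gl_self hx] at h
  exact eq_inv_of_mul_eq_one_right h

end Crest.Agent.R165.PathGlx641
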