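import Crest.Agent.R165.ConfTop_641

/-!
# Row 165 (S0250), block U5: integration of discrete log-derivatives (helper641)

A positive family `Z a u` (`a` mesh, `u` lattice configuration) whose one-step ratios have the
expansion `Z a (u + e_j at i) / Z a u = 1 + a g_{ij}(a u) + o(a)` locally uniformly has convergent
ratios, and the limit is the exponential of the integral of `g`.
-/

set_option autoImplicit false

noncomputable section

open Filter Topology Set
open Crest.ProbabilityR.IsingModel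

namespace Crest.Agent.R165.PathIntx641

open ConfTopx641

/-- lattice configuration read in the plane -/
def mc (a : ℝ) {n : ℕ} (u : Fin n → ℤ × ℤ) : Fin n → ℂ := fun i => meshPoint a (u i)

/-- shift of coordinate `i` by the lattice vector `v` -/
def sh {n : ℕ} (u : Fin n → ℤ × ℤ) (i : Fin n) (v : ℤ × ℤ) : Fin n → ℤ × ℤ :=
  Function.update u i (u i + v)

/-- the complex number of a lattice vector -/
def cv (v : ℤ × ℤ) : ℂ := ⟨v.1, v.2⟩

/-- shift of coordinate `i` by the complex number `w` -/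
def csh {n : ℕ} (x : Fin n → ℂ) (i : Fin n) (w : ℂ) : Fin n → ℂ :=
  Function.update x i (x i + w)

theorem meshPoint_eq (a : ℝ) (v : ℤ × ℤ) : meshPoint a v = a * cv v := by
  apply Complex.ext <;> simp [meshPoint, cv]

theorem cv_add (v w : ℤ × ℤ) : cv (v + w) = cv v + cv w := by
  apply Complex.ext <;> simp [cv]

theorem cv_smul (k : ℤ) (v : ℤ × ℤ) : cv (k • v) = k * cv v := by
  apply Complex.ext <;> simp [cv]

theorem mc_sh (a : ℝ) {n : ℕ} (u : Fin n → ℤ × ℤ) (i : Fin n) (v : ℤ × ℤ) :
    mc a (sh u i v) = csh (mc a u) i (a * cv v) := by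
  funext j
  by_cases hj : j = i
  · subst hj
    simp only [mc, sh, csh, Function.update_self, meshPoint_eq, cv_add]; ring
  · simp only [mc, sh, csh, Function.update_of_ne hj]

theorem sh_sh {n : ℕ} (u : Fin n → ℤ × ℤ) (i : Fin n) (v w : ℤ × ℤ) :
    sh (sh u i v) i w = sh u i (v + w) := by
  simp only [sh, Function.update_self, Function.update_idem, add_assoc]

@[simp] theorem sh_zero {n : ℕ} (u : Fin n → ℤ × ℤ) (i : Fin n) : sh u i 0 = u := by
  simp [sh]

@[simp] theorem csh_zero {n : ℕ} (x : Fin n → ℂ) (i : Fin n) : csh x i 0 = x := by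
  simp [csh]

theorem csh_csh {n : ℕ} (u : Fin n → ℂ) (i : Fin n) (v w : ℂ) :
    csh (csh u i v) i w = csh u i (v + w) := by
  simp only [csh, Function.update_self, Function.update_idem, add_assoc]

theorem dist_csh_le {n : ℕ} (x y : Fin n → ℂ) (i : Fin n) (w w' : ℂ) :
    dist (csh x i w) (csh y i w') ≤ dist x y + ‖w - w'‖ := by
  rw [dist_pi_le_iff (by positivity)]
  intro j
  by_cases hj : j = i
  · subst hj
    simp only [csh, Function.update_self]
    calc dist (x j + w) (y j + w') ≤ dist (x j) (y j) + dist w w' := dist_add_add_le _ _ _ _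
      _ ≤ dist x y + ‖w - w'‖ := add_le_add (dist_le_pi_dist x y j) (dist_eq_norm w w').le
  · simp only [csh, Function.update_of_ne hj]
    exact (dist_le_pi_dist x y j).trans (le_add_of_nonneg_right (norm_nonneg _))

theorem continuous_csh {n : ℕ} (x : Fin n → ℂ) (i : Fin n) : Continuous fun w : ℂ => csh x i w := by
  unfold csh
  exact continuous_const.update i (continuous_const.add continuous_id)

/-- one-step expansion in direction `v` for coordinate `i` -/
def LDv {n : ℕ} (U : Set (Fin n → ℂ)) (Z : ℝ → (Fin n → ℤ × ℤ) → ℝ) (i : Fin n) (v : ℤ × ℤ)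
    (g : (Fin n → ℂ) → ℝ) : Prop :=
  ∀ ε > 0, ∀ᶠ a in 𝓝[>] (0 : ℝ), ∀ u : Fin n → ℤ × ℤ, mc a u ∈ U →
    |Z a (sh u i v) / Z a u - 1 - a * g (mc a u)| ≤ ε * a

/-- positivity on `U` -/
def PosOn {n : ℕ} (U : Set (Fin n → ℂ)) (Z : ℝ → (Fin n → ℤ × ℤ) → ℝ) : Prop :=
  ∀ᶠ a in 𝓝[>] (0 : ℝ), ∀ u : Fin n → ℤ × ℤ, mc a u ∈ U → 0 < Z a u

/-- elementary bound for the logarithm -/
theorem log_bound {r m a ε M : ℝ} (ha : 0 < a) (hm : |m| ≤ M)
    (h : |r - 1 - a * m| ≤ ε * a) (hsm : a * (M + ε) ≤ 1 / 2) (hsm2 : a * (2 * (M + ε) ^ 2) ≤ ε) :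
    |Real.log r - a * m| ≤ 2 * ε * a := by
  set y := r - 1 with hy
  have h1 : |y| ≤ a * (M + ε) := by
    have e : y = (y - a * m) + a * m := by ring
    rw [e]
    refine (abs_add_le _ _).trans ?_
    rw [abs_mul, abs_of_pos ha]
    have := mul_le_mul_of_nonneg_left hm ha.le
    linarith
  have h2 : |y| ≤ 1 / 2 := h1.trans hsm
  have hrpos : 0 < r := by
    have := (abs_le.1 h2).1
    rw [hy] at this; linarith
  have hup : Real.log r ≤ y := by
    have := Real.log_le_sub_one_of_pos hrpos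
    rw [hy]; exact this
  have hlo : y - 2 * y ^ 2 ≤ Real.log r := by
    have h3 := Real.one_sub_inv_le_log_of_pos hrpos
    have h4 : y - 2 * y ^ 2 ≤ 1 - r⁻¹ := by
      have hr : r = 1 + y := by rw [hy]; ring
      have hr2 : (1 : ℝ) / 2 ≤ r := by
        have := (abs_le.1 h2).1
        rw [hr]; linarith
      have e : 1 - r⁻¹ = y / r := by
        field_simp
        rw [hy]
      rw [e, le_div_iff₀ hrpos, hr]
      nlinarith [sq_nonneg y, mul_nonneg (sq_nonneg y) (by linarith [(abs_le.1 h2).1] : 0 ≤ 1 + 2 * y)]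
    linarith
  have hy2 : 2 * y ^ 2 ≤ ε * a := by
    have h5 : y ^ 2 ≤ (a * (M + ε)) ^ 2 := by
      rw [← sq_abs y]
      exact pow_le_pow_left₀ (abs_nonneg _) h1 2
    calc 2 * y ^ 2 ≤ 2 * (a * (M + ε)) ^ 2 := by linarith
      _ = a * (a * (2 * (M + ε) ^ 2)) := by ring
      _ ≤ a * ε := mul_le_mul_of_nonneg_left hsm2 ha.le
      _ = ε * a := mul_comm _ _
  obtain ⟨hA, hB⟩ := abs_le.1 h
  rw [abs_le]
  constructor <;> nlinarith

/-- **segment lemma** (natural number of steps) -/
theorem segment {n : ℕ} {U : Set (Fin n → ℂ)} (hU : IsOpen U) {Z : ℝ → (Fin n → ℤ × ℤ) → ℝ}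
    (hpos : PosOn U Z) {i : Fin n} {v : ℤ × ℤ} {g : (Fin n → ℂ) → ℝ} (hg : ContinuousOn g U)
    (hLD : LDv U Z i v g) {x : Fin n → ℂ} {T : ℝ} (hT : 0 ≤ T)
    (hseg : ∀ s ∈ Icc 0 T, csh x i (s * cv v) ∈ U) {l : Filter ℝ} (hl : l ≤ 𝓝[>] 0)
    {u : ℝ → Fin n → ℤ × ℤ} (hu : Tendsto (fun a => mc a (u a)) l (𝓝 x))
    {N : ℝ → ℕ} (hN : Tendsto (fun a => a * (N a : ℝ)) l (𝓝 T)) :
    Tendsto (fun a => Z a (sh (u a) i ((N a : ℤ) • v)) / Z a (u a)) l
      (𝓝 (Real.exp (∫ s in (0 : ℝ)..T, g (csh x i (s * cv v))))) := by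
  classical
  set c : ℝ := ‖cv v‖ with hc
  have hc0 : 0 ≤ c := norm_nonneg _
  -- the compact segment
  set γ : ℝ → Fin n → ℂ := fun s => csh x i (s * cv v) with hγ
  have hγc : Continuous γ :=
    (continuous_csh x i).comp (Complex.continuous_ofReal.mul continuous_const)
  have hKc : IsCompact (γ '' Icc 0 T) := isCompact_Icc.image hγc
  have hKU : γ '' Icc 0 T ⊆ U := by rintro _ ⟨s, hs, rfl⟩; exact hseg s hs
  obtain ⟨δ, hδ, hδU⟩ := hKc.exists_cthickening_subset_open hU hKU
  set K' := Metric.cthickening δ (γ '' Icc 0 T) with hK'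
  have hK'c : IsCompact K' := hKc.cthickening
  have hgK : ContinuousOn g K' := hg.mono hδU
  obtain ⟨M0, hM0⟩ := hK'c.exists_bound_of_continuousOn hgK
  set M := max M0 0 with hM
  have hM' : ∀ p ∈ K', |g p| ≤ M := fun p hp => (hM0 p hp).trans (le_max_left _ _)
  have hMnn : 0 ≤ M := le_max_right _ _
  -- the clamped function
  set cl : ℝ → ℝ := fun s => max 0 (min s T) with hcl
  have hclc : Continuous cl := continuous_const.max (continuous_id.min continuous_const)
  have hclm : ∀ s, cl s ∈ Icc 0 T := fun s => ⟨le_max_left _ _, max_le hT (min_le_right _ _)⟩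
  have hcls : ∀ s ∈ Icc 0 T, cl s = s := fun s hs => by
    simp only [hcl]; rw [min_eq_left hs.2, max_eq_right hs.1]
  set h : ℝ → ℝ := fun s => g (γ (cl s)) with hh
  have hhc : Continuous h :=
    hg.comp_continuous (hγc.comp hclc) fun s => hKU (mem_image_of_mem γ (hclm s))
  -- it suffices to treat logarithms
  have hlim2 : Tendsto (fun a => ∫ s in (0 : ℝ)..(a * N a), h s) l (𝓝 (∫ s in (0 : ℝ)..T, h s)) := by
    have : Continuous fun b : ℝ => ∫ s in (0 : ℝ)..b, h s :=
      intervalIntegral.continuous_primitive (fun a b => hhc.intervalIntegrable a b) 0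
    exact (this.tendsto T).comp hN
  have hint : (∫ s in (0 : ℝ)..T, h s) = ∫ s in (0 : ℝ)..T, g (csh x i (s * cv v)) := by
    apply intervalIntegral.integral_congr
    intro s hs
    rw [uIcc_of_le hT] at hs
    simp only [hh, hcls s hs]; rfl
  -- positivity of all the values
  have hmem : ∀ δ' > 0, δ' ≤ δ → ∀ᶠ a in l, 0 < a ∧ ∀ k : ℕ, k ≤ N a →
      ∀ s : ℝ, a * k ≤ s → s ≤ a * (k + 1) → (s ≤ a * N a ∨ s = a * k) →
        dist (mc a (sh (u a) i ((k : ℤ) • v))) (γ (cl s)) < δ' := by
    intro δ' hδ' _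
    have e1 : ∀ᶠ a in l, 0 < a := hl (eventually_mem_nhdsWithin)
    have e2 : ∀ᶠ a in l, dist (mc a (u a)) x < δ' / 3 :=
      hu.eventually (Metric.ball_mem_nhds x (by positivity))
    have e3 : ∀ᶠ a in l, a * c < δ' / 3 := by
      have : Tendsto (fun a : ℝ => a * c) l (𝓝 (0 * c)) :=
        ((tendsto_id.mono_left (hl.trans nhdsWithin_le_nhds)).mul_const c)
      rw [zero_mul] at this
      exact this.eventually (Iio_mem_nhds (by positivity))
    have e4 : ∀ᶠ a in l, (a * N a - T) * c < δ' / 3 := by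
      have : Tendsto (fun a : ℝ => (a * N a - T) * c) l (𝓝 ((T - T) * c)) :=
        (hN.sub_const T).mul_const c
      rw [sub_self, zero_mul] at this
      exact this.eventually (Iio_mem_nhds (by positivity))
    filter_upwards [e1, e2, e3, e4] with a ha h2 h3 h4
    refine ⟨ha, fun k hk s hs1 hs2 hs3 => ?_⟩
    have hsN : s ≤ a * N a := by
      rcases hs3 with h | h
      · exact h
      · rw [h]; exact mul_le_mul_of_nonneg_left (by exact_mod_cast hk) ha.le
    have hs0 : 0 ≤ s := le_trans (by positivity) hs1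
    rw [mc_sh, hγ]
    refine (dist_csh_le _ _ _ _ _).trans_lt ?_
    have e5 : (a : ℂ) * cv ((k : ℤ) • v) - ((cl s : ℝ) : ℂ) * cv v = ((a * k - cl s : ℝ) : ℂ) * cv v := by
      rw [cv_smul]; push_cast; ring
    have e6 : |a * k - cl s| ≤ a + max 0 (a * N a - T) := by
      by_cases hsT : s ≤ T
      · rw [hcls s ⟨hs0, hsT⟩, abs_le]
        constructor
        · have : 0 ≤ max 0 (a * N a - T) := le_max_left _ _
          nlinarith
        · have : 0 ≤ max 0 (a * N a - T) := le_max_left _ _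
          linarith
      · have hT' : T < s := not_le.1 hsT
        have hcl' : cl s = T := by
          simp only [hcl]; rw [min_eq_right hT'.le, max_eq_right hT]
        rw [hcl', abs_le]
        have : a * N a - T ≤ max 0 (a * N a - T) := le_max_right _ _
        constructor
        · nlinarith
        · nlinarith
    rw [e5, norm_mul, ← hc, Complex.norm_real, Real.norm_eq_abs]
    have e7 : |a * k - cl s| * c ≤ (a + max 0 (a * N a - T)) * c := mul_le_mul_of_nonneg_right e6 hc0
    have e8 : max 0 (a * N a - T) * c ≤ δ' / 3 := by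
      rcases le_total 0 (a * N a - T) with h | h
      · rw [max_eq_right h]; exact h4.le
      · rw [max_eq_left h, zero_mul]; positivity
    nlinarith
  have hmemK : ∀ s, γ (cl s) ∈ γ '' Icc 0 T := fun s => mem_image_of_mem γ (hclm s)
  -- the main estimate
  have hmain : Tendsto (fun a => Real.log (Z a (sh (u a) i ((N a : ℤ) • v)) / Z a (u a)) -
      ∫ s in (0 : ℝ)..(a * N a), h s) l (𝓝 0) := by
    rw [Metric.tendsto_nhds]
    intro η hη
    set ε : ℝ := η / (4 * (T + 1)) with hε
    have hT1 : 0 < T + 1 := by linarith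
    have hεpos : 0 < ε := by positivity
    obtain ⟨δ1, hδ1, huc⟩ := Metric.uniformContinuousOn_iff.1
      (hK'c.uniformContinuousOn_of_continuous hgK) ε hεpos
    set δ' := min δ δ1 with hδ'
    have hδ'pos : 0 < δ' := lt_min hδ hδ1
    have f1 := hmem δ' hδ'pos (min_le_left _ _)
    have f2 : ∀ᶠ a in l, ∀ u : Fin n → ℤ × ℤ, mc a u ∈ U → 0 < Z a u := hl hpos
    have f3 : ∀ᶠ a in l, ∀ u : Fin n → ℤ × ℤ, mc a u ∈ U →
        |Z a (sh u i v) / Z a u - 1 - a * g (mc a u)| ≤ ε * a := hl (hLD ε hεpos)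
    have f4 : ∀ᶠ a in l, a * (M + ε) ≤ 1 / 2 := by
      have : Tendsto (fun a : ℝ => a * (M + ε)) l (𝓝 (0 * (M + ε))) :=
        (tendsto_id.mono_left (hl.trans nhdsWithin_le_nhds)).mul_const _
      rw [zero_mul] at this
      exact this.eventually (Iic_mem_nhds (by norm_num))
    have f5 : ∀ᶠ a in l, a * (2 * (M + ε) ^ 2) ≤ ε := by
      have : Tendsto (fun a : ℝ => a * (2 * (M + ε) ^ 2)) l (𝓝 (0 * (2 * (M + ε) ^ 2))) :=
        (tendsto_id.mono_left (hl.trans nhdsWithin_le_nhds)).mul_const _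
      rw [zero_mul] at this
      exact this.eventually (Iic_mem_nhds hεpos)
    have f6 : ∀ᶠ a in l, a * N a ≤ T + 1 := hN.eventually (Iic_mem_nhds (by linarith))
    filter_upwards [f1, f2, f3, f4, f5, f6] with a ⟨ha, h1⟩ h2 h3 h4 h5 h6
    -- the points of the discrete path
    set w : ℕ → Fin n → ℤ × ℤ := fun k => sh (u a) i ((k : ℤ) • v) with hw
    have hwsucc : ∀ k, w (k + 1) = sh (w k) i v := by
      intro k
      simp only [hw, sh_sh]
      congr 1
      push_cast
      rw [add_smul, one_smul]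
    have hwK : ∀ k ≤ N a, mc a (w k) ∈ K' := by
      intro k hk
      have := h1 k hk (a * k) le_rfl (by nlinarith) (Or.inr rfl)
      exact Metric.mem_cthickening_of_dist_le _ _ _ _ (hmemK _) (this.le.trans (min_le_left _ _))
    have hwU : ∀ k ≤ N a, mc a (w k) ∈ U := fun k hk => hδU (hwK k hk)
    have hzpos : ∀ k ≤ N a, 0 < Z a (w k) := fun k hk => h2 _ (hwU k hk)
    have hw0 : w 0 = u a := by simp [hw]
    have hstep : ∀ k ∈ Finset.range (N a),
        ‖(Real.log (Z a (w (k + 1))) - Real.log (Z a (w k))) -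
          ∫ s in (a * k)..(a * ((k + 1 : ℕ) : ℝ)), h s‖ ≤ 3 * ε * a := by
      intro k hk
      have hk' : k < N a := Finset.mem_range.1 hk
      have hp := hzpos k hk'.le
      have hp1 := hzpos (k + 1) hk'
      rw [← Real.log_div hp1.ne' hp.ne']
      have hb : |Real.log (Z a (w (k + 1)) / Z a (w k)) - a * g (mc a (w k))| ≤ 2 * ε * a := by
        refine log_bound ha (hM' _ (hwK k hk'.le)) ?_ h4 h5
        rw [hwsucc]
        exact h3 _ (hwU k hk'.le)
      have hb2 : ‖(∫ s in (a * k)..(a * ((k + 1 : ℕ) : ℝ)), h s) - a * g (mc a (w k))‖ ≤ ε * a := by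
        have e9 : a * g (mc a (w k)) = ∫ _ in (a * (k : ℝ))..(a * ((k + 1 : ℕ) : ℝ)), g (mc a (w k)) := by
          rw [intervalIntegral.integral_const, smul_eq_mul]
          push_cast; ring
        rw [e9, ← intervalIntegral.integral_sub (hhc.intervalIntegrable _ _)
          intervalIntegrable_const]
        have := intervalIntegral.norm_integral_le_of_norm_le_const
          (f := fun s => h s - g (mc a (w k))) (C := ε) (a := a * (k : ℝ))
          (b := a * ((k + 1 : ℕ) : ℝ)) ?_
        · refine this.trans (le_of_eq ?_)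
          have : a * ((k + 1 : ℕ) : ℝ) - a * (k : ℝ) = a := by push_cast; ring
          rw [this, abs_of_pos ha]
        · intro s hs
          have hle : a * (k : ℝ) ≤ a * ((k + 1 : ℕ) : ℝ) := by push_cast; nlinarith
          rw [uIoc_of_le hle] at hs
          have hs2 : s ≤ a * (k + 1) := by simpa using hs.2
          have hsN : s ≤ a * N a := by
            refine hs.2.trans (mul_le_mul_of_nonneg_left ?_ ha.le)
            exact_mod_cast hk'
          have hd := h1 k hk'.le s hs.1.le hs2 (Or.inl hsN)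
          have hd' : dist (γ (cl s)) (mc a (w k)) < δ1 := by
            rw [dist_comm]; exact hd.trans_le (min_le_right _ _)
          have hmK' : γ (cl s) ∈ K' := Metric.self_subset_cthickening _ (hmemK s)
          have := huc _ hmK' _ (hwK k hk'.le) hd'
          rw [Real.dist_eq] at this
          exact this.le
      rw [Real.norm_eq_abs] at hb2 ⊢
      have e10 : Real.log (Z a (w (k + 1)) / Z a (w k)) -
          (∫ s in (a * k)..(a * ((k + 1 : ℕ) : ℝ)), h s) =
          (Real.log (Z a (w (k + 1)) / Z a (w k)) - a * g (mc a (w k))) -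
          ((∫ s in (a * k)..(a * ((k + 1 : ℕ) : ℝ)), h s) - a * g (mc a (w k))) := by ring
      rw [e10]
      refine (abs_sub _ _).trans ?_
      linarith
    have hsum : Real.log (Z a (sh (u a) i ((N a : ℤ) • v)) / Z a (u a)) -
        (∫ s in (0 : ℝ)..(a * N a), h s) = ∑ k ∈ Finset.range (N a),
          ((Real.log (Z a (w (k + 1))) - Real.log (Z a (w k))) -
            ∫ s in (a * k)..(a * ((k + 1 : ℕ) : ℝ)), h s) := by
      rw [Finset.sum_sub_distrib, Finset.sum_range_sub (fun k => Real.log (Z a (w k)))]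
      have h7 : ∑ k ∈ Finset.range (N a), ∫ s in (a * (k : ℝ))..(a * ((k + 1 : ℕ) : ℝ)), h s =
          ∫ s in (a * ((0 : ℕ) : ℝ))..(a * (N a : ℝ)), h s :=
        intervalIntegral.sum_integral_adjacent_intervals (a := fun k : ℕ => a * (k : ℝ))
          (fun k _ => hhc.intervalIntegrable _ _)
      rw [h7]
      have hz0 : 0 < Z a (u a) := by have := hzpos 0 (Nat.zero_le _); rwa [hw0] at this
      have hzN : 0 < Z a (sh (u a) i ((N a : ℤ) • v)) := hzpos (N a) le_rfl
      rw [Real.log_div hzN.ne' hz0.ne', hw0]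
      simp [hw]
    rw [Real.dist_eq, sub_zero, hsum, ← Real.norm_eq_abs]
    calc ‖∑ k ∈ Finset.range (N a), ((Real.log (Z a (w (k + 1))) - Real.log (Z a (w k))) -
            ∫ s in (a * k)..(a * ((k + 1 : ℕ) : ℝ)), h s)‖
        ≤ ∑ _k ∈ Finset.range (N a), 3 * ε * a := norm_sum_le_of_le _ hstep
      _ = 3 * ε * (a * N a) := by rw [Finset.sum_const, Finset.card_range, nsmul_eq_mul]; ring
      _ ≤ 3 * ε * (T + 1) := mul_le_mul_of_nonneg_left h6 (by positivity)
      _ < η := by
        rw [hε]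
        have : 3 * (η / (4 * (T + 1))) * (T + 1) = 3 / 4 * η := by field_simp
        rw [this]; linarith
  -- conclusion
  have hlog : Tendsto (fun a => Real.log (Z a (sh (u a) i ((N a : ℤ) • v)) / Z a (u a))) l
      (𝓝 (∫ s in (0 : ℝ)..T, g (csh x i (s * cv v)))) := by
    have := hmain.add hlim2
    rw [zero_add, hint] at this
    refine this.congr fun a => ?_
    ring
  refine ((Real.continuous_exp.tendsto _).comp hlog).congr' ?_
  have f1 := hmem δ hδ le_rfl
  have f2 : ∀ᶠ a in l, ∀ u : Fin n → ℤ × ℤ, mc a u ∈ U → 0 < Z a u := hl hpos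
  filter_upwards [f1, f2] with a ⟨ha, h1⟩ h2
  have hwU : ∀ k ≤ N a, 0 < Z a (sh (u a) i ((k : ℤ) • v)) := by
    intro k hk
    have := h1 k hk (a * k) le_rfl (by nlinarith) (Or.inr rfl)
    exact h2 _ (hδU (Metric.mem_cthickening_of_dist_le _ _ _ _ (hmemK _) this.le))
  have h0 := hwU 0 (Nat.zero_le _)
  simp only [Nat.cast_zero, zero_smul, sh_zero] at h0
  exact Real.exp_log (div_pos (hwU _ le_rfl) h0)

/-- **segment lemma** (integer number of steps, any sign) -/
theorem segment_int {n : ℕ} {U : Set (Fin n → ℂ)} (hU : IsOpen U) {Z : ℝ → (Fin n → ℤ × ℤ) → ℝ}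
    (hpos : PosOn U Z) {i : Fin n} {v : ℤ × ℤ} {g : (Fin n → ℂ) → ℝ} (hg : ContinuousOn g U)
    (hLD : LDv U Z i v g) {x : Fin n → ℂ} {T : ℝ}
    (hseg : ∀ s ∈ uIcc 0 T, csh x i (s * cv v) ∈ U) {l : Filter ℝ} (hl : l ≤ 𝓝[>] 0)
    {u : ℝ → Fin n → ℤ × ℤ} (hu : Tendsto (fun a => mc a (u a)) l (𝓝 x))
    {N : ℝ → ℤ} (hN : Tendsto (fun a => a * (N a : ℝ)) l (𝓝 T)) :
    Tendsto (fun a => Z a (sh (u a) i (N a • v)) / Z a (u a)) l
      (𝓝 (Real.exp (∫ s in (0 : ℝ)..T, g (csh x i (s * cv v))))) := by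
  classical
  -- split the filter
  set A : Set ℝ := {a | 0 ≤ N a} with hA
  have hsplit : l = (l ⊓ 𝓟 A) ⊔ (l ⊓ 𝓟 Aᶜ) := by
    rw [← inf_sup_left, sup_principal, union_compl_self, principal_univ, inf_top_eq]
  have hapos : ∀ᶠ a in l, 0 < a := hl eventually_mem_nhdsWithin
  rw [hsplit]
  refine Tendsto.sup ?_ ?_
  · -- nonnegative number of steps
    rcases eq_or_neBot (l ⊓ 𝓟 A) with hbot | hne
    · rw [hbot]; exact tendsto_bot
    have hT : 0 ≤ T := by
      refine ge_of_tendsto (hN.mono_left (inf_le_left : l ⊓ 𝓟 A ≤ l)) ?_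
      have h1 : ∀ᶠ a in l ⊓ 𝓟 A, 0 < a := hapos.filter_mono inf_le_left
      have h2 : ∀ᶠ a in l ⊓ 𝓟 A, a ∈ A := mem_inf_of_right (mem_principal_self A)
      filter_upwards [h1, h2] with a ha hNa
      have : (0 : ℝ) ≤ (N a : ℝ) := by exact_mod_cast hNa
      positivity
    have h2 : ∀ᶠ a in l ⊓ 𝓟 A, a ∈ A := mem_inf_of_right (mem_principal_self A)
    have hN' : Tendsto (fun a => a * (((N a).toNat : ℕ) : ℝ)) (l ⊓ 𝓟 A) (𝓝 T) := by
      refine (hN.mono_left inf_le_left).congr' ?_
      filter_upwards [h2] with a hNa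
      have : (((N a).toNat : ℤ)) = N a := Int.toNat_of_nonneg hNa
      have h3 : (((N a).toNat : ℕ) : ℝ) = (N a : ℝ) := by
        have h4 := congrArg (fun z : ℤ => (z : ℝ)) this
        simpa only [Int.cast_natCast] using h4
      rw [h3]
    have := segment hU hpos hg hLD hT (fun s hs => hseg s (by rwa [uIcc_of_le hT]))
      (inf_le_left.trans hl) (hu.mono_left inf_le_left) hN'
    refine this.congr' ?_
    filter_upwards [h2] with a hNa
    have : (((N a).toNat : ℤ)) = N a := Int.toNat_of_nonneg hNa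
    rw [this]
  · -- nonpositive number of steps
    rcases eq_or_neBot (l ⊓ 𝓟 Aᶜ) with hbot | hne
    · rw [hbot]; exact tendsto_bot
    have h2 : ∀ᶠ a in l ⊓ 𝓟 Aᶜ, a ∈ Aᶜ := mem_inf_of_right (mem_principal_self Aᶜ)
    have hT : T ≤ 0 := by
      refine le_of_tendsto (hN.mono_left (inf_le_left : l ⊓ 𝓟 Aᶜ ≤ l)) ?_
      have h1 : ∀ᶠ a in l ⊓ 𝓟 Aᶜ, 0 < a := hapos.filter_mono inf_le_left
      filter_upwards [h1, h2] with a ha hNa
      have hNa' : N a < 0 := not_le.1 hNa
      have : (N a : ℝ) ≤ 0 := by exact_mod_cast hNa'.le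
      nlinarith
    -- the base point is the shifted configuration
    set u' : ℝ → Fin n → ℤ × ℤ := fun a => sh (u a) i (N a • v) with hu'
    set x' := csh x i (T * cv v) with hx'
    have hu'lim : Tendsto (fun a => mc a (u' a)) (l ⊓ 𝓟 Aᶜ) (𝓝 x') := by
      rw [tendsto_pi_nhds]
      intro j
      have hx1 : Tendsto (fun a => mc a (u a) j) (l ⊓ 𝓟 Aᶜ) (𝓝 (x j)) :=
        (tendsto_pi_nhds.1 hu j).mono_left inf_le_left
      by_cases hj : j = i
      · subst hj
        have e1 : x' j = x j + T * cv v := by simp [hx', csh]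
        have e2 : ∀ a, mc a (u' a) j = mc a (u a) j + ((a * N a : ℝ) : ℂ) * cv v := by
          intro a
          simp only [hu', mc_sh, csh, Function.update_self, cv_smul]
          push_cast; ring
        rw [e1]
        simp only [e2]
        exact hx1.add (((Complex.continuous_ofReal.tendsto T).comp
          (hN.mono_left inf_le_left)).mul_const _)
      · have e1 : x' j = x j := by simp [hx', csh, hj]
        have e2 : ∀ a, mc a (u' a) j = mc a (u a) j := by
          intro a
          simp only [hu', mc_sh, csh, Function.update_of_ne hj]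
        rw [e1]; simp only [e2]; exact hx1
    have hN' : Tendsto (fun a => a * (((-N a).toNat : ℕ) : ℝ)) (l ⊓ 𝓟 Aᶜ) (𝓝 (-T)) := by
      refine ((hN.mono_left inf_le_left).neg).congr' ?_
      filter_upwards [h2] with a hNa
      have hNa' : N a < 0 := not_le.1 hNa
      have : (((-N a).toNat : ℤ)) = -N a := Int.toNat_of_nonneg (by omega)
      have h3 : (((-N a).toNat : ℕ) : ℝ) = -(N a : ℝ) := by
        have := congrArg (fun z : ℤ => (z : ℝ)) this
        push_cast at this
        simpa using this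
      rw [h3]; ring
    have hseg' : ∀ s ∈ Icc 0 (-T), csh x' i (s * cv v) ∈ U := by
      intro s hs
      rw [hx', csh_csh]
      have : (T : ℂ) * cv v + s * cv v = ((T + s : ℝ) : ℂ) * cv v := by push_cast; ring
      rw [this]
      apply hseg
      rw [uIcc_of_ge hT]
      exact ⟨by linarith [hs.1], by linarith [hs.2]⟩
    have := segment hU hpos hg hLD (by linarith : 0 ≤ -T) hseg' (inf_le_left.trans hl) hu'lim hN'
    have hinv := this.inv₀ (Real.exp_pos _).ne'
    have hI : (Real.exp (∫ s in (0 : ℝ)..(-T), g (csh x' i (s * cv v))))⁻¹ =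
        Real.exp (∫ s in (0 : ℝ)..T, g (csh x i (s * cv v))) := by
      rw [← Real.exp_neg]
      congr 1
      have e1 : (fun s : ℝ => g (csh x' i (s * cv v))) =
          fun s : ℝ => (fun t : ℝ => g (csh x i (t * cv v))) (s + T) := by
        funext s
        simp only [hx', csh_csh]
        congr 2
        push_cast; ring
      rw [e1, intervalIntegral.integral_comp_add_right (fun t : ℝ => g (csh x i (t * cv v))) T,
        zero_add, neg_add_cancel, ← intervalIntegral.integral_symm]
    rw [hI] at hinv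
    refine hinv.congr' ?_
    filter_upwards [h2] with a hNa
    have hNa' : N a < 0 := not_le.1 hNa
    have h3 : (((-N a).toNat : ℤ)) = -N a := Int.toNat_of_nonneg (by omega)
    have h4 : sh (u' a) i (((-N a).toNat : ℤ) • v) = u a := by
      simp only [hu', sh_sh, h3]
      rw [← add_smul]; simp
    rw [h4, inv_div]

end Crest.Agent.R165.PathIntx641
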