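import Crest.Agent.R165.Gr0_606

/-!
# Row 165 (S0250): ordered products, Laplace expansion and `Pf → det` (helper408)

* `pr Q = fi (Q 0) * fi (Q 1) * ...`
* `dd_pr` : `dd l (pr Q) = ∑ k, (-1)^k l (Q k) • pr (Q ∘ k.succAbove)`
* `EE_rev_pr` : if `S(P_i,P_j) = 0` then `E_S[P_{n-1} ... P_0 Q_0 ... Q_{n-1}] = det S(P_j,Q_k)`
* `inter_eq` : `∏ (P_k Q_k) = P_{n-1} ... P_0 Q_0 ... Q_{n-1}`
* `EE_inter` : `E_S[∏_k P_k Q_k] = det S(P_j,Q_k)`
-/

set_option autoImplicit false

noncomputable section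

namespace Crest.Agent.R165.PfDetx408

open Gr0x606

variable {V : Type*} [AddCommGroup V] [Module ℝ V]

/-- ordered product of the fields `Q 0, Q 1, ...` -/
def pr : {n : ℕ} → (Fin n → V) → Gr V
  | 0, _ => 1
  | _ + 1, Q => fi (Q 0) * pr (fun i => Q i.succ)

@[simp] theorem pr_zero (Q : Fin 0 → V) : pr Q = 1 := rfl

theorem pr_succ {n : ℕ} (Q : Fin (n + 1) → V) : pr Q = fi (Q 0) * pr (fun i => Q i.succ) := rfl

theorem pr_castSucc {n : ℕ} (Q : Fin (n + 1) → V) :
    pr Q = pr (fun i => Q i.castSucc) * fi (Q (Fin.last n)) := by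
  induction n with
  | zero => simp [pr_succ]
  | succ n ih =>
    rw [pr_succ, ih, pr_succ (fun i : Fin (n + 1) => Q i.castSucc), mul_assoc]
    rfl

/-- reversed ordered product `P_{n-1} ... P_0` -/
def rp : {n : ℕ} → (Fin n → V) → Gr V
  | 0, _ => 1
  | n + 1, P => fi (P (Fin.last n)) * rp (fun i => P i.castSucc)

@[simp] theorem rp_zero (Q : Fin 0 → V) : rp Q = 1 := rfl

theorem rp_succ {n : ℕ} (P : Fin (n + 1) → V) :
    rp P = fi (P (Fin.last n)) * rp (fun i => P i.castSucc) := rfl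

/-- Laplace rule for a derivation -/
theorem dd_pr {n : ℕ} (l : Module.Dual ℝ V) (Q : Fin (n + 1) → V) :
    dd l (pr Q) = ∑ k : Fin (n + 1), ((-1 : ℝ) ^ (k : ℕ) * l (Q k)) •
      pr (fun i => Q (k.succAbove i)) := by
  induction n with
  | zero => simp [pr_succ, Algebra.algebraMap_eq_smul_one]
  | succ n ih =>
    rw [pr_succ, dd_fi_mul, ih, Fin.sum_univ_succ (n := n + 1), Finset.mul_sum, sub_eq_add_neg,
      ← Finset.sum_neg_distrib]
    congr 1
    · simp
    · refine Finset.sum_congr rfl fun k _ => ?_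
      rw [pr_succ (fun i => Q (k.succ.succAbove i)), Fin.succ_succAbove_zero, mul_smul_comm,
        ← neg_smul, Fin.val_succ, pow_succ]
      simp only [Fin.succ_succAbove_succ]
      congr 1
      ring

theorem dd_rp {n : ℕ} (l : Module.Dual ℝ V) (P : Fin n → V) (h : ∀ i, l (P i) = 0) (a : Gr V) :
    dd l (rp P * a) = (-1 : ℝ) ^ n • (rp P * dd l a) := by
  induction n generalizing a with
  | zero => simp
  | succ n ih =>
    rw [rp_succ, mul_assoc, dd_fi_mul, h, zero_smul, zero_sub, ih _ (fun i => h _), pow_succ,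
      mul_smul_comm, mul_assoc, mul_neg_one, neg_smul]

/-- `E_S[P_{n-1} ... P_0 Q_0 ... Q_{n-1}] = det S(P_j,Q_k)` when the `P`'s are uncorrelated -/
theorem EE_rev_pr (S : Cov V) {n : ℕ} (P Q : Fin n → V) (h : ∀ i j, S.b (P i) (P j) = 0) :
    EE S (rp P * pr Q) = (Matrix.of fun j k : Fin n => S.b (P j) (Q k)).det := by
  induction n with
  | zero => simp
  | succ n ih =>
    rw [rp_succ, mul_assoc, EE_fi_mul, dd_rp _ _ (fun i => h _ _), dd_pr, map_smul,
      Finset.mul_sum, map_sum, Matrix.det_succ_row _ (Fin.last n), smul_eq_mul, Finset.mul_sum]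
    refine Finset.sum_congr rfl fun k _ => ?_
    rw [mul_smul_comm, map_smul, ih _ _ (fun i j => h _ _), smul_eq_mul, Fin.val_last, pow_add]
    simp only [Matrix.of_apply, mul_assoc]
    congr 4
    ext i j
    simp [Matrix.submatrix]

/-- interleaved product `∏ P_k Q_k` -/
def inter (P Q : ℕ → V) : ℕ → Gr V
  | 0 => 1
  | n + 1 => inter P Q n * (fi (P n) * fi (Q n))

theorem inter_eq (P Q : ℕ → V) (n : ℕ) :
    inter P Q n = rp (fun i : Fin n => P i) * pr (fun i : Fin n => Q i) := by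
  induction n with
  | zero => simp [inter]
  | succ n ih =>
    rw [inter, ih, rp_succ, pr_castSucc]
    have hev : IsEv (rp (fun i : Fin n => P i) * pr (fun i : Fin n => Q i)) := by
      rw [← ih]
      clear ih
      induction n with
      | zero => exact isEv_one
      | succ n ih => exact ih.mul (isEv_fi_fi _ _)
    rw [← mul_assoc, hev.comm]
    simp only [mul_assoc, Fin.val_last, Fin.val_castSucc]

theorem EE_inter (S : Cov V) (P Q : ℕ → V) (n : ℕ) (h : ∀ i j, S.b (P i) (P j) = 0) :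
    EE S (inter P Q n) = (Matrix.of fun j k : Fin n => S.b (P j) (Q k)).det := by
  rw [inter_eq, EE_rev_pr S _ _ (fun i j => h _ _)]

end Crest.Agent.R165.PfDetx408
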