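import Crest.Agent.R165.PinSys_723

/-!
# Row 165 (S0250): the bounds of the limit system from those of the growing systems (helper723)

TEXT P13: the limit system (plane, mark `f₀`) inherits the bounds `Bd` from the growing systems
(tori, discs) by local equality.

* `pack_le_image`, `conn_of_image` : isometric images
* `nn_limit`  : `NN` of the limit constants
* `bd_limit`  : `Bd` of the limit system
* `PinData.of_growing` : `PinData` without the bounds of the limit system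
-/

set_option autoImplicit false
set_option linter.unusedSectionVars false

noncomputable section

open Finset Filter Topology
open scoped ENNReal
open Crest.Agent.R165.Gr0x606 Crest.Agent.R165.GeOpsx337 Crest.Agent.R165.KStepx892
open Crest.Agent.R165.KFlowx337 Crest.Agent.R165.Telx337 Crest.Agent.R165.SpinSysx892
open Crest.Agent.R165.Packx915 Crest.Agent.R165.NSumx915 Crest.Agent.R165.Pinx723
open Crest.Agent.R165.PinSysx723

namespace Crest.Agent.R165.PinLimx723

section one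

variable {X Y : Type*} [DecidableEq X] {d : X → X → ℕ} {dY : Y → Y → ℕ} {π : Y → X}

theorem pack_le_image {U : Finset Y} {r : ℕ} (hiso : ∀ f ∈ U, ∀ g ∈ U, d (π f) (π g) = dY f g)
    (hinj : Set.InjOn π (U : Set Y)) : pack dY r U ≤ pack d r (U.image π) := by
  refine pack_le_iff.2 fun S hS hs => ?_
  rw [← Finset.card_image_of_injOn (hinj.mono (Finset.coe_subset.2 hS))]
  refine card_le_pack (Finset.image_subset_image hS) ?_
  intro x hx y hy hne
  obtain ⟨x', hx', rfl⟩ := Finset.mem_image.1 hx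
  obtain ⟨y', hy', rfl⟩ := Finset.mem_image.1 hy
  rw [hiso _ (hS hx') _ (hS hy')]
  exact hs x' hx' y' hy' fun h => hne (by rw [h])

theorem conn_of_image {U : Finset Y} {R : ℕ} (hiso : ∀ f ∈ U, ∀ g ∈ U, d (π f) (π g) = dY f g)
    (hinj : Set.InjOn π (U : Set Y)) (h : Packx915.Conn d R (U.image π)) :
    Packx915.Conn dY R U := by
  intro A hA hne hneU
  obtain ⟨a, ha, b, hb, hbA, hab⟩ := h (A.image π) (Finset.image_subset_image hA)
    (hne.image π) (fun he => hneU (by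
      refine Finset.Subset.antisymm hA fun u hu => ?_
      have h1 : π u ∈ A.image π := by
        rw [he]; exact Finset.mem_image_of_mem _ hu
      obtain ⟨a, ha, hau⟩ := Finset.mem_image.1 h1
      rw [← hinj (hA ha) hu hau]
      exact ha))
  obtain ⟨a', ha', rfl⟩ := Finset.mem_image.1 ha
  obtain ⟨b', hb', rfl⟩ := Finset.mem_image.1 hb
  refine ⟨a', ha', b', hb', fun h' => hbA (Finset.mem_image_of_mem _ h'), ?_⟩
  rw [← hiso _ (hA ha') _ hb']
  exact hab

end one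

section lim

variable {ι : Type*} {l : Filter ι} [l.NeBot] {X : ι → Type*} [∀ i, DecidableEq (X i)]
  {Y : Type*} [DecidableEq Y] {d : ∀ i, X i → X i → ℕ} {dY : Y → Y → ℕ} {x : ∀ i, X i} {y : Y}
  {π : ∀ i, Y → X i} {B : ℕ → Finset Y}

/-- **bounds of the limit constants**, one scale -/
theorem nn_limit (he : Exh l d dY x y π B)
    (hiso : ∀ D, ∀ᶠ i in l, ∀ f ∈ B D, ∀ g ∈ B D, d i (π i f) (π i g) = dY f g) {r : ℕ}
    {Γ b : ℝ≥0∞} (hΓ : 1 ≤ Γ) {c : ∀ i, Finset (X i) → ℝ} {cP : Finset Y → ℝ}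
    (hN : ∀ᶠ i in l, NN (d i) r Γ (fun U => ENNReal.ofReal |c i U|) ≤ b)
    (hloc : ∀ D, ∀ᶠ i in l, ∀ U ⊆ B D, c i (U.image (π i)) = cP U) :
    NN dY r Γ (fun U => ENNReal.ofReal |cP U|) ≤ b := by
  classical
  refine iSup_le fun f => ?_
  unfold bs
  rw [ENNReal.tsum_eq_iSup_sum]
  refine iSup_le fun s => ?_
  -- a box containing everything
  set W : Finset Y := insert f (s.biUnion id) with hW
  set D : ℕ := W.sup fun g => dY y g with hD
  have hWB : W ⊆ B D := fun g hg => (he.mem_B D g).2 (Finset.le_sup (f := fun g => dY y g) hg)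
  have hfB : f ∈ B D := hWB (Finset.mem_insert_self _ _)
  have hsB : ∀ U ∈ s, U ⊆ B D := fun U hU =>
    ((Finset.subset_biUnion_of_mem id hU).trans (Finset.subset_insert _ _)).trans hWB
  obtain ⟨i, ⟨⟨⟨hi1, hi2⟩, hi3⟩, hi4⟩⟩ := (((hN.and (hloc D)).and (he.inj D)).and
    (hiso D)).exists
  have hinj : Set.InjOn (fun U : Finset Y => U.image (π i)) (s : Set (Finset Y)) := by
    intro U hU U' hU' h
    have h1 := hsB U hU
    have h2 := hsB U' hU'
    have h3 : U.image (π i) = U'.image (π i) := h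
    ext v
    constructor
    · intro hv
      have : π i v ∈ U'.image (π i) := by
        rw [← h3]; exact Finset.mem_image_of_mem _ hv
      obtain ⟨u, hu, huv⟩ := Finset.mem_image.1 this
      rw [← hi3 (h2 hu) (h1 hv) huv]
      exact hu
    · intro hv
      have : π i v ∈ U.image (π i) := by
        rw [h3]; exact Finset.mem_image_of_mem _ hv
      obtain ⟨u, hu, huv⟩ := Finset.mem_image.1 this
      rw [← hi3 (h1 hu) (h2 hv) huv]
      exact hu
  set F : Finset (X i) → ℝ≥0∞ := fun U =>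
    Set.indicator {U | near (d i) r (π i f) U}
      (fun U => Γ ^ pack (d i) r U * ENNReal.ofReal |c i U|) U with hF
  have key : ∀ U ∈ s, Set.indicator {U | near dY r f U}
      (fun U => Γ ^ pack dY r U * ENNReal.ofReal |cP U|) U ≤ F (U.image (π i)) := by
    intro U hU
    by_cases hn : near dY r f U
    · have hn' : near (d i) r (π i f) (U.image (π i)) := by
        obtain ⟨u, hu, hfu⟩ := hn
        exact ⟨π i u, Finset.mem_image_of_mem _ hu, by rw [hi4 f hfB u (hsB U hU hu)]; exact hfu⟩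
      rw [Set.indicator_of_mem (by exact hn), hF]
      show _ ≤ Set.indicator _ _ _
      rw [Set.indicator_of_mem (by exact hn'), hi2 U (hsB U hU)]
      refine mul_le_mul_left ?_ _
      exact pow_le_pow_right₀ hΓ (pack_le_image (fun a ha b hb => hi4 a (hsB U hU ha) b
        (hsB U hU hb)) (hi3.mono (Finset.coe_subset.2 (hsB U hU))))
    · rw [Set.indicator_of_notMem (by exact hn)]
      exact zero_le
  calc _ ≤ ∑ U ∈ s, F (U.image (π i)) := Finset.sum_le_sum key
    _ = ∑ U ∈ s.image (fun U => U.image (π i)), F U := (Finset.sum_image hinj).symm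
    _ ≤ ∑' U, F U := ENNReal.sum_le_tsum _
    _ ≤ NN (d i) r Γ (fun U => ENNReal.ofReal |c i U|) := bs_le_NN _ _
    _ ≤ b := hi1

variable {V : ι → Type*} [∀ i, AddCommGroup (V i)] [∀ i, Module ℝ (V i)]
  {VP : Type*} [AddCommGroup VP] [Module ℝ VP]
  {r R : ℕ → ℕ} {Γ : ℝ} {E : ℕ → ℝ} {Kf : ι → ℕ} {D1 D2 : ∀ i, Sys (X i) (V i)}
  {P1 P2 : Sys Y VP}

/-- **bounds of the limit system** -/
theorem bd_limit (he : Exh l d dY x y π B)
    (hiso : ∀ D, ∀ᶠ i in l, ∀ f ∈ B D, ∀ g ∈ B D, d i (π i f) (π i g) = dY f g)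
    (hΓ : 1 ≤ Γ) (hKf : Tendsto Kf l atTop)
    (hbd : ∀ᶠ i in l, Bd (D1 i) (d i) r R (ENNReal.ofReal Γ) E (Kf i))
    (hloc : ∀ k D, ∀ᶠ i in l, ∀ U ⊆ B D, cc (D1 i) k (U.image (π i)) = cc P1 k U) (n : ℕ) :
    Bd P1 dY r R (ENNReal.ofReal Γ) E n := by
  refine ⟨fun k _ => ?_, fun k _ U hU => ?_⟩
  · refine nn_limit he hiso (by rw [← ENNReal.ofReal_one]; exact ENNReal.ofReal_le_ofReal hΓ)
      (c := fun i U => cc (D1 i) k U) ?_ (hloc k)
    filter_upwards [hbd, hKf.eventually_gt_atTop k] with i h1 h2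
    exact h1.nn k h2
  · set D : ℕ := U.sup fun g => dY y g with hD
    have hUB : U ⊆ B D := fun g hg => (he.mem_B D g).2 (Finset.le_sup (f := fun g => dY y g) hg)
    obtain ⟨i, ⟨⟨⟨⟨h1, h2⟩, h3⟩, h4⟩, h5⟩⟩ := ((((hbd.and (hKf.eventually_gt_atTop k)).and
      (hloc k D)).and (he.inj D)).and (hiso D)).exists
    have h6 := h1.conn k h2 (U.image (π i)) (by rw [h3 U hUB]; exact hU)
    exact ⟨(Finset.image_nonempty.1 h6.1), conn_of_image (fun a ha b hb => h5 a (hUB ha) b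
      (hUB hb)) (h4.mono (Finset.coe_subset.2 hUB)) h6.2⟩

/-- **`PinData` without bounds of the limit system** -/
theorem PinData.of_growing (he : Exh l d dY x y π B)
    (hiso : ∀ D, ∀ᶠ i in l, ∀ f ∈ B D, ∀ g ∈ B D, d i (π i f) (π i g) = dY f g)
    (hΓ : 1 < Γ) (hE : ∀ k, 0 ≤ E k) (hs : Summable E) (hKf : Tendsto Kf l atTop)
    (hbd1 : ∀ᶠ i in l, Bd (D1 i) (d i) r R (ENNReal.ofReal Γ) E (Kf i))
    (hbd2 : ∀ᶠ i in l, Bd (D2 i) (d i) r R (ENNReal.ofReal Γ) E (Kf i))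
    (pin : ∀ᶠ i in l, ∀ k U, x i ∉ U → cc (D1 i) k U = cc (D2 i) k U)
    (pinP : ∀ k U, y ∉ U → cc P1 k U = cc P2 k U)
    (loc1 : ∀ k D, ∀ᶠ i in l, ∀ U ⊆ B D, cc (D1 i) k (U.image (π i)) = cc P1 k U)
    (loc2 : ∀ k D, ∀ᶠ i in l, ∀ U ⊆ B D, cc (D2 i) k (U.image (π i)) = cc P2 k U) :
    PinData l d dY x y π B r R Γ E Kf D1 D2 P1 P2 where
  exh := he
  Γ1 := hΓ
  E0 := hE
  sum := hs
  Kf_top := hKf
  bd1 := hbd1
  bd2 := hbd2
  bdP1 := bd_limit he hiso hΓ.le hKf hbd1 loc1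
  bdP2 := bd_limit he hiso hΓ.le hKf hbd2 loc2
  pin := pin
  pinP := pinP
  loc1 := loc1
  loc2 := loc2

end lim

/-! ### the isometries -/

open Crest.Agent.R165.Latx683 Crest.Agent.R165.GDefx387 Crest.Agent.R165.MetGx723
  Crest.Agent.R165.TorTanx723 Crest.Agent.R165.TorWrapx723

/-- tori -/
theorem iso_tor (f₀ : ℤ × ℤ) (D : ℕ) : ∀ᶠ L : ℕ in atTop, ∀ f ∈ boxG f₀ D, ∀ g ∈ boxG f₀ D,
    fd (pr (L + 1) f) (pr (L + 1) g) = fd f g := by
  filter_upwards [eventually_ge_atTop (4 * D + 4)] with L hL f hf g hg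
  rw [mem_boxG] at hf hg
  have h := dG_tri f f₀ g
  rw [dG_comm f₀ g] at h
  rw [fd_eq_zmod, fd_eq_int]
  exact dG_pr_eq (by omega)

/-- identity -/
theorem iso_id {ι : Type*} (l : Filter ι) (f₀ : ℤ × ℤ) (D : ℕ) : ∀ᶠ _ : ι in l,
    ∀ f ∈ boxG f₀ D, ∀ g ∈ boxG f₀ D, fd (id f) (id g) = fd f g :=
  Eventually.of_forall fun _ _ _ _ _ => rfl

end Crest.Agent.R165.PinLimx723
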