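import Crest.Agent.R165.Tel_337
import Crest.Agent.R165.KEq_337
import Crest.Agent.R165.DiscData_892

/-!
# Row 165 (S0250), block F: spin ratios from flow systems (helper892)

* `ct_le`  : the constant term of `conv_S a` is bounded by the projective norm of `a`
* `Bd D d r R Γ E n` : the constants of `D` at the scales `k < n` (norm and connectedness);
  `Bd.of` : from the norm bounds and the connectedness of the activities
* `SpinSys` : the flow data for a spin ratio (systems with / without insertions, one branch point,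
  plane), any filter; `SpinSys.spinData` : the data `SpinData` of `DiscData_892`
* `tsum_chart` : the constants `ζ_k` do not depend on the position of the branch point
-/

set_option autoImplicit false
set_option linter.unusedSectionVars false

noncomputable section

namespace Crest.Agent.R165.SpinSysx892

open Finset Filter Topology
open scoped ENNReal
open Crest.Agent.R165.Gr0x606 Crest.Agent.R165.Gr1x606 Crest.Agent.R165.GeOpsx337
  Crest.Agent.R165.KStepx892 Crest.Agent.R165.KFlowx337 Crest.Agent.R165.KEqx337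
  Crest.Agent.R165.PNormx417 Crest.Agent.R165.Telx337
  Crest.Agent.R165.Packx915 Crest.Agent.R165.NSumx915 Crest.Agent.R165.Spinx930
  Crest.Agent.R165.Discx892 Crest.Agent.R165.DiscDatax892

section ct

variable {V : Type*} [AddCommGroup V] [Module ℝ V]

/-- the constant term of a convolution -/
theorem ct_le {S : Gr0x606.Cov V} {g w : V → ℝ≥0∞} (hg : Gram S g) (hw : ∀ l, g l ≤ w l) (a : Ge V) :
    ENNReal.ofReal |ctG (cvG S a)| ≤ pG w a := by
  rw [ctG_cvG]
  have h1 := EE_le_pnorm hg (a : Gr V)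
  rw [Real.enorm_eq_ofReal_abs] at h1
  exact h1.trans (pnorm_le_pnorm hw _)

end ct

variable {X : Type*} [DecidableEq X] {V : Type*} [AddCommGroup V] [Module ℝ V]
variable {V' : Type*} [AddCommGroup V'] [Module ℝ V']

/-- the constants of a flow at the scales below `n` -/
structure Bd (D : Sys X V) (d : X → X → ℕ) (r R : ℕ → ℕ) (Γ : ℝ≥0∞) (E : ℕ → ℝ) (n : ℕ) :
    Prop where
  nn : ∀ k < n, NN d (r k) Γ (fun U => ENNReal.ofReal |cc D k U|) ≤ ENNReal.ofReal (E k)
  conn : ∀ k < n, ∀ U, cc D k U ≠ 0 → U.Nonempty ∧ Packx915.Conn d (R k) U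

theorem Bd.mono {D : Sys X V} {d : X → X → ℕ} {r R : ℕ → ℕ} {Γ : ℝ≥0∞} {E : ℕ → ℝ} {n m : ℕ}
    (h : Bd D d r R Γ E n) (hm : m ≤ n) : Bd D d r R Γ E m :=
  ⟨fun k hk => h.nn k (hk.trans_le hm), fun k hk => h.conn k (hk.trans_le hm)⟩

/-- from the norm bounds of the activities -/
theorem Bd.of {D : Sys X V} {d : X → X → ℕ} {r R : ℕ → ℕ} {Γ : ℝ≥0∞} {E : ℕ → ℝ} {n : ℕ}
    (he : D.K0 ∅ = 0) (w : ℕ → Finset X → V → ℝ≥0∞)
    (hct : ∀ k < n, ∀ U : Finset X, U.Nonempty → ENNReal.ofReal |ctG (D.H k U)| ≤ pG (w k U) (D.K k U))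
    (hnk : ∀ k < n, NN d (r k) Γ (fun U => pG (w k U) (D.K k U)) ≤ ENNReal.ofReal (E k))
    (hconn : ∀ k < n, ∀ U, D.K k U ≠ 0 → Packx915.Conn d (R k) U) : Bd D d r R Γ E n := by
  refine ⟨fun k hk => le_trans ?_ (hnk k hk), fun k hk U hU => ?_⟩
  · refine iSup_mono fun f => ENNReal.tsum_le_tsum fun U => ?_
    by_cases hU : near d (r k) f U
    · rw [Set.indicator_of_mem (by exact hU), Set.indicator_of_mem (by exact hU)]
      exact mul_le_mul_right (hct k hk U hU.nonempty) _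
    · rw [Set.indicator_of_notMem (by exact hU)]
      exact zero_le
  · have h1 : U.Nonempty := by
      by_contra hne
      rw [Finset.not_nonempty_iff_eq_empty] at hne
      exact hU (by rw [hne, cc, H_empty he, map_zero])
    refine ⟨h1, hconn k hk U fun h0 => hU ?_⟩
    rw [cc, Sys.H, h0, map_zero, map_zero]

/-- constants agree, from the equality induction -/
theorem cc_eq_of_cmp {X' : Type*} [DecidableEq X'] {D₁ : Sys X V} {D₂ : Sys X' V'}
    {okK okH : ℕ → Chart X V X' V' → Finset X → Prop} {src : Submodule ℝ V} (hD : D₁.OK src)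
    (h : Cmp D₁ D₂ okK okH) (k : ℕ) (c) (U : Finset X) (hc : okH k c U) :
    cc D₁ k U = cc D₂ k (U.image c.ψ) := h.ct_eq hD k c U hc

/-- charts with `ψ = id` -/
theorem cc_eq_of_cmp_id {D₁ : Sys X V} {D₂ : Sys X V'}
    {okK okH : ℕ → Chart X V X V' → Finset X → Prop} {src : Submodule ℝ V} (hD : D₁.OK src)
    (h : Cmp D₁ D₂ okK okH) (k : ℕ) (c : Chart X V X V') (hψ : c.ψ = id) (U : Finset X)
    (hc : okH k c U) : cc D₁ k U = cc D₂ k U := by
  rw [cc_eq_of_cmp hD h k c U hc, hψ, Finset.image_id]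

/-- a bijection of the faces which respects the constants: the sums agree -/
theorem tsum_chart {X' : Type*} [DecidableEq X'] (τ : X ≃ X') (f₁ : Finset X → ℝ)
    (f₂ : Finset X' → ℝ) (h : ∀ U, f₁ U = f₂ (U.image τ)) : ∑' U, f₁ U = ∑' U, f₂ U := by
  have h1 : ∀ U : Finset X, f₁ U = f₂ (Equiv.finsetCongr τ U) := fun U => by
    rw [h U]
    congr 1
    ext x
    simp only [Finset.mem_image, Equiv.finsetCongr_apply, Finset.mem_map, Equiv.coe_toEmbedding]
  calc ∑' U, f₁ U = ∑' U, f₂ (Equiv.finsetCongr τ U) := tsum_congr h1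
    _ = ∑' U, f₂ U := (Equiv.finsetCongr τ).tsum_eq f₂

/-- **the flow data of a spin ratio** -/
structure SpinSys {d : X → X → ℕ} (G : ScaleData d) (V : Type*) [AddCommGroup V] [Module ℝ V]
    {α : Type*} (l : Filter α) (n : ℕ) (ζ : ℕ → ℝ) where
  /-- first coarse step -/
  K : α → ℕ
  /-- number of steps -/
  Kf : α → ℕ
  /-- radius of the one-point neighbourhoods -/
  ρ : α → ℕ
  /-- insertions -/
  x : α → Fin n → X
  /-- flow with insertions -/
  D1 : α → Sys X V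
  /-- flow without insertions -/
  D2 : α → Sys X V
  /-- plane flow with one insertion -/
  DB : α → Fin n → Sys X V
  /-- plane flow -/
  DP : Sys X V
  /-- volumes -/
  Λ1 : α → Finset X
  /-- volumes -/
  Λ2 : α → Finset X
  /-- full covariance with insertions -/
  S1 : α → Gr0x606.Cov V
  /-- final covariance with insertions -/
  Sf1 : α → Gr0x606.Cov V
  /-- full covariance without insertions -/
  S2 : α → Gr0x606.Cov V
  /-- final covariance without insertions -/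
  Sf2 : α → Gr0x606.Cov V
  hK : Tendsto K l atTop
  hρ : Tendsto ρ l atTop
  hKf : ∀ᶠ a in l, K a ≤ Kf a
  fl1 : ∀ᶠ a in l, Fl (D1 a) (Λ1 a) (Kf a) (S1 a) (Sf1 a)
  fl2 : ∀ᶠ a in l, Fl (D2 a) (Λ2 a) (Kf a) (S2 a) (Sf2 a)
  bd1 : ∀ᶠ a in l, Bd (D1 a) d G.r G.R G.Γ G.E (Kf a)
  bd2 : ∀ᶠ a in l, Bd (D2 a) d G.r G.R G.Γ G.E (Kf a)
  bdB : ∀ᶠ a in l, ∀ i, Bd (DB a i) d G.r G.R G.Γ G.E (K a)
  bdP : ∀ᶠ a in l, Bd DP d G.r G.R G.Γ G.E (K a)
  /-- far from all insertions the insertions are not seen -/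
  far : ∀ᶠ a in l, ∀ k < Kf a, ∀ U : Finset X, U.Nonempty → (∀ i, Avoids d (G.R' k) (x a i) U) →
    cc (D1 a) k U = cc (D2 a) k U
  /-- close to one insertion: plane with one branch point -/
  close1 : ∀ᶠ a in l, ∀ k < K a, ∀ i, ∀ U : Finset X, U.Nonempty → (∀ u ∈ U, d (x a i) u ≤ ρ a) →
    cc (D1 a) k U = cc (DB a i) k U
  /-- close to one insertion the background without insertions is plane -/
  close2 : ∀ᶠ a in l, ∀ k < K a, ∀ i, ∀ U : Finset X, U.Nonempty → (∀ u ∈ U, d (x a i) u ≤ ρ a) →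
    cc (D2 a) k U = cc DP k U
  /-- far from the branch point the plane is seen -/
  farB : ∀ᶠ a in l, ∀ k < K a, ∀ i, ∀ U : Finset X, U.Nonempty → Avoids d (G.R' k) (x a i) U →
    cc (DB a i) k U = cc DP k U
  sep : ∀ᶠ a in l, ∀ i j, i ≠ j → 2 * ρ a < d (x a i) (x a j)
  R'le : ∀ᶠ a in l, ∀ k < K a, G.R' k ≤ ρ a
  hz : ∀ᶠ a in l, ∀ k < K a, ∀ i, ∑' U, (cc (DB a i) k U - cc DP k U) = ζ k
  fin1 : Tendsto (fun a => Zf (D1 a) (Λ1 a) (Kf a) (Sf1 a)) l (𝓝 1)
  fin2 : Tendsto (fun a => Zf (D2 a) (Λ2 a) (Kf a) (Sf2 a)) l (𝓝 1)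

/-- the constant of the empty set -/
theorem Bd.empty {D : Sys X V} {d : X → X → ℕ} {r R : ℕ → ℕ} {Γ : ℝ≥0∞} {E : ℕ → ℝ} {n : ℕ}
    (h : Bd D d r R Γ E n) {k : ℕ} (hk : k < n) : cc D k ∅ = 0 := by
  by_contra hne
  exact absurd (h.conn k hk ∅ hne).1 Finset.not_nonempty_empty

/-- equality on nonempty sets is enough -/
theorem eq_of_nonempty {f g : Finset X → ℝ} (h0 : f ∅ = g ∅) {P : Finset X → Prop}
    (h : ∀ U : Finset X, U.Nonempty → P U → f U = g U) (U : Finset X) (hU : P U) : f U = g U := by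
  rcases U.eq_empty_or_nonempty with rfl | hne
  · exact h0
  · exact h U hne hU

/-- **the spin data of a flow** -/
def SpinSys.spinData {d : X → X → ℕ} {G : ScaleData d} {α : Type*} {l : Filter α} {n : ℕ}
    {ζ : ℕ → ℝ} (S : SpinSys G V l n ζ) {g : α → ℝ}
    (hg : ∀ᶠ a in l, g a = Z0 (S.D1 a) (S.Λ1 a) (S.S1 a) / Z0 (S.D2 a) (S.Λ2 a) (S.S2 a)) :
    SpinData G l n g ζ where
  K := S.K
  Kf := S.Kf
  ρ := S.ρ
  x := S.x
  c1 a k := cc (S.D1 a) k
  c2 a k := cc (S.D2 a) k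
  cB a k i := cc (S.DB a i) k
  cP k := cc S.DP k
  e1 a := Zf (S.D1 a) (S.Λ1 a) (S.Kf a) (S.Sf1 a)
  e2 a := Zf (S.D2 a) (S.Λ2 a) (S.Kf a) (S.Sf2 a)
  hK := S.hK
  hρ := S.hρ
  hKf := S.hKf
  fine := by
    filter_upwards [S.hKf, S.bd1, S.bd2, S.bdB, S.bdP, S.far, S.close1, S.close2, S.farB, S.sep,
      S.R'le] with a hKf h1 h2 hB hP hfar hc1 hc2 hfB hsep hR k hk
    have hk' : k < S.Kf a := hk.trans_le hKf
    have z1 := h1.empty hk'
    have z2 := h2.empty hk'
    have zP := hP.empty hk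
    refine ⟨h1.nn k hk', h2.nn k hk', hP.nn k hk, fun i => (hB i).nn k hk, ?_, ?_, ?_, ?_, ?_,
      hsep, hR k hk⟩
    · rintro U (hU | hU)
      · exact h1.conn k hk' U hU
      · exact h2.conn k hk' U hU
    · rintro i U (hU | hU)
      · exact (hB i).conn k hk U hU
      · exact hP.conn k hk U hU
    · exact eq_of_nonempty (by rw [z1, z2]) (hfar k hk')
    · intro i U hU
      rcases U.eq_empty_or_nonempty with rfl | hne
      · rw [z1, z2, (hB i).empty hk, zP]
      · rw [hc1 k hk i U hne hU, hc2 k hk i U hne hU]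
    · intro i
      exact eq_of_nonempty (by rw [(hB i).empty hk, zP]) (hfB k hk i)
  coarse := by
    filter_upwards [S.bd1, S.bd2, S.far] with a h1 h2 hfar k hk _
    refine ⟨h1.nn k hk, h2.nn k hk, ?_, ?_⟩
    · rintro U (hU | hU)
      · exact h1.conn k hk U hU
      · exact h2.conn k hk U hU
    · exact eq_of_nonempty (by rw [h1.empty hk, h2.empty hk]) (hfar k hk)
  hz := S.hz
  sum2 := by
    filter_upwards [S.fl2] with a h2 k _
    exact summable_cc h2.supp h2.emp k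
  he1 := S.fin1
  he2 := S.fin2
  hg := by
    filter_upwards [hg, S.fl1, S.fl2] with a ha h1 h2
    rw [ha, h1.Z0_eq, h2.Z0_eq]

/-- the ratio of the partition functions tends to `(exp ∑ ζ) ^ n` -/
theorem SpinSys.tendsto {d : X → X → ℕ} {G : ScaleData d} {α : Type*} {l : Filter α} {n : ℕ}
    {ζ : ℕ → ℝ} (hζ : Summable ζ) (S : SpinSys G V l n ζ) :
    Tendsto (fun a => Z0 (S.D1 a) (S.Λ1 a) (S.S1 a) / Z0 (S.D2 a) (S.Λ2 a) (S.S2 a)) l
      (𝓝 (Real.exp (∑' k, ζ k) ^ n)) :=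
  (S.spinData (Eventually.of_forall fun _ => rfl)).tendsto hζ

/-! ### size of the constants `ζ_k` -/

/-- `ζ_k` is bounded by the norms: `|∑_U (c^B_k - c^P_k)| ≤ 4 A E_k` -/
theorem zeta_le {d : X → X → ℕ} (G : ScaleData d) {DB DP : Sys X V} {n k : ℕ} (hk : k < n)
    (hB : Bd DB d G.r G.R G.Γ G.E n) (hP : Bd DP d G.r G.R G.Γ G.E n) (x : X)
    (far : ∀ U : Finset X, U.Nonempty → Avoids d (G.R' k) x U → cc DB k U = cc DP k U) :
    Summable (fun U => cc DB k U - cc DP k U) ∧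
      |∑' U, (cc DB k U - cc DP k U)| ≤ 4 * G.A * G.E k := by
  have h : SC (ι := Fin 1) d (G.r k) (G.R k) (G.R' k) G.Γ (ENNReal.ofReal (G.E k)) (fun _ => x)
      (cc DB k) (cc DP k) := by
    refine ⟨hB.nn k hk, hP.nn k hk, ?_, ?_⟩
    · rintro U (hU | hU)
      · exact hB.conn k hk U hU
      · exact hP.conn k hk U hU
    · exact eq_of_nonempty (P := fun U => ∀ _ : Fin 1, Avoids d (G.R' k) x U)
        (by rw [hB.empty hk, hP.empty hk]) fun U hne hU => far U hne (hU 0)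
  have h1 := h.bound G.pd G.Γ4 G.Γt (G.hcn k) (G.hcov k) (G.E0 k)
  simpa using h1

end Crest.Agent.R165.SpinSysx892

end
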