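import Crest.Agent.R165.Pin_723
import Crest.Agent.R165.SpinSys_892

/-!
# Row 165 (S0250): a local source in growing systems (helper723)

TEXT P13: the flow data of the ratio `Z(t)/Z(0)` on growing tori or discs (structure `Exh` of
`Pin_723`), with values `t` and `0` of the source parameter, same marks.

* `PinData`  : flows `D1` (source `t`), `D2` (source `0`) on the growing systems, `P1`, `P2` on the
  limit system, local equality, pinning, bounds
* `PinData.expo`  : the difference of the exponents converges to `e = ∑_k ∑_U (cc P1 - cc P2)`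
* `PinData.ratio` : if the last factors tend to one then `Z0 (D1) / Z0 (D2) → exp e`
-/

set_option autoImplicit false
set_option linter.unusedSectionVars false

noncomputable section

open Finset Filter Topology
open scoped ENNReal
open Crest.Agent.R165.Gr0x606 Crest.Agent.R165.GeOpsx337 Crest.Agent.R165.KStepx892
open Crest.Agent.R165.KFlowx337 Crest.Agent.R165.Telx337 Crest.Agent.R165.SpinSysx892
open Crest.Agent.R165.Packx915 Crest.Agent.R165.NSumx915 Crest.Agent.R165.Pinx723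

namespace Crest.Agent.R165.PinSysx723

variable {ι : Type*} {l : Filter ι} {X : ι → Type*} [∀ i, DecidableEq (X i)]
  {V : ι → Type*} [∀ i, AddCommGroup (V i)] [∀ i, Module ℝ (V i)]
  {Y : Type*} [DecidableEq Y] {VP : Type*} [AddCommGroup VP] [Module ℝ VP]
  {d : ∀ i, X i → X i → ℕ} {dY : Y → Y → ℕ} {x : ∀ i, X i} {y : Y}
  {π : ∀ i, Y → X i} {B : ℕ → Finset Y}

/-- bounds and local equalities of one source in growing systems -/
structure PinData (l : Filter ι) (d : ∀ i, X i → X i → ℕ) (dY : Y → Y → ℕ) (x : ∀ i, X i) (y : Y)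
    (π : ∀ i, Y → X i) (B : ℕ → Finset Y) (r R : ℕ → ℕ) (Γ : ℝ) (E : ℕ → ℝ) (Kf : ι → ℕ)
    (D1 D2 : ∀ i, Sys (X i) (V i)) (P1 P2 : Sys Y VP) : Prop where
  exh : Exh l d dY x y π B
  Γ1 : 1 < Γ
  E0 : ∀ k, 0 ≤ E k
  sum : Summable E
  Kf_top : Tendsto Kf l atTop
  bd1 : ∀ᶠ i in l, Bd (D1 i) (d i) r R (ENNReal.ofReal Γ) E (Kf i)
  bd2 : ∀ᶠ i in l, Bd (D2 i) (d i) r R (ENNReal.ofReal Γ) E (Kf i)
  bdP1 : ∀ n, Bd P1 dY r R (ENNReal.ofReal Γ) E n
  bdP2 : ∀ n, Bd P2 dY r R (ENNReal.ofReal Γ) E n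
  pin : ∀ᶠ i in l, ∀ k U, x i ∉ U → cc (D1 i) k U = cc (D2 i) k U
  pinP : ∀ k U, y ∉ U → cc P1 k U = cc P2 k U
  loc1 : ∀ k D, ∀ᶠ i in l, ∀ U ⊆ B D, cc (D1 i) k (U.image (π i)) = cc P1 k U
  loc2 : ∀ k D, ∀ᶠ i in l, ∀ U ⊆ B D, cc (D2 i) k (U.image (π i)) = cc P2 k U

/-- the limit of the exponents -/
def expo (P1 P2 : Sys Y VP) : ℝ := ∑' k, ∑' U, (cc P1 k U - cc P2 k U)

variable {r R : ℕ → ℕ} {Γ : ℝ} {E : ℕ → ℝ} {Kf : ι → ℕ} {D1 D2 : ∀ i, Sys (X i) (V i)}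
  {P1 P2 : Sys Y VP}

theorem nn_sub {Z : Type*} {dz : Z → Z → ℕ} {r : ℕ} {Γ : ℝ≥0∞} {E : ℝ} (hE : 0 ≤ E)
    {c c' : Finset Z → ℝ}
    (h : NN dz r Γ (fun U => ENNReal.ofReal |c U|) ≤ ENNReal.ofReal E)
    (h' : NN dz r Γ (fun U => ENNReal.ofReal |c' U|) ≤ ENNReal.ofReal E) :
    NN dz r Γ (fun U => ENNReal.ofReal |c U - c' U|) ≤ ENNReal.ofReal (2 * E) := by
  refine (Spinx930.NN_sub_le c c').trans ((add_le_add h h').trans ?_)
  rw [← ENNReal.ofReal_add hE hE]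
  exact ENNReal.ofReal_le_ofReal (by linarith)

theorem conn_sub {Z : Type*} {dz : Z → Z → ℕ} {R : ℕ} {c c' : Finset Z → ℝ}
    (h : ∀ U, c U ≠ 0 → U.Nonempty ∧ Packx915.Conn dz R U)
    (h' : ∀ U, c' U ≠ 0 → U.Nonempty ∧ Packx915.Conn dz R U) {U : Finset Z}
    (hU : c U - c' U ≠ 0) : Packx915.Conn dz R U := by
  by_cases h1 : c U = 0
  · refine (h' U fun h2 => hU ?_).2
    rw [h1, h2, sub_zero]
  · exact (h U h1).2

/-- **the exponents converge** -/
theorem PinData.expo_tendsto (h : PinData l d dY x y π B r R Γ E Kf D1 D2 P1 P2) :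
    Tendsto (fun i => ∑ k ∈ Finset.range (Kf i), ∑' U, (cc (D1 i) k U - cc (D2 i) k U)) l
      (𝓝 (expo P1 P2)) := by
  unfold expo
  refine tendsto_pin h.exh h.Kf_top (r := r) (R := R) h.Γ1 (b := fun k => 2 * E k)
    (fun k => mul_nonneg (by norm_num) (h.E0 k)) (h.sum.mul_left 2)
    (c := fun i k U => cc (D1 i) k U - cc (D2 i) k U) (cP := fun k U => cc P1 k U - cc P2 k U)
    ?_ ?_ ?_ ?_ ?_ ?_ ?_
  · filter_upwards [h.bd1, h.bd2] with i h1 h2 k hk
    exact nn_sub (h.E0 k) (h1.nn k hk) (h2.nn k hk)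
  · intro k
    exact nn_sub (h.E0 k) ((h.bdP1 (k + 1)).nn k (Nat.lt_succ_self k))
      ((h.bdP2 (k + 1)).nn k (Nat.lt_succ_self k))
  · filter_upwards [h.pin] with i hi k _ U hU
    by_contra hcon
    exact hU (by rw [hi k U hcon, sub_self])
  · intro k U hU
    by_contra hcon
    exact hU (by rw [h.pinP k U hcon, sub_self])
  · filter_upwards [h.bd1, h.bd2] with i h1 h2 k hk U hU
    exact conn_sub (h1.conn k hk) (h2.conn k hk) hU
  · intro k U hU
    exact conn_sub ((h.bdP1 (k + 1)).conn k (Nat.lt_succ_self k))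
      ((h.bdP2 (k + 1)).conn k (Nat.lt_succ_self k)) hU
  · intro k D
    filter_upwards [h.loc1 k D, h.loc2 k D] with i h1 h2 U hU
    rw [h1 U hU, h2 U hU]

/-- **the ratio converges** if the last factors tend to one -/
theorem PinData.ratio (h : PinData l d dY x y π B r R Γ E Kf D1 D2 P1 P2)
    {Λ1 Λ2 : ∀ i, Finset (X i)} {S1 Sf1 S2 Sf2 : ∀ i, Gr0x606.Cov (V i)}
    (fl1 : ∀ᶠ i in l, Fl (D1 i) (Λ1 i) (Kf i) (S1 i) (Sf1 i))
    (fl2 : ∀ᶠ i in l, Fl (D2 i) (Λ2 i) (Kf i) (S2 i) (Sf2 i))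
    (fin1 : Tendsto (fun i => Zf (D1 i) (Λ1 i) (Kf i) (Sf1 i)) l (𝓝 1))
    (fin2 : Tendsto (fun i => Zf (D2 i) (Λ2 i) (Kf i) (Sf2 i)) l (𝓝 1)) :
    Tendsto (fun i => Z0 (D1 i) (Λ1 i) (S1 i) / Z0 (D2 i) (Λ2 i) (S2 i)) l
      (𝓝 (Real.exp (expo P1 P2))) := by
  have h1 := (Real.continuous_exp.tendsto _).comp h.expo_tendsto
  have h2 := h1.mul (fin1.div fin2 one_ne_zero)
  rw [div_one, mul_one] at h2
  refine h2.congr' ?_
  filter_upwards [fl1, fl2] with i f1 f2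
  exact (Telx337.ratio f1 f2).symm

/-- positivity of the partition function from the last factor -/
theorem Z0_pos_of_fin {Z : Type*} [DecidableEq Z] {W : Type*} [AddCommGroup W] [Module ℝ W]
    {D : Sys Z W} {Λ : Finset Z} {n : ℕ} {S Sf : Gr0x606.Cov W} (f : Fl D Λ n S Sf)
    (h : 0 < Zf D Λ n Sf) : 0 < Z0 D Λ S := by
  rw [f.Z0_eq]
  exact mul_pos (Real.exp_pos _) h

/-- the expectation of `1 + t * F` gives the expectation of `F` -/
theorem lin_of_ratio {ι : Type*} {l : Filter ι} {t e : ℝ} (ht : t ≠ 0) {u : ι → ℝ} {z : ι → ℝ}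
    (hz : Tendsto z l (𝓝 (Real.exp e))) (hu : ∀ᶠ i in l, z i = 1 + t * u i) :
    Tendsto u l (𝓝 ((Real.exp e - 1) / t)) := by
  have h1 := (hz.sub_const 1).div_const t
  refine h1.congr' ?_
  filter_upwards [hu] with i hi
  rw [hi]
  field_simp
  ring

end Crest.Agent.R165.PinSysx723
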