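import Crest.Agent.R165.TorTan_723

/-!
# Row 165 (S0250): limits of sums of local constants pinned at a point (helper723)

One statement for growing tori and growing discs (TEXT P13, section 2).

* `tannery`      : `∑_{k < K_i} s_i k → ∑' a k`
* `pin_bound`    : constants pinned at `x` : `∑_{|U| ≥ m} |c U| ≤ b Γ^{-m}`
* `pin_scale`    : one scale, convergence of pinned sums from local equality
* `tendsto_pin`  : all scales
-/

set_option autoImplicit false

noncomputable section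

open Finset Filter Topology
open scoped ENNReal
open Crest.Agent.R165.Packx915 Crest.Agent.R165.NSumx915 Crest.Agent.R165.TorWrapx723

namespace Crest.Agent.R165.Pinx723

/-- dominated convergence for growing sums -/
theorem tannery {ι : Type*} {l : Filter ι} {K : ι → ℕ} (hK : Tendsto K l atTop) {b : ℕ → ℝ}
    (hb0 : ∀ k, 0 ≤ b k) (hb : Summable b) {s : ι → ℕ → ℝ} {a : ℕ → ℝ}
    (hs : ∀ᶠ i in l, ∀ k < K i, |s i k| ≤ b k)
    (hlim : ∀ k, Tendsto (fun i => s i k) l (𝓝 (a k))) :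
    Tendsto (fun i => ∑ k ∈ Finset.range (K i), s i k) l (𝓝 (∑' k, a k)) := by
  have h1 : Tendsto (fun i => ∑' k, if k < K i then s i k else 0) l (𝓝 (∑' k, a k)) := by
    refine tendsto_tsum_of_dominated_convergence (bound := b) hb ?_ ?_
    · intro k
      refine (hlim k).congr' ?_
      filter_upwards [hK.eventually_gt_atTop k] with i hi
      rw [if_pos hi]
    · filter_upwards [hs] with i hi k
      by_cases hk : k < K i
      · rw [if_pos hk, Real.norm_eq_abs]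
        exact hi k hk
      · rw [if_neg hk, norm_zero]
        exact hb0 k
  refine h1.congr fun i => ?_
  rw [tsum_eq_sum (s := Finset.range (K i)) (fun k hk => by
    rw [Finset.mem_range] at hk; rw [if_neg hk])]
  exact Finset.sum_congr rfl fun k hk => by rw [if_pos (Finset.mem_range.1 hk)]

section pin

variable {X : Type*} {d : X → X → ℕ} {r R : ℕ} {Γ b : ℝ} {c : Finset X → ℝ} {x : X}

/-- mass of the large sets among the sets containing `x` -/
theorem pin_bound (hd : PD d) (hΓ : 1 ≤ Γ) (hb : 0 ≤ b)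
    (hN : NN d r (ENNReal.ofReal Γ) (fun U => ENNReal.ofReal |c U|) ≤ ENNReal.ofReal b)
    (hpin : ∀ U, c U ≠ 0 → x ∈ U) (m : ℕ) (p : Finset X → Prop) [DecidablePred p]
    (hp : ∀ U, p U → c U ≠ 0 → m ≤ pack d r U) :
    Summable (fun U => if p U then |c U| else 0) ∧
      ∑' U, (if p U then |c U| else 0) ≤ b / Γ ^ m := by
  classical
  have hΓ0 : 0 < Γ := by linarith
  have key : (∑' U : Finset X, ENNReal.ofReal ((if p U then |c U| else 0) * Γ ^ m)) ≤
      ENNReal.ofReal b := by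
    refine le_trans ?_ ((bs_le_NN (d := d) (r := r) (Γ := ENNReal.ofReal Γ)
      (fun U => ENNReal.ofReal |c U|) x).trans hN)
    refine ENNReal.tsum_le_tsum fun U => ?_
    by_cases hU : p U
    · by_cases h0 : c U = 0
      · rw [if_pos hU, h0, abs_zero, zero_mul, ENNReal.ofReal_zero]
        exact zero_le
      · rw [if_pos hU, Set.indicator_of_mem (by exact near_of_mem hd (hpin U h0)),
          mul_comm |c U|, ENNReal.ofReal_mul (by positivity), ENNReal.ofReal_pow hΓ0.le]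
        refine mul_le_mul_left ?_ _
        exact pow_le_pow_right₀
          (by rw [← ENNReal.ofReal_one]; exact ENNReal.ofReal_le_ofReal hΓ) (hp U hU h0)
    · rw [if_neg hU, zero_mul, ENNReal.ofReal_zero]
      exact zero_le
  have hnn : ∀ U, 0 ≤ (if p U then |c U| else 0) * Γ ^ m := fun U => by
    split_ifs <;> positivity
  have hs : Summable fun U => (if p U then |c U| else 0) * Γ ^ m := by
    have h1 := ENNReal.summable_toReal (ne_top_of_le_ne_top ENNReal.ofReal_ne_top key)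
    refine h1.congr fun U => ?_
    rw [ENNReal.toReal_ofReal (hnn U)]
  have hs' : Summable fun U => (if p U then |c U| else 0) := by
    have := hs.mul_right (Γ ^ m)⁻¹
    refine this.congr fun U => ?_
    rw [mul_assoc, mul_inv_cancel₀ (pow_pos hΓ0 m).ne', mul_one]
  refine ⟨hs', ?_⟩
  rw [le_div_iff₀ (pow_pos hΓ0 m), ← tsum_mul_right]
  rw [← ENNReal.ofReal_le_ofReal_iff hb, ENNReal.ofReal_tsum_of_nonneg hnn hs]
  exact key

theorem pin_summable (hd : PD d) (hΓ : 1 ≤ Γ) (hb : 0 ≤ b)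
    (hN : NN d r (ENNReal.ofReal Γ) (fun U => ENNReal.ofReal |c U|) ≤ ENNReal.ofReal b)
    (hpin : ∀ U, c U ≠ 0 → x ∈ U) : Summable (fun U => |c U|) ∧ ∑' U, |c U| ≤ b := by
  have h := pin_bound hd hΓ hb hN hpin 0 (fun _ => True) (fun _ _ _ => Nat.zero_le _)
  simpa using h

/-- the total minus the part inside a set which contains all points at distance `≤ D` -/
theorem pin_inside (hd : PD d) (hΓ : 1 ≤ Γ) (hb : 0 ≤ b)
    (hN : NN d r (ENNReal.ofReal Γ) (fun U => ENNReal.ofReal |c U|) ≤ ENNReal.ofReal b)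
    (hpin : ∀ U, c U ≠ 0 → x ∈ U) (hconn : ∀ U, c U ≠ 0 → Packx915.Conn d R U) (m : ℕ)
    (B : Finset X) (hB : ∀ g, d x g ≤ m * (r + R + 1) → g ∈ B) :
    |∑' U, c U - ∑ U ∈ B.powerset, c U| ≤ b / Γ ^ m := by
  classical
  have h := pin_bound hd hΓ hb hN hpin m (fun U => ¬ U ⊆ B) (fun U hU hc => by
    rw [Finset.not_subset] at hU
    obtain ⟨u, hu, hnu⟩ := hU
    have h1 : m * (r + R + 1) < d x u := by
      by_contra hcon
      exact hnu (hB u (not_lt.1 hcon))
    have h2 := pack_ge hd (hconn U hc) (hpin U hc) hu h1.le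
    omega)
  have hs := (pin_summable hd hΓ hb hN hpin).1.of_abs
  have h1 : ∑' U, c U = ∑ U ∈ B.powerset, c U + ∑' U, (if ¬ U ⊆ B then c U else 0) := by
    have e1 : ∑ U ∈ B.powerset, c U = ∑' U, (if U ⊆ B then c U else 0) := by
      rw [tsum_eq_sum (s := B.powerset) (fun U hU => by
        rw [Finset.mem_powerset] at hU; rw [if_neg hU])]
      exact Finset.sum_congr rfl fun U hU => by rw [if_pos (Finset.mem_powerset.1 hU)]
    have s1 : Summable fun U : Finset X => (if U ⊆ B then c U else 0) := by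
      refine summable_of_ne_finset_zero (s := B.powerset) fun U hU => ?_
      rw [Finset.mem_powerset] at hU
      rw [if_neg hU]
    have s2 : Summable fun U : Finset X => (if ¬ U ⊆ B then c U else 0) := by
      refine Summable.of_norm_bounded h.1 fun U => ?_
      split_ifs <;> simp
    rw [e1, ← s1.tsum_add s2]
    refine tsum_congr fun U => ?_
    by_cases hU : U ⊆ B
    · rw [if_pos hU, if_neg (not_not.2 hU), add_zero]
    · rw [if_neg hU, if_pos hU, zero_add]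
  rw [h1, add_sub_cancel_left]
  refine le_trans ?_ h.2
  have h2 := norm_tsum_le_tsum_norm (f := fun U : Finset X => (if ¬ U ⊆ B then c U else 0)) (by
    refine h.1.congr fun U => ?_
    split_ifs <;> simp)
  rw [← Real.norm_eq_abs]
  refine h2.trans (le_of_eq (tsum_congr fun U => ?_))
  split_ifs <;> simp

end pin

/-- transport of a sum over subsets by an injective map -/
theorem sum_powerset_image {X Y : Type*} [DecidableEq X] (B : Finset Y) (π : Y → X)
    (hinj : Set.InjOn π (B : Set Y)) (c : Finset X → ℝ) :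
    ∑ U ∈ (B.image π).powerset, c U = ∑ V ∈ B.powerset, c (V.image π) := by
  classical
  symm
  refine Finset.sum_bij (fun V _ => V.image π) ?_ ?_ ?_ ?_
  · intro V hV
    rw [Finset.mem_powerset] at hV ⊢
    exact Finset.image_subset_image hV
  · intro V hV W hW h
    rw [Finset.mem_powerset] at hV hW
    ext v
    constructor
    · intro hv
      have : π v ∈ W.image π := by
        rw [← h]; exact Finset.mem_image_of_mem _ hv
      obtain ⟨w, hw, hwv⟩ := Finset.mem_image.1 this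
      have := hinj (Finset.mem_coe.2 (hW hw)) (Finset.mem_coe.2 (hV hv)) hwv
      rwa [← this]
    · intro hv
      have : π v ∈ V.image π := by
        rw [h]; exact Finset.mem_image_of_mem _ hv
      obtain ⟨w, hw, hwv⟩ := Finset.mem_image.1 this
      have := hinj (Finset.mem_coe.2 (hV hw)) (Finset.mem_coe.2 (hW hv)) hwv
      rwa [← this]
  · intro U hU
    rw [Finset.mem_powerset] at hU
    refine ⟨B.filter (fun v => π v ∈ U), Finset.mem_powerset.2 (Finset.filter_subset _ _), ?_⟩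
    ext u
    rw [Finset.mem_image]
    constructor
    · rintro ⟨v, hv, rfl⟩
      exact (Finset.mem_filter.1 hv).2
    · intro hu
      obtain ⟨v, hv, rfl⟩ := Finset.mem_image.1 (hU hu)
      exact ⟨v, Finset.mem_filter.2 ⟨hv, hu⟩, rfl⟩
  · intro V _; rfl

/-- growing systems `X i` exhausting `Y` around the point `y` -/
structure Exh {ι : Type*} (l : Filter ι) {X : ι → Type*} [∀ i, DecidableEq (X i)]
    (d : ∀ i, X i → X i → ℕ) {Y : Type*} (dY : Y → Y → ℕ) (x : ∀ i, X i) (y : Y)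
    (π : ∀ i, Y → X i) (B : ℕ → Finset Y) : Prop where
  pd : ∀ i, PD (d i)
  pdY : PD dY
  mem_B : ∀ D g, g ∈ B D ↔ dY y g ≤ D
  inj : ∀ D, ∀ᶠ i in l, Set.InjOn (π i) (B D : Set Y)
  surj : ∀ D, ∀ᶠ i in l, ∀ g, d i (x i) g ≤ D → g ∈ (B D).image (π i)

section exh

variable {ι : Type*} {l : Filter ι} {X : ι → Type*} [∀ i, DecidableEq (X i)]
  {d : ∀ i, X i → X i → ℕ} {Y : Type*} {dY : Y → Y → ℕ} {x : ∀ i, X i} {y : Y}
  {π : ∀ i, Y → X i} {B : ℕ → Finset Y}

/-- **one scale** -/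
theorem pin_scale (he : Exh l d dY x y π B) {r R : ℕ} {Γ b : ℝ} (hΓ : 1 < Γ) (hb : 0 ≤ b)
    {c : ∀ i, Finset (X i) → ℝ} {cP : Finset Y → ℝ}
    (hN : ∀ᶠ i in l, NN (d i) r (ENNReal.ofReal Γ) (fun U => ENNReal.ofReal |c i U|) ≤
      ENNReal.ofReal b)
    (hNP : NN dY r (ENNReal.ofReal Γ) (fun U => ENNReal.ofReal |cP U|) ≤ ENNReal.ofReal b)
    (hpin : ∀ᶠ i in l, ∀ U, c i U ≠ 0 → x i ∈ U) (hpinP : ∀ U, cP U ≠ 0 → y ∈ U)
    (hconn : ∀ᶠ i in l, ∀ U, c i U ≠ 0 → Packx915.Conn (d i) R U)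
    (hconnP : ∀ U, cP U ≠ 0 → Packx915.Conn dY R U)
    (hloc : ∀ D, ∀ᶠ i in l, ∀ U ⊆ B D, c i (U.image (π i)) = cP U) :
    Tendsto (fun i => ∑' U, c i U) l (𝓝 (∑' U, cP U)) := by
  rw [Metric.tendsto_nhds]
  intro ε hε
  obtain ⟨m, hm⟩ : ∃ m : ℕ, b / Γ ^ m < ε / 2 := by
    have h1 : Tendsto (fun m : ℕ => b / Γ ^ m) atTop (𝓝 0) :=
      tendsto_const_nhds.div_atTop (tendsto_pow_atTop_atTop_of_one_lt hΓ)
    exact (h1.eventually (gt_mem_nhds (by positivity))).exists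
  set D := m * (r + R + 1) with hD
  filter_upwards [hN, hpin, hconn, hloc D, he.inj D, he.surj D] with i h1 h2 h3 h4 h5 h6
  have e1 := pin_inside (he.pd i) hΓ.le hb h1 h2 h3 m ((B D).image (π i)) (fun g hg => h6 g hg)
  have e2 := pin_inside he.pdY hΓ.le hb hNP hpinP hconnP m (B D)
    (fun g hg => (he.mem_B D g).2 hg)
  have e3 : ∑ U ∈ ((B D).image (π i)).powerset, c i U = ∑ U ∈ (B D).powerset, cP U := by
    rw [sum_powerset_image (B D) (π i) h5]
    exact Finset.sum_congr rfl fun U hU => h4 U (Finset.mem_powerset.1 hU)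
  rw [e3] at e1
  rw [Real.dist_eq]
  have e4 : ∑' U, c i U - ∑' U, cP U =
      (∑' U, c i U - ∑ U ∈ (B D).powerset, cP U) - (∑' U, cP U - ∑ U ∈ (B D).powerset, cP U) := by
    ring
  rw [e4]
  refine lt_of_le_of_lt (abs_sub _ _) ?_
  linarith

/-- **all scales**: pinned constants of growing systems converge to the constants of the limit
system -/
theorem tendsto_pin (he : Exh l d dY x y π B) {K : ι → ℕ} (hK : Tendsto K l atTop)
    {r R : ℕ → ℕ} {Γ : ℝ} (hΓ : 1 < Γ) {b : ℕ → ℝ} (hb0 : ∀ k, 0 ≤ b k) (hb : Summable b)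
    {c : ∀ i, ℕ → Finset (X i) → ℝ} {cP : ℕ → Finset Y → ℝ}
    (hN : ∀ᶠ i in l, ∀ k < K i,
      NN (d i) (r k) (ENNReal.ofReal Γ) (fun U => ENNReal.ofReal |c i k U|) ≤ ENNReal.ofReal (b k))
    (hNP : ∀ k, NN dY (r k) (ENNReal.ofReal Γ) (fun U => ENNReal.ofReal |cP k U|) ≤
      ENNReal.ofReal (b k))
    (hpin : ∀ᶠ i in l, ∀ k < K i, ∀ U, c i k U ≠ 0 → x i ∈ U)
    (hpinP : ∀ k U, cP k U ≠ 0 → y ∈ U)
    (hconn : ∀ᶠ i in l, ∀ k < K i, ∀ U, c i k U ≠ 0 → Packx915.Conn (d i) (R k) U)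
    (hconnP : ∀ k U, cP k U ≠ 0 → Packx915.Conn dY (R k) U)
    (hloc : ∀ k D, ∀ᶠ i in l, ∀ U ⊆ B D, c i k (U.image (π i)) = cP k U) :
    Tendsto (fun i => ∑ k ∈ Finset.range (K i), ∑' U, c i k U) l (𝓝 (∑' k, ∑' U, cP k U)) := by
  refine tannery hK hb0 hb ?_ fun k => ?_
  · filter_upwards [hN, hpin] with i h1 h2 k hk
    have h := pin_summable (he.pd i) hΓ.le (hb0 k) (h1 k hk) (h2 k hk)
    refine le_trans ?_ h.2
    rw [← Real.norm_eq_abs]
    refine (norm_tsum_le_tsum_norm (by simpa [Real.norm_eq_abs] using h.1)).trans (le_of_eq ?_)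
    simp [Real.norm_eq_abs]
  · have hk := hK.eventually_gt_atTop k
    exact pin_scale he (r := r k) (R := R k) hΓ (hb0 k)
      (by filter_upwards [hN, hk] with i h1 h2 using h1 k h2) (hNP k)
      (by filter_upwards [hpin, hk] with i h1 h2 using h1 k h2) (hpinP k)
      (by filter_upwards [hconn, hk] with i h1 h2 using h1 k h2) (hconnP k) (hloc k)

end exh

/-! ### the two instances -/

open Crest.Agent.R165.Latx683 Crest.Agent.R165.GDefx387 Crest.Agent.R165.MetGx723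
  Crest.Agent.R165.TorTanx723

/-- growing tori around the face `f₀` -/
theorem exh_tor (f₀ : ℤ × ℤ) :
    Exh (atTop : Filter ℕ) (X := fun L => ZMod (L + 1) × ZMod (L + 1)) (fun _ => fd)
      (fd : ℤ × ℤ → ℤ × ℤ → ℕ) (fun L => pr (L + 1) f₀) f₀ (fun L => pr (L + 1))
      (fun D => boxG f₀ D) where
  pd _ := pd_fd
  pdY := pd_fd
  mem_B _ _ := mem_box_iff
  inj D := by
    filter_upwards [eventually_ge_atTop (2 * D)] with L hL
    exact injOn_box (by omega)
  surj D := by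
    refine Eventually.of_forall fun L g hg => ?_
    rw [image_box]
    exact mem_box_iff'.2 hg

/-- growing subsets of the plane (discs), around the face `f₀` -/
theorem exh_id {ι : Type*} (l : Filter ι) (f₀ : ℤ × ℤ) :
    Exh l (X := fun _ : ι => ℤ × ℤ) (fun _ => fd) (fd : ℤ × ℤ → ℤ × ℤ → ℕ) (fun _ => f₀) f₀
      (fun _ => id) (fun D => boxG f₀ D) where
  pd _ := pd_fd
  pdY := pd_fd
  mem_B _ _ := mem_box_iff
  inj D := Eventually.of_forall fun _ _ _ _ _ h => h
  surj D := Eventually.of_forall fun _ g hg => by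
    rw [Finset.image_id]
    exact mem_box_iff.2 hg

/-- **all scales, plane systems** (discs, domains around a point) -/
theorem tendsto_pin_id {ι : Type*} {l : Filter ι} (f₀ : ℤ × ℤ) {K : ι → ℕ}
    (hK : Tendsto K l atTop) {r R : ℕ → ℕ} {Γ : ℝ} (hΓ : 1 < Γ) {b : ℕ → ℝ}
    (hb0 : ∀ k, 0 ≤ b k) (hb : Summable b)
    {c : ι → ℕ → Finset (ℤ × ℤ) → ℝ} {cP : ℕ → Finset (ℤ × ℤ) → ℝ}
    (hN : ∀ᶠ i in l, ∀ k < K i,
      NN fd (r k) (ENNReal.ofReal Γ) (fun U => ENNReal.ofReal |c i k U|) ≤ ENNReal.ofReal (b k))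
    (hNP : ∀ k, NN fd (r k) (ENNReal.ofReal Γ) (fun U => ENNReal.ofReal |cP k U|) ≤
      ENNReal.ofReal (b k))
    (hpin : ∀ᶠ i in l, ∀ k < K i, ∀ U, c i k U ≠ 0 → f₀ ∈ U)
    (hpinP : ∀ k U, cP k U ≠ 0 → f₀ ∈ U)
    (hconn : ∀ᶠ i in l, ∀ k < K i, ∀ U, c i k U ≠ 0 → Packx915.Conn fd (R k) U)
    (hconnP : ∀ k U, cP k U ≠ 0 → Packx915.Conn fd (R k) U)
    (hloc : ∀ k D, ∀ᶠ i in l, ∀ U ⊆ boxG f₀ D, c i k U = cP k U) :
    Tendsto (fun i => ∑ k ∈ Finset.range (K i), ∑' U, c i k U) l (𝓝 (∑' k, ∑' U, cP k U)) := by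
  refine tendsto_pin (exh_id l f₀) hK hΓ hb0 hb hN hNP hpin hpinP hconn hconnP fun k D => ?_
  filter_upwards [hloc k D] with i hi U hU
  rw [Finset.image_id]
  exact hi U hU

/-- **all scales, tori** -/
theorem tendsto_pin_tor (f₀ : ℤ × ℤ) {K : ℕ → ℕ}
    (hK : Tendsto K atTop atTop) {r R : ℕ → ℕ} {Γ : ℝ} (hΓ : 1 < Γ) {b : ℕ → ℝ}
    (hb0 : ∀ k, 0 ≤ b k) (hb : Summable b)
    {c : (L : ℕ) → ℕ → Finset (ZMod (L + 1) × ZMod (L + 1)) → ℝ}
    {cP : ℕ → Finset (ℤ × ℤ) → ℝ}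
    (hN : ∀ᶠ L in atTop, ∀ k < K L,
      NN fd (r k) (ENNReal.ofReal Γ) (fun U => ENNReal.ofReal |c L k U|) ≤ ENNReal.ofReal (b k))
    (hNP : ∀ k, NN fd (r k) (ENNReal.ofReal Γ) (fun U => ENNReal.ofReal |cP k U|) ≤
      ENNReal.ofReal (b k))
    (hpin : ∀ᶠ L in atTop, ∀ k < K L, ∀ U, c L k U ≠ 0 → pr (L + 1) f₀ ∈ U)
    (hpinP : ∀ k U, cP k U ≠ 0 → f₀ ∈ U)
    (hconn : ∀ᶠ L in atTop, ∀ k < K L, ∀ U, c L k U ≠ 0 → Packx915.Conn fd (R k) U)
    (hconnP : ∀ k U, cP k U ≠ 0 → Packx915.Conn fd (R k) U)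
    (hloc : ∀ k D, ∀ᶠ L in atTop, ∀ U ⊆ boxG f₀ D, c L k (U.image (pr (L + 1))) = cP k U) :
    Tendsto (fun L => ∑ k ∈ Finset.range (K L), ∑ U, c L k U) atTop
      (𝓝 (∑' k, ∑' U, cP k U)) := by
  have h := tendsto_pin (exh_tor f₀) hK hΓ hb0 hb hN hNP hpin hpinP hconn hconnP hloc
  refine h.congr fun L => Finset.sum_congr rfl fun k _ => ?_
  rw [tsum_fintype]

end Crest.Agent.R165.Pinx723
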