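import Crest.Agent.R165.Lat_683
import Crest.Agent.R165.Tr1_40

/-!
# Row 165 (S0250), plane clause at `lam = 0` (helper654): uniqueness in the branched plane

* `cu`, `cw`, `A_cu`: bridge from `Lat_683` (`HE ℤ → ℝ`, `BW ℤ`, `Aop`) to `Tr1_40`
* `uniq_of_bound`: all weights `±x_c`, `A φ = 0`, `|φ h| ≤ C / (1 + |h|)`  ⟹  `φ = 0`
-/

set_option autoImplicit false

noncomputable section

namespace Crest.Agent.R165.Pl0x654

open Finset Filter Topology
open Crest.Agent.R165.Latx683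
open Crest.Agent.R165

/-- field of `Tr1_40` from a field on half-edges -/
def cu (φ : HE ℤ → ℝ) : Tr1x40.Fld := fun f h => φ (f, h)

/-- weights of `Tr1_40` from bond weights -/
def cw (w : BW ℤ) : Tr1x40.Fld := Tr1x40.ofEN (yE w) (yN w)

theorem sym_cw (w : BW ℤ) : Tr1x40.Sym (cw w) := Tr1x40.sym_ofEN _ _

theorem A_cu (w : BW ℤ) (φ : HE ℤ → ℝ) (f : ℤ × ℤ) (h : Fin 4) :
    Tr1x40.A (cw w) (cu φ) f h = Aop w φ (f, h) := by
  fin_cases h
  · exact (Tr1x40.A_S _ _ _).trans rfl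
  · exact (Tr1x40.A_E _ _ _).trans rfl
  · exact (Tr1x40.A_N _ _ _).trans rfl
  · exact (Tr1x40.A_W _ _ _).trans rfl

theorem xc_eq : Latx683.xc = Tr1x40.xc := rfl

theorem xc_pos : 0 < xc := Tr1x40.xc_pos

/-- all weights are `± x_c` -/
def Crit (w : BW ℤ) : Prop := ∀ z j, w z j ^ 2 = xc ^ 2

theorem Crit.cw {w : BW ℤ} (hw : Crit w) (f : ℤ × ℤ) (h : Fin 4) :
    cw w f h ^ 2 = Tr1x40.xc ^ 2 := by
  fin_cases h
  · exact hw _ _
  · exact hw _ _
  · exact hw _ _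
  · exact hw _ _

/-! ### light vectors -/

theorem ph_zero_of_hv {p : Fin 4 → ℝ} (hp : Tr1x40.hv p = 0) (h : Fin 4) : Tr1x40.Ph p h = 0 := by
  rw [Tr1x40.hv_eq_nsq, Tr1x40.nsq] at hp
  have := (Finset.sum_eq_zero_iff_of_nonneg (fun i _ => sq_nonneg (Tr1x40.Ph p i))).1 hp h
    (Finset.mem_univ h)
  exact pow_eq_zero_iff (two_ne_zero) |>.1 this

/-- a light vector satisfies `x²p_h² + (A0 p)_h² = x²|p|²/2` for every `h` -/
theorem light_row {p : Fin 4 → ℝ} (hp : Tr1x40.hv p = 0) (h : Fin 4) :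
    Tr1x40.xc ^ 2 * p h ^ 2 + Tr1x40.A0 p h ^ 2 = Tr1x40.xc ^ 2 * (Tr1x40.nsq p / 2) := by
  have h0 := ph_zero_of_hv hp 0
  have h1 := ph_zero_of_hv hp 1
  have h2 := ph_zero_of_hv hp 2
  have h3 := ph_zero_of_hv hp 3
  simp only [Tr1x40.Ph, Tr1x40.inv_2sq2] at h0 h1 h2 h3
  have s2 := Tr1x40.sq2
  set r := Real.sqrt 2 with hr
  -- p 0 = -(p 1 - p 3) r / 2 etc.
  have e0 : p 0 = -(p 1 - p 3) * r / 2 := by linarith
  have e2 : p 2 = -(p 1 + p 3) * r / 2 := by linarith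
  have hx : Tr1x40.xc = r - 1 := rfl
  rw [Tr1x40.nsq_eq]
  have hA : ∀ h : Fin 4, Tr1x40.A0 p h ^ 2 = Tr1x40.xc ^ 2 * (p (Tr1x40.op h)) ^ 2 := by
    intro h
    have key : Tr1x40.A0 p h = Tr1x40.xc * p (Tr1x40.op h) ∨
        Tr1x40.A0 p h = -(Tr1x40.xc * p (Tr1x40.op h)) := by
      fin_cases h
      · right
        simp only [Fin.zero_eta, Tr1x40.A0_zero, Tr1x40.op_zero, hx]
        rw [e2]; linear_combination (-(p 1 + p 3) / 2) * s2
      · right
        simp only [Fin.mk_one, Tr1x40.A0_one, Tr1x40.op_one, hx]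
        rw [e0, e2]; ring
      · left
        simp only [Fin.reduceFinMk, Tr1x40.A0_two, Tr1x40.op_two, hx]
        rw [e0]; linear_combination ((p 1 - p 3) / 2) * s2
      · left
        simp only [Fin.reduceFinMk, Tr1x40.A0_three, Tr1x40.op_three, hx]
        rw [e0, e2]; ring
    rcases key with h | h <;> rw [h] <;> ring
  have h02 : p 0 ^ 2 + p 2 ^ 2 = p 1 ^ 2 + p 3 ^ 2 := by
    rw [e0, e2]; linear_combination ((p 1 ^ 2 + p 3 ^ 2) / 2) * s2
  rw [hA h]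
  fin_cases h
  · simp only [Fin.zero_eta, Tr1x40.op_zero]; linear_combination (Tr1x40.xc ^ 2 / 2) * h02
  · simp only [Fin.mk_one, Tr1x40.op_one]; linear_combination (-Tr1x40.xc ^ 2 / 2) * h02
  · simp only [Fin.reduceFinMk, Tr1x40.op_two]; linear_combination (Tr1x40.xc ^ 2 / 2) * h02
  · simp only [Fin.reduceFinMk, Tr1x40.op_three]; linear_combination (-Tr1x40.xc ^ 2 / 2) * h02

/-- neighbouring light vectors of a solution have the same norm -/
theorem nsq_nb {w φ : Tr1x40.Fld} (hs : Tr1x40.Sym w) (hw : ∀ f h, w f h ^ 2 = Tr1x40.xc ^ 2)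
    (hl : ∀ f, Tr1x40.hv (φ f) = 0) (hA : ∀ f h, Tr1x40.A w φ f h = 0) (f : ℤ × ℤ) (h : Fin 4) :
    Tr1x40.nsq (φ (Tr1x40.nb f h)) = Tr1x40.nsq (φ f) := by
  have l1 := light_row (hl f) h
  have l2 := light_row (hl (Tr1x40.nb f h)) (Tr1x40.op h)
  have a1 := hA f h
  have a2 := hA (Tr1x40.nb f h) (Tr1x40.op h)
  unfold Tr1x40.A Tr1x40.Y at a1 a2
  rw [Tr1x40.nb_nb_op, Tr1x40.op_op, hs f h] at a2
  have b1 : Tr1x40.A0 (φ f) h ^ 2 = Tr1x40.xc ^ 2 * φ (Tr1x40.nb f h) (Tr1x40.op h) ^ 2 := by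
    have : Tr1x40.A0 (φ f) h = -(Tr1x40.sg h * w f h * φ (Tr1x40.nb f h) (Tr1x40.op h)) := by
      linarith
    rw [this]
    have e : (-(Tr1x40.sg h * w f h * φ (Tr1x40.nb f h) (Tr1x40.op h))) ^ 2
      = Tr1x40.sg h ^ 2 * w f h ^ 2 * φ (Tr1x40.nb f h) (Tr1x40.op h) ^ 2 := by ring
    rw [e, Tr1x40.sg_sq, one_mul, hw]
  have b2 : Tr1x40.A0 (φ (Tr1x40.nb f h)) (Tr1x40.op h) ^ 2 = Tr1x40.xc ^ 2 * φ f h ^ 2 := by
    have : Tr1x40.A0 (φ (Tr1x40.nb f h)) (Tr1x40.op h)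
      = -(Tr1x40.sg (Tr1x40.op h) * w f h * φ f h) := by linarith
    rw [this]
    have e : (-(Tr1x40.sg (Tr1x40.op h) * w f h * φ f h)) ^ 2
      = Tr1x40.sg (Tr1x40.op h) ^ 2 * w f h ^ 2 * φ f h ^ 2 := by ring
    rw [e, Tr1x40.sg_sq, one_mul, hw]
  rw [b1] at l1
  rw [b2] at l2
  have hx : Tr1x40.xc ^ 2 ≠ 0 := pow_ne_zero 2 (ne_of_gt Tr1x40.xc_pos)
  have : Tr1x40.xc ^ 2 * (Tr1x40.nsq (φ (Tr1x40.nb f h)) / 2)
      = Tr1x40.xc ^ 2 * (Tr1x40.nsq (φ f) / 2) := by rw [← l1, ← l2]; ring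
  have := mul_left_cancel₀ hx this
  linarith

/-! ### the logarithmic sum -/

theorem sum_inv_le (N : ℕ) :
    ∑ a ∈ Finset.Icc (-(N : ℤ)) N, (1 : ℝ) / (1 + |(a : ℝ)|) ≤ 2 * (1 + Real.log (N + 1)) := by
  have hsub : Finset.Icc (-(N : ℤ)) N ⊆
      (Finset.range (N + 1)).image (fun k : ℕ => (k : ℤ)) ∪
        (Finset.range (N + 1)).image (fun k : ℕ => -(k : ℤ)) := by
    intro a ha
    rw [Finset.mem_Icc] at ha
    rw [Finset.mem_union, Finset.mem_image, Finset.mem_image]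
    rcases le_or_gt 0 a with h | h
    · left
      refine ⟨a.toNat, ?_, by omega⟩
      rw [Finset.mem_range]; omega
    · right
      refine ⟨(-a).toNat, ?_, by omega⟩
      rw [Finset.mem_range]; omega
  have hnn : ∀ a : ℤ, (0 : ℝ) ≤ 1 / (1 + |(a : ℝ)|) := fun a => by positivity
  have h1 : ∑ a ∈ Finset.Icc (-(N : ℤ)) N, (1 : ℝ) / (1 + |(a : ℝ)|) ≤
      ∑ a ∈ (Finset.range (N + 1)).image (fun k : ℕ => (k : ℤ)) ∪
        (Finset.range (N + 1)).image (fun k : ℕ => -(k : ℤ)), (1 : ℝ) / (1 + |(a : ℝ)|) :=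
    Finset.sum_le_sum_of_subset_of_nonneg hsub fun a _ _ => hnn a
  have h2 : ∑ a ∈ (Finset.range (N + 1)).image (fun k : ℕ => (k : ℤ)) ∪
        (Finset.range (N + 1)).image (fun k : ℕ => -(k : ℤ)), (1 : ℝ) / (1 + |(a : ℝ)|) ≤
      ∑ a ∈ (Finset.range (N + 1)).image (fun k : ℕ => (k : ℤ)), (1 : ℝ) / (1 + |(a : ℝ)|) +
      ∑ a ∈ (Finset.range (N + 1)).image (fun k : ℕ => -(k : ℤ)), (1 : ℝ) / (1 + |(a : ℝ)|) := by
    rw [← Finset.sum_union_inter]
    have := Finset.sum_nonneg (s := (Finset.range (N + 1)).image (fun k : ℕ => (k : ℤ)) ∩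
        (Finset.range (N + 1)).image (fun k : ℕ => -(k : ℤ))) (fun a _ => hnn a)
    linarith
  have hh : ∑ k ∈ Finset.range (N + 1), (1 : ℝ) / (1 + (k : ℝ)) ≤ 1 + Real.log (N + 1) := by
    have h := harmonic_le_one_add_log (N + 1)
    have e : ((harmonic (N + 1) : ℚ) : ℝ) = ∑ k ∈ Finset.range (N + 1), (1 : ℝ) / (1 + (k : ℝ)) := by
      rw [harmonic]
      push_cast
      exact Finset.sum_congr rfl fun k _ => by rw [one_div, add_comm]
    rw [e] at h
    push_cast at h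
    exact h
  have h3 : ∑ a ∈ (Finset.range (N + 1)).image (fun k : ℕ => (k : ℤ)), (1 : ℝ) / (1 + |(a : ℝ)|)
      = ∑ k ∈ Finset.range (N + 1), (1 : ℝ) / (1 + (k : ℝ)) := by
    rw [Finset.sum_image (fun a _ b _ h => by simpa using h)]
    refine Finset.sum_congr rfl fun k _ => ?_
    simp
  have h4 : ∑ a ∈ (Finset.range (N + 1)).image (fun k : ℕ => -(k : ℤ)), (1 : ℝ) / (1 + |(a : ℝ)|)
      = ∑ k ∈ Finset.range (N + 1), (1 : ℝ) / (1 + (k : ℝ)) := by
    rw [Finset.sum_image (fun a _ b _ h => by simpa using h)]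
    refine Finset.sum_congr rfl fun k _ => ?_
    simp
  rw [h3, h4] at h2
  linarith

theorem sum_inv_sq_le (N : ℕ) :
    ∑ f ∈ Finset.Icc (-(N : ℤ)) N ×ˢ Finset.Icc (-(N : ℤ)) N,
      (1 / (1 + |(f.1 : ℝ)| + |(f.2 : ℝ)|)) ^ 2 ≤ (2 * (1 + Real.log (N + 1))) ^ 2 := by
  have h0 : 0 ≤ ∑ a ∈ Finset.Icc (-(N : ℤ)) N, (1 : ℝ) / (1 + |(a : ℝ)|) :=
    Finset.sum_nonneg fun a _ => by positivity
  calc ∑ f ∈ Finset.Icc (-(N : ℤ)) N ×ˢ Finset.Icc (-(N : ℤ)) N,
      (1 / (1 + |(f.1 : ℝ)| + |(f.2 : ℝ)|)) ^ 2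
      ≤ ∑ f ∈ Finset.Icc (-(N : ℤ)) N ×ˢ Finset.Icc (-(N : ℤ)) N,
        (1 / (1 + |(f.1 : ℝ)|)) * (1 / (1 + |(f.2 : ℝ)|)) := by
        refine Finset.sum_le_sum fun f _ => ?_
        have ha := abs_nonneg (f.1 : ℝ)
        have hb := abs_nonneg (f.2 : ℝ)
        rw [div_pow, one_pow, div_mul_div_comm, one_mul]
        apply one_div_le_one_div_of_le (by positivity)
        nlinarith
    _ = (∑ a ∈ Finset.Icc (-(N : ℤ)) N, (1 : ℝ) / (1 + |(a : ℝ)|)) ^ 2 := by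
        rw [sq, Finset.sum_mul_sum, ← Finset.sum_product']
    _ ≤ _ := pow_le_pow_left₀ h0 (sum_inv_le N) 2

theorem tendsto_log_sq_div :
    Tendsto (fun N : ℕ => (2 * (1 + Real.log ((N : ℝ) + 1 + 1))) ^ 2 / (N : ℝ)) atTop (𝓝 0) := by
  have h1 : Tendsto (fun x : ℝ => Real.log x ^ 2 / x) atTop (𝓝 0) := by
    have h := Real.isLittleO_pow_log_id_atTop (n := 2)
    exact h.tendsto_div_nhds_zero
  -- bound: for large N, 2(1+log(N+2)) ≤ 2 (1 + 2 log N) ≤ 6 log N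
  have h2 : Tendsto (fun N : ℕ => 36 * (Real.log (N : ℝ) ^ 2 / (N : ℝ))) atTop (𝓝 0) := by
    have := (h1.comp tendsto_natCast_atTop_atTop).const_mul 36
    simpa using this
  refine squeeze_zero' ?_ ?_ h2
  · filter_upwards [eventually_gt_atTop 0] with N hN
    positivity
  · filter_upwards [eventually_ge_atTop 4] with N hN
    have hN' : (4 : ℝ) ≤ N := by exact_mod_cast hN
    have hNpos : (0 : ℝ) < N := by linarith
    have hlog1 : 1 ≤ Real.log (N : ℝ) := by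
      rw [Real.le_log_iff_exp_le hNpos]
      have := Real.exp_one_lt_d9
      linarith
    have hlog2 : Real.log ((N : ℝ) + 1 + 1) ≤ 2 * Real.log (N : ℝ) := by
      have h3 : (N : ℝ) + 1 + 1 ≤ (N : ℝ) ^ 2 := by nlinarith
      calc Real.log ((N : ℝ) + 1 + 1) ≤ Real.log ((N : ℝ) ^ 2) :=
            Real.log_le_log (by positivity) h3
        _ = 2 * Real.log (N : ℝ) := by rw [Real.log_pow]; norm_num
    have hlog0 : 0 ≤ Real.log ((N : ℝ) + 1 + 1) := Real.log_nonneg (by linarith)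
    have h4 : 2 * (1 + Real.log ((N : ℝ) + 1 + 1)) ≤ 6 * Real.log (N : ℝ) := by linarith
    have h5 : (2 * (1 + Real.log ((N : ℝ) + 1 + 1))) ^ 2 ≤ (6 * Real.log (N : ℝ)) ^ 2 :=
      pow_le_pow_left₀ (by positivity) h4 2
    rw [← mul_div_assoc]
    apply div_le_div_of_nonneg_right _ hNpos.le
    calc _ ≤ _ := h5
      _ = _ := by ring

/-! ### uniqueness -/

/-- the cut-off `max (0, 1 - |f| / R)` -/
def cutR (R : ℕ) (f : ℤ × ℤ) : ℝ := max 0 (1 - (|(f.1 : ℝ)| + |(f.2 : ℝ)|) / R)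

theorem cutR_nonneg (R : ℕ) (f : ℤ × ℤ) : 0 ≤ cutR R f := le_max_left _ _

theorem cutR_eq_zero {R : ℕ} (hR : 0 < R) {f : ℤ × ℤ} (hf : (R : ℝ) ≤ |(f.1 : ℝ)| + |(f.2 : ℝ)|) :
    cutR R f = 0 := by
  unfold cutR
  apply max_eq_left
  have hR' : (0 : ℝ) < R := by exact_mod_cast hR
  have : 1 ≤ (|(f.1 : ℝ)| + |(f.2 : ℝ)|) / R := by rwa [le_div_iff₀ hR', one_mul]
  linarith

theorem abs_nb (f : ℤ × ℤ) (h : Fin 4) :
    |(|((Tr1x40.nb f h).1 : ℝ)| + |((Tr1x40.nb f h).2 : ℝ)|) - (|(f.1 : ℝ)| + |(f.2 : ℝ)|)| ≤ 1 := by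
  have key : ∀ a c : ℝ, |c| = 1 → |(|a + c| - |a|)| ≤ 1 := by
    intro a c hc
    calc |(|a + c| - |a|)| ≤ |(a + c) - a| := abs_abs_sub_abs_le _ _
      _ = 1 := by rw [add_sub_cancel_left, hc]
  fin_cases h
  · have := key (f.2 : ℝ) (-1) (by norm_num)
    simp only [Fin.zero_eta, Tr1x40.nb_zero]
    push_cast
    rw [sub_eq_add_neg] 
    convert this using 2
    ring_nf
  · have := key (f.1 : ℝ) 1 (by norm_num)
    simp only [Fin.mk_one, Tr1x40.nb_one]
    push_cast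
    convert this using 2
    ring_nf
  · have := key (f.2 : ℝ) 1 (by norm_num)
    simp only [Fin.reduceFinMk, Tr1x40.nb_two]
    push_cast
    convert this using 2
    ring_nf
  · have := key (f.1 : ℝ) (-1) (by norm_num)
    simp only [Fin.reduceFinMk, Tr1x40.nb_three]
    push_cast
    convert this using 2
    ring_nf

theorem cutR_nb {R : ℕ} (hR : 0 < R) (f : ℤ × ℤ) (h : Fin 4) :
    cutR R (Tr1x40.nb f h) - cutR R f ≤ 1 / R := by
  have hR' : (0 : ℝ) < R := by exact_mod_cast hR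
  have h1 := (abs_le.1 (abs_nb f h)).1
  have h2 : (1 : ℝ) - (|((Tr1x40.nb f h).1 : ℝ)| + |((Tr1x40.nb f h).2 : ℝ)|) / R ≤
      (1 - (|(f.1 : ℝ)| + |(f.2 : ℝ)|) / R) + 1 / R := by
    rw [sub_add, ← sub_div]
    apply sub_le_sub_left
    apply div_le_div_of_nonneg_right _ hR'.le
    linarith
  have h3 := le_max_right 0 (1 - (|(f.1 : ℝ)| + |(f.2 : ℝ)|) / (R : ℝ))
  have h4 : 0 ≤ cutR R f := cutR_nonneg R f
  have h5 : (0 : ℝ) ≤ 1 / R := by positivity
  have : cutR R (Tr1x40.nb f h) ≤ cutR R f + 1 / R := by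
    apply max_le
    · linarith
    · unfold cutR; linarith
  linarith

/-- **uniqueness in the critical plane with arbitrary signs**: decaying null vectors vanish -/
theorem uniq_of_bound {w : BW ℤ} (hw : Crit w) (φ : HE ℤ → ℝ) (C : ℝ)
    (hφ : ∀ h : HE ℤ, |φ h| ≤ C * (1 / (1 + |(h.1.1 : ℝ)| + |(h.1.2 : ℝ)|)))
    (hA : ∀ h, Aop w φ h = 0) : φ = 0 := by
  have hA' : ∀ f h, Tr1x40.A (cw w) (cu φ) f h = 0 := fun f h => by rw [A_cu]; exact hA _
  -- heavy parts vanish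
  have hv0 : ∀ f, Tr1x40.hv (cu φ f) = 0 := by
    intro f₀
    have hmain : ∀ R : ℕ, 0 < R → cutR R f₀ * Tr1x40.hv (cu φ f₀) ≤
        4 * C ^ 2 * ((2 * (1 + Real.log ((R : ℝ) + 1 + 1))) ^ 2 / R) := by
      intro R hR
      have hR' : (0 : ℝ) < R := by exact_mod_cast hR
      set K : Finset (ℤ × ℤ) := Finset.Icc (-((R + 1 : ℕ) : ℤ)) ((R + 1 : ℕ) : ℤ) ×ˢ
        Finset.Icc (-((R + 1 : ℕ) : ℤ)) ((R + 1 : ℕ) : ℤ) with hK
      have hout : ∀ f, f ∉ K → ((R : ℝ) + 1) ≤ |(f.1 : ℝ)| + |(f.2 : ℝ)| := by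
        intro f hf
        rw [hK, Finset.mem_product, Finset.mem_Icc, Finset.mem_Icc] at hf
        have : (R : ℤ) + 1 ≤ |f.1| + |f.2| := by
          by_contra hcon
          push Not at hcon
          apply hf
          have a1 := neg_abs_le f.1
          have a2 := le_abs_self f.1
          have b1 := neg_abs_le f.2
          have b2 := le_abs_self f.2
          have a3 := abs_nonneg f.1
          have b3 := abs_nonneg f.2
          push_cast
          constructor <;> constructor <;> omega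
        have h2 : (((R : ℤ) + 1 : ℤ) : ℝ) ≤ ((|f.1| + |f.2| : ℤ) : ℝ) := by exact_mod_cast this
        push_cast at h2
        exact h2
      have h1 : ∀ f, f ∉ K → cutR R f = 0 := fun f hf =>
        cutR_eq_zero hR (by linarith [hout f hf])
      have h2 : ∀ f, f ∉ K → ∀ h, cutR R (Tr1x40.nb f h) = 0 := fun f hf h =>
        cutR_eq_zero hR (by
          have := (abs_le.1 (abs_nb f h)).1
          linarith [hout f hf])
      have hT := Tr1x40.Tloc (cw w) (cu φ) (sym_cw w) (cutR R) K h1 h2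
      have hL : ∑ f ∈ K, cutR R f * (4 * Real.sqrt 2 * Tr1x40.hv (cu φ f) +
          ∑ h, (Tr1x40.xc ^ 2 - cw w f h ^ 2) * cu φ f h ^ 2) =
          ∑ f ∈ K, cutR R f * (4 * Real.sqrt 2 * Tr1x40.hv (cu φ f)) := by
        refine Finset.sum_congr rfl fun f _ => ?_
        congr 1
        simp [hw.cw]
      have hRz : ∑ f ∈ K, cutR R f * (2 * ∑ h, Tr1x40.A0 (cu φ f) h * Tr1x40.A (cw w) (cu φ) f h -
          Tr1x40.nsq (Tr1x40.A (cw w) (cu φ) f)) = 0 := by
        refine Finset.sum_eq_zero fun f _ => ?_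
        simp [hA', Tr1x40.nsq]
      rw [hL, hRz, zero_add] at hT
      -- bound the flux
      have hflux : ∑ f ∈ K, ∑ h, (cutR R (Tr1x40.nb f h) - cutR R f) *
          (cw w f h ^ 2 * cu φ f h ^ 2) ≤
          ∑ f ∈ K, 4 * (C ^ 2 * (1 / (1 + |(f.1 : ℝ)| + |(f.2 : ℝ)|)) ^ 2 * (1 / R)) := by
        refine Finset.sum_le_sum fun f _ => ?_
        calc ∑ h, (cutR R (Tr1x40.nb f h) - cutR R f) * (cw w f h ^ 2 * cu φ f h ^ 2)
            ≤ ∑ _h : Fin 4, (C ^ 2 * (1 / (1 + |(f.1 : ℝ)| + |(f.2 : ℝ)|)) ^ 2 * (1 / R)) := by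
              refine Finset.sum_le_sum fun h _ => ?_
              rw [hw.cw]
              have hx2 : Tr1x40.xc ^ 2 ≤ 1 := by
                have := Tr1x40.xc_lt_one
                have := Tr1x40.xc_pos
                nlinarith
              have hx0 : 0 ≤ Tr1x40.xc ^ 2 := sq_nonneg _
              have hb : cu φ f h ^ 2 ≤ C ^ 2 * (1 / (1 + |(f.1 : ℝ)| + |(f.2 : ℝ)|)) ^ 2 := by
                have := hφ (f, h)
                rw [← mul_pow, ← sq_abs (cu φ f h)]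
                exact pow_le_pow_left₀ (abs_nonneg _) this 2
              have hb2 : Tr1x40.xc ^ 2 * cu φ f h ^ 2 ≤
                  C ^ 2 * (1 / (1 + |(f.1 : ℝ)| + |(f.2 : ℝ)|)) ^ 2 := by
                have := sq_nonneg (cu φ f h)
                nlinarith
              have hb3 : 0 ≤ Tr1x40.xc ^ 2 * cu φ f h ^ 2 := by positivity
              calc (cutR R (Tr1x40.nb f h) - cutR R f) * (Tr1x40.xc ^ 2 * cu φ f h ^ 2)
                  ≤ 1 / R * (Tr1x40.xc ^ 2 * cu φ f h ^ 2) :=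
                    mul_le_mul_of_nonneg_right (cutR_nb hR f h) hb3
                _ ≤ 1 / R * (C ^ 2 * (1 / (1 + |(f.1 : ℝ)| + |(f.2 : ℝ)|)) ^ 2) :=
                    mul_le_mul_of_nonneg_left hb2 (by positivity)
                _ = _ := by ring
          _ = _ := by simp [Finset.sum_const]
      have hsum : ∑ f ∈ K, 4 * (C ^ 2 * (1 / (1 + |(f.1 : ℝ)| + |(f.2 : ℝ)|)) ^ 2 * (1 / R)) ≤
          4 * C ^ 2 * ((2 * (1 + Real.log ((R : ℝ) + 1 + 1))) ^ 2 / R) := by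
        have e : ∑ f ∈ K, 4 * (C ^ 2 * (1 / (1 + |(f.1 : ℝ)| + |(f.2 : ℝ)|)) ^ 2 * (1 / R)) =
          4 * C ^ 2 * (1 / R) * ∑ f ∈ K, (1 / (1 + |(f.1 : ℝ)| + |(f.2 : ℝ)|)) ^ 2 := by
          rw [Finset.mul_sum]
          exact Finset.sum_congr rfl fun f _ => by ring
        rw [e]
        have h3 := sum_inv_sq_le (R + 1)
        push_cast at h3
        rw [hK]
        push_cast
        calc _ ≤ 4 * C ^ 2 * (1 / (R : ℝ)) * (2 * (1 + Real.log ((R : ℝ) + 1 + 1))) ^ 2 :=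
              mul_le_mul_of_nonneg_left h3 (by positivity)
          _ = _ := by ring
      by_cases hf₀ : f₀ ∈ K
      · have h5 : cutR R f₀ * (4 * Real.sqrt 2 * Tr1x40.hv (cu φ f₀)) ≤
            ∑ f ∈ K, cutR R f * (4 * Real.sqrt 2 * Tr1x40.hv (cu φ f)) :=
          Finset.single_le_sum (f := fun f => cutR R f * (4 * Real.sqrt 2 * Tr1x40.hv (cu φ f)))
            (fun f _ => mul_nonneg (cutR_nonneg R f)
              (mul_nonneg (by positivity) (Tr1x40.hv_nonneg _))) hf₀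
        have h6 : cutR R f₀ * Tr1x40.hv (cu φ f₀) ≤
            cutR R f₀ * (4 * Real.sqrt 2 * Tr1x40.hv (cu φ f₀)) := by
          apply mul_le_mul_of_nonneg_left _ (cutR_nonneg R f₀)
          have := Tr1x40.hv_nonneg (cu φ f₀)
          have := Tr1x40.one_lt_sq2
          nlinarith
        linarith
      · rw [h1 f₀ hf₀, zero_mul]
        have : 0 ≤ (2 * (1 + Real.log ((R : ℝ) + 1 + 1))) ^ 2 / R := by positivity
        have := sq_nonneg C
        positivity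
    -- limit
    have hlim : Tendsto (fun R : ℕ => 4 * C ^ 2 *
        ((2 * (1 + Real.log ((R : ℝ) + 1 + 1))) ^ 2 / R)) atTop (𝓝 0) := by
      have := tendsto_log_sq_div.const_mul (4 * C ^ 2)
      simpa using this
    have hcut : Tendsto (fun R : ℕ => cutR R f₀ * Tr1x40.hv (cu φ f₀)) atTop
        (𝓝 (1 * Tr1x40.hv (cu φ f₀))) := by
      apply Tendsto.mul_const
      have h7 : Tendsto (fun R : ℕ => 1 - (|(f₀.1 : ℝ)| + |(f₀.2 : ℝ)|) / (R : ℝ)) atTop
          (𝓝 (1 - 0)) := by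
        apply Tendsto.const_sub
        exact tendsto_const_div_atTop_nhds_zero_nat _
      have h8 := h7.max (tendsto_const_nhds (x := (0 : ℝ)))
      have h9 : max (1 - 0 : ℝ) 0 = 1 := by norm_num
      rw [h9] at h8
      refine h8.congr fun R => ?_
      unfold cutR
      rw [max_comm]
    have := le_of_tendsto_of_tendsto hcut hlim (by
      filter_upwards [eventually_gt_atTop 0] with R hR
      exact hmain R hR)
    have h10 := Tr1x40.hv_nonneg (cu φ f₀)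
    linarith
  -- constant norm
  have hn : ∀ (f : ℤ × ℤ) (m : ℕ), Tr1x40.nsq (cu φ (f.1 + m, f.2)) = Tr1x40.nsq (cu φ f) := by
    intro f m
    induction m with
    | zero => simp
    | succ m ih =>
      rw [← ih]
      have := nsq_nb (sym_cw w) hw.cw hv0 hA' (f.1 + m, f.2) 1
      rw [Tr1x40.nb_one] at this
      rw [← this]
      congr 2
      push_cast
      ring_nf
  have hz : ∀ f, Tr1x40.nsq (cu φ f) = 0 := by
    intro f
    have hb : ∀ m : ℕ, Tr1x40.nsq (cu φ f) ≤ 4 * C ^ 2 * (1 / (1 + |((f.1 : ℝ) + m)|)) ^ 2 := by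
      intro m
      rw [← hn f m, Tr1x40.nsq]
      calc ∑ h, cu φ (f.1 + m, f.2) h ^ 2 ≤ ∑ _h : Fin 4, C ^ 2 * (1 / (1 + |((f.1 : ℝ) + m)|)) ^ 2 := by
            refine Finset.sum_le_sum fun h _ => ?_
            have h1 := hφ ((f.1 + m, f.2), h)
            have hC : 0 ≤ C := by
              by_contra hcon
              push Not at hcon
              have h2 := abs_nonneg (φ ((f.1 + m, f.2), h))
              have h3 : 0 < 1 / (1 + |((f.1 + m : ℤ) : ℝ)| + |(f.2 : ℝ)|) := by positivity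
              have h4 := mul_neg_of_neg_of_pos hcon h3
              linarith
            rw [← mul_pow, ← sq_abs (cu φ _ h)]
            apply pow_le_pow_left₀ (abs_nonneg _)
            refine h1.trans ?_
            apply mul_le_mul_of_nonneg_left _ hC
            apply one_div_le_one_div_of_le (by positivity)
            push_cast
            have := abs_nonneg (f.2 : ℝ)
            linarith
        _ = _ := by simp [Finset.sum_const]; ring
    have hlim : Tendsto (fun m : ℕ => 4 * C ^ 2 * (1 / (1 + |((f.1 : ℝ) + m)|)) ^ 2) atTop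
        (𝓝 (4 * C ^ 2 * 0 ^ 2)) := by
      apply Tendsto.const_mul
      apply Tendsto.pow
      apply Tendsto.div_atTop tendsto_const_nhds
      apply tendsto_atTop_add_const_left
      apply tendsto_abs_atTop_atTop.comp
      apply tendsto_atTop_add_const_left
      exact tendsto_natCast_atTop_atTop
    have := ge_of_tendsto' hlim hb
    have h2 := Tr1x40.nsq_nonneg (cu φ f)
    have h3 : 4 * C ^ 2 * (0 : ℝ) ^ 2 = 0 := by ring
    linarith
  funext h
  obtain ⟨f, d⟩ := h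
  have := hz f
  rw [Tr1x40.nsq] at this
  have h2 := (Finset.sum_eq_zero_iff_of_nonneg (fun i _ => sq_nonneg (cu φ f i))).1 this d
    (Finset.mem_univ d)
  exact pow_eq_zero_iff (two_ne_zero) |>.1 h2

end Crest.Agent.R165.Pl0x654
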