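import Crest.Agent.R165.Pl0a_654
import Crest.Agent.R165.J1a_606
import Crest.Agent.R165.SpB_583

/-!
# Row 165 (S0250), plane clause (helper654): the covariance of a finitely cut critical plane

* `PlKer S0`     : `S0` is a plane kernel (skew, columns `O(1/|h|)`, `A S0 = -1`)
* `plKer_SP`     : the kernel of helper583 is one
* `wcut B c`     : critical plane weights changed by `c e` on the finite set `B` of bonds
* `exists_cov`   : if all weights of `wcut B c` are `± x_c`, its covariance exists, with columns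
                   `O(1/|h|)`, and satisfies the resolvent identity
* `EE_cut`       : Gaussian reweighting `EE S0 (Γ F) = EE S0 Γ * EE S F`, `Γ = ∏ (1 + c_e b_e)`
-/

set_option autoImplicit false

noncomputable section

namespace Crest.Agent.R165.Pl0bx654

open Finset Filter Topology
open Crest.Agent.R165
open Crest.Agent.R165.Latx683 (BW Aop wPl yE yN xc IsCov)
open Crest.Agent.R165.J1ax606 (HE EG pe qe bb pe_inj qe_inj pe_ne_qe)
open Crest.Agent.R165.Gr0x606 Crest.Agent.R165.Gr1x606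
open Crest.Agent.R165.Pl0x654 (Crit uniq_of_bound)

/-- decay weight -/
def dec (h : HE ℤ) : ℝ := 1 / (1 + |(h.1.1 : ℝ)| + |(h.1.2 : ℝ)|)

theorem dec_pos (h : HE ℤ) : 0 < dec h := by unfold dec; positivity

/-- a kernel of the critical plane -/
structure PlKer (S0 : HE ℤ → HE ℤ → ℝ) : Prop where
  skew : ∀ h h', S0 h h' = -S0 h' h
  bound : ∀ h', ∃ C, ∀ h, |S0 h h'| ≤ C * dec h
  inv : ∀ h' g, Aop (wPl ℤ) (fun h => S0 h h') g = -(if g = h' then (1 : ℝ) else 0)

/-! ### the kernel of helper583 -/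

/-- the plane kernel on half-edges -/
def Spl (h h' : HE ℤ) : ℝ := Spx583.SP h.2 h'.2 (h.1.1 - h'.1.1) (h.1.2 - h'.1.2)

theorem Spl_skew (h h' : HE ℤ) : Spl h h' = -Spl h' h := by
  unfold Spl
  rw [Spx583.SP_anti, neg_sub, neg_sub]

/-- `|S(h,h')| ≤ C / (1 + |f - f'|)` -/
theorem Spl_bound (h h' : HE ℤ) : |Spl h h'| ≤
    4000000 / (1 + |((h.1.1 : ℝ) - h'.1.1)| + |((h.1.2 : ℝ) - h'.1.2)|) := by
  have := Spx583.SP_le h.2 h'.2 (h.1.1 - h'.1.1) (h.1.2 - h'.1.2)
  push_cast at this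
  exact this

theorem Spl_inv (h' g : HE ℤ) : Aop (wPl ℤ) (fun h => Spl h h') g =
    -(if g = h' then (1 : ℝ) else 0) := by
  obtain ⟨f, d⟩ := g
  obtain ⟨f', d'⟩ := h'
  have key := Spx583.row_SP d d' (f.1 - f'.1) (f.2 - f'.2)
  have hc : (if ((f, d) : HE ℤ) = (f', d') then (1 : ℝ) else 0) =
      -(if d = d' ∧ f.1 - f'.1 = 0 ∧ f.2 - f'.2 = 0 then -1 else 0) := by
    by_cases h : ((f, d) : HE ℤ) = (f', d')
    · rw [if_pos h]
      obtain ⟨rfl, rfl⟩ := Prod.mk.inj h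
      simp
    · rw [if_neg h, if_neg, neg_zero]
      rintro ⟨h1, h2, h3⟩
      exact h (Prod.ext (Prod.ext (by show f.1 = f'.1; omega) (by show f.2 = f'.2; omega)) h1)
  rw [hc, neg_neg, ← key]
  have hx : Spx583.xc = xc := rfl
  fin_cases d
  · simp only [Fin.zero_eta, Latx683.Aop_S, Spl, yN, wPl, Spx583.row, hx]
    rw [sub_right_comm f.2 1 f'.2]
  · simp only [Fin.mk_one, Latx683.Aop_E, Spl, yE, wPl, Spx583.row, hx]
    rw [show f.1 + 1 - f'.1 = f.1 - f'.1 + 1 by ring]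
  · simp only [Fin.reduceFinMk, Latx683.Aop_N, Spl, yN, wPl, Spx583.row, hx]
    rw [show f.2 + 1 - f'.2 = f.2 - f'.2 + 1 by ring]
  · simp only [Fin.reduceFinMk, Latx683.Aop_W, Spl, yE, wPl, Spx583.row, hx]
    rw [sub_right_comm f.1 1 f'.1]

/-- comparison of decay weights -/
theorem dec_shift (h h' : HE ℤ) :
    1 / (1 + |((h.1.1 : ℝ) - h'.1.1)| + |((h.1.2 : ℝ) - h'.1.2)|) ≤
      (1 + |(h'.1.1 : ℝ)| + |(h'.1.2 : ℝ)|) * dec h := by
  unfold dec
  rw [mul_one_div, div_le_div_iff₀ (by positivity) (by positivity), one_mul]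
  have h1 : |(h.1.1 : ℝ)| ≤ |((h.1.1 : ℝ) - h'.1.1)| + |(h'.1.1 : ℝ)| := by
    have := abs_add_le ((h.1.1 : ℝ) - h'.1.1) (h'.1.1 : ℝ)
    rwa [sub_add_cancel] at this
  have h2 : |(h.1.2 : ℝ)| ≤ |((h.1.2 : ℝ) - h'.1.2)| + |(h'.1.2 : ℝ)| := by
    have := abs_add_le ((h.1.2 : ℝ) - h'.1.2) (h'.1.2 : ℝ)
    rwa [sub_add_cancel] at this
  have a1 := abs_nonneg ((h.1.1 : ℝ) - h'.1.1)
  have a2 := abs_nonneg ((h.1.2 : ℝ) - h'.1.2)
  have a3 := abs_nonneg (h'.1.1 : ℝ)
  have a4 := abs_nonneg (h'.1.2 : ℝ)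
  nlinarith [mul_nonneg (add_nonneg a1 a2) (add_nonneg a3 a4)]

theorem plKer_SP : PlKer Spl where
  skew := Spl_skew
  bound h' := ⟨4000000 * (1 + |(h'.1.1 : ℝ)| + |(h'.1.2 : ℝ)|), fun h => by
    refine (Spl_bound h h').trans ?_
    have := dec_shift h h'
    calc (4000000 : ℝ) / (1 + |((h.1.1 : ℝ) - h'.1.1)| + |((h.1.2 : ℝ) - h'.1.2)|)
        = 4000000 * (1 / (1 + |((h.1.1 : ℝ) - h'.1.1)| + |((h.1.2 : ℝ) - h'.1.2)|)) := by ring
      _ ≤ 4000000 * ((1 + |(h'.1.1 : ℝ)| + |(h'.1.2 : ℝ)|) * dec h) := by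
          apply mul_le_mul_of_nonneg_left this (by norm_num)
      _ = _ := by ring⟩
  inv := Spl_inv

/-! ### cut weights -/

/-- critical plane weights, changed by `c e` on the bonds `e ∈ B` -/
def wcut (B : Finset (EG ℤ)) (c : EG ℤ → ℝ) : BW ℤ := fun z j =>
  xc + if ((z, j) : EG ℤ) ∈ B then c (z, j) else 0

theorem sum_pe (B : Finset (EG ℤ)) (c : EG ℤ → ℝ) (φ : HE ℤ → ℝ) (h : HE ℤ) (e₀ : EG ℤ)
    (hh : pe e₀ = h) :
    ∑ e ∈ B, c e * ((if pe e = h then φ (qe e) else 0) -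
      (if qe e = h then φ (pe e) else 0)) = (if e₀ ∈ B then c e₀ else 0) * φ (qe e₀) := by
  subst hh
  have h : ∀ e ∈ B, c e * ((if pe e = pe e₀ then φ (qe e) else 0) -
      (if qe e = pe e₀ then φ (pe e) else 0)) = if e = e₀ then c e₀ * φ (qe e₀) else 0 := by
    intro e _
    rw [if_neg (c := qe e = pe e₀) (fun h => pe_ne_qe e₀ e h.symm)]
    by_cases he : e = e₀
    · subst he; simp
    · rw [if_neg (fun h => he (pe_inj h)), if_neg he]; ring
  rw [Finset.sum_congr rfl h, Finset.sum_ite_eq']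
  split_ifs <;> ring

theorem sum_qe (B : Finset (EG ℤ)) (c : EG ℤ → ℝ) (φ : HE ℤ → ℝ) (h : HE ℤ) (e₀ : EG ℤ)
    (hh : qe e₀ = h) :
    ∑ e ∈ B, c e * ((if pe e = h then φ (qe e) else 0) -
      (if qe e = h then φ (pe e) else 0)) = -(if e₀ ∈ B then c e₀ else 0) * φ (pe e₀) := by
  subst hh
  have h : ∀ e ∈ B, c e * ((if pe e = qe e₀ then φ (qe e) else 0) -
      (if qe e = qe e₀ then φ (pe e) else 0)) = if e = e₀ then -c e₀ * φ (pe e₀) else 0 := by
    intro e _
    rw [if_neg (c := pe e = qe e₀) (fun h => pe_ne_qe e e₀ h)]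
    by_cases he : e = e₀
    · subst he; simp
    · rw [if_neg (fun h => he (qe_inj h)), if_neg he]; ring
  rw [Finset.sum_congr rfl h, Finset.sum_ite_eq']
  split_ifs <;> ring

/-- the cut operator is the plane operator plus a finite rank part -/
theorem Aop_cut (B : Finset (EG ℤ)) (c : EG ℤ → ℝ) (φ : HE ℤ → ℝ) (h : HE ℤ) :
    Aop (wcut B c) φ h = Aop (wPl ℤ) φ h +
      ∑ e ∈ B, c e * ((if pe e = h then φ (qe e) else 0) - (if qe e = h then φ (pe e) else 0)) := by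
  obtain ⟨f, d⟩ := h
  fin_cases d
  · refine Eq.trans ?_ (congrArg (fun t => Aop (wPl ℤ) φ _ + t)
      (sum_pe B c φ _ (f, 0) rfl).symm)
    simp only [Fin.zero_eta, J1ax606.qe_zero, Latx683.Aop_S, yN, wcut, wPl, sub_add_cancel]
    have : f - (0, 1) = (f.1, f.2 - 1) := by ext <;> simp
    rw [this]
    ring
  · refine Eq.trans ?_ (congrArg (fun t => Aop (wPl ℤ) φ _ + t)
      (sum_pe B c φ _ ((f.1 + 1, f.2), 1) ?_).symm)
    · simp only [Fin.mk_one, J1ax606.qe_one, Latx683.Aop_E, yE, wcut, wPl]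
      ring
    · rw [J1ax606.pe_one]
      have : (((f.1 + 1, f.2) : ℤ × ℤ) - (1, 0)) = f := by ext <;> simp
      rw [this]; rfl
  · refine Eq.trans ?_ (congrArg (fun t => Aop (wPl ℤ) φ _ + t)
      (sum_qe B c φ _ ((f.1, f.2 + 1), 0) ?_).symm)
    · simp only [Fin.reduceFinMk, J1ax606.pe_zero, Latx683.Aop_N, yN, wcut, wPl]
      ring
    · rw [J1ax606.qe_zero]
      have : (((f.1, f.2 + 1) : ℤ × ℤ) - (0, 1)) = f := by ext <;> simp
      rw [this]; rfl
  · refine Eq.trans ?_ (congrArg (fun t => Aop (wPl ℤ) φ _ + t)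
      (sum_qe B c φ _ (f, 1) rfl).symm)
    simp only [Fin.reduceFinMk, J1ax606.pe_one, Latx683.Aop_W, yE, wcut, wPl, sub_add_cancel]
    have : f - (1, 0) = (f.1 - 1, f.2) := by ext <;> simp
    rw [this]
    ring

/-! ### the finite rank operator -/

/-- `G φ = Σ_e c_e (S0(·, p_e) φ(q_e) - S0(·, q_e) φ(p_e))` -/
def GG (S0 : HE ℤ → HE ℤ → ℝ) (B : Finset (EG ℤ)) (c : EG ℤ → ℝ) :
    (HE ℤ → ℝ) →ₗ[ℝ] (HE ℤ → ℝ) where
  toFun φ h := ∑ e ∈ B, c e * (S0 h (pe e) * φ (qe e) - S0 h (qe e) * φ (pe e))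
  map_add' φ ψ := by
    funext h
    simp only [Pi.add_apply]
    rw [← Finset.sum_add_distrib]
    exact Finset.sum_congr rfl fun e _ => by ring
  map_smul' a φ := by
    funext h
    simp only [Pi.smul_apply, smul_eq_mul, RingHom.id_apply]
    rw [Finset.mul_sum]
    exact Finset.sum_congr rfl fun e _ => by ring

theorem GG_apply (S0 : HE ℤ → HE ℤ → ℝ) (B : Finset (EG ℤ)) (c : EG ℤ → ℝ) (φ : HE ℤ → ℝ)
    (h : HE ℤ) : GG S0 B c φ h =
      ∑ e ∈ B, c e * (S0 h (pe e) * φ (qe e) - S0 h (qe e) * φ (pe e)) := rfl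

theorem GG_eq (S0 : HE ℤ → HE ℤ → ℝ) (B : Finset (EG ℤ)) (c : EG ℤ → ℝ) (φ : HE ℤ → ℝ) :
    GG S0 B c φ = ∑ e ∈ B, ((c e * φ (qe e)) • (fun h => S0 h (pe e)) -
      (c e * φ (pe e)) • (fun h => S0 h (qe e))) := by
  funext h
  rw [GG_apply, Finset.sum_apply]
  refine Finset.sum_congr rfl fun e _ => ?_
  simp only [Pi.sub_apply, Pi.smul_apply, smul_eq_mul]
  ring

theorem Aop_GG {S0 : HE ℤ → HE ℤ → ℝ} (hS : PlKer S0) (B : Finset (EG ℤ)) (c : EG ℤ → ℝ)
    (φ : HE ℤ → ℝ) (h : HE ℤ) : Aop (wPl ℤ) (GG S0 B c φ) h =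
      -∑ e ∈ B, c e * ((if pe e = h then φ (qe e) else 0) -
        (if qe e = h then φ (pe e) else 0)) := by
  rw [GG_eq, map_sum, Finset.sum_apply, ← Finset.sum_neg_distrib]
  refine Finset.sum_congr rfl fun e _ => ?_
  rw [map_sub, map_smul, map_smul, Pi.sub_apply, Pi.smul_apply, Pi.smul_apply, hS.inv, hS.inv,
    smul_eq_mul, smul_eq_mul]
  have e1 : (if h = pe e then (1 : ℝ) else 0) = if pe e = h then 1 else 0 := by
    simp only [eq_comm]
  have e2 : (if h = qe e then (1 : ℝ) else 0) = if qe e = h then 1 else 0 := by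
    simp only [eq_comm]
  rw [e1, e2]
  split_ifs <;> ring

/-- fields with decay `O(1/|h|)` -/
def DecF : Submodule ℝ (HE ℤ → ℝ) where
  carrier := {φ | ∃ C, ∀ h, |φ h| ≤ C * dec h}
  add_mem' := by
    rintro φ ψ ⟨C, hC⟩ ⟨D, hD⟩
    refine ⟨C + D, fun h => ?_⟩
    rw [Pi.add_apply, add_mul]
    exact (abs_add_le _ _).trans (add_le_add (hC h) (hD h))
  zero_mem' := ⟨0, fun h => by simp⟩
  smul_mem' := by
    rintro a φ ⟨C, hC⟩
    refine ⟨|a| * C, fun h => ?_⟩
    rw [Pi.smul_apply, smul_eq_mul, abs_mul, mul_assoc]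
    exact mul_le_mul_of_nonneg_left (hC h) (abs_nonneg a)

theorem mem_DecF {φ : HE ℤ → ℝ} : φ ∈ DecF ↔ ∃ C, ∀ h, |φ h| ≤ C * dec h := Iff.rfl

theorem col_mem {S0 : HE ℤ → HE ℤ → ℝ} (hS : PlKer S0) (h' : HE ℤ) :
    (fun h => S0 h h') ∈ DecF := hS.bound h'

theorem GG_mem {S0 : HE ℤ → HE ℤ → ℝ} (hS : PlKer S0) (B : Finset (EG ℤ)) (c : EG ℤ → ℝ)
    (φ : HE ℤ → ℝ) : GG S0 B c φ ∈ DecF := by
  rw [GG_eq]
  exact Submodule.sum_mem _ fun e _ => Submodule.sub_mem _
    (Submodule.smul_mem _ _ (col_mem hS _)) (Submodule.smul_mem _ _ (col_mem hS _))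

/-- the span of the columns over the cut -/
def RR (S0 : HE ℤ → HE ℤ → ℝ) (B : Finset (EG ℤ)) : Submodule ℝ (HE ℤ → ℝ) :=
  Submodule.span ℝ ((fun k => (fun h => S0 h k)) '' ((B.image pe ∪ B.image qe : Finset (HE ℤ)) :
    Set (HE ℤ)))

instance (S0 : HE ℤ → HE ℤ → ℝ) (B : Finset (EG ℤ)) : FiniteDimensional ℝ (RR S0 B) :=
  FiniteDimensional.span_of_finite ℝ ((Finset.finite_toSet _).image _)

theorem GG_mem_RR (S0 : HE ℤ → HE ℤ → ℝ) (B : Finset (EG ℤ)) (c : EG ℤ → ℝ)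
    (φ : HE ℤ → ℝ) : GG S0 B c φ ∈ RR S0 B := by
  rw [GG_eq]
  refine Submodule.sum_mem _ fun e he => Submodule.sub_mem _
    (Submodule.smul_mem _ _ (Submodule.subset_span ?_))
    (Submodule.smul_mem _ _ (Submodule.subset_span ?_))
  · exact ⟨pe e, Finset.mem_coe.2 (Finset.mem_union_left _ (Finset.mem_image_of_mem _ he)), rfl⟩
  · exact ⟨qe e, Finset.mem_coe.2 (Finset.mem_union_right _ (Finset.mem_image_of_mem _ he)), rfl⟩

/-- fixed points of `G` vanish -/
theorem fix_zero {S0 : HE ℤ → HE ℤ → ℝ} (hS : PlKer S0) (B : Finset (EG ℤ)) (c : EG ℤ → ℝ)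
    (hw : Crit (wcut B c)) (φ : HE ℤ → ℝ) (h : GG S0 B c φ = φ) : φ = 0 := by
  have hmem : φ ∈ DecF := by rw [← h]; exact GG_mem hS B c φ
  obtain ⟨C, hC⟩ := hmem
  refine uniq_of_bound hw φ C hC fun g => ?_
  rw [Aop_cut]
  conv_lhs => rw [← h]
  rw [Aop_GG hS, h, neg_add_cancel]

/-- the equation `σ = r + G σ` is solvable -/
theorem solve {S0 : HE ℤ → HE ℤ → ℝ} (hS : PlKer S0) (B : Finset (EG ℤ)) (c : EG ℤ → ℝ)
    (hw : Crit (wcut B c)) (r : HE ℤ → ℝ) : ∃ σ : HE ℤ → ℝ, σ = r + GG S0 B c σ := by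
  let T : RR S0 B →ₗ[ℝ] RR S0 B :=
    LinearMap.id - (GG S0 B c).restrict (p := RR S0 B) (q := RR S0 B)
      (fun φ _ => GG_mem_RR S0 B c φ)
  have hinj : Function.Injective T := by
    rw [← LinearMap.ker_eq_bot, LinearMap.ker_eq_bot']
    intro u hu
    have h1 : (u : HE ℤ → ℝ) - GG S0 B c u = 0 := congrArg Subtype.val hu
    have h2 := fix_zero hS B c hw u (sub_eq_zero.1 h1).symm
    exact Subtype.ext h2
  have hsurj := (LinearMap.injective_iff_surjective (f := T)).1 hinj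
  obtain ⟨u, hu⟩ := hsurj ⟨GG S0 B c r, GG_mem_RR S0 B c r⟩
  have h1 : (u : HE ℤ → ℝ) - GG S0 B c u = GG S0 B c r := congrArg Subtype.val hu
  refine ⟨r + u, ?_⟩
  rw [map_add, ← h1]
  abel

/-- **existence of the covariance of the finitely cut critical plane** -/
theorem exists_cov {S0 : HE ℤ → HE ℤ → ℝ} (hS : PlKer S0) (B : Finset (EG ℤ)) (c : EG ℤ → ℝ)
    (hw : Crit (wcut B c)) : ∃ S : HE ℤ → HE ℤ → ℝ,
      (∀ h h', S h h' = -S h' h) ∧
      (∀ h', ∃ C, ∀ h, |S h h'| ≤ C * dec h) ∧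
      (∀ h' g, Aop (wcut B c) (fun h => S h h') g = -(if g = h' then (1 : ℝ) else 0)) ∧
      (∀ h h', S h h' = S0 h h' +
        ∑ e ∈ B, c e * (S h (pe e) * S0 (qe e) h' - S h (qe e) * S0 (pe e) h')) := by
  choose σ hσ using fun h' : HE ℤ => solve hS B c hw (fun h => S0 h h')
  have hcol : ∀ a b, σ b a = S0 a b +
      ∑ e ∈ B, c e * (S0 a (pe e) * σ b (qe e) - S0 a (qe e) * σ b (pe e)) := by
    intro a b
    have := congrFun (hσ b) a
    rw [Pi.add_apply, GG_apply] at this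
    exact this
  have hskew : ∀ a b, σ b a = -σ a b := by
    intro a b
    have k1 : ∀ a k, S0 a k = -(σ a k - GG S0 B c (σ a) k) := by
      intro a k
      have := congrFun (hσ a) k
      rw [Pi.add_apply] at this
      rw [hS.skew]
      linarith
    have hF : ∀ a b, ∑ e ∈ B, c e * (S0 a (pe e) * σ b (qe e) - S0 a (qe e) * σ b (pe e)) =
        ∑ e ∈ B, c e * (σ a (qe e) * σ b (pe e) - σ a (pe e) * σ b (qe e)) +
        ∑ e ∈ B, ∑ f ∈ B, c e * c f *
          ((S0 (pe e) (pe f) * σ a (qe f) - S0 (pe e) (qe f) * σ a (pe f)) * σ b (qe e) -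
          (S0 (qe e) (pe f) * σ a (qe f) - S0 (qe e) (qe f) * σ a (pe f)) * σ b (pe e)) := by
      intro a b
      rw [← Finset.sum_add_distrib]
      refine Finset.sum_congr rfl fun e _ => ?_
      rw [k1 a (pe e), k1 a (qe e), GG_apply, GG_apply]
      have e1 : ∑ f ∈ B, c e * c f *
          ((S0 (pe e) (pe f) * σ a (qe f) - S0 (pe e) (qe f) * σ a (pe f)) * σ b (qe e) -
          (S0 (qe e) (pe f) * σ a (qe f) - S0 (qe e) (qe f) * σ a (pe f)) * σ b (pe e)) =
          c e * ((∑ f ∈ B, c f * (S0 (pe e) (pe f) * σ a (qe f) - S0 (pe e) (qe f) * σ a (pe f))) *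
            σ b (qe e) -
          (∑ f ∈ B, c f * (S0 (qe e) (pe f) * σ a (qe f) - S0 (qe e) (qe f) * σ a (pe f))) *
            σ b (pe e)) := by
        rw [Finset.sum_mul, Finset.sum_mul, ← Finset.sum_sub_distrib, Finset.mul_sum]
        exact Finset.sum_congr rfl fun f _ => by ring
      rw [e1]
      ring
    rw [hcol a b, hcol b a, hF a b, hF b a, hS.skew b a]
    have e2 : ∑ e ∈ B, c e * (σ b (qe e) * σ a (pe e) - σ b (pe e) * σ a (qe e)) =
        -∑ e ∈ B, c e * (σ a (qe e) * σ b (pe e) - σ a (pe e) * σ b (qe e)) := by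
      rw [← Finset.sum_neg_distrib]
      exact Finset.sum_congr rfl fun e _ => by ring
    have e3 : ∑ e ∈ B, ∑ f ∈ B, c e * c f *
          ((S0 (pe e) (pe f) * σ b (qe f) - S0 (pe e) (qe f) * σ b (pe f)) * σ a (qe e) -
          (S0 (qe e) (pe f) * σ b (qe f) - S0 (qe e) (qe f) * σ b (pe f)) * σ a (pe e)) =
        -∑ e ∈ B, ∑ f ∈ B, c e * c f *
          ((S0 (pe e) (pe f) * σ a (qe f) - S0 (pe e) (qe f) * σ a (pe f)) * σ b (qe e) -
          (S0 (qe e) (pe f) * σ a (qe f) - S0 (qe e) (qe f) * σ a (pe f)) * σ b (pe e)) := by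
      rw [Finset.sum_comm, ← Finset.sum_neg_distrib]
      refine Finset.sum_congr rfl fun e _ => ?_
      rw [← Finset.sum_neg_distrib]
      refine Finset.sum_congr rfl fun f _ => ?_
      rw [hS.skew (pe f) (pe e), hS.skew (pe f) (qe e), hS.skew (qe f) (pe e),
        hS.skew (qe f) (qe e)]
      ring
    rw [e2, e3]
    ring
  refine ⟨fun h h' => σ h' h, fun h h' => hskew h h', fun h' => ?_, fun h' g => ?_,
    fun h h' => ?_⟩
  · have : σ h' ∈ DecF := by
      rw [hσ h']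
      exact Submodule.add_mem _ (col_mem hS h') (GG_mem hS B c _)
    exact this
  · show Aop (wcut B c) (fun h => σ h' h) g = _
    rw [Aop_cut]
    have h1 : (fun h => σ h' h) = (fun h => S0 h h') + GG S0 B c (σ h') := hσ h'
    have h2 : Aop (wPl ℤ) (fun h => σ h' h) g = -(if g = h' then (1 : ℝ) else 0) +
        -∑ e ∈ B, c e * ((if pe e = g then σ h' (qe e) else 0) -
        (if qe e = g then σ h' (pe e) else 0)) := by
      rw [h1, map_add, Pi.add_apply, hS.inv, Aop_GG hS]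
    rw [h2]
    ring
  · show σ h' h = S0 h h' + ∑ e ∈ B, c e * (σ (pe e) h * S0 (qe e) h' - σ (qe e) h * S0 (pe e) h')
    rw [hskew h h', hcol h' h, neg_add, ← hS.skew, ← Finset.sum_neg_distrib]
    congr 1
    refine Finset.sum_congr rfl fun e _ => ?_
    rw [hS.skew h' (pe e), hS.skew h' (qe e), hskew h (qe e), hskew h (pe e)]
    ring

/-! ### Gaussian reweighting -/

/-- `Γ = ∏_{e ∈ B} (1 + c_e b_e)` -/
def Gam (B : Finset (EG ℤ)) (c : EG ℤ → ℝ) : Ge (VI (HE ℤ)) := ∏ e ∈ B, (1 + c e • bb e)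

/-- the quadratic form `Σ c_e b_e` -/
def Qf (B : Finset (EG ℤ)) (c : EG ℤ → ℝ) : Ge (VI (HE ℤ)) := ∑ e ∈ B, c e • bb e

theorem isExp_Gam (B : Finset (EG ℤ)) (c : EG ℤ → ℝ) :
    IsExp (Qf B c : Gr (VI (HE ℤ))) (Gam B c : Gr (VI (HE ℤ))) := by
  induction B using Finset.induction_on with
  | empty => simpa [Gam, Qf] using (IsExp.one : IsExp (0 : Gr (VI (HE ℤ))) 1)
  | insert e B he ih =>
    have h1 : Gam (insert e B) c = (1 + c e • bb e) * Gam B c := Finset.prod_insert he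
    have h2 : Qf (insert e B) c = c e • bb e + Qf B c := Finset.sum_insert he
    rw [h1, h2, Ge.coe_mul, Ge.coe_add, Ge.coe_add, Ge.coe_one, Ge.coe_smul]
    exact (IsExp.bil (c e) _ _).mul ih

/-- the linear map `Y` of the quadratic form -/
def YY (B : Finset (EG ℤ)) (c : EG ℤ → ℝ) (l : Module.Dual ℝ (VI (HE ℤ))) : VI (HE ℤ) :=
  ∑ e ∈ B, c e • (l (Finsupp.single (pe e) 1) • Finsupp.single (qe e) 1 -
    l (Finsupp.single (qe e) 1) • Finsupp.single (pe e) 1)

theorem dd_Qf (B : Finset (EG ℤ)) (c : EG ℤ → ℝ) (l : Module.Dual ℝ (VI (HE ℤ))) :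
    dd l (Qf B c : Gr (VI (HE ℤ))) = fi (YY B c l) := by
  induction B using Finset.induction_on with
  | empty => simp [Qf, YY]
  | insert e B he ih =>
    have h2 : Qf (insert e B) c = c e • bb e + Qf B c := Finset.sum_insert he
    have h3 : YY (insert e B) c l = c e • (l (Finsupp.single (pe e) 1) • Finsupp.single (qe e) 1 -
      l (Finsupp.single (qe e) 1) • Finsupp.single (pe e) 1) + YY B c l := Finset.sum_insert he
    rw [h2, h3, Ge.coe_add, map_add, ih, fi_add, Ge.coe_smul, map_smul, fi_smul]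
    congr 2
    rw [J1ax606.coe_bb]
    show dd l (fi _ * fi _) = _
    rw [dd_fi_mul, dd_fi, ← Algebra.commutes, ← Algebra.smul_def, sub_eq_add_neg, sub_eq_add_neg,
      fi_add, ← neg_smul, ← neg_smul, fi_smul, fi_smul]

/-- **Gaussian reweighting over a finite cut**: only the resolvent identity is used -/
theorem EE_cut {S0 S : HE ℤ → HE ℤ → ℝ} (h0 : ∀ h h', S0 h h' = -S0 h' h)
    (hs : ∀ h h', S h h' = -S h' h) (B : Finset (EG ℤ)) (c : EG ℤ → ℝ)
    (hres : ∀ h h', S h h' = S0 h h' +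
        ∑ e ∈ B, c e * (S h (pe e) * S0 (qe e) h' - S h (qe e) * S0 (pe e) h'))
    (F : Gr (VI (HE ℤ))) :
    EE (covOf S0 h0) ((Gam B c : Gr (VI (HE ℤ))) * F) =
      EE (covOf S0 h0) (Gam B c : Gr (VI (HE ℤ))) * EE (covOf S hs) F := by
  refine reweight (covOf S0 h0) (covOf S hs) _ _ (isExp_Gam B c) (YY B c) (dd_Qf B c) ?_ F
  intro z
  have key : (covOf S hs).b z = (covOf S0 h0).b (z + YY B c ((covOf S hs).b z)) := by
    rw [covOf_b, covOf_b]
    induction z using Finsupp.induction_linear with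
    | zero => simp [YY]
    | add x y hx hy =>
      have hY : YY B c (formOf S x + formOf S y) = YY B c (formOf S x) + YY B c (formOf S y) := by
        unfold YY
        rw [← Finset.sum_add_distrib]
        refine Finset.sum_congr rfl fun e _ => ?_
        rw [← smul_add]
        congr 1
        simp only [LinearMap.add_apply, add_smul]
        abel
      rw [map_add, hY, show x + y + (YY B c (formOf S x) + YY B c (formOf S y)) =
        (x + YY B c (formOf S x)) + (y + YY B c (formOf S y)) by abel, map_add (formOf S0)]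
      rw [← hx, ← hy]
    | single h a =>
      apply Finsupp.lhom_ext'
      intro h'
      apply LinearMap.ext_ring
      rw [LinearMap.comp_apply, LinearMap.comp_apply, Finsupp.lsingle_apply]
      have e1 : (Finsupp.single h a : VI (HE ℤ)) = a • Finsupp.single h 1 := by
        rw [Finsupp.smul_single, smul_eq_mul, mul_one]
      have e2 : YY B c (formOf S (Finsupp.single h a)) =
          a • YY B c (formOf S (Finsupp.single h 1)) := by
        rw [e1]
        unfold YY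
        rw [Finset.smul_sum]
        refine Finset.sum_congr rfl fun e _ => ?_
        rw [smul_comm a (c e)]
        congr 1
        simp only [map_smul, LinearMap.smul_apply, smul_sub, smul_smul, smul_eq_mul]
      rw [e2, e1, map_smul, ← smul_add, map_smul, LinearMap.smul_apply, LinearMap.smul_apply]
      congr 1
      rw [map_add, LinearMap.add_apply, formOf_single, formOf_single, hres h h']
      congr 1
      unfold YY
      rw [map_sum, LinearMap.sum_apply]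
      refine Finset.sum_congr rfl fun e _ => ?_
      simp only [map_smul, map_sub, LinearMap.smul_apply, LinearMap.sub_apply, formOf_single,
        smul_eq_mul]
  refine ⟨z + YY B c ((covOf S hs).b z), ?_, key⟩
  rw [← key]
  abel

end Crest.Agent.R165.Pl0bx654
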