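import Crest.Agent.R165.Pl0b_654
import Crest.Agent.R165.SpC_583
import Crest.Agent.R165.Sym_541
import Crest.Agent.R165.LimA_894

/-!
# Row 165 (S0250), plane clause (helper654): rays, finite cuts, the covariance of the plane

* `gau s w`, `Aop_gau`, `isCov_gau`  : gauge transformations
* `kp N M X`                         : signs of the finite cut set (paths from `X i` to `(N, M)`)
* `gau_ray`                          : for `n` even the ray background is gauge equivalent to the cut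
* `BX`, `prod_BX`                    : `∏_{e ∈ BX} ε_e = ∏_i σ_{X i}`
* `exists_isCov_plane`, `isCov_unique` : existence, uniqueness of the covariance
-/

set_option autoImplicit false

noncomputable section

namespace Crest.Agent.R165.Pl1x654

open Finset Filter Topology
open Crest.ProbabilityR.IsingModel
open Crest.Agent.R165
open Crest.Agent.R165.Latx683 (BW Aop wPl yE yN xc IsCov hp hq ray wX Aop_S Aop_E Aop_N Aop_W)
open Crest.Agent.R165.J1ax606 (HE EG pe qe bb)
open Crest.Agent.R165.Pl0x654 (Crit uniq_of_bound)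
open Crest.Agent.R165.Pl0bx654

/-! ### gauge transformations -/

/-- gauge transform of a background -/
def gau (s : ℤ × ℤ → ℝ) (w : BW ℤ) : BW ℤ := fun z j => s (hp z j).1 * s (hq z j).1 * w z j

theorem gau_gau {s : ℤ × ℤ → ℝ} (hs : ∀ f, s f * s f = 1) (w : BW ℤ) : gau s (gau s w) = w := by
  funext z j
  unfold gau
  linear_combination (w z j * s (hq z j).1 * s (hq z j).1) * hs (hp z j).1 + w z j * hs (hq z j).1

theorem Aop_gau {s : ℤ × ℤ → ℝ} (hs : ∀ f, s f * s f = 1) (w : BW ℤ) (φ : HE ℤ → ℝ) (g : HE ℤ) :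
    Aop (gau s w) (fun h => s h.1 * φ h) g = s g.1 * Aop w φ g := by
  obtain ⟨⟨i, j⟩, d⟩ := g
  fin_cases d
  · simp only [Fin.zero_eta, Aop_S, gau, yN, Latx683.hp_zero, Latx683.hq_zero, sub_add_cancel]
    linear_combination (s (i, j) * w (i, j) 0 * φ ((i, j - 1), 2)) * hs (i, j - 1)
  · simp only [Fin.mk_one, Aop_E, gau, yE, Latx683.hp_one, Latx683.hq_one, add_sub_cancel_right]
    linear_combination (s (i, j) * w (i + 1, j) 1 * φ ((i + 1, j), 3)) * hs (i + 1, j)
  · simp only [Fin.reduceFinMk, Aop_N, gau, yN, Latx683.hp_zero, Latx683.hq_zero,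
      add_sub_cancel_right]
    linear_combination (-(s (i, j) * w (i, j + 1) 0 * φ ((i, j + 1), 0))) * hs (i, j + 1)
  · simp only [Fin.reduceFinMk, Aop_W, gau, yE, Latx683.hp_one, Latx683.hq_one, sub_add_cancel]
    linear_combination (-(s (i, j) * w (i, j) 1 * φ ((i - 1, j), 1))) * hs (i - 1, j)

theorem abs_gau {s : ℤ × ℤ → ℝ} (hs : ∀ f, s f * s f = 1) (f : ℤ × ℤ) : |s f| = 1 := by
  have h := hs f
  have h2 : |s f| * |s f| = 1 := by rw [← abs_mul, h, abs_one]
  nlinarith [abs_nonneg (s f)]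

theorem isCov_gau {s : ℤ × ℤ → ℝ} (hs : ∀ f, s f * s f = 1) {w : BW ℤ} {S : HE ℤ → HE ℤ → ℝ}
    (h : IsCov w S) : IsCov (gau s w) (fun a b => s a.1 * s b.1 * S a b) where
  skew a b := by rw [h.skew a b]; ring
  zero b := by
    have h1 := (h.zero b).abs
    rw [abs_zero] at h1
    refine squeeze_zero_norm (fun a => ?_) h1
    rw [Real.norm_eq_abs, abs_mul, abs_mul, abs_gau hs, abs_gau hs]
    simp
  inv g b := by
    have e : (fun a => s a.1 * s b.1 * S a b) = s b.1 • fun a : HE ℤ => s a.1 * S a b := by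
      funext a
      simp only [Pi.smul_apply, smul_eq_mul]
      ring
    rw [e, map_smul, Pi.smul_apply, Aop_gau hs, h.inv g b, smul_eq_mul]
    by_cases hgb : g = b
    · subst hgb
      rw [Pi.single_eq_same]
      linear_combination -hs g.1
    · rw [Pi.single_eq_of_ne hgb]
      ring

/-! ### the finite cut -/

/-- the bond `(z, j)` lies on the path from `x` to the right to `(N, x.2)`, then up to `(N, M)` -/
def OnP (N M : ℤ) (x z : ℤ × ℤ) (j : Fin 2) : Prop :=
  (j = 0 ∧ x.2 = z.2 ∧ x.1 ≤ z.1 ∧ z.1 < N) ∨ (j = 1 ∧ z.1 = N ∧ x.2 ≤ z.2 ∧ z.2 < M)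

instance (N M : ℤ) (x z : ℤ × ℤ) (j : Fin 2) : Decidable (OnP N M x z j) := by
  unfold OnP; infer_instance

/-- signs of the cut -/
def kp {n : ℕ} (N M : ℤ) (X : Fin n → ℤ × ℤ) : BW ℤ := fun z j =>
  ∏ i, if OnP N M (X i) z j then -1 else 1

/-- the gauge -/
def sgN {n : ℕ} (N : ℤ) (X : Fin n → ℤ × ℤ) (f : ℤ × ℤ) : ℝ :=
  if N ≤ f.1 then ∏ i, (if (X i).2 ≤ f.2 then -1 else 1) else 1

theorem prod_sign_sq {ι : Type*} (s : Finset ι) (P : ι → Prop) [DecidablePred P] :
    (∏ i ∈ s, (if P i then (-1 : ℝ) else 1)) * (∏ i ∈ s, (if P i then (-1 : ℝ) else 1)) = 1 := by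
  rw [← Finset.prod_mul_distrib]
  exact Finset.prod_eq_one fun i _ => by split_ifs <;> norm_num

theorem sgN_sq {n : ℕ} (N : ℤ) (X : Fin n → ℤ × ℤ) (f : ℤ × ℤ) : sgN N X f * sgN N X f = 1 := by
  unfold sgN
  split_ifs
  · exact prod_sign_sq _ _
  · norm_num

theorem kp_sq {n : ℕ} (N M : ℤ) (X : Fin n → ℤ × ℤ) (z : ℤ × ℤ) (j : Fin 2) :
    kp N M X z j * kp N M X z j = 1 := prod_sign_sq _ _

/-- **for an even number of spins the ray background is gauge equivalent to a finite cut** -/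
theorem gau_ray {n : ℕ} (hn : Even n) {N M : ℤ} {X : Fin n → ℤ × ℤ} (hN : ∀ i, (X i).1 ≤ N)
    (hM : ∀ i, (X i).2 ≤ M) :
    gau (sgN N X) (wX (wPl ℤ) X) = fun z j => kp N M X z j * xc := by
  funext z j
  obtain ⟨z1, z2⟩ := z
  unfold gau wX
  show sgN N X _ * sgN N X _ * (ray X (z1, z2) j * xc) = _
  rw [← mul_assoc]
  congr 1
  fin_cases j
  · simp only [Fin.zero_eta, Latx683.hp_zero, Latx683.hq_zero, ray, true_and, kp, OnP, zero_ne_one,
      false_and, or_false]
    by_cases h : N ≤ z1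
    · simp only [sgN, if_pos h]
      rw [← Finset.prod_mul_distrib, ← Finset.prod_mul_distrib]
      refine Finset.prod_congr rfl fun i _ => ?_
      have h1 := hN i
      have h3 : ¬ z1 < N := not_lt.2 h
      have h4 : (X i).1 ≤ z1 := h1.trans h
      rcases lt_trichotomy (X i).2 z2 with h2 | h2 | h2
      · rw [if_pos h2.le, if_pos (by omega), if_neg (by omega), if_neg (by omega)]; norm_num
      · rw [if_pos h2.le, if_neg (by omega), if_pos ⟨h2, h4⟩, if_neg (by omega)]; norm_num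
      · rw [if_neg (by omega), if_neg (by omega), if_neg (by omega), if_neg (by omega)]; norm_num
    · simp only [sgN, if_neg h, one_mul]
      refine Finset.prod_congr rfl fun i _ => ?_
      have h3 : z1 < N := not_le.1 h
      simp only [h3, and_true]
  · simp only [Fin.mk_one, Latx683.hp_one, Latx683.hq_one, ray, one_ne_zero, false_and, kp, OnP,
      false_or, true_and, if_false, Finset.prod_const_one, mul_one]
    rcases lt_trichotomy z1 N with h | h | h
    · have h1 : ¬ N ≤ z1 - 1 := by omega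
      have h2 : ¬ N ≤ z1 := by omega
      simp only [sgN, if_neg h1, if_neg h2, mul_one]
      symm
      refine Finset.prod_eq_one fun i _ => ?_
      rw [if_neg (by omega)]
    · have h1 : ¬ N ≤ z1 - 1 := by omega
      have h2 : N ≤ z1 := by omega
      simp only [sgN, if_neg h1, if_pos h2, one_mul]
      by_cases h3 : z2 < M
      · refine Finset.prod_congr rfl fun i _ => ?_
        simp only [h, h3, and_true, true_and]
      · have e1 : ∏ i, (if (X i).2 ≤ z2 then (-1 : ℝ) else 1) = ∏ i : Fin n, (-1 : ℝ) :=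
          Finset.prod_congr rfl fun i _ => if_pos ((hM i).trans (not_lt.1 h3))
        rw [e1, Finset.prod_const, Finset.card_univ, Fintype.card_fin, hn.neg_one_pow]
        symm
        refine Finset.prod_eq_one fun i _ => ?_
        rw [if_neg (by omega)]
    · have h1 : N ≤ z1 - 1 := by omega
      have h2 : N ≤ z1 := by omega
      simp only [sgN, if_pos h1, if_pos h2]
      rw [prod_sign_sq]
      symm
      refine Finset.prod_eq_one fun i _ => ?_
      rw [if_neg (by omega)]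

/-- the path of `x` as a finite set of bonds -/
def PP (N M : ℤ) (x : ℤ × ℤ) : Finset (EG ℤ) :=
  (Finset.Ico x.1 N).image (fun k => (((k, x.2) : ℤ × ℤ), (0 : Fin 2))) ∪
    (Finset.Ico x.2 M).image (fun l => (((N, l) : ℤ × ℤ), (1 : Fin 2)))

theorem mem_PP {N M : ℤ} {x : ℤ × ℤ} {e : EG ℤ} : e ∈ PP N M x ↔ OnP N M x e.1 e.2 := by
  obtain ⟨⟨z1, z2⟩, j⟩ := e
  unfold PP OnP
  rw [Finset.mem_union, Finset.mem_image, Finset.mem_image]
  constructor
  · rintro (⟨k, hk, h⟩ | ⟨l, hl, h⟩)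
    · left
      rw [Finset.mem_Ico] at hk
      simp only [Prod.mk.injEq] at h
      obtain ⟨⟨rfl, rfl⟩, rfl⟩ := h
      exact ⟨rfl, rfl, hk.1, hk.2⟩
    · right
      rw [Finset.mem_Ico] at hl
      simp only [Prod.mk.injEq] at h
      obtain ⟨⟨rfl, rfl⟩, rfl⟩ := h
      exact ⟨rfl, rfl, hl.1, hl.2⟩
  · rintro (⟨rfl, h1, h2, h3⟩ | ⟨rfl, h1, h2, h3⟩)
    · left
      exact ⟨z1, Finset.mem_Ico.2 ⟨h2, h3⟩, by simp only [h1]⟩
    · right
      exact ⟨z2, Finset.mem_Ico.2 ⟨h2, h3⟩, by simp only at h1; rw [h1]⟩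

open Classical in
/-- the cut set -/
def BX {n : ℕ} (N M : ℤ) (X : Fin n → ℤ × ℤ) : Finset (EG ℤ) :=
  Finset.filter (fun e : EG ℤ => kp N M X e.1 e.2 = -1)
    ((Finset.univ : Finset (Fin n)).biUnion (fun i => PP N M (X i)))

theorem kp_eq {n : ℕ} (N M : ℤ) (X : Fin n → ℤ × ℤ) (z : ℤ × ℤ) (j : Fin 2) :
    kp N M X z j = if ((z, j) : EG ℤ) ∈ BX N M X then -1 else 1 := by
  classical
  unfold BX
  by_cases h : kp N M X z j = -1
  · rw [if_pos, h]
    rw [Finset.mem_filter, Finset.mem_biUnion]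
    refine ⟨?_, h⟩
    by_contra hcon
    push Not at hcon
    have h1 : kp N M X z j = 1 := by
      unfold kp
      refine Finset.prod_eq_one fun i _ => ?_
      rw [if_neg]
      intro h2
      exact hcon i (Finset.mem_univ i) (mem_PP.2 h2)
    rw [h1] at h
    norm_num at h
  · rw [if_neg]
    · have h2 := kp_sq N M X z j
      have h3 : (kp N M X z j - 1) * (kp N M X z j + 1) = 0 := by linear_combination h2
      rcases mul_eq_zero.1 h3 with h4 | h4
      · linarith
      · exact absurd (by linarith) h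
    · rw [Finset.mem_filter]
      exact fun h2 => h h2.2

theorem wcut_BX {n : ℕ} (N M : ℤ) (X : Fin n → ℤ × ℤ) :
    wcut (BX N M X) (fun _ => -2 * xc) = fun z j => kp N M X z j * xc := by
  funext z j
  unfold wcut
  rw [kp_eq]
  split_ifs <;> ring

theorem crit_wcut {n : ℕ} (N M : ℤ) (X : Fin n → ℤ × ℤ) : Crit (wcut (BX N M X) (fun _ => -2 * xc)) := by
  intro z j
  rw [wcut_BX]
  have h2 := kp_sq N M X z j
  show (kp N M X z j * xc) ^ 2 = xc ^ 2
  linear_combination xc ^ 2 * h2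

/-! ### products of bonds -/

theorem spinSign_sq (b : Bool) : spinSign b * spinSign b = 1 := by
  cases b <;> simp [spinSign]

theorem prod_Ico_row (s : ℤ × ℤ → Bool) (y : ℤ) (a : ℤ) (k : ℕ) :
    ∏ i ∈ Finset.Ico a (a + k), Symx541.ep (((i, y) : ℤ × ℤ), (0 : Fin 2)) s =
      spinSign (s (a, y)) * spinSign (s (a + k, y)) := by
  induction k with
  | zero => simp [spinSign_sq]
  | succ k ih =>
    have e : Finset.Ico a (a + ((k + 1 : ℕ) : ℤ)) = insert (a + (k : ℤ)) (Finset.Ico a (a + k)) := by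
      ext t; simp only [Finset.mem_Ico, Finset.mem_insert]; push_cast; omega
    rw [e, Finset.prod_insert (by simp), ih]
    unfold Symx541.ep
    have e2 : ((a + (k : ℤ), y) : ℤ × ℤ) + unitVec 0 = (a + ((k + 1 : ℕ) : ℤ), y) := by
      simp only [unitVec, if_true, Prod.mk_add_mk, add_zero]
      push_cast
      rw [add_assoc]
    simp only
    rw [e2]
    linear_combination (spinSign (s (a, y)) * spinSign (s (a + ((k + 1 : ℕ) : ℤ), y))) *
      spinSign_sq (s (a + k, y))

theorem prod_Ico_col (s : ℤ × ℤ → Bool) (x : ℤ) (a : ℤ) (k : ℕ) :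
    ∏ i ∈ Finset.Ico a (a + k), Symx541.ep (((x, i) : ℤ × ℤ), (1 : Fin 2)) s =
      spinSign (s (x, a)) * spinSign (s (x, a + k)) := by
  induction k with
  | zero => simp [spinSign_sq]
  | succ k ih =>
    have e : Finset.Ico a (a + ((k + 1 : ℕ) : ℤ)) = insert (a + (k : ℤ)) (Finset.Ico a (a + k)) := by
      ext t; simp only [Finset.mem_Ico, Finset.mem_insert]; push_cast; omega
    rw [e, Finset.prod_insert (by simp), ih]
    unfold Symx541.ep
    have e2 : ((x, a + (k : ℤ)) : ℤ × ℤ) + unitVec 1 = (x, a + ((k + 1 : ℕ) : ℤ)) := by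
      simp only [unitVec, one_ne_zero, if_false, Prod.mk_add_mk, add_zero]
      push_cast
      rw [add_assoc]
    simp only
    rw [e2]
    linear_combination (spinSign (s (x, a)) * spinSign (s (x, a + ((k + 1 : ℕ) : ℤ)))) *
      spinSign_sq (s (x, a + k))

theorem prod_PP (s : ℤ × ℤ → Bool) {N M : ℤ} {x : ℤ × ℤ} (h1 : x.1 ≤ N) (h2 : x.2 ≤ M) :
    ∏ e ∈ PP N M x, Symx541.ep e s = spinSign (s x) * spinSign (s (N, M)) := by
  obtain ⟨k, hk⟩ := Int.eq_ofNat_of_zero_le (sub_nonneg.2 h1)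
  obtain ⟨l, hl⟩ := Int.eq_ofNat_of_zero_le (sub_nonneg.2 h2)
  have hN : N = x.1 + k := by linarith
  have hM : M = x.2 + l := by linarith
  unfold PP
  rw [Finset.prod_union, Finset.prod_image, Finset.prod_image]
  · rw [hN, hM, prod_Ico_row s x.2 x.1 k, prod_Ico_col s (x.1 + k) x.2 l]
    linear_combination (spinSign (s (x.1, x.2)) * spinSign (s (x.1 + k, x.2 + l))) *
      spinSign_sq (s (x.1 + k, x.2))
  · intro a _ b _ h
    simpa using h
  · intro a _ b _ h
    simpa using h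
  · rw [Finset.disjoint_left]
    intro e he he'
    rw [Finset.mem_image] at he he'
    obtain ⟨k, -, rfl⟩ := he
    obtain ⟨l, -, h⟩ := he'
    simp only [Prod.mk.injEq] at h
    exact absurd h.2 one_ne_zero

theorem prod_BX (s : ℤ × ℤ → Bool) {n : ℕ} (hn : Even n) {N M : ℤ} {X : Fin n → ℤ × ℤ}
    (hN : ∀ i, (X i).1 ≤ N) (hM : ∀ i, (X i).2 ≤ M) :
    ∏ e ∈ BX N M X, Symx541.ep e s = ∏ i, spinSign (s (X i)) := by
  classical
  have h1 : ∏ i, (∏ e ∈ PP N M (X i), Symx541.ep e s) = ∏ i, spinSign (s (X i)) := by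
    rw [Finset.prod_congr rfl fun i _ => prod_PP s (hN i) (hM i), Finset.prod_mul_distrib,
      Finset.prod_const, Finset.card_univ, Fintype.card_fin]
    have h0 : spinSign (s (N, M)) ^ n = 1 := by
      obtain ⟨m, hm⟩ := hn
      rw [hm, pow_add, ← mul_pow, spinSign_sq, one_pow]
    rw [h0, mul_one]
  rw [← h1]
  set U := (Finset.univ : Finset (Fin n)).biUnion fun i => PP N M (X i) with hU
  have h2 : ∀ i, ∏ e ∈ PP N M (X i), Symx541.ep e s =
      ∏ e ∈ U, if e ∈ PP N M (X i) then Symx541.ep e s else 1 := by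
    intro i
    rw [← Finset.prod_filter]
    congr 1
    ext e
    rw [Finset.mem_filter]
    exact ⟨fun h => ⟨Finset.mem_biUnion.2 ⟨i, Finset.mem_univ i, h⟩, h⟩, fun h => h.2⟩
  rw [Finset.prod_congr rfl fun i _ => h2 i, Finset.prod_comm]
  unfold BX
  rw [Finset.prod_filter]
  refine Finset.prod_congr rfl fun e _ => ?_
  -- one bond: parity
  have key : ∀ T : Finset (Fin n), (∏ i ∈ T, (if e ∈ PP N M (X i) then Symx541.ep e s else 1)) =
      if (∏ i ∈ T, (if OnP N M (X i) e.1 e.2 then (-1 : ℝ) else 1)) = -1 then Symx541.ep e s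
        else 1 := by
    intro T
    induction T using Finset.induction_on with
    | empty => simp; norm_num
    | insert i T hi ih =>
      rw [Finset.prod_insert hi, Finset.prod_insert hi, ih]
      have hsq := prod_sign_sq T (fun i => OnP N M (X i) e.1 e.2)
      set p := ∏ i ∈ T, (if OnP N M (X i) e.1 e.2 then (-1 : ℝ) else 1) with hp
      have hp2 : p = 1 ∨ p = -1 := by
        have h3 : (p - 1) * (p + 1) = 0 := by linear_combination hsq
        rcases mul_eq_zero.1 h3 with h4 | h4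
        · left; linarith
        · right; linarith
      by_cases h4 : e ∈ PP N M (X i)
      · rw [if_pos h4, if_pos (mem_PP.1 h4)]
        rcases hp2 with h5 | h5
        · rw [h5]; norm_num
        · rw [h5]; norm_num; exact Symx541.ep_sq e s
      · rw [if_neg h4, if_neg (fun h => h4 (mem_PP.2 h)), one_mul, one_mul]
  exact (key Finset.univ).symm

/-! ### fields tending to zero -/

/-- harmonic functions tending to `0` at infinity are `≤ 0` -/
theorem harm_le {u : ℤ × ℤ → ℝ} (hu : ∀ z, PotAx894.lap u z = 0)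
    (h0 : Tendsto u cofinite (𝓝 0)) (z0 : ℤ × ℤ) : u z0 ≤ 0 := by
  by_contra hpos
  push Not at hpos
  have hfin : {z | u z0 ≤ u z}.Finite := by
    have h1 : ∀ᶠ z in cofinite, u z < u z0 := h0.eventually (gt_mem_nhds hpos)
    rw [eventually_cofinite] at h1
    exact h1.subset fun z hz => not_lt.2 hz
  obtain ⟨z1, hz1, hmax⟩ := Set.exists_max_image _ u hfin ⟨z0, le_refl (u z0)⟩
  have hall : ∀ z, u z ≤ u z1 := by
    intro z
    by_cases h : u z0 ≤ u z
    · exact hmax z h
    · exact (not_le.1 h).le.trans hz1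
  have hstep : ∀ z, u z = u z1 → u (z + PotAx894.e1) = u z1 := by
    intro z hz
    have h1 := hu z
    unfold PotAx894.lap at h1
    have a1 := hall (z + PotAx894.e1)
    have a2 := hall (z - PotAx894.e1)
    have a3 := hall (z + PotAx894.e2)
    have a4 := hall (z - PotAx894.e2)
    linarith
  have hk : ∀ k : ℕ, u (z1 + k • PotAx894.e1) = u z1 := by
    intro k
    induction k with
    | zero => simp
    | succ k ih =>
      rw [succ_nsmul, ← add_assoc]
      exact hstep _ ih
  have hinj : Function.Injective fun k : ℕ => z1 + k • PotAx894.e1 := by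
    intro a b h
    have h2 := congrArg Prod.fst h
    have h4 : ∀ k : ℕ, (z1 + k • PotAx894.e1).1 = z1.1 + k := fun k => by
      rw [Prod.fst_add, Prod.smul_fst]
      simp [PotAx894.e1]
    have h3 : (a : ℤ) = b := by
      have h5 := (h4 a).symm.trans (h2.trans (h4 b))
      linarith
    exact_mod_cast h3
  have hinf : (Set.range fun k : ℕ => z1 + k • PotAx894.e1).Infinite :=
    Set.infinite_range_of_injective hinj
  refine hinf (hfin.subset ?_)
  rintro _ ⟨k, rfl⟩
  show u z0 ≤ u _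
  rw [hk k]
  exact hz1

theorem harm_eq {u : ℤ × ℤ → ℝ} (hu : ∀ z, PotAx894.lap u z = 0)
    (h0 : Tendsto u cofinite (𝓝 0)) (z0 : ℤ × ℤ) : u z0 = 0 := by
  refine le_antisymm (harm_le hu h0 z0) ?_
  have h1 := harm_le (u := fun z => -u z) (fun z => by
    have := hu z
    unfold PotAx894.lap at this ⊢
    linarith) (by simpa using h0.neg) z0
  linarith

/-- **null vectors of the plane tending to `0` vanish** -/
theorem c0_plane {φ : HE ℤ → ℝ} (h0 : Tendsto φ cofinite (𝓝 0))
    (hA : ∀ g, Aop (wPl ℤ) φ g = 0) : φ = 0 := by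
  funext ⟨f, d⟩
  have hw : Pl0x654.cw (wPl ℤ) = fun _ _ => Tr1x40.xc := by
    funext f h
    unfold Pl0x654.cw Tr1x40.ofEN
    fin_cases h <;> rfl
  refine harm_eq (u := fun f => φ (f, d)) (fun z => ?_) ?_ f
  · refine LimAx894.lap_comp (φ := Pl0x654.cu φ) (fun g _ k => ?_) d
    rw [← hw, Pl0x654.A_cu]
    exact hA _
  · exact h0.comp (Prod.mk_left_injective d).tendsto_cofinite

/-- **null vectors of a finitely cut critical plane tending to `0` vanish** -/
theorem c0_cut {B : Finset (EG ℤ)} {c : EG ℤ → ℝ} (hw : Crit (wcut B c)) {φ : HE ℤ → ℝ}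
    (h0 : Tendsto φ cofinite (𝓝 0)) (hA : ∀ g, Aop (wcut B c) φ g = 0) : φ = 0 := by
  have hdec : ∀ ψ ∈ DecF, Tendsto ψ cofinite (𝓝 0) := by
    rintro ψ ⟨C, hC⟩
    have h1 : Tendsto dec cofinite (𝓝 0) := by
      have := (Spx583.tendsto_dist (0, 0)).inv_tendsto_atTop
      refine this.congr fun h => ?_
      simp [dec]
    have h2 : Tendsto (fun h => C * dec h) cofinite (𝓝 0) := by simpa using h1.const_mul C
    exact squeeze_zero_norm hC h2
  refine fix_zero plKer_SP B c hw φ ?_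
  have h1 : φ - GG Spl B c φ = 0 := by
    refine c0_plane ?_ fun g => ?_
    · have h2 := h0.sub (hdec _ (GG_mem plKer_SP B c φ))
      rw [sub_zero] at h2
      exact h2
    · rw [map_sub, Pi.sub_apply, Aop_GG plKer_SP]
      have := hA g
      rw [Aop_cut] at this
      linarith
  exact (sub_eq_zero.1 h1).symm

/-- **uniqueness of the covariance of the plane with an even number of spins** -/
theorem isCov_unique {n : ℕ} (hn : Even n) (X : Fin n → ℤ × ℤ) {S S' : HE ℤ → HE ℤ → ℝ}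
    (h : IsCov (wX (wPl ℤ) X) S) (h' : IsCov (wX (wPl ℤ) X) S') : S = S' := by
  obtain ⟨N, hN⟩ : ∃ N : ℤ, ∀ i, (X i).1 ≤ N := by
    obtain ⟨N, hN⟩ := (Set.finite_range fun i => (X i).1).bddAbove
    exact ⟨N, fun i => hN ⟨i, rfl⟩⟩
  obtain ⟨M, hM⟩ : ∃ M : ℤ, ∀ i, (X i).2 ≤ M := by
    obtain ⟨M, hM⟩ := (Set.finite_range fun i => (X i).2).bddAbove
    exact ⟨M, fun i => hM ⟨i, rfl⟩⟩
  have hs := sgN_sq N X
  have e := (gau_ray hn hN hM).trans (wcut_BX N M X).symm
  have g := isCov_gau hs h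
  have g' := isCov_gau hs h'
  rw [e] at g g'
  funext a b
  have key : (fun x => sgN N X x.1 * sgN N X b.1 * S x b - sgN N X x.1 * sgN N X b.1 * S' x b) =
      (0 : HE ℤ → ℝ) := by
    refine c0_cut (crit_wcut N M X) ?_ fun k => ?_
    · simpa using (g.zero b).sub (g'.zero b)
    · have e2 : (fun x => sgN N X x.1 * sgN N X b.1 * S x b -
          sgN N X x.1 * sgN N X b.1 * S' x b) = (fun x => sgN N X x.1 * sgN N X b.1 * S x b) -
          fun x => sgN N X x.1 * sgN N X b.1 * S' x b := rfl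
      rw [e2, map_sub, Pi.sub_apply, g.inv k b, g'.inv k b, sub_self]
  have h2 := congrFun key a
  simp only [Pi.zero_apply] at h2
  have h3 := hs a.1
  have h4 := hs b.1
  linear_combination (sgN N X a.1 * sgN N X b.1) * h2 -
    ((S a b - S' a b) * (sgN N X b.1 * sgN N X b.1)) * h3 - (S a b - S' a b) * h4

/-- the data of the plane covariance -/
structure PlDat {n : ℕ} (X : Fin n → ℤ × ℤ) (N M : ℤ) (S' : HE ℤ → HE ℤ → ℝ) : Prop where
  hN : ∀ i, (X i).1 ≤ N
  hM : ∀ i, (X i).2 ≤ M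
  skew : ∀ h h', S' h h' = -S' h' h
  dec : ∀ h', ∃ C, ∀ h, |S' h h'| ≤ C * dec h
  inv : ∀ h' g, Aop (wcut (BX N M X) (fun _ => -2 * xc)) (fun h => S' h h') g =
    -(if g = h' then (1 : ℝ) else 0)
  res : ∀ h h', S' h h' = Spl h h' +
    ∑ e ∈ BX N M X, (-2 * xc) * (S' h (pe e) * Spl (qe e) h' - S' h (qe e) * Spl (pe e) h')
  cov : IsCov (wX (wPl ℤ) X) (fun a b => sgN N X a.1 * sgN N X b.1 * S' a b)

/-- **existence of the covariance of the plane with an even number of spins** -/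
theorem exists_plDat {n : ℕ} (hn : Even n) (X : Fin n → ℤ × ℤ) {N M : ℤ}
    (hN : ∀ i, (X i).1 ≤ N) (hM : ∀ i, (X i).2 ≤ M) : ∃ S' : HE ℤ → HE ℤ → ℝ, PlDat X N M S' := by
  obtain ⟨S', h1, h2, h3, h4⟩ := exists_cov plKer_SP (BX N M X) (fun _ => -2 * xc) (crit_wcut N M X)
  refine ⟨S', hN, hM, h1, h2, h3, h4, ?_⟩
  have hs := sgN_sq N X
  have e := (gau_ray hn hN hM).trans (wcut_BX N M X).symm
  have hc : IsCov (wcut (BX N M X) (fun _ => -2 * xc)) S' := by
    refine ⟨h1, fun h' => ?_, fun g h' => ?_⟩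
    · obtain ⟨C, hC⟩ := h2 h'
      have h5 : Tendsto dec cofinite (𝓝 0) := by
        have := (Spx583.tendsto_dist (0, 0)).inv_tendsto_atTop
        refine this.congr fun h => ?_
        simp [Pl0bx654.dec]
      have h6 : Tendsto (fun h => C * dec h) cofinite (𝓝 0) := by simpa using h5.const_mul C
      exact squeeze_zero_norm hC h6
    · rw [h3 h' g, Pi.single_apply]
  have h5 := isCov_gau hs hc
  rw [← e, gau_gau hs] at h5
  exact h5

theorem exists_isCov_plane {n : ℕ} (hn : Even n) (X : Fin n → ℤ × ℤ) :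
    ∃ S, IsCov (wX (wPl ℤ) X) S := by
  obtain ⟨N, hN⟩ : ∃ N : ℤ, ∀ i, (X i).1 ≤ N := by
    obtain ⟨N, hN⟩ := (Set.finite_range fun i => (X i).1).bddAbove
    exact ⟨N, fun i => hN ⟨i, rfl⟩⟩
  obtain ⟨M, hM⟩ : ∃ M : ℤ, ∀ i, (X i).2 ≤ M := by
    obtain ⟨M, hM⟩ := (Set.finite_range fun i => (X i).2).bddAbove
    exact ⟨M, fun i => hM ⟨i, rfl⟩⟩
  obtain ⟨S', h⟩ := exists_plDat hn X hN hM
  exact ⟨_, h.cov⟩

end Crest.Agent.R165.Pl1x654
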