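import Crest.Agent.R165.Pl1_654
import Crest.Agent.R165.J1b_606
import Crest.Agent.R165.UKer_420

/-!
# Row 165 (S0250), plane clause (helper654): spins and bonds of the plane as Grassmann integrals

* `T1`        : convergence of the torus bond products to the plane state (helper922, PL1)
* `P0c_eq`    : `P0c X V j = EE Spl (Γ_X ∏_k (1 - 2 w_k b_k - e0))`
* `bondJ2_plane` : `P0c X V j = P0c X * EE (Cof (wX wPl X)) (bpr ...)`
-/

set_option autoImplicit false

noncomputable section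

namespace Crest.Agent.R165.Pl2x654

open Finset Filter Topology
open Crest.ProbabilityR.IsingModel
open Crest.Agent.R165
open Crest.Agent.R165.Latx683 (BW Aop wPl yE yN xc IsCov hp hq ray wX)
open Crest.Agent.R165.J1ax606 (HE EG pe qe bb bb_mul_self)
open Crest.Agent.R165.Gr0x606 Crest.Agent.R165.Gr1x606
open Crest.Agent.R165.Pl0x654 (Crit)
open Crest.Agent.R165.Pl0bx654
open Crest.Agent.R165.Pl1x654
open Crest.Agent.R165.Symx541 (ep ep_sq torBonds torMom_eq)
open Crest.Agent.R165.Centx541 Crest.Agent.R165.Redx541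

/-- the weights of the sign change `ε_e = 1 - 2 x b_e` -/
def c2 : EG ℤ → ℝ := fun _ => -2 * xc

/-- convergence of the torus bonds to the plane state -/
def T1 : Prop := ∀ S : Finset (EG ℤ),
  Tendsto (fun L : ℕ => torBonds L 1 0 0 (fun _ => 0) (criticalBeta 1) S) atTop
    (𝓝 (EE (covOf Spl Spl_skew) (Gam S c2 : Gr (VI (HE ℤ)))))

/-- one bond variable with the sign of the cut -/
def AA (w : ℝ) (e : EG ℤ) : Ge (VI (HE ℤ)) := 1 - (2 * w) • bb e

theorem AA_mul (w : ℝ) (e : EG ℤ) : AA w e * AA (-w) e = 1 := by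
  unfold AA
  have h := bb_mul_self e
  have h2 : ((2 * w) • bb e) * ((2 * -w) • bb e) = 0 := by
    rw [smul_mul_smul_comm, h, smul_zero]
  have h3 : (2 * -w) • bb e = -((2 * w) • bb e) := by rw [← neg_smul]; congr 1; ring
  rw [h3] at h2 ⊢
  linear_combination h2

theorem Gam_insert {S : Finset (EG ℤ)} {e : EG ℤ} (he : e ∉ S) :
    Gam (insert e S) c2 = AA xc e * Gam S c2 := by
  unfold Gam
  rw [Finset.prod_insert he]
  congr 1
  unfold AA c2
  rw [sub_eq_add_neg, ← neg_smul]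
  congr 2
  ring

/-- sign of a bond relative to the cut `B` -/
def kB (B : Finset (EG ℤ)) (e : EG ℤ) : ℝ := if e ∈ B then -1 else 1

theorem setsB (B : Finset (EG ℤ)) {m : ℕ} (e : Fin m → EG ℤ) (he : Function.Injective e)
    (T : Finset (Fin m)) : ∃ S : Finset (EG ℤ),
      (∀ s, (∏ b ∈ B, ep b s) * ∏ k ∈ T, ep (e k) s = ∏ b ∈ S, ep b s) ∧
      Gam S c2 = Gam B c2 * ∏ k ∈ T, AA (kB B (e k) * xc) (e k) ∧
      ∀ k, k ∉ T → (e k ∈ S ↔ e k ∈ B) := by
  induction T using Finset.induction_on with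
  | empty => exact ⟨B, fun s => by simp, by simp, fun k _ => Iff.rfl⟩
  | insert k T hk ih =>
    obtain ⟨S, h1, h2, h3⟩ := ih
    by_cases hkS : e k ∈ S
    · refine ⟨S.erase (e k), fun s => ?_, ?_, fun l hl => ?_⟩
      · rw [Finset.prod_insert hk]
        have h4 : ∏ b ∈ S, ep b s = ep (e k) s * ∏ b ∈ S.erase (e k), ep b s :=
          (Finset.mul_prod_erase _ _ hkS).symm
        have h5 := h1 s
        rw [h4] at h5
        calc (∏ b ∈ B, ep b s) * (ep (e k) s * ∏ k ∈ T, ep (e k) s)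
            = ep (e k) s * ((∏ b ∈ B, ep b s) * ∏ k ∈ T, ep (e k) s) := by ring
          _ = (ep (e k) s * ep (e k) s) * ∏ b ∈ S.erase (e k), ep b s := by rw [h5]; ring
          _ = _ := by rw [ep_sq, one_mul]
      · rw [Finset.prod_insert hk]
        have h4 : Gam S c2 = AA xc (e k) * Gam (S.erase (e k)) c2 := by
          rw [← Gam_insert (Finset.notMem_erase _ _), Finset.insert_erase hkS]
        have hB : e k ∈ B := (h3 k hk).1 hkS
        have hkap : kB B (e k) * xc = -xc := by unfold kB; rw [if_pos hB]; ring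
        rw [hkap]
        calc Gam (S.erase (e k)) c2 = (AA xc (e k) * AA (-xc) (e k)) * Gam (S.erase (e k)) c2 := by
              rw [AA_mul, one_mul]
          _ = AA (-xc) (e k) * (AA xc (e k) * Gam (S.erase (e k)) c2) := by ring
          _ = AA (-xc) (e k) * (Gam B c2 * ∏ k ∈ T, AA (kB B (e k) * xc) (e k)) := by rw [← h4, h2]
          _ = _ := by ring
      · rw [Finset.mem_insert, not_or] at hl
        rw [Finset.mem_erase, ← h3 l hl.2]
        exact ⟨fun h => h.2, fun h => ⟨fun h' => hl.1 (he h'), h⟩⟩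
    · refine ⟨insert (e k) S, fun s => ?_, ?_, fun l hl => ?_⟩
      · rw [Finset.prod_insert hk, Finset.prod_insert hkS, ← h1 s]
        ring
      · rw [Finset.prod_insert hk, Gam_insert hkS, h2]
        have hB : e k ∉ B := fun h => hkS ((h3 k hk).2 h)
        have hkap : kB B (e k) * xc = xc := by unfold kB; rw [if_neg hB]; ring
        rw [hkap]
        ring
      · rw [Finset.mem_insert, not_or] at hl
        rw [Finset.mem_insert, ← h3 l hl.2]
        exact ⟨fun h => h.resolve_left fun h' => hl.1 (he h'), Or.inr⟩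

/-- linear functional on the even algebra -/
def Phi (S : Cov (VI (HE ℤ))) : Ge (VI (HE ℤ)) →ₗ[ℝ] ℝ :=
  (EE S).comp (Subalgebra.val (Ge (VI (HE ℤ)))).toLinearMap

theorem Phi_apply (S : Cov (VI (HE ℤ))) (F : Ge (VI (HE ℤ))) :
    Phi S F = EE S (F : Gr (VI (HE ℤ))) := rfl

/-- **torus moments converge to the Grassmann integral of the plane** -/
theorem torMom_lim (h : T1) {n m : ℕ} (hn : Even n) {N M : ℤ} (X : Fin n → ℤ × ℤ)
    (hN : ∀ i, (X i).1 ≤ N) (hM : ∀ i, (X i).2 ≤ M) (V : Fin m → ℤ × ℤ) (j : Fin m → Fin 2)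
    (hinj : Function.Injective fun k => (V k, j k)) (c : Fin m → ℝ) :
    Tendsto (fun L : ℕ => torMom L 1 0 0 (fun _ => 0) (criticalBeta 1) X V j c) atTop
      (𝓝 (Phi (covOf Spl Spl_skew) (Gam (BX N M X) c2 *
        ∏ k, (AA (kp N M X (V k) (j k) * xc) (V k, j k) - algebraMap ℝ _ (c k))))) := by
  classical
  have hk : ∀ k, kp N M X (V k) (j k) = kB (BX N M X) (V k, j k) := fun k => kp_eq N M X _ _
  choose S h1 h2 _ using setsB (BX N M X) (fun k => (V k, j k)) hinj
  have e2 : ∀ L : ℕ, torMom L 1 0 0 (fun _ => 0) (criticalBeta 1) X V j c =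
      ∑ T : Finset (Fin m), (∏ k ∈ Tᶜ, (-c k)) *
        torBonds L 1 0 0 (fun _ => 0) (criticalBeta 1) (S T) := by
    intro L
    rw [torMom_eq, ← torE_apply]
    have e1 : (fun σ : TorusConfig (L + 1) => obs X V j c fun z => σ (toTorus (L + 1) z)) =
        ∑ T : Finset (Fin m), (∏ k ∈ Tᶜ, (-c k)) • fun σ : TorusConfig (L + 1) =>
          ∏ e ∈ S T, ep e fun z => σ (toTorus (L + 1) z) := by
      funext σ
      simp only [Finset.sum_apply, Pi.smul_apply, smul_eq_mul, ← h1]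
      unfold obs
      simp only [sub_eq_add_neg]
      rw [Finset.prod_add, Finset.powerset_univ, Finset.mul_sum]
      refine Finset.sum_congr rfl fun T _ => ?_
      rw [Finset.compl_eq_univ_sdiff, prod_BX _ hn hN hM]
      unfold ep
      ring
    rw [e1, map_sum]
    refine Finset.sum_congr rfl fun T _ => ?_
    rw [map_smul, smul_eq_mul, torE_apply]
    rfl
  simp only [e2]
  have e3 : Phi (covOf Spl Spl_skew) (Gam (BX N M X) c2 *
        ∏ k, (AA (kp N M X (V k) (j k) * xc) (V k, j k) - algebraMap ℝ _ (c k))) =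
      ∑ T : Finset (Fin m), (∏ k ∈ Tᶜ, (-c k)) *
        EE (covOf Spl Spl_skew) (Gam (S T) c2 : Gr (VI (HE ℤ))) := by
    have e4 : Gam (BX N M X) c2 *
        ∏ k, (AA (kp N M X (V k) (j k) * xc) (V k, j k) - algebraMap ℝ _ (c k)) =
        ∑ T : Finset (Fin m), (∏ k ∈ Tᶜ, (-c k)) • Gam (S T) c2 := by
      simp only [sub_eq_add_neg, hk]
      rw [Finset.prod_add, Finset.powerset_univ, Finset.mul_sum]
      refine Finset.sum_congr rfl fun T _ => ?_
      rw [h2, ← Finset.compl_eq_univ_sdiff, Algebra.smul_def, map_prod]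
      simp only [map_neg]
      ring
    rw [e4, map_sum]
    refine Finset.sum_congr rfl fun T _ => ?_
    rw [map_smul, smul_eq_mul, Phi_apply]
  rw [e3]
  exact tendsto_finsetSum _ fun T _ => (h (S T)).const_mul _

/-- **plane moments as Grassmann integrals** -/
theorem P0c_eq (h : T1) {n m : ℕ} (hn : Even n) {N M : ℤ} (X : Fin n → ℤ × ℤ)
    (hN : ∀ i, (X i).1 ≤ N) (hM : ∀ i, (X i).2 ≤ M) (V : Fin m → ℤ × ℤ) (j : Fin m → Fin 2)
    (hinj : Function.Injective fun k => (V k, j k)) :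
    P0c X V j = EE (covOf Spl Spl_skew) ((Gam (BX N M X) c2 : Gr (VI (HE ℤ))) *
      ((∏ k, (AA (kp N M X (V k) (j k) * xc) (V k, j k) - algebraMap ℝ _ e0) : Ge (VI (HE ℤ))) :
        Gr (VI (HE ℤ)))) :=
  (torMom_lim h hn X hN hM V j hinj fun _ => e0).limUnder_eq

theorem P0c_spin (h : T1) {n : ℕ} (hn : Even n) {N M : ℤ} (X : Fin n → ℤ × ℤ)
    (hN : ∀ i, (X i).1 ≤ N) (hM : ∀ i, (X i).2 ≤ M) :
    P0c X (![] : Fin 0 → ℤ × ℤ) ![] =
      EE (covOf Spl Spl_skew) (Gam (BX N M X) c2 : Gr (VI (HE ℤ))) := by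
  rw [P0c_eq h hn X hN hM ![] ![] (fun k => k.elim0)]
  simp

/-- **factorisation, in the gauge of the finite cut** -/
theorem P0c_fac (h : T1) {n m : ℕ} (hn : Even n) {N M : ℤ} {X : Fin n → ℤ × ℤ}
    {S' : HE ℤ → HE ℤ → ℝ} (hS : PlDat X N M S') (V : Fin m → ℤ × ℤ) (j : Fin m → Fin 2)
    (hinj : Function.Injective fun k => (V k, j k)) :
    P0c X V j = P0c X (![] : Fin 0 → ℤ × ℤ) ![] * EE (covOf S' hS.skew)
      ((∏ k, (AA (kp N M X (V k) (j k) * xc) (V k, j k) - algebraMap ℝ _ e0) : Ge (VI (HE ℤ))) :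
        Gr (VI (HE ℤ))) := by
  rw [P0c_eq h hn X hS.hN hS.hM V j hinj, P0c_spin h hn X hS.hN hS.hM]
  exact EE_cut Spl_skew hS.skew (BX N M X) c2 hS.res _

theorem pe_eq_hb (v : ℤ × ℤ) (j : Fin 2) : UKerx420.hb v j 0 = pe (v, j) := by
  obtain ⟨a, b⟩ := v
  fin_cases j
  · rfl
  · simp [UKerx420.hb, hp, pe]

theorem qe_eq_hb (v : ℤ × ℤ) (j : Fin 2) : UKerx420.hb v j 1 = qe (v, j) := by
  obtain ⟨a, b⟩ := v
  fin_cases j
  · simp [UKerx420.hb, hq, qe]
  · rfl

theorem hp_eq (v : ℤ × ℤ) (j : Fin 2) : hp v j = pe (v, j) := pe_eq_hb v j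

theorem hq_eq (v : ℤ × ℤ) (j : Fin 2) : hq v j = qe (v, j) := qe_eq_hb v j

/-- the covariance of helper683 = the covariance of helper606 -/
theorem covS_eq (S : HE ℤ → HE ℤ → ℝ) (hS : ∀ h h', S h h' = -S h' h) :
    Latx683.covS S hS = covOf S hS := by
  have h : (Latx683.covS S hS).b = (covOf S hS).b := by
    rw [covOf_b]
    refine J1bx606.form_ext fun i j => ?_
    rw [formOf_single]
    exact Latx683.formS_single S i j
  cases hA : Latx683.covS S hS with
  | mk b alt =>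
    cases hB : covOf S hS with
    | mk b' alt' =>
      rw [hA, hB] at h
      simp only at h
      subst h
      rfl

theorem wDom_univ : Latx683.wDom (Set.univ : Set (ℤ × ℤ)) false = wPl ℤ := by
  funext z j
  unfold Latx683.wDom wPl
  simp

theorem domainSites_univ (a : ℝ) : domainSites (Set.univ : Set ℂ) a = Set.univ := by
  ext z
  simp [domainSites]

/-- the plane as a domain of helper420 -/
theorem wD_univ (a : ℝ) {n : ℕ} (X : Fin n → ℤ × ℤ) :
    UKerx420.wD false Set.univ a X = wX (wPl ℤ) X := by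
  unfold UKerx420.wD
  rw [domainSites_univ, wDom_univ]

/-- the chosen covariance of the plane -/
theorem Sof_plane {n : ℕ} (hn : Even n) {N M : ℤ} {X : Fin n → ℤ × ℤ} {S' : HE ℤ → HE ℤ → ℝ}
    (hS : PlDat X N M S') :
    UKerx420.Sof (wX (wPl ℤ) X) = fun a b => sgN N X a.1 * sgN N X b.1 * S' a b :=
  isCov_unique hn X (UKerx420.Sof_spec ⟨_, hS.cov⟩) hS.cov

/-- **J2 for the plane, in the form of helper420** -/
theorem bondJ2_plane (h : T1) {n m : ℕ} (hn : Even n) (X : Fin n → ℤ × ℤ) (V : Fin m → ℤ × ℤ)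
    (j : Fin m → Fin 2) (hinj : Function.Injective fun k => (V k, j k)) :
    P0c X V j = P0c X (![] : Fin 0 → ℤ × ℤ) ![] * EE (UKerx420.Cof (wX (wPl ℤ) X))
      (UDomBx420.bpr (fun k i => (Finsupp.single (UKerx420.hb (V k) (j k) i) 1 : Latx683.Fld ℤ))
        (fun k => wX (wPl ℤ) X (V k) (j k)) (fun _ => e0) (List.finRange m)) := by
  obtain ⟨N, hN⟩ : ∃ N : ℤ, ∀ i, (X i).1 ≤ N := by
    obtain ⟨N, hN⟩ := (Set.finite_range fun i => (X i).1).bddAbove
    exact ⟨N, fun i => hN ⟨i, rfl⟩⟩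
  obtain ⟨M, hM⟩ : ∃ M : ℤ, ∀ i, (X i).2 ≤ M := by
    obtain ⟨M, hM⟩ := (Set.finite_range fun i => (X i).2).bddAbove
    exact ⟨M, fun i => hM ⟨i, rfl⟩⟩
  obtain ⟨S', hS⟩ := exists_plDat hn X hN hM
  rw [P0c_fac h hn hS V j hinj]
  congr 1
  have hSof := Sof_plane hn hS
  have hsk : ∀ a b : HE ℤ, sgN N X a.1 * sgN N X b.1 * S' a b =
      -(sgN N X b.1 * sgN N X a.1 * S' b a) := fun a b => by rw [hS.skew a b]; ring
  have hCof : UKerx420.Cof (wX (wPl ℤ) X) =
      covOf (fun a b => sgN N X a.1 * sgN N X b.1 * S' a b) hsk := by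
    rw [← covS_eq]
    unfold UKerx420.Cof
    congr 1
  rw [hCof]
  set F := UDomBx420.bpr (fun k i => (Finsupp.single (UKerx420.hb (V k) (j k) i) 1 : Latx683.Fld ℤ))
    (fun k => wX (wPl ℤ) X (V k) (j k)) (fun _ => e0) (List.finRange m) with hF
  have e1 := J1bx606.EE_dil S' (fun a b => sgN N X a.1 * sgN N X b.1 * S' a b) hS.skew hsk
    (fun a => sgN N X a.1) (fun _ _ => rfl) F
  rw [← e1]
  congr 1
  -- the integrands
  have hs := sgN_sq N X
  have hw : ∀ k, sgN N X (pe (V k, j k)).1 * sgN N X (qe (V k, j k)).1 * wX (wPl ℤ) X (V k) (j k) =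
      kp N M X (V k) (j k) * xc := by
    intro k
    have h1 := congrFun (congrFun (gau_ray hn hN hM) (V k)) (j k)
    unfold gau at h1
    rw [hp_eq, hq_eq] at h1
    exact h1
  rw [hF]
  unfold UDomBx420.bpr
  rw [map_list_prod, List.map_map]
  have e2 : ((∏ k, (AA (kp N M X (V k) (j k) * xc) (V k, j k) - algebraMap ℝ _ e0) :
      Ge (VI (HE ℤ))) : Gr (VI (HE ℤ))) = ((List.finRange m).map fun k =>
        ((AA (kp N M X (V k) (j k) * xc) (V k, j k) - algebraMap ℝ _ e0 : Ge (VI (HE ℤ))) :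
          Gr (VI (HE ℤ)))).prod := by
    rw [← List.prod_ofFn, List.ofFn_eq_map]
    have := map_list_prod (Subalgebra.val (Ge (VI (HE ℤ)))) ((List.finRange m).map fun k =>
        (AA (kp N M X (V k) (j k) * xc) (V k, j k) - algebraMap ℝ _ e0 : Ge (VI (HE ℤ))))
    rw [List.map_map] at this
    exact this
  rw [e2]
  congr 1
  refine List.map_congr_left fun k _ => ?_
  rw [Function.comp_apply, map_sub, map_sub, map_one, map_smul, map_mul, mp_fi, mp_fi]
  simp only
  rw [pe_eq_hb, qe_eq_hb, J1bx606.dil_single, J1bx606.dil_single, fi_smul, fi_smul,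
    smul_mul_smul_comm, smul_smul, AlgHom.commutes]
  unfold AA
  rw [Ge.coe_sub, Ge.coe_sub, Ge.coe_one, Ge.coe_smul, J1ax606.coe_bb]
  congr 2
  rw [← hw k]
  congr 1
  ring

/-- **plane spin correlations are limits of torus correlations** -/
theorem torMom_spin_lim (h : T1) {n : ℕ} (hn : Even n) (X : Fin n → ℤ × ℤ) :
    Tendsto (fun L : ℕ => torMom L 1 0 0 (fun _ => 0) (criticalBeta 1) X (![] : Fin 0 → ℤ × ℤ) ![]
      ![]) atTop (𝓝 (P0c X (![] : Fin 0 → ℤ × ℤ) ![])) := by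
  obtain ⟨N, hN⟩ : ∃ N : ℤ, ∀ i, (X i).1 ≤ N := by
    obtain ⟨N, hN⟩ := (Set.finite_range fun i => (X i).1).bddAbove
    exact ⟨N, fun i => hN ⟨i, rfl⟩⟩
  obtain ⟨M, hM⟩ : ∃ M : ℤ, ∀ i, (X i).2 ≤ M := by
    obtain ⟨M, hM⟩ := (Set.finite_range fun i => (X i).2).bddAbove
    exact ⟨M, fun i => hM ⟨i, rfl⟩⟩
  have h1 := torMom_lim h hn X hN hM (![] : Fin 0 → ℤ × ℤ) ![] (fun k => k.elim0) ![]
  rw [P0c_spin h hn X hN hM]
  simp only [Finset.univ_eq_empty, Finset.prod_empty, mul_one, Phi_apply] at h1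
  exact h1

end Crest.Agent.R165.Pl2x654
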