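import Crest.Agent.R165.U3Spin_719

/-!
# Row 165 (S0250), plane clause (helper654): uniqueness of the continuum spinor in the plane

`uniq_plane`: an entire function `d` with `‖d z‖² ‖z‖² ≤ C ‖∏ (x_j - z)‖` at infinity and all
`d(x_j)² / ∏_{i ≠ j} (x_i - x_j) ∈ -i [0, ∞)` vanishes.
-/

set_option autoImplicit false

open Complex Set Metric Filter Topology
open Crest.Agent.R165.U3x719 (PX wX)

namespace Crest.Agent.R165.Pl5x654

variable {n : ℕ}

/-- division of an entire function by its zeros -/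
theorem divide (x : Fin n → ℂ) (hx : Function.Injective x) {N : ℂ → ℂ} (hN : Differentiable ℂ N)
    (s : Finset (Fin n)) (h0 : ∀ j ∈ s, N (x j) = 0) :
    ∃ h : ℂ → ℂ, Differentiable ℂ h ∧ ∀ z, N z = (∏ j ∈ s, (x j - z)) * h z := by
  classical
  induction s using Finset.induction_on with
  | empty => exact ⟨N, hN, fun z => by simp⟩
  | insert j s hj ih =>
    obtain ⟨h, hh, he⟩ := ih fun i hi => h0 i (Finset.mem_insert_of_mem hi)
    have h1 : h (x j) = 0 := by
      have h2 := h0 j (Finset.mem_insert_self j s)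
      rw [he (x j)] at h2
      rcases mul_eq_zero.1 h2 with h3 | h3
      · obtain ⟨i, hi, h4⟩ := Finset.prod_eq_zero_iff.1 h3
        exact absurd (hx (sub_eq_zero.1 h4)) (fun e => hj (e ▸ hi))
      · exact h3
    refine ⟨fun z => -dslope h (x j) z, ?_, fun z => ?_⟩
    · have h2 : DifferentiableOn ℂ (dslope h (x j)) univ :=
        (Complex.differentiableOn_dslope univ_mem).2 hh.differentiableOn
      exact (differentiableOn_univ.1 h2).neg
    · rw [he z, Finset.prod_insert hj]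
      have h2 := sub_smul_dslope h (x j) z
      rw [h1, sub_zero, smul_eq_mul] at h2
      rw [← h2]
      ring

theorem tendsto_norm_sub (c : ℂ) : Tendsto (fun z : ℂ => ‖c - z‖) (cocompact ℂ) atTop := by
  have h1 : Tendsto (fun z : ℂ => ‖z‖ - ‖c‖) (cocompact ℂ) atTop :=
    tendsto_atTop_add_const_right _ _ (tendsto_norm_cocompact_atTop (E := ℂ))
  refine tendsto_atTop_mono (fun z => ?_) h1
  have := norm_sub_norm_le z c
  rwa [norm_sub_rev] at this

theorem tendsto_inv_sub (c : ℂ) : Tendsto (fun z : ℂ => (c - z)⁻¹) (cocompact ℂ) (𝓝 0) := by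
  rw [tendsto_zero_iff_norm_tendsto_zero]
  simp only [norm_inv]
  exact (tendsto_norm_sub c).inv_tendsto_atTop

/-- **uniqueness in the plane** -/
theorem uniq_plane (x : Fin n → ℂ) (hx : Function.Injective x) {d : ℂ → ℂ}
    (hd : Differentiable ℂ d) (C R0 : ℝ)
    (hdec : ∀ z, R0 ≤ ‖z‖ → ‖d z‖ ^ 2 * ‖z‖ ^ 2 ≤ C * ‖PX x z‖)
    (hres : ∀ j, ∃ k : ℝ, 0 ≤ k ∧ d (x j) ^ 2 / wX x j = -I * k) : ∀ z, d z = 0 := by
  classical
  choose k hk0 hk using hres
  have hw : ∀ j, wX x j ≠ 0 := by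
    intro j h
    unfold wX at h
    obtain ⟨i, hi, h2⟩ := Finset.prod_eq_zero_iff.1 h
    exact (Finset.mem_erase.1 hi).1 (hx (sub_eq_zero.1 h2))
  -- far away
  have hfar : ∀ᶠ z in cocompact ℂ, R0 ≤ ‖z‖ ∧ 1 ≤ ‖z‖ ∧ ∀ j, x j - z ≠ 0 := by
    have h1 := (tendsto_norm_cocompact_atTop (E := ℂ)).eventually_ge_atTop (max R0 1)
    have h2 : ∀ᶠ z in cocompact ℂ, ∀ j, x j - z ≠ 0 := by
      rw [eventually_all]
      intro j
      filter_upwards [(tendsto_norm_sub (x j)).eventually_gt_atTop 0] with z hz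
      exact norm_pos_iff.1 hz
    filter_upwards [h1, h2] with z h1 h2
    exact ⟨(le_max_left _ _).trans h1, (le_max_right _ _).trans h1, h2⟩
  have hP : ∀ z, (∀ j, x j - z ≠ 0) → PX x z ≠ 0 := fun z h => Finset.prod_ne_zero_iff.2 fun j _ => h j
  -- d² / P is small
  have hq : Tendsto (fun z => z * (d z ^ 2 / PX x z)) (cocompact ℂ) (𝓝 0) := by
    have h1 : Tendsto (fun z : ℂ => |C| * ‖z‖⁻¹) (cocompact ℂ) (𝓝 0) := by
      have := (tendsto_norm_cocompact_atTop (E := ℂ)).inv_tendsto_atTop.const_mul |C|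
      rw [mul_zero] at this
      exact this
    refine squeeze_zero_norm' ?_ h1
    filter_upwards [hfar] with z hz
    have hz0 : 0 < ‖z‖ := by linarith [hz.2.1]
    have hP0 : 0 < ‖PX x z‖ := norm_pos_iff.2 (hP z hz.2.2)
    have h2 := hdec z hz.1
    rw [norm_mul, norm_div, norm_pow, ← div_eq_mul_inv, mul_div_assoc', div_le_div_iff₀ hP0 hz0]
    calc ‖z‖ * ‖d z‖ ^ 2 * ‖z‖ = ‖d z‖ ^ 2 * ‖z‖ ^ 2 := by ring
      _ ≤ C * ‖PX x z‖ := h2
      _ ≤ |C| * ‖PX x z‖ := mul_le_mul_of_nonneg_right (le_abs_self C) hP0.le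
  have hq0 : Tendsto (fun z => d z ^ 2 / PX x z) (cocompact ℂ) (𝓝 0) := by
    have h1 : Tendsto (fun z : ℂ => z⁻¹) (cocompact ℂ) (𝓝 0) := by
      have := (tendsto_inv_sub 0).neg
      simp only [zero_sub, inv_neg, neg_neg, neg_zero] at this
      exact this
    have h2 := h1.mul hq
    rw [mul_zero] at h2
    refine h2.congr' ?_
    filter_upwards [hfar] with z hz
    have hz0 : z ≠ 0 := norm_pos_iff.1 (by linarith [hz.2.1])
    field_simp
  -- the numerator
  set c : Fin n → ℂ := fun j => d (x j) ^ 2 / wX x j with hc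
  let N : ℂ → ℂ := fun z => d z ^ 2 - ∑ j, c j * ∏ i ∈ Finset.univ.erase j, (x i - z)
  have hNd : Differentiable ℂ N := by
    refine (hd.pow 2).sub (Differentiable.fun_sum fun j _ => ?_)
    refine (differentiable_const _).mul ?_
    exact Differentiable.fun_finsetProd fun i _ => (differentiable_const _).sub differentiable_id
  have hN0 : ∀ j ∈ (Finset.univ : Finset (Fin n)), N (x j) = 0 := by
    intro j _
    show d (x j) ^ 2 - ∑ l, c l * ∏ i ∈ Finset.univ.erase l, (x i - x j) = 0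
    rw [Finset.sum_eq_single j]
    · show d (x j) ^ 2 - c j * wX x j = 0
      rw [hc]
      field_simp [hw j]
      ring
    · intro l _ hl
      rw [Finset.prod_eq_zero (Finset.mem_erase.2 ⟨hl.symm, Finset.mem_univ j⟩) (sub_self _), mul_zero]
    · intro h
      exact absurd (Finset.mem_univ j) h
  obtain ⟨h, hh, hNh⟩ := divide x hx hNd Finset.univ hN0
  have hNP : ∀ z, (∀ j, x j - z ≠ 0) → h z = d z ^ 2 / PX x z - ∑ j, c j * (x j - z)⁻¹ := by
    intro z hz
    have hPz := hP z hz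
    have h1 : PX x z * h z = N z := (hNh z).symm
    have h2 : h z = N z / PX x z := by
      rw [← h1]
      field_simp
    rw [h2]
    show (d z ^ 2 - ∑ j, c j * ∏ i ∈ Finset.univ.erase j, (x i - z)) / PX x z = _
    rw [sub_div, Finset.sum_div]
    congr 1
    refine Finset.sum_congr rfl fun j _ => ?_
    have h3 : PX x z = (x j - z) * ∏ i ∈ Finset.univ.erase j, (x i - z) :=
      (Finset.mul_prod_erase _ _ (Finset.mem_univ j)).symm
    have h4 : (∏ i ∈ Finset.univ.erase j, (x i - z)) ≠ 0 :=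
      Finset.prod_ne_zero_iff.2 fun i _ => hz i
    rw [h3]
    have h5 := hz j
    field_simp
  have hsum : Tendsto (fun z => ∑ j, c j * (x j - z)⁻¹) (cocompact ℂ) (𝓝 0) := by
    have : Tendsto (fun z => ∑ j, c j * (x j - z)⁻¹) (cocompact ℂ) (𝓝 (∑ j : Fin n, c j * 0)) :=
      tendsto_finsetSum _ fun j _ => (tendsto_inv_sub (x j)).const_mul _
    simpa using this
  have hh0 : Tendsto h (cocompact ℂ) (𝓝 0) := by
    have h1 := hq0.sub hsum
    rw [sub_zero] at h1
    refine h1.congr' ?_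
    filter_upwards [hfar] with z hz
    exact (hNP z hz.2.2).symm
  have hz0 : ∀ z, h z = 0 := fun z => hh.apply_eq_of_tendsto_cocompact z hh0
  -- the sum of the residues
  have hid : ∀ z, (∀ j, x j - z ≠ 0) → d z ^ 2 / PX x z = ∑ j, c j * (x j - z)⁻¹ := by
    intro z hz
    have h1 := hNP z hz
    rw [hz0 z] at h1
    exact (sub_eq_zero.1 h1.symm)
  have hone : ∀ j, Tendsto (fun z : ℂ => z * (x j - z)⁻¹) (cocompact ℂ) (𝓝 (-1)) := by
    intro j
    have h1 : Tendsto (fun z : ℂ => x j * (x j - z)⁻¹ - 1) (cocompact ℂ) (𝓝 (x j * 0 - 1)) :=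
      ((tendsto_inv_sub (x j)).const_mul _).sub_const 1
    rw [mul_zero, zero_sub] at h1
    refine h1.congr' ?_
    filter_upwards [hfar] with z hz
    have h5 := hz.2.2 j
    field_simp
    ring
  have hs : ∑ j, c j = 0 := by
    have h1 : Tendsto (fun z => ∑ j, c j * (z * (x j - z)⁻¹)) (cocompact ℂ)
        (𝓝 (∑ j : Fin n, c j * (-1))) := tendsto_finsetSum _ fun j _ => (hone j).const_mul _
    have h2 : Tendsto (fun z => ∑ j, c j * (z * (x j - z)⁻¹)) (cocompact ℂ) (𝓝 0) := by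
      refine hq.congr' ?_
      filter_upwards [hfar] with z hz
      rw [hid z hz.2.2, Finset.mul_sum]
      refine Finset.sum_congr rfl fun j _ => ?_
      ring
    have h3 := tendsto_nhds_unique h1 h2
    rw [← Finset.sum_mul] at h3
    simpa using h3
  have hk1 : ∑ j, k j = 0 := by
    have h1 : ∑ j, c j = -I * ((∑ j, k j : ℝ) : ℂ) := by
      rw [Complex.ofReal_sum, Finset.mul_sum]
      exact Finset.sum_congr rfl fun j _ => hk j
    rw [hs] at h1
    have h2 : ((∑ j, k j : ℝ) : ℂ) = 0 := by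
      rcases mul_eq_zero.1 h1.symm with h3 | h3
      · simp at h3
      · exact h3
    exact_mod_cast h2
  have hk2 : ∀ j, k j = 0 := fun j =>
    (Finset.sum_eq_zero_iff_of_nonneg fun i _ => hk0 i).1 hk1 j (Finset.mem_univ j)
  have hc0 : ∀ j, c j = 0 := by
    intro j
    show d (x j) ^ 2 / wX x j = 0
    rw [hk j, hk2 j]
    simp
  intro z
  have h1 := hNh z
  rw [hz0 z, mul_zero] at h1
  have h2 : N z = d z ^ 2 := by
    show d z ^ 2 - ∑ j, c j * ∏ i ∈ Finset.univ.erase j, (x i - z) = d z ^ 2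
    rw [Finset.sum_eq_zero fun j _ => by rw [hc0 j, zero_mul], sub_zero]
  rw [h2] at h1
  exact pow_eq_zero_iff (two_ne_zero) |>.1 h1

end Crest.Agent.R165.Pl5x654
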