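import Crest.Agent.R165.Pl1_654
import Crest.Agent.R165.Cl7d_999
import Crest.Agent.R165.Mac0_622

/-!
# Row 165 (S0250), plane clause (helper654): a priori bounds for outgoing fields on the plane

* `Z0 φ`        : `φ → 0` at infinity
* `freg_zero`   : outgoing fields with sources in the cluster box have no plane-regular part
* `out_bound`   : `|φ|²_{8R} ≤ C R² |A φ|²_{8R}`, and `|φ(f)|² ≤ C |φ|²_{8R} / (|f|+1)²` far away
* `PlSeq`       : the class of sequences of plane backgrounds, `plSeq_gauge`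
-/

set_option autoImplicit false

noncomputable section

open Filter Topology Set
open Crest.ProbabilityR.IsingModel
open Crest.Agent.R165.Tr1x40 Crest.Agent.R165.RIfx891 Crest.Agent.R165.Schurx811
open Crest.Agent.R165.Mac0x622 (rays)
open Crest.Agent.R165.Cl7x999 (E2 Clu cv ci sm comm Freg pk0 wc eps cut PK)

namespace Crest.Agent.R165.Pl6x654

/-- fields tending to zero -/
def Z0 (φ : Fld) : Prop := Tendsto (fun b : Face × Fin 4 => φ b.1 b.2) cofinite (𝓝 0)

/-- null vectors of the plane tending to `0` vanish -/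
theorem c0_wc {φ : Fld} (h0 : Z0 φ) (hA : ∀ f, A wc φ f = 0) : φ = 0 := by
  funext f d
  refine Pl1x654.harm_eq (u := fun f => φ f d) (fun z => ?_) ?_ f
  · exact LimAx894.lap_comp (φ := φ) (fun g _ k => congrFun (hA g) k) d
  · exact h0.comp (Prod.mk_left_injective d).tendsto_cofinite

theorem abs_le_nsq (p : Fin 4 → ℝ) (h : Fin 4) : p h ^ 2 ≤ nsq p := by
  unfold nsq
  exact Finset.single_le_sum (f := fun h => p h ^ 2) (fun i _ => sq_nonneg _) (Finset.mem_univ h)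

theorem sqrt_div_tendsto {α : Type*} {l : Filter α} {g : α → ℝ} (hg : Tendsto g l atTop) (C : ℝ) :
    Tendsto (fun b => Real.sqrt (C / g b ^ 2)) l (𝓝 0) := by
  have h3 : Tendsto (fun b => g b ^ 2) l atTop := (tendsto_pow_atTop two_ne_zero).comp hg
  have h4 : Tendsto (fun b => C / g b ^ 2) l (𝓝 0) := tendsto_const_nhds.div_atTop h3
  have := (Real.continuous_sqrt.tendsto 0).comp h4
  rw [Real.sqrt_zero] at this
  exact this

/-- far decay implies `Z0` -/
theorem Z0_of_nsq {φ : Fld} {o : Face} {m : ℕ} {C : ℝ}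
    (h : ∀ f, m ≤ dd f o → nsq (φ f) ≤ C / ((dd f o : ℝ) + 1) ^ 2) : Z0 φ := by
  have h1 : Tendsto (fun b : Face × Fin 4 => ((dd b.1 o : ℝ) + 1)) cofinite atTop := by
    rw [tendsto_atTop]
    intro B
    rw [eventually_cofinite]
    obtain ⟨N, hN⟩ := exists_nat_ge B
    refine Set.Finite.subset (((Cl7x999.bx o N).finite_toSet.prod (Set.finite_univ (α := Fin 4)))) ?_
    intro b hb
    refine ⟨?_, Set.mem_univ _⟩
    have hb' : (dd b.1 o : ℝ) + 1 < B := not_le.1 hb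
    have h2 : (dd b.1 o : ℝ) ≤ N := by linarith
    have h3 : dd b.1 o ≤ N := by exact_mod_cast h2
    rw [Finset.mem_coe, Cl7x999.mem_bx]
    exact h3
  have h3 := sqrt_div_tendsto h1 |C|
  refine squeeze_zero_norm' ?_ h3
  have h4 : ∀ᶠ b : Face × Fin 4 in cofinite, (m : ℝ) + 1 ≤ (dd b.1 o : ℝ) + 1 :=
    h1.eventually_ge_atTop _
  filter_upwards [h4] with b hb
  have h5 : m ≤ dd b.1 o := by
    have : (m : ℝ) ≤ (dd b.1 o : ℝ) := by linarith
    exact_mod_cast this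
  rw [Real.norm_eq_abs]
  refine Real.abs_le_sqrt ?_
  calc φ b.1 b.2 ^ 2 ≤ nsq (φ b.1) := abs_le_nsq _ _
    _ ≤ C / ((dd b.1 o : ℝ) + 1) ^ 2 := h _ h5
    _ ≤ |C| / ((dd b.1 o : ℝ) + 1) ^ 2 := by
      apply div_le_div_of_nonneg_right (le_abs_self C) (by positivity)

theorem Z0_cv {c : ℝ} (P : PK c) (o : Face) (m : ℕ) (ε : Fld) :
    Z0 (cv P.K (Cl7x999.bx o m) ε) :=
  Z0_of_nsq (o := o) (m := 2 * m) (C := 256 * c ^ 2 * (m + 1) ^ 2 * E2 (Cl7x999.bx o m) ε)
    fun f hf => by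
      refine (Cl7x999.nsq_cv_far P o m ε f hf).trans (le_of_eq ?_)
      ring

theorem Z0.add {φ ψ : Fld} (h : Z0 φ) (h' : Z0 ψ) : Z0 (φ + ψ) := by
  have := Filter.Tendsto.add h h'
  rw [add_zero] at this
  exact this

theorem Z0.sm {φ : Fld} (h : Z0 φ) {χ : Face → ℝ} (hχ : ∀ f, |χ f| ≤ 1) : Z0 (sm χ φ) := by
  have h1 : Tendsto (fun b : Face × Fin 4 => ‖φ b.1 b.2‖) cofinite (𝓝 0) :=
    tendsto_zero_iff_norm_tendsto_zero.1 h
  refine squeeze_zero_norm (fun b => ?_) h1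
  show ‖χ b.1 * φ b.1 b.2‖ ≤ _
  rw [norm_mul, Real.norm_eq_abs]
  exact (mul_le_mul_of_nonneg_right (hχ b.1) (norm_nonneg _)).trans (by rw [one_mul])

theorem abs_ci (o : Face) (R : ℕ) (f : Face) : |ci (Cl7x999.chi o R) f| ≤ 1 := by
  have h0 := Cl7x999.chi_nonneg (o := o) (R := R) f
  have h1 := Cl7x999.chi_le_one (o := o) (R := R) f
  unfold ci
  rw [abs_le]
  constructor <;> linarith

/-- no plane-regular part -/
theorem freg_zero {w : Fld} {o : Face} {R : ℕ} (hw : Clu w o R) (hR : 1 ≤ R) {φ : Fld}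
    (h0 : Z0 φ) (hA : ∀ f, 2 * R < dd f o → A w φ f = 0) : Freg pk0 w o R φ = 0 := by
  refine c0_wc ?_ fun f => ?_
  · exact (h0.sm (abs_ci o R)).add (Z0_cv pk0 o (4 * R) _)
  · rw [Cl7x999.A_Freg pk0 hw hR]
    funext h
    show ci (Cl7x999.chi o R) f * A w φ f h = 0
    by_cases hf : dd f o ≤ 2 * R
    · have h1 : Cl7x999.chi o R f = 1 := Cl7x999.cut_eq_one (by omega) hf
      unfold ci
      rw [h1]
      ring
    · rw [hA f (not_le.1 hf)]
      simp

/-- **a priori bounds for outgoing fields** -/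
theorem out_bound : ∃ C : ℝ, 0 < C ∧ ∀ (w : Fld) (o : Face) (R : ℕ), 1 ≤ R → Clu w o R →
    ∀ φ : Fld, Z0 φ → (∀ f, 2 * R < dd f o → A w φ f = 0) →
      E2 (Cl7x999.bx o (8 * R)) φ ≤ C * (R : ℝ) ^ 2 * E2 (Cl7x999.bx o (8 * R)) (A w φ) ∧
      ∀ f, 8 * R ≤ dd f o →
        nsq (φ f) ≤ C / ((dd f o : ℝ) + 1) ^ 2 * E2 (Cl7x999.bx o (8 * R)) φ := by
  obtain ⟨CK, hCK, hK⟩ := Cl7x999.K0
  refine ⟨CK + 1600 * 4000000 ^ 2, by positivity, ?_⟩
  intro w o R hR hw φ h0 hA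
  have hF := freg_zero hw hR h0 hA
  have hR' : (1 : ℝ) ≤ R := by exact_mod_cast hR
  constructor
  · have h1 := hK w o R hR hw φ
    rw [hF] at h1
    have h2 : E2 (Cl7x999.bx o (8 * R)) (0 : Fld) = 0 := by
      unfold E2
      exact Finset.sum_eq_zero fun f _ => Cl7x999.nsq_zero
    rw [h2, zero_add] at h1
    have h3 := Cl7x999.E2_nonneg (Cl7x999.bx o (8 * R)) (A w φ)
    calc E2 (Cl7x999.bx o (8 * R)) φ ≤ CK * ((R : ℝ) ^ 2 * E2 (Cl7x999.bx o (8 * R)) (A w φ)) := h1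
      _ = CK * (R : ℝ) ^ 2 * E2 (Cl7x999.bx o (8 * R)) (A w φ) := by ring
      _ ≤ _ := by
        apply mul_le_mul_of_nonneg_right _ h3
        apply mul_le_mul_of_nonneg_right _ (by positivity)
        norm_num
  · intro f hf
    have h1 : φ f = -cv (pk0).K (Cl7x999.bx o (4 * R)) (eps w o R φ) f := by
      have h2 := congrFun hF f
      funext h
      have h3 := congrFun h2 h
      have h4 : Cl7x999.chi o R f = 0 := Cl7x999.cut_eq_zero (by omega)
      simp only [Freg, Pi.add_apply, sm, ci, h4, Pi.zero_apply] at h3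
      simp only [Pi.neg_apply]
      linarith
    have h2 : nsq (φ f) = nsq (cv (pk0).K (Cl7x999.bx o (4 * R)) (eps w o R φ) f) := by
      rw [h1]
      unfold nsq
      exact Finset.sum_congr rfl fun h _ => by simp
    rw [h2]
    refine (Cl7x999.nsq_cv_far pk0 o (4 * R) (eps w o R φ) f (by omega)).trans ?_
    have h3 := Cl7x999.E2_eps hw hR φ
    have h4 := Cl7x999.E2_nonneg (Cl7x999.bx o (8 * R)) φ
    have hd : (0 : ℝ) < (dd f o : ℝ) + 1 := by positivity
    have hR0 : (0 : ℝ) < R := by linarith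
    calc 256 * (4000000 : ℝ) ^ 2 * (((4 * R : ℕ) : ℝ) + 1) ^ 2 / ((dd f o : ℝ) + 1) ^ 2 *
          E2 (Cl7x999.bx o (4 * R)) (eps w o R φ)
        ≤ 256 * (4000000 : ℝ) ^ 2 * (5 * R) ^ 2 / ((dd f o : ℝ) + 1) ^ 2 *
          ((1 / (2 * R : ℕ)) ^ 2 * E2 (Cl7x999.bx o (8 * R)) φ) := by
          apply mul_le_mul _ h3 (Cl7x999.E2_nonneg _ _) (by positivity)
          apply div_le_div_of_nonneg_right _ (by positivity)
          apply mul_le_mul_of_nonneg_left _ (by positivity)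
          apply pow_le_pow_left₀ (by positivity)
          push_cast
          linarith
      _ = 1600 * 4000000 ^ 2 / ((dd f o : ℝ) + 1) ^ 2 * E2 (Cl7x999.bx o (8 * R)) φ := by
          push_cast
          field_simp
          ring
      _ ≤ _ := by
          apply mul_le_mul_of_nonneg_right _ h4
          apply div_le_div_of_nonneg_right _ (by positivity)
          linarith

/-! ### the class of plane backgrounds -/

open Latx683 (wX wPl BW)
open Pl1x654 (gau kp sgN OnP)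
open Pl0x654 (cw)

theorem rays_eq {n : ℕ} (V : Fin n → Face) (f : Face) (h : Fin 4) :
    rays V f h * xc = cw (wX (wPl ℤ) V) f h := by
  have hx : (Latx683.xc : ℝ) = xc := rfl
  unfold rays cw ofEN wX wPl
  fin_cases h
  · simp only [Latx683.yN, Latx683.ray, sub_add_cancel, hx, Fin.zero_eta]
    congr 1
    refine Finset.prod_congr rfl fun i _ => ?_
    unfold rayw
    congr 1
    simp only [eq_iff_iff, true_and]
    constructor
    · rintro (⟨h1, h2⟩ | ⟨h1, -⟩)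
      · exact ⟨h1.symm, h2⟩
      · exact absurd h1 (by decide)
    · intro h1
      exact Or.inl ⟨h1.1.symm, h1.2⟩
  · simp only [Latx683.yE, Latx683.ray, hx, Fin.mk_one]
    congr 1
  · simp only [Latx683.yN, Latx683.ray, hx, Fin.reduceFinMk]
    congr 1
    refine Finset.prod_congr rfl fun i _ => ?_
    unfold rayw
    congr 1
    simp only [eq_iff_iff, true_and]
    constructor
    · rintro (⟨h1, -⟩ | ⟨h1, h2⟩)
      · exact absurd h1 (by decide)
      · exact ⟨h1.symm, h2⟩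
    · rintro ⟨h1, h2⟩
      exact Or.inr ⟨h1.symm, h2⟩
  · simp only [Latx683.yE, Latx683.ray, hx, Fin.reduceFinMk]
    congr 1

theorem cw_gau (s : Face → ℝ) (W : BW ℤ) (f : Face) (h : Fin 4) :
    cw (gau s W) f h = s f * s (nb f h) * cw W f h := by
  obtain ⟨i, j⟩ := f
  unfold cw ofEN gau
  fin_cases h
  · simp [Latx683.yN, nb]
  · simp [Latx683.yE, nb]
  · simp only [Latx683.yN, nb, Latx683.hp_zero, Latx683.hq_zero, add_sub_cancel_right]
    ring
  · simp only [Latx683.yE, nb, Latx683.hp_one, Latx683.hq_one, sub_add_cancel]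
    ring

theorem kp_one {n : ℕ} {N M : ℤ} {X : Fin n → ℤ × ℤ} {z : ℤ × ℤ} {j : Fin 2}
    (h : ∀ i, ¬ OnP N M (X i) z j) : kp N M X z j = 1 :=
  Finset.prod_eq_one fun i _ => if_neg (h i)

theorem kp_far {n : ℕ} {N : ℕ} {V : Fin n → Face} (hN : ∀ i, dd (V i) 0 ≤ N) {z : ℤ × ℤ}
    (hz : N < dd z 0) (j : Fin 2) : kp N N V z j = 1 := by
  refine kp_one fun i h => ?_
  have h1 := (dd_le_iff.1 (hN i))
  have h2 : dd z 0 ≤ N := by
    rw [dd_le_iff]
    simp only [Prod.fst_zero, Prod.snd_zero] at h1 ⊢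
    rcases h with ⟨-, h3, h4, h5⟩ | ⟨-, h3, h4, h5⟩
    · omega
    · omega
  omega

/-- **the plane background is gauge equivalent to a cluster background** -/
theorem clu_of {n : ℕ} (hn : Even n) (V : Fin n → Face) {N : ℕ} (hN : ∀ i, dd (V i) 0 ≤ N) :
    ∃ s : Face → ℝ, Gauge s ∧ ∃ w' : Fld, Clu w' 0 (N + 1) ∧
      ∀ f h, w' f h = s f * s (nb f h) * (rays V f h * xc) := by
  have hb : ∀ i, (V i).1 ≤ N ∧ (V i).2 ≤ N := fun i => by
    have := dd_le_iff.1 (hN i)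
    simp only [Prod.fst_zero, Prod.snd_zero] at this
    omega
  have hg := Pl1x654.gau_ray hn (N := N) (M := N) (X := V) (fun i => (hb i).1) (fun i => (hb i).2)
  refine ⟨sgN N V, fun f => by rw [pow_two]; exact Pl1x654.sgN_sq _ _ _,
    cw (gau (sgN N V) (wX (wPl ℤ) V)), ⟨Pl0x654.sym_cw _, fun f h => ?_, fun f h hf => ?_⟩,
    fun f h => ?_⟩
  · rw [hg, ← Pl1x654.wcut_BX]
    exact (Pl1x654.crit_wcut N N V).cw f h
  · rw [hg]
    have hx : (Latx683.xc : ℝ) = xc := rfl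
    have h1 : ∀ z : ℤ × ℤ, (z = f ∨ z = (f.1 + 1, f.2) ∨ z = (f.1, f.2 + 1)) → ∀ j,
        kp N N V z j = 1 := by
      intro z hz j
      refine kp_far hN ?_ j
      by_contra hcon
      push Not at hcon
      rw [dd_le_iff] at hcon
      have h2 : dd f 0 ≤ N + 1 := by
        rw [dd_le_iff]
        simp only [Prod.fst_zero, Prod.snd_zero] at hcon ⊢
        rcases hz with rfl | rfl | rfl <;> · (try simp only at hcon); push_cast; omega
      omega
    unfold cw ofEN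
    fin_cases h
    · simp only [Latx683.yN, sub_add_cancel, hx]
      rw [h1 (f.1, f.2) (Or.inl rfl), one_mul]
    · simp only [Latx683.yE, hx]
      rw [h1 _ (Or.inr (Or.inl rfl)), one_mul]
    · simp only [Latx683.yN, hx]
      rw [h1 _ (Or.inr (Or.inr rfl)), one_mul]
    · simp only [Latx683.yE, sub_add_cancel, hx]
      rw [h1 (f.1, f.2) (Or.inl rfl), one_mul]
  · rw [cw_gau, rays_eq]

/-- the class of sequences of plane backgrounds with spin insertions -/
structure PlSeq {n : ℕ} (x : Fin n → ℂ) (a : ℕ → ℝ) (w : ℕ → Fld) (V : ℕ → Fin n → Face) :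
    Prop where
  pos : ∀ k, 0 < a k
  lim : Tendsto a atTop (𝓝 0)
  tip : ∀ i, Tendsto (fun k => meshPoint (a k) (V k i)) atTop (𝓝 (x i))
  wgt : ∀ k f h, w k f h = rays (V k) f h * xc

theorem PlSeq.sym {n : ℕ} {x : Fin n → ℂ} {a : ℕ → ℝ} {w : ℕ → Fld} {V : ℕ → Fin n → Face}
    (H : PlSeq x a w V) (k : ℕ) : Sym (w k) := by
  have : w k = cw (wX (wPl ℤ) (V k)) := by
    funext f h
    rw [H.wgt, rays_eq]
  rw [this]
  exact Pl0x654.sym_cw _

theorem PlSeq.comp {n : ℕ} {x : Fin n → ℂ} {a : ℕ → ℝ} {w : ℕ → Fld} {V : ℕ → Fin n → Face}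
    (H : PlSeq x a w V) {φ : ℕ → ℕ} (hφ : StrictMono φ) : PlSeq x (a ∘ φ) (w ∘ φ) (V ∘ φ) :=
  ⟨fun k => H.pos _, H.lim.comp hφ.tendsto_atTop, fun i => (H.tip i).comp hφ.tendsto_atTop,
    fun k => H.wgt _⟩

theorem E2_gm {s : Face → ℝ} (hs : Gauge s) (K : Finset Face) (φ : Fld) :
    E2 K (gm s φ) = E2 K φ := by
  unfold E2
  exact Finset.sum_congr rfl fun f _ => nsq_gm hs φ f

theorem gauge_abs {s : Face → ℝ} (hs : Gauge s) (f : Face) : |s f| = 1 := by
  have h := hs f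
  rw [← sq_abs] at h
  nlinarith [abs_nonneg (s f)]

/-- **bounds on the plane with an even number of spins, ray gauge** -/
theorem plane_bounds : ∃ C : ℝ, 0 < C ∧ ∀ (n : ℕ), Even n → ∀ (V : Fin n → Face) (R : ℕ),
    1 ≤ R → (∀ i, dd (V i) 0 + 1 ≤ R) → ∀ w : Fld, (∀ f h, w f h = rays V f h * xc) →
    ∀ φ : Fld, Z0 φ → (∀ f, 2 * R < dd f 0 → A w φ f = 0) →
      E2 (Cl7x999.bx 0 (8 * R)) φ ≤ C * (R : ℝ) ^ 2 * E2 (Cl7x999.bx 0 (8 * R)) (A w φ) ∧
      ∀ f, 8 * R ≤ dd f 0 →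
        nsq (φ f) ≤ C / ((dd f 0 : ℝ) + 1) ^ 2 * E2 (Cl7x999.bx 0 (8 * R)) φ := by
  obtain ⟨C, hC, hb⟩ := out_bound
  refine ⟨C, hC, fun n hn V R hR hV w hw φ h0 hA => ?_⟩
  obtain ⟨s, hs, w', hclu, hw'⟩ := clu_of hn V (N := R - 1) (fun i => by have := hV i; omega)
  rw [Nat.sub_add_cancel hR] at hclu
  have hAg : ∀ f, A w' (gm s φ) f = fun h => s f * A w φ f h := fun f =>
    A_gm hs (fun h => by rw [hw' f h, hw f h]) φ
  have hAE : E2 (Cl7x999.bx 0 (8 * R)) (A w' (gm s φ)) = E2 (Cl7x999.bx 0 (8 * R)) (A w φ) := by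
    unfold E2
    refine Finset.sum_congr rfl fun f _ => ?_
    rw [hAg f]
    exact nsq_gm hs (A w φ) f
  have hZ : Z0 (gm s φ) := by
    have h1 : Tendsto (fun b : Face × Fin 4 => ‖φ b.1 b.2‖) cofinite (𝓝 0) :=
      tendsto_zero_iff_norm_tendsto_zero.1 h0
    refine squeeze_zero_norm (fun b => ?_) h1
    show ‖s b.1 * φ b.1 b.2‖ ≤ _
    rw [norm_mul, Real.norm_eq_abs, gauge_abs hs, one_mul]
  obtain ⟨h1, h2⟩ := hb w' 0 R hR hclu (gm s φ) hZ fun f hf => by
    rw [hAg f, hA f hf]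
    funext h
    simp
  rw [E2_gm hs, hAE] at h1
  refine ⟨h1, fun f hf => ?_⟩
  have h3 := h2 f hf
  rwa [E2_gm hs, nsq_gm hs] at h3

end Crest.Agent.R165.Pl6x654
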