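import Crest.Agent.R165.U3Rem_719

/-!
Row 165, block U3 (helper719): structure of spinors, uniqueness on the unit disc.
-/

set_option autoImplicit false

open Complex Set Metric Filter Topology MeasureTheory
open scoped ComplexConjugate ContDiff

namespace Crest.Agent.R165.U3x719

variable {n : ℕ}

theorem rX_sq (x : Fin n → ℂ) (z : ℂ) : rX x z ^ 2 = PX x z := by
  unfold rX PX
  rw [← Finset.prod_pow]
  refine Finset.prod_congr rfl fun j _ => ?_
  rw [← Complex.cpow_nat_mul]
  norm_num

theorem PX_cont (x : Fin n → ℂ) : Continuous (PX x) := (PX_diff x).continuous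

theorem rX_ne {x : Fin n → ℂ} {z : ℂ} (hz : ∀ j, z ≠ x j) : rX x z ≠ 0 := by
  intro h
  have := rX_sq x z
  rw [h] at this
  exact PX_ne hz (by rw [← this]; simp)

theorem ae_ne_range (x : Fin n → ℂ) (s : Set ℂ) : ∀ᵐ z ∂volume.restrict s, ∀ j, z ≠ x j := by
  rw [ae_all_iff]
  intro j
  exact ae_restrict_of_ae (Measure.ae_ne volume (x j))

theorem ae_notMem_finite {K : Set ℂ} (hK : K.Finite) (s : Set ℂ) :
    ∀ᵐ z ∂volume.restrict s, z ∉ K := by
  apply ae_restrict_of_ae
  have : volume K = 0 := hK.measure_zero volume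
  exact measure_eq_zero_iff_ae_notMem.1 this

/-- `F² = g²/PX` a.e. -/
theorem sq_eq {x : Fin n → ℂ} {F g : ℂ → ℂ} {s : Set ℂ}
    (h : ∀ᵐ z ∂volume.restrict s, F z * rX x z = g z) :
    ∀ᵐ z ∂volume.restrict s, F z ^ 2 = g z ^ 2 / PX x z := by
  filter_upwards [h, ae_ne_range x s] with z hz hz2
  rw [← hz, mul_pow, rX_sq, mul_div_cancel_right₀ _ (PX_ne hz2)]

/-- (a) **removable**: holomorphic extension of `F rX` across the branch points outside `K` -/
theorem IsSpin.ext {D : Set ℂ} (hD : IsOpen D) {x : Fin n → ℂ} {K : Set ℂ} (hK : IsClosed K)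
    {F : ℂ → ℂ} (h : IsSpin D x K F) :
    ∃ g : ℂ → ℂ, DifferentiableOn ℂ g (D \ K) ∧
      ∀ᵐ z ∂volume.restrict (D \ K), F z * rX x z = g z := by
  obtain ⟨g, hg, hae⟩ := h.holo
  have hDK : IsOpen (D \ K) := hD.sdiff hK
  obtain ⟨e, he, heg⟩ := removable_finite (U := D \ K) (S := range x) (g := g) hDK (finite_range x)
    (by rw [sdiff_sdiff]
        rw [union_comm] at hg
        exact hg) (by
    rintro c ⟨j, rfl⟩ hc
    obtain ⟨δ, hδ, hδD⟩ := Metric.isOpen_iff.1 hDK _ hc
    refine ⟨δ / 2, by linarith, ?_⟩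
    have hsub : closedBall (x j) (δ / 2) ⊆ D \ K :=
      (closedBall_subset_ball (by linarith)).trans hδD
    have hm := h.l2 (closedBall (x j) (δ / 2))ᶜ isClosed_closedBall.isOpen_compl
      (fun z hz h2 => (hsub h2).2 hz)
    have h3 : ball (x j) (δ / 2) ⊆ D \ (closedBall (x j) (δ / 2))ᶜ := by
      intro z hz
      exact ⟨(hsub (ball_subset_closedBall hz)).1, fun hh => hh (ball_subset_closedBall hz)⟩
    have hm2 : MemLp F 2 (volume.restrict (ball (x j) (δ / 2))) :=
      hm.mono_measure (Measure.restrict_mono h3 le_rfl)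
    have hFi : IntegrableOn (fun z => F z * F z) (ball (x j) (δ / 2)) :=
      MemLp.integrable_mul hm2 hm2
    obtain ⟨M, hM⟩ := (isCompact_closedBall (x j) (δ / 2)).exists_bound_of_continuousOn
      (PX_cont x).continuousOn
    have h4 : IntegrableOn (fun z => F z * F z * PX x z) (ball (x j) (δ / 2)) := by
      apply hFi.mul_bdd (c := M) (PX_cont x).aestronglyMeasurable
      filter_upwards [ae_restrict_mem measurableSet_ball] with z hz
      exact hM z (ball_subset_closedBall hz)
    refine h4.congr_fun_ae ?_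
    have h5 : ∀ᵐ z ∂volume.restrict (ball (x j) (δ / 2)), F z * rX x z = g z :=
      ae_restrict_of_ae_restrict_of_subset (fun z hz => hsub (ball_subset_closedBall hz)) hae
    filter_upwards [h5] with z hz
    rw [← hz, ← rX_sq]
    ring)
  refine ⟨e, he, ?_⟩
  filter_upwards [hae, ae_ne_range x (D \ K)] with z h1 h2
  rw [heg z (by rintro ⟨j, rfl⟩; exact h2 j rfl)]
  exact h1

/-- (b) **local sign**: the residue condition at a branch point which is not a source -/
theorem IsSpin.res {D : Set ℂ} (hD : IsOpen D) {x : Fin n → ℂ} (hx : Function.Injective x)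
    {K : Set ℂ} (hK : IsClosed K) {F g : ℂ → ℂ} (h : IsSpin D x K F) {j : Fin n} (hjD : x j ∈ D)
    (hjK : x j ∉ K) (hg : DifferentiableOn ℂ g (D \ K))
    (hFg : ∀ᵐ z ∂volume.restrict (D \ K), F z * rX x z = g z) :
    ∃ k : ℝ, 0 ≤ k ∧ g (x j) ^ 2 / wX x j = -I * k := by
  -- a small ball
  have hS : IsClosed (range x \ {x j}) := ((finite_range x).subset sdiff_subset).isClosed
  have hU : IsOpen ((D \ K) \ (range x \ {x j})) := (hD.sdiff hK).sdiff hS
  obtain ⟨δ, hδ, hδU⟩ := Metric.isOpen_iff.1 hU (x j) ⟨⟨hjD, hjK⟩, by simp⟩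
  have hδ2 : 0 < δ ^ 2 := by positivity
  set s1 := δ ^ 2 / 4 with hs1
  set s2 := δ ^ 2 / 2 with hs2
  have h12 : s1 < s2 := by rw [hs1, hs2]; linarith
  set α : ℝ → ℝ := fun t => 1 - stp s1 s2 t with hα
  have hαC : ContDiff ℝ 1 α := contDiff_const.sub (stp_contDiff s1 s2 (m := 1))
  have hdα : ∀ t, deriv α t = - deriv (stp s1 s2) t := by
    intro t
    rw [hα]
    rw [deriv_const_sub]
  set χ : ℂ → ℝ := rad (x j) α with hχ
  have hχC : ContDiff ℝ 1 χ := rad_contDiff (x j) hαC
  have hχs : tsupport χ ⊆ {z | normSq (z - x j) ≤ s2} := by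
    apply closure_minimal
    · intro z hz
      by_contra hcon
      apply hz
      simp only [hχ, rad, hα]
      rw [stp_one h12 (le_of_lt (not_le.1 hcon)), sub_self]
    · exact isClosed_le (continuous_normSq.comp (continuous_id.sub continuous_const)) continuous_const
  have hball : ∀ z, normSq (z - x j) ≤ s2 → z ∈ ball (x j) δ := by
    intro z hz
    rw [normSq_eq_norm_sq] at hz
    rw [mem_ball, dist_eq_norm]
    apply lt_of_pow_lt_pow_left₀ 2 hδ.le
    rw [hs2] at hz
    linarith
  have hχc : HasCompactSupport χ := by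
    apply HasCompactSupport.of_support_subset_isCompact (isCompact_closedBall (x j) δ)
    intro z hz
    exact ball_subset_closedBall (hball z (hχs (subset_tsupport _ hz)))
  have hdis : Disjoint (tsupport χ) K := by
    rw [Set.disjoint_left]
    intro z hz hzK
    exact (hδU (hball z (hχs hz))).1.2 hzK
  have hlip : ∃ C, LipschitzWith C χ := hχC.lipschitzWith_of_hasCompactSupport hχc one_ne_zero
  have hcurl := h.curl χ hlip hχc hχC.contDiffOn hdis
  have hdiv := h.div χ hlip hχc hχC.contDiffOn hdis (fun z => by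
    simp only [hχ, rad, hα]; linarith [stp_le_one s1 s2 (normSq (z - x j))])
  -- the punctured ball
  set A : Set ℂ := {z : ℂ | 0 < ‖z - x j‖ ∧ ‖z - x j‖ < δ} with hA
  have hcn : Continuous fun z : ℂ => ‖z - x j‖ := by fun_prop
  have hAo : IsOpen A := (isOpen_lt continuous_const hcn).inter (isOpen_lt hcn continuous_const)
  have hAU : ∀ z ∈ A, z ∈ D ∧ z ∉ K ∧ ∀ i, z ≠ x i := by
    intro z hz
    have h1 := hδU (show z ∈ ball (x j) δ by rw [mem_ball, dist_eq_norm]; exact hz.2)
    refine ⟨h1.1.1, h1.1.2, ?_⟩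
    rintro i rfl
    apply h1.2
    refine ⟨⟨i, rfl⟩, ?_⟩
    intro h2
    rw [mem_singleton_iff] at h2
    have := hz.1
    rw [h2, sub_self, norm_zero] at this
    exact lt_irrefl _ this
  set Q : ℂ → ℂ := fun z => g z ^ 2 / PX x z with hQ
  have hdb0 : ∀ z, ¬ (s1 ≤ normSq (z - x j) ∧ normSq (z - x j) ≤ s2) → db χ z = 0 := by
    intro z hz
    rw [hχ, db_rad _ (hαC.differentiable one_ne_zero), hdα,
      stp_deriv_zero h12 (by
        rcases not_and_or.1 hz with h1 | h1
        · exact Or.inl (le_of_lt (not_le.1 h1))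
        · exact Or.inr (le_of_lt (not_le.1 h1)))]
    simp
  have hAmem : ∀ z, (s1 ≤ normSq (z - x j) ∧ normSq (z - x j) ≤ s2) → z ∈ A := by
    rintro z ⟨h1, h2⟩
    refine ⟨?_, ?_⟩
    · rw [norm_pos_iff]
      intro h0
      rw [h0, map_zero, hs1] at h1
      linarith
    · have := hball z h2
      rwa [mem_ball, dist_eq_norm] at this
  have hint : ∀ φ : ℂ → ℝ, φ 0 = 0 → ∫ z in D, φ (F z ^ 2 * db χ z) = ∫ z in A, φ (Q z * db χ z) := by
    intro φ hφ
    have e1 : ∫ z in D, φ (F z ^ 2 * db χ z) = ∫ z in A, φ (F z ^ 2 * db χ z) := by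
      apply setIntegral_eq_of_subset_of_forall_sdiff_eq_zero hD.measurableSet
        (fun z hz => (hAU z hz).1)
      rintro z ⟨-, hz⟩
      rw [hdb0 z (fun h1 => hz (hAmem z h1)), mul_zero, hφ]
    rw [e1]
    apply integral_congr_ae
    have h5 : ∀ᵐ z ∂volume.restrict A, F z * rX x z = g z :=
      ae_restrict_of_ae_restrict_of_subset
        (fun z hz => (⟨(hAU z hz).1, (hAU z hz).2.1⟩ : z ∈ D \ K)) hFg
    filter_upwards [sq_eq h5] with z hz
    rw [hz]
  have hQd : DifferentiableOn ℂ Q A := by
    apply DifferentiableOn.div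
    · exact (hg.mono fun z hz => ⟨(hAU z hz).1, (hAU z hz).2.1⟩).pow 2
    · exact (PX_diff x).differentiableOn
    · exact fun z hz => PX_ne (hAU z hz).2.2
  have hcdb : Continuous (db χ) := by
    have hfd : Continuous (fderiv ℝ χ) := hχC.continuous_fderiv one_ne_zero
    unfold db
    exact (continuous_ofReal.comp (hfd.clm_apply continuous_const)).add
      (continuous_const.mul (continuous_ofReal.comp (hfd.clm_apply continuous_const)))
  have hQi : IntegrableOn (fun z => Q z * db χ z) A := by
    set Cc : Set ℂ := {z | s1 ≤ normSq (z - x j) ∧ normSq (z - x j) ≤ s2} with hCc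
    have hcns : Continuous fun z : ℂ => normSq (z - x j) :=
      continuous_normSq.comp (continuous_id.sub continuous_const)
    have hCcl : IsClosed Cc := (isClosed_le continuous_const hcns).inter (isClosed_le hcns continuous_const)
    have hCco : IsCompact Cc := (isCompact_closedBall (x j) δ).of_isClosed_subset hCcl
      (fun z hz => ball_subset_closedBall (hball z hz.2))
    have h1 : IntegrableOn (fun z => Q z * db χ z) Cc :=
      ((hQd.continuousOn.mono hAmem).mul hcdb.continuousOn).integrableOn_compact hCco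
    have h2 : IntegrableOn (fun z => Q z * db χ z) Ccᶜ := by
      refine (integrableOn_zero (μ := volume)).congr_fun (fun z hz => ?_) hCcl.isOpen_compl.measurableSet
      rw [hdb0 z hz, mul_zero]
    exact (h1.union h2).mono_set (by rw [union_compl_self]; exact subset_univ _)
  set m : ℂ := ∫ z in A, Q z * db χ z with hm
  have hre : m.re = 0 := by
    have h1 : m.re = ∫ z in A, (Q z * db χ z).re := (integral_re hQi).symm
    rw [h1, ← hint (fun w => w.re) rfl]
    exact hcurl
  have him : m.im ≤ 0 := by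
    have h1 : m.im = ∫ z in A, (Q z * db χ z).im := (integral_im hQi).symm
    rw [h1, ← hint (fun w => w.im) rfl]
    exact hdiv
  -- computation of m
  set W : ℂ → ℂ := fun v => ∏ i ∈ Finset.univ.erase j, (x i - (x j + v)) with hW
  have hWd : Differentiable ℂ W := by
    intro v
    simp only [hW]
    fun_prop
  have hPW : ∀ v, PX x (x j + v) = -(v * W v) := by
    intro v
    unfold PX
    rw [← Finset.mul_prod_erase Finset.univ _ (Finset.mem_univ j)]
    simp only [hW]
    ring
  have hW0 : W 0 = wX x j := by simp [hW, wX]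
  have hshift : ∀ v ∈ ball (0 : ℂ) δ, x j + v ∈ ball (x j) δ := by
    intro v hv
    simpa [dist_eq_norm] using hv
  have hWne : ∀ v ∈ ball (0 : ℂ) δ, W v ≠ 0 := by
    intro v hv
    by_cases hv0 : v = 0
    · rw [hv0, hW0]; exact wX_ne hx j
    · intro h0
      have h1 := hPW v
      rw [h0, mul_zero, neg_zero] at h1
      have h2 : x j + v ∈ A := by
        refine ⟨?_, ?_⟩
        · rw [add_sub_cancel_left]; exact norm_pos_iff.2 hv0
        · rw [add_sub_cancel_left]; simpa using hv
      exact PX_ne (hAU _ h2).2.2 h1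
  set G : ℂ → ℂ := fun v => Q (x j + v) with hG
  have hGd : DifferentiableOn ℂ G {v | 0 < ‖v‖ ∧ ‖v‖ < δ} := by
    apply hQd.comp (by fun_prop)
    intro v hv
    rw [hA]
    simp only [mem_ofPred_eq, add_sub_cancel_left]
    exact hv
  have hpol := polar_cut (R1 := 0) (R2 := δ) le_rfl hδ hGd (stp_contDiff s1 s2 (m := 1))
    (s1 := s1) (s2 := s2) (by rw [hs1]; linarith) (by rw [hs2]; linarith)
    (fun t ht => stp_deriv_zero h12 (Or.inl ht)) (fun t ht => stp_deriv_zero h12 (Or.inr ht))
    (ρ := δ / 2) (by linarith) (by linarith)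
  rw [stp_zero h12 (t := 0 ^ 2) (by rw [hs1]; linarith),
    stp_one h12 (t := δ ^ 2) (by rw [hs2]; linarith)] at hpol
  have hJ : (∮ v in C(0, δ / 2), G v) = -(2 * Real.pi * I) * (g (x j) ^ 2 / wX x j) := by
    set f : ℂ → ℂ := fun v => g (x j + v) ^ 2 / W v with hf
    have hfd : DifferentiableOn ℂ f (ball 0 δ) := by
      apply DifferentiableOn.div
      · apply DifferentiableOn.pow
        apply hg.comp (by fun_prop)
        intro v hv
        exact (hδU (hshift v hv)).1
      · exact hWd.differentiableOn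
      · exact hWne
    have h1 : DiffContOnCl ℂ f (ball 0 (δ / 2)) := by
      refine ⟨hfd.mono (ball_subset_ball (by linarith)), ?_⟩
      rw [closure_ball _ (by linarith)]
      exact hfd.continuousOn.mono (closedBall_subset_ball (by linarith))
    have h2 := h1.circleIntegral_sub_inv_smul (w := 0) (by simpa using hδ)
    have h3 : (∮ v in C(0, δ / 2), G v) = ∮ v in C(0, δ / 2), -1 * ((v - 0)⁻¹ • f v) := by
      apply circleIntegral.integral_congr (by linarith)
      intro v hv
      have hv1 : ‖v‖ = δ / 2 := by simpa using hv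
      have hv0 : v ≠ 0 := by
        rintro rfl
        rw [norm_zero] at hv1
        linarith
      have hvW := hWne v (by rw [mem_ball_zero_iff, hv1]; linarith)
      simp only [hG, hQ, hf, hPW, sub_zero, smul_eq_mul]
      field_simp
    rw [h3, circleIntegral.integral_const_mul, h2, smul_eq_mul, hf]
    simp only [add_zero, hW0]
    ring
  have hmval : m = 2 * Real.pi * (g (x j) ^ 2 / wX x j) := by
    have hmp : MeasurePreserving (fun v : ℂ => x j + v) volume volume :=
      measurePreserving_add_left _ (x j)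
    have h1 := hmp.setIntegral_preimage_emb (measurableEmbedding_addLeft (x j))
      (fun z => Q z * db χ z) A
    have h2 : (fun v : ℂ => x j + v) ⁻¹' A = {v | 0 < ‖v‖ ∧ ‖v‖ < δ} := by
      ext v
      simp [hA]
    rw [hm, ← h1, h2]
    have h3 : ∀ v : ℂ, Q (x j + v) * db χ (x j + v) =
        - (G v * (((deriv (stp s1 s2) (normSq v) : ℝ) : ℂ) * (2 * v))) := by
      intro v
      rw [hχ, db_rad _ (hαC.differentiable one_ne_zero), hdα, add_sub_cancel_left]
      push_cast
      ring
    simp_rw [h3]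
    rw [integral_neg, hpol, hJ]
    push_cast
    linear_combination (-2 * Real.pi * (g (x j) ^ 2 / wX x j)) * I_mul_I
  have hpi := Real.pi_pos
  refine ⟨-m.im / (2 * Real.pi), div_nonneg (by linarith) (by positivity), ?_⟩
  have h1 : g (x j) ^ 2 / wX x j = m / (2 * Real.pi) := by
    rw [hmval]; field_simp
  have h2 : m = I * (m.im : ℂ) := by
    apply Complex.ext <;> simp [hre]
  rw [h1]
  conv_lhs => rw [h2]
  push_cast
  ring

end Crest.Agent.R165.U3x719
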