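import Crest.Agent.R165.Pl5_654
import Crest.Agent.R165.U3Ball_719
import Crest.Agent.R165.Mac0_622

/-!
# Row 165 (S0250), plane MAC (helper811): uniqueness of the continuum spinors in the plane

`uniqPl`: two functions which are spinors near every `x j`, whose difference times `rX` is
holomorphic off `range x`, and which are `O(1/|z|)` at infinity, are equal.
Wiring of `Pl5_654.uniq_plane` (helper654) with `U3Ball_719` (helper719).
-/

set_option autoImplicit false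

noncomputable section

open Complex Set Metric Filter Topology MeasureTheory
open Crest.Agent.R165.U3x719 (PX wX rX IsSpin IsSpin.ext IsSpin.res real_line ae_ne_range rX_sq)

namespace Crest.Agent.R165.PlBx811

variable {n : ℕ}

/-- near `c` the function `F` is a.e. a spinor without sources -/
def LocSpin (x : Fin n → ℂ) (F : ℂ → ℂ) (c : ℂ) : Prop :=
  ∃ (D K : Set ℂ) (F' : ℂ → ℂ) (δ : ℝ), IsOpen D ∧ IsClosed K ∧ 0 < δ ∧ IsSpin D x K F' ∧
    ball c δ ⊆ D \ K ∧ ∀ᵐ z ∂volume.restrict (ball c δ), F z = F' z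

theorem loc_ext {x : Fin n → ℂ} (hx : Function.Injective x) {F : ℂ → ℂ} {j : Fin n}
    (h : LocSpin x F (x j)) : ∃ (δ : ℝ) (g : ℂ → ℂ), 0 < δ ∧ DifferentiableOn ℂ g (ball (x j) δ) ∧
      (∀ᵐ z ∂volume.restrict (ball (x j) δ), F z * rX x z = g z) ∧
      ∃ k : ℝ, 0 ≤ k ∧ g (x j) ^ 2 / wX x j = -I * k := by
  obtain ⟨D, K, F', δ, hD, hK, hδ, hs, hb, hF⟩ := h
  obtain ⟨g, hg, hae⟩ := hs.ext hD hK
  have hj := hb (mem_ball_self hδ)
  refine ⟨δ, g, hδ, hg.mono hb, ?_, hs.res hD hx hK hj.1 hj.2 hg hae⟩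
  have h1 := ae_restrict_of_ae_restrict_of_subset hb hae
  filter_upwards [h1, hF] with z h1 h2
  rw [h2]
  exact h1

/-- **uniqueness in the plane** -/
theorem uniqPl {x : Fin n → ℂ} (hx : Function.Injective x) {F₁ F₂ : ℂ → ℂ}
    (h₁ : ∀ j, LocSpin x F₁ (x j)) (h₂ : ∀ j, LocSpin x F₂ (x j))
    {d : ℂ → ℂ} (hd : DifferentiableOn ℂ d (Mac0x622.Om univ x))
    (hde : ∀ᵐ z, (F₁ z - F₂ z) * rX x z = d z) {C T : ℝ}
    (b₁ : ∀ᵐ z, T ≤ ‖z‖ → ‖F₁ z‖ ≤ C / ‖z‖) (b₂ : ∀ᵐ z, T ≤ ‖z‖ → ‖F₂ z‖ ≤ C / ‖z‖) :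
    F₁ =ᵐ[volume] F₂ := by
  classical
  have key : ∀ j, ∃ (δ : ℝ) (g : ℂ → ℂ), 0 < δ ∧ DifferentiableOn ℂ g (ball (x j) δ) ∧
      (∀ z ∈ ball (x j) δ, z ∉ range x → d z = g z) ∧
      ∃ k : ℝ, 0 ≤ k ∧ g (x j) ^ 2 / wX x j = -I * k := by
    intro j
    obtain ⟨δ1, g1, hδ1, hg1, he1, k1, hk1, hr1⟩ := loc_ext hx (h₁ j)
    obtain ⟨δ2, g2, hδ2, hg2, he2, k2, hk2, hr2⟩ := loc_ext hx (h₂ j)
    have hm1 : min δ1 δ2 ≤ δ1 := min_le_left _ _
    have hm2 : min δ1 δ2 ≤ δ2 := min_le_right _ _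
    refine ⟨min δ1 δ2, fun z => g1 z - g2 z, lt_min hδ1 hδ2,
      (hg1.mono (ball_subset_ball hm1)).sub (hg2.mono (ball_subset_ball hm2)), ?_, ?_⟩
    · set O : Set ℂ := ball (x j) (min δ1 δ2) \ range x with hO
      have hOo : IsOpen O := isOpen_ball.sdiff (finite_range x).isClosed
      have hae : d =ᵐ[volume.restrict O] fun z => g1 z - g2 z := by
        have t1 : ∀ᵐ z ∂volume.restrict O, F₁ z * rX x z = g1 z :=
          ae_restrict_of_ae_restrict_of_subset
            (fun z hz => ball_subset_ball hm1 hz.1) he1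
        have t2 : ∀ᵐ z ∂volume.restrict O, F₂ z * rX x z = g2 z :=
          ae_restrict_of_ae_restrict_of_subset
            (fun z hz => ball_subset_ball hm2 hz.1) he2
        filter_upwards [t1, t2, ae_restrict_of_ae hde] with z t1 t2 t3
        rw [← t3, ← t1, ← t2]
        ring
      have := Measure.eqOn_open_of_ae_eq hae hOo
        (hd.continuousOn.mono fun z hz => ⟨mem_univ z, hz.2⟩)
        ((hg1.continuousOn.mono fun z hz => ball_subset_ball hm1 hz.1).sub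
          (hg2.continuousOn.mono fun z hz => ball_subset_ball hm2 hz.1))
      intro z hz hzx
      exact this ⟨hz, hzx⟩
    · have hw : wX x j ≠ 0 := by
        intro h
        unfold wX at h
        obtain ⟨i, hi, h2⟩ := Finset.prod_eq_zero_iff.1 h
        exact (Finset.mem_erase.1 hi).1 (hx (sub_eq_zero.1 h2))
      have e1 : I / wX x j * g1 (x j) ^ 2 = (k1 : ℂ) := by
        have : I / wX x j * g1 (x j) ^ 2 = I * (g1 (x j) ^ 2 / wX x j) := by ring
        rw [this, hr1]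
        linear_combination (-(k1 : ℂ)) * I_mul_I
      have e2 : I / wX x j * g2 (x j) ^ 2 = (k2 : ℂ) := by
        have : I / wX x j * g2 (x j) ^ 2 = I * (g2 (x j) ^ 2 / wX x j) := by ring
        rw [this, hr2]
        linear_combination (-(k2 : ℂ)) * I_mul_I
      obtain ⟨t, ht, he⟩ := real_line hk1 hk2 e1 e2
      refine ⟨t, ht, ?_⟩
      rw [← he]
      linear_combination ((g1 (x j) - g2 (x j)) ^ 2 / wX x j) * I_mul_I
  choose δ g hδ hg hdg hk using key
  -- the entire extension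
  set e : ℂ → ℂ := fun z => if h : z ∈ range x then g h.choose z else d z with he
  have hex : ∀ j, e (x j) = g j (x j) := by
    intro j
    have h : x j ∈ range x := mem_range_self j
    have h2 : h.choose = j := hx h.choose_spec
    simp only [he, dif_pos h]
    rw [h2]
  have hed : Differentiable ℂ e := by
    intro c
    by_cases hc : c ∈ range x
    · obtain ⟨j, rfl⟩ := hc
      have h1 : DifferentiableAt ℂ (g j) (x j) := (hg j).differentiableAt (ball_mem_nhds _ (hδ j))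
      refine h1.congr_of_eventuallyEq ?_
      have hS : IsClosed (range x \ {x j}) := ((finite_range x).subset sdiff_subset).isClosed
      have h2 : (range x \ {x j})ᶜ ∈ 𝓝 (x j) := hS.isOpen_compl.mem_nhds (by simp)
      filter_upwards [ball_mem_nhds (x j) (hδ j), h2] with z hz hz2
      by_cases hzx : z = x j
      · rw [hzx]; exact hex j
      · have hz3 : z ∉ range x := fun h => hz2 ⟨h, hzx⟩
        simp only [he, dif_neg hz3]
        exact hdg j z hz hz3
    · have h1 : DifferentiableAt ℂ d c := hd.differentiableAt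
        ((isOpen_univ.sdiff (finite_range x).isClosed).mem_nhds ⟨mem_univ c, hc⟩)
      refine h1.congr_of_eventuallyEq ?_
      filter_upwards [(finite_range x).isClosed.isOpen_compl.mem_nhds hc] with z hz
      have hz3 : z ∉ range x := hz
      simp only [he, dif_neg hz3]
  have hee : ∀ᵐ z, (F₁ z - F₂ z) * rX x z = e z := by
    have h0 : ∀ᵐ z : ℂ, z ∉ range x :=
      measure_eq_zero_iff_ae_notMem.1 ((finite_range x).measure_zero _)
    filter_upwards [hde, h0] with z h1 h2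
    rw [h1]
    simp only [he, dif_neg h2]
  -- decay
  have hdec : ∀ z, max T 1 + 1 ≤ ‖z‖ → ‖e z‖ ^ 2 * ‖z‖ ^ 2 ≤ (2 * C) ^ 2 * ‖PX x z‖ := by
    set O : Set ℂ := {z : ℂ | max T 1 < ‖z‖} with hO
    have hOo : IsOpen O := isOpen_lt continuous_const continuous_norm
    have hPc : Continuous (PX x) := U3x719.PX_cont x
    have hcont : Continuous fun z => max (‖e z‖ ^ 2 * ‖z‖ ^ 2 - (2 * C) ^ 2 * ‖PX x z‖) 0 := by
      have := hed.continuous
      fun_prop
    have hae : (fun z => max (‖e z‖ ^ 2 * ‖z‖ ^ 2 - (2 * C) ^ 2 * ‖PX x z‖) 0)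
        =ᵐ[volume.restrict O] fun _ => (0 : ℝ) := by
      filter_upwards [ae_restrict_of_ae hee, ae_restrict_of_ae b₁, ae_restrict_of_ae b₂,
        ae_restrict_mem hOo.measurableSet] with z h1 h2 h3 h4
      have h5 : T ≤ ‖z‖ := (le_max_left _ _).trans (le_of_lt h4)
      have h6 : 0 < ‖z‖ := lt_of_lt_of_le (by norm_num) ((le_max_right T 1).trans (le_of_lt h4))
      have h7 : ‖F₁ z - F₂ z‖ ≤ 2 * C / ‖z‖ := by
        refine (norm_sub_le _ _).trans ((add_le_add (h2 h5) (h3 h5)).trans (le_of_eq ?_))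
        ring
      have h8 : ‖e z‖ ^ 2 = ‖F₁ z - F₂ z‖ ^ 2 * ‖PX x z‖ := by
        rw [← h1, norm_mul, mul_pow, ← norm_pow (rX x z), rX_sq]
      rw [max_eq_right]
      rw [h8, sub_nonpos]
      have h9 : ‖F₁ z - F₂ z‖ ^ 2 * ‖z‖ ^ 2 ≤ (2 * C) ^ 2 := by
        have h10 : ‖F₁ z - F₂ z‖ * ‖z‖ ≤ 2 * C := (le_div_iff₀ h6).1 h7
        have h11 : 0 ≤ ‖F₁ z - F₂ z‖ * ‖z‖ := by positivity
        calc ‖F₁ z - F₂ z‖ ^ 2 * ‖z‖ ^ 2 = (‖F₁ z - F₂ z‖ * ‖z‖) ^ 2 := by ring
          _ ≤ (2 * C) ^ 2 := pow_le_pow_left₀ h11 h10 2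
      calc ‖F₁ z - F₂ z‖ ^ 2 * ‖PX x z‖ * ‖z‖ ^ 2
          = ‖F₁ z - F₂ z‖ ^ 2 * ‖z‖ ^ 2 * ‖PX x z‖ := by ring
        _ ≤ _ := mul_le_mul_of_nonneg_right h9 (norm_nonneg _)
    have hall := Measure.eqOn_open_of_ae_eq hae hOo hcont.continuousOn continuousOn_const
    intro z hz
    have h1 : z ∈ O := lt_of_lt_of_le (lt_add_one _) hz
    have h2 := hall h1
    have h3 := le_max_left (‖e z‖ ^ 2 * ‖z‖ ^ 2 - (2 * C) ^ 2 * ‖PX x z‖) 0
    simp only at h2
    rw [h2] at h3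
    linarith
  have hzero := Pl5x654.uniq_plane x hx hed ((2 * C) ^ 2) (max T 1 + 1) hdec (fun j => by
    rw [hex j]; exact hk j)
  have hne : ∀ᵐ z : ℂ, ∀ j, z ≠ x j := by
    rw [ae_all_iff]
    intro j
    exact Measure.ae_ne volume (x j)
  filter_upwards [hee, hne] with z h1 h2
  rw [hzero z] at h1
  rcases mul_eq_zero.1 h1 with h3 | h3
  · exact sub_eq_zero.1 h3
  · exact absurd h3 (U3x719.rX_ne h2)

end Crest.Agent.R165.PlBx811
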