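import Crest.Agent.R165.TorNorm_583

/-!
# Row 165 (S0250): the norm flow of the plane with marks (helper583)

`sys D (wPl ℤ) mk l k0 K0` on `ℤ`, all steps.

* `rb_pl`     : bulk regularity at every face
* `dstep_pl`, `str_pl`, `stepOK_pl`, `pl_comp` : the plane versions of TorD_583, TorNorm_583
-/

set_option autoImplicit false
set_option linter.unusedSectionVars false

noncomputable section

open Filter Topology
open scoped ENNReal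
open Crest.Agent.R165.Gr0x606 Crest.Agent.R165.Gr1x606 Crest.Agent.R165.GeOpsx337
  Crest.Agent.R165.ExpGx337 Crest.Agent.R165.KFlowx337
open Crest.Agent.R165.Latx683 Crest.Agent.R165.PNormx417
open Crest.Agent.R165.GDefx387 Crest.Agent.R165.Packx915 Crest.Agent.R165.NSumx915
open Crest.Agent.R165.Bridgex915 Crest.Agent.R165.DefStepx915 Crest.Agent.R165.NKDefx915
  Crest.Agent.R165.DefRecx915 Crest.Agent.R165.Compx889 Crest.Agent.R165.TorChartx723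
  Crest.Agent.R165.GSysx387 Crest.Agent.R165.FRDPolyx439 Crest.Agent.R165.FRDLatx439
  Crest.Agent.R165.TorDx583 Crest.Agent.R165.TorNumx583 Crest.Agent.R165.PEndx683
  Crest.Agent.R165.TorNormx583
  Crest.Agent.R165.Bridgex386 Crest.Agent.R165.BridgeRegx386 Crest.Agent.R165.BridgeRBx386

namespace Crest.Agent.R165.PlNormx583

open Crest.Agent.R165.RIfx891 Crest.Agent.R165.Campx891

theorem planeOn_pl (X : Face) (R : ℝ) : PlaneOn (wl (wPl ℤ)) (fun _ => 1) X R where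
  sym := sym_wl _
  gauge f := by norm_num
  eq f _ h := by
    rw [one_mul, one_mul]
    fin_cases h <;> rfl

/-- **bulk regularity at every face of the plane** -/
theorem rb_pl (x : ℤ × ℤ) (R Λ : ℕ) : RegGx893.RB (wPl ℤ) x CRB Λ 1 R := by
  have hx : (pf (x.1, x.2) : ℤ × ℤ) = x := by
    unfold pf
    ext <;> simp
  have key := rb_plane (G := ℤ) (w := wPl ℤ) (inj_int R) (planeOn_pl (x.1, x.2) R) Λ
  rwa [hx] at key

theorem wPl_le (z : ℤ × ℤ) (j : Fin 2) : |wPl ℤ z j| ≤ 1 := by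
  show |xc| ≤ 1
  have h2 := Crest.Agent.R165.PlaneModesx901.xc_sq
  have h3 := Crest.Agent.R165.PlaneModesx901.xc_pos
  rw [abs_of_pos h3]
  nlinarith

/-- the plane is plane -/
theorem emb_pl (r : ℕ) (U : Finset (ℤ × ℤ)) : Emb (wPl ℤ) r U :=
  ⟨{ τ := id, s := fun _ => 1, sq := fun _ => by norm_num, iso := fun _ _ _ _ => rfl
     e1 := fun _ _ _ => rfl, e2 := fun _ _ _ => rfl
     wE := fun _ _ _ => by rw [one_mul, one_mul]; rfl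
     wN := fun _ _ _ => by rw [one_mul, one_mul]; rfl }⟩

theorem small_pl (mk : Finset (ℤ × ℤ)) {r : ℕ} {U : Finset (ℤ × ℤ)}
    (hem : ¬ emM (wPl ℤ) (mk : Set (ℤ × ℤ)) r U) : ∃ u ∈ U, ∃ x ∈ mk, fd u x ≤ s2 * r := by
  by_contra hcon
  push Not at hcon
  exact hem ⟨emb_pl r U, hcon⟩

/-- **linear bounds of one step in the plane**, any set of marks -/
theorem dstep_pl {Mp K : ℕ} (D : FRD 16 Mp K) (hMp : MM + 1 ≤ Mp) (mk : Finset (ℤ × ℤ))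
    {l k0 n : ℕ} (hl : 4 ≤ l) {a a' ρ A0 : ℝ} (ha : 0 < a) (hA0 : 0 < A0) (hA : A0 ≤ a')
    (hρ : 0 < ρ) (haa : a' ≤ ρ * a) (hq : (1 + eW D.C l k0 A0) * qW l ρ ≤ 1) {Γ : ℝ≥0∞}
    (hΓt : Γ ≠ ∞) (hΓ : 9 ≤ Γ) :
    DStep (wPl ℤ) a a' (rr l k0 n) (rr l k0 (n + 1)) Γ (3 * Γ) (slC D (wPl ℤ) l k0 n)
      (acT l k0 n) (emM (wPl ℤ) (mk : Set _) (rr l k0 n))
      (fun _ : Unit => (mk : Set _)) (fun _ => (s2 + 1) * rr l k0 n) (fun _ => mk.card)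
      (fun _ => ((1 + eW D.C l k0 A0) * qW l ρ) ^ 2) (9 * Γ⁻¹) 1 :=
  dstep_marks (R := nearR l k0 n) (slC_gram D wPl_le l k0 n)
    (fun U => W0_scale D hMp wPl_le l k0 n hA0 hA U)
    (fun x => W1_scale (by omega) (rb_pl x _ _) ha (hA0.le.trans hA) haa)
    (eW_ne_zero D.C_pos hA0) (qW_ne_zero hρ) hq (nearR_le k0 n hl) hΓt hΓ (fun U h => h.2)
    (fun U hU hs hem => small_pl mk hem)

/-- **the structural hypotheses in the plane with marks** -/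
theorem str_pl {Mp Kp : ℕ} (D : FRD 16 Mp Kp) (mk : Finset (ℤ × ℤ)) {l k0 : ℕ} (hl : 1 ≤ l)
    {Γ : ℝ≥0∞} (hΓ : 1 ≤ Γ) (K : ℕ) {K0 : Finset (ℤ × ℤ) → Ge (Fld ℤ)}
    (hac : ∀ k U, (sys D (wPl ℤ) mk l k0 K0).K k U ≠ 0 → acT l k0 k U) :
    Str (sys D (wPl ℤ) mk l k0 K0) (rr l k0) (nearR l k0) Γ (acT l k0)
      (fun k => emM (wPl ℤ) (mk : Set _) (rr l k0 k)) K where
  r_pos := rr_pos l k0
  r_mono k := rr_mono l k0 (Nat.le_succ k)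
  Γ1 := hΓ
  vac x := PStepx417.vac0_apply x
  near k hk := rfl
  hac k hk U hU := hac k U hU
  ne k hk U hU := hU.1
  deep k hk := deep_emM _ _ (s2_le hl)
  ext k hk := by
    intro U T hT
    obtain ⟨hs, f, hf, hd, rfl⟩ := (GSysx387.mem_bulk_out ..).1 hT
    refine ⟨hs, f, hf, rfl, hd.1, fun u hu x hx => ?_⟩
    rw [Finset.mem_singleton.1 hu]
    exact hd.2 x hx

/-- the hypotheses with numbers, one step, plane with marks -/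
theorem stepOK_pl {Mp Kp : ℕ} (D : FRD 16 Mp Kp) (hMp : MM + 1 ≤ Mp) {N l k0 : ℕ} {Γ A0 : ℝ}
    (hN : Num D.C N l k0 Γ A0) (mk : Finset (ℤ × ℤ)) (hmk : mk.card ≤ N) (n : ℕ)
    {a a' : ℝ} (ha : 0 < a) (hA : A0 ≤ a') (haa : a' ≤ 2 * a)
    {K0 : Finset (ℤ × ℤ) → Ge (Fld ℤ)} {CX : ℝ≥0∞}
    (hX : XBd (wPl ℤ) a a' (rr l k0 n) (rr l k0 (n + 1)) (acT l k0 n)
      (sys D (wPl ℤ) mk l k0 K0) n CX) :
    StepOK (sys D (wPl ℤ) mk l k0 K0) (wPl ℤ) (ENNReal.ofReal Γ) n a a'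
      (rr l k0 n) (rr l k0 (n + 1)) (acT l k0 n) (emM (wPl ℤ) (mk : Set _) (rr l k0 n)) (1 / 4)
      (CFT l (ENNReal.ofReal Γ) CX) := by
  refine ⟨Unit, inferInstance, fun _ => (mk : Set _), fun _ => (s2 + 1) * rr l k0 n,
    fun _ => mk.card, fun _ => ((1 + eW D.C l k0 A0) * qW l 2) ^ 2, 9 * (ENNReal.ofReal Γ)⁻¹, 1,
    CX, dstep_pl D hMp mk hN.l4 ha hN.A0_pos hA (by norm_num) haa hN.q1
      ENNReal.ofReal_ne_top hN.Γ9, hX, ?_, ?_⟩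
  · rw [kapD_eq]
    refine le_trans (add_le_add le_rfl (mul_le_mul' le_rfl ?_)) hN.kap
    exact_mod_cast Nat.mul_le_mul_right _ hmk
  · unfold cF CFT
    rw [nn2_eq]

/-- **the norm flow of the plane with marks**: bounds at all scales -/
theorem pl_comp {Mp Kp : ℕ} (D : FRD 16 Mp Kp) (hMp : MM + 1 ≤ Mp) {N l k0 : ℕ} {Γ A0 : ℝ}
    (hN : Num D.C N l k0 Γ A0) {CX m : ℝ≥0∞} (hCX : CX ≠ ∞) (hm : m ≠ ∞) :
    ∃ M₀ ε₀ : ℝ≥0∞, M₀ ≠ ∞ ∧ ε₀ ≠ 0 ∧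
      ∀ (mk : Finset (ℤ × ℤ)), mk.card ≤ N → ∀ K : ℕ,
      ∀ a : ℕ → ℝ, (∀ n, A0 ≤ a n) → (∀ n, a (n + 1) ≤ 2 * a n) →
      ∀ K0 : Finset (ℤ × ℤ) → Ge (Fld ℤ),
      (∀ k U, (sys D (wPl ℤ) mk l k0 K0).K k U ≠ 0 → acT l k0 k U) →
      (∀ k, k < K → XBd (wPl ℤ) (a k) (a (k + 1)) (rr l k0 k) (rr l k0 (k + 1))
        (acT l k0 k) (sys D (wPl ℤ) mk l k0 K0) k CX) →
      ∀ ε q : ℝ≥0∞, 1 / 2 ≤ q → q ≤ 1 → ε ≤ ε₀ →
      (∀ k, k ≤ K → NP (sys D (wPl ℤ) mk l k0 K0) (wPl ℤ) a (rr l k0)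
        (ENNReal.ofReal Γ) (emM (wPl ℤ) (mk : Set _) (rr l k0 k)) k ≤ ε * q ^ k) →
      NP (sys D (wPl ℤ) mk l k0 K0) (wPl ℤ) a (rr l k0) (ENNReal.ofReal Γ)
        (fun U => ¬ emM (wPl ℤ) (mk : Set _) (rr l k0 0) U) 0 ≤ m * ε →
      (∀ k, k ≤ K → NP (sys D (wPl ℤ) mk l k0 K0) (wPl ℤ) a (rr l k0)
        (ENNReal.ofReal Γ) allP k ≤ M₀ * (ε * q ^ k)) ∧
      (∀ k, k < K → NC (sys D (wPl ℤ) mk l k0 K0) (rr l k0) (ENNReal.ofReal Γ) k ≤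
        M₀ * (ε * q ^ k)) := by
  have hΓ0 : ENNReal.ofReal Γ ≠ 0 := (lt_of_lt_of_le (by norm_num) hN.Γ9).ne'
  have hCF : CFT l (ENNReal.ofReal Γ) CX ≠ ∞ := by
    unfold CFT
    refine ENNReal.mul_ne_top (ENNReal.add_ne_top.2 ⟨ENNReal.add_ne_top.2
      ⟨ENNReal.mul_ne_top (by norm_num) (ENNReal.inv_ne_top.2 hΓ0), by norm_num⟩,
      ENNReal.mul_ne_top (by norm_num) (ENNReal.mul_ne_top (by norm_num) hCX)⟩)
      (ENNReal.natCast_ne_top _)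
  obtain ⟨M₀, ε₀, hM₀, hε₀, h⟩ := comp_good (CFT l (ENNReal.ofReal Γ) CX)
    (((2 * (1 + 2 ^ l) + 3) ^ 2 : ℕ) : ℝ≥0∞) m hCF (ENNReal.natCast_ne_top _) hm
  refine ⟨M₀, ε₀, hM₀, hε₀, ?_⟩
  intro mk hmk K a ha haa K0 hac hX ε q hq hq1 hε hb hc0
  exact h ℤ _ (wPl ℤ) a (rr l k0) (nearR l k0) (ENNReal.ofReal Γ) (acT l k0)
    (fun k => emM (wPl ℤ) (mk : Set _) (rr l k0 k)) K ε q hq hq1 hε
    (str_pl D mk (by have := hN.l4; omega) (le_trans (by norm_num) hN.Γ9) K hac)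
    (fun k _ => by exact_mod_cast nn3_le l k0 k)
    (fun k hk => stepOK_pl D hMp hN mk hmk k (hN.A0_pos.trans_le (ha k))
      (ha (k + 1)) (haa k) (hX k hk)) hb hc0

end Crest.Agent.R165.PlNormx583
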