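import Crest.Agent.R165.Resc_950
import Crest.Agent.R165.J4K0_126

/-!
# Row 165 (S0250), block J: rescaling, consumer forms (helper950)

* `SDu_cov`   : the state of any covariance with `A_w S = -1` (kernel `S` on the lattice generators,
  `0` between lattice generators and the others) satisfies `SDu`; `SDu_covOf`, `SDu_E0`, `SDu_PP`
* `SDu.de_de`, `SDu.mulLeft`, `SDu.add`, `SDu.smul` : closure properties (source coefficients)
* `RSe_THA`, `RSe_TH` : rescaling of `THA g F`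
* `resc_ZZ`   : the rescaling identity for 126's polymer gas:
  `f (ZZ (=) Λ K0) = (∏_Λ s ^ 4) * f (THA (1 - 2 w b) (shapes * sources))`
* `resc_TH`   : `f (∏ faces * ∏ edges * TH g F) = (∏ s ^ 4) * f (TH (1 - 2 w b) F)`
-/

set_option autoImplicit false
set_option linter.unusedSectionVars false

noncomputable section

namespace Crest.Agent.R165.Rescx950

open Crest.Agent.R165.Gr0x606 Crest.Agent.R165.Gr1x606
open Crest.Agent.R165.J1ax606 Crest.Agent.R165.J2ax606 Crest.Agent.R165.J2bx606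
open Crest.Agent.R165.KCompx892 Crest.Agent.R165.KStepx892 Crest.Agent.R165.J4Actx126
open Crest.Agent.R165.J4Datx126 Crest.Agent.R165.J4Geox126
open Crest.Agent.R165.J4Defx653 Crest.Agent.R165.J4Pathx653
open Crest.Agent.R165.J4RRx653 Crest.Agent.R165.J4RRAx653
open Crest.Agent.R165.J4K0x126

variable {G : Type*} [CommRing G] [DecidableEq G] {ι : Type*} [DecidableEq ι]

/-! ### functionals with the Schwinger-Dyson equations -/

/-- the Schwinger-Dyson equations of a Gaussian state -/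
theorem SDu_cov {u : HE G → ι} {w : EG G → ℝ} {S : HE G → HE G → ℝ} (hS : IsInv w S)
    (C : Cov (VI ι)) (h1 : ∀ h k, C.b (Finsupp.single (u h) 1) (Finsupp.single (u k) 1) = S h k)
    (hu : Function.Injective u)
    (h2 : ∀ h i, (∀ k, u k ≠ i) → C.b (Finsupp.single (u h) 1) (Finsupp.single i 1) = 0) :
    SDu u w (EE C) := by
  intro h X
  have hl : ∑ b, a4 h.2 b • C.b (Finsupp.single (u (h.1, b)) 1) +
      (sg h.2 * w (ed h)) • C.b (Finsupp.single (u (bar h)) 1) =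
        -(Finsupp.lapply (u h) : (ι →₀ ℝ) →ₗ[ℝ] ℝ) := by
    apply Finsupp.lhom_ext'
    intro i
    apply LinearMap.ext_ring
    rw [LinearMap.comp_apply, LinearMap.comp_apply, Finsupp.lsingle_apply, LinearMap.add_apply,
      LinearMap.sum_apply, LinearMap.smul_apply, LinearMap.neg_apply, Finsupp.lapply_apply]
    simp only [LinearMap.smul_apply]
    by_cases hr : ∃ k, u k = i
    · obtain ⟨k, rfl⟩ := hr
      simp only [h1]
      have h3 := hS.inv h k
      rw [Aop] at h3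
      simp only [smul_eq_mul]
      rw [h3]
      by_cases hk : h = k
      · rw [if_pos hk, hk, Finsupp.single_eq_same]
      · rw [if_neg hk, Finsupp.single_apply, if_neg (fun h' => hk (hu h').symm), neg_zero]
    · have hr' : ∀ k, u k ≠ i := fun k hk => hr ⟨k, hk⟩
      simp only [h2 _ _ hr', smul_zero, Finset.sum_const_zero, add_zero]
      rw [Finsupp.single_apply, if_neg (fun h' => hr' h h'.symm), neg_zero]
  have e1 : ∀ j : HE G, EE C (ph (u j) * X) = EE C (dd (C.b (Finsupp.single (u j) 1)) X) :=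
    fun j => EE_fi_mul _ _ _
  have e2 : ∀ (s : Finset (Fin 4)) (l : Fin 4 → Module.Dual ℝ (VI ι)),
      dd (∑ b ∈ s, l b) X = ∑ b ∈ s, dd (l b) X := by
    intro s l
    induction s using Finset.induction_on with
    | empty => simp
    | insert b s hb ih => rw [Finset.sum_insert hb, Finset.sum_insert hb, dd_add_left, ih]
  rw [Aop, de, ← map_neg, ← dd_neg_left, ← hl, dd_add_left, e2, map_add, map_sum]
  simp only [dd_smul_left, map_smul, smul_eq_mul, e1]

theorem SDu_covOf {u : HE G → ι} (hu : Function.Injective u) {w : EG G → ℝ}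
    {S : HE G → HE G → ℝ} (hS : IsInv w S) (K : ι → ι → ℝ) (hK : ∀ i j, K i j = -K j i)
    (h1 : ∀ h k, K (u h) (u k) = S h k) (h2 : ∀ h i, (∀ k, u k ≠ i) → K (u h) i = 0) :
    SDu u w (EE (covOf K hK)) :=
  SDu_cov hS _ (fun h k => by rw [covOf_b, formOf_single, h1]) hu
    (fun h i hi => by rw [covOf_b, formOf_single, h2 h i hi])

/-- Gaussian states of the backgrounds, no sources -/
theorem SDu_inv {w : EG G → ℝ} {S : HE G → HE G → ℝ} (hS : IsInv w S) :
    SDu (id : HE G → HE G) w (EE (covOf S hS.anti)) :=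
  SDu_covOf Function.injective_id hS S hS.anti (fun _ _ => rfl) (fun _ i hi => absurd rfl (hi i))

theorem SDu_E0 : SDu (id : HE G → HE G) (fun _ => 0) (E0 : Gr (VI (HE G)) →ₗ[ℝ] ℝ) := SD_E0

/-- the unnormalised state of the edges `A` -/
theorem SDu_PP (w : EG G → ℝ) (A : Finset (EG G)) (hw : ∀ e, e ∉ A → w e = 0) :
    SDu (id : HE G → HE G) w
      ((E0 : Gr (VI (HE G)) →ₗ[ℝ] ℝ).comp (LinearMap.mulLeft ℝ (PP w A : Gr (VI (HE G))))) :=
  fun h X => E0_PP_sd w A hw h X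

theorem Aop_add (w : EG G → ℝ) (φ ψ : HE G → ℝ) (h : HE G) :
    Aop w (fun j => φ j + ψ j) h = Aop w φ h + Aop w ψ h := by
  unfold Aop
  simp only [mul_add, Finset.sum_add_distrib]
  ring

theorem Aop_smul (w : EG G → ℝ) (c : ℝ) (φ : HE G → ℝ) (h : HE G) :
    Aop w (fun j => c * φ j) h = c * Aop w φ h := by
  unfold Aop
  rw [mul_add, Finset.mul_sum]
  congr 1
  · exact Finset.sum_congr rfl fun b _ => by ring
  · ring

theorem SDu.add {u : HE G → ι} {w : EG G → ℝ} {f g : Gr (VI ι) →ₗ[ℝ] ℝ} (hf : SDu u w f)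
    (hg : SDu u w g) : SDu u w (f + g) := by
  intro h X
  simp only [LinearMap.add_apply]
  rw [Aop_add, hf, hg]
  ring

theorem SDu.smul {u : HE G → ι} {w : EG G → ℝ} {f : Gr (VI ι) →ₗ[ℝ] ℝ} (hf : SDu u w f)
    (c : ℝ) : SDu u w (c • f) := by
  intro h X
  simp only [LinearMap.smul_apply, smul_eq_mul]
  rw [Aop_smul, hf]
  ring

/-- coefficients of pairs of source generators -/
theorem SDu.de_de {u : HE G → ι} {w : EG G → ℝ} {f : Gr (VI ι) →ₗ[ℝ] ℝ} (hf : SDu u w f)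
    {i j : ι} (hi : ∀ h, u h ≠ i) (hj : ∀ h, u h ≠ j) : SDu u w (f ∘ₗ de i ∘ₗ de j) := by
  intro h X
  have e1 : ∀ k, de i (de j (ph (u k) * X)) = ph (u k) * de i (de j X) := by
    intro k
    rw [de_ph_mul_ne (hj k).symm, map_neg, de_ph_mul_ne (hi k).symm, neg_neg]
  have e2 : de i (de j (de (u h) X)) = de (u h) (de i (de j X)) := by
    rw [de_de_anti j, map_neg, de_de_anti i (u h), neg_neg]
  simp only [LinearMap.comp_apply, e1, e2]
  exact hf h _

/-- even elements of the source generators -/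
theorem SDu.mulLeft {u : HE G → ι} {w : EG G → ℝ} {f : Gr (VI ι) →ₗ[ℝ] ℝ} (hf : SDu u w f)
    {σ : Gr (VI ι)} (hσ : IsEv σ) (h0 : ∀ h, de (u h) σ = 0) :
    SDu u w (f ∘ₗ LinearMap.mulLeft ℝ σ) := by
  intro h X
  have e1 : ∀ k, σ * (ph (u k) * X) = ph (u k) * (σ * X) := by
    intro k
    rw [← mul_assoc, hσ.comm, mul_assoc]
  have e2 : σ * de (u h) X = de (u h) (σ * X) := by
    rw [de_mul, h0, zero_mul, zero_add, hσ]
  simp only [LinearMap.comp_apply, LinearMap.mulLeft_apply, e1, e2]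
  exact hf h _

/-! ### rescaling of bond polynomials -/

/-- the image of a bond variable -/
def gU (u : HE G → ι) (w : EG G → ℝ) (e : EG G) : Ge (VI ι) := 1 - (2 * w e) • bu u e

/-- the image of a bond variable, rescaled fields -/
def gS (u : HE G → ι) (w : EG G → ℝ) (s : G × G → ℝ) (e : EG G) : Ge (VI ι) :=
  1 - (2 * (w e * (s (pe e).1 * s (qe e).1))) • bu u e

theorem RSe_gU {u : HE G → ι} (hu : Function.Injective u) (w : EG G → ℝ) (s : G × G → ℝ)
    (e : EG G) : RSe (tu u s) (gU u w e) = gS u w s e := by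
  rw [gU, gS, map_sub, map_one, map_smul, bu, RSe_bp, tu_apply hu, tu_apply hu, smul_smul]
  congr 2
  ring

theorem RSe_THA {E : Type*} (t : ι → ℝ) (g : E → Ge (VI ι)) (F : RA (Ge (VI ι)) E) :
    RSe t (THA g F) =
      THA (fun e => RSe t (g e)) (AddMonoidAlgebra.mapAlgHom (E →₀ ZMod 2) (RSe t) F) := by
  induction F using RA.ind with
  | h0 => simp
  | hadd F G hF hG => rw [map_add, map_add, map_add, map_add, hF, hG]
  | hs c S =>
    have e1 : AddMonoidAlgebra.mapAlgHom (E →₀ ZMod 2) (RSe t) (c • epA S) =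
        (RSe t c) • (epA S : RA (Ge (VI ι)) E) := by
      rw [← singleA_eq, ← singleA_eq]
      simp
    rw [e1, LinearMap.map_smul, LinearMap.map_smul, THA_ep, THA_ep, smul_eq_mul, smul_eq_mul,
      map_mul, map_prod]

theorem mapA_ofR {E : Type*} (t : ι → ℝ) (F : RR E) :
    AddMonoidAlgebra.mapAlgHom (E →₀ ZMod 2) (RSe t) (ofR (Ge (VI ι)) F) = ofR (Ge (VI ι)) F := by
  induction F using RR.ind with
  | h0 => simp
  | hadd F G hF hG => rw [map_add, map_add, hF, hG]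
  | hs c S =>
    rw [map_smul, map_smul, ofR_ep]
    congr 1
    simp [epA]

theorem mapA_CA {E : Type*} (t : ι → ℝ) (a : Ge (VI ι)) :
    AddMonoidAlgebra.mapAlgHom (E →₀ ZMod 2) (RSe t) (CA a : RA (Ge (VI ι)) E) = CA (RSe t a) := by
  have e1 : ∀ a : Ge (VI ι), (CA a : RA (Ge (VI ι)) E) = AddMonoidAlgebra.single 0 a := by
    intro a
    rw [singleA_eq, epA_zero, ← CA_mul, mul_one]
  rw [e1, e1]
  simp

theorem RSe_TH {E : Type*} (t : ι → ℝ) (g : E → Ge (VI ι)) (F : RR E) :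
    RSe t (TH g F) = TH (fun e => RSe t (g e)) F := by
  rw [← THA_ofR, RSe_THA, mapA_ofR, THA_ofR]

/-! ### consumer forms -/

/-- **the rescaling identity for a bond polynomial** -/
theorem resc_TH {u : HE G → ι} (hu : Function.Injective u) {w : EG G → ℝ} {f : Gr (VI ι) →ₗ[ℝ] ℝ}
    (hf : SDu u w f) (s : G × G → ℝ) (Fs : Finset (G × G)) (Es : Finset (EG G))
    (hF : ∀ g, s g ≠ 1 → g ∈ Fs) (hE : ∀ h : HE G, s h.1 ≠ 1 → ed h ∈ Es ∨ w (ed h) = 0)
    (F : RR (EG G)) :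
    f (((TH (gS u w s) F *
        (∏ g ∈ Fs, (1 + ((s g * s g - 1) • I4 u g +
          ((s g * s g - 1) ^ 2 / 2) • (I4 u g * I4 u g)))) *
        ∏ e ∈ Es, (1 + (w e * (s (pe e).1 * s (qe e).1 - 1)) • bu u e) : Ge (VI ι)) :
          Gr (VI ι))) = (∏ g ∈ Fs, s g ^ 4) * f ((TH (gU u w) F : Ge (VI ι)) : Gr (VI ι)) := by
  rw [← resc hu hf s Fs Es hF hE, ← coe_RSe, ← Ge.coe_mul, RSe_TH]
  simp only [RSe_gU hu]
  congr 2
  ring

/-- the algebraic frame of `u` -/
def frU (u : HE G → ι) : Fr G (Ge (VI ι)) := ⟨bu u, I4 u⟩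

/-- **the rescaling identity for the polymer gas of 126** -/
theorem resc_ZZ {κ : Type*} [DecidableEq κ] [Fintype κ] {u : HE G → ι}
    (hu : Function.Injective u) (B : Bk G κ (Ge (VI ι))) {f : Gr (VI ι) →ₗ[ℝ] ℝ}
    (hf : SDu u B.y f) (Λ : Finset (G × G)) (hF : ∀ g, B.s g ≠ 1 → g ∈ Λ)
    (hE : ∀ h : HE G, B.s h.1 ≠ 1 → ed h ∈ Bk.edg Λ ∨ B.y (ed h) = 0)
    (hs : ∀ k ∈ B.srcs Λ, RSe (tu u B.s) (B.as k) = B.as k) :
    f ((ZZ (fun a b : G × G => a = b) Λ (B.K0 (frU u)) : Ge (VI ι)) : Gr (VI ι)) =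
      (∏ g ∈ Λ, B.s g ^ 4) *
        f ((THA (gU u B.y) ((∏ p ∈ B.shp Λ, (1 + ofR (Ge (VI ι)) (em (ez p.1) (kB (B.t p.2) p.2)))) *
          ∏ k ∈ B.srcs Λ, (1 + CA (B.as k) * ofR (Ge (VI ι)) (B.Fs k))) : Ge (VI ι)) :
            Gr (VI ι)) := by
  rw [← resc hu hf B.s Λ (Bk.edg Λ) hF hE, ← coe_RSe, ← Ge.coe_mul, RSe_THA, ← B.K0_ZZ (frU u) Λ]
  have e1 : (fun e => RSe (tu u B.s) (gU u B.y e)) = B.g (frU u) := by
    funext e
    rw [RSe_gU hu]; rfl
  have e2 : AddMonoidAlgebra.mapAlgHom (EG G →₀ ZMod 2) (RSe (tu u B.s))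
      ((∏ p ∈ B.shp Λ, (1 + ofR (Ge (VI ι)) (em (ez p.1) (kB (B.t p.2) p.2)))) *
          ∏ k ∈ B.srcs Λ, (1 + CA (B.as k) * ofR (Ge (VI ι)) (B.Fs k))) =
      (∏ p ∈ B.shp Λ, (1 + ofR (Ge (VI ι)) (em (ez p.1) (kB (B.t p.2) p.2)))) *
          ∏ k ∈ B.srcs Λ, (1 + CA (B.as k) * ofR (Ge (VI ι)) (B.Fs k)) := by
    rw [map_mul, map_prod, map_prod]
    congr 1
    · refine Finset.prod_congr rfl fun p _ => ?_
      rw [map_add, map_one, mapA_ofR]
    · refine Finset.prod_congr rfl fun k hk => ?_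
      rw [map_add, map_one, map_mul, mapA_ofR, mapA_CA, hs k hk]
  rw [e1, e2]
  congr 2
  simp only [frU, Bk.cI]
  ring

/-- an edge with both faces in `Λ` -/
theorem ed_mem_edg {Λ : Finset (G × G)} {h : HE G} (h1 : h.1 ∈ Λ) (h2 : (bar h).1 ∈ Λ) :
    ed h ∈ Bk.edg Λ := by
  rw [Bk.mem_edg, faE, Finset.insert_subset_iff, Finset.singleton_subset_iff]
  rcases he_cases h with ⟨h3, _⟩ | ⟨h3, _⟩
  · have h5 : bar h = qe (ed h) := by
      conv_lhs => rw [h3]
      rw [bar_pe]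
    exact ⟨by rw [← h3]; exact h1, by rw [← h5]; exact h2⟩
  · have h5 : bar h = pe (ed h) := by
      conv_lhs => rw [h3]
      rw [bar_qe]
    exact ⟨by rw [← h5]; exact h2, by rw [← h3]; exact h1⟩

end Crest.Agent.R165.Rescx950
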