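import Crest.Agent.R165.PStepId_901
import Crest.Agent.R165.J4Geo_126
import Crest.Agent.R165.Resc2_950

/-!
# Row 165 (S0250), block G: the coefficients of the explicit first order terms (helper901)

* `anc Y₀ a` : the family anchored at `Y₀` (`0 ∈ Y₀`): the value `a u` at the set `Y₀ + u`
* `avgAt_anc` : `avgAt r (anc Y₀ a) 0 = (1/#Y₀) ∑_{y ∈ Y₀} a (-y)`
* `cMass_b = -1`, `cKin_b`, `cMass_I4 = 2 xc`, `cKin_I4 = 0`
* `alQ_Kex = 4 xc p`, `beQ_Kex = 2 xc p - xc z`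
-/

set_option autoImplicit false

noncomputable section

open Crest.Agent.R165.Gr0x606 Crest.Agent.R165.Gr1x606
open Crest.Agent.R165.Latx683 (Fld HE xc wPl)
open Crest.Agent.R165.Locx901
open Crest.Agent.R165.PlaneModesx901
open Crest.Agent.R165.PlaneLocx901
open Crest.Agent.R165.PlaneCovx901
open Crest.Agent.R165.PlaneSumx901
open Crest.Agent.R165.GDefx387
open Crest.Agent.R165.GeOpsx337
open Crest.Agent.R165.KFlowx337
open Crest.Agent.R165.PStepIdx901
open Crest.Agent.R165.J4Geox126 (fz faE Yf mem_Yf cz)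
open Crest.Agent.R165.J4Defx653 (pr)
open Crest.Agent.R165.J1ax606 (pe qe EG)

namespace Crest.Agent.R165.PlaneNumx901

/-- the family anchored at `Y₀` -/
def anc {M : Type*} [AddCommMonoid M] (Y0 : Finset (ℤ × ℤ)) (a : Fc → M) (U : Finset Fc) : M :=
  ∑ u ∈ U, if Y0.image (fz u) = U then a u else 0

theorem fz_int (u : Fc) (z : ℤ × ℤ) : fz u z = u + z := by
  simp [fz, cz]

theorem image_fz (Y0 : Finset (ℤ × ℤ)) (u : Fc) : Y0.image (fz u) = Y0.image (· + u) := by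
  refine Finset.image_congr fun z _ => ?_
  rw [fz_int, add_comm]

/-- **average of an anchored family** -/
theorem avgAt_anc {r : ℕ} {Y0 : Finset (ℤ × ℤ)} (h0 : (0, 0) ∈ Y0) (hs : Small r Y0)
    (a : Fc → Gr (Fld ℤ)) :
    avgAt r (anc Y0 a) 0 = (Y0.card : ℝ)⁻¹ • ∑ y ∈ Y0, a (-y) := by
  have hY : ∀ y ∈ Y0, Y0.image (· + (-y)) ∈ polyAt r 0 := by
    intro y hy
    rw [mem_polyAt]
    refine ⟨Finset.mem_image.2 ⟨y, hy, by simp⟩, ?_⟩
    exact (small_image fun a b => fd_add a b (-y)).2 hs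
  have h1 : ∀ U ∈ polyAt r 0, anc Y0 a U =
      ∑ y ∈ Y0, if Y0.image (· + (-y)) = U then a (-y) else 0 := by
    intro U hU
    rw [mem_polyAt] at hU
    have h2 : (∑ y ∈ Y0, if Y0.image (· + (-y)) = U then a (-y) else 0) =
        ∑ u ∈ Y0.image (fun y => -y), if Y0.image (fz u) = U then a u else 0 := by
      rw [Finset.sum_image fun a _ b _ h => neg_injective h]
      exact Finset.sum_congr rfl fun y _ => by rw [image_fz]
    rw [h2, anc]
    rw [← Finset.sum_filter, ← Finset.sum_filter]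
    refine Finset.sum_congr ?_ fun _ _ => rfl
    ext u
    rw [Finset.mem_filter, Finset.mem_filter]
    constructor
    · rintro ⟨hu, he⟩
      refine ⟨?_, he⟩
      have h3 : (0 : Fc) ∈ Y0.image (fz u) := by rw [he]; exact hU.1
      obtain ⟨y, hy, hy0⟩ := Finset.mem_image.1 h3
      rw [fz_int] at hy0
      exact Finset.mem_image.2 ⟨y, hy, neg_eq_of_add_eq_zero_left hy0⟩
    · rintro ⟨_, he⟩
      refine ⟨?_, he⟩
      rw [← he]
      exact Finset.mem_image.2 ⟨(0, 0), h0, by rw [fz_int]; exact add_zero u⟩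
  rw [avgAt, Finset.sum_congr rfl fun U hU => by rw [h1 U hU]]
  simp only [Finset.smul_sum]
  rw [Finset.sum_comm]
  refine Finset.sum_congr rfl fun y hy => ?_
  rw [Finset.sum_eq_single (Y0.image (· + (-y)))]
  · rw [if_pos rfl, Finset.card_image_of_injective _ (add_left_injective (-y))]
  · intro U _ hne
    rw [if_neg (Ne.symm hne), smul_zero]
  · intro h
    exact absurd (hY y hy) h

theorem avgAt_add (r : ℕ) (K K' : Finset Fc → Gr (Fld ℤ)) (f : Fc) :
    avgAt r (fun U => K U + K' U) f = avgAt r K f + avgAt r K' f := by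
  rw [avgAt, avgAt, avgAt, ← Finset.sum_add_distrib]
  exact Finset.sum_congr rfl fun U _ => smul_add _ _ _

theorem avgAt_smul (r : ℕ) (c : ℝ) (K : Finset Fc → Gr (Fld ℤ)) (f : Fc) :
    avgAt r (fun U => c • K U) f = c • avgAt r K f := by
  rw [avgAt, avgAt, Finset.smul_sum]
  exact Finset.sum_congr rfl fun U _ => smul_comm _ _ _

theorem avgAt_sum {ι : Type*} (s : Finset ι) (r : ℕ) (K : ι → Finset Fc → Gr (Fld ℤ)) (f : Fc) :
    avgAt r (fun U => ∑ i ∈ s, K i U) f = ∑ i ∈ s, avgAt r (K i) f := by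
  simp only [avgAt, Finset.smul_sum]
  rw [Finset.sum_comm]

/-- convolution commutes with the average -/
theorem avgAt_conv (S : Cov (Fld ℤ)) (r : ℕ) (K : Finset Fc → Gr (Fld ℤ)) (f : Fc) :
    avgAt r (fun U => conv S (K U)) f = conv S (avgAt r K f) := by
  rw [avgAt, avgAt, map_sum]
  exact Finset.sum_congr rfl fun U _ => by rw [map_smul]

/-! ### quadratic elements: the convolution only changes the constant -/

/-- elements on which every convolution acts by adding a constant -/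
def Quad (F : Gr (Fld ℤ)) : Prop :=
  ∀ S : Cov (Fld ℤ), ∃ c : ℝ, conv S F = F + algebraMap ℝ (Gr (Fld ℤ)) c

theorem quad_two (x y : Fld ℤ) : Quad (fi x * fi y) := fun S => ⟨_, conv_two S x y⟩

theorem Quad.add {F G : Gr (Fld ℤ)} (h : Quad F) (h' : Quad G) : Quad (F + G) := fun S => by
  obtain ⟨c, hc⟩ := h S
  obtain ⟨c', hc'⟩ := h' S
  exact ⟨c + c', by rw [map_add, hc, hc', map_add]; abel⟩

theorem Quad.smul {F : Gr (Fld ℤ)} (h : Quad F) (t : ℝ) : Quad (t • F) := fun S => by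
  obtain ⟨c, hc⟩ := h S
  exact ⟨t * c, by rw [map_smul, hc, smul_add, map_mul, ← Algebra.smul_def]⟩

theorem quad_zero : Quad 0 := fun S => ⟨0, by simp⟩

theorem Quad.sum {ι : Type*} (s : Finset ι) {F : ι → Gr (Fld ℤ)} (h : ∀ i ∈ s, Quad (F i)) :
    Quad (∑ i ∈ s, F i) := by
  classical
  induction s using Finset.induction_on with
  | empty => simpa using quad_zero
  | insert i s hi ih =>
    rw [Finset.sum_insert hi]
    exact (h i (Finset.mem_insert_self _ _)).add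
      (ih fun j hj => h j (Finset.mem_insert_of_mem hj))

theorem quad_const (c : ℝ) : Quad (algebraMap ℝ (Gr (Fld ℤ)) c) := fun S => ⟨0, by simp⟩

theorem Quad.form {F : Gr (Fld ℤ)} (h : Quad F) (S : Cov (Fld ℤ)) (l m : Module.Dual ℝ (Fld ℤ)) :
    Locx901.form (conv S F) l m = Locx901.form F l m := by
  obtain ⟨c, hc⟩ := h S
  rw [hc, ← formL_apply, map_add, formL_apply, formL_apply, form_algebraMap, add_zero]

theorem Quad.avg {r : ℕ} {K : Finset Fc → Gr (Fld ℤ)} (h : ∀ U, Quad (K U)) (f : Fc) :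
    Quad (avgAt r K f) := Quad.sum _ fun U _ => (h U).smul _

/-- the coefficients of a quadratic family do not see the convolution -/
theorem alK_conv_quad {r : ℕ} {K : Finset Fc → Gr (Fld ℤ)} (h : ∀ U, Quad (K U))
    (S : Cov (Fld ℤ)) : alK r (fun U => conv S (K U)) = alK r K := by
  rw [alK, alK, avgAt_conv]
  exact (Quad.avg h 0).form S _ _

theorem beK_conv_quad {r : ℕ} {K : Finset Fc → Gr (Fld ℤ)} (h : ∀ U, Quad (K U))
    (S : Cov (Fld ℤ)) : beK r (fun U => conv S (K U)) = beK r K := by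
  rw [beK, beK, avgAt_conv]
  exact (Quad.avg h 0).form S _ _

/-! ### the numbers -/

/-- the bilinear of a bond -/
def bE (e : EG ℤ) : Gr (Fld ℤ) := fi (Finsupp.single (pe e) 1) * fi (Finsupp.single (qe e) 1)

/-- the intra-face form -/
def i4 (f : Fc) : Gr (Fld ℤ) :=
  ∑ m : Fin 6, fi (Finsupp.single (f, Rescx950.P6 m) 1) * fi (Finsupp.single (f, Rescx950.Q6 m) 1)

theorem quad_bE (e : EG ℤ) : Quad (bE e) := quad_two _ _

theorem quad_i4 (f : Fc) : Quad (i4 f) := Quad.sum _ fun _ _ => quad_two _ _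

theorem m0_val (a b : ℝ) (x : Fc) : m0 a b (x, 0) = -(r2 / 2) * (a + b) ∧ m0 a b (x, 1) = a ∧
    m0 a b (x, 2) = (r2 / 2) * (b - a) ∧ m0 a b (x, 3) = -b := ⟨rfl, rfl, rfl, rfl⟩

theorem m1_val (x : Fc) : m1 0 0 0 0 1 (x, 0) = -(r2 / 2) * (x.1 + x.2) ∧
    m1 0 0 0 0 1 (x, 1) = x.2 ∧ m1 0 0 0 0 1 (x, 2) = (r2 / 2) * (x.1 - x.2) ∧
    m1 0 0 0 0 1 (x, 3) = -x.1 := by
  simp only [m1, Pi.add_apply, Pi.smul_apply, lt_S, lt_E, lt_N, lt_W, hv_S, hv_E, hv_N, hv_W,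
    smul_eq_mul, Prod.fst_zero, Prod.snd_zero, sub_zero]
  refine ⟨?_, ?_, ?_, ?_⟩ <;> ring

theorem cMass_fi (x y : Fld ℤ) : cMass (fi x * fi y) =
    ev (m0 1 0) x * ev (m0 0 1) y - ev (m0 1 0) y * ev (m0 0 1) x := by
  rw [cMass, formL_apply, form_fi_fi]

theorem cKin_fi (x y : Fld ℤ) : cKin 0 (fi x * fi y) =
    ev (m0 1 0) x * ev (m1 0 0 0 0 1) y - ev (m0 1 0) y * ev (m1 0 0 0 0 1) x := by
  rw [cKin, formL_apply, form_fi_fi]

theorem cMass_bE (e : EG ℤ) : cMass (bE e) = -1 := by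
  obtain ⟨u, j⟩ := e
  have h2 := r2_sq
  rw [bE, cMass_fi]
  fin_cases j
  · simp only [Fin.zero_eta, pe, qe, if_true, ev_single, (m0_val _ _ _).1, (m0_val _ _ _).2.2.1]
    linear_combination -(1 / 2 : ℝ) * h2
  · simp [pe, qe, ev_single, (m0_val _ _ _).2.1, (m0_val _ _ _).2.2.2]

theorem cKin_bE0 (u : Fc) : cKin 0 (bE (u, 0)) = -(u.1 : ℝ) - 1 / 2 := by
  have h2 := r2_sq
  rw [bE, cKin_fi]
  simp only [pe, qe, if_true, ev_single, (m0_val _ _ _).1, (m0_val _ _ _).2.2.1, (m1_val _).1,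
    (m1_val _).2.2.1]
  simp only [Prod.fst_sub, Prod.snd_sub, sub_zero, Int.cast_sub, Int.cast_one]
  linear_combination -(1 / 4 : ℝ) * (2 * u.1 + 1) * h2

theorem cKin_bE1 (u : Fc) : cKin 0 (bE (u, 1)) = -(u.1 : ℝ) := by
  rw [bE, cKin_fi]
  simp [pe, qe, ev_single, (m0_val _ _ _).2.1, (m0_val _ _ _).2.2.2, (m1_val _).2.1,
    (m1_val _).2.2.2]

theorem cMass_i4 (f : Fc) : cMass (i4 f) = 2 * xc := by
  have h2 := r2_sq
  rw [i4, map_sum]
  simp only [cMass_fi, ev_single, Fin.sum_univ_succ, Rescx950.P6, Rescx950.Q6]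
  simp [(m0_val _ _ _).1, (m0_val _ _ _).2.1, (m0_val _ _ _).2.2.1, (m0_val _ _ _).2.2.2, xc_eq]
  linear_combination -(1 / 2 : ℝ) * h2

theorem cKin_i4 : cKin 0 (i4 0) = 0 := by
  rw [i4, map_sum]
  refine Finset.sum_eq_zero fun m _ => ?_
  rw [cKin_fi]
  have h : ∀ d : Fin 4, m1 0 0 0 0 1 ((0 : Fc), d) = 0 := by
    intro d
    fin_cases d
    · simpa using (m1_val 0).1
    · simpa using (m1_val 0).2.1
    · simpa using (m1_val 0).2.2.1
    · simpa using (m1_val 0).2.2.2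
  rw [ev_single (m1 0 0 0 0 1), ev_single (m1 0 0 0 0 1), h, h]
  ring

/-! ### the explicit family -/

/-- the explicit first order terms -/
def Kx (p z : ℝ) (U : Finset Fc) : Gr (Fld ℤ) :=
  (∑ j : Fin 2, anc (Yf (pr ((0, 0), j))) (fun u => (-(2 * xc * p)) • bE (u, j)) U) +
    z • (anc {(0, 0)} i4 U + ∑ j : Fin 2, anc (faE ((0, 0), j)) (fun u => xc • bE (u, j)) U)

theorem Yf0 : Yf (pr ((0, 0), 0)) = {(-1, -1), (0, -1), (1, -1), (-1, 0), (0, 0), (1, 0)} := by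
  decide +kernel

theorem Yf1 : Yf (pr ((0, 0), 1)) = {(-1, -1), (-1, 0), (-1, 1), (0, -1), (0, 0), (0, 1)} := by
  decide +kernel

theorem faE0 : faE (((0, 0), 0) : EG ℤ) = {(0, 0), (0, -1)} := by
  decide +kernel

theorem faE1 : faE (((0, 0), 1) : EG ℤ) = {(-1, 0), (0, 0)} := by
  decide +kernel

theorem quad_anc {Y0 : Finset (ℤ × ℤ)} {a : Fc → Gr (Fld ℤ)} (h : ∀ u, Quad (a u))
    (U : Finset Fc) : Quad (anc Y0 a U) := Quad.sum _ fun u _ => by
  split_ifs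
  · exact h u
  · exact quad_zero

theorem quad_Kx (p z : ℝ) (U : Finset Fc) : Quad (Kx p z U) :=
  (Quad.sum _ fun _ _ => quad_anc (fun _ => (quad_bE _).smul _) U).add
    (((quad_anc quad_i4 U).add (Quad.sum _ fun _ _ => quad_anc (fun _ => (quad_bE _).smul _) U)).smul
      _)

/-- the average of the explicit family -/
theorem avgAt_Kx {r : ℕ} (hr : 2 ≤ r) (p z : ℝ) :
    avgAt r (Kx p z) 0 =
      ((6 : ℝ)⁻¹ • ((-(2 * xc * p)) • (bE ((1, 1), 0) + (bE ((0, 1), 0) + (bE ((-1, 1), 0) +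
          (bE ((1, 0), 0) + (bE ((0, 0), 0) + bE ((-1, 0), 0))))))) +
        (6 : ℝ)⁻¹ • ((-(2 * xc * p)) • (bE ((1, 1), 1) + (bE ((1, 0), 1) + (bE ((1, -1), 1) +
          (bE ((0, 1), 1) + (bE ((0, 0), 1) + bE ((0, -1), 1)))))))) +
      z • (i4 0 + ((2 : ℝ)⁻¹ • (xc • (bE ((0, 0), 0) + bE ((0, 1), 0))) +
        (2 : ℝ)⁻¹ • (xc • (bE ((1, 0), 1) + bE ((0, 0), 1))))) := by
  have hsm : ∀ Y : Finset (ℤ × ℤ), Small 2 Y → Small r Y := fun Y h a ha b hb =>
    (h a ha b hb).trans hr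
  have s0 : Small 2 (Yf (pr ((0, 0), 0))) := by
    rw [Yf0]; unfold PlaneSumx901.Small; decide
  have s1 : Small 2 (Yf (pr ((0, 0), 1))) := by
    rw [Yf1]; unfold PlaneSumx901.Small; decide
  have s2 : Small 2 (faE (((0, 0), 0) : EG ℤ)) := by
    rw [faE0]; unfold PlaneSumx901.Small; decide
  have s3 : Small 2 (faE (((0, 0), 1) : EG ℤ)) := by
    rw [faE1]; unfold PlaneSumx901.Small; decide
  have s4 : Small 2 ({(0, 0)} : Finset (ℤ × ℤ)) := by
    unfold PlaneSumx901.Small; decide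
  have e : Kx p z = fun U => (∑ j : Fin 2, anc (Yf (pr ((0, 0), j)))
      (fun u => (-(2 * xc * p)) • bE (u, j)) U) +
    z • (anc {(0, 0)} i4 U + ∑ j : Fin 2, anc (faE ((0, 0), j)) (fun u => xc • bE (u, j)) U) := rfl
  rw [e, avgAt_add, avgAt_sum, avgAt_smul, avgAt_add, avgAt_sum, Fin.sum_univ_two,
    Fin.sum_univ_two, avgAt_anc (by rw [Yf0]; decide) (hsm _ s0),
    avgAt_anc (by rw [Yf1]; decide) (hsm _ s1), avgAt_anc (by decide) (hsm _ s4),
    avgAt_anc (by rw [faE0]; decide) (hsm _ s2), avgAt_anc (by rw [faE1]; decide) (hsm _ s3),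
    Yf0, Yf1, faE0, faE1]
  have c0 : ({(-1, -1), (0, -1), (1, -1), (-1, 0), (0, 0), (1, 0)} : Finset (ℤ × ℤ)).card = 6 := by
    decide
  have c1 : ({(-1, -1), (-1, 0), (-1, 1), (0, -1), (0, 0), (0, 1)} : Finset (ℤ × ℤ)).card = 6 := by
    decide
  have c2 : ({(0, 0), (0, -1)} : Finset (ℤ × ℤ)).card = 2 := by decide
  have c3 : ({(-1, 0), (0, 0)} : Finset (ℤ × ℤ)).card = 2 := by decide
  rw [c0, c1, c2, c3, Finset.card_singleton]
  simp only [← Finset.smul_sum, Finset.sum_singleton]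
  rw [Finset.sum_insert (by decide), Finset.sum_insert (by decide), Finset.sum_insert (by decide),
    Finset.sum_insert (by decide), Finset.sum_insert (by decide), Finset.sum_singleton,
    Finset.sum_insert (by decide), Finset.sum_insert (by decide), Finset.sum_insert (by decide),
    Finset.sum_insert (by decide), Finset.sum_insert (by decide), Finset.sum_singleton,
    Finset.sum_insert (by decide), Finset.sum_singleton,
    Finset.sum_insert (by decide), Finset.sum_singleton]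
  simp only [Prod.neg_mk, neg_neg, neg_zero, Nat.cast_one, inv_one, one_smul, Nat.cast_ofNat]
  rfl

/-- **the mass coefficient of the explicit family** -/
theorem alK_Kx {r : ℕ} (hr : 2 ≤ r) (p z : ℝ) : alK r (Kx p z) = 4 * xc * p := by
  rw [alK, avgAt_Kx hr]
  simp only [map_add, map_smul, cMass_bE, cMass_i4, smul_eq_mul]
  ring

/-- **the kinetic coefficient of the explicit family** -/
theorem beK_Kx {r : ℕ} (hr : 2 ≤ r) (p z : ℝ) : beK r (Kx p z) = 2 * xc * p - xc * z := by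
  rw [beK, avgAt_Kx hr]
  simp only [map_add, map_smul, cKin_bE0, cKin_bE1, cKin_i4, smul_eq_mul]
  push_cast
  ring

theorem alK_conv_Kx (S : Cov (Fld ℤ)) {r : ℕ} (hr : 2 ≤ r) (p z : ℝ) :
    alK r (fun U => conv S (Kx p z U)) = 4 * xc * p := by
  rw [alK_conv_quad (quad_Kx p z), alK_Kx hr]

theorem beK_conv_Kx (S : Cov (Fld ℤ)) {r : ℕ} (hr : 2 ≤ r) (p z : ℝ) :
    beK r (fun U => conv S (Kx p z U)) = 2 * xc * p - xc * z := by
  rw [beK_conv_quad (quad_Kx p z), beK_Kx hr]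

/-! ### on the even ring -/

theorem alQ_add (S : Cov (Fld ℤ)) (r : ℕ) (Q Q' : Finset Fc → Ge (Fld ℤ)) :
    alQ S r (fun U => Q U + Q' U) = alQ S r Q + alQ S r Q' := by
  unfold alQ alK
  rw [← map_add, ← avgAt_add]
  refine congrArg (fun K => cMass (avgAt r K 0)) (funext fun U => ?_)
  rw [Ge.coe_add, map_add]

theorem beQ_add (S : Cov (Fld ℤ)) (r : ℕ) (Q Q' : Finset Fc → Ge (Fld ℤ)) :
    beQ S r (fun U => Q U + Q' U) = beQ S r Q + beQ S r Q' := by
  unfold beQ beK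
  rw [← map_add, ← avgAt_add]
  refine congrArg (fun K => cKin 0 (avgAt r K 0)) (funext fun U => ?_)
  rw [Ge.coe_add, map_add]

/-- constants do not contribute -/
theorem alQ_const (S : Cov (Fld ℤ)) (r : ℕ) (c : Finset Fc → ℝ) :
    alQ S r (fun U => algebraMap ℝ (Ge (Fld ℤ)) (c U)) = 0 := by
  unfold alQ alK avgAt
  rw [map_sum]
  refine Finset.sum_eq_zero fun U _ => ?_
  beta_reduce
  rw [map_smul, ge_coe_algebraMap, conv_algebraMap, cMass, formL_apply, form_algebraMap, smul_zero]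

theorem beQ_const (S : Cov (Fld ℤ)) (r : ℕ) (c : Finset Fc → ℝ) :
    beQ S r (fun U => algebraMap ℝ (Ge (Fld ℤ)) (c U)) = 0 := by
  unfold beQ beK avgAt
  rw [map_sum]
  refine Finset.sum_eq_zero fun U _ => ?_
  beta_reduce
  rw [map_smul, ge_coe_algebraMap, conv_algebraMap, cKin, formL_apply, form_algebraMap, smul_zero]

/-- **the coefficients of the explicit family**, on the even ring -/
theorem alQ_Kx (S : Cov (Fld ℤ)) {r : ℕ} (hr : 2 ≤ r) (p z : ℝ) {K : Finset Fc → Ge (Fld ℤ)}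
    (hK : ∀ U, (K U : Gr (Fld ℤ)) = Kx p z U) : alQ S r K = 4 * xc * p := by
  rw [← alK_conv_Kx S hr p z, alQ]
  exact congrArg _ (funext fun U => by rw [hK])

theorem beQ_Kx (S : Cov (Fld ℤ)) {r : ℕ} (hr : 2 ≤ r) (p z : ℝ) {K : Finset Fc → Ge (Fld ℤ)}
    (hK : ∀ U, (K U : Gr (Fld ℤ)) = Kx p z U) : beQ S r K = 2 * xc * p - xc * z := by
  rw [← beK_conv_Kx S hr p z, beQ]
  exact congrArg _ (funext fun U => by rw [hK])

/-- the frame of the canonical half-edges -/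
theorem coe_bu (e : EG ℤ) :
    ((Rescx950.bu (id : HE ℤ → HE ℤ) e : Ge (VI (HE ℤ))) : Gr (Fld ℤ)) = bE e := rfl

theorem coe_I4 (f : Fc) :
    ((Rescx950.I4 (id : HE ℤ → HE ℤ) f : Ge (VI (HE ℤ))) : Gr (Fld ℤ)) = i4 f := by
  rw [Rescx950.I4, i4, ge_coe_sum]
  rfl

theorem coe_anc (Y0 : Finset (ℤ × ℤ)) (a : Fc → Ge (Fld ℤ)) (U : Finset Fc) :
    ((anc Y0 a U : Ge (Fld ℤ)) : Gr (Fld ℤ)) = anc Y0 (fun u => (a u : Gr (Fld ℤ))) U := by
  rw [anc, anc, ge_coe_sum]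
  exact Finset.sum_congr rfl fun u _ => by split_ifs <;> rfl

/-- the explicit family of 871 for a frame `b, I4` -/
def KxG (b : EG ℤ → Ge (Fld ℤ)) (I4 : Fc → Ge (Fld ℤ)) (p z : ℝ) (U : Finset Fc) :
    Ge (Fld ℤ) :=
  (∑ j : Fin 2, anc (Yf (pr ((0, 0), j))) (fun u => (-(2 * xc * p)) • b (u, j)) U) +
    z • (anc {(0, 0)} I4 U + ∑ j : Fin 2, anc (faE ((0, 0), j)) (fun u => xc • b (u, j)) U)

theorem coe_KxG {b : EG ℤ → Ge (Fld ℤ)} {I4 : Fc → Ge (Fld ℤ)}
    (hb : ∀ e, (b e : Gr (Fld ℤ)) = bE e) (hI : ∀ f, (I4 f : Gr (Fld ℤ)) = i4 f) (p z : ℝ)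
    (U : Finset Fc) : ((KxG b I4 p z U : Ge (Fld ℤ)) : Gr (Fld ℤ)) = Kx p z U := by
  have h1 : ∀ (c : ℝ) (j : Fin 2), (fun u : Fc => ((c • b (u, j) : Ge (Fld ℤ)) : Gr (Fld ℤ))) =
      fun u => c • bE (u, j) := fun c j => funext fun u => by rw [Ge.coe_smul, hb]
  have h2 : (fun f : Fc => (I4 f : Gr (Fld ℤ))) = i4 := funext hI
  rw [KxG, Kx, Ge.coe_add, Ge.coe_smul, Ge.coe_add, ge_coe_sum, ge_coe_sum, coe_anc, h2]
  simp only [coe_anc, h1]

end Crest.Agent.R165.PlaneNumx901
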