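import Crest.Agent.R165.PlaneCov_901
import Crest.Agent.R165.GDef_387
import Crest.Agent.R165.LinStep_417
import Crest.Agent.R165.GrLoc_337

/-!
# Row 165 (S0250), block G5: local parts of polymer activities in the plane

* `Loc_eq_loc2` : my localisation is 417's `loc2 P0 P1`
* `form_le` : coefficient bound by the projective norm
* `fldN r U` : fields on the faces within distance `r` of `U`;  `LocAt f a ∈ gr (fldN 1 {f})`
* `PlSym K` : translation and D4 covariance of a family of activities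
* `polyAt r f` : small sets containing `f`;  `moveAt r K f` : the local part moved to the face `f`
* `moveAt_eq` : for covariant `K`: `moveAt r K f = al • mass f + be • kin f`
-/

set_option autoImplicit false

noncomputable section

namespace Crest.Agent.R165.PlaneSumx901

open scoped ENNReal
open Crest.Agent.R165.Gr0x606
open Crest.Agent.R165.Latx683
open Crest.Agent.R165.Locx901
open Crest.Agent.R165.PlaneModesx901
open Crest.Agent.R165.PlaneLocx901
open Crest.Agent.R165.PlaneCovx901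
open Crest.Agent.R165.PNormx417
open Crest.Agent.R165.GDefx387
open Crest.Agent.R165.GrLocx337

section general

variable {V : Type*} [AddCommGroup V] [Module ℝ V]
variable {ι κ : Type*} [Fintype ι] [Fintype κ]

theorem Loc_eq_loc2 (M : Modes V ι κ) (F : Gr V) : Loc M F = loc2 M.P0 M.P1 F := by
  refine linear_ext (fun L => ?_) F
  match L with
  | [] =>
    rw [mono_nil, Loc_one, loc2, LinearMap.comp_apply, ← mono_nil, hom_mono, if_neg (by simp),
      map_zero]
  | [x] =>
    rw [mono_singleton, Loc_fi, loc2, LinearMap.comp_apply, ← mono_singleton, hom_mono,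
      if_neg (by simp), map_zero]
  | [x, y] =>
    rw [loc2_mono, mono_cons, mono_singleton, Loc_fi_fi]
  | x :: y :: z :: L =>
    rw [loc2, LinearMap.comp_apply, hom_mono, if_neg (by simp), map_zero, mono_cons, mono_cons,
      mono_cons, Loc_three]

theorem Loc_conv_hom (M : Modes V ι κ) (F : Gr V) : Loc M (hom 2 F) = Loc M F := by
  rw [Loc_eq_loc2, Loc_eq_loc2, loc2_of_hom]

theorem form_mono_ne_two (L : List V) (h : L.length ≠ 2) (m m' : Module.Dual ℝ V) :
    form (mono L) m m' = 0 := by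
  match L with
  | [] => rw [mono_nil, ← map_one (algebraMap ℝ (Gr V)), form_algebraMap]
  | [x] => rw [mono_singleton, form_one_field]
  | [x, y] => simp at h
  | x :: y :: z :: L => rw [mono_cons, mono_cons, mono_cons, form_three]

/-- **coefficient bound** -/
theorem form_le {w : V → ℝ≥0∞} {c c' : ℝ≥0∞} (hc : c ≠ ∞) (hc' : c' ≠ ∞)
    (m m' : Module.Dual ℝ V) (hm : ∀ l, w l ≠ ∞ → ‖m l‖ₑ ≤ c * w l)
    (hm' : ∀ l, w l ≠ ∞ → ‖m' l‖ₑ ≤ c' * w l)
    {F : Gr V} (hF : pnorm w F ≠ ∞) : ‖form F m m'‖ₑ ≤ 2 * c * c' * pnorm w F := by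
  have h0 : ∀ l, w l = 0 → m l = 0 ∧ m' l = 0 := by
    intro l hl
    have h1 := hm l (by simp [hl])
    have h2 := hm' l (by simp [hl])
    rw [hl, mul_zero] at h1 h2
    simpa using And.intro (le_antisymm h1 (zero_le)) (le_antisymm h2 (zero_le))
  refine bound_of_mono (N := fun x : ℝ => ‖x‖ₑ) ESemi.enorm (formL m m') (w := w)
    (C := 2 * c * c') (ENNReal.mul_ne_top (ENNReal.mul_ne_top (by simp) hc) hc') (fun L hL => ?_) hF
  rw [formL_apply]
  by_cases hL2 : L.length = 2
  · match L, hL2 with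
    | [x, y], _ =>
      rw [mono_cons, mono_singleton, form_fi_fi]
      rw [mwt_cons, mwt_cons, mwt_nil, mul_one] at hL ⊢
      by_cases hx : w x = 0
      · rw [(h0 x hx).1, (h0 x hx).2]; simp
      by_cases hy : w y = 0
      · rw [(h0 y hy).1, (h0 y hy).2]; simp
      have hxt : w x ≠ ∞ := fun h => hL (by rw [h, ENNReal.top_mul hy])
      have hyt : w y ≠ ∞ := fun h => hL (by rw [h, ENNReal.mul_top hx])
      calc ‖m x * m' y - m y * m' x‖ₑ ≤ ‖m x * m' y‖ₑ + ‖m y * m' x‖ₑ := enorm_sub_le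
        _ = ‖m x‖ₑ * ‖m' y‖ₑ + ‖m y‖ₑ * ‖m' x‖ₑ := by rw [enorm_mul, enorm_mul]
        _ ≤ (c * w x) * (c' * w y) + (c * w y) * (c' * w x) := by
          gcongr
          · exact hm x hxt
          · exact hm' y hyt
          · exact hm y hyt
          · exact hm' x hxt
        _ = 2 * c * c' * (w x * w y) := by ring
  · rw [form_mono_ne_two L hL2]; simp

end general

section lattice

variable {G : Type} [CommRing G] [CN G]

/-- fields on the faces within distance `r` of `U` -/
def fldN (r : ℕ) (U : Finset (G × G)) : Submodule ℝ (Fld G) :=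
  Finsupp.supported ℝ ℝ {h : HE G | h.1 ∈ nbhd r U}

theorem single_mem_fldN {r : ℕ} {U : Finset (G × G)} {h : HE G} (hh : h.1 ∈ nbhd r U) (c : ℝ) :
    Finsupp.single h c ∈ fldN r U := Finsupp.single_mem_supported ℝ c hh

theorem fldN_mono {r r' : ℕ} {U U' : Finset (G × G)} (hr : r ≤ r') (hU : U ⊆ U') :
    fldN r U ≤ fldN r' U' := by
  refine Finsupp.supported_mono ?_
  rintro h ⟨u, hu, hd⟩
  exact ⟨u, hU hu, hd.trans hr⟩

end lattice

/-! ### supports of the local functionals -/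

theorem mem_nbhd_one {x y : Fc} (h1 : |x.1 - y.1| ≤ 1) (h2 : |x.2 - y.2| ≤ 1) : y ∈ nbhd 1 {x} := by
  refine ⟨x, Finset.mem_singleton_self x, ?_⟩
  rw [abs_le] at h1 h2
  show max (Int.natAbs (x.1 - y.1)) (Int.natAbs (x.2 - y.2)) ≤ 1
  omega

theorem dl_mem {x y : Fc} (h1 : |x.1 - y.1| ≤ 1) (h2 : |x.2 - y.2| ≤ 1) (d : Fin 4) :
    dl y d ∈ fldN 1 {x} := by
  have h := mem_nbhd_one h1 h2
  exact single_mem_fldN (G := ℤ) (h := (y, d)) h 1

theorem phiA_mem {x y : Fc} (h1 : |x.1 - y.1| ≤ 1) (h2 : |x.2 - y.2| ≤ 1) :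
    phiA y ∈ fldN 1 {x} := by
  have := fun d => dl_mem h1 h2 d
  exact Submodule.smul_mem _ _ (Submodule.sub_mem _ (Submodule.add_mem _
    (Submodule.smul_mem _ _ (this 0)) (this 1)) (Submodule.smul_mem _ _ (this 2)))

theorem phiB_mem {x y : Fc} (h1 : |x.1 - y.1| ≤ 1) (h2 : |x.2 - y.2| ≤ 1) :
    phiB y ∈ fldN 1 {x} := by
  have := fun d => dl_mem h1 h2 d
  exact Submodule.smul_mem _ _ (Submodule.sub_mem _ (Submodule.add_mem _
    (Submodule.smul_mem _ _ (this 0)) (Submodule.smul_mem _ _ (this 2))) (this 3))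

theorem D_mem (x : Fc) (Φ : Fc → Fld ℤ)
    (h : ∀ y : Fc, |x.1 - y.1| ≤ 1 → |x.2 - y.2| ≤ 1 → Φ y ∈ fldN 1 {x}) :
    D1 Φ x ∈ fldN 1 {x} ∧ D2 Φ x ∈ fldN 1 {x} := by
  constructor
  · exact Submodule.smul_mem _ _ (Submodule.sub_mem _ (h _ (by simp) (by simp))
      (h _ (by simp) (by simp)))
  · exact Submodule.smul_mem _ _ (Submodule.sub_mem _ (h _ (by simp) (by simp))
      (h _ (by simp) (by simp)))

theorem p_mem (x : Fc) (i : Fin 2) : (md x).p i ∈ fldN 1 {x} := by
  fin_cases i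
  · exact phiA_mem (by simp) (by simp)
  · exact phiB_mem (by simp) (by simp)

theorem q_mem (x : Fc) (j : Fin 4) : (md x).q j ∈ fldN 1 {x} := by
  have hA := D_mem x phiA fun y => phiA_mem
  have hB := D_mem x phiB fun y => phiB_mem
  fin_cases j
  · exact Submodule.smul_mem _ _ (Submodule.add_mem _ hA.1 hB.2)
  · exact Submodule.smul_mem _ _ (Submodule.sub_mem _ hB.1 hA.2)
  · exact Submodule.smul_mem _ _ (Submodule.sub_mem _ hA.1 hB.2)
  · exact Submodule.smul_mem _ _ (Submodule.add_mem _ hB.1 hA.2)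

theorem LocAt_mem (x : Fc) (a : Gr (Fld ℤ)) : LocAt x a ∈ gr (fldN 1 {x}) := by
  rw [LocAt, Loc_apply]
  refine add_mem (sum_mem fun i _ => sum_mem fun j _ => ?_) (sum_mem fun i _ => sum_mem fun j _ => ?_)
  · exact Subalgebra.smul_mem _ (mul_mem (fi_mem_gr (p_mem x i)) (fi_mem_gr (p_mem x j))) _
  · exact Subalgebra.smul_mem _ (mul_mem (fi_mem_gr (p_mem x i)) (fi_mem_gr (q_mem x j))) _

theorem isEv_LocAt (x : Fc) (a : Gr (Fld ℤ)) : IsEv (LocAt x a) := by
  rw [LocAt, Loc_apply]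
  have h : ∀ x y : Fld ℤ, fi x * fi y ∈ GrLocx337.gr (⊤ : Submodule ℝ (Fld ℤ)) := fun x y =>
    mul_mem (fi_mem_gr trivial) (fi_mem_gr trivial)
  rw [IsEv, map_add, map_sum, map_sum]
  congr 1
  · refine Finset.sum_congr rfl fun i _ => ?_
    rw [map_sum]
    refine Finset.sum_congr rfl fun j _ => ?_
    rw [map_smul, PlaneCovx901.isEv_fi_fi]
  · refine Finset.sum_congr rfl fun i _ => ?_
    rw [map_sum]
    refine Finset.sum_congr rfl fun j _ => ?_
    rw [map_smul, PlaneCovx901.isEv_fi_fi]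

/-! ### covariant families of activities -/

/-- translation and D4 covariance of a family of activities -/
structure PlSym (K : Finset Fc → Gr (Fld ℤ)) : Prop where
  tau : ∀ t U, K (U.image (· + t)) = mp (tauV t) (K U)
  rho : ∀ U, K (U.image (rot 0)) = mp (rhoV 0) (K U)
  sig : ∀ U, K (U.image (ref 0)) = rev' (mp (sigV 0) (K U))

theorem mp_mp' (g f : Fld ℤ →ₗ[ℝ] Fld ℤ) (a : Gr (Fld ℤ)) : mp g (mp f a) = mp (g ∘ₗ f) a :=
  mp_mp g f a

theorem rhoV_eq (y : Fc) : rhoV y = tauV y ∘ₗ rhoV 0 ∘ₗ tauV (-y) := by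
  rw [rhoV, rhoV, tauV, tauV, push_comp, push_comp]
  congr 1
  · funext h
    obtain ⟨x, d⟩ := h
    simp only [rhoH, tauH, Function.comp_apply, Prod.mk.injEq, and_true]
    ext <;> simp [rot] <;> ring
  · funext h
    obtain ⟨x, d⟩ := h
    simp [rhoSgn, tauH]

theorem sigV_eq (y : Fc) : sigV y = tauV y ∘ₗ sigV 0 ∘ₗ tauV (-y) := by
  rw [sigV, sigV, tauV, tauV, push_comp, push_comp]
  congr 1
  · funext h
    obtain ⟨x, d⟩ := h
    simp only [sigH, tauH, Function.comp_apply, Prod.mk.injEq, and_true]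
    ext <;> simp [ref] <;> ring
  · funext h
    obtain ⟨x, d⟩ := h
    simp [sigSgn, tauH]

theorem PlSym.rho' {K : Finset Fc → Gr (Fld ℤ)} (h : PlSym K) (y : Fc) (U : Finset Fc) :
    K (U.image (rot y)) = mp (rhoV y) (K U) := by
  have e : U.image (rot y) = ((U.image (· + (-y))).image (rot 0)).image (· + y) := by
    rw [Finset.image_image, Finset.image_image]
    refine Finset.image_congr fun x _ => ?_
    ext <;> simp [rot] <;> ring
  rw [e, h.tau, h.rho, h.tau, rhoV_eq y, ← mp_mp', ← mp_mp']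

theorem PlSym.sig' {K : Finset Fc → Gr (Fld ℤ)} (h : PlSym K) (y : Fc) (U : Finset Fc) :
    K (U.image (ref y)) = rev' (mp (sigV y) (K U)) := by
  have e : U.image (ref y) = ((U.image (· + (-y))).image (ref 0)).image (· + y) := by
    rw [Finset.image_image, Finset.image_image]
    refine Finset.image_congr fun x _ => ?_
    ext <;> simp [ref] <;> ring
  rw [e, h.tau, h.sig, h.tau, sigV_eq y, ← mp_mp', ← mp_mp', mp_rev']

/-! ### small sets -/

/-- sets of diameter at most `r` -/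
def Small (r : ℕ) (U : Finset Fc) : Prop := ∀ a ∈ U, ∀ b ∈ U, fd a b ≤ r

open Classical in
/-- small sets containing the face `f` -/
def polyAt (r : ℕ) (f : Fc) : Finset (Finset Fc) :=
  (ball_finite f r).toFinset.powerset.filter fun U => f ∈ U ∧ Small r U

theorem mem_polyAt {r : ℕ} {f : Fc} {U : Finset Fc} : U ∈ polyAt r f ↔ f ∈ U ∧ Small r U := by
  classical
  rw [polyAt, Finset.mem_filter, Finset.mem_powerset]
  refine ⟨fun h => h.2, fun h => ⟨fun u hu => ?_, h⟩⟩
  rw [Set.Finite.mem_toFinset, mem_ball]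
  exact h.2 f h.1 u hu

theorem fd_add (a b t : Fc) : fd (a + t) (b + t) = fd a b := by
  simp [fd]

theorem fd_rot (y a b : Fc) : fd (rot y a) (rot y b) = fd a b := by
  show max (Int.natAbs _) (Int.natAbs _) = max (Int.natAbs _) (Int.natAbs _)
  simp only [rot]
  omega

theorem fd_ref (y a b : Fc) : fd (ref y a) (ref y b) = fd a b := by
  show max (Int.natAbs _) (Int.natAbs _) = max (Int.natAbs _) (Int.natAbs _)
  simp only [ref]
  omega

theorem small_image {r : ℕ} {U : Finset Fc} {g : Fc → Fc} (hg : ∀ a b, fd (g a) (g b) = fd a b) :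
    Small r (U.image g) ↔ Small r U := by
  constructor
  · intro h a ha b hb
    rw [← hg]
    exact h _ (Finset.mem_image_of_mem g ha) _ (Finset.mem_image_of_mem g hb)
  · intro h a ha b hb
    obtain ⟨a', ha', rfl⟩ := Finset.mem_image.1 ha
    obtain ⟨b', hb', rfl⟩ := Finset.mem_image.1 hb
    rw [hg]
    exact h _ ha' _ hb'

theorem inj_of_iso {g : Fc → Fc} (hg : ∀ a b, fd (g a) (g b) = fd a b) : Function.Injective g := by
  intro a b h
  refine eq_of_fd ?_
  rw [← hg, h, fd_self]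

/-- a bijective isometry acts on the small sets -/
theorem polyAt_image (r : ℕ) (f : Fc) (g g' : Fc → Fc) (hg : ∀ a b, fd (g a) (g b) = fd a b)
    (hgg' : ∀ a, g (g' a) = a) (hg'g : ∀ a, g' (g a) = a) :
    polyAt r (g f) = (polyAt r f).image fun U => U.image g := by
  ext U
  rw [mem_polyAt, Finset.mem_image]
  constructor
  · rintro ⟨h1, h2⟩
    refine ⟨U.image g', mem_polyAt.2 ⟨?_, ?_⟩, ?_⟩
    · rw [← hg'g f]; exact Finset.mem_image_of_mem g' h1
    · have hg'' : ∀ a b, fd (g' a) (g' b) = fd a b := fun a b => by rw [← hg, hgg', hgg']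
      exact (small_image hg'').2 h2
    · rw [Finset.image_image]
      simp only [Function.comp_def, hgg', Finset.image_id']
  · rintro ⟨W, hW, rfl⟩
    rw [mem_polyAt] at hW
    exact ⟨Finset.mem_image_of_mem g hW.1, (small_image hg).2 hW.2⟩

/-- the average of the activities of the small sets containing `f` -/
def avgAt (r : ℕ) (K : Finset Fc → Gr (Fld ℤ)) (f : Fc) : Gr (Fld ℤ) :=
  ∑ U ∈ polyAt r f, (U.card : ℝ)⁻¹ • K U

/-- the local part moved to the face `f` -/
def moveAt (r : ℕ) (K : Finset Fc → Gr (Fld ℤ)) (f : Fc) : Gr (Fld ℤ) :=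
  ∑ U ∈ polyAt r f, (U.card : ℝ)⁻¹ • LocAt f (K U)

theorem moveAt_eq_Loc (r : ℕ) (K : Finset Fc → Gr (Fld ℤ)) (f : Fc) :
    moveAt r K f = LocAt f (avgAt r K f) := by
  rw [moveAt, avgAt, map_sum]
  exact Finset.sum_congr rfl fun U _ => by rw [map_smul]

theorem avgAt_map (r : ℕ) {K : Finset Fc → Gr (Fld ℤ)} (f : Fc) (g g' : Fc → Fc)
    (hg : ∀ a b, fd (g a) (g b) = fd a b) (hgg' : ∀ a, g (g' a) = a) (hg'g : ∀ a, g' (g a) = a)
    (T : Gr (Fld ℤ) →ₗ[ℝ] Gr (Fld ℤ)) (hK : ∀ U, K (U.image g) = T (K U)) :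
    avgAt r K (g f) = T (avgAt r K f) := by
  have hinj := inj_of_iso hg
  rw [avgAt, polyAt_image r f g g' hg hgg' hg'g, Finset.sum_image, avgAt, map_sum]
  · refine Finset.sum_congr rfl fun U _ => ?_
    rw [hK, map_smul, Finset.card_image_of_injective _ hinj]
  · intro U _ U' _ h
    exact Finset.image_injective hinj h

theorem avgAt_tau (r : ℕ) {K : Finset Fc → Gr (Fld ℤ)} (h : PlSym K) (f t : Fc) :
    avgAt r K (f + t) = mp (tauV t) (avgAt r K f) :=
  avgAt_map r f (· + t) (· - t) (fun a b => fd_add a b t) (fun a => sub_add_cancel a t)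
    (fun a => add_sub_cancel_right a t) (mp (tauV t)).toLinearMap (fun U => h.tau t U)

theorem avgAt_rho (r : ℕ) {K : Finset Fc → Gr (Fld ℤ)} (h : PlSym K) (y : Fc) :
    mp (rhoV y) (avgAt r K y) = avgAt r K y := by
  have h1 := avgAt_map r y (rot y) (fun x => rot y (rot y (rot y x))) (fd_rot y)
    (fun a => by ext <;> simp [rot]) (fun a => by ext <;> simp [rot])
    (mp (rhoV y)).toLinearMap (fun U => h.rho' y U)
  rw [rot_self] at h1
  exact h1.symm

theorem avgAt_sig (r : ℕ) {K : Finset Fc → Gr (Fld ℤ)} (h : PlSym K) (y : Fc) :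
    rev' (mp (sigV y) (avgAt r K y)) = avgAt r K y := by
  have h1 := avgAt_map r y (ref y) (ref y) (fd_ref y)
    (fun a => by ext <;> simp [ref]) (fun a => by ext <;> simp [ref])
    (rev' ∘ₗ (mp (sigV y)).toLinearMap) (fun U => h.sig' y U)
  rw [ref_self] at h1
  exact h1.symm

/-- the mass coefficient of a covariant family -/
def alK (r : ℕ) (K : Finset Fc → Gr (Fld ℤ)) : ℝ := cMass (avgAt r K 0)

/-- the kinetic coefficient of a covariant family -/
def beK (r : ℕ) (K : Finset Fc → Gr (Fld ℤ)) : ℝ := cKin 0 (avgAt r K 0)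

/-- **the local part of a covariant family**: two parameters -/
theorem moveAt_eq (r : ℕ) {K : Finset Fc → Gr (Fld ℤ)} (h : PlSym K) (f : Fc) :
    moveAt r K f = alK r K • mass f + beK r K • kin f := by
  have h0 : moveAt r K 0 = alK r K • mass 0 + beK r K • kin 0 := by
    rw [moveAt_eq_Loc, LocAt_covariant 0 _ (avgAt_rho r h 0) (avgAt_sig r h 0)]
    rfl
  have h1 : moveAt r K f = mp (tauV f) (moveAt r K 0) := by
    rw [moveAt_eq_Loc, moveAt_eq_Loc, ← LocAt_tau, ← avgAt_tau r h, zero_add]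
  rw [h1, h0, map_add, map_smul, map_smul, mp_tau_mass, mp_tau_kin, zero_add]

end Crest.Agent.R165.PlaneSumx901
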