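import Mathlib

/-!
# R165 / PotA (helper894): discrete calculus on `ℤ × ℤ`, Caccioppoli inequality

* `lap`, `D1`, `D2`, boxes `Q c n` (sup-norm ball of radius `n` about `c`);
* `sum_mul_lap` : summation by parts for finitely supported test functions;
* `caccioppoli` : weighted energy inequality for functions with `0 ≤ h * lap h` on the support of
  the cut-off (harmonic; nonnegative subharmonic; nonpositive superharmonic functions);
* `caccioppoli_box` : `∑_{Q c n} |Dh|² ≤ 16 / k² ∑_{Q c (n+k)} h²`.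
-/

namespace Crest.Agent.R165.PotAx894

open Finset

/-- unit vectors -/
def e1 : ℤ × ℤ := (1, 0)
/-- unit vectors -/
def e2 : ℤ × ℤ := (0, 1)

@[simp] lemma e1_fst : e1.1 = 1 := rfl
@[simp] lemma e1_snd : e1.2 = 0 := rfl
@[simp] lemma e2_fst : e2.1 = 0 := rfl
@[simp] lemma e2_snd : e2.2 = 1 := rfl

/-- forward difference in direction `e1` -/
def D1 (u : ℤ × ℤ → ℝ) (z : ℤ × ℤ) : ℝ := u (z + e1) - u z
/-- forward difference in direction `e2` -/
def D2 (u : ℤ × ℤ → ℝ) (z : ℤ × ℤ) : ℝ := u (z + e2) - u z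

/-- the five point Laplacian (unnormalised) -/
def lap (u : ℤ × ℤ → ℝ) (z : ℤ × ℤ) : ℝ :=
  u (z + e1) + u (z - e1) + u (z + e2) + u (z - e2) - 4 * u z

/-- the box of radius `n` about `c` -/
noncomputable def Q (c : ℤ × ℤ) (n : ℕ) : Finset (ℤ × ℤ) :=
  Finset.Icc (c.1 - n) (c.1 + n) ×ˢ Finset.Icc (c.2 - n) (c.2 + n)

lemma mem_Q {c : ℤ × ℤ} {n : ℕ} {z : ℤ × ℤ} :
    z ∈ Q c n ↔ |z.1 - c.1| ≤ n ∧ |z.2 - c.2| ≤ n := by
  simp only [Q, Finset.mem_product, Finset.mem_Icc, abs_le]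
  constructor
  · rintro ⟨⟨h1, h2⟩, h3, h4⟩
    exact ⟨⟨by linarith, by linarith⟩, by linarith, by linarith⟩
  · rintro ⟨⟨h1, h2⟩, h3, h4⟩
    exact ⟨⟨by linarith, by linarith⟩, by linarith, by linarith⟩

lemma Q_mono {c : ℤ × ℤ} {m n : ℕ} (h : m ≤ n) : Q c m ⊆ Q c n := by
  intro z hz
  rw [mem_Q] at hz ⊢
  have : (m : ℤ) ≤ n := by exact_mod_cast h
  exact ⟨hz.1.trans this, hz.2.trans this⟩

lemma self_mem_Q (c : ℤ × ℤ) (n : ℕ) : c ∈ Q c n := by
  rw [mem_Q]; simp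

/-- neighbours of a point of `Q c n` lie in `Q c (n+1)` -/
lemma add_e1_mem {c : ℤ × ℤ} {n : ℕ} {z : ℤ × ℤ} (h : z ∈ Q c n) : z + e1 ∈ Q c (n + 1) := by
  rw [mem_Q, abs_le, abs_le] at h ⊢
  simp only [Prod.fst_add, Prod.snd_add, e1_fst, e1_snd]
  push_cast
  constructor <;> constructor <;> linarith [h.1.1, h.1.2, h.2.1, h.2.2]

lemma add_e2_mem {c : ℤ × ℤ} {n : ℕ} {z : ℤ × ℤ} (h : z ∈ Q c n) : z + e2 ∈ Q c (n + 1) := by
  rw [mem_Q, abs_le, abs_le] at h ⊢
  simp only [Prod.fst_add, Prod.snd_add, e2_fst, e2_snd]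
  push_cast
  constructor <;> constructor <;> linarith [h.1.1, h.1.2, h.2.1, h.2.2]

lemma sub_e1_mem {c : ℤ × ℤ} {n : ℕ} {z : ℤ × ℤ} (h : z ∈ Q c n) : z - e1 ∈ Q c (n + 1) := by
  rw [mem_Q, abs_le, abs_le] at h ⊢
  simp only [Prod.fst_sub, Prod.snd_sub, e1_fst, e1_snd]
  push_cast
  constructor <;> constructor <;> linarith [h.1.1, h.1.2, h.2.1, h.2.2]

lemma sub_e2_mem {c : ℤ × ℤ} {n : ℕ} {z : ℤ × ℤ} (h : z ∈ Q c n) : z - e2 ∈ Q c (n + 1) := by
  rw [mem_Q, abs_le, abs_le] at h ⊢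
  simp only [Prod.fst_sub, Prod.snd_sub, e2_fst, e2_snd]
  push_cast
  constructor <;> constructor <;> linarith [h.1.1, h.1.2, h.2.1, h.2.2]

/-! ### finitely supported sums -/

/-- finite support -/
def FS (f : ℤ × ℤ → ℝ) : Prop := (Function.support f).Finite

lemma FS.of_finset {f : ℤ × ℤ → ℝ} (F : Finset (ℤ × ℤ)) (h : ∀ z, z ∉ F → f z = 0) : FS f := by
  refine F.finite_toSet.subset ?_
  intro z hz
  by_contra hc
  exact hz (h z (by simpa using hc))

lemma FS.summable {f : ℤ × ℤ → ℝ} (h : FS f) : Summable f := summable_of_hasFiniteSupport h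

lemma FS.mul_right {f : ℤ × ℤ → ℝ} (h : FS f) (g : ℤ × ℤ → ℝ) : FS (fun z => f z * g z) := by
  refine h.subset ?_
  intro z hz
  simp only [Function.mem_support] at hz ⊢
  intro h0; exact hz (by rw [h0, zero_mul])

lemma FS.mul_left {f : ℤ × ℤ → ℝ} (h : FS f) (g : ℤ × ℤ → ℝ) : FS (fun z => g z * f z) := by
  refine h.subset ?_
  intro z hz
  simp only [Function.mem_support] at hz ⊢
  intro h0; exact hz (by rw [h0, mul_zero])

lemma FS.add {f g : ℤ × ℤ → ℝ} (hf : FS f) (hg : FS g) : FS (fun z => f z + g z) := by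
  refine (hf.union hg).subset ?_
  intro z hz
  simp only [Function.mem_support, Set.mem_union] at hz ⊢
  by_contra hc
  push Not at hc
  exact hz (by rw [hc.1, hc.2, add_zero])

lemma FS.sub {f g : ℤ × ℤ → ℝ} (hf : FS f) (hg : FS g) : FS (fun z => f z - g z) := by
  refine (hf.union hg).subset ?_
  intro z hz
  simp only [Function.mem_support, Set.mem_union] at hz ⊢
  by_contra hc
  push Not at hc
  exact hz (by rw [hc.1, hc.2, sub_zero])

lemma FS.shift {f : ℤ × ℤ → ℝ} (hf : FS f) (a : ℤ × ℤ) : FS (fun z => f (z + a)) := by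
  have : Function.support (fun z => f (z + a)) = (fun z => z + a) ⁻¹' Function.support f := rfl
  unfold FS
  rw [this]
  exact Set.Finite.preimage (fun x _ y _ h => by simpa using h) hf

lemma FS.sq {f : ℤ × ℤ → ℝ} (hf : FS f) : FS (fun z => f z ^ 2) := by
  refine hf.subset ?_
  intro z hz
  simp only [Function.mem_support] at hz ⊢
  intro h0; exact hz (by rw [h0]; simp)

lemma FS.D1 {f : ℤ × ℤ → ℝ} (hf : FS f) : FS (D1 f) := (hf.shift e1).sub hf
lemma FS.D2 {f : ℤ × ℤ → ℝ} (hf : FS f) : FS (D2 f) := (hf.shift e2).sub hf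

lemma tsum_shift (f : ℤ × ℤ → ℝ) (a : ℤ × ℤ) : ∑' z, f (z + a) = ∑' z, f z :=
  (Equiv.addRight a).tsum_eq f

/-- summation by parts in one direction -/
lemma tsum_mul_second_diff {G : ℤ × ℤ → ℝ} (hG : FS G) (h : ℤ × ℤ → ℝ) (a : ℤ × ℤ) :
    ∑' z, G z * (h (z + a) + h (z - a) - 2 * h z)
      = - ∑' z, (G (z + a) - G z) * (h (z + a) - h z) := by
  have s1 : ∑' z, G z * (h (z + a) + h (z - a) - 2 * h z)
      = ∑' z, G z * (h (z + a) - h z) - ∑' z, G z * (h z - h (z - a)) := by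
    rw [← (hG.mul_right _).summable.tsum_sub (hG.mul_right _).summable]
    congr 1; ext z; ring
  have s2 : ∑' z, G z * (h z - h (z - a)) = ∑' z, G (z + a) * (h (z + a) - h z) := by
    rw [← tsum_shift (fun z => G z * (h z - h (z - a))) a]
    congr 1; ext z; simp
  rw [s1, s2, ← (hG.mul_right _).summable.tsum_sub ((hG.shift a).mul_right _).summable, ← tsum_neg]
  congr 1; ext z; ring

/-- summation by parts: `∑ G · lap h = - ∑ (D1 G D1 h + D2 G D2 h)` -/
lemma tsum_mul_lap {G : ℤ × ℤ → ℝ} (hG : FS G) (h : ℤ × ℤ → ℝ) :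
    ∑' z, G z * lap h z = - ∑' z, (D1 G z * D1 h z + D2 G z * D2 h z) := by
  have h1 := tsum_mul_second_diff hG h e1
  have h2 := tsum_mul_second_diff hG h e2
  have s : ∑' z, G z * lap h z = ∑' z, G z * (h (z + e1) + h (z - e1) - 2 * h z)
      + ∑' z, G z * (h (z + e2) + h (z - e2) - 2 * h z) := by
    rw [← (hG.mul_right _).summable.tsum_add (hG.mul_right _).summable]
    congr 1; ext z; unfold lap; ring
  rw [s, h1, h2, (hG.D1.mul_right _).summable.tsum_add (hG.D2.mul_right _).summable]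
  unfold D1 D2
  ring

/-- the pointwise edge inequality behind Caccioppoli -/
lemma edge_ineq (s t u v : ℝ) :
    (s ^ 2 + t ^ 2) / 4 * (v - u) ^ 2 - (t - s) ^ 2 * (v + u) ^ 2 / 2
      ≤ (t ^ 2 * v - s ^ 2 * u) * (v - u) := by
  nlinarith [sq_nonneg ((s + t) / 2 * (v - u) + (t - s) * (v + u)), sq_nonneg ((t - s) * (v - u)),
    sq_nonneg ((t - s) * (v + u)), sq_nonneg ((t + s) * (v - u))]

/-- **Caccioppoli inequality** (global form with a finitely supported cut-off `χ`). -/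
theorem caccioppoli {χ : ℤ × ℤ → ℝ} (hχ : FS χ) (h : ℤ × ℤ → ℝ)
    (hs : ∀ z, χ z ≠ 0 → 0 ≤ h z * lap h z) :
    ∑' z, ((χ z ^ 2 + χ (z + e1) ^ 2) / 2 * D1 h z ^ 2
        + (χ z ^ 2 + χ (z + e2) ^ 2) / 2 * D2 h z ^ 2)
      ≤ ∑' z, (D1 χ z ^ 2 * (h z + h (z + e1)) ^ 2 + D2 χ z ^ 2 * (h z + h (z + e2)) ^ 2) := by
  set G : ℤ × ℤ → ℝ := fun z => χ z ^ 2 * h z with hGdef
  have hG : FS G := hχ.sq.mul_right h
  have key := tsum_mul_lap hG h
  have hpos : 0 ≤ ∑' z, G z * lap h z := by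
    apply tsum_nonneg
    intro z
    by_cases hz : χ z = 0
    · simp [hGdef, hz]
    · have := hs z hz
      have h2 : G z * lap h z = χ z ^ 2 * (h z * lap h z) := by simp only [hGdef]; ring
      rw [h2]; positivity
  have hle : ∑' z, (D1 G z * D1 h z + D2 G z * D2 h z) ≤ 0 := by linarith
  -- summability of the three families
  have S0 : Summable (fun z => D1 G z * D1 h z + D2 G z * D2 h z) :=
    ((hG.D1.mul_right _).add (hG.D2.mul_right _)).summable
  have S1 : Summable (fun z => (χ z ^ 2 + χ (z + e1) ^ 2) / 2 * D1 h z ^ 2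
        + (χ z ^ 2 + χ (z + e2) ^ 2) / 2 * D2 h z ^ 2) := by
    have a1 : FS (fun z => (χ z ^ 2 + χ (z + e1) ^ 2) / 2) := by
      have := (hχ.sq.add (hχ.sq.shift e1)).mul_right (fun _ => (1 / 2 : ℝ))
      refine Set.Finite.subset this ?_
      intro z hz
      simp only [Function.mem_support] at hz ⊢
      intro h0; apply hz; linarith
    have a2 : FS (fun z => (χ z ^ 2 + χ (z + e2) ^ 2) / 2) := by
      have := (hχ.sq.add (hχ.sq.shift e2)).mul_right (fun _ => (1 / 2 : ℝ))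
      refine Set.Finite.subset this ?_
      intro z hz
      simp only [Function.mem_support] at hz ⊢
      intro h0; apply hz; linarith
    exact ((a1.mul_right _).add (a2.mul_right _)).summable
  have S2 : Summable (fun z => D1 χ z ^ 2 * (h z + h (z + e1)) ^ 2
        + D2 χ z ^ 2 * (h z + h (z + e2)) ^ 2) :=
    ((hχ.D1.sq.mul_right _).add (hχ.D2.sq.mul_right _)).summable
  have hterm : ∀ z, (1 / 2 : ℝ) * ((χ z ^ 2 + χ (z + e1) ^ 2) / 2 * D1 h z ^ 2
        + (χ z ^ 2 + χ (z + e2) ^ 2) / 2 * D2 h z ^ 2)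
      ≤ (D1 G z * D1 h z + D2 G z * D2 h z)
        + (1 / 2 : ℝ) * (D1 χ z ^ 2 * (h z + h (z + e1)) ^ 2
        + D2 χ z ^ 2 * (h z + h (z + e2)) ^ 2) := by
    intro z
    have i1 := edge_ineq (χ z) (χ (z + e1)) (h z) (h (z + e1))
    have i2 := edge_ineq (χ z) (χ (z + e2)) (h z) (h (z + e2))
    simp only [D1, D2, hGdef]
    linarith
  have hsum := (S1.mul_left (1 / 2 : ℝ)).tsum_le_tsum hterm (S0.add (S2.mul_left (1 / 2 : ℝ)))
  rw [S0.tsum_add (S2.mul_left _), tsum_mul_left, tsum_mul_left] at hsum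
  linarith

/-! ### box version -/

/-- sup distance to `c`, real valued -/
noncomputable def nrm (c z : ℤ × ℤ) : ℝ := max |((z.1 - c.1 : ℤ) : ℝ)| |((z.2 - c.2 : ℤ) : ℝ)|

lemma nrm_nonneg (c z : ℤ × ℤ) : 0 ≤ nrm c z := le_max_of_le_left (abs_nonneg _)

lemma mem_Q_iff_nrm {c : ℤ × ℤ} {n : ℕ} {z : ℤ × ℤ} : z ∈ Q c n ↔ nrm c z ≤ n := by
  rw [mem_Q, nrm, max_le_iff]
  constructor
  · rintro ⟨h1, h2⟩
    exact ⟨by exact_mod_cast h1, by exact_mod_cast h2⟩
  · rintro ⟨h1, h2⟩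
    exact ⟨by exact_mod_cast h1, by exact_mod_cast h2⟩

lemma abs_nrm_e1 (c z : ℤ × ℤ) : |nrm c (z + e1) - nrm c z| ≤ 1 := by
  unfold nrm
  refine (abs_max_sub_max_le_max _ _ _ _).trans ?_
  simp only [Prod.fst_add, Prod.snd_add, e1_fst, e1_snd, add_zero, sub_self, abs_zero]
  refine max_le ((abs_abs_sub_abs_le_abs_sub _ _).trans ?_) zero_le_one
  push_cast
  have : ((z.1 : ℝ) + 1 - c.1 - (z.1 - c.1)) = 1 := by ring
  rw [this]; simp

lemma abs_nrm_e2 (c z : ℤ × ℤ) : |nrm c (z + e2) - nrm c z| ≤ 1 := by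
  unfold nrm
  refine (abs_max_sub_max_le_max _ _ _ _).trans ?_
  simp only [Prod.fst_add, Prod.snd_add, e2_fst, e2_snd, add_zero, sub_self, abs_zero]
  refine max_le zero_le_one ((abs_abs_sub_abs_le_abs_sub _ _).trans ?_)
  push_cast
  have : ((z.2 : ℝ) + 1 - c.2 - (z.2 - c.2)) = 1 := by ring
  rw [this]; simp

/-- the standard cut-off: `1` on `Q c n`, `0` off `Q c (n+k)`, slope `≤ 1/k` -/
noncomputable def cut (c : ℤ × ℤ) (n k : ℕ) (z : ℤ × ℤ) : ℝ :=
  max 0 (min 1 (((n : ℝ) + k - nrm c z) / k))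

lemma cut_one {c : ℤ × ℤ} {n k : ℕ} (hk : 0 < k) {z : ℤ × ℤ} (hz : z ∈ Q c n) :
    cut c n k z = 1 := by
  rw [mem_Q_iff_nrm] at hz
  have hk' : (0 : ℝ) < k := by exact_mod_cast hk
  have : (1 : ℝ) ≤ ((n : ℝ) + k - nrm c z) / k := by
    rw [le_div_iff₀ hk']; linarith
  unfold cut
  rw [min_eq_left this]; norm_num

lemma cut_zero {c : ℤ × ℤ} {n k : ℕ} {z : ℤ × ℤ} (hz : (n : ℝ) + k ≤ nrm c z) :
    cut c n k z = 0 := by
  have : ((n : ℝ) + k - nrm c z) / k ≤ 0 := by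
    apply div_nonpos_of_nonpos_of_nonneg
    · linarith
    · positivity
  unfold cut
  exact max_eq_left ((min_le_right _ _).trans this)

lemma cut_lip {c : ℤ × ℤ} {n k : ℕ} {z w : ℤ × ℤ} (h : |nrm c w - nrm c z| ≤ 1) :
    |cut c n k w - cut c n k z| ≤ 1 / k := by
  unfold cut
  refine (abs_max_sub_max_le_max _ _ _ _).trans ?_
  refine max_le (by simp) ?_
  refine (abs_min_sub_min_le_max _ _ _ _).trans ?_
  refine max_le (by simp) ?_
  have : ((n : ℝ) + k - nrm c w) / k - ((n : ℝ) + k - nrm c z) / k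
      = - ((nrm c w - nrm c z) / k) := by ring
  rw [this, abs_neg, abs_div, Nat.abs_cast]
  gcongr

/-- integrality: off `Q c (N)` the distance is at least `N+1`. -/
lemma not_mem_Q_succ {c : ℤ × ℤ} {N : ℕ} {z : ℤ × ℤ} (hz : z ∉ Q c N) :
    ((N : ℝ) + 1) ≤ nrm c z := by
  rw [mem_Q] at hz
  unfold nrm
  by_contra hc
  push Not at hc
  rw [max_lt_iff] at hc
  apply hz
  constructor
  · have := hc.1
    have h2 : |z.1 - c.1| < (N : ℤ) + 1 := by exact_mod_cast this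
    linarith [Int.lt_add_one_iff.mp h2]
  · have := hc.2
    have h2 : |z.2 - c.2| < (N : ℤ) + 1 := by exact_mod_cast this
    linarith [Int.lt_add_one_iff.mp h2]

lemma cut_zero' {c : ℤ × ℤ} {n k N : ℕ} (hN : n + k = N + 1) {z : ℤ × ℤ} (hz : z ∉ Q c N) :
    cut c n k z = 0 := by
  apply cut_zero
  have := not_mem_Q_succ hz
  have h2 : ((n : ℝ) + k) = N + 1 := by exact_mod_cast hN
  linarith

/-- **Caccioppoli on boxes.** -/
theorem caccioppoli_box (c : ℤ × ℤ) (n k : ℕ) (hk : 0 < k) (h : ℤ × ℤ → ℝ)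
    (hs : ∀ z ∈ Q c (n + k - 1), 0 ≤ h z * lap h z) :
    ∑ z ∈ Q c n, (D1 h z ^ 2 + D2 h z ^ 2) ≤ 16 / (k : ℝ) ^ 2 * ∑ z ∈ Q c (n + k), h z ^ 2 := by
  have hk' : (0 : ℝ) < k := by exact_mod_cast hk
  obtain ⟨N, hN⟩ : ∃ N, n + k = N + 1 := ⟨n + k - 1, by omega⟩
  have hN' : n + k - 1 = N := by omega
  rw [hN'] at hs
  set χ := cut c n k with hχdef
  have hχ : FS χ := FS.of_finset (Q c N) (fun z hz => cut_zero' hN hz)
  have main := caccioppoli hχ h (fun z hz => hs z (by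
    by_contra hc; exact hz (cut_zero' hN hc)))
  -- lower bound
  have S1 : Summable (fun z => (χ z ^ 2 + χ (z + e1) ^ 2) / 2 * D1 h z ^ 2
        + (χ z ^ 2 + χ (z + e2) ^ 2) / 2 * D2 h z ^ 2) := by
    refine (FS.of_finset (Q c (N + 1)) ?_).summable
    intro z hz
    have z0 : χ z = 0 := cut_zero' hN (fun hc => hz (Q_mono (Nat.le_succ N) hc))
    have z1 : χ (z + e1) = 0 := cut_zero' hN (fun hc => hz (by
      have := sub_e1_mem hc; simpa using this))
    have z2 : χ (z + e2) = 0 := cut_zero' hN (fun hc => hz (by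
      have := sub_e2_mem hc; simpa using this))
    rw [z0, z1, z2]; ring
  have low : (1 / 2 : ℝ) * ∑ z ∈ Q c n, (D1 h z ^ 2 + D2 h z ^ 2)
      ≤ ∑' z, ((χ z ^ 2 + χ (z + e1) ^ 2) / 2 * D1 h z ^ 2
        + (χ z ^ 2 + χ (z + e2) ^ 2) / 2 * D2 h z ^ 2) := by
    refine le_trans ?_ (S1.sum_le_tsum (Q c n) (fun z _ => by positivity))
    rw [Finset.mul_sum]
    apply Finset.sum_le_sum
    intro z hz
    have : χ z = 1 := cut_one hk hz
    rw [this]
    nlinarith [mul_nonneg (sq_nonneg (χ (z + e1))) (sq_nonneg (D1 h z)),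
      mul_nonneg (sq_nonneg (χ (z + e2))) (sq_nonneg (D2 h z))]
  -- upper bound
  set g : ℤ × ℤ → ℝ := fun z => if z ∈ Q c (n + k) then h z ^ 2 else 0 with hg
  have g0 : ∀ z, 0 ≤ g z := by
    intro z; simp only [hg]; split_ifs <;> positivity
  have gFS : FS g := FS.of_finset (Q c (n + k)) (fun z hz => by simp only [hg]; rw [if_neg hz])
  have gsum : ∑' z, g z = ∑ z ∈ Q c (n + k), h z ^ 2 := by
    rw [tsum_eq_sum (s := Q c (n + k)) (fun z hz => by simp only [hg]; rw [if_neg hz])]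
    apply Finset.sum_congr rfl
    intro z hz; simp only [hg]; rw [if_pos hz]
  have edge : ∀ z w : ℤ × ℤ, |nrm c w - nrm c z| ≤ 1 →
      (z ∈ Q c N → w ∈ Q c (N + 1)) → (w ∈ Q c N → z ∈ Q c (N + 1)) →
      (χ w - χ z) ^ 2 * (h z + h w) ^ 2 ≤ 2 / (k : ℝ) ^ 2 * (g z + g w) := by
    intro z w hzw h1 h2
    by_cases hd : χ w - χ z = 0
    · rw [hd]
      have := g0 z; have := g0 w
      have : 0 ≤ 2 / (k : ℝ) ^ 2 * (g z + g w) := by positivity
      simpa using this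
    · have hz : z ∈ Q c N ∨ w ∈ Q c N := by
        by_contra hc
        push Not at hc
        apply hd
        have c1 : χ z = 0 := cut_zero' hN hc.1
        have c2 : χ w = 0 := cut_zero' hN hc.2
        rw [c1, c2, sub_zero]
      have hzw' : z ∈ Q c (n + k) ∧ w ∈ Q c (n + k) := by
        rw [hN]
        rcases hz with hz | hw
        · exact ⟨Q_mono (Nat.le_succ N) hz, h1 hz⟩
        · exact ⟨h2 hw, Q_mono (Nat.le_succ N) hw⟩
      have gz : g z = h z ^ 2 := by simp only [hg]; rw [if_pos hzw'.1]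
      have gw : g w = h w ^ 2 := by simp only [hg]; rw [if_pos hzw'.2]
      have lip := cut_lip (n := n) (k := k) hzw
      have lip2 : (χ w - χ z) ^ 2 ≤ (1 / (k : ℝ)) ^ 2 := by
        rw [← sq_abs]; gcongr
      have hh : (h z + h w) ^ 2 ≤ 2 * (h z ^ 2 + h w ^ 2) := by
        nlinarith [sq_nonneg (h z - h w)]
      rw [gz, gw]
      calc (χ w - χ z) ^ 2 * (h z + h w) ^ 2
          ≤ (1 / (k : ℝ)) ^ 2 * (2 * (h z ^ 2 + h w ^ 2)) := by gcongr
        _ = 2 / (k : ℝ) ^ 2 * (h z ^ 2 + h w ^ 2) := by ring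
  have gs : Summable g := gFS.summable
  have gs1 : Summable (fun z => g (z + e1)) := (gFS.shift e1).summable
  have gs2 : Summable (fun z => g (z + e2)) := (gFS.shift e2).summable
  have up : ∑' z, (D1 χ z ^ 2 * (h z + h (z + e1)) ^ 2 + D2 χ z ^ 2 * (h z + h (z + e2)) ^ 2)
      ≤ 8 / (k : ℝ) ^ 2 * ∑ z ∈ Q c (n + k), h z ^ 2 := by
    have S2 : Summable (fun z => D1 χ z ^ 2 * (h z + h (z + e1)) ^ 2
        + D2 χ z ^ 2 * (h z + h (z + e2)) ^ 2) :=
      ((hχ.D1.sq.mul_right _).add (hχ.D2.sq.mul_right _)).summable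
    have t1 : ∀ z, D1 χ z ^ 2 * (h z + h (z + e1)) ^ 2 + D2 χ z ^ 2 * (h z + h (z + e2)) ^ 2
        ≤ 2 / (k : ℝ) ^ 2 * (g z + g (z + e1) + (g z + g (z + e2))) := by
      intro z
      have a1 := edge z (z + e1) (abs_nrm_e1 c z) (fun hz => add_e1_mem hz)
        (fun hz => by have := sub_e1_mem hz; simpa using this)
      have a2 := edge z (z + e2) (abs_nrm_e2 c z) (fun hz => add_e2_mem hz)
        (fun hz => by have := sub_e2_mem hz; simpa using this)
      unfold D1 D2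
      linarith
    have := S2.tsum_le_tsum t1 (((gs.add gs1).add (gs.add gs2)).mul_left _)
    rw [tsum_mul_left, (gs.add gs1).tsum_add (gs.add gs2), gs.tsum_add gs1, gs.tsum_add gs2,
      tsum_shift, tsum_shift, gsum] at this
    refine this.trans (le_of_eq ?_)
    ring
  have e : 16 / (k : ℝ) ^ 2 * ∑ z ∈ Q c (n + k), h z ^ 2
      = 2 * (8 / (k : ℝ) ^ 2 * ∑ z ∈ Q c (n + k), h z ^ 2) := by ring
  rw [e]
  linarith

/-- Caccioppoli for harmonic functions -/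
theorem caccioppoli_harm (c : ℤ × ℤ) (n k : ℕ) (hk : 0 < k) (h : ℤ × ℤ → ℝ)
    (hs : ∀ z ∈ Q c (n + k - 1), lap h z = 0) :
    ∑ z ∈ Q c n, (D1 h z ^ 2 + D2 h z ^ 2) ≤ 16 / (k : ℝ) ^ 2 * ∑ z ∈ Q c (n + k), h z ^ 2 :=
  caccioppoli_box c n k hk h (fun z hz => by rw [hs z hz, mul_zero])

end Crest.Agent.R165.PotAx894
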