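import Crest.Agent.R165.PotA_894

/-!
# R165 / PotC (helper894): barrier at a rough boundary, no Taylor expansion, no random walk

`barrier_bound`: let `S ⊆ ℤ²` and let `op z d` mark the open directions at `z`
(open ⇒ neighbour in `S`).  Assume that at every `z ∈ S` within distance `r` of `p` with `0 < h z`
`∑_{d open} (h (z+d) - h z) - c0 * #{d closed} * h z ≥ 0`, `c0 ≥ 4/5`, that `h ≤ M` on
`S ∩ B(p, r+1)` and that `S` satisfies the exterior ball condition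
`(w-p)·n ≥ -|w-p|²/(16 r) - 1`. Then `h w ≤ 4 M (|w-p|² + 8 r |w-p| + 24 r) / r²`.

With `op z d := z + d ∈ S` and `h ≤ 0` off `S` this contains the usual Dirichlet case
(`barrier_dirichlet`).
-/

namespace Crest.Agent.R165.PotCx894

open Finset Crest.Agent.R165.PotAx894

/-- the four directions -/
def dir : Fin 4 → ℤ × ℤ
  | 0 => e1
  | 1 => - e1
  | 2 => e2
  | 3 => - e2

/-- squared distance to the real point `p` -/
noncomputable def dsq (p : ℝ × ℝ) (z : ℤ × ℤ) : ℝ := ((z.1 : ℝ) - p.1) ^ 2 + ((z.2 : ℝ) - p.2) ^ 2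

/-- scalar product of `z - p` with `n` -/
noncomputable def dot (p n : ℝ × ℝ) (z : ℤ × ℤ) : ℝ :=
  ((z.1 : ℝ) - p.1) * n.1 + ((z.2 : ℝ) - p.2) * n.2

/-- `T = |z - c|² - (ρ² - 6 ρ)`, `ρ = 4 r`, `c = p - ρ n` -/
noncomputable def TT (p n : ℝ × ℝ) (r : ℝ) (z : ℤ × ℤ) : ℝ := dsq p z + 8 * r * dot p n z + 24 * r

/-- the barrier -/
noncomputable def bb (p n : ℝ × ℝ) (r : ℝ) (z : ℤ × ℤ) : ℝ :=
  TT p n r z / (16 * r ^ 2) - (TT p n r z / (16 * r ^ 2)) ^ 2 / 2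

/-- the linear form in the increments of `TT` -/
noncomputable def inc (p n : ℝ × ℝ) (r : ℝ) (z : ℤ × ℤ) : Fin 4 → ℝ
  | 0 => 2 * ((z.1 : ℝ) - p.1) + 8 * r * n.1
  | 1 => - (2 * ((z.1 : ℝ) - p.1) + 8 * r * n.1)
  | 2 => 2 * ((z.2 : ℝ) - p.2) + 8 * r * n.2
  | 3 => - (2 * ((z.2 : ℝ) - p.2) + 8 * r * n.2)

lemma TT_dir (p n : ℝ × ℝ) (r : ℝ) (z : ℤ × ℤ) (d : Fin 4) :
    TT p n r (z + dir d) = TT p n r z + 1 + inc p n r z d := by
  fin_cases d <;>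
  · simp only [TT, dsq, dot, dir, inc, Prod.fst_add, Prod.snd_add, Prod.fst_neg, Prod.snd_neg,
      e1_fst, e1_snd, e2_fst, e2_snd]
    push_cast
    ring

lemma inc_sq (p n : ℝ × ℝ) (hn : n.1 ^ 2 + n.2 ^ 2 = 1) (r : ℝ) (z : ℤ × ℤ) :
    inc p n r z 0 ^ 2 + inc p n r z 2 ^ 2 = 4 * (TT p n r z - 24 * r + 16 * r ^ 2) := by
  have h : n.2 ^ 2 = 1 - n.1 ^ 2 := by linarith
  simp only [inc, TT, dsq, dot]
  linear_combination (64 * r ^ 2) * hn

lemma inc_sq_le (p n : ℝ × ℝ) (hn : n.1 ^ 2 + n.2 ^ 2 = 1) (r : ℝ) (z : ℤ × ℤ) (d : Fin 4) :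
    inc p n r z d ^ 2 ≤ 4 * (TT p n r z - 24 * r + 16 * r ^ 2) := by
  have h := inc_sq p n hn r z
  have h1 : inc p n r z 1 = - inc p n r z 0 := rfl
  have h3 : inc p n r z 3 = - inc p n r z 2 := rfl
  fin_cases d
  · simp only [Fin.zero_eta]; nlinarith [sq_nonneg (inc p n r z 2)]
  · simp only [Fin.mk_one]; rw [h1]; nlinarith [sq_nonneg (inc p n r z 2)]
  · simp only [Fin.reduceFinMk]; nlinarith [sq_nonneg (inc p n r z 0)]
  · simp only [Fin.reduceFinMk]; rw [h3]; nlinarith [sq_nonneg (inc p n r z 0)]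

lemma sum_bb {p n : ℝ × ℝ} (hn : n.1 ^ 2 + n.2 ^ 2 = 1) {r : ℝ} (hr : 0 < r) (z : ℤ × ℤ) :
    ∑ d : Fin 4, (bb p n r (z + dir d) - bb p n r z)
      = - (8 * TT p n r z + 2 - 96 * r) / (256 * r ^ 4) := by
  have hr' : r ≠ 0 := ne_of_gt hr
  have h := inc_sq p n hn r z
  have h1 : inc p n r z 1 = - inc p n r z 0 := rfl
  have h3 : inc p n r z 3 = - inc p n r z 2 := rfl
  simp only [Fin.sum_univ_four, bb, TT_dir, h1, h3]
  set T := TT p n r z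
  set a := inc p n r z 0
  set b := inc p n r z 2
  have hb : b ^ 2 = 4 * (T - 24 * r + 16 * r ^ 2) - a ^ 2 := by linarith
  field_simp
  ring_nf
  rw [hb]
  ring

lemma aux_T {T a r : ℝ} (hr : 5 ≤ r) (hT : 16 * r ≤ T) (ha : a ^ 2 ≤ 4 * (T - 24 * r + 16 * r ^ 2)) :
    T / 5 ≤ T + 1 + a := by
  have h1 : a ^ 2 ≤ (4 / 5 * T + 1) ^ 2 := by
    refine ha.trans ?_
    nlinarith [mul_nonneg (show (0 : ℝ) ≤ T - 16 * r by linarith) (show (0 : ℝ) ≤ T by linarith),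
      mul_nonneg (show (0 : ℝ) ≤ T - 16 * r by linarith) (show (0 : ℝ) ≤ r by linarith)]
  have := abs_le_of_sq_le_sq h1 (by linarith)
  have := (abs_le.mp this).1
  linarith

lemma dsq_nonneg (p : ℝ × ℝ) (z : ℤ × ℤ) : 0 ≤ dsq p z := by unfold dsq; positivity

lemma dot_sq_le (p n : ℝ × ℝ) (hn : n.1 ^ 2 + n.2 ^ 2 = 1) (z : ℤ × ℤ) :
    dot p n z ^ 2 ≤ dsq p z := by
  unfold dot dsq
  nlinarith [sq_nonneg (((z.1 : ℝ) - p.1) * n.2 - ((z.2 : ℝ) - p.2) * n.1)]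

lemma dsq_dir {p : ℝ × ℝ} {z : ℤ × ℤ} {r : ℝ} (hr : 0 ≤ r) (h : dsq p z ≤ r ^ 2) (d : Fin 4) :
    dsq p (z + dir d) ≤ (r + 1) ^ 2 := by
  have hx : |(z.1 : ℝ) - p.1| ≤ r := by
    apply abs_le_of_sq_le_sq _ hr
    unfold dsq at h; nlinarith [sq_nonneg ((z.2 : ℝ) - p.2)]
  have hy : |(z.2 : ℝ) - p.2| ≤ r := by
    apply abs_le_of_sq_le_sq _ hr
    unfold dsq at h; nlinarith [sq_nonneg ((z.1 : ℝ) - p.1)]
  rw [abs_le] at hx hy
  unfold dsq at h ⊢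
  fin_cases d <;>
  · simp only [dir, Prod.fst_add, Prod.snd_add, Prod.fst_neg, Prod.snd_neg,
      e1_fst, e1_snd, e2_fst, e2_snd]
    push_cast
    nlinarith [hx.1, hx.2, hy.1, hy.2]

lemma finite_ball (p : ℝ × ℝ) (r : ℝ) : {z : ℤ × ℤ | dsq p z ≤ r ^ 2}.Finite := by
  obtain ⟨N, hN⟩ := exists_nat_ge (|r| + |p.1| + |p.2|)
  refine ((Finset.Icc (-(N : ℤ)) N) ×ˢ (Finset.Icc (-(N : ℤ)) N)).finite_toSet.subset ?_
  intro z hz
  simp only [Set.mem_ofPred_eq, dsq] at hz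
  have hx : |(z.1 : ℝ) - p.1| ≤ |r| := by
    apply abs_le_of_sq_le_sq _ (abs_nonneg _)
    rw [sq_abs]; nlinarith [sq_nonneg ((z.2 : ℝ) - p.2)]
  have hy : |(z.2 : ℝ) - p.2| ≤ |r| := by
    apply abs_le_of_sq_le_sq _ (abs_nonneg _)
    rw [sq_abs]; nlinarith [sq_nonneg ((z.1 : ℝ) - p.1)]
  have h1 : |(z.1 : ℝ)| ≤ N := by
    have : |(z.1 : ℝ)| ≤ |(z.1 : ℝ) - p.1| + |p.1| := by
      have := abs_add_le ((z.1 : ℝ) - p.1) p.1
      simpa using this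
    linarith [abs_nonneg p.2]
  have h2 : |(z.2 : ℝ)| ≤ N := by
    have : |(z.2 : ℝ)| ≤ |(z.2 : ℝ) - p.2| + |p.2| := by
      have := abs_add_le ((z.2 : ℝ) - p.2) p.2
      simpa using this
    linarith [abs_nonneg p.1]
  have h1' : |z.1| ≤ (N : ℤ) := by exact_mod_cast h1
  have h2' : |z.2| ≤ (N : ℤ) := by exact_mod_cast h2
  rw [abs_le] at h1' h2'
  simp only [Finset.coe_product, Finset.coe_Icc, Set.mem_prod, Set.mem_Icc]
  exact ⟨⟨h1'.1, h1'.2⟩, h2'.1, h2'.2⟩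

section geom

variable {p n : ℝ × ℝ} (hn : n.1 ^ 2 + n.2 ^ 2 = 1) {r : ℝ} (hr : 5 ≤ r) {z : ℤ × ℤ}

include hn hr

lemma TT_le (hz : dsq p z ≤ (r + 1) ^ 2) : TT p n r z ≤ 16 * r ^ 2 := by
  have h1 : dot p n z ≤ r + 1 :=
    (le_abs_self _).trans (abs_le_of_sq_le_sq ((dot_sq_le p n hn z).trans hz) (by linarith))
  unfold TT
  nlinarith

omit hn in
lemma TT_ge (hg : - dsq p z / (16 * r) - 1 ≤ dot p n z) : dsq p z / 2 + 16 * r ≤ TT p n r z := by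
  unfold TT
  have h1 : 8 * r * (- dsq p z / (16 * r) - 1) ≤ 8 * r * dot p n z :=
    mul_le_mul_of_nonneg_left hg (by linarith)
  have h2 : 8 * r * (- dsq p z / (16 * r) - 1) = - dsq p z / 2 - 8 * r := by
    have : r ≠ 0 := by linarith
    field_simp
    ring
  linarith

end geom

/-- `bb` comparisons between `t` values in `[0,1]` -/
lemma bb_aux {t t' : ℝ} (ht1 : t ≤ 1) (ht' : t / 5 ≤ t') (ht'1 : t' ≤ 1) :
    (t - t ^ 2 / 2) / 5 ≤ t' - t' ^ 2 / 2 := by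
  nlinarith [mul_nonneg (show (0 : ℝ) ≤ t' - t / 5 by linarith)
    (show (0 : ℝ) ≤ 1 - (t' + t / 5) / 2 by linarith), sq_nonneg t]

/-- core comparison, `M > 0`. -/
lemma barrier_core {S : Set (ℤ × ℤ)} {op : ℤ × ℤ → Fin 4 → Prop} [∀ z d, Decidable (op z d)]
    (hop : ∀ z ∈ S, ∀ d, op z d → z + dir d ∈ S)
    {p n : ℝ × ℝ} (hn : n.1 ^ 2 + n.2 ^ 2 = 1) {r : ℝ} (hr : 5 ≤ r) {c0 : ℝ} (hc0 : 4 / 5 ≤ c0)
    {h : ℤ × ℤ → ℝ} {M : ℝ} (hM0 : 0 < M)
    (hM : ∀ z ∈ S, dsq p z ≤ (r + 1) ^ 2 → h z ≤ M)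
    (hg : ∀ z ∈ S, dsq p z ≤ (r + 1) ^ 2 → - dsq p z / (16 * r) - 1 ≤ dot p n z)
    (hsub : ∀ z ∈ S, dsq p z ≤ r ^ 2 → 0 < h z →
      0 ≤ ∑ d : Fin 4, (if op z d then h (z + dir d) - h z else - (c0 * h z)))
    {w : ℤ × ℤ} (hw : w ∈ S) (hwr : dsq p w ≤ r ^ 2) :
    h w ≤ 64 * M * bb p n r w := by
  by_contra hcon
  push Not at hcon
  have hr0 : 0 < r := by linarith
  have hrr : r ^ 2 ≤ (r + 1) ^ 2 := by nlinarith
  set A := 64 * M with hA
  have hA0 : 0 < A := by positivity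
  have hfin : (S ∩ {z | dsq p z ≤ r ^ 2}).Finite := (finite_ball p r).inter_of_right S
  obtain ⟨z, hz, hmax⟩ := Set.Finite.exists_maximalFor (fun z => h z - A * bb p n r z) _ hfin
    ⟨w, hw, hwr⟩
  have hmax' : ∀ y ∈ S, dsq p y ≤ r ^ 2 →
      h y - A * bb p n r y ≤ h z - A * bb p n r z := by
    intro y hy hyr
    by_contra hc
    push Not at hc
    have := hmax ⟨hy, hyr⟩ hc.le
    exact absurd this (not_le.mpr hc)
  have hzS : z ∈ S := hz.1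
  have hzr : dsq p z ≤ r ^ 2 := hz.2
  have hg0 : 0 < h z - A * bb p n r z := lt_of_lt_of_le (by linarith) (hmax' w hw hwr)
  have hR2 : (0 : ℝ) < 16 * r ^ 2 := by positivity
  -- facts at z
  have Tz_ge := TT_ge hr (hg z hzS (hzr.trans hrr))
  have Tz_ge' : 16 * r ≤ TT p n r z := by linarith [dsq_nonneg p z]
  have Tz_le := TT_le hn hr (hzr.trans hrr)
  have tz0 : 0 ≤ TT p n r z / (16 * r ^ 2) := by
    apply div_nonneg _ hR2.le; linarith
  have tz1 : TT p n r z / (16 * r ^ 2) ≤ 1 := by rw [div_le_one hR2]; exact Tz_le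
  have bz0 : 0 ≤ bb p n r z := by unfold bb; nlinarith
  have hzpos : 0 < h z := by nlinarith [mul_nonneg hA0.le bz0]
  have hs := hsub z hzS hzr hzpos
  have hterm : ∀ d : Fin 4, (if op z d then h (z + dir d) - h z else - (c0 * h z))
      ≤ A * (bb p n r (z + dir d) - bb p n r z) := by
    intro d
    have hdr := dsq_dir hr0.le hzr d
    have T1 : TT p n r (z + dir d) ≤ 16 * r ^ 2 := TT_le hn hr hdr
    have t1 : TT p n r (z + dir d) / (16 * r ^ 2) ≤ 1 := by rw [div_le_one hR2]; exact T1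
    split_ifs with ho
    · have hyS := hop z hzS d ho
      by_cases hyr : dsq p (z + dir d) ≤ r ^ 2
      · have := hmax' _ hyS hyr
        linarith
      · push Not at hyr
        have h1 := hM _ hyS hdr
        have h2 := TT_ge hr (hg _ hyS hdr)
        have h3 : 1 / 32 ≤ TT p n r (z + dir d) / (16 * r ^ 2) := by
          rw [le_div_iff₀ hR2]; nlinarith
        have h4 : 1 / 64 ≤ bb p n r (z + dir d) := by
          unfold bb; nlinarith
        have h5 : M ≤ A * bb p n r (z + dir d) := by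
          rw [hA]; nlinarith
        linarith
    · have h1 : TT p n r z / 5 ≤ TT p n r (z + dir d) := by
        rw [TT_dir]
        exact aux_T hr Tz_ge' (inc_sq_le p n hn r z d)
      have h2 : TT p n r z / (16 * r ^ 2) / 5 ≤ TT p n r (z + dir d) / (16 * r ^ 2) := by
        rw [div_right_comm]; gcongr
      have h3 := bb_aux tz1 h2 t1
      have h4 : bb p n r z / 5 ≤ bb p n r (z + dir d) := h3
      have h5 : A * bb p n r z < h z := by linarith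
      have h6 : c0 * (A * bb p n r z) ≤ c0 * h z := by
        apply mul_le_mul_of_nonneg_left h5.le; linarith
      have h7 : A * (bb p n r z / 5) ≤ A * bb p n r (z + dir d) := by gcongr
      have h8 : 4 / 5 * (A * bb p n r z) ≤ c0 * (A * bb p n r z) := by
        apply mul_le_mul_of_nonneg_right hc0; positivity
      nlinarith
  have hs2 := hs.trans (Finset.sum_le_sum (fun d _ => hterm d))
  rw [← Finset.mul_sum, sum_bb hn hr0] at hs2
  have hneg : - (8 * TT p n r z + 2 - 96 * r) / (256 * r ^ 4) < 0 := by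
    apply div_neg_of_neg_of_pos
    · linarith
    · positivity
  nlinarith [mul_neg_of_pos_of_neg hA0 hneg]

/-- **Barrier bound.** -/
theorem barrier_bound {S : Set (ℤ × ℤ)} {op : ℤ × ℤ → Fin 4 → Prop} [∀ z d, Decidable (op z d)]
    (hop : ∀ z ∈ S, ∀ d, op z d → z + dir d ∈ S)
    {p n : ℝ × ℝ} (hn : n.1 ^ 2 + n.2 ^ 2 = 1) {r : ℝ} (hr : 5 ≤ r) {c0 : ℝ} (hc0 : 4 / 5 ≤ c0)
    {h : ℤ × ℤ → ℝ} {M : ℝ} (hM0 : 0 ≤ M)
    (hM : ∀ z ∈ S, dsq p z ≤ (r + 1) ^ 2 → h z ≤ M)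
    (hg : ∀ z ∈ S, dsq p z ≤ (r + 1) ^ 2 → - dsq p z / (16 * r) - 1 ≤ dot p n z)
    (hsub : ∀ z ∈ S, dsq p z ≤ r ^ 2 → 0 < h z →
      0 ≤ ∑ d : Fin 4, (if op z d then h (z + dir d) - h z else - (c0 * h z)))
    {w : ℤ × ℤ} (hw : w ∈ S) (hwr : dsq p w ≤ r ^ 2) {D : ℝ} (hD : 0 ≤ D)
    (hDw : dsq p w ≤ D ^ 2) :
    h w ≤ 4 * M * (D ^ 2 + 8 * r * D + 24 * r) / r ^ 2 := by
  have hr0 : 0 < r := by linarith
  have hrr : r ^ 2 ≤ (r + 1) ^ 2 := by nlinarith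
  -- bound of the barrier
  have hdot : dot p n w ≤ D :=
    (le_abs_self _).trans (abs_le_of_sq_le_sq ((dot_sq_le p n hn w).trans hDw) hD)
  have hT : TT p n r w ≤ D ^ 2 + 8 * r * D + 24 * r := by
    unfold TT; nlinarith
  have hbb : bb p n r w ≤ (D ^ 2 + 8 * r * D + 24 * r) / (16 * r ^ 2) := by
    have h1 : bb p n r w ≤ TT p n r w / (16 * r ^ 2) := by
      unfold bb; nlinarith [sq_nonneg (TT p n r w / (16 * r ^ 2))]
    exact h1.trans (by gcongr)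
  set B := (D ^ 2 + 8 * r * D + 24 * r) / (16 * r ^ 2) with hB
  have hB0 : 0 ≤ B := by rw [hB]; positivity
  have key : h w ≤ 64 * M * B := by
    apply le_of_forall_pos_le_add
    intro ε hε
    have hε' : 0 < ε / (64 * B + 1) := by positivity
    have := barrier_core hop hn hr hc0 (h := h) (M := M + ε / (64 * B + 1)) (by linarith)
      (fun z hz hz' => (hM z hz hz').trans (by linarith)) hg hsub hw hwr
    have h2 : 64 * (M + ε / (64 * B + 1)) * bb p n r w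
        ≤ 64 * (M + ε / (64 * B + 1)) * B := by
      apply mul_le_mul_of_nonneg_left hbb; positivity
    have h3 : 64 * (ε / (64 * B + 1)) * B ≤ ε := by
      have : 64 * (ε / (64 * B + 1)) * B = ε * (64 * B / (64 * B + 1)) := by ring
      rw [this]
      have : 64 * B / (64 * B + 1) ≤ 1 := by rw [div_le_one (by positivity)]; linarith
      nlinarith
    nlinarith
  refine key.trans (le_of_eq ?_)
  rw [hB]
  have hr' : r ≠ 0 := ne_of_gt hr0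
  field_simp
  ring

/-- The Dirichlet case: `h ≤ 0` off `S`, subharmonic where positive. -/
theorem barrier_dirichlet {S : Set (ℤ × ℤ)}
    {p n : ℝ × ℝ} (hn : n.1 ^ 2 + n.2 ^ 2 = 1) {r : ℝ} (hr : 5 ≤ r)
    {h : ℤ × ℤ → ℝ} {M : ℝ} (hM0 : 0 ≤ M)
    (hM : ∀ z ∈ S, dsq p z ≤ (r + 1) ^ 2 → h z ≤ M)
    (h0 : ∀ z, z ∉ S → dsq p z ≤ (r + 1) ^ 2 → h z ≤ 0)
    (hg : ∀ z ∈ S, dsq p z ≤ (r + 1) ^ 2 → - dsq p z / (16 * r) - 1 ≤ dot p n z)
    (hsub : ∀ z ∈ S, dsq p z ≤ r ^ 2 → 0 < h z → 0 ≤ lap h z)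
    {w : ℤ × ℤ} (hw : w ∈ S) (hwr : dsq p w ≤ r ^ 2) {D : ℝ} (hD : 0 ≤ D)
    (hDw : dsq p w ≤ D ^ 2) :
    h w ≤ 4 * M * (D ^ 2 + 8 * r * D + 24 * r) / r ^ 2 := by
  classical
  refine barrier_bound (S := S) (op := fun z d => z + dir d ∈ S) (fun z _ d hd => hd) hn hr
    (c0 := 1) (by norm_num) hM0 hM hg ?_ hw hwr hD hDw
  intro z hz hzr hpos
  refine (hsub z hz hzr hpos).trans ?_
  have : lap h z = ∑ d : Fin 4, (h (z + dir d) - h z) := by
    simp only [Fin.sum_univ_four, dir, lap, ← sub_eq_add_neg]; ring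
  rw [this]
  apply Finset.sum_le_sum
  intro d _
  split_ifs with ho
  · exact le_rfl
  · have := h0 _ ho (dsq_dir (by linarith) hzr d)
    linarith

end Crest.Agent.R165.PotCx894
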