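import Crest.Agent.R165.MacI_610
import Crest.Agent.R165.MacI_622

/-!
# Row 165 (S0250), U4/MAC (helper304): bridge `ResConv'` (610) ⟹ `ResConv` (622)

For the class `LatSeq D x`; the solutions are automatically finitely supported.
-/

set_option autoImplicit false

noncomputable section

open MeasureTheory Filter Topology Set Metric
open Crest.ProbabilityR.IsingModel
open Crest.Agent.R165.Tr1x40 Crest.Agent.R165.RIfx891 Crest.Agent.R165.Embx622
open Crest.Agent.R165.Mac0x622 Crest.Agent.R165.MacIx622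

namespace Crest.Agent.R165.RCBrx304

/-- the intra-face operator is injective -/
theorem A0_inj {p : Fin 4 → ℝ} (h : ∀ j, A0 p j = 0) : p = 0 := by
  have h0 := h 0
  have h1 := h 1
  have h2 := h 2
  have h3 := h 3
  rw [A0_zero] at h0
  rw [A0_one] at h1
  rw [A0_two] at h2
  rw [A0_three] at h3
  funext j
  fin_cases j
  · show p 0 = 0; linarith
  · show p 1 = 0; linarith
  · show p 2 = 0; linarith
  · show p 3 = 0; linarith

/-- finitely many faces in a ball -/
theorem exists_finset {a : ℝ} (ha : 0 < a) (R : ℝ) :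
    ∃ S : Finset Face, ∀ f : Face, ‖meshPoint a f‖ < R → f ∈ S := by
  obtain ⟨N, hN⟩ := exists_nat_ge (R / a)
  refine ⟨Finset.Icc (-(N : ℤ)) N ×ˢ Finset.Icc (-(N : ℤ)) N, fun f hf => ?_⟩
  have key : ∀ m : ℤ, |a * (m : ℝ)| < R → m ∈ Finset.Icc (-(N : ℤ)) N := by
    intro m hm
    rw [abs_mul, abs_of_pos ha] at hm
    have h1 : |(m : ℝ)| < R / a := by rw [lt_div_iff₀ ha]; linarith
    have h2 : |(m : ℝ)| ≤ N := h1.le.trans hN
    rw [abs_le] at h2
    rw [Finset.mem_Icc]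
    constructor
    · exact_mod_cast h2.1
    · exact_mod_cast h2.2
  rw [Finset.mem_product]
  refine ⟨key _ ?_, key _ ?_⟩
  · exact (Complex.abs_re_le_norm (meshPoint a f)).trans_lt hf
  · exact (Complex.abs_im_le_norm (meshPoint a f)).trans_lt hf

/-- solutions are finitely supported -/
theorem fin_support {a : ℝ} (ha : 0 < a) {w g φ : Fld} {K : Set ℂ} (hK : Bornology.IsBounded K)
    {R : ℝ} (hR : ∀ f, R ≤ ‖meshPoint a f‖ → ∀ h, w f h = 0)
    (hg : ∀ f h, g f h ≠ 0 → meshPoint a f ∈ K)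
    (he : ∀ f h, A w φ f h = a * g f h) : ∃ S : Finset Face, ∀ f, f ∉ S → φ f = 0 := by
  obtain ⟨R1, hR1⟩ := hK.subset_ball (0 : ℂ)
  obtain ⟨S, hS⟩ := exists_finset ha (max R R1)
  refine ⟨S, fun f hf => A0_inj fun j => ?_⟩
  have h1 : max R R1 ≤ ‖meshPoint a f‖ := by
    by_contra hc
    exact hf (hS f (not_le.1 hc))
  have h2 : w f j = 0 := hR f ((le_max_left _ _).trans h1) j
  have h3 : g f j = 0 := by
    by_contra hc
    have h4 := hR1 (hg f j hc)
    rw [mem_ball_zero_iff] at h4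
    exact absurd ((le_max_right _ _).trans h1) (not_le.2 h4)
  have h5 := he f j
  rw [h3, mul_zero] at h5
  unfold A Y at h5
  rw [h2, mul_zero, zero_mul, add_zero] at h5
  exact h5

theorem rX_eq {n : ℕ} (x : Fin n → ℂ) (z : ℂ) : Mac0x622.rX x z = U3x719.rX x z := rfl

/-- the amplitude in the normalisation of `U3Spin_719` -/
def om (F : ℂ → ℂ) : ℂ → ℂ := fun z => Complex.exp (-(Real.pi / 4 * Complex.I)) * F z

/-- **bridge** -/
theorem resConv_of {D : Set ℂ} {n : ℕ} {x : Fin n → ℂ} (H : MacIx610.ResConv' D x) :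
    ResConv (Om D x) x (LatSeq D x)
      (fun K F => MemLp F 2 ∧ U3x719.IsSpin D x K (om F)) := by
  intro K hK hKD G hG hG0
  obtain ⟨F, hQ, ⟨gg, hgg, hFg⟩, hlim⟩ := H K hK hKD G hG
  refine ⟨F, hQ, ⟨gg, hgg.continuousOn, fun z hz => by rw [rX_eq]; exact hFg z hz⟩, ?_⟩
  intro a w V hL g φ hg hconv _ heq z₀ _
  refine ⟨1, one_pos, fun h => ?_⟩
  obtain ⟨N, hN⟩ := eventually_atTop.1 (hg.and heq)
  have hmono : StrictMono fun k : ℕ => k + N := fun i j hij => Nat.add_lt_add_right hij N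
  have hL' := hL.comp hmono
  obtain ⟨R, hR⟩ := hL.bdd
  have hsrc : MacIx610.Srcs K G (a ∘ fun k => k + N) (w ∘ fun k => k + N)
      (fun k => g (k + N)) (fun k => φ (k + N)) := by
    refine ⟨fun k f hf h => ?_, fun h => ?_, fun k => ?_, fun k f h => ?_⟩
    · by_contra hc
      exact hf ((hN (k + N) (Nat.le_add_left _ _)).1 f h hc)
    · exact (hconv h).comp (tendsto_add_atTop_nat N)
    · have h1 := hN (k + N) (Nat.le_add_left _ _)
      exact fin_support (hL.pos (k + N)) hK.isBounded (hR (k + N)) h1.1 h1.2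
    · exact (hN (k + N) (Nat.le_add_left _ _)).2 f h
  have h1 := hlim _ _ _ hL' _ _ hsrc h
  have h2 : Tendsto (fun k => ∫⁻ z, ENNReal.ofReal
      ((emb (a k) (fun f => φ k f h) z - lv (F z) h) ^ 2)) atTop (𝓝 0) := by
    rw [← tendsto_add_atTop_iff_nat N]
    exact h1
  refine tendsto_of_tendsto_of_tendsto_of_le_of_le tendsto_const_nhds h2 (fun _ => zero_le) ?_
  intro k
  exact setLIntegral_le_lintegral _ _

theorem ResConv.mono {O : Set ℂ} {n : ℕ} {x : Fin n → ℂ}
    {CC : (ℕ → ℝ) → (ℕ → Fld) → (ℕ → Fin n → Face) → Prop} {Q Q' : Set ℂ → (ℂ → ℂ) → Prop}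
    (h : ∀ K F, Q K F → Q' K F) (H : ResConv O x CC Q) : ResConv O x CC Q' := by
  intro K hK hKO G hG hG0
  obtain ⟨F, hQ, h2, h3⟩ := H K hK hKO G hG hG0
  exact ⟨F, h K F hQ, h2, h3⟩

/-- the form consumed by 622 -/
theorem resConv_spin {D : Set ℂ} {n : ℕ} {x : Fin n → ℂ} (H : MacIx610.ResConv' D x) :
    ResConv (Om D x) x (LatSeq D x) (fun K F => U3x719.IsSpin D x K (om F)) :=
  ResConv.mono (fun _ _ h => h.2) (resConv_of H)

end Crest.Agent.R165.RCBrx304
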