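import Crest.Agent.R165.ClGr_117
import Crest.Agent.R165.Bridge_386

/-!
# Row 165 (S0250), fifth geometry: concrete backgrounds are cluster backgrounds (helper877)

`X : Fin n → ℤ × ℤ` insertions; `near i` : `X i ∈ bx x (R-1)`, `far i` : `X i ∉ bx x (ρ+1)`.
If every insertion is near or far and the number of near ones is even, then
`wX w X` is `ClOn` on `bx x ρ` with core `bx x R`, with an explicit gauge, for every background `w`
which is plane on `bx x ρ` (`clOn_wX`), in particular for `wDom T b` with `bx x (ρ+1)` inside `T`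
(`clOn_wDom`).

* `gnear m x v`, `gfar M x v` : the gauges of one near / far insertion
* `gnear_mul`, `gfar_mul`     : their coboundaries
* `wl_wX`                     : the lifted weights of `wX`
-/

set_option autoImplicit false
set_option linter.unusedVariables false

noncomputable section

namespace Crest.Agent.R165.RClux877

open Finset Crest.Agent.R165.Tr1x40 Crest.Agent.R165.RIfx891
open Crest.Agent.R165.Latx683 (BW wX ray wDom)
open Crest.Agent.R165.Bridgex386 (wl pf sym_wl)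
open Crest.Agent.R165.ClGrx117 (ClOn)
open Crest.ProbabilityR.IsingModel (unitVec)

/-! ### the two gauges -/

/-- gauge of a near insertion: `-1` on the quadrant north-east of `v`, cut at the height of the
top row of the core -/
def gnear (m : ℤ) (x v f : Face) : ℝ :=
  if f.2 < x.2 + m ∧ v.1 ≤ f.1 ∧ v.2 ≤ f.2 then -1 else 1

/-- gauge of a far insertion: `-1` above the line of the ray if the ray crosses the box -/
def gfar (M : ℤ) (x v f : Face) : ℝ :=
  if v.1 < x.1 - M ∧ v.2 ≤ f.2 then -1 else 1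

/-- the common defect of the near gauges, on the top row of the core -/
def dtop (m : ℤ) (x f : Face) (h : Fin 4) : ℝ :=
  if ((h = 2 ∧ f.2 + 1 = x.2 + m) ∨ (h = 0 ∧ f.2 = x.2 + m)) ∧ x.1 + m ≤ f.1 then -1 else 1

theorem gnear_sq (m : ℤ) (x v f : Face) : gnear m x v f ^ 2 = 1 := by
  unfold gnear; split_ifs <;> norm_num

theorem gfar_sq (M : ℤ) (x v f : Face) : gfar M x v f ^ 2 = 1 := by
  unfold gfar; split_ifs <;> norm_num

theorem dtop_sq (m : ℤ) (x f : Face) (h : Fin 4) : dtop m x f h ^ 2 = 1 := by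
  unfold dtop; split_ifs <;> norm_num

/-- sign rule for two decidable propositions -/
theorem ite_mul_ite {p q r s : Prop} [Decidable p] [Decidable q] [Decidable r] [Decidable s]
    (h : (p ↔ q) ↔ (r ↔ s)) :
    (if p then (-1 : ℝ) else 1) * (if q then -1 else 1)
      = (if r then -1 else 1) * (if s then -1 else 1) := by
  by_cases hp : p <;> by_cases hq : q <;> by_cases hr : r <;> by_cases hs : s <;>
    simp [hp, hq, hr, hs] at h ⊢

theorem gnear_mul {m : ℤ} {x v f : Face} (hv1 : |v.1 - x.1| ≤ m - 1) (hv2 : |v.2 - x.2| ≤ m - 1)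
    (hf : ¬(|f.1 - x.1| ≤ m ∧ |f.2 - x.2| ≤ m)) (h : Fin 4) :
    gnear m x v f * gnear m x v (nb f h) = rayw v f h * dtop m x f h := by
  rw [abs_le] at hv1 hv2
  rw [abs_le, abs_le] at hf
  unfold gnear rayw dtop
  refine ite_mul_ite ?_
  fin_cases h <;> simp only [nb, Fin.zero_eta, Fin.mk_one, Fin.reduceFinMk, Fin.isValue,
    true_and, false_and, or_false, false_or, one_ne_zero, Fin.reduceEq, or_self, iff_true] <;>
    omega

theorem gfar_mul {M : ℤ} {x v f : Face} (hv : ¬(|v.1 - x.1| ≤ M + 1 ∧ |v.2 - x.2| ≤ M + 1))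
    (hf1 : |f.1 - x.1| ≤ M) (hf2 : |f.2 - x.2| ≤ M) (h : Fin 4) :
    gfar M x v f * gfar M x v (nb f h) = rayw v f h := by
  rw [abs_le, abs_le] at hv
  rw [abs_le] at hf1 hf2
  have e : rayw v f h = rayw v f h * (if False then -1 else 1) := by simp
  rw [e]
  unfold gfar rayw
  refine ite_mul_ite ?_
  fin_cases h <;> simp only [nb, Fin.zero_eta, Fin.mk_one, Fin.reduceFinMk, Fin.isValue,
    true_and, false_and, or_false, false_or, one_ne_zero, Fin.reduceEq, or_self, iff_false] <;>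
    omega

/-! ### the lifted weights -/

theorem pf_int (P : Face) : (pf P : ℤ × ℤ) = P := by
  unfold pf; simp

theorem wl_wX {n : ℕ} (w : BW ℤ) (X : Fin n → ℤ × ℤ) (f : Face) (h : Fin 4) :
    wl (wX w X) f h = (∏ i, rayw (X i) f h) * wl w f h := by
  have e0 : ∀ z : ℤ × ℤ, wX w X z 0 =
      (∏ i, if (X i).2 = z.2 ∧ (X i).1 ≤ z.1 then (-1 : ℝ) else 1) * w z 0 := fun z => by
    simp [wX, ray]
  have e1 : ∀ z : ℤ × ℤ, wX w X z 1 = w z 1 := fun z => by simp [wX, ray]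
  have r1 : ∀ k : Fin 4, k = 1 ∨ k = 3 → ∀ v, rayw v f k = 1 := by
    rintro k (rfl | rfl) v <;> simp [rayw]
  fin_cases h
  · change wX w X (((f.1 : ℤ) : ℤ), (((f.2 - 1 : ℤ) : ℤ) : ℤ) + 1) 0 = _ * w _ 0
    rw [e0]
    congr 1
    refine prod_congr rfl fun i _ => ?_
    unfold rayw
    refine if_congr ?_ rfl rfl
    simp only [Fin.zero_eta, true_and, Fin.isValue, Fin.reduceEq, false_and, or_false,
      sub_add_cancel]
    omega
  · change wX w X (((f.1 : ℤ) : ℤ) + 1, (f.2 : ℤ)) 1 = (∏ i, rayw (X i) f 1) * w _ 1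
    rw [e1, prod_congr rfl fun i _ => r1 _ (Or.inl rfl) (X i), prod_const_one, one_mul]
    rfl
  · change wX w X (((f.1 : ℤ) : ℤ), ((f.2 : ℤ) : ℤ) + 1) 0 = _ * w _ 0
    rw [e0]
    congr 1
    refine prod_congr rfl fun i _ => ?_
    unfold rayw
    refine if_congr ?_ rfl rfl
    simp only [Fin.reduceFinMk, true_and, Fin.isValue, Fin.reduceEq, false_and, false_or]
    omega
  · change wX w X ((((f.1 - 1 : ℤ) : ℤ) : ℤ) + 1, (f.2 : ℤ)) 1 = (∏ i, rayw (X i) f 3) * w _ 1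
    rw [e1, prod_congr rfl fun i _ => r1 _ (Or.inr rfl) (X i), prod_const_one, one_mul]
    rfl

/-! ### the cluster background -/

/-- the gauge of a family of insertions -/
def gcl {n : ℕ} (X : Fin n → ℤ × ℤ) (x : Face) (R ρ : ℝ) (f : Face) : ℝ := by
  classical exact ∏ i, if X i ∈ bx x (R - 1) then gnear ⌊R⌋ x (X i) f else gfar ⌊ρ⌋ x (X i) f

theorem gcl_sq {n : ℕ} (X : Fin n → ℤ × ℤ) (x : Face) (R ρ : ℝ) : Gauge (gcl X x R ρ) := by
  intro f
  unfold gcl
  rw [← prod_pow]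
  refine prod_eq_one fun i _ => ?_
  split_ifs
  · exact gnear_sq _ _ _ _
  · exact gfar_sq _ _ _ _

theorem gcl_mul {n : ℕ} {X : Fin n → ℤ × ℤ} {x : Face} {R ρ : ℝ}
    (hX : ∀ i, X i ∈ bx x (R - 1) ∨ X i ∉ bx x (ρ + 1))
    (hev : Even (univ.filter fun i => X i ∈ bx x (R - 1)).card) {f : Face}
    (hf : f ∈ bx x ρ) (hf' : f ∉ bx x R) (h : Fin 4) :
    gcl X x R ρ f * gcl X x R ρ (nb f h) = ∏ i, rayw (X i) f h := by
  classical
  have hR1 : ⌊R - 1⌋ = ⌊R⌋ - 1 := Int.floor_sub_one R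
  have hρ1 : ⌊ρ + 1⌋ = ⌊ρ⌋ + 1 := Int.floor_add_one ρ
  rw [mem_bx] at hf hf'
  have key : ∀ i, (if X i ∈ bx x (R - 1) then gnear ⌊R⌋ x (X i) f else gfar ⌊ρ⌋ x (X i) f) *
      (if X i ∈ bx x (R - 1) then gnear ⌊R⌋ x (X i) (nb f h) else gfar ⌊ρ⌋ x (X i) (nb f h)) =
      rayw (X i) f h * (if X i ∈ bx x (R - 1) then dtop ⌊R⌋ x f h else 1) := by
    intro i
    by_cases hi : X i ∈ bx x (R - 1)
    · rw [if_pos hi, if_pos hi, if_pos hi]
      rw [mem_bx, hR1] at hi
      exact gnear_mul hi.1 hi.2 hf' h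
    · rw [if_neg hi, if_neg hi, if_neg hi, mul_one]
      have h1 := (hX i).resolve_left hi
      rw [mem_bx, hρ1] at h1
      exact gfar_mul h1 hf.1 hf.2 h
  have hd : ∏ i, (if X i ∈ bx x (R - 1) then dtop ⌊R⌋ x f h else (1 : ℝ)) = 1 := by
    rw [prod_ite, prod_const_one, mul_one, prod_const]
    obtain ⟨k, hk⟩ := hev
    have e : (univ.filter fun i => X i ∈ bx x (R - 1)).card = 2 * k := by rw [hk]; ring
    have e' : (univ.filter fun i : Fin n => X i ∈ bx x (R - 1)).card = 2 * k := e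
    rw [e', pow_mul, dtop_sq, one_pow]
  unfold gcl
  rw [← prod_mul_distrib, prod_congr rfl fun i _ => key i, prod_mul_distrib, hd, mul_one]

/-- **insertions near or far, an even number of near ones: cluster background** -/
theorem clOn_wX {n : ℕ} {w : BW ℤ} {X : Fin n → ℤ × ℤ} {s0 : Face → ℝ} {x : Face} {R ρ : ℝ}
    (hP : PlaneOn (wl w) s0 x ρ) (hX : ∀ i, X i ∈ bx x (R - 1) ∨ X i ∉ bx x (ρ + 1))
    (hev : Even (univ.filter fun i => X i ∈ bx x (R - 1)).card) :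
    ClOn (wl (wX w X)) (fun f => gcl X x R ρ f * s0 f) x R ρ where
  sym := sym_wl _
  gauge f := by rw [mul_pow, gcl_sq X x R ρ f, hP.gauge f, one_mul]
  sq f hf h := by
    rw [wl_wX, mul_pow, ← prod_pow, prod_eq_one fun i _ => rayw_sq _ _ _, one_mul, hP.eq f hf h,
      mul_pow, mul_pow, hP.gauge, hP.gauge, one_mul, one_mul]
  eq f hf hf' h := by
    rw [wl_wX, ← gcl_mul hX hev hf hf' h, hP.eq f hf h]
    ring

/-- no insertion near: plane background -/
theorem planeOn_wX {n : ℕ} {w : BW ℤ} {X : Fin n → ℤ × ℤ} {s0 : Face → ℝ} {x : Face} {ρ : ℝ}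
    (hP : PlaneOn (wl w) s0 x ρ) (hX : ∀ i, X i ∉ bx x (ρ + 1)) :
    PlaneOn (wl (wX w X)) (fun f => (∏ i, gfar ⌊ρ⌋ x (X i) f) * s0 f) x ρ where
  sym := sym_wl _
  gauge f := by
    rw [mul_pow, ← prod_pow, prod_eq_one fun i _ => gfar_sq _ _ _ _, hP.gauge f, one_mul]
  eq f hf h := by
    rw [mem_bx] at hf
    have e : ∏ i, rayw (X i) f h =
        (∏ i, gfar ⌊ρ⌋ x (X i) f) * ∏ i, gfar ⌊ρ⌋ x (X i) (nb f h) := by
      rw [← prod_mul_distrib]
      refine prod_congr rfl fun i _ => ?_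
      have h1 := hX i
      rw [mem_bx, Int.floor_add_one] at h1
      exact (gfar_mul h1 hf.1 hf.2 h).symm
    rw [wl_wX, e, hP.eq f (mem_bx.2 hf) h]
    ring

/-! ### domains -/

theorem wDom_in {T : Set (ℤ × ℤ)} (b : Bool) {z : ℤ × ℤ} {j : Fin 2} (h1 : z ∈ T)
    (h2 : z + unitVec j ∈ T) : wDom T b z j = xc := by
  unfold wDom
  cases b
  · simp only [Bool.false_eq_true, if_false]
    rw [if_pos (Or.inl h1)]; rfl
  · simp only [if_true]
    rw [if_pos ⟨h1, h2⟩]; rfl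

theorem nb_vertex {T : Set (ℤ × ℤ)} {x f : Face} {ρ : ℝ} (hT : ∀ v ∈ bx x (ρ + 1), v ∈ T)
    (hf : f ∈ bx x ρ) {a b : ℤ} (ha : a = 0 ∨ a = 1) (hb : b = 0 ∨ b = 1) :
    (f.1 + a, f.2 + b) ∈ T := by
  refine hT _ ?_
  rw [mem_bx, Int.floor_add_one]
  rw [mem_bx, abs_le, abs_le] at hf
  rw [abs_le, abs_le]
  rcases ha with rfl | rfl <;> rcases hb with rfl | rfl <;> simp only <;> omega

/-- a box whose vertices are in `T` is a plane box -/
theorem planeOn_wDom {T : Set (ℤ × ℤ)} (b : Bool) {x : Face} {ρ : ℝ}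
    (hT : ∀ v ∈ bx x (ρ + 1), v ∈ T) : PlaneOn (wl (wDom T b)) (fun _ => 1) x ρ where
  sym := sym_wl _
  gauge f := by norm_num
  eq f hf h := by
    have u0 : ∀ a b : ℤ, ((a, b) : ℤ × ℤ) + unitVec 0 = (a + 1, b) := fun a b => by
      simp [unitVec]
    have u1 : ∀ a b : ℤ, ((a, b) : ℤ × ℤ) + unitVec 1 = (a, b + 1) := fun a b => by
      simp [unitVec]
    have p00 := nb_vertex hT hf (Or.inl rfl) (Or.inl rfl)
    have p10 := nb_vertex hT hf (Or.inr rfl) (Or.inl rfl)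
    have p01 := nb_vertex hT hf (Or.inl rfl) (Or.inr rfl)
    have p11 := nb_vertex hT hf (Or.inr rfl) (Or.inr rfl)
    rw [add_zero, add_zero] at p00
    rw [add_zero] at p10 p01
    rw [one_mul, one_mul]
    fin_cases h
    · change wDom T b (((f.1 : ℤ) : ℤ), (((f.2 - 1 : ℤ) : ℤ) : ℤ) + 1) 0 = xc
      refine wDom_in b ?_ ?_
      · simpa using p00
      · rw [u0]; simpa using p10
    · change wDom T b (((f.1 : ℤ) : ℤ) + 1, (f.2 : ℤ)) 1 = xc
      refine wDom_in b ?_ ?_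
      · simpa using p10
      · rw [u1]; simpa using p11
    · change wDom T b (((f.1 : ℤ) : ℤ), ((f.2 : ℤ) : ℤ) + 1) 0 = xc
      refine wDom_in b ?_ ?_
      · simpa using p01
      · rw [u0]; simpa using p11
    · change wDom T b ((((f.1 - 1 : ℤ) : ℤ) : ℤ) + 1, (f.2 : ℤ)) 1 = xc
      refine wDom_in b ?_ ?_
      · simpa using p00
      · rw [u1]; simpa using p01

/-- **the plus or free background of a domain with insertions**: cluster class -/
theorem clOn_wDom {n : ℕ} {T : Set (ℤ × ℤ)} (b : Bool) {X : Fin n → ℤ × ℤ} {x : Face} {R ρ : ℝ}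
    (hT : ∀ v ∈ bx x (ρ + 1), v ∈ T) (hX : ∀ i, X i ∈ bx x (R - 1) ∨ X i ∉ bx x (ρ + 1))
    (hev : Even (univ.filter fun i => X i ∈ bx x (R - 1)).card) :
    ∃ s, ClOn (wl (wX (wDom T b) X)) s x R ρ :=
  ⟨_, clOn_wX (planeOn_wDom b hT) hX hev⟩

/-- all insertions near, `n` even -/
theorem clOn_wDom_all {n : ℕ} {T : Set (ℤ × ℤ)} (b : Bool) {X : Fin n → ℤ × ℤ} {x : Face}
    {R ρ : ℝ} (hT : ∀ v ∈ bx x (ρ + 1), v ∈ T) (hX : ∀ i, X i ∈ bx x (R - 1)) (hn : Even n) :
    ∃ s, ClOn (wl (wX (wDom T b) X)) s x R ρ := by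
  refine clOn_wDom b hT (fun i => Or.inl (hX i)) ?_
  rw [filter_true_of_mem fun i _ => hX i, card_univ, Fintype.card_fin]
  exact hn

/-- the whole plane with insertions -/
theorem clOn_wPl {n : ℕ} {X : Fin n → ℤ × ℤ} {x : Face} {R ρ : ℝ}
    (hX : ∀ i, X i ∈ bx x (R - 1) ∨ X i ∉ bx x (ρ + 1))
    (hev : Even (univ.filter fun i => X i ∈ bx x (R - 1)).card) :
    ∃ s, ClOn (wl (wX (Latx683.wPl ℤ) X)) s x R ρ := by
  refine ⟨_, clOn_wX (s0 := fun _ => 1) ⟨sym_wl _, fun _ => by norm_num, fun f hf h => ?_⟩ hX hev⟩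
  fin_cases h <;> simp [wl, ofEN, Latx683.yE, Latx683.yN, Latx683.wPl] <;> rfl

end Crest.Agent.R165.RClux877
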