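import Mathlib

/-!
# Row 165, block G/F: scalar recursions of the composite flow (helper915)

* `rec_decay` : `c_{k+1} ≤ κ c_k + C b_k + C (b_k + c_k)²`, `b_k ≤ ε q^k`, `c_0 ≤ M ε` imply
  `c_k ≤ M ε q^k` (under one numerical condition on `M`, `ε`)
* `rec_crude` : finitely many crude steps `c_{k+1} ≤ C (b_k + c_k)` for small `b_k + c_k`
* `exists_rec` : choice of `M`, `ε₀` for `κ ≤ 1/4`, `q ≥ 1/2`
-/

set_option autoImplicit false

open scoped ENNReal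

namespace Crest.Agent.R165.Recx915

/-- geometric decay of the defect norm -/
theorem rec_decay {b c : ℕ → ℝ≥0∞} {κ C ε q M : ℝ≥0∞} {K : ℕ} (hq1 : q ≤ 1)
    (hb : ∀ k, k < K → b k ≤ ε * q ^ k) (hc0 : c 0 ≤ M * ε)
    (hnum : κ * M + C + C * (1 + M) ^ 2 * ε ≤ M * q)
    (hrec : ∀ k, k < K → c (k + 1) ≤ κ * c k + C * b k + C * (b k + c k) ^ 2) :
    ∀ k, k ≤ K → c k ≤ M * ε * q ^ k := by
  intro k
  induction k with
  | zero => intro _; simpa using hc0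
  | succ k ih =>
    intro hk
    have hck := ih (by omega)
    have hbk := hb k (by omega)
    have hqk : q ^ k ≤ 1 := pow_le_one' hq1 k
    have h1 : (b k + c k) ^ 2 ≤ (1 + M) ^ 2 * ε * (ε * q ^ k) := by
      calc (b k + c k) ^ 2 ≤ (ε * q ^ k + M * ε * q ^ k) ^ 2 :=
            pow_le_pow_left' (add_le_add hbk hck) 2
        _ = (1 + M) ^ 2 * ε * (ε * q ^ k) * q ^ k := by ring
        _ ≤ (1 + M) ^ 2 * ε * (ε * q ^ k) * 1 := mul_le_mul_right hqk _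
        _ = _ := mul_one _
    calc c (k + 1) ≤ κ * c k + C * b k + C * (b k + c k) ^ 2 := hrec k (by omega)
      _ ≤ κ * (M * ε * q ^ k) + C * (ε * q ^ k) + C * ((1 + M) ^ 2 * ε * (ε * q ^ k)) := by
          gcongr
      _ = (κ * M + C + C * (1 + M) ^ 2 * ε) * (ε * q ^ k) := by ring
      _ ≤ (M * q) * (ε * q ^ k) := mul_le_mul_left hnum _
      _ = M * ε * q ^ (k + 1) := by rw [pow_succ]; ring

/-- the numerical condition can be satisfied: `κ ≤ 1/4`, `q ≥ 1/2`, `M = 8 C + 8 m + 8` works for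
all `ε ≤ 1 / (8 (1+M)²)`... in the form needed by `rec_decay` -/
theorem rec_num {κ C ε q M : ℝ≥0∞} (hκ : κ ≤ 1 / 4) (hq : 1 / 2 ≤ q)
    (hM : 8 * C ≤ M) (hε : (1 + M) ^ 2 * ε ≤ 1) : κ * M + C + C * (1 + M) ^ 2 * ε ≤ M * q := by
  have h1 : C * (1 + M) ^ 2 * ε ≤ C := by
    calc C * (1 + M) ^ 2 * ε = C * ((1 + M) ^ 2 * ε) := by ring
      _ ≤ C * 1 := mul_le_mul_right hε _
      _ = C := mul_one _
  have h2 : C + C ≤ 1 / 4 * M := by
    have e8 : (8 : ℝ≥0∞) = 4 * 2 := by norm_num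
    calc C + C = 1 / 4 * (8 * C) := by
          rw [e8, ← two_mul, ← mul_assoc, ← mul_assoc,
            ENNReal.div_mul_cancel (by norm_num) (by norm_num), one_mul]
      _ ≤ 1 / 4 * M := mul_le_mul_right hM _
  have h3 : (1 / 4 : ℝ≥0∞) + 1 / 4 = 1 / 2 := by
    rw [← two_mul]
    rw [show (2 : ℝ≥0∞) * (1 / 4) = 1 / 2 by
      rw [show (4 : ℝ≥0∞) = 2 * 2 by norm_num, one_div, one_div,
        ENNReal.mul_inv (by norm_num) (by norm_num), ← mul_assoc,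
        ENNReal.mul_inv_cancel (by norm_num) (by norm_num), one_mul]]
  calc κ * M + C + C * (1 + M) ^ 2 * ε ≤ 1 / 4 * M + C + C := by gcongr
    _ = 1 / 4 * M + (C + C) := by rw [add_assoc]
    _ ≤ 1 / 4 * M + 1 / 4 * M := add_le_add le_rfl h2
    _ = 1 / 2 * M := by rw [← add_mul, h3]
    _ ≤ q * M := mul_le_mul_left hq _
    _ = M * q := mul_comm _ _

/-- choice of constants: for every finite `C`, `m` there are `M`, `ε₀ > 0` such that the recursion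
closes for all `ε ≤ ε₀`, starting from `c 0 ≤ m ε` -/
theorem exists_rec (C m : ℝ≥0∞) (hC : C ≠ ∞) (hm : m ≠ ∞) :
    ∃ M ε₀ : ℝ≥0∞, M ≠ ∞ ∧ ε₀ ≠ 0 ∧ ∀ (κ q ε : ℝ≥0∞), κ ≤ 1 / 4 → 1 / 2 ≤ q → q ≤ 1 → ε ≤ ε₀ →
      ∀ (b c : ℕ → ℝ≥0∞) (K : ℕ), (∀ k, k < K → b k ≤ ε * q ^ k) → c 0 ≤ m * ε →
        (∀ k, k < K → c (k + 1) ≤ κ * c k + C * b k + C * (b k + c k) ^ 2) →
        ∀ k, k ≤ K → c k ≤ M * ε * q ^ k := by
  refine ⟨8 * C + m, ((1 + (8 * C + m)) ^ 2)⁻¹, ?_, ?_, ?_⟩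
  · exact ENNReal.add_ne_top.2 ⟨ENNReal.mul_ne_top (by norm_num) hC, hm⟩
  · exact ENNReal.inv_ne_zero.2 (ENNReal.pow_ne_top (ENNReal.add_ne_top.2 ⟨ENNReal.one_ne_top,
      ENNReal.add_ne_top.2 ⟨ENNReal.mul_ne_top (by norm_num) hC, hm⟩⟩))
  · intro κ q ε hκ hq hq1 hε b c K hb hc0 hrec
    refine rec_decay hq1 hb (hc0.trans ?_) (rec_num hκ hq le_self_add ?_) hrec
    · exact mul_le_mul_left le_add_self _
    · calc (1 + (8 * C + m)) ^ 2 * ε ≤ (1 + (8 * C + m)) ^ 2 * ((1 + (8 * C + m)) ^ 2)⁻¹ :=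
            mul_le_mul_right hε _
        _ ≤ 1 := ENNReal.mul_inv_le_one _

/-- crude steps at the top scales: as long as `b + c ≤ 1`, one step costs a constant factor -/
theorem rec_crude {b c : ℕ → ℝ≥0∞} {C β : ℝ≥0∞} {J : ℕ} (hC : 1 ≤ C)
    (hb : ∀ j, j < J → b j ≤ β)
    (hrec : ∀ j, j < J → c (j + 1) ≤ C * (b j + c j) + C * (b j + c j) ^ 2)
    {γ : ℝ≥0∞} (hc0 : c 0 ≤ γ) (hsmall : (4 * C) ^ J * (β + γ) ≤ 1) :
    ∀ j, j ≤ J → c j ≤ (4 * C) ^ j * (β + γ) := by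
  have h4C : 1 ≤ 4 * C := by
    calc (1 : ℝ≥0∞) ≤ C := hC
      _ = 1 * C := (one_mul _).symm
      _ ≤ 4 * C := mul_le_mul_left (by norm_num) _
  intro j
  induction j with
  | zero =>
    intro _
    rw [pow_zero, one_mul]
    exact hc0.trans le_add_self
  | succ j ih =>
    intro hj
    have hcj := ih (by omega)
    have hbj := hb j (by omega)
    set x : ℝ≥0∞ := (4 * C) ^ j * (β + γ) with hx
    have hβx : β ≤ x := by
      calc β ≤ 1 * (β + γ) := by rw [one_mul]; exact le_self_add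
        _ ≤ x := mul_le_mul_left (one_le_pow₀ h4C) _
    have hbc : b j + c j ≤ 2 * x := by
      rw [two_mul]
      exact add_le_add (hbj.trans hβx) hcj
    have hx1 : 4 * C * x ≤ 1 := by
      calc 4 * C * x = (4 * C) ^ (j + 1) * (β + γ) := by rw [hx, pow_succ]; ring
        _ ≤ (4 * C) ^ J * (β + γ) := mul_le_mul_left (pow_le_pow_right₀ h4C hj) _
        _ ≤ 1 := hsmall
    have h2x : 2 * x ≤ 1 := by
      calc 2 * x = 2 * 1 * x := by ring
        _ ≤ 4 * C * x := mul_le_mul_left (mul_le_mul' (by norm_num) hC) _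
        _ ≤ 1 := hx1
    calc c (j + 1) ≤ C * (b j + c j) + C * (b j + c j) ^ 2 := hrec j (by omega)
      _ ≤ C * (2 * x) + C * (2 * x) ^ 2 := by gcongr
      _ = C * (2 * x) + C * (2 * x * (2 * x)) := by ring
      _ ≤ C * (2 * x) + C * (1 * (2 * x)) := by gcongr
      _ = (4 * C) * x := by ring
      _ = (4 * C) ^ (j + 1) * (β + γ) := by rw [hx, pow_succ]; ring

end Crest.Agent.R165.Recx915
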