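import Crest.Agent.R165.FreeReg_485

/-!
# Row 165 (S0250), block R: regularity classes at all ratios (helper485)

`U3 w x R f`: `|f|, R |Af|, R² |A²f| ≤ 1` in `l²` of the box `bx x R`.
* `Reg1T`, `Reg2T`: growth / one-mode statement from radius `R` to radius `r`
* `rd_plus`, `rd_free`: `Reg1T .. (C r/R)`, `Reg2T .. (C (r/R)^{3/2})` at flat plus / free boundaries
* `rx_branch`: `Reg1T .. (C (r/R)^{1/2})`, `Reg2T .. (C r/R)` at a branch vertex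
* exterior backgrounds: `ext_plus` (weights `0`), `ext_free` (weights `s s'`)
-/

set_option autoImplicit false

noncomputable section

namespace Crest.Agent.R165.RegIx485

open Finset Crest.Agent.R165.Tr1x40 Crest.Agent.R165.Campx891 Crest.Agent.R165.RIfx891
open Crest.Agent.R165.Dualx485 (dw df fd dg gf gw IsFree fd_df A_df_global sym_dw dy dy_one ew)
open Crest.Agent.R165.FreeLocx485 (FreeOn Tch model sym_model isFree_model A_model)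
open Crest.Agent.R165.FreeRegx485

/-- normalised hypothesis of the regularity theorems -/
def U3 (w : Fld) (x : Face) (R : ℝ) (f : Fld) : Prop :=
  NB x R f ≤ 1 ∧ NB x R (A w f) ≤ 1 / R ∧ NB x R (A w (A w f)) ≤ 1 / R ^ 2

/-- growth statement -/
def Reg1T (w : Fld) (x : Face) (r R c : ℝ) : Prop := ∀ f, U3 w x R f → NB x r f ≤ c

/-- one-mode statement -/
def Reg2T (w : Fld) (x : Face) (r R : ℝ) (u : Fld) (c : ℝ) : Prop :=
  ∀ f, U3 w x R f → ∃ κ : ℝ, NB x r (f - κ • u) ≤ c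

theorem Reg1T.mono {w : Fld} {x : Face} {r r' R c c' : ℝ} (hr : r' ≤ r) (hc : c ≤ c')
    (H : Reg1T w x r R c) : Reg1T w x r' R c' :=
  fun f hf => (NB_mono x hr f).trans ((H f hf).trans hc)

theorem Reg2T.mono {w : Fld} {x : Face} {r r' R c c' : ℝ} {u : Fld} (hr : r' ≤ r) (hc : c ≤ c')
    (H : Reg2T w x r R u c) : Reg2T w x r' R u c' := fun f hf => by
  obtain ⟨κ, hκ⟩ := H f hf
  exact ⟨κ, (NB_mono x hr _).trans (hκ.trans hc)⟩

/-! ### non dyadic ratios -/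

theorem exists_J {r R : ℝ} (hr : 0 < r) (hrR : r ≤ R) :
    ∃ J : ℕ, (2 : ℝ) ^ J ≤ R / r ∧ r ≤ R * q ^ (2 * J) ∧ q ^ (2 * J) ≤ 2 * (r / R) := by
  have h1 : 1 ≤ R / r := by rwa [le_div_iff₀ hr, one_mul]
  obtain ⟨J, h2, h3⟩ := exists_nat_pow_near h1 (by norm_num : (1 : ℝ) < 2)
  have hR : 0 < R := hr.trans_le hrR
  have e : q ^ (2 * J) = (1 / 2 : ℝ) ^ J := by rw [pow_mul, q_sq]
  have e2 : (2 : ℝ) ^ J * (1 / 2 : ℝ) ^ J = 1 := by rw [← mul_pow]; norm_num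
  have p1 : (0 : ℝ) < (1 / 2 : ℝ) ^ J := by positivity
  refine ⟨J, h2, ?_, ?_⟩
  · rw [le_div_iff₀ hr] at h2
    rw [e]
    have := mul_le_mul_of_nonneg_right h2 p1.le
    calc r = 2 ^ J * r * (1 / 2) ^ J := by rw [mul_comm (2 ^ J) r, mul_assoc, e2, mul_one]
      _ ≤ R * (1 / 2) ^ J := this
  · rw [pow_succ, div_lt_iff₀ hr] at h3
    rw [e, ← mul_div_assoc, le_div_iff₀ hR]
    have := mul_le_mul_of_nonneg_left h3.le p1.le
    calc (1 / 2 : ℝ) ^ J * R ≤ (1 / 2) ^ J * (2 ^ J * 2 * r) := this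
      _ = (2 ^ J * (1 / 2) ^ J) * (2 * r) := by ring
      _ = 2 * r := by rw [e2, one_mul]

theorem J_le {J : ℕ} {Λ : ℝ} (h : (2 : ℝ) ^ J ≤ Λ) : J ≤ ⌈Λ⌉₊ := by
  have h1 : (J : ℝ) ≤ 2 ^ J := by
    have : J < 2 ^ J := Nat.lt_two_pow_self
    exact_mod_cast this.le
  have h2 : (J : ℝ) ≤ ⌈Λ⌉₊ := h1.trans (h.trans (Nat.le_ceil _))
  exact_mod_cast h2

/-- uniform thresholds -/
theorem exists_sup (f : ℕ → ℝ) (N : ℕ) : ∃ R, ∀ m ≤ N, f m ≤ R :=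
  ⟨(range (N + 1)).sup' (nonempty_range_iff.2 (by omega)) f,
    fun m hm => le_sup' f (mem_range.2 (by omega))⟩

theorem exists_inf (f : ℕ → ℝ) (hf : ∀ m, 0 < f m) (N : ℕ) : ∃ E, 0 < E ∧ ∀ m ≤ N, E ≤ f m := by
  refine ⟨(range (N + 1)).inf' (nonempty_range_iff.2 (by omega)) f, ?_, fun m hm =>
    inf'_le f (mem_range.2 (by omega))⟩
  rw [lt_inf'_iff]; exact fun m _ => hf m

theorem K2_nonneg {C1 Cs : ℝ} (h1 : 0 ≤ C1) (h2 : 0 ≤ Cs) : 0 ≤ K2 C1 Cs := by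
  have := K1_nonneg h1 h2
  unfold K2; positivity

theorem q_pow_three {t : ℝ} {J : ℕ} (ht : 0 ≤ t) (h : q ^ (2 * J) ≤ 2 * t) :
    q ^ (3 * J) ≤ 3 * t ^ (3 / 2 : ℝ) := by
  have hq := q_pos
  have e : q ^ (3 * J) = (q ^ (2 * J)) ^ (3 / 2 : ℝ) := by
    rw [← Real.rpow_natCast, ← Real.rpow_natCast, ← Real.rpow_mul hq.le]
    congr 1; push_cast; ring
  rw [e]
  calc (q ^ (2 * J)) ^ (3 / 2 : ℝ) ≤ (2 * t) ^ (3 / 2 : ℝ) :=
        Real.rpow_le_rpow (by positivity) h (by norm_num)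
    _ = 2 ^ (3 / 2 : ℝ) * t ^ (3 / 2 : ℝ) := Real.mul_rpow (by norm_num) ht
    _ ≤ 3 * t ^ (3 / 2 : ℝ) := by
        refine mul_le_mul_of_nonneg_right ?_ (by positivity)
        have h1 : (2 : ℝ) ^ (3 / 2 : ℝ) = 2 * Real.sqrt 2 := by
          rw [show (3 / 2 : ℝ) = 1 + 1 / 2 by norm_num, Real.rpow_add (by norm_num),
            Real.rpow_one, Real.sqrt_eq_rpow]
        rw [h1]
        have h2 : Real.sqrt 2 ≤ 3 / 2 := by
          rw [Real.sqrt_le_left (by norm_num)]; norm_num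
        linarith

theorem q_pow_one {t : ℝ} {J : ℕ} (ht : 0 ≤ t) (h : q ^ (2 * J) ≤ 2 * t) :
    q ^ J ≤ 2 * t ^ (1 / 2 : ℝ) := by
  have hq := q_pos
  have e : q ^ J = (q ^ (2 * J)) ^ (1 / 2 : ℝ) := by
    rw [← Real.rpow_natCast, ← Real.rpow_natCast, ← Real.rpow_mul hq.le]
    congr 1; push_cast; ring
  rw [e]
  calc (q ^ (2 * J)) ^ (1 / 2 : ℝ) ≤ (2 * t) ^ (1 / 2 : ℝ) :=
        Real.rpow_le_rpow (by positivity) h (by norm_num)
    _ = 2 ^ (1 / 2 : ℝ) * t ^ (1 / 2 : ℝ) := Real.mul_rpow (by norm_num) ht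
    _ ≤ 2 * t ^ (1 / 2 : ℝ) := by
        refine mul_le_mul_of_nonneg_right ?_ (by positivity)
        rw [← Real.sqrt_eq_rpow, Real.sqrt_le_left (by norm_num)]; norm_num

/-! ### boundary classes -/

/-- **flat plus boundary**, all ratios up to `Λ` -/
theorem rd_plus {C Cs : ℝ} (hC : 0 ≤ C) (hCs : 0 ≤ Cs) (hG : GapU Cs) (hE : EXb C) (Λ : ℝ) :
    ∃ r0 ε0 : ℝ, 1 ≤ r0 ∧ 0 < ε0 ∧
    ∀ (w : Fld) (s : Face → ℝ) (x : Face) (r R : ℝ) (n c : ℂ), r0 ≤ r → r ≤ R → R ≤ Λ * r →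
      ‖n‖ = 1 → c ^ 2 = (starRingEnd ℂ) n → PlusFlat w s x R n ε0 →
      Reg1T w x r R (2 * K2 C Cs * (r / R)) ∧
      Reg2T w x r R (modeB s x n c) (3 * K2 C Cs * (r / R) ^ (3 / 2 : ℝ)) := by
  choose r1 ε1 hε1 H using regB hC hCs hG hE
  obtain ⟨R1, hR1⟩ := exists_sup r1 ⌈Λ⌉₊
  obtain ⟨E1, hE1, hE1'⟩ := exists_inf ε1 hε1 ⌈Λ⌉₊
  refine ⟨max 1 R1, E1, le_max_left _ _, hE1, ?_⟩
  intro w s x r R n c hr hrR hΛ hn hc hP
  have hr0 : 0 < r := lt_of_lt_of_le one_pos ((le_max_left _ _).trans hr)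
  have hR0 : 0 < R := hr0.trans_le hrR
  obtain ⟨J, hJ1, hJ2, hJ3⟩ := exists_J hr0 hrR
  have hJ : J ≤ ⌈Λ⌉₊ := J_le (hJ1.trans (by rwa [div_le_iff₀ hr0]))
  have hPF : PlusFlat w s x R n (ε1 J) :=
    hP.mono le_rfl (mul_le_mul_of_nonneg_right (hE1' J hJ) hR0.le)
  have hK : 0 ≤ K2 C Cs := K2_nonneg hC hCs
  have ht : 0 ≤ r / R := by positivity
  have key := fun f (hf : U3 w x R f) => H J w s x R n c
    ((hR1 J hJ).trans ((le_max_right _ _).trans (hr.trans hrR))) hn hc hPF f hf.1 hf.2.1 hf.2.2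
  refine ⟨fun f hf => ?_, fun f hf => ?_⟩
  · calc NB x r f ≤ NB x (R * q ^ (2 * J)) f := NB_mono x hJ2 f
      _ ≤ K2 C Cs * q ^ (2 * J) := (key f hf).1
      _ ≤ K2 C Cs * (2 * (r / R)) := mul_le_mul_of_nonneg_left hJ3 hK
      _ = 2 * K2 C Cs * (r / R) := by ring
  · obtain ⟨κ, hκ⟩ := (key f hf).2
    refine ⟨κ, ?_⟩
    calc NB x r (f - κ • modeB s x n c) ≤ NB x (R * q ^ (2 * J)) (f - κ • modeB s x n c) :=
          NB_mono x hJ2 _
      _ ≤ K2 C Cs * q ^ (3 * J) := hκ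
      _ ≤ K2 C Cs * (3 * (r / R) ^ (3 / 2 : ℝ)) :=
          mul_le_mul_of_nonneg_left (q_pow_three ht hJ3) hK
      _ = 3 * K2 C Cs * (r / R) ^ (3 / 2 : ℝ) := by ring

/-- **flat free boundary**, all ratios up to `Λ` -/
theorem rd_free {C Cs : ℝ} (hC : 0 ≤ C) (hCs : 0 ≤ Cs) (hG : GapU Cs) (hE : EXb C) (Λ : ℝ) :
    ∃ r0 ε0 : ℝ, 1 ≤ r0 ∧ 0 < ε0 ∧
    ∀ (w : Fld) (s : Face → ℝ) (x : Face) (r R : ℝ) (n c : ℂ), r0 ≤ r → r ≤ R → R ≤ Λ * r →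
      ‖n‖ = 1 → c ^ 2 = (starRingEnd ℂ) n → FreeFlat w s x R n ε0 →
      Reg1T w x r R (2 * K2 (16 * C + 1) (16 * Cs) * (r / R)) ∧
      Reg2T w x r R (modeF w s x n c)
        (3 * K2 (16 * C + 1) (16 * Cs) * (r / R) ^ (3 / 2 : ℝ)) := by
  choose r1 ε1 hε1 H using regF hC hCs hG hE
  obtain ⟨R1, hR1⟩ := exists_sup r1 ⌈Λ⌉₊
  obtain ⟨E1, hE1, hE1'⟩ := exists_inf ε1 hε1 ⌈Λ⌉₊
  refine ⟨max 1 R1, E1, le_max_left _ _, hE1, ?_⟩
  intro w s x r R n c hr hrR hΛ hn hc hP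
  have hr0 : 0 < r := lt_of_lt_of_le one_pos ((le_max_left _ _).trans hr)
  have hR0 : 0 < R := hr0.trans_le hrR
  obtain ⟨J, hJ1, hJ2, hJ3⟩ := exists_J hr0 hrR
  have hJ : J ≤ ⌈Λ⌉₊ := J_le (hJ1.trans (by rwa [div_le_iff₀ hr0]))
  have hPF : FreeFlat w s x R n (ε1 J) :=
    hP.mono le_rfl (mul_le_mul_of_nonneg_right (hE1' J hJ) hR0.le)
  set K := K2 (16 * C + 1) (16 * Cs) with hKd
  have hK : 0 ≤ K := K2_nonneg (by positivity) (by positivity)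
  have ht : 0 ≤ r / R := by positivity
  have key := fun f (hf : U3 w x R f) => H J w s x R n c
    ((hR1 J hJ).trans ((le_max_right _ _).trans (hr.trans hrR))) hn hc hPF f hf.1 hf.2.1 hf.2.2
  refine ⟨fun f hf => ?_, fun f hf => ?_⟩
  · calc NB x r f ≤ NB x (R * q ^ (2 * J)) f := NB_mono x hJ2 f
      _ ≤ K * q ^ (2 * J) := (key f hf).1
      _ ≤ K * (2 * (r / R)) := mul_le_mul_of_nonneg_left hJ3 hK
      _ = 2 * K * (r / R) := by ring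
  · obtain ⟨κ, hκ⟩ := (key f hf).2
    refine ⟨κ, ?_⟩
    calc NB x r (f - κ • modeF w s x n c) ≤ NB x (R * q ^ (2 * J)) (f - κ • modeF w s x n c) :=
          NB_mono x hJ2 _
      _ ≤ K * q ^ (3 * J) := hκ
      _ ≤ K * (3 * (r / R) ^ (3 / 2 : ℝ)) :=
          mul_le_mul_of_nonneg_left (q_pow_three ht hJ3) hK
      _ = 3 * K * (r / R) ^ (3 / 2 : ℝ) := by ring

/-- **branch vertex**, all ratios up to `Λ` -/
theorem rx_branch {C Cs : ℝ} (hC : 0 ≤ C) (hCs : 0 ≤ Cs) (hG : GapU Cs) (hE : EXbr C) (Λ : ℝ) :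
    ∃ r0 : ℝ, 1 ≤ r0 ∧
    ∀ (w : Fld) (s : Face → ℝ) (v : Face) (r R : ℝ), r0 ≤ r → r ≤ R → R ≤ Λ * r →
      BranchOn w s v R →
      Reg1T w v r R (2 * K2 C Cs * (r / R) ^ (1 / 2 : ℝ)) ∧
      Reg2T w v r R (modeBr s v) (2 * K2 C Cs * (r / R)) := by
  choose r1 H using regBr hC hCs hG hE
  obtain ⟨R1, hR1⟩ := exists_sup r1 ⌈Λ⌉₊
  refine ⟨max 1 R1, le_max_left _ _, ?_⟩
  intro w s v r R hr hrR hΛ hP
  have hr0 : 0 < r := lt_of_lt_of_le one_pos ((le_max_left _ _).trans hr)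
  have hR0 : 0 < R := hr0.trans_le hrR
  obtain ⟨J, hJ1, hJ2, hJ3⟩ := exists_J hr0 hrR
  have hJ : J ≤ ⌈Λ⌉₊ := J_le (hJ1.trans (by rwa [div_le_iff₀ hr0]))
  have hK : 0 ≤ K2 C Cs := K2_nonneg hC hCs
  have ht : 0 ≤ r / R := by positivity
  have key := fun f (hf : U3 w v R f) => H J w s v R
    ((hR1 J hJ).trans ((le_max_right _ _).trans (hr.trans hrR))) hP f hf.1 hf.2.1 hf.2.2
  refine ⟨fun f hf => ?_, fun f hf => ?_⟩
  · calc NB v r f ≤ NB v (R * q ^ (2 * J)) f := NB_mono v hJ2 f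
      _ ≤ K2 C Cs * q ^ J := (key f hf).1
      _ ≤ K2 C Cs * (2 * (r / R) ^ (1 / 2 : ℝ)) :=
          mul_le_mul_of_nonneg_left (q_pow_one ht hJ3) hK
      _ = 2 * K2 C Cs * (r / R) ^ (1 / 2 : ℝ) := by ring
  · obtain ⟨κ, hκ⟩ := (key f hf).2
    refine ⟨κ, ?_⟩
    calc NB v r (f - κ • modeBr s v) ≤ NB v (R * q ^ (2 * J)) (f - κ • modeBr s v) :=
          NB_mono v hJ2 _
      _ ≤ K2 C Cs * q ^ (2 * J) := hκ
      _ ≤ K2 C Cs * (2 * (r / R)) := mul_le_mul_of_nonneg_left hJ3 hK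
      _ = 2 * K2 C Cs * (r / R) := by ring

/-! ### exterior backgrounds -/

/-- the intra-face matrix is invertible -/
theorem nsq_le_A0 (p : Fin 4 → ℝ) : nsq p ≤ 9 * nsq (A0 p) := by
  have e0 : p 0 = -A0 p 1 + A0 p 2 - A0 p 3 := by simp only [A0]; ring
  have e1 : p 1 = A0 p 0 - A0 p 2 + A0 p 3 := by simp only [A0]; ring
  have e2 : p 2 = -A0 p 0 + A0 p 1 - A0 p 3 := by simp only [A0]; ring
  have e3 : p 3 = A0 p 0 - A0 p 1 + A0 p 2 := by simp only [A0]; ring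
  have k : ∀ a b c : ℝ, (a + b + c) ^ 2 ≤ 3 * (a ^ 2 + b ^ 2 + c ^ 2) := by
    intro a b c
    nlinarith [sq_nonneg (a - b), sq_nonneg (b - c), sq_nonneg (a - c)]
  have k0 := k (-A0 p 1) (A0 p 2) (-A0 p 3)
  have k1 := k (A0 p 0) (-A0 p 2) (A0 p 3)
  have k2 := k (-A0 p 0) (A0 p 1) (-A0 p 3)
  have k3 := k (A0 p 0) (-A0 p 1) (A0 p 2)
  rw [← sub_eq_add_neg] at k0 k2
  rw [show A0 p 0 + -A0 p 2 + A0 p 3 = A0 p 0 - A0 p 2 + A0 p 3 by ring] at k1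
  rw [show A0 p 0 + -A0 p 1 + A0 p 2 = A0 p 0 - A0 p 1 + A0 p 2 by ring] at k3
  rw [← e0] at k0
  rw [← e1] at k1
  rw [← e2] at k2
  rw [← e3] at k3
  simp only [neg_sq] at k0 k1 k2 k3
  rw [nsq_eq p, nsq_eq (A0 p)]
  linarith

/-- exterior of a plus domain: all weights of the box vanish -/
theorem ext_plus {w : Fld} {x : Face} {t : ℝ} (hw : ∀ f ∈ bx x t, ∀ h, w f h = 0) (φ : Fld) :
    NB x t φ ≤ 3 * NB x t (A w φ) := by
  refine le_of_sq_le' (by norm_num) (apply_nonneg _ _) ?_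
  rw [NB_sq, NB_sq]
  have : ∀ f ∈ bx x t, nsq (φ f) ≤ 9 * nsq (A w φ f) := by
    intro f hf
    have e : A w φ f = A0 (φ f) := by
      funext h; simp only [A, Y, hw f hf h, mul_zero, zero_mul, add_zero]
    rw [e]; exact nsq_le_A0 _
  calc ∑ f ∈ bx x t, nsq (φ f) ≤ ∑ f ∈ bx x t, 9 * nsq (A w φ f) := sum_le_sum this
    _ = 3 ^ 2 * ∑ f ∈ bx x t, nsq (A w φ f) := by rw [← mul_sum]; norm_num

/-- exterior of a free domain: all weights of the box are `s s'` -/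
theorem ext_free {w : Fld} {s : Face → ℝ} {x : Face} {t : ℝ} (hS : Sym w) (hs : Gauge s)
    (hw : ∀ f ∈ bx x (t + 2), ∀ h, w f h = s f * s (nb f h)) (φ : Fld) :
    NB x t φ ≤ 24 * NB x (t + 2) (A w φ) := by
  have hF0 : IsFreeOn w s x (t + 2) := ⟨hS, hs, fun f hf h => Or.inr (hw f hf h)⟩
  have hO := hF0.freeOn
  set w' := model w s (bx x (t + 2)) with hw'
  have hS' : Sym w' := sym_model hS
  have hF : IsFree w' := isFree_model hO
  have h1 : NB x t (gf s φ) ≤ 2 * NB x (t + 1) (df w' (gf s φ)) := by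
    have := NB_fd hF.nonneg (df w' (gf s φ)) x t
    rwa [fd_df hS' hF.ne] at this
  -- the dual weights vanish
  have h0 : ∀ v ∈ bx x (t + 1), ∀ h, dw w' v h = 0 := by
    intro v hv h
    have hfc := fcs_bx x (t + 1)
    rw [show t + 1 + 1 = t + 2 by ring] at hfc
    obtain ⟨a1, a2, a3, a4⟩ := hfc v hv
    have e : ∀ f ∈ bx x (t + 2), ∀ k, w' f k = 1 := by
      intro f hf k
      have := gauge_cancel hs f (nb f k) 1
      rw [mul_one] at this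
      rw [hw', model_bx hf, gw, hw f hf k, this]
    have : ew w' v h = 1 := by
      fin_cases h
      · exact e _ a3 3
      · exact e _ a1 0
      · exact e _ a1 3
      · exact e _ a2 0
    rw [dw, this, dy_one]
  have h2 := ext_plus h0 (df w' (gf s φ))
  have h3 : NB x (t + 1) (A (dw w') (df w' (gf s φ))) ≤ 4 * NB x (t + 2) (A w' (gf s φ)) := by
    rw [A_df_global hS' hF.ne]
    have := NB_dg (A w' (gf s φ)) x (t + 1)
    rwa [show t + 1 + 1 = t + 2 by ring] at this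
  have h4 : NB x (t + 2) (A w' (gf s φ)) = NB x (t + 2) (A w φ) := by
    rw [← NB_gm hs x (t + 2) (A w φ)]
    refine N2_congr fun f hf => ?_
    funext h
    exact A_model hO φ f h (Or.inl hf)
  have h5 : NB x t φ = NB x t (gf s φ) := (NB_gm hs x t φ).symm
  rw [h5]; rw [h4] at h3
  linarith

theorem rb_ext_plus {w : Fld} {x : Face} {r R : ℝ} (hr : 1 ≤ r) (hrR : r ≤ R)
    (hw : ∀ f ∈ bx x R, ∀ h, w f h = 0) : Reg1T w x r R (3 * (r / R)) := by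
  intro f hf
  have h1 := ext_plus (fun f hf h => hw f (bx_mono x hrR hf) h) f
  have h2 : NB x r (A w f) ≤ 1 / R := (NB_mono x hrR _).trans hf.2.1
  have hR : 0 < R := by linarith
  have h3 : 1 / R ≤ r / R := by gcongr
  linarith

theorem rb_ext_free {w : Fld} {s : Face → ℝ} {x : Face} {r R : ℝ} (hr : 1 ≤ r)
    (hrR : r + 2 ≤ R) (hS : Sym w) (hs : Gauge s)
    (hw : ∀ f ∈ bx x R, ∀ h, w f h = s f * s (nb f h)) : Reg1T w x r R (24 * (r / R)) := by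
  intro f hf
  have h1 := ext_free hS hs (fun f hf h => hw f (bx_mono x hrR hf) h) f
  have h2 : NB x (r + 2) (A w f) ≤ 1 / R := (NB_mono x hrR _).trans hf.2.1
  have hR : 0 < R := by linarith
  have h3 : 1 / R ≤ r / R := by gcongr
  linarith

end Crest.Agent.R165.RegIx485
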