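import Crest.Agent.R165.Lim2_943
import Crest.Agent.R165.Emb_622

/-!
# Row 165 (S0250): Rellich compactness for lattice functions

`N2 u = ∑ u²` (extended).  If `a² N2 (u_k) ≤ M` and `N2 (D_i u_k) ≤ M` then along an ultrafilter
`emb a_k u_k` converges strongly in `L²` on every bounded set (`rellich`).
-/

set_option autoImplicit false

noncomputable section

namespace Crest.Agent.R165.Relx943

open Filter Topology MeasureTheory
open Crest.ProbabilityR.IsingModel
open Crest.Agent.R165.Lim1x943 (pt flr d1 LocBd LocUnif lim e1 e2)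
open Crest.Agent.R165.Lim2x943 (NC sq2 nrm)
open Crest.Agent.R165.Embx622 (emb)

/-- squared `l²` norm -/
def N2 (u : ℤ × ℤ → ℝ) : ENNReal := ∑' f, sq2 (u f)

/-- unscaled forward differences -/
def dif1 (u : ℤ × ℤ → ℝ) (f : ℤ × ℤ) : ℝ := u (f + e1) - u f
def dif2 (u : ℤ × ℤ → ℝ) (f : ℤ × ℤ) : ℝ := u (f + e2) - u f

theorem N2_shift (u : ℤ × ℤ → ℝ) (τ : ℤ × ℤ) : N2 (fun f => u (f + τ)) = N2 u :=
  (Equiv.addRight τ).tsum_eq fun f => sq2 (u f)

theorem sq2_sum_le {α : Type*} (s : Finset α) (g : α → ℝ) :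
    sq2 (∑ i ∈ s, g i) ≤ s.card * ∑ i ∈ s, sq2 (g i) := by
  unfold sq2
  rw [← ENNReal.ofReal_sum_of_nonneg fun _ _ => sq_nonneg _, ← ENNReal.ofReal_natCast,
    ← ENNReal.ofReal_mul (by positivity)]
  apply ENNReal.ofReal_le_ofReal
  exact sq_sum_le_card_mul_sum_sq

theorem sq2_mul (a b : ℝ) : sq2 (a * b) = sq2 a * sq2 b := by
  unfold sq2
  rw [mul_pow, ENNReal.ofReal_mul (sq_nonneg _)]

theorem sq2_add_le (a b : ℝ) : sq2 (a + b) ≤ 2 * sq2 a + 2 * sq2 b := by
  have := Lim2x943.sq2_sub_le a (-b)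
  rwa [sub_neg_eq_add, Lim2x943.sq2_neg] at this

theorem N2_add_le (u v : ℤ × ℤ → ℝ) : N2 (fun f => u f + v f) ≤ 2 * N2 u + 2 * N2 v := by
  unfold N2
  rw [← ENNReal.tsum_mul_left, ← ENNReal.tsum_mul_left, ← ENNReal.tsum_add]
  exact ENNReal.tsum_le_tsum fun f => sq2_add_le _ _

theorem N2_mul_left (c : ℝ) (u : ℤ × ℤ → ℝ) : N2 (fun f => c * u f) = sq2 c * N2 u := by
  unfold N2
  rw [← ENNReal.tsum_mul_left]
  exact tsum_congr fun f => sq2_mul _ _

theorem N2_sum_le {α : Type*} (s : Finset α) (g : α → ℤ × ℤ → ℝ) {C : ENNReal}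
    (h : ∀ i ∈ s, N2 (g i) ≤ C) : N2 (fun f => ∑ i ∈ s, g i f) ≤ (s.card : ENNReal) ^ 2 * C := by
  calc N2 (fun f => ∑ i ∈ s, g i f) ≤ ∑' f, (s.card : ENNReal) * ∑ i ∈ s, sq2 (g i f) :=
        ENNReal.tsum_le_tsum fun f => sq2_sum_le s _
    _ = s.card * ∑ i ∈ s, N2 (g i) := by
        rw [ENNReal.tsum_mul_left]
        unfold N2
        rw [Summable.tsum_finsetSum fun _ _ => ENNReal.summable]
    _ ≤ s.card * ∑ i ∈ s, C := by gcongr with i hi; exact h i hi
    _ = (s.card : ENNReal) ^ 2 * C := by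
        rw [Finset.sum_const, nsmul_eq_mul]; ring

theorem N2_shift1 (u : ℤ × ℤ → ℝ) (s : ℕ) :
    N2 (fun f => u (f + ((s : ℤ), 0)) - u f) ≤ (s : ENNReal) ^ 2 * N2 (dif1 u) := by
  have h : ∀ f : ℤ × ℤ, u (f + ((s : ℤ), 0)) - u f
      = ∑ j ∈ Finset.range s, dif1 u (f + ((j : ℤ), 0)) := by
    intro f
    induction s with
    | zero => simp [show ((0 : ℤ), (0 : ℤ)) = (0 : ℤ × ℤ) from rfl]
    | succ s ih =>
      rw [Finset.sum_range_succ, ← ih]
      simp only [dif1, e1, add_assoc, Prod.mk_add_mk, add_zero, Nat.cast_add, Nat.cast_one]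
      ring
  simp_rw [h]
  refine (N2_sum_le (Finset.range s) (fun j f => dif1 u (f + ((j : ℤ), 0)))
    (C := N2 (dif1 u)) fun j _ => (N2_shift _ _).le).trans (by simp)

theorem N2_shift2 (u : ℤ × ℤ → ℝ) (s : ℕ) :
    N2 (fun f => u (f + (0, (s : ℤ))) - u f) ≤ (s : ENNReal) ^ 2 * N2 (dif2 u) := by
  have h : ∀ f : ℤ × ℤ, u (f + (0, (s : ℤ))) - u f
      = ∑ j ∈ Finset.range s, dif2 u (f + (0, (j : ℤ))) := by
    intro f
    induction s with
    | zero => simp [show ((0 : ℤ), (0 : ℤ)) = (0 : ℤ × ℤ) from rfl]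
    | succ s ih =>
      rw [Finset.sum_range_succ, ← ih]
      simp only [dif2, e2, add_assoc, Prod.mk_add_mk, add_zero, Nat.cast_add, Nat.cast_one]
      ring
  simp_rw [h]
  refine (N2_sum_le (Finset.range s) (fun j f => dif2 u (f + (0, (j : ℤ))))
    (C := N2 (dif2 u)) fun j _ => (N2_shift _ _).le).trans (by simp)

theorem N2_shift12 (u : ℤ × ℤ → ℝ) {s t m : ℕ} (hs : s ≤ m) (ht : t ≤ m) :
    N2 (fun f => u (f + ((s : ℤ), (t : ℤ))) - u f)
      ≤ 2 * (m : ENNReal) ^ 2 * (N2 (dif1 u) + N2 (dif2 u)) := by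
  have h1 := N2_add_le (fun f => u (f + (0, (t : ℤ)) + ((s : ℤ), 0)) - u (f + (0, (t : ℤ))))
    (fun f => u (f + (0, (t : ℤ))) - u f)
  have h2 : N2 (fun f => u (f + (0, (t : ℤ)) + ((s : ℤ), 0)) - u (f + (0, (t : ℤ))))
      = N2 (fun f => u (f + ((s : ℤ), 0)) - u f) :=
    N2_shift (fun f => u (f + ((s : ℤ), 0)) - u f) (0, (t : ℤ))
  rw [h2] at h1
  have e : (fun f : ℤ × ℤ => u (f + (0, (t : ℤ)) + ((s : ℤ), 0)) - u (f + (0, (t : ℤ)))
      + (u (f + (0, (t : ℤ))) - u f)) = fun f => u (f + ((s : ℤ), (t : ℤ))) - u f := by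
    ext f
    simp [add_assoc]
  rw [e] at h1
  refine h1.trans ?_
  have h3 := N2_shift1 u s
  have h4 := N2_shift2 u t
  have h5 : (s : ENNReal) ≤ m := by exact_mod_cast hs
  have h6 : (t : ENNReal) ≤ m := by exact_mod_cast ht
  calc 2 * N2 (fun f => u (f + ((s : ℤ), 0)) - u f) + 2 * N2 (fun f => u (f + (0, (t : ℤ))) - u f)
      ≤ 2 * ((s : ENNReal) ^ 2 * N2 (dif1 u)) + 2 * ((t : ENNReal) ^ 2 * N2 (dif2 u)) := by
        gcongr
    _ ≤ 2 * ((m : ENNReal) ^ 2 * N2 (dif1 u)) + 2 * ((m : ENNReal) ^ 2 * N2 (dif2 u)) := by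
        gcongr
    _ = 2 * (m : ENNReal) ^ 2 * (N2 (dif1 u) + N2 (dif2 u)) := by ring

/-- average over an `m × m` block -/
def avg (m : ℕ) (u : ℤ × ℤ → ℝ) (f : ℤ × ℤ) : ℝ :=
  (1 / (m : ℝ) ^ 2) * ∑ p ∈ Finset.range m ×ˢ Finset.range m, u (f + ((p.1 : ℤ), (p.2 : ℤ)))

theorem sq2_inv_card (m : ℕ) (hm : 0 < m) :
    sq2 (1 / (m : ℝ) ^ 2) * ((m : ENNReal) ^ 2) ^ 2 = 1 := by
  have hm' : (0 : ℝ) < m := by exact_mod_cast hm
  unfold sq2
  rw [← ENNReal.ofReal_natCast, ← ENNReal.ofReal_pow (by positivity),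
    ← ENNReal.ofReal_pow (by positivity), ← ENNReal.ofReal_mul (by positivity)]
  rw [show (1 / (m : ℝ) ^ 2) ^ 2 * ((m : ℝ) ^ 2) ^ 2 = 1 by field_simp]
  simp

theorem card_block (m : ℕ) :
    ((Finset.range m ×ˢ Finset.range m).card : ENNReal) = (m : ENNReal) ^ 2 := by
  rw [Finset.card_product, Finset.card_range]; push_cast; ring

theorem N2_sub_avg {m : ℕ} (hm : 0 < m) (u : ℤ × ℤ → ℝ) :
    N2 (fun f => avg m u f - u f) ≤ 2 * (m : ENNReal) ^ 2 * (N2 (dif1 u) + N2 (dif2 u)) := by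
  have hm' : (0 : ℝ) < m := by exact_mod_cast hm
  have h : ∀ f, avg m u f - u f = (1 / (m : ℝ) ^ 2) *
      ∑ p ∈ Finset.range m ×ˢ Finset.range m, (u (f + ((p.1 : ℤ), (p.2 : ℤ))) - u f) := by
    intro f
    unfold avg
    rw [Finset.sum_sub_distrib, Finset.sum_const, Finset.card_product, Finset.card_range,
      nsmul_eq_mul]
    push_cast
    field_simp
  simp_rw [h]
  rw [N2_mul_left]
  have h1 := N2_sum_le (Finset.range m ×ˢ Finset.range m)
    (fun p f => u (f + ((p.1 : ℤ), (p.2 : ℤ))) - u f)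
    (C := 2 * (m : ENNReal) ^ 2 * (N2 (dif1 u) + N2 (dif2 u))) (fun p hp => by
      rw [Finset.mem_product, Finset.mem_range, Finset.mem_range] at hp
      exact N2_shift12 u hp.1.le hp.2.le)
  rw [card_block] at h1
  calc sq2 (1 / (m : ℝ) ^ 2) * N2 _ ≤ sq2 (1 / (m : ℝ) ^ 2) * (((m : ENNReal) ^ 2) ^ 2 *
        (2 * (m : ENNReal) ^ 2 * (N2 (dif1 u) + N2 (dif2 u)))) := by gcongr
    _ = (sq2 (1 / (m : ℝ) ^ 2) * ((m : ENNReal) ^ 2) ^ 2) *
        (2 * (m : ENNReal) ^ 2 * (N2 (dif1 u) + N2 (dif2 u))) := by ring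
    _ = _ := by rw [sq2_inv_card m hm, one_mul]

theorem N2_avg_le {m : ℕ} (hm : 0 < m) (u : ℤ × ℤ → ℝ) : N2 (avg m u) ≤ N2 u := by
  have e : avg m u = fun f => (1 / (m : ℝ) ^ 2) *
      ∑ p ∈ Finset.range m ×ˢ Finset.range m, u (f + ((p.1 : ℤ), (p.2 : ℤ))) := rfl
  rw [e, N2_mul_left]
  have h1 := N2_sum_le (Finset.range m ×ˢ Finset.range m)
    (fun p f => u (f + ((p.1 : ℤ), (p.2 : ℤ)))) (C := N2 u) (fun p _ => (N2_shift u _).le)
  rw [card_block] at h1
  calc sq2 (1 / (m : ℝ) ^ 2) * N2 _ ≤ sq2 (1 / (m : ℝ) ^ 2) * (((m : ENNReal) ^ 2) ^ 2 * N2 u) := by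
        gcongr
    _ = (sq2 (1 / (m : ℝ) ^ 2) * ((m : ENNReal) ^ 2) ^ 2) * N2 u := by ring
    _ = _ := by rw [sq2_inv_card m hm, one_mul]

theorem avg_sub (m : ℕ) (u v : ℤ × ℤ → ℝ) (f : ℤ × ℤ) :
    avg m (fun g => u g - v g) f = avg m u f - avg m v f := by
  unfold avg
  rw [Finset.sum_sub_distrib, mul_sub]

/-- double average: `l²` closeness -/
theorem N2_sub_avg2 {m : ℕ} (hm : 0 < m) (u : ℤ × ℤ → ℝ) :
    N2 (fun f => avg m (avg m u) f - u f)
      ≤ 8 * (m : ENNReal) ^ 2 * (N2 (dif1 u) + N2 (dif2 u)) := by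
  have h1 := N2_add_le (avg m fun g => avg m u g - u g) (fun f => avg m u f - u f)
  have e : (fun f => avg m (fun g => avg m u g - u g) f + (avg m u f - u f))
      = fun f => avg m (avg m u) f - u f := by
    ext f
    rw [avg_sub]; ring
  rw [e] at h1
  have h2 := N2_sub_avg hm u
  have h3 := (N2_avg_le hm fun g => avg m u g - u g).trans h2
  calc N2 (fun f => avg m (avg m u) f - u f) ≤ _ := h1
    _ ≤ 2 * (2 * (m : ENNReal) ^ 2 * (N2 (dif1 u) + N2 (dif2 u)))
        + 2 * (2 * (m : ENNReal) ^ 2 * (N2 (dif1 u) + N2 (dif2 u))) := by gcongr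
    _ = _ := by ring

theorem sq2_le_N2 (u : ℤ × ℤ → ℝ) (f : ℤ × ℤ) : sq2 (u f) ≤ N2 u := ENNReal.le_tsum f

/-- sup bound of the average -/
theorem sq2_avg_le {m : ℕ} (hm : 0 < m) (u : ℤ × ℤ → ℝ) (f : ℤ × ℤ) :
    sq2 (avg m u f) * (m : ENNReal) ^ 2 ≤ N2 u := by
  unfold avg
  rw [sq2_mul]
  have h1 := sq2_sum_le (Finset.range m ×ˢ Finset.range m)
    (fun p => u (f + ((p.1 : ℤ), (p.2 : ℤ))))
  rw [card_block] at h1
  have h2 : ∑ p ∈ Finset.range m ×ˢ Finset.range m, sq2 (u (f + ((p.1 : ℤ), (p.2 : ℤ))))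
      ≤ N2 u := by
    have hinj : Set.InjOn (fun p : ℕ × ℕ => f + ((p.1 : ℤ), (p.2 : ℤ)))
        (Finset.range m ×ˢ Finset.range m : Finset (ℕ × ℕ)) := by
      intro p _ q _ h
      simp only [add_right_inj, Prod.mk.injEq, Nat.cast_inj] at h
      exact Prod.ext h.1 h.2
    rw [← Finset.sum_image (f := fun g => sq2 (u g))
      (g := fun p : ℕ × ℕ => f + ((p.1 : ℤ), (p.2 : ℤ))) hinj]
    exact ENNReal.sum_le_tsum _
  calc sq2 (1 / (m : ℝ) ^ 2) * sq2 (∑ p ∈ Finset.range m ×ˢ Finset.range m,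
        u (f + ((p.1 : ℤ), (p.2 : ℤ)))) * (m : ENNReal) ^ 2
      ≤ sq2 (1 / (m : ℝ) ^ 2) * ((m : ENNReal) ^ 2 * N2 u) * (m : ENNReal) ^ 2 := by
        gcongr
        exact h1.trans (by gcongr)
    _ = (sq2 (1 / (m : ℝ) ^ 2) * ((m : ENNReal) ^ 2) ^ 2) * N2 u := by ring
    _ = N2 u := by rw [sq2_inv_card m hm, one_mul]

/-- Lipschitz bound of the average of a bounded function -/
theorem dif_avg_le {m : ℕ} (hm : 0 < m) (v : ℤ × ℤ → ℝ) {c : ℝ} (hc : ∀ f, |v f| ≤ c)
    (f : ℤ × ℤ) : |avg m v (f + e1) - avg m v f| ≤ 2 * c / m ∧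
      |avg m v (f + e2) - avg m v f| ≤ 2 * c / m := by
  have hm' : (0 : ℝ) < m := by exact_mod_cast hm
  have key : ∀ w : ℕ → ℕ → ℝ, (∀ s t, |w s t| ≤ c) →
      |(1 / (m : ℝ) ^ 2) * (∑ t ∈ Finset.range m, ∑ s ∈ Finset.range m, (w (s + 1) t - w s t))|
        ≤ 2 * c / m := by
    intro w hw
    have h1 : ∀ t, |∑ s ∈ Finset.range m, (w (s + 1) t - w s t)| ≤ 2 * c := by
      intro t
      rw [Finset.sum_range_sub (fun s => w s t) m]
      have h1 := hw m t
      have h2 := hw 0 t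
      rw [abs_le] at *
      constructor <;> linarith [h1.1, h1.2, h2.1, h2.2]
    rw [abs_mul, abs_of_pos (by positivity)]
    calc 1 / (m : ℝ) ^ 2 * |∑ t ∈ Finset.range m, ∑ s ∈ Finset.range m, (w (s + 1) t - w s t)|
        ≤ 1 / (m : ℝ) ^ 2 * ∑ t ∈ Finset.range m, 2 * c := by
          gcongr
          exact (Finset.abs_sum_le_sum_abs _ _).trans (Finset.sum_le_sum fun t _ => h1 t)
      _ = 2 * c / m := by
          rw [Finset.sum_const, Finset.card_range, nsmul_eq_mul]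
          field_simp
  constructor
  · have := key (fun s t => v (f + ((s : ℤ), (t : ℤ)))) (fun _ _ => hc _)
    refine le_trans (le_of_eq ?_) this
    congr 1
    unfold avg
    rw [← mul_sub, ← Finset.sum_sub_distrib, Finset.sum_product_right]
    congr 1
    refine Finset.sum_congr rfl fun t _ => Finset.sum_congr rfl fun s _ => ?_
    congr 2
    simp only [e1, add_assoc, Prod.mk_add_mk, Nat.cast_add, Nat.cast_one, zero_add]
    rw [add_comm (1 : ℤ)]
  · have := key (fun s t => v (f + ((t : ℤ), (s : ℤ)))) (fun _ _ => hc _)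
    refine le_trans (le_of_eq ?_) this
    congr 1
    unfold avg
    rw [← mul_sub, ← Finset.sum_sub_distrib, Finset.sum_product]
    congr 1
    refine Finset.sum_congr rfl fun t _ => Finset.sum_congr rfl fun s _ => ?_
    congr 2
    simp only [e2, add_assoc, Prod.mk_add_mk, Nat.cast_add, Nat.cast_one, zero_add]
    rw [add_comm (1 : ℤ)]

theorem abs_avg_le {m : ℕ} (hm : 0 < m) (v : ℤ × ℤ → ℝ) {c : ℝ} (hc : ∀ f, |v f| ≤ c)
    (f : ℤ × ℤ) : |avg m v f| ≤ c := by
  have hm' : (0 : ℝ) < m := by exact_mod_cast hm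
  unfold avg
  rw [abs_mul, abs_of_pos (by positivity)]
  calc 1 / (m : ℝ) ^ 2 * |∑ p ∈ Finset.range m ×ˢ Finset.range m, v (f + ((p.1 : ℤ), (p.2 : ℤ)))|
      ≤ 1 / (m : ℝ) ^ 2 * ∑ p ∈ Finset.range m ×ˢ Finset.range m, c := by
        gcongr
        exact (Finset.abs_sum_le_sum_abs _ _).trans (Finset.sum_le_sum fun p _ => hc _)
    _ = c := by
        rw [Finset.sum_const, Finset.card_product, Finset.card_range, nsmul_eq_mul]
        push_cast
        field_simp

theorem abs_le_of_sq2_le {x c : ℝ} (hc : 0 ≤ c) (h : sq2 x ≤ ENNReal.ofReal (c ^ 2)) : |x| ≤ c := by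
  unfold sq2 at h
  rw [ENNReal.ofReal_le_ofReal_iff (by positivity)] at h
  exact abs_le_of_sq_le_sq h hc

theorem flr_eq (a : ℝ) (z : ℂ) : flr (1 / a) z = meshIndex a z := by
  unfold flr meshIndex
  rw [one_div_mul_eq_div, one_div_mul_eq_div]

variable {ι : Type*}

theorem tendsto_one_div {U : Filter ι} {a : ι → ℝ} (ha : Tendsto a U (𝓝[>] 0)) :
    Tendsto (fun n => 1 / a n) U atTop := by
  have := ha.inv_tendsto_nhdsGT_zero
  refine this.congr fun n => ?_
  simp

/-- completeness of `L²` -/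
theorem exists_L2_lim {U : Filter ι} [U.NeBot] {μ : Measure ℂ} (x : ι → ℂ → ℝ)
    (hx : ∀ n, MemLp (x n) 2 μ)
    (H : ∀ ε : ℝ, 0 < ε → ∃ y : ℂ → ℝ, MemLp y 2 μ ∧
      ∀ᶠ n in U, eLpNorm (fun z => x n z - y z) 2 μ ≤ ENNReal.ofReal ε) :
    ∃ F : ℂ → ℝ, MemLp F 2 μ ∧ Tendsto (fun n => eLpNorm (fun z => x n z - F z) 2 μ) U (𝓝 0) := by
  have hfact : Fact ((1 : ENNReal) ≤ 2) := ⟨by norm_num⟩
  set X : ι → Lp ℝ 2 μ := fun n => (hx n).toLp _ with hX
  have hC : Cauchy (map X U) := by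
    rw [Metric.cauchy_iff]
    refine ⟨inferInstance, fun ε hε => ?_⟩
    obtain ⟨y, hy, hn⟩ := H (ε / 3) (by positivity)
    refine ⟨Metric.closedBall (hy.toLp _) (ε / 3), ?_, fun p hp q hq => ?_⟩
    · rw [mem_map]
      filter_upwards [hn] with n hn
      rw [Set.mem_preimage, Metric.mem_closedBall, hX, Lp.dist_def,
        eLpNorm_congr_ae ((hx n).coeFn_toLp.sub hy.coeFn_toLp)]
      exact ENNReal.toReal_le_of_le_ofReal (by positivity) hn
    · have h1 := dist_triangle_right p q (hy.toLp _)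
      rw [Metric.mem_closedBall] at hp hq
      linarith
  obtain ⟨F, hF⟩ := CompleteSpace.complete hC
  refine ⟨F, Lp.memLp F, ?_⟩
  have h1 : Tendsto X U (𝓝 F) := hF
  rw [Lp.tendsto_Lp_iff_tendsto_eLpNorm'] at h1
  refine h1.congr fun n => ?_
  exact eLpNorm_congr_ae ((hx n).coeFn_toLp.sub (ae_eq_refl _))

theorem nrm_univ_emb {a : ℝ} (ha : 0 < a) (B : Set ℂ) (g : ℤ × ℤ → ℝ) :
    ∫⁻ z in B, sq2 (g (meshIndex a z)) ≤ ENNReal.ofReal (a ^ 2) * N2 g := by
  refine (setLIntegral_le_lintegral _ _).trans (le_of_eq ?_)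
  exact Embx622.lintegral_emb ha fun f => sq2 (g f)

/-- **Rellich compactness for lattice functions** -/
theorem rellich {U : Ultrafilter ι} {a : ι → ℝ} (ha : Tendsto a U (𝓝[>] 0))
    {u : ι → ℤ × ℤ → ℝ} {M : ℝ} (hM : 0 ≤ M)
    (h0 : ∀ᶠ n in (U : Filter ι), ENNReal.ofReal (a n ^ 2) * N2 (u n) ≤ ENNReal.ofReal M)
    (h1 : ∀ᶠ n in (U : Filter ι), N2 (dif1 (u n)) ≤ ENNReal.ofReal M)
    (h2 : ∀ᶠ n in (U : Filter ι), N2 (dif2 (u n)) ≤ ENNReal.ofReal M)
    {B : Set ℂ} (hB : Bornology.IsBounded B) (hBm : MeasurableSet B)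
    (hmem : ∀ n, MemLp (emb (a n) (u n)) 2 (volume.restrict B)) :
    ∃ F : ℂ → ℝ, MemLp F 2 (volume.restrict B) ∧
      Tendsto (fun n => eLpNorm (fun z => emb (a n) (u n) z - F z) 2 (volume.restrict B)) U
        (𝓝 0) := by
  refine exists_L2_lim _ hmem fun ε hε => ?_
  set r : ι → ℝ := fun n => 1 / a n with hr
  have hrt : Tendsto r U atTop := tendsto_one_div ha
  have hapos : ∀ᶠ n in (U : Filter ι), 0 < a n := ha.eventually self_mem_nhdsWithin
  have ha0 : Tendsto a U (𝓝 0) := ha.mono_right nhdsWithin_le_nhds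
  -- choice of the averaging scale
  set δ : ℝ := ε / (16 * (Real.sqrt M + 1)) with hδ
  have hδ0 : 0 < δ := by positivity
  set m : ι → ℕ := fun n => ⌈δ / a n⌉₊ with hm
  set c : ℝ := Real.sqrt M / δ with hc
  have hc0 : 0 ≤ c := by positivity
  set v : ι → ℤ × ℤ → ℝ := fun n => avg (m n) (avg (m n) (u n)) with hv
  have hmfac : ∀ᶠ n in (U : Filter ι), 0 < a n ∧ 0 < m n ∧ δ ≤ a n * m n ∧ a n * m n ≤ 2 * δ := by
    filter_upwards [hapos, ha0.eventually_le_const hδ0] with n h1 h2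
    have h3 : δ / a n ≤ m n := Nat.le_ceil _
    have h4 : (m n : ℝ) < δ / a n + 1 := Nat.ceil_lt_add_one (by positivity)
    refine ⟨h1, Nat.ceil_pos.2 (by positivity), ?_, ?_⟩
    · rw [div_le_iff₀ h1] at h3; linarith
    · have h5 : a n * m n ≤ a n * (δ / a n + 1) := by gcongr
      rw [mul_add, mul_div_cancel₀ _ h1.ne'] at h5
      linarith
  -- sup bounds
  have hsup : ∀ᶠ n in (U : Filter ι), ∀ f, |avg (m n) (u n) f| ≤ c := by
    filter_upwards [hmfac, h0] with n hn h0 f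
    obtain ⟨h1, h2, h3, -⟩ := hn
    refine abs_le_of_sq2_le hc0 ?_
    have h4 := sq2_avg_le h2 (u n) f
    have h5 : sq2 (avg (m n) (u n) f) * ENNReal.ofReal (δ ^ 2) ≤ ENNReal.ofReal M := by
      calc sq2 (avg (m n) (u n) f) * ENNReal.ofReal (δ ^ 2)
          ≤ sq2 (avg (m n) (u n) f) * ENNReal.ofReal ((a n * m n) ^ 2) := by gcongr
        _ = ENNReal.ofReal (a n ^ 2) * (sq2 (avg (m n) (u n) f) * (m n : ENNReal) ^ 2) := by
            rw [mul_pow, ENNReal.ofReal_mul (by positivity), ENNReal.ofReal_pow (Nat.cast_nonneg _),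
              ENNReal.ofReal_natCast]
            ring
        _ ≤ ENNReal.ofReal (a n ^ 2) * N2 (u n) := by gcongr
        _ ≤ ENNReal.ofReal M := h0
    have hδ2 : (0 : ℝ) < δ ^ 2 := by positivity
    rw [hc, div_pow, Real.sq_sqrt hM, ENNReal.ofReal_div_of_pos hδ2,
      ENNReal.le_div_iff_mul_le (Or.inl (by simp [hδ0.ne'])) (Or.inl ENNReal.ofReal_ne_top)]
    exact h5
  have bd0 : LocBd U r Set.univ v := by
    intro K _ _
    refine ⟨c, ?_⟩
    filter_upwards [hsup, hmfac] with n hn hm f _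
    exact abs_avg_le hm.2.1 _ hn f
  have hdif : ∀ᶠ n in (U : Filter ι), ∀ f, |r n * (v n (f + e1) - v n f)| ≤ 2 * c / δ ∧
      |r n * (v n (f + e2) - v n f)| ≤ 2 * c / δ := by
    filter_upwards [hsup, hmfac] with n hn hm f
    obtain ⟨k1, k2, k3, -⟩ := hm
    have h := dif_avg_le k2 _ hn f
    have hmm : (0 : ℝ) < m n := by exact_mod_cast k2
    have key : r n * (2 * c / m n) ≤ 2 * c / δ := by
      rw [hr]
      calc 1 / a n * (2 * c / m n) = 2 * c / (a n * m n) := by field_simp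
        _ ≤ 2 * c / δ := by gcongr
    have hrn : 0 < r n := by rw [hr]; positivity
    rw [abs_mul, abs_mul, abs_of_pos hrn]
    exact ⟨(mul_le_mul_of_nonneg_left h.1 hrn.le).trans key,
      (mul_le_mul_of_nonneg_left h.2 hrn.le).trans key⟩
  have bd1 : LocBd U r Set.univ fun n => Lim1x943.D1 (r n) (v n) := by
    intro K _ _
    refine ⟨2 * c / δ, ?_⟩
    filter_upwards [hdif] with n hn f _
    exact (hn f).1
  have bd2 : LocBd U r Set.univ fun n => Lim1x943.D2 (r n) (v n) := by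
    intro K _ _
    refine ⟨2 * c / δ, ?_⟩
    filter_upwards [hdif] with n hn f _
    exact (hn f).2
  obtain ⟨hVc, hVu⟩ := Lim1x943.exists_limit hrt isOpen_univ bd0 bd1 bd2
  set V := lim U r v with hVdef
  have hVcont : Continuous V := continuousOn_univ.1 hVc
  -- strong convergence of the averages
  obtain ⟨R, hR⟩ := hB.subset_closedBall (0 : ℂ)
  have hstr := Lim2x943.strong (B := B) (B' := Metric.closedBall 0 (R + 1)) (δ := 1) hrt
    isOpen_univ hB hBm one_pos
    (fun z hz w hw => by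
      have k1 := hR hz
      rw [Metric.mem_closedBall] at k1 ⊢
      have k2 := Lim1x943.dist_le_d1 w z
      have k3 := dist_triangle w z 0
      linarith)
    (v := v) (F := V) (fun η hη => ⟨Metric.closedBall 0 (R + 1), isCompact_closedBall _ _,
      Set.subset_univ _, by
        filter_upwards with n S hS
        have : S = ∅ := by
          rw [Finset.eq_empty_iff_forall_notMem]
          intro f hf
          exact (hS f hf).2 (hS f hf).1
        rw [this, Finset.sum_empty]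
        positivity⟩) hVc hVu
  have hstr2 := Lim2x943.nrm_tendsto_zero hstr
  refine ⟨V, ?_, ?_⟩
  · have hfin : IsFiniteMeasure (volume.restrict B) :=
      ⟨by rw [Measure.restrict_apply_univ]; exact hB.measure_lt_top⟩
    obtain ⟨C, hC⟩ := (isCompact_closedBall (0 : ℂ) R).exists_bound_of_continuousOn
      hVcont.continuousOn
    refine MemLp.of_bound hVcont.aestronglyMeasurable C ?_
    filter_upwards [ae_restrict_mem hBm] with z hz
    exact hC z (hR hz)
  · have hev : ∀ᶠ n in (U : Filter ι), nrm B (fun z => v n (flr (r n) z) - Set.univ.indicator V z)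
        ≤ ENNReal.ofReal (ε / 2) :=
      hstr2.eventually_le_const (by simp [hε])
    filter_upwards [hev, h1, h2, hmfac] with n hn h1 h2 hm
    obtain ⟨k1, k2, -, k4⟩ := hm
    rw [← Lim2x943.nrm_eq_eLpNorm]
    have e : (fun z => emb (a n) (u n) z - V z) = fun z =>
        (emb (a n) (u n) z - emb (a n) (v n) z) + (v n (flr (r n) z) - Set.univ.indicator V z) := by
      ext z
      rw [hr]
      simp only [flr_eq, emb, Set.indicator_univ]
      ring
    rw [e]
    have hmeas1 : Measurable fun z => emb (a n) (u n) z - emb (a n) (v n) z :=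
      (Embx622.emb_measurable _ _).sub (Embx622.emb_measurable _ _)
    have hmeas2 : Measurable fun z => v n (flr (r n) z) - Set.univ.indicator V z := by
      rw [Set.indicator_univ]
      exact (Lim2x943.measurable_comp_flr _ (v n)).sub hVcont.measurable
    refine (Lim2x943.nrm_add_le hmeas1.aemeasurable hmeas2.aemeasurable).trans ?_
    have hfirst : nrm B (fun z => emb (a n) (u n) z - emb (a n) (v n) z)
        ≤ ENNReal.ofReal (ε / 2) := by
      have k5 : ∫⁻ z in B, sq2 (emb (a n) (u n) z - emb (a n) (v n) z)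
          ≤ ENNReal.ofReal ((ε / 2) ^ 2) := by
        have q1 := nrm_univ_emb k1 B (fun f => u n f - v n f)
        refine q1.trans ?_
        have q2 : N2 (fun f => u n f - v n f) = N2 (fun f => v n f - u n f) := by
          unfold N2
          refine tsum_congr fun f => ?_
          rw [← Lim2x943.sq2_neg, neg_sub]
        rw [q2]
        have q3 := N2_sub_avg2 k2 (u n)
        calc ENNReal.ofReal (a n ^ 2) * N2 (fun f => v n f - u n f)
            ≤ ENNReal.ofReal (a n ^ 2) * (8 * (m n : ENNReal) ^ 2 *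
              (ENNReal.ofReal M + ENNReal.ofReal M)) := by
              gcongr
              exact q3.trans (by gcongr)
          _ = ENNReal.ofReal (16 * (a n * m n) ^ 2 * M) := by
              rw [← ENNReal.ofReal_add hM hM, ← ENNReal.ofReal_natCast,
                ← ENNReal.ofReal_pow (Nat.cast_nonneg _),
                show (8 : ENNReal) = ENNReal.ofReal 8 by simp,
                ← ENNReal.ofReal_mul (by norm_num), ← ENNReal.ofReal_mul (by positivity),
                ← ENNReal.ofReal_mul (by positivity)]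
              congr 1
              ring
          _ ≤ ENNReal.ofReal ((ε / 2) ^ 2) := by
              apply ENNReal.ofReal_le_ofReal
              have q4 : 16 * (a n * m n) ^ 2 * M ≤ 16 * (2 * δ) ^ 2 * M := by
                gcongr
              refine q4.trans ?_
              have q5 : 16 * (2 * δ) ^ 2 * M = (8 * δ * Real.sqrt M) ^ 2 := by
                rw [mul_pow (8 * δ), Real.sq_sqrt hM]; ring
              rw [q5]
              have q6 : 8 * δ * Real.sqrt M ≤ ε / 2 := by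
                rw [hδ]
                have : 8 * (ε / (16 * (Real.sqrt M + 1))) * Real.sqrt M
                    = ε / 2 * (Real.sqrt M / (Real.sqrt M + 1)) := by
                  field_simp
                  ring
                rw [this]
                have h6 : Real.sqrt M / (Real.sqrt M + 1) ≤ 1 := by
                  rw [div_le_one (by positivity)]; linarith
                nlinarith
              gcongr
      unfold Lim2x943.nrm
      calc (∫⁻ z in B, sq2 (emb (a n) (u n) z - emb (a n) (v n) z)) ^ (1 / 2 : ℝ)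
          ≤ (ENNReal.ofReal ((ε / 2) ^ 2)) ^ (1 / 2 : ℝ) :=
            ENNReal.rpow_le_rpow k5 (by norm_num)
        _ = ENNReal.ofReal (ε / 2) := by
            rw [ENNReal.ofReal_rpow_of_nonneg (by positivity) (by norm_num), ← Real.sqrt_eq_rpow,
              Real.sqrt_sq (by positivity)]
    refine (add_le_add hfirst hn).trans ?_
    rw [← ENNReal.ofReal_add (by positivity) (by positivity)]
    simp

end Crest.Agent.R165.Relx943
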