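import Mathlib

/-!
# Row 165 (S0250), block U: continuum evaluation of `∫ (∂χ) H` (helper439)

* `db χ z = χ_x(z) + i χ_y(z)`
* `integral_db_mul` : `∫ db φ * H = 0` when `φ` is `C¹` with compact support in an open set on which
  `H` is holomorphic
* `integral_radial` : polar coordinates
* `integral_db_circle` : `∫ db χ * H = i c` when `χ` is a `C¹` cut-off (`= 1` near `x`, compactly
  supported in the ball) and `c` is the integral of `H` over the small circles
* `integral_db_pole` (simple pole), `integral_db_pole2` (double pole): value `-2π · residue`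
-/

set_option autoImplicit false

noncomputable section

open MeasureTheory Set Filter Topology Metric Complex

namespace Crest.Agent.R165.ResIntx439

/-- `χ_x + i χ_y` -/
def db (χ : ℂ → ℂ) (z : ℂ) : ℂ := fderiv ℝ χ z 1 + I * fderiv ℝ χ z I

theorem db_add {χ φ : ℂ → ℂ} {z : ℂ} (h : DifferentiableAt ℝ χ z) (h' : DifferentiableAt ℝ φ z) :
    db (fun z => χ z + φ z) z = db χ z + db φ z := by
  unfold db
  rw [show (fun z => χ z + φ z) = χ + φ from rfl, fderiv_add h h']
  simp only [_root_.add_apply]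
  ring

theorem db_sub {χ φ : ℂ → ℂ} {z : ℂ} (h : DifferentiableAt ℝ χ z) (h' : DifferentiableAt ℝ φ z) :
    db (fun z => χ z - φ z) z = db χ z - db φ z := by
  unfold db
  rw [show (fun z => χ z - φ z) = χ - φ from rfl, fderiv_sub h h']
  simp only [_root_.sub_apply]
  ring

theorem db_congr {χ φ : ℂ → ℂ} {z : ℂ} (h : χ =ᶠ[𝓝 z] φ) : db χ z = db φ z := by
  unfold db; rw [h.fderiv_eq]

theorem db_const (c : ℂ) (z : ℂ) : db (fun _ => c) z = 0 := by simp [db]

theorem db_eq_zero_of_tsupport {χ : ℂ → ℂ} {z : ℂ} (h : z ∉ tsupport χ) : db χ z = 0 := by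
  have h1 : χ =ᶠ[𝓝 z] fun _ => 0 := notMem_tsupport_iff_eventuallyEq.1 h
  rw [db_congr h1, db_const]

theorem continuous_db {χ : ℂ → ℂ} (h : ContDiff ℝ 1 χ) : Continuous (db χ) := by
  have h1 : Continuous (fderiv ℝ χ) := h.continuous_fderiv one_ne_zero
  unfold db
  exact (h1.clm_apply continuous_const).add
    (continuous_const.mul (h1.clm_apply continuous_const))

/-- a product with a factor which is only nice on the support of the other -/
theorem continuous_mul_of {φ F : ℂ → ℂ} (hφ : Continuous φ)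
    (hF : ∀ z ∈ tsupport φ, ContinuousAt F z) : Continuous fun z => φ z * F z := by
  rw [continuous_iff_continuousAt]
  intro z
  by_cases hz : z ∈ tsupport φ
  · exact hφ.continuousAt.mul (hF z hz)
  · have h1 : φ =ᶠ[𝓝 z] fun _ => 0 := notMem_tsupport_iff_eventuallyEq.1 hz
    have h2 : (fun z => φ z * F z) =ᶠ[𝓝 z] fun _ => 0 := by
      filter_upwards [h1] with w hw
      rw [hw, zero_mul]
    exact (continuousAt_const (y := (0 : ℂ))).congr h2.symm

theorem hcs_mul {φ F : ℂ → ℂ} (hc : HasCompactSupport φ) : HasCompactSupport fun z => φ z * F z :=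
  hc.mul_right

theorem integrable_mul_of {φ F : ℂ → ℂ} (hφ : Continuous φ) (hc : HasCompactSupport φ)
    (hF : ∀ z ∈ tsupport φ, ContinuousAt F z) : Integrable fun z => φ z * F z :=
  (continuous_mul_of hφ hF).integrable_of_hasCompactSupport (hcs_mul hc)

/-- the cutoff derivative is supported in the support of the cutoff -/
theorem tsupport_fderiv_apply (φ : ℂ → ℂ) (v : ℂ) :
    tsupport (fun z => fderiv ℝ φ z v) ⊆ tsupport φ := by
  refine closure_minimal ?_ (isClosed_tsupport φ)
  intro z hz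
  by_contra h
  have h1 : φ =ᶠ[𝓝 z] fun _ => 0 := notMem_tsupport_iff_eventuallyEq.1 h
  apply hz
  show fderiv ℝ φ z v = 0
  rw [h1.fderiv_eq]
  simp

theorem fderiv_real_of_complex {H : ℂ → ℂ} {z : ℂ} (h : DifferentiableAt ℂ H z) (v : ℂ) :
    fderiv ℝ H z v = v * deriv H z := by
  rw [h.fderiv_restrictScalars ℝ, ContinuousLinearMap.coe_restrictScalars', ← smul_eq_mul,
    ← fderiv_apply_one_eq_deriv, ← map_smul, smul_eq_mul, mul_one]

/-- **no residue**: compactly supported test functions -/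
theorem integral_db_mul {Ω : Set ℂ} (hΩ : IsOpen Ω) {φ H : ℂ → ℂ} (hφ : ContDiff ℝ 1 φ)
    (hc : HasCompactSupport φ) (hs : tsupport φ ⊆ Ω) (hH : DifferentiableOn ℂ H Ω) :
    ∫ z, db φ z * H z = 0 := by
  have hcont : ∀ z ∈ Ω, ContinuousAt H z := fun z hz =>
    (hH.differentiableAt (hΩ.mem_nhds hz)).continuousAt
  have hfd : ∀ v : ℂ, ∀ z ∈ Ω, ContinuousAt (fun z => fderiv ℝ H z v) z := by
    intro v z hz
    have h1 : ContinuousAt (fun w => v * deriv H w) z :=
      continuousAt_const.mul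
        ((hH.deriv hΩ).differentiableAt (hΩ.mem_nhds hz)).continuousAt
    refine h1.congr ?_
    filter_upwards [hΩ.mem_nhds hz] with w hw
    exact (fderiv_real_of_complex (hH.differentiableAt (hΩ.mem_nhds hw)) v).symm
  have hφc : ∀ v : ℂ, Continuous fun z => fderiv ℝ φ z v := fun v =>
    (hφ.continuous_fderiv one_ne_zero).clm_apply continuous_const
  have hφs : ∀ v : ℂ, HasCompactSupport fun z => fderiv ℝ φ z v := fun v =>
    HasCompactSupport.intro' hc.isCompact (isClosed_tsupport φ) fun z hz =>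
      image_eq_zero_of_notMem_tsupport (f := fun z => fderiv ℝ φ z v)
        fun h => hz (tsupport_fderiv_apply φ v h)
  have hint : ∀ v : ℂ, Integrable fun z => fderiv ℝ φ z v * H z := fun v =>
    integrable_mul_of (hφc v) (hφs v) fun z hz => hcont z (hs (tsupport_fderiv_apply φ v hz))
  have key : ∀ v : ℂ, ∫ z, fderiv ℝ φ z v * H z = -∫ z, φ z * (v * deriv H z) := by
    intro v
    have h1 := integral_mul_fderiv_eq_neg_fderiv_mul_of_integrable (μ := (volume : Measure ℂ))
      (𝕜 := ℂ) (f := φ) (g := H) (v := v) (hint v)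
      (integrable_mul_of hφ.continuous hc fun z hz => hfd v z (hs hz))
      (integrable_mul_of hφ.continuous hc fun z hz => hcont z (hs hz))
      (fun z _ => (hφ.differentiable one_ne_zero) z)
      (fun z hz => (hH.differentiableAt (hΩ.mem_nhds (hs hz))).restrictScalars ℝ)
    rw [← neg_eq_iff_eq_neg, ← h1]
    refine integral_congr_ae (ae_of_all _ fun z => ?_)
    show φ z * fderiv ℝ H z v = φ z * (v * deriv H z)
    by_cases hz : z ∈ tsupport φ
    · rw [fderiv_real_of_complex (hH.differentiableAt (hΩ.mem_nhds (hs hz)))]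
    · rw [image_eq_zero_of_notMem_tsupport hz, zero_mul, zero_mul]
  have e1 : (fun z => db φ z * H z) =
      fun z => fderiv ℝ φ z 1 * H z + I * (fderiv ℝ φ z I * H z) := by
    funext z; unfold db; ring
  rw [e1, integral_add (hint 1) ((hint I).const_mul I), integral_const_mul, key 1, key I,
    ← integral_neg, ← integral_neg, ← integral_const_mul, ← integral_add]
  · rw [← integral_zero ℂ ℂ (μ := volume)]
    refine integral_congr_ae (ae_of_all _ fun z => ?_)
    show -(φ z * (1 * deriv H z)) + I * -(φ z * (I * deriv H z)) = 0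
    have := I_mul_I
    linear_combination (-φ z * deriv H z) * this
  · refine (integrable_mul_of hφ.continuous hc fun z hz => ?_).neg
    exact continuousAt_const.mul
        ((hH.deriv hΩ).differentiableAt (hΩ.mem_nhds (hs hz))).continuousAt
  · refine (integrable_mul_of hφ.continuous hc fun z hz => ?_).neg.const_mul I
    exact continuousAt_const.mul
        ((hH.deriv hΩ).differentiableAt (hΩ.mem_nhds (hs hz))).continuousAt

/-! ### polar coordinates -/

/-- the angular integral -/
theorem angular (x : ℂ) (t : ℝ) (H : ℂ → ℂ) :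
    ∫ φ in Ioo (-Real.pi) Real.pi, (circleMap 0 t φ) * H (circleMap x t φ) =
      -I * ∮ z in C(x, t), H z := by
  have hper : Function.Periodic (fun φ : ℝ => circleMap 0 t φ * H (circleMap x t φ))
      (2 * Real.pi) := fun φ => by
    show circleMap 0 t (φ + 2 * Real.pi) * H (circleMap x t (φ + 2 * Real.pi)) = _
    rw [periodic_circleMap, periodic_circleMap]
  rw [← integral_Ioc_eq_integral_Ioo, ← intervalIntegral.integral_of_le (by linarith [Real.pi_pos])]
  have h1 := hper.intervalIntegral_add_eq (-Real.pi) 0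
  rw [show -Real.pi + 2 * Real.pi = Real.pi by ring, zero_add] at h1
  rw [h1, circleIntegral, ← intervalIntegral.integral_const_mul]
  refine intervalIntegral.integral_congr fun φ _ => ?_
  show circleMap 0 t φ * H (circleMap x t φ) =
    -I * (deriv (circleMap x t) φ • H (circleMap x t φ))
  rw [deriv_circleMap, smul_eq_mul]
  have := I_mul_I
  linear_combination (circleMap 0 t φ * H (circleMap x t φ)) * this

/-- **radial test functions** -/
theorem integral_radial {x : ℂ} {r δ ρ : ℝ} (hδ : 0 < δ) (hρ : ρ < r) {H : ℂ → ℂ} {g : ℝ → ℝ}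
    (hg : Continuous g) (hg0 : ∀ t, 0 ≤ t → t ≤ δ → g t = 0) (hg1 : ∀ t, ρ ≤ t → g t = 0)
    (hH : ContinuousOn H (ball x r \ {x})) {c : ℂ}
    (hc : ∀ t, 0 < t → t < r → ∮ z in C(x, t), H z = c) :
    ∫ z, (g ‖z - x‖ : ℂ) * (z - x) * H z = (-I * c) * ∫ t in Ioi (0 : ℝ), ((t * g t : ℝ) : ℂ) := by
  -- the integrand is continuous with compact support
  set F : ℂ → ℂ := fun z => (g ‖z‖ : ℂ) * z * H (x + z) with hF
  have hr0 : ∀ z : ℂ, z ≠ 0 → ‖z‖ < r → ContinuousAt (fun z => H (x + z)) z := by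
    intro z hz hzr
    have h1 : ContinuousAt H (x + z) := by
      refine hH.continuousAt (IsOpen.mem_nhds (isOpen_ball.sdiff isClosed_singleton) ⟨?_, ?_⟩)
      · rw [mem_ball, dist_eq_norm, add_sub_cancel_left]; exact hzr
      · intro h
        rw [mem_singleton_iff] at h
        exact hz (by simpa using h)
    exact ContinuousAt.comp (f := fun z => x + z) h1 (by fun_prop)
  have hFc : Continuous F := by
    rw [continuous_iff_continuousAt]
    intro z
    by_cases h1 : ‖z‖ < δ
    · have h2 : F =ᶠ[𝓝 z] fun _ => 0 := by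
        filter_upwards [(isOpen_lt continuous_norm continuous_const).mem_nhds h1] with w hw
        simp only [hF]
        rw [hg0 _ (norm_nonneg _) (le_of_lt hw)]; simp
      exact (continuousAt_const (y := (0 : ℂ))).congr h2.symm
    · by_cases h3 : ρ < ‖z‖
      · have h2 : F =ᶠ[𝓝 z] fun _ => 0 := by
          filter_upwards [(isOpen_lt continuous_const continuous_norm).mem_nhds h3] with w hw
          simp only [hF]
          rw [hg1 _ (le_of_lt hw)]; simp
        exact (continuousAt_const (y := (0 : ℂ))).congr h2.symm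
      · push Not at h1 h3
        have hz : z ≠ 0 := fun h => by rw [h, norm_zero] at h1; linarith
        have h4 := hr0 z hz (lt_of_le_of_lt h3 hρ)
        exact ContinuousAt.mul (by fun_prop) h4
  have hF0 : ∀ z, ρ ≤ ‖z‖ → F z = 0 := fun z hz => by
    simp only [hF]; rw [hg1 _ hz]; simp
  rw [← integral_add_left_eq_self _ x]
  have e1 : (fun z => (g ‖x + z - x‖ : ℂ) * (x + z - x) * H (x + z)) = F := by
    funext z
    simp only [hF, add_sub_cancel_left]
  rw [e1, ← Complex.integral_comp_polarCoord_symm]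
  have htar : Complex.polarCoord.target = Ioi (0 : ℝ) ×ˢ Ioo (-Real.pi) Real.pi :=
    Complex.polarCoord_target
  rw [show polarCoord.target = Ioi (0 : ℝ) ×ˢ Ioo (-Real.pi) Real.pi from rfl]
  set P : ℝ × ℝ → ℂ := fun p => p.1 • F (Complex.polarCoord.symm p) with hP
  have hPc : Continuous P := by
    have : Continuous fun p : ℝ × ℝ => Complex.polarCoord.symm p := by
      simp only [Complex.polarCoord_symm_apply]
      fun_prop
    exact continuous_fst.smul (hFc.comp this)
  have hP0 : ∀ p : ℝ × ℝ, ρ ≤ p.1 → 0 < p.1 → P p = 0 := by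
    intro p hp hp0
    simp only [hP]
    rw [hF0 _ (by rw [Complex.norm_polarCoord_symm, abs_of_pos hp0]; exact hp), smul_zero]
  have hint : IntegrableOn P (Ioi (0 : ℝ) ×ˢ Ioo (-Real.pi) Real.pi) (volume.prod volume) := by
    have hK : IsCompact (Icc (0 : ℝ) (max ρ 0) ×ˢ Icc (-Real.pi) Real.pi) :=
      isCompact_Icc.prod isCompact_Icc
    have h1 : IntegrableOn P (Icc (0 : ℝ) (max ρ 0) ×ˢ Icc (-Real.pi) Real.pi)
        (volume.prod volume) := hPc.continuousOn.integrableOn_compact hK
    have h2 : IntegrableOn P ((Ioi (0 : ℝ) ×ˢ Ioo (-Real.pi) Real.pi) \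
        (Icc (0 : ℝ) (max ρ 0) ×ˢ Icc (-Real.pi) Real.pi)) (volume.prod volume) := by
      refine (integrableOn_zero (ε' := ℂ)).congr_fun ?_ ?_
      · intro p hp
        obtain ⟨⟨hp1, hp2⟩, hp3⟩ := hp
        rw [mem_Ioi] at hp1
        have : ρ ≤ p.1 := by
          by_contra hcon
          push Not at hcon
          exact hp3 ⟨⟨hp1.le, hcon.le.trans (le_max_left _ _)⟩, Ioo_subset_Icc_self hp2⟩
        exact (hP0 p this hp1).symm
      · exact (measurableSet_Ioi.prod measurableSet_Ioo).diff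
          (measurableSet_Icc.prod measurableSet_Icc)
    exact (h1.union h2).mono_set fun p hp => by
      by_cases hq : p ∈ (Icc (0 : ℝ) (max ρ 0) ×ˢ Icc (-Real.pi) Real.pi)
      · exact Or.inl hq
      · exact Or.inr ⟨hp, hq⟩
  rw [show (volume : Measure (ℝ × ℝ)) = volume.prod volume from rfl,
    setIntegral_prod _ hint, ← integral_const_mul]
  refine setIntegral_congr_fun measurableSet_Ioi fun t ht => ?_
  rw [mem_Ioi] at ht
  show ∫ φ in Ioo (-Real.pi) Real.pi, P (t, φ) = (-I * c) * ((t * g t : ℝ) : ℂ)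
  have e2 : ∀ φ : ℝ, P (t, φ) = ((t * g t : ℝ) : ℂ) * (circleMap 0 t φ * H (circleMap x t φ)) := by
    intro φ
    have e3 : Complex.polarCoord.symm (t, φ) = circleMap 0 t φ := by
      rw [Complex.polarCoord_symm_apply, circleMap_zero, Complex.exp_mul_I]
      simp
    have e4 : circleMap x t φ = x + circleMap 0 t φ := by simp [circleMap]
    simp only [hP, hF, e3, e4]
    rw [norm_circleMap_zero, abs_of_pos ht, Complex.real_smul]
    push_cast
    ring
  rw [setIntegral_congr_fun measurableSet_Ioo fun φ _ => e2 φ, integral_const_mul, angular x t]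
  by_cases htr : t < r
  · rw [hc t ht htr]; ring
  · rw [hg1 t (by linarith)]; simp

/-! ### a radial cut-off -/

/-- smooth cut-off on the line: `1` below `a`, `0` above `b` -/
def cut (a b s : ℝ) : ℝ := 1 - Real.smoothTransition ((s - a) / (b - a))

theorem cut_contDiff (a b : ℝ) : ContDiff ℝ 2 (cut a b) := by
  unfold cut
  exact contDiff_const.sub (Real.smoothTransition.contDiff.comp (by fun_prop))

theorem cut_one {a b s : ℝ} (hab : a < b) (h : s ≤ a) : cut a b s = 1 := by
  unfold cut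
  rw [Real.smoothTransition.zero_of_nonpos (div_nonpos_of_nonpos_of_nonneg (by linarith)
    (by linarith)), sub_zero]

theorem cut_zero {a b s : ℝ} (hab : a < b) (h : b ≤ s) : cut a b s = 0 := by
  unfold cut
  rw [Real.smoothTransition.one_of_one_le ((one_le_div (by linarith)).2 (by linarith)), sub_self]

theorem deriv_cut_zero {a b s : ℝ} (hab : a < b) (h : s < a ∨ b < s) : deriv (cut a b) s = 0 := by
  rcases h with h | h
  · have : cut a b =ᶠ[𝓝 s] fun _ => 1 := by
      filter_upwards [eventually_lt_nhds h] with t ht using cut_one hab ht.le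
    rw [this.deriv_eq, deriv_const]
  · have : cut a b =ᶠ[𝓝 s] fun _ => 0 := by
      filter_upwards [eventually_gt_nhds h] with t ht using cut_zero hab ht.le
    rw [this.deriv_eq, deriv_const]

/-- radial cut-off -/
def rc (x : ℂ) (a b : ℝ) (z : ℂ) : ℂ := ((cut a b (‖z - x‖ ^ 2) : ℝ) : ℂ)

theorem rc_contDiff (x : ℂ) (a b : ℝ) : ContDiff ℝ 1 (rc x a b) := by
  unfold rc
  have h1 : ContDiff ℝ 1 fun z : ℂ => ‖z - x‖ ^ 2 :=
    (contDiff_id.sub contDiff_const).norm_sq ℝ
  exact ofRealCLM.contDiff.comp (((cut_contDiff a b).of_le (by norm_num)).comp h1)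

theorem db_rc (x : ℂ) (a b : ℝ) (z : ℂ) :
    db (rc x a b) z = ((2 * deriv (cut a b) (‖z - x‖ ^ 2) : ℝ) : ℂ) * (z - x) := by
  have h1 : HasFDerivAt (fun z : ℂ => ‖z - x‖ ^ 2) (2 • (innerSL ℝ (z - x))) z := by
    have h := (hasStrictFDerivAt_norm_sq (z - x)).hasFDerivAt.comp z
      ((hasFDerivAt_id z).sub_const x)
    rw [ContinuousLinearMap.comp_id] at h
    exact h
  have h2 : HasDerivAt (cut a b) (deriv (cut a b) (‖z - x‖ ^ 2)) (‖z - x‖ ^ 2) :=
    (((cut_contDiff a b).differentiable (by norm_num)) _).hasDerivAt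
  have h3 := ofRealCLM.hasFDerivAt.comp z (h2.comp_hasFDerivAt z h1)
  have h4 : fderiv ℝ (rc x a b) z = _ := HasFDerivAt.fderiv h3
  unfold db
  rw [h4]
  simp only [ContinuousLinearMap.comp_apply, smul_apply, innerSL_apply_apply, Complex.inner,
    smul_eq_mul, nsmul_eq_mul, ofRealCLM_apply, conj_re, mul_re, conj_im, I_re, I_im]
  apply Complex.ext <;> simp <;> ring

theorem tsupport_rc {x : ℂ} {a b r : ℝ} (hab : a < b) (hr : 0 < r) (hb : b < r ^ 2) :
    tsupport (rc x a b) ⊆ ball x r := by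
  have h1 : Function.support (rc x a b) ⊆ {z | ‖z - x‖ ^ 2 ≤ b} := by
    intro z hz
    by_contra hcon
    simp only [mem_ofPred_eq, not_le] at hcon
    exact hz (by simp [rc, cut_zero hab hcon.le])
  have h2 : IsClosed {z : ℂ | ‖z - x‖ ^ 2 ≤ b} := isClosed_le (by fun_prop) continuous_const
  intro z hz
  have h3 : ‖z - x‖ ^ 2 ≤ b := (closure_minimal h1 h2) hz
  rw [mem_ball, dist_eq_norm]
  exact lt_of_pow_lt_pow_left₀ 2 hr.le (by linarith)

theorem hcs_of_tsupport_ball {χ : ℂ → ℂ} {x : ℂ} {r : ℝ} (h : tsupport χ ⊆ ball x r) :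
    HasCompactSupport χ :=
  HasCompactSupport.of_support_subset_isCompact (isCompact_closedBall x r)
    ((subset_tsupport χ).trans (h.trans ball_subset_closedBall))

theorem rc_one_near {x : ℂ} {a b : ℝ} (ha : 0 < a) (hab : a < b) : rc x a b =ᶠ[𝓝 x] fun _ => 1 := by
  have h : IsOpen {z : ℂ | ‖z - x‖ ^ 2 < a} := isOpen_lt (by fun_prop) continuous_const
  filter_upwards [h.mem_nhds (by simpa using ha)] with z hz
  simp [rc, cut_one hab (le_of_lt hz)]

/-- the radial integral of the derivative of the cut-off -/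
theorem integral_cut {a b : ℝ} (ha : 0 < a) (hab : a < b) :
    ∫ t in Ioi (0 : ℝ), ((t * (2 * deriv (cut a b) (t ^ 2)) : ℝ) : ℂ) = -1 := by
  rw [integral_complex_ofReal]
  have hd : ∀ t : ℝ, HasDerivAt (fun t => cut a b (t ^ 2)) (t * (2 * deriv (cut a b) (t ^ 2))) t := by
    intro t
    have h2 : HasDerivAt (cut a b) (deriv (cut a b) (t ^ 2)) (t ^ 2) :=
      (((cut_contDiff a b).differentiable (by norm_num)) _).hasDerivAt
    have h3 := HasDerivAt.comp (h₂ := cut a b) (h := fun t : ℝ => t ^ 2) t h2 (hasDerivAt_pow 2 t)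
    have e : deriv (cut a b) (t ^ 2) * (((2 : ℕ) : ℝ) * t ^ (2 - 1)) =
      t * (2 * deriv (cut a b) (t ^ 2)) := by norm_num; ring
    rw [e] at h3
    exact h3
  have hcont : Continuous fun t : ℝ => t * (2 * deriv (cut a b) (t ^ 2)) := by
    have : Continuous (deriv (cut a b)) := (cut_contDiff a b).continuous_deriv (by norm_num)
    fun_prop
  have hlim : Tendsto (fun t : ℝ => cut a b (t ^ 2)) atTop (𝓝 0) := by
    refine tendsto_const_nhds.congr' ?_
    filter_upwards [eventually_ge_atTop (max b 1)] with t ht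
    have h1 : 1 ≤ t := (le_max_right _ _).trans ht
    have h2 : b ≤ t := (le_max_left _ _).trans ht
    exact (cut_zero hab (by nlinarith)).symm
  have hint : IntegrableOn (fun t : ℝ => t * (2 * deriv (cut a b) (t ^ 2))) (Ioi 0) := by
    have hs : HasCompactSupport fun t : ℝ => t * (2 * deriv (cut a b) (t ^ 2)) := by
      refine HasCompactSupport.of_support_subset_isCompact
        (isCompact_Icc (a := -(max b 1)) (b := max b 1)) ?_
      intro t ht
      by_contra hcon
      rw [mem_Icc, ← abs_le, not_le] at hcon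
      apply ht
      have h1 : 1 < |t| := lt_of_le_of_lt (le_max_right _ _) hcon
      have h2 : b < |t| := lt_of_le_of_lt (le_max_left _ _) hcon
      show t * (2 * deriv (cut a b) (t ^ 2)) = 0
      rw [deriv_cut_zero hab (Or.inr (by rw [← sq_abs]; nlinarith))]
      ring
    exact (hcont.integrable_of_hasCompactSupport hs).integrableOn
  have h := integral_Ioi_of_hasDerivAt_of_tendsto (a := 0)
    (hd 0).continuousAt.continuousWithinAt (fun t _ => hd t) hint hlim
  rw [h, show (0 : ℝ) ^ 2 = 0 by norm_num, cut_one hab ha.le]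
  norm_num

theorem integral_rc {x : ℂ} {r a b : ℝ} (hr : 0 < r) (ha : 0 < a) (hab : a < b) (hb : b < r ^ 2)
    {H : ℂ → ℂ} (hH : ContinuousOn H (ball x r \ {x})) {c : ℂ}
    (hc : ∀ t, 0 < t → t < r → ∮ z in C(x, t), H z = c) :
    ∫ z, db (rc x a b) z * H z = I * c := by
  -- radii
  obtain ⟨ρ, hρ1, hρ2⟩ : ∃ ρ, √b < ρ ∧ ρ < r := by
    refine exists_between ?_
    rw [Real.sqrt_lt' hr]; exact hb
  have hρ0 : 0 < ρ := lt_of_le_of_lt (Real.sqrt_nonneg _) hρ1
  obtain ⟨δ, hδ1, hδ2⟩ : ∃ δ, 0 < δ ∧ δ < √a := exists_between (Real.sqrt_pos.2 ha)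
  have hcont : Continuous fun t : ℝ => 2 * deriv (cut a b) (t ^ 2) := by
    have : Continuous (deriv (cut a b)) := (cut_contDiff a b).continuous_deriv (by norm_num)
    fun_prop
  have h := integral_radial (x := x) (r := r) (H := H) hδ1 hρ2 hcont (fun t ht0 ht => ?_)
    (fun t ht => ?_) hH hc
  · rw [integral_cut ha hab] at h
    calc ∫ z, db (rc x a b) z * H z
        = ∫ z, ((2 * deriv (cut a b) (‖z - x‖ ^ 2) : ℝ) : ℂ) * (z - x) * H z := by
          refine integral_congr_ae (ae_of_all _ fun z => ?_)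
          show db (rc x a b) z * H z = _
          rw [db_rc]
      _ = (-I * c) * (-1) := h
      _ = I * c := by ring
  · show 2 * deriv (cut a b) (t ^ 2) = 0
    rw [deriv_cut_zero hab (Or.inl ?_), mul_zero]
    rw [← Real.lt_sqrt ht0]
    exact lt_of_le_of_lt ht hδ2
  · show 2 * deriv (cut a b) (t ^ 2) = 0
    rw [deriv_cut_zero hab (Or.inr ?_), mul_zero]
    have h0 : √b < t := lt_of_lt_of_le hρ1 ht
    exact Real.lt_sq_of_sqrt_lt h0

/-- `db χ` is supported in `tsupport χ`, away from the points near which `χ` is constant -/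
theorem tsupport_db {χ : ℂ → ℂ} {x : ℂ} {c : ℂ} (h : χ =ᶠ[𝓝 x] fun _ => c) :
    tsupport (db χ) ⊆ tsupport χ \ {x} := by
  intro z hz
  constructor
  · have : Function.support (db χ) ⊆ tsupport χ := fun w hw => by
      by_contra hcon
      exact hw (db_eq_zero_of_tsupport hcon)
    exact closure_minimal this (isClosed_tsupport χ) hz
  · rw [mem_singleton_iff]
    rintro rfl
    have h1 : db χ =ᶠ[𝓝 z] fun _ => 0 := by
      filter_upwards [h.eventuallyEq_nhds] with w hw
      rw [db_congr hw, db_const]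
    exact (notMem_tsupport_iff_eventuallyEq.2 h1) hz

theorem integrable_db_mul {x : ℂ} {r : ℝ} {H χ : ℂ → ℂ} (hH : ContinuousOn H (ball x r \ {x}))
    (hχ : ContDiff ℝ 1 χ) (hs : tsupport χ ⊆ ball x r) {c : ℂ} (h1 : χ =ᶠ[𝓝 x] fun _ => c) :
    Integrable fun z => db χ z * H z := by
  refine integrable_mul_of (continuous_db hχ) ?_ fun z hz => ?_
  · exact hcs_of_tsupport_ball ((tsupport_db h1).trans (sdiff_subset.trans hs))
  · have h2 := tsupport_db h1 hz
    exact hH.continuousAt (IsOpen.mem_nhds (isOpen_ball.sdiff isClosed_singleton)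
      ⟨hs h2.1, h2.2⟩)

/-- **evaluation**: `∫ (χ_x + i χ_y) H = i ∮ H` for a cut-off `χ` which is `1` near `x` -/
theorem integral_db_circle {x : ℂ} {r : ℝ} (hr : 0 < r) {H χ : ℂ → ℂ}
    (hH : DifferentiableOn ℂ H (ball x r \ {x})) {c : ℂ}
    (hc : ∀ t, 0 < t → t < r → ∮ z in C(x, t), H z = c)
    (hχ : ContDiff ℝ 1 χ) (hs : tsupport χ ⊆ ball x r) (h1 : χ =ᶠ[𝓝 x] fun _ => 1) :
    ∫ z, db χ z * H z = I * c := by
  have hr2 : 0 < r ^ 2 := by positivity
  have ha : 0 < r ^ 2 / 3 := by positivity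
  have hab : r ^ 2 / 3 < r ^ 2 / 2 := by linarith
  have hb : r ^ 2 / 2 < r ^ 2 := by linarith
  set χ₀ : ℂ → ℂ := rc x (r ^ 2 / 3) (r ^ 2 / 2) with hχ₀
  have hχ₀c : ContDiff ℝ 1 χ₀ := rc_contDiff _ _ _
  have hχ₀s : tsupport χ₀ ⊆ ball x r := tsupport_rc hab hr hb
  have hχ₀1 : χ₀ =ᶠ[𝓝 x] fun _ => 1 := rc_one_near ha hab
  have hφc : ContDiff ℝ 1 fun z => χ z - χ₀ z := hχ.sub hχ₀c
  have hφ0 : (fun z => χ z - χ₀ z) =ᶠ[𝓝 x] fun _ => 0 := by
    filter_upwards [h1, hχ₀1] with z e1 e2
    rw [e1, e2, sub_self]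
  have hsub : tsupport (fun z => χ z - χ₀ z) ⊆ tsupport χ ∪ tsupport χ₀ := by
    refine closure_minimal ?_ ((isClosed_tsupport χ).union (isClosed_tsupport χ₀))
    intro z hz
    by_contra hcon
    rw [mem_union, not_or] at hcon
    apply hz
    show χ z - χ₀ z = 0
    rw [image_eq_zero_of_notMem_tsupport hcon.1, image_eq_zero_of_notMem_tsupport hcon.2, sub_self]
  have hφs : tsupport (fun z => χ z - χ₀ z) ⊆ ball x r \ {x} := by
    intro z hz
    refine ⟨(union_subset hs hχ₀s) (hsub hz), ?_⟩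
    rw [mem_singleton_iff]
    rintro rfl
    exact (notMem_tsupport_iff_eventuallyEq.2 hφ0) hz
  have hcs : HasCompactSupport fun z => χ z - χ₀ z :=
    hcs_of_tsupport_ball (hφs.trans sdiff_subset)
  have e0 := integral_db_mul (isOpen_ball.sdiff isClosed_singleton) hφc hcs hφs hH
  have e1 := integral_rc hr ha hab hb hH.continuousOn hc
  have i1 := integrable_db_mul hH.continuousOn hχ hs h1
  have i2 := integrable_db_mul hH.continuousOn hχ₀c hχ₀s hχ₀1
  have e2 : (fun z => db (fun z => χ z - χ₀ z) z * H z) =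
      fun z => db χ z * H z - db χ₀ z * H z := by
    funext z
    rw [db_sub (hχ.differentiable one_ne_zero z) (hχ₀c.differentiable one_ne_zero z), sub_mul]
  rw [e2, integral_sub i1 i2, sub_eq_zero] at e0
  rw [e0, e1]

/-- circle integrals of a function with a simple pole -/
theorem circle_pole {x : ℂ} {r : ℝ} {H g : ℂ → ℂ} (hg : DifferentiableOn ℂ g (ball x r))
    (hH : ∀ z ∈ ball x r, z ≠ x → (z - x) * H z = g z) {t : ℝ} (ht : 0 < t) (htr : t < r) :
    ∮ z in C(x, t), H z = 2 * Real.pi * I * g x := by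
  have h1 : DifferentiableOn ℂ g (closedBall x t) := hg.mono (closedBall_subset_ball htr)
  have h2 := h1.circleIntegral_sub_inv_smul (mem_ball_self ht)
  rw [smul_eq_mul] at h2
  rw [← h2]
  refine circleIntegral.integral_congr ht.le fun z hz => ?_
  have hzx : z ≠ x := ne_of_mem_sphere hz ht.ne'
  have hzb : z ∈ ball x r := (closedBall_subset_ball htr) (sphere_subset_closedBall hz)
  show H z = (z - x)⁻¹ • g z
  rw [smul_eq_mul, ← hH z hzb hzx, inv_mul_cancel_left₀ (sub_ne_zero.2 hzx)]

/-- circle integrals of a function with a double pole -/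
theorem circle_pole2 {x : ℂ} {r : ℝ} {H g : ℂ → ℂ} (hg : DifferentiableOn ℂ g (ball x r))
    (hH : ∀ z ∈ ball x r, z ≠ x → (z - x) ^ 2 * H z = g z) {t : ℝ} (ht : 0 < t) (htr : t < r) :
    ∮ z in C(x, t), H z = 2 * Real.pi * I * deriv g x := by
  have h1 : DifferentiableOn ℂ g (closedBall x t) := hg.mono (closedBall_subset_ball htr)
  have h2 := h1.deriv_eq_smul_circleIntegral ht
  rw [smul_eq_mul] at h2
  rw [← h2]
  refine circleIntegral.integral_congr ht.le fun z hz => ?_
  have hzx : z ≠ x := ne_of_mem_sphere hz ht.ne'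
  have hzb : z ∈ ball x r := (closedBall_subset_ball htr) (sphere_subset_closedBall hz)
  show H z = (1 / (z - x) ^ 2) • g z
  rw [smul_eq_mul, ← hH z hzb hzx, one_div,
    inv_mul_cancel_left₀ (pow_ne_zero 2 (sub_ne_zero.2 hzx))]

theorem differentiableOn_of_mul_pow {x : ℂ} {r : ℝ} {H g : ℂ → ℂ} (n : ℕ)
    (hg : DifferentiableOn ℂ g (ball x r))
    (hH : ∀ z ∈ ball x r, z ≠ x → (z - x) ^ n * H z = g z) :
    DifferentiableOn ℂ H (ball x r \ {x}) := by
  have h1 : DifferentiableOn ℂ (fun z => g z / (z - x) ^ n) (ball x r \ {x}) := by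
    refine (hg.mono sdiff_subset).div (by fun_prop) fun z hz => ?_
    exact pow_ne_zero n (sub_ne_zero.2 hz.2)
  refine h1.congr fun z hz => ?_
  have : (z - x) ^ n ≠ 0 := pow_ne_zero n (sub_ne_zero.2 hz.2)
  rw [← hH z hz.1 hz.2, mul_div_cancel_left₀ _ this]

/-- **simple pole**: `∫ (χ_x + i χ_y) H = -2π · Res` -/
theorem integral_db_pole {x : ℂ} {r : ℝ} (hr : 0 < r) {H g χ : ℂ → ℂ}
    (hg : DifferentiableOn ℂ g (ball x r))
    (hH : ∀ z ∈ ball x r, z ≠ x → (z - x) * H z = g z)
    (hχ : ContDiff ℝ 1 χ) (hs : tsupport χ ⊆ ball x r) (h1 : χ =ᶠ[𝓝 x] fun _ => 1) :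
    ∫ z, db χ z * H z = -(2 * Real.pi) * g x := by
  have hd : DifferentiableOn ℂ H (ball x r \ {x}) :=
    differentiableOn_of_mul_pow 1 hg (by simpa using hH)
  rw [integral_db_circle hr hd (fun t ht htr => circle_pole hg hH ht htr) hχ hs h1]
  have := I_mul_I
  linear_combination (2 * Real.pi * g x) * this

/-- **double pole**: `∫ (χ_x + i χ_y) H = -2π · Res` -/
theorem integral_db_pole2 {x : ℂ} {r : ℝ} (hr : 0 < r) {H g χ : ℂ → ℂ}
    (hg : DifferentiableOn ℂ g (ball x r))
    (hH : ∀ z ∈ ball x r, z ≠ x → (z - x) ^ 2 * H z = g z)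
    (hχ : ContDiff ℝ 1 χ) (hs : tsupport χ ⊆ ball x r) (h1 : χ =ᶠ[𝓝 x] fun _ => 1) :
    ∫ z, db χ z * H z = -(2 * Real.pi) * deriv g x := by
  have hd : DifferentiableOn ℂ H (ball x r \ {x}) := differentiableOn_of_mul_pow 2 hg hH
  rw [integral_db_circle hr hd (fun t ht htr => circle_pole2 hg hH ht htr) hχ hs h1]
  have := I_mul_I
  linear_combination (2 * Real.pi * deriv g x) * this

end Crest.Agent.R165.ResIntx439
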