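import Crest.Agent.R165.ExpG_337
import Crest.Agent.R165.J2b_606
import Crest.Agent.R165.J4K0_126

/-!
# Row 165 (S0250), block J: rescaling of the fields in a Gaussian functional (helper599)

* `scl s`   : the scaling `φ_i ↦ s_i φ_i`
* `SDA A nb l` : Schwinger-Dyson equations of the action `½ Σ A_ij φ_i φ_j`
* `qK A K s` : `½ Σ_{i,j ∈ K} (s_i s_j - 1) A_ij φ_i φ_j`
* `SDA.resc` : `l (gexp (qK A K s) * mp (scl s) F) = (∏_{h ∈ H} s_h) * l F`, position dependent `s`
* `SD.resc` : the lattice form, `SD w l`, faces `Λ`, `s : G × G → ℝ`, `s = 1` off `W`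
-/

set_option autoImplicit false

noncomputable section

namespace Crest.Agent.R165.Rescx599

open Finset
open Crest.Agent.R165.Gr0x606 Crest.Agent.R165.Gr1x606 Crest.Agent.R165.J1ax606
  Crest.Agent.R165.J1bx606 Crest.Agent.R165.J2ax606 Crest.Agent.R165.J2bx606
  Crest.Agent.R165.GeOpsx337 Crest.Agent.R165.ExpGx337
open Crest.Agent.R165.J4Geox126 (faE)

section abs
variable {ι : Type*} [DecidableEq ι]

/-- the scaling of the generators -/
def scl (s : ι → ℝ) : VI ι →ₗ[ℝ] VI ι := Finsupp.linearCombination ℝ fun i => Finsupp.single i (s i)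

omit [DecidableEq ι] in
@[simp] theorem scl_single (s : ι → ℝ) (i : ι) (c : ℝ) :
    scl s (Finsupp.single i c) = c • Finsupp.single i (s i) := by
  rw [scl, Finsupp.linearCombination_single]

omit [DecidableEq ι] in
theorem scl_single_one (s : ι → ℝ) (i : ι) :
    scl s (Finsupp.single i 1) = s i • Finsupp.single i (1 : ℝ) := by
  rw [scl_single, one_smul, Finsupp.smul_single, smul_eq_mul, mul_one]

omit [DecidableEq ι] in
@[simp] theorem mp_scl_ph (s : ι → ℝ) (i : ι) : mp (scl s) (ph i) = s i • ph i := by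
  rw [ph, mp_fi, scl_single_one, fi_smul]

omit [DecidableEq ι] in
theorem scl_comp (s t : ι → ℝ) : scl s ∘ₗ scl t = scl (fun i => s i * t i) := by
  apply Finsupp.lhom_ext
  intro i c
  rw [LinearMap.comp_apply, scl_single, scl_single, map_smul, scl_single, Finsupp.smul_single,
    Finsupp.smul_single, Finsupp.smul_single]
  congr 1
  simp only [smul_eq_mul]
  ring

omit [DecidableEq ι] in
theorem scl_one : scl (fun _ : ι => (1 : ℝ)) = LinearMap.id := by
  apply Finsupp.lhom_ext
  intro i c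
  rw [scl_single, Finsupp.smul_single, smul_eq_mul, mul_one, LinearMap.id_apply]

/-- scaling of one generator -/
theorem scl_update_apply (h : ι) (c : ℝ) (x : VI ι) :
    scl (Function.update (fun _ => 1) h c) x = x + ((c - 1) * x h) • Finsupp.single h 1 := by
  induction x using Finsupp.induction_linear with
  | zero => simp
  | add x y hx hy =>
    rw [map_add, hx, hy, Finsupp.add_apply, mul_add, add_smul]; abel
  | single i d =>
    rw [scl_single]
    by_cases e : i = h
    · subst e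
      rw [Function.update_self, Finsupp.single_eq_same, Finsupp.smul_single, Finsupp.smul_single,
        ← Finsupp.single_add]
      congr 1
      simp only [smul_eq_mul]
      ring
    · rw [Function.update_of_ne e, Finsupp.single_eq_of_ne (fun e' => e e'.symm), mul_zero, zero_smul, add_zero,
        Finsupp.smul_single, smul_eq_mul, mul_one]

/-- scaling of one generator, on the algebra -/
theorem mp_scl_update (h : ι) (c : ℝ) (F : Gr (VI ι)) :
    mp (scl (Function.update (fun _ => 1) h c)) F = F + (c - 1) • (ph h * de h F) := by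
  induction F using Gr.induction with
  | h0 r =>
    have : de h (algebraMap ℝ (Gr (VI ι)) r) = 0 := dd_algebraMap _ _
    rw [AlgHom.commutes, this, mul_zero, smul_zero, add_zero]
  | h1 x a ih =>
    have h1 : de h (fi x * a) = x h • a - fi x * de h a := by
      rw [de, dd_fi_mul]; rfl
    have h2 : ph h * (ph h * de h a) = 0 := ph_ph_mul_self h _
    have h3 : ph h * (fi x * de h a) = -(fi x * (ph h * de h a)) := by
      rw [← mul_assoc, ph, fi_anti, neg_mul, mul_assoc]
    rw [map_mul, mp_fi, ih, scl_update_apply, fi_add, fi_smul, h1]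
    change (fi x + ((c - 1) * x h) • ph h) * (a + (c - 1) • (ph h * de h a)) = _
    rw [add_mul, mul_add, smul_mul_assoc, mul_add, mul_smul_comm, mul_smul_comm, h2, smul_zero,
      add_zero, mul_sub, h3, mul_smul_comm, smul_sub, smul_neg, smul_smul]
    abel
  | h2 a b iha ihb =>
    rw [map_add, iha, ihb, map_add, mul_add, smul_add]; abel

/-- Schwinger-Dyson equations of a general action with finite rows -/
structure SDA (A : ι → ι → ℝ) (nbh : ι → Finset ι) (l : Gr (VI ι) →ₗ[ℝ] ℝ) : Prop where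
  anti : ∀ i j, A i j = -A j i
  out : ∀ i j, j ∉ nbh i → A i j = 0
  sd : ∀ h X, ∑ j ∈ nbh h, A h j * l (ph j * X) = -l (de h X)

/-- the change of the action -/
def qK (A : ι → ι → ℝ) (K : Finset ι) (s : ι → ℝ) : Ge (VI ι) :=
  ∑ i ∈ K, ∑ j ∈ K, ((s i * s j - 1) * A i j / 2) • bi (Finsupp.single i 1) (Finsupp.single j 1)

omit [DecidableEq ι] in
theorem mpG_scl_bi (s : ι → ℝ) (i j : ι) :
    mpG (scl s) (bi (Finsupp.single i 1) (Finsupp.single j 1)) =
      (s i * s j) • bi (Finsupp.single i 1) (Finsupp.single j 1) := by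
  rw [mpG_bi, scl_single_one, scl_single_one]
  apply ge_ext
  rw [coe_bi, Ge.coe_smul, coe_bi, fi_smul, fi_smul, smul_mul_smul_comm]

omit [DecidableEq ι] in
theorem qK_mul (A : ι → ι → ℝ) (K : Finset ι) (s t : ι → ℝ) :
    qK A K (fun i => s i * t i) = qK A K s + mpG (scl s) (qK A K t) := by
  unfold qK
  rw [map_sum, ← sum_add_distrib]
  refine sum_congr rfl fun i _ => ?_
  rw [map_sum, ← sum_add_distrib]
  refine sum_congr rfl fun j _ => ?_
  rw [map_smul, mpG_scl_bi, smul_smul, ← add_smul]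
  congr 1
  ring

omit [DecidableEq ι] in
theorem qK_one (A : ι → ι → ℝ) (K : Finset ι) : qK A K (fun _ => 1) = 0 := by
  unfold qK
  refine sum_eq_zero fun i _ => sum_eq_zero fun j _ => ?_
  rw [mul_one, sub_self, zero_mul, zero_div, zero_smul]

variable {A : ι → ι → ℝ} {nbh : ι → Finset ι} {l : Gr (VI ι) →ₗ[ℝ] ℝ}

/-- the derivative of the action -/
def der (A : ι → ι → ℝ) (nbh : ι → Finset ι) (h : ι) : Gr (VI ι) := ∑ j ∈ nbh h, A h j • ph j

theorem SDA.qK_update (hA : SDA A nbh l) (K : Finset ι) (h : ι) (c : ℝ) (hK : h ∈ K)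
    (hn : nbh h ⊆ K) :
    ((qK A K (Function.update (fun _ => 1) h c) : Ge (VI ι)) : Gr (VI ι)) =
      (c - 1) • (ph h * der A nbh h) := by
  have hhh : A h h = 0 := by have := hA.anti h h; linarith
  set X : ι → Gr (VI ι) := fun j => ((c - 1) * A h j / 2) • (ph h * ph j) with hX
  have hXh : X h = 0 := by rw [hX]; simp only; rw [hhh, mul_zero, zero_div, zero_smul]
  have key : ∀ i j : ι, ((((Function.update (fun _ => (1 : ℝ)) h c i *
      Function.update (fun _ => (1 : ℝ)) h c j - 1) * A i j / 2) •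
      bi (Finsupp.single i 1) (Finsupp.single j 1) : Ge (VI ι)) : Gr (VI ι)) =
      (if i = h then X j else 0) + (if j = h then X i else 0) := by
    intro i j
    rw [Ge.coe_smul, coe_bi]
    change _ • (ph i * ph j) = _
    by_cases h1 : i = h
    · subst h1
      by_cases h2 : j = i
      · subst h2
        rw [if_pos rfl, hXh, hhh, mul_zero, zero_div, zero_smul, add_zero]
      · rw [if_pos rfl, if_neg h2, add_zero, Function.update_self, Function.update_of_ne h2, mul_one]
    · by_cases h2 : j = h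
      · subst h2
        rw [if_neg h1, if_pos rfl, zero_add, Function.update_self, Function.update_of_ne h1, one_mul,
          hA.anti i j, ph_anti i j, hX]
        simp only
        rw [smul_neg, ← neg_smul]
        congr 1
        ring
      · rw [if_neg h1, if_neg h2, add_zero, Function.update_of_ne h1, Function.update_of_ne h2,
          mul_one, sub_self, zero_mul, zero_div, zero_smul]
  unfold qK
  rw [ge_coe_sum]
  simp only [ge_coe_sum]
  rw [sum_congr rfl fun i _ => sum_congr rfl fun j _ => key i j]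
  simp only [sum_add_distrib]
  rw [sum_comm]
  simp only [sum_ite_eq', hK, if_true]
  rw [← sum_add_distrib, der, mul_sum, smul_sum]
  symm
  rw [← sum_subset hn]
  · refine sum_congr rfl fun j _ => ?_
    rw [mul_smul_comm, smul_smul]
    simp only [hX]
    rw [← add_smul]
    congr 1
    ring
  · intro j _ hj
    simp only [hX]
    rw [hA.out h j hj, mul_zero, zero_div, zero_smul, add_zero]

theorem gexp_of_sq {V : Type*} [AddCommGroup V] [Module ℝ V] {a : Ge V} (h0 : ctG a = 0)
    (h2 : a * a = 0) : gexp a = 1 + a := by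
  have h3 : nl a = a := by rw [nl, h0, map_zero, sub_zero]
  rw [gexp, h0, Real.exp_zero, one_smul, h3, nexp_eq_sum (k := 2) (by rw [pow_two, h2])]
  rw [sum_range_succ, sum_range_one]
  simp

theorem SDA.step (hA : SDA A nbh l) (K : Finset ι) (h : ι) (c : ℝ) (hK : h ∈ K)
    (hn : nbh h ⊆ K) (F : Gr (VI ι)) :
    l (((gexp (qK A K (Function.update (fun _ => 1) h c)) : Ge (VI ι)) : Gr (VI ι)) *
      mp (scl (Function.update (fun _ => 1) h c)) F) = c * l F := by
  have hq := hA.qK_update K h c hK hn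
  have hphd : ∀ Y : Gr (VI ι), ph h * (der A nbh h * Y) = -(der A nbh h * (ph h * Y)) := by
    intro Y
    rw [der, sum_mul, sum_mul, mul_sum, ← sum_neg_distrib]
    refine sum_congr rfl fun j _ => ?_
    rw [smul_mul_assoc, mul_smul_comm, ← mul_assoc, ph_anti, neg_mul, smul_neg, mul_assoc,
      smul_mul_assoc]
  have h1 : gexp (qK A K (Function.update (fun _ => 1) h c)) =
      1 + qK A K (Function.update (fun _ => 1) h c) := by
    apply gexp_of_sq
    · rw [ctG_apply, hq, map_smul, map_mul, ph, ct_fi, zero_mul, smul_zero]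
    · apply ge_ext
      rw [Ge.coe_mul, hq, Ge.coe_zero, smul_mul_smul_comm, mul_assoc, hphd, ← mul_assoc (ph h) (ph h),
        ph_mul_self, zero_mul, mul_zero, neg_zero, smul_zero]
  have hsd : l (ph h * (der A nbh h * F)) = l F - l (ph h * de h F) := by
    rw [hphd, der, sum_mul, map_neg, map_sum]
    simp only [smul_mul_assoc, map_smul, smul_eq_mul]
    rw [hA.sd h (ph h * F), neg_neg, de_ph_mul_self, map_sub]
  rw [h1, Ge.coe_add, Ge.coe_one, hq, mp_scl_update, add_mul, one_mul, map_add, map_add, map_smul,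
    smul_mul_assoc, map_smul, mul_add, mul_assoc, mul_smul_comm, mul_assoc (ph h), hphd (ph h * _),
    ph_ph_mul_self, mul_zero, neg_zero, smul_zero, add_zero, hsd]
  simp only [smul_eq_mul]
  ring

/-- **rescaling**: position dependent scaling of the generators in a Gaussian functional -/
theorem SDA.resc (hA : SDA A nbh l) (K : Finset ι) (H : Finset ι) (hK : H ⊆ K)
    (hn : ∀ h ∈ H, nbh h ⊆ K) (s : ι → ℝ) (hs : ∀ i, i ∉ H → s i = 1) (F : Gr (VI ι)) :
    l (((gexp (qK A K s) : Ge (VI ι)) : Gr (VI ι)) * mp (scl s) F) = (∏ h ∈ H, s h) * l F := by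
  induction H using Finset.induction_on generalizing s F with
  | empty =>
    have h1 : s = fun _ => 1 := funext fun i => hs i (notMem_empty i)
    rw [h1, qK_one, gexp_zero, Ge.coe_one, one_mul, prod_empty, one_mul, scl_one]
    congr 1
    have : mp (LinearMap.id : VI ι →ₗ[ℝ] VI ι) = AlgHom.id ℝ _ := ExteriorAlgebra.map_id
    rw [this]
    rfl
  | insert h H hh ih =>
    set t : ι → ℝ := Function.update (fun _ => 1) h (s h) with ht
    set r : ι → ℝ := Function.update s h 1 with hr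
    have hst : s = fun i => t i * r i := by
      funext i
      by_cases e : i = h
      · subst e; rw [ht, hr, Function.update_self, Function.update_self, mul_one]
      · rw [ht, hr, Function.update_of_ne e, Function.update_of_ne e, one_mul]
    have hr1 : ∀ i, i ∉ H → r i = 1 := by
      intro i hi
      by_cases e : i = h
      · rw [e, hr, Function.update_self]
      · rw [hr, Function.update_of_ne e]
        exact hs i fun h' => (mem_insert.1 h').elim e hi
    have h1 := ih (fun i hi => hK (mem_insert_of_mem hi)) (fun i hi => hn i (mem_insert_of_mem hi))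
      r hr1 F
    have h2 := hA.step K h (s h) (hK (mem_insert_self _ _)) (hn h (mem_insert_self _ _))
      (((gexp (qK A K r) : Ge (VI ι)) : Gr (VI ι)) * mp (scl r) F)
    rw [← ht] at h2
    have h3 : mp (scl t ∘ₗ scl r) F = mp (scl t) (mp (scl r) F) := by
      have := ExteriorAlgebra.map_comp_map (scl r) (scl t)
      exact (AlgHom.congr_fun this F).symm
    have h4 : ∏ i ∈ H, r i = ∏ i ∈ H, s i := by
      refine prod_congr rfl fun i hi => ?_
      rw [hr, Function.update_of_ne]
      rintro rfl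
      exact hh hi
    have h5 : ((gexp (qK A K fun i => t i * r i) : Ge (VI ι)) : Gr (VI ι)) *
        mp (scl fun i => t i * r i) F = ((gexp (qK A K t) : Ge (VI ι)) : Gr (VI ι)) *
        mp (scl t) (((gexp (qK A K r) : Ge (VI ι)) : Gr (VI ι)) * mp (scl r) F) := by
      rw [qK_mul, gexp_add, ← mpG_gexp, Ge.coe_mul, coe_mpG, ← scl_comp, mul_assoc, h3, ← map_mul]
    rw [← hst] at h5
    rw [h5, h2, h1, prod_insert hh, h4]
    ring

end abs

/-! ### the intra-face form -/

section face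
variable {V : Type*} [AddCommGroup V] [Module ℝ V]

theorem bi_anti (x y : V) : bi y x = -bi x y := by
  apply ge_ext
  rw [coe_bi, Ge.coe_neg, coe_bi, fi_anti]

theorem bi_mul_l (x y z : V) : bi x y * bi x z = 0 := by
  apply ge_ext
  rw [Ge.coe_mul, coe_bi, coe_bi, Ge.coe_zero, mul_assoc, ← mul_assoc (fi y), fi_anti y x, neg_mul,
    mul_neg, ← mul_assoc (fi x), ← mul_assoc (fi x), fi_mul_self, zero_mul, zero_mul, neg_zero]

theorem bi_mul_m (x y z : V) : bi x y * bi y z = 0 := by
  rw [bi_anti y x, neg_mul, bi_mul_l, neg_zero]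

theorem bi_mul_r (x y z : V) : bi x z * bi y z = 0 := by
  rw [bi_anti z x, bi_anti z y, neg_mul_neg, bi_mul_l]

theorem bi_mul_w (x y z : V) : bi x y * bi z x = 0 := by
  rw [bi_anti x z, mul_neg, bi_mul_l, neg_zero]

/-- the full quadratic form of four fields -/
def q4 (p : Fin 4 → V) : Ge V :=
  bi (p 0) (p 1) + bi (p 0) (p 2) + bi (p 0) (p 3) + bi (p 1) (p 2) + bi (p 1) (p 3) + bi (p 2) (p 3)

theorem q4_sq (p : Fin 4 → V) : q4 p * q4 p =
    (2 : ℝ) • (bi (p 0) (p 1) * bi (p 2) (p 3) + bi (p 0) (p 2) * bi (p 1) (p 3) +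
      bi (p 0) (p 3) * bi (p 1) (p 2)) := by
  have a01 := bi_mul_self (p 0) (p 1)
  have a02 := bi_mul_self (p 0) (p 2)
  have a03 := bi_mul_self (p 0) (p 3)
  have a12 := bi_mul_self (p 1) (p 2)
  have a13 := bi_mul_self (p 1) (p 3)
  have a23 := bi_mul_self (p 2) (p 3)
  have b1 := bi_mul_l (p 0) (p 1) (p 2)
  have b2 := bi_mul_l (p 0) (p 1) (p 3)
  have b3 := bi_mul_l (p 0) (p 2) (p 3)
  have b4 := bi_mul_m (p 0) (p 1) (p 2)
  have b5 := bi_mul_m (p 0) (p 1) (p 3)
  have b6 := bi_mul_r (p 0) (p 1) (p 2)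
  have b7 := bi_mul_m (p 0) (p 2) (p 3)
  have b8 := bi_mul_r (p 0) (p 1) (p 3)
  have b9 := bi_mul_r (p 0) (p 2) (p 3)
  have b10 := bi_mul_l (p 1) (p 2) (p 3)
  have b11 := bi_mul_m (p 1) (p 2) (p 3)
  have b12 := bi_mul_r (p 1) (p 2) (p 3)
  rw [two_smul]
  unfold q4
  linear_combination a01 + a02 + a03 + a12 + a13 + a23 + 2 * b1 + 2 * b2 + 2 * b3 + 2 * b4 +
    2 * b5 + 2 * b6 + 2 * b7 + 2 * b8 + 2 * b9 + 2 * b10 + 2 * b11 + 2 * b12

theorem q4_cube (p : Fin 4 → V) : q4 p * (q4 p * q4 p) = 0 := by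
  rw [q4_sq]
  have a01 := bi_mul_self (p 0) (p 1)
  have a02 := bi_mul_self (p 0) (p 2)
  have a03 := bi_mul_self (p 0) (p 3)
  have a12 := bi_mul_self (p 1) (p 2)
  have a13 := bi_mul_self (p 1) (p 3)
  have a23 := bi_mul_self (p 2) (p 3)
  have b1 := bi_mul_l (p 0) (p 1) (p 2)
  have b2 := bi_mul_l (p 0) (p 1) (p 3)
  have b3 := bi_mul_l (p 0) (p 2) (p 3)
  have b4 := bi_mul_m (p 0) (p 1) (p 2)
  have b5 := bi_mul_m (p 0) (p 1) (p 3)
  have b6 := bi_mul_r (p 0) (p 1) (p 2)
  have b8 := bi_mul_r (p 0) (p 1) (p 3)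
  have b9 := bi_mul_r (p 0) (p 2) (p 3)
  rw [two_smul]
  unfold q4
  linear_combination
    2 * (a01 * bi (p 2) (p 3) + b1 * bi (p 2) (p 3) + b2 * bi (p 2) (p 3) + b4 * bi (p 2) (p 3) +
      b5 * bi (p 2) (p 3) + a23 * bi (p 0) (p 1)) +
    2 * (a02 * bi (p 1) (p 3) + b1 * bi (p 1) (p 3) + b3 * bi (p 1) (p 3) + b6 * bi (p 1) (p 3) +
      a13 * bi (p 0) (p 2) + bi_mul_m (p 0) (p 2) (p 3) * bi (p 1) (p 3)) +
    2 * (a03 * bi (p 1) (p 2) + b2 * bi (p 1) (p 2) + b3 * bi (p 1) (p 2) + b8 * bi (p 1) (p 2) +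
      b9 * bi (p 1) (p 2) + a12 * bi (p 0) (p 3))

theorem ctG_q4 (p : Fin 4 → V) : ctG (q4 p) = 0 := by
  have h : ∀ x y : V, ctG (bi x y) = 0 := by
    intro x y
    rw [ctG_apply, coe_bi, map_mul, ct_fi, zero_mul]
  unfold q4
  simp only [map_add, h, add_zero]

/-- the exponential of the intra-face form -/
theorem gexp_q4 (p : Fin 4 → V) (c : ℝ) :
    gexp (c • q4 p) = 1 + (c • q4 p + (c ^ 2 / 2) • (q4 p * q4 p)) := by
  have h0 : ctG (c • q4 p) = 0 := by rw [map_smul, ctG_q4, smul_zero]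
  have h3 : nl (c • q4 p) = c • q4 p := by rw [nl, h0, map_zero, sub_zero]
  have h4 : (c • q4 p) ^ 3 = 0 := by
    have h5 : q4 p ^ 3 = q4 p * (q4 p * q4 p) := by ring
    rw [smul_pow, h5, q4_cube, smul_zero]
  rw [gexp, h0, Real.exp_zero, one_smul, h3, nexp_eq_sum h4]
  rw [sum_range_succ, sum_range_succ, sum_range_one]
  simp only [Nat.factorial_zero, Nat.factorial_one, Nat.factorial_two, Nat.cast_one, inv_one, pow_zero,
    one_smul, pow_one, Nat.cast_ofNat]
  rw [smul_pow, smul_smul, pow_two (q4 p), add_assoc]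
  congr 3
  ring

end face

/-! ### lattice form -/

section lat
variable {G : Type*} [CommRing G] [DecidableEq G]

/-- the intra-face quadratic form -/
def I4 (f : G × G) : Ge (VI (HE G)) := q4 fun a => Finsupp.single (f, a) 1

theorem sda {w : EG G → ℝ} {l : Gr (VI (HE G)) →ₗ[ℝ] ℝ} (hl : SD w l) : SDA (Am w) nb l where
  anti := Am_anti w
  out _ _ h := Am_out w h
  sd h X := by rw [← hl h X, Aop_nb]

omit [CommRing G] [DecidableEq G] in
theorem sum_a4 (p : Fin 4 → VI (HE G)) (c : ℝ) :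
    ∑ a, ∑ b, (c * a4 a b / 2) • bi (p a) (p b) = c • q4 p := by
  have e : ∀ a b, bi (p b) (p a) = -bi (p a) (p b) := fun a b => bi_anti _ _
  simp only [Fin.sum_univ_four]
  have h0 : ∀ a, a4 a a = 0 := fun a => by simp [a4]
  rw [h0, h0, h0, h0]
  have h01 : a4 0 1 = 1 := by simp [a4]
  have h02 : a4 0 2 = 1 := by simp [a4]
  have h03 : a4 0 3 = 1 := by simp [a4]
  have h12 : a4 1 2 = 1 := by simp [a4]
  have h13 : a4 1 3 = 1 := by simp [a4]
  have h23 : a4 2 3 = 1 := by simp [a4]
  rw [a4_anti 1 0, a4_anti 2 0, a4_anti 3 0, a4_anti 2 1, a4_anti 3 1, a4_anti 3 2, h01, h02, h03,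
    h12, h13, h23, e 0 1, e 0 2, e 0 3, e 1 2, e 1 3, e 2 3]
  unfold q4
  module

/-- the half-edges of the faces of `Λ` -/
def hes (Λ : Finset (G × G)) : Finset (HE G) := Λ ×ˢ (univ : Finset (Fin 4))

omit [CommRing G] [DecidableEq G] in
theorem mem_hes {Λ : Finset (G × G)} {h : HE G} : h ∈ hes Λ ↔ h.1 ∈ Λ := by
  unfold hes
  rw [mem_product]
  simp

theorem faE_sub {Λ : Finset (G × G)} {e : EG G} : faE e ⊆ Λ ↔ (pe e).1 ∈ Λ ∧ (qe e).1 ∈ Λ := by
  unfold J4Geox126.faE
  rw [insert_subset_iff, singleton_subset_iff]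

/-- **the change of the action on the lattice** -/
theorem qK_lat (w : EG G → ℝ) (Λ : Finset (G × G)) (s : G × G → ℝ) :
    qK (Am w) (hes Λ) (fun h => s h.1) =
      ∑ f ∈ Λ, (s f * s f - 1) • I4 f +
      ∑ e ∈ J4K0x126.Bk.edg Λ, (w e * (s (pe e).1 * s (qe e).1 - 1)) • bb e := by
  have h1 : ∀ h k : HE G, ((s h.1 * s k.1 - 1) * Am w h k / 2) •
      bi (Finsupp.single h (1 : ℝ)) (Finsupp.single k 1) =
      (if h.1 = k.1 then ((s h.1 * s k.1 - 1) * a4 h.2 k.2 / 2) •
        bi (Finsupp.single h (1 : ℝ)) (Finsupp.single k 1) else 0) +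
      (if k = bar h then ((s h.1 * s k.1 - 1) * (sg h.2 * w (ed h)) / 2) •
        bi (Finsupp.single h (1 : ℝ)) (Finsupp.single k 1) else 0) := by
    intro h k
    rw [Am]
    split_ifs
    · rw [← add_smul]; congr 1; ring
    · rw [add_zero, add_zero]
    · rw [zero_add, zero_add]
    · rw [add_zero, mul_zero, zero_div, zero_smul, add_zero]
  unfold qK
  rw [sum_congr rfl fun h _ => sum_congr rfl fun k _ => h1 h k]
  simp only [sum_add_distrib]
  congr 1
  · unfold hes
    rw [sum_product]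
    refine sum_congr rfl fun f hf => ?_
    have h2 : ∀ a : Fin 4, ∑ k ∈ Λ ×ˢ (univ : Finset (Fin 4)), (if (f, a).1 = k.1 then
        ((s (f, a).1 * s k.1 - 1) * a4 (f, a).2 k.2 / 2) •
        bi (Finsupp.single (f, a) (1 : ℝ)) (Finsupp.single k 1) else 0) =
        ∑ b : Fin 4, ((s f * s f - 1) * a4 a b / 2) •
          bi (Finsupp.single (f, a) (1 : ℝ)) (Finsupp.single (f, b) 1) := by
      intro a
      rw [sum_product, sum_eq_single f]
      · refine sum_congr rfl fun b _ => ?_
        rw [if_pos rfl]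
      · intro f' _ hne
        refine sum_eq_zero fun b _ => if_neg fun h => hne h.symm
      · intro h; exact absurd hf h
    rw [sum_congr rfl fun a _ => h2 a]
    exact sum_a4 (fun a => Finsupp.single (f, a) 1) _
  · set Y : HE G → Ge (VI (HE G)) := fun h => ((s h.1 * s (bar h).1 - 1) * (sg h.2 * w (ed h)) / 2) •
        bi (Finsupp.single h (1 : ℝ)) (Finsupp.single (bar h) 1) with hY
    have h3 : ∀ h : HE G, ∑ k ∈ hes Λ, (if k = bar h then ((s h.1 * s k.1 - 1) *
        (sg h.2 * w (ed h)) / 2) • bi (Finsupp.single h (1 : ℝ)) (Finsupp.single k 1) else 0) =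
        if bar h ∈ hes Λ then Y h else 0 := by
      intro h
      split_ifs with hb
      · rw [sum_eq_single_of_mem (bar h) hb fun k _ hk => if_neg hk, if_pos rfl]
      · refine sum_eq_zero fun k hk => if_neg ?_
        rintro rfl
        exact hb hk
    rw [sum_congr rfl fun h _ => h3 h, ← sum_filter]
    have hYp : ∀ e : EG G, Y (pe e) = ((w e * (s (pe e).1 * s (qe e).1 - 1)) / 2) • bb e := by
      intro e
      simp only [hY]
      rw [bar_pe, sg_pe, ed_pe, bb]
      congr 1
      ring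
    have hYq : ∀ e : EG G, Y (qe e) = ((w e * (s (pe e).1 * s (qe e).1 - 1)) / 2) • bb e := by
      intro e
      simp only [hY]
      rw [bar_qe, sg_qe, ed_qe, bb, bi_anti (Finsupp.single (pe e) 1), smul_neg, ← neg_smul]
      congr 1
      ring
    have h4 : (hes Λ).filter (fun h => bar h ∈ hes Λ) =
        (J4K0x126.Bk.edg Λ).image pe ∪ (J4K0x126.Bk.edg Λ).image qe := by
      ext h
      simp only [mem_filter, mem_union, mem_image, mem_hes, J4K0x126.Bk.mem_edg, faE_sub]
      constructor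
      · rintro ⟨h5, h6⟩
        rcases he_cases h with ⟨h7, _⟩ | ⟨h7, _⟩
        · left
          refine ⟨ed h, ?_, h7.symm⟩
          rw [h7, bar_pe] at h6
          rw [h7] at h5
          exact ⟨h5, h6⟩
        · right
          refine ⟨ed h, ?_, h7.symm⟩
          rw [h7, bar_qe] at h6
          rw [h7] at h5
          exact ⟨h6, h5⟩
      · rintro (⟨e, ⟨h5, h6⟩, rfl⟩ | ⟨e, ⟨h5, h6⟩, rfl⟩)
        · rw [bar_pe]; exact ⟨h5, h6⟩
        · rw [bar_qe]; exact ⟨h6, h5⟩
    rw [h4, sum_union, sum_image (fun _ _ _ _ h => pe_inj h), sum_image (fun _ _ _ _ h => qe_inj h),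
      ← sum_add_distrib]
    · refine sum_congr rfl fun e _ => ?_
      rw [hYp, hYq, ← add_smul]
      congr 1
      ring
    · rw [disjoint_left]
      intro k hk hk'
      obtain ⟨e, _, rfl⟩ := mem_image.1 hk
      obtain ⟨e', _, h⟩ := mem_image.1 hk'
      exact pe_ne_qe _ _ h.symm

/-- the rescaling factor in `Λ` -/
def mF (w : EG G → ℝ) (Λ : Finset (G × G)) (s : G × G → ℝ) : Ge (VI (HE G)) :=
  (∏ f ∈ Λ, (1 + ((s f * s f - 1) • I4 f + ((s f * s f - 1) ^ 2 / 2) • (I4 f * I4 f)))) *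
    ∏ e ∈ J4K0x126.Bk.edg Λ, (1 + (w e * (s (pe e).1 * s (qe e).1 - 1)) • bb e)

theorem gexp_qK_lat (w : EG G → ℝ) (Λ : Finset (G × G)) (s : G × G → ℝ) :
    gexp (qK (Am w) (hes Λ) (fun h => s h.1)) = mF w Λ s := by
  rw [qK_lat, gexp_add, gexp_sum, gexp_sum, mF]
  congr 1
  · exact prod_congr rfl fun f _ => gexp_q4 _ _
  · refine prod_congr rfl fun e _ => gexp_of_sq ?_ ?_
    · rw [map_smul, ctG_apply, coe_bb, map_mul, ph, ct_fi, zero_mul, smul_zero]
    · rw [smul_mul_smul_comm, bb_mul_self, smul_zero]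

/-- the scaling of the fields -/
def sc (s : G × G → ℝ) : VI (HE G) →ₗ[ℝ] VI (HE G) := scl fun h => s h.1

/-- **rescaling on the lattice** -/
theorem resc {w : EG G → ℝ} {l : Gr (VI (HE G)) →ₗ[ℝ] ℝ} (hl : SD w l) (Λ W : Finset (G × G))
    (hW : W ⊆ Λ) (hn : ∀ h : HE G, h.1 ∈ W → (bar h).1 ∈ Λ) (s : G × G → ℝ)
    (hs : ∀ f, f ∉ W → s f = 1) (F : Gr (VI (HE G))) :
    l (((mF w Λ s : Ge (VI (HE G))) : Gr (VI (HE G))) * mp (sc s) F) = (∏ f ∈ W, s f ^ 4) * l F := by
  have h1 := (sda hl).resc (hes Λ) (hes W) (fun h hh => mem_hes.2 (hW (mem_hes.1 hh))) ?_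
    (fun h => s h.1) (fun h hh => hs _ fun h' => hh (mem_hes.2 h')) F
  · rw [gexp_qK_lat] at h1
    rw [sc, h1]
    congr 1
    unfold hes
    rw [prod_product]
    refine prod_congr rfl fun f _ => ?_
    change ∏ _y : Fin 4, s f = s f ^ 4
    rw [prod_const, card_univ, Fintype.card_fin]
  · intro h hh k hk
    rw [nb, mem_insert, mem_image] at hk
    rw [mem_hes] at hh ⊢
    rcases hk with rfl | ⟨a, _, rfl⟩
    · exact hn h hh
    · exact hW hh

omit [DecidableEq G] in
@[simp] theorem mpG_sc_bb (s : G × G → ℝ) (e : EG G) :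
    mpG (sc s) (bb e) = (s (pe e).1 * s (qe e).1) • bb e := mpG_scl_bi _ _ _

/-- the bond image in the background `w` with fields scaled by `s` -/
def gs (w : EG G → ℝ) (s : G × G → ℝ) (e : EG G) : Ge (VI (HE G)) :=
  1 - (2 * (w e * (s (pe e).1 * s (qe e).1))) • bb e

omit [DecidableEq G] in
theorem mpG_sc_TH (w : EG G → ℝ) (s : G × G → ℝ) (X : J4RRx653.RR (EG G)) :
    mpG (sc s) (J4RRx653.TH (fun e => 1 - (2 * w e) • bb e) X) = J4RRx653.TH (gs w s) X := by
  rw [J4RRx653.TH_algHom]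
  congr 1
  congr 1
  funext e
  rw [map_sub, map_one, map_smul, mpG_sc_bb, smul_smul, gs]
  congr 2
  ring

/-- **rescaling of a polynomial in the bond variables** -/
theorem resc_TH {w : EG G → ℝ} {l : Gr (VI (HE G)) →ₗ[ℝ] ℝ} (hl : SD w l) (Λ W : Finset (G × G))
    (hW : W ⊆ Λ) (hn : ∀ h : HE G, h.1 ∈ W → (bar h).1 ∈ Λ) (s : G × G → ℝ)
    (hs : ∀ f, f ∉ W → s f = 1) (X : J4RRx653.RR (EG G)) :
    l ((mF w Λ s * J4RRx653.TH (gs w s) X : Ge (VI (HE G))) : Gr (VI (HE G))) =
      (∏ f ∈ W, s f ^ 4) *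
        l ((J4RRx653.TH (fun e => 1 - (2 * w e) • bb e) X : Ge (VI (HE G))) : Gr (VI (HE G))) := by
  rw [← resc hl Λ W hW hn s hs, ← mpG_sc_TH, Ge.coe_mul, coe_mpG]

/-- an inverse kernel (no finiteness) gives a Schwinger-Dyson functional -/
theorem IsInv.sd' {w : EG G → ℝ} {S : HE G → HE G → ℝ} (hS : IsInv w S) :
    SD w (EE (covOf S hS.anti)) := by
  intro h X
  have h1 : ∀ j, EE (covOf S hS.anti) (ph j * X) =
      EE (covOf S hS.anti) (dd ((covOf S hS.anti).b (Finsupp.single j 1)) X) :=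
    fun j => EE_fi_mul _ _ _
  simp only [h1]
  rw [Aop_nb]
  have h2 : ∑ j ∈ nb h, Am w h j • (covOf S hS.anti).b (Finsupp.single j 1) =
      -(Finsupp.lapply h : VI (HE G) →ₗ[ℝ] ℝ) := by
    apply Finsupp.lhom_ext'
    intro k
    apply LinearMap.ext_ring
    rw [LinearMap.comp_apply, Finsupp.lsingle_apply, LinearMap.sum_apply]
    simp only [LinearMap.smul_apply, covOf_b, formOf_single, smul_eq_mul]
    rw [← Aop_nb w (fun j => S j k) h, hS.inv h k, LinearMap.comp_apply, Finsupp.lsingle_apply,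
      LinearMap.neg_apply, Finsupp.lapply_apply, Finsupp.single_apply]
    by_cases e : h = k
    · rw [if_pos e, if_pos e.symm]
    · rw [if_neg e, if_neg (fun e' => e e'.symm), neg_zero]
  have h3 : ∑ j ∈ nb h, Am w h j * EE (covOf S hS.anti)
      (dd ((covOf S hS.anti).b (Finsupp.single j 1)) X) =
      EE (covOf S hS.anti) (dd (∑ j ∈ nb h, Am w h j • (covOf S hS.anti).b (Finsupp.single j 1)) X) := by
    have h4 : ∀ (t : Finset (HE G)), dd (∑ j ∈ t, Am w h j •
        (covOf S hS.anti).b (Finsupp.single j 1)) X =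
        ∑ j ∈ t, Am w h j • dd ((covOf S hS.anti).b (Finsupp.single j 1)) X := by
      intro t
      induction t using Finset.induction_on with
      | empty => rw [sum_empty, sum_empty, dd_zero_left]
      | insert a t ha ih => rw [sum_insert ha, sum_insert ha, dd_add_left, dd_smul_left, ih]
    rw [h4, map_sum]
    simp only [map_smul, smul_eq_mul]
  rw [h3, h2, dd_neg_left, map_neg]
  rfl

end lat

end Crest.Agent.R165.Rescx599
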