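import Crest.Agent.R165.J2b_606

/-!
# Row 165 (S0250), block J: position dependent rescaling of the fields (helper950)

* `RS t`   : the algebra map `φ_i ↦ t_i φ_i` on `Gr (VI ι)`, `RSe t` on the even ring
* `EX p q c t K = ∏_{k ∈ K} (1 + c_k (t_{p k} t_{q k} - 1) φ_{p k} φ_{q k})`
* `rescale`: if the linear functional `f` satisfies the Schwinger-Dyson equations of the quadratic
  form `Σ_k c_k φ_{p k} φ_{q k}` at the `i ∈ D` and `t = 1` off `D`, then
  `f (EX t K * RS t a) = (∏_{i ∈ D} t_i) * f a`.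
* `SDu u w f` : Schwinger-Dyson equations of the half-edge lattice with weights `w`, on the
  generators `u h` (`u = id`: 606's `SD`; `u = Sum.inl`: fields plus source generators)
* `resc` : **the rescaling identity**
  `f (∏_{𝓕} (1 + c_f I4_f + c_f²/2 I4_f²) * ∏_{𝓔} (1 + (w_e (s_p s_q - 1)) b_e) * RS a) =
   (∏_{𝓕} s_f ^ 4) * f a`,  `c_f = s_f² - 1`.
-/

set_option autoImplicit false

noncomputable section

namespace Crest.Agent.R165.Rescx950

open Crest.Agent.R165.Gr0x606 Crest.Agent.R165.Gr1x606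

/-! ### bilinears -/

section bi
variable {V : Type*} [AddCommGroup V] [Module ℝ V]

theorem bi_add (x y z : V) : bi x (y + z) = bi x y + bi x z := by
  apply Subtype.ext
  rw [Ge.coe_add, coe_bi, coe_bi, coe_bi, fi_add, mul_add]

theorem bi_smul (x y : V) (c : ℝ) : bi x (c • y) = c • bi x y := by
  apply Subtype.ext
  rw [Ge.coe_smul, coe_bi, coe_bi, fi_smul, mul_smul_comm]

theorem bi_zero (x : V) : bi x (0 : V) = 0 := by
  apply Subtype.ext
  rw [Ge.coe_zero, coe_bi, fi_zero, mul_zero]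

theorem bi_swap (x y : V) : bi x y = -bi y x := by
  apply Subtype.ext
  rw [Ge.coe_neg, coe_bi, coe_bi, fi_anti]

theorem bi_self (x : V) : bi x x = 0 := by
  apply Subtype.ext
  rw [Ge.coe_zero, coe_bi, fi_mul_self]

theorem bi_ll (x y z : V) : bi x y * bi x z = 0 := by
  apply Subtype.ext
  rw [Ge.coe_mul, coe_bi, coe_bi, Ge.coe_zero, mul_assoc, ← mul_assoc (fi y), fi_anti y x, neg_mul,
    mul_assoc, mul_neg, ← mul_assoc, fi_mul_self, zero_mul, neg_zero]

end bi

/-! ### rescaling of the generators -/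

section rs
variable {ι : Type*}

/-- diagonal rescaling of the fields -/
def rsV (t : ι → ℝ) : VI ι →ₗ[ℝ] VI ι := Finsupp.linearCombination ℝ fun i => Finsupp.single i (t i)

theorem rsV_single (t : ι → ℝ) (i : ι) :
    rsV t (Finsupp.single i 1) = t i • Finsupp.single i (1 : ℝ) := by
  rw [rsV, Finsupp.linearCombination_single, one_smul, Finsupp.smul_single, smul_eq_mul, mul_one]

/-- **the rescaling** `φ_i ↦ t_i φ_i` -/
def RS (t : ι → ℝ) : Gr (VI ι) →ₐ[ℝ] Gr (VI ι) := mp (rsV t)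

@[simp] theorem RS_ph (t : ι → ℝ) (i : ι) : RS t (ph i) = t i • ph i := by
  rw [RS, ph, mp_fi, rsV_single, fi_smul]

theorem rsV_rsV (t t' : ι → ℝ) : (rsV t) ∘ₗ (rsV t') = rsV (t * t') := by
  apply Finsupp.lhom_ext'
  intro i
  apply LinearMap.ext_ring
  rw [LinearMap.comp_apply, LinearMap.comp_apply, Finsupp.lsingle_apply, rsV_single, map_smul,
    rsV_single, LinearMap.comp_apply, Finsupp.lsingle_apply, rsV_single, smul_smul, Pi.mul_apply,
    mul_comm]

theorem RS_RS (t t' : ι → ℝ) (a : Gr (VI ι)) : RS t (RS t' a) = RS (t * t') a := by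
  induction a using Gr.induction with
  | h0 r => simp
  | h1 x a ih =>
    rw [map_mul, map_mul, map_mul, ih, RS, RS, RS, mp_fi, mp_fi, mp_fi, ← rsV_rsV]
    rfl
  | h2 a b iha ihb => simp only [map_add, iha, ihb]

theorem rsV_one : rsV (1 : ι → ℝ) = LinearMap.id := by
  apply Finsupp.lhom_ext'
  intro i
  apply LinearMap.ext_ring
  rw [LinearMap.comp_apply, LinearMap.comp_apply, Finsupp.lsingle_apply, rsV_single, Pi.one_apply,
    one_smul, LinearMap.id_apply]

@[simp] theorem RS_one (a : Gr (VI ι)) : RS (1 : ι → ℝ) a = a := by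
  induction a using Gr.induction with
  | h0 r => simp
  | h1 x a ih => rw [map_mul, ih, RS, mp_fi, rsV_one, LinearMap.id_apply]
  | h2 a b iha ihb => simp only [map_add, iha, ihb]

/-- the rescaling of the even ring -/
def RSe (t : ι → ℝ) : Ge (VI ι) →ₐ[ℝ] Ge (VI ι) :=
  ((RS t).comp (Ge (VI ι)).val).codRestrict (Ge (VI ι)) fun a => by
    rw [mem_Ge, IsEv]
    change inv' (mp (rsV t) (a : Gr (VI ι))) = mp (rsV t) (a : Gr (VI ι))
    rw [← mp_inv', Ge.isEv a]

@[simp] theorem coe_RSe (t : ι → ℝ) (a : Ge (VI ι)) :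
    ((RSe t a : Ge (VI ι)) : Gr (VI ι)) = RS t (a : Gr (VI ι)) := rfl

/-- bilinear of two generators -/
def bp (i j : ι) : Ge (VI ι) := bi (Finsupp.single i 1) (Finsupp.single j 1)

@[simp] theorem coe_bp (i j : ι) : ((bp i j : Ge (VI ι)) : Gr (VI ι)) = ph i * ph j := rfl

theorem RSe_bp (t : ι → ℝ) (i j : ι) : RSe t (bp i j) = (t i * t j) • bp i j := by
  apply Subtype.ext
  rw [coe_RSe, coe_bp, Ge.coe_smul, coe_bp, map_mul, RS_ph, RS_ph, smul_mul_smul_comm]

theorem bp_sq (i j : ι) : bp i j * bp i j = 0 := bi_mul_self _ _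

variable [DecidableEq ι]

/-- the scale at one generator -/
def one1 (i : ι) (s : ℝ) : ι → ℝ := fun j => if j = i then s else 1

theorem RS_one1 (i : ι) (s : ℝ) (a : Gr (VI ι)) :
    RS (one1 i s) a = a + (s - 1) • (ph i * de i a) := by
  have hx : ∀ x : VI ι, rsV (one1 i s) x = x + ((s - 1) * x i) • Finsupp.single i (1 : ℝ) := by
    intro x
    induction x using Finsupp.induction_linear with
    | zero => simp
    | add x y hx hy =>
      rw [map_add, hx, hy, Finsupp.add_apply, mul_add, add_smul]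
      abel
    | single j c =>
      have e1 : Finsupp.single j c = c • Finsupp.single j (1 : ℝ) := by
        rw [Finsupp.smul_single, smul_eq_mul, mul_one]
      rw [e1, map_smul, rsV_single, Finsupp.smul_apply, one1]
      by_cases h : j = i
      · subst h
        rw [if_pos rfl, Finsupp.single_eq_same, smul_eq_mul, mul_one, smul_smul, ← add_smul]
        congr 1
        ring
      · rw [if_neg h, one_smul, Finsupp.single_apply, if_neg h, smul_zero, mul_zero, zero_smul,
          add_zero]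
  induction a using Gr.induction with
  | h0 r => rw [AlgHom.commutes, de, dd_algebraMap, mul_zero, smul_zero, add_zero]
  | h1 x a ih =>
    have e1 : RS (one1 i s) (fi x) = fi x + ((s - 1) * x i) • ph i := by
      rw [RS, mp_fi, hx, fi_add, fi_smul]; rfl
    have e2 : de i (fi x * a) = x i • a - fi x * de i a := dd_fi_mul _ _ _
    have e3 : fi x * (ph i * de i a) = -(ph i * (fi x * de i a)) := by
      rw [← mul_assoc, ph, fi_anti, neg_mul, mul_assoc]
    rw [map_mul, e1, ih, e2, add_mul, mul_add, mul_add, mul_smul_comm, e3, mul_sub, mul_smul_comm,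
      smul_mul_assoc, smul_mul_assoc, mul_smul_comm, ph_ph_mul_self, smul_zero, smul_zero,
      add_zero, smul_neg, smul_sub, smul_smul]
    abel
  | h2 a b iha ihb =>
    rw [map_add, iha, ihb, map_add, mul_add, smul_add]
    abel

omit [DecidableEq ι] in
/-- **one generator**: rescaling under a functional with the Schwinger-Dyson equation at `i` -/
theorem step [DecidableEq ι] (f : Gr (VI ι) →ₗ[ℝ] ℝ) (i : ι) (Ψ : VI ι)
    (h : ∀ X, f (fi Ψ * X) = -f (de i X)) (s : ℝ) (a : Gr (VI ι)) :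
    f (((1 + (s - 1) • bi (Finsupp.single i 1) Ψ : Ge (VI ι)) : Gr (VI ι)) * RS (one1 i s) a) =
      s * f a := by
  have e0 : ((1 + (s - 1) • bi (Finsupp.single i 1) Ψ : Ge (VI ι)) : Gr (VI ι)) =
      1 + (s - 1) • (ph i * fi Ψ) := rfl
  have e1 : f (ph i * fi Ψ * a) = f a - f (ph i * de i a) := by
    have h1 := h (ph i * a)
    rw [de_ph_mul_self, map_sub, ← mul_assoc, ph, fi_anti, neg_mul, map_neg] at h1
    rw [ph]
    linarith
  have e2 : ph i * fi Ψ * (ph i * de i a) = 0 := by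
    rw [ph, mul_assoc, ← mul_assoc (fi Ψ), fi_anti Ψ, neg_mul, mul_neg, mul_assoc, ← mul_assoc,
      fi_mul_self, zero_mul, neg_zero]
  rw [e0, RS_one1, add_mul, one_mul, mul_add, smul_mul_assoc, smul_mul_assoc, mul_smul_comm, e2,
    smul_zero, smul_zero, add_zero, map_add, map_add, map_smul, map_smul, e1, smul_eq_mul,
    smul_eq_mul]
  ring

/-! ### exponentials of bilinear forms as products -/

variable {κ : Type*} (p q : κ → ι) (c : κ → ℝ)

omit [DecidableEq ι] in
/-- the exponential of `½ φ (t A t - A) φ` as a product over the bonds -/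
def EX (t : ι → ℝ) (K : Finset κ) : Ge (VI ι) :=
  ∏ k ∈ K, (1 + (c k * (t (p k) * t (q k) - 1)) • bp (p k) (q k))

/-- the row of the action -/
def psi (i : ι) (k : κ) : VI ι :=
  (if p k = i then c k • Finsupp.single (q k) (1 : ℝ) else 0) -
    if q k = i then c k • Finsupp.single (p k) (1 : ℝ) else 0

theorem EX_one1 (K : Finset κ) (hK : ∀ k ∈ K, p k ≠ q k) (i : ι) (s : ℝ) :
    EX p q c (one1 i s) K = 1 + (s - 1) • bi (Finsupp.single i 1) (∑ k ∈ K, psi p q c i k) := by
  classical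
  induction K using Finset.induction_on with
  | empty => rw [EX, Finset.prod_empty, Finset.sum_empty, bi_zero, smul_zero, add_zero]
  | insert k K hk ih =>
    have h1 : (1 + (c k * (one1 i s (p k) * one1 i s (q k) - 1)) • bp (p k) (q k)) =
        1 + (s - 1) • bi (Finsupp.single i 1) (psi p q c i k) := by
      congr 1
      have hne := hK k (Finset.mem_insert_self _ _)
      unfold psi one1
      by_cases h1 : p k = i
      · have h2 : ¬ q k = i := fun h => hne (h1.trans h.symm)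
        rw [if_pos h1, if_neg h2, if_pos h1, if_neg h2, sub_zero, bi_smul, smul_smul, mul_one, bp,
          h1, mul_comm]
      · by_cases h2 : q k = i
        · rw [if_neg h1, if_pos h2, if_neg h1, if_pos h2, zero_sub, ← smul_neg, bi_smul, ← neg_one_smul ℝ,
            bi_smul, neg_one_smul, ← bi_swap, smul_smul, one_mul, bp, h2, mul_comm]
        · rw [if_neg h1, if_neg h2, if_neg h1, if_neg h2, sub_zero, bi_zero, smul_zero, one_mul,
            sub_self, mul_zero, zero_smul]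
    have ih' := ih fun k' hk' => hK k' (Finset.mem_insert_of_mem hk')
    rw [EX] at ih' ⊢
    rw [Finset.prod_insert hk, ih', h1, Finset.sum_insert hk, bi_add]
    have h3 : ((s - 1) • bi (Finsupp.single i 1) (psi p q c i k)) *
        ((s - 1) • bi (Finsupp.single i 1) (∑ k ∈ K, psi p q c i k)) = 0 := by
      rw [smul_mul_smul_comm, bi_ll, smul_zero]
    rw [smul_add]
    linear_combination h3

omit [DecidableEq ι] in
theorem EX_mul (t t' : ι → ℝ) (K : Finset κ) :
    EX p q c t K * RSe t (EX p q c t' K) = EX p q c (t * t') K := by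
  rw [EX, EX, EX, map_prod, ← Finset.prod_mul_distrib]
  refine Finset.prod_congr rfl fun k _ => ?_
  rw [map_add, map_one, map_smul, RSe_bp, smul_smul, Pi.mul_apply, Pi.mul_apply]
  have h : ((c k * (t (p k) * t (q k) - 1)) • bp (p k) (q k)) *
      ((c k * (t' (p k) * t' (q k) - 1) * (t (p k) * t (q k))) • bp (p k) (q k)) = 0 := by
    rw [smul_mul_smul_comm, bp_sq, smul_zero]
  rw [mul_add, mul_one, add_mul, one_mul, h, add_zero, add_assoc, ← add_smul]
  congr 2
  ring

omit [DecidableEq ι] in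
theorem EX_of_one (K : Finset κ) : EX p q c (1 : ι → ℝ) K = 1 := by
  rw [EX]
  refine Finset.prod_eq_one fun k _ => ?_
  simp

/-- **the rescaling identity**, general index set -/
theorem rescale (f : Gr (VI ι) →ₗ[ℝ] ℝ) (K : Finset κ) (hK : ∀ k ∈ K, p k ≠ q k) (D : Finset ι)
    (hf : ∀ i ∈ D, ∀ X, f (fi (∑ k ∈ K, psi p q c i k) * X) = -f (de i X))
    (t : ι → ℝ) (ht : ∀ i, i ∉ D → t i = 1) (a : Gr (VI ι)) :
    f ((EX p q c t K : Gr (VI ι)) * RS t a) = (∏ i ∈ D, t i) * f a := by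
  induction D using Finset.induction_on generalizing t with
  | empty =>
    have h1 : t = 1 := by
      funext i
      exact ht i (Finset.notMem_empty i)
    rw [h1, EX_of_one, Ge.coe_one, RS_one, one_mul, Finset.prod_empty, one_mul]
  | insert i D hi ih =>
    set t' : ι → ℝ := Function.update t i 1 with ht'
    have e1 : t = one1 i (t i) * t' := by
      funext j
      rw [Pi.mul_apply, one1, ht']
      by_cases h : j = i
      · subst h; rw [if_pos rfl, Function.update_self, mul_one]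
      · rw [if_neg h, Function.update_of_ne h, one_mul]
    have e2 : ∀ j, j ∉ D → t' j = 1 := by
      intro j hj
      rw [ht']
      by_cases h : j = i
      · subst h; rw [Function.update_self]
      · rw [Function.update_of_ne h]
        exact ht j fun h' => (Finset.mem_insert.1 h').elim h hj
    have e3 := ih (fun j hj => hf j (Finset.mem_insert_of_mem hj)) t' e2
    have e4 : ∏ j ∈ D, t' j = ∏ j ∈ D, t j := by
      refine Finset.prod_congr rfl fun j hj => ?_
      rw [ht', Function.update_of_ne]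
      rintro rfl
      exact hi hj
    have e5 : (EX p q c t K : Gr (VI ι)) * RS t a =
        (EX p q c (one1 i (t i)) K : Gr (VI ι)) * RS (one1 i (t i))
          ((EX p q c t' K : Gr (VI ι)) * RS t' a) := by
      rw [map_mul, RS_RS, ← mul_assoc, ← coe_RSe, ← Ge.coe_mul, EX_mul, ← e1]
    rw [e5, EX_one1 p q c K hK i, step f i _ (hf i (Finset.mem_insert_self _ _)), e3, e4,
      Finset.prod_insert hi, mul_assoc]

end rs

/-! ### the half-edge lattice -/

section alg
variable {R : Type*} [CommRing R]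

theorem prod6 (x0 x1 x2 x3 x4 x5 : R)
    (h01 : x0 * x1 = 0) (h02 : x0 * x2 = 0) (h03 : x0 * x3 = 0) (h04 : x0 * x4 = 0) (h12 : x1
    * x2 = 0) (h13 : x1 * x3 = 0) (h15 : x1 * x5 = 0) (h24 : x2 * x4 = 0) (h25 : x2 * x5 = 0)
    (h34 : x3 * x4 = 0) (h35 : x3 * x5 = 0) (h45 : x4 * x5 = 0) :
    (1 + x0) * (1 + x1) * (1 + x2) * (1 + x3) * (1 + x4) * (1 + x5) =
      1 + (x0 + x1 + x2 + x3 + x4 + x5) + (x0 * x5 + x1 * x4 + x2 * x3) := by
  linear_combination (1 + x2 + x3 + x4 + x5 + x2*x3 + x2*x4 + x2*x5 + x3*x4 + x3*x5 + x4*x5 + x2*x3*x4 +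
    x2*x3*x5 + x2*x4*x5 + x3*x4*x5 + x2*x3*x4*x5) * h01 + (1 + x3 + x4 + x5 + x3*x4 + x3*x5 +
    x4*x5 + x3*x4*x5) * h02 + (1 + x4 + x5 + x4*x5) * h03 + (1 + x5) * h04 + (1 + x3 + x4 + x5
    + x3*x4 + x3*x5 + x4*x5 + x3*x4*x5) * h12 + (1 + x4 + x5 + x4*x5) * h13 + (1 + x4) * h15 +
    (1 + x3 + x5 + x3*x5) * h24 + (1 + x3) * h25 + (1 + x5) * h34 + (1) * h35 + (1) * h45

theorem sq6 (x0 x1 x2 x3 x4 x5 : R)
    (q0 : x0 * x0 = 0) (q1 : x1 * x1 = 0) (q2 : x2 * x2 = 0) (q3 : x3 * x3 = 0)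
    (q4 : x4 * x4 = 0) (q5 : x5 * x5 = 0)
    (h01 : x0 * x1 = 0) (h02 : x0 * x2 = 0) (h03 : x0 * x3 = 0) (h04 : x0 * x4 = 0) (h12 : x1
    * x2 = 0) (h13 : x1 * x3 = 0) (h15 : x1 * x5 = 0) (h24 : x2 * x4 = 0) (h25 : x2 * x5 = 0)
    (h34 : x3 * x4 = 0) (h35 : x3 * x5 = 0) (h45 : x4 * x5 = 0) :
    (x0 + x1 + x2 + x3 + x4 + x5) * (x0 + x1 + x2 + x3 + x4 + x5) =
      2 * (x0 * x5 + x1 * x4 + x2 * x3) := by
  linear_combination q0 + q1 + q2 + q3 + q4 + q5 + 2 * (h01 + h02 + h03 + h04 + h12 + h13 + h15 +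
    h24 + h25 + h34 + h35 + h45)

end alg

section lattice

open Crest.Agent.R165.J1ax606 Crest.Agent.R165.J2ax606 Crest.Agent.R165.J2bx606

variable {G : Type*} [CommRing G] {ι : Type*}

/-- first ends of the six intra-face pairs -/
def P6 : Fin 6 → Fin 4 := ![0, 0, 0, 1, 1, 2]
/-- second ends of the six intra-face pairs -/
def Q6 : Fin 6 → Fin 4 := ![1, 2, 3, 2, 3, 3]

/-- intra-face form `Σ_{a < b} φ_{f,a} φ_{f,b}` -/
def I4 (u : HE G → ι) (g : G × G) : Ge (VI ι) := ∑ m : Fin 6, bp (u (g, P6 m)) (u (g, Q6 m))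

/-- bilinear of the edge `e` -/
def bu (u : HE G → ι) (e : EG G) : Ge (VI ι) := bp (u (pe e)) (u (qe e))

omit [CommRing G] in
theorem ov1 (x y z : ι) : bp x y * bp x z = 0 := bi_ll _ _ _
omit [CommRing G] in
theorem ov2 (x y z : ι) : bp x y * bp y z = 0 := by
  rw [bp, bp, bi_swap (Finsupp.single x 1), neg_mul, bi_ll, neg_zero]
omit [CommRing G] in
theorem ov3 (x y z : ι) : bp x y * bp z y = 0 := by
  rw [bp, bp, bi_swap (Finsupp.single x 1), bi_swap (Finsupp.single z 1), neg_mul_neg, bi_ll]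

omit [CommRing G] in
theorem I4_eq (u : HE G → ι) (g : G × G) : I4 u g =
    bp (u (g, 0)) (u (g, 1)) + bp (u (g, 0)) (u (g, 2)) + bp (u (g, 0)) (u (g, 3)) +
      bp (u (g, 1)) (u (g, 2)) + bp (u (g, 1)) (u (g, 3)) + bp (u (g, 2)) (u (g, 3)) := by
  rw [I4, Fin.sum_univ_six]
  rfl

omit [CommRing G] in
/-- the six factors of a face -/
theorem face_prod (u : HE G → ι) (g : G × G) (c : ℝ) :
    ∏ m : Fin 6, (1 + c • bp (u (g, P6 m)) (u (g, Q6 m))) =
      (1 + (c • I4 u g + (c ^ 2 / 2) • (I4 u g * I4 u g)) : Ge (VI ι)) := by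
  have e0 : ∏ m : Fin 6, (1 + c • bp (u (g, P6 m)) (u (g, Q6 m))) =
      (1 + c • bp (u (g, 0)) (u (g, 1))) * (1 + c • bp (u (g, 0)) (u (g, 2))) *
      (1 + c • bp (u (g, 0)) (u (g, 3))) * (1 + c • bp (u (g, 1)) (u (g, 2))) *
      (1 + c • bp (u (g, 1)) (u (g, 3))) * (1 + c • bp (u (g, 2)) (u (g, 3))) := by
    rw [Fin.prod_univ_six]
    rfl
  have z : ∀ x y : Ge (VI ι), x * y = 0 → (c • x) * (c • y) = 0 := fun x y h => by
    rw [smul_mul_smul_comm, h, smul_zero]
  have hs := sq6 (bp (u (g, 0)) (u (g, 1))) (bp (u (g, 0)) (u (g, 2))) (bp (u (g, 0)) (u (g, 3)))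
    (bp (u (g, 1)) (u (g, 2))) (bp (u (g, 1)) (u (g, 3))) (bp (u (g, 2)) (u (g, 3)))
    (bp_sq _ _) (bp_sq _ _) (bp_sq _ _) (bp_sq _ _) (bp_sq _ _) (bp_sq _ _)
    (ov1 _ _ _) (ov1 _ _ _) (ov2 _ _ _) (ov2 _ _ _) (ov1 _ _ _) (ov3 _ _ _) (ov2 _ _ _)
    (ov3 _ _ _) (ov3 _ _ _) (ov1 _ _ _) (ov2 _ _ _) (ov3 _ _ _)
  rw [e0, prod6 _ _ _ _ _ _ (z _ _ (ov1 _ _ _)) (z _ _ (ov1 _ _ _)) (z _ _ (ov2 _ _ _))
    (z _ _ (ov2 _ _ _)) (z _ _ (ov1 _ _ _)) (z _ _ (ov3 _ _ _)) (z _ _ (ov2 _ _ _))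
    (z _ _ (ov3 _ _ _)) (z _ _ (ov3 _ _ _)) (z _ _ (ov1 _ _ _)) (z _ _ (ov2 _ _ _))
    (z _ _ (ov3 _ _ _)), I4_eq, hs, add_assoc]
  simp only [smul_mul_smul_comm, ← smul_add]
  congr 2
  rw [two_mul, ← two_smul ℝ, smul_smul]
  congr 1
  ring

/-- labels of the bonds of the action: intra-face pairs and edges -/
abbrev LK (G : Type*) : Type _ := ((G × G) × Fin 6) ⊕ EG G

/-- first ends -/
def lp (u : HE G → ι) : LK G → ι
  | .inl k => u (k.1, P6 k.2)
  | .inr e => u (pe e)

/-- second ends -/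
def lq (u : HE G → ι) : LK G → ι
  | .inl k => u (k.1, Q6 k.2)
  | .inr e => u (qe e)

omit [CommRing G] in
/-- weights -/
def lc (w : EG G → ℝ) : LK G → ℝ
  | .inl _ => 1
  | .inr e => w e

/-- labels of finite sets of faces and edges -/
def LF (Fs : Finset (G × G)) (Es : Finset (EG G)) : Finset (LK G) := (Fs ×ˢ Finset.univ).disjSum Es

omit [CommRing G] in
theorem P6_ne_Q6 (m : Fin 6) : P6 m ≠ Q6 m := by fin_cases m <;> decide

theorem lp_ne_lq {u : HE G → ι} (hu : Function.Injective u) (k : LK G) : lp u k ≠ lq u k := by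
  rcases k with ⟨g, m⟩ | e
  · intro h
    exact P6_ne_Q6 m (Prod.mk.inj (hu h)).2
  · intro h
    exact pe_ne_qe e e (hu h)

/-- **Schwinger-Dyson equations** with weights `w` on the generators `u h` -/
def SDu (u : HE G → ι) (w : EG G → ℝ) (f : Gr (VI ι) →ₗ[ℝ] ℝ) : Prop :=
  ∀ h X, Aop w (fun j => f (ph (u j) * X)) h = -f (de (u h) X)

theorem SDu_id (w : EG G → ℝ) (f : Gr (VI (HE G)) →ₗ[ℝ] ℝ) : SDu id w f ↔ SD w f := Iff.rfl

variable [DecidableEq G] [DecidableEq ι]

omit [DecidableEq G] in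
theorem face_sum {u : HE G → ι} (hu : Function.Injective u) (Fs : Finset (G × G)) (h : HE G)
    (hF : h.1 ∈ Fs) (w : EG G → ℝ) :
    ∑ k ∈ Fs ×ˢ (Finset.univ : Finset (Fin 6)), psi (lp u) (lq u) (lc w) (u h) (Sum.inl k) =
      ∑ b, a4 h.2 b • Finsupp.single (u (h.1, b)) (1 : ℝ) := by
  obtain ⟨g, a⟩ := h
  rw [Finset.sum_product, Finset.sum_eq_single g]
  · have e1 : ∀ m : Fin 6, psi (lp u) (lq u) (lc w) (u (g, a)) (Sum.inl (g, m)) =
        (if P6 m = a then Finsupp.single (u (g, Q6 m)) (1 : ℝ) else 0) -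
          if Q6 m = a then Finsupp.single (u (g, P6 m)) (1 : ℝ) else 0 := by
      intro m
      have h1 : (u (g, P6 m) = u (g, a)) ↔ P6 m = a :=
        ⟨fun h => (Prod.mk.inj (hu h)).2, fun h => by rw [h]⟩
      have h2 : (u (g, Q6 m) = u (g, a)) ↔ Q6 m = a :=
        ⟨fun h => (Prod.mk.inj (hu h)).2, fun h => by rw [h]⟩
      simp only [psi, lp, lq, lc, h1, h2, one_smul]
    rw [Finset.sum_congr rfl fun m _ => e1 m, Fin.sum_univ_six, Fin.sum_univ_four]
    fin_cases a <;> simp [P6, Q6, a4]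
  · intro g' _ hg'
    refine Finset.sum_eq_zero fun m _ => ?_
    have h1 : ¬ u (g', P6 m) = u (g, a) := fun h => hg' (Prod.mk.inj (hu h)).1
    have h2 : ¬ u (g', Q6 m) = u (g, a) := fun h => hg' (Prod.mk.inj (hu h)).1
    change ((if u (g', P6 m) = u (g, a) then (1 : ℝ) • Finsupp.single (u (g', Q6 m)) (1 : ℝ) else 0) -
      if u (g', Q6 m) = u (g, a) then (1 : ℝ) • Finsupp.single (u (g', P6 m)) (1 : ℝ) else 0) = 0
    rw [if_neg h1, if_neg h2, sub_zero]
  · intro h
    exact absurd hF h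

omit [DecidableEq G] in
theorem edge_sum {u : HE G → ι} (hu : Function.Injective u) (Es : Finset (EG G)) (h : HE G)
    (w : EG G → ℝ) (hE : ed h ∈ Es ∨ w (ed h) = 0) :
    ∑ e ∈ Es, psi (lp u) (lq u) (lc w) (u h) (Sum.inr e) =
      (sg h.2 * w (ed h)) • Finsupp.single (u (bar h)) (1 : ℝ) := by
  have key0 : ∀ e, psi (lp u) (lq u) (lc w) (u h) (Sum.inr e) =
      (if u (pe e) = u h then w e • Finsupp.single (u (qe e)) (1 : ℝ) else 0) -
        if u (qe e) = u h then w e • Finsupp.single (u (pe e)) (1 : ℝ) else 0 := fun e => rfl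
  have key : ∀ e, e ≠ ed h → psi (lp u) (lq u) (lc w) (u h) (Sum.inr e) = 0 := by
    intro e he
    have h1 : ¬ u (pe e) = u h := fun h' => he (by rw [← hu h', ed_pe])
    have h2 : ¬ u (qe e) = u h := fun h' => he (by rw [← hu h', ed_qe])
    rw [key0, if_neg h1, if_neg h2, sub_zero]
  have key2 : psi (lp u) (lq u) (lc w) (u h) (Sum.inr (ed h)) =
      (sg h.2 * w (ed h)) • Finsupp.single (u (bar h)) (1 : ℝ) := by
    rcases he_cases h with ⟨h1, h2⟩ | ⟨h1, h2⟩
    · have h3 : ¬ u (qe (ed h)) = u h := by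
        intro h'
        have := hu h'
        rw [h1] at this
        simp only [ed_pe] at this
        exact pe_ne_qe _ _ this.symm
      have h4 : u (pe (ed h)) = u h := by rw [← h1]
      have h5 : bar h = qe (ed h) := by
        conv_lhs => rw [h1]
        rw [bar_pe]
      rw [key0, if_pos h4, if_neg h3, sub_zero, h2, one_mul, h5]
    · have h3 : ¬ u (pe (ed h)) = u h := by
        intro h'
        have := hu h'
        rw [h1] at this
        simp only [ed_qe] at this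
        exact pe_ne_qe _ _ this
      have h4 : u (qe (ed h)) = u h := by rw [← h1]
      have h5 : bar h = pe (ed h) := by
        conv_lhs => rw [h1]
        rw [bar_qe]
      rw [key0, if_neg h3, if_pos h4, zero_sub, h2, h5, neg_mul, one_mul, neg_smul]
  by_cases hA : ed h ∈ Es
  · rw [Finset.sum_eq_single (ed h) (fun e _ he => key e he) (fun h' => absurd hA h'), key2]
  · rw [hE.resolve_left hA, mul_zero, zero_smul]
    exact Finset.sum_eq_zero fun e he => key e fun h' => hA (h' ▸ he)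

omit [DecidableEq G] in
/-- the Schwinger-Dyson equation in the form of `rescale` -/
theorem SDu.psi {u : HE G → ι} {w : EG G → ℝ} {f : Gr (VI ι) →ₗ[ℝ] ℝ} (hf : SDu u w f)
    (hu : Function.Injective u) (Fs : Finset (G × G)) (Es : Finset (EG G)) (h : HE G)
    (hF : h.1 ∈ Fs) (hE : ed h ∈ Es ∨ w (ed h) = 0) (X : Gr (VI ι)) :
    f (fi (∑ k ∈ LF Fs Es, psi (lp u) (lq u) (lc w) (u h) k) * X) = -f (de (u h) X) := by
  have e1 : ∑ k ∈ LF Fs Es, Rescx950.psi (lp u) (lq u) (lc w) (u h) k =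
      ∑ b, a4 h.2 b • Finsupp.single (u (h.1, b)) (1 : ℝ) +
        (sg h.2 * w (ed h)) • Finsupp.single (u (bar h)) (1 : ℝ) := by
    rw [LF, Finset.sum_disjSum, face_sum hu Fs h hF w, edge_sum hu Es h w hE]
  have hfi : ∀ (s : Finset (Fin 4)) (g : Fin 4 → VI ι), fi (∑ e ∈ s, g e) = ∑ e ∈ s, fi (g e) :=
    fun s g => map_sum (ExteriorAlgebra.ι ℝ) g s
  rw [e1, ← hf h X, Aop, fi_add, hfi, add_mul, Finset.sum_mul, map_add, map_sum]
  congr 1
  · refine Finset.sum_congr rfl fun b _ => ?_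
    rw [fi_smul, smul_mul_assoc, map_smul, smul_eq_mul]
    rfl
  · rw [fi_smul, smul_mul_assoc, map_smul, smul_eq_mul]
    rfl

/-- the scale of a generator: `s` of the face on the lattice generators, `1` on the others -/
def tu (u : HE G → ι) (s : G × G → ℝ) : ι → ℝ := Function.extend u (fun h => s h.1) 1

omit [CommRing G] [DecidableEq G] [DecidableEq ι] in
theorem tu_apply {u : HE G → ι} (hu : Function.Injective u) (s : G × G → ℝ) (h : HE G) :
    tu u s (u h) = s h.1 := hu.extend_apply _ _ h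

omit [CommRing G] [DecidableEq G] [DecidableEq ι] in
theorem tu_out {u : HE G → ι} (s : G × G → ℝ) {i : ι} (h : ∀ j, u j ≠ i) : tu u s i = 1 := by
  rw [tu, Function.extend_apply' _ _ _ (fun ⟨j, hj⟩ => h j hj)]
  rfl

omit [DecidableEq G] [DecidableEq ι] in
theorem EX_LF {u : HE G → ι} (hu : Function.Injective u) (w : EG G → ℝ) (s : G × G → ℝ)
    (Fs : Finset (G × G)) (Es : Finset (EG G)) :
    EX (lp u) (lq u) (lc w) (tu u s) (LF Fs Es) =
      (∏ g ∈ Fs, (1 + ((s g * s g - 1) • I4 u g + ((s g * s g - 1) ^ 2 / 2) • (I4 u g * I4 u g)))) *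
        ∏ e ∈ Es, (1 + (w e * (s (pe e).1 * s (qe e).1 - 1)) • bu u e) := by
  rw [EX, LF, Finset.prod_disjSum, Finset.prod_product]
  congr 1
  · refine Finset.prod_congr rfl fun g _ => ?_
    rw [← face_prod]
    refine Finset.prod_congr rfl fun m _ => ?_
    simp only [lp, lq, lc, tu_apply hu, one_mul]
  · refine Finset.prod_congr rfl fun e _ => ?_
    simp only [lp, lq, lc, tu_apply hu, bu]

/-- **THE RESCALING IDENTITY** (task 45): any functional with the Schwinger-Dyson equations of `w`. -/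
theorem resc {u : HE G → ι} (hu : Function.Injective u) {w : EG G → ℝ} {f : Gr (VI ι) →ₗ[ℝ] ℝ}
    (hf : SDu u w f) (s : G × G → ℝ) (Fs : Finset (G × G)) (Es : Finset (EG G))
    (hF : ∀ g, s g ≠ 1 → g ∈ Fs) (hE : ∀ h : HE G, s h.1 ≠ 1 → ed h ∈ Es ∨ w (ed h) = 0)
    (a : Gr (VI ι)) :
    f ((((∏ g ∈ Fs, (1 + ((s g * s g - 1) • I4 u g +
          ((s g * s g - 1) ^ 2 / 2) • (I4 u g * I4 u g)))) *
        ∏ e ∈ Es, (1 + (w e * (s (pe e).1 * s (qe e).1 - 1)) • bu u e) : Ge (VI ι)) :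
          Gr (VI ι)) * RS (tu u s) a) = (∏ g ∈ Fs, s g ^ 4) * f a := by
  classical
  set D : Finset ι := ((Fs.filter fun g => s g ≠ 1) ×ˢ (Finset.univ : Finset (Fin 4))).image u
    with hD
  have h1 := rescale (lp u) (lq u) (lc w) f (LF Fs Es) (fun k _ => lp_ne_lq hu k) D ?_ (tu u s) ?_ a
  · rw [← EX_LF hu, h1]
    congr 1
    rw [hD, Finset.prod_image (fun _ _ _ _ h => hu h), Finset.prod_product]
    have e1 : ∀ g ∈ Fs.filter (fun g => s g ≠ 1), ∏ y : Fin 4, tu u s (u (g, y)) = s g ^ 4 := by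
      intro g _
      rw [Finset.prod_congr rfl fun y _ => tu_apply hu s (g, y)]
      simp
    rw [Finset.prod_congr rfl e1]
    refine Finset.prod_filter_of_ne fun g _ hg h' => hg ?_
    rw [h', one_pow]
  · intro i hi X
    rw [hD, Finset.mem_image] at hi
    obtain ⟨h, hh, rfl⟩ := hi
    rw [Finset.mem_product, Finset.mem_filter] at hh
    exact hf.psi hu Fs Es h hh.1.1 (hE h hh.1.2) X
  · intro i hi
    by_cases hr : ∃ h, u h = i
    · obtain ⟨h, rfl⟩ := hr
      rw [tu_apply hu]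
      by_contra hne
      apply hi
      rw [hD, Finset.mem_image]
      exact ⟨h, Finset.mem_product.2 ⟨Finset.mem_filter.2 ⟨hF _ hne, hne⟩, Finset.mem_univ _⟩, rfl⟩
    · exact tu_out s fun j hj => hr ⟨j, hj⟩

end lattice

end Crest.Agent.R165.Rescx950
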