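import Mathlib

/-!
# Row 165 (S0250): abstract two-parameter shooting lemma (helper541)

One expanding direction `ν` (factor `L`), one neutral direction `z`, a contracting remainder `R`
living in arbitrary spaces `E k` with size functions `Nm k` and "distances" `Ds k` (no completeness,
no linear structure is needed: `R` is eliminated forwards, `ν` and `z` are found by a contraction on
weighted real sequences). The constants `ε₀, K` depend only on `L κ r η M ρ`.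

The initial map is step `0`: take `E 0 = Unit` with `Nm 0 = C |lam|`, `Ds 0 = 0`.
-/

set_option autoImplicit false

open Filter Topology Set

namespace Crest.Agent.R165.Shtx541

universe u

/-- the hypotheses on one step of the flow -/
structure FlowHyp (E : ℕ → Type u) (Nm : ∀ k, E k → ℝ) (Ds : ∀ k, E k → E k → ℝ)
    (Φ : ∀ k, ℝ → ℝ → E k → E (k + 1)) (f g : ∀ k, ℝ → ℝ → E k → ℝ)
    (κ η M ρ : ℝ) : Prop where
  nm_nonneg : ∀ k R, 0 ≤ Nm k R
  ds_nonneg : ∀ k R R', 0 ≤ Ds k R R'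
  nm : ∀ k ν z R s, |ν| ≤ s → |z| ≤ s → Nm k R ≤ s → s ≤ ρ →
    Nm (k + 1) (Φ k ν z R) ≤ κ * Nm k R + M * s ^ 2
  ds : ∀ k ν z R ν' z' R' s, |ν| ≤ s → |z| ≤ s → Nm k R ≤ s → |ν'| ≤ s → |z'| ≤ s →
    Nm k R' ≤ s → s ≤ ρ →
    Ds (k + 1) (Φ k ν z R) (Φ k ν' z' R') ≤
      κ * Ds k R R' + M * s * (|ν - ν'| + |z - z'| + Ds k R R')
  f_nm : ∀ k ν z R s, |ν| ≤ s → |z| ≤ s → Nm k R ≤ s → s ≤ ρ →
    |f k ν z R| ≤ M * Nm k R + (η + M * s) * (|ν| + |z|) + M * s ^ 2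
  f_ds : ∀ k ν z R ν' z' R' s, |ν| ≤ s → |z| ≤ s → Nm k R ≤ s → |ν'| ≤ s → |z'| ≤ s →
    Nm k R' ≤ s → s ≤ ρ →
    |f k ν z R - f k ν' z' R'| ≤ M * Ds k R R' + (η + M * s) * (|ν - ν'| + |z - z'|)
  g_nm : ∀ k ν z R s, |ν| ≤ s → |z| ≤ s → Nm k R ≤ s → s ≤ ρ →
    |g k ν z R| ≤ M * Nm k R + (η + M * s) * (|ν| + |z|) + M * s ^ 2
  g_ds : ∀ k ν z R ν' z' R' s, |ν| ≤ s → |z| ≤ s → Nm k R ≤ s → |ν'| ≤ s → |z'| ≤ s →
    Nm k R' ≤ s → s ≤ ρ →
    |g k ν z R - g k ν' z' R'| ≤ M * Ds k R R' + (η + M * s) * (|ν - ν'| + |z - z'|)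

/-- the forward trajectory of the remainder driven by given sequences -/
def traj {E : ℕ → Type u} (Φ : ∀ k, ℝ → ℝ → E k → E (k + 1)) (R0 : E 0) (ν z : ℕ → ℝ) :
    ∀ k, E k
  | 0 => R0
  | k + 1 => Φ k (ν k) (z k) (traj Φ R0 ν z k)

section Core

variable {E : ℕ → Type u} {Nm : ∀ k, E k → ℝ} {Ds : ∀ k, E k → E k → ℝ}
  {Φ : ∀ k, ℝ → ℝ → E k → E (k + 1)} {f g : ∀ k, ℝ → ℝ → E k → ℝ} {κ η M ρ : ℝ}

/-- size of the trajectory -/
theorem traj_nm (H : FlowHyp E Nm Ds Φ f g κ η M ρ) {r K ε : ℝ} (hκ : 0 ≤ κ) (hr0 : 0 < r)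
    (hr1 : r < 1) (hM : 0 ≤ M) (hK : 1 ≤ K) (hε : 0 < ε) (hρ : K * ε ≤ ρ)
    (hsmall : M * K ^ 2 * ε ≤ r - κ) {R0 : E 0} (hR0 : Nm 0 R0 ≤ ε) {ν z : ℕ → ℝ}
    (hν : ∀ k, |ν k| ≤ K * ε * r ^ k) (hz : ∀ k, |z k| ≤ K * ε * r ^ k) (k : ℕ) :
    Nm k (traj Φ R0 ν z k) ≤ ε * r ^ k := by
  induction k with
  | zero => simpa [traj] using hR0
  | succ k ih =>
    have hrk : 0 < r ^ k := pow_pos hr0 k
    have hrk1 : r ^ k ≤ 1 := pow_le_one₀ hr0.le hr1.le
    have h1 : ε * r ^ k ≤ K * ε * r ^ k := by nlinarith [mul_pos hε hrk]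
    have h2 : K * ε * r ^ k ≤ ρ := by
      have : K * ε * r ^ k ≤ K * ε * 1 := by
        apply mul_le_mul_of_nonneg_left hrk1; positivity
      linarith
    have h3 := H.nm k (ν k) (z k) (traj Φ R0 ν z k) (K * ε * r ^ k) (hν k) (hz k) (ih.trans h1) h2
    show Nm (k + 1) (Φ k (ν k) (z k) (traj Φ R0 ν z k)) ≤ _
    refine h3.trans ?_
    have h4 : κ * Nm k (traj Φ R0 ν z k) ≤ κ * (ε * r ^ k) := mul_le_mul_of_nonneg_left ih hκ
    have h5 : M * (K * ε * r ^ k) ^ 2 ≤ (M * K ^ 2 * ε) * (ε * r ^ k) := by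
      have : M * (K * ε * r ^ k) ^ 2 = (M * K ^ 2 * ε) * (ε * r ^ k) * r ^ k := by ring
      rw [this]
      have h6 : 0 ≤ (M * K ^ 2 * ε) * (ε * r ^ k) := by positivity
      nlinarith
    have h7 : (M * K ^ 2 * ε) * (ε * r ^ k) ≤ (r - κ) * (ε * r ^ k) :=
      mul_le_mul_of_nonneg_right hsmall (by positivity)
    calc κ * Nm k (traj Φ R0 ν z k) + M * (K * ε * r ^ k) ^ 2
        ≤ κ * (ε * r ^ k) + (r - κ) * (ε * r ^ k) := by linarith
      _ = ε * r ^ (k + 1) := by ring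

/-- Lipschitz dependence of the trajectory -/
theorem traj_ds (H : FlowHyp E Nm Ds Φ f g κ η M ρ) {r K ε q : ℝ} (hκ : 0 ≤ κ) (hr0 : 0 < r)
    (hr1 : r < 1) (hM : 0 ≤ M) (hK : 1 ≤ K) (hε : 0 < ε) (hρ : K * ε ≤ ρ)
    (hsmall : M * K ^ 2 * ε ≤ r - κ) (hq : 0 < q)
    (hsmall2 : M * (K * ε) * (2 + q) ≤ q * (r - κ)) {R0 : E 0} (hR0 : Nm 0 R0 ≤ ε)
    (hD0 : Ds 0 R0 R0 ≤ 0) {ν z ν' z' : ℕ → ℝ} {δ : ℝ} (hδ : 0 ≤ δ)
    (hν : ∀ k, |ν k| ≤ K * ε * r ^ k) (hz : ∀ k, |z k| ≤ K * ε * r ^ k)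
    (hν' : ∀ k, |ν' k| ≤ K * ε * r ^ k) (hz' : ∀ k, |z' k| ≤ K * ε * r ^ k)
    (hdν : ∀ k, |ν k - ν' k| ≤ K * ε * r ^ k * δ) (hdz : ∀ k, |z k - z' k| ≤ K * ε * r ^ k * δ)
    (k : ℕ) :
    Ds k (traj Φ R0 ν z k) (traj Φ R0 ν' z' k) ≤ q * (K * ε * r ^ k * δ) := by
  induction k with
  | zero =>
    refine hD0.trans ?_
    positivity
  | succ k ih =>
    have hrk : 0 < r ^ k := pow_pos hr0 k
    have hrk1 : r ^ k ≤ 1 := pow_le_one₀ hr0.le hr1.le
    have h1 : ε * r ^ k ≤ K * ε * r ^ k := by nlinarith [mul_pos hε hrk]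
    have h2 : K * ε * r ^ k ≤ ρ := by
      have : K * ε * r ^ k ≤ K * ε * 1 := by
        apply mul_le_mul_of_nonneg_left hrk1; positivity
      linarith
    have h3 := H.ds k (ν k) (z k) (traj Φ R0 ν z k) (ν' k) (z' k) (traj Φ R0 ν' z' k)
      (K * ε * r ^ k) (hν k) (hz k)
      ((traj_nm H hκ hr0 hr1 hM hK hε hρ hsmall hR0 hν hz k).trans h1) (hν' k) (hz' k)
      ((traj_nm H hκ hr0 hr1 hM hK hε hρ hsmall hR0 hν' hz' k).trans h1) h2
    show Ds (k + 1) (Φ k (ν k) (z k) (traj Φ R0 ν z k)) (Φ k (ν' k) (z' k) (traj Φ R0 ν' z' k)) ≤ _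
    refine h3.trans ?_
    set X := K * ε * r ^ k * δ with hX
    have hX0 : 0 ≤ X := by positivity
    have h4 : κ * Ds k (traj Φ R0 ν z k) (traj Φ R0 ν' z' k) ≤ κ * (q * X) :=
      mul_le_mul_of_nonneg_left ih hκ
    have h5 : M * (K * ε * r ^ k) * (|ν k - ν' k| + |z k - z' k| +
        Ds k (traj Φ R0 ν z k) (traj Φ R0 ν' z' k)) ≤ M * (K * ε) * ((2 + q) * X) := by
      have ha : |ν k - ν' k| + |z k - z' k| + Ds k (traj Φ R0 ν z k) (traj Φ R0 ν' z' k) ≤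
          (2 + q) * X := by
        have := hdν k
        have := hdz k
        linarith
      have hb : M * (K * ε * r ^ k) ≤ M * (K * ε) := by
        apply mul_le_mul_of_nonneg_left _ hM
        have : K * ε * r ^ k ≤ K * ε * 1 := by
          apply mul_le_mul_of_nonneg_left hrk1; positivity
        linarith
      have hc : 0 ≤ |ν k - ν' k| + |z k - z' k| + Ds k (traj Φ R0 ν z k) (traj Φ R0 ν' z' k) := by
        have := H.ds_nonneg k (traj Φ R0 ν z k) (traj Φ R0 ν' z' k)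
        positivity
      calc _ ≤ M * (K * ε) * (|ν k - ν' k| + |z k - z' k| +
          Ds k (traj Φ R0 ν z k) (traj Φ R0 ν' z' k)) := mul_le_mul_of_nonneg_right hb hc
        _ ≤ _ := mul_le_mul_of_nonneg_left ha (by positivity)
    have h6 : M * (K * ε) * ((2 + q) * X) ≤ q * (r - κ) * X := by
      have := mul_le_mul_of_nonneg_right hsmall2 hX0
      linarith
    calc _ ≤ κ * (q * X) + q * (r - κ) * X := by linarith
      _ = q * (K * ε * r ^ (k + 1) * δ) := by rw [hX]; ring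

end Core

/-! ### The fixed point problem on sequences -/

/-- the space of normalised sequences -/
abbrev Sq := {a : BoundedContinuousFunction ℕ (ℝ × ℝ) // ‖a‖ ≤ 1}

instance : CompleteSpace Sq := by
  have : IsClosed {a : BoundedContinuousFunction ℕ (ℝ × ℝ) | ‖a‖ ≤ 1} :=
    isClosed_le continuous_norm continuous_const
  exact this.completeSpace_coe

instance : Nonempty Sq := ⟨⟨0, by simp⟩⟩

theorem sq_fst (a : Sq) (k : ℕ) : |(a.1 k).1| ≤ 1 :=
  (norm_fst_le (a.1 k)).trans ((a.1.norm_coe_le_norm k).trans a.2)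

theorem sq_snd (a : Sq) (k : ℕ) : |(a.1 k).2| ≤ 1 :=
  (norm_snd_le (a.1 k)).trans ((a.1.norm_coe_le_norm k).trans a.2)

/-- the sequence `ν` of a normalised sequence -/
def nuS (w r : ℝ) (a : Sq) (k : ℕ) : ℝ := w * r ^ k * (a.1 k).1

/-- the sequence `z` of a normalised sequence -/
def zS (w r : ℝ) (a : Sq) (k : ℕ) : ℝ := w * r ^ k * (a.1 k).2

theorem nuS_le {w r : ℝ} (hw : 0 ≤ w) (hr : 0 ≤ r) (a : Sq) (k : ℕ) :
    |nuS w r a k| ≤ w * r ^ k := by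
  unfold nuS
  rw [abs_mul, abs_of_nonneg (by positivity : 0 ≤ w * r ^ k)]
  have := mul_le_mul_of_nonneg_left (sq_fst a k) (by positivity : 0 ≤ w * r ^ k)
  linarith

theorem zS_le {w r : ℝ} (hw : 0 ≤ w) (hr : 0 ≤ r) (a : Sq) (k : ℕ) :
    |zS w r a k| ≤ w * r ^ k := by
  unfold zS
  rw [abs_mul, abs_of_nonneg (by positivity : 0 ≤ w * r ^ k)]
  have := mul_le_mul_of_nonneg_left (sq_snd a k) (by positivity : 0 ≤ w * r ^ k)
  linarith

theorem nuS_sub {w r : ℝ} (hw : 0 ≤ w) (hr : 0 ≤ r) (a b : Sq) (k : ℕ) :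
    |nuS w r a k - nuS w r b k| ≤ w * r ^ k * dist a b := by
  unfold nuS
  rw [← mul_sub, abs_mul, abs_of_nonneg (by positivity : 0 ≤ w * r ^ k)]
  refine mul_le_mul_of_nonneg_left ?_ (by positivity)
  have h1 : ‖(a.1 k - b.1 k).1‖ ≤ ‖a.1 k - b.1 k‖ := norm_fst_le _
  have h2 : ‖a.1 k - b.1 k‖ ≤ dist a.1 b.1 := by
    rw [← dist_eq_norm]
    exact BoundedContinuousFunction.dist_coe_le_dist k
  exact h1.trans h2

theorem zS_sub {w r : ℝ} (hw : 0 ≤ w) (hr : 0 ≤ r) (a b : Sq) (k : ℕ) :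
    |zS w r a k - zS w r b k| ≤ w * r ^ k * dist a b := by
  unfold zS
  rw [← mul_sub, abs_mul, abs_of_nonneg (by positivity : 0 ≤ w * r ^ k)]
  refine mul_le_mul_of_nonneg_left ?_ (by positivity)
  have h1 : ‖(a.1 k - b.1 k).2‖ ≤ ‖a.1 k - b.1 k‖ := norm_snd_le _
  have h2 : ‖a.1 k - b.1 k‖ ≤ dist a.1 b.1 := by
    rw [← dist_eq_norm]
    exact BoundedContinuousFunction.dist_coe_le_dist k
  exact h1.trans h2

/-- a tail sum bounded by a geometric one -/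
theorem tail_bound {F : ℕ → ℝ} {r A c : ℝ} (hr0 : 0 < r) (hr1 : r < 1) (_hA : 0 ≤ A)
    (hc0 : 0 ≤ c) (hc1 : c ≤ 1) (hF : ∀ i, |F i| ≤ A * r ^ i) (k : ℕ) :
    Summable (fun i => c ^ (i + 1) * F (k + i)) ∧
    |∑' i, c ^ (i + 1) * F (k + i)| ≤ A * r ^ k / (1 - r) := by
  have hg : HasSum (fun i : ℕ => A * r ^ k * r ^ i) (A * r ^ k * (1 - r)⁻¹) :=
    (hasSum_geometric_of_lt_one hr0.le hr1).mul_left _
  have hle : ∀ i, ‖c ^ (i + 1) * F (k + i)‖ ≤ A * r ^ k * r ^ i := by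
    intro i
    rw [norm_mul, Real.norm_eq_abs, Real.norm_eq_abs, abs_of_nonneg (by positivity)]
    have h1 : c ^ (i + 1) ≤ 1 := pow_le_one₀ hc0 hc1
    have h2 := hF (k + i)
    have h3 : A * r ^ (k + i) = A * r ^ k * r ^ i := by rw [pow_add]; ring
    rw [h3] at h2
    have h4 : 0 ≤ |F (k + i)| := abs_nonneg _
    calc c ^ (i + 1) * |F (k + i)| ≤ 1 * |F (k + i)| := mul_le_mul_of_nonneg_right h1 h4
      _ ≤ _ := by linarith
  have hs : Summable (fun i => c ^ (i + 1) * F (k + i)) := Summable.of_norm_bounded hg.summable hle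
  refine ⟨hs, ?_⟩
  have h5 := tsum_of_norm_bounded hg hle
  rw [Real.norm_eq_abs] at h5
  rw [div_eq_mul_inv]
  exact h5

/-- shift identity of the tail sum -/
theorem tail_shift {F : ℕ → ℝ} {c : ℝ} (hc : c ≠ 0) (k : ℕ)
    (hs : Summable (fun i => c ^ (i + 1) * F (k + i))) :
    c⁻¹ * (-∑' i, c ^ (i + 1) * F (k + i)) + F k = -∑' i, c ^ (i + 1) * F (k + 1 + i) := by
  rw [hs.tsum_eq_zero_add]
  have h1 : (fun i : ℕ => c ^ (i + 1 + 1) * F (k + (i + 1))) =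
      fun i => c * (c ^ (i + 1) * F (k + 1 + i)) := by
    funext i
    rw [show k + (i + 1) = k + 1 + i by ring]
    ring
  rw [h1, tsum_mul_left]
  simp only [zero_add, pow_one, add_zero]
  field_simp
  ring

/-- constants -/
theorem exists_consts {κ r η M ρ : ℝ} (hκr : κ < r) (hr1 : r < 1) (hM : 0 ≤ M) (hρ : 0 < ρ)
    (_hη : 0 ≤ η) :
    ∃ K q ε₀ : ℝ, 1 ≤ K ∧ 0 < q ∧ 0 < ε₀ ∧ M / K ≤ (1 - r) / 4 ∧ M * q ≤ (1 - r) / 8 ∧
      ∀ ε, 0 < ε → ε ≤ ε₀ → K * ε ≤ ρ ∧ M * K ^ 2 * ε ≤ r - κ ∧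
        M * (K * ε) * (2 + q) ≤ q * (r - κ) ∧ M * (K * ε) ≤ (1 - r) / 24 := by
  have h1r : 0 < 1 - r := by linarith
  have hrk : 0 < r - κ := by linarith
  set K := 4 * M / (1 - r) + 1 with hK
  have hK1 : 1 ≤ K := by
    have : 0 ≤ 4 * M / (1 - r) := by positivity
    linarith
  have hK0 : 0 < K := by linarith
  set q := (1 - r) / (8 * (M + 1)) with hq
  have hq0 : 0 < q := by positivity
  refine ⟨K, q, min (ρ / K) (min ((r - κ) / (M * K ^ 2 + 1))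
    (min (q * (r - κ) / (M * K * (2 + q) + 1)) ((1 - r) / (24 * (M * K + 1))))), hK1, hq0, ?_, ?_,
    ?_, ?_⟩
  · refine lt_min (by positivity) (lt_min (by positivity) (lt_min (by positivity) (by positivity)))
  · rw [div_le_iff₀ hK0, hK]
    have : (1 - r) / 4 * (4 * M / (1 - r) + 1) = M + (1 - r) / 4 := by
      field_simp
    rw [this]
    linarith
  · rw [hq]
    have : M * ((1 - r) / (8 * (M + 1))) = (M / (M + 1)) * ((1 - r) / 8) := by
      field_simp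
    rw [this]
    have h2 : M / (M + 1) ≤ 1 := by
      rw [div_le_one (by linarith)]; linarith
    calc _ ≤ 1 * ((1 - r) / 8) := mul_le_mul_of_nonneg_right h2 (by positivity)
      _ = _ := one_mul _
  · intro ε hε hε2
    have e1 := hε2.trans (min_le_left _ _)
    have e2 := (hε2.trans (min_le_right _ _)).trans (min_le_left _ _)
    have e3 := ((hε2.trans (min_le_right _ _)).trans (min_le_right _ _)).trans (min_le_left _ _)
    have e4 := ((hε2.trans (min_le_right _ _)).trans (min_le_right _ _)).trans (min_le_right _ _)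
    refine ⟨?_, ?_, ?_, ?_⟩
    · rw [le_div_iff₀ hK0] at e1; linarith
    · rw [le_div_iff₀ (by positivity)] at e2
      nlinarith
    · rw [le_div_iff₀ (by positivity)] at e3
      nlinarith
    · rw [le_div_iff₀ (by positivity)] at e4
      nlinarith

section Main

variable {E : ℕ → Type u} {Nm : ∀ k, E k → ℝ} {Ds : ∀ k, E k → E k → ℝ}
  {Φ : ∀ k, ℝ → ℝ → E k → E (k + 1)} {f g : ∀ k, ℝ → ℝ → E k → ℝ} {κ η M ρ : ℝ}

/-- the value of a flow function along the trajectory driven by a normalised sequence -/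
def along (Φ : ∀ k, ℝ → ℝ → E k → E (k + 1)) (R0 : E 0) (h : ∀ k, ℝ → ℝ → E k → ℝ) (w r : ℝ)
    (a : Sq) (i : ℕ) : ℝ :=
  h i (nuS w r a i) (zS w r a i) (traj Φ R0 (nuS w r a) (zS w r a) i)

/-- size of a flow function along a trajectory -/
theorem along_le (H : FlowHyp E Nm Ds Φ f g κ η M ρ) {r K ε : ℝ} (hκ : 0 ≤ κ) (hr0 : 0 < r)
    (hr1 : r < 1) (hM : 0 ≤ M) (hK : 1 ≤ K) (hε : 0 < ε) (hρ : K * ε ≤ ρ) (hη : 0 ≤ η)
    (hsmall : M * K ^ 2 * ε ≤ r - κ) {R0 : E 0} (hR0 : Nm 0 R0 ≤ ε)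
    (h : ∀ k, ℝ → ℝ → E k → ℝ)
    (hh : ∀ k ν z R s, |ν| ≤ s → |z| ≤ s → Nm k R ≤ s → s ≤ ρ →
      |h k ν z R| ≤ M * Nm k R + (η + M * s) * (|ν| + |z|) + M * s ^ 2) (a : Sq) (i : ℕ) :
    |along Φ R0 h (K * ε) r a i| ≤
      (M * ε + (η + M * (K * ε)) * (2 * (K * ε)) + M * (K * ε) ^ 2) * r ^ i := by
  have hw : 0 ≤ K * ε := by positivity
  have hν := nuS_le hw hr0.le a
  have hz := zS_le hw hr0.le a
  have hrk : 0 < r ^ i := pow_pos hr0 i
  have hrk1 : r ^ i ≤ 1 := pow_le_one₀ hr0.le hr1.le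
  have h0 := traj_nm H hκ hr0 hr1 hM hK hε hρ hsmall hR0 hν hz i
  have h1 : ε * r ^ i ≤ K * ε * r ^ i := by nlinarith [mul_pos hε hrk]
  have h2 : K * ε * r ^ i ≤ K * ε := by
    have : K * ε * r ^ i ≤ K * ε * 1 := by
      apply mul_le_mul_of_nonneg_left hrk1; positivity
    linarith
  have h3 := hh i _ _ _ (K * ε * r ^ i) (hν i) (hz i) (h0.trans h1) (h2.trans hρ)
  refine h3.trans ?_
  have h4 : M * Nm i (traj Φ R0 (nuS (K * ε) r a) (zS (K * ε) r a) i) ≤ M * (ε * r ^ i) :=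
    mul_le_mul_of_nonneg_left h0 hM
  have h5 : (η + M * (K * ε * r ^ i)) * (|nuS (K * ε) r a i| + |zS (K * ε) r a i|) ≤
      (η + M * (K * ε)) * (2 * (K * ε * r ^ i)) := by
    have e1 : |nuS (K * ε) r a i| + |zS (K * ε) r a i| ≤ 2 * (K * ε * r ^ i) := by
      have := hν i
      have := hz i
      linarith
    have e2 : η + M * (K * ε * r ^ i) ≤ η + M * (K * ε) := by
      have := mul_le_mul_of_nonneg_left h2 hM
      linarith
    have e3 : 0 ≤ |nuS (K * ε) r a i| + |zS (K * ε) r a i| := by positivity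
    calc _ ≤ (η + M * (K * ε)) * (|nuS (K * ε) r a i| + |zS (K * ε) r a i|) :=
          mul_le_mul_of_nonneg_right e2 e3
      _ ≤ _ := mul_le_mul_of_nonneg_left e1 (by positivity)
  have h6 : M * (K * ε * r ^ i) ^ 2 ≤ M * (K * ε) ^ 2 * r ^ i := by
    have e1 : M * (K * ε * r ^ i) ^ 2 = M * (K * ε) ^ 2 * r ^ i * r ^ i := by ring
    rw [e1]
    have e2 : 0 ≤ M * (K * ε) ^ 2 * r ^ i := by positivity
    nlinarith
  calc _ ≤ M * (ε * r ^ i) + (η + M * (K * ε)) * (2 * (K * ε * r ^ i)) +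
        M * (K * ε) ^ 2 * r ^ i := by linarith
    _ = _ := by ring

/-- Lipschitz dependence of a flow function along a trajectory -/
theorem along_sub (H : FlowHyp E Nm Ds Φ f g κ η M ρ) {r K ε q : ℝ} (hκ : 0 ≤ κ) (hr0 : 0 < r)
    (hr1 : r < 1) (hM : 0 ≤ M) (hK : 1 ≤ K) (hε : 0 < ε) (hρ : K * ε ≤ ρ) (hη : 0 ≤ η)
    (hsmall : M * K ^ 2 * ε ≤ r - κ) (hq : 0 < q)
    (hsmall2 : M * (K * ε) * (2 + q) ≤ q * (r - κ)) {R0 : E 0} (hR0 : Nm 0 R0 ≤ ε)
    (hD0 : Ds 0 R0 R0 ≤ 0)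
    (h : ∀ k, ℝ → ℝ → E k → ℝ)
    (hh : ∀ k ν z R ν' z' R' s, |ν| ≤ s → |z| ≤ s → Nm k R ≤ s → |ν'| ≤ s → |z'| ≤ s →
      Nm k R' ≤ s → s ≤ ρ →
      |h k ν z R - h k ν' z' R'| ≤ M * Ds k R R' + (η + M * s) * (|ν - ν'| + |z - z'|))
    (a b : Sq) (i : ℕ) :
    |along Φ R0 h (K * ε) r a i - along Φ R0 h (K * ε) r b i| ≤
      (M * q * (K * ε) + (η + M * (K * ε)) * (2 * (K * ε))) * dist a b * r ^ i := by
  have hw : 0 ≤ K * ε := by positivity
  have hν := nuS_le hw hr0.le a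
  have hz := zS_le hw hr0.le a
  have hν' := nuS_le hw hr0.le b
  have hz' := zS_le hw hr0.le b
  have hdν := nuS_sub hw hr0.le a b
  have hdz := zS_sub hw hr0.le a b
  have hrk : 0 < r ^ i := pow_pos hr0 i
  have hrk1 : r ^ i ≤ 1 := pow_le_one₀ hr0.le hr1.le
  have h0 := traj_nm H hκ hr0 hr1 hM hK hε hρ hsmall hR0 hν hz i
  have h0' := traj_nm H hκ hr0 hr1 hM hK hε hρ hsmall hR0 hν' hz' i
  have hd := traj_ds H hκ hr0 hr1 hM hK hε hρ hsmall hq hsmall2 hR0 hD0 (dist_nonneg (x := a) (y := b))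
    hν hz hν' hz' hdν hdz i
  have h1 : ε * r ^ i ≤ K * ε * r ^ i := by nlinarith [mul_pos hε hrk]
  have h2 : K * ε * r ^ i ≤ K * ε := by
    have : K * ε * r ^ i ≤ K * ε * 1 := by
      apply mul_le_mul_of_nonneg_left hrk1; positivity
    linarith
  have h3 := hh i _ _ _ _ _ _ (K * ε * r ^ i) (hν i) (hz i) (h0.trans h1) (hν' i) (hz' i)
    (h0'.trans h1) (h2.trans hρ)
  refine h3.trans ?_
  set δ := dist a b with hδ
  have hδ0 : 0 ≤ δ := dist_nonneg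
  have h4 := mul_le_mul_of_nonneg_left hd hM
  have h5 : (η + M * (K * ε * r ^ i)) * (|nuS (K * ε) r a i - nuS (K * ε) r b i| +
      |zS (K * ε) r a i - zS (K * ε) r b i|) ≤
      (η + M * (K * ε)) * (2 * (K * ε * r ^ i * δ)) := by
    have e1 : |nuS (K * ε) r a i - nuS (K * ε) r b i| +
      |zS (K * ε) r a i - zS (K * ε) r b i| ≤ 2 * (K * ε * r ^ i * δ) := by
      have := hdν i
      have := hdz i
      linarith
    have e2 : η + M * (K * ε * r ^ i) ≤ η + M * (K * ε) := by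
      have := mul_le_mul_of_nonneg_left h2 hM
      linarith
    have e3 : 0 ≤ |nuS (K * ε) r a i - nuS (K * ε) r b i| +
      |zS (K * ε) r a i - zS (K * ε) r b i| := by positivity
    calc _ ≤ (η + M * (K * ε)) * _ :=
          mul_le_mul_of_nonneg_right e2 e3
      _ ≤ _ := mul_le_mul_of_nonneg_left e1 (by positivity)
  calc _ ≤ M * (q * (K * ε * r ^ i * δ)) + (η + M * (K * ε)) * (2 * (K * ε * r ^ i * δ)) := by
        linarith
    _ = _ := by ring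

/-- **Two-parameter shooting lemma.** `ε₀` and `K` depend only on `L κ r η M ρ`. -/
theorem shooting (L κ r η M ρ : ℝ) (hL : 1 < L) (hκ : 0 ≤ κ) (hκr : κ < r) (hr1 : r < 1)
    (hη : 0 ≤ η) (hηr : η ≤ (1 - r) / 8) (hM : 0 ≤ M) (hρ : 0 < ρ) :
    ∃ K ε₀ : ℝ, 1 ≤ K ∧ 0 < ε₀ ∧
      ∀ (E : ℕ → Type u) (Nm : ∀ k, E k → ℝ) (Ds : ∀ k, E k → E k → ℝ)
        (Φ : ∀ k, ℝ → ℝ → E k → E (k + 1)) (f g : ∀ k, ℝ → ℝ → E k → ℝ),
        FlowHyp E Nm Ds Φ f g κ η M ρ →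
        ∀ (ε : ℝ), 0 ≤ ε → ε ≤ ε₀ → ∀ R0 : E 0, Nm 0 R0 ≤ ε → Ds 0 R0 R0 ≤ 0 →
        ∃ (ν z : ℕ → ℝ) (R : ∀ k, E k), R 0 = R0 ∧
          (∀ k, R (k + 1) = Φ k (ν k) (z k) (R k)) ∧
          (∀ k, ν (k + 1) = L * ν k + f k (ν k) (z k) (R k)) ∧
          (∀ k, z (k + 1) = z k + g k (ν k) (z k) (R k)) ∧
          (∀ k, |ν k| ≤ K * ε * r ^ k) ∧ (∀ k, |z k| ≤ K * ε * r ^ k) ∧
          (∀ k, Nm k (R k) ≤ ε * r ^ k) := by
  have hr0 : 0 < r := lt_of_le_of_lt hκ hκr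
  have h1r : 0 < 1 - r := by linarith
  obtain ⟨K, q, ε₀, hK, hq, hε₀, hMK, hMq, hall⟩ := exists_consts hκr hr1 hM hρ hη
  refine ⟨K, ε₀, hK, hε₀, ?_⟩
  intro E Nm Ds Φ f g H ε hε0 hεε R0 hR0 hD0
  rcases hε0.eq_or_lt with hε | hε
  · -- `ε = 0`: everything is zero
    subst hε
    have hρ' : (0 : ℝ) ≤ ρ := hρ.le
    have hN : ∀ k, Nm k (traj Φ R0 (fun _ => 0) (fun _ => 0) k) ≤ 0 := by
      intro k
      induction k with
      | zero => simpa [traj] using hR0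
      | succ k ih =>
        have h1 := H.nm k 0 0 _ 0 (by simp) (by simp) ih hρ'
        have h2 : κ * Nm k (traj Φ R0 (fun _ => 0) (fun _ => 0) k) ≤ 0 :=
          mul_nonpos_of_nonneg_of_nonpos hκ ih
        show Nm (k + 1) (Φ k 0 0 (traj Φ R0 (fun _ => 0) (fun _ => 0) k)) ≤ 0
        refine h1.trans ?_
        simpa using h2
    have hf0 : ∀ (h : ∀ k, ℝ → ℝ → E k → ℝ), (∀ k ν z R s, |ν| ≤ s → |z| ≤ s → Nm k R ≤ s →
        s ≤ ρ → |h k ν z R| ≤ M * Nm k R + (η + M * s) * (|ν| + |z|) + M * s ^ 2) →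
        ∀ k, h k 0 0 (traj Φ R0 (fun _ => 0) (fun _ => 0) k) = 0 := by
      intro h hh k
      have h1 := hh k 0 0 _ 0 (by simp) (by simp) (hN k) hρ'
      have h2 : M * Nm k (traj Φ R0 (fun _ => 0) (fun _ => 0) k) ≤ 0 :=
        mul_nonpos_of_nonneg_of_nonpos hM (hN k)
      have h3 : |h k 0 0 (traj Φ R0 (fun _ => 0) (fun _ => 0) k)| ≤ 0 := by
        refine h1.trans ?_
        simpa using h2
      exact abs_eq_zero.1 (le_antisymm h3 (abs_nonneg _))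
    refine ⟨fun _ => 0, fun _ => 0, traj Φ R0 (fun _ => 0) (fun _ => 0), rfl, fun k => rfl,
      fun k => ?_, fun k => ?_, fun k => by simp, fun k => by simp, fun k => ?_⟩
    · simp only [hf0 f H.f_nm k, mul_zero, add_zero]
    · simp only [hf0 g H.g_nm k, add_zero]
    · simpa using hN k
  obtain ⟨hρK, hs1, hs2, hs3⟩ := hall ε hε hεε
  have hK0 : 0 < K := by linarith
  set w := K * ε with hw
  have hw0 : 0 < w := by positivity
  -- the map
  set A : ℝ := M * ε + (η + M * w) * (2 * w) + M * w ^ 2 with hA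
  have hA0 : 0 ≤ A := by positivity
  have hAw : A ≤ w * (1 - r) := by
    have e1 : M * ε = M / K * w := by rw [hw]; field_simp
    have e2 : M * ε ≤ (1 - r) / 4 * w := by
      rw [e1]; exact mul_le_mul_of_nonneg_right hMK hw0.le
    have e3 : (η + M * w) * (2 * w) ≤ ((1 - r) / 8 + (1 - r) / 24) * (2 * w) :=
      mul_le_mul_of_nonneg_right (by linarith) (by positivity)
    have e4 : M * w ^ 2 ≤ (1 - r) / 24 * w := by
      have : M * w ^ 2 = M * w * w := by ring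
      rw [this]; exact mul_le_mul_of_nonneg_right hs3 hw0.le
    have e5 : 0 ≤ (1 - r) * w := by positivity
    rw [hA]
    nlinarith
  have hfb := along_le H hκ hr0 hr1 hM hK hε hρK hη hs1 hR0 f H.f_nm
  have hgb := along_le H hκ hr0 hr1 hM hK hε hρK hη hs1 hR0 g H.g_nm
  set c : ℝ := L⁻¹ with hc
  have hL0 : 0 < L := by linarith
  have hc0 : 0 < c := inv_pos.2 hL0
  have hc1 : c ≤ 1 := inv_le_one_of_one_le₀ hL.le
  let U : Sq → ℕ → ℝ := fun a k => -∑' i, c ^ (i + 1) * along Φ R0 f w r a (k + i)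
  let W : Sq → ℕ → ℝ := fun a k => -∑' i, (1 : ℝ) ^ (i + 1) * along Φ R0 g w r a (k + i)
  have hU : ∀ a k, |U a k| ≤ w * r ^ k := by
    intro a k
    have h1 := (tail_bound hr0 hr1 hA0 hc0.le hc1 (hfb a) k).2
    have h2 : A * r ^ k / (1 - r) ≤ w * r ^ k := by
      rw [div_le_iff₀ h1r]
      have := mul_le_mul_of_nonneg_right hAw (pow_pos hr0 k).le
      linarith
    show |-_| ≤ _
    rw [abs_neg]
    exact h1.trans h2
  have hW : ∀ a k, |W a k| ≤ w * r ^ k := by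
    intro a k
    have h1 := (tail_bound hr0 hr1 hA0 zero_le_one le_rfl (hgb a) k).2
    have h2 : A * r ^ k / (1 - r) ≤ w * r ^ k := by
      rw [div_le_iff₀ h1r]
      have := mul_le_mul_of_nonneg_right hAw (pow_pos hr0 k).le
      linarith
    show |-_| ≤ _
    rw [abs_neg]
    exact h1.trans h2
  have hdiv : ∀ k (x : ℝ), |x| ≤ w * r ^ k → |x / (w * r ^ k)| ≤ 1 := by
    intro k x hx
    have h3 : 0 < w * r ^ k := by positivity
    rw [abs_div, abs_of_pos h3, div_le_one h3]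
    exact hx
  have hTb : ∀ a k, ‖((U a k / (w * r ^ k), W a k / (w * r ^ k)) : ℝ × ℝ)‖ ≤ 1 := by
    intro a k
    rw [Prod.norm_def]
    exact max_le (hdiv k _ (hU a k)) (hdiv k _ (hW a k))
  let T : Sq → Sq := fun a =>
    ⟨BoundedContinuousFunction.ofNormedAddCommGroupDiscrete
      (fun k => ((U a k / (w * r ^ k), W a k / (w * r ^ k)) : ℝ × ℝ)) 1 (hTb a), by
      rw [BoundedContinuousFunction.norm_le zero_le_one]
      exact hTb a⟩
  -- contraction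
  set B : ℝ := M * q * w + (η + M * w) * (2 * w) with hB
  have hB0 : 0 ≤ B := by positivity
  have hBw : B ≤ 1 / 2 * (w * (1 - r)) := by
    have e2 : M * q * w ≤ (1 - r) / 8 * w := mul_le_mul_of_nonneg_right hMq hw0.le
    have e3 : (η + M * w) * (2 * w) ≤ ((1 - r) / 8 + (1 - r) / 24) * (2 * w) :=
      mul_le_mul_of_nonneg_right (by linarith) (by positivity)
    have e5 : 0 ≤ (1 - r) * w := by positivity
    rw [hB]
    nlinarith
  have hfd := along_sub H hκ hr0 hr1 hM hK hε hρK hη hs1 hq hs2 hR0 hD0 f H.f_ds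
  have hgd := along_sub H hκ hr0 hr1 hM hK hε hρK hη hs1 hq hs2 hR0 hD0 g H.g_ds
  have hdist : ∀ (h : ∀ k, ℝ → ℝ → E k → ℝ)
      (_hb : ∀ a i, |along Φ R0 h w r a i| ≤ A * r ^ i)
      (_hd : ∀ a b i, |along Φ R0 h w r a i - along Φ R0 h w r b i| ≤ B * dist a b * r ^ i)
      (t : ℝ) (_ : 0 ≤ t) (_ : t ≤ 1) (a b : Sq) (k : ℕ),
      |(-∑' i, t ^ (i + 1) * along Φ R0 h w r a (k + i)) / (w * r ^ k) -
        (-∑' i, t ^ (i + 1) * along Φ R0 h w r b (k + i)) / (w * r ^ k)| ≤ 1 / 2 * dist a b := by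
    intro h hb hd t ht0 ht1 a b k
    have s1 := (tail_bound hr0 hr1 hA0 ht0 ht1 (hb a) k).1
    have s2 := (tail_bound hr0 hr1 hA0 ht0 ht1 (hb b) k).1
    have h1 := (tail_bound (F := fun i => along Φ R0 h w r a i - along Φ R0 h w r b i) hr0 hr1
      (mul_nonneg hB0 (dist_nonneg (x := a) (y := b))) ht0 ht1 (hd a b) k).2
    have h2 : (∑' i, t ^ (i + 1) * (along Φ R0 h w r a (k + i) - along Φ R0 h w r b (k + i))) =
        (∑' i, t ^ (i + 1) * along Φ R0 h w r a (k + i)) -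
          ∑' i, t ^ (i + 1) * along Φ R0 h w r b (k + i) := by
      rw [← s1.tsum_sub s2]
      congr 1
      funext i
      ring
    rw [h2] at h1
    have h3 : 0 < w * r ^ k := by positivity
    rw [← sub_div, abs_div, abs_of_pos h3, div_le_iff₀ h3]
    have h4 : |(-∑' i, t ^ (i + 1) * along Φ R0 h w r a (k + i)) -
        (-∑' i, t ^ (i + 1) * along Φ R0 h w r b (k + i))| =
        |(∑' i, t ^ (i + 1) * along Φ R0 h w r a (k + i)) -
          ∑' i, t ^ (i + 1) * along Φ R0 h w r b (k + i)| := by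
      rw [← abs_neg]; congr 1; ring
    rw [h4]
    refine h1.trans ?_
    rw [div_le_iff₀ h1r]
    have h5 := mul_le_mul_of_nonneg_right hBw
      (mul_nonneg (dist_nonneg (x := a) (y := b)) (pow_pos hr0 k).le)
    calc B * dist a b * r ^ k = B * (dist a b * r ^ k) := by ring
      _ ≤ _ := h5
      _ = _ := by ring
  have hT : ContractingWith (1 / 2 : NNReal) T := by
    refine ⟨by rw [← NNReal.coe_lt_coe]; norm_num, LipschitzWith.of_dist_le_mul fun a b => ?_⟩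
    have hcoe : ((1 / 2 : NNReal) : ℝ) = 1 / 2 := by norm_num
    rw [hcoe]
    have h0 : (0 : ℝ) ≤ 1 / 2 * dist a b := by positivity
    show dist (T a).1 (T b).1 ≤ _
    rw [BoundedContinuousFunction.dist_le h0]
    intro k
    show dist ((U a k / (w * r ^ k), W a k / (w * r ^ k)) : ℝ × ℝ)
      (U b k / (w * r ^ k), W b k / (w * r ^ k)) ≤ _
    rw [Prod.dist_eq]
    refine max_le ?_ ?_
    · rw [Real.dist_eq]
      exact hdist f hfb hfd c hc0.le hc1 a b k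
    · rw [Real.dist_eq]
      exact hdist g hgb hgd 1 zero_le_one le_rfl a b k
  -- the fixed point
  obtain ⟨a, ha⟩ : ∃ a : Sq, T a = a := ⟨ContractingWith.fixedPoint T hT, hT.fixedPoint_isFixedPt⟩
  have hfix : ∀ k, nuS w r a k = U a k ∧ zS w r a k = W a k := by
    intro k
    have h3 : 0 < w * r ^ k := by positivity
    have h1 : (T a).1 k = a.1 k := by rw [ha]
    have h2 : (T a).1 k = ((U a k / (w * r ^ k), W a k / (w * r ^ k)) : ℝ × ℝ) := rfl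
    rw [h2] at h1
    unfold nuS zS
    rw [← h1]
    constructor
    · show w * r ^ k * (U a k / (w * r ^ k)) = U a k
      field_simp
    · show w * r ^ k * (W a k / (w * r ^ k)) = W a k
      field_simp
  refine ⟨nuS w r a, zS w r a, traj Φ R0 (nuS w r a) (zS w r a), rfl, fun k => rfl, fun k => ?_,
    fun k => ?_, nuS_le hw0.le hr0.le a, zS_le hw0.le hr0.le a, ?_⟩
  · have hs := (tail_bound hr0 hr1 hA0 hc0.le hc1 (hfb a) k).1
    have := tail_shift (F := along Φ R0 f w r a) hc0.ne' k hs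
    rw [(hfix (k + 1)).1, (hfix k).1]
    show -∑' i, c ^ (i + 1) * along Φ R0 f w r a (k + 1 + i) =
      L * (-∑' i, c ^ (i + 1) * along Φ R0 f w r a (k + i)) + _
    rw [← this, hc, inv_inv, ← hc, ← (hfix k).1]
    rfl
  · have hs := (tail_bound hr0 hr1 hA0 zero_le_one le_rfl (hgb a) k).1
    have := tail_shift (F := along Φ R0 g w r a) one_ne_zero k hs
    rw [(hfix (k + 1)).2, (hfix k).2]
    show -∑' i, (1 : ℝ) ^ (i + 1) * along Φ R0 g w r a (k + 1 + i) =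
      (-∑' i, (1 : ℝ) ^ (i + 1) * along Φ R0 g w r a (k + i)) + _
    rw [← this, inv_one, one_mul, ← (hfix k).2]
    rfl
  · exact traj_nm H hκ hr0 hr1 hM hK hε hρK hs1 hR0 (nuS_le hw0.le hr0.le a)
      (zS_le hw0.le hr0.le a)

end Main

/-! ### Scalar recursions for boundary and branch norms -/

/-- `β_{k+1} ≤ κ β_k + C b_k + M β_k²` (valid while `β_k ≤ ρ`), `b_k ≤ ε r^k`, `β_0 ≤ ε` small:
then `β_k ≤ K ε r^k`, with `K, ε₀` depending only on `κ r C M ρ`. -/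
theorem scalar_decay (κ r C M ρ : ℝ) (hκ : 0 ≤ κ) (hκr : κ < r) (hr1 : r < 1) (hC : 0 ≤ C)
    (hM : 0 ≤ M) (hρ : 0 < ρ) :
    ∃ K ε₀ : ℝ, 1 ≤ K ∧ 0 < ε₀ ∧ ∀ ε, 0 ≤ ε → ε ≤ ε₀ → ∀ (β b : ℕ → ℝ) (n : ℕ),
      (∀ k, 0 ≤ β k) → (∀ k, b k ≤ ε * r ^ k) → β 0 ≤ ε →
      (∀ k < n, β k ≤ ρ → β (k + 1) ≤ κ * β k + C * b k + M * β k ^ 2) →
      ∀ k ≤ n, β k ≤ K * ε * r ^ k := by
  have hr0 : 0 < r := lt_of_le_of_lt hκ hκr
  have hrk : 0 < r - κ := by linarith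
  set K := 2 * C / (r - κ) + 1 with hK
  have hK1 : 1 ≤ K := by
    have : 0 ≤ 2 * C / (r - κ) := by positivity
    linarith
  have hK0 : 0 < K := by linarith
  refine ⟨K, min (ρ / K) ((r - κ) / (2 * (M * K + 1))), hK1, lt_min (by positivity) (by positivity),
    ?_⟩
  intro ε hε0 hε β b n hβ hb hβ0 hrec k hk
  have e1 := hε.trans (min_le_left _ _)
  have e2 := hε.trans (min_le_right _ _)
  rw [le_div_iff₀ hK0] at e1
  rw [le_div_iff₀ (by positivity)] at e2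
  induction k with
  | zero => 
    rw [pow_zero, mul_one]
    nlinarith
  | succ k ih =>
    have ih' := ih (by omega)
    have hrk0 : 0 < r ^ k := pow_pos hr0 k
    have hrk1 : r ^ k ≤ 1 := pow_le_one₀ hr0.le hr1.le
    have h1 : K * ε * r ^ k ≤ K * ε := by
      have : K * ε * r ^ k ≤ K * ε * 1 := by
        apply mul_le_mul_of_nonneg_left hrk1; positivity
      linarith
    have h2 := hrec k (by omega) (ih'.trans (h1.trans (by linarith)))
    have h3 : κ * β k ≤ κ * (K * ε * r ^ k) := mul_le_mul_of_nonneg_left ih' hκ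
    have h4 : C * b k ≤ C * (ε * r ^ k) := mul_le_mul_of_nonneg_left (hb k) hC
    have h5 : M * β k ^ 2 ≤ M * (K * ε * r ^ k) ^ 2 :=
      mul_le_mul_of_nonneg_left (pow_le_pow_left₀ (hβ k) ih' 2) hM
    have h6 : M * (K * ε * r ^ k) ^ 2 ≤ (r - κ) / 2 * (K * ε * r ^ k) := by
      have e3 : M * (K * ε * r ^ k) ≤ (r - κ) / 2 := by
        have := mul_le_mul_of_nonneg_left h1 hM
        nlinarith
      have e4 : 0 ≤ K * ε * r ^ k := by positivity
      calc M * (K * ε * r ^ k) ^ 2 = M * (K * ε * r ^ k) * (K * ε * r ^ k) := by ring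
        _ ≤ _ := mul_le_mul_of_nonneg_right e3 e4
    have h7 : C * (ε * r ^ k) ≤ (r - κ) / 2 * (K * ε * r ^ k) := by
      have e3 : C ≤ (r - κ) / 2 * K := by
        rw [hK]
        have : (r - κ) / 2 * (2 * C / (r - κ) + 1) = C + (r - κ) / 2 := by field_simp
        rw [this]; linarith
      have e4 : 0 ≤ ε * r ^ k := by positivity
      calc C * (ε * r ^ k) ≤ (r - κ) / 2 * K * (ε * r ^ k) := mul_le_mul_of_nonneg_right e3 e4
        _ = _ := by ring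
    calc β (k + 1) ≤ κ * (K * ε * r ^ k) + (r - κ) / 2 * (K * ε * r ^ k) +
          (r - κ) / 2 * (K * ε * r ^ k) := by linarith
      _ = K * ε * r ^ (k + 1) := by ring

end Crest.Agent.R165.Shtx541
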