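import Crest.Agent.R165.WuAsy_408

/-!
# Row 165 (S0250), block U2-P3, part 2: the Cauchy determinant (helper408)

* `det_schur` : `det M = M 0 0 * det (M_{i+1,j+1} - M_{i+1,0} M_{0,j+1} / M 0 0)`
* `det_toep`  : `det (1/(π (k - j + 1/2)))_{j,k<n} = Dg n`
-/

set_option autoImplicit false

noncomputable section

open Filter Topology Finset

namespace Crest.Agent.R165.WuDetx408

open WuAsyx408 Real.Wallis

theorem det_schur {K : Type*} [Field K] {n : ℕ} (M : Matrix (Fin (n + 1)) (Fin (n + 1)) K)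
    (h : M 0 0 ≠ 0) :
    M.det = M 0 0 * (Matrix.of fun i j : Fin n =>
      M i.succ j.succ - M i.succ 0 * M 0 j.succ / M 0 0).det := by
  set A : Matrix (Fin (n + 1)) (Fin (n + 1)) K := Matrix.of fun i j =>
    if i = 0 then M 0 j else M i j - M i 0 / M 0 0 * M 0 j with hA
  have h1 : M.det = A.det := by
    refine Matrix.det_eq_of_forall_row_eq_smul_add_const
      (c := fun i => if i = 0 then 0 else M i 0 / M 0 0) (k := 0) (by simp) ?_
    intro i j
    by_cases hi : i = 0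
    · subst hi; simp [hA]
    · simp [hA, hi]
  rw [h1, Matrix.det_succ_column_zero, Fin.sum_univ_succ]
  have h2 : ∀ i : Fin n, A i.succ 0 = 0 := by
    intro i
    simp [hA, Fin.succ_ne_zero, h]
  rw [Finset.sum_eq_zero (fun i _ => by rw [h2]; ring)]
  simp only [Fin.val_zero, pow_zero, one_mul, add_zero]
  have h3 : A 0 0 = M 0 0 := by simp [hA]
  rw [h3]
  congr 2
  ext i j
  simp [hA, Fin.succ_ne_zero]
  ring

/-- the Toeplitz–Cauchy matrix of the critical diagonal correlations -/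
def toep (n : ℕ) : Matrix (Fin n) (Fin n) ℝ :=
  Matrix.of fun j k => 1 / (Real.pi * ((k : ℝ) - (j : ℝ) + 1 / 2))

theorem half_ne (j k : ℕ) : (k : ℝ) - j + 1 / 2 ≠ 0 := by
  intro h
  have h2 : (2 * (k : ℤ) - 2 * j + 1 : ℤ) = 0 := by
    have : (2 * (k : ℝ) - 2 * j + 1) = 0 := by linarith
    exact_mod_cast this
  omega

theorem W_prod (n : ℕ) :
    (∏ k : Fin n, ((k : ℝ) + 1) / ((k : ℝ) + 1 + 1 / 2)) *
      (∏ j : Fin n, ((j : ℝ) + 1) / ((j : ℝ) + 1 - 1 / 2)) = W n := by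
  rw [← Finset.prod_mul_distrib, W, ← Fin.prod_univ_eq_prod_range (fun i : ℕ =>
    (2 * (i : ℝ) + 2) / (2 * i + 1) * ((2 * i + 2) / (2 * i + 3)))]
  refine Finset.prod_congr rfl fun k _ => ?_
  have h1 : (k : ℝ) + 1 + 1 / 2 = (2 * (k : ℝ) + 3) / 2 := by ring
  have h2 : (k : ℝ) + 1 - 1 / 2 = (2 * (k : ℝ) + 1) / 2 := by ring
  rw [h1, h2]
  have h3 : (2 * (k : ℝ) + 3) ≠ 0 := by positivity
  have h4 : (2 * (k : ℝ) + 1) ≠ 0 := by positivity
  field_simp

theorem det_toep (n : ℕ) : (toep n).det = Dg n := by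
  induction n with
  | zero => simp [Dg_zero]
  | succ n ih =>
    have h0 : toep (n + 1) 0 0 = 1 / (Real.pi / 2) := by
      simp [toep]; ring
    have hpi : Real.pi ≠ 0 := Real.pi_ne_zero
    rw [det_schur _ (by rw [h0]; positivity), h0]
    have h1 : (Matrix.of fun i j : Fin n =>
        toep (n + 1) i.succ j.succ - toep (n + 1) i.succ 0 * toep (n + 1) 0 j.succ / (1 / (Real.pi / 2)))
        = Matrix.of fun i j : Fin n => ((i : ℝ) + 1) / ((i : ℝ) + 1 - 1 / 2) *
          (Matrix.of fun i j : Fin n => ((j : ℝ) + 1) / ((j : ℝ) + 1 + 1 / 2) * toep n i j) i j := by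
      ext i j
      simp only [Matrix.of_apply, toep, Fin.val_succ, Fin.val_zero]
      push_cast
      have e1 : (j : ℝ) - i + 1 / 2 ≠ 0 := half_ne i j
      have e4 : (j : ℝ) + 1 - 0 + 1 / 2 ≠ 0 := by
        have : (0 : ℝ) ≤ j := by positivity
        intro h; linarith
      have e5 : (i : ℝ) + 1 - 1 / 2 ≠ 0 := by
        have : (0 : ℝ) ≤ i := by positivity
        intro h; linarith
      have e7 : (0 : ℝ) - ((i : ℝ) + 1) + 1 / 2 = -((i : ℝ) + 1 - 1 / 2) := by ring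
      have e9 : ((j : ℝ) + 1) - (i + 1) + 1 / 2 = (j : ℝ) - i + 1 / 2 := by ring
      have e10 : (j : ℝ) + 1 - 0 + 1 / 2 = (j : ℝ) + 1 + 1 / 2 := by ring
      rw [e10] at e4
      rw [e7, e9, e10]
      obtain ⟨t, ht⟩ : ∃ t, t = (j : ℝ) - i + 1 / 2 := ⟨_, rfl⟩
      obtain ⟨u, hu⟩ : ∃ u, u = (i : ℝ) + 1 - 1 / 2 := ⟨_, rfl⟩
      obtain ⟨v, hv⟩ : ∃ v, v = (j : ℝ) + 1 + 1 / 2 := ⟨_, rfl⟩
      rw [← ht, ← hu, ← hv]
      rw [← ht] at e1
      rw [← hu] at e5
      rw [← hv] at e4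
      have hi' : (i : ℝ) = u - 1 / 2 := by linarith
      have hj' : (j : ℝ) = v - 3 / 2 := by linarith
      have hv' : v = t + u + 1 / 2 := by linarith
      rw [hi', hj']
      field_simp
      rw [hv']
      ring
    rw [h1, Matrix.det_mul_column, Matrix.det_mul_row, ih, Dg_succ, ← W_prod n]
    field_simp

end Crest.Agent.R165.WuDetx408
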