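import Crest.Agent.R165.PfDet_408
import Crest.Agent.R165.WuDet_408

/-!
# Row 165 (S0250): the diagonal staircase (helper408)

Half-edge language. At the face `f = (k,k)`:
`s = S_f, n' = N_{f-e2}, e = E_f, w = W_{f+e1}, nn = N_f, s' = S_{f+e2}`, the derivations
`dS, dE, dN` are the coordinates `S_f, E_f, N_f`, and the two hypotheses are the corner relations
(differences of the rows `S,E` resp. `E,N` of `A S = -1`).

* `corner2` : `E_S[(1-2y s n')(1-2y e w) G] = - E_S[(s - y n')(nn + y s') G]`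
* `stair`   : `E_S[∏_{k<n} ε ε] = (-1)^n det S(P_j,Q_k)`
* `stair_Dg`: if `-S(P_j,Q_k) = 1/(π(k-j+1/2))` the staircase expectation is Wu's `Dg n`
-/

set_option autoImplicit false

noncomputable section

namespace Crest.Agent.R165.Stairx408

open Gr0x606 PfDetx408

variable {V : Type*} [AddCommGroup V] [Module ℝ V]

theorem fi_sub (x y : V) : fi (x - y) = fi x - fi y := map_sub _ _ _
theorem fi_neg (x : V) : fi (-x) = -fi x := map_neg _ _

/-- product of the two corner forms of an edge -/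
theorem corner_mul (y : ℝ) (a b : V) : fi (a - y • b) * fi (a + y • b) = (2 * y) • (fi a * fi b) := by
  rw [fi_sub, fi_add, fi_smul, sub_mul, mul_add, mul_add, fi_mul_self, smul_mul_assoc,
    smul_mul_assoc, mul_smul_comm, mul_smul_comm, fi_mul_self, fi_anti b a]
  simp only [smul_neg, smul_zero, add_zero, zero_add, sub_neg_eq_add]
  rw [two_mul, add_smul]

/-- **two edges of a face around a corner = two corner fermions** -/
theorem corner2 (S : Cov V) (s n' e w nn s' : V) (dS dE dN : Module.Dual ℝ V) (yb yr yt : ℝ)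
    (h1 : S.b (e + s + yb • n' - yr • w) = dE - dS)
    (h2 : S.b (nn + e + yr • w + yt • s') = dN - dE)
    (aS : dS s = 1) (aN : dS n' = 0) (aE : dS e = 0) (aW : dS w = 0)
    (bS : dE s = 0) (bN : dE n' = 0) (bE : dE e = 1) (bW : dE w = 0)
    (cS : dN s = 0) (cN : dN n' = 0)
    (G : Gr V) (hS : dd dS G = 0) (hE : dd dE G = 0) (hN : dd dN G = 0) :
    EE S ((1 - (2 * yb) • (fi s * fi n')) * (1 - (2 * yr) • (fi e * fi w)) * G)
      = -EE S (fi (s - yb • n') * fi (nn + yt • s') * G) := by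
  obtain ⟨p, hp⟩ : ∃ p, p = fi (s - yb • n') := ⟨_, rfl⟩
  obtain ⟨q, hq⟩ : ∃ q, q = fi (s + yb • n') := ⟨_, rfl⟩
  obtain ⟨u, hu⟩ : ∃ u, u = fi (e - yr • w) := ⟨_, rfl⟩
  obtain ⟨v, hv⟩ : ∃ v, v = fi (e + yr • w) := ⟨_, rfl⟩
  have hpq : p * q = (2 * yb) • (fi s * fi n') := by rw [hp, hq, corner_mul]
  have huv : u * v = (2 * yr) • (fi e * fi w) := by rw [hu, hv, corner_mul]
  rw [← hpq, ← huv, ← hp]
  have hqq : q * q = 0 := by rw [hq, fi_mul_self]
  have hqv : q * v = -(v * q) := by rw [hq, hv, fi_anti]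
  have hpv : p * v = -(v * p) := by rw [hp, hv, fi_anti]
  have hevpq : IsEv (1 - p * q) := isEv_one.sub (by rw [hp, hq]; exact isEv_fi_fi _ _)
  -- integration by parts for `u`
  have hux : ∀ X : Gr V, EE S (u * X) = -EE S (q * X) + EE S (dd dE X) - EE S (dd dS X) := by
    intro X
    have : u = -q + fi (e + s + yb • n' - yr • w) := by
      rw [hu, hq, ← fi_neg, ← fi_add]; congr 1; abel
    rw [this, add_mul, map_add, neg_mul, map_neg, EE_fi_mul, h1]
    have hd : dd (dE - dS) X = dd dE X - dd dS X := by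
      rw [sub_eq_add_neg, dd_add_left, dd_neg_left, ← sub_eq_add_neg]
    rw [hd, map_sub]; ring
  have hdS_pq : dd dS (1 - p * q) = p - q := by
    rw [map_sub, dd_one, hp, dd_fi_mul, ← hp, hq, dd_fi, ← hq]
    simp only [map_sub, map_add, map_smul, aS, aN, smul_zero, sub_zero, add_zero, one_smul,
      map_one, mul_one]
    abel
  have hdE_pq : dd dE (1 - p * q) = 0 := by
    rw [map_sub, dd_one, hp, dd_fi_mul, ← hp, hq, dd_fi, ← hq]
    simp only [map_sub, map_add, map_smul, bS, bN, smul_zero, sub_zero, add_zero, zero_smul,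
      map_zero, mul_zero]
  have hY_S : dd dS ((1 - p * q) * G) = (p - q) * G := by
    rw [dd_mul, hdS_pq, hS, mul_zero, add_zero]
  have hY_E : dd dE ((1 - p * q) * G) = 0 := by
    rw [dd_mul, hdE_pq, hE, mul_zero, add_zero, zero_mul]
  have hX_S : dd dS (v * ((1 - p * q) * G)) = -(v * ((p - q) * G)) := by
    rw [hv, dd_fi_mul, ← hv, hY_S]
    simp only [map_add, map_smul, aE, aW, smul_zero, add_zero, zero_smul, zero_sub]
  have hX_E : dd dE (v * ((1 - p * q) * G)) = (1 - p * q) * G := by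
    rw [hv, dd_fi_mul, ← hv, hY_E]
    simp only [map_add, map_smul, bE, bW, smul_zero, add_zero, one_smul, mul_zero, sub_zero]
  have hqX : q * (v * ((1 - p * q) * G)) = q * v * G := by
    have h3 : q * (v * (p * q * G)) = 0 := by
      have e1 : q * (v * (p * q * G)) = -(v * ((q * (p * q)) * G)) := by
        rw [← mul_assoc, hqv]; noncomm_ring
      have e2 : q * (p * q) = 0 := by
        rw [← mul_assoc]
        have : q * p = -(p * q) := by rw [hq, hp, fi_anti]
        rw [this, neg_mul, mul_assoc, hqq, mul_zero, neg_zero]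
      rw [e1, e2]; simp
    rw [sub_mul, one_mul, mul_sub, mul_sub, h3, sub_zero, mul_assoc]
  have hA : EE S (u * v * ((1 - p * q) * G)) = EE S (v * p * G) + EE S ((1 - p * q) * G) := by
    rw [mul_assoc, hux, hqX, hX_E, hX_S]
    have e1 : v * ((p - q) * G) = v * p * G - v * q * G := by noncomm_ring
    rw [e1, hqv, neg_mul, map_neg, map_neg, map_sub]
    ring
  have hL : EE S ((1 - p * q) * (1 - u * v) * G) = -EE S (v * p * G) := by
    have e1 : (1 - p * q) * (1 - u * v) * G = (1 - p * q) * G - u * v * ((1 - p * q) * G) := by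
      rw [mul_sub, mul_one, hevpq.comm (u * v), sub_mul, mul_assoc (u * v)]
    rw [e1, map_sub, hA]; ring
  rw [hL]
  have hR : EE S (p * fi (nn + yt • s') * G) = -EE S (p * v * G) := by
    have e1 : fi (nn + yt • s') = -v + fi (nn + e + yr • w + yt • s') := by
      rw [hv, ← fi_neg, ← fi_add]; congr 1; abel
    have e2 : p * fi (nn + e + yr • w + yt • s') = -(fi (nn + e + yr • w + yt • s') * p) := by
      rw [hp, fi_anti]
    rw [e1, mul_add, e2, add_mul, map_add, neg_mul, map_neg,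
      mul_assoc (fi (nn + e + yr • w + yt • s')) p G, EE_fi_mul, h2]
    have hd : dd (dN - dE) (p * G) = 0 := by
      rw [sub_eq_add_neg, dd_add_left, dd_neg_left, hp, dd_fi_mul, dd_fi_mul, hN, hE]
      simp [cS, cN, bS, bN]
    rw [hd, map_zero, neg_zero, add_zero, mul_neg, neg_mul, map_neg]
  rw [hR, hpv, neg_mul, map_neg]
  ring

/-- the staircase data: one face for every `k` -/
structure Stair (V : Type*) [AddCommGroup V] [Module ℝ V] (S : Cov V) where
  /-- edge weights: bottom, right, top -/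
  yb : ℝ
  yr : ℝ
  yt : ℝ
  s : ℕ → V
  n' : ℕ → V
  e : ℕ → V
  w : ℕ → V
  nn : ℕ → V
  s' : ℕ → V
  dS : ℕ → Module.Dual ℝ V
  dE : ℕ → Module.Dual ℝ V
  dN : ℕ → Module.Dual ℝ V
  h1 : ∀ k, S.b (e k + s k + yb • n' k - yr • w k) = dE k - dS k
  h2 : ∀ k, S.b (nn k + e k + yr • w k + yt • s' k) = dN k - dE k
  aS : ∀ k, dS k (s k) = 1
  aN : ∀ k, dS k (n' k) = 0
  aE : ∀ k, dS k (e k) = 0
  aW : ∀ k, dS k (w k) = 0
  bS : ∀ k, dE k (s k) = 0
  bN : ∀ k, dE k (n' k) = 0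
  bE : ∀ k, dE k (e k) = 1
  bW : ∀ k, dE k (w k) = 0
  cS : ∀ k, dN k (s k) = 0
  cN : ∀ k, dN k (n' k) = 0
  off : ∀ j k, j ≠ k → ∀ l ∈ ({dS j, dE j, dN j} : Set (Module.Dual ℝ V)),
    l (s k) = 0 ∧ l (n' k) = 0 ∧ l (e k) = 0 ∧ l (w k) = 0 ∧ l (nn k) = 0 ∧ l (s' k) = 0

namespace Stair

variable {S : Cov V} (D : Stair V S)

/-- SW corner fermion of the face `k` -/
def P (k : ℕ) : V := D.s k - D.yb • D.n' k
/-- NE corner fermion of the face `k` -/
def Q (k : ℕ) : V := D.nn k + D.yt • D.s' k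
/-- the two bond variables of the staircase at the face `k` -/
def B (k : ℕ) : Gr V :=
  (1 - (2 * D.yb) • (fi (D.s k) * fi (D.n' k))) * (1 - (2 * D.yr) • (fi (D.e k) * fi (D.w k)))
/-- the staircase product -/
def prB : ℕ → Gr V
  | 0 => 1
  | n + 1 => prB n * D.B n

theorem B_ev (k : ℕ) : IsEv (D.B k) :=
  (isEv_one.sub ((isEv_fi_fi _ _).smul _)).mul (isEv_one.sub ((isEv_fi_fi _ _).smul _))

theorem prB_ev (n : ℕ) : IsEv (D.prB n) := by
  induction n with
  | zero => exact isEv_one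
  | succ n ih => exact ih.mul (D.B_ev n)

theorem dd_fi_fi_zero (l : Module.Dual ℝ V) (x y : V) (hx : l x = 0) (hy : l y = 0) (G : Gr V)
    (hG : dd l G = 0) : dd l (fi x * fi y * G) = 0 := by
  rw [mul_assoc, dd_fi_mul, dd_fi_mul, hG, hx, hy]; simp

theorem dd_B_mul (j k : ℕ) (h : j ≠ k) (l : Module.Dual ℝ V)
    (hl : l ∈ ({D.dS j, D.dE j, D.dN j} : Set (Module.Dual ℝ V))) (G : Gr V) (hG : dd l G = 0) :
    dd l (D.B k * G) = 0 := by
  obtain ⟨h1, h2, h3, h4, -, -⟩ := D.off j k h l hl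
  have e1 : D.B k * G = (1 - (2 * D.yb) • (fi (D.s k) * fi (D.n' k))) *
      ((1 - (2 * D.yr) • (fi (D.e k) * fi (D.w k))) * G) := by rw [B, mul_assoc]
  have key : ∀ (c : ℝ) (x y : V) (X : Gr V), l x = 0 → l y = 0 → dd l X = 0 →
      dd l ((1 - c • (fi x * fi y)) * X) = 0 := by
    intro c x y X hx hy hX
    rw [sub_mul, one_mul, map_sub, hX, smul_mul_assoc, map_smul,
      dd_fi_fi_zero l x y hx hy X hX, smul_zero, sub_zero]
  rw [e1]
  exact key _ _ _ _ h1 h2 (key _ _ _ _ h3 h4 hG)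

theorem dd_prB_mul (j n : ℕ) (h : n ≤ j) (l : Module.Dual ℝ V)
    (hl : l ∈ ({D.dS j, D.dE j, D.dN j} : Set (Module.Dual ℝ V))) (G : Gr V) (hG : dd l G = 0) :
    dd l (D.prB n * G) = 0 := by
  induction n generalizing G with
  | zero => simpa [prB] using hG
  | succ n ih =>
    rw [prB, mul_assoc]
    exact ih (by omega) _ (D.dd_B_mul j n (by omega) l hl G hG)

theorem stair_aux (n : ℕ) (G : Gr V)
    (hG : ∀ k < n, ∀ l ∈ ({D.dS k, D.dE k, D.dN k} : Set (Module.Dual ℝ V)), dd l G = 0) :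
    EE S (D.prB n * G) = (-1 : ℝ) ^ n * EE S (inter D.P D.Q n * G) := by
  induction n generalizing G with
  | zero => simp [prB, inter]
  | succ n ih =>
    have e1 : D.prB (n + 1) * G = D.B n * (D.prB n * G) := by
      rw [prB, mul_assoc, ← mul_assoc, (D.prB_ev n).comm, mul_assoc]
    have hz : ∀ l ∈ ({D.dS n, D.dE n, D.dN n} : Set (Module.Dual ℝ V)), dd l (D.prB n * G) = 0 :=
      fun l hl => D.dd_prB_mul n n le_rfl l hl G (hG n (by omega) l hl)
    rw [e1, B, corner2 S _ _ _ _ _ _ _ _ _ _ _ _ (D.h1 n) (D.h2 n) (D.aS n) (D.aN n) (D.aE n)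
      (D.aW n) (D.bS n) (D.bN n) (D.bE n) (D.bW n) (D.cS n) (D.cN n) _ (hz _ (by simp))
      (hz _ (by simp)) (hz _ (by simp))]
    have e2 : fi (D.s n - D.yb • D.n' n) * fi (D.nn n + D.yt • D.s' n) * (D.prB n * G)
        = D.prB n * (fi (D.P n) * fi (D.Q n) * G) := by
      rw [← mul_assoc, ← (D.prB_ev n).comm, mul_assoc]; rfl
    rw [e2, ih _ ?_]
    · have e3 : inter D.P D.Q (n + 1) * G = inter D.P D.Q n * (fi (D.P n) * fi (D.Q n) * G) := by
        rw [inter, mul_assoc]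
      rw [e3, pow_succ]; ring
    · intro k hk l hl
      obtain ⟨h1, h2, -, -, h5, h6⟩ := D.off k n (by omega) l hl
      refine dd_fi_fi_zero l _ _ ?_ ?_ G (hG k (by omega) l hl)
      · simp [P, h1, h2]
      · simp [Q, h5, h6]

/-- **the staircase theorem** -/
theorem stair (n : ℕ) (h : ∀ i j, S.b (D.P i) (D.P j) = 0) :
    EE S (D.prB n) = (Matrix.of fun j k : Fin n => -S.b (D.P j) (D.Q k)).det := by
  have h1 := D.stair_aux n 1 (by intro k _ l _; simp)
  rw [mul_one, mul_one, EE_inter S _ _ n h] at h1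
  have h2 := Matrix.det_neg (Matrix.of fun j k : Fin n => S.b (D.P j) (D.Q k))
  rw [Fintype.card_fin] at h2
  rw [h1, ← h2]
  rfl

/-- Wu's formula -/
theorem stair_Dg (n : ℕ) (h : ∀ i j, S.b (D.P i) (D.P j) = 0)
    (h' : ∀ j k : ℕ, S.b (D.P j) (D.Q k) = -(1 / (Real.pi * ((k : ℝ) - (j : ℝ) + 1 / 2)))) :
    EE S (D.prB n) = WuAsyx408.Dg n := by
  rw [D.stair n h, ← WuDetx408.det_toep]
  congr 1
  ext j k
  simp [WuDetx408.toep, h']

/-- Wu's formula, transposed entries -/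
theorem stair_Dg' (n : ℕ) (h : ∀ i j, S.b (D.P i) (D.P j) = 0)
    (h' : ∀ j k : ℕ, S.b (D.P j) (D.Q k) = -(1 / (Real.pi * ((j : ℝ) - (k : ℝ) + 1 / 2)))) :
    EE S (D.prB n) = WuAsyx408.Dg n := by
  rw [D.stair n h, ← WuDetx408.det_toep, ← Matrix.det_transpose]
  congr 1
  ext j k
  simp [WuDetx408.toep, h']

end Stair

end Crest.Agent.R165.Stairx408
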