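import Mathlib
import Crest.Agent.R165.SpC_583
import Crest.Agent.R165.Stair_408
import Crest.Agent.R165.J1a_606

/-!
Row 165, block U2: **Wu's law in the plane** (helper583).

`wu_plane z n : EE (covOf Spl) (∏_{e ∈ stairSet z n} (1 - 2 x_c b_e)) = Dg n` where `stairSet z n` is the
diagonal staircase from `z` to `z + (n,n)`.
-/

set_option autoImplicit false
set_option linter.unusedSimpArgs false

noncomputable section

namespace Crest.Agent.R165.Spx583

open Crest.Agent.R165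
open Crest.Agent.R165.Gr0x606 Crest.Agent.R165.Gr1x606
open Crest.Agent.R165.J1ax606 (HE EG pe qe bb pe_zero pe_one qe_zero qe_one coe_bb)

/-- the plane covariance (Grassmann) -/
def covPl : Cov (VI (HE ℤ)) := covOf Spl Spl_anti

theorem covPl_single (h h' : HE ℤ) :
    covPl.b (Finsupp.single h 1) (Finsupp.single h' 1) = Spl h h' := by
  show formOf Spl _ _ = _
  rw [formOf_single]

theorem covPl_eq_covS : covPl = Latx683.covS Spl Spl_anti := by
  ext1
  apply Finsupp.lhom_ext'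
  intro i
  apply LinearMap.ext_ring
  apply Finsupp.lhom_ext'
  intro j
  apply LinearMap.ext_ring
  rw [LinearMap.comp_apply, LinearMap.comp_apply, LinearMap.comp_apply, LinearMap.comp_apply]
  show formOf Spl (Finsupp.single i 1) (Finsupp.single j 1)
    = Latx683.formS Spl (Finsupp.single i 1) (Finsupp.single j 1)
  rw [formOf_single, Latx683.formS_single]

/-- elementary vector -/
abbrev si (h : HE ℤ) : VI (HE ℤ) := Finsupp.single h 1

/-- coordinate -/
abbrev co (h : HE ℤ) : Module.Dual ℝ (VI (HE ℤ)) := Finsupp.lapply h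

theorem co_si (h h' : HE ℤ) : co h (si h') = if h' = h then 1 else 0 := by
  show (Finsupp.single h' (1:ℝ)) h = _
  rw [Finsupp.single_apply]

theorem co_ne {h h' : HE ℤ} (e : h' ≠ h) : co h (si h') = 0 := by rw [co_si, if_neg e]

theorem row_S (f : ℤ × ℤ) (h' : HE ℤ) : Spl (f, 1) h' + Spl (f, 2) h' + Spl (f, 3) h'
    + xc * Spl ((f.1, f.2 - 1), 2) h' = -(if (f, (0 : Fin 4)) = h' then 1 else 0) := by
  have h := isCov_Spl.inv (f, 0) h'
  rw [Latx683.Aop_S, Pi.single_apply] at h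
  exact h

theorem row_E (f : ℤ × ℤ) (h' : HE ℤ) : -Spl (f, 0) h' + Spl (f, 2) h' + Spl (f, 3) h'
    + xc * Spl ((f.1 + 1, f.2), 3) h' = -(if (f, (1 : Fin 4)) = h' then 1 else 0) := by
  have h := isCov_Spl.inv (f, 1) h'
  rw [Latx683.Aop_E, Pi.single_apply] at h
  exact h

theorem row_N (f : ℤ × ℤ) (h' : HE ℤ) : -Spl (f, 0) h' - Spl (f, 1) h' + Spl (f, 3) h'
    - xc * Spl ((f.1, f.2 + 1), 0) h' = -(if (f, (2 : Fin 4)) = h' then 1 else 0) := by
  have h := isCov_Spl.inv (f, 2) h'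
  rw [Latx683.Aop_N, Pi.single_apply] at h
  exact h

theorem b_h1 (f : ℤ × ℤ) : covPl.b (si (f, 1) + si (f, 0) + xc • si ((f.1, f.2 - 1), 2)
    - xc • si ((f.1 + 1, f.2), 3)) = co (f, 1) - co (f, 0) := by
  apply Finsupp.lhom_ext'
  intro h'
  apply LinearMap.ext_ring
  rw [LinearMap.comp_apply, LinearMap.comp_apply, Finsupp.lsingle_apply, LinearMap.sub_apply, co_si, co_si,
    map_sub, map_add, map_add, map_smul, map_smul]
  simp only [LinearMap.sub_apply, LinearMap.add_apply, LinearMap.smul_apply, smul_eq_mul, covPl_single]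
  have h1 := row_S f h'
  have h2 := row_E f h'
  simp only [eq_comm (a := h')]
  linarith

theorem b_h2 (f : ℤ × ℤ) : covPl.b (si (f, 2) + si (f, 1) + xc • si ((f.1 + 1, f.2), 3)
    + xc • si ((f.1, f.2 + 1), 0)) = co (f, 2) - co (f, 1) := by
  apply Finsupp.lhom_ext'
  intro h'
  apply LinearMap.ext_ring
  rw [LinearMap.comp_apply, LinearMap.comp_apply, Finsupp.lsingle_apply, LinearMap.sub_apply, co_si, co_si,
    map_add, map_add, map_add, map_smul, map_smul]
  simp only [LinearMap.add_apply, LinearMap.smul_apply, smul_eq_mul, covPl_single]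
  have h1 := row_E f h'
  have h2 := row_N f h'
  simp only [eq_comm (a := h')]
  linarith

/-- the face `z + (k,k)` -/
def dg (z : ℤ × ℤ) (k : ℕ) : ℤ × ℤ := (z.1 + k, z.2 + k)

/-- the diagonal staircase data of the plane -/
def stairPl (z : ℤ × ℤ) : Stairx408.Stair (VI (HE ℤ)) covPl where
  yb := xc
  yr := xc
  yt := xc
  s k := si (dg z k, 0)
  n' k := si (((dg z k).1, (dg z k).2 - 1), 2)
  e k := si (dg z k, 1)
  w k := si (((dg z k).1 + 1, (dg z k).2), 3)
  nn k := si (dg z k, 2)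
  s' k := si (((dg z k).1, (dg z k).2 + 1), 0)
  dS k := co (dg z k, 0)
  dE k := co (dg z k, 1)
  dN k := co (dg z k, 2)
  h1 k := b_h1 (dg z k)
  h2 k := b_h2 (dg z k)
  aS k := by rw [co_si, if_pos rfl]
  aN k := co_ne fun h => absurd (Prod.mk.inj h).2 (by decide)
  aE k := co_ne fun h => absurd (Prod.mk.inj h).2 (by decide)
  aW k := co_ne fun h => absurd (Prod.mk.inj h).2 (by decide)
  bS k := co_ne fun h => absurd (Prod.mk.inj h).2 (by decide)
  bN k := co_ne fun h => absurd (Prod.mk.inj h).2 (by decide)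
  bE k := by rw [co_si, if_pos rfl]
  bW k := co_ne fun h => absurd (Prod.mk.inj h).2 (by decide)
  cS k := co_ne fun h => absurd (Prod.mk.inj h).2 (by decide)
  cN k := co_ne fun h => by
    have := (Prod.mk.inj (Prod.mk.inj h).1).2
    simp only [dg] at this
    omega
  off j k hjk l hl := by
    have hd : dg z k ≠ dg z j := by
      intro h
      have := (Prod.mk.inj h).1
      omega
    have g1 : ((dg z k).1, (dg z k).2 - 1) ≠ dg z j := by
      intro h
      have h1 := (Prod.mk.inj h).1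
      have h2 := (Prod.mk.inj h).2
      simp only [dg] at h1 h2
      omega
    have g2 : ((dg z k).1 + 1, (dg z k).2) ≠ dg z j := by
      intro h
      have h1 := (Prod.mk.inj h).1
      have h2 := (Prod.mk.inj h).2
      simp only [dg] at h1 h2
      omega
    have g3 : ((dg z k).1, (dg z k).2 + 1) ≠ dg z j := by
      intro h
      have h1 := (Prod.mk.inj h).1
      have h2 := (Prod.mk.inj h).2
      simp only [dg] at h1 h2
      omega
    simp only [Set.mem_insert_iff, Set.mem_singleton_iff] at hl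
    rcases hl with rfl | rfl | rfl <;>
      exact ⟨co_ne fun h => hd (Prod.mk.inj h).1, co_ne fun h => g1 (Prod.mk.inj h).1,
        co_ne fun h => hd (Prod.mk.inj h).1, co_ne fun h => g2 (Prod.mk.inj h).1,
        co_ne fun h => hd (Prod.mk.inj h).1, co_ne fun h => g3 (Prod.mk.inj h).1⟩

theorem stair_PP (z : ℤ × ℤ) (i j : ℕ) : covPl.b ((stairPl z).P i) ((stairPl z).P j) = 0 := by
  have e : covPl.b ((stairPl z).P i) ((stairPl z).P j)
      = Spl (dg z i, 0) (dg z j, 0) - xc * Spl (dg z i, 0) (((dg z j).1, (dg z j).2 - 1), 2)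
        - xc * Spl (((dg z i).1, (dg z i).2 - 1), 2) (dg z j, 0)
        + xc^2 * Spl (((dg z i).1, (dg z i).2 - 1), 2) (((dg z j).1, (dg z j).2 - 1), 2) := by
    show covPl.b (si (dg z i, 0) - xc • si (((dg z i).1, (dg z i).2 - 1), 2))
      (si (dg z j, 0) - xc • si (((dg z j).1, (dg z j).2 - 1), 2)) = _
    simp only [map_sub, map_smul, LinearMap.sub_apply, LinearMap.smul_apply, smul_eq_mul, covPl_single]
    ring
  rw [e]
  have h := SP_PP ((i:ℤ) - j)
  simp only [Spl, dg]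
  have a1 : z.1 + (i:ℤ) - (z.1 + j) = (i:ℤ) - j := by ring
  have a2 : z.2 + (i:ℤ) - (z.2 + j) = (i:ℤ) - j := by ring
  have a3 : z.2 + (i:ℤ) - (z.2 + j - 1) = (i:ℤ) - j + 1 := by ring
  have a4 : z.2 + (i:ℤ) - 1 - (z.2 + j) = (i:ℤ) - j - 1 := by ring
  have a5 : z.2 + (i:ℤ) - 1 - (z.2 + j - 1) = (i:ℤ) - j := by ring
  rw [a1, a2, a3, a4, a5]
  exact h

theorem stair_PQ (z : ℤ × ℤ) (j k : ℕ) : covPl.b ((stairPl z).P j) ((stairPl z).Q k)
    = -(1 / (Real.pi * ((k : ℝ) - (j : ℝ) + 1 / 2))) := by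
  have e : covPl.b ((stairPl z).P j) ((stairPl z).Q k)
      = Spl (dg z j, 0) (dg z k, 2) + xc * Spl (dg z j, 0) (((dg z k).1, (dg z k).2 + 1), 0)
        - xc * Spl (((dg z j).1, (dg z j).2 - 1), 2) (dg z k, 2)
        - xc^2 * Spl (((dg z j).1, (dg z j).2 - 1), 2) (((dg z k).1, (dg z k).2 + 1), 0) := by
    show covPl.b (si (dg z j, 0) - xc • si (((dg z j).1, (dg z j).2 - 1), 2))
      (si (dg z k, 2) + xc • si (((dg z k).1, (dg z k).2 + 1), 0)) = _
    simp only [map_sub, map_add, map_smul, LinearMap.sub_apply, LinearMap.add_apply, LinearMap.smul_apply,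
      smul_eq_mul, covPl_single]
    ring
  rw [e]
  have h := SP_PQ' ((j:ℤ) - k)
  have e2 : (1 / (Real.pi * (((((j:ℤ) - k : ℤ)) : ℝ) - 1/2))) = -(1 / (Real.pi * ((k : ℝ) - (j : ℝ) + 1 / 2))) := by
    push_cast
    have : ((k : ℝ) - (j : ℝ) + 1 / 2) = -((j:ℝ) - k - 1/2) := by ring
    rw [this, mul_neg, one_div_neg_eq_neg_one_div, neg_neg]
  rw [← e2, ← h]
  simp only [Spl, dg]
  have a1 : z.1 + (j:ℤ) - (z.1 + k) = (j:ℤ) - k := by ring
  have a2 : z.2 + (j:ℤ) - (z.2 + k) = (j:ℤ) - k := by ring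
  have a3 : z.2 + (j:ℤ) - (z.2 + k + 1) = (j:ℤ) - k - 1 := by ring
  have a4 : z.2 + (j:ℤ) - 1 - (z.2 + k) = (j:ℤ) - k - 1 := by ring
  have a5 : z.2 + (j:ℤ) - 1 - (z.2 + k + 1) = (j:ℤ) - k - 2 := by ring
  rw [a1, a2, a3, a4, a5]

theorem wu_prB (z : ℤ × ℤ) (n : ℕ) : EE covPl ((stairPl z).prB n) = WuAsyx408.Dg n :=
  (stairPl z).stair_Dg n (stair_PP z) (stair_PQ z)

/-! ### the staircase as a set of bonds -/

/-- the bonds of the staircase `z → z + (n,n)` -/
def stairSet (z : ℤ × ℤ) : ℕ → Finset (EG ℤ)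
  | 0 => ∅
  | n + 1 => insert (dg z n, 0) (insert ((((dg z n).1 + 1, (dg z n).2) : ℤ × ℤ), 1) (stairSet z n))

theorem mem_stairSet (z : ℤ × ℤ) (n : ℕ) (e : EG ℤ) :
    e ∈ stairSet z n ↔ ∃ k < n, e = (dg z k, 0) ∨ e = ((((dg z k).1 + 1, (dg z k).2) : ℤ × ℤ), 1) := by
  induction n with
  | zero => simp [stairSet]
  | succ n ih =>
    rw [stairSet, Finset.mem_insert, Finset.mem_insert, ih]
    constructor
    · rintro (h | h | ⟨k, hk, h⟩)
      · exact ⟨n, by omega, Or.inl h⟩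
      · exact ⟨n, by omega, Or.inr h⟩
      · exact ⟨k, by omega, h⟩
    · rintro ⟨k, hk, h⟩
      rcases Nat.lt_succ_iff_lt_or_eq.1 hk with h1 | rfl
      · exact Or.inr (Or.inr ⟨k, h1, h⟩)
      · rcases h with h | h
        · exact Or.inl h
        · exact Or.inr (Or.inl h)

theorem nmem1 (z : ℤ × ℤ) (n : ℕ) : ((((dg z n).1 + 1, (dg z n).2) : ℤ × ℤ), (1 : Fin 2)) ∉ stairSet z n := by
  rw [mem_stairSet]
  rintro ⟨k, hk, h | h⟩
  · exact absurd (Prod.mk.inj h).2 (by decide)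
  · have := (Prod.mk.inj (Prod.mk.inj h).1).2
    simp only [dg] at this
    omega

theorem nmem0 (z : ℤ × ℤ) (n : ℕ) : ((dg z n, (0 : Fin 2)) : EG ℤ) ∉
    insert ((((dg z n).1 + 1, (dg z n).2) : ℤ × ℤ), (1 : Fin 2)) (stairSet z n) := by
  rw [Finset.mem_insert, mem_stairSet]
  rintro (h | ⟨k, hk, h | h⟩)
  · exact absurd (Prod.mk.inj h).2 (by decide)
  · have := (Prod.mk.inj (Prod.mk.inj h).1).2
    omega
  · exact absurd (Prod.mk.inj h).2 (by decide)

theorem pe_dg (z : ℤ × ℤ) (n : ℕ) : pe ((((dg z n).1 + 1, (dg z n).2) : ℤ × ℤ), (1 : Fin 2)) = (dg z n, 1) := by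
  rw [pe_one]
  ext <;> simp

theorem prB_eq (z : ℤ × ℤ) (n : ℕ) : (stairPl z).prB n
    = ((∏ e ∈ stairSet z n, (1 - (2 * xc) • bb e) : Ge (VI (HE ℤ))) : Gr (VI (HE ℤ))) := by
  induction n with
  | zero => simp [Stairx408.Stair.prB, stairSet]
  | succ n ih =>
    rw [Stairx408.Stair.prB, stairSet, Finset.prod_insert (nmem0 z n), Finset.prod_insert (nmem1 z n), ih,
      ← mul_assoc, mul_comm _ (∏ e ∈ stairSet z n, (1 - (2 * xc) • bb e)), Ge.coe_mul, Ge.coe_mul]
    congr 1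
    show (1 - (2 * xc) • (fi (si (dg z n, 0)) * fi (si (((dg z n).1, (dg z n).2 - 1), 2))))
      * (1 - (2 * xc) • (fi (si (dg z n, 1)) * fi (si (((dg z n).1 + 1, (dg z n).2), 3)))) = _
    rw [Ge.coe_sub, Ge.coe_sub, Ge.coe_one, Ge.coe_smul, Ge.coe_smul, coe_bb, coe_bb, pe_dg, qe_one, pe_zero, qe_zero]
    have : dg z n - ((0:ℤ), (1:ℤ)) = ((dg z n).1, (dg z n).2 - 1) := by ext <;> simp
    rw [this]
    rfl

/-- **Wu's law in the plane** -/
theorem wu_plane (z : ℤ × ℤ) (n : ℕ) :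
    EE covPl ((∏ e ∈ stairSet z n, (1 - (2 * xc) • bb e) : Ge (VI (HE ℤ))) : Gr (VI (HE ℤ)))
      = WuAsyx408.Dg n := by
  rw [← prB_eq, wu_prB]

end Crest.Agent.R165.Spx583
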