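import Mathlib
import Crest.Agent.R165.SpD_583
import Crest.Agent.R165.Red2_541

/-!
Row 165, block U2 (helper583): from the torus limits of bond sets to the plane law.

* `TorPl`    : torus bond sets converge to their plane Gaussian values (output of helper922)
* `bond_mean`: `E_pl[1 - 2 x_c b_e] = √2/2`
* `UTb_of`   : `TorPl → UTb`
* `P0c_diag` : `TorPl → P0c ![z, z + (n,n)] = Dg n` (Wu's law for the plane state)
-/

set_option autoImplicit false
set_option linter.unusedSimpArgs false

noncomputable section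

open Filter Topology

namespace Crest.Agent.R165.Spx583

open Crest.ProbabilityR.IsingModel
open Crest.Agent.R165
open Crest.Agent.R165.Pkx583
open Crest.Agent.R165.Gr0x606 Crest.Agent.R165.Gr1x606
open Crest.Agent.R165.J1ax606 (HE EG pe qe bb pe_zero pe_one qe_zero qe_one coe_bb)
open Crest.Agent.R165.Centx541 Crest.Agent.R165.Redx541 Crest.Agent.R165.Red2x541 Crest.Agent.R165.Symx541

/-- the plane value of a finite set of bonds -/
def EB (S : Finset (EG ℤ)) : ℝ :=
  EE covPl ((∏ e ∈ S, (1 - (2 * xc) • bb e) : Ge (VI (HE ℤ))) : Gr (VI (HE ℤ)))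

/-- torus bond sets converge to the plane values -/
def TorPl : Prop :=
  ∀ S : Finset ((ℤ × ℤ) × Fin 2),
    Tendsto (fun L : ℕ => torBonds L 1 0 0 (fun _ => 0) (criticalBeta 1) S) atTop (𝓝 (EB S))

theorem EB_empty : EB ∅ = 1 := by
  unfold EB
  simp

theorem EB_stair (z : ℤ × ℤ) (n : ℕ) : EB (stairSet z n) = WuAsyx408.Dg n := wu_plane z n

/-! ### the bond mean -/

theorem pp10 : pp 1 0 = 1/4 := by
  have h := pk_lap 0 0
  have h1 : pk (0 - 1, 0) = pk (1, 0) := by
    have := pk_neg_fst 1 0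
    simpa using this
  have h2 : pk (0, 0 + 1) = pk (1, 0) := by
    have := pk_comm 0 1
    simpa using this
  have h3 : pk (0, 0 - 1) = pk (1, 0) := by
    have h4 := pk_neg_snd 0 1
    have h5 := pk_comm 0 1
    simp only [zero_sub]
    rw [h4, h5]
  have h0 : pk (0, 0) = 0 := pk_zero
  simp only [zero_add] at h h1 h2 h3
  rw [h1, h2, h3, h0] at h
  simp only [and_self, if_true] at h
  show pk (1, 0) = 1/4
  linarith

theorem Spl_bond (e : EG ℤ) : Spl (pe e) (qe e) = (1 - 3 * xc^2)/(8 * xc^2) := by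
  have hx := xc_pos
  obtain ⟨z, j⟩ := e
  have e0 : pp 0 0 = 0 := pk_zero
  have e1 : pp 0 1 = 1/4 := by rw [pp_comm, pp10]
  have e2 : pp (-1) 0 = 1/4 := by rw [pp_neg1, pp10]
  have e3 : pp 0 (-1) = 1/4 := by rw [pp_neg2, e1]
  have e4 := pp10
  fin_cases j
  · simp only [Fin.zero_eta, pe_zero, qe_zero, Spl, Prod.fst_sub, Prod.snd_sub, sub_zero, sub_self, sub_sub_cancel]
    simp only [SP, TT, sub_self, zero_sub, zero_add, e0, e1, e2, e3, e4]
    field_simp
    ring
  · simp only [Fin.mk_one, pe_one, qe_one, Spl, Prod.fst_sub, Prod.snd_sub, sub_zero, sub_self, sub_sub_cancel_left]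
    simp only [SP, TT, sub_self, zero_sub, zero_add, e0, e1, e2, e3, e4, neg_add_cancel]
    field_simp
    ring

/-- the plane bond mean is `√2/2` -/
theorem bond_mean (e : EG ℤ) : EB {e} = Redx541.e0 := by
  unfold EB
  rw [Finset.prod_singleton, Ge.coe_sub, Ge.coe_one, Ge.coe_smul, coe_bb, map_sub, map_smul, EE_one]
  have h : EE covPl (ph (pe e) * ph (qe e)) = Spl (pe e) (qe e) := by
    unfold Gr1x606.ph
    rw [EE_fi_fi, covPl_single]
  rw [h, Spl_bond, smul_eq_mul]
  have hx := xc_pos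
  have hr := xc_rel
  have h2 : Real.sqrt 2 = 1 + xc := one_add_xc.symm
  unfold Redx541.e0
  rw [h2]
  field_simp
  nlinarith

/-- the torus clause at `lam = 0` -/
theorem UTb_of (h : TorPl) : UTb :=
  ⟨fun S => ⟨_, h S⟩, fun j => by
    have := h {((0, 0), j)}
    rwa [bond_mean] at this⟩

/-! ### two spins on a diagonal -/

theorem prod_stair (z : ℤ × ℤ) (n : ℕ) (s : ℤ × ℤ → Bool) :
    ∏ e ∈ stairSet z n, ep e s = spinSign (s z) * spinSign (s (dg z n)) := by
  induction n with
  | zero =>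
    have : dg z 0 = z := by ext <;> simp [dg]
    rw [this]
    simp only [stairSet, Finset.prod_empty]
    rw [← spinSign_sq (s z)]
  | succ n ih =>
    rw [stairSet, Finset.prod_insert (nmem0 z n), Finset.prod_insert (nmem1 z n), ih]
    have e1 : dg z n + unitVec 0 = ((dg z n).1 + 1, (dg z n).2) := by
      unfold unitVec
      ext <;> simp
    have e2 : ((dg z n).1 + 1, (dg z n).2) + unitVec 1 = dg z (n+1) := by
      unfold unitVec dg
      ext <;> simp <;> ring
    unfold ep
    simp only [e1, e2]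
    calc _ = spinSign (s z) * spinSign (s (dg z (n+1))) * (spinSign (s (dg z n)) * spinSign (s (dg z n)))
          * (spinSign (s ((dg z n).1 + 1, (dg z n).2)) * spinSign (s ((dg z n).1 + 1, (dg z n).2))) := by ring
      _ = _ := by rw [spinSign_sq, spinSign_sq, mul_one, mul_one]

/-- torus moments of an even number of spins are bond sets -/
theorem torMom_two (L : ℕ) (J lam : ℝ) (R : ℕ) (V : Finset (ℤ × ℤ) → ℝ) (β : ℝ) (u v : ℤ × ℤ)
    (S : Finset ((ℤ × ℤ) × Fin 2)) (hS : ∀ s : ℤ × ℤ → Bool, ∏ e ∈ S, ep e s = spinSign (s u) * spinSign (s v))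
    (c : Fin 0 → ℝ) :
    torMom L J lam R V β ![u, v] (![] : Fin 0 → ℤ × ℤ) ![] c = torBonds L J lam R V β S := by
  rw [torMom_eq]
  unfold torBonds
  congr 1
  funext σ
  rw [hS]
  unfold obs
  simp

/-- **the plane two-point function from a path** -/
theorem P0c_path (h : TorPl) (u v : ℤ × ℤ) (S : Finset ((ℤ × ℤ) × Fin 2))
    (hS : ∀ s : ℤ × ℤ → Bool, ∏ e ∈ S, ep e s = spinSign (s u) * spinSign (s v)) :
    P0c ![u, v] (![] : Fin 0 → ℤ × ℤ) ![] = EB S := by
  unfold P0c plMom
  simp only [torMom_two _ _ _ _ _ _ u v S hS]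
  exact (h S).limUnder_eq

/-- **Wu's law for the plane state** -/
theorem P0c_diag (h : TorPl) (z : ℤ × ℤ) (n : ℕ) :
    P0c ![z, (z.1 + (n : ℤ), z.2 + (n : ℤ))] (![] : Fin 0 → ℤ × ℤ) ![] = WuAsyx408.Dg n := by
  rw [← EB_stair z n]
  exact P0c_path h z (dg z n) _ (prod_stair z n)

end Crest.Agent.R165.Spx583
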