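import Mathlib
import Crest.Agent.R165.SpC_583
import Crest.Agent.R165.UKer_420

/-!
Row 165, block U2 (helper583): scaling limit of the plane kernel.

* `SPlead_eq` : leading term `= (1/(2π x_c)) Re (i e_a e_b / (m + i n))` with 420's `edir`
* `Spl_tendsto` : `a⁻¹ S_pl((f,i),(f',i')) → (1/(2π x_c)) Re (i e_i e_{i'} / (z - z'))` for faces
  `a f → z`, `a f' → z'`, `z ≠ z'`, along any filter
* `Spl_bound` : `|a⁻¹ S_pl| ≤ C / |a f - a f'|` (uniform)
-/

set_option autoImplicit false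
set_option linter.unusedSimpArgs false

noncomputable section

namespace Crest.Agent.R165.Spx583

open Filter Topology
open Crest.ProbabilityR.IsingModel
open Crest.Agent.R165
open Crest.Agent.R165.UKerx420 (edir)

theorem hx2 : xc + xc^2 = 2 * xc * (Real.sqrt 2/2) := by rw [← one_add_xc]; ring

theorem edir0 : edir 0 = ⟨-(Real.sqrt 2 / 2), Real.sqrt 2 / 2⟩ := by simp [edir]
theorem edir1 : edir 1 = 1 := by simp [edir]
theorem edir2 : edir 2 = ⟨-(Real.sqrt 2 / 2), -(Real.sqrt 2 / 2)⟩ := by simp [edir]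
theorem edir3 : edir 3 = Complex.I := by simp [edir]

theorem edir_mul (a b : Fin 4) : (edir a * edir b).im = -Real.sin (psi a b) ∧
    (edir a * edir b).re = Real.cos (psi a b) := by
  have hx := xc_pos
  have h1 := al_eq a b
  have h2 := be_eq a b
  have s2 : Real.sqrt 2 * Real.sqrt 2 = 2 := sqrt2_sq
  have e1 : 2 * xc * (edir a * edir b).im = - al xc a b := by
    rw [Complex.mul_im]
    fin_cases a <;> fin_cases b <;>
      simp only [Fin.zero_eta, Fin.mk_one, Fin.reduceFinMk, Fin.isValue, edir0, edir1, edir2, edir3, al,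
        Complex.one_re, Complex.one_im, Complex.I_re, Complex.I_im, mul_zero, zero_mul, mul_one, one_mul,
        add_zero, zero_add, neg_neg, neg_zero, hx2] <;>
      first
        | ring1
        | linear_combination xc * s2
        | linear_combination (-xc) * s2
        | linear_combination (xc / 2) * s2
        | linear_combination (-xc / 2) * s2
  have e2 : 2 * xc * (edir a * edir b).re = be xc a b := by
    rw [Complex.mul_re]
    fin_cases a <;> fin_cases b <;>
      simp only [Fin.zero_eta, Fin.mk_one, Fin.reduceFinMk, Fin.isValue, edir0, edir1, edir2, edir3, be,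
        Complex.one_re, Complex.one_im, Complex.I_re, Complex.I_im, mul_zero, zero_mul, mul_one, one_mul,
        add_zero, zero_add, neg_neg, neg_zero, sub_zero, zero_sub, hx2] <;>
      first
        | ring1
        | linear_combination xc * s2
        | linear_combination (-xc) * s2
        | linear_combination (xc / 2) * s2
        | linear_combination (-xc / 2) * s2
  rw [h1] at e1
  rw [h2] at e2
  constructor
  · have : 2 * xc * ((edir a * edir b).im + Real.sin (psi a b)) = 0 := by linarith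
    rcases mul_eq_zero.1 this with h | h
    · linarith
    · linarith
  · have : 2 * xc * ((edir a * edir b).re - Real.cos (psi a b)) = 0 := by linarith
    rcases mul_eq_zero.1 this with h | h
    · linarith
    · linarith

/-- the continuum plane kernel -/
def KP (i i' : Fin 4) (w : ℂ) : ℝ := (1/(2*Real.pi*xc)) * (Complex.I * (edir i * edir i') / w).re

theorem SPlead_eq (a b : Fin 4) (m n : ℤ) : SPlead a b m n = KP a b ⟨m, n⟩ := by
  obtain ⟨h1, h2⟩ := edir_mul a b
  unfold SPlead KP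
  generalize edir a * edir b = e at h1 h2 ⊢
  rw [Complex.div_re, Complex.mul_re, Complex.mul_im, Complex.I_re, Complex.I_im, h1, h2, Complex.normSq_mk]
  ring

theorem KP_smul (i i' : Fin 4) (w : ℂ) (a : ℝ) : a⁻¹ * KP i i' w = KP i i' (a * w) := by
  unfold KP
  have : Complex.I * (edir i * edir i') / (a * w) = (a⁻¹ : ℝ) * (Complex.I * (edir i * edir i') / w) := by
    push_cast
    rw [div_eq_mul_inv, div_eq_mul_inv, mul_inv]
    ring
  rw [this, Complex.re_ofReal_mul]
  ring

theorem KP_neg (i i' : Fin 4) (w : ℂ) : KP i i' (-w) = - KP i i' w := by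
  unfold KP
  rw [div_neg, Complex.neg_re]
  ring

theorem KP_comm (i i' : Fin 4) (w : ℂ) : KP i i' w = KP i' i w := by
  unfold KP
  rw [mul_comm (edir i)]

theorem continuousAt_KP (i i' : Fin 4) {w : ℂ} (hw : w ≠ 0) : ContinuousAt (KP i i') w := by
  unfold KP
  refine ContinuousAt.mul continuousAt_const ?_
  exact Complex.continuous_re.continuousAt.comp (continuousAt_const.div continuousAt_id hw)

theorem norm_sq_mk (m n : ℤ) : ‖(⟨m, n⟩ : ℂ)‖^2 = (m:ℝ)^2 + (n:ℝ)^2 := by
  rw [← Complex.normSq_eq_norm_sq, Complex.normSq_mk]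
  ring

theorem mesh_sub (a : ℝ) (f g : ℤ × ℤ) :
    meshPoint a f - meshPoint a g = a * (⟨((f.1 - g.1 : ℤ) : ℝ), ((f.2 - g.2 : ℤ) : ℝ)⟩ : ℂ) := by
  apply Complex.ext
  · simp [meshPoint]; ring
  · simp [meshPoint]; ring

/-- rescaled error -/
theorem Spl_err {a : ℝ} (ha : 0 < a) (f g : ℤ × ℤ) (i i' : Fin 4) (h : meshPoint a f ≠ meshPoint a g) :
    |a⁻¹ * Spl (f, i) (g, i') - KP i i' (meshPoint a f - meshPoint a g)|
      ≤ 1000000 * a / ‖meshPoint a f - meshPoint a g‖^2 := by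
  have h0 : ¬ (f.1 - g.1 = 0 ∧ f.2 - g.2 = 0) := by
    rintro ⟨h1, h2⟩
    apply h
    have : f = g := Prod.ext (by omega) (by omega)
    rw [this]
  have hs := SP_asymp i i' (f.1 - g.1) (f.2 - g.2) h0
  have hS := S_pos h0
  rw [mesh_sub, norm_mul, mul_pow, norm_sq_mk, Complex.norm_real, Real.norm_eq_abs, sq_abs, ← KP_smul, ← SPlead_eq,
    ← mul_sub, abs_mul, abs_of_pos (inv_pos.2 ha)]
  have e : a⁻¹ * (1000000/(((f.1 - g.1 : ℤ):ℝ)^2 + ((f.2 - g.2 : ℤ):ℝ)^2))
      = 1000000 * a / (a^2 * (((f.1 - g.1 : ℤ):ℝ)^2 + ((f.2 - g.2 : ℤ):ℝ)^2)) := by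
    have hSp : (((f.1 - g.1 : ℤ):ℝ)^2 + ((f.2 - g.2 : ℤ):ℝ)^2) ≠ 0 := by
      have : 0 < (((f.1 - g.1 : ℤ):ℝ)^2 + ((f.2 - g.2 : ℤ):ℝ)^2) := by linarith
      exact this.ne'
    field_simp
  rw [← e]
  exact mul_le_mul_of_nonneg_left hs (inv_nonneg.2 ha.le)

/-- uniform bound -/
theorem Spl_bound {a : ℝ} (ha : 0 < a) (f g : ℤ × ℤ) (i i' : Fin 4) :
    |a⁻¹ * Spl (f, i) (g, i')| ≤ 4000000 / (a + ‖meshPoint a f - meshPoint a g‖) := by
  have hs := Spl_le (f, i) (g, i')
  rw [abs_mul, abs_of_pos (inv_pos.2 ha)]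
  have h2 : ‖meshPoint a f - meshPoint a g‖ ≤ a * (|(f.1:ℝ) - g.1| + |(f.2:ℝ) - g.2|) := by
    refine (Complex.norm_le_abs_re_add_abs_im _).trans (le_of_eq ?_)
    have e1 : (meshPoint a f - meshPoint a g).re = a * ((f.1:ℝ) - g.1) := by simp [meshPoint]; ring
    have e2 : (meshPoint a f - meshPoint a g).im = a * ((f.2:ℝ) - g.2) := by simp [meshPoint]; ring
    rw [e1, e2, abs_mul, abs_mul, abs_of_pos ha]
    ring
  calc a⁻¹ * |Spl (f, i) (g, i')| ≤ a⁻¹ * (4000000 / (1 + |(f.1:ℝ) - g.1| + |(f.2:ℝ) - g.2|)) :=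
        mul_le_mul_of_nonneg_left hs (inv_nonneg.2 ha.le)
    _ = 4000000 / (a * (1 + |(f.1:ℝ) - g.1| + |(f.2:ℝ) - g.2|)) := by
        field_simp
    _ ≤ _ := by
        apply div_le_div_of_nonneg_left (by norm_num) (by positivity)
        nlinarith

/-- **scaling limit of the plane kernel** -/
theorem Spl_tendsto {ι : Type*} {l : Filter ι} {a : ι → ℝ} (ha : Tendsto a l (𝓝[>] 0)) {f g : ι → ℤ × ℤ}
    {z w : ℂ} (hzw : z ≠ w) (hf : Tendsto (fun k => meshPoint (a k) (f k)) l (𝓝 z))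
    (hg : Tendsto (fun k => meshPoint (a k) (g k)) l (𝓝 w)) (i i' : Fin 4) :
    Tendsto (fun k => (a k)⁻¹ * Spl (f k, i) (g k, i')) l (𝓝 (KP i i' (z - w))) := by
  have ha0 : ∀ᶠ k in l, 0 < a k := ha.eventually self_mem_nhdsWithin
  have ha1 : Tendsto a l (𝓝 0) := ha.mono_right nhdsWithin_le_nhds
  have hd : Tendsto (fun k => meshPoint (a k) (f k) - meshPoint (a k) (g k)) l (𝓝 (z - w)) := hf.sub hg
  have hne : z - w ≠ 0 := sub_ne_zero.2 hzw
  have h1 : Tendsto (fun k => KP i i' (meshPoint (a k) (f k) - meshPoint (a k) (g k))) l (𝓝 (KP i i' (z - w))) :=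
    (continuousAt_KP i i' hne).tendsto.comp hd
  have h2 : Tendsto (fun k => 1000000 * a k / ‖meshPoint (a k) (f k) - meshPoint (a k) (g k)‖^2) l (𝓝 0) := by
    have h3 : Tendsto (fun k => ‖meshPoint (a k) (f k) - meshPoint (a k) (g k)‖^2) l (𝓝 (‖z - w‖^2)) :=
      (hd.norm).pow 2
    have h4 := (ha1.const_mul 1000000).div h3 (pow_ne_zero 2 (norm_ne_zero_iff.2 hne))
    rw [mul_zero, zero_div] at h4
    exact h4
  have h5 : ∀ᶠ k in l, meshPoint (a k) (f k) ≠ meshPoint (a k) (g k) := by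
    have := hd.eventually (isOpen_ne.mem_nhds hne)
    filter_upwards [this] with k hk h
    exact hk (sub_eq_zero.2 h)
  have h6 : Tendsto (fun k => (a k)⁻¹ * Spl (f k, i) (g k, i')
      - KP i i' (meshPoint (a k) (f k) - meshPoint (a k) (g k))) l (𝓝 0) := by
    refine squeeze_zero_norm' ?_ h2
    filter_upwards [ha0, h5] with k hk hk2
    exact Spl_err hk (f k) (g k) i i' hk2
  have h7 := h6.add h1
  simpa using h7

end Crest.Agent.R165.Spx583
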