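import Crest.Agent.R165.SrcDef_991

/-!
# Row 165 (S0250), leaf P11: algebra of sources (helper991)

* `coP` on `GS`: `coP_basis`, `GS_eq`, `coP_mul`, `co1_mul`, `GS_ext`
* closure of `GS` under `cvG (ext0 S)`, `gexp`, `vacH`
* `coP_cvG`, `coP_vacH`
* `Gram_ext0`
* norm splitting `pG_basis_le`, `sum_coP_le`, `pG_GS_eq`
-/

set_option autoImplicit false
set_option linter.unusedSectionVars false

noncomputable section

namespace Crest.Agent.R165.SrcDefx991

open Crest.Agent.R165.Gr0x606 Crest.Agent.R165.Gr1x606 Crest.Agent.R165.GeOpsx337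
  Crest.Agent.R165.ExpGx337 Crest.Agent.R165.PNormx417 Crest.Agent.R165.KFlowx337
  Crest.Agent.R165.GrLocx337
open scoped ENNReal

variable {V : Type*} [AddCommGroup V] [Module ℝ V] {m : ℕ}

/-! ### basis elements -/

/-- no source of index `i` -/
def NoI (i : Fin m) (b : Ge (VS V m)) : Prop :=
  dd (dth i) (b : Gr (VS V m)) = 0 ∧ dd (dth' i) (b : Gr (VS V m)) = 0

theorem NoI.mul {i : Fin m} {a b : Ge (VS V m)} (ha : NoI i a) (hb : NoI i b) : NoI i (a * b) := by
  constructor
  · rw [Ge.coe_mul, dd_mul, ha.1, hb.1]; simp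
  · rw [Ge.coe_mul, dd_mul, ha.2, hb.2]; simp

theorem noI_inG (i : Fin m) (a : Ge V) : NoI i (inG m a) :=
  ⟨dd_inG _ (dth_inl i) a, dd_inG _ (dth'_inl i) a⟩

theorem noI_tau {i j : Fin m} (h : j ≠ i) : NoI i (tau j : Ge (VS V m)) := by
  constructor
  · rw [dd_tau]; simp [h]
  · rw [dd_tau]; simp [h]

theorem noI_one (i : Fin m) : NoI i (1 : Ge (VS V m)) := by
  constructor <;> simp

theorem noI_tauP {i : Fin m} {J : Finset (Fin m)} (h : i ∉ J) : NoI i (tauP J : Ge (VS V m)) := by
  induction J using Finset.induction_on with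
  | empty => rw [tauP_empty]; exact noI_one i
  | insert j J hj ih =>
    rw [tauP_insert hj]
    rw [Finset.mem_insert, not_or] at h
    exact (noI_tau (Ne.symm h.1)).mul (ih h.2)

theorem cpair_eq_zero {i : Fin m} {b : Ge (VS V m)} (h : NoI i b) : cpair i b = 0 := by
  apply ge_ext
  rw [coe_cpair, h.1]; simp

theorem cpair_basis (i : Fin m) (J : Finset (Fin m)) (a : Ge V) :
    cpair i (tauP J * inG m a) = if i ∈ J then tauP (J.erase i) * inG m a else 0 := by
  split_ifs with h
  · have h1 : (tauP J : Ge (VS V m)) = tau i * tauP (J.erase i) := by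
      rw [← tauP_insert (Finset.notMem_erase i J), Finset.insert_erase h]
    have h2 : NoI i (tauP (J.erase i) * inG m a) :=
      (noI_tauP (Finset.notMem_erase i J)).mul (noI_inG i a)
    rw [h1, mul_assoc, cpair_tau_mul_self h2.1 h2.2]
  · exact cpair_eq_zero ((noI_tauP h).mul (noI_inG i a))

theorem cpair_list (L : List (Fin m)) (hL : L.Nodup) (J : Finset (Fin m)) (a : Ge V) :
    ((L.map cpair).prod : Module.End ℝ (Ge (VS V m))) (tauP J * inG m a) =
      if L.toFinset ⊆ J then tauP (J \ L.toFinset) * inG m a else 0 := by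
  induction L with
  | nil => simp
  | cons i L ih =>
    have hi : i ∉ L := (List.nodup_cons.1 hL).1
    rw [List.map_cons, List.prod_cons, Module.End.mul_apply, ih (List.nodup_cons.1 hL).2]
    by_cases h : L.toFinset ⊆ J
    · rw [if_pos h, cpair_basis]
      have h1 : i ∈ J \ L.toFinset ↔ (i :: L).toFinset ⊆ J := by
        rw [List.toFinset_cons, Finset.insert_subset_iff, Finset.mem_sdiff]
        constructor
        · exact fun hh => ⟨hh.1, h⟩
        · exact fun hh => ⟨hh.1, by simpa using hi⟩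
      have h2 : (J \ L.toFinset).erase i = J \ (i :: L).toFinset := by
        rw [List.toFinset_cons, Finset.sdiff_insert]
      by_cases h3 : i ∈ J \ L.toFinset
      · rw [if_pos h3, if_pos (h1.1 h3), h2]
      · rw [if_neg h3, if_neg (fun hh => h3 (h1.2 hh))]
    · rw [if_neg h, map_zero, if_neg]
      intro hh
      refine h (subset_trans ?_ hh)
      rw [List.toFinset_cons]
      exact Finset.subset_insert _ _

theorem noS_tauP {J : Finset (Fin m)} (h : J ≠ ∅) : noS (tauP J : Ge (VS V m)) = 0 := by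
  obtain ⟨i, hi⟩ := Finset.nonempty_iff_ne_empty.2 h
  rw [tauP, map_prod]
  exact Finset.prod_eq_zero hi (noS_tau i)

/-- **the coefficients of a basis element** -/
theorem coP_basis (I J : Finset (Fin m)) (a : Ge V) :
    coP I (tauP J * inG m a) = if I = J then a else 0 := by
  rw [coP, LinearMap.comp_apply, cpair_list _ (Finset.sort_nodup I _), Finset.sort_toFinset]
  by_cases h : I = J
  · subst h
    rw [if_pos subset_rfl, if_pos rfl, Finset.sdiff_self, tauP_empty, one_mul,
      AlgHom.toLinearMap_apply, noS_inG]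
  · rw [if_neg h]
    split_ifs with h1
    · have h2 : J \ I ≠ ∅ := by
        intro hh
        exact h (le_antisymm h1 (Finset.sdiff_eq_empty_iff_subset.1 hh))
      rw [AlgHom.toLinearMap_apply, map_mul, noS_tauP h2, zero_mul]
    · rw [map_zero]

/-- **canonical representation** of the elements of `GS` -/
theorem GS_eq {a : Ge (VS V m)} (ha : a ∈ GS V m) : a = ∑ I, tauP I * inG m (coP I a) := by
  obtain ⟨c, hc⟩ := GS_rep ha
  have h1 : ∀ I, coP I a = c I := by
    intro I
    rw [hc, map_sum]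
    rw [Finset.sum_eq_single I]
    · rw [coP_basis, if_pos rfl]
    · intro J _ hJ; rw [coP_basis, if_neg (Ne.symm hJ)]
    · intro hI; exact absurd (Finset.mem_univ I) hI
  conv_lhs => rw [hc]
  exact Finset.sum_congr rfl fun I _ => by rw [h1]

theorem GS_ext {a b : Ge (VS V m)} (ha : a ∈ GS V m) (hb : b ∈ GS V m)
    (h : ∀ I, coP I a = coP I b) : a = b := by
  rw [GS_eq ha, GS_eq hb]
  exact Finset.sum_congr rfl fun I _ => by rw [h]

theorem coP_sum_basis (I : Finset (Fin m)) (c : Finset (Fin m) → Ge V) :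
    coP I (∑ J, tauP J * inG m (c J)) = c I := by
  rw [map_sum, Finset.sum_eq_single I]
  · rw [coP_basis, if_pos rfl]
  · intro J _ hJ; rw [coP_basis, if_neg (Ne.symm hJ)]
  · intro hI; exact absurd (Finset.mem_univ I) hI

/-- **multiplication of coefficients** -/
theorem coP_mul {a b : Ge (VS V m)} (ha : a ∈ GS V m) (hb : b ∈ GS V m) (I : Finset (Fin m)) :
    coP I (a * b) = ∑ J ∈ I.powerset, coP J a * coP (I \ J) b := by
  conv_lhs => rw [GS_eq ha, GS_eq hb]
  rw [Finset.sum_mul_sum, map_sum]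
  simp only [map_sum]
  have h1 : ∀ J J' : Finset (Fin m), coP I (tauP J * inG m (coP J a) * (tauP J' * inG m (coP J' b)))
      = if J ⊆ I ∧ J' = I \ J then coP J a * coP J' b else 0 := by
    intro J J'
    have e : tauP J * inG m (coP J a) * (tauP J' * inG m (coP J' b))
        = (tauP J * tauP J') * inG m (coP J a * coP J' b) := by rw [map_mul]; ring
    rw [e, tauP_mul]
    by_cases hd : Disjoint J J'
    · rw [if_pos hd, coP_basis]
      refine if_congr ?_ rfl rfl
      constructor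
      · rintro rfl
        refine ⟨Finset.subset_union_left, ?_⟩
        rw [Finset.union_sdiff_left, Finset.sdiff_eq_self_of_disjoint hd.symm]
      · rintro ⟨h, rfl⟩
        exact (Finset.union_sdiff_of_subset h).symm
    · rw [if_neg hd, zero_mul, map_zero, if_neg]
      rintro ⟨_, rfl⟩
      exact hd Finset.disjoint_sdiff
  rw [← Finset.sum_subset (Finset.subset_univ I.powerset)]
  · refine Finset.sum_congr rfl fun J hJ => ?_
    rw [Finset.sum_eq_single (I \ J)]
    · rw [h1, if_pos ⟨Finset.mem_powerset.1 hJ, rfl⟩]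
    · intro J' _ hJ'; rw [h1, if_neg fun hh => hJ' hh.2]
    · intro hh; exact absurd (Finset.mem_univ _) hh
  · intro J _ hJ
    refine Finset.sum_eq_zero fun J' _ => ?_
    rw [h1, if_neg fun hh => hJ (Finset.mem_powerset.2 hh.1)]

/-- the coefficient of a single source is a derivation -/
theorem co1_mul {a b : Ge (VS V m)} (ha : a ∈ GS V m) (hb : b ∈ GS V m) (i : Fin m) :
    coP {i} (a * b) = coP {i} a * noS b + noS a * coP {i} b := by
  rw [coP_mul ha hb]
  have : ({i} : Finset (Fin m)).powerset = {∅, {i}} := rfl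
  rw [this, Finset.sum_pair (by simp)]
  simp only [Finset.sdiff_empty, Finset.sdiff_self, coP_empty]
  ring

theorem coP_one (I : Finset (Fin m)) : coP I (1 : Ge (VS V m)) = if I = ∅ then 1 else 0 := by
  have := coP_basis (V := V) I ∅ 1
  simpa using this

theorem coP_inG (I : Finset (Fin m)) (a : Ge V) :
    coP I (inG m a) = if I = ∅ then a else 0 := by
  have := coP_basis (V := V) I ∅ a
  simpa using this

theorem coP_tau_inG (I : Finset (Fin m)) (i : Fin m) (a : Ge V) :
    coP I (tau i * inG m a) = if I = {i} then a else 0 := by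
  have h : (tauP {i} : Ge (VS V m)) = tau i := by simp [tauP]
  rw [← h, coP_basis]

/-! ### closure of `GS` -/

theorem gexp_mem_sub {X : Type*} [AddCommGroup X] [Module ℝ X] (P : Subalgebra ℝ (Ge X))
    {a : Ge X} (ha : a ∈ P) : gexp a ∈ P := by
  have h1 : nl a ∈ P := Subalgebra.sub_mem _ ha (Subalgebra.algebraMap_mem _ _)
  obtain ⟨k, hk⟩ := nl_nil a
  rw [gexp, nexp_eq_sum hk]
  exact Subalgebra.smul_mem _ (Subalgebra.sum_mem _ fun i _ =>
    Subalgebra.smul_mem _ (Subalgebra.pow_mem _ h1 _) _) _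

/-- the source fields -/
def srcM (V : Type*) [AddCommGroup V] [Module ℝ V] (m : ℕ) : Submodule ℝ (VS V m) :=
  LinearMap.range (LinearMap.inr ℝ V (Src m))

theorem th_mem_srcM (i : Fin m) : (th i : VS V m) ∈ srcM V m := ⟨_, rfl⟩
theorem th'_mem_srcM (i : Fin m) : (th' i : VS V m) ∈ srcM V m := ⟨_, rfl⟩

theorem ext0_src (S : Cov V) : ∀ x ∈ srcM V m, ∀ y, (ext0 m S).b x y = 0 := by
  rintro _ ⟨x, rfl⟩ y
  simp

theorem tau_mem_src (i : Fin m) : (tau i : Ge (VS V m)) ∈ grG (srcM V m) := by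
  rw [mem_grG, tau, coe_bi]
  exact Subalgebra.mul_mem _ (fi_mem_gr (th_mem_srcM i)) (fi_mem_gr (th'_mem_srcM i))

theorem tauP_mem_src (I : Finset (Fin m)) : (tauP I : Ge (VS V m)) ∈ grG (srcM V m) :=
  Subalgebra.prod_mem _ fun i _ => tau_mem_src i

theorem cvG_basis (S : Cov V) (I : Finset (Fin m)) (a : Ge V) :
    cvG (ext0 m S) (tauP I * inG m a) = tauP I * inG m (cvG S a) := by
  rw [Sys.cvG_src_mul (ext0_src S) (tauP_mem_src I), cvG_inG]

theorem GS_cvG (S : Cov V) {a : Ge (VS V m)} (ha : a ∈ GS V m) : cvG (ext0 m S) a ∈ GS V m := by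
  rw [GS_eq ha, map_sum]
  refine Subalgebra.sum_mem _ fun I _ => ?_
  rw [cvG_basis]
  exact Subalgebra.mul_mem _ (tauP_mem I) (inG_mem _)

/-- coefficients and convolution -/
theorem coP_cvG (S : Cov V) {a : Ge (VS V m)} (ha : a ∈ GS V m) (I : Finset (Fin m)) :
    coP I (cvG (ext0 m S) a) = cvG S (coP I a) := by
  conv_lhs => rw [GS_eq ha, map_sum]
  simp only [cvG_basis]
  exact coP_sum_basis I _

theorem mpG_zero {X : Type*} [AddCommGroup X] [Module ℝ X] (a : Ge V) :
    mpG (0 : V →ₗ[ℝ] X) a = algebraMap ℝ (Ge X) (ctG a) := by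
  apply ge_ext
  rw [coe_mpG, ctG_apply, ge_coe_algebraMap]
  refine Gr.induction (P := fun b => mp (0 : V →ₗ[ℝ] X) b = algebraMap ℝ (Gr X) (ct b))
    ?_ ?_ ?_ (a : Gr V)
  · intro r; simp
  · intro x b ih; rw [map_mul, mp_fi, map_mul, ct_fi]; simp
  · intro b c hb hc; rw [map_add, hb, hc, map_add, map_add]

theorem vacH_inG (a : Ge V) : vacH (inG m a) = algebraMap ℝ (Ge (VS V m)) (ctG a) := by
  rw [vacH, inG, mpG_mpG]
  have : (LinearMap.inr ℝ V (Src m) ∘ₗ LinearMap.snd ℝ V (Src m)) ∘ₗ LinearMap.inl ℝ V (Src m)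
      = 0 := by
    ext x <;> simp
  rw [this, mpG_zero]

theorem vacH_tau (i : Fin m) : vacH (tau i : Ge (VS V m)) = tau i := by
  rw [vacH, tau, mpG_bi]
  rfl

theorem vacH_tauP (I : Finset (Fin m)) : vacH (tauP I : Ge (VS V m)) = tauP I := by
  rw [tauP, map_prod]
  exact Finset.prod_congr rfl fun i _ => vacH_tau i

theorem vacH_basis (I : Finset (Fin m)) (a : Ge V) :
    vacH (tauP I * inG m a) = tauP I * inG m (algebraMap ℝ _ (ctG a)) := by
  rw [map_mul, vacH_tauP, vacH_inG, AlgHom.commutes]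

theorem GS_vacH {a : Ge (VS V m)} (ha : a ∈ GS V m) : vacH a ∈ GS V m := by
  rw [GS_eq ha, map_sum]
  refine Subalgebra.sum_mem _ fun I _ => ?_
  rw [vacH_basis]
  exact Subalgebra.mul_mem _ (tauP_mem I) (inG_mem _)

theorem coP_vacH {a : Ge (VS V m)} (ha : a ∈ GS V m) (I : Finset (Fin m)) :
    coP I (vacH a) = algebraMap ℝ _ (ctG (coP I a)) := by
  conv_lhs => rw [GS_eq ha, map_sum]
  simp only [vacH_basis]
  exact coP_sum_basis I _

theorem vacH_mem_src (a : Ge (VS V m)) : vacH a ∈ grG (srcM V m) := by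
  have hb : a ∈ grG (⊤ : Submodule ℝ (VS V m)) := by
    rw [mem_grG]
    refine Gr.induction (P := fun a => a ∈ gr (⊤ : Submodule ℝ (VS V m))) ?_ ?_ ?_
      (a : Gr (VS V m))
    · intro r; exact Subalgebra.algebraMap_mem _ _
    · intro x a ih; exact mul_mem (fi_mem_gr trivial) ih
    · intro a b iha ihb; exact add_mem iha ihb
  refine mpG_mem _ (fun x _ => ?_) hb
  exact ⟨x.2, rfl⟩

theorem ctG_noS (a : Ge (VS V m)) : ctG (noS a) = ctG a := ctG_mpG _ a

theorem noS_gexp (a : Ge (VS V m)) : noS (gexp a) = gexp (noS a) := mpG_gexp _ a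

/-- exponential with one source -/
theorem co1_gexp {a : Ge (VS V m)} (ha : a ∈ GS V m) (i : Fin m) :
    coP {i} (gexp a) = coP {i} a * gexp (noS a) := by
  -- powers
  have hp : ∀ (b : Ge (VS V m)), b ∈ GS V m → ∀ n : ℕ,
      coP {i} (b ^ n) = (n : ℝ) • (coP {i} b * noS b ^ (n - 1)) := by
    intro b hb n
    induction n with
    | zero => rw [pow_zero, coP_one]; simp
    | succ n ih =>
      rw [pow_succ, co1_mul (Subalgebra.pow_mem _ hb n) hb, ih, map_pow]
      rcases Nat.eq_zero_or_pos n with h | h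
      · subst h; simp
      · obtain ⟨k, rfl⟩ := Nat.exists_eq_succ_of_ne_zero h.ne'
        simp only [Nat.succ_eq_add_one, Nat.add_sub_cancel]
        push_cast
        rw [Algebra.smul_def, Algebra.smul_def]
        simp only [map_add, map_natCast, map_one]
        ring
  have hnl : nl a ∈ GS V m := Subalgebra.sub_mem _ ha (Subalgebra.algebraMap_mem _ _)
  obtain ⟨k, hk⟩ := nl_nil a
  have hk1 : nl a ^ (k + 1) = 0 := by rw [pow_succ, hk, zero_mul]
  have hn : noS (nl a) = nl (noS a) := by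
    rw [nl, nl, map_sub, AlgHom.commutes, ctG_noS]
  have hk' : nl (noS a) ^ k = 0 := by rw [← hn, ← map_pow, hk, map_zero]
  have hc : coP {i} (nl a) = coP {i} a := by
    rw [nl, map_sub]
    have : coP {i} (algebraMap ℝ (Ge (VS V m)) (ctG a)) = 0 := by
      have h := coP_inG (V := V) (m := m) {i} (algebraMap ℝ _ (ctG a))
      rw [AlgHom.commutes] at h
      rw [h, if_neg (by simp)]
    rw [this, sub_zero]
  rw [gexp, map_smul, nexp_eq_sum hk1, map_sum, gexp, ctG_noS, nexp_eq_sum hk',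
    mul_smul_comm]
  congr 1
  simp only [map_smul, hp _ hnl, hn, hc]
  rw [Finset.sum_range_succ', Finset.mul_sum]
  simp only [Nat.cast_zero, zero_smul, smul_zero, add_zero, Nat.add_sub_cancel]
  refine Finset.sum_congr rfl fun j _ => ?_
  rw [smul_smul, mul_smul_comm]
  congr 1
  rw [Nat.factorial_succ]
  push_cast
  field_simp

/-! ### Gram weights -/

theorem Gram_ext0 {S : Cov V} {g : V → ℝ≥0∞} (h : Gram S g) :
    Gram (ext0 m S) (fun p => g p.1) := by
  intro L
  have h1 : EE (ext0 m S) (mono L) = EE S (mono (L.map fun p => p.1)) := by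
    have := EE_mp (LinearMap.fst ℝ V (Src m)) (ext0 m S) S (fun x y => by simp) (mono L)
    rw [mp_mono] at this
    exact this.symm
  rw [h1]
  refine (h _).trans (le_of_eq ?_)
  rw [mwt, mwt, List.map_map]
  rfl

/-! ### norm splitting -/

section split

variable {X : Type*} [AddCommGroup X] [Module ℝ X]

/-- representation of a derivative of a monomial -/
def rD (l : Module.Dual ℝ X) : List X → List (ℝ × List X)
  | [] => []
  | x :: L => (l x, L) :: (rD l L).map fun p => (-p.1, x :: p.2)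

/-- representation of a second derivative of a monomial -/
def rDD (l l' : Module.Dual ℝ X) : List X → List (ℝ × List X)
  | [] => []
  | x :: L => (rD l' L).map (fun p => (l x * p.1, p.2)) ++
      ((rD l L).map (fun p => (-l' x * p.1, p.2)) ++ (rDD l l' L).map fun p => (p.1, x :: p.2))

theorem rval_cons_map (x : X) (R : List (ℝ × List X)) (c : ℝ) :
    rval (R.map fun p => (c * p.1, x :: p.2)) = c • (fi x * rval R) := by
  induction R with
  | nil => simp
  | cons p R ih =>
    rw [List.map_cons, rval_cons, rval_cons, ih, mono_cons, mul_add, smul_add, mul_smul,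
      mul_smul_comm]

theorem rwt_cons_map (w : X → ℝ≥0∞) (x : X) (R : List (ℝ × List X)) (c : ℝ) (hc : ‖c‖ₑ = 1) :
    rwt w (R.map fun p => (c * p.1, x :: p.2)) = w x * rwt w R := by
  induction R with
  | nil => simp
  | cons p R ih =>
    rw [List.map_cons, rwt_cons, rwt_cons, ih, mwt_cons, enorm_mul, hc]
    ring

theorem rval_rD (l : Module.Dual ℝ X) (L : List X) : rval (rD l L) = dd l (mono L) := by
  induction L with
  | nil => simp [rD]
  | cons x L ih =>
    have e : (fun p : ℝ × List X => (-p.1, x :: p.2)) = fun p => ((-1) * p.1, x :: p.2) := by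
      funext p; rw [neg_one_mul]
    rw [rD, rval_cons, e, rval_cons_map, ih, mono_cons, dd_fi_mul, neg_one_smul, sub_eq_add_neg]

theorem rwt_rD (w : X → ℝ≥0∞) (l : Module.Dual ℝ X) (x : X) (L : List X) :
    rwt w (rD l (x :: L)) = ‖l x‖ₑ * mwt w L + w x * rwt w (rD l L) := by
  have e : (fun p : ℝ × List X => (-p.1, x :: p.2)) = fun p => ((-1) * p.1, x :: p.2) := by
    funext p; rw [neg_one_mul]
  rw [rD, rwt_cons, e, rwt_cons_map _ _ _ _ (by simp)]

theorem rval_rDD (l l' : Module.Dual ℝ X) (L : List X) :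
    rval (rDD l l' L) = dd l' (dd l (mono L)) := by
  induction L with
  | nil => simp [rDD]
  | cons x L ih =>
    have e : (fun p : ℝ × List X => (p.1, x :: p.2)) = fun p => ((1 : ℝ) * p.1, x :: p.2) := by
      funext p; rw [one_mul]
    rw [rDD, rval_append, rval_append, rval_smul, rval_smul, e, rval_cons_map, ih, rval_rD,
      rval_rD, mono_cons, dd_fi_mul, map_sub, map_smul, dd_fi_mul, one_smul, neg_smul]
    abel

theorem rwt_rDD (w : X → ℝ≥0∞) (l l' : Module.Dual ℝ X) (x : X) (L : List X) :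
    rwt w (rDD l l' (x :: L)) = ‖l x‖ₑ * rwt w (rD l' L) +
      (‖l' x‖ₑ * rwt w (rD l L) + w x * rwt w (rDD l l' L)) := by
  have e : (fun p : ℝ × List X => (p.1, x :: p.2)) = fun p => ((1 : ℝ) * p.1, x :: p.2) := by
    funext p; rw [one_mul]
  rw [rDD, rwt_append, rwt_append, rwt_smul, rwt_smul, e, rwt_cons_map _ _ _ _ (by simp),
    enorm_neg]

/-- the generating inequality -/
theorem rwt_sum_le (w : X → ℝ≥0∞) (l l' : Module.Dual ℝ X) (c c' : ℝ≥0∞) (L : List X) :
    mwt w L + c * rwt w (rD l L) + c' * rwt w (rD l' L) + c * c' * rwt w (rDD l l' L) ≤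
      mwt (fun x => w x + c * ‖l x‖ₑ + c' * ‖l' x‖ₑ) L := by
  induction L with
  | nil => simp [rD, rDD]
  | cons x L ih =>
    rw [rwt_rD, rwt_rD, rwt_rDD, mwt_cons, mwt_cons]
    refine le_trans ?_ (mul_le_mul' le_rfl ih)
    calc _ = (w x * (mwt w L + c * rwt w (rD l L) + c' * rwt w (rD l' L)
              + c * c' * rwt w (rDD l l' L))
            + c * ‖l x‖ₑ * (mwt w L + c' * rwt w (rD l' L)))
            + c' * ‖l' x‖ₑ * (mwt w L + c * rwt w (rD l L)) := by ring
      _ ≤ (w x * (mwt w L + c * rwt w (rD l L) + c' * rwt w (rD l' L)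
              + c * c' * rwt w (rDD l l' L))
            + c * ‖l x‖ₑ * (mwt w L + c * rwt w (rD l L) + c' * rwt w (rD l' L)
              + c * c' * rwt w (rDD l l' L)))
            + c' * ‖l' x‖ₑ * (mwt w L + c * rwt w (rD l L) + c' * rwt w (rD l' L)
              + c * c' * rwt w (rDD l l' L)) := by
          refine add_le_add (add_le_add le_rfl (mul_le_mul' le_rfl ?_)) (mul_le_mul' le_rfl ?_)
          · refine le_trans ?_ le_self_add
            exact add_le_add le_self_add le_rfl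
          · refine le_trans ?_ le_self_add
            exact le_self_add
      _ = _ := by ring

/-- **splitting off one pair of sources** -/
theorem pnorm_pair_le (w : X → ℝ≥0∞) (l l' : Module.Dual ℝ X) (c c' : ℝ≥0∞) (F : Gr X) :
    pnorm w F + c * c' * pnorm w (dd l' (dd l F)) ≤
      pnorm (fun x => w x + c * ‖l x‖ₑ + c' * ‖l' x‖ₑ) F := by
  have hN : ESemi fun F : Gr X => pnorm w F + c * c' * pnorm w (dd l' (dd l F)) :=
    (pnorm_semi w).add_semi (((pnorm_semi w).comp ((dd l').comp (dd l))).const_mul (c * c'))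
  refine semi_le_of_mono_one hN (fun L _ => ?_) F
  refine le_trans ?_ (rwt_sum_le w l l' c c' L)
  have h1 : pnorm w (mono L) ≤ mwt w L := pnorm_mono_le w L
  have h2 : pnorm w (dd l' (dd l (mono L))) ≤ rwt w (rDD l l' L) := by
    rw [← rval_rDD]; exact pnorm_le_rwt _ _
  calc pnorm w (mono L) + c * c' * pnorm w (dd l' (dd l (mono L)))
      ≤ mwt w L + c * c' * rwt w (rDD l l' L) := add_le_add h1 (mul_le_mul' le_rfl h2)
    _ ≤ _ := by
        refine add_le_add ?_ le_rfl
        rw [add_assoc]; exact le_self_add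

end split

theorem coe_prod_cpair (L : List (Fin m)) (a : Ge (VS V m)) :
    ((((L.map cpair).prod : Module.End ℝ (Ge (VS V m))) a : Ge (VS V m)) : Gr (VS V m)) =
      ((L.map fun i => (dd (dth' i)).comp (dd (dth i))).prod : Module.End ℝ (Gr (VS V m)))
        (a : Gr (VS V m)) := by
  induction L with
  | nil => simp
  | cons i L ih =>
    rw [List.map_cons, List.prod_cons, Module.End.mul_apply, coe_cpair, ih, List.map_cons,
      List.prod_cons, Module.End.mul_apply]
    rfl

/-- the order of the derivations does not matter -/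
theorem cpair_perm {L L' : List (Fin m)} (h : L.Perm L') : ∀ a : Ge (VS V m),
    ((L.map cpair).prod : Module.End ℝ (Ge (VS V m))) a =
      ((L'.map cpair).prod : Module.End ℝ (Ge (VS V m))) a := by
  induction h with
  | nil => intro a; rfl
  | cons x _ ih =>
    intro a
    rw [List.map_cons, List.map_cons, List.prod_cons, List.prod_cons, Module.End.mul_apply,
      Module.End.mul_apply, ih]
  | swap x y L =>
    intro a
    simp only [List.map_cons, List.prod_cons, Module.End.mul_apply]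
    exact cpair_comm _ _ _
  | trans _ _ ih1 ih2 => intro a; rw [ih1, ih2]

/-- the list of the pair derivations of `I` -/
noncomputable def cpL (I : Finset (Fin m)) : Module.End ℝ (Ge (VS V m)) :=
  ((I.sort (· ≤ ·)).map cpair).prod

theorem cpL_insert {i : Fin m} {I : Finset (Fin m)} (hi : i ∉ I) (a : Ge (VS V m)) :
    cpL (insert i I) a = cpL I (cpair i a) := by
  have hP : ((insert i I).sort (· ≤ ·)).Perm (I.sort (· ≤ ·) ++ [i]) := by
    rw [List.perm_ext_iff_of_nodup (Finset.sort_nodup _ _)]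
    · intro j; simp [or_comm]
    · rw [List.nodup_append]
      refine ⟨Finset.sort_nodup _ _, List.nodup_singleton _, ?_⟩
      intro j hj k hk
      rw [Finset.mem_sort] at hj
      rw [List.mem_singleton] at hk
      rintro rfl
      exact hi (hk ▸ hj)
  rw [cpL, cpair_perm hP, List.map_append, List.prod_append, Module.End.mul_apply, cpL]
  simp only [List.map_cons, List.map_nil, List.prod_cons, List.prod_nil, mul_one]

theorem cpL_empty (a : Ge (VS V m)) : cpL (∅ : Finset (Fin m)) a = a := by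
  rw [cpL]; simp

/-- the partial weights -/
noncomputable def wQ (w : V → ℝ≥0∞) (v : Fin m → ℝ≥0∞) (s : Finset (Fin m)) (p : VS V m) :
    ℝ≥0∞ := w p.1 + ∑ i ∈ s, v i * (‖(p.2 i).1‖ₑ + ‖(p.2 i).2‖ₑ)

theorem wQ_insert (w : V → ℝ≥0∞) (v : Fin m → ℝ≥0∞) {s : Finset (Fin m)} {i : Fin m}
    (hi : i ∉ s) (p : VS V m) :
    wQ w v s p + v i * ‖dth i p‖ₑ + v i * ‖dth' i p‖ₑ = wQ w v (insert i s) p := by
  have e1 : dth i p = (p.2 i).1 := rfl
  have e2 : dth' i p = (p.2 i).2 := rfl
  rw [e1, e2, wQ, wQ, Finset.sum_insert hi]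
  ring

theorem sum_cpL_step (w : V → ℝ≥0∞) (v : Fin m → ℝ≥0∞) {s : Finset (Fin m)} {i : Fin m}
    (hi : i ∉ s)
    (ih : ∀ a : Ge (VS V m), ∑ I ∈ s.powerset, (∏ i ∈ I, v i ^ 2) *
        pG (fun p : VS V m => w p.1) (cpL I a) ≤ pG (wQ w v s) a) (a : Ge (VS V m)) :
    ∑ I ∈ (insert i s).powerset, (∏ i ∈ I, v i ^ 2) *
        pG (fun p : VS V m => w p.1) (cpL I a) ≤ pG (wQ w v (insert i s)) a := by
  have h1 : ∀ I ∈ s.powerset, i ∉ I := fun I hI h => hi (Finset.mem_powerset.1 hI h)
  have h2 : ∀ I ∈ s.powerset,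
      (∏ j ∈ insert i I, v j ^ 2) * pG (fun p : VS V m => w p.1) (cpL (insert i I) a) =
      v i * v i * ((∏ j ∈ I, v j ^ 2) *
        pG (fun p : VS V m => w p.1) (cpL I (cpair i a))) := by
    intro I hI
    rw [Finset.prod_insert (h1 I hI), sq, cpL_insert (h1 I hI), mul_assoc]
  have h3 : ∑ I ∈ (s.powerset).image (insert i), (∏ i ∈ I, v i ^ 2) *
        pG (fun p : VS V m => w p.1) (cpL I a) =
      v i * v i * ∑ I ∈ s.powerset, ((∏ j ∈ I, v j ^ 2) *
        pG (fun p : VS V m => w p.1) (cpL I (cpair i a))) := by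
    rw [Finset.sum_image, Finset.sum_congr rfl h2, ← Finset.mul_sum]
    intro I hI J hJ hIJ
    have := congrArg (fun S => Finset.erase S i) hIJ
    simpa [Finset.erase_insert (h1 I hI), Finset.erase_insert (h1 J hJ)] using this
  have hd : Disjoint s.powerset ((s.powerset).image (insert i)) := by
    rw [Finset.disjoint_left]
    intro I hI hI'
    obtain ⟨J, hJ, rfl⟩ := Finset.mem_image.1 hI'
    exact hi (Finset.mem_powerset.1 hI (Finset.mem_insert_self i J))
  rw [Finset.powerset_insert, Finset.sum_union hd, h3]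
  refine le_trans (add_le_add (ih a) (mul_le_mul' le_rfl (ih (cpair i a)))) ?_
  have h4 := pnorm_pair_le (wQ w v s) (dth i) (dth' i) (v i) (v i) (a : Gr (VS V m))
  have h5 : (fun x => wQ w v s x + v i * ‖dth i x‖ₑ + v i * ‖dth' i x‖ₑ) =
      wQ w v (insert i s) := funext fun p => wQ_insert w v hi p
  rw [h5] at h4
  exact h4

/-- **all coefficients are controlled**: the general sets -/
theorem sum_cpL_le (w : V → ℝ≥0∞) (v : Fin m → ℝ≥0∞) (s : Finset (Fin m)) :
    ∀ a : Ge (VS V m), ∑ I ∈ s.powerset, (∏ i ∈ I, v i ^ 2) *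
        pG (fun p : VS V m => w p.1) (cpL I a) ≤ pG (wQ w v s) a := by
  induction s using Finset.induction_on with
  | empty =>
    intro a
    rw [Finset.powerset_empty, Finset.sum_singleton, Finset.prod_empty, one_mul, cpL_empty]
    have e : (wQ w v ∅ : VS V m → ℝ≥0∞) = fun p : VS V m => w p.1 := by
      funext p; simp [wQ]
    rw [e]
  | insert i s hi ih => exact fun a => sum_cpL_step w v hi ih a

/-- **all coefficients are controlled** -/
theorem sum_coP_le (w : V → ℝ≥0∞) (v : Fin m → ℝ≥0∞) (a : Ge (VS V m)) :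
    ∑ I, (∏ i ∈ I, v i ^ 2) * pG w (coP I a) ≤ pG (wS w v) a := by
  have h := sum_cpL_le w v Finset.univ a
  rw [Finset.powerset_univ] at h
  refine le_trans (Finset.sum_le_sum fun I _ => ?_) h
  refine mul_le_mul' le_rfl ?_
  rw [pG_def, coP, LinearMap.comp_apply, AlgHom.toLinearMap_apply, noS, coe_mpG]
  exact pnorm_mp_le _ (fun p => le_rfl) _

theorem coP_le (w : V → ℝ≥0∞) (v : Fin m → ℝ≥0∞) (I : Finset (Fin m)) (a : Ge (VS V m)) :
    (∏ i ∈ I, v i ^ 2) * pG w (coP I a) ≤ pG (wS w v) a :=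
  (Finset.single_le_sum (f := fun I => (∏ i ∈ I, v i ^ 2) * pG w (coP I a))
    (fun _ _ => zero_le) (Finset.mem_univ I)).trans (sum_coP_le w v a)

/-! ### upper bound -/

theorem pG_inG_le {w : V → ℝ≥0∞} {v : Fin m → ℝ≥0∞} (a : Ge V) :
    pG (wS w v) (inG m a) ≤ pG w a := by
  rw [pG_def, inG, coe_mpG]
  refine pnorm_mp_le _ (fun x => ?_) _
  simp [wS, vS]

theorem pG_tau_le {w : V → ℝ≥0∞} (hw : w 0 = 0) {v : Fin m → ℝ≥0∞} (i : Fin m) :
    pG (wS w v) (tau i) ≤ v i ^ 2 := by
  rw [pG_def, tau, coe_bi]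
  have h := pnorm_mono_le (wS w v) [th i, th' i]
  have e1 : wS w v (th i) = v i := by
    simp only [wS, vS, th, hw, zero_add]
    rw [Finset.sum_eq_single i]
    · simp
    · intro j _ hj; simp [Pi.single_eq_of_ne hj]
    · simp
  have e2 : wS w v (th' i) = v i := by
    simp only [wS, vS, th', hw, zero_add]
    rw [Finset.sum_eq_single i]
    · simp
    · intro j _ hj; simp [Pi.single_eq_of_ne hj]
    · simp
  have e3 : mwt (wS w v) [th i, th' i] = v i ^ 2 := by
    rw [mwt_cons, mwt_cons, mwt_nil, mul_one, e1, e2, sq]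
  rw [e3] at h
  simpa using h

theorem pG_tauP_le {w : V → ℝ≥0∞} (hw : w 0 = 0) {v : Fin m → ℝ≥0∞} (hv : ∀ i, v i ≠ ∞)
    (I : Finset (Fin m)) : pG (wS w v) (tauP I) ≤ ∏ i ∈ I, v i ^ 2 :=
  pG_prod_le _ _ _ (fun i _ => pG_tau_le hw i) (fun i _ => ENNReal.pow_ne_top (hv i))

theorem pG_basis_le {w : V → ℝ≥0∞} (hw : w 0 = 0) {v : Fin m → ℝ≥0∞} (hv : ∀ i, v i ≠ ∞)
    (hv0 : ∀ i, v i ≠ 0) (I : Finset (Fin m)) (a : Ge V) :
    pG (wS w v) (tauP I * inG m a) ≤ (∏ i ∈ I, v i ^ 2) * pG w a := by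
  have h1 : (∏ i ∈ I, v i ^ 2) ≠ ∞ := ENNReal.prod_ne_top fun i _ => ENNReal.pow_ne_top (hv i)
  have h0 : (∏ i ∈ I, v i ^ 2) ≠ 0 := Finset.prod_ne_zero_iff.2 fun i _ => pow_ne_zero _ (hv0 i)
  rcases eq_or_ne (pG w a) ∞ with ha | ha
  · rw [ha, ENNReal.mul_top h0]; exact le_top
  · exact pG_mul_le' (pG_tauP_le hw hv I) (pG_inG_le a) h1 ha

/-- the norm of an element of `GS` -/
theorem pG_GS_le {w : V → ℝ≥0∞} (hw : w 0 = 0) {v : Fin m → ℝ≥0∞} (hv : ∀ i, v i ≠ ∞)
    (hv0 : ∀ i, v i ≠ 0) {a : Ge (VS V m)} (ha : a ∈ GS V m) :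
    pG (wS w v) a ≤ ∑ I, (∏ i ∈ I, v i ^ 2) * pG w (coP I a) := by
  conv_lhs => rw [GS_eq ha]
  exact (pG_sum_le _ _ _).trans (Finset.sum_le_sum fun I _ => pG_basis_le hw hv hv0 I _)

/-- **the norm of an element of `GS` is the weighted sum of the norms of its coefficients** -/
theorem pG_GS_eq {w : V → ℝ≥0∞} (hw : w 0 = 0) {v : Fin m → ℝ≥0∞} (hv : ∀ i, v i ≠ ∞)
    (hv0 : ∀ i, v i ≠ 0) {a : Ge (VS V m)} (ha : a ∈ GS V m) :
    pG (wS w v) a = ∑ I, (∏ i ∈ I, v i ^ 2) * pG w (coP I a) :=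
  le_antisymm (pG_GS_le hw hv hv0 ha) (sum_coP_le w v a)

end Crest.Agent.R165.SrcDefx991
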