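import Crest.Agent.R165.SrcER_441
import Crest.Agent.R165.SrcAlg_991

/-!
# Row 165 (S0250), leaf P11: comparison of two runs at the final scale (helper441)

* `FinE` : activities `K`, `K'` and vacuum exponents `E`, `E'` at the final scale, same weights
* `FinE.cmp` : the two normalised coefficients of `∏ τ_i` differ by at most
  `32 exp (4 M) ε / ∏ v_i ^ 2`
* `ratio_lead` : the exact value for the leading activities
* `CmpPack`, `ERD_of_cmp`, `ERP_of_cmp` : the energy ratios of `SR_541`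
-/

set_option autoImplicit false
set_option linter.unusedSectionVars false
set_option linter.unusedVariables false

noncomputable section

namespace Crest.Agent.R165.SrcCmpx441

open Finset Filter Topology
open scoped ENNReal Nat
open Crest.ProbabilityR.IsingModel
open Crest.Agent.R165.FinBx900 Crest.Agent.R165.KStepx892
open Crest.Agent.R165.Gr0x606 Crest.Agent.R165.Gr1x606 Crest.Agent.R165.GeOpsx337
  Crest.Agent.R165.ExpGx337 Crest.Agent.R165.PNormx417 Crest.Agent.R165.KFlowx337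
  Crest.Agent.R165.SrcFinx441 Crest.Agent.R165.GrLocx337
open Crest.Agent.R165.SrcDefx991 (VS Src th th' tau tauP ext0 inG noS vacH vacS coP wS vS GS
  noS_inG noS_tau EEG_ext0 vacH_tau tau_sq)
open Crest.Agent.R165.SrcFinBx441 (tp bt tp_apply bt_apply tp_bd bt_bd gexp_cvG Nw ra_Nw ra_pG
  EEG_bd bd_tau bd_inG fac coP_prod noS_prod ctG_tau gexp_tau gexp_split srcW vac_mem
  exp_sub_one_le ctG_coP_cvG)
open Crest.Agent.R165.Centx541 Crest.Agent.R165.Redx541 Crest.Agent.R165.Symx541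
  Crest.Agent.R165.Red2x541 Crest.Agent.R165.Mastx541 Crest.Agent.R165.Topx683
  Crest.Agent.R165.SRx541

variable {V : Type*} [AddCommGroup V] [Module ℝ V] {m : ℕ}
variable {F : Type*} [DecidableEq F]

/-! ### exponentials -/

/-- exponential of an element without constant term -/
theorem gexp_bd0 {R : Type*} [AddCommGroup R] [Module ℝ R] {N : Ge R → ℝ≥0∞} (hN : RA N) {a : Ge R}
    {t : ℝ} (ht : 0 ≤ t) (h0 : ctG a = 0) (ha : Bd N a t) :
    Bd N (gexp a - 1) (Real.exp t - 1) := by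
  have hnl : nl a = a := by rw [nl, h0, map_zero, sub_zero]
  have := gexp_bd hN (a := a) (c := 0) (t := t) ht (by rw [h0, abs_zero]) (by rw [hnl]; exact ha)
  rwa [zero_add] at this

theorem gexp_bd1 {R : Type*} [AddCommGroup R] [Module ℝ R] {N : Ge R → ℝ≥0∞} (hN : RA N) {a : Ge R}
    {t : ℝ} (ht : 0 ≤ t) (h0 : ctG a = 0) (ha : Bd N a t) : Bd N (gexp a) (Real.exp t) := by
  have h1 := (gexp_bd0 hN ht h0 ha).add hN (bd_one hN) (by
    have := Real.one_le_exp ht; linarith) zero_le_one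
  have e : gexp a - 1 + 1 = gexp a := by ring
  rw [e] at h1
  refine h1.mono ?_
  linarith

/-- difference of two exponentials -/
theorem gexp_sub_bd {R : Type*} [AddCommGroup R] [Module ℝ R] {N : Ge R → ℝ≥0∞} (hN : RA N)
    {a b : Ge R} {s t : ℝ} (hs : 0 ≤ s) (ht : 0 ≤ t) (ha0 : ctG a = 0) (hb0 : ctG b = 0)
    (hb : Bd N b t) (hab : Bd N (a - b) s) :
    Bd N (gexp a - gexp b) (Real.exp t * (Real.exp s - 1)) := by
  have e : gexp a - gexp b = gexp b * (gexp (a - b) - 1) := by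
    have : gexp a = gexp b * gexp (a - b) := by rw [← gexp_add]; congr 1; abel
    rw [this]; ring
  rw [e]
  exact (gexp_bd1 hN ht hb0 hb).mul hN
    (gexp_bd0 hN hs (by rw [map_sub, ha0, hb0, sub_zero]) hab) (Real.exp_pos t).le

/-! ### the source free part of a vacuum element -/

theorem noS_vacH (a : Ge (VS V m)) : noS (vacH a) = algebraMap ℝ (Ge V) (ctG a) := by
  rw [noS, vacH, mpG_mpG]
  have : (LinearMap.fst ℝ V (Src m)) ∘ₗ (LinearMap.inr ℝ V (Src m) ∘ₗ LinearMap.snd ℝ V (Src m))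
      = 0 := by
    ext x <;> simp
  rw [this, SrcDefx991.mpG_zero]

theorem vacH_vacH (a : Ge (VS V m)) : vacH (vacH a) = vacH a := by
  rw [vacH, mpG_mpG]
  congr 1

theorem noS_of_vac {E : Ge (VS V m)} (h : vacH E = E) : noS E = algebraMap ℝ (Ge V) (ctG E) := by
  conv_lhs => rw [← h]
  exact noS_vacH E

theorem noS_gexp_vac {E : Ge (VS V m)} (h : vacH E = E) :
    noS (gexp (E - algebraMap ℝ _ (ctG E))) = 1 := by
  rw [SrcDefx991.noS_gexp, map_sub, noS_of_vac h, AlgHom.commutes, sub_self, gexp_zero]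

/-- the source free part of the gas -/
theorem noS_ZZ (near : F → F → Prop) (Λ : Finset F) (K : Finset F → Ge (VS V m)) :
    noS (ZZ near Λ K) = ZZ near Λ fun U => noS (K U) := by
  classical
  rw [ZZ_eq, ZZ_eq, map_sum]
  refine sum_congr rfl fun X _ => ?_
  split_ifs
  · rw [map_prod]
  · rw [map_zero]

/-- the empty gas -/
theorem ZZ_zero' {R : Type*} [CommRing R] [Algebra ℝ R] (near : F → F → Prop) (Λ : Finset F)
    {K : Finset F → R} (h : ∀ U ∈ nes Λ, K U = 0) : ZZ near Λ K = 1 := by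
  classical
  rw [ZZ_eq, sum_eq_single ∅]
  · rw [if_pos, prod_empty]
    exact ⟨by simp, by simp⟩
  · intro X hX hne
    obtain ⟨U, hU⟩ := nonempty_iff_ne_empty.2 hne
    rw [prod_eq_zero hU (h U (mem_powerset.1 hX hU)), ite_self]
  · intro h; exact absurd (empty_mem_powerset _) h

/-! ### the final comparison -/

/-- **comparison of two runs at the final scale**: `K, E` the actual run, `K', E'` the free run -/
structure FinE (near : F → F → Prop) (Λ : Finset F) (K K' : Finset F → Ge (VS V m))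
    (E E' : Ge (VS V m)) (Sf : Cov V) (g : V → ℝ≥0∞) (v : Fin m → ℝ) (ε M : ℝ) : Prop where
  gram : Gram Sf g
  v0 : ∀ i, 0 < v i
  ε0 : 0 ≤ ε
  M0 : 0 ≤ M
  vac : vacH E = E
  vac' : vacH E' = E'
  noK' : ∀ W ∈ nes Λ, noS (K' W) = 0
  dK : ∑ W ∈ nes Λ, Nw g v (K W - K' W) ≤ ENNReal.ofReal ε
  bK' : ∑ W ∈ nes Λ, Nw g v (K' W) ≤ ENNReal.ofReal M
  dE : Bd (Nw g v) ((E - algebraMap ℝ _ (ctG E)) - (E' - algebraMap ℝ _ (ctG E'))) ε
  bE' : Bd (Nw g v) (E' - algebraMap ℝ _ (ctG E')) M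

/-- normalised top coefficient -/
def ratio (S : Cov V) (E X : Ge (VS V m)) : ℝ :=
  ctG (coP univ (gexp E * cvG (ext0 m S) X)) / ctG (gexp E * cvG (ext0 m S) X)

theorem ratio_eval {E : Ge (VS V m)} (h : vacH E = E) (S : Cov V) (X : Ge (VS V m)) :
    ratio S E X = tp m S (gexp (E - algebraMap ℝ _ (ctG E)) * X) /
      bt m S (gexp (E - algebraMap ℝ _ (ctG E)) * X) := by
  have e1 : ctG (coP univ (gexp E * cvG (ext0 m S) X)) = tp m S (gexp E * X) := by
    rw [gexp_cvG h]; exact ctG_coP_cvG _ _ _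
  have e2 : ctG (gexp E * cvG (ext0 m S) X) = bt m S (gexp E * X) := by
    rw [gexp_cvG h, ctG_cvG, EEG_ext0]; rfl
  have e3 : gexp E = Real.exp (ctG E) • gexp (E - algebraMap ℝ _ (ctG E)) := by
    rw [Algebra.smul_def, ← gexp_algebraMap, ← gexp_add]
    congr 1; abel
  rw [ratio, e1, e2, e3, smul_mul_assoc, map_smul, map_smul, smul_eq_mul, smul_eq_mul,
    mul_div_mul_left _ _ (Real.exp_pos _).ne']

variable {near : F → F → Prop} {Λ : Finset F} {K K' : Finset F → Ge (VS V m)}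
  {E E' : Ge (VS V m)} {Sf : Cov V} {g : V → ℝ≥0∞} {v : Fin m → ℝ} {ε M : ℝ}

theorem zz_bd {R : Type*} [CommRing R] [Algebra ℝ R] {N : R → ℝ≥0∞} (hN : RA N)
    (near : F → F → Prop) (Λ : Finset F) (K : Finset F → R) {M : ℝ} (hM : 0 ≤ M)
    (h : ∑ U ∈ nes Λ, N (K U) ≤ ENNReal.ofReal M) : Bd N (ZZ near Λ K) (Real.exp M) := by
  have h0 : ZZ near Λ (fun _ : Finset F => (0 : R)) = 1 := ZZ_zero' near Λ fun _ _ => rfl
  have h1 := zz_lip hN near Λ K (fun _ => 0) (M := 0) (η := M) le_rfl hM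
    (by simp [hN.zero]) (by simpa using h)
  rw [h0, Real.exp_zero, one_mul] at h1
  have h2 := h1.add hN (bd_one hN) (by linarith [Real.one_le_exp hM]) zero_le_one
  have e : ZZ near Λ K - 1 + 1 = ZZ near Λ K := by ring
  rw [e] at h2
  exact h2.mono (by linarith)

theorem ct_sub (E : Ge (VS V m)) : ctG (E - algebraMap ℝ _ (ctG E)) = 0 := by
  rw [map_sub, AlgHom.commutes]; simp

theorem ratio_num {x y z P X ε : ℝ} (hP : 0 < P) (hε : 0 ≤ ε) (hX : 1 ≤ X)
    (hsm : 8 * X * ε ≤ 1 / 2) (h1 : |x - 1| ≤ 8 * X * ε) (h2 : |y - z| ≤ P * (8 * X * ε))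
    (h3 : |z| ≤ P * X) : |y / x - z| ≤ 32 * (X * X) * ε * P := by
  have hx2 : 1 / 2 ≤ x := by
    have := (abs_le.1 h1).1
    linarith
  have hx0 : 0 < x := by linarith
  have e : y / x - z = ((y - z) - z * (x - 1)) / x := by field_simp; ring
  rw [e, abs_div, abs_of_pos hx0, div_le_iff₀ hx0]
  have h4 : |(y - z) - z * (x - 1)| ≤ P * (8 * X * ε) + P * X * (8 * X * ε) := by
    refine (abs_sub _ _).trans (add_le_add h2 ?_)
    rw [abs_mul]
    exact mul_le_mul h3 h1 (abs_nonneg _) (by positivity)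
  refine h4.trans ?_
  have g1 : X ≤ X * X := by nlinarith
  have g0 : 0 ≤ P * ε := by positivity
  have g2 : P * (8 * X * ε) + P * X * (8 * X * ε) ≤ 16 * (X * X) * (P * ε) := by
    have := mul_le_mul_of_nonneg_right g1 g0
    nlinarith
  have g3 : 0 ≤ X * X * (P * ε) := by positivity
  calc P * (8 * X * ε) + P * X * (8 * X * ε) ≤ 16 * (X * X) * (P * ε) := g2
    _ ≤ 32 * (X * X) * ε * P * x := by nlinarith

/-- **the final comparison** -/
theorem FinE.cmp (h : FinE near Λ K K' E E' Sf g v ε M) (hε : ε ≤ 1)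
    (hsm : 8 * Real.exp (2 * M) * ε ≤ 1 / 2) :
    |ratio Sf E (ZZ near Λ K) - ratio Sf E' (ZZ near Λ K')| ≤
      32 * Real.exp (4 * M) * ε * (∏ i, v i ^ 2)⁻¹ := by
  have hp : 0 < ∏ i, v i ^ 2 := prod_pos fun i _ => by have := h.v0 i; positivity
  have hN := ra_Nw (V := V) (m := m) g v
  have hε0 := h.ε0
  have hM := h.M0
  rw [ratio_eval h.vac, ratio_eval h.vac']
  set a := E - algebraMap ℝ _ (ctG E) with ha
  set b := E' - algebraMap ℝ _ (ctG E') with hb
  set Z := ZZ near Λ K with hZ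
  set Z' := ZZ near Λ K' with hZ'
  have ca : ctG a = 0 := ct_sub E
  have cb : ctG b = 0 := ct_sub E'
  have e2M : Real.exp (2 * M) = Real.exp M * Real.exp M := by rw [← Real.exp_add]; ring_nf
  have eM1 : 1 ≤ Real.exp M := Real.one_le_exp hM
  have eε : Real.exp ε - 1 ≤ 2 * ε := exp_sub_one_le hε0 hε
  have eε0 : 0 ≤ Real.exp ε - 1 := by linarith [Real.one_le_exp hε0]
  -- bounds
  have B1 : Bd (Nw g v) (gexp a - gexp b) (Real.exp M * (2 * ε)) :=
    (gexp_sub_bd hN hε0 hM ca cb h.bE' h.dE).mono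
      (mul_le_mul_of_nonneg_left eε (Real.exp_pos _).le)
  have B2 : Bd (Nw g v) (Z - Z') (Real.exp M * (2 * ε)) :=
    (zz_lip hN near Λ K K' hM hε0 h.bK' h.dK).mono
      (mul_le_mul_of_nonneg_left eε (Real.exp_pos _).le)
  have B3 : Bd (Nw g v) (gexp b) (Real.exp M) := gexp_bd1 hN hM cb h.bE'
  have B4 : Bd (Nw g v) Z' (Real.exp M) := zz_bd hN near Λ K' hM h.bK'
  have B5 : Bd (Nw g v) Z (3 * Real.exp M) := by
    have := B2.add hN B4 (by positivity) (Real.exp_pos _).le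
    have e : Z - Z' + Z' = Z := by ring
    rw [e] at this
    refine this.mono ?_
    nlinarith [Real.exp_pos M]
  have B6 : Bd (Nw g v) (gexp b * Z') (Real.exp (2 * M)) := by
    rw [e2M]; exact B3.mul hN B4 (Real.exp_pos _).le
  have B7 : Bd (Nw g v) (gexp a * Z - gexp b * Z') (8 * Real.exp (2 * M) * ε) := by
    have e : gexp a * Z - gexp b * Z' = (gexp a - gexp b) * Z + gexp b * (Z - Z') := by ring
    rw [e]
    refine ((B1.mul hN B5 (by positivity)).add hN (B3.mul hN B2 (Real.exp_pos _).le)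
      (by positivity) (by positivity)).mono (le_of_eq ?_)
    rw [e2M]; ring
  -- bottom
  have b1 : bt m Sf (gexp b * Z') = 1 := by
    rw [bt_apply, map_mul, hb, noS_gexp_vac h.vac', one_mul, hZ', noS_ZZ,
      ZZ_zero' near Λ h.noK', EEG_one]
  have b2 : |bt m Sf (gexp a * Z) - 1| ≤ 8 * Real.exp (2 * M) * ε := by
    rw [← b1, ← map_sub]
    exact bt_bd h.gram _ (by positivity) B7
  have t1 : |tp m Sf (gexp a * Z) - tp m Sf (gexp b * Z')| ≤
      (∏ i, v i ^ 2)⁻¹ * (8 * Real.exp (2 * M) * ε) := by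
    rw [← map_sub]
    exact tp_bd h.gram h.v0 (by positivity) B7
  have t2 : |tp m Sf (gexp b * Z')| ≤ (∏ i, v i ^ 2)⁻¹ * Real.exp (2 * M) :=
    tp_bd h.gram h.v0 (Real.exp_pos _).le B6
  rw [b1, div_one]
  have e4 : Real.exp (4 * M) = Real.exp (2 * M) * Real.exp (2 * M) := by
    rw [← Real.exp_add]; ring_nf
  rw [e4]
  exact ratio_num (inv_pos.2 hp) hε0 (Real.one_le_exp (by positivity)) hsm b2 t1 t2

/-! ### the exact value for the leading activities -/

theorem ctG_sum_tau (c : Fin m → ℝ) : ctG (∑ i, c i • (tau i : Ge (VS V m))) = 0 := by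
  rw [map_sum]
  exact sum_eq_zero fun i _ => by rw [map_smul, ctG_tau, smul_zero]

theorem vacH_sum_tau (c : Fin m → ℝ) :
    vacH (∑ i, c i • (tau i : Ge (VS V m))) = ∑ i, c i • tau i := by
  rw [map_sum]
  exact sum_congr rfl fun i _ => by rw [map_smul, vacH_tau]

/-- **the free run**: leading activities `ζ_i τ_i β_i`, vacuum exponent `Σ c_i τ_i` -/
theorem ratio_lead (near : F → F → Prop) {Λ : Finset F} {U : Fin m → Finset F}
    (hinj : Function.Injective U) (hne : ∀ i, (U i).Nonempty) (hsub : ∀ i, U i ⊆ Λ)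
    (hsep : ∀ i j, i ≠ j → ¬ touch near (U i) (U j)) (ζ c : Fin m → ℝ) (β : Fin m → Ge V)
    (S : Cov V) :
    ratio S (∑ i, c i • tau i) (ZZ near Λ (lead U fun i => ζ i • (tau i * inG m (β i)))) =
      EEG S (∏ i, (ζ i • β i + algebraMap ℝ _ (c i))) := by
  rw [ratio_eval (vacH_sum_tau c), ctG_sum_tau, map_zero, sub_zero]
  have e2 : gexp (∑ i, c i • tau i : Ge (VS V m)) = ∏ i, (1 + c i • tau i) := by
    rw [gexp_sum]
    exact prod_congr rfl fun i _ => gexp_tau (c i) i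
  have e1 : (∏ i, (1 + c i • tau i : Ge (VS V m))) * ZZ near Λ
      (lead U fun i => ζ i • (tau i * inG m (β i))) =
      ∏ i, fac (fun i => ζ i • β i + algebraMap ℝ _ (c i)) i := by
    rw [zz_lead near hinj hne hsub hsep, ← prod_mul_distrib]
    refine prod_congr rfl fun i _ => ?_
    have h1 : (1 + c i • tau i : Ge (VS V m)) * (1 + ζ i • (tau i * inG m (β i))) =
        1 + tau i * (ζ i • inG m (β i) + c i • 1) +
          (c i * ζ i) • ((tau i * tau i) * inG m (β i)) := by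
      simp only [Algebra.smul_def, map_mul]
      ring
    rw [h1, tau_sq, zero_mul, smul_zero, add_zero, fac, map_add, map_smul, AlgHom.commutes,
      Algebra.algebraMap_eq_smul_one]
  rw [e2, e1, tp_apply, bt_apply, coP_prod, noS_prod, EEG_one, div_one]

/-- the same with a common factor -/
theorem ratio_lead_Ze (near : F → F → Prop) {Λ : Finset F} {U : Fin m → Finset F}
    (hinj : Function.Injective U) (hne : ∀ i, (U i).Nonempty) (hsub : ∀ i, U i ⊆ Λ)
    (hsep : ∀ i j, i ≠ j → ¬ touch near (U i) (U j)) (Ze : ℝ) (c0 : Fin m → ℝ) (β : Fin m → Ge V)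
    (S : Cov V) :
    ratio S (∑ i, (Ze * c0 i) • tau i)
      (ZZ near Λ (lead U fun i => Ze • (tau i * inG m (β i)))) =
      Ze ^ m * EEG S (∏ i, (β i + algebraMap ℝ _ (c0 i))) := by
  rw [ratio_lead near hinj hne hsub hsep (fun _ => Ze) (fun i => Ze * c0 i) β S]
  have e : ∀ i, Ze • β i + algebraMap ℝ (Ge V) (Ze * c0 i) =
      Ze • (β i + algebraMap ℝ (Ge V) (c0 i)) := fun i => by
    rw [smul_add, map_mul, ← Algebra.smul_def]
  simp only [e]
  rw [prod_smul, map_smul, prod_const, card_univ, Fintype.card_fin, smul_eq_mul]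

/-! ### from runs to energy ratios -/

/-- **output of the two runs** for one background at mesh `a`: amplitude `A`, accuracy `e` -/
def RunPack (m : ℕ) (q p a A e M κ : ℝ) : Prop :=
  ∃ (F : Type) (_ : DecidableEq F) (V : Type) (_ : AddCommGroup V) (_ : Module ℝ V)
    (near : F → F → Prop) (Λ : Finset F) (K K' : Finset F → Ge (VS V m)) (E E' : Ge (VS V m))
    (Sf : Cov V) (g : V → ℝ≥0∞) (v : Fin m → ℝ),
    FinE near Λ K K' E E' Sf g v e M ∧ (∀ i, κ ≤ a * (A ^ 2 * v i ^ 2)) ∧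
    q = ratio Sf E (ZZ near Λ K) ∧ p = ratio Sf E' (ZZ near Λ K')

theorem RunPack.nonneg {m : ℕ} {q p a A e M κ : ℝ} (h : RunPack m q p a A e M κ) : 0 ≤ e := by
  obtain ⟨_, _, _, _, _, _, _, _, _, _, _, _, _, _, hF, _⟩ := h
  exact hF.ε0

theorem RunPack.le {m : ℕ} {q p a A e M κ : ℝ} (h : RunPack m q p a A e M κ) (hκ : 0 < κ)
    (ha : 0 < a) (he : e ≤ 1) (hsm : 8 * Real.exp (2 * M) * e ≤ 1 / 2) :
    |q - p| ≤ 32 * Real.exp (4 * M) * (κ⁻¹) ^ m * (A ^ (2 * m) * e) * a ^ m := by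
  obtain ⟨F, _, V, _, _, near, Λ, K, K', E, E', Sf, g, v, hF, hv, rfl, rfl⟩ := h
  have he0 := hF.ε0
  refine (hF.cmp he hsm).trans ?_
  have hvp : ∀ i, 0 < v i ^ 2 := fun i => by have := hF.v0 i; positivity
  have e5 : (∏ i, v i ^ 2)⁻¹ ≤ (κ⁻¹) ^ m * A ^ (2 * m) * a ^ m := by
    rw [pow_mul, ← mul_pow, ← mul_pow, ← prod_inv_distrib]
    calc ∏ i, (v i ^ 2)⁻¹ ≤ ∏ _i : Fin m, (κ⁻¹ * A ^ 2 * a) := by
          refine prod_le_prod (fun i _ => (inv_pos.2 (hvp i)).le) fun i _ => ?_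
          rw [inv_le_iff_one_le_mul₀ (hvp i)]
          have h1 := hv i
          have e1 : κ⁻¹ * A ^ 2 * a * v i ^ 2 = κ⁻¹ * (a * (A ^ 2 * v i ^ 2)) := by ring
          rw [e1, ← div_eq_inv_mul, one_le_div hκ]
          exact h1
      _ = _ := by rw [prod_const, card_univ, Fintype.card_fin]
  refine (mul_le_mul_of_nonneg_left e5 (by positivity)).trans (le_of_eq ?_)
  ring

/-- smallness needed of `A ^ (2 m) e` -/
theorem RunPack.le' {m : ℕ} {q p a A e M κ ε : ℝ} (h : RunPack m q p a A e M κ) (hκ : 0 < κ)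
    (ha : 0 < a) (hA : 1 ≤ A) (h1 : A ^ (2 * m) * e ≤ 1)
    (h2 : 8 * Real.exp (2 * M) * (A ^ (2 * m) * e) ≤ 1 / 2)
    (h3 : 32 * Real.exp (4 * M) * (κ⁻¹) ^ m * (A ^ (2 * m) * e) ≤ ε) :
    |q - p| ≤ ε * a ^ m := by
  have he0 := h.nonneg
  have hA1 : 1 ≤ A ^ (2 * m) := one_le_pow₀ hA
  have he : e ≤ A ^ (2 * m) * e := by nlinarith
  refine (h.le hκ ha (he.trans h1) ?_).trans (mul_le_mul_of_nonneg_right h3 (by positivity))
  refine (mul_le_mul_of_nonneg_left he (by positivity)).trans h2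

theorem small_eventually {α : Type*} {l : Filter α} {x : α → ℝ} (h : Tendsto x l (𝓝 0))
    {c d : ℝ} (hd : 0 < d) : ∀ᶠ t in l, c * x t ≤ d := by
  have := h.const_mul c
  rw [mul_zero] at this
  exact (this.eventually_lt_const hd).mono fun _ h => h.le

/-- **energy ratios in domains from runs** -/
theorem ERD_of_run {J lam : ℝ} {R : ℕ} {Vp : Finset (ℤ × ℤ) → ℝ} {β Ze : ℝ} {eb : Fin 2 → ℝ}
    (h : ∀ D : Set ℂ, IsC2JordanDomain D → ∀ (b : BoundaryCondition) (n m : ℕ), 1 ≤ m → Rel b n →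
      ∀ (x : Fin n → ℂ) (y : Fin m → ℂ) (j : Fin m → Fin 2),
        (∀ i, x i ∈ D) → (∀ k, y k ∈ D) → Function.Injective (Fin.append x y) →
        ∃ (M κ : ℝ) (A e : ℝ → ℝ), 0 < κ ∧ (∀ᶠ a : ℝ in 𝓝[>] 0, 1 ≤ A a) ∧
          Tendsto (fun a => A a ^ (2 * m) * e a) (𝓝[>] 0) (𝓝 0) ∧
          ∀ᶠ a : ℝ in 𝓝[>] 0,
            RunPack m (domMom D a b J lam R Vp β x y j (fun k => eb (j k)) /
                spm D a b J lam R Vp β x)
              (Ze ^ m * (D0c D a b x y j / spm0 D a b x)) a (A a) (e a) M κ) :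
    ERD J lam R Vp β Ze eb := by
  intro D hD b n m hm hR x y j hx hy hinj ε hε
  obtain ⟨M, κ, A, e, hκ, hA, he, H⟩ := h D hD b n m hm hR x y j hx hy hinj
  filter_upwards [H, hA, self_mem_nhdsWithin, small_eventually he (c := 1) one_pos,
    small_eventually he (c := 8 * Real.exp (2 * M)) (d := 1 / 2) (by norm_num),
    small_eventually he (c := 32 * Real.exp (4 * M) * (κ⁻¹) ^ m) hε] with a h1 h2 h3 h4 h5 h6
  exact h1.le' hκ h3 h2 (by rwa [one_mul] at h4) h5 h6

/-- **energy ratios in large plus discs from runs** -/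
theorem ERP_of_run {J lam : ℝ} {R : ℕ} {Vp : Finset (ℤ × ℤ) → ℝ} {β Ze : ℝ} {eb : Fin 2 → ℝ}
    (h : ∀ (n m : ℕ), 1 ≤ m → Even n → ∀ (x : Fin n → ℂ) (y : Fin m → ℂ) (j : Fin m → Fin 2),
        Function.Injective (Fin.append x y) →
        ∃ (M κ : ℝ) (A e : ℝ → ℝ), 0 < κ ∧ (∀ᶠ a : ℝ in 𝓝[>] 0, 1 ≤ A a) ∧
          Tendsto (fun a => A a ^ (2 * m) * e a) (𝓝[>] 0) (𝓝 0) ∧
          ∀ᶠ a : ℝ in 𝓝[>] 0, ∀ᶠ B : ℝ in atTop,
            RunPack m (domMom (Metric.ball 0 B) a .plus J lam R Vp β x y j (fun k => eb (j k)) /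
                spm (Metric.ball 0 B) a .plus J lam R Vp β x)
              (Ze ^ m * (D0c (Metric.ball 0 B) a .plus x y j / spm0 (Metric.ball 0 B) a .plus x))
              a (A a) (e a) M κ) :
    ERP J lam R Vp β Ze eb := by
  intro n m hm hn x y j hinj ε hε
  obtain ⟨M, κ, A, e, hκ, hA, he, H⟩ := h n m hm hn x y j hinj
  filter_upwards [H, hA, self_mem_nhdsWithin, small_eventually he (c := 1) one_pos,
    small_eventually he (c := 8 * Real.exp (2 * M)) (d := 1 / 2) (by norm_num),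
    small_eventually he (c := 32 * Real.exp (4 * M) * (κ⁻¹) ^ m) hε] with a h1 h2 h3 h4 h5 h6
  filter_upwards [h1] with B hB
  exact hB.le' hκ h3 h2 (by rwa [one_mul] at h4) h5 h6

end Crest.Agent.R165.SrcCmpx441
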