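import Crest.Agent.R165.SrcCst_484

/-!
# Row 165 (S0250), leaf P11 item 4: one step, comparison of two systems (helper484)
-/

set_option autoImplicit false
set_option linter.unusedSectionVars false

noncomputable section

namespace Crest.Agent.R165.SrcCstx484

open Finset
open scoped ENNReal
open Crest.Agent.R165.FinBx900 Crest.Agent.R165.KStepx892
open Crest.Agent.R165.Gr0x606 Crest.Agent.R165.Gr1x606 Crest.Agent.R165.GeOpsx337
  Crest.Agent.R165.ExpGx337 Crest.Agent.R165.PNormx417 Crest.Agent.R165.KFlowx337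
  Crest.Agent.R165.SrcDefx991 Crest.Agent.R165.SrcFinx441 Crest.Agent.R165.GrLocx337
open Crest.Agent.R165.SrcFinBx441 (Nw)

/-! ### summation -/

/-- summability and bound from an extended bound -/
theorem abs_tsum_le {ι : Type*} {f : ι → ℝ} {x : ι → ℝ≥0∞} {c e : ℝ} (hc : 0 < c) (he : 0 ≤ e)
    (h : ∀ u, ENNReal.ofReal (c * |f u|) ≤ x u) (hx : ∑' u, x u ≤ ENNReal.ofReal e) :
    Summable (fun u => |f u|) ∧ c * ∑' u, |f u| ≤ e := by
  have h1 : ∑' u, ENNReal.ofReal (c * |f u|) ≤ ENNReal.ofReal e :=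
    (ENNReal.tsum_le_tsum h).trans hx
  have h2 : Summable fun u => c * |f u| := by
    have h3 := ENNReal.summable_toReal (ne_top_of_le_ne_top ENNReal.ofReal_ne_top h1)
    refine h3.congr fun u => ?_
    rw [ENNReal.toReal_ofReal (by positivity)]
  have h4 : Summable fun u => |f u| := (summable_mul_left_iff hc.ne').1 h2
  refine ⟨h4, ?_⟩
  rw [← tsum_mul_left]
  rw [← ENNReal.ofReal_tsum_of_nonneg (fun u => by positivity) h2] at h1
  exact (ENNReal.ofReal_le_ofReal_iff he).1 h1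

theorem abs_tsum_le' {ι : Type*} {f : ι → ℝ} {x : ι → ℝ≥0∞} {c e : ℝ} (hc : 0 < c) (he : 0 ≤ e)
    (h : ∀ u, ENNReal.ofReal (c * |f u|) ≤ x u) (hx : ∑' u, x u ≤ ENNReal.ofReal e) :
    Summable f ∧ c * |∑' u, f u| ≤ e := by
  obtain ⟨h1, h2⟩ := abs_tsum_le hc he h hx
  refine ⟨h1.of_abs, le_trans (mul_le_mul_of_nonneg_left ?_ hc.le) h2⟩
  have h3 := norm_tsum_le_tsum_norm (f := f) (by simpa [Real.norm_eq_abs] using h1)
  simpa [Real.norm_eq_abs] using h3

/-! ### one step -/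

section step

variable {V : Type*} [AddCommGroup V] [Module ℝ V] {m : ℕ} {F : Type*} [DecidableEq F]

/-- the leading family -/
def LD (sf : Fin m → Finset F) (ζ : Fin m → ℝ) (β : Fin m → Ge V) (U : Finset F) :
    Ge (VS V m) := lead sf (fun i => ζ i • (tau i * inG m (β i))) U

theorem co_LD (S : Cov V) (sf : Fin m → Finset F) (ζ : Fin m → ℝ) (β : Fin m → Ge V)
    (I : Finset (Fin m)) (U : Finset F) :
    co I (cvG (ext0 m S) (LD sf ζ β U)) =
      ∑ i, if U = sf i then (if I = {i} then ζ i * EEG S (β i) else 0) else 0 := by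
  unfold LD lead
  rw [map_sum, map_sum]
  refine sum_congr rfl fun i _ => ?_
  split_ifs with h1 h2
  · rw [map_smul, map_smul, co_cvG, coP_tau_inG, if_pos h2, smul_eq_mul]
  · rw [map_smul, map_smul, co_cvG, coP_tau_inG, if_neg h2, map_zero, smul_zero]
  · rw [map_zero, map_zero]

/-- **data of one step**: activities `K` at scale `k`, covariance `S`, Gram weight `g`, weights
`wt U`, source weight `v`, sizes `sz`, base `Γ`, rest `PP`, total norm `e` -/
structure StepD (S : Cov V) (g : V → ℝ≥0∞) (wt : Finset F → V → ℝ≥0∞) (v Γ e : ℝ)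
    (sz : Finset F → ℕ) (sf : Fin m → Finset F) (ζ : Fin m → ℝ) (β : Fin m → Ge V)
    (K PP : Finset F → Ge (VS V m)) : Prop where
  gram : Gram S g
  gwt : ∀ U x, g x ≤ wt U x
  v0 : 0 < v
  Γ1 : 1 ≤ Γ
  e0 : 0 ≤ e
  dec : ∀ U, K U = inG m (noS (K U)) + LD sf ζ β U + PP U
  tot : ∑' U, ENNReal.ofReal (Γ ^ sz U) * Nw (wt U) (fun _ => v) (PP U) ≤ ENNReal.ofReal e

variable {S : Cov V} {g : V → ℝ≥0∞} {wt : Finset F → V → ℝ≥0∞} {v Γ e : ℝ}
  {sz : Finset F → ℕ} {sf : Fin m → Finset F} {ζ : Fin m → ℝ} {β : Fin m → Ge V}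
  {K PP : Finset F → Ge (VS V m)}

/-- the contribution of the rest -/
theorem StepD.bd (h : StepD S g wt v Γ e sz sf ζ β K PP) (I : Finset (Fin m)) (U : Finset F) :
    ENNReal.ofReal ((v ^ 2) ^ I.card * |co I (cvG (ext0 m S) (PP U))|) ≤
      Nw (wt U) (fun _ => v) (PP U) := by
  have h1 := co_bd h.gram (v := fun _ : Fin m => v) (fun _ => h.v0) I (PP U)
  rw [prod_const] at h1
  exact h1.trans (Nw_mono (h.gwt U) _)

theorem one_le_pow_sz (h : StepD S g wt v Γ e sz sf ζ β K PP) (n : ℕ) :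
    1 ≤ ENNReal.ofReal (Γ ^ n) := by
  rw [ENNReal.one_le_ofReal]
  exact one_le_pow₀ h.Γ1

theorem StepD.coH (h : StepD S g wt v Γ e sz sf ζ β K PP) {I : Finset (Fin m)} (hI : I ≠ ∅)
    (U : Finset F) : co I (cvG (ext0 m S) (K U)) =
      (∑ i, if U = sf i then (if I = {i} then ζ i * EEG S (β i) else 0) else 0) +
        co I (cvG (ext0 m S) (PP U)) := by
  conv_lhs => rw [h.dec U]
  rw [map_add, map_add, map_add, map_add, cvG_inG, co_inG hI, zero_add, co_LD]

/-- the rest is summable, with total at most `e` -/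
theorem StepD.sum_PP (h : StepD S g wt v Γ e sz sf ζ β K PP) (I : Finset (Fin m)) :
    Summable (fun U => co I (cvG (ext0 m S) (PP U))) ∧
      (v ^ 2) ^ I.card * |∑' U, co I (cvG (ext0 m S) (PP U))| ≤ e := by
  refine abs_tsum_le' (by have := h.v0; positivity) h.e0 (fun U => h.bd I U)
    (le_trans (ENNReal.tsum_le_tsum fun U => ?_) h.tot)
  calc Nw (wt U) (fun _ => v) (PP U) = 1 * Nw (wt U) (fun _ => v) (PP U) := (one_mul _).symm
    _ ≤ _ := mul_le_mul' (one_le_pow_sz h _) le_rfl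

/-- the large part of the rest -/
theorem StepD.sum_large (h : StepD S g wt v Γ e sz sf ζ β K PP) (I : Finset (Fin m)) {n : ℕ}
    {s : Set (Finset F)}
    (hs : ∀ U ∈ s, co I (cvG (ext0 m S) (PP U)) ≠ 0 → n ≤ sz U) :
    Summable (fun U : s => |co I (cvG (ext0 m S) (PP U))|) ∧
      Γ ^ n * (v ^ 2) ^ I.card * ∑' U : s, |co I (cvG (ext0 m S) (PP U))| ≤ e := by
  have hΓ : (0 : ℝ) < Γ := lt_of_lt_of_le one_pos h.Γ1
  refine abs_tsum_le (f := fun U : s => co I (cvG (ext0 m S) (PP U)))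
    (x := fun U : s => ENNReal.ofReal (Γ ^ sz U) * Nw (wt U) (fun _ => v) (PP U))
    (by have := h.v0; positivity) h.e0 (fun U => ?_) ?_
  · by_cases h0 : co I (cvG (ext0 m S) (PP U)) = 0
    · rw [h0]; simp
    · rw [mul_assoc, ENNReal.ofReal_mul (by positivity)]
      refine mul_le_mul' (ENNReal.ofReal_le_ofReal ?_) (h.bd I U)
      exact pow_le_pow_right₀ h.Γ1 (hs U U.2 h0)
  · exact (ENNReal.tsum_comp_le_tsum_of_injective Subtype.val_injective _).trans h.tot

theorem StepD.sum_lead (i : Fin m) (x : Fin m → ℝ) :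
    HasSum (fun U : Finset F => ∑ j, if U = sf j then
      (if ({i} : Finset (Fin m)) = {j} then x j else 0) else 0) (x i) := by
  have h1 : (fun U : Finset F => ∑ j, if U = sf j then
      (if ({i} : Finset (Fin m)) = {j} then x j else 0) else 0) =
      fun U => if U = sf i then x i else 0 := by
    funext U
    rw [sum_eq_single i]
    · simp
    · intro j _ hj
      rw [if_neg (c := ({i} : Finset (Fin m)) = {j}) fun hh => hj (singleton_injective hh).symm,
        ite_self]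
    · simp
  rw [h1]
  exact hasSum_ite_eq (sf i) (x i)

/-- **one step, order one** -/
theorem StepD.inc (h : StepD S g wt v Γ e sz sf ζ β K PP) (hinj : Function.Injective sf)
    (i : Fin m) : Summable (fun U => co {i} (cvG (ext0 m S) (K U))) ∧
      v ^ 2 * |∑' U, co {i} (cvG (ext0 m S) (K U)) - ζ i * EEG S (β i)| ≤ e := by
  obtain ⟨h1, h2⟩ := h.sum_PP {i}
  have h3 := StepD.sum_lead (F := F) (sf := sf) i (fun j => ζ j * EEG S (β j))
  have h4 := h3.add h1.hasSum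
  have h5 : (fun U => co {i} (cvG (ext0 m S) (K U))) = fun U => (∑ j, if U = sf j then
      (if ({i} : Finset (Fin m)) = {j} then ζ j * EEG S (β j) else 0) else 0) +
      co {i} (cvG (ext0 m S) (PP U)) := funext fun U => h.coH (singleton_ne_empty i) U
  rw [← h5] at h4
  refine ⟨h4.summable, ?_⟩
  rw [h4.tsum_eq, add_sub_cancel_left]
  simpa using h2

/-- **one step, order at least two** -/
theorem StepD.inc2 (h : StepD S g wt v Γ e sz sf ζ β K PP) {I : Finset (Fin m)}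
    (hI : 2 ≤ I.card) {n : ℕ} (hs : ∀ U, co I (cvG (ext0 m S) (PP U)) ≠ 0 → n ≤ sz U) :
    Summable (fun U => co I (cvG (ext0 m S) (K U))) ∧
      Γ ^ n * (v ^ 2) ^ I.card * |∑' U, co I (cvG (ext0 m S) (K U))| ≤ e := by
  have h1 : (fun U => co I (cvG (ext0 m S) (K U))) = fun U => co I (cvG (ext0 m S) (PP U)) := by
    funext U
    rw [h.coH (by rintro rfl; simp at hI) U, add_eq_right]
    refine sum_eq_zero fun j _ => ?_
    rw [if_neg (c := I = {j}) (by rintro rfl; simp at hI), ite_self]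
  rw [h1]
  have hΓ : (0 : ℝ) < Γ := lt_of_lt_of_le one_pos h.Γ1
  refine abs_tsum_le' (x := fun U => ENNReal.ofReal (Γ ^ sz U) * Nw (wt U) (fun _ => v) (PP U))
    (by have := h.v0; positivity) h.e0 (fun U => ?_) h.tot
  by_cases h0 : co I (cvG (ext0 m S) (PP U)) = 0
  · rw [h0]; simp
  · rw [mul_assoc, ENNReal.ofReal_mul (by positivity)]
    refine mul_le_mul' (ENNReal.ofReal_le_ofReal ?_) (h.bd I U)
    exact pow_le_pow_right₀ h.Γ1 (hs U h0)

end step

/-! ### comparison of two systems -/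

theorem tsum_cmp {ι κ : Type*} {f : ι → ℝ} {f' : κ → ℝ} (hf : Summable f) (hf' : Summable f')
    {s : Set ι} {s' : Set κ} (ψ : s ≃ s') (h : ∀ u : s, f u = f' (ψ u)) :
    |∑' u, f u - ∑' u, f' u| ≤ |∑' u : (sᶜ : Set ι), f u| + |∑' u : (s'ᶜ : Set κ), f' u| := by
  rw [← hf.tsum_subtype_add_tsum_subtype_compl s, ← hf'.tsum_subtype_add_tsum_subtype_compl s']
  have h1 : ∑' u : s, f u = ∑' u : s', f' u := by
    rw [← ψ.tsum_eq (fun u : s' => f' u)]
    exact tsum_congr h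
  rw [h1, add_sub_add_left_eq_sub]
  exact abs_sub _ _

section cmp

variable {V V' : Type*} [AddCommGroup V] [Module ℝ V] [AddCommGroup V'] [Module ℝ V']
  {m m' : ℕ} {F F' : Type*} [DecidableEq F] [DecidableEq F']
variable {S : Cov V} {g : V → ℝ≥0∞} {wt : Finset F → V → ℝ≥0∞} {v Γ e : ℝ}
  {sz : Finset F → ℕ} {sf : Fin m → Finset F} {ζ : Fin m → ℝ} {β : Fin m → Ge V}
  {K PP : Finset F → Ge (VS V m)}
variable {S' : Cov V'} {g' : V' → ℝ≥0∞} {wt' : Finset F' → V' → ℝ≥0∞} {v' Γ' e' : ℝ}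
  {sz' : Finset F' → ℕ} {sf' : Fin m' → Finset F'} {ζ' : Fin m' → ℝ} {β' : Fin m' → Ge V'}
  {K' PP' : Finset F' → Ge (VS V' m')}

theorem StepD.outer (h : StepD S g wt v Γ e sz sf ζ β K PP) (i : Fin m) {n : ℕ}
    {s : Set (Finset F)} (hi : sf i ∈ s)
    (hs : ∀ U, U ∉ s → co {i} (cvG (ext0 m S) (K U)) ≠ 0 → n ≤ sz U) :
    Γ ^ n * v ^ 2 * |∑' U : (sᶜ : Set (Finset F)), co {i} (cvG (ext0 m S) (K U))| ≤ e := by
  have hΓ : (0 : ℝ) < Γ := lt_of_lt_of_le one_pos h.Γ1
  have h0 : ∀ U, U ∉ s → co {i} (cvG (ext0 m S) (K U)) = co {i} (cvG (ext0 m S) (PP U)) := by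
    intro U hU
    rw [h.coH (singleton_ne_empty i) U, add_eq_right]
    refine sum_eq_zero fun j _ => ?_
    split_ifs with h1 h2
    · exact absurd (by rw [h1, ← singleton_injective h2]; exact hi) hU
    · rfl
    · rfl
  have h1 := h.sum_large {i} (n := n) (s := sᶜ) (fun U hU hne => hs U hU (by rwa [h0 U hU]))
  have h2 : ∑' U : (sᶜ : Set (Finset F)), co {i} (cvG (ext0 m S) (K U)) =
      ∑' U : (sᶜ : Set (Finset F)), co {i} (cvG (ext0 m S) (PP U)) :=
    tsum_congr fun U => h0 U U.2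
  rw [h2]
  obtain ⟨h3, h4⟩ := h1
  rw [card_singleton, pow_one] at h4
  refine le_trans (mul_le_mul_of_nonneg_left ?_ (by have := h.v0; positivity)) h4
  have h5 := norm_tsum_le_tsum_norm
    (f := fun U : (sᶜ : Set (Finset F)) => co {i} (cvG (ext0 m S) (PP U)))
    (by simpa [Real.norm_eq_abs] using h3)
  simpa [Real.norm_eq_abs] using h5

/-- **comparison of the increments of two systems** -/
theorem StepD.cmp (h : StepD S g wt v Γ e sz sf ζ β K PP)
    (h' : StepD S' g' wt' v Γ e' sz' sf' ζ' β' K' PP')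
    (hinj : Function.Injective sf) (hinj' : Function.Injective sf') (i : Fin m) (i' : Fin m')
    {n : ℕ} {s : Set (Finset F)} {s' : Set (Finset F')} (ψ : s ≃ s')
    (hψ : ∀ U : s, co {i} (cvG (ext0 m S) (K U)) = co {i'} (cvG (ext0 m' S') (K' (ψ U))))
    (hi : sf i ∈ s) (hi' : sf' i' ∈ s')
    (hs : ∀ U, U ∉ s → co {i} (cvG (ext0 m S) (K U)) ≠ 0 → n ≤ sz U)
    (hs' : ∀ U, U ∉ s' → co {i'} (cvG (ext0 m' S') (K' U)) ≠ 0 → n ≤ sz' U) :
    Γ ^ n * v ^ 2 * |∑' U, co {i} (cvG (ext0 m S) (K U)) -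
      ∑' U, co {i'} (cvG (ext0 m' S') (K' U))| ≤ e + e' := by
  have hΓ : (0 : ℝ) < Γ := lt_of_lt_of_le one_pos h.Γ1
  have h1 := tsum_cmp (h.inc hinj i).1 (h'.inc hinj' i').1 ψ hψ
  have h2 := h.outer i hi hs
  have h3 := h'.outer i' hi' hs'
  have hp : 0 ≤ Γ ^ n * v ^ 2 := by have := h.v0; positivity
  calc _ ≤ Γ ^ n * v ^ 2 * (|∑' U : (sᶜ : Set (Finset F)), co {i} (cvG (ext0 m S) (K U))| +
        |∑' U : (s'ᶜ : Set (Finset F')), co {i'} (cvG (ext0 m' S') (K' U))|) :=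
        mul_le_mul_of_nonneg_left h1 hp
    _ ≤ _ := by rw [mul_add]; exact add_le_add h2 h3

end cmp

end Crest.Agent.R165.SrcCstx484
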