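import Mathlib

/-!
# Row 165 (S0250), leaf P11 item 4: the real sequences (helper484)

* `tail_le` : geometric tails
* `cst_main` : `|(1 - eb) + ∑_{k<K} d_k + Ze ∑_{k≥K} s_k| ≤ 3 E_K`
* `cst_final` : the same in the scales `v2 k = v_k²`
* `high_final` : the terms of order at least two
-/

set_option autoImplicit false

noncomputable section

namespace Crest.Agent.R165.SrcCstx484

open Finset

theorem half_pow_le {E : ℕ → ℝ} (hE : ∀ k, E (k + 1) ≤ E k / 2) (K j : ℕ) :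
    E (j + K) ≤ (1 / 2 : ℝ) ^ j * E K := by
  induction j with
  | zero => simp
  | succ j ih =>
    have h1 := hE (j + K)
    rw [show j + 1 + K = j + K + 1 by ring, pow_succ]
    linarith

theorem tail_le {E : ℕ → ℝ} (hE0 : ∀ k, 0 ≤ E k) (hE : ∀ k, E (k + 1) ≤ E k / 2) (K : ℕ) :
    Summable (fun j => E (j + K)) ∧ ∑' j, E (j + K) ≤ 2 * E K := by
  have h1 : Summable fun j : ℕ => (1 / 2 : ℝ) ^ j * E K :=
    (summable_geometric_of_lt_one (by norm_num) (by norm_num)).mul_right _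
  have h2 : Summable fun j => E (j + K) :=
    Summable.of_nonneg_of_le (fun j => hE0 _) (fun j => half_pow_le hE K j) h1
  refine ⟨h2, (h2.tsum_le_tsum (fun j => half_pow_le hE K j) h1).trans (le_of_eq ?_)⟩
  rw [tsum_mul_right, tsum_geometric_of_lt_one (by norm_num) (by norm_num)]
  norm_num

theorem sum_half_le (K : ℕ) : ∑ k ∈ range K, (1 / 2 : ℝ) ^ (K - k) ≤ 1 := by
  induction K with
  | zero => simp
  | succ K ih =>
    rw [sum_range_succ]
    have h1 : ∀ k ∈ range K, (1 / 2 : ℝ) ^ (K + 1 - k) = 1 / 2 * (1 / 2 : ℝ) ^ (K - k) := by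
      intro k hk
      rw [mem_range] at hk
      rw [show K + 1 - k = (K - k) + 1 by omega, pow_succ]
      ring
    rw [sum_congr rfl h1, ← mul_sum, show K + 1 - K = 1 by omega]
    linarith

/-- **the constants**: `d` increments of the system, `p` increments of the plane, `s` leading
increments of the plane -/
theorem cst_main {d p s E : ℕ → ℝ} {Ze C : ℝ} (hE0 : ∀ k, 0 ≤ E k)
    (hE : ∀ k, E (k + 1) ≤ E k / 2) (hs : Summable s) (hp : ∀ k, |p k - Ze * s k| ≤ E k)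
    (K : ℕ) (hd : ∀ k < K, |d k - p k| ≤ (1 / 2 : ℝ) ^ (K - k) * (C * E K)) (hC : 0 ≤ C) :
    Summable p ∧ |(1 - (1 + ∑' k, p k)) + ∑ k ∈ range K, d k + Ze * ∑' k, s (k + K)| ≤
      (C + 2) * E K := by
  have h0 := (tail_le hE0 hE 0).1
  simp only [Nat.add_zero] at h0
  have h1 : Summable fun k => p k - Ze * s k :=
    Summable.of_norm_bounded h0 fun k => by rw [Real.norm_eq_abs]; exact hp k
  have h2 : Summable p := by
    refine (h1.add (hs.mul_left Ze)).congr fun k => ?_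
    ring
  refine ⟨h2, ?_⟩
  obtain ⟨h3, h4⟩ := tail_le hE0 hE K
  have e1 : ∑' k, p k = ∑ k ∈ range K, p k + ∑' k, p (k + K) :=
    (h2.sum_add_tsum_nat_add K).symm
  have h5 : Summable fun k => p (k + K) := (summable_nat_add_iff K).2 h2
  have h6 : Summable fun k => s (k + K) := (summable_nat_add_iff K).2 hs
  have e2 : ∑' k, p (k + K) - Ze * ∑' k, s (k + K) = ∑' k, (p (k + K) - Ze * s (k + K)) := by
    rw [← tsum_mul_left, h5.tsum_sub (h6.mul_left Ze)]
  have e3 : |∑' k, (p (k + K) - Ze * s (k + K))| ≤ 2 * E K := by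
    refine le_trans ?_ h4
    have h7 := norm_tsum_le_tsum_norm (f := fun k => p (k + K) - Ze * s (k + K))
      (Summable.of_nonneg_of_le (fun _ => norm_nonneg _)
        (fun k => by rw [Real.norm_eq_abs]; exact hp (k + K)) h3)
    rw [Real.norm_eq_abs] at h7
    refine h7.trans (Summable.tsum_le_tsum (fun k => by rw [Real.norm_eq_abs]; exact hp (k + K))
      (Summable.of_nonneg_of_le (fun _ => norm_nonneg _)
        (fun k => by rw [Real.norm_eq_abs]; exact hp (k + K)) h3) h3)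
  have e4 : |∑ k ∈ range K, (d k - p k)| ≤ C * E K := by
    refine (abs_sum_le_sum_abs _ _).trans ?_
    calc ∑ k ∈ range K, |d k - p k| ≤ ∑ k ∈ range K, (1 / 2 : ℝ) ^ (K - k) * (C * E K) :=
          sum_le_sum fun k hk => hd k (mem_range.1 hk)
      _ ≤ 1 * (C * E K) := by
          rw [← sum_mul]
          exact mul_le_mul_of_nonneg_right (sum_half_le K) (mul_nonneg hC (hE0 K))
      _ = _ := one_mul _
  have e5 : (1 - (1 + ∑' k, p k)) + ∑ k ∈ range K, d k + Ze * ∑' k, s (k + K) =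
      ∑ k ∈ range K, (d k - p k) - (∑' k, p (k + K) - Ze * ∑' k, s (k + K)) := by
    rw [e1, sum_sub_distrib]
    ring
  rw [e5, e2]
  calc _ ≤ |∑ k ∈ range K, (d k - p k)| + |∑' k, (p (k + K) - Ze * s (k + K))| := abs_sub _ _
    _ ≤ C * E K + 2 * E K := add_le_add e4 e3
    _ = _ := by ring

/-- growth of the scales over several steps -/
theorem scale_le {v2 : ℕ → ℝ} {L : ℝ} (hL : 0 ≤ L) (h : ∀ k, v2 (k + 1) ≤ L * v2 k) (k j : ℕ) :
    v2 (j + k) ≤ L ^ j * v2 k := by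
  induction j with
  | zero => simp
  | succ j ih =>
    have h1 := h (j + k)
    have h2 := mul_le_mul_of_nonneg_left ih hL
    rw [show j + 1 + k = j + k + 1 by ring, pow_succ]
    linarith

/-- **item 4, order one**: `v2 k = v_k²`, `e k`, `e' k` total norms of the rest in the system and in
the plane, `z k` running factor of the plane, `n k` = size of the sets on which the two systems
differ -/
theorem cst_final {v2 d p s z e e' : ℕ → ℝ} {n : ℕ → ℕ} {L Γ σ Ze Ce Cz Cs : ℝ}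
    (hv : ∀ k, 0 < v2 k) (hL : 1 ≤ L) (hv1 : ∀ k, 2 * v2 k ≤ v2 (k + 1))
    (hv2 : ∀ k, v2 (k + 1) ≤ L * v2 k)
    (hσ : 0 < σ) (hσ1 : σ ≤ 1) (hΓ : 2 * L ≤ Γ * σ) (hCe : 0 ≤ Ce) (hCz : 0 ≤ Cz) (hCs : 0 ≤ Cs)
    (hz : ∀ k, |z k - Ze| ≤ Cz * σ ^ k) (hs : ∀ k, v2 k * |s k| ≤ Cs)
    (hp : ∀ k, v2 k * |p k - z k * s k| ≤ e' k) (he' : ∀ k, e' k ≤ Ce * σ ^ k)
    (K : ℕ) (he : ∀ k < K, e k ≤ Ce * σ ^ k)
    (hd : ∀ k < K, Γ ^ n k * v2 k * |d k - p k| ≤ e k + e' k)
    (hn : ∀ k < K, K - k ≤ n k) :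
    Summable p ∧ v2 K * |(1 - (1 + ∑' k, p k)) + ∑ k ∈ range K, d k -
      Ze * (-∑' k, s (k + K))| ≤ 4 * (Ce + Cz * Cs) * σ ^ K := by
  set B := Ce + Cz * Cs with hB
  have hB0 : 0 ≤ B := by positivity
  let E : ℕ → ℝ := fun k => B * σ ^ k / v2 k
  have hE0 : ∀ k, 0 ≤ E k := fun k => by have := hv k; positivity
  have hE : ∀ k, E (k + 1) ≤ E k / 2 := by
    intro k
    show B * σ ^ (k + 1) / v2 (k + 1) ≤ B * σ ^ k / v2 k / 2
    rw [div_div, mul_comm (v2 k) 2]
    have h1 : B * σ ^ (k + 1) ≤ B * σ ^ k := by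
      rw [pow_succ, ← mul_assoc]
      exact mul_le_of_le_one_right (by positivity) hσ1
    exact div_le_div₀ (by positivity) h1 (by have := hv k; positivity) (hv1 k)
  have hs' : ∀ k, |s k| ≤ Cs / v2 k := fun k => by
    rw [le_div_iff₀ (hv k), mul_comm]; exact hs k
  have hpE : ∀ k, |p k - Ze * s k| ≤ E k := by
    intro k
    have h1 : |p k - z k * s k| ≤ Ce * σ ^ k / v2 k := by
      rw [le_div_iff₀ (hv k), mul_comm]
      exact (hp k).trans (he' k)
    have h2 : |(z k - Ze) * s k| ≤ Cz * σ ^ k * (Cs / v2 k) := by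
      rw [abs_mul]
      exact mul_le_mul (hz k) (hs' k) (abs_nonneg _) (by positivity)
    have h3 : p k - Ze * s k = (p k - z k * s k) + (z k - Ze) * s k := by ring
    rw [h3]
    refine (abs_add_le _ _).trans ((add_le_add h1 h2).trans (le_of_eq ?_))
    show _ = B * σ ^ k / v2 k
    rw [hB]
    ring
  have hss : Summable s := by
    have h1 := (tail_le (E := fun k => 1 / v2 k) (fun k => by have := hv k; positivity)
      (fun k => by
        rw [div_div, mul_comm (v2 k) 2]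
        exact div_le_div₀ (by norm_num) le_rfl (by have := hv k; positivity) (hv1 k)) 0).1
    simp only [Nat.add_zero] at h1
    refine Summable.of_norm_bounded (h1.mul_left Cs) fun k => ?_
    rw [Real.norm_eq_abs, mul_one_div]
    exact hs' k
  have hdE : ∀ k < K, |d k - p k| ≤ (1 / 2 : ℝ) ^ (K - k) * (2 * E K) := by
    intro k hk
    have hΓ0 : 0 < Γ := by
      by_contra hc
      have : Γ * σ ≤ 0 := mul_nonpos_of_nonpos_of_nonneg (not_lt.1 hc) hσ.le
      linarith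
    have hΓ1 : 1 ≤ Γ := by
      have h1 : Γ * σ ≤ Γ * 1 := mul_le_mul_of_nonneg_left hσ1 hΓ0.le
      linarith
    have h1 : e k + e' k ≤ 2 * (B * σ ^ k) := by
      have h2 := he k hk
      have h3 := he' k
      have h4 : Ce * σ ^ k ≤ B * σ ^ k :=
        mul_le_mul_of_nonneg_right (by rw [hB]; nlinarith [mul_nonneg hCz hCs]) (by positivity)
      linarith
    have h2 : Γ ^ (K - k) * v2 k * |d k - p k| ≤ 2 * (B * σ ^ k) := by
      refine le_trans ?_ ((hd k hk).trans h1)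
      have := hv k
      refine mul_le_mul_of_nonneg_right (mul_le_mul_of_nonneg_right ?_ this.le) (abs_nonneg _)
      exact pow_le_pow_right₀ hΓ1 (hn k hk)
    have h3 : v2 K ≤ L ^ (K - k) * v2 k := by
      have := scale_le (by linarith) hv2 k (K - k)
      rwa [Nat.sub_add_cancel hk.le] at this
    have h4 : (2 * L) ^ (K - k) ≤ Γ ^ (K - k) * σ ^ (K - k) := by
      rw [← mul_pow]
      exact pow_le_pow_left₀ (by linarith) hΓ _
    have h5 : σ ^ K = σ ^ (K - k) * σ ^ k := by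
      rw [← pow_add, Nat.sub_add_cancel hk.le]
    -- the claim `|d - p| ≤ 2^{-j} 2 B σ^K / v2 K`
    show |d k - p k| ≤ (1 / 2 : ℝ) ^ (K - k) * (2 * (B * σ ^ K / v2 K))
    have h6 : (1 / 2 : ℝ) ^ (K - k) * (2 * (B * σ ^ K / v2 K)) =
        2 * (B * σ ^ K) / (2 ^ (K - k) * v2 K) := by
      rw [one_div, inv_pow]
      field_simp
    rw [h6, le_div_iff₀ (by have := hv K; positivity)]
    have h7 : 2 ^ (K - k) * v2 K ≤ Γ ^ (K - k) * σ ^ (K - k) * v2 k := by
      calc 2 ^ (K - k) * v2 K ≤ 2 ^ (K - k) * (L ^ (K - k) * v2 k) :=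
            mul_le_mul_of_nonneg_left h3 (by positivity)
        _ = (2 * L) ^ (K - k) * v2 k := by rw [mul_pow]; ring
        _ ≤ _ := mul_le_mul_of_nonneg_right h4 (hv k).le
    calc |d k - p k| * (2 ^ (K - k) * v2 K)
        ≤ |d k - p k| * (Γ ^ (K - k) * σ ^ (K - k) * v2 k) :=
          mul_le_mul_of_nonneg_left h7 (abs_nonneg _)
      _ = σ ^ (K - k) * (Γ ^ (K - k) * v2 k * |d k - p k|) := by ring
      _ ≤ σ ^ (K - k) * (2 * (B * σ ^ k)) := mul_le_mul_of_nonneg_left h2 (by positivity)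
      _ = 2 * (B * σ ^ K) := by rw [h5]; ring
  obtain ⟨r1, r2⟩ := cst_main hE0 hE hss hpE K hdE (by norm_num)
  refine ⟨r1, ?_⟩
  have r3 : (1 - (1 + ∑' k, p k)) + ∑ k ∈ range K, d k - Ze * (-∑' k, s (k + K)) =
      (1 - (1 + ∑' k, p k)) + ∑ k ∈ range K, d k + Ze * ∑' k, s (k + K) := by ring
  rw [r3]
  have r4 : v2 K * E K = B * σ ^ K := by
    show v2 K * (B * σ ^ K / v2 K) = _
    have := (hv K).ne'
    field_simp
  calc _ ≤ v2 K * ((2 + 2) * E K) := mul_le_mul_of_nonneg_left r2 (hv K).le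
    _ = 4 * (v2 K * E K) := by ring
    _ = _ := by rw [r4]; ring

/-- **item 4, order `j = |I| ≥ 2`** -/
theorem high_final {v2 d e : ℕ → ℝ} {n : ℕ → ℕ} {L Γ σ Ce : ℝ} {j m : ℕ} (hj : j ≤ m)
    (hv : ∀ k, 0 < v2 k) (hL : 1 ≤ L) (hv2 : ∀ k, v2 (k + 1) ≤ L * v2 k)
    (hσ : 0 < σ) (hΓ1 : 1 ≤ Γ) (hΓ : 2 * L ^ m ≤ Γ ^ (m + 1) * σ) (hCe : 0 ≤ Ce)
    (K : ℕ) (he : ∀ k < K, e k ≤ Ce * σ ^ k)
    (hd : ∀ k < K, Γ ^ n k * v2 k ^ j * |d k| ≤ e k)
    (hn : ∀ k < K, (m + 1) * (K - k) ≤ n k) :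
    v2 K ^ j * |∑ k ∈ range K, d k| ≤ Ce * σ ^ K := by
  have key : ∀ k < K, v2 K ^ j * |d k| ≤ (1 / 2 : ℝ) ^ (K - k) * (Ce * σ ^ K) := by
    intro k hk
    have h3 : v2 K ≤ L ^ (K - k) * v2 k := by
      have := scale_le (by linarith) hv2 k (K - k)
      rwa [Nat.sub_add_cancel hk.le] at this
    have h3' : v2 K ^ j ≤ (L ^ m) ^ (K - k) * v2 k ^ j := by
      calc v2 K ^ j ≤ (L ^ (K - k) * v2 k) ^ j := pow_le_pow_left₀ (hv K).le h3 j
        _ = (L ^ j) ^ (K - k) * v2 k ^ j := by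
            rw [mul_pow, ← pow_mul, ← pow_mul, mul_comm (K - k) j]
        _ ≤ _ := by
            refine mul_le_mul_of_nonneg_right ?_ (by have := hv k; positivity)
            exact pow_le_pow_left₀ (by positivity) (pow_le_pow_right₀ hL hj) _
    have h2 : (Γ ^ (m + 1)) ^ (K - k) * v2 k ^ j * |d k| ≤ Ce * σ ^ k := by
      refine le_trans ?_ ((hd k hk).trans (he k hk))
      refine mul_le_mul_of_nonneg_right (mul_le_mul_of_nonneg_right ?_
        (by have := hv k; positivity)) (abs_nonneg _)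
      rw [← pow_mul]
      exact pow_le_pow_right₀ hΓ1 (hn k hk)
    have h4 : (2 * L ^ m) ^ (K - k) ≤ (Γ ^ (m + 1)) ^ (K - k) * σ ^ (K - k) := by
      rw [← mul_pow]
      exact pow_le_pow_left₀ (by positivity) hΓ _
    have h5 : σ ^ K = σ ^ (K - k) * σ ^ k := by
      rw [← pow_add, Nat.sub_add_cancel hk.le]
    have h6 : (1 / 2 : ℝ) ^ (K - k) * (Ce * σ ^ K) = Ce * σ ^ K / 2 ^ (K - k) := by
      rw [one_div, inv_pow]
      field_simp
    rw [h6, le_div_iff₀ (by positivity)]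
    calc v2 K ^ j * |d k| * 2 ^ (K - k)
        ≤ (L ^ m) ^ (K - k) * v2 k ^ j * |d k| * 2 ^ (K - k) := by
          refine mul_le_mul_of_nonneg_right (mul_le_mul_of_nonneg_right h3' (abs_nonneg _))
            (by positivity)
      _ = (2 * L ^ m) ^ (K - k) * (v2 k ^ j * |d k|) := by rw [mul_pow]; ring
      _ ≤ (Γ ^ (m + 1)) ^ (K - k) * σ ^ (K - k) * (v2 k ^ j * |d k|) :=
          mul_le_mul_of_nonneg_right h4 (by have := hv k; positivity)
      _ = σ ^ (K - k) * ((Γ ^ (m + 1)) ^ (K - k) * v2 k ^ j * |d k|) := by ring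
      _ ≤ σ ^ (K - k) * (Ce * σ ^ k) := mul_le_mul_of_nonneg_left h2 (by positivity)
      _ = Ce * σ ^ K := by rw [h5]; ring
  calc v2 K ^ j * |∑ k ∈ range K, d k| ≤ v2 K ^ j * ∑ k ∈ range K, |d k| :=
        mul_le_mul_of_nonneg_left (abs_sum_le_sum_abs _ _) (by have := hv K; positivity)
    _ = ∑ k ∈ range K, v2 K ^ j * |d k| := mul_sum _ _ _
    _ ≤ ∑ k ∈ range K, (1 / 2 : ℝ) ^ (K - k) * (Ce * σ ^ K) :=
        sum_le_sum fun k hk => key k (mem_range.1 hk)
    _ ≤ 1 * (Ce * σ ^ K) := by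
        rw [← sum_mul]
        exact mul_le_mul_of_nonneg_right (sum_half_le K) (by positivity)
    _ = _ := one_mul _

end Crest.Agent.R165.SrcCstx484
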