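import Crest.Agent.R165.SrcCstB_484
import Crest.Agent.R165.SrcCstC_484

/-!
# Row 165 (S0250), leaf P11 item 4: the constants of a run with sources (helper484)

* `Run` : a run of a system with sources up to the scale `N` (data of all steps)
* `CmpH` : comparison of two activities at one source, up to sets of size at least `n`
* `constants` : (d) `|(1 - eb) + co {i} E_N - Ze c0| v_N² ≤ C σ^N`
* `high` : (e) `∏_{i ∈ I} v_N² |co I E_N| ≤ C σ^N` for `|I| ≥ 2`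
* `vrest` : the field `vrest` of `FinD`
-/

set_option autoImplicit false
set_option linter.unusedSectionVars false

noncomputable section

namespace Crest.Agent.R165.SrcCstx484

open Finset
open scoped ENNReal
open Crest.Agent.R165.FinBx900 Crest.Agent.R165.KStepx892
open Crest.Agent.R165.Gr0x606 Crest.Agent.R165.Gr1x606 Crest.Agent.R165.GeOpsx337
  Crest.Agent.R165.ExpGx337 Crest.Agent.R165.PNormx417 Crest.Agent.R165.KFlowx337
  Crest.Agent.R165.SrcDefx991 Crest.Agent.R165.SrcFinx441 Crest.Agent.R165.GrLocx337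
open Crest.Agent.R165.SrcFinBx441 (Nw)

variable {V V' : Type*} [AddCommGroup V] [Module ℝ V] [AddCommGroup V'] [Module ℝ V']
  {m m' : ℕ} {F F' : Type*} [DecidableEq F] [DecidableEq F']

/-- **a run of a system with sources**, the steps `k` with `P k` (e.g. `k < N`, or all `k`) -/
structure Run (D : Sys F (VS V m)) (P : ℕ → Prop) (S : ℕ → Cov V) (g : ℕ → V → ℝ≥0∞)
    (wt : ℕ → Finset F → V → ℝ≥0∞) (v : ℕ → ℝ) (Γ : ℝ) (e : ℕ → ℝ) (sz : ℕ → Finset F → ℕ)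
    (sf : Fin m → Finset F) (ζ : ℕ → Fin m → ℝ) (β : Fin m → Ge V)
    (PP : ℕ → Finset F → Ge (VS V m)) : Prop where
  vac : D.vac = vacS
  S_eq : ∀ k, D.S k = ext0 m (S k)
  inj : Function.Injective sf
  step : ∀ k, P k → StepD (S k) (g k) (wt k) (v k) Γ (e k) (sz k) sf (ζ k) β (D.K k) (PP k)

/-- comparison of two activities at the sources `i`, `i'`, up to sets of size at least `n` -/
def CmpH (H : Finset F → Ge (VS V m)) (H' : Finset F' → Ge (VS V' m')) (i : Fin m) (i' : Fin m')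
    (sf : Fin m → Finset F) (sf' : Fin m' → Finset F') (sz : Finset F → ℕ)
    (sz' : Finset F' → ℕ) (n : ℕ) : Prop :=
  ∃ (s : Set (Finset F)) (s' : Set (Finset F')) (ψ : s ≃ s'),
    (∀ U : s, co {i} (H U) = co {i'} (H' (ψ U))) ∧ sf i ∈ s ∧ sf' i' ∈ s' ∧
    (∀ U, U ∉ s → co {i} (H U) ≠ 0 → n ≤ sz U) ∧
    (∀ U, U ∉ s' → co {i'} (H' U) ≠ 0 → n ≤ sz' U)

section run

variable {D : Sys F (VS V m)} {P : ℕ → Prop} {S : ℕ → Cov V} {g : ℕ → V → ℝ≥0∞}
  {wt : ℕ → Finset F → V → ℝ≥0∞} {v : ℕ → ℝ} {Γ : ℝ} {e : ℕ → ℝ} {sz : ℕ → Finset F → ℕ}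
  {sf : Fin m → Finset F} {ζ : ℕ → Fin m → ℝ} {β : Fin m → Ge V}
  {PP : ℕ → Finset F → Ge (VS V m)}
variable {D' : Sys F' (VS V' m')} {P' : ℕ → Prop} {S' : ℕ → Cov V'} {g' : ℕ → V' → ℝ≥0∞}
  {wt' : ℕ → Finset F' → V' → ℝ≥0∞} {e' : ℕ → ℝ} {sz' : ℕ → Finset F' → ℕ}
  {sf' : Fin m' → Finset F'} {ζ' : ℕ → Fin m' → ℝ} {β' : Fin m' → Ge V'}
  {PP' : ℕ → Finset F' → Ge (VS V' m')}

theorem Run.H_eq (h : Run D P S g wt v Γ e sz sf ζ β PP) (k : ℕ) :
    D.H k = fun U => cvG (ext0 m (S k)) (D.K k U) := by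
  funext U
  rw [Sys.H, h.S_eq]

/-- finite volume: the sum over the non-empty subsets of `Λ` is the total sum -/
theorem sum_nes {H : Finset F → Ge (VS V m)} {Λ : Finset F} (hs : ∀ U, U ∉ nes Λ → H U = 0)
    (I : Finset (Fin m)) : ∑ U ∈ nes Λ, co I (H U) = ∑' U, co I (H U) := by
  rw [tsum_eq_sum (s := nes Λ)]
  intro U hU
  rw [hs U hU, map_zero]

/-- increment of the plane constant: `eb = 1 + ∑_k incP k` -/
def incS (D : Sys F (VS V m)) (i : Fin m) (k : ℕ) : ℝ := ∑' U, co {i} (D.H k U)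

/-- **(d): the constants of order one** -/
theorem Run.constants (h : Run D P S g wt v Γ e sz sf ζ β PP)
    (h' : Run D' P' S' g' wt' v Γ e' sz' sf' ζ' β' PP') (hP' : ∀ k, P' k)
    (hGS : ∀ k U, D.H k U ∈ GS V m) {Λ : Finset F} (hs : ∀ k U, U ∉ nes Λ → D.H k U = 0)
    (i : Fin m) (i' : Fin m') {N : ℕ} (hP : ∀ k < N, P k)
    (hcmp : ∀ k < N, CmpH (D.H k) (D'.H k) i i' sf sf' (sz k) (sz' k) (N - k))
    {L σ Ze Ce Cz Cs : ℝ} (hv : ∀ k, 0 < v k) (hL : 1 ≤ L)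
    (hv1 : ∀ k, 2 * v k ^ 2 ≤ v (k + 1) ^ 2) (hv2 : ∀ k, v (k + 1) ^ 2 ≤ L * v k ^ 2)
    (hσ : 0 < σ) (hσ1 : σ ≤ 1) (hΓ : 2 * L ≤ Γ * σ) (hCe : 0 ≤ Ce) (hCz : 0 ≤ Cz) (hCs : 0 ≤ Cs)
    (hz : ∀ k, |ζ' k i' - Ze| ≤ Cz * σ ^ k)
    (hsl : ∀ k, v k ^ 2 * |EEG (S' k) (β' i')| ≤ Cs)
    (he' : ∀ k, e' k ≤ Ce * σ ^ k) (he : ∀ k < N, e k ≤ Ce * σ ^ k) :
    Summable (incS D' i') ∧ v N ^ 2 * |(1 - (1 + ∑' k, incS D' i' k)) + co {i} (D.E Λ N) -
      Ze * (-∑' k, EEG (S' (k + N)) (β' i'))| ≤ 4 * (Ce + Cz * Cs) * σ ^ N := by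
  have e1 : co {i} (D.E Λ N) = ∑ k ∈ range N, ∑' U, co {i} (D.H k U) := by
    rw [co_E h.vac hGS]
    exact sum_congr rfl fun k _ => sum_nes (hs k) {i}
  rw [e1]
  refine cst_final (v2 := fun k => v k ^ 2) (d := fun k => ∑' U, co {i} (D.H k U))
    (p := incS D' i') (s := fun k => EEG (S' k) (β' i')) (z := fun k => ζ' k i') (e := e)
    (e' := e') (n := fun k => N - k) (L := L) (Γ := Γ) (σ := σ)
    (fun k => by have := hv k; positivity) hL hv1 hv2 hσ hσ1 hΓ hCe hCz hCs hz hsl ?_ he' N he ?_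
    (fun k _ => le_rfl)
  · intro k
    have h1 := ((h'.step k (hP' k)).inc h'.inj i').2
    simp only [incS, h'.H_eq k]
    exact h1
  · intro k hk
    obtain ⟨s, s', ψ, hψ, hi, hi', ho, ho'⟩ := hcmp k hk
    simp only [h.H_eq k, h'.H_eq k] at hψ ho ho'
    have h1 := (h.step k (hP k hk)).cmp (h'.step k (hP' k)) h.inj h'.inj i i' ψ hψ hi hi' ho ho'
    simp only [incS, h.H_eq k, h'.H_eq k]
    exact h1

/-- **(e): the constants of order at least two** -/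
theorem Run.high (h : Run D P S g wt v Γ e sz sf ζ β PP)
    (hGS : ∀ k U, D.H k U ∈ GS V m) {Λ : Finset F} (hs : ∀ k U, U ∉ nes Λ → D.H k U = 0)
    {I : Finset (Fin m)} (hI : 2 ≤ I.card) {N : ℕ} (hP : ∀ k < N, P k)
    (hbig : ∀ k < N, ∀ U, coP I (D.K k U) ≠ 0 → (m + 1) * (N - k) ≤ sz k U)
    {L σ Ce : ℝ} (hv : ∀ k, 0 < v k) (hL : 1 ≤ L)
    (hv2 : ∀ k, v (k + 1) ^ 2 ≤ L * v k ^ 2) (hσ : 0 < σ) (hΓ1 : 1 ≤ Γ)
    (hΓ : 2 * L ^ m ≤ Γ ^ (m + 1) * σ) (hCe : 0 ≤ Ce) (he : ∀ k < N, e k ≤ Ce * σ ^ k) :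
    (v N ^ 2) ^ I.card * |co I (D.E Λ N)| ≤ Ce * σ ^ N := by
  have e1 : co I (D.E Λ N) = ∑ k ∈ range N, ∑' U, co I (D.H k U) := by
    rw [co_E h.vac hGS]
    exact sum_congr rfl fun k _ => sum_nes (hs k) I
  rw [e1]
  have hIne : I ≠ ∅ := by rintro rfl; simp at hI
  refine high_final (v2 := fun k => v k ^ 2) (d := fun k => ∑' U, co I (D.H k U)) (e := e)
    (n := fun k => (m + 1) * (N - k)) (L := L) (Γ := Γ) (σ := σ) (m := m)
    (by simpa using card_le_univ I) (fun k => by have := hv k; positivity) hL hv2 hσ hΓ1 hΓ hCe N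
    he ?_ (fun k _ => le_rfl)
  intro k hk
  simp only [h.H_eq k]
  refine ((h.step k (hP k hk)).inc2 hI fun U hU => hbig k hk U fun h0 => hU ?_).2
  have h1 := (h.step k (hP k hk)).coH hIne U
  have h2 : co I (cvG (ext0 m (S k)) (D.K k U)) = 0 := by rw [co_cvG, h0, map_zero]
  rw [h2] at h1
  have h3 : (∑ j, if U = sf j then (if I = {j} then ζ k j * EEG (S k) (β j) else 0) else 0) = 0 :=
    sum_eq_zero fun j _ => by
      rw [if_neg (c := I = {j}) (by rintro rfl; simp at hI), ite_self]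
  rw [h3, zero_add] at h1
  exact h1.symm

end run

/-! ### the fields of `FinD` -/

/-- the exponent with the centring prefactor -/
def Etot (c : Fin m → ℝ) (E : Ge (VS V m)) : Ge (VS V m) := ∑ i, c i • tau i + E

theorem Etot_mem {c : Fin m → ℝ} {E : Ge (VS V m)} (hE : E ∈ GS V m) : Etot c E ∈ GS V m :=
  Subalgebra.add_mem _ (Subalgebra.sum_mem _ fun i _ => Subalgebra.smul_mem _ (tau_mem i) _) hE

theorem vacH_Etot {c : Fin m → ℝ} {E : Ge (VS V m)} (hE : vacH E = E) :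
    vacH (Etot c E) = Etot c E := by
  unfold Etot
  rw [map_add, hE, map_sum]
  congr 1
  exact sum_congr rfl fun i _ => by rw [map_smul, vacH_tau]

theorem co_Etot (c : Fin m → ℝ) (E : Ge (VS V m)) (I : Finset (Fin m)) :
    co I (Etot c E) = (∑ i, if I = {i} then c i else 0) + co I E := by
  unfold Etot
  rw [map_add, map_sum]
  congr 1
  refine sum_congr rfl fun i _ => ?_
  rw [map_smul, co_tau, smul_eq_mul]
  split_ifs <;> simp

theorem co_Etot_singleton (c : Fin m → ℝ) (E : Ge (VS V m)) (i : Fin m) :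
    co {i} (Etot c E) = c i + co {i} E := by
  rw [co_Etot, sum_eq_single i]
  · simp
  · intro j _ hj
    rw [if_neg fun hh => hj (singleton_injective hh).symm]
  · simp

theorem co_Etot_high (c : Fin m → ℝ) (E : Ge (VS V m)) {I : Finset (Fin m)} (hI : 2 ≤ I.card) :
    co I (Etot c E) = co I E := by
  rw [co_Etot, sum_eq_zero, zero_add]
  intro j _
  rw [if_neg (by rintro rfl; simp at hI)]

/-- **the field `vrest` of `FinD`** -/
theorem vrest_of {E : Ge (VS V m)} (hE : E ∈ GS V m) (hv : vacH E = E) {g : V → ℝ≥0∞}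
    (hg : g 0 = 0) {v ε : ℝ}
    (h : ∀ I : Finset (Fin m), 2 ≤ I.card → (v ^ 2) ^ I.card * |co I E| ≤ ε) (c : Fin m → ℝ) :
    Bd (Nw g fun _ => v) (Etot c E - algebraMap ℝ _ (ctG (Etot c E)) -
      ∑ i, (c i + co {i} E) • tau i) (2 ^ m * ε) := by
  have h1 := vrest_le (Etot_mem (c := c) hE) (vacH_Etot hv) hg (fun _ => v)
  simp only [co_Etot_singleton] at h1
  refine h1.trans ?_
  calc ∑ I with 2 ≤ I.card, ENNReal.ofReal ((∏ _i ∈ I, v ^ 2) * |co I (Etot c E)|)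
      ≤ ∑ I : Finset (Fin m) with 2 ≤ I.card, ENNReal.ofReal ε := by
        refine sum_le_sum fun I hI => ENNReal.ofReal_le_ofReal ?_
        rw [mem_filter] at hI
        rw [co_Etot_high c E hI.2, prod_const]
        exact h I hI.2
    _ ≤ ∑ _I : Finset (Fin m), ENNReal.ofReal ε :=
        sum_le_sum_of_subset (filter_subset _ _)
    _ = ENNReal.ofReal (2 ^ m * ε) := by
        rw [sum_const, card_univ, Fintype.card_finset, Fintype.card_fin, nsmul_eq_mul,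
          ENNReal.ofReal_mul (by positivity)]
        congr 1
        rw [ENNReal.ofReal_pow (by norm_num)]
        norm_num

end Crest.Agent.R165.SrcCstx484
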