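import Crest.Agent.R165.SrcAlg_991
import Crest.Agent.R165.GSys_387

/-!
# Row 165 (S0250), P11: the system with sources (helper991)

* `sysX D m fl e2 K0` : the system with `m` sources over a base system `D`
  (`GSysx387.sysS` is `sysX (sys ..)`)
* `noS_K, noS_H, noS_A, noS_B` : the source-free part is the flow of the base system (S-0)
* `GS_K, GS_H, GS_A, GS_B` : everything stays in `GS V m`
* `srcE r sf dp mu β` : the extraction of the source terms: from a small `U ⊇ sf i` the part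
  `τ_i * inG (mu i (coefficient of τ_i) • β i)` is moved to `sf i`
* `coP_A` : coefficients of the exponent `A`
* `zeta`, `LEAD`, `PP` : running coefficient, leading part, remainder
* `zeta_succ`, `lin_split` : the linear step for the remainder
-/

set_option autoImplicit false
set_option linter.unusedSectionVars false

noncomputable section

namespace Crest.Agent.R165.SrcSysx991

open scoped ENNReal
open Crest.Agent.R165.Gr0x606 Crest.Agent.R165.Gr1x606 Crest.Agent.R165.GeOpsx337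
open Crest.Agent.R165.ExpGx337 Crest.Agent.R165.KCompx892 Crest.Agent.R165.KStepx892
open Crest.Agent.R165.KMapx892 Crest.Agent.R165.KFlowx337 Crest.Agent.R165.GSysx387
open Crest.Agent.R165.SrcDefx991 Crest.Agent.R165.PStepx417 Crest.Agent.R165.GDefx387
open Crest.Agent.R165.Latx683 Crest.Agent.R165.PNormx417 Crest.Agent.R165.GrLocx337

variable {F : Type} [DecidableEq F] {V : Type} [AddCommGroup V] [Module ℝ V] {m : ℕ}

/-- reclustering commutes with ring homomorphisms -/
theorem KK_hom {R R' : Type*} [CommRing R] [CommRing R'] (f : R →+* R') (near near' : F → F → Prop)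
    (K B : Finset F → R) (W : Finset F) :
    f (KK near near' K B W) = KK near near' (fun U => f (K U)) (fun U => f (B U)) W := by
  have h : PIso near near' near near' W id id := ⟨fun _ _ => rfl, fun _ _ _ _ => Iff.rfl,
    fun _ _ _ _ => Iff.rfl⟩
  have h2 := KK_map h f (K₁ := K) (B₁ := B) (K₂ := fun U => f (K U)) (B₂ := fun U => f (B U))
    (fun U _ _ => by rw [Finset.image_id]) (fun U _ _ => by rw [Finset.image_id])
  rwa [Finset.image_id] at h2

/-- the system with sources over a base system -/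
def sysX (D : Sys F V) (m : ℕ) (fl : Finset F → Submodule ℝ (VS V m))
    (e2 : ℕ → Extr F (VS V m)) (K0 : Finset F → Ge (VS V m)) : Sys F (VS V m) where
  S n := ext0 m (D.S n)
  near := D.near
  fld := fl
  vac := vacS
  e n := union (liftE m (D.e n)) (e2 n)
  K0 := K0

variable (D : Sys F V) (fl : Finset F → Submodule ℝ (VS V m)) (e2 : ℕ → Extr F (VS V m))
  (K0 : Finset F → Ge (VS V m))

theorem noS_vacH (a : Ge (VS V m)) : noS (vacH a) = vac0 V (noS a) := by
  have h : LinearMap.fst ℝ V (Src m) ∘ₗ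
      (LinearMap.inr ℝ V (Src m) ∘ₗ LinearMap.snd ℝ V (Src m)) = 0 := by
    ext x <;> simp
  rw [noS, vacH, mpG_mpG, h, mpG_zero, vac0_apply, ctG_mpG]

theorem noS_A_aux {H : Finset F → Ge (VS V m)} (hvac : D.vac = vac0 V) (n : ℕ)
    (h2 : ∀ U, ∀ T ∈ (e2 n).out U, ∀ a, noS ((e2 n).X U T a) = 0) (U : Finset F) :
    noS (AA vacS (union (liftE m (D.e n)) (e2 n)) H U) = AA D.vac (D.e n) (fun U => noS (H U)) U := by
  have hg : noS ((e2 n).gain H U) = 0 := by
    rw [Extr.gain, map_sum]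
    exact Finset.sum_eq_zero fun W hW => h2 W U (((e2 n).mem_iff W U).2 hW) _
  have hl : noS ((e2 n).lost H U) = 0 := by
    rw [Extr.lost, map_sum]
    exact Finset.sum_eq_zero fun T hT => h2 U T hT _
  rw [AA, AA, union_gain, union_lost, liftE_gain, liftE_lost, map_sub, map_sub, map_add, map_add,
    hg, hl, noS_inG, noS_inG, vacS_apply, noS_vacH, hvac, add_zero, add_zero]

/-- **the source-free part is the base flow** -/
theorem noS_K (hvac : D.vac = vac0 V)
    (h2 : ∀ n U, ∀ T ∈ (e2 n).out U, ∀ a, noS ((e2 n).X U T a) = 0)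
    (h0 : ∀ U, noS (K0 U) = D.K0 U) (n : ℕ) (U : Finset F) :
    noS ((sysX D m fl e2 K0).K n U) = D.K n U := by
  induction n generalizing U with
  | zero => exact h0 U
  | succ n ih =>
    have hH : ∀ U, noS ((sysX D m fl e2 K0).H n U) = D.H n U := fun U => by
      rw [Sys.H, Sys.H, ← ih U]; exact noS_cvG _ _
    have hB : ∀ U, noS ((sysX D m fl e2 K0).B n U) = D.B n U := fun U => by
      rw [Sys.B_eq, Sys.B_eq, map_sub, map_one, noS_gexp, Sys.A, Sys.A]
      have h := noS_A_aux D e2 (H := (sysX D m fl e2 K0).H n) hvac n (h2 n) U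
      rw [show AA (sysX D m fl e2 K0).vac ((sysX D m fl e2 K0).e n) ((sysX D m fl e2 K0).H n) U =
        AA vacS (union (liftE m (D.e n)) (e2 n)) ((sysX D m fl e2 K0).H n) U from rfl, h]
      simp only [hH]
    rw [Sys.K_succ, Sys.K_succ]
    have h := KK_hom (noS (V := V) (m := m)).toRingHom (D.near n) (D.near (n + 1))
      ((sysX D m fl e2 K0).H n) ((sysX D m fl e2 K0).B n) U
    refine h.trans ?_
    have e1 : (fun U => (noS (V := V) (m := m)).toRingHom ((sysX D m fl e2 K0).H n U)) = D.H n :=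
      funext hH
    have e3 : (fun U => (noS (V := V) (m := m)).toRingHom ((sysX D m fl e2 K0).B n U)) = D.B n :=
      funext hB
    rw [e1, e3]

theorem noS_H (hvac : D.vac = vac0 V)
    (h2 : ∀ n U, ∀ T ∈ (e2 n).out U, ∀ a, noS ((e2 n).X U T a) = 0)
    (h0 : ∀ U, noS (K0 U) = D.K0 U) (n : ℕ) (U : Finset F) :
    noS ((sysX D m fl e2 K0).H n U) = D.H n U := by
  rw [Sys.H, Sys.H, ← noS_K D fl e2 K0 hvac h2 h0 n U]; exact noS_cvG _ _

theorem noS_A (hvac : D.vac = vac0 V)
    (h2 : ∀ n U, ∀ T ∈ (e2 n).out U, ∀ a, noS ((e2 n).X U T a) = 0)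
    (h0 : ∀ U, noS (K0 U) = D.K0 U) (n : ℕ) (U : Finset F) :
    noS ((sysX D m fl e2 K0).A n U) = D.A n U := by
  have h := noS_A_aux D e2 (H := (sysX D m fl e2 K0).H n) hvac n (h2 n) U
  rw [Sys.A, Sys.A]
  refine h.trans ?_
  have : (fun U => noS ((sysX D m fl e2 K0).H n U)) = D.H n :=
    funext fun U => noS_H D fl e2 K0 hvac h2 h0 n U
  rw [this]

theorem noS_B (hvac : D.vac = vac0 V)
    (h2 : ∀ n U, ∀ T ∈ (e2 n).out U, ∀ a, noS ((e2 n).X U T a) = 0)
    (h0 : ∀ U, noS (K0 U) = D.K0 U) (n : ℕ) (U : Finset F) :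
    noS ((sysX D m fl e2 K0).B n U) = D.B n U := by
  rw [Sys.B_eq, Sys.B_eq, map_sub, map_one, noS_gexp, noS_A D fl e2 K0 hvac h2 h0]

/-- **everything stays in `GS V m`** -/
theorem GS_K (h2 : ∀ n U, ∀ T ∈ (e2 n).out U, ∀ a ∈ GS V m, (e2 n).X U T a ∈ GS V m)
    (h0 : ∀ U, K0 U ∈ GS V m) (n : ℕ) (U : Finset F) :
    (sysX D m fl e2 K0).K n U ∈ GS V m ∧ (sysX D m fl e2 K0).A n U ∈ GS V m := by
  have key : ∀ n, (∀ U, (sysX D m fl e2 K0).K n U ∈ GS V m) →
      ∀ U, (sysX D m fl e2 K0).A n U ∈ GS V m := by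
    intro n ih U
    have hH : ∀ U, (sysX D m fl e2 K0).H n U ∈ GS V m := fun U => GS_cvG _ (ih U)
    rw [Sys.A]
    have e : AA (sysX D m fl e2 K0).vac ((sysX D m fl e2 K0).e n) ((sysX D m fl e2 K0).H n) U =
      AA vacS (union (liftE m (D.e n)) (e2 n)) ((sysX D m fl e2 K0).H n) U := rfl
    rw [e, AA, union_gain, union_lost, liftE_gain, liftE_lost]
    refine Subalgebra.sub_mem _ (Subalgebra.sub_mem _ (Subalgebra.add_mem _ (inG_mem _) ?_)
      (Subalgebra.add_mem _ (inG_mem _) ?_)) (GS_vacH (hH U))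
    · exact Subalgebra.sum_mem _ fun W hW => h2 n W U (((e2 n).mem_iff W U).2 hW) _ (hH W)
    · exact Subalgebra.sum_mem _ fun T hT => h2 n U T hT _ (hH U)
  have hK : ∀ n, ∀ U, (sysX D m fl e2 K0).K n U ∈ GS V m := by
    intro n
    induction n with
    | zero => exact h0
    | succ n ih =>
      intro U
      rw [Sys.K_succ]
      exact Sys.KK_mem (fun _ => GS V m) (fun _ _ _ => le_rfl) _ _ U
        (fun W _ => GS_cvG _ (ih W))
        (fun W _ => Subalgebra.sub_mem _ (gexp_mem_sub _ (key n ih W)) (Subalgebra.one_mem _))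
  exact ⟨hK n U, key n (hK n) U⟩

theorem GS_H (h2 : ∀ n U, ∀ T ∈ (e2 n).out U, ∀ a ∈ GS V m, (e2 n).X U T a ∈ GS V m)
    (h0 : ∀ U, K0 U ∈ GS V m) (n : ℕ) (U : Finset F) :
    (sysX D m fl e2 K0).H n U ∈ GS V m := GS_cvG _ (GS_K D fl e2 K0 h2 h0 n U).1

theorem GS_B (h2 : ∀ n U, ∀ T ∈ (e2 n).out U, ∀ a ∈ GS V m, (e2 n).X U T a ∈ GS V m)
    (h0 : ∀ U, K0 U ∈ GS V m) (n : ℕ) (U : Finset F) :
    (sysX D m fl e2 K0).B n U ∈ GS V m :=
  Subalgebra.sub_mem _ (gexp_mem_sub _ (GS_K D fl e2 K0 h2 h0 n U).2) (Subalgebra.one_mem _)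

/-! ### the extraction of the source terms -/

theorem coP_single (i : Fin m) (a : Ge (VS V m)) : coP {i} a = noS (cpair i a) := by
  rw [coP, LinearMap.comp_apply, Finset.sort_singleton]
  simp

theorem noS_tau_inG (i : Fin m) (a : Ge V) : noS (tau i * inG m a) = 0 := by
  rw [map_mul, noS_tau, zero_mul]

section ext

variable {G : Type} [CommRing G] [CN G] [DecidableEq G]
variable (r : ℕ) (sf : Fin m → Finset (G × G)) (hsf : ∀ i, (sf i).Nonempty)
  (dp : Fin m → Prop) (mu : Fin m → Ge V →ₗ[ℝ] ℝ) (β : Fin m → Ge V)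

open scoped Classical

/-- targets -/
def seOut (U : Finset (G × G)) : Finset (Finset (G × G)) :=
  if size r U ≤ 1 then (Finset.univ.filter fun i => dp i ∧ sf i ⊆ U).image sf else ∅

theorem mem_seOut {U T : Finset (G × G)} :
    T ∈ seOut r sf dp U ↔ size r U ≤ 1 ∧ ∃ i, dp i ∧ sf i ⊆ U ∧ sf i = T := by
  unfold seOut
  split_ifs with h
  · simp only [Finset.mem_image, Finset.mem_filter, Finset.mem_univ, true_and]
    constructor
    · rintro ⟨i, ⟨h1, h2⟩, rfl⟩; exact ⟨h, i, h1, h2, rfl⟩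
    · rintro ⟨_, i, h1, h2, rfl⟩; exact ⟨i, ⟨h1, h2⟩, rfl⟩
  · simp [h]

/-- the part moved for the source `i` -/
def seX (i : Fin m) : Ge (VS V m) →ₗ[ℝ] Ge (VS V m) where
  toFun a := tau i * inG m (mu i (coP {i} a) • β i)
  map_add' a b := by simp only [map_add, add_smul, mul_add]
  map_smul' c a := by
    simp only [map_smul, smul_eq_mul, RingHom.id_apply, mul_smul, mul_smul_comm]

theorem seX_apply (i : Fin m) (a : Ge (VS V m)) :
    seX mu β i a = tau i * inG m (mu i (coP {i} a) • β i) := rfl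

include hsf in
theorem se_ne {U T : Finset (G × G)} (h : T ∈ seOut r sf dp U) : T.Nonempty := by
  obtain ⟨_, i, _, _, rfl⟩ := (mem_seOut r sf dp).1 h
  exact hsf i

/-- **the extraction of the source terms** -/
def srcE : Extr (G × G) (VS V m) where
  out := seOut r sf dp
  inn T := (T.biUnion fun f => bal f r).powerset.filter fun U => T ∈ seOut r sf dp U
  mem_iff U T := by
    rw [Finset.mem_filter, Finset.mem_powerset]
    constructor
    · intro h
      refine ⟨?_, h⟩
      obtain ⟨f, hf⟩ := se_ne r sf hsf dp h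
      obtain ⟨h1, i, hi, hU, rfl⟩ := (mem_seOut r sf dp).1 h
      intro x hx
      rw [Finset.mem_biUnion]
      exact ⟨f, hf, mem_bal.2 (size_le_one_iff.1 h1 f (hU hf) x hx)⟩
    · exact fun h => h.2
  sub U T h := by
    obtain ⟨_, i, _, hU, rfl⟩ := (mem_seOut r sf dp).1 h
    exact hU
  ne U T h := se_ne r sf hsf dp h
  X _ T := ∑ i ∈ Finset.univ.filter (fun i => dp i ∧ sf i = T), seX mu β i

theorem srcE_X (U T : Finset (G × G)) (a : Ge (VS V m)) :
    (srcE r sf hsf dp mu β).X U T a =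
      ∑ i ∈ Finset.univ.filter (fun i => dp i ∧ sf i = T), seX mu β i a := by
  rw [srcE, LinearMap.sum_apply]

theorem mem_srcE_inn {U T : Finset (G × G)} :
    U ∈ (srcE r sf hsf dp mu β).inn T ↔ size r U ≤ 1 ∧ ∃ i, dp i ∧ sf i ⊆ U ∧ sf i = T := by
  rw [← (srcE r sf hsf dp mu β).mem_iff]
  exact mem_seOut r sf dp

theorem noS_srcE (U T : Finset (G × G)) (a : Ge (VS V m)) :
    noS ((srcE r sf hsf dp mu β).X U T a) = 0 := by
  rw [srcE_X, map_sum]
  exact Finset.sum_eq_zero fun i _ => by rw [seX_apply, noS_tau_inG]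

theorem GS_srcE (U T : Finset (G × G)) (a : Ge (VS V m)) :
    (srcE r sf hsf dp mu β).X U T a ∈ GS V m := by
  rw [srcE_X]
  exact Subalgebra.sum_mem _ fun i _ => Subalgebra.mul_mem _ (tau_mem i) (inG_mem _)

theorem srcE_lost (H : Finset (G × G) → Ge (VS V m)) (U : Finset (G × G)) :
    (srcE r sf hsf dp mu β).lost H U = if size r U ≤ 1 then
      ∑ i ∈ Finset.univ.filter (fun i => dp i ∧ sf i ⊆ U), seX mu β i (H U) else 0 := by
  rw [Extr.lost]
  show ∑ T ∈ seOut r sf dp U, _ = _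
  unfold seOut
  split_ifs with h
  · simp only [srcE_X]
    rw [← Finset.sum_fiberwise_of_maps_to (s := Finset.univ.filter fun i => dp i ∧ sf i ⊆ U)
      (t := (Finset.univ.filter fun i => dp i ∧ sf i ⊆ U).image sf) (g := sf)
      (fun i hi => Finset.mem_image_of_mem sf hi)]
    refine Finset.sum_congr rfl fun T hT => Finset.sum_congr ?_ fun _ _ => rfl
    obtain ⟨j, hj, rfl⟩ := Finset.mem_image.1 hT
    ext i
    simp only [Finset.mem_filter, Finset.mem_univ, true_and] at hj ⊢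
    constructor
    · rintro ⟨h1, h2⟩; exact ⟨⟨h1, by rw [h2]; exact hj.2⟩, h2⟩
    · rintro ⟨⟨h1, _⟩, h2⟩; exact ⟨h1, h2⟩
  · simp

theorem srcE_gain (H : Finset (G × G) → Ge (VS V m)) (T : Finset (G × G)) :
    (srcE r sf hsf dp mu β).gain H T =
      ∑ i ∈ Finset.univ.filter (fun i => dp i ∧ sf i = T),
        ∑ U ∈ (srcE r sf hsf dp mu β).inn T, seX mu β i (H U) := by
  rw [Extr.gain]
  simp only [srcE_X]
  rw [Finset.sum_comm]

/-- coefficients of a sum of source terms -/
theorem coP_seX_sum (s : Finset (Fin m)) (i : Fin m) (c : Fin m → Ge V) :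
    coP {i} (∑ j ∈ s, (tau j * inG m (c j) : Ge (VS V m))) = if i ∈ s then c i else 0 := by
  rw [map_sum]
  simp only [coP_tau_inG]
  by_cases h : i ∈ s
  · rw [if_pos h, Finset.sum_eq_single i]
    · rw [if_pos rfl]
    · intro j _ hj
      rw [if_neg fun h => hj (Finset.singleton_injective h).symm]
    · exact fun h' => absurd h h'
  · rw [if_neg h]
    refine Finset.sum_eq_zero fun j hj => ?_
    rw [if_neg]
    intro h'
    have e : i = j := Finset.singleton_injective h'
    exact h (e ▸ hj)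

theorem coP_seX_sum' (s : Finset (Fin m)) {I : Finset (Fin m)} (hI : I.card ≠ 1)
    (c : Fin m → Ge V) : coP I (∑ j ∈ s, (tau j * inG m (c j) : Ge (VS V m))) = 0 := by
  rw [map_sum]
  refine Finset.sum_eq_zero fun j _ => ?_
  rw [coP_tau_inG, if_neg]
  rintro rfl
  exact hI (Finset.card_singleton j)

end ext

/-! ### the system with sources, concrete extraction -/

/-- the data of `m` sources: faces, coefficient functionals, leading forms -/
structure SData (G V : Type) [AddCommGroup V] [Module ℝ V] (m : ℕ) where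
  /-- the faces of the sources -/
  sf : Fin m → Finset (G × G)
  ne : ∀ i, (sf i).Nonempty
  /-- the coefficient of the leading form -/
  mu : Fin m → Ge V →ₗ[ℝ] ℝ
  /-- the leading forms -/
  β : Fin m → Ge V
  mu_β : ∀ i, mu i (β i) = 1
  mu_const : ∀ i c, mu i (algebraMap ℝ (Ge V) c) = 0
  cv_β : ∀ i (S : Cov V), cvG S (β i) = β i + algebraMap ℝ (Ge V) (ctG (cvG S (β i)))
  ct_β : ∀ i, ctG (β i) = 0

section sysP

variable {G : Type} [CommRing G] [CN G] [DecidableEq G]
variable (B : Sys (G × G) V) (R : SData G V m) (rs : ℕ → ℕ) (dp : ℕ → Fin m → Prop)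
  (fs : Finset (G × G) → Submodule ℝ (VS V m)) (K0 : Finset (G × G) → Ge (VS V m))

open scoped Classical

/-- **the system with sources** -/
def sysP : Sys (G × G) (VS V m) :=
  sysX B m fs (fun n => srcE (rs n) R.sf R.ne (dp n) R.mu R.β) K0

theorem sysP_def : sysP B R rs dp fs K0 =
    sysX B m fs (fun n => srcE (rs n) R.sf R.ne (dp n) R.mu R.β) K0 := rfl

variable {B R rs dp fs K0}

/-- hypotheses on the initial activities -/
structure SOK (B : Sys (G × G) V) (K0 : Finset (G × G) → Ge (VS V m)) : Prop where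
  vac : B.vac = vac0 V
  noS0 : ∀ U, noS (K0 U) = B.K0 U
  GS0 : ∀ U, K0 U ∈ GS V m

variable (h : SOK B K0)
include h

theorem pNoS_K (n : ℕ) (U : Finset (G × G)) : noS ((sysP B R rs dp fs K0).K n U) = B.K n U :=
  noS_K B fs _ K0 h.vac (fun _ _ _ _ _ => noS_srcE _ _ _ _ _ _ _ _ _) h.noS0 n U

theorem pNoS_H (n : ℕ) (U : Finset (G × G)) : noS ((sysP B R rs dp fs K0).H n U) = B.H n U :=
  noS_H B fs _ K0 h.vac (fun _ _ _ _ _ => noS_srcE _ _ _ _ _ _ _ _ _) h.noS0 n U

theorem pNoS_A (n : ℕ) (U : Finset (G × G)) : noS ((sysP B R rs dp fs K0).A n U) = B.A n U :=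
  noS_A B fs _ K0 h.vac (fun _ _ _ _ _ => noS_srcE _ _ _ _ _ _ _ _ _) h.noS0 n U

theorem pNoS_B (n : ℕ) (U : Finset (G × G)) : noS ((sysP B R rs dp fs K0).B n U) = B.B n U :=
  noS_B B fs _ K0 h.vac (fun _ _ _ _ _ => noS_srcE _ _ _ _ _ _ _ _ _) h.noS0 n U

theorem pGS_K (n : ℕ) (U : Finset (G × G)) : (sysP B R rs dp fs K0).K n U ∈ GS V m :=
  (GS_K B fs _ K0 (fun _ _ _ _ _ _ => GS_srcE _ _ _ _ _ _ _ _ _) h.GS0 n U).1

theorem pGS_A (n : ℕ) (U : Finset (G × G)) : (sysP B R rs dp fs K0).A n U ∈ GS V m :=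
  (GS_K B fs _ K0 (fun _ _ _ _ _ _ => GS_srcE _ _ _ _ _ _ _ _ _) h.GS0 n U).2

theorem pGS_H (n : ℕ) (U : Finset (G × G)) : (sysP B R rs dp fs K0).H n U ∈ GS V m :=
  GS_H B fs _ K0 (fun _ _ _ _ _ _ => GS_srcE _ _ _ _ _ _ _ _ _) h.GS0 n U

theorem pGS_B (n : ℕ) (U : Finset (G × G)) : (sysP B R rs dp fs K0).B n U ∈ GS V m :=
  GS_B B fs _ K0 (fun _ _ _ _ _ _ => GS_srcE _ _ _ _ _ _ _ _ _) h.GS0 n U

/-- coefficients of the convolved activities -/
theorem coP_H (I : Finset (Fin m)) (n : ℕ) (U : Finset (G × G)) :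
    coP I ((sysP B R rs dp fs K0).H n U) = cvG (B.S n) (coP I ((sysP B R rs dp fs K0).K n U)) :=
  coP_cvG (B.S n) (pGS_K h n U) I

omit h in
theorem sysP_A (n : ℕ) (U : Finset (G × G)) : (sysP B R rs dp fs K0).A n U =
    (inG m ((B.e n).gain (fun U => noS ((sysP B R rs dp fs K0).H n U)) U) +
      (srcE (rs n) R.sf R.ne (dp n) R.mu R.β).gain ((sysP B R rs dp fs K0).H n) U) -
    (inG m ((B.e n).lost (fun U => noS ((sysP B R rs dp fs K0).H n U)) U) +
      (srcE (rs n) R.sf R.ne (dp n) R.mu R.β).lost ((sysP B R rs dp fs K0).H n) U) -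
    vacH ((sysP B R rs dp fs K0).H n U) := by
  rw [Sys.A]
  have e : AA (sysP B R rs dp fs K0).vac ((sysP B R rs dp fs K0).e n)
    ((sysP B R rs dp fs K0).H n) U = AA vacS (union (liftE m (B.e n))
      (srcE (rs n) R.sf R.ne (dp n) R.mu R.β)) ((sysP B R rs dp fs K0).H n) U := rfl
  rw [e, AA, union_gain, union_lost, liftE_gain, liftE_lost]
  rfl

/-- first order coefficients of the exponent `A` -/
theorem coP_A_one (n : ℕ) (T : Finset (G × G)) (i : Fin m) :
    coP {i} ((sysP B R rs dp fs K0).A n T) =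
      (if dp n i ∧ R.sf i = T then
        ∑ U ∈ (srcE (rs n) R.sf R.ne (dp n) R.mu R.β).inn T,
          R.mu i (coP {i} ((sysP B R rs dp fs K0).H n U)) • R.β i else 0) -
      (if size (rs n) T ≤ 1 ∧ dp n i ∧ R.sf i ⊆ T then
        R.mu i (coP {i} ((sysP B R rs dp fs K0).H n T)) • R.β i else 0) -
      algebraMap ℝ _ (ctG (coP {i} ((sysP B R rs dp fs K0).H n T))) := by
  have hne : ({i} : Finset (Fin m)) ≠ ∅ := Finset.singleton_ne_empty i
  rw [sysP_A, map_sub, map_sub, map_add, map_add, coP_inG, coP_inG, if_neg hne, if_neg hne,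
    coP_vacH (pGS_H h n T), zero_add, zero_add, srcE_gain, srcE_lost]
  congr 2
  · simp only [seX_apply]
    have e : ∀ j ∈ Finset.univ.filter (fun i => dp n i ∧ R.sf i = T),
        ∑ U ∈ (srcE (rs n) R.sf R.ne (dp n) R.mu R.β).inn T, (tau j * inG m
          (R.mu j (coP {j} ((sysP B R rs dp fs K0).H n U)) • R.β j) : Ge (VS V m)) =
        tau j * inG m (∑ U ∈ (srcE (rs n) R.sf R.ne (dp n) R.mu R.β).inn T,
          R.mu j (coP {j} ((sysP B R rs dp fs K0).H n U)) • R.β j) := fun j _ => by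
      rw [map_sum, Finset.mul_sum]
    rw [Finset.sum_congr rfl e, coP_seX_sum]
    simp only [Finset.mem_filter, Finset.mem_univ, true_and]
  · by_cases hs : size (rs n) T ≤ 1
    · rw [if_pos hs]
      simp only [seX_apply]
      rw [coP_seX_sum]
      simp only [Finset.mem_filter, Finset.mem_univ, true_and, hs]
    · rw [if_neg hs, map_zero, if_neg fun h' => hs h'.1]

/-- higher order coefficients of the exponent `A` -/
theorem coP_A_many (n : ℕ) (T : Finset (G × G)) {I : Finset (Fin m)} (hI : 2 ≤ I.card) :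
    coP I ((sysP B R rs dp fs K0).A n T) =
      -algebraMap ℝ _ (ctG (coP I ((sysP B R rs dp fs K0).H n T))) := by
  have hne : I ≠ ∅ := by rintro rfl; simp at hI
  have h1 : I.card ≠ 1 := by omega
  rw [sysP_A, map_sub, map_sub, map_add, map_add, coP_inG, coP_inG, if_neg hne, if_neg hne,
    coP_vacH (pGS_H h n T), zero_add, zero_add, srcE_gain, srcE_lost]
  simp only [seX_apply]
  have e1 : coP I (∑ i ∈ Finset.univ.filter (fun i => dp n i ∧ R.sf i = T),
      ∑ U ∈ (srcE (rs n) R.sf R.ne (dp n) R.mu R.β).inn T, (tau i * inG m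
          (R.mu i (coP {i} ((sysP B R rs dp fs K0).H n U)) • R.β i) : Ge (VS V m))) = 0 := by
    rw [Finset.sum_comm, map_sum]
    exact Finset.sum_eq_zero fun U _ => coP_seX_sum' _ h1 _
  rw [e1]
  split_ifs
  · rw [coP_seX_sum' _ h1]; abel
  · rw [map_zero]; abel

/-! ### running coefficient, leading part, remainder -/

omit h in
variable (B R rs dp fs K0) in
/-- the running coefficients -/
def zeta (z0 : Fin m → ℝ) : ℕ → Fin m → ℝ
  | 0 => z0
  | n + 1 => fun i => ∑ U ∈ (srcE (rs n) R.sf R.ne (dp n) R.mu R.β).inn (R.sf i),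
      R.mu i (coP {i} ((sysP B R rs dp fs K0).H n U))

omit h in
theorem zeta_succ_def (z0 : Fin m → ℝ) (n : ℕ) (i : Fin m) :
    zeta B R rs dp fs K0 z0 (n + 1) i = ∑ U ∈ (srcE (rs n) R.sf R.ne (dp n) R.mu R.β).inn (R.sf i),
      R.mu i (coP {i} ((sysP B R rs dp fs K0).H n U)) := rfl

omit h in
variable (R) in
/-- the leading part with coefficients `z` -/
def LEAD (z : Fin m → ℝ) (U : Finset (G × G)) : Ge (VS V m) :=
  ∑ i ∈ Finset.univ.filter (fun i => R.sf i = U), tau i * inG m (z i • R.β i)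

omit h in
variable (B R rs dp fs K0) in
/-- the remainder -/
def PP (z0 : Fin m → ℝ) (n : ℕ) (U : Finset (G × G)) : Ge (VS V m) :=
  (sysP B R rs dp fs K0).K n U - inG m (B.K n U) - LEAD R (zeta B R rs dp fs K0 z0 n) U

omit h in
theorem coP_LEAD (z : Fin m → ℝ) (U : Finset (G × G)) (i : Fin m) :
    coP {i} (LEAD R z U) = if R.sf i = U then z i • R.β i else 0 := by
  rw [LEAD, coP_seX_sum]
  simp only [Finset.mem_filter, Finset.mem_univ, true_and]

omit h in
theorem coP_LEAD' (z : Fin m → ℝ) (U : Finset (G × G)) {I : Finset (Fin m)} (hI : I.card ≠ 1) :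
    coP I (LEAD R z U) = 0 := coP_seX_sum' _ hI _

omit h in
theorem GS_LEAD (z : Fin m → ℝ) (U : Finset (G × G)) : LEAD R z U ∈ GS V m :=
  Subalgebra.sum_mem _ fun i _ => Subalgebra.mul_mem _ (tau_mem i) (inG_mem _)

variable (z0 : Fin m → ℝ)

theorem GS_PP (n : ℕ) (U : Finset (G × G)) : PP B R rs dp fs K0 z0 n U ∈ GS V m :=
  Subalgebra.sub_mem _ (Subalgebra.sub_mem _ (pGS_K h n U) (inG_mem _)) (GS_LEAD _ _)

omit h in
theorem K_eq_PP (n : ℕ) (U : Finset (G × G)) : (sysP B R rs dp fs K0).K n U =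
    inG m (B.K n U) + LEAD R (zeta B R rs dp fs K0 z0 n) U + PP B R rs dp fs K0 z0 n U := by
  rw [PP]; abel

theorem coP_PP_zero (n : ℕ) (U : Finset (G × G)) : coP ∅ (PP B R rs dp fs K0 z0 n U) = 0 := by
  rw [PP, map_sub, map_sub, coP_empty, pNoS_K h, coP_inG, if_pos rfl,
    coP_LEAD' _ _ (by simp), sub_self, sub_zero]

theorem coP_PP_one (n : ℕ) (U : Finset (G × G)) (i : Fin m) :
    coP {i} (PP B R rs dp fs K0 z0 n U) = coP {i} ((sysP B R rs dp fs K0).K n U) -
      if R.sf i = U then zeta B R rs dp fs K0 z0 n i • R.β i else 0 := by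
  rw [PP, map_sub, map_sub, coP_inG, if_neg (Finset.singleton_ne_empty i), coP_LEAD, sub_zero]

theorem coP_PP_many (n : ℕ) (U : Finset (G × G)) {I : Finset (Fin m)} (hI : 2 ≤ I.card) :
    coP I (PP B R rs dp fs K0 z0 n U) = coP I ((sysP B R rs dp fs K0).K n U) := by
  have hne : I ≠ ∅ := by rintro rfl; simp at hI
  rw [PP, map_sub, map_sub, coP_inG, if_neg hne, coP_LEAD' _ _ (by omega), sub_zero, sub_zero]

/-- the convolved coefficient of the remainder -/
theorem coP_H_one (n : ℕ) (U : Finset (G × G)) (i : Fin m) :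
    coP {i} ((sysP B R rs dp fs K0).H n U) =
      cvG (B.S n) (coP {i} (PP B R rs dp fs K0 z0 n U)) +
        if R.sf i = U then zeta B R rs dp fs K0 z0 n i • (R.β i +
          algebraMap ℝ (Ge V) (ctG (cvG (B.S n) (R.β i)))) else 0 := by
  rw [coP_H h, coP_PP_one h, map_sub]
  split_ifs
  · rw [map_smul, ← R.cv_β]; abel
  · rw [map_zero]; abel

theorem coP_H_many (n : ℕ) (U : Finset (G × G)) {I : Finset (Fin m)} (hI : 2 ≤ I.card) :
    coP I ((sysP B R rs dp fs K0).H n U) =
      cvG (B.S n) (coP I (PP B R rs dp fs K0 z0 n U)) := by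
  rw [coP_H h, coP_PP_many h _ _ _ hI]

/-- **the running coefficient** -/
theorem zeta_succ (n : ℕ) (i : Fin m) (hdp : dp n i) (hsz : size (rs n) (R.sf i) ≤ 1) :
    zeta B R rs dp fs K0 z0 (n + 1) i = zeta B R rs dp fs K0 z0 n i +
      ∑ U ∈ (srcE (rs n) R.sf R.ne (dp n) R.mu R.β).inn (R.sf i),
        R.mu i (cvG (B.S n) (coP {i} (PP B R rs dp fs K0 z0 n U))) := by
  have hmem : R.sf i ∈ (srcE (rs n) R.sf R.ne (dp n) R.mu R.β).inn (R.sf i) := by
    rw [mem_srcE_inn]
    exact ⟨hsz, i, hdp, subset_rfl, rfl⟩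
  rw [zeta_succ_def]
  have e : ∀ U ∈ (srcE (rs n) R.sf R.ne (dp n) R.mu R.β).inn (R.sf i),
      R.mu i (coP {i} ((sysP B R rs dp fs K0).H n U)) =
        R.mu i (cvG (B.S n) (coP {i} (PP B R rs dp fs K0 z0 n U))) +
          if U = R.sf i then zeta B R rs dp fs K0 z0 n i else 0 := by
    intro U _
    rw [coP_H_one h z0, map_add]
    congr 1
    by_cases hU : R.sf i = U
    · rw [if_pos hU, if_pos hU.symm, map_smul, map_add, R.mu_β, R.mu_const, add_zero, smul_eq_mul,
        mul_one]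
    · rw [if_neg hU, if_neg (fun h' => hU h'.symm), map_zero]
  rw [Finset.sum_congr rfl e, Finset.sum_add_distrib, Finset.sum_ite_eq' _ (R.sf i), if_pos hmem,
    add_comm]

omit h in
variable (B R rs dp fs K0) in
/-- coefficients of the linear part of the next remainder -/
def linC (n : ℕ) (U : Finset (G × G)) (I : Finset (Fin m)) : Ge V :=
  cvG (B.S n) (coP I (PP B R rs dp fs K0 z0 n U)) -
    algebraMap ℝ (Ge V) (ctG (cvG (B.S n) (coP I (PP B R rs dp fs K0 z0 n U)))) -
    ∑ i ∈ Finset.univ.filter (fun i => I = {i} ∧ size (rs n) U ≤ 1 ∧ dp n i ∧ R.sf i ⊆ U),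
      R.mu i (cvG (B.S n) (coP I (PP B R rs dp fs K0 z0 n U))) • R.β i

omit h in
variable (B R rs dp fs K0) in
/-- linear part of the next remainder -/
def linP (n : ℕ) (U : Finset (G × G)) : Ge (VS V m) :=
  ∑ I, tauP I * inG m (linC B R rs dp fs K0 z0 n U I)

omit h in
theorem GS_linP (n : ℕ) (U : Finset (G × G)) : linP B R rs dp fs K0 z0 n U ∈ GS V m :=
  Subalgebra.sum_mem _ fun I _ => Subalgebra.mul_mem _ (tauP_mem I) (inG_mem _)

omit h in
theorem coP_linP (n : ℕ) (U : Finset (G × G)) (I : Finset (Fin m)) :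
    coP I (linP B R rs dp fs K0 z0 n U) = linC B R rs dp fs K0 z0 n U I := coP_sum_basis I _

theorem linC_zero (n : ℕ) (U : Finset (G × G)) : linC B R rs dp fs K0 z0 n U ∅ = 0 := by
  have e : Finset.univ.filter (fun i : Fin m => (∅ : Finset (Fin m)) = {i} ∧ size (rs n) U ≤ 1 ∧
      dp n i ∧ R.sf i ⊆ U) = ∅ := by
    rw [Finset.filter_eq_empty_iff]
    intro i _ h'
    exact (Finset.singleton_ne_empty i) h'.1.symm
  rw [linC, coP_PP_zero h, e, map_zero, map_zero, map_zero, sub_zero, Finset.sum_empty, sub_zero]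

theorem linC_one (n : ℕ) (U : Finset (G × G)) (i : Fin m) :
    linC B R rs dp fs K0 z0 n U {i} = cvG (B.S n) (coP {i} (PP B R rs dp fs K0 z0 n U)) -
      algebraMap ℝ (Ge V) (ctG (cvG (B.S n) (coP {i} (PP B R rs dp fs K0 z0 n U)))) -
      if size (rs n) U ≤ 1 ∧ dp n i ∧ R.sf i ⊆ U then
        R.mu i (cvG (B.S n) (coP {i} (PP B R rs dp fs K0 z0 n U))) • R.β i else 0 := by
  rw [linC]
  congr 1
  rw [Finset.sum_filter, Finset.sum_eq_single i]
  · simp
  · intro j _ hj
    rw [if_neg]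
    rintro ⟨h1, _⟩
    exact hj (Finset.singleton_injective h1).symm
  · intro h'
    exact absurd (Finset.mem_univ i) h'

theorem linC_many (n : ℕ) (U : Finset (G × G)) {I : Finset (Fin m)} (hI : 2 ≤ I.card) :
    linC B R rs dp fs K0 z0 n U I = cvG (B.S n) (coP I (PP B R rs dp fs K0 z0 n U)) -
      algebraMap ℝ (Ge V) (ctG (cvG (B.S n) (coP I (PP B R rs dp fs K0 z0 n U)))) := by
  have e : Finset.univ.filter (fun i : Fin m => I = {i} ∧ size (rs n) U ≤ 1 ∧
      dp n i ∧ R.sf i ⊆ U) = ∅ := by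
    rw [Finset.filter_eq_empty_iff]
    intro i _ h'
    rw [h'.1] at hI
    simp at hI
  rw [linC, e, Finset.sum_empty, sub_zero]

/-- **the linear step** -/
theorem lin_split (n : ℕ) (U : Finset (G × G)) (hdp : ∀ i, dp n i)
    (hsz : ∀ i, size (rs n) (R.sf i) ≤ 1) :
    (sysP B R rs dp fs K0).H n U + (sysP B R rs dp fs K0).A n U =
      inG m (B.H n U + B.A n U) + LEAD R (zeta B R rs dp fs K0 z0 (n + 1)) U +
        linP B R rs dp fs K0 z0 n U := by
  refine GS_ext (Subalgebra.add_mem _ (pGS_H h n U) (pGS_A h n U))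
    (Subalgebra.add_mem _ (Subalgebra.add_mem _ (inG_mem _) (GS_LEAD _ _)) (GS_linP _ _ _)) ?_
  intro I
  rw [map_add, map_add, map_add, coP_linP]
  rcases Nat.lt_or_ge I.card 2 with hI | hI
  · rcases Nat.eq_zero_or_pos I.card with h0 | h0
    · rw [Finset.card_eq_zero] at h0
      subst h0
      rw [linC_zero h, coP_empty, coP_empty, pNoS_H h, pNoS_A h, coP_inG, if_pos rfl,
        coP_LEAD' _ _ (by simp), add_zero, add_zero]
    · obtain ⟨i, rfl⟩ := Finset.card_eq_one.1 (show I.card = 1 by omega)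
      rw [linC_one h, coP_A_one h, coP_inG, if_neg (Finset.singleton_ne_empty i), coP_LEAD,
        zero_add]
      have e1 : (if dp n i ∧ R.sf i = U then
          ∑ U' ∈ (srcE (rs n) R.sf R.ne (dp n) R.mu R.β).inn U,
            R.mu i (coP {i} ((sysP B R rs dp fs K0).H n U')) • R.β i else 0) =
          if R.sf i = U then zeta B R rs dp fs K0 z0 (n + 1) i • R.β i else 0 := by
        by_cases hU : R.sf i = U
        · rw [if_pos ⟨hdp i, hU⟩, if_pos hU, zeta_succ_def, Finset.sum_smul, hU]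
        · rw [if_neg (fun h' => hU h'.2), if_neg hU]
      rw [e1, coP_H_one h z0]
      set F := cvG (B.S n) (coP {i} (PP B R rs dp fs K0 z0 n U)) with hF
      by_cases hU : R.sf i = U
      · have hs : size (rs n) U ≤ 1 ∧ dp n i ∧ R.sf i ⊆ U :=
          ⟨hU ▸ hsz i, hdp i, hU ▸ subset_rfl⟩
        have e2 : ctG (R.β i + algebraMap ℝ (Ge V) (ctG (cvG (B.S n) (R.β i)))) =
            ctG (cvG (B.S n) (R.β i)) := by
          rw [map_add, R.ct_β, zero_add, AlgHom.commutes]; rfl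
        have e3 : R.mu i (R.β i + algebraMap ℝ (Ge V) (ctG (cvG (B.S n) (R.β i)))) = 1 := by
          rw [map_add, R.mu_β, R.mu_const, add_zero]
        rw [if_pos hU, if_pos hU, if_pos hs, if_pos hs, map_add, map_add, map_smul, map_smul, e2,
          e3, map_add]
        simp only [smul_eq_mul, mul_one, Algebra.smul_def, map_mul, map_add]
        ring
      · rw [if_neg hU, if_neg hU, add_zero]
        abel
  · have hne : I ≠ ∅ := by rintro rfl; simp at hI
    rw [linC_many h z0 n U hI, coP_A_many h n U hI, coP_H_many h z0 n U hI, coP_inG, if_neg hne,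
      coP_LEAD' _ _ (by omega)]
    abel

end sysP

/-! ### the remainder terms of a step as a function of the family -/

section rem

variable {F : Type} [DecidableEq F] {W : Type*} [AddCommGroup W] [Module ℝ W]

/-- everything which is not linear in a step -/
def Rem (vac : Ge W →ₗ[ℝ] Ge W) (e : Extr F W) (S : Cov W) (near near' : F → F → Prop)
    (K : Finset F → Ge W) (U : Finset F) : Ge W :=
  KK near near' (fun U => cvG S (K U)) (BB vac e fun U => cvG S (K U)) U -
    (cvG S (K U) + AA vac e (fun U => cvG S (K U)) U)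

theorem K_succ_Rem (D : Sys F W) (n : ℕ) (U : Finset F) :
    D.K (n + 1) U = (D.H n U + D.A n U) +
      Rem D.vac (D.e n) (D.S n) (D.near n) (D.near (n + 1)) (D.K n) U := by
  change KK (D.near n) (D.near (n + 1)) (D.H n) (D.B n) U = (D.H n U + D.A n U) +
    (KK (D.near n) (D.near (n + 1)) (D.H n) (D.B n) U - (D.H n U + D.A n U))
  abel

end rem

section rem2

variable {G : Type} [CommRing G] [CN G] [DecidableEq G]
variable {B : Sys (G × G) V} {R : SData G V m} {rs : ℕ → ℕ} {dp : ℕ → Fin m → Prop}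
  {fs : Finset (G × G) → Submodule ℝ (VS V m)} {K0 : Finset (G × G) → Ge (VS V m)}

variable (B R rs dp) in
/-- the remainder map of the system with sources -/
def RemP (n : ℕ) (K : Finset (G × G) → Ge (VS V m)) (U : Finset (G × G)) : Ge (VS V m) :=
  Rem vacS (union (liftE m (B.e n)) (srcE (rs n) R.sf R.ne (dp n) R.mu R.β)) (ext0 m (B.S n))
    (B.near n) (B.near (n + 1)) K U

theorem K_succ_RemP (n : ℕ) (U : Finset (G × G)) : (sysP B R rs dp fs K0).K (n + 1) U =
    ((sysP B R rs dp fs K0).H n U + (sysP B R rs dp fs K0).A n U) +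
      RemP B R rs dp n ((sysP B R rs dp fs K0).K n) U := K_succ_Rem _ n U

/-- the exponent on source-free families -/
theorem AA_inG (n : ℕ) (hvac : B.vac = vac0 V) (H : Finset (G × G) → Ge V) (U : Finset (G × G)) :
    AA vacS (union (liftE m (B.e n)) (srcE (rs n) R.sf R.ne (dp n) R.mu R.β))
      (fun U => inG m (H U)) U = inG m (AA B.vac (B.e n) H U) := by
  have hX : ∀ i (a : Ge V), seX R.mu R.β i (inG m a) = 0 := fun i a => by
    rw [seX_apply, coP_inG, if_neg (Finset.singleton_ne_empty i), map_zero, zero_smul, map_zero,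
      mul_zero]
  have hg : (srcE (rs n) R.sf R.ne (dp n) R.mu R.β).gain (fun U => inG m (H U)) U = 0 := by
    rw [srcE_gain]
    exact Finset.sum_eq_zero fun i _ => Finset.sum_eq_zero fun U _ => hX i _
  have hl : (srcE (rs n) R.sf R.ne (dp n) R.mu R.β).lost (fun U => inG m (H U)) U = 0 := by
    rw [srcE_lost]
    split_ifs
    · exact Finset.sum_eq_zero fun i _ => hX i _
    · rfl
  rw [AA, union_gain, union_lost, liftE_gain, liftE_lost, hg, hl, AA, map_sub, map_sub, add_zero,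
    add_zero, vacS_apply, vacH_inG, hvac, vac0_apply, AlgHom.commutes]
  simp only [noS_inG]

/-- the remainder map on source-free families -/
theorem RemP_inG (n : ℕ) (hvac : B.vac = vac0 V) (K : Finset (G × G) → Ge V) (U : Finset (G × G)) :
    RemP B R rs dp n (fun U => inG m (K U)) U =
      inG m (Rem B.vac (B.e n) (B.S n) (B.near n) (B.near (n + 1)) K U) := by
  rw [RemP, Rem, Rem, map_sub, map_add]
  have e1 : (fun U => cvG (ext0 m (B.S n)) (inG m (K U))) = fun U => inG m (cvG (B.S n) (K U)) :=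
    funext fun U => cvG_inG _ _
  have e2 : BB vacS (union (liftE m (B.e n)) (srcE (rs n) R.sf R.ne (dp n) R.mu R.β))
      (fun U => inG m (cvG (B.S n) (K U))) =
      fun U => inG m (BB B.vac (B.e n) (fun U => cvG (B.S n) (K U)) U) := by
    funext U
    rw [BB, BB, AA_inG n hvac, map_sub, map_one]
    congr 1
    exact (mpG_gexp _ _).symm
  rw [e1, e2, AA_inG n hvac, cvG_inG]
  have h := KK_hom (inG (V := V) m).toRingHom (B.near n) (B.near (n + 1))
    (fun U => cvG (B.S n) (K U)) (BB B.vac (B.e n) fun U => cvG (B.S n) (K U)) U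
  congr 1
  exact h.symm

/-- **the next remainder** -/
theorem PP_succ (h : SOK B K0) (z0 : Fin m → ℝ) (n : ℕ) (U : Finset (G × G)) (hdp : ∀ i, dp n i)
    (hsz : ∀ i, size (rs n) (R.sf i) ≤ 1) :
    PP B R rs dp fs K0 z0 (n + 1) U = linP B R rs dp fs K0 z0 n U +
      (RemP B R rs dp n ((sysP B R rs dp fs K0).K n) U -
        RemP B R rs dp n (fun U => inG m (B.K n U)) U) := by
  rw [PP, K_succ_RemP, lin_split h z0 n U hdp hsz, K_succ_Rem B n U, RemP_inG n h.vac]
  simp only [map_add]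
  abel

/-- scaling of the source weights -/
theorem pG_scale {w : V → ℝ≥0∞} (hw : w 0 = 0) {v v' : Fin m → ℝ≥0∞} (hv : ∀ i, v i ≠ ∞)
    (hv0 : ∀ i, v i ≠ 0) (hv' : ∀ i, v' i ≠ ∞) (hv0' : ∀ i, v' i ≠ 0) {s : ℝ≥0∞} (hs : s ≤ 1)
    (h : ∀ i, v i ^ 2 ≤ s * v' i ^ 2) {a : Ge (VS V m)} (ha : a ∈ GS V m) :
    pG (wS w v) (a - inG m (noS a)) ≤ s * pG (wS w v') a := by
  have ha' : a - inG m (noS a) ∈ GS V m := Subalgebra.sub_mem _ ha (inG_mem _)
  rw [pG_GS_eq hw hv hv0 ha', pG_GS_eq hw hv' hv0' ha, Finset.mul_sum]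
  refine Finset.sum_le_sum fun I _ => ?_
  rcases eq_or_ne I ∅ with rfl | hI
  · rw [map_sub, coP_empty, coP_inG, if_pos rfl, sub_self]
    simp [pG_def, pnorm_zero]
  · rw [map_sub, coP_inG, if_neg hI, sub_zero, ← mul_assoc]
    refine mul_le_mul' ?_ le_rfl
    obtain ⟨j, hj⟩ := Finset.nonempty_iff_ne_empty.2 hI
    calc ∏ i ∈ I, v i ^ 2 ≤ ∏ i ∈ I, (s * v' i ^ 2) := Finset.prod_le_prod' fun i _ => h i
      _ = s ^ I.card * ∏ i ∈ I, v' i ^ 2 := by rw [Finset.prod_mul_distrib, Finset.prod_const]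
      _ ≤ s * ∏ i ∈ I, v' i ^ 2 := by
          refine mul_le_mul' ?_ le_rfl
          calc s ^ I.card ≤ s ^ 1 :=
                pow_le_pow_right_of_le_one' hs (Finset.card_pos.2 ⟨j, hj⟩)
            _ = s := pow_one s

end rem2

/-! ### locality of the source extraction -/

section loc

variable {G : Type} [CommRing G] [CN G] [DecidableEq G]

open scoped Classical

theorem tau_mem_fldUS (sf : Fin m → Finset (G × G)) {i : Fin m} {T : Finset (G × G)}
    (h : ∃ f ∈ sf i, f ∈ T) : (tau i : Ge (VS (Fld G) m)) ∈ grG (fldUS sf T) := by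
  have h1 : (th i : VS (Fld G) m) ∈ fldUS sf T := by
    refine ⟨Submodule.zero_mem _, fun j hj => ?_⟩
    by_cases hji : j = i
    · subst hji; exact h
    · exact absurd (by simp [th, Pi.single_eq_of_ne hji]) hj
  have h2 : (th' i : VS (Fld G) m) ∈ fldUS sf T := by
    refine ⟨Submodule.zero_mem _, fun j hj => ?_⟩
    by_cases hji : j = i
    · subst hji; exact h
    · exact absurd (by simp [th', Pi.single_eq_of_ne hji]) hj
  rw [mem_grG]
  exact mul_mem (fi_mem_gr h1) (fi_mem_gr h2)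

theorem inG_mem_fldUS (sf : Fin m → Finset (G × G)) {T : Finset (G × G)} {a : Ge (Fld G)}
    (ha : a ∈ grG (fldU T)) : inG m a ∈ grG (fldUS sf T) :=
  mpG_mem (W := fldU T) (W' := fldUS sf T) _ (fun x hx => ⟨hx, fun j hj => absurd rfl hj⟩) ha

theorem noS_mem_fldU (sf : Fin m → Finset (G × G)) {T : Finset (G × G)} {a : Ge (VS (Fld G) m)}
    (ha : a ∈ grG (fldUS sf T)) : noS a ∈ grG (fldU T) :=
  mpG_mem (W := fldUS sf T) (W' := fldU T) _ (fun _ hx => hx.1) ha

/-- the target algebra of the source extraction -/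
theorem srcE_X_mem (r : ℕ) (R : SData G (Fld G) m) (dp : Fin m → Prop)
    (hβ : ∀ i, R.β i ∈ grG (fldU (R.sf i))) (U T : Finset (G × G)) (a : Ge (VS (Fld G) m)) :
    (srcE r R.sf R.ne dp R.mu R.β).X U T a ∈ grG (fldUS R.sf T) := by
  rw [srcE_X]
  refine Subalgebra.sum_mem _ fun i hi => ?_
  rw [Finset.mem_filter] at hi
  obtain ⟨_, _, rfl⟩ := hi
  rw [seX_apply]
  obtain ⟨f, hf⟩ := R.ne i
  exact Subalgebra.mul_mem _ (tau_mem_fldUS R.sf ⟨f, hf, hf⟩)
    (inG_mem_fldUS R.sf (Subalgebra.smul_mem _ (hβ i) _))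

/-- the extraction of the sources over the lifted bulk extraction -/
theorem union_X_mem {m : ℕ} (e : Extr (G × G) (Fld G)) (r : ℕ) (R : SData G (Fld G) m)
    (dp : Fin m → Prop) (hβ : ∀ i, R.β i ∈ grG (fldU (R.sf i)))
    (he : ∀ U, ∀ T ∈ e.out U, ∀ a ∈ grG (fldU U), e.X U T a ∈ grG (fldU T))
    (U T : Finset (G × G)) (a : Ge (VS (Fld G) m)) (ha : a ∈ grG (fldUS R.sf U)) :
    (union (liftE m e) (srcE r R.sf R.ne dp R.mu R.β)).X U T a ∈ grG (fldUS R.sf T) := by
  show ((if T ∈ (liftE m e).out U then (liftE m e).X U T else 0) +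
    (if T ∈ (srcE r R.sf R.ne dp R.mu R.β).out U then (srcE r R.sf R.ne dp R.mu R.β).X U T
      else 0)) a ∈ _
  rw [LinearMap.add_apply]
  refine Subalgebra.add_mem _ ?_ ?_
  · split_ifs with h1
    · rw [liftE_X]
      exact inG_mem_fldUS R.sf (he U T h1 _ (noS_mem_fldU R.sf ha))
    · exact Subalgebra.zero_mem _
  · split_ifs
    · exact srcE_X_mem r R dp hβ U T a
    · exact Subalgebra.zero_mem _

end loc

end Crest.Agent.R165.SrcSysx991
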