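import Crest.Agent.R165.SrcCstD_484
import Crest.Agent.R165.SrcSys_991
import Crest.Agent.R165.CmpSrc_432
import Crest.Agent.R165.KConn_892
import Crest.Agent.R165.Bridge_915

/-!
# Row 165 (S0250), leaf P11 item 4: sizes, connectedness, charts (helper484)

* `pack_iter`, `pack_far`, `size_far`, `size_two` : sizes of connected sets with far points
* `K_conn` : activities live on connected sets (targets of the extraction connected)
* `co_pS` : the coefficients seen through a chart
* `cmpH_of` : `CmpH` from the equality of the activities in a ball around the source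
* `LEAD_eq_LD`, `run_sysP` : the data `Run` of 991's `sysP`
-/

set_option autoImplicit false
set_option linter.unusedSectionVars false
set_option linter.unusedVariables false

noncomputable section

namespace Crest.Agent.R165.SrcCstx484

open Finset
open scoped ENNReal
open Crest.Agent.R165.FinBx900 Crest.Agent.R165.KStepx892
open Crest.Agent.R165.Gr0x606 Crest.Agent.R165.Gr1x606 Crest.Agent.R165.GeOpsx337
  Crest.Agent.R165.ExpGx337 Crest.Agent.R165.PNormx417 Crest.Agent.R165.KFlowx337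
  Crest.Agent.R165.SrcDefx991 Crest.Agent.R165.SrcFinx441 Crest.Agent.R165.GrLocx337
open Crest.Agent.R165.SrcFinBx441 (Nw)
open Crest.Agent.R165.Packx915 (PD pack pack_anti card_le_pack pack_growth Conn)

/-! ### sizes -/

section pack

variable {X : Type*} {d : X → X → ℕ} {U : Finset X}

/-- doubling over several scales -/
theorem pack_iter (hd : PD d) {r R : ℕ → ℕ} (hR : Monotone R)
    (h : ∀ k, 4 * R k + 3 * r k + 2 ≤ r (k + 1)) {k : ℕ} (hU : Conn d (R k) U) (n : ℕ)
    (h2 : 2 ≤ pack d (r (k + n)) U) : 2 ^ n * pack d (r (k + n)) U ≤ pack d (r k) U := by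
  induction n with
  | zero => simp
  | succ n ih =>
    have h1 := h (k + n)
    have h3 : pack d (r (k + (n + 1))) U ≤ pack d (r (k + n)) U :=
      pack_anti (by rw [← add_assoc]; omega)
    have h4 := ih (h2.trans h3)
    have h5 := pack_growth (m := 2) (ρ := 2 * R (k + n) + r (k + n) + 1) (r := r (k + n))
      (r' := r (k + (n + 1))) hd (hU.mono (hR (Nat.le_add_right k n))) (by omega)
      (by rw [← add_assoc]; omega) h2
    calc 2 ^ (n + 1) * pack d (r (k + (n + 1))) U
        = 2 ^ n * (2 * pack d (r (k + (n + 1))) U) := by ring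
      _ ≤ 2 ^ n * pack d (r (k + n)) U := Nat.mul_le_mul_left _ h5
      _ ≤ _ := h4

/-- far points give many separated points -/
theorem pack_far (hd : PD d) {R r : ℕ} (hU : Conn d R U) {p q : X} (hp : p ∈ U) (hq : q ∈ U)
    {n : ℕ} (h : n * (R + r + 1) ≤ d p q) : n + 1 ≤ pack d r U := by
  classical
  have key : ∀ a : ℕ, a ≤ n → ∃ x ∈ U, a * (R + r + 1) ≤ d p x ∧ d p x ≤ a * (R + r + 1) + R := by
    intro a ha
    rcases Nat.eq_zero_or_pos a with rfl | h0
    · exact ⟨p, hp, by simp, by rw [hd.self]; omega⟩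
    · obtain ⟨x, hx, h1, h2⟩ := hU.exists_level hd hp hq (t := a * (R + r + 1))
        (Nat.mul_pos h0 (by omega)) ((Nat.mul_le_mul_right _ ha).trans h)
      exact ⟨x, hx, h1, by omega⟩
  choose f hf using key
  let g : ℕ → X := fun a => if h : a ≤ n then f a h else p
  have hg : ∀ a ≤ n, g a ∈ U ∧ a * (R + r + 1) ≤ d p (g a) ∧ d p (g a) ≤ a * (R + r + 1) + R := by
    intro a ha
    have : g a = f a ha := dif_pos ha
    rw [this]
    exact hf a ha
  have hlt : ∀ a b, a ≤ n → b ≤ n → a < b → r < d (g a) (g b) := by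
    intro a b ha hb hab
    obtain ⟨-, -, h2⟩ := hg a ha
    obtain ⟨-, h1, -⟩ := hg b hb
    have h3 := hd.tri p (g a) (g b)
    have h4 : (a + 1) * (R + r + 1) ≤ b * (R + r + 1) := Nat.mul_le_mul_right _ hab
    have h5 : (a + 1) * (R + r + 1) = a * (R + r + 1) + (R + r + 1) := by ring
    omega
  have hsep : ∀ a ≤ n, ∀ b ≤ n, a ≠ b → r < d (g a) (g b) := by
    intro a ha b hb hne
    rcases lt_or_gt_of_ne hne with h' | h'
    · exact hlt a b ha hb h'
    · rw [hd.symm]; exact hlt b a hb ha h'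
  have hinj : Set.InjOn g (Finset.range (n + 1) : Set ℕ) := by
    intro a ha b hb he
    rw [Finset.mem_coe, Finset.mem_range] at ha hb
    by_contra hne
    have := hsep a (by omega) b (by omega) hne
    rw [he, hd.self] at this
    omega
  have h1 : ((Finset.range (n + 1)).image g).card ≤ pack d r U := by
    refine card_le_pack ?_ ?_
    · intro x hx
      obtain ⟨a, ha, rfl⟩ := Finset.mem_image.1 hx
      exact (hg a (by rw [Finset.mem_range] at ha; omega)).1
    · intro x hx y hy hxy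
      obtain ⟨a, ha, rfl⟩ := Finset.mem_image.1 hx
      obtain ⟨b, hb, rfl⟩ := Finset.mem_image.1 hy
      rw [Finset.mem_range] at ha hb
      exact hsep a (by omega) b (by omega) (fun he => hxy (by rw [he]))
  rwa [Finset.card_image_of_injOn hinj, Finset.card_range] at h1

/-- **sizes of connected sets with far points**, all scales below `N` -/
theorem pack_far_iter (hd : PD d) {r R : ℕ → ℕ} (hR : Monotone R)
    (h : ∀ k, 4 * R k + 3 * r k + 2 ≤ r (k + 1)) {k N : ℕ} (hk : k < N) (hU : Conn d (R k) U)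
    {p q : X} (hp : p ∈ U) (hq : q ∈ U) {n : ℕ} (hn : 1 ≤ n)
    (hpq : n * (R (N - 1) + r (N - 1) + 1) ≤ d p q) : (n + 1) * (N - k) ≤ pack d (r k) U := by
  obtain ⟨j, rfl⟩ : ∃ j, N = k + j + 1 := ⟨N - k - 1, by omega⟩
  have e : k + j + 1 - 1 = k + j := by omega
  rw [e] at hpq
  have h1 := pack_far hd (hU.mono (hR (Nat.le_add_right k j))) hp hq hpq
  have h2 := pack_iter hd hR h hU j (by omega)
  have h3 : j + 1 ≤ 2 ^ j := Nat.lt_two_pow_self
  calc (n + 1) * (k + j + 1 - k) = (j + 1) * (n + 1) := by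
        rw [show k + j + 1 - k = j + 1 by omega, mul_comm]
    _ ≤ 2 ^ j * pack d (r (k + j)) U := Nat.mul_le_mul h3 h1
    _ ≤ _ := h2

end pack

/-! ### connectedness of the activities -/

section conn

variable {F V : Type*} [DecidableEq F] [AddCommGroup V] [Module ℝ V]

/-- **activities live on connected sets** -/
theorem K_conn (D : Sys F V) {d : F → F → ℕ} {R : ℕ → ℕ} (hR : Monotone R)
    (hnear : ∀ k, D.near k = fun x y => d x y ≤ R k)
    (h0 : ∀ U, D.K0 U ≠ 0 → U.Nonempty ∧ Conn d (R 0) U)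
    (hT : ∀ k U, ∀ T ∈ (D.e k).out U, Conn d (R (k + 1)) T) :
    ∀ k U, D.K k U ≠ 0 → U.Nonempty ∧ Conn d (R k) U := by
  intro k
  induction k with
  | zero => exact h0
  | succ k ih =>
    intro W hW
    have hRk : R k ≤ R (k + 1) := hR (Nat.le_succ k)
    have hH : ∀ U, D.H k U ≠ 0 → Conn d (R (k + 1)) U := by
      intro U hU
      have hK : D.K k U ≠ 0 := fun h => hU (by rw [Sys.H, h, map_zero])
      exact (ih U hK).2.mono hRk
    have hB : ∀ U, D.B k U ≠ 0 → Conn d (R (k + 1)) U := by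
      intro U hU
      by_cases hHU : D.H k U = 0
      · have hg : (D.e k).gain (D.H k) U ≠ 0 := by
          intro hg
          apply hU
          have hl : (D.e k).lost (D.H k) U = 0 := by
            rw [Extr.lost]
            exact Finset.sum_eq_zero fun T _ => by rw [hHU, map_zero]
          rw [Sys.B_eq, Sys.A, AA, hg, hl, hHU, map_zero, sub_zero, sub_zero, gexp_zero, sub_self]
        rw [Extr.gain] at hg
        obtain ⟨U', hU', -⟩ := Finset.exists_ne_zero_of_sum_ne_zero hg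
        exact hT k U' U (((D.e k).mem_iff U' U).2 hU')
      · exact hH U hHU
    have hWne : W.Nonempty := by
      rw [Finset.nonempty_iff_ne_empty]
      intro h0
      rw [h0] at hW
      exact hW (D.K_empty k)
    refine ⟨hWne, ?_⟩
    rw [D.K_succ, hnear (k + 1)] at hW
    exact KConnx892.KK_conn (fun U _ h => hH U h) (fun U _ h => hB U h) hW

end conn

/-! ### charts -/

open Crest.Agent.R165.Latx683 Crest.Agent.R165.GDefx387 Crest.Agent.R165.GSysx387
  Crest.Agent.R165.BgIsox432 Crest.Agent.R165.CmpBgx432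

section chart

variable {G G' : Type} [CommRing G] [CN G] [CNZ G] [DecidableEq G] [CommRing G'] [CN G'] [CNZ G']
  [DecidableEq G'] {w : BW G} {w' : BW G'} {Z : Set (G × G)} {m m' : ℕ}

theorem coP_pS (b : BgIso w w' Z) (σ : Fin m' → Fin m) (j : Fin m') (a : Ge (VS (Fld G) m)) :
    coP {j} (mpG (pS b σ) a) = mpG b.push (coP {σ j} a) := by
  rw [SrcSysx991.coP_single, SrcSysx991.coP_single, cpair_pS, noS_pS]

/-- the coefficients seen through a chart -/
theorem co_pS (b : BgIso w w' Z) (σ : Fin m' → Fin m) (j : Fin m') (a : Ge (VS (Fld G) m)) :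
    co {j} (mpG (pS b σ) a) = co {σ j} a := by
  rw [co_apply, co_apply, coP_pS, ctG_mpG]

theorem rhoH_le {l k0 n N : ℕ} (h : n < N) : rhoH l k0 n ≤ s2 * rr l k0 N := by
  unfold rhoH
  refine max_le (Nat.mul_le_mul_left _ (rr_mono l k0 h.le)) ?_
  calc rr l k0 (n + 1) ≤ 1 * rr l k0 N := by rw [one_mul]; exact rr_mono l k0 h
    _ ≤ s2 * rr l k0 N := Nat.mul_le_mul_right _ (by decide)

theorem rr_cond {l k0 : ℕ} (hl : 4 ≤ l) (k : ℕ) (hr : 2 ≤ rr l k0 k) :
    4 * nearR l k0 k + 3 * rr l k0 k + 2 ≤ rr l k0 (k + 1) := by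
  have h1 : 16 ≤ 2 ^ l := by
    calc 16 = 2 ^ 4 := by norm_num
      _ ≤ 2 ^ l := Nat.pow_le_pow_right (by norm_num) hl
  have h2 : 16 * rr l k0 k ≤ rr l k0 (k + 1) := by
    rw [rr_succ]; exact Nat.mul_le_mul_right _ h1
  unfold nearR
  omega

theorem rr_cond' {l k0 : ℕ} (hl : 4 ≤ l) (k : ℕ) :
    4 * nearR l k0 k + 3 * rr l k0 k + 2 ≤ rr l k0 (k + 1) := by
  have h1 : 16 ≤ 2 ^ l := by
    calc 16 = 2 ^ 4 := by norm_num
      _ ≤ 2 ^ l := Nat.pow_le_pow_right (by norm_num) hl
  have h2 : 16 * rr l k0 k ≤ rr l k0 (k + 1) := by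
    rw [rr_succ]; exact Nat.mul_le_mul_right _ h1
  have h3 := rr_pos l k0 k
  unfold nearR
  omega

/-- **two far points in a connected set** -/
theorem size_far {l k0 : ℕ} (hl : 4 ≤ l) {n N : ℕ} (hn : n < N) {U : Finset (G × G)}
    (hU : Conn fd (nearR l k0 n) U) {p q : G × G} (hp : p ∈ U) (hq : q ∈ U) {t : ℕ} (ht : 1 ≤ t)
    (hpq : t * rr l k0 N ≤ fd p q) : (t + 1) * (N - n) ≤ size (rr l k0 n) U := by
  rw [Bridgex915.size_eq_pack]
  refine pack_far_iter Bridgex915.pd_fd (fun _ _ h => nearR_mono l k0 h) (rr_cond' hl) hn hU hp hq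
    ht (le_trans (Nat.mul_le_mul_left _ ?_) hpq)
  obtain ⟨j, rfl⟩ : ∃ j, N = j + 1 := ⟨N - 1, by omega⟩
  have h1 := rr_cond' (k0 := k0) hl j
  rw [Nat.add_sub_cancel]
  omega

/-- **comparison of the activities at a source**, from the chart on a ball around the source -/
theorem cmpH_of {x : G × G} {Dd : ℕ} (b : BgIso w w' (ball x Dd)) {σ : Fin m' → Fin m}
    (j : Fin m') {l k0 n N : ℕ} (hl : 4 ≤ l) (hn : n < N)
    {H : Finset (G × G) → Ge (VS (Fld G) m)} {H' : Finset (G' × G') → Ge (VS (Fld G') m')}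
    (hH : ∀ U : Finset (G × G), U.Nonempty → nbhd (rhoH l k0 n) U ⊆ ball x Dd →
      mpG (pS b σ) (H U) = H' (U.image b.τ))
    (hD : (s2 + 2) * rr l k0 N ≤ Dd) {sf : Fin m → Finset (G × G)} {sf' : Fin m' → Finset (G' × G')}
    (hx : x ∈ sf (σ j)) (hsf : ∀ f ∈ sf (σ j), fd x f ≤ rr l k0 N)
    (hsf' : sf' j = (sf (σ j)).image b.τ)
    (hU : ∀ U, co {σ j} (H U) ≠ 0 → Conn fd (nearR l k0 n) U ∧ sf (σ j) ⊆ U)
    (hU' : ∀ U', co {j} (H' U') ≠ 0 → Conn fd (nearR l k0 n) U' ∧ sf' j ⊆ U') :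
    CmpH H H' (σ j) j sf sf' (size (rr l k0 n)) (size (rr l k0 n)) (N - n) := by
  have hρ : rhoH l k0 n ≤ s2 * rr l k0 N := rhoH_le hn
  have hD' : s2 * rr l k0 N + 2 * rr l k0 N ≤ Dd := by rw [← add_mul]; exact hD
  have hinj : Set.InjOn (Finset.image b.τ) {U | visH (ball x Dd) l k0 n U} := fun U h1 U' h2 he =>
    visH_inj b l k0 n U U' h1 h2 he
  have hvis : visH (ball x Dd) l k0 n (sf (σ j)) := by
    refine ⟨⟨x, hx⟩, ?_⟩
    rintro g ⟨f, hf, hg⟩
    rw [mem_ball]
    have := fd_triangle x f g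
    have := hsf f hf
    omega
  refine ⟨{U | visH (ball x Dd) l k0 n U}, Finset.image b.τ '' {U | visH (ball x Dd) l k0 n U},
    Equiv.Set.imageOfInjOn (Finset.image b.τ) _ hinj, ?_, hvis, ?_, ?_, ?_⟩
  · rintro ⟨U, hUv⟩
    have h1 := hH U hUv.1 hUv.2
    rw [← co_pS b σ j, h1]
    rfl
  · exact ⟨sf (σ j), hvis, hsf'.symm⟩
  · intro U hnv hne
    obtain ⟨hc, hs⟩ := hU U hne
    have hne' : U.Nonempty := ⟨x, hs hx⟩
    have h1 : ¬ nbhd (rhoH l k0 n) U ⊆ ball x Dd := fun h => hnv ⟨hne', h⟩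
    obtain ⟨g, ⟨u, hu, hg⟩, hgD⟩ := Set.not_subset.1 h1
    rw [mem_ball, not_le] at hgD
    have h2 := fd_triangle x u g
    have h3 := size_far (k0 := k0) hl hn hc (hs hx) hu (t := 1) le_rfl (by omega)
    omega
  · intro U' hnv hne
    obtain ⟨hc, hs⟩ := hU' U' hne
    have hx' : b.τ x ∈ U' := hs (by rw [hsf']; exact Finset.mem_image_of_mem _ hx)
    have h1 : ∃ u ∈ U', Dd - rhoH l k0 n < fd (b.τ x) u := by
      by_contra hcon
      push Not at hcon
      apply hnv
      have hY : ball x (Dd - rhoH l k0 n) ⊆ ball x Dd := ball_mono x (Nat.sub_le _ _)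
      have him := b.image_ball (x := x) (R := Dd - rhoH l k0 n) hY
      obtain ⟨U, hUY, hUe⟩ := exists_image b hY (U' := U') (fun f hf => by
        rw [him]; exact hcon f hf)
      refine ⟨U, ⟨?_, ?_⟩, hUe⟩
      · rw [← Finset.image_nonempty (f := b.τ), hUe]
        exact ⟨_, hx'⟩
      · rintro g ⟨u, hu, hg⟩
        have h2 := hUY u hu
        rw [mem_ball] at h2 ⊢
        have h3 := fd_triangle x u g
        omega
    obtain ⟨u, hu, hlt⟩ := h1
    have h3 := size_far (k0 := k0) hl hn hc hx' hu (t := 1) le_rfl (by omega)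
    omega

end chart

end Crest.Agent.R165.SrcCstx484
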