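import Crest.Agent.R165.SrcFin_441
import Crest.Agent.R165.SrcDef_991
import Crest.Agent.R165.PPb_63

/-!
# Row 165 (S0250), leaf P11 item 5: final scale algebra with `m` sources, part 2 (helper441)

The concrete algebra `Ge (VS V m)` of `SrcDef_991` with the norm `pG (wS g v)`.

* `dd_split`      : `s * pnorm w (dd l F) ≤ pnorm (w + s |l|) F`
* `coP_bd`        : `∏ v_i² * pG g (coP univ F) ≤ pG (wS g v) F`
* `coP_prod`      : `coP univ (∏ (1 + τ_i G_i)) = ∏ G_i`
* `coP_cvG`       : `coP` commutes with the convolution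
* `final_cmp`     : comparison of the two coefficients with the unperturbed product
* `final_literal` : item 5 of TEXT P11
-/

set_option autoImplicit false
set_option linter.unusedSectionVars false
set_option linter.unusedVariables false

noncomputable section

namespace Crest.Agent.R165.SrcFinBx441

open Finset
open scoped ENNReal Nat
open Crest.Agent.R165.FinBx900 Crest.Agent.R165.KStepx892
open Crest.Agent.R165.Gr0x606 Crest.Agent.R165.Gr1x606 Crest.Agent.R165.GeOpsx337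
  Crest.Agent.R165.ExpGx337 Crest.Agent.R165.PNormx417 Crest.Agent.R165.KFlowx337
  Crest.Agent.R165.SrcDefx991 Crest.Agent.R165.SrcFinx441 Crest.Agent.R165.GrLocx337
open Crest.Agent.R165.PPbx63 (ddR rval_ddR)

variable {V : Type*} [AddCommGroup V] [Module ℝ V] {m : ℕ}

/-! ### derivations and norms -/

theorem rwt_ddR_split (w : V → ℝ≥0∞) (l : Module.Dual ℝ V) (s : ℝ≥0∞) (L : List V) :
    s * rwt w (ddR l L) + mwt w L ≤ mwt (fun x => w x + s * ‖l x‖ₑ) L := by
  induction L with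
  | nil => simp [ddR]
  | cons x L ih =>
    have e : rwt w (ddR l (x :: L)) = ‖l x‖ₑ * mwt w L + w x * rwt w (ddR l L) := by
      rw [ddR, rwt_cons, Crest.Agent.R165.PPbx63.rwt_map_neg_cons]
    rw [e, mwt_cons, mwt_cons]
    have h2 : mwt w L ≤ mwt (fun x => w x + s * ‖l x‖ₑ) L :=
      mwt_mono (fun y => le_self_add) L
    calc s * (‖l x‖ₑ * mwt w L + w x * rwt w (ddR l L)) + w x * mwt w L
        = s * ‖l x‖ₑ * mwt w L + w x * (s * rwt w (ddR l L) + mwt w L) := by ring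
      _ ≤ s * ‖l x‖ₑ * mwt (fun x => w x + s * ‖l x‖ₑ) L +
          w x * mwt (fun x => w x + s * ‖l x‖ₑ) L := by gcongr
      _ = _ := by ring

/-- **one derivation** -/
theorem dd_split (w : V → ℝ≥0∞) (l : Module.Dual ℝ V) {s : ℝ} (hs : 0 < s) (F : Gr V) :
    ENNReal.ofReal s * pnorm w (dd l F) ≤ pnorm (fun x => w x + ENNReal.ofReal s * ‖l x‖ₑ) F := by
  have h0 : ENNReal.ofReal s ≠ 0 := by simpa using hs
  have hN : ESemi fun F : Gr V => ENNReal.ofReal s * pnorm w F := (pnorm_semi w).const_mul _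
  refine bound_of_mono_one hN (dd l) (fun L _ => ?_) F
  rw [← rval_ddR]
  calc ENNReal.ofReal s * pnorm w (rval (ddR l L)) ≤ ENNReal.ofReal s * rwt w (ddR l L) := by
        gcongr; exact pnorm_le_rwt _ _
    _ ≤ ENNReal.ofReal s * rwt w (ddR l L) + mwt w L := le_self_add
    _ ≤ _ := rwt_ddR_split w l _ L

/-- weight of one pair of sources -/
def vp (v : Fin m → ℝ≥0∞) (i : Fin m) (a : Src m) : ℝ≥0∞ := v i * (‖(a i).1‖ₑ + ‖(a i).2‖ₑ)

theorem cpair_split (w : VS V m → ℝ≥0∞) {v : Fin m → ℝ} {i : Fin m} (hv : 0 < v i)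
    (F : Ge (VS V m)) :
    ENNReal.ofReal (v i ^ 2) * pG w (cpair i F) ≤
      pG (fun x => w x + vp (fun i => ENNReal.ofReal (v i)) i x.2) F := by
  have h1 := dd_split w (dth' i) hv (dd (dth i) (F : Gr (VS V m)))
  have h2 := dd_split (fun x => w x + ENNReal.ofReal (v i) * ‖dth' i x‖ₑ) (dth i) hv
    (F : Gr (VS V m))
  have e1 : ENNReal.ofReal (v i ^ 2) = ENNReal.ofReal (v i) * ENNReal.ofReal (v i) := by
    rw [pow_two, ENNReal.ofReal_mul hv.le]
  rw [pG_def, coe_cpair, e1, mul_assoc]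
  refine (mul_le_mul' le_rfl h1).trans (h2.trans (le_of_eq ?_))
  rw [pG_def]
  congr 1
  funext x
  simp only [vp, dth, dth', LinearMap.comp_apply, LinearMap.fst_apply, LinearMap.snd_apply,
    LinearMap.proj_apply]
  ring

/-- iterated coefficients along a list -/
def cpL (L : List (Fin m)) : Module.End ℝ (Ge (VS V m)) := (L.map cpair).prod

@[simp] theorem cpL_nil (F : Ge (VS V m)) : cpL [] F = F := rfl

@[simp] theorem cpL_cons (i : Fin m) (L : List (Fin m)) (F : Ge (VS V m)) :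
    cpL (i :: L) F = cpair i (cpL L F) := by
  simp [cpL]

theorem coP_eq (I : Finset (Fin m)) (F : Ge (VS V m)) :
    coP I F = noS (cpL (I.sort (· ≤ ·)) F) := rfl

theorem cpL_split (L : List (Fin m)) {v : Fin m → ℝ} (hv : ∀ i, 0 < v i) (w : VS V m → ℝ≥0∞)
    (F : Ge (VS V m)) :
    ENNReal.ofReal ((L.map fun i => v i ^ 2).prod) * pG w (cpL L F) ≤
      pG (fun x => w x + (L.map fun i => vp (fun i => ENNReal.ofReal (v i)) i x.2).sum) F := by
  induction L generalizing w with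
  | nil => simp
  | cons i L ih =>
    rw [cpL_cons, List.map_cons, List.prod_cons, mul_comm (v i ^ 2),
      ENNReal.ofReal_mul (List.prod_nonneg (by
        intro a ha
        obtain ⟨j, -, rfl⟩ := List.mem_map.1 ha
        positivity)), mul_assoc]
    refine (mul_le_mul' le_rfl (cpair_split w (hv i) _)).trans ((ih _).trans (le_of_eq ?_))
    congr 1
    funext x
    rw [List.map_cons, List.sum_cons, add_assoc]

theorem pG_mp_le {V' : Type*} [AddCommGroup V'] [Module ℝ V'] {w : V → ℝ≥0∞} {w' : V' → ℝ≥0∞}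
    (f : V →ₗ[ℝ] V') (h : ∀ x, w' (f x) ≤ w x) (F : Ge V) : pG w' (mpG f F) ≤ pG w F := by
  rw [pG_def, pG_def, coe_mpG]
  exact pnorm_mp_le f h _

theorem sort_perm_sum {α : Type*} [AddCommMonoid α] (I : Finset (Fin m)) (f : Fin m → α) :
    ((I.sort (· ≤ ·)).map f).sum = ∑ i ∈ I, f i := by
  rw [← Finset.sum_map_toList]
  exact ((Finset.sort_perm_toList I _).map f).sum_eq

theorem sort_perm_prod {α : Type*} [CommMonoid α] (I : Finset (Fin m)) (f : Fin m → α) :
    ((I.sort (· ≤ ·)).map f).prod = ∏ i ∈ I, f i := by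
  rw [← Finset.prod_map_toList]
  exact ((Finset.sort_perm_toList I _).map f).prod_eq

/-- **norm splitting** -/
theorem coP_bd (I : Finset (Fin m)) {v : Fin m → ℝ} (hv : ∀ i, 0 < v i) (g : V → ℝ≥0∞)
    (F : Ge (VS V m)) :
    ENNReal.ofReal (∏ i ∈ I, v i ^ 2) * pG g (coP I F) ≤
      pG (wS g fun i => ENNReal.ofReal (v i)) F := by
  have h1 := cpL_split (I.sort (· ≤ ·)) hv (fun x : VS V m => g x.1) F
  rw [sort_perm_prod] at h1
  rw [coP_eq]
  have h2 : pG g (noS (cpL (I.sort (· ≤ ·)) F)) ≤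
      pG (fun x : VS V m => g x.1) (cpL (I.sort (· ≤ ·)) F) :=
    pG_mp_le _ (fun x => le_rfl) _
  refine (mul_le_mul' le_rfl h2).trans (h1.trans ?_)
  refine pnorm_le_pnorm (fun x => ?_) _
  simp only [wS, vS, sort_perm_sum]
  gcongr
  exact sum_le_sum_of_subset (f := fun i => vp (fun i => ENNReal.ofReal (v i)) i x.2) (subset_univ I)

/-! ### `coP` and products -/

theorem dd_prod_zero (l : Module.Dual ℝ (VS V m)) {ι : Type*} (s : Finset ι)
    (f : ι → Ge (VS V m)) (h : ∀ i ∈ s, dd l ((f i : Ge (VS V m)) : Gr (VS V m)) = 0) :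
    dd l ((∏ i ∈ s, f i : Ge (VS V m)) : Gr (VS V m)) = 0 := by
  classical
  induction s using Finset.induction_on with
  | empty => simp
  | insert a s ha ih =>
    rw [prod_insert ha, Ge.coe_mul, dd_mul, h a (mem_insert_self _ _), zero_mul, zero_add,
      ih fun i hi => h i (mem_insert_of_mem hi), mul_zero]

/-- the factor with source `i` -/
def fac (G : Fin m → Ge V) (i : Fin m) : Ge (VS V m) := 1 + tau i * inG m (G i)

theorem dd_fac_ne {G : Fin m → Ge V} {i j : Fin m} (h : j ≠ i) :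
    dd (dth i) ((fac G j : Ge (VS V m)) : Gr (VS V m)) = 0 ∧
      dd (dth' i) ((fac G j : Ge (VS V m)) : Gr (VS V m)) = 0 := by
  have hj : ∀ l : Module.Dual ℝ (VS V m), l (th j) = 0 → l (th' j) = 0 → (∀ x : V, l (x, 0) = 0) →
      dd l ((fac G j : Ge (VS V m)) : Gr (VS V m)) = 0 := by
    intro l h1 h2 h3
    rw [fac, Ge.coe_add, map_add, Ge.coe_one, dd_one, zero_add, Ge.coe_mul, dd_mul, dd_tau, h1, h2,
      dd_inG l h3]
    simp
  exact ⟨hj _ (by simp [h]) (by simp) (dth_inl i), hj _ (by simp) (by simp [h]) (dth'_inl i)⟩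

theorem cpair_prod {G : Fin m → Ge V} {s : Finset (Fin m)} {i : Fin m} (hi : i ∈ s)
    (a : Ge V) : cpair i (inG m a * ∏ j ∈ s, fac G j) =
      inG m (a * G i) * ∏ j ∈ s.erase i, fac G j := by
  classical
  set Q : Ge (VS V m) := ∏ j ∈ s.erase i, fac G j with hQ
  have q1 : dd (dth i) (Q : Gr (VS V m)) = 0 :=
    dd_prod_zero _ _ _ fun j hj => (dd_fac_ne (ne_of_mem_erase hj)).1
  have q2 : dd (dth' i) (Q : Gr (VS V m)) = 0 :=
    dd_prod_zero _ _ _ fun j hj => (dd_fac_ne (ne_of_mem_erase hj)).2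
  have e1 : ∏ j ∈ s, fac G j = Q + tau i * (inG m (G i) * Q) := by
    rw [← mul_prod_erase s (fac G) hi, ← hQ, fac]; ring
  have e2 : cpair i Q = 0 := by
    apply ge_ext
    rw [coe_cpair, q1, map_zero]; rfl
  have e3 : cpair i (tau i * (inG m (G i) * Q)) = inG m (G i) * Q := by
    apply cpair_tau_mul_self
    · rw [Ge.coe_mul, dd_mul, q1, mul_zero, dd_inG _ (dth_inl i), zero_mul, add_zero]
    · rw [Ge.coe_mul, dd_mul, q2, mul_zero, dd_inG _ (dth'_inl i), zero_mul, add_zero]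
  rw [cpair_inG_mul, e1, map_add, e2, e3, zero_add, map_mul]
  ring

theorem cpL_prod (G : Fin m → Ge V) (L : List (Fin m)) (hL : L.Nodup) :
    cpL L (∏ j, fac G j) = inG m ((L.map G).prod) * ∏ j ∈ univ.filter (· ∉ L), fac G j := by
  classical
  induction L with
  | nil => simp
  | cons i L ih =>
    rw [List.nodup_cons] at hL
    rw [cpL_cons, ih hL.2, cpair_prod (mem_filter.2 ⟨mem_univ i, hL.1⟩), List.map_cons,
      List.prod_cons, mul_comm (G i)]
    congr 2
    ext j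
    simp only [mem_erase, mem_filter, mem_univ, true_and, List.mem_cons, not_or]

/-- **top coefficient of the product** -/
theorem coP_prod (G : Fin m → Ge V) : coP univ (∏ j, fac G j) = ∏ j, G j := by
  classical
  rw [coP_eq, cpL_prod G _ (Finset.sort_nodup _ _), map_mul, noS_inG, sort_perm_prod]
  have : (univ.filter fun j : Fin m => j ∉ (univ : Finset (Fin m)).sort (· ≤ ·)) = ∅ := by
    rw [filter_eq_empty_iff]
    intro j _
    simp
  rw [this, prod_empty, map_one, mul_one]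

/-- **bottom coefficient of the product** -/
theorem noS_prod (G : Fin m → Ge V) : noS (∏ j, fac G j) = 1 := by
  rw [map_prod]
  refine prod_eq_one fun j _ => ?_
  rw [fac, map_add, map_one, map_mul, noS_tau, zero_mul, add_zero]

/-! ### `coP` and convolutions -/

theorem cpair_cvG (S : Cov V) (i : Fin m) (F : Ge (VS V m)) :
    cpair i (cvG (ext0 m S) F) = cvG (ext0 m S) (cpair i F) := by
  apply ge_ext
  rw [coe_cpair, coe_cvG, coe_cvG, coe_cpair, conv_dd, conv_dd]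

theorem cpL_cvG (S : Cov V) (L : List (Fin m)) (F : Ge (VS V m)) :
    cpL L (cvG (ext0 m S) F) = cvG (ext0 m S) (cpL L F) := by
  induction L with
  | nil => rfl
  | cons i L ih => rw [cpL_cons, cpL_cons, ih, cpair_cvG]

theorem coP_cvG (S : Cov V) (I : Finset (Fin m)) (F : Ge (VS V m)) :
    coP I (cvG (ext0 m S) F) = cvG S (coP I F) := by
  rw [coP_eq, coP_eq, cpL_cvG, noS_cvG]

theorem ctG_coP_cvG (S : Cov V) (I : Finset (Fin m)) (F : Ge (VS V m)) :
    ctG (coP I (cvG (ext0 m S) F)) = EEG S (coP I F) := by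
  rw [coP_cvG, ctG_cvG]

theorem ctG_noS (F : Ge (VS V m)) : ctG (noS F) = ctG F := Crest.Agent.R165.GeOpsx337.ctG_mpG _ _

/-! ### the functionals -/

/-- top functional -/
def tp (m : ℕ) (S : Cov V) : Ge (VS V m) →ₗ[ℝ] ℝ := EEG S ∘ₗ coP univ

/-- bottom functional -/
def bt (m : ℕ) (S : Cov V) : Ge (VS V m) →ₗ[ℝ] ℝ := EEG S ∘ₗ (noS (V := V) (m := m)).toLinearMap

theorem tp_apply (S : Cov V) (F : Ge (VS V m)) : tp m S F = EEG S (coP univ F) := rfl

theorem bt_apply (S : Cov V) (F : Ge (VS V m)) : bt m S F = EEG S (noS F) := rfl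

theorem ra_pG (w : V → ℝ≥0∞) : RA (fun a : Ge V => pG w a) where
  toRN := rn_pnorm w
  smul c x := pG_smul_le w c x

theorem EEG_bd {S : Cov V} {g : V → ℝ≥0∞} (h : Gram S g) {F : Ge V} {t : ℝ} (ht : 0 ≤ t)
    (hF : Bd (fun a : Ge V => pG g a) F t) : |EEG S F| ≤ t := by
  have h1 := (EE_le_pnorm h (F : Gr V)).trans hF
  rw [← ofReal_norm, ENNReal.ofReal_le_ofReal_iff ht, Real.norm_eq_abs] at h1
  exact h1

theorem bt_bd {S : Cov V} {g : V → ℝ≥0∞} (h : Gram S g) (v : Fin m → ℝ≥0∞) {F : Ge (VS V m)}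
    {t : ℝ} (ht : 0 ≤ t) (hF : Bd (fun a : Ge (VS V m) => pG (wS g v) a) F t) :
    |bt m S F| ≤ t := by
  refine EEG_bd h ht ?_
  refine le_trans ?_ hF
  exact pG_mp_le _ (fun x => le_self_add) _

theorem tp_bd {S : Cov V} {g : V → ℝ≥0∞} (h : Gram S g) {v : Fin m → ℝ} (hv : ∀ i, 0 < v i)
    {F : Ge (VS V m)} {t : ℝ} (ht : 0 ≤ t)
    (hF : Bd (fun a : Ge (VS V m) => pG (wS g fun i => ENNReal.ofReal (v i)) a) F t) :
    |tp m S F| ≤ (∏ i, v i ^ 2)⁻¹ * t := by
  have hp : 0 < ∏ i, v i ^ 2 := prod_pos fun i _ => by have := hv i; positivity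
  refine EEG_bd h (by positivity) ?_
  have h1 := (coP_bd univ hv g F).trans hF
  unfold Bd
  rw [ENNReal.ofReal_mul (by positivity), ENNReal.ofReal_inv_of_pos hp]
  rwa [← ENNReal.div_eq_inv_mul, ENNReal.le_div_iff_mul_le (Or.inl (by simpa using hp))
    (Or.inl ENNReal.ofReal_ne_top), mul_comm]

/-! ### the source part of the exponent -/

theorem ctG_tau (i : Fin m) : ctG (tau i : Ge (VS V m)) = 0 := by
  rw [ctG_apply, tau, coe_bi, map_mul, ct_fi, zero_mul]

theorem gexp_tau (c : ℝ) (i : Fin m) : gexp (c • tau i : Ge (VS V m)) = 1 + c • tau i := by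
  refine gexp_sq_zero ?_ ?_
  · rw [smul_mul_smul_comm, tau_sq, smul_zero]
  · rw [map_smul, ctG_tau, smul_zero]

/-- factorisation of the exponential -/
theorem gexp_split (E : Ge (VS V m)) (c : Fin m → ℝ) :
    gexp E = Real.exp (ctG E) • ((∏ i, (1 + c i • tau i)) *
      gexp (E - algebraMap ℝ _ (ctG E) - ∑ i, c i • tau i)) := by
  have e : E = algebraMap ℝ _ (ctG E) + (∑ i, c i • tau i +
      (E - algebraMap ℝ _ (ctG E) - ∑ i, c i • tau i)) := by abel
  have e2 : ∏ i, (1 + c i • tau i : Ge (VS V m)) = gexp (∑ i, c i • tau i) := by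
    rw [gexp_sum]
    exact prod_congr rfl fun i _ => (gexp_tau (c i) i).symm
  rw [e2, ← gexp_add, Algebra.smul_def, ← gexp_algebraMap, ← gexp_add, ← e]

/-! ### final scale data -/

theorem mem_grG_top (a : Ge V) : a ∈ grG (⊤ : Submodule ℝ V) := by
  rw [mem_grG]
  refine Gr.induction (P := fun a => a ∈ gr (⊤ : Submodule ℝ V)) ?_ ?_ ?_ (a : Gr V)
  · intro r; exact Subalgebra.algebraMap_mem _ _
  · intro x a ih; exact mul_mem (fi_mem_gr trivial) ih
  · intro a b iha ihb; exact add_mem iha ihb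

/-- source fields -/
def srcW (V : Type*) [AddCommGroup V] [Module ℝ V] (m : ℕ) : Submodule ℝ (VS V m) :=
  LinearMap.ker (LinearMap.fst ℝ V (Src m))

theorem mem_srcW {x : VS V m} : x ∈ srcW V m ↔ x.1 = 0 := LinearMap.mem_ker

theorem vac_mem {E : Ge (VS V m)} (h : vacH E = E) : E ∈ grG (srcW V m) := by
  rw [← h]
  refine mpG_mem _ (W := ⊤) (fun x _ => ?_) (mem_grG_top E)
  rw [mem_srcW]
  simp

theorem ext0_src (S : Cov V) : ∀ x ∈ srcW V m, ∀ y, (ext0 m S).b x y = 0 := by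
  intro x hx y
  rw [ext0_b, mem_srcW.1 hx, map_zero, LinearMap.zero_apply]

/-- moving a source exponential through the convolution -/
theorem gexp_cvG {E : Ge (VS V m)} (h : vacH E = E) (S : Cov V) (X : Ge (VS V m)) :
    gexp E * cvG (ext0 m S) X = cvG (ext0 m S) (gexp E * X) :=
  (KFlowx337.Sys.cvG_src_mul (ext0_src S) (ExpGx337.gexp_mem (vac_mem h)) X).symm

section final

variable {F : Type*} [DecidableEq F]

/-- the norm used at the final scale -/
def Nw (g : V → ℝ≥0∞) (v : Fin m → ℝ) (a : Ge (VS V m)) : ℝ≥0∞ :=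
  pG (wS g fun i => ENNReal.ofReal (v i)) a

theorem ra_Nw (g : V → ℝ≥0∞) (v : Fin m → ℝ) : RA (Nw g v) := ra_pG _

theorem wS_th (g : V → ℝ≥0∞) (h0 : g 0 = 0) (v : Fin m → ℝ) (i : Fin m) :
    wS g (fun i => ENNReal.ofReal (v i)) (th i) = ENNReal.ofReal (v i) := by
  classical
  simp only [wS, vS, th, h0, zero_add]
  rw [sum_eq_single i]
  · simp
  · intro j _ hj
    simp [Pi.single_eq_of_ne hj]
  · intro h; exact absurd (mem_univ i) h

theorem wS_th' (g : V → ℝ≥0∞) (h0 : g 0 = 0) (v : Fin m → ℝ) (i : Fin m) :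
    wS g (fun i => ENNReal.ofReal (v i)) (th' i) = ENNReal.ofReal (v i) := by
  classical
  simp only [wS, vS, th', h0, zero_add]
  rw [sum_eq_single i]
  · simp
  · intro j _ hj
    simp [Pi.single_eq_of_ne hj]
  · intro h; exact absurd (mem_univ i) h

theorem bd_tau {g : V → ℝ≥0∞} (h0 : g 0 = 0) {v : Fin m → ℝ} (i : Fin m) (hv : 0 < v i) :
    Bd (Nw g v) (tau i) (v i ^ 2) := by
  have h1 : Nw g v (tau i) ≤ wS g (fun i => ENNReal.ofReal (v i)) (th i) *
      wS g (fun i => ENNReal.ofReal (v i)) (th' i) := by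
    have := pnorm_mono_le (wS g fun i => ENNReal.ofReal (v i)) [th (V := V) i, th' i]
    simp only [mono_cons, mono_nil, mul_one, mwt_cons, mwt_nil] at this
    exact this
  rw [wS_th g h0, wS_th' g h0, ← ENNReal.ofReal_mul hv.le, ← pow_two] at h1
  exact h1

theorem bd_inG (g : V → ℝ≥0∞) (v : Fin m → ℝ) {a : Ge V} {t : ℝ}
    (h : Bd (fun a : Ge V => pG g a) a t) : Bd (Nw g v) (inG m a) t := by
  refine le_trans ?_ h
  refine pG_mp_le _ (fun x => ?_) _
  simp [wS, vS]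

/-- **final scale data** (item 5 of TEXT P11): activities `K`, vacuum exponent `E`, bond faces `U`,
running factors `ζ`, constants `c`, bond bilinears `β`, remaining covariance `Sf`, Gram weight `g`,
source weights `v` -/
structure FinD (near : F → F → Prop) (Λ : Finset F) (K : Finset F → Ge (VS V m))
    (E : Ge (VS V m)) (U : Fin m → Finset F) (ζ c : Fin m → ℝ) (β : Fin m → Ge V) (Sf : Cov V)
    (g : V → ℝ≥0∞) (v : Fin m → ℝ) (ε C₁ : ℝ) : Prop where
  gram : Gram Sf g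
  g0 : g 0 = 0
  v0 : ∀ i, 0 < v i
  ε0 : 0 ≤ ε
  C0 : 0 ≤ C₁
  inj : Function.Injective U
  ne : ∀ i, (U i).Nonempty
  sub : ∀ i, U i ⊆ Λ
  sep : ∀ i j, i ≠ j → ¬ touch near (U i) (U j)
  vac : vacH E = E
  rest : ∑ W ∈ nes Λ, Nw g v (K W - lead U (fun i => ζ i • (tau i * inG m (β i))) W) ≤
    ENNReal.ofReal ε
  vrest : Bd (Nw g v) (E - algebraMap ℝ _ (ctG E) - ∑ i, c i • tau i) ε
  hβ : ∀ i, Bd (fun a : Ge V => pG g a) (β i) (C₁ / v i ^ 2)
  hζ : ∀ i, |ζ i| ≤ C₁
  cst : ∀ i, |c i| * v i ^ 2 ≤ C₁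

variable {near : F → F → Prop} {Λ : Finset F} {K : Finset F → Ge (VS V m)}
  {E : Ge (VS V m)} {U : Fin m → Finset F} {ζ c : Fin m → ℝ} {β : Fin m → Ge V} {Sf : Cov V}
  {g : V → ℝ≥0∞} {v : Fin m → ℝ} {ε C₁ : ℝ}

/-- effective accuracy -/
def ηf (m : ℕ) (C₁ ε : ℝ) : ℝ := 2 * Real.exp (m * C₁ ^ 2) * ε

/-- effective bound -/
def Mf (C₁ : ℝ) : ℝ := 1 + C₁ + C₁ ^ 2

theorem exp_sub_one_le {ε : ℝ} (h0 : 0 ≤ ε) (h1 : ε ≤ 1) : Real.exp ε - 1 ≤ 2 * ε :=
  Crest.Agent.R165.GExpx900.real_exp_sub_one_le_two h0 h1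

theorem FinD.bd_lead (h : FinD near Λ K E U ζ c β Sf g v ε C₁) (i : Fin m) :
    Bd (Nw g v) (tau i * inG m (ζ i • β i)) (C₁ ^ 2) := by
  have hv := h.v0 i
  have h1 := (h.hβ i).smul (ra_pG g) (ζ i)
  have h2 := (bd_tau h.g0 i hv).mul (ra_Nw g v) (bd_inG g v h1) (by positivity)
  refine h2.mono ?_
  have hC := h.C0
  have e : v i ^ 2 * (|ζ i| * (C₁ / v i ^ 2)) = |ζ i| * C₁ := by field_simp
  rw [e, pow_two]
  exact mul_le_mul_of_nonneg_right (h.hζ i) hC

theorem FinD.finA (h : FinD near Λ K E U ζ c β Sf g v ε C₁) (hη : ηf m C₁ ε ≤ 1) :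
    FinA (Nw g v) (fun i => tau i) (fun i => inG m (ζ i • β i)) c c 1 1
      (gexp (E - algebraMap ℝ _ (ctG E) - ∑ i, c i • tau i)) (ZZ near Λ K) (Mf C₁) (ηf m C₁ ε) := by
  have hC := h.C0
  have hε := h.ε0
  have hexp : 1 ≤ Real.exp (m * C₁ ^ 2) := Real.one_le_exp (by positivity)
  have hη0 : 0 ≤ ηf m C₁ ε := by unfold ηf; positivity
  have h2ε : 2 * ε ≤ ηf m C₁ ε := by
    unfold ηf
    have := mul_le_mul_of_nonneg_right hexp hε
    nlinarith
  have hε1 : ε ≤ 1 := by linarith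
  have hN := ra_Nw (V := V) (m := m) g v
  refine ⟨hN, ?_, hη0, hη, fun i => tau_sq i, fun i => ?_, fun i => ?_, ?_, ?_, fun i => ?_, ?_,
    ?_, ?_⟩
  · unfold Mf; nlinarith
  · refine ((bd_tau h.g0 i (h.v0 i)).smul hN (c i)).mono ((h.cst i).trans ?_)
    unfold Mf; nlinarith
  · refine (h.bd_lead i).mono ?_
    unfold Mf; linarith
  · rw [abs_one]; unfold Mf; nlinarith
  · rw [abs_one]; unfold Mf; nlinarith
  · rw [one_mul, sub_self, zero_smul]
    exact (bd_zero hN).mono hη0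
  · rw [sub_self, abs_zero]; exact hη0
  · have hct : ctG (E - algebraMap ℝ _ (ctG E) - ∑ i, c i • tau i) = 0 := by
      rw [map_sub, map_sub, map_sum, AlgHom.commutes]
      simp [ctG_tau]
    have hnl : nl (E - algebraMap ℝ _ (ctG E) - ∑ i, c i • tau i) =
        E - algebraMap ℝ _ (ctG E) - ∑ i, c i • tau i := by
      rw [nl, hct, map_zero, sub_zero]
    have := gexp_bd hN (a := E - algebraMap ℝ _ (ctG E) - ∑ i, c i • tau i) (c := 0) (t := ε) hε
      (by rw [hct, abs_zero]) (by rw [hnl]; exact h.vrest)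
    refine this.mono ?_
    rw [zero_add]
    exact (exp_sub_one_le hε hε1).trans h2ε
  · have e1 : ∏ i, (1 + (1 : ℝ) • (tau i * inG m (ζ i • β i))) =
        ZZ near Λ (lead U fun i => ζ i • (tau i * inG m (β i))) := by
      rw [zz_lead near h.inj h.ne h.sub h.sep]
      refine prod_congr rfl fun i _ => ?_
      rw [one_smul, map_smul, mul_smul_comm]
    rw [e1]
    have hl : ∀ i, Bd (Nw g v) (ζ i • (tau i * inG m (β i))) (C₁ ^ 2) := fun i => by
      have := h.bd_lead i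
      rwa [map_smul, mul_smul_comm] at this
    have := zz_lip hN near Λ K (lead U fun i => ζ i • (tau i * inG m (β i)))
      (M := m * C₁ ^ 2) (η := ε) (by positivity) hε (sum_lead_le hN (by positivity) hl) h.rest
    refine this.mono ?_
    unfold ηf
    have h3 := exp_sub_one_le hε hε1
    nlinarith [Real.exp_pos (m * C₁ ^ 2)]

/-- the two coefficients of the final state -/
theorem FinD.eval (h : FinD near Λ K E U ζ c β Sf g v ε C₁) :
    ctG (coP univ (gexp E * cvG (ext0 m Sf) (ZZ near Λ K))) = tp m Sf (gexp E * ZZ near Λ K) ∧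
    ctG (gexp E * cvG (ext0 m Sf) (ZZ near Λ K)) = bt m Sf (gexp E * ZZ near Λ K) := by
  rw [gexp_cvG h.vac]
  refine ⟨ctG_coP_cvG _ _ _, ?_⟩
  rw [ctG_cvG, EEG_ext0]; rfl

theorem P0_fac (ζ c : Fin m → ℝ) (β : Fin m → Ge V) :
    P0 (fun i => tau i) (fun i => inG m (ζ i • β i)) c 1 =
      ∏ i, fac (fun i => ζ i • β i + algebraMap ℝ _ (c i)) i := by
  unfold P0 fac
  refine prod_congr rfl fun i _ => ?_
  rw [one_mul, one_smul, map_add, AlgHom.commutes, Algebra.algebraMap_eq_smul_one, add_comm (c i • _)]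

/-- constant of the final estimate -/
def Kf (m : ℕ) (C₁ : ℝ) : ℝ :=
  2 * Cc m (Mf C₁) * (1 + Bc (Mf C₁) ^ m) * (2 * Real.exp (m * C₁ ^ 2))

/-- **item 5 of TEXT P11** -/
theorem FinD.final_literal (h : FinD near Λ K E U ζ c β Sf g v ε C₁) (hη : ηf m C₁ ε ≤ 1)
    (hsm : Cc m (Mf C₁) * ηf m C₁ ε ≤ 1 / 2) :
    |ctG (coP univ (gexp E * cvG (ext0 m Sf) (ZZ near Λ K))) /
        ctG (gexp E * cvG (ext0 m Sf) (ZZ near Λ K)) -
      EEG Sf (∏ i, (ζ i • β i + algebraMap ℝ _ (c i)))| ≤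
      Kf m C₁ * ε * (∏ i, v i ^ 2)⁻¹ := by
  have hp : 0 < ∏ i, v i ^ 2 := prod_pos fun i _ => by have := h.v0 i; positivity
  have hA := h.finA hη
  have key := hA.ratio (A := (∏ i, v i ^ 2)⁻¹) (c := ctG E) (tp m Sf) (bt m Sf) (by positivity)
    (fun x t ht hx => tp_bd h.gram h.v0 ht hx) (fun x t ht hx => bt_bd h.gram _ ht hx)
    (by rw [P0_fac, bt_apply, noS_prod, EEG_one]) hsm
  rw [P0_fac, tp_apply _ (∏ i, fac _ i), coP_prod] at key
  obtain ⟨e1, e2⟩ := h.eval
  have e3 : gexp E * ZZ near Λ K = Real.exp (ctG E) • ((∏ i, (1 + c i • tau i)) *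
      gexp (E - algebraMap ℝ _ (ctG E) - ∑ i, c i • tau i) * ZZ near Λ K) := by
    conv_lhs => rw [gexp_split E c]
    rw [smul_mul_assoc]
  rw [e1, e2, e3]
  refine key.trans (le_of_eq ?_)
  unfold Kf ηf
  ring

/-- comparison of two products of affine bilinears -/
theorem prod_cmp {S : Cov V} {g : V → ℝ≥0∞} (hS : Gram S g) {v : Fin m → ℝ} (hv : ∀ i, 0 < v i)
    {G G' : Fin m → Ge V} {B δ : ℝ} (hB : 1 ≤ B) (hδ : 0 ≤ δ)
    (hG : ∀ i, Bd (fun a : Ge V => pG g a) (G i) (B / v i ^ 2))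
    (hG' : ∀ i, Bd (fun a : Ge V => pG g a) (G' i) (B / v i ^ 2))
    (hd : ∀ i, Bd (fun a : Ge V => pG g a) (G i - G' i) (δ / v i ^ 2)) :
    |EEG S (∏ i, G i) - EEG S (∏ i, G' i)| ≤ m * B ^ m * δ * (∏ i, v i ^ 2)⁻¹ := by
  have hp : 0 < ∏ i, v i ^ 2 := prod_pos fun i _ => by have := hv i; positivity
  have hN := ra_pG (V := V) g
  have cardm : (univ : Finset (Fin m)).card = m := by rw [card_univ, Fintype.card_fin]
  have sc : ∀ (a : Ge V) (i : Fin m) (t : ℝ), Bd (fun a : Ge V => pG g a) a (t / v i ^ 2) →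
      Bd (fun a : Ge V => pG g a) (v i ^ 2 • a) t := by
    intro a i t h
    have hvi := hv i
    have := h.smul hN (v i ^ 2)
    rw [abs_of_pos (by positivity)] at this
    have e : v i ^ 2 * (t / v i ^ 2) = t := by field_simp
    rwa [e] at this
  have h1 := Bd.prod_sub hN univ (f := fun i => v i ^ 2 • G i) (g := fun i => v i ^ 2 • G' i) hB hδ
    (fun i _ => sc _ i _ (hG i)) (fun i _ => sc _ i _ (hG' i))
    (fun i _ => by rw [← smul_sub]; exact sc _ i _ (hd i))
  rw [cardm] at h1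
  have h2 := EEG_bd hS (by positivity) h1
  have e1 : ∀ H : Fin m → Ge V, ∏ i, (v i ^ 2 • H i) = (∏ i, v i ^ 2) • ∏ i, H i := fun H => by
    rw [prod_smul]
  rw [e1, e1, ← smul_sub, map_smul, smul_eq_mul, abs_mul, abs_of_pos hp, map_sub] at h2
  rw [← div_eq_mul_inv, le_div_iff₀ hp, mul_comm]
  exact h2

/-- **comparison with the unperturbed product** `∏ (β_i + c0_i)`, factor `Ze ^ m` -/
theorem FinD.final_cmp (h : FinD near Λ K E U ζ c β Sf g v ε C₁) (hη : ηf m C₁ ε ≤ 1)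
    (hsm : Cc m (Mf C₁) * ηf m C₁ ε ≤ 1 / 2) {Ze : ℝ} {c0 : Fin m → ℝ} {δ : ℝ} (hδ : 0 ≤ δ)
    (hδ1 : δ ≤ 1) (h1 : ∀ i, |ζ i - Ze| ≤ δ) (h2 : ∀ i, |c i - Ze * c0 i| * v i ^ 2 ≤ δ) :
    |ctG (coP univ (gexp E * cvG (ext0 m Sf) (ZZ near Λ K))) /
        ctG (gexp E * cvG (ext0 m Sf) (ZZ near Λ K)) -
      Ze ^ m * EEG Sf (∏ i, (β i + algebraMap ℝ _ (c0 i)))| ≤
      (Kf m C₁ * ε + m * (2 * (1 + C₁) ^ 2) ^ m * ((1 + C₁) * δ)) * (∏ i, v i ^ 2)⁻¹ := by
  have hC := h.C0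
  have hN := ra_pG (V := V) g
  have key := h.final_literal hη hsm
  have hcst : ∀ (i : Fin m) (x t : ℝ), |x| * v i ^ 2 ≤ t →
      Bd (fun a : Ge V => pG g a) (algebraMap ℝ (Ge V) x) (t / v i ^ 2) := by
    intro i x t hx
    have hvi := h.v0 i
    have := (bd_one hN).smul hN x
    rw [mul_one, ← Algebra.algebraMap_eq_smul_one] at this
    refine this.mono ?_
    rw [le_div_iff₀ (by positivity)]
    exact hx
  have hpos : ∀ i, 0 < v i ^ 2 := fun i => by have := h.v0 i; positivity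
  have b1 : ∀ i, Bd (fun a : Ge V => pG g a) (ζ i • β i) (C₁ ^ 2 / v i ^ 2) := fun i => by
    refine ((h.hβ i).smul hN (ζ i)).mono ?_
    rw [← mul_div_assoc]
    have := mul_le_mul_of_nonneg_right (h.hζ i) hC
    have e : C₁ ^ 2 = C₁ * C₁ := by ring
    rw [e]
    exact div_le_div_of_nonneg_right this (hpos i).le
  have b3 : ∀ i, Bd (fun a : Ge V => pG g a)
      ((ζ i • β i + algebraMap ℝ _ (c i)) - Ze • (β i + algebraMap ℝ _ (c0 i)))
      ((1 + C₁) * δ / v i ^ 2) := by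
    intro i
    have e : (ζ i • β i + algebraMap ℝ _ (c i)) - Ze • (β i + algebraMap ℝ _ (c0 i)) =
        (ζ i - Ze) • β i + algebraMap ℝ (Ge V) (c i - Ze * c0 i) := by
      rw [smul_add, map_sub, map_mul, sub_smul, Algebra.smul_def Ze (algebraMap ℝ (Ge V) (c0 i))]
      abel
    rw [e]
    have t1 := ((h.hβ i).smul hN (ζ i - Ze)).add hN (hcst i _ _ (h2 i))
      (by have := hpos i; positivity) (by have := hpos i; positivity)
    refine t1.mono ?_
    rw [← mul_div_assoc, ← add_div]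
    refine div_le_div_of_nonneg_right ?_ (hpos i).le
    have := mul_le_mul_of_nonneg_right (h1 i) hC
    linarith
  have b2 : ∀ i, Bd (fun a : Ge V => pG g a) (ζ i • β i + algebraMap ℝ _ (c i))
      (2 * (1 + C₁) ^ 2 / v i ^ 2) := by
    intro i
    refine ((b1 i).add hN (hcst i _ _ (h.cst i)) (by have := hpos i; positivity)
      (by have := hpos i; positivity)).mono ?_
    rw [← add_div]
    refine div_le_div_of_nonneg_right ?_ (hpos i).le
    nlinarith
  have b4 : ∀ i, Bd (fun a : Ge V => pG g a) (Ze • (β i + algebraMap ℝ _ (c0 i)))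
      (2 * (1 + C₁) ^ 2 / v i ^ 2) := by
    intro i
    have e : Ze • (β i + algebraMap ℝ _ (c0 i)) = (ζ i • β i + algebraMap ℝ _ (c i)) -
        ((ζ i • β i + algebraMap ℝ _ (c i)) - Ze • (β i + algebraMap ℝ _ (c0 i))) := by abel
    rw [e]
    have t := (((b1 i).add hN (hcst i _ _ (h.cst i)) (by have := hpos i; positivity)
      (by have := hpos i; positivity)).sub hN (b3 i) (by have := hpos i; positivity)
      (by have := hpos i; positivity))
    refine t.mono ?_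
    rw [← add_div, ← add_div]
    refine div_le_div_of_nonneg_right ?_ (hpos i).le
    nlinarith
  have hcmp := prod_cmp h.gram h.v0 (G := fun i => ζ i • β i + algebraMap ℝ _ (c i))
    (G' := fun i => Ze • (β i + algebraMap ℝ _ (c0 i))) (B := 2 * (1 + C₁) ^ 2)
    (δ := (1 + C₁) * δ) (by nlinarith) (by positivity) b2 b4 b3
  have e5 : EEG Sf (∏ i, (Ze • (β i + algebraMap ℝ (Ge V) (c0 i)))) =
      Ze ^ m * EEG Sf (∏ i, (β i + algebraMap ℝ _ (c0 i))) := by
    rw [prod_smul, prod_const, card_univ, Fintype.card_fin, map_smul, smul_eq_mul]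
  rw [e5] at hcmp
  have e6 := abs_sub_le (ctG (coP univ (gexp E * cvG (ext0 m Sf) (ZZ near Λ K))) /
        ctG (gexp E * cvG (ext0 m Sf) (ZZ near Λ K)))
    (EEG Sf (∏ i, (ζ i • β i + algebraMap ℝ _ (c i))))
    (Ze ^ m * EEG Sf (∏ i, (β i + algebraMap ℝ _ (c0 i))))
  refine e6.trans ((add_le_add key hcmp).trans (le_of_eq ?_))
  ring

end final

end Crest.Agent.R165.SrcFinBx441
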