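import Crest.Agent.R165.SrcAlg_991
import Crest.Agent.R165.SrcFinB_441

/-!
# Row 165 (S0250), leaf P11 item 4: the constants (helper484)

* `co I a = ctG (coP I a)` : coefficient of `tauP I` in the vacuum part of `a`
* `co_bd` : `∏_{i ∈ I} v_i² |co I (cvG (ext0 m S) a)| ≤ Nw g v a`
* `vac_rep`, `vrest_le` : decomposition of a vacuum element and norm of its part of order `≥ 2`
* `co_E` : `co I (E_n) = ∑_{k<n} ∑_U co I (H_k U)`
-/

set_option autoImplicit false
set_option linter.unusedSectionVars false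

noncomputable section

namespace Crest.Agent.R165.SrcCstx484

open Finset
open scoped ENNReal
open Crest.Agent.R165.FinBx900 Crest.Agent.R165.KStepx892
open Crest.Agent.R165.Gr0x606 Crest.Agent.R165.Gr1x606 Crest.Agent.R165.GeOpsx337
  Crest.Agent.R165.ExpGx337 Crest.Agent.R165.PNormx417 Crest.Agent.R165.KFlowx337
  Crest.Agent.R165.SrcDefx991 Crest.Agent.R165.SrcFinx441 Crest.Agent.R165.GrLocx337
open Crest.Agent.R165.SrcFinBx441 (Nw coP_bd ctG_coP_cvG)

variable {V : Type*} [AddCommGroup V] [Module ℝ V] {m : ℕ}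

/-- the coefficient of `tauP I` in the vacuum part -/
def co (I : Finset (Fin m)) : Ge (VS V m) →ₗ[ℝ] ℝ := (ctG (V := V)).toLinearMap ∘ₗ coP I

theorem co_apply (I : Finset (Fin m)) (a : Ge (VS V m)) : co I a = ctG (coP I a) := rfl

theorem co_cvG (S : Cov V) (I : Finset (Fin m)) (a : Ge (VS V m)) :
    co I (cvG (ext0 m S) a) = EEG S (coP I a) := ctG_coP_cvG S I a

theorem co_vacH {a : Ge (VS V m)} (ha : a ∈ GS V m) (I : Finset (Fin m)) :
    co I (vacH a) = co I a := by
  rw [co_apply, coP_vacH ha, AlgHom.commutes]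
  rfl

theorem co_basis (I J : Finset (Fin m)) (a : Ge V) :
    co I (tauP J * inG m a) = if I = J then ctG a else 0 := by
  rw [co_apply, coP_basis]
  split_ifs
  · rfl
  · rw [map_zero]

theorem co_inG {I : Finset (Fin m)} (hI : I ≠ ∅) (a : Ge V) : co I (inG m a) = 0 := by
  have h := co_basis I ∅ a
  rw [tauP_empty, one_mul, if_neg hI] at h
  exact h

theorem co_empty (a : Ge (VS V m)) : co ∅ a = ctG a := by
  rw [co_apply, coP_empty, SrcDefx991.ctG_noS]

theorem tauP_singleton (i : Fin m) : (tauP {i} : Ge (VS V m)) = tau i := by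
  rw [tauP, prod_singleton]

theorem co_tau (I : Finset (Fin m)) (i : Fin m) :
    co I (tau i : Ge (VS V m)) = if I = {i} then 1 else 0 := by
  have h := co_basis (V := V) I {i} 1
  rw [tauP_singleton, map_one, mul_one, map_one] at h
  exact h

theorem co_tau_inG (I : Finset (Fin m)) (i : Fin m) (a : Ge V) :
    co I (tau i * inG m a) = if I = {i} then ctG a else 0 := by
  rw [← tauP_singleton]
  exact co_basis I {i} a

/-- the coefficients of a convolution are bounded by the norm with Gram weights -/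
theorem co_bd {S : Cov V} {g : V → ℝ≥0∞} (hS : Gram S g) {v : Fin m → ℝ} (hv : ∀ i, 0 < v i)
    (I : Finset (Fin m)) (a : Ge (VS V m)) :
    ENNReal.ofReal ((∏ i ∈ I, v i ^ 2) * |co I (cvG (ext0 m S) a)|) ≤ Nw g v a := by
  have hp : 0 ≤ ∏ i ∈ I, v i ^ 2 := prod_nonneg fun i _ => sq_nonneg _
  rw [co_cvG, ENNReal.ofReal_mul hp]
  refine le_trans (mul_le_mul' le_rfl ?_) (coP_bd I hv g a)
  have h1 := EE_le_pnorm hS ((coP I a : Ge V) : Gr V)
  rw [← Real.enorm_eq_ofReal_abs]
  exact h1

/-- monotonicity of the norm in the weights -/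
theorem Nw_mono {g g' : V → ℝ≥0∞} {v : Fin m → ℝ} (h : ∀ x, g x ≤ g' x) (a : Ge (VS V m)) :
    Nw g v a ≤ Nw g' v a := by
  have h1 : ∀ x : VS V m, wS g (fun i => ENNReal.ofReal (v i)) x ≤
      wS g' (fun i => ENNReal.ofReal (v i)) x := fun x => add_le_add (h x.1) le_rfl
  exact pnorm_le_pnorm (w := wS g' fun i => ENNReal.ofReal (v i))
    (w' := wS g fun i => ENNReal.ofReal (v i)) h1 (a : Gr (VS V m))

/-! ### vacuum elements -/

/-- a vacuum element is the sum of its coefficients -/
theorem vac_rep {E : Ge (VS V m)} (hE : E ∈ GS V m) (hv : vacH E = E) :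
    E = ∑ I, co I E • tauP I := by
  conv_lhs => rw [GS_eq hE]
  refine sum_congr rfl fun I _ => ?_
  have h : coP I E = algebraMap ℝ _ (co I E) := by
    conv_lhs => rw [← hv]
    rw [coP_vacH hE]
    rfl
  rw [h, AlgHom.commutes, mul_comm, ← Algebra.smul_def]

/-- splitting a sum over all sets of sources -/
theorem sum_split {A : Type*} [AddCommMonoid A] (f : Finset (Fin m) → A) :
    ∑ I, f I = f ∅ + ∑ i, f {i} + ∑ I with 2 ≤ I.card, f I := by
  classical
  have h1 : (univ : Finset (Finset (Fin m))) =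
      ({∅} ∪ univ.image (fun i : Fin m => ({i} : Finset (Fin m)))) ∪
        univ.filter (fun I : Finset (Fin m) => 2 ≤ I.card) := by
    ext I
    simp only [mem_univ, mem_union, mem_singleton, mem_image, true_and, mem_filter, true_iff]
    rcases Nat.lt_or_ge I.card 2 with h | h
    · left
      rcases Nat.eq_zero_or_pos I.card with h0 | h0
      · left; exact card_eq_zero.1 h0
      · right
        obtain ⟨i, hi⟩ := card_eq_one.1 (show I.card = 1 by omega)
        exact ⟨i, hi.symm⟩
    · right; exact h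
  have h2 : Disjoint ({∅} : Finset (Finset (Fin m)))
      (univ.image (fun i : Fin m => ({i} : Finset (Fin m)))) := by
    rw [disjoint_singleton_left, mem_image]
    rintro ⟨i, -, hi⟩
    exact singleton_ne_empty i hi
  have h3 : Disjoint ({∅} ∪ univ.image (fun i : Fin m => ({i} : Finset (Fin m))))
      (univ.filter (fun I : Finset (Fin m) => 2 ≤ I.card)) := by
    rw [disjoint_left]
    intro I hI hI'
    rw [mem_filter] at hI'
    rw [mem_union, mem_singleton, mem_image] at hI
    rcases hI with h | ⟨i, -, h⟩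
    · rw [h] at hI'; simp at hI'
    · rw [← h] at hI'; simp at hI'
  have h4 : ∑ I, f I = ∑ I ∈ ({∅} ∪ univ.image (fun i : Fin m => ({i} : Finset (Fin m)))) ∪
        univ.filter (fun I : Finset (Fin m) => 2 ≤ I.card), f I := by rw [← h1]
  rw [h4, sum_union h3, sum_union h2, sum_singleton, sum_image fun i _ j _ h => by simpa using h]

/-- a vacuum element is constant + linear + part of order at least two -/
theorem vac_split {E : Ge (VS V m)} (hE : E ∈ GS V m) (hv : vacH E = E) :
    E - algebraMap ℝ _ (ctG E) - ∑ i, co {i} E • tau i =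
      ∑ I with 2 ≤ I.card, co I E • tauP I := by
  have h := vac_rep hE hv
  rw [sum_split] at h
  have h0 : co ∅ E • (tauP ∅ : Ge (VS V m)) = algebraMap ℝ _ (ctG E) := by
    rw [tauP_empty, co_empty, Algebra.algebraMap_eq_smul_one]
  rw [h0] at h
  have h1 : ∑ i, co {i} E • (tauP {i} : Ge (VS V m)) = ∑ i, co {i} E • tau i :=
    sum_congr rfl fun i _ => by rw [tauP_singleton]
  rw [h1] at h
  rw [sub_sub, sub_eq_iff_eq_add, add_comm]
  exact h

/-- **norm of the part of order at least two** -/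
theorem vrest_le {E : Ge (VS V m)} (hE : E ∈ GS V m) (hv : vacH E = E) {g : V → ℝ≥0∞}
    (hg : g 0 = 0) (v : Fin m → ℝ) :
    Nw g v (E - algebraMap ℝ _ (ctG E) - ∑ i, co {i} E • tau i) ≤
      ∑ I with 2 ≤ I.card, ENNReal.ofReal ((∏ i ∈ I, v i ^ 2) * |co I E|) := by
  rw [vac_split hE hv]
  unfold Nw
  refine (pG_sum_le _ _ _).trans (sum_le_sum fun I _ => ?_)
  refine (pG_smul_le _ _ _).trans ?_
  rw [mul_comm (∏ i ∈ I, v i ^ 2), ENNReal.ofReal_mul (abs_nonneg _), Real.enorm_eq_ofReal_abs]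
  refine mul_le_mul' le_rfl ((pG_tauP_le hg (fun i => ENNReal.ofReal_ne_top) I).trans ?_)
  rw [ENNReal.ofReal_prod_of_nonneg fun i _ => sq_nonneg _]
  refine prod_le_prod' fun i _ => ?_
  rcases le_or_gt 0 (v i) with h | h
  · rw [ENNReal.ofReal_pow h]
  · rw [ENNReal.ofReal_of_nonpos h.le]
    simp

/-! ### the coefficients of the total vacuum exponent -/

section flow

variable {F : Type*} [DecidableEq F] {D : Sys F (VS V m)}

theorem co_vacE (hvac : D.vac = vacS) (hmem : ∀ k U, D.H k U ∈ GS V m) (Λ : Finset F) (k : ℕ)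
    (I : Finset (Fin m)) : co I (D.vacE Λ k) = ∑ U ∈ nes Λ, co I (D.H k U) := by
  rw [Sys.vacE, map_sum]
  refine sum_congr rfl fun U _ => ?_
  rw [hvac, vacS_apply, co_vacH (hmem k U)]

/-- **the coefficients of the total vacuum exponent** -/
theorem co_E (hvac : D.vac = vacS) (hmem : ∀ k U, D.H k U ∈ GS V m) (Λ : Finset F) (n : ℕ)
    (I : Finset (Fin m)) : co I (D.E Λ n) = ∑ k ∈ range n, ∑ U ∈ nes Λ, co I (D.H k U) := by
  rw [Sys.E, map_sum]
  exact sum_congr rfl fun k _ => co_vacE hvac hmem Λ k I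

theorem E_mem_GS (hvac : D.vac = vacS) (hmem : ∀ k U, D.H k U ∈ GS V m) (Λ : Finset F) (n : ℕ) :
    D.E Λ n ∈ GS V m := by
  refine Subalgebra.sum_mem _ fun k _ => Subalgebra.sum_mem _ fun U _ => ?_
  rw [hvac]
  exact GS_vacH (hmem k U)

theorem vacH_vacH (a : Ge (VS V m)) : vacH (vacH a) = vacH a := by
  rw [vacH, mpG_mpG]
  congr 1

theorem vacH_E (hvac : D.vac = vacS) (Λ : Finset F) (n : ℕ) : vacH (D.E Λ n) = D.E Λ n := by
  rw [Sys.E, map_sum]
  refine sum_congr rfl fun k _ => ?_
  rw [Sys.vacE, map_sum]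
  refine sum_congr rfl fun U _ => ?_
  rw [hvac, vacS_apply, vacH_vacH]

end flow

end Crest.Agent.R165.SrcCstx484
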