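import Crest.Agent.R165.SrcTailFin_441

/-!
# Row 165 (S0250), leaf P11 item 8 (sources in large discs), the whole tail (helper441)

* `ScalarT3 J c C t0 C0` : the scalar recursion of the tail (literal target of helper54)
* `tail_all` : step hypotheses at all `k < N` + initial norms ⟹ norms of lead run and rest at all
  `k ≤ N`
* `finE_all` : ⟹ `FinE` at the last scale
-/

set_option autoImplicit false
set_option linter.unusedSectionVars false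
set_option linter.unusedVariables false

noncomputable section

namespace Crest.Agent.R165.SrcTailAllx441

open Finset Filter Topology
open scoped ENNReal Nat
open Crest.Agent.R165.FinBx900 Crest.Agent.R165.KStepx892 Crest.Agent.R165.KMapx892
open Crest.Agent.R165.Gr0x606 Crest.Agent.R165.Gr1x606 Crest.Agent.R165.GeOpsx337
  Crest.Agent.R165.ExpGx337 Crest.Agent.R165.PNormx417 Crest.Agent.R165.KFlowx337
  Crest.Agent.R165.SrcFinx441 Crest.Agent.R165.GrLocx337 Crest.Agent.R165.SrcCmpx441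
  Crest.Agent.R165.ExpAx337 Crest.Agent.R165.Quadx897 Crest.Agent.R165.SrcStepx54
  Crest.Agent.R165.SrcTailx441 Crest.Agent.R165.SrcTailFinx441
open Crest.Agent.R165.SrcDefx991 (VS Src th th' tau tauP ext0 inG noS vacH vacS coP wS vS GS
  noS_inG noS_tau EEG_ext0 vacH_tau srcM)
open Crest.Agent.R165.SrcFinBx441 (Nw ra_Nw bd_inG ra_pG)

/-- smallness quantity of one step -/
def sm (C c b T E : ℝ≥0∞) : ℝ≥0∞ := 32 * C * (b + c * T + c * E)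

/-- **the scalar recursion of the tail**: `J` crude steps (factor `c`), then factor `1/8` -/
def ScalarT3 (J : ℕ) (c C : ℝ≥0∞) (t0 C0 : ℝ) : Prop :=
  ∀ (N : ℕ) (q b T E : ℕ → ℝ≥0∞) (b0 e0 τ0 : ℝ), 0 ≤ b0 → 0 ≤ e0 → 0 ≤ τ0 → b0 ≤ t0 → e0 ≤ t0 →
    τ0 ≤ t0 → (∀ k < N, k < J → q k ≤ c) → (∀ k < N, J ≤ k → q k ≤ 8⁻¹) →
    (∀ k < N, b k ≤ ENNReal.ofReal (b0 / 2 ^ k)) → T 0 ≤ ENNReal.ofReal τ0 →
    E 0 ≤ ENNReal.ofReal e0 →
    (∀ k < N, sm C c (b k) (T k) (E k) ≤ 1 → T (k + 1) ≤ q k * T k + 40 * C * (c * T k) ^ 2) →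
    (∀ k < N, sm C c (b k) (T k) (E k) ≤ 1 → E (k + 1) ≤ q k * E k +
      40 * C * ((b k + c * T k + c * E k) * (c * E k) + b k * (c * T k))) →
    ∀ k ≤ N, T k ≤ ENNReal.ofReal (C0 * τ0 / 2 ^ k) ∧ E k ≤ ENNReal.ofReal (C0 * (e0 + b0) / 2 ^ k)

variable {F : Type} [DecidableEq F] {V : Type} [AddCommGroup V] [Module ℝ V] {m : ℕ}
variable {B : Sys F V} {D DL : Sys F (VS V m)} {β : Type}
  {nm : ℕ → Finset F → Ge (VS V m) → ℝ≥0∞}
  {Wo : ℕ → Finset F → ℝ≥0∞} {sz : ℕ → Finset F → ℕ} {nr : ℕ → β → Finset F → Prop}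
  {P : ℕ → Finset F → Ge (VS V m) → Prop} {C c : ℝ≥0∞} {q : ℕ → ℝ≥0∞}

/-- **the step hypotheses of the whole tail** -/
structure TailH (B : Sys F V) (D DL : Sys F (VS V m)) (nm : ℕ → Finset F → Ge (VS V m) → ℝ≥0∞)
    (Wo : ℕ → Finset F → ℝ≥0∞) (sz : ℕ → Finset F → ℕ) (nr : ℕ → β → Finset F → Prop)
    (P : ℕ → Finset F → Ge (VS V m) → Prop) (C c : ℝ≥0∞) (q : ℕ → ℝ≥0∞) (J N : ℕ) (b0 : ℝ) :
    Prop where
  step : ∀ k < N, TailN B nm Wo sz nr P C c (q k) k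
  lead : ∀ k < N, ∀ U, P k U (DL.K k U)
  rest : ∀ k < N, ∀ U, P k U (PT B D DL k U)
  bulk : ∀ k < N, BulkIn B nm Wo sz nr k (ENNReal.ofReal (b0 / 2 ^ k))
  crude : ∀ k < N, k < J → q k ≤ c
  good : ∀ k < N, J ≤ k → q k ≤ 8⁻¹

/-- **norms of the lead run and of the rest at all scales** -/
theorem tail_all {J N : ℕ} {t0 C0 : ℝ} (h3 : ScalarT3 J c C t0 C0) {b0 e0 τ0 : ℝ} (hb0 : 0 < b0)
    (he0 : 0 ≤ e0) (hτ0 : 0 ≤ τ0) (hbt : b0 ≤ t0) (het : e0 ≤ t0) (hτt : τ0 ≤ t0)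
    (h : TailH B D DL nm Wo sz nr P C c q J N b0)
    (hL : ∀ k < N, LeadStep B DL nm Wo sz nr P C c (q k) k)
    (hR : ∀ k < N, RestStep B D DL nm Wo sz nr P C c (q k) k)
    (hT : tn nm Wo 0 (DL.K 0) ≤ ENNReal.ofReal τ0)
    (hE : tn nm Wo 0 (PT B D DL 0) ≤ ENNReal.ofReal e0) :
    ∀ k ≤ N, tn nm Wo k (DL.K k) ≤ ENNReal.ofReal (C0 * τ0 / 2 ^ k) ∧
      tn nm Wo k (PT B D DL k) ≤ ENNReal.ofReal (C0 * (e0 + b0) / 2 ^ k) := by
  refine h3 N q (fun k => ENNReal.ofReal (b0 / 2 ^ k)) (fun k => tn nm Wo k (DL.K k))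
    (fun k => tn nm Wo k (PT B D DL k)) b0 e0 τ0 hb0.le he0 hτ0 hbt het hτt h.crude h.good
    (fun k _ => le_rfl) hT hE ?_ ?_
  · intro k hk hs
    refine hL k hk (h.step k hk) (h.lead k hk) (le_trans ?_ hs)
    unfold sm
    exact mul_le_mul_right (le_add_self.trans le_self_add) _
  · intro k hk hs
    exact hR k hk (h.step k hk) (h.lead k hk) (h.rest k hk) _
      (ENNReal.ofReal_pos.2 (by positivity)).ne' (h.bulk k hk) hs

/-- **final comparison data of the whole tail** -/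
theorem finE_all {J N : ℕ} {t0 C0 : ℝ} (h3 : ScalarT3 J c C t0 C0) (hC0 : 0 ≤ C0)
    {b0 e0 τ0 : ℝ} (hb0 : 0 < b0)
    (he0 : 0 ≤ e0) (hτ0 : 0 ≤ τ0) (hbt : b0 ≤ t0) (het : e0 ≤ t0) (hτt : τ0 ≤ t0)
    (h : TailH B D DL nm Wo sz nr P C c q J N b0)
    (hL : ∀ k < N, LeadStep B DL nm Wo sz nr P C c (q k) k)
    (hR : ∀ k < N, RestStep B D DL nm Wo sz nr P C c (q k) k)
    (hT : tn nm Wo 0 (DL.K 0) ≤ ENNReal.ofReal τ0)
    (hE : tn nm Wo 0 (PT B D DL 0) ≤ ENNReal.ofReal e0)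
    (hS : ∀ k, D.S k = ext0 m (B.S k)) (hSL : ∀ k, DL.S k = D.S k)
    (hv : D.vac = vacS) (hvL : DL.vac = vacS)
    (hnoS : ∀ k U, noS (D.K k U) = B.K k U) (hLn : ∀ k U, noS (DL.K k U) = 0)
    {Λ : Finset F} {Sf : Cov V} {g : V → ℝ≥0∞} {v : Fin m → ℝ}
    (hg : Gram Sf g) (v0 : ∀ i, 0 < v i) (hW : ∀ k U, 1 ≤ Wo k U)
    (hvac : ∀ k < N, ∀ U : Finset F, U.Nonempty → ∀ X, (X = PT B D DL k U ∨ X = DL.K k U) →
      Nw g v (vacH (cvG (ext0 m (B.S k)) X)) ≤ nm k U X)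
    (hfin : ∀ U : Finset F, U.Nonempty → ∀ X, Nw g v X ≤ nm N U X)
    {ε₁ ε₂ M₀ : ℝ} (hε₁ : 0 ≤ ε₁) (hε₂ : 0 ≤ ε₂) (hM₀ : 0 ≤ M₀)
    (hb : ∑ W ∈ nes Λ, pG g (B.K N W) ≤ ENNReal.ofReal ε₁)
    {E₁ E₁' : Ge (VS V m)} (hE₁ : vacH E₁ = E₁) (hE₁' : vacH E₁' = E₁')
    (hd : Bd (Nw g v) ((E₁ - algebraMap ℝ _ (ctG E₁)) - (E₁' - algebraMap ℝ _ (ctG E₁'))) ε₂)
    (hM : Bd (Nw g v) (E₁' - algebraMap ℝ _ (ctG E₁')) M₀) :
    FinE (D.near N) Λ (D.K N) (DL.K N) (E₁ + D.E Λ N) (E₁' + DL.E Λ N) Sf g v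
      (ε₁ + ε₂ + 3 * (C0 * (e0 + b0))) (M₀ + 3 * (C0 * τ0)) := by
  have key := tail_all h3 hb0 he0 hτ0 hbt het hτt h hL hR hT hE
  have geo : ∀ x : ℝ, 0 ≤ x → x / 2 ^ N + ∑ k ∈ range N, x / 2 ^ k ≤ 3 * x := by
    intro x hx
    have h1 : ∀ n : ℕ, ∑ k ∈ range n, x / 2 ^ k = 2 * x - 2 * x / 2 ^ n := by
      intro n
      induction n with
      | zero => simp
      | succ n ih =>
        rw [sum_range_succ, ih, pow_succ]
        field_simp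
        ring
    rw [h1]
    have h2 : 0 ≤ x / 2 ^ N := by positivity
    have h3 : 2 * x / 2 ^ N = 2 * (x / 2 ^ N) := by ring
    rw [h3]
    linarith
  have a1 : 0 ≤ C0 * (e0 + b0) := by positivity
  have a2 : 0 ≤ C0 * τ0 := by positivity
  have fin := finE_tail (B := B) (D := D) (DL := DL) (nm := nm) (Wo := Wo) (N := N) hS hSL hv hvL
    hnoS hLn hg v0 hW hvac hfin (e := fun k => C0 * (e0 + b0) / 2 ^ k)
    (T := fun k => C0 * τ0 / 2 ^ k) (fun k => by positivity) (fun k => by positivity)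
    (fun k hk => (key k hk).2) (fun k hk => (key k hk).1) hε₁ hε₂ hM₀ hb hE₁ hE₁' hd hM
  have g1 := geo _ a1
  have g2 := geo _ a2
  refine ⟨fin.gram, fin.v0, by positivity, by positivity, fin.vac, fin.vac', fin.noK', ?_, ?_, ?_, ?_⟩
  · exact fin.dK.trans (ENNReal.ofReal_le_ofReal (by linarith))
  · exact fin.bK'.trans (ENNReal.ofReal_le_ofReal (by linarith))
  · exact fin.dE.mono (by linarith)
  · exact fin.bE'.mono (by linarith)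

end Crest.Agent.R165.SrcTailAllx441
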