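import Crest.Agent.R165.SrcCmp_441
import Crest.Agent.R165.SrcStep2_54
import Crest.Agent.R165.SrcSys_991

/-!
# Row 165 (S0250), leaf P11 item 8 / TEXT P14S (sources in large discs), part A (helper441)

* `shift D n₀ K0` : the system `D` started at step `n₀` from new activities; `shift_K`, `shift_OK`
* `ratio_run` : the normalised top coefficient is invariant under the flow
* `base0 B`, `tl B m fs K0` : the tail system over `B` (no source extraction); `tl B .. ` over
  `base0 B` = the lead system (no bulk): `lead_noS`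
* `TailN` : THE HYPOTHESES OF ONE TAIL STEP in total norms (`Tout` of 54)
* `Tail.PT` : the remainder `K - inG K⁰ - K^L`
-/

set_option autoImplicit false
set_option linter.unusedSectionVars false
set_option linter.unusedVariables false

noncomputable section

namespace Crest.Agent.R165.SrcTailx441

open Finset Filter Topology
open scoped ENNReal Nat
open Crest.Agent.R165.FinBx900 Crest.Agent.R165.KStepx892 Crest.Agent.R165.KMapx892
open Crest.Agent.R165.Gr0x606 Crest.Agent.R165.Gr1x606 Crest.Agent.R165.GeOpsx337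
  Crest.Agent.R165.ExpGx337 Crest.Agent.R165.PNormx417 Crest.Agent.R165.KFlowx337
  Crest.Agent.R165.SrcFinx441 Crest.Agent.R165.GrLocx337 Crest.Agent.R165.SrcCmpx441
  Crest.Agent.R165.ExpAx337 Crest.Agent.R165.Quadx897 Crest.Agent.R165.SrcStepx54
open Crest.Agent.R165.SrcDefx991 (VS Src th th' tau tauP ext0 inG noS vacH vacS coP wS vS GS
  noS_inG noS_tau EEG_ext0 vacH_tau srcM)
open Crest.Agent.R165.SrcSysx991 (sysX)
open Crest.Agent.R165.PStepx417 (vac0)

/-! ### starting at a later step -/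

section shift

variable {F : Type*} [DecidableEq F] {V : Type*} [AddCommGroup V] [Module ℝ V]

/-- the system `D` started at step `n₀` with the activities `K0` -/
def shift (D : Sys F V) (n₀ : ℕ) (K0 : Finset F → Ge V) : Sys F V where
  S n := D.S (n₀ + n)
  near n := D.near (n₀ + n)
  fld := D.fld
  vac := D.vac
  e n := D.e (n₀ + n)
  K0 := K0

/-- the continuation of the flow of `D` -/
theorem shift_K (D : Sys F V) (n₀ n : ℕ) : (shift D n₀ (D.K n₀)).K n = D.K (n₀ + n) := by
  induction n with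
  | zero => rfl
  | succ n ih =>
    rw [Sys.K_succ, ← add_assoc, Sys.K_succ]
    unfold Sys.H Sys.B
    unfold Sys.H
    rw [ih]
    rfl

theorem shift_H (D : Sys F V) (n₀ n : ℕ) : (shift D n₀ (D.K n₀)).H n = D.H (n₀ + n) := by
  funext U
  unfold Sys.H
  rw [shift_K]
  rfl

theorem shift_OK {D : Sys F V} {src : Submodule ℝ V} (hD : D.OK src) (n₀ : ℕ)
    {K0 : Finset F → Ge V} (h : ∀ U, K0 U ∈ grG (D.fld U)) : (shift D n₀ K0).OK src where
  near_mono k a b := hD.near_mono (n₀ + k) a b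
  near_symm k a b := hD.near_symm (n₀ + k) a b
  near_refl k a := hD.near_refl (n₀ + k) a
  fld_mono := hD.fld_mono
  range k := hD.range (n₀ + k)
  K0_mem := h
  X_mem k := hD.X_mem (n₀ + k)
  vac_mem := hD.vac_mem
  vac_src := hD.vac_src
  src_S k := hD.src_S (n₀ + k)

theorem shift_E (D : Sys F V) (Λ : Finset F) (n₀ n : ℕ) :
    D.E Λ (n₀ + n) = D.E Λ n₀ + (shift D n₀ (D.K n₀)).E Λ n := by
  rw [Sys.E, Sys.E, Sys.E, Finset.sum_range_add]
  congr 1
  refine Finset.sum_congr rfl fun k _ => ?_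
  rw [Sys.vacE, Sys.vacE, shift_H]
  rfl

end shift

/-! ### the normalised coefficient along the flow -/

section run

variable {F : Type*} [DecidableEq F] {V : Type*} [AddCommGroup V] [Module ℝ V] {m : ℕ}

theorem vacH_E {D : Sys F (VS V m)} (hv : D.vac = vacS) (Λ : Finset F) (n : ℕ) :
    vacH (D.E Λ n) = D.E Λ n := by
  rw [Sys.E, map_sum]
  refine Finset.sum_congr rfl fun k _ => ?_
  rw [Sys.vacE, map_sum, hv]
  exact Finset.sum_congr rfl fun U _ => vacH_vacH _

/-- **invariance of the normalised top coefficient** -/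
theorem ratio_run {D : Sys F (VS V m)} {src : Submodule ℝ (VS V m)} (hD : D.OK src) {Λ : Finset F}
    (h0 : ∀ U, ¬ U ⊆ Λ → D.K0 U = 0) {Sc : ℕ → Cov V} (n : ℕ)
    (hSc : ∀ k < n, D.S k = ext0 m (Sc k)) (S Sf : Cov V)
    (hS : S = Sf + ∑ k ∈ range n, Sc k) (hsrc : ∀ x ∈ src, ∀ y, (ext0 m Sf).b x y = 0)
    (E0 : Ge (VS V m)) :
    ratio S E0 (ZZ (D.near 0) Λ D.K0) = ratio Sf (E0 + D.E Λ n) (ZZ (D.near n) Λ (D.K n)) := by
  have hS' : ext0 m S = ext0 m Sf + ∑ k ∈ range n, D.S k := by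
    rw [Finset.sum_congr rfl fun k hk => hSc k (mem_range.1 hk), hS]
    have h1 : ∀ A B : Cov V, ext0 m (A + B) = ext0 m A + ext0 m B := fun A B => rfl
    have h2 : ∀ n : ℕ, ext0 m (∑ k ∈ range n, Sc k) = ∑ k ∈ range n, ext0 m (Sc k) := by
      intro n
      induction n with
      | zero =>
        simp only [range_zero, sum_empty]
        rfl
      | succ n ih => rw [sum_range_succ, sum_range_succ, h1, ih]
    rw [h1, h2]
  have key := Sys.total' hD h0 n (ext0 m S) (ext0 m Sf) hS' hsrc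
  unfold ratio
  rw [key, gexp_add, mul_assoc]

end run

/-! ### the tail: base flow, lead flow, remainder -/

section tail

variable {F : Type} [DecidableEq F] {V : Type} [AddCommGroup V] [Module ℝ V] {m : ℕ}

/-- **no source extraction**: the extraction `e` over `VS V m` only moves the source free part, as
the extraction `e0` over `V` does -/
def NoX (e0 : Extr F V) (e : Extr F (VS V m)) : Prop :=
  ∀ (H : Finset F → Ge (VS V m)) (U : Finset F), e.gain H U - e.lost H U =
    inG m (e0.gain (fun U => noS (H U)) U - e0.lost (fun U => noS (H U)) U)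

theorem noX_none : NoX (Extr.none F V) (Extr.none F (VS V m)) := fun H U => by
  unfold Extr.gain Extr.lost Extr.none
  simp

theorem noX_lift (e0 : Extr F V) : NoX e0 (GSysx387.liftE m e0) := fun H U => by
  rw [GSysx387.liftE_gain, GSysx387.liftE_lost, map_sub]

/-- `D` is a tail system over the base system `B` for the steps `< N` -/
structure TailOf (B : Sys F V) (D : Sys F (VS V m)) (N : ℕ) : Prop where
  S : ∀ k < N, D.S k = ext0 m (B.S k)
  near : D.near = B.near
  vac : D.vac = vacS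
  bvac : B.vac = vac0 V
  e : ∀ k < N, NoX (B.e k) (D.e k)

/-- the base system without activities -/
def base0 (B : Sys F V) : Sys F V := { B with K0 := fun _ => 0 }

/-- the remainder: actual run minus bulk minus lead run -/
def PT (B : Sys F V) (D DL : Sys F (VS V m)) (k : ℕ) (U : Finset F) : Ge (VS V m) :=
  D.K k U - inG m (B.K k U) - DL.K k U

/-- **the hypotheses of the tail step `k → k + 1`** in total norms: norms `nm`, weights `Wo`, sizes
`sz`, covering points `nr` at every scale; `P` admissible source dependent activities (e.g. in `GS`,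
`noS = 0`, connected support, `coP I ≠ 0 → ` the faces of the sources `i ∈ I` are in `U`);
`q` = linear factor, `c` = crude factor with the room `3 ^ sz` -/
structure TailN (B : Sys F V) {β : Type} (nm : ℕ → Finset F → Ge (VS V m) → ℝ≥0∞)
    (Wo : ℕ → Finset F → ℝ≥0∞) (sz : ℕ → Finset F → ℕ) (nr : ℕ → β → Finset F → Prop)
    (P : ℕ → Finset F → Ge (VS V m) → Prop) (C c q : ℝ≥0∞) (k : ℕ) : Prop where
  symm : ∀ a b, B.near (k + 1) a b → B.near (k + 1) b a
  fam : GFam (nm (k + 1))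
  sum : SumData (B.near (k + 1)) β (Wo (k + 1)) (sz (k + 1)) (nr (k + 1)) C
  W1 : ∀ U, 1 ≤ Wo (k + 1) U
  C1 : 1 ≤ C
  lin : ∀ U : Finset F, U.Nonempty → ∀ X, P k U X →
    Wo (k + 1) U * nm (k + 1) U (cvG (ext0 m (B.S k)) X - vacH (cvG (ext0 m (B.S k)) X)) ≤
      q * (Wo k U * nm k U X)
  crd : ∀ U : Finset F, U.Nonempty → ∀ X, P k U X →
    Wo (k + 1) U * 3 ^ sz (k + 1) U * (nm (k + 1) U (cvG (ext0 m (B.S k)) X) +
      nm (k + 1) U (vacH (cvG (ext0 m (B.S k)) X))) ≤ c * (Wo k U * nm k U X)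

/-- bulk input of one tail step (local sums at the new scale) -/
def BulkIn (B : Sys F V) {β : Type} (nm : ℕ → Finset F → Ge (VS V m) → ℝ≥0∞)
    (Wo : ℕ → Finset F → ℝ≥0∞) (sz : ℕ → Finset F → ℕ) (nr : ℕ → β → Finset F → Prop)
    (k : ℕ) (b : ℝ≥0∞) : Prop :=
  ∀ p, Sin (Wo (k + 1)) (sz (k + 1)) (nr (k + 1)) (fun U => nm (k + 1) U (inG m (B.H k U))) p +
    Sin (Wo (k + 1)) (sz (k + 1)) (nr (k + 1)) (fun U => nm (k + 1) U (inG m (B.A k U))) p ≤ b

/-- total norm of a family at scale `k` -/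
def tn (nm : ℕ → Finset F → Ge (VS V m) → ℝ≥0∞) (Wo : ℕ → Finset F → ℝ≥0∞) (k : ℕ)
    (X : Finset F → Ge (VS V m)) : ℝ≥0∞ := Tout (Wo k) fun U => nm k U (X U)

/-- **TARGET (T2a)**: lead run, one step -/
def LeadStep (B : Sys F V) (DL : Sys F (VS V m)) {β : Type}
    (nm : ℕ → Finset F → Ge (VS V m) → ℝ≥0∞)
    (Wo : ℕ → Finset F → ℝ≥0∞) (sz : ℕ → Finset F → ℕ) (nr : ℕ → β → Finset F → Prop)
    (P : ℕ → Finset F → Ge (VS V m) → Prop) (C c q : ℝ≥0∞) (k : ℕ) : Prop :=
  TailN B nm Wo sz nr P C c q k → (∀ U, P k U (DL.K k U)) →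
    32 * C * (c * tn nm Wo k (DL.K k)) ≤ 1 →
    tn nm Wo (k + 1) (DL.K (k + 1)) ≤ q * tn nm Wo k (DL.K k) +
      40 * C * (c * tn nm Wo k (DL.K k)) ^ 2

/-- **TARGET (T2b)**: remainder, one step -/
def RestStep (B : Sys F V) (D DL : Sys F (VS V m)) {β : Type}
    (nm : ℕ → Finset F → Ge (VS V m) → ℝ≥0∞)
    (Wo : ℕ → Finset F → ℝ≥0∞) (sz : ℕ → Finset F → ℕ) (nr : ℕ → β → Finset F → Prop)
    (P : ℕ → Finset F → Ge (VS V m) → Prop) (C c q : ℝ≥0∞) (k : ℕ) : Prop :=
  TailN B nm Wo sz nr P C c q k → (∀ U, P k U (DL.K k U)) → (∀ U, P k U (PT B D DL k U)) →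
    ∀ b, b ≠ 0 → BulkIn B nm Wo sz nr k b →
    32 * C * (b + c * tn nm Wo k (DL.K k) + c * tn nm Wo k (PT B D DL k)) ≤ 1 →
    tn nm Wo (k + 1) (PT B D DL (k + 1)) ≤ q * tn nm Wo k (PT B D DL k) +
      40 * C * ((b + c * tn nm Wo k (DL.K k) + c * tn nm Wo k (PT B D DL k)) *
        (c * tn nm Wo k (PT B D DL k)) + b * (c * tn nm Wo k (DL.K k)))

end tail

end Crest.Agent.R165.SrcTailx441
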