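import Crest.Agent.R165.SrcTail_999
import Crest.Agent.R165.SrcTailA_441
import Crest.Agent.R165.KConn_892

/-!
# Row 165 (S0250), SrcTail: the literal targets of `SrcTailA_441` (helper999)

* `tail_A`, `tail_noS`, `lead_noS` (T1)
* `SLA sf U` : subalgebra of the elements of `GS` all of whose source coefficients `I` satisfy
  `sf i ⊆ U` (`i ∈ I`); `tail_SLA`, `tail_conn` : the activities of a tail system are such elements
  and have connected supports
* `leadStep` (T2a), `restStep` (T2b)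
-/

set_option autoImplicit false
set_option linter.unusedSectionVars false
set_option linter.unusedVariables false

noncomputable section

namespace Crest.Agent.R165.SrcTailx999

open scoped ENNReal
open Crest.Agent.R165.Gr0x606 Crest.Agent.R165.Gr1x606 Crest.Agent.R165.GeOpsx337
open Crest.Agent.R165.ExpGx337 Crest.Agent.R165.KCompx892 Crest.Agent.R165.KStepx892
open Crest.Agent.R165.KMapx892 Crest.Agent.R165.KFlowx337
open Crest.Agent.R165.SrcDefx991 Crest.Agent.R165.PNormx417 Crest.Agent.R165.GrLocx337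
open Crest.Agent.R165.SrcStepx54 Crest.Agent.R165.Quadx897 Crest.Agent.R165.ExpAx337
open Crest.Agent.R165.SrcTailx441 (NoX TailOf base0 TailN BulkIn tn LeadStep RestStep)
open Crest.Agent.R165.PStepx417 (vac0 vac0_apply)

variable {F : Type} [DecidableEq F] {V : Type} [AddCommGroup V] [Module ℝ V] {m : ℕ}

section tail

variable {B : Sys F V} {D DL : Sys F (VS V m)} {N : ℕ}

theorem tailOf_base0 (h : TailOf B D N) : TailOf (base0 B) D N := ⟨h.S, h.near, h.vac, h.bvac, h.e⟩

theorem tailOf_of_base0 (h : TailOf (base0 B) D N) : TailOf B D N :=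
  ⟨h.S, h.near, h.vac, h.bvac, h.e⟩

theorem tailOf_mono {N' : ℕ} (h : TailOf B D N) (hN : N' ≤ N) : TailOf B D N' :=
  ⟨fun k hk => h.S k (hk.trans_le hN), h.near, h.vac, h.bvac, fun k hk => h.e k (hk.trans_le hN)⟩

/-- the exponent of a tail system -/
theorem tail_A (h : TailOf B D N) {k : ℕ} (hk : k < N) (U : Finset F) :
    D.A k U = inG m ((B.e k).gain (fun U => noS (D.H k U)) U -
      (B.e k).lost (fun U => noS (D.H k U)) U) - vacH (D.H k U) := by
  rw [Sys.A, AA, h.e k hk, h.vac]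
  rfl

theorem tail_H (h : TailOf B D N) {k : ℕ} (hk : k < N) (U : Finset F) :
    D.H k U = cvG (ext0 m (B.S k)) (D.K k U) := by rw [Sys.H, h.S k hk]

theorem tail_noS_H (h : TailOf B D N) {k : ℕ} (hk : k < N) (U : Finset F) :
    noS (D.H k U) = cvG (B.S k) (noS (D.K k U)) := by rw [tail_H h hk, noS_cvG]

/-- **the source-free part is the base flow** -/
theorem tail_noS (h : TailOf B D N) (h0 : ∀ U, noS (D.K 0 U) = B.K 0 U) :
    ∀ k ≤ N, ∀ U, noS (D.K k U) = B.K k U := by
  intro k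
  induction k with
  | zero => intro _ U; exact h0 U
  | succ k ih =>
    intro hk U
    have hk' : k < N := by omega
    have ihk := ih hk'.le
    have hH : ∀ U, noS (D.H k U) = B.H k U := fun U => by rw [tail_noS_H h hk', ihk]; rfl
    have hB : ∀ U, noS (D.B k U) = B.B k U := fun U => by
      rw [Sys.B_eq, Sys.B_eq, map_sub, map_one, SrcDefx991.noS_gexp, tail_A h hk', map_sub, noS_inG,
        SrcSysx991.noS_vacH, hH, Sys.A, AA, h.bvac]
      simp only [hH]
    rw [Sys.K_succ, Sys.K_succ, h.near]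
    have h1 := SrcSysx991.KK_hom (noS (V := V) (m := m)).toRingHom (B.near k) (B.near (k + 1))
      (D.H k) (D.B k) U
    refine h1.trans ?_
    have e1 : (fun U => (noS (V := V) (m := m)).toRingHom (D.H k U)) = B.H k := funext hH
    have e3 : (fun U => (noS (V := V) (m := m)).toRingHom (D.B k U)) = B.B k := funext hB
    rw [e1, e3]

/-- **T1**: the free run has no source-free part -/
theorem lead_noS (h : TailOf B DL N) (h0 : ∀ U, noS (DL.K 0 U) = 0) :
    ∀ k ≤ N, ∀ U, noS (DL.K k U) = 0 := by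
  intro k hk U
  have h1 := tail_noS (tailOf_base0 h) (fun U => (h0 U).trans
    (K_of_zero (base0 B) (fun _ => rfl) 0 U).symm) k hk U
  rw [h1]
  exact K_of_zero (base0 B) (fun _ => rfl) k U

theorem lead_noS_H (h : TailOf B DL N) (h0 : ∀ U, noS (DL.K 0 U) = 0) {k : ℕ} (hk : k < N)
    (U : Finset F) : noS (DL.H k U) = 0 := by
  rw [tail_noS_H h hk, lead_noS h h0 k hk.le, map_zero]

/-- the exponent of the free run -/
theorem lead_A {k : ℕ} (h : TailOf B DL N) (hk : k < N) (h0 : ∀ U, noS (DL.K k U) = 0)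
    (U : Finset F) : DL.A k U = -vacH (DL.H k U) := by
  have e : (fun U => noS (DL.H k U)) = fun _ => 0 := by
    funext U
    rw [tail_noS_H h hk, h0, map_zero]
  rw [tail_A h hk, e]
  have e1 : (B.e k).gain (fun _ => 0) U = 0 := by simp [Extr.gain]
  have e2 : (B.e k).lost (fun _ => 0) U = 0 := by simp [Extr.lost]
  rw [e1, e2, sub_zero, map_zero, zero_sub]

/-- the convolved rest -/
def HT (B : Sys F V) (D DL : Sys F (VS V m)) (k : ℕ) (U : Finset F) : Ge (VS V m) :=
  cvG (ext0 m (B.S k)) (SrcTailx441.PT B D DL k U)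

theorem tail_H_eq (h : TailOf B D N) (hL : TailOf B DL N) {k : ℕ} (hk : k < N) :
    D.H k = fun U => inG m (B.H k U) + DL.H k U + HT B D DL k U := by
  funext U
  have e : D.K k U = inG m (B.K k U) + DL.K k U + SrcTailx441.PT B D DL k U := by
    rw [SrcTailx441.PT]; abel
  rw [tail_H h hk, e, map_add, map_add, cvG_inG, tail_H hL hk]
  rfl

theorem tail_A_eq (h : TailOf B D N) (hL : TailOf B DL N) {k : ℕ} (hk : k < N)
    (h0 : ∀ U, noS (D.K k U) = B.K k U) (h1 : ∀ U, noS (DL.K k U) = 0) :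
    D.A k = fun U => inG m (B.A k U) + DL.A k U + (-vacH (HT B D DL k U)) := by
  funext U
  have e : (fun U => noS (D.H k U)) = B.H k := by
    funext U
    rw [tail_noS_H h hk, h0]; rfl
  rw [tail_A h hk, e, lead_A hL hk h1, tail_H_eq h hL hk, map_add, map_add, vacH_inG, Sys.A, AA,
    h.bvac, map_sub (inG m) _ (vac0 V (B.H k U)), vac0_apply, AlgHom.commutes]
  abel

/-- **T2, the exact one-step identity** -/
theorem tail_PT_succ (h : TailOf B D N) (hL : TailOf B DL N) {k : ℕ} (hk : k < N)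
    (h0 : ∀ U, noS (D.K k U) = B.K k U) (h1 : ∀ U, noS (DL.K k U) = 0) {U : Finset F}
    (hU : U.Nonempty) :
    SrcTailx441.PT B D DL (k + 1) U = (HT B D DL k U - vacH (HT B D DL k U)) +
      (NL (B.near k) (B.near (k + 1))
          (fun U => inG m (B.H k U) + DL.H k U + HT B D DL k U)
          (fun U => inG m (B.A k U) + DL.A k U + (-vacH (HT B D DL k U))) U -
        NL (B.near k) (B.near (k + 1)) (fun U => inG m (B.H k U)) (fun U => inG m (B.A k U)) U -
        NL (B.near k) (B.near (k + 1)) (DL.H k) (DL.A k) U) := by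
  have e1 := Sys_K_succ D k hU
  have e3 := Sys_K_succ DL k hU
  have e4 := Sys_K_succ B k hU
  rw [tail_A_eq h hL hk h0 h1, tail_H_eq h hL hk, h.near] at e1
  rw [hL.near] at e3
  beta_reduce at e1
  rw [NL_inG _ _ _ _ hU, SrcTailx441.PT, e1, e3, e4, map_add, map_add]
  abel

/-! ### norm steps -/

variable {β : Type} {nm : ℕ → Finset F → Ge (VS V m) → ℝ≥0∞} {Wo : ℕ → Finset F → ℝ≥0∞}
  {sz : ℕ → Finset F → ℕ} {nr : ℕ → β → Finset F → Prop}
  {P : ℕ → Finset F → Ge (VS V m) → Prop} {C c q : ℝ≥0∞}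

theorem Tout_le_of {k : ℕ} {X : Finset F → Ge (VS V m)} {Y : Finset F → ℝ≥0∞} {q : ℝ≥0∞}
    (h : ∀ U : Finset F, U.Nonempty → Wo (k + 1) U * Y U ≤ q * (Wo k U * nm k U (X U))) :
    Tout (Wo (k + 1)) Y ≤ q * tn nm Wo k X := by
  unfold tn Tout Sout
  rw [← ENNReal.tsum_mul_left]
  refine ENNReal.tsum_le_tsum fun U => ?_
  by_cases hU : U.Nonempty
  · rw [Set.indicator_of_mem (by exact hU), Set.indicator_of_mem (by exact hU)]
    exact h U hU
  · rw [Set.indicator_of_notMem (by exact hU)]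
    exact bot_le

theorem Tin_le_of {k : ℕ} {X : Finset F → Ge (VS V m)} {Y Z : Finset F → ℝ≥0∞} {c : ℝ≥0∞}
    (h : ∀ U : Finset F, U.Nonempty →
      Wo (k + 1) U * 3 ^ sz (k + 1) U * (Y U + Z U) ≤ c * (Wo k U * nm k U (X U))) :
    Tin (Wo (k + 1)) (sz (k + 1)) Y + Tin (Wo (k + 1)) (sz (k + 1)) Z ≤ c * tn nm Wo k X := by
  rw [← Tin_add]
  unfold tn Tout Sout Tin Sin
  rw [← ENNReal.tsum_mul_left]
  refine ENNReal.tsum_le_tsum fun U => ?_
  by_cases hU : U.Nonempty
  · rw [Set.indicator_of_mem (by exact hU), Set.indicator_of_mem (by exact hU)]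
    exact h U hU
  · rw [Set.indicator_of_notMem (by exact hU)]
    exact bot_le

theorem lin_tn {k : ℕ} (H : TailN B nm Wo sz nr P C c q k) {X : Finset F → Ge (VS V m)}
    (hX : ∀ U, P k U (X U)) :
    Tout (Wo (k + 1)) (fun U => nm (k + 1) U (cvG (ext0 m (B.S k)) (X U) -
      vacH (cvG (ext0 m (B.S k)) (X U)))) ≤ q * tn nm Wo k X :=
  Tout_le_of fun U hU => H.lin U hU _ (hX U)

theorem crd_tn {k : ℕ} (H : TailN B nm Wo sz nr P C c q k) {X : Finset F → Ge (VS V m)}
    (hX : ∀ U, P k U (X U)) :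
    Tin (Wo (k + 1)) (sz (k + 1)) (fun U => nm (k + 1) U (cvG (ext0 m (B.S k)) (X U))) +
      Tin (Wo (k + 1)) (sz (k + 1)) (fun U => nm (k + 1) U (-vacH (cvG (ext0 m (B.S k)) (X U)))) ≤
      c * tn nm Wo k X := by
  refine Tin_le_of fun U hU => ?_
  rw [(H.fam.gn U).neg]
  exact H.crd U hU _ (hX U)

/-- **TARGET (T2a)** -/
theorem leadStep (hL : TailOf B DL N) {k : ℕ} (hk : k < N) (h1 : ∀ U, noS (DL.K k U) = 0)
    (hC : C ≠ ∞) : LeadStep B DL nm Wo sz nr P C c q k := by
  intro H hP hsm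
  set e : ℝ≥0∞ := c * tn nm Wo k (DL.K k) with he
  have hAL : DL.A k = fun U => -vacH (DL.H k U) := funext fun U => lead_A hL hk h1 U
  have hHL : DL.H k = fun U => cvG (ext0 m (B.S k)) (DL.K k U) := funext fun U => tail_H hL hk U
  have hcr := crd_tn H hP
  have hT : Tin (Wo (k + 1)) (sz (k + 1)) (fun U => nm (k + 1) U (DL.H k U)) +
      Tin (Wo (k + 1)) (sz (k + 1)) (fun U => nm (k + 1) U (DL.A k U)) ≤ e := by
    rw [hAL, hHL]; exact hcr
  have hC0 : C ≠ 0 := fun h0 => by have := H.C1; simp [h0] at this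
  -- the auxiliary bulk scale
  obtain ⟨b, hb0, hb1, hb2⟩ : ∃ b : ℝ≥0∞, b ≠ 0 ∧ 16 * C * (b + e) ≤ 1 ∧
      (6 + 8 * C) * ((b + e) * e) ≤ 40 * C * e ^ 2 := by
    have h14 : (6 + 8 * C) ≤ 14 * C := by
      calc 6 + 8 * C = 6 * 1 + 8 * C := by ring
        _ ≤ 6 * C + 8 * C := by gcongr; exact H.C1
        _ = 14 * C := by ring
    rcases eq_or_ne e 0 with h0 | h0
    · refine ⟨(16 * C)⁻¹, ENNReal.inv_ne_zero.2 (ENNReal.mul_ne_top (by norm_num) hC), ?_, ?_⟩
      · rw [h0, add_zero, ENNReal.mul_inv_cancel (mul_ne_zero (by norm_num) hC0)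
          (ENNReal.mul_ne_top (by norm_num) hC)]
      · rw [h0]; simp
    · refine ⟨e, h0, le_trans (le_of_eq (by ring)) hsm, ?_⟩
      calc (6 + 8 * C) * ((e + e) * e) ≤ 14 * C * ((e + e) * e) := by gcongr
        _ = 28 * C * e ^ 2 := by ring
        _ ≤ 40 * C * e ^ 2 := by gcongr; norm_num
  have hN := H.fam
  have z1 : ∀ p, Sin (Wo (k + 1)) (sz (k + 1)) (nr (k + 1))
      (fun U => nm (k + 1) U (0 : Ge (VS V m))) p +
      Sin (Wo (k + 1)) (sz (k + 1)) (nr (k + 1)) (fun U => nm (k + 1) U (0 : Ge (VS V m))) p ≤ 0 := by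
    intro p
    simp [(hN.gn _).zero, Sin_zero]
  have z2 : Tin (Wo (k + 1)) (sz (k + 1)) (fun U => nm (k + 1) U (0 : Ge (VS V m))) +
      Tin (Wo (k + 1)) (sz (k + 1)) (fun U => nm (k + 1) U (0 : Ge (VS V m))) ≤ 0 := by
    unfold Tin
    simp [(hN.gn _).zero, Sin_zero]
  have key := NL3 (near := B.near k) H.symm hN H.sum H.W1 (H1 := fun _ => 0) (A1 := fun _ => 0)
    (H2 := fun _ => 0) (A2 := fun _ => 0) (H3 := DL.H k)
    (A3 := DL.A k) (β0 := b) (t := 0) (T := 0) (e := e)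
    (fun p => (z1 p).trans bot_le) z1 z2 hT H.C1 hb0 (by
      refine le_trans (le_of_eq ?_) hb1
      ring)
  simp only [zero_add] at key
  have h3 : ∀ W : Finset F, W.Nonempty → nm (k + 1) W (DL.K (k + 1) W) ≤
      nm (k + 1) W (cvG (ext0 m (B.S k)) (DL.K k W) - vacH (cvG (ext0 m (B.S k)) (DL.K k W))) +
      nm (k + 1) W (NL (B.near k) (B.near (k + 1)) (fun U => DL.H k U) (fun U => DL.A k U) W -
        NL (B.near k) (B.near (k + 1)) (fun _ => 0) (fun _ => 0) W -
        NL (B.near k) (B.near (k + 1)) (fun _ => 0) (fun _ => 0) W) := by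
    intro W hW
    have e5 : DL.H k W + DL.A k W = cvG (ext0 m (B.S k)) (DL.K k W) -
        vacH (cvG (ext0 m (B.S k)) (DL.K k W)) := by
      rw [hAL, hHL]; ring
    rw [Sys_K_succ DL k hW, hL.near, NL_zero _ _ hW, sub_zero, sub_zero, e5]
    exact (hN.gn W).add _ _
  refine (Tout_mono h3).trans ?_
  rw [Tout_add]
  refine add_le_add (lin_tn H hP) (key.trans ?_)
  calc (6 + 8 * C) * ((b + 0 + e + b * 0) * e) + (5 + 8 * C) * (b * 0)
      = (6 + 8 * C) * ((b + e) * e) := by ring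
    _ ≤ 40 * C * e ^ 2 := hb2

/-- **TARGET (T2b)** -/
theorem restStep (h : TailOf B D N) (hL : TailOf B DL N) {k : ℕ} (hk : k < N)
    (h0 : ∀ U, noS (D.K k U) = B.K k U) (h1 : ∀ U, noS (DL.K k U) = 0) :
    RestStep B D DL nm Wo sz nr P C c q k := by
  intro H hPL hPP b hb0 hb hsm
  set T : ℝ≥0∞ := c * tn nm Wo k (DL.K k) with hT'
  set e : ℝ≥0∞ := c * tn nm Wo k (SrcTailx441.PT B D DL k) with he
  have hAL : DL.A k = fun U => -vacH (DL.H k U) := funext fun U => lead_A hL hk h1 U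
  have hHL : DL.H k = fun U => cvG (ext0 m (B.S k)) (DL.K k U) := funext fun U => tail_H hL hk U
  have hcr := crd_tn H hPL
  have hT : Tin (Wo (k + 1)) (sz (k + 1)) (fun U => nm (k + 1) U (DL.H k U)) +
      Tin (Wo (k + 1)) (sz (k + 1)) (fun U => nm (k + 1) U (DL.A k U)) ≤ T := by
    rw [hAL, hHL]; exact hcr
  have hP : Tin (Wo (k + 1)) (sz (k + 1)) (fun U => nm (k + 1) U (HT B D DL k U)) +
      Tin (Wo (k + 1)) (sz (k + 1)) (fun U => nm (k + 1) U (-vacH (HT B D DL k U))) ≤ e :=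
    crd_tn H hPP
  have hl : ∀ p, Sin (Wo (k + 1)) (sz (k + 1)) (nr (k + 1)) (fun U => nm (k + 1) U (DL.H k U)) p +
      Sin (Wo (k + 1)) (sz (k + 1)) (nr (k + 1)) (fun U => nm (k + 1) U (DL.A k U)) p ≤ T :=
    fun p => (add_le_add (Sin_le_Tin H.sum _ p) (Sin_le_Tin H.sum _ p)).trans hT
  have hC1 := H.C1
  have hb1 : b ≤ 1 := by
    refine le_trans ?_ hsm
    calc b = 1 * 1 * b := by ring
      _ ≤ 32 * C * (b + T + e) := by
          refine mul_le_mul' (mul_le_mul' (by norm_num) hC1) ?_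
          exact le_self_add.trans le_self_add
  have hbT : b * T ≤ T := by
    calc b * T ≤ 1 * T := mul_le_mul_left hb1 _
      _ = T := one_mul _
  have hsum : b + T + e + b * T ≤ 2 * (b + T + e) := by
    calc b + T + e + b * T ≤ b + T + e + T := by gcongr
      _ ≤ b + T + e + (b + T + e) := by
          refine add_le_add le_rfl ?_
          exact le_add_self.trans le_self_add
      _ = 2 * (b + T + e) := by ring
  have hsm' : 16 * C * (b + T + e + b * T) ≤ 1 := by
    refine le_trans (mul_le_mul_right hsum _) (le_trans (le_of_eq ?_) hsm)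
    ring
  have hN := H.fam
  have key := NL3 (near := B.near k) H.symm hN H.sum H.W1 hb hl hT hP hC1 hb0 hsm'
  have h3 : ∀ W : Finset F, W.Nonempty → nm (k + 1) W (SrcTailx441.PT B D DL (k + 1) W) ≤
      nm (k + 1) W (HT B D DL k W - vacH (HT B D DL k W)) +
      nm (k + 1) W (NL (B.near k) (B.near (k + 1))
          (fun U => inG m (B.H k U) + DL.H k U + HT B D DL k U)
          (fun U => inG m (B.A k U) + DL.A k U + (-vacH (HT B D DL k U))) W -
        NL (B.near k) (B.near (k + 1)) (fun U => inG m (B.H k U)) (fun U => inG m (B.A k U)) W -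
        NL (B.near k) (B.near (k + 1)) (DL.H k) (DL.A k) W) := by
    intro W hW
    rw [tail_PT_succ h hL hk h0 h1 hW]
    exact (hN.gn W).add _ _
  refine (Tout_mono h3).trans ?_
  rw [Tout_add]
  refine add_le_add (lin_tn H hPP) (key.trans ?_)
  have h14 : (6 + 8 * C) ≤ 14 * C := by
    calc 6 + 8 * C = 6 * 1 + 8 * C := by ring
      _ ≤ 6 * C + 8 * C := by gcongr
      _ = 14 * C := by ring
  have h13 : (5 + 8 * C) ≤ 13 * C := by
    calc 5 + 8 * C = 5 * 1 + 8 * C := by ring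
      _ ≤ 5 * C + 8 * C := by gcongr
      _ = 13 * C := by ring
  calc (6 + 8 * C) * ((b + T + e + b * T) * e) + (5 + 8 * C) * (b * T)
      ≤ 14 * C * (2 * (b + T + e) * e) + 13 * C * (b * T) := by gcongr
    _ = 28 * C * ((b + T + e) * e) + 13 * C * (b * T) := by ring
    _ ≤ 40 * C * ((b + T + e) * e) + 40 * C * (b * T) := by gcongr <;> norm_num
    _ = 40 * C * ((b + T + e) * e + b * T) := by ring

/-! ### the class of source-local elements -/

/-- elements of `GS` whose source coefficients `I` only involve sources with faces inside `U` -/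
def SLA (sf : Fin m → Finset F) (U : Finset F) : Subalgebra ℝ (Ge (VS V m)) where
  carrier := {X | X ∈ GS V m ∧ ∀ I, coP I X ≠ 0 → ∀ i ∈ I, sf i ⊆ U}
  mul_mem' {a b} ha hb := by
    refine ⟨mul_mem ha.1 hb.1, fun I hI i hi => ?_⟩
    rw [coP_mul ha.1 hb.1] at hI
    obtain ⟨J, hJ, hne⟩ := Finset.exists_ne_zero_of_sum_ne_zero hI
    rw [Finset.mem_powerset] at hJ
    by_cases hiJ : i ∈ J
    · exact ha.2 J (left_ne_zero_of_mul hne) i hiJ
    · exact hb.2 (I \ J) (right_ne_zero_of_mul hne) i (Finset.mem_sdiff.2 ⟨hi, hiJ⟩)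
  add_mem' {a b} ha hb := by
    refine ⟨add_mem ha.1 hb.1, fun I hI i hi => ?_⟩
    rw [map_add] at hI
    by_cases h : coP I a = 0
    · exact hb.2 I (fun h' => hI (by rw [h, h', add_zero])) i hi
    · exact ha.2 I h i hi
  algebraMap_mem' r := by
    refine ⟨Subalgebra.algebraMap_mem _ r, fun I hI i hi => ?_⟩
    exfalso
    apply hI
    have e : (algebraMap ℝ (Ge (VS V m)) r) = inG m (algebraMap ℝ (Ge V) r) := by
      rw [AlgHom.commutes]
    rw [e, coP_inG, if_neg]
    rintro rfl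
    simp at hi

theorem mem_SLA {sf : Fin m → Finset F} {U : Finset F} {X : Ge (VS V m)} :
    X ∈ SLA sf U ↔ X ∈ GS V m ∧ ∀ I, coP I X ≠ 0 → ∀ i ∈ I, sf i ⊆ U := Iff.rfl

theorem SLA_mono (sf : Fin m → Finset F) {U W : Finset F} (h : U ⊆ W) :
    (SLA sf U : Subalgebra ℝ (Ge (VS V m))) ≤ SLA sf W :=
  fun _ hX => ⟨hX.1, fun I hI i hi => (hX.2 I hI i hi).trans h⟩

theorem inG_mem_SLA (sf : Fin m → Finset F) (U : Finset F) (a : Ge V) :
    inG m a ∈ SLA sf U := by
  refine ⟨inG_mem a, fun I hI i hi => ?_⟩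
  exfalso
  apply hI
  rw [coP_inG, if_neg]
  rintro rfl
  simp at hi

theorem cvG_mem_SLA {sf : Fin m → Finset F} {U : Finset F} (S : Cov V) {X : Ge (VS V m)}
    (hX : X ∈ SLA sf U) : cvG (ext0 m S) X ∈ SLA sf U := by
  refine ⟨GS_cvG S hX.1, fun I hI i hi => hX.2 I (fun h => hI ?_) i hi⟩
  rw [coP_cvG S hX.1, h, map_zero]

theorem vacH_mem_SLA {sf : Fin m → Finset F} {U : Finset F} {X : Ge (VS V m)}
    (hX : X ∈ SLA sf U) : vacH X ∈ SLA sf U := by
  refine ⟨GS_vacH hX.1, fun I hI i hi => hX.2 I (fun h => hI ?_) i hi⟩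
  rw [coP_vacH hX.1, h, map_zero, map_zero]

/-- **the activities of a tail system are source-local** -/
theorem tail_SLA (h : TailOf B D N) {sf : Fin m → Finset F} (h0 : ∀ U, D.K 0 U ∈ SLA sf U) :
    ∀ k ≤ N, ∀ U, D.K k U ∈ SLA sf U := by
  intro k
  induction k with
  | zero => intro _ U; exact h0 U
  | succ k ih =>
    intro hk U
    have hk' : k < N := by omega
    have hH : ∀ U, D.H k U ∈ SLA sf U := fun U => by
      rw [tail_H h hk']; exact cvG_mem_SLA _ (ih hk'.le U)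
    rw [Sys.K_succ]
    refine Sys.KK_mem (fun U => SLA sf U) (fun U W hUW => SLA_mono sf hUW) _ _ U
      (fun W _ => hH W) (fun W _ => ?_)
    rw [Sys.B_eq]
    refine Subalgebra.sub_mem _ (SrcDefx991.gexp_mem_sub _ ?_) (Subalgebra.one_mem _)
    rw [tail_A h hk']
    exact Subalgebra.sub_mem _ (inG_mem_SLA sf W _) (vacH_mem_SLA (hH W))

/-- **connected supports** of a tail system -/
theorem tail_conn (h : TailOf B D N) {d : F → F → ℕ} {R : ℕ → ℕ} (hR : ∀ k < N, R k ≤ R (k + 1))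
    (hnear : ∀ k < N, B.near (k + 1) = fun a b => d a b ≤ R (k + 1))
    (h0 : ∀ U, U.Nonempty → D.K 0 U ≠ 0 → Packx915.Conn d (R 0) U)
    (hX : ∀ k < N, ∀ U, U.Nonempty → (B.e k).gain (fun U => noS (D.H k U)) U -
      (B.e k).lost (fun U => noS (D.H k U)) U ≠ 0 → Packx915.Conn d (R k) U) :
    ∀ k ≤ N, ∀ U, U.Nonempty → D.K k U ≠ 0 → Packx915.Conn d (R k) U := by
  intro k
  induction k with
  | zero => intro _ U hU; exact h0 U hU
  | succ k ih =>
    intro hk U hU hne
    have hk' : k < N := by omega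
    have hH : ∀ U, U.Nonempty → D.H k U ≠ 0 → Packx915.Conn d (R k) U := fun U hU hh => by
      refine ih hk'.le U hU fun h1 => hh ?_
      rw [tail_H h hk', h1, map_zero]
    rw [Sys.K_succ, h.near, hnear k hk'] at hne
    refine KConnx892.KK_conn (fun W hW hh => (hH W hW hh).mono (hR k hk')) (fun W hW hh => ?_) hne
    have hA : D.A k W ≠ 0 := fun h1 => hh (by rw [Sys.B_eq, h1, gexp_zero, sub_self])
    rw [tail_A h hk'] at hA
    refine Packx915.Conn.mono ?_ (hR k hk')
    by_cases h2 : (B.e k).gain (fun U => noS (D.H k U)) W -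
        (B.e k).lost (fun U => noS (D.H k U)) W = 0
    · refine hH W hW fun h3 => hA ?_
      rw [h2, h3, map_zero, map_zero, sub_zero]
    · exact hX k hk' W hW h2

/-- supports of the rest -/
theorem PT_ne {k : ℕ} {U : Finset F} (h : SrcTailx441.PT B D DL k U ≠ 0) :
    D.K k U ≠ 0 ∨ B.K k U ≠ 0 ∨ DL.K k U ≠ 0 := by
  by_contra hc
  push Not at hc
  apply h
  rw [SrcTailx441.PT, hc.1, hc.2.1, hc.2.2, map_zero, sub_zero, sub_zero]

theorem PT_SLA {sf : Fin m → Finset F} {k : ℕ} {U : Finset F} (h1 : D.K k U ∈ SLA sf U)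
    (h2 : DL.K k U ∈ SLA sf U) : SrcTailx441.PT B D DL k U ∈ SLA sf U :=
  Subalgebra.sub_mem _ (Subalgebra.sub_mem _ h1 (inG_mem_SLA sf U _)) h2

theorem PT_noS {k : ℕ} {U : Finset F} (h0 : noS (D.K k U) = B.K k U) (h1 : noS (DL.K k U) = 0) :
    noS (SrcTailx441.PT B D DL k U) = 0 := by
  rw [SrcTailx441.PT, map_sub, map_sub, noS_inG, h0, h1, sub_self, sub_zero]

/-! ### the vacuum exponents of a tail system -/

/-- **vacuum exponents** of the actual run: base flow (a number), free run, rest -/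
theorem tail_E (h : TailOf B D N) (hL : TailOf B DL N) (Λ : Finset F) :
    D.E Λ N = algebraMap ℝ _ (ctG (B.E Λ N)) + DL.E Λ N +
      ∑ k ∈ Finset.range N, ∑ U ∈ nes Λ, vacH (HT B D DL k U) := by
  unfold Sys.E Sys.vacE
  rw [map_sum, map_sum, ← Finset.sum_add_distrib, ← Finset.sum_add_distrib]
  refine Finset.sum_congr rfl fun n hn => ?_
  rw [map_sum, map_sum, ← Finset.sum_add_distrib, ← Finset.sum_add_distrib]
  refine Finset.sum_congr rfl fun U _ => ?_
  rw [h.vac, hL.vac, tail_H_eq h hL (Finset.mem_range.1 hn), vacS_apply, vacS_apply, map_add,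
    map_add, vacH_inG, h.bvac, vac0_apply]
  congr 3
  rw [AlgHom.commutes]; rfl

end tail

end Crest.Agent.R165.SrcTailx999
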