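import Crest.Agent.R165.SrcTailA_441
import Crest.Agent.R165.Comp2_889
import Crest.Agent.R165.Quad2_897
import Crest.Agent.R165.SrcAlg_991

/-!
# Row 165 (S0250), tail with sources, T5: the structural fields of `TailN` and `BulkIn` (helper999)

`w a r Γ v` : weight, amplitudes and ranges by scale, polymer weight, source weights.

* `nmS w a r v k U X = pG (wS (wU w (a k) (r k) U) v) X`, `WoS r Γ k U = Γ ^ size (r k) U`,
  `szS r k U = size (r k) U`, `nrS r k p U = Near (r k) p U`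
* `tailN_mk` : `TailN` from its fields `lin`, `crd`; constant `nn3 (r (k+1)) R`
* `bulkIn_of` : `BulkIn` with `b = 2 CF NP(all) k` from `Str` and `StepOK` of the base flow
* `shift` versions
-/

set_option autoImplicit false
set_option linter.unusedSectionVars false
set_option linter.unusedVariables false

noncomputable section

open scoped ENNReal

namespace Crest.Agent.R165.TailNAx999

open Crest.Agent.R165.Gr0x606 Crest.Agent.R165.Gr1x606 Crest.Agent.R165.GeOpsx337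
  Crest.Agent.R165.KStepx892 Crest.Agent.R165.KFlowx337 Crest.Agent.R165.Latx683
  Crest.Agent.R165.PNormx417 Crest.Agent.R165.GDefx387 Crest.Agent.R165.Packx915
  Crest.Agent.R165.NSumx915 Crest.Agent.R165.Bridgex915 Crest.Agent.R165.DefStepx915
  Crest.Agent.R165.DefRecx915 Crest.Agent.R165.Quadx897 Crest.Agent.R165.ExpAx337
  Crest.Agent.R165.SrcStepx54
open Crest.Agent.R165.SrcDefx991 (VS Src ext0 inG noS vacH coP wS vS GS)
open Crest.Agent.R165.SrcTailx441 (TailN BulkIn tn shift shift_K shift_H)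

variable {G : Type} [CommRing G] [CN G] [DecidableEq G] {m : ℕ}

/-! ### the norms -/

/-- norm of source dependent activities at scale `k` -/
def nmS (w : BW G) (a : ℕ → ℝ) (r : ℕ → ℕ) (v : Fin m → ℝ≥0∞) (k : ℕ) (U : Finset (G × G))
    (X : Ge (VS (Fld G) m)) : ℝ≥0∞ := pG (wS (wU w (a k) (r k) U) v) X

/-- polymer weight at scale `k` -/
def WoS (r : ℕ → ℕ) (Γ : ℝ≥0∞) (k : ℕ) (U : Finset (G × G)) : ℝ≥0∞ := Γ ^ size (r k) U

/-- size at scale `k` -/
def szS (r : ℕ → ℕ) (k : ℕ) (U : Finset (G × G)) : ℕ := size (r k) U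

/-- nearness at scale `k` -/
def nrS (r : ℕ → ℕ) (k : ℕ) (p : G × G) (U : Finset (G × G)) : Prop := Near (r k) p U

variable {w : BW G} {a : ℕ → ℝ} {r : ℕ → ℕ} {Γ : ℝ≥0∞} {v : Fin m → ℝ≥0∞}

omit [CN G] [DecidableEq G] in
theorem wS_mono {V : Type} {f g : V → ℝ≥0∞} (h : ∀ l, f l ≤ g l) (v : Fin m → ℝ≥0∞)
    (p : VS V m) : wS f v p ≤ wS g v p := add_le_add (h _) le_rfl

theorem nmS_inG (k : ℕ) (U : Finset (G × G)) (x : Ge (Fld G)) :
    nmS w a r v k U (inG m x) ≤ pG (wU w (a k) (r k) U) x :=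
  Crest.Agent.R165.SrcDefx991.pG_inG_le x

theorem gfam_nmS (k : ℕ) : GFam (nmS w a r v k) where
  gn U := gn_pG _
  anti U W x h := pnorm_le_pnorm (fun l => wS_mono (fun l => wU_anti w _ _ h l) v l) _

theorem one_le_WoS (hΓ : 1 ≤ Γ) (k : ℕ) (U : Finset (G × G)) : 1 ≤ WoS r Γ k U :=
  one_le_pow₀ hΓ

theorem sum_mono_C {F : Type} [DecidableEq F] {near' : F → F → Prop} {β : Type}
    {Wo : Finset F → ℝ≥0∞} {sz : Finset F → ℕ} {nr : β → Finset F → Prop} {C C' : ℝ≥0∞}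
    (h : SumData near' β Wo sz nr C) (hC : C ≤ C') : SumData near' β Wo sz nr C' where
  wpos := h.wpos
  wunion := h.wunion
  nempty := h.nempty
  nunion := h.nunion
  cov U := let ⟨P, hP, hU⟩ := h.cov U; ⟨P, hP.trans (mul_le_mul_left hC _), hU⟩
  hit := h.hit

/-- **summation data** -/
theorem sumS [GoodG G] (hΓ : 1 ≤ Γ) (k : ℕ) (hr : 0 < r k) (R : ℕ) :
    SumData (fun x y : G × G => fd x y ≤ R) (G × G) (WoS r Γ k) (szS r k) (nrS r k)
      (nn3 (r k) R : ℝ≥0∞) := by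
  have h := Quad2x897.sumData (d := (fd : G × G → G × G → ℕ)) (r' := r k) (R' := R) pd_fd hΓ
    (cov_fd hr (r k + R))
  have e1 : WoS (G := G) r Γ k = fun U => Γ ^ pack fd (r k) U := by
    funext U; rw [WoS, size_eq_pack]
  have e2 : szS (G := G) r k = fun U => pack fd (r k) U := by
    funext U; rw [szS, size_eq_pack]
  rw [e1, e2]
  exact h

theorem one_le_nn3 (r' R' : ℕ) : (1 : ℝ≥0∞) ≤ nn3 r' R' := by
  have : 1 ≤ nn3 r' R' := Nat.one_le_pow _ _ (by omega)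
  exact_mod_cast this

/-- **`TailN` from its per-polymer bounds** -/
theorem tailN_mk [GoodG G] {B : Sys (G × G) (Fld G)} {R : ℕ → ℕ}
    {P : ℕ → Finset (G × G) → Ge (VS (Fld G) m) → Prop} {C c q : ℝ≥0∞} {k : ℕ} (hΓ : 1 ≤ Γ)
    (hr : 0 < r (k + 1)) (hnear : B.near (k + 1) = fun x y => fd x y ≤ R (k + 1))
    (hC : (nn3 (r (k + 1)) (R (k + 1)) : ℝ≥0∞) ≤ C)
    (lin : ∀ U : Finset (G × G), U.Nonempty → ∀ X, P k U X →
      Γ ^ size (r (k + 1)) U * pG (wS (wU w (a (k + 1)) (r (k + 1)) U) v)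
        (cvG (ext0 m (B.S k)) X - vacH (cvG (ext0 m (B.S k)) X)) ≤
        q * (Γ ^ size (r k) U * pG (wS (wU w (a k) (r k) U) v) X))
    (crd : ∀ U : Finset (G × G), U.Nonempty → ∀ X, P k U X →
      Γ ^ size (r (k + 1)) U * 3 ^ size (r (k + 1)) U *
        (pG (wS (wU w (a (k + 1)) (r (k + 1)) U) v) (cvG (ext0 m (B.S k)) X) +
          pG (wS (wU w (a (k + 1)) (r (k + 1)) U) v) (vacH (cvG (ext0 m (B.S k)) X))) ≤
        c * (Γ ^ size (r k) U * pG (wS (wU w (a k) (r k) U) v) X)) :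
    TailN B (nmS w a r v) (WoS r Γ) (szS r) (nrS r) P C c q k where
  symm x y h := by
    rw [hnear] at h ⊢
    simp only at h ⊢
    rwa [fd_comm]
  fam := gfam_nmS _
  sum := by
    rw [hnear]
    exact sum_mono_C (sumS hΓ (k + 1) hr (R (k + 1))) hC
  W1 := one_le_WoS hΓ _
  C1 := (one_le_nn3 _ _).trans hC
  lin := lin
  crd := crd

/-! ### the bulk input -/

/-- a sum with the input weights is a sum with the polymer weight `3 Γ` -/
theorem Sin_le_NN (k : ℕ) (x : Finset (G × G) → ℝ≥0∞) (p : G × G) :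
    Sin (WoS r Γ k) (szS r k) (nrS r k) x p ≤ NN fd (r k) (3 * Γ) x := by
  refine le_trans (le_of_eq ?_) (bs_le_NN x p)
  unfold Sin bs
  refine tsum_congr fun U => ?_
  by_cases h : near fd (r k) p U
  · rw [Set.indicator_of_mem (by exact h), Set.indicator_of_mem (by exact h), WoS, szS,
      size_eq_pack, mul_pow, mul_comm (Γ ^ _)]
  · rw [Set.indicator_of_notMem (by exact h), Set.indicator_of_notMem (by exact h)]

theorem Sin_mono' {k : ℕ} {x y : Finset (G × G) → ℝ≥0∞} (h : ∀ U, x U ≤ y U) (p : G × G) :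
    Sin (WoS r Γ k) (szS r k) (nrS r k) x p ≤ Sin (WoS r Γ k) (szS r k) (nrS r k) y p :=
  ENNReal.tsum_le_tsum fun U => Set.indicator_le_indicator (mul_le_mul_right (h U) _)

theorem NN_NK (a' : ℝ) (r' : ℕ) (Γ' : ℝ≥0∞) (K : Finset (G × G) → Ge (Fld G)) :
    NN fd r' Γ' (fun U => pG (wU w a' r' U) (K U)) =
      NK w a' r' Γ' allP (fun U => ((K U : Ge (Fld G)) : Gr (Fld G))) := by
  rw [NK_eq_NN]
  congr 1
  funext U
  rw [act_of (p := allP) trivial]
  rfl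

/-- **the bulk input of one tail step** -/
theorem bulkIn_of [GoodG G] {D : Sys (G × G) (Fld G)} {R : ℕ → ℕ}
    {ac em : ℕ → Finset (G × G) → Prop} {K : ℕ} {κ₀ CF : ℝ≥0∞}
    (S : Compx889.Str D r R Γ ac em K) {k : ℕ} (hk : k < K)
    (h : Compx889.StepOK D w Γ k (a k) (a (k + 1)) (r k) (r (k + 1)) (ac k) (em k) κ₀ CF) :
    BulkIn D (nmS w a r v) (WoS r Γ) (szS r) (nrS r) k
      (2 * (CF * Compx889.NP D w a r Γ allP k)) := by
  obtain ⟨κ, _, A, mm, N, q, qL, qT, CX, H, hX, hκ, hF⟩ := h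
  have hΓ := S.Γ1
  have hΓΓ : Γ ≤ 3 * Γ := le_mul_of_one_le_left' (by norm_num)
  have hH := NK_H_le (Γ' := 3 * Γ) (c := 3) D k H (S.r_pos k) (S.r_mono k) hΓ le_rfl
    (S.hac k hk) (S.ne k hk)
  have hA := NK_A_le (Γ' := 3 * Γ) (c := 3) D k H (S.r_pos k) (S.r_mono k) hΓ hΓΓ le_rfl
    (S.hac k hk) (S.ne k hk) S.vac (S.ext k hk) hX
  set X := Compx889.NP D w a r Γ allP k with hXdef
  have e1 : (qL + 3 * qT) * (nn2 (r k) (r (k + 1)) * X) ≤ CF * X := by
    rw [← mul_assoc]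
    refine mul_le_mul_left (le_trans ?_ hF) _
    rw [cF]
    exact mul_le_mul_left le_self_add _
  have e2 : (qL + 3 * qT + 2 * (3 * CX)) * (nn2 (r k) (r (k + 1)) * X) ≤ CF * X := by
    rw [← mul_assoc]
    exact mul_le_mul_left hF _
  intro p
  rw [two_mul]
  refine add_le_add ?_ ?_
  · refine (Sin_mono' (fun U => nmS_inG (k + 1) U (D.H k U)) p).trans
      ((Sin_le_NN (k + 1) _ p).trans ?_)
    rw [NN_NK]
    exact hH.trans e1
  · refine (Sin_mono' (fun U => nmS_inG (k + 1) U (D.A k U)) p).trans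
      ((Sin_le_NN (k + 1) _ p).trans ?_)
    rw [NN_NK]
    exact hA.trans e2

theorem BulkIn.mono {F : Type} [DecidableEq F] {V : Type} [AddCommGroup V] [Module ℝ V]
    {B : Sys F V} {β : Type} {nm : ℕ → Finset F → Ge (VS V m) → ℝ≥0∞}
    {Wo : ℕ → Finset F → ℝ≥0∞} {sz : ℕ → Finset F → ℕ} {nr : ℕ → β → Finset F → Prop} {k : ℕ}
    {b b' : ℝ≥0∞} (h : BulkIn B nm Wo sz nr k b) (hb : b ≤ b') : BulkIn B nm Wo sz nr k b' :=
  fun p => (h p).trans hb

/-! ### shifted systems -/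

/-- the base flow restarted at step `n₀` -/
theorem shift_bulkIn {D : Sys (G × G) (Fld G)} {n₀ k : ℕ} {b : ℝ≥0∞}
    (h : BulkIn D (nmS w a r v) (WoS r Γ) (szS r) (nrS r) (n₀ + k) b) :
    BulkIn (shift D n₀ (D.K n₀)) (nmS w (fun n => a (n₀ + n)) (fun n => r (n₀ + n)) v)
      (WoS (fun n => r (n₀ + n)) Γ) (szS fun n => r (n₀ + n)) (nrS fun n => r (n₀ + n)) k b := by
  intro p
  have hH : (shift D n₀ (D.K n₀)).H k = D.H (n₀ + k) := shift_H D n₀ k
  have hA : (shift D n₀ (D.K n₀)).A k = D.A (n₀ + k) := by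
    funext U
    rw [Sys.A, Sys.A, hH]
    rfl
  have := h p
  rw [← hH, ← hA] at this
  exact this

/-- the same with real bounds: `NP(all) k ≤ b / 2 ^ k` -/
theorem bulkIn_real [GoodG G] {D : Sys (G × G) (Fld G)} {R : ℕ → ℕ}
    {ac em : ℕ → Finset (G × G) → Prop} {K : ℕ} {κ₀ CF : ℝ≥0∞} (hCF : CF ≠ ∞)
    (S : Compx889.Str D r R Γ ac em K) {n₀ k : ℕ} (hk : n₀ + k < K)
    (h : Compx889.StepOK D w Γ (n₀ + k) (a (n₀ + k)) (a (n₀ + k + 1)) (r (n₀ + k))
      (r (n₀ + k + 1)) (ac (n₀ + k)) (em (n₀ + k)) κ₀ CF) {M b : ℝ}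
    (hNP : Compx889.NP D w a r Γ allP (n₀ + k) ≤ ENNReal.ofReal (M * (1 / 2) ^ (n₀ + k)))
    (hb : 2 * CF.toReal * M * (1 / 2) ^ n₀ ≤ b) :
    BulkIn (shift D n₀ (D.K n₀)) (nmS w (fun n => a (n₀ + n)) (fun n => r (n₀ + n)) v)
      (WoS (fun n => r (n₀ + n)) Γ) (szS fun n => r (n₀ + n)) (nrS fun n => r (n₀ + n)) k
      (ENNReal.ofReal (b / 2 ^ k)) := by
  refine BulkIn.mono (shift_bulkIn (bulkIn_of (v := v) S hk h)) ?_
  calc 2 * (CF * Compx889.NP D w a r Γ allP (n₀ + k))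
      ≤ 2 * (CF * ENNReal.ofReal (M * (1 / 2) ^ (n₀ + k))) := by gcongr
    _ = ENNReal.ofReal (2 * CF.toReal * M * (1 / 2) ^ n₀ / 2 ^ k) := by
        conv_lhs => rw [← ENNReal.ofReal_toReal hCF]
        have e2 : (2 : ℝ≥0∞) = ENNReal.ofReal 2 := by norm_num
        have e1 : ((1 : ℝ) / 2) ^ k = (2 ^ k)⁻¹ := by rw [one_div, inv_pow]
        rw [← ENNReal.ofReal_mul ENNReal.toReal_nonneg, e2, ← ENNReal.ofReal_mul (by norm_num)]
        congr 1
        rw [pow_add, e1, div_eq_mul_inv]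
        ring
    _ ≤ ENNReal.ofReal (b / 2 ^ k) := by
        refine ENNReal.ofReal_le_ofReal ?_
        gcongr

end Crest.Agent.R165.TailNAx999
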