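import Crest.Agent.R165.SrcDisc_610
import Crest.Agent.R165.SrcTailAll_441
import Crest.Agent.R165.SrcTailB_999
import Crest.Agent.R165.TailNA_999

/-!
# Row 165 (S0250), leaf P11 (sources in large discs), T5: the step hypotheses of the tail (helper610)

`a r R` : amplitudes, ranges, connection ranges of the (restarted) tail.

* `acR`, `PcT` : the polymers and the class of the activities of the tail
* `tlin_lin`, `tlin_crd` : the fields `lin`, `crd` of `TailN` from `TLin`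
* `tailN_of`, `tailH_gen` : `TailN`, `TailH` for any class of admissible elements (`Adm`)
* `RunT` : the two runs; `RunT.lead`, `RunT.rest` : their activities are in the class
* `tailH_of` : `TailH` (all steps)
-/

set_option autoImplicit false
set_option linter.unusedSectionVars false

noncomputable section

open scoped ENNReal
open Crest.Agent.R165.Gr0x606 Crest.Agent.R165.Gr1x606 Crest.Agent.R165.GeOpsx337
  Crest.Agent.R165.ExpGx337 Crest.Agent.R165.PNormx417 Crest.Agent.R165.SrcDefx991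
  Crest.Agent.R165.Latx683 Crest.Agent.R165.GDefx387 Crest.Agent.R165.KFlowx337
  Crest.Agent.R165.Quadx897 Crest.Agent.R165.ExpAx337
  Crest.Agent.R165.SrcStepx54 Crest.Agent.R165.Bridgex915 Crest.Agent.R165.SrcDiscx610
open Crest.Agent.R165.SrcTailx441 (TailOf TailN BulkIn NoX PT)
open Crest.Agent.R165.SrcTailAllx441 (TailH)
open Crest.Agent.R165.SrcTailx999 (SLA mem_SLA tail_noS lead_noS tail_SLA tail_conn PT_ne PT_SLA
  PT_noS tail_noS_H)
open Crest.Agent.R165.TailNAx999 (nmS WoS szS nrS tailN_mk)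
open Crest.Agent.R165.DefRecx915 (nn3)

namespace Crest.Agent.R165.SrcDiscTx610

variable {G : Type} [CommRing G] [CN G] [DecidableEq G] {m : ℕ}

/-- polymers of the tail at scale `k` -/
def acR (R : ℕ → ℕ) (k : ℕ) (U : Finset (G × G)) : Prop :=
  U.Nonempty ∧ Packx915.Conn fd (R k) U

/-- the class of the activities: source local, no source free part, connected support -/
def PcT (sf : Fin m → Finset (G × G)) (R : ℕ → ℕ) (k : ℕ) (U : Finset (G × G))
    (X : Ge (VS (Fld G) m)) : Prop :=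
  X ∈ SLA sf U ∧ noS X = 0 ∧ (U.Nonempty → X ≠ 0 → Packx915.Conn fd (R k) U)

section lin

variable [GoodG G] {w : BW G} {a : ℕ → ℝ} {r R : ℕ → ℕ} {k : ℕ} {Γ q qT : ℝ≥0∞}
  {S : Cov (Fld G)} {v : Fin m → ℝ≥0∞} {sf : Fin m → Finset (G × G)}

/-- admissible elements at scale `k` -/
def Adm (R : ℕ → ℕ) (k : ℕ) (U : Finset (G × G)) (X : Ge (VS (Fld G) m)) : Prop :=
  X ∈ GS (Fld G) m ∧ (U.Nonempty → X ≠ 0 → Packx915.Conn fd (R k) U)

/-- field `lin` of `TailN` -/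
theorem tlin_lin (h : TLin w (a k) (a (k + 1)) (r k) (r (k + 1)) Γ (3 * Γ) S (acR R k) q qT)
    (hv : ∀ i, v i ≠ ∞) (hv0 : ∀ i, v i ≠ 0) {U : Finset (G × G)} (hU : U.Nonempty)
    {X : Ge (VS (Fld G) m)} (hX : Adm R k U X) :
    Γ ^ size (r (k + 1)) U * pG (wS (GDefx387.wU w (a (k + 1)) (r (k + 1)) U) v)
      (cvG (ext0 m S) X - vacH (cvG (ext0 m S) X)) ≤
      q * (Γ ^ size (r k) U * pG (wS (GDefx387.wU w (a k) (r k) U) v) X) := by
  by_cases h0 : X = 0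
  · rw [h0, map_zero, map_zero, sub_zero, pG_zero, mul_zero]
    exact zero_le
  have h1 := h.src (mu := fun _ => 0) (b := fun _ => 0) hv hv0 (fun i => le_rfl)
    (U := U) ⟨hU, hX.2 hU h0⟩ hX.1
  rw [linR_empty] at h1
  refine le_trans (mul_le_mul' (pow_le_pow_left' ?_ _) le_rfl) h1
  exact le_mul_of_one_le_left' (by norm_num)

/-- field `crd` of `TailN` -/
theorem tlin_crd (h : TLin w (a k) (a (k + 1)) (r k) (r (k + 1)) Γ (3 * Γ) S (acR R k) q qT)
    (hv : ∀ i, v i ≠ ∞) (hv0 : ∀ i, v i ≠ 0) {U : Finset (G × G)} (hU : U.Nonempty)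
    {X : Ge (VS (Fld G) m)} (hX : Adm R k U X) :
    Γ ^ size (r (k + 1)) U * 3 ^ size (r (k + 1)) U *
      (pG (wS (GDefx387.wU w (a (k + 1)) (r (k + 1)) U) v) (cvG (ext0 m S) X) +
        pG (wS (GDefx387.wU w (a (k + 1)) (r (k + 1)) U) v) (vacH (cvG (ext0 m S) X))) ≤
      (2 * qT) * (Γ ^ size (r k) U * pG (wS (GDefx387.wU w (a k) (r k) U) v) X) := by
  by_cases h0 : X = 0
  · rw [h0, map_zero, map_zero, pG_zero, add_zero, mul_zero]
    exact zero_le
  have hac : acR R k U := ⟨hU, hX.2 hU h0⟩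
  have h1 := h.src_any hv hv0 (fun i => le_rfl) hac hX.1
  have h2 := h.src_vac hv hv0 (fun i => le_rfl) hac hX.1
  have e : Γ ^ size (r (k + 1)) U * 3 ^ size (r (k + 1)) U = (3 * Γ) ^ size (r (k + 1)) U := by
    rw [mul_pow, mul_comm]
  rw [e, mul_add]
  refine (add_le_add h1 h2).trans (le_of_eq ?_)
  ring

/-- **`TailN`** from the linear bounds, any class of admissible elements -/
theorem tailN_of {B : Sys (G × G) (Fld G)} {C : ℝ≥0∞}
    {P : ℕ → Finset (G × G) → Ge (VS (Fld G) m) → Prop}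
    (h : TLin w (a k) (a (k + 1)) (r k) (r (k + 1)) Γ (3 * Γ) (B.S k) (acR R k) q qT)
    (hP : ∀ U X, P k U X → Adm R k U X)
    (hv : ∀ i, v i ≠ ∞) (hv0 : ∀ i, v i ≠ 0) (hΓ : 1 ≤ Γ) (hr : 0 < r (k + 1))
    (hnear : B.near (k + 1) = fun x y => fd x y ≤ R (k + 1))
    (hC : (nn3 (r (k + 1)) (R (k + 1)) : ℝ≥0∞) ≤ C) :
    TailN B (nmS w a r v) (WoS r Γ) (szS r) (nrS r) P C (2 * qT) q k :=
  tailN_mk hΓ hr hnear hC (fun U hU X hX => tlin_lin h hv hv0 hU (hP U X hX))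
    fun U hU X hX => tlin_crd h hv hv0 hU (hP U X hX)

/-- **the step hypotheses of the whole tail**, any class of admissible elements -/
theorem tailH_gen {B : Sys (G × G) (Fld G)} {D DL : Sys (G × G) (VS (Fld G) m)} {N J : ℕ}
    {C : ℝ≥0∞} {P : ℕ → Finset (G × G) → Ge (VS (Fld G) m) → Prop} {q : ℕ → ℝ≥0∞} {b0 : ℝ}
    (hP : ∀ k < N, ∀ U X, P k U X → Adm R k U X)
    (hlead : ∀ k < N, ∀ U, P k U (DL.K k U)) (hrest : ∀ k < N, ∀ U, P k U (PT B D DL k U))
    (hv : ∀ i, v i ≠ ∞) (hv0 : ∀ i, v i ≠ 0) (hΓ : 1 ≤ Γ)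
    (hr : ∀ k, 0 < r k) (hC : ∀ k < N, (nn3 (r (k + 1)) (R (k + 1)) : ℝ≥0∞) ≤ C)
    (hnear : ∀ k < N, B.near (k + 1) = fun x y => fd x y ≤ R (k + 1))
    (lin : ∀ k < N, TLin w (a k) (a (k + 1)) (r k) (r (k + 1)) Γ (3 * Γ) (B.S k) (acR R k)
      (q k) qT)
    (bulk : ∀ k < N, BulkIn (m := m) B (nmS w a r v) (WoS r Γ) (szS r) (nrS r) k
      (ENNReal.ofReal (b0 / 2 ^ k)))
    (crude : ∀ k < N, k < J → q k ≤ 2 * qT) (good : ∀ k < N, J ≤ k → q k ≤ 8⁻¹) :
    TailH B D DL (nmS w a r v) (WoS r Γ) (szS r) (nrS r) P C (2 * qT) q J N b0 where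
  step k hk := tailN_of (lin k hk) (hP k hk) hv hv0 hΓ (hr _) (hnear k hk) (hC k hk)
  lead := hlead
  rest := hrest
  bulk := bulk
  crude := crude
  good := good

end lin

/-! ### the class of the activities -/

section cls

variable {B : Sys (G × G) (Fld G)} {D DL : Sys (G × G) (VS (Fld G) m)} {N : ℕ} {R : ℕ → ℕ}
  {sf : Fin m → Finset (G × G)}

theorem conn_small (R : ℕ) {T : Finset (G × G)} (hT : T.card ≤ 1) : Packx915.Conn fd R T := by
  intro A hA hne hne'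
  exfalso
  apply hne'
  refine Finset.eq_of_subset_of_card_le hA (hT.trans ?_)
  exact Finset.card_pos.2 hne

/-- **the two runs of the tail**: `D` the actual run, `DL` the lead run, `B` the flow without
sources; relative steps `0 ≤ k ≤ N` -/
structure RunT (B : Sys (G × G) (Fld G)) (D DL : Sys (G × G) (VS (Fld G) m))
    (sf : Fin m → Finset (G × G)) (R : ℕ → ℕ) (N : ℕ) : Prop where
  hD : TailOf B D N
  hL : TailOf B DL N
  mono : ∀ k < N, R k ≤ R (k + 1)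
  near : ∀ k < N, B.near (k + 1) = fun a b => fd a b ≤ R (k + 1)
  noS0 : ∀ U, noS (D.K 0 U) = B.K 0 U
  noL0 : ∀ U, noS (DL.K 0 U) = 0
  sla0 : ∀ U, D.K 0 U ∈ SLA sf U
  slaL0 : ∀ U, DL.K 0 U ∈ SLA sf U
  cn0 : ∀ U : Finset (G × G), U.Nonempty → D.K 0 U ≠ 0 → Packx915.Conn fd (R 0) U
  cnL0 : ∀ U : Finset (G × G), U.Nonempty → DL.K 0 U ≠ 0 → Packx915.Conn fd (R 0) U
  cnB : ∀ k < N, ∀ U : Finset (G × G), U.Nonempty → B.K k U ≠ 0 → Packx915.Conn fd (R k) U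
  out : ∀ k < N, ∀ U, ∀ T ∈ (B.e k).out U, T.card ≤ 1

/-- supports of the extracted parts -/
theorem gain_conn {e : Extr (G × G) (Fld G)} {R : ℕ} (ho : ∀ U, ∀ T ∈ e.out U, T.card ≤ 1)
    {H : Finset (G × G) → Ge (Fld G)} (hH : ∀ U : Finset (G × G), U.Nonempty → H U ≠ 0 →
      Packx915.Conn fd R U) {U : Finset (G × G)} (hU : U.Nonempty)
    (h : e.gain H U - e.lost H U ≠ 0) : Packx915.Conn fd R U := by
  by_cases h1 : e.gain H U = 0
  · have h2 : e.lost H U ≠ 0 := fun h2 => h (by rw [h1, h2, sub_zero])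
    rw [Extr.lost] at h2
    obtain ⟨T, -, hT⟩ := Finset.exists_ne_zero_of_sum_ne_zero h2
    exact hH U hU fun h3 => hT (by rw [h3, map_zero])
  · rw [Extr.gain] at h1
    obtain ⟨T, hT, -⟩ := Finset.exists_ne_zero_of_sum_ne_zero h1
    exact conn_small R (ho T U ((e.mem_iff T U).2 hT))

theorem RunT.conn (h : RunT B D DL sf R N) :
    ∀ k ≤ N, ∀ U : Finset (G × G), U.Nonempty → D.K k U ≠ 0 → Packx915.Conn fd (R k) U := by
  refine tail_conn (B := B) h.hD h.mono (fun k hk => h.near k hk) h.cn0 ?_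
  intro k hk U hU hne
  have e : (fun U => noS (D.H k U)) = B.H k := by
    funext U
    rw [tail_noS_H h.hD hk, tail_noS h.hD h.noS0 k hk.le]
    rfl
  rw [e] at hne
  refine gain_conn (h.out k hk) (fun W hW hne' => h.cnB k hk W hW fun h0 => hne' ?_) hU hne
  rw [Sys.H, h0, map_zero]

theorem RunT.connL (h : RunT B D DL sf R N) :
    ∀ k ≤ N, ∀ U : Finset (G × G), U.Nonempty → DL.K k U ≠ 0 → Packx915.Conn fd (R k) U := by
  refine tail_conn (B := B) h.hL h.mono (fun k hk => h.near k hk) h.cnL0 ?_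
  intro k hk U hU hne
  have e : (fun U => noS (DL.H k U)) = fun _ => 0 := by
    funext U
    rw [tail_noS_H h.hL hk, lead_noS h.hL h.noL0 k hk.le, map_zero]
  rw [e] at hne
  exact gain_conn (h.out k hk) (fun W _ hne' => absurd rfl hne') hU hne

/-- the lead run is in the class -/
theorem RunT.lead (h : RunT B D DL sf R N) {k : ℕ} (hk : k < N) (U : Finset (G × G)) :
    PcT sf R k U (DL.K k U) :=
  ⟨tail_SLA h.hL h.slaL0 k hk.le U, lead_noS h.hL h.noL0 k hk.le U,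
    fun hU hne => h.connL k hk.le U hU hne⟩

/-- the rest is in the class -/
theorem RunT.rest (h : RunT B D DL sf R N) {k : ℕ} (hk : k < N) (U : Finset (G × G)) :
    PcT sf R k U (PT B D DL k U) := by
  refine ⟨PT_SLA (tail_SLA h.hD h.sla0 k hk.le U) (tail_SLA h.hL h.slaL0 k hk.le U),
    PT_noS (tail_noS h.hD h.noS0 k hk.le U) (lead_noS h.hL h.noL0 k hk.le U), fun hU hne => ?_⟩
  rcases PT_ne hne with h1 | h1 | h1
  · exact h.conn k hk.le U hU h1
  · exact h.cnB k hk U hU h1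
  · exact h.connL k hk.le U hU h1

/-- the step hypotheses of the whole tail, class `PcT` -/
theorem tailH_of [GoodG G] {w : BW G} {a : ℕ → ℝ} {r : ℕ → ℕ} {Γ qT C : ℝ≥0∞}
    {v : Fin m → ℝ≥0∞} {q : ℕ → ℝ≥0∞} {J : ℕ} {b0 : ℝ}
    (h : RunT B D DL sf R N) (hv : ∀ i, v i ≠ ∞) (hv0 : ∀ i, v i ≠ 0) (hΓ : 1 ≤ Γ)
    (hr : ∀ k, 0 < r k) (hC : ∀ k < N, (nn3 (r (k + 1)) (R (k + 1)) : ℝ≥0∞) ≤ C)
    (lin : ∀ k < N, TLin w (a k) (a (k + 1)) (r k) (r (k + 1)) Γ (3 * Γ) (B.S k) (acR R k)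
      (q k) qT)
    (bulk : ∀ k < N, BulkIn (m := m) B (nmS w a r v) (WoS r Γ) (szS r) (nrS r) k
      (ENNReal.ofReal (b0 / 2 ^ k)))
    (crude : ∀ k < N, k < J → q k ≤ 2 * qT) (good : ∀ k < N, J ≤ k → q k ≤ 8⁻¹) :
    TailH B D DL (nmS w a r v) (WoS r Γ) (szS r) (nrS r) (PcT sf R) C (2 * qT) q J N b0 :=
  tailH_gen (fun _ _ _ _ hX => ⟨hX.1.1, hX.2.2⟩) (fun _ hk U => h.lead hk U)
    (fun _ hk U => h.rest hk U) hv hv0 hΓ hr hC h.near lin bulk crude good

end cls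

end Crest.Agent.R165.SrcDiscTx610
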