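import Crest.Agent.R165.SrcLin_336
import Crest.Agent.R165.SrcStep2_54
import Crest.Agent.R165.Crude_386
import Crest.Agent.R165.WPack_893

/-!
# Row 165 (S0250), leaf P11 item 8 (sources in large discs), linear factors (helper610)

At the scales `k ≥ K(a)` nothing is extracted from the source dependent activities, the source
weights `v` are frozen, and all the legs decay (no branch point is isolated).

* `TLin` : the bounds of one step, per polymer, without sources: `lin` for the constant-free part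
  of the convolution (factor `q`), `any` for the convolution (factor `qT`)
* `TLin.src`, `TLin.src_any` : the same for all elements of `GS` in the norms `pG (wS (wU ..) v)`;
  the linear map is `linR S mu b ∅` of helper336 (convolution minus the part without fields)
* `TLin.tot`, `TLin.tot_any`, `TLin.tot_vac` : total sums (`Tin`, `Tout` of helper54)
* `tlin_of_legs` : all the legs decay by `p`
* `tlin_of_geo` : a composite background without branch points (`Geo` of helper893)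
* `tlin_crude` : every background, crude step (amplitude drop, helper386)
* `BigT`, `ev_bigT` : numbers
-/

set_option autoImplicit false
set_option linter.unusedSectionVars false

noncomputable section

open scoped ENNReal
open Crest.Agent.R165.Gr0x606 Crest.Agent.R165.Gr1x606 Crest.Agent.R165.GeOpsx337
  Crest.Agent.R165.ExpGx337 Crest.Agent.R165.PNormx417 Crest.Agent.R165.SrcDefx991
  Crest.Agent.R165.Latx683 Crest.Agent.R165.GDefx387 Crest.Agent.R165.GLinx336
  Crest.Agent.R165.SrcLinx336 Crest.Agent.R165.SrcStepx54 Crest.Agent.R165.Packx915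
  Crest.Agent.R165.Bridgex915

namespace Crest.Agent.R165.SrcDiscx610

variable {G : Type} [CommRing G] [CN G]

/-! ### the bounds of one step -/

/-- **per-polymer bounds of a step at which nothing is extracted** from the family under
consideration: `lin` = constant-free part of the convolution, `any` = the convolution -/
structure TLin (w : BW G) (a a' : ℝ) (r r' : ℕ) (Γ Γ' : ℝ≥0∞) (S : Cov (Fld G))
    (ac : Finset (G × G) → Prop) (q qT : ℝ≥0∞) : Prop where
  ne : ∀ U, ac U → U.Nonempty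
  lin : ∀ U, ac U → ∀ K : Ge (Fld G), Γ' ^ size r' U * pG (GDefx387.wU w a' r' U) (nl (cvG S K)) ≤
    q * (Γ ^ size r U * pG (GDefx387.wU w a r U) K)
  any : ∀ U, ac U → ∀ K : Ge (Fld G), Γ' ^ size r' U * pG (GDefx387.wU w a' r' U) (cvG S K) ≤
    qT * (Γ ^ size r U * pG (GDefx387.wU w a r U) K)

variable [GoodG G] {w : BW G} {a a' : ℝ} {r r' : ℕ} {Γ Γ' : ℝ≥0∞} {S : Cov (Fld G)}
  {ac : Finset (G × G) → Prop} {q qT : ℝ≥0∞} {m : ℕ} {v v' : Fin m → ℝ≥0∞}
  {mu : Fin m → Ge (Fld G) →ₗ[ℝ] ℝ} {b : Fin m → Ge (Fld G)}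

theorem TLin.mono {ac' : Finset (G × G) → Prop} {q' qT' : ℝ≥0∞}
    (h : TLin w a a' r r' Γ Γ' S ac q qT) (hac : ∀ U, ac' U → ac U) (hq : q ≤ q') (hT : qT ≤ qT') :
    TLin w a a' r r' Γ Γ' S ac' q' qT' where
  ne U hU := h.ne U (hac U hU)
  lin U hU K := (h.lin U (hac U hU) K).trans (mul_le_mul' hq le_rfl)
  any U hU K := (h.any U (hac U hU) K).trans (mul_le_mul' hT le_rfl)

/-- with sources, convolution minus the part without fields -/
theorem TLin.src (h : TLin w a a' r r' Γ Γ' S ac q qT) (hv' : ∀ i, v' i ≠ ∞)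
    (hv0' : ∀ i, v' i ≠ 0) (hv : ∀ i, v' i ≤ v i) {U : Finset (G × G)} (hU : ac U)
    {K : Ge (VS (Fld G) m)} (hK : K ∈ GS (Fld G) m) :
    Γ' ^ size r' U * pG (wS (GDefx387.wU w a' r' U) v') (linR S mu b ∅ K) ≤
      q * (Γ ^ size r U * pG (wS (GDefx387.wU w a r U) v) K) := by
  have h3 := pG_GS_le (w := GDefx387.wU w a' r' U) (v := v') (wU_zero w a' r' (h.ne U hU)) hv' hv0'
    (linR_mem (S := S) (mu := mu) (b := b) (J := ∅) hK)
  refine (mul_le_mul' le_rfl h3).trans ?_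
  refine le_trans ?_ (mul_le_mul' le_rfl (mul_le_mul' le_rfl
    (sum_coP_le (GDefx387.wU w a r U) v K)))
  rw [Finset.mul_sum, Finset.mul_sum, Finset.mul_sum]
  refine Finset.sum_le_sum fun I _ => ?_
  rw [coP_linR_other hK (fun i hi => absurd hi (Finset.notMem_empty i))]
  calc Γ' ^ size r' U * ((∏ i ∈ I, v' i ^ 2) *
        pG (GDefx387.wU w a' r' U) (nl (cvG S (coP I K))))
      = (∏ i ∈ I, v' i ^ 2) * (Γ' ^ size r' U *
        pG (GDefx387.wU w a' r' U) (nl (cvG S (coP I K)))) := by ring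
    _ ≤ (∏ i ∈ I, v i ^ 2) * (q * (Γ ^ size r U * pG (GDefx387.wU w a r U) (coP I K))) :=
        mul_le_mul' (Finset.prod_le_prod' fun i _ => pow_le_pow_left' (hv i) 2)
          (h.lin U hU (coP I K))
    _ = _ := by ring

/-- with sources, the convolution -/
theorem TLin.src_any (h : TLin w a a' r r' Γ Γ' S ac q qT) (hv' : ∀ i, v' i ≠ ∞)
    (hv0' : ∀ i, v' i ≠ 0) (hv : ∀ i, v' i ≤ v i) {U : Finset (G × G)} (hU : ac U)
    {K : Ge (VS (Fld G) m)} (hK : K ∈ GS (Fld G) m) :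
    Γ' ^ size r' U * pG (wS (GDefx387.wU w a' r' U) v') (cvG (ext0 m S) K) ≤
      qT * (Γ ^ size r U * pG (wS (GDefx387.wU w a r U) v) K) := by
  have h3 := pG_GS_le (w := GDefx387.wU w a' r' U) (v := v') (wU_zero w a' r' (h.ne U hU)) hv' hv0'
    (GS_cvG S hK)
  refine (mul_le_mul' le_rfl h3).trans ?_
  refine le_trans ?_ (mul_le_mul' le_rfl (mul_le_mul' le_rfl
    (sum_coP_le (GDefx387.wU w a r U) v K)))
  rw [Finset.mul_sum, Finset.mul_sum, Finset.mul_sum]
  refine Finset.sum_le_sum fun I _ => ?_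
  rw [SrcDefx991.coP_cvG S hK]
  calc Γ' ^ size r' U * ((∏ i ∈ I, v' i ^ 2) *
        pG (GDefx387.wU w a' r' U) (cvG S (coP I K)))
      = (∏ i ∈ I, v' i ^ 2) * (Γ' ^ size r' U *
        pG (GDefx387.wU w a' r' U) (cvG S (coP I K))) := by ring
    _ ≤ (∏ i ∈ I, v i ^ 2) * (qT * (Γ ^ size r U * pG (GDefx387.wU w a r U) (coP I K))) :=
        mul_le_mul' (Finset.prod_le_prod' fun i _ => pow_le_pow_left' (hv i) 2)
          (h.any U hU (coP I K))
    _ = _ := by ring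

theorem linR_empty (S : Cov (Fld G)) (mu : Fin m → Ge (Fld G) →ₗ[ℝ] ℝ) (b : Fin m → Ge (Fld G))
    (K : Ge (VS (Fld G) m)) :
    linR S mu b ∅ K = cvG (ext0 m S) K - vacH (cvG (ext0 m S) K) := by
  rw [linR, Finset.sum_empty, sub_zero]

/-- the part without fields is not larger than the whole -/
theorem pG_vacH_le {V : Type*} [AddCommGroup V] [Module ℝ V] {w : V → ℝ≥0∞} (v : Fin m → ℝ≥0∞)
    (hw : w 0 = 0) (K : Ge (VS V m)) : pG (wS w v) (vacH K) ≤ pG (wS w v) K := by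
  rw [pG_def, vacH, coe_mpG]
  refine pnorm_mp_le _ (fun x => ?_) _
  simp [wS, hw]

/-- with sources, the part without fields (the energies) -/
theorem TLin.src_vac (h : TLin w a a' r r' Γ Γ' S ac q qT) (hv' : ∀ i, v' i ≠ ∞)
    (hv0' : ∀ i, v' i ≠ 0) (hv : ∀ i, v' i ≤ v i) {U : Finset (G × G)} (hU : ac U)
    {K : Ge (VS (Fld G) m)} (hK : K ∈ GS (Fld G) m) :
    Γ' ^ size r' U * pG (wS (GDefx387.wU w a' r' U) v') (vacH (cvG (ext0 m S) K)) ≤
      qT * (Γ ^ size r U * pG (wS (GDefx387.wU w a r U) v) K) :=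
  (mul_le_mul' le_rfl (pG_vacH_le v' (wU_zero w a' r' (h.ne U hU)) _)).trans
    (h.src_any hv' hv0' hv hU hK)

/-! ### total sums -/

section total

variable [DecidableEq G]

/-- from a per-polymer bound to the total sums -/
theorem tin_le_tout {x x' : Finset (G × G) → ℝ≥0∞} {c : ℝ≥0∞}
    (h : ∀ U, U.Nonempty → (3 * Γ) ^ size r' U * x' U ≤ c * (Γ ^ size r U * x U)) :
    Tin (fun U => Γ ^ size r' U) (fun U => size r' U) x' ≤
      c * Tout (fun U => Γ ^ size r U) x := by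
  rw [← Tout_smul]
  refine ENNReal.tsum_le_tsum fun U => ?_
  by_cases hU : U.Nonempty
  · rw [Set.indicator_of_mem (by exact hU), Set.indicator_of_mem (by exact hU)]
    have := h U hU
    rw [mul_pow] at this
    calc Γ ^ size r' U * 3 ^ size r' U * x' U = 3 ^ size r' U * Γ ^ size r' U * x' U := by ring
      _ ≤ c * (Γ ^ size r U * x U) := this
      _ = _ := by ring
  · rw [Set.indicator_of_notMem (by exact hU)]
    exact zero_le

variable {K : Finset (G × G) → Ge (VS (Fld G) m)}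

/-- **total sums**, convolution minus the part without fields -/
theorem TLin.tot (h : TLin w a a' r r' Γ (3 * Γ) S ac q qT) (hv' : ∀ i, v' i ≠ ∞)
    (hv0' : ∀ i, v' i ≠ 0) (hv : ∀ i, v' i ≤ v i) (hK : ∀ U, K U ∈ GS (Fld G) m)
    (hac : ∀ U, K U ≠ 0 → ac U) :
    Tin (fun U => Γ ^ size r' U) (fun U => size r' U)
        (fun U => pG (wS (GDefx387.wU w a' r' U) v') (linR S mu b ∅ (K U))) ≤
      q * Tout (fun U => Γ ^ size r U) fun U => pG (wS (GDefx387.wU w a r U) v) (K U) := by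
  refine tin_le_tout fun U _ => ?_
  by_cases h0 : K U = 0
  · have e : linR S mu b ∅ (0 : Ge (VS (Fld G) m)) = 0 := by
      rw [linR_empty, map_zero, map_zero, sub_zero]
    simp only [h0, e, pG_zero, mul_zero]
    exact zero_le
  · exact h.src hv' hv0' hv (hac U h0) (hK U)

/-- **total sums**, convolution -/
theorem TLin.tot_any (h : TLin w a a' r r' Γ (3 * Γ) S ac q qT) (hv' : ∀ i, v' i ≠ ∞)
    (hv0' : ∀ i, v' i ≠ 0) (hv : ∀ i, v' i ≤ v i) (hK : ∀ U, K U ∈ GS (Fld G) m)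
    (hac : ∀ U, K U ≠ 0 → ac U) :
    Tin (fun U => Γ ^ size r' U) (fun U => size r' U)
        (fun U => pG (wS (GDefx387.wU w a' r' U) v') (cvG (ext0 m S) (K U))) ≤
      qT * Tout (fun U => Γ ^ size r U) fun U => pG (wS (GDefx387.wU w a r U) v) (K U) := by
  refine tin_le_tout fun U _ => ?_
  by_cases h0 : K U = 0
  · simp only [h0, map_zero, pG_zero, mul_zero]
    exact zero_le
  · exact h.src_any hv' hv0' hv (hac U h0) (hK U)

/-- **total sums**, part without fields of the convolution (energies, and `A` of a family from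
which nothing is extracted) -/
theorem TLin.tot_vac (h : TLin w a a' r r' Γ (3 * Γ) S ac q qT) (hv' : ∀ i, v' i ≠ ∞)
    (hv0' : ∀ i, v' i ≠ 0) (hv : ∀ i, v' i ≤ v i) (hK : ∀ U, K U ∈ GS (Fld G) m)
    (hac : ∀ U, K U ≠ 0 → ac U) :
    Tin (fun U => Γ ^ size r' U) (fun U => size r' U)
        (fun U => pG (wS (GDefx387.wU w a' r' U) v') (vacH (cvG (ext0 m S) (K U)))) ≤
      qT * Tout (fun U => Γ ^ size r U) fun U => pG (wS (GDefx387.wU w a r U) v) (K U) := by
  refine tin_le_tout fun U _ => ?_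
  by_cases h0 : K U = 0
  · simp only [h0, map_zero, pG_zero, mul_zero]
    exact zero_le
  · exact h.src_vac hv' hv0' hv (hac U h0) (hK U)

end total

/-! ### all the legs decay -/

section legs

variable [DecidableEq G] {g : Fld G → ℝ≥0∞} {Rc : ℕ} {p c : ℝ≥0∞}

/-- **all the legs decay by `p`**: small polymers gain `(2 p)²`, large polymers `c² / Γ` -/
theorem tlin_of_legs (hg : Gram S g) (hrr : r ≤ r') (hRc : 4 * Rc + 3 * r + 2 ≤ r')
    (hne : ∀ U, ac U → U.Nonempty) (hcon : ∀ U, ac U → Packx915.Conn fd Rc U)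
    (hW0 : ∀ U, ac U → GLinx336.W0 w g a' r' 1 U) (hp0 : p ≠ 0) (hp1 : (1 + 1) * p ≤ 1)
    (hp : ∀ U, ac U → ∀ x ∈ U, GDefx387.WLe w a a' r r' x x LinearMap.id p)
    (hΓt : Γ ≠ ∞) (hc : 1 ≤ c) (hΓ : c ^ 2 ≤ Γ) :
    TLin w a a' r r' Γ (c * Γ) S ac (max (c * ((1 + 1) * p) ^ 2) (c ^ 2 * Γ⁻¹)) c := by
  have hΓ1 : 1 ≤ Γ := (one_le_pow₀ hc).trans hΓ
  have hΓ0 : Γ ≠ 0 := fun h => by rw [h] at hΓ1; exact absurd hΓ1 (by simp)
  -- the factor of the convolution
  have hany : ∀ U, ac U → ∀ K : Ge (Fld G),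
      pG (GDefx387.wU w a' r' U) (cvG S K) ≤ pG (GDefx387.wU w a r U) K := fun U hU K =>
    any_small hg (hW0 U hU) one_ne_zero hp0 hp1 (fun x hx => ⟨x, hx, hp U hU x hx⟩) _
  have hlarge : ∀ U, ac U → 2 ≤ size r U → ∀ (x x' : ℝ≥0∞), x' ≤ x →
      (c * Γ) ^ size r' U * x' ≤ (c ^ 2 * Γ⁻¹) * (Γ ^ size r U * x) := by
    intro U hU h2 x x' hx
    rw [Bridgex915.size_eq_pack] at h2 ⊢
    rw [Bridgex915.size_eq_pack]
    have := RegIx893.large_room (t := 1) (c := c) (A := x) (A' := x') Bridgex915.pd_fd (hcon U hU)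
      hRc h2 le_rfl hc hΓt (by rw [mul_one]; exact hΓ) (b := 0) (Nat.zero_le _)
      (by rw [pow_zero, one_mul]; exact hx)
    rwa [mul_one] at this
  have hsmall : ∀ U, ac U → size r U ≤ 1 → (c * Γ) ^ size r' U ≤ c * Γ ^ size r U := by
    intro U hU h1
    have h3 : size r' U ≤ size r U := by
      rw [Bridgex915.size_eq_pack, Bridgex915.size_eq_pack]
      exact Packx915.pack_anti hrr
    rw [mul_pow]
    refine mul_le_mul' ?_ (pow_le_pow_right₀ hΓ1 h3)
    calc c ^ size r' U ≤ c ^ 1 := pow_le_pow_right₀ hc (h3.trans h1)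
      _ = c := pow_one _
  refine ⟨hne, fun U hU K => ?_, fun U hU K => ?_⟩
  · rcases Nat.lt_or_ge 1 (size r U) with h2 | h1
    · exact (hlarge U hU h2 _ _ ((DefRecx915.pG_nl_le _ _).trans (hany U hU K))).trans
        (mul_le_mul' (le_max_right _ _) le_rfl)
    · by_cases hfin : pG (GDefx387.wU w a r U) K = ∞
      · have hm : max (c * ((1 + 1) * p) ^ 2) (c ^ 2 * Γ⁻¹) ≠ 0 := by
          refine (lt_of_lt_of_le ?_ (le_max_left _ _)).ne'
          refine ENNReal.mul_pos (lt_of_lt_of_le one_pos hc).ne' (pow_ne_zero _ (mul_ne_zero ?_ hp0))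
          norm_num
        rw [hfin, ENNReal.mul_top (pow_ne_zero _ hΓ0), ENNReal.mul_top hm]
        exact le_top
      · have key := cluster_small hg (hW0 U hU) one_ne_zero hp0 hp1
          (fun x hx => ⟨x, hx, hp U hU x hx⟩) K.2 hfin
        have e : pG (GDefx387.wU w a' r' U) (nl (cvG S K)) ≤
            ((1 + 1) * p) ^ 2 * pG (GDefx387.wU w a r U) K := by
          rw [pG_def, coe_nl]
          exact key
        calc (c * Γ) ^ size r' U * pG (GDefx387.wU w a' r' U) (nl (cvG S K))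
            ≤ (c * Γ ^ size r U) * (((1 + 1) * p) ^ 2 * pG (GDefx387.wU w a r U) K) :=
              mul_le_mul' (hsmall U hU h1) e
          _ = (c * ((1 + 1) * p) ^ 2) * (Γ ^ size r U * pG (GDefx387.wU w a r U) K) := by ring
          _ ≤ _ := mul_le_mul' (le_max_left _ _) le_rfl
  · rcases Nat.lt_or_ge 1 (size r U) with h2 | h1
    · refine (hlarge U hU h2 _ _ (hany U hU K)).trans (mul_le_mul' ?_ le_rfl)
      calc c ^ 2 * Γ⁻¹ ≤ Γ * Γ⁻¹ := mul_le_mul' hΓ le_rfl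
        _ ≤ 1 := ENNReal.mul_inv_le_one _
        _ ≤ c := hc
    · calc (c * Γ) ^ size r' U * pG (GDefx387.wU w a' r' U) (cvG S K)
          ≤ (c * Γ ^ size r U) * pG (GDefx387.wU w a r U) K :=
            mul_le_mul' (hsmall U hU h1) (hany U hU K)
        _ = _ := by ring

/-- **crude step, every background**: the amplitude drops by `2 √(r'/r)` -/
theorem tlin_crude (hg : Gram S g) (ha : 0 < a) (hr : 0 < r) (ha' : 0 ≤ a')
    (hdrop : 2 * (a' * Real.sqrt r') ≤ a * Real.sqrt r) (hRc : 4 * Rc + 3 * r + 2 ≤ r')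
    (hne : ∀ U, ac U → U.Nonempty) (hcon : ∀ U, ac U → Packx915.Conn fd Rc U)
    (hW0 : ∀ U, ac U → GLinx336.W0 w g a' r' 1 U) (hc : 1 ≤ c) (hΓ : c ≤ Γ) :
    TLin w a a' r r' Γ (c * Γ) S ac c c := by
  have hany : ∀ U, ac U → ∀ K : Ge (Fld G),
      (c * Γ) ^ size r' U * pG (GDefx387.wU w a' r' U) (cvG S K) ≤
        c * (Γ ^ size r U * pG (GDefx387.wU w a r U) K) := by
    intro U hU K
    have h1 := NFlowx337.weight_mul (d := (fd : G × G → G × G → ℕ)) Bridgex915.pd_fd (x := c)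
      (Γ := Γ) hc hΓ hRc (hcon U hU)
    rw [← Bridgex915.size_eq_pack, ← Bridgex915.size_eq_pack] at h1
    calc (c * Γ) ^ size r' U * pG (GDefx387.wU w a' r' U) (cvG S K)
        ≤ (c * Γ ^ size r U) * pG (GDefx387.wU w a r U) K :=
          mul_le_mul' h1 (Crudex386.crude_any hg ha hr ha' (by omega) hdrop (hW0 U hU)
            one_ne_zero le_rfl K)
      _ = _ := by ring
  exact ⟨hne, fun U hU K => (mul_le_mul' le_rfl (DefRecx915.pG_nl_le _ _)).trans (hany U hU K),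
    hany⟩

end legs

/-! ### composite backgrounds without branch points -/

section geo

variable [DecidableEq G] {ι : Type*} {C : ℝ} {Λ r0 R0 l k0 n : ℕ} {loc : ι → G × G}
  {B Z Ac : Set (G × G)}

open Crest.Agent.R165.RegGx893 Crest.Agent.R165.RegIx893 Crest.Agent.R165.GSysx387
  Crest.Agent.R165.FRDPolyx439

/-- numbers of the coarse steps: `L` and `Γ` are large -/
structure BigT (C : ℝ) (L : ℕ) (Γ : ℝ≥0∞) : Prop where
  ten : 10 ≤ L
  leg : 8 * K2 C * Real.sqrt (1 / L) ≤ 1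
  sq : 24 * (8 * K2 C * Real.sqrt (1 / L)) ^ 2 ≤ 1
  top : Γ ≠ ∞
  gam : 72 ≤ Γ

/-- **every leg decays** on a composite background without branch points -/
theorem leg_of_geo [IsEmpty ι] (H : Geo w C Λ r0 R0 loc B Z Ac) (hr0 : r0 ≤ r) (h8 : 10 * r ≤ r')
    (hΛ : r' ≤ Λ * r) (hR : 32 * r' ≤ R0) (hr : 0 < r) (ha : 0 < a) (ha' : 0 ≤ a')
    (ha2 : a' ≤ 2 * a) {x : G × G} (hx : x ∈ Ac) :
    GDefx387.WLe w a a' r r' x x LinearMap.id
      (ENNReal.ofReal (4 * K2 C * Real.sqrt ((r : ℝ) / r'))) := by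
  have hr' : 0 < r' := by omega
  have h1 := H.far (D := r') hr0 h8 hΛ hR hr ha ha' hx (fun i => isEmptyElim i)
  refine Wtx898.WLe.mono h1 (ENNReal.ofReal_le_ofReal ?_)
  have hK : 0 ≤ K2 C := by unfold K2; positivity
  have hr1 : (0 : ℝ) < r := by exact_mod_cast hr
  have hr1' : (0 : ℝ) < r' := by exact_mod_cast hr'
  refine ratio_le ha ha2 (by positivity) ?_
  have h2 : Real.sqrt (1 / ((r' : ℕ) + 1 : ℝ)) ≤ Real.sqrt ((r : ℝ) / r') := by
    refine Real.sqrt_le_sqrt ?_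
    rw [div_le_div_iff₀ (by positivity) hr1']
    have h3 : (1 : ℝ) ≤ r := by exact_mod_cast hr
    nlinarith
  calc 2 * (K2 C * (Real.sqrt ((r : ℝ) / r') + Real.sqrt (1 / ((r' : ℕ) + 1 : ℝ))))
      ≤ 2 * (K2 C * (Real.sqrt ((r : ℝ) / r') + Real.sqrt ((r : ℝ) / r'))) := by gcongr
    _ = _ := by ring

/-- **coarse step on a composite background without branch points**: factor `1 / 8` -/
theorem tlin_of_geo [IsEmpty ι] (H : Geo w C Λ r0 R0 loc B Z Ac) {M K : ℕ} (F : FRD 16 M K)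
    (hM : MM + 1 ≤ M) (hw : ∀ z j, |w z j| ≤ 1) (hL : BigT C (2 ^ l) Γ) {Rc : ℕ}
    (hLΛ : 2 ^ l ≤ Λ) (hr0 : r0 ≤ rr l k0 n) (hR : 32 * rr l k0 (n + 1) ≤ R0)
    (ha : 0 < a) (ha2 : a' ≤ 2 * a) (hcW : W0Sx897.cW0 F l k0 n ≤ a')
    (hne : ∀ U, ac U → U.Nonempty) (hact : ∀ U, ac U → ∀ x ∈ U, x ∈ Ac)
    (hcon : ∀ U, ac U → Packx915.Conn fd Rc U)
    (hRc : 4 * Rc + 3 * rr l k0 n + 2 ≤ rr l k0 (n + 1)) :
    TLin w a a' (rr l k0 n) (rr l k0 (n + 1)) Γ (3 * Γ) (slC F w l k0 n) ac (1 / 8) 3 := by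
  have hr : 0 < rr l k0 n := rr_pos l k0 n
  have hr1 : (0 : ℝ) < rr l k0 n := by exact_mod_cast hr
  have hcp : 0 < W0Sx897.cW0 F l k0 n := W0Sx897.cW0_pos F l k0 n
  have ha' : 0 < a' := lt_of_lt_of_le hcp hcW
  have hC := H.one_le
  have hK : 0 < K2 C := by unfold K2; positivity
  have hrat : ((rr l k0 n : ℕ) : ℝ) / (rr l k0 (n + 1) : ℕ) = 1 / ((2 ^ l : ℕ) : ℝ) := by
    rw [rr_succ]; exact ratio_L hr
  set s : ℝ := Real.sqrt (1 / ((2 ^ l : ℕ) : ℝ)) with hs
  have hs0 : 0 < s := Real.sqrt_pos.2 (by positivity)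
  have hp : ∀ U, ac U → ∀ x ∈ U, GDefx387.WLe w a a' (rr l k0 n) (rr l k0 (n + 1)) x x
      LinearMap.id (ENNReal.ofReal (4 * K2 C * s)) := by
    intro U hU x hx
    have := leg_of_geo (a := a) (a' := a') H hr0
      (by rw [rr_succ]; exact Nat.mul_le_mul_right _ hL.ten)
      (by rw [rr_succ]; exact Nat.mul_le_mul_right _ hLΛ) hR hr ha ha'.le ha2 (hact U hU x hx)
    rwa [hrat] at this
  have h2p : (1 + 1) * ENNReal.ofReal (4 * K2 C * s) = ENNReal.ofReal (8 * K2 C * s) := by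
    rw [show (1 + 1 : ℝ≥0∞) = ENNReal.ofReal 2 by rw [ENNReal.ofReal_ofNat]; norm_num,
      ← ENNReal.ofReal_mul (by norm_num)]
    congr 1
    ring
  have key := tlin_of_legs (w := w) (a := a) (a' := a') (ac := ac) (Γ := Γ) (c := 3)
    (p := ENNReal.ofReal (4 * K2 C * s)) (W0Sx897.gramS F w hw l k0 n)
    (rr_mono l k0 (Nat.le_succ n)) hRc hne hcon (fun U _ => W0Sx897.w0S F hM w hw l k0 n hcW U)
    (by rw [Ne, ENNReal.ofReal_eq_zero, not_le]; positivity)
    (by rw [h2p, ← ENNReal.ofReal_one]; exact ENNReal.ofReal_le_ofReal hL.leg) hp hL.top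
    (by norm_num) (le_trans (by norm_num) hL.gam)
  refine key.mono (fun _ h => h) (max_le ?_ ?_) le_rfl
  · rw [h2p, ← ENNReal.ofReal_pow (by positivity),
      show (3 : ℝ≥0∞) = ENNReal.ofReal 3 by simp, ← ENNReal.ofReal_mul (by norm_num),
      show (1 / 8 : ℝ≥0∞) = ENNReal.ofReal (1 / 8) by
        rw [ENNReal.ofReal_div_of_pos (by norm_num)]; simp]
    refine ENNReal.ofReal_le_ofReal ?_
    have := hL.sq
    linarith
  · have h1 : (3 : ℝ≥0∞) ^ 2 * Γ⁻¹ ≤ 3 ^ 2 * (72 : ℝ≥0∞)⁻¹ :=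
      mul_le_mul' le_rfl (ENNReal.inv_le_inv.2 hL.gam)
    refine h1.trans (le_of_eq ?_)
    rw [show (3 : ℝ≥0∞) ^ 2 = 9 by norm_num, show (72 : ℝ≥0∞) = 9 * 8 by norm_num,
      ENNReal.mul_inv (by norm_num) (by norm_num), ← mul_assoc,
      ENNReal.mul_inv_cancel (by norm_num) (by norm_num), one_mul, one_div]

/-- **crude step** on the slices of `GSys_387`, every background -/
theorem tlin_crudeS {M K : ℕ} (F : FRD 16 M K) (hM : MM + 1 ≤ M) (hw : ∀ z j, |w z j| ≤ 1)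
    {Rc : ℕ} (ha : 0 < a)
    (hdrop : 2 * (a' * Real.sqrt (rr l k0 (n + 1))) ≤ a * Real.sqrt (rr l k0 n))
    (hcW : W0Sx897.cW0 F l k0 n ≤ a')
    (hne : ∀ U, ac U → U.Nonempty) (hcon : ∀ U, ac U → Packx915.Conn fd Rc U)
    (hRc : 4 * Rc + 3 * rr l k0 n + 2 ≤ rr l k0 (n + 1)) (hΓ : 3 ≤ Γ) :
    TLin w a a' (rr l k0 n) (rr l k0 (n + 1)) Γ (3 * Γ) (slC F w l k0 n) ac 3 3 :=
  tlin_crude (W0Sx897.gramS F w hw l k0 n) ha (rr_pos l k0 n)
    ((W0Sx897.cW0_pos F l k0 n).le.trans hcW) hdrop hRc hne hcon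
    (fun U _ => W0Sx897.w0S F hM w hw l k0 n hcW U) (by norm_num) hΓ

open Filter Topology in
/-- the numbers of the coarse steps are available -/
theorem ev_bigT (C : ℝ) : ∀ᶠ L : ℕ in atTop, ∀ Γ : ℝ≥0∞, Γ ≠ ∞ → 72 ≤ Γ → BigT C L Γ := by
  have hs : Tendsto (fun n : ℕ => 8 * K2 C * Real.sqrt (1 / (n : ℝ))) atTop (𝓝 0) := by
    have := ((Real.continuous_sqrt.tendsto 0).comp
      tendsto_one_div_atTop_nhds_zero_nat).const_mul (8 * K2 C)
    rwa [Real.sqrt_zero, mul_zero] at this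
  have h2 := (hs.pow 2).const_mul 24
  rw [zero_pow (by norm_num), mul_zero] at h2
  filter_upwards [hs.eventually (ge_mem_nhds (by norm_num : (0 : ℝ) < 1)),
    h2.eventually (ge_mem_nhds (by norm_num : (0 : ℝ) < 1)), eventually_ge_atTop 10]
    with L h3 h4 h5 Γ ht h72
  exact ⟨h5, h3, h4, ht, h72⟩

end geo

end Crest.Agent.R165.SrcDiscx610
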