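import Crest.Agent.R165.SrcFinB_441
import Crest.Agent.R165.SR_541

/-!
# Row 165 (S0250), leaf P11: energy ratios from the final scale data (helper441)

* `cvG_prod_sep` : the convolution factorises over separated bilinears; `cvG_bond`
* `unpert`       : `EEG (Sf + T) (∏ (w_i b_i + t_i)) = EEG Sf (∏ (w_i b_i + t_i + w_i T(p_i,q_i)))`
* `ERPack`       : what the flow has to deliver for one background at mesh `a`, accuracy `ε`
* `ERPack.le`    : `|q - Ze ^ m q0| ≤ const * ε * a ^ m`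
* `ERD_of`, `ERP_of`
-/

set_option autoImplicit false
set_option linter.unusedSectionVars false
set_option linter.unusedVariables false

noncomputable section

namespace Crest.Agent.R165.SrcERx441

open Finset Filter Topology
open scoped ENNReal Nat
open Crest.ProbabilityR.IsingModel
open Crest.Agent.R165.FinBx900 Crest.Agent.R165.KStepx892
open Crest.Agent.R165.Gr0x606 Crest.Agent.R165.Gr1x606 Crest.Agent.R165.GeOpsx337
  Crest.Agent.R165.ExpGx337 Crest.Agent.R165.PNormx417 Crest.Agent.R165.KFlowx337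
  Crest.Agent.R165.SrcDefx991 Crest.Agent.R165.SrcFinx441 Crest.Agent.R165.SrcFinBx441
  Crest.Agent.R165.GrLocx337
open Crest.Agent.R165.Centx541 Crest.Agent.R165.Redx541 Crest.Agent.R165.Symx541
  Crest.Agent.R165.Red2x541 Crest.Agent.R165.Mastx541 Crest.Agent.R165.Topx683
  Crest.Agent.R165.SRx541

section unperturbed

variable {V : Type*} [AddCommGroup V] [Module ℝ V] {m : ℕ}

theorem iSup_sep {T : Cov V} {ι : Type*} {W : ι → Submodule ℝ V} {W₀ : Submodule ℝ V}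
    (s : Finset ι) (h : ∀ j ∈ s, ∀ x ∈ W₀, ∀ y ∈ W j, T.b x y = 0) :
    ∀ x ∈ W₀, ∀ y ∈ (⨆ j ∈ s, W j), T.b x y = 0 := by
  intro x hx y hy
  have hle : (⨆ j ∈ s, W j) ≤ LinearMap.ker (T.b x) := by
    refine iSup₂_le fun j hj z hz => ?_
    rw [LinearMap.mem_ker]
    exact h j hj x hx z hz
  exact LinearMap.mem_ker.1 (hle hy)

/-- **the convolution factorises over separated factors** -/
theorem cvG_prod_sep {T : Cov V} {ι : Type*} [DecidableEq ι] {W : ι → Submodule ℝ V}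
    (s : Finset ι) {f : ι → Ge V} (hf : ∀ i ∈ s, f i ∈ grG (W i))
    (h : ∀ i ∈ s, ∀ j ∈ s, i ≠ j → ∀ x ∈ W i, ∀ y ∈ W j, T.b x y = 0) :
    cvG T (∏ i ∈ s, f i) = ∏ i ∈ s, cvG T (f i) ∧ ∏ i ∈ s, f i ∈ grG (⨆ j ∈ s, W j) := by
  induction s using Finset.induction_on with
  | empty => exact ⟨by simp, by rw [prod_empty]; exact Subalgebra.one_mem _⟩
  | insert a s ha ih =>
    obtain ⟨ih1, ih2⟩ := ih (fun i hi => hf i (mem_insert_of_mem hi)) fun i hi j hj hij =>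
      h i (mem_insert_of_mem hi) j (mem_insert_of_mem hj) hij
    have ha' : f a ∈ grG (W a) := hf a (mem_insert_self _ _)
    constructor
    · rw [prod_insert ha, prod_insert ha, cvG_mul T (iSup_sep s fun j hj x hx y hy =>
        h a (mem_insert_self _ _) j (mem_insert_of_mem hj) (fun e => ha (e ▸ hj)) x hx y hy)
        ha' ih2, ih1]
    · rw [prod_insert ha]
      refine Subalgebra.mul_mem _ (grG_mono ?_ ha') (grG_mono ?_ ih2)
      · exact le_iSup₂_of_le a (mem_insert_self _ _) le_rfl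
      · exact iSup₂_mono' fun j hj => ⟨j, mem_insert_of_mem hj, le_rfl⟩

/-- the convolution of a bilinear -/
theorem cvG_bi (T : Cov V) (x y : V) : cvG T (bi x y) = bi x y + algebraMap ℝ _ (T.b x y) := by
  apply ge_ext
  rw [coe_cvG, coe_bi, conv_fi_mul, conv_fi, dd_fi, Ge.coe_add, coe_bi, ge_coe_algebraMap]

/-- an affine bond bilinear -/
def bnd (u t : ℝ) (p q : V) : Ge V := u • bi p q + algebraMap ℝ _ t

theorem cvG_bond (T : Cov V) (u t : ℝ) (p q : V) :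
    cvG T (bnd u t p q) = bnd u (t + u * T.b p q) p q := by
  unfold bnd
  rw [map_add, map_smul, cvG_bi, cvG_algebraMap, smul_add, map_add, map_mul,
    Algebra.smul_def u (algebraMap ℝ (Ge V) _)]
  abel

theorem bnd_mem (u t : ℝ) (p q : V) : bnd u t p q ∈ grG (Submodule.span ℝ {p, q}) := by
  refine Subalgebra.add_mem _ (Subalgebra.smul_mem _ ?_ _) (Subalgebra.algebraMap_mem _ _)
  rw [mem_grG, coe_bi]
  exact mul_mem (fi_mem_gr (Submodule.subset_span (by simp)))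
    (fi_mem_gr (Submodule.subset_span (by simp)))

/-- **the unperturbed product**: integrating a covariance which does not connect different bonds -/
theorem unpert (Sf T : Cov V) (u t : Fin m → ℝ) (p q : Fin m → V)
    (h : ∀ i j, i ≠ j → T.b (p i) (p j) = 0 ∧ T.b (p i) (q j) = 0 ∧ T.b (q i) (p j) = 0 ∧
      T.b (q i) (q j) = 0) :
    EEG (Sf + T) (∏ i, bnd (u i) (t i) (p i) (q i)) =
      EEG Sf (∏ i, bnd (u i) (t i + u i * T.b (p i) (q i)) (p i) (q i)) := by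
  classical
  rw [← EEG_cvG]
  rw [(cvG_prod_sep (W := fun i => Submodule.span ℝ {p i, q i}) univ
    (fun i _ => bnd_mem (u i) (t i) (p i) (q i)) ?_).1]
  · simp only [cvG_bond]
  · intro i _ j _ hij x hx y hy
    obtain ⟨h1, h2, h3, h4⟩ := h i j hij
    obtain ⟨a, b, rfl⟩ := Submodule.mem_span_pair.1 hx
    obtain ⟨c, d, rfl⟩ := Submodule.mem_span_pair.1 hy
    simp only [map_add, map_smul, LinearMap.add_apply, LinearMap.smul_apply, h1, h2, h3, h4,
      smul_eq_mul, mul_zero, add_zero]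

/-- the same with slices -/
theorem unpert_slices (Sf : Cov V) (S : ℕ → Cov V) (n : ℕ) (u t : Fin m → ℝ) (p q : Fin m → V)
    (h : ∀ k < n, ∀ i j, i ≠ j → (S k).b (p i) (p j) = 0 ∧ (S k).b (p i) (q j) = 0 ∧
      (S k).b (q i) (p j) = 0 ∧ (S k).b (q i) (q j) = 0) :
    EEG (Sf + ∑ k ∈ range n, S k) (∏ i, bnd (u i) (t i) (p i) (q i)) =
      EEG Sf (∏ i, bnd (u i) (t i + u i * ∑ k ∈ range n, (S k).b (p i) (q i)) (p i) (q i)) := by
  have hb : ∀ x y : V, (∑ k ∈ range n, S k).b x y = ∑ k ∈ range n, (S k).b x y := by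
    intro x y
    induction n with
    | zero => simp
    | succ n ih =>
      rw [sum_range_succ, sum_range_succ, Cov.add_b, LinearMap.add_apply, LinearMap.add_apply,
        ih fun k hk => h k (by omega)]
  rw [unpert Sf _ u t p q fun i j hij => ?_]
  · simp only [hb]
  · simp only [hb]
    refine ⟨?_, ?_, ?_, ?_⟩
    · exact sum_eq_zero fun k hk => (h k (mem_range.1 hk) i j hij).1
    · exact sum_eq_zero fun k hk => (h k (mem_range.1 hk) i j hij).2.1
    · exact sum_eq_zero fun k hk => (h k (mem_range.1 hk) i j hij).2.2.1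
    · exact sum_eq_zero fun k hk => (h k (mem_range.1 hk) i j hij).2.2.2

end unperturbed

/-! ### the energy ratios -/

/-- **what the flow delivers for one background, mesh `a`, accuracy `ε`**: `q` perturbed
conditional energy, `q0` unperturbed one -/
def ERPack (m : ℕ) (q q0 Ze C₁ κ a ε : ℝ) : Prop :=
  ∃ (F : Type) (_ : DecidableEq F) (V : Type) (_ : AddCommGroup V) (_ : Module ℝ V)
    (near : F → F → Prop) (Λ : Finset F) (K : Finset F → Ge (VS V m)) (E : Ge (VS V m))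
    (U : Fin m → Finset F) (ζ c c0 : Fin m → ℝ) (β : Fin m → Ge V) (Sf : Cov V)
    (g : V → ℝ≥0∞) (v : Fin m → ℝ),
    FinD near Λ K E U ζ c β Sf g v ε C₁ ∧
    (∀ i, κ ≤ a * v i ^ 2) ∧
    (∀ i, |ζ i - Ze| ≤ ε) ∧ (∀ i, |c i - Ze * c0 i| * v i ^ 2 ≤ ε) ∧
    q = ctG (coP univ (gexp E * cvG (ext0 m Sf) (ZZ near Λ K))) /
      ctG (gexp E * cvG (ext0 m Sf) (ZZ near Λ K)) ∧
    q0 = EEG Sf (∏ i, (β i + algebraMap ℝ _ (c0 i)))

/-- the constant in the error -/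
def Ke (m : ℕ) (C₁ κ : ℝ) : ℝ :=
  (Kf m C₁ + m * (2 * (1 + C₁) ^ 2) ^ m * (1 + C₁)) * (κ⁻¹) ^ m

/-- the accuracy from which on the bound holds -/
def εe (m : ℕ) (C₁ : ℝ) : ℝ :=
  1 / (2 * (1 + Cc m (Mf C₁)) * (2 * Real.exp (m * C₁ ^ 2)))

theorem Mf_nonneg {C₁ : ℝ} (h : 0 ≤ C₁) : 0 ≤ Mf C₁ := by unfold Mf; positivity

theorem εe_pos {C₁ : ℝ} (h : 0 ≤ C₁) (m : ℕ) : 0 < εe m C₁ := by
  have := Cc_nonneg (Mf_nonneg h) m
  unfold εe; positivity

theorem Kf_nonneg {C₁ : ℝ} (h : 0 ≤ C₁) (m : ℕ) : 0 ≤ Kf m C₁ := by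
  have h1 := Cc_nonneg (Mf_nonneg h) m
  have h2 : 0 ≤ Bc (Mf C₁) := by have := Mf_nonneg h; unfold Bc; positivity
  unfold Kf; positivity

theorem ERPack.le {m : ℕ} {q q0 Ze C₁ κ a ε : ℝ} (h : ERPack m q q0 Ze C₁ κ a ε) (hκ : 0 < κ)
    (ha : 0 < a) (hε : ε ≤ εe m C₁) : |q - Ze ^ m * q0| ≤ Ke m C₁ κ * ε * a ^ m := by
  obtain ⟨F, _, V, _, _, near, Λ, K, E, U, ζ, c, c0, β, Sf, g, v, hF, hv, hζ, hc, hq, hq0⟩ := h
  have hC := hF.C0
  have hε0 := hF.ε0
  have hCc := Cc_nonneg (Mf_nonneg hC) m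
  have hexp : 1 ≤ Real.exp (m * C₁ ^ 2) := Real.one_le_exp (by positivity)
  have hden : 0 < 2 * (1 + Cc m (Mf C₁)) * (2 * Real.exp (m * C₁ ^ 2)) := by positivity
  have e1 : (1 + Cc m (Mf C₁)) * ηf m C₁ ε ≤ 1 / 2 := by
    have h1 : ε * (2 * (1 + Cc m (Mf C₁)) * (2 * Real.exp (m * C₁ ^ 2))) ≤ 1 := by
      unfold εe at hε
      rwa [le_div_iff₀ hden] at hε
    unfold ηf
    nlinarith
  have hη0 : 0 ≤ ηf m C₁ ε := by unfold ηf; positivity
  have e2 : ηf m C₁ ε ≤ 1 := by nlinarith [mul_nonneg hCc hη0]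
  have e3 : Cc m (Mf C₁) * ηf m C₁ ε ≤ 1 / 2 := by nlinarith
  have e4 : ε ≤ 1 := by
    refine hε.trans ?_
    unfold εe
    rw [div_le_one hden]
    nlinarith [mul_nonneg hCc (Real.exp_pos (m * C₁ ^ 2)).le]
  have key := hF.final_cmp e2 e3 hε0 e4 hζ hc
  rw [← hq, ← hq0] at key
  refine key.trans ?_
  have hvp : ∀ i, 0 < v i ^ 2 := fun i => by have := hF.v0 i; positivity
  have e5 : (∏ i, v i ^ 2)⁻¹ ≤ (κ⁻¹) ^ m * a ^ m := by
    rw [← mul_pow, ← prod_inv_distrib]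
    calc ∏ i, (v i ^ 2)⁻¹ ≤ ∏ _i : Fin m, (κ⁻¹ * a) := by
          refine prod_le_prod (fun i _ => (inv_pos.2 (hvp i)).le) fun i _ => ?_
          rw [inv_le_iff_one_le_mul₀ (hvp i), mul_assoc, ← div_eq_inv_mul, one_le_div hκ]
          exact hv i
      _ = _ := by rw [prod_const, card_univ, Fintype.card_fin]
  have hK : 0 ≤ Kf m C₁ * ε + m * (2 * (1 + C₁) ^ 2) ^ m * ((1 + C₁) * ε) := by
    have := Kf_nonneg hC m
    positivity
  refine (mul_le_mul_of_nonneg_left e5 hK).trans (le_of_eq ?_)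
  unfold Ke
  ring

/-- eventually form -/
theorem pack_eventually {α : Type*} {l : Filter α} {m : ℕ} {q q0 a : α → ℝ} {Ze C₁ κ : ℝ}
    (hκ : 0 < κ) (hC : 0 ≤ C₁) (ha : ∀ᶠ t in l, 0 < a t)
    (h : ∀ ε > 0, ∀ᶠ t in l, ERPack m (q t) (q0 t) Ze C₁ κ (a t) ε) :
    ∀ ε > 0, ∀ᶠ t in l, |q t - Ze ^ m * q0 t| ≤ ε * a t ^ m := by
  intro ε hε
  have hKe : 0 ≤ Ke m C₁ κ := by
    have := Kf_nonneg hC m
    unfold Ke; positivity
  have hpos : 0 < min (εe m C₁) (ε / (Ke m C₁ κ + 1)) :=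
    lt_min (εe_pos hC m) (by positivity)
  filter_upwards [h _ hpos, ha] with t ht hat
  refine (ht.le hκ hat (min_le_left _ _)).trans ?_
  refine mul_le_mul_of_nonneg_right ?_ (pow_nonneg hat.le m)
  calc Ke m C₁ κ * min (εe m C₁) (ε / (Ke m C₁ κ + 1))
      ≤ (Ke m C₁ κ + 1) * (ε / (Ke m C₁ κ + 1)) :=
        mul_le_mul (by linarith) (min_le_right _ _) hpos.le (by positivity)
    _ = ε := by field_simp

/-- **energy ratios in domains** -/
theorem ERD_of {J lam : ℝ} {R : ℕ} {V : Finset (ℤ × ℤ) → ℝ} {β Ze : ℝ} {eb : Fin 2 → ℝ}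
    (h : ∀ D : Set ℂ, IsC2JordanDomain D → ∀ (b : BoundaryCondition) (n m : ℕ), 1 ≤ m → Rel b n →
      ∀ (x : Fin n → ℂ) (y : Fin m → ℂ) (j : Fin m → Fin 2),
        (∀ i, x i ∈ D) → (∀ k, y k ∈ D) → Function.Injective (Fin.append x y) →
        ∃ C₁ κ : ℝ, 0 ≤ C₁ ∧ 0 < κ ∧ ∀ ε > 0, ∀ᶠ a : ℝ in 𝓝[>] 0,
          ERPack m (domMom D a b J lam R V β x y j (fun k => eb (j k)) / spm D a b J lam R V β x)
            (D0c D a b x y j / spm0 D a b x) Ze C₁ κ a ε) :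
    ERD J lam R V β Ze eb := by
  intro D hD b n m hm hR x y j hx hy hinj
  obtain ⟨C₁, κ, hC, hκ, H⟩ := h D hD b n m hm hR x y j hx hy hinj
  exact pack_eventually hκ hC self_mem_nhdsWithin H

/-- **energy ratios in large plus discs** -/
theorem ERP_of {J lam : ℝ} {R : ℕ} {V : Finset (ℤ × ℤ) → ℝ} {β Ze : ℝ} {eb : Fin 2 → ℝ}
    (h : ∀ (n m : ℕ), 1 ≤ m → Even n → ∀ (x : Fin n → ℂ) (y : Fin m → ℂ) (j : Fin m → Fin 2),
        Function.Injective (Fin.append x y) →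
        ∃ C₁ κ : ℝ, 0 ≤ C₁ ∧ 0 < κ ∧ ∀ ε > 0, ∀ᶠ a : ℝ in 𝓝[>] 0, ∀ᶠ B : ℝ in atTop,
          ERPack m (domMom (Metric.ball 0 B) a .plus J lam R V β x y j (fun k => eb (j k)) /
              spm (Metric.ball 0 B) a .plus J lam R V β x)
            (D0c (Metric.ball 0 B) a .plus x y j / spm0 (Metric.ball 0 B) a .plus x)
            Ze C₁ κ a ε) :
    ERP J lam R V β Ze eb := by
  intro n m hm hn x y j hinj ε hε
  obtain ⟨C₁, κ, hC, hκ, H⟩ := h n m hm hn x y j hinj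
  have hKe : 0 ≤ Ke m C₁ κ := by
    have := Kf_nonneg hC m
    unfold Ke; positivity
  have hpos : 0 < min (εe m C₁) (ε / (Ke m C₁ κ + 1)) :=
    lt_min (εe_pos hC m) (by positivity)
  filter_upwards [H _ hpos, self_mem_nhdsWithin] with a ha hat
  have hat' : (0 : ℝ) < a := hat
  filter_upwards [ha] with B ht
  refine (ht.le hκ hat' (min_le_left _ _)).trans ?_
  refine mul_le_mul_of_nonneg_right ?_ (pow_nonneg hat'.le m)
  calc Ke m C₁ κ * min (εe m C₁) (ε / (Ke m C₁ κ + 1))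
      ≤ (Ke m C₁ κ + 1) * (ε / (Ke m C₁ κ + 1)) :=
        mul_le_mul (by linarith) (min_le_right _ _) hpos.le (by positivity)
    _ = ε := by field_simp

end Crest.Agent.R165.SrcERx441
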