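import Crest.Agent.R165.FinB_900
import Crest.Agent.R165.ExpG_337

/-!
# Row 165 (S0250), block P: final scale algebra with `m` sources, part 1 (helper441)

Calculus of an extended submultiplicative norm `N` on a commutative real algebra:

* `RA N` : `RN N` (900) and `N (c • x) ≤ |c| N x`; `Bd N x t : N x ≤ t`
* `Bd.prod_sub` : perturbation of finite products
* `zz_lip` : `N (ZZ K - ZZ K') ≤ exp (Σ N K') (exp (Σ N (K - K')) - 1)`
* `zz_lead` : the gas of finitely many pairwise separated activities is a product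
* `nexp_bd`, `gexp_bd` : `N (gexp a - 1) ≤ exp t - 1`
-/

set_option autoImplicit false
set_option linter.unusedSectionVars false
set_option linter.unusedVariables false

noncomputable section

namespace Crest.Agent.R165.SrcFinx441

open Finset
open scoped ENNReal Nat
open Crest.Agent.R165.FinBx900 Crest.Agent.R165.KStepx892
open Crest.Agent.R165.Gr0x606 Crest.Agent.R165.Gr1x606 Crest.Agent.R165.GeOpsx337
  Crest.Agent.R165.ExpGx337

section norms

variable {R : Type*} [CommRing R] [Algebra ℝ R]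

/-- a submultiplicative extended norm on a commutative real algebra -/
structure RA (N : R → ℝ≥0∞) : Prop extends RN N where
  smul : ∀ (c : ℝ) (x : R), N (c • x) ≤ ‖c‖ₑ * N x

/-- `N x ≤ t` -/
def Bd (N : R → ℝ≥0∞) (x : R) (t : ℝ) : Prop := N x ≤ ENNReal.ofReal t

variable {N : R → ℝ≥0∞}

theorem Bd.ne_top {x : R} {t : ℝ} (h : Bd N x t) : N x ≠ ∞ :=
  ne_top_of_le_ne_top ENNReal.ofReal_ne_top h

theorem Bd.mono {x : R} {s t : ℝ} (h : Bd N x s) (hst : s ≤ t) : Bd N x t :=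
  h.trans (ENNReal.ofReal_le_ofReal hst)

theorem bd_zero (hN : RA N) : Bd N (0 : R) 0 := by
  unfold Bd; rw [hN.zero]; exact zero_le

theorem bd_one (hN : RA N) : Bd N (1 : R) 1 := by
  unfold Bd; rw [ENNReal.ofReal_one]; exact hN.one

theorem Bd.add (hN : RA N) {x y : R} {s t : ℝ} (hx : Bd N x s) (hy : Bd N y t) (hs : 0 ≤ s)
    (ht : 0 ≤ t) : Bd N (x + y) (s + t) := by
  unfold Bd
  rw [ENNReal.ofReal_add hs ht]
  exact (hN.add x y).trans (add_le_add hx hy)

theorem Bd.smul (hN : RA N) {x : R} {t : ℝ} (c : ℝ) (hx : Bd N x t) : Bd N (c • x) (|c| * t) := by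
  unfold Bd
  rw [ENNReal.ofReal_mul (abs_nonneg c)]
  refine (hN.smul c x).trans (mul_le_mul' ?_ hx)
  rw [← Real.norm_eq_abs, ofReal_norm]

theorem Bd.neg (hN : RA N) {x : R} {t : ℝ} (hx : Bd N x t) : Bd N (-x) t := by
  have := hx.smul hN (-1)
  simpa using this

theorem Bd.sub (hN : RA N) {x y : R} {s t : ℝ} (hx : Bd N x s) (hy : Bd N y t) (hs : 0 ≤ s)
    (ht : 0 ≤ t) : Bd N (x - y) (s + t) := by
  rw [sub_eq_add_neg]
  exact hx.add hN (hy.neg hN) hs ht

theorem Bd.mul (hN : RA N) {x y : R} {s t : ℝ} (hx : Bd N x s) (hy : Bd N y t) (hs : 0 ≤ s) :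
    Bd N (x * y) (s * t) := by
  unfold Bd
  rw [ENNReal.ofReal_mul hs]
  exact (hN.mul x y hx.ne_top hy.ne_top).trans (mul_le_mul' hx hy)

theorem Bd.pow (hN : RA N) {x : R} {t : ℝ} (hx : Bd N x t) (ht : 0 ≤ t) (k : ℕ) :
    Bd N (x ^ k) (t ^ k) := by
  induction k with
  | zero => simpa using bd_one hN
  | succ k ih => rw [pow_succ, pow_succ]; exact ih.mul hN hx (pow_nonneg ht k)

theorem Bd.sum (hN : RA N) {ι : Type*} (s : Finset ι) {f : ι → R} {t : ι → ℝ}
    (h : ∀ i ∈ s, Bd N (f i) (t i)) (h0 : ∀ i ∈ s, 0 ≤ t i) : Bd N (∑ i ∈ s, f i) (∑ i ∈ s, t i) := by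
  unfold Bd
  rw [ENNReal.ofReal_sum_of_nonneg h0]
  exact (hN.sum_le s f).trans (sum_le_sum h)

theorem Bd.prod (hN : RA N) {ι : Type*} (s : Finset ι) {f : ι → R} {t : ι → ℝ}
    (h : ∀ i ∈ s, Bd N (f i) (t i)) (h0 : ∀ i ∈ s, 0 ≤ t i) : Bd N (∏ i ∈ s, f i) (∏ i ∈ s, t i) := by
  unfold Bd
  rw [ENNReal.ofReal_prod_of_nonneg h0]
  exact (hN.prod_le s f fun i hi => (h i hi).ne_top).trans (prod_le_prod' h)

theorem Bd.prod_const (hN : RA N) {ι : Type*} (s : Finset ι) {f : ι → R} {t : ℝ}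
    (h : ∀ i ∈ s, Bd N (f i) t) (h0 : 0 ≤ t) : Bd N (∏ i ∈ s, f i) (t ^ s.card) := by
  have := Bd.prod hN s h fun _ _ => h0
  simpa using this

/-- perturbation of products, all factors bounded by `B ≥ 1` -/
theorem Bd.prod_sub (hN : RA N) {ι : Type*} (s : Finset ι) {f g : ι → R} {B δ : ℝ} (hB : 1 ≤ B)
    (hδ : 0 ≤ δ) (hf : ∀ i ∈ s, Bd N (f i) B) (hg : ∀ i ∈ s, Bd N (g i) B)
    (hfg : ∀ i ∈ s, Bd N (f i - g i) δ) :
    Bd N (∏ i ∈ s, f i - ∏ i ∈ s, g i) (s.card * B ^ s.card * δ) := by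
  classical
  induction s using Finset.induction_on with
  | empty => simpa using bd_zero hN
  | insert a s ha ih =>
    have ih' := ih (fun i hi => hf i (mem_insert_of_mem hi)) (fun i hi => hg i (mem_insert_of_mem hi))
      fun i hi => hfg i (mem_insert_of_mem hi)
    have hB0 : 0 ≤ B := by linarith
    have h1 : Bd N (∏ i ∈ s, f i) (B ^ s.card) :=
      Bd.prod_const hN s (fun i hi => hf i (mem_insert_of_mem hi)) hB0
    have e : ∏ i ∈ insert a s, f i - ∏ i ∈ insert a s, g i =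
        (f a - g a) * ∏ i ∈ s, f i + g a * (∏ i ∈ s, f i - ∏ i ∈ s, g i) := by
      rw [prod_insert ha, prod_insert ha]; ring
    rw [e, card_insert_of_notMem ha]
    have h2 := (hfg a (mem_insert_self _ _)).mul hN h1 hδ
    have h3 := (hg a (mem_insert_self _ _)).mul hN ih' hB0
    refine (h2.add hN h3 (by positivity) (by positivity)).mono ?_
    have hp : 0 ≤ B ^ s.card * δ := by positivity
    have e2 : δ * B ^ s.card + B * (s.card * B ^ s.card * δ) =
        (B ^ s.card * δ) * (1 + s.card * B) := by ring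
    have e3 : ((s.card + 1 : ℕ) : ℝ) * B ^ (s.card + 1) * δ =
        (B ^ s.card * δ) * (B + s.card * B) := by push_cast; ring
    rw [e2, e3]
    exact mul_le_mul_of_nonneg_left (by linarith) hp

end norms

/-! ### Lipschitz bound of the polymer gas -/

section gas

variable {F : Type*} [DecidableEq F] {R : Type*} [CommRing R] [Algebra ℝ R] {N : R → ℝ≥0∞}

open Classical in
theorem ZZ_eq (near : F → F → Prop) (Λ : Finset F) (K : Finset F → R) :
    ZZ near Λ K = ∑ X ∈ (nes Λ).powerset, if Sep near X then ∏ U ∈ X, K U else 0 := by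
  unfold ZZ
  rw [← sum_filter]
  refine sum_congr ?_ fun _ _ => rfl
  ext X
  simp only [mem_filter, mem_powerset]
  constructor
  · rintro ⟨h, hs⟩
    exact ⟨fun U hU => mem_nes.2 ⟨mem_powerset.1 (h hU), hs.ne U hU⟩, hs⟩
  · rintro ⟨h, hs⟩
    exact ⟨fun U hU => mem_powerset.2 (mem_nes.1 (h hU)).1, hs⟩

theorem prod_diff_le (hN : RA N) {κ : Type*} [DecidableEq κ] (X : Finset κ) (K K' : κ → R)
    (h1 : ∀ U ∈ X, N (K' U) ≠ ∞) (h2 : ∀ U ∈ X, N (K U - K' U) ≠ ∞) :
    N (∏ U ∈ X, K U - ∏ U ∈ X, K' U) + ∏ U ∈ X, N (K' U) ≤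
      ∏ U ∈ X, (N (K U - K' U) + N (K' U)) := by
  classical
  have e1 : ∏ U ∈ X, K U = ∑ Q ∈ X.powerset, (∏ U ∈ Q, (K U - K' U)) * ∏ U ∈ X \ Q, K' U := by
    rw [← prod_add]
    exact prod_congr rfl fun U _ => by ring
  have e2 : ∏ U ∈ X, K U - ∏ U ∈ X, K' U =
      ∑ Q ∈ X.powerset.erase ∅, (∏ U ∈ Q, (K U - K' U)) * ∏ U ∈ X \ Q, K' U := by
    rw [e1, ← add_sum_erase _ _ (empty_mem_powerset X)]
    simp
  have e3 : ∏ U ∈ X, (N (K U - K' U) + N (K' U)) =
      ∑ Q ∈ X.powerset.erase ∅, (∏ U ∈ Q, N (K U - K' U)) * ∏ U ∈ X \ Q, N (K' U) +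
        ∏ U ∈ X, N (K' U) := by
    rw [prod_add, ← add_sum_erase _ _ (empty_mem_powerset X), add_comm]
    simp
  rw [e2, e3]
  gcongr
  refine (hN.sum_le _ _).trans (sum_le_sum fun Q hQ => ?_)
  have hQX : Q ⊆ X := mem_powerset.1 (mem_of_mem_erase hQ)
  have f1 : ∀ U ∈ Q, N (K U - K' U) ≠ ∞ := fun U hU => h2 U (hQX hU)
  have f2 : ∀ U ∈ X \ Q, N (K' U) ≠ ∞ := fun U hU => h1 U (mem_sdiff.1 hU).1
  have g1 := hN.prod_le Q (fun U => K U - K' U) f1
  have g2 := hN.prod_le (X \ Q) K' f2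
  have t1 := ne_top_of_le_ne_top (ENNReal.prod_ne_top f1) g1
  have t2 := ne_top_of_le_ne_top (ENNReal.prod_ne_top f2) g2
  exact (hN.mul _ _ t1 t2).trans (mul_le_mul' g1 g2)

theorem zz_diff_le (hN : RA N) (near : F → F → Prop) (Λ : Finset F) (K K' : Finset F → R)
    (h1 : ∀ U ∈ nes Λ, N (K' U) ≠ ∞) (h2 : ∀ U ∈ nes Λ, N (K U - K' U) ≠ ∞) :
    N (ZZ near Λ K - ZZ near Λ K') + ∏ U ∈ nes Λ, (1 + N (K' U)) ≤
      ∏ U ∈ nes Λ, (1 + (N (K U - K' U) + N (K' U))) := by
  classical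
  rw [ZZ_eq, ZZ_eq, ← sum_sub_distrib, prod_one_add, prod_one_add]
  calc N (∑ X ∈ (nes Λ).powerset, ((if Sep near X then ∏ U ∈ X, K U else 0) -
        if Sep near X then ∏ U ∈ X, K' U else 0)) + ∑ X ∈ (nes Λ).powerset, ∏ U ∈ X, N (K' U)
      ≤ ∑ X ∈ (nes Λ).powerset, N ((if Sep near X then ∏ U ∈ X, K U else 0) -
        if Sep near X then ∏ U ∈ X, K' U else 0) + ∑ X ∈ (nes Λ).powerset, ∏ U ∈ X, N (K' U) := by
        gcongr
        exact hN.sum_le _ _
    _ = ∑ X ∈ (nes Λ).powerset, (N ((if Sep near X then ∏ U ∈ X, K U else 0) -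
        if Sep near X then ∏ U ∈ X, K' U else 0) + ∏ U ∈ X, N (K' U)) := sum_add_distrib.symm
    _ ≤ _ := by
        refine sum_le_sum fun X hX => ?_
        have hX' := mem_powerset.1 hX
        by_cases h : Sep near X
        · rw [if_pos h, if_pos h]
          exact prod_diff_le hN X K K' (fun U hU => h1 U (hX' hU)) fun U hU => h2 U (hX' hU)
        · rw [if_neg h, if_neg h, sub_zero, hN.zero, zero_add]
          exact prod_le_prod' fun U _ => le_add_self

/-- **Lipschitz bound of the gas** -/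
theorem zz_lip (hN : RA N) (near : F → F → Prop) (Λ : Finset F) (K K' : Finset F → R) {M η : ℝ}
    (hM : 0 ≤ M) (hη : 0 ≤ η) (h1 : ∑ U ∈ nes Λ, N (K' U) ≤ ENNReal.ofReal M)
    (h2 : ∑ U ∈ nes Λ, N (K U - K' U) ≤ ENNReal.ofReal η) :
    Bd N (ZZ near Λ K - ZZ near Λ K') (Real.exp M * (Real.exp η - 1)) := by
  have f1 : ∀ U ∈ nes Λ, N (K' U) ≠ ∞ := fun U hU => ne_top_of_le_ne_top ENNReal.ofReal_ne_top
    ((single_le_sum (f := fun U => N (K' U)) (fun _ _ => zero_le) hU).trans h1)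
  have f2 : ∀ U ∈ nes Λ, N (K U - K' U) ≠ ∞ := fun U hU => ne_top_of_le_ne_top ENNReal.ofReal_ne_top
    ((single_le_sum (f := fun U => N (K U - K' U)) (fun _ _ => zero_le) hU).trans h2)
  have h := zz_diff_le hN near Λ K K' f1 f2
  -- real versions
  set x : Finset F → ℝ := fun U => (N (K' U)).toReal with hx
  set d : Finset F → ℝ := fun U => (N (K U - K' U)).toReal with hd
  have x0 : ∀ U, 0 ≤ x U := fun U => ENNReal.toReal_nonneg
  have d0 : ∀ U, 0 ≤ d U := fun U => ENNReal.toReal_nonneg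
  have ex : ∀ U ∈ nes Λ, N (K' U) = ENNReal.ofReal (x U) := fun U hU =>
    (ENNReal.ofReal_toReal (f1 U hU)).symm
  have ed : ∀ U ∈ nes Λ, N (K U - K' U) = ENNReal.ofReal (d U) := fun U hU =>
    (ENNReal.ofReal_toReal (f2 U hU)).symm
  have p1 : ∏ U ∈ nes Λ, (1 + N (K' U)) = ENNReal.ofReal (∏ U ∈ nes Λ, (1 + x U)) := by
    rw [ENNReal.ofReal_prod_of_nonneg fun U _ => by have := x0 U; positivity]
    refine prod_congr rfl fun U hU => ?_
    rw [ex U hU, ENNReal.ofReal_add zero_le_one (x0 U), ENNReal.ofReal_one]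
  have p2 : ∏ U ∈ nes Λ, (1 + (N (K U - K' U) + N (K' U))) =
      ENNReal.ofReal (∏ U ∈ nes Λ, (1 + (d U + x U))) := by
    rw [ENNReal.ofReal_prod_of_nonneg fun U _ => by have := x0 U; have := d0 U; positivity]
    refine prod_congr rfl fun U hU => ?_
    rw [ex U hU, ed U hU, ENNReal.ofReal_add zero_le_one (add_nonneg (d0 U) (x0 U)),
      ENNReal.ofReal_one, ENNReal.ofReal_add (d0 U) (x0 U)]
  have sx : ∑ U ∈ nes Λ, x U ≤ M := by
    have : ENNReal.ofReal (∑ U ∈ nes Λ, x U) ≤ ENNReal.ofReal M := by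
      rw [ENNReal.ofReal_sum_of_nonneg fun U _ => x0 U]
      refine le_trans (le_of_eq (sum_congr rfl fun U hU => (ex U hU).symm)) h1
    exact (ENNReal.ofReal_le_ofReal_iff hM).1 this
  have sd : ∑ U ∈ nes Λ, d U ≤ η := by
    have : ENNReal.ofReal (∑ U ∈ nes Λ, d U) ≤ ENNReal.ofReal η := by
      rw [ENNReal.ofReal_sum_of_nonneg fun U _ => d0 U]
      refine le_trans (le_of_eq (sum_congr rfl fun U hU => (ed U hU).symm)) h2
    exact (ENNReal.ofReal_le_ofReal_iff hη).1 this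
  have q1 : ∏ U ∈ nes Λ, (1 + (d U + x U)) ≤
      (∏ U ∈ nes Λ, (1 + x U)) * ∏ U ∈ nes Λ, (1 + d U) := by
    rw [← prod_mul_distrib]
    refine prod_le_prod (fun U _ => by have := x0 U; have := d0 U; positivity) fun U _ => ?_
    nlinarith [mul_nonneg (x0 U) (d0 U)]
  have q2 : ∀ y : Finset F → ℝ, (∀ U, 0 ≤ y U) → ∏ U ∈ nes Λ, (1 + y U) ≤
      Real.exp (∑ U ∈ nes Λ, y U) := by
    intro y hy
    rw [Real.exp_sum]
    refine prod_le_prod (fun U _ => by have := hy U; positivity) fun U _ => ?_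
    rw [add_comm]; exact Real.add_one_le_exp _
  have q3 : ∏ U ∈ nes Λ, (1 + (d U + x U)) ≤ ∏ U ∈ nes Λ, (1 + x U) +
      Real.exp M * (Real.exp η - 1) := by
    have hP0 : 0 ≤ ∏ U ∈ nes Λ, (1 + x U) := prod_nonneg fun U _ => by
      have := x0 U; positivity
    have hP : ∏ U ∈ nes Λ, (1 + x U) ≤ Real.exp M := (q2 x x0).trans (Real.exp_le_exp.2 sx)
    have hD : ∏ U ∈ nes Λ, (1 + d U) ≤ Real.exp η := (q2 d d0).trans (Real.exp_le_exp.2 sd)
    have h1η : 0 ≤ Real.exp η - 1 := by linarith [Real.add_one_le_exp η]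
    calc _ ≤ (∏ U ∈ nes Λ, (1 + x U)) * ∏ U ∈ nes Λ, (1 + d U) := q1
      _ ≤ (∏ U ∈ nes Λ, (1 + x U)) * Real.exp η := mul_le_mul_of_nonneg_left hD hP0
      _ = ∏ U ∈ nes Λ, (1 + x U) + (∏ U ∈ nes Λ, (1 + x U)) * (Real.exp η - 1) := by ring
      _ ≤ _ := by gcongr
  have h1η : 0 ≤ Real.exp η - 1 := by linarith [Real.add_one_le_exp η]
  rw [p1, p2] at h
  have h3 : N (ZZ near Λ K - ZZ near Λ K') + ENNReal.ofReal (∏ U ∈ nes Λ, (1 + x U)) ≤
      ENNReal.ofReal (Real.exp M * (Real.exp η - 1)) +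
        ENNReal.ofReal (∏ U ∈ nes Λ, (1 + x U)) := by
    refine h.trans ((ENNReal.ofReal_le_ofReal q3).trans (le_of_eq ?_))
    rw [add_comm (∏ U ∈ nes Λ, (1 + x U)), ENNReal.ofReal_add (by positivity)
      (prod_nonneg fun U _ => by have := x0 U; positivity)]
  exact (ENNReal.add_le_add_iff_right ENNReal.ofReal_ne_top).1 h3

/-- the leading family: `f i` at the face set `Uf i` -/
def lead {m : ℕ} (Uf : Fin m → Finset F) (f : Fin m → R) (U : Finset F) : R :=
  ∑ i, if U = Uf i then f i else 0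

theorem lead_at {m : ℕ} {Uf : Fin m → Finset F} (hinj : Function.Injective Uf) (f : Fin m → R)
    (i : Fin m) : lead Uf f (Uf i) = f i := by
  unfold lead
  rw [sum_eq_single i]
  · simp
  · intro j _ hj
    rw [if_neg fun h => hj (hinj h).symm]
  · intro h; exact absurd (mem_univ i) h

theorem lead_off {m : ℕ} {Uf : Fin m → Finset F} (f : Fin m → R) {U : Finset F}
    (h : ∀ i, U ≠ Uf i) : lead Uf f U = 0 := by
  unfold lead
  exact sum_eq_zero fun i _ => if_neg (h i)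

/-- **the gas of the leading family** -/
theorem zz_lead (near : F → F → Prop) {Λ : Finset F} {m : ℕ} {Uf : Fin m → Finset F}
    (hinj : Function.Injective Uf) (hne : ∀ i, (Uf i).Nonempty) (hΛ : ∀ i, Uf i ⊆ Λ)
    (hsep : ∀ i j, i ≠ j → ¬ touch near (Uf i) (Uf j)) (f : Fin m → R) :
    ZZ near Λ (lead Uf f) = ∏ i, (1 + f i) := by
  classical
  have hT : (univ.image Uf) ⊆ nes Λ := by
    intro U hU
    obtain ⟨i, -, rfl⟩ := mem_image.1 hU
    exact mem_nes.2 ⟨hΛ i, hne i⟩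
  have e1 : ∏ i, (1 + f i) = ∏ U ∈ univ.image Uf, (1 + lead Uf f U) := by
    rw [prod_image fun i _ j _ h => hinj h]
    exact prod_congr rfl fun i _ => by rw [lead_at hinj]
  rw [e1, prod_one_add, ZZ_eq]
  refine (sum_subset_zero_on_sdiff (powerset_mono.2 hT) ?_ ?_).symm
  · intro X hX
    rw [mem_sdiff, mem_powerset, mem_powerset] at hX
    obtain ⟨U, hU, hU'⟩ := not_subset.1 hX.2
    have h0 : lead Uf f U = 0 := lead_off f fun i hi => hU' (by
      rw [hi]; exact mem_image_of_mem _ (mem_univ i))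
    split_ifs
    · exact prod_eq_zero hU h0
    · rfl
  · intro X hX
    rw [mem_powerset] at hX
    rw [if_pos]
    refine ⟨fun U hU => (mem_nes.1 (hT (hX hU))).2, fun U hU W hW hUW => ?_⟩
    obtain ⟨i, -, rfl⟩ := mem_image.1 (hX hU)
    obtain ⟨j, -, rfl⟩ := mem_image.1 (hX hW)
    exact hsep i j fun h => hUW (by rw [h])

theorem sum_lead_le (hN : RA N) {Λ : Finset F} {m : ℕ} {Uf : Fin m → Finset F} {f : Fin m → R}
    {t : ℝ} (ht : 0 ≤ t) (hf : ∀ i, Bd N (f i) t) :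
    ∑ U ∈ nes Λ, N (lead Uf f U) ≤ ENNReal.ofReal (m * t) := by
  classical
  have h1 : ∀ U, N (lead Uf f U) ≤ ∑ i : Fin m, if U = Uf i then ENNReal.ofReal t else 0 := by
    intro U
    unfold lead
    refine (hN.sum_le _ _).trans (sum_le_sum fun i _ => ?_)
    split_ifs
    · exact hf i
    · rw [hN.zero]
  calc ∑ U ∈ nes Λ, N (lead Uf f U)
      ≤ ∑ U ∈ nes Λ, ∑ i : Fin m, if U = Uf i then ENNReal.ofReal t else 0 :=
        sum_le_sum fun U _ => h1 U
    _ = ∑ i : Fin m, ∑ U ∈ nes Λ, if U = Uf i then ENNReal.ofReal t else 0 := sum_comm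
    _ ≤ ∑ _i : Fin m, ENNReal.ofReal t := by
        refine sum_le_sum fun i _ => ?_
        rw [sum_ite_eq' (nes Λ) (Uf i) fun _ => ENNReal.ofReal t]
        split_ifs
        · exact le_rfl
        · exact zero_le
    _ = ENNReal.ofReal (m * t) := by
        rw [sum_const, card_univ, Fintype.card_fin, nsmul_eq_mul,
          ENNReal.ofReal_mul (Nat.cast_nonneg m), ENNReal.ofReal_natCast]

end gas

/-! ### exponentials -/

section expo

variable {V : Type*} [AddCommGroup V] [Module ℝ V] {N : Ge V → ℝ≥0∞}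

theorem nexp_bd (hN : RA N) {a : Ge V} (ha : IsNilpotent a) {t : ℝ} (h0 : 0 ≤ t)
    (h : Bd N a t) : Bd N (nexp a - 1) (Real.exp t - 1) := by
  obtain ⟨k, hk⟩ := ha
  have hk' : a ^ (k + 1) = 0 := by rw [pow_succ, hk, zero_mul]
  have e : nexp a - 1 = ∑ i ∈ range k, (((i + 1)! : ℝ)⁻¹) • a ^ (i + 1) := by
    rw [nexp_eq_sum hk', sum_range_succ']
    simp
  rw [e]
  have h1 : Bd N (∑ i ∈ range k, (((i + 1)! : ℝ)⁻¹) • a ^ (i + 1))
      (∑ i ∈ range k, ((i + 1)! : ℝ)⁻¹ * t ^ (i + 1)) := by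
    refine Bd.sum hN _ (fun i _ => ?_) fun i _ => by positivity
    have := (h.pow hN h0 (i + 1)).smul hN (((i + 1)! : ℝ)⁻¹)
    rwa [abs_of_nonneg (by positivity)] at this
  refine h1.mono ?_
  have h2 := Real.sum_le_exp_of_nonneg h0 (k + 1)
  rw [sum_range_succ'] at h2
  simp only [pow_zero, Nat.factorial_zero, Nat.cast_one, div_one] at h2
  have h3 : ∑ i ∈ range k, ((i + 1)! : ℝ)⁻¹ * t ^ (i + 1) =
      ∑ i ∈ range k, t ^ (i + 1) / ((i + 1)! : ℝ) :=
    sum_congr rfl fun i _ => by rw [div_eq_mul_inv, mul_comm]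
  rw [h3]
  linarith

/-- `N (gexp a - 1) ≤ exp (c + t) - 1` -/
theorem gexp_bd (hN : RA N) {a : Ge V} {c t : ℝ} (ht : 0 ≤ t) (hc : |ctG a| ≤ c)
    (h : Bd N (nl a) t) : Bd N (gexp a - 1) (Real.exp (c + t) - 1) := by
  have c0 : 0 ≤ c := (abs_nonneg _).trans hc
  have e : gexp a - 1 = Real.exp (ctG a) • (nexp (nl a) - 1) + (Real.exp (ctG a) - 1) • (1 : Ge V) := by
    rw [gexp, smul_sub, sub_smul, one_smul]; abel
  have h1 := (nexp_bd hN (nl_nil a) ht h).smul hN (Real.exp (ctG a))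
  have h2 := (bd_one hN).smul hN (Real.exp (ctG a) - 1)
  rw [e]
  have ht1 : 0 ≤ Real.exp t - 1 := by linarith [Real.add_one_le_exp t]
  refine (h1.add hN h2 (mul_nonneg (abs_nonneg _) ht1) (by positivity)).mono ?_
  have h3 : |Real.exp (ctG a)| ≤ Real.exp c := by
    rw [abs_of_pos (Real.exp_pos _)]
    exact Real.exp_le_exp.2 ((le_abs_self _).trans hc)
  have h4 : |Real.exp (ctG a) - 1| ≤ Real.exp c - 1 := by
    have := Crest.Agent.R165.GExpx900.real_exp_sub_one_le (ctG a)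
    exact this.trans (by linarith [Real.exp_le_exp.2 hc])
  calc |Real.exp (ctG a)| * (Real.exp t - 1) + |Real.exp (ctG a) - 1| * 1
      ≤ Real.exp c * (Real.exp t - 1) + (Real.exp c - 1) := by
        rw [mul_one]
        exact add_le_add (mul_le_mul_of_nonneg_right h3 ht1) h4
    _ = Real.exp (c + t) - 1 := by rw [Real.exp_add]; ring

/-- exponential of a square zero element -/
theorem gexp_sq_zero {a : Ge V} (h : a * a = 0) (h0 : ctG a = 0) : gexp a = 1 + a := by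
  have hn : nl a = a := by rw [nl, h0, map_zero, sub_zero]
  rw [gexp, h0, Real.exp_zero, one_smul, hn, nexp_eq_sum (k := 2) (by rw [pow_two, h])]
  simp [sum_range_succ]

end expo

/-! ### the ratio of the top and the bottom coefficient -/

section ratio

variable {R : Type*} [CommRing R] [Algebra ℝ R] {N : R → ℝ≥0∞}

/-- bound of the factors -/
def Bc (M : ℝ) : ℝ := 2 + M + M ^ 2

/-- the constant of `core` -/
def Cc (m : ℕ) (M : ℝ) : ℝ :=
  (1 + M) ^ m * ((1 + M ^ 2) ^ m + 2) + m * Bc M ^ m * (1 + M)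

/-- data at the final scale, in a commutative algebra with norm `N`:
`τ i` sources, `w i` bond bilinears, `e i` accumulated constants with one source, `z` the energy
factor, `gr` the exponential of the constants with at least two sources, `Z` the gas -/
structure FinA (N : R → ℝ≥0∞) {m : ℕ} (τ w : Fin m → R) (e e0 : Fin m → ℝ) (z Ze : ℝ)
    (gr Z : R) (M η : ℝ) : Prop where
  norm : RA N
  M1 : 1 ≤ M
  η0 : 0 ≤ η
  η1 : η ≤ 1
  sq : ∀ i, τ i * τ i = 0
  he : ∀ i, Bd N (e i • τ i) M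
  hw : ∀ i, Bd N (τ i * w i) M
  hz : |z| ≤ M
  hZe : |Ze| ≤ M
  hee : ∀ i, Bd N ((e i - Ze * e0 i) • τ i) η
  hzz : |z - Ze| ≤ η
  hgr : Bd N (gr - 1) η
  hZ : Bd N (Z - ∏ i, (1 + z • (τ i * w i))) η

variable {m : ℕ} {τ w : Fin m → R} {e e0 : Fin m → ℝ} {z Ze : ℝ} {gr Z : R} {M η : ℝ}

/-- the limiting product -/
def P0 (τ w : Fin m → R) (e0 : Fin m → ℝ) (Ze : ℝ) : R :=
  ∏ i, (1 + τ i * ((Ze * e0 i) • (1 : R) + Ze • w i))

theorem FinA.factor (h : FinA N τ w e e0 z Ze gr Z M η) (i : Fin m) :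
    Bd N (1 + τ i * ((Ze * e0 i) • (1 : R) + Ze • w i)) (Bc M) := by
  have hN := h.norm
  have hM0 : 0 ≤ M := by linarith [h.M1]
  have e1 : 1 + τ i * ((Ze * e0 i) • (1 : R) + Ze • w i) =
      (1 + (e i • τ i - (e i - Ze * e0 i) • τ i)) + Ze • (τ i * w i) := by
    rw [mul_add, mul_smul_comm, mul_smul_comm, mul_one, sub_smul]; abel
  rw [e1]
  have h1 := (h.he i).sub hN (h.hee i) hM0 h.η0
  have h2 := (bd_one hN).add hN h1 zero_le_one (add_nonneg hM0 h.η0)
  have h3 := (h.hw i).smul hN Ze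
  have p1 : |Ze| * M ≤ M * M := mul_le_mul_of_nonneg_right h.hZe hM0
  refine (h2.add hN h3 (by have := h.η0; positivity) (by positivity)).mono ?_
  unfold Bc
  have := h.η1
  nlinarith

theorem FinA.bd_P0 (h : FinA N τ w e e0 z Ze gr Z M η) : Bd N (P0 τ w e0 Ze) (Bc M ^ m) := by
  have hB : 0 ≤ Bc M := by unfold Bc; have := h.M1; positivity
  have := Bd.prod_const h.norm univ (fun i _ => h.factor i) hB
  rwa [card_univ, Fintype.card_fin] at this

/-- **core estimate** -/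
theorem FinA.core (h : FinA N τ w e e0 z Ze gr Z M η) :
    Bd N ((∏ i, (1 + e i • τ i)) * gr * Z - P0 τ w e0 Ze) (Cc m M * η) := by
  have hN := h.norm
  have hM1 := h.M1
  have hM0 : 0 ≤ M := by linarith
  have hη0 := h.η0
  have hη1 := h.η1
  have cardm : (univ : Finset (Fin m)).card = m := by rw [card_univ, Fintype.card_fin]
  -- bounds of the two products
  have b1 : Bd N (∏ i, (1 + e i • τ i)) ((1 + M) ^ m) := by
    have := Bd.prod_const hN univ (f := fun i => 1 + e i • τ i) (t := 1 + M)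
      (fun i _ => (bd_one hN).add hN (h.he i) zero_le_one hM0) (by linarith)
    rwa [cardm] at this
  have bzw : ∀ i, Bd N (z • (τ i * w i)) (M ^ 2) := fun i =>
    ((h.hw i).smul hN z).mono (by
      have := mul_le_mul_of_nonneg_right h.hz hM0
      rwa [← pow_two] at this)
  have b2 : Bd N (∏ i, (1 + z • (τ i * w i))) ((1 + M ^ 2) ^ m) := by
    have := Bd.prod_const hN univ (f := fun i => 1 + z • (τ i * w i)) (t := 1 + M ^ 2)
      (fun i _ => (bd_one hN).add hN (bzw i) zero_le_one (by positivity)) (by positivity)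
    rwa [cardm] at this
  have bZ : Bd N Z ((1 + M ^ 2) ^ m + 1) := by
    have e1 : Z = (Z - ∏ i, (1 + z • (τ i * w i))) + ∏ i, (1 + z • (τ i * w i)) := by ring
    rw [e1]
    exact (h.hZ.add hN b2 hη0 (by positivity)).mono (by linarith)
  -- the product of the two products
  have e2 : (∏ i, (1 + e i • τ i)) * ∏ i, (1 + z • (τ i * w i)) =
      ∏ i, (1 + (e i • τ i + z • (τ i * w i))) := by
    rw [← prod_mul_distrib]
    refine prod_congr rfl fun i _ => ?_
    have : e i • τ i * (z • (τ i * w i)) = 0 := by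
      rw [smul_mul_smul_comm, ← mul_assoc, h.sq i, zero_mul, smul_zero]
    calc (1 + e i • τ i) * (1 + z • (τ i * w i))
        = 1 + (e i • τ i + z • (τ i * w i)) + e i • τ i * (z • (τ i * w i)) := by ring
      _ = _ := by rw [this, add_zero]
  have b3 : Bd N (∏ i, (1 + (e i • τ i + z • (τ i * w i))) - P0 τ w e0 Ze)
      (m * Bc M ^ m * ((1 + M) * η)) := by
    have := Bd.prod_sub hN univ (f := fun i => 1 + (e i • τ i + z • (τ i * w i)))
      (g := fun i => 1 + τ i * ((Ze * e0 i) • (1 : R) + Ze • w i)) (B := Bc M) (δ := (1 + M) * η)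
      (by unfold Bc; nlinarith) (by positivity) (fun i _ => ?_) (fun i _ => h.factor i) fun i _ => ?_
    · rwa [cardm] at this
    · refine ((bd_one hN).add hN ((h.he i).add hN (bzw i) hM0 (by positivity)) zero_le_one
        (by positivity)).mono ?_
      unfold Bc; linarith
    · have e3 : 1 + (e i • τ i + z • (τ i * w i)) -
          (1 + τ i * ((Ze * e0 i) • (1 : R) + Ze • w i)) =
          (e i - Ze * e0 i) • τ i + (z - Ze) • (τ i * w i) := by
        rw [mul_add, mul_smul_comm, mul_smul_comm, mul_one, sub_smul, sub_smul]; abel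
      rw [e3]
      refine ((h.hee i).add hN ((h.hw i).smul hN (z - Ze)) hη0 (by positivity)).mono ?_
      have := mul_le_mul_of_nonneg_right h.hzz hM0
      linarith
  have e4 : (∏ i, (1 + e i • τ i)) * gr * Z - P0 τ w e0 Ze =
      ((∏ i, (1 + e i • τ i)) * (gr - 1) * Z +
        (∏ i, (1 + e i • τ i)) * (Z - ∏ i, (1 + z • (τ i * w i)))) +
      (∏ i, (1 + (e i • τ i + z • (τ i * w i))) - P0 τ w e0 Ze) := by
    rw [← e2]; ring
  rw [e4]
  have c1 := (b1.mul hN h.hgr (by positivity)).mul hN bZ (by positivity)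
  have c2 := b1.mul hN h.hZ (by positivity)
  have hB : 0 ≤ Bc M := by unfold Bc; positivity
  refine ((c1.add hN c2 (by positivity) (by positivity)).add hN b3 (by positivity)
    (by positivity)).mono ?_
  unfold Cc
  apply le_of_eq
  ring

theorem Cc_nonneg {M : ℝ} (hM : 0 ≤ M) (m : ℕ) : 0 ≤ Cc m M := by
  unfold Cc Bc; positivity

/-- **ratio of the top and the bottom coefficient at the final scale** -/
theorem FinA.ratio (h : FinA N τ w e e0 z Ze gr Z M η) {A c : ℝ} (tp bt : R →ₗ[ℝ] ℝ)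
    (hA : 0 ≤ A) (htp : ∀ x t, 0 ≤ t → Bd N x t → |tp x| ≤ A * t)
    (hbt : ∀ x t, 0 ≤ t → Bd N x t → |bt x| ≤ t) (hb : bt (P0 τ w e0 Ze) = 1)
    (hsm : Cc m M * η ≤ 1 / 2) :
    |tp (Real.exp c • ((∏ i, (1 + e i • τ i)) * gr * Z)) /
        bt (Real.exp c • ((∏ i, (1 + e i • τ i)) * gr * Z)) - tp (P0 τ w e0 Ze)| ≤
      2 * Cc m M * (1 + Bc M ^ m) * (A * η) := by
  have hM0 : 0 ≤ M := by linarith [h.M1]
  have hC := Cc_nonneg hM0 m
  have hCη : 0 ≤ Cc m M * η := mul_nonneg hC h.η0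
  have hB : 0 ≤ Bc M := by unfold Bc; positivity
  set Y := (∏ i, (1 + e i • τ i)) * gr * Z with hY
  have h1 := htp _ _ hCη h.core
  have h2 := hbt _ _ hCη h.core
  have h3 := htp _ _ (by positivity) h.bd_P0
  rw [map_sub] at h1 h2
  rw [hb] at h2
  have hbY : 1 / 2 ≤ bt Y := by
    have := (abs_le.1 h2).1
    linarith
  have hbY0 : bt Y ≠ 0 := by linarith
  have e1 : tp (Real.exp c • Y) / bt (Real.exp c • Y) = tp Y / bt Y := by
    rw [map_smul, map_smul, smul_eq_mul, smul_eq_mul,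
      mul_div_mul_left _ _ (Real.exp_pos c).ne']
  have e2 : tp Y / bt Y - tp (P0 τ w e0 Ze) =
      ((tp Y - tp (P0 τ w e0 Ze)) - tp (P0 τ w e0 Ze) * (bt Y - 1)) / bt Y := by
    field_simp
    ring
  rw [e1, e2, abs_div, div_le_iff₀ (abs_pos.2 hbY0), abs_of_pos (by linarith : 0 < bt Y)]
  have h4 : |(tp Y - tp (P0 τ w e0 Ze)) - tp (P0 τ w e0 Ze) * (bt Y - 1)| ≤
      A * (Cc m M * η) + A * Bc M ^ m * (Cc m M * η) := by
    refine (abs_sub _ _).trans ?_
    rw [abs_mul]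
    exact add_le_add h1 (mul_le_mul h3 h2 (abs_nonneg _) (by positivity))
  refine h4.trans ?_
  have h5 : A * (Cc m M * η) + A * Bc M ^ m * (Cc m M * η) =
      (Cc m M * (1 + Bc M ^ m) * (A * η)) := by ring
  rw [h5]
  have h6 : 0 ≤ Cc m M * (1 + Bc M ^ m) * (A * η) := by have := h.η0; positivity
  nlinarith

end ratio

end Crest.Agent.R165.SrcFinx441
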