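import Crest.Agent.R165.GLinI_336
import Crest.Agent.R165.FRDLat_439

/-!
# Row 165 (S0250), block G: (W0) at the next scale (helper336)

`gw_le_wt_next` : the Gram weight of the block of slices `2^a ≤ · < 2^b` against the local weight
of a LARGER scale `r' ≤ L 2^a`: factor `7 √(C N) L ^ MM / A`.
`W0_next` : the hypothesis `W0` of `GLinI_336`, `Src_336`.
-/

set_option autoImplicit false
set_option linter.unusedSectionVars false

noncomputable section

open scoped ENNReal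
open Crest.Agent.R165.Gr0x606 Crest.Agent.R165.Latx683 Crest.Agent.R165.PNormx417
  Crest.Agent.R165.GDefx387 Crest.Agent.R165.FRDAbsx439 Crest.Agent.R165.FRDPolyx439
  Crest.Agent.R165.FRDInfx439 Crest.Agent.R165.FRDLatx439

namespace Crest.Agent.R165.GLinx336

variable {G : Type} [CommRing G] [CN G] {Λ : ℝ} {M K : ℕ} (D : FRD Λ M K)

/-- **(W0) at the next scale** -/
theorem gw_le_wt_next (hM : MM + 1 ≤ M) (w : BW G) (h : ABtw (preF (HE G)) (AopF w) 0 Λ)
    (a b r : ℕ) (N L : ℝ) (hL : 1 ≤ L) (hr : (r : ℝ) ≤ L * 2 ^ a) (hN : (2 : ℝ) ^ b ≤ N * r)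
    {A : ℝ} (hA : 0 < A) (x : G × G) (l : Fld G) :
    gw D w a b l ≤ ENNReal.ofReal (7 * √(D.C * N) * L ^ MM / A) * wt w A r x l := by
  have hC := D.C_pos
  have h1 := sum_gform_le D (AopF_asy w) h hM a b l
  have hR := RD_nonneg (AopF_asy w) (a := (r : ℝ) ^ 2) (by positivity) MM l
  have h2a : (0 : ℝ) < 2 ^ a := by positivity
  have e4 : (4 : ℝ) ^ a = (2 ^ a) ^ 2 := by rw [← pow_mul, mul_comm, pow_mul]; norm_num
  have h2 : RD (preF (HE G)) (AopF w) (4 ^ a) MM l ≤
      L ^ MM * RD (preF (HE G)) (AopF w) ((r : ℝ) ^ 2) MM l := by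
    rcases le_total (r : ℝ) (2 ^ a) with hle | hle
    · have h3 : RD (preF (HE G)) (AopF w) (4 ^ a) MM l ≤
          RD (preF (HE G)) (AopF w) ((r : ℝ) ^ 2) MM l := by
        apply RD_anti (AopF_asy w) (by positivity)
        rw [e4]; gcongr
      exact h3.trans (le_mul_of_one_le_left hR (one_le_pow₀ hL))
    · have h3 := RD_scale (AopF_asy w) (a := 4 ^ a) (a' := (r : ℝ) ^ 2) (by positivity)
        (by rw [e4]; gcongr) MM l
      refine h3.trans (mul_le_mul_of_nonneg_right ?_ hR)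
      rw [e4, ← div_pow, ← pow_mul, mul_comm 2 MM, pow_mul, Real.sqrt_sq (by positivity)]
      gcongr
      rw [div_le_iff₀ h2a]; exact hr
  have hN0 : 0 ≤ N * r := (by positivity : (0 : ℝ) ≤ 2 ^ b).trans hN
  set R := RD (preF (HE G)) (AopF w) ((r : ℝ) ^ 2) MM l
  have h3 : √(gB D w a b l l) ≤ √(D.C * (N * r)) * (L ^ MM * R) := by
    have h4 : gB D w a b l l ≤ D.C * (N * r) * (L ^ MM * R) ^ 2 := by
      refine h1.trans ?_
      have h5 : RD (preF (HE G)) (AopF w) (4 ^ a) MM l ^ 2 ≤ (L ^ MM * R) ^ 2 :=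
        pow_le_pow_left₀ (RD_nonneg (AopF_asy w) (by positivity) MM l) h2 2
      exact mul_le_mul (mul_le_mul_of_nonneg_left hN hC.le) h5 (sq_nonneg _)
        (mul_nonneg hC.le hN0)
    calc √(gB D w a b l l) ≤ √(D.C * (N * r) * (L ^ MM * R) ^ 2) := Real.sqrt_le_sqrt h4
      _ = _ := by
        rw [Real.sqrt_mul (mul_nonneg hC.le hN0), Real.sqrt_sq (mul_nonneg (by positivity) hR)]
  have h6 : √(D.C * (N * r)) = √(D.C * N) * √r := by
    rw [← mul_assoc, Real.sqrt_mul' _ (by positivity)]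
  have hL0 : (0 : ℝ) ≤ L ^ MM := by positivity
  rw [FRDLatx439.wt_eq, ← mul_assoc]
  change ENNReal.ofReal (√(gB D w a b l l)) ≤ _
  calc ENNReal.ofReal (√(gB D w a b l l)) ≤ ENNReal.ofReal ((√(D.C * N) * √r * L ^ MM) * R) := by
        apply ENNReal.ofReal_le_ofReal
        refine h3.trans (le_of_eq ?_)
        rw [h6]; ring
    _ = ENNReal.ofReal (√(D.C * N) * √r * L ^ MM) * ENNReal.ofReal R :=
        ENNReal.ofReal_mul (by positivity)
    _ ≤ ENNReal.ofReal (√(D.C * N) * √r * L ^ MM) * (7 * sup1 w r x l) := by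
        gcongr
        exact RD_le_sup1 w r x l
    _ = ENNReal.ofReal (7 * √(D.C * N) * L ^ MM / A) * ENNReal.ofReal (A * √r) *
        sup1 w r x l := by
        rw [← ENNReal.ofReal_mul (by positivity), ← mul_assoc]
        congr 1
        have h7 : (7 : ℝ≥0∞) = ENNReal.ofReal 7 := by norm_num
        rw [h7, ← ENNReal.ofReal_mul (by positivity)]
        congr 1
        field_simp

/-- the hypothesis `W0` for the slices `2^a ≤ · < 2^b`, scale `r' ≤ L 2^a`, `2^b ≤ N r'` -/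
theorem W0_next (hM : MM + 1 ≤ M) (w : BW G) (h : ABtw (preF (HE G)) (AopF w) 0 Λ)
    (a b r' : ℕ) (N L : ℝ) (hL : 1 ≤ L) (hr : (r' : ℝ) ≤ L * 2 ^ a) (hN : (2 : ℝ) ^ b ≤ N * r')
    {A : ℝ} (hA : 0 < A) (U : Finset (G × G)) :
    W0 w (gw D w a b) A r' (ENNReal.ofReal (7 * √(D.C * N) * L ^ MM / A)) U :=
  fun x _ l _ => gw_le_wt_next D hM w h a b r' N L hL hr hN hA x l

end Crest.Agent.R165.GLinx336
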