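import Crest.Agent.R165.WtIso_898
import Crest.Agent.R165.BgIso2_432

/-!
# Row 165 (S0250), block G: transport of the weight inequalities by charts (helper336)

`Chp w v Z τ s τ' s'` : chart `τ` with gauge `s` on `Z`, with a given inverse `τ'`, `s'`
(for the canonical chart of `GSys_387`: `tauC f`, `gp w f`, `psiC f`, `gpZ w f`).
`pu`, `pb` : the field maps (`chP`, `chQ` of `GSys_387` are of this form).
* `Chp.pb_pu`, `Chp.inv`, `Chp.wt_pu_le`, `Chp.wt_pb_le`, `Chp.suppL_pu`, `Chp.suppL_pb`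
* `Chp.WLe`, `Chp.WLe_id`, `Chp.WLe_sub`, `Chp.WLe_sub2` : `P` on the chart side gives `pb ∘ P ∘ pu`
-/

set_option autoImplicit false
set_option linter.unusedSectionVars false

noncomputable section

open scoped ENNReal
open Crest.Agent.R165.Gr0x606 Crest.Agent.R165.Latx683 Crest.Agent.R165.PNormx417
  Crest.Agent.R165.GDefx387 Crest.Agent.R165.Wtx898 Crest.Agent.R165.WtIsox898
  Crest.Agent.R165.PlaneModesx901 Crest.Agent.R165.Bridgex915

namespace Crest.Agent.R165.WChx336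

variable {G : Type} [CommRing G] [CN G] {H : Type} [CommRing H] [CN H]
variable {w : BW G} {v : BW H} {Z : Set (G × G)} {τ : G × G → H × H} {s : G × G → ℝ}
  {τ' : H × H → G × G} {s' : H × H → ℝ}

/-- field map of a map of faces with signs -/
def pu (τ : G × G → H × H) (s : G × G → ℝ) : Fld G →ₗ[ℝ] Fld H := push (hm τ) (hs s)

theorem pu_single (τ : G × G → H × H) (s : G × G → ℝ) (h : HE G) :
    pu τ s (Finsupp.single h 1) = s h.1 • Finsupp.single (τ h.1, h.2) 1 := push_single _ _ _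

theorem mp_pu_ph (τ : G × G → H × H) (s : G × G → ℝ) (h : HE G) :
    mp (pu τ s) (ph h) = s h.1 • ph (τ h.1, h.2) := push_ph _ _ _

/-- a chart with a given inverse -/
structure Chp (w : BW G) (v : BW H) (Z : Set (G × G)) (τ : G × G → H × H) (s : G × G → ℝ)
    (τ' : H × H → G × G) (s' : H × H → ℝ) : Prop where
  ch : LCh w v Z τ s
  inv : ∀ f ∈ Z, τ' (τ f) = f
  inv_s : ∀ f ∈ Z, s' (τ f) = s f

/-- a background isomorphism of `BgIso_432` as a chart -/
theorem LCh_of_bgIso (b : BgIsox432.BgIso w v Z) : LCh w v Z b.τ b.s where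
  sq f _ := b.sq f
  iso := b.iso
  e1 := b.e1
  e2 := b.e2
  wE := b.wE
  wN := b.wN

theorem Chp.mono (c : Chp w v Z τ s τ' s') {Z' : Set (G × G)} (h : Z' ⊆ Z) :
    Chp w v Z' τ s τ' s' :=
  ⟨c.ch.mono h, fun f hf => c.inv f (h hf), fun f hf => c.inv_s f (h hf)⟩

theorem Chp.pb_single (c : Chp w v Z τ s τ' s') {h : HE G} (hh : h.1 ∈ Z) :
    pu τ' s' (pu τ s (Finsupp.single h 1)) = Finsupp.single h 1 := by
  rw [pu_single, map_smul, pu_single]
  simp only [c.inv _ hh, c.inv_s _ hh, smul_smul, c.ch.sq _ hh, one_smul]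

/-- forward and back is the identity on the fields living on `Z` -/
theorem Chp.pb_pu (c : Chp w v Z τ s τ' s') {l : Fld G} (hl : SuppL Z l) :
    pu τ' s' (pu τ s l) = l := by
  refine BgIsox432.fldS_ind (P := fun l => pu τ' s' (pu τ s l) = l) (Z := Z) (by simp) ?_ ?_ hl
  · intro h hh b
    rw [← mul_one b, ← smul_eq_mul, ← Finsupp.smul_single, map_smul, map_smul, c.pb_single hh]
  · intro l m hl hm
    rw [map_add, map_add, hl, hm]

section good

variable [GoodG G] [GoodG H]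

/-- the inverse chart on a ball -/
theorem Chp.inv_ball (c : Chp w v Z τ s τ' s') {x : G × G} {R : ℕ} (hx : ball x (R + 1) ⊆ Z) :
    LCh v w (ball (τ x) R) τ' s' := by
  have c' := c.ch.inv c.inv hx
  have hR : ball x R ⊆ Z := (ball_mono x (by omega)).trans hx
  have hs1 : ∀ f ∈ ball x R, (f.1 + 1, f.2) ∈ Z := fun f hf => hx (by
    have h1 := step_e1 f
    rw [mem_ball] at hf h1 ⊢
    exact (fd_triangle x f _).trans (by omega))
  have hs2 : ∀ f ∈ ball x R, (f.1, f.2 + 1) ∈ Z := fun f hf => hx (by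
    have h1 := step_e2 f
    rw [mem_ball] at hf h1 ⊢
    exact (fd_triangle x f _).trans (by omega))
  have key : ∀ g ∈ ball (τ x) R, s' g = s (τ' g) := fun g hg => by
    obtain ⟨f, hf, rfl⟩ := c.ch.surj_ball hR hg
    rw [c.inv_s _ (hR hf), c.inv _ (hR hf)]
  refine ⟨?_, c'.iso, c'.e1, c'.e2, ?_, ?_⟩
  · intro g hg
    rw [key g hg]; exact c'.sq g hg
  · intro g hg hg'
    rw [key _ hg, key _ hg']; exact c'.wE g hg hg'
  · intro g hg hg'
    rw [key _ hg, key _ hg']; exact c'.wN g hg hg'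

variable {a a' : ℝ} {r r' : ℕ} {x x' : G × G}

theorem ball_s0_sub {x : G × G} {r : ℕ} (hx : ball x (s1 * r + MM + 1) ⊆ Z) :
    ball x (s0 * r) ⊆ Z :=
  (ball_mono x (by
    have : s0 * r ≤ s1 * r := Nat.mul_le_mul_right _ (by decide)
    omega)).trans hx

theorem Chp.wt_pu_le (c : Chp w v Z τ s τ' s') (hx : ball x (s1 * r + MM + 1) ⊆ Z) (l : Fld G)
    (a : ℝ) : wt v a r (τ x) (pu τ s l) ≤ wt w a r x l :=
  c.ch.wt_push_le ((ball_mono x (by omega)).trans hx) l a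

theorem Chp.suppL_pu (c : Chp w v Z τ s τ' s') {R : ℕ} (hx : ball x R ⊆ Z) {l : Fld G}
    (hl : SuppL (ball x R) l) : SuppL (ball (τ x) R) (pu τ s l) := c.ch.suppL_push hx hl

theorem Chp.wt_pb_le (c : Chp w v Z τ s τ' s') (hx : ball x (s1 * r + MM + 1) ⊆ Z) (l : Fld H)
    (a : ℝ) : wt w a r x (pu τ' s' l) ≤ wt v a r (τ x) l := by
  have h := (c.inv_ball (R := s1 * r + MM) hx).wt_push_le (x := τ x) (r := r) subset_rfl l a
  rw [c.inv x (hx (self_mem_ball x _))] at h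
  exact h

theorem Chp.suppL_pb (c : Chp w v Z τ s τ' s') {R : ℕ} (hx : ball x (R + 1) ⊆ Z) {l : Fld H}
    (hl : SuppL (ball (τ x) R) l) : SuppL (ball x R) (pu τ' s' l) := by
  have h := (c.inv_ball (R := R) hx).suppL_push (x := τ x) subset_rfl hl
  rw [c.inv x (hx (self_mem_ball x _))] at h
  exact h

/-- **transport of a weight inequality** -/
theorem Chp.WLe (c : Chp w v Z τ s τ' s') (hx : ball x (s1 * r + MM + 1) ⊆ Z)
    (hx' : ball x' (s1 * r' + MM + 1) ⊆ Z) {P : Fld H →ₗ[ℝ] Fld H} {q : ℝ≥0∞}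
    (h : GDefx387.WLe v a a' r r' (τ x) (τ x') P q) :
    GDefx387.WLe w a a' r r' x x' (pu τ' s' ∘ₗ P ∘ₗ pu τ s) q := by
  intro l hl
  obtain ⟨h2, h3⟩ := h _ (c.suppL_pu (ball_s0_sub hx) hl)
  refine ⟨c.suppL_pb ((ball_mono x' (by
    have : s0 * r' ≤ s1 * r' := Nat.mul_le_mul_right _ (by decide)
    omega)).trans hx') h2, ?_⟩
  refine (c.wt_pb_le hx' _ a').trans (h3.trans ?_)
  gcongr
  exact c.wt_pu_le hx l a

theorem WLe_congr {P Q : Fld G →ₗ[ℝ] Fld G} {q : ℝ≥0∞}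
    (h : ∀ l, SuppL (ball x (s0 * r)) l → P l = Q l) (hP : GDefx387.WLe w a a' r r' x x' P q) :
    GDefx387.WLe w a a' r r' x x' Q q := by
  intro l hl
  rw [← h l hl]
  exact hP l hl

/-- transport for `id` -/
theorem Chp.WLe_id (c : Chp w v Z τ s τ' s') (hx : ball x (s1 * r + MM + 1) ⊆ Z)
    (hx' : ball x' (s1 * r' + MM + 1) ⊆ Z) {q : ℝ≥0∞}
    (h : GDefx387.WLe v a a' r r' (τ x) (τ x') LinearMap.id q) :
    GDefx387.WLe w a a' r r' x x' LinearMap.id q :=
  WLe_congr (fun _ hl => c.pb_pu (suppL_mono (ball_s0_sub hx) hl)) (c.WLe hx hx' h)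

/-- transport for `id - P` -/
theorem Chp.WLe_sub (c : Chp w v Z τ s τ' s') (hx : ball x (s1 * r + MM + 1) ⊆ Z)
    (hx' : ball x' (s1 * r' + MM + 1) ⊆ Z) {P : Fld H →ₗ[ℝ] Fld H} {q : ℝ≥0∞}
    (h : GDefx387.WLe v a a' r r' (τ x) (τ x') (LinearMap.id - P) q) :
    GDefx387.WLe w a a' r r' x x' (LinearMap.id - pu τ' s' ∘ₗ P ∘ₗ pu τ s) q :=
  WLe_congr (fun l hl => by
    have := c.pb_pu (l := l) (suppL_mono (ball_s0_sub hx) hl)
    simp only [LinearMap.sub_apply, LinearMap.comp_apply, LinearMap.id_apply, map_sub, this])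
    (c.WLe hx hx' h)

/-- transport for `id - P - P'` -/
theorem Chp.WLe_sub2 (c : Chp w v Z τ s τ' s') (hx : ball x (s1 * r + MM + 1) ⊆ Z)
    (hx' : ball x' (s1 * r' + MM + 1) ⊆ Z) {P P' : Fld H →ₗ[ℝ] Fld H} {q : ℝ≥0∞}
    (h : GDefx387.WLe v a a' r r' (τ x) (τ x') (LinearMap.id - P - P') q) :
    GDefx387.WLe w a a' r r' x x'
      (LinearMap.id - pu τ' s' ∘ₗ P ∘ₗ pu τ s - pu τ' s' ∘ₗ P' ∘ₗ pu τ s) q :=
  WLe_congr (fun l hl => by
    have := c.pb_pu (l := l) (suppL_mono (ball_s0_sub hx) hl)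
    simp only [LinearMap.sub_apply, LinearMap.comp_apply, LinearMap.id_apply, map_sub, this])
    (c.WLe hx hx' h)

end good

end Crest.Agent.R165.WChx336
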