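import Crest.Agent.R165.Src_336
import Crest.Agent.R165.W0_336
import Crest.Agent.R165.WCh_336
import Crest.Agent.R165.BulkPl_812
import Crest.Agent.R165.PlaneCoef_901

/-!
# Row 165 (S0250), leaf P11 (b): the source polymers on the concrete weights (helper336)

* plane: `cMass_bb` (the bond form has coefficient `-1`), `wt_P0_atom`, `wt_rest_atom`
* `mC`, `pC`, `cC` : the light modes, the local functionals and the coefficient `cMass` in a chart
* `src_small_chart` : one source, small polymer, background plane-like at the source: factor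
  `CS C * (r/r')²`
* `src_coef_chart` : the extracted coefficient: factor `cM r / a²`
* `large_gain_src` : large polymers with `j ≤ |U|` sources
-/

set_option autoImplicit false
set_option linter.unusedSectionVars false

noncomputable section

open scoped ENNReal
open Crest.Agent.R165.Gr0x606 Crest.Agent.R165.Latx683 Crest.Agent.R165.Locx901
  Crest.Agent.R165.PNormx417 Crest.Agent.R165.PlaneModesx901 Crest.Agent.R165.PlaneLocx901
  Crest.Agent.R165.GDefx387 Crest.Agent.R165.Wtx898 Crest.Agent.R165.WtIsox898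
  Crest.Agent.R165.Bridgex915 Crest.Agent.R165.W2x812 Crest.Agent.R165.WChx336
  Crest.Agent.R165.GLinx336

namespace Crest.Agent.R165.Srcx336

/-! ### the plane -/

theorem form_ph_ph (f g : Tst) (h h' : HE ℤ) :
    form (ph h * ph h') (ev f) (ev g) = f h * g h' - f h' * g h := by
  rw [ph, ph, form_fi_fi]
  simp

/-- the coefficient of a bond form -/
theorem cMass_bb (z : Fc) (j : Fin 2) : cMass (bb z j) = -1 := by
  have h2 := r2_sq
  fin_cases j
  · show cMass (ph (hp z 0) * ph (hq z 0)) = -1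
    rw [cMass, formL_apply, form_ph_ph, hp_zero, hq_zero]
    simp only [m0, lt_S, lt_N]
    nlinarith
  · show cMass (ph (hp z 1) * ph (hq z 1)) = -1
    rw [cMass, formL_apply, form_ph_ph, hp_one, hq_one]
    simp only [m0, lt_E, lt_W]
    norm_num

variable {C : ℝ} {a a' : ℝ} {r r' : ℕ}

/-- the local part of an atom at a neighbouring half-edge -/
theorem wt_P0_atom (h : BkReg C) (ha : 0 ≤ a) (hr : 1 ≤ r) (y : Fc) (e : HE ℤ) {c : ℝ}
    (hc : |c| ≤ 1) : wt (wPl ℤ) a r y ((md y).P0 (Finsupp.single e c)) ≤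
      ENNReal.ofReal (a * Real.sqrt r * (2 * C / r)) := by
  refine wt_le_of_pair ha fun f hf => ?_
  obtain ⟨h1, h2⟩ := h.amp y r hr f hf
  rw [ev_P0, ev_single, abs_mul]
  have h3 : |T0 y f e| ≤ 2 * (C / r) := abs_m0_le h1 h2 e
  calc |c| * |T0 y f e| ≤ 1 * (2 * (C / r)) :=
        mul_le_mul hc h3 (abs_nonneg _) zero_le_one
    _ = _ := by ring

/-- the remainder of an atom at a neighbouring half-edge -/
theorem wt_rest_atom (h : BkReg C) (ha : 0 ≤ a) (hr : 16 ≤ r) (y : Fc) {e : HE ℤ}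
    (he : e.1 ∈ ball y 1) {c : ℝ} (hc : |c| ≤ 1) :
    wt (wPl ℤ) a r y (Finsupp.single e c - (md y).P0 (Finsupp.single e c)) ≤
      ENNReal.ofReal (a * Real.sqrt r * (19 * C / r ^ 2)) := by
  have hC := h.nonneg
  have hr0 : (16 : ℝ) ≤ r := by exact_mod_cast hr
  refine wt_le_of_pair ha fun f hf => ?_
  rw [map_sub, ev_P0, ev_single, ev_single, ← mul_sub, abs_mul]
  obtain ⟨h1, h2, h3, h4⟩ := h.slope y r (by omega) f hf
  have h5 := h.taylor y 1 r le_rfl (by omega) f hf 0 (by norm_num)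
  have h6 : |(f - T0 y f - T1 y f) e| ≤ C * (1 / (r : ℝ)) ^ 3 := by
    have h7 := abs_le_L2on (Z := ball y (65 * 1)) (ball_finite y (65 * 1)) (f - T0 y f - T1 y f)
      (e := e) (ball_mono y (by norm_num) he)
    simp only [Nat.cast_one, one_pow, one_mul, Function.iterate_zero, id] at h5
    exact h7.trans h5
  have h8 : |T1 y f e| ≤ 9 * (1 + 1) * (C / r ^ 2) := by
    have := abs_m1_le (y := y) (D := 1) h1 h2 h3 h4 e he
    rw [Nat.cast_one] at this
    exact this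
  have h9 : |f e - T0 y f e| ≤ 19 * C / r ^ 2 := by
    have e1 : f e - T0 y f e = (f - T0 y f - T1 y f) e + T1 y f e := by
      simp only [Pi.sub_apply]; ring
    rw [e1]
    refine (abs_add_le _ _).trans ((add_le_add h6 h8).trans ?_)
    have e2 : C * (1 / (r : ℝ)) ^ 3 ≤ C / r ^ 2 := by
      rw [one_div, inv_pow, ← div_eq_mul_inv]
      gcongr
      · linarith
      · norm_num
    calc C * (1 / (r : ℝ)) ^ 3 + 9 * (1 + 1) * (C / r ^ 2) ≤ C / r ^ 2 + 18 * (C / r ^ 2) := by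
          linarith
      _ = _ := by ring
  calc |c| * |f e - T0 y f e| ≤ 1 * (19 * C / r ^ 2) :=
        mul_le_mul hc h9 (abs_nonneg _) zero_le_one
    _ = _ := one_mul _

/-! ### charts -/

section chart

variable {G : Type} [CommRing G] [CN G] [GoodG G] {w : BW G} {Z : Set (G × G)}
  {τ : G × G → ℤ × ℤ} {s : G × G → ℝ} {τ' : ℤ × ℤ → G × G} {s' : ℤ × ℤ → ℝ}

/-- the light modes in a chart -/
def mC (τ : G × G → ℤ × ℤ) (s : G × G → ℝ) (i : Fin 2) : Module.Dual ℝ (Fld G) :=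
  (md 0).m i ∘ₗ pu τ s

/-- the local functionals in a chart -/
def pC (τ' : ℤ × ℤ → G × G) (s' : ℤ × ℤ → ℝ) (y : Fc) (i : Fin 2) : Fld G := pu τ' s' ((md y).p i)

/-- the coefficient in a chart -/
def cC (τ : G × G → ℤ × ℤ) (s : G × G → ℝ) : Gr (Fld G) →ₗ[ℝ] ℝ :=
  cMass ∘ₗ (mp (pu τ s)).toLinearMap

theorem cC_apply (τ : G × G → ℤ × ℤ) (s : G × G → ℝ) (a : Gr (Fld G)) :
    cC τ s a = cMass (mp (pu τ s) a) := rfl

theorem formL_mC : formL (mC τ s 0) (mC τ s 1) = cC τ s := by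
  refine LinearMap.ext fun a => ?_
  rw [cC_apply, cMass, formL_apply, formL_apply, form_mp]
  rfl

theorem P2_chart (τ : G × G → ℤ × ℤ) (s : G × G → ℝ) (τ' : ℤ × ℤ → G × G) (s' : ℤ × ℤ → ℝ)
    (y : Fc) : P2 (mC τ s) (pC τ' s' y) = pu τ' s' ∘ₗ (md y).P0 ∘ₗ pu τ s := by
  ext x : 1
  refine LinearMap.ext_ring ?_
  simp only [LinearMap.comp_apply, P2_apply, Modes.P0_apply, Fin.sum_univ_two, map_add, map_smul,
    mC, pC]
  rfl

/-- both faces of the bond `(z, j)` -/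
def BZ (Z : Set (G × G)) (z : G × G) (j : Fin 2) : Prop := (hp z j).1 ∈ Z ∧ (hq z j).1 ∈ Z

theorem faces_mem_ball (z : G × G) (j : Fin 2) :
    (hp z j).1 ∈ ball z 1 ∧ (hq z j).1 ∈ ball z 1 := by
  fin_cases j
  · exact ⟨self_mem_ball z 1, step_e2' z⟩
  · exact ⟨step_e1' z, self_mem_ball z 1⟩

theorem mp_bb (c : LCh w (wPl ℤ) Z τ s) {z : G × G} (hz : ball z 1 ⊆ Z) (j : Fin 2) :
    mp (pu τ s) (bb z j) = (s (hp z j).1 * s (hq z j).1) • bb (τ z) j := by
  have hz0 : z ∈ Z := hz (self_mem_ball z 1)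
  fin_cases j
  · show mp (pu τ s) (ph (hp z 0) * ph (hq z 0)) = _
    rw [map_mul, mp_pu_ph, mp_pu_ph, smul_mul_smul_comm]
    have := c.e2' hz0 (hz (step_e2' z))
    simp only [hp_zero, hq_zero, this, Fin.zero_eta, Fin.isValue, bb]
  · show mp (pu τ s) (ph (hp z 1) * ph (hq z 1)) = _
    rw [map_mul, mp_pu_ph, mp_pu_ph, smul_mul_smul_comm]
    have := c.e1' hz0 (hz (step_e1' z))
    simp only [hp_one, hq_one, this, Fin.mk_one, Fin.isValue, bb]

theorem cC_bb (c : LCh w (wPl ℤ) Z τ s) {z : G × G} (hz : ball z 1 ⊆ Z) (j : Fin 2) :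
    cC τ s (bb z j) = -(s (hp z j).1 * s (hq z j).1) := by
  rw [cC_apply, mp_bb c hz, map_smul, cMass_bb, smul_eq_mul]; ring

theorem abs_s (c : LCh w (wPl ℤ) Z τ s) {f : G × G} (hf : f ∈ Z) : |s f| = 1 := by
  have := c.sq f hf
  rcases mul_self_eq_one_iff.1 this with h | h <;> rw [h] <;> simp

theorem cC_bb_abs (c : LCh w (wPl ℤ) Z τ s) {z : G × G} (hz : ball z 1 ⊆ Z) (j : Fin 2) :
    |cC τ s (bb z j)| = 1 := by
  rw [cC_bb c hz, abs_neg, abs_mul, abs_s c (hz (faces_mem_ball z j).1),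
    abs_s c (hz (faces_mem_ball z j).2), one_mul]

theorem hom2_bb (z : G × G) (j : Fin 2) : hom 2 (bb z j) = bb z j := by
  have h : bb z j = mono [Finsupp.single (hp z j) 1, Finsupp.single (hq z j) 1] := by
    simp [bb, ph, mono_cons, mono_nil]
  rw [h, hom_mono, if_pos (by rfl)]

/-- bound of the modes in a chart -/
theorem mC_le (c : Chp w (wPl ℤ) Z τ s τ' s') (ha : 0 < a) (hr : 1 ≤ r) {x : G × G}
    (hx : ball x (s1 * r + MM + 1) ⊆ Z) (i : Fin 2) {l : Fld G}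
    (hl : SuppL (ball x (s0 * r)) l) :
    ‖mC τ s i l‖ₑ ≤ ENNReal.ofReal (516 * r / (a * Real.sqrt r)) * wt w a r x l := by
  have h1 := c.suppL_pu (ball_s0_sub hx) hl
  have key : ∀ p q : ℝ, |p| ≤ 1 → |q| ≤ 1 → ‖ev (m0 p q) (pu τ s l)‖ₑ ≤
      ENNReal.ofReal (516 * r / (a * Real.sqrt r)) * wt w a r x l := by
    intro p q hp hq
    have h2 := PlaneCoefx901.enorm_pair_le (w := wPl ℤ) (x := τ x) ha (by omega) h1
      (nnB_m0_le hp hq (τ x) hr)
    rw [W2x812.pair_eq_ev, mul_one] at h2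
    refine h2.trans ?_
    gcongr
    exact c.wt_pu_le hx l a
  fin_cases i
  · exact key 1 0 (by simp) (by simp)
  · exact key 0 1 (by simp) (by simp)

/-! ### the remainder of the bond form -/

theorem bb_eq_mono (z : G × G) (j : Fin 2) :
    bb z j = mono [Finsupp.single (hp z j) 1, Finsupp.single (hq z j) 1] := by
  simp [bb, ph, mono_cons, mono_nil]

variable {U : Finset (G × G)} {z : G × G}

theorem pu_single_one (τ : G × G → ℤ × ℤ) (s : G × G → ℝ) (e : HE G) :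
    pu τ s (Finsupp.single e 1) = Finsupp.single (τ e.1, e.2) (s e.1) := by
  rw [pu_single, Finsupp.smul_single, smul_eq_mul, mul_one]

theorem wU_P0_bond (h : BkReg C) (c : Chp w (wPl ℤ) Z τ s τ' s') (ha' : 0 ≤ a') (hr' : 1 ≤ r')
    (hzU : z ∈ U) (hz : ball z (s1 * r' + MM + 1) ⊆ Z) {e : HE G} (he : e.1 ∈ ball z 1) :
    wU w a' r' U (P2 (mC τ s) (pC τ' s' (τ z)) (Finsupp.single e 1)) ≤
      ENNReal.ofReal (a' * Real.sqrt r' * (2 * C / r')) := by
  have heZ : e.1 ∈ Z := hz (ball_mono z (by omega) he)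
  rw [P2_chart]
  simp only [LinearMap.comp_apply]
  have h1 : SuppL (ball z (s0 * r'))
      (pu τ' s' ((md (τ z)).P0 (pu τ s (Finsupp.single e 1)))) :=
    c.suppL_pb ((ball_mono z (by
      have : s0 * r' ≤ s1 * r' := Nat.mul_le_mul_right _ (by decide)
      omega)).trans hz) (suppL_P0 _ _ _)
  refine (WtIsox898.wU_le hzU h1).trans ((c.wt_pb_le hz _ a').trans ?_)
  rw [pu_single_one]
  exact wt_P0_atom h ha' hr' (τ z) _ (abs_s c.ch heZ).le

theorem wU_rest_bond (h : BkReg C) (c : Chp w (wPl ℤ) Z τ s τ' s') (ha' : 0 ≤ a') (hr' : 16 ≤ r')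
    (hzU : z ∈ U) (hz : ball z (s1 * r' + MM + 1) ⊆ Z) {e : HE G} (he : e.1 ∈ ball z 1) :
    wU w a' r' U (Finsupp.single e 1 -
      P2 (mC τ s) (pC τ' s' (τ z)) (Finsupp.single e 1)) ≤
      ENNReal.ofReal (a' * Real.sqrt r' * (19 * C / r' ^ 2)) := by
  have hz0 : z ∈ Z := hz (self_mem_ball z _)
  have heZ : e.1 ∈ Z := hz (ball_mono z (by omega) he)
  have heb : (τ e.1) ∈ ball (τ z) 1 := (c.ch.map_ball hz0 heZ).2 he
  have hs1' : SuppL Z (Finsupp.single e (1 : ℝ)) := BgIsox432.single_mem_fldS heZ 1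
  have e1 : Finsupp.single e 1 - P2 (mC τ s) (pC τ' s' (τ z)) (Finsupp.single e 1) =
      pu τ' s' (pu τ s (Finsupp.single e 1) - (md (τ z)).P0 (pu τ s (Finsupp.single e 1))) := by
    rw [P2_chart, map_sub, c.pb_pu hs1']
    rfl
  have h2 : SuppL (ball (τ z) (s0 * r'))
      (pu τ s (Finsupp.single e 1) - (md (τ z)).P0 (pu τ s (Finsupp.single e 1))) := by
    refine suppL_sub ?_ (suppL_P0 _ _ _)
    rw [pu_single_one]
    exact W2x812.suppL_single _ _ (ball_mono _ (by unfold s0; omega) heb)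
  rw [e1]
  have h1 : SuppL (ball z (s0 * r')) (pu τ' s' (pu τ s (Finsupp.single e 1) -
      (md (τ z)).P0 (pu τ s (Finsupp.single e 1)))) :=
    c.suppL_pb ((ball_mono z (by
      have : s0 * r' ≤ s1 * r' := Nat.mul_le_mul_right _ (by decide)
      omega)).trans hz) h2
  refine (WtIsox898.wU_le hzU h1).trans ((c.wt_pb_le hz _ a').trans ?_)
  rw [pu_single_one]
  exact wt_rest_atom h ha' hr' (τ z) heb (abs_s c.ch heZ).le

/-- **the bond form is its local part up to `O(a'² r'⁻²)`** -/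
theorem bond_rem_chart (h : BkReg C) (c : Chp w (wPl ℤ) Z τ s τ' s') (ha' : 0 ≤ a')
    (hr' : 16 ≤ r') (hzU : z ∈ U) (hz : ball z (s1 * r' + MM + 1) ⊆ Z) (j : Fin 2) :
    pnorm (wU w a' r' U) (bb z j - loc00 (P2 (mC τ s) (pC τ' s' (τ z))) (bb z j)) ≤
      ENNReal.ofReal (100 * C ^ 2 * a' ^ 2 / r' ^ 2) := by
  have hC := h.nonneg
  obtain ⟨hp1, hq1⟩ := faces_mem_ball z j
  have hr1 : 1 ≤ r' := by omega
  have hr0 : (16 : ℝ) ≤ r' := by exact_mod_cast hr'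
  have hrp : (0 : ℝ) < r' := by linarith
  rw [bb_eq_mono]
  refine (bond_rem (w' := wU w a' r' U) (P2 (mC τ s) (pC τ' s' (τ z))) _ _).trans ?_
  have hA : ∀ e : HE G, e.1 ∈ ball z 1 → _ := fun e he => wU_P0_bond h c ha' hr1 hzU hz he
  have hB : ∀ e : HE G, e.1 ∈ ball z 1 → _ := fun e he => wU_rest_bond h c ha' hr' hzU hz he
  have hx : 0 ≤ a' * Real.sqrt r' * (2 * C / r') := by positivity
  have hy : 0 ≤ a' * Real.sqrt r' * (19 * C / r' ^ 2) := by positivity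
  refine (add_le_add (add_le_add (mul_le_mul' (hA _ hp1) (hB _ hq1))
    (mul_le_mul' (hB _ hp1) (hA _ hq1))) (mul_le_mul' (hB _ hp1) (hB _ hq1))).trans ?_
  rw [← ENNReal.ofReal_mul hx, ← ENNReal.ofReal_mul hy, ← ENNReal.ofReal_mul hy,
    ← ENNReal.ofReal_add (by positivity) (by positivity),
    ← ENNReal.ofReal_add (by positivity) (by positivity)]
  refine ENNReal.ofReal_le_ofReal ?_
  have hsq : Real.sqrt r' * Real.sqrt r' = r' := Real.mul_self_sqrt hrp.le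
  have e1 : a' * Real.sqrt r' * (2 * C / r') * (a' * Real.sqrt r' * (19 * C / r' ^ 2)) =
      38 * C ^ 2 * a' ^ 2 / r' ^ 2 := by
    calc _ = 38 * C ^ 2 * a' ^ 2 * (Real.sqrt r' * Real.sqrt r') / r' ^ 3 := by
          field_simp; ring
      _ = _ := by rw [hsq]; field_simp
  have e2 : a' * Real.sqrt r' * (19 * C / r' ^ 2) * (a' * Real.sqrt r' * (19 * C / r' ^ 2)) =
      361 * C ^ 2 * a' ^ 2 / r' ^ 2 / r' := by
    calc _ = 361 * C ^ 2 * a' ^ 2 * (Real.sqrt r' * Real.sqrt r') / r' ^ 4 := by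
          field_simp; ring
      _ = _ := by rw [hsq]; field_simp
  have e3 : a' * Real.sqrt r' * (19 * C / r' ^ 2) * (a' * Real.sqrt r' * (2 * C / r')) =
      38 * C ^ 2 * a' ^ 2 / r' ^ 2 := by rw [mul_comm]; exact e1
  rw [e1, e2, e3]
  have e4 : 361 * C ^ 2 * a' ^ 2 / r' ^ 2 / r' ≤ 24 * (C ^ 2 * a' ^ 2 / r' ^ 2) := by
    rw [div_le_iff₀ hrp]
    have : 0 ≤ C ^ 2 * a' ^ 2 / (r' : ℝ) ^ 2 := by positivity
    calc 361 * C ^ 2 * a' ^ 2 / (r' : ℝ) ^ 2 = 361 * (C ^ 2 * a' ^ 2 / r' ^ 2) := by ring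
      _ ≤ 24 * (C ^ 2 * a' ^ 2 / r' ^ 2) * 16 := by linarith
      _ ≤ _ := by gcongr
  calc 38 * C ^ 2 * a' ^ 2 / (r' : ℝ) ^ 2 + 38 * C ^ 2 * a' ^ 2 / r' ^ 2 +
        361 * C ^ 2 * a' ^ 2 / r' ^ 2 / r'
      ≤ 38 * C ^ 2 * a' ^ 2 / r' ^ 2 + 38 * C ^ 2 * a' ^ 2 / r' ^ 2 +
        24 * (C ^ 2 * a' ^ 2 / r' ^ 2) := by linarith
    _ = _ := by ring

/-! ### numbers -/

theorem D_rho {a a' : ℝ} {r r' : ℕ} (ha : 0 < a) (haa : a' ≤ 2 * a) (hr : 1 ≤ r)
    (hr' : 1 ≤ r') :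
    a' * Real.sqrt r' / (a * Real.sqrt r) * ((r : ℝ) / r') ≤ 2 * Real.sqrt ((r : ℝ) / r') := by
  have h1 : (0 : ℝ) < r := by exact_mod_cast hr
  have h2 : (0 : ℝ) < r' := by exact_mod_cast hr'
  have s1 := Real.sqrt_pos.2 h1
  have s2 := Real.sqrt_pos.2 h2
  rw [Real.sqrt_div h1.le]
  have e3 : a' * Real.sqrt r' / (a * Real.sqrt r) * ((r : ℝ) / r') =
      a' / a * (Real.sqrt r / Real.sqrt r') := by
    calc _ = a' * Real.sqrt r' / (a * Real.sqrt r) *
          ((Real.sqrt r * Real.sqrt r) / (Real.sqrt r' * Real.sqrt r')) := by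
          rw [Real.mul_self_sqrt h1.le, Real.mul_self_sqrt h2.le]
      _ = _ := by field_simp
  rw [e3]
  have h3 : a' / a ≤ 2 := by rw [div_le_iff₀ ha]; exact haa
  exact mul_le_mul_of_nonneg_right h3 (by positivity)

theorem ofReal_numbers {p q m : ℝ} (hp : 0 ≤ p) (hq : 0 ≤ q) (hm : 0 ≤ m) :
    ENNReal.ofReal 11 * ((ENNReal.ofReal 2 * ENNReal.ofReal p) ^ 2 *
      (ENNReal.ofReal 2 * ENNReal.ofReal q) ^ 2) +
      (ENNReal.ofReal 2 * (ENNReal.ofReal p * ENNReal.ofReal q) +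
        ENNReal.ofReal q ^ 2) + ENNReal.ofReal m =
    ENNReal.ofReal (11 * ((2 * p) ^ 2 * (2 * q) ^ 2) + (2 * (p * q) + q ^ 2) + m) := by
  lift p to NNReal using hp
  lift q to NNReal using hq
  lift m to NNReal using hm
  have e : (11 * ((2 * (p : ℝ)) ^ 2 * (2 * (q : ℝ)) ^ 2) + (2 * ((p : ℝ) * q) + (q : ℝ) ^ 2) + m) =
      ((11 * ((2 * p) ^ 2 * (2 * q) ^ 2) + (2 * (p * q) + q ^ 2) + m : NNReal) : ℝ) := by
    push_cast; ring
  rw [e]
  simp only [ENNReal.ofReal_coe_nnreal, ENNReal.ofReal_ofNat]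
  push_cast
  ring

/-- all the factors of one source polymer -/
theorem src_numbers {K t m : ℝ} (hK : 1 ≤ K) (ht : 0 ≤ t) (hKt : 8 * K * t ≤ 1)
    (hm0 : 0 ≤ m) (hm : m ≤ K ^ 2 * t ^ 4) {ε : ℝ≥0∞} (hε : ε ≤ 1) :
    11 * (((1 + ε) * ENNReal.ofReal (2 * K * t)) ^ 2 *
      ((1 + ε) * ENNReal.ofReal (2 * K * t ^ 3)) ^ 2) +
      (2 * (ENNReal.ofReal (2 * K * t) * ENNReal.ofReal (2 * K * t ^ 3)) +
        ENNReal.ofReal (2 * K * t ^ 3) ^ 2) + ENNReal.ofReal m ≤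
      ENNReal.ofReal (16 * K ^ 2 * t ^ 4) := by
  have hK0 : 0 ≤ K := by linarith
  have h2 : (1 + ε) ≤ ENNReal.ofReal 2 := by
    calc 1 + ε ≤ 1 + 1 := by gcongr
      _ = ENNReal.ofReal 2 := by rw [ENNReal.ofReal_ofNat]; norm_num
  have h11 : (11 : ℝ≥0∞) = ENNReal.ofReal 11 := (ENNReal.ofReal_ofNat 11).symm
  have h22 : (2 : ℝ≥0∞) = ENNReal.ofReal 2 := (ENNReal.ofReal_ofNat 2).symm
  have hp : 0 ≤ 2 * K * t := by positivity
  have hq : 0 ≤ 2 * K * t ^ 3 := by positivity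
  calc _ ≤ ENNReal.ofReal 11 * ((ENNReal.ofReal 2 * ENNReal.ofReal (2 * K * t)) ^ 2 *
      (ENNReal.ofReal 2 * ENNReal.ofReal (2 * K * t ^ 3)) ^ 2) +
      (ENNReal.ofReal 2 * (ENNReal.ofReal (2 * K * t) * ENNReal.ofReal (2 * K * t ^ 3)) +
        ENNReal.ofReal (2 * K * t ^ 3) ^ 2) + ENNReal.ofReal m := by
        rw [h11]
        gcongr
        exact h22.le
    _ = ENNReal.ofReal (11 * ((2 * (2 * K * t)) ^ 2 * (2 * (2 * K * t ^ 3)) ^ 2) +
        (2 * ((2 * K * t) * (2 * K * t ^ 3)) + (2 * K * t ^ 3) ^ 2) + m) :=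
        ofReal_numbers hp hq hm0
    _ ≤ _ := by
        apply ENNReal.ofReal_le_ofReal
        have ht1 : t ≤ 1 / 8 := by nlinarith
        have hKt2 : K ^ 2 * t ^ 2 ≤ 1 / 64 := by
          have : (K * t) ^ 2 ≤ (1 / 8) ^ 2 := pow_le_pow_left₀ (by positivity) (by linarith) 2
          calc K ^ 2 * t ^ 2 = (K * t) ^ 2 := by ring
            _ ≤ _ := by linarith
        have ht2 : t ^ 2 ≤ 1 / 64 := by
          calc t ^ 2 ≤ (1 / 8) ^ 2 := pow_le_pow_left₀ ht ht1 2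
            _ = _ := by norm_num
        have hY : 0 ≤ K ^ 2 * t ^ 4 := by positivity
        have e1 : 11 * ((2 * (2 * K * t)) ^ 2 * (2 * (2 * K * t ^ 3)) ^ 2) ≤
            2 * (K ^ 2 * t ^ 4) := by
          calc 11 * ((2 * (2 * K * t)) ^ 2 * (2 * (2 * K * t ^ 3)) ^ 2)
              = (K ^ 2 * t ^ 4) * (2816 * ((K ^ 2 * t ^ 2) * t ^ 2)) := by ring
            _ ≤ (K ^ 2 * t ^ 4) * (2816 * (1 / 64 * (1 / 64))) := by gcongr
            _ ≤ _ := by linarith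
        have e2 : 2 * ((2 * K * t) * (2 * K * t ^ 3)) = 8 * (K ^ 2 * t ^ 4) := by ring
        have e3 : (2 * K * t ^ 3) ^ 2 ≤ 4 * (K ^ 2 * t ^ 4) := by
          calc (2 * K * t ^ 3) ^ 2 = 4 * (K ^ 2 * t ^ 4) * t ^ 2 := by ring
            _ ≤ 4 * (K ^ 2 * t ^ 4) * 1 := by gcongr; linarith
            _ = _ := by ring
        nlinarith

/-! ### the main bound -/

variable {S : Cov (Fld G)} {g : Fld G → ℝ≥0∞}

/-- **one source polymer, small, background plane-like at the source** -/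
theorem src_small_chart (h : BkReg C) (c : Chp w (wPl ℤ) Z τ s τ' s') (hg : Gram S g)
    (ha : 0 < a) (ha' : 0 < a') (haa : a' ≤ 2 * a) (hr : 1 ≤ r) (hr' : 16 * r ≤ r')
    (hL : 64 * (340000 * C + 1) ^ 2 * r ≤ r') (hzU : z ∈ U) (hU : size r U ≤ 1)
    (hz : ball z (s1 * r' + r + MM + 1) ⊆ Z) (j : Fin 2) {ε : ℝ≥0∞} (h0 : W0 w g a' r' ε U)
    (hε : ε ≠ 0) (hε1 : ε ≤ 1) {F : Gr (Fld G)} (hev : IsEv F)
    (hF : pnorm (wU w a r U) F ≠ ∞) :
    pnorm (wU w a' r' U) (noct (conv S F) - Xb (cC τ s) (bb z j) (conv S F)) ≤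
      ENNReal.ofReal (16 * (340000 * C + 1) ^ 2 * ((r : ℝ) / r') ^ 2) *
        pnorm (wU w a r U) F := by
  have hC := h.nonneg
  have hr1 : (1 : ℝ) ≤ r := by exact_mod_cast hr
  have hr'1 : 1 ≤ r' := by omega
  have hrp : (0 : ℝ) < r' := by exact_mod_cast (by omega : 0 < r')
  have hr0 : (0 : ℝ) < r := by linarith
  set K := 340000 * C + 1 with hKd
  have hK : 1 ≤ K := by rw [hKd]; linarith
  have hK0 : 0 ≤ K := by linarith
  set ρ : ℝ := (r : ℝ) / r' with hρ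
  have hρ0 : 0 < ρ := by positivity
  set t := Real.sqrt ρ with htd
  have ht0 : 0 < t := Real.sqrt_pos.2 hρ0
  have htt : t ^ 2 = ρ := Real.sq_sqrt hρ0.le
  have hρK : 64 * K ^ 2 * ρ ≤ 1 := by
    rw [hρ, ← mul_div_assoc, div_le_one hrp]; exact hL
  have hKt : 8 * K * t ≤ 1 := by
    have h1 : (8 * K * t) ^ 2 ≤ 1 := by
      calc (8 * K * t) ^ 2 = 64 * K ^ 2 * t ^ 2 := by ring
        _ ≤ 1 := by rw [htt]; exact hρK
    nlinarith [mul_nonneg (mul_nonneg (by norm_num : (0 : ℝ) ≤ 8) hK0) ht0.le]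
  have ht1 : t ≤ 1 / 8 := by nlinarith
  have hD := D_rho ha haa hr hr'1
  rw [← hρ, ← htd] at hD
  set D := a' * Real.sqrt r' / (a * Real.sqrt r) with hDd
  have hD0 : 0 ≤ D := by positivity
  -- geometry
  have hdist : ∀ x ∈ U, fd z x ≤ r := by
    intro x hx
    rw [Bridgex915.size_eq_pack] at hU
    exact (Packx915.pack_le_one_iff fd_PD).1 hU z hzU x hx
  have hbx' : ∀ x ∈ U, ball x (s1 * r' + MM + 1) ⊆ Z := fun x hx =>
    (ball_subset_ball (by have := hdist x hx; omega)).trans hz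
  have hss : s1 * r ≤ s1 * r' := Nat.mul_le_mul_left _ (by omega)
  have hbx : ∀ x ∈ U, ball x (s1 * r + MM + 1) ⊆ Z := fun x hx =>
    (ball_mono x (by omega)).trans (hbx' x hx)
  have hbz := hbx' z hzU
  have hzZ : z ∈ Z := hbz (self_mem_ball z _)
  have hxZ : ∀ x ∈ U, x ∈ Z := fun x hx => hbx x hx (self_mem_ball x _)
  have hτ : ∀ x ∈ U, fd (τ x) (τ z) ≤ r := fun x hx => by
    rw [c.ch.iso x (hxZ x hx) z hzZ, fd_comm]; exact hdist x hx
  have hcb : cC τ s (bb z j) ≠ 0 := by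
    have := cC_bb_abs c.ch ((ball_mono z (by omega)).trans hbz) j
    intro h0'
    rw [h0', abs_zero] at this
    exact zero_ne_one this
  -- the weight inequalities
  have hpP : ∀ x ∈ U, ∃ x' ∈ U, GDefx387.WLe w a a' r r' x x'
      (P2 (mC τ s) (pC τ' s' (τ z))) (ENNReal.ofReal (2 * K * t)) := fun x hx => by
    refine ⟨z, hzU, ?_⟩
    rw [P2_chart]
    refine Wtx898.WLe.mono (c.WLe (hbx x hx) hbz (W2_P0 h ha ha'.le hr hr'1))
      (ENNReal.ofReal_le_ofReal ?_)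
    calc D * (516 * C * ((r : ℝ) / r')) = 516 * C * (D * ρ) := by rw [hρ]; ring
      _ ≤ K * (2 * t) := by
          apply mul_le_mul _ hD (by positivity) hK0
          rw [hKd]; linarith
      _ = _ := by ring
  have hpQ : ∀ x ∈ U, ∃ x' ∈ U, GDefx387.WLe w a a' r r' x x'
      (LinearMap.id - P2 (mC τ s) (pC τ' s' (τ z))) (ENNReal.ofReal (2 * K * t ^ 3)) :=
    fun x hx => by
    refine ⟨z, hzU, ?_⟩
    rw [P2_chart]
    refine Wtx898.WLe.mono (c.WLe_sub (hbx x hx) hbz (W2_id_sub_P0 h ha ha'.le hr hr' (hτ x hx)))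
      (ENNReal.ofReal_le_ofReal ?_)
    calc D * ((330000 * C + 1) * ((r : ℝ) / r') ^ 2) = (330000 * C + 1) * (D * ρ) * ρ := by
          rw [hρ]; ring
      _ ≤ K * (2 * t) * ρ := by
          apply mul_le_mul_of_nonneg_right _ hρ0.le
          apply mul_le_mul _ hD (by positivity) hK0
          rw [hKd]; linarith
      _ = _ := by rw [← htt]; ring
  have hp1 : ∀ x ∈ U, ∃ x' ∈ U, GDefx387.WLe w a a' r r' x x' LinearMap.id
      (ENNReal.ofReal (2 * K * t)) := fun x hx => by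
    refine ⟨x, hx, ?_⟩
    refine Wtx898.WLe.mono (c.WLe_id (hbx x hx) (hbx' x hx) (h.W1 ha ha'.le hr hr' (τ x)))
      (ENNReal.ofReal_le_ofReal ?_)
    calc D * ((340000 * C + 1) * ((r : ℝ) / r')) = K * (D * ρ) := by rw [hρ, hKd]; ring
      _ ≤ K * (2 * t) := mul_le_mul_of_nonneg_left hD hK0
      _ = _ := by ring
  have hpt : 0 < 2 * K * t := by positivity
  have hqt : 0 < 2 * K * t ^ 3 := by positivity
  have h14 : (1 / 4 : ℝ≥0∞) = ENNReal.ofReal (1 / 4) := by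
    rw [ENNReal.ofReal_div_of_pos (by norm_num)]; simp
  have h2ε : (1 + ε) ≤ ENNReal.ofReal 2 := by
    calc 1 + ε ≤ 1 + 1 := by gcongr
      _ = ENNReal.ofReal 2 := by rw [ENNReal.ofReal_ofNat]; norm_num
  have key := src_small_U (U := U) hg (mC τ s) (pC τ' s' (τ z)) (b := bb z j) (hom2_bb z j)
    (by rw [formL_mC]; exact hcb) (ε := ε) (P := ENNReal.ofReal (2 * K * t))
    (Q := ENNReal.ofReal (2 * K * t ^ 3)) (p0 := ENNReal.ofReal (2 * K * t))
    (μ := ENNReal.ofReal (516 * r / (a * Real.sqrt r)))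
    (β := ENNReal.ofReal (100 * C ^ 2 * a' ^ 2 / r' ^ 2)) h0 hε
    (ne_top_of_le_ne_top ENNReal.one_ne_top hε1) ENNReal.ofReal_ne_top
    (by rw [Ne, ENNReal.ofReal_eq_zero]; linarith)
    (by
      rw [h14]
      refine (mul_le_mul' h2ε le_rfl).trans ?_
      rw [← ENNReal.ofReal_mul (by norm_num)]
      apply ENNReal.ofReal_le_ofReal
      have h64 : t ^ 2 ≤ 1 / 64 := by
        calc t ^ 2 ≤ (1 / 8) ^ 2 := pow_le_pow_left₀ ht0.le ht1 2
          _ = _ := by norm_num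
      calc 2 * (2 * K * t ^ 3) = (8 * K * t) * t ^ 2 / 2 := by ring
        _ ≤ 1 * (1 / 64) / 2 := by gcongr
        _ ≤ _ := by norm_num)
    (by
      apply ENNReal.ofReal_le_ofReal
      have h64 : t ^ 2 ≤ 1 := by nlinarith
      calc 2 * K * t ^ 3 = 2 * K * t * t ^ 2 := by ring
        _ ≤ 2 * K * t * 1 := by gcongr
        _ = _ := by ring)
    (by rw [Ne, ENNReal.ofReal_eq_zero]; linarith)
    (by
      rw [h14]
      refine (mul_le_mul' hε1 le_rfl).trans ?_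
      rw [one_mul]
      apply ENNReal.ofReal_le_ofReal
      linarith)
    (by
      rw [Ne, ENNReal.ofReal_eq_zero, not_le]
      have : 0 < Real.sqrt (r : ℝ) := Real.sqrt_pos.2 hr0
      positivity)
    ENNReal.ofReal_ne_top hp1 hpP hpQ
    (fun i x hx l hl => mC_le c ha hr (hbx x hx) i hl)
    (bond_rem_chart h c ha'.le (by omega) hzU hbz j) hev hF
  rw [formL_mC] at key
  refine key.trans (mul_le_mul' ?_ le_rfl)
  -- the constant
  have hcb1 : ‖(cC τ s (bb z j))⁻¹‖ₑ = 1 := by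
    rw [Real.enorm_eq_ofReal_abs, abs_inv,
      cC_bb_abs c.ch ((ball_mono z (by omega)).trans hbz) j]
    simp
  have hs : 0 < Real.sqrt (r : ℝ) := Real.sqrt_pos.2 hr0
  have hm : ‖(cC τ s (bb z j))⁻¹‖ₑ * (2 * ENNReal.ofReal (516 * r / (a * Real.sqrt r)) ^ 2) *
      ENNReal.ofReal (100 * C ^ 2 * a' ^ 2 / r' ^ 2) =
      ENNReal.ofReal (2 * (516 * r / (a * Real.sqrt r)) ^ 2 * (100 * C ^ 2 * a' ^ 2 / r' ^ 2)) := by
    rw [hcb1, one_mul, ENNReal.ofReal_mul (by positivity), ENNReal.ofReal_mul (by norm_num),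
      ENNReal.ofReal_pow (by positivity), ENNReal.ofReal_ofNat]
  rw [hm]
  refine (src_numbers hK ht0.le hKt (by positivity) ?_ hε1).trans (le_of_eq ?_)
  · have e1 : 2 * (516 * r / (a * Real.sqrt r)) ^ 2 * (100 * C ^ 2 * a' ^ 2 / r' ^ 2) =
        200 * (516 * C) ^ 2 * (a' / a) ^ 2 * (r / r') * (1 / r') := by
      have hsq : Real.sqrt (r : ℝ) ^ 2 = r := Real.sq_sqrt hr0.le
      rw [div_pow, mul_pow a, hsq]
      field_simp
      ring
    have e2 : a' / a ≤ 2 := by rw [div_le_iff₀ ha]; exact haa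
    have e3 : 1 / (r' : ℝ) ≤ ρ := by rw [hρ]; gcongr
    have e4 : (a' / a) ^ 2 ≤ 4 := by
      calc (a' / a) ^ 2 ≤ 2 ^ 2 := pow_le_pow_left₀ (by positivity) e2 2
        _ = 4 := by norm_num
    have e5 : (516 * C) ^ 2 ≤ (K / 600) ^ 2 :=
      pow_le_pow_left₀ (by positivity) (by rw [hKd]; linarith) 2
    rw [e1]
    calc 200 * (516 * C) ^ 2 * (a' / a) ^ 2 * (r / r') * (1 / r')
        ≤ 200 * (K / 600) ^ 2 * 4 * ρ * ρ := by
          rw [hρ] at *
          gcongr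
      _ = K ^ 2 * ρ ^ 2 * (800 / 360000) := by ring
      _ ≤ K ^ 2 * ρ ^ 2 * 1 := by gcongr; norm_num
      _ = K ^ 2 * t ^ 4 := by rw [← htt]; ring
  · congr 1
    rw [← htt]; ring

/-- **the coefficient extracted from a source polymer** -/
theorem src_coef_chart (c : Chp w (wPl ℤ) Z τ s τ' s') (ha : 0 < a) (hr : 1 ≤ r)
    (hbx : ∀ x ∈ U, ball x (s1 * r + MM + 1) ⊆ Z) {F : Gr (Fld G)}
    (hF : pnorm (wU w a r U) F ≠ ∞) :
    ‖cC τ s F‖ₑ ≤ ENNReal.ofReal (PlaneCoefx901.cM / a ^ 2 * r) * pnorm (wU w a r U) F := by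
  have h1 := fun x hx => (ball_mono x (by omega) : ball x (s1 * r + MM) ⊆ _).trans (hbx x hx)
  have h2 : pnorm (wU (wPl ℤ) a r (U.image τ)) (mp (pu τ s) F) ≤ pnorm (wU w a r U) F := by
    refine pnorm_mp_le _ (fun l => ?_) F
    have := c.ch.wU_push_le h1 a l
    convert this
    rfl
  rw [cC_apply]
  refine (PlaneCoefx901.enorm_form_m0_m0 ha hr (ne_top_of_le_ne_top hF h2)).trans ?_
  gcongr

/-- the leading term is reproduced exactly -/
theorem lead_zero (c : LCh w (wPl ℤ) Z τ s) (hz : ball z 1 ⊆ Z) (j : Fin 2) (S : Cov (Fld G)) :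
    noct (conv S (bb z j)) - Xb (cC τ s) (bb z j) (conv S (bb z j)) = 0 := by
  have hcb : cC τ s (bb z j) ≠ 0 := by
    have := cC_bb_abs c hz j
    intro h0'
    rw [h0', abs_zero] at this
    exact zero_ne_one this
  have hct : ct (bb z j) = 0 := by rw [bb, ph, ph, map_mul, ct_fi, zero_mul]
  have e1 : conv S (bb z j) = bb z j +
      algebraMap ℝ _ (S.b (Finsupp.single (hp z j) 1) (Finsupp.single (hq z j) 1)) := by
    rw [bb, ph, ph]; exact conv_two S _ _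
  have e2 : cC τ s (algebraMap ℝ (Gr (Fld G))
      (S.b (Finsupp.single (hp z j) 1) (Finsupp.single (hq z j) 1))) = 0 := by
    rw [← formL_mC, formL_apply, form_algebraMap]
  have e3 : Xb (cC τ s) (bb z j) (conv S (bb z j)) = bb z j := by
    rw [e1, Xb_apply, map_add, e2, add_zero, inv_mul_cancel₀ hcb, one_smul]
  rw [e3, e1, noct, map_add, hct, zero_add, ct_algebraMap]
  abel

end chart

/-! ### large polymers with sources, with room -/

/-- **large polymers**: `j ≤ |U|` sources, each of which costs `Λ`; `c0` = room in the size weight -/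
theorem gain_room {X : Type*} {d : X → X → ℕ} {U : Finset X} {r r' R : ℕ} (hd : Packx915.PD d)
    (hU : Packx915.Conn d R U) (h : 4 * R + 3 * r + 2 ≤ r') (h2 : 2 ≤ Packx915.pack d r U)
    {Γ c0 Λ a A B : ℝ≥0∞} (hc : 1 ≤ c0) (hΛ : 1 ≤ Λ) (h1 : 1 ≤ a) (hΓt : Γ ≠ ∞)
    (ha : (c0 * Λ * a) ^ 2 ≤ Γ) {j n : ℕ} (hj : j ≤ Packx915.pack d r U)
    (hn : n ≤ Packx915.pack d r U) (hAB : A ≤ a ^ n * B) :
    (c0 * Γ) ^ Packx915.pack d r' U * (Λ ^ j * A) ≤
      ((c0 * Λ * a) ^ 2 * Γ⁻¹) * (Γ ^ Packx915.pack d r U * B) := by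
  have h3 := two_mul_pack_le hd hU h h2
  have hca : 1 ≤ c0 * Λ * a := one_le_mul_of_one_le_of_one_le
    (one_le_mul_of_one_le_of_one_le hc hΛ) h1
  have h4 := gam_gain hca hΓt ha h3 h2
  calc (c0 * Γ) ^ Packx915.pack d r' U * (Λ ^ j * A)
      ≤ (c0 * Γ) ^ Packx915.pack d r' U *
        (Λ ^ Packx915.pack d r U * (a ^ Packx915.pack d r U * B)) := by
        refine mul_le_mul' le_rfl (mul_le_mul' (pow_le_pow_right₀ hΛ hj)
          (hAB.trans (mul_le_mul' ?_ le_rfl)))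
        exact pow_le_pow_right₀ h1 hn
    _ = (Γ ^ Packx915.pack d r' U * (c0 ^ Packx915.pack d r' U *
        (Λ * a) ^ Packx915.pack d r U)) * B := by
        rw [mul_pow c0, mul_pow Λ]; ring
    _ ≤ (Γ ^ Packx915.pack d r' U * (c0 ^ Packx915.pack d r U *
        (Λ * a) ^ Packx915.pack d r U)) * B := by
        gcongr
        omega
    _ = (Γ ^ Packx915.pack d r' U * (c0 * Λ * a) ^ Packx915.pack d r U) * B := by
        rw [mul_assoc c0, mul_pow c0]
    _ ≤ (((c0 * Λ * a) ^ 2 * Γ⁻¹) * Γ ^ Packx915.pack d r U) * B := by gcongr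
    _ = _ := by ring

section large

variable {G : Type} [CommRing G] [CN G] {w : BW G} {U : Finset (G × G)} {S : Cov (Fld G)}
  {g : Fld G → ℝ≥0∞}

/-- separated faces in `U` -/
theorem card_src_le_size {ι : Type*} (I : Finset ι) (f : ι → G × G) (hf : ∀ i ∈ I, f i ∈ U)
    (hsep : ∀ i ∈ I, ∀ j ∈ I, i ≠ j → r < fd (f i) (f j)) : I.card ≤ size r U := by
  rw [Bridgex915.size_eq_pack]
  exact card_le_pack_of_near fd_PD I f (ρ := 0) (fun i hi => ⟨f i, hf i hi, by simp⟩)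
    (fun i hi j hj hij => by have := hsep i hi j hj hij; omega)

/-- **large polymers of a background with branch points and sources** (`GLinI.large_gain` with the
room `c0` in the size weights and `j` sources) -/
theorem large_gain_src (hg : Gram S g) {ι : Type*} [Fintype ι] (ty : G × G → Option ι)
    (loc : ι → G × G) {ρ R : ℕ} (P : ι → Fld G →ₗ[ℝ] Fld G)
    (hfin : ∀ i, FiniteDimensional ℝ (LinearMap.range (P i)))
    (hr : ∀ i, Module.finrank ℝ (LinearMap.range (P i)) ≤ 1)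
    {ε p q p0 Γ c0 Λ : ℝ≥0∞} (ha : 0 < a) (hrp : 0 < r) (h0 : W0 w g a' r' ε U) (hε : ε ≠ 0)
    (hεt : ε ≠ ∞) (hpt : p ≠ ∞) (hq4 : (1 + ε) * q ≤ 1 / 4) (hqp : q ≤ p)
    (hp0 : (1 + ε) * p0 ≤ 1) (hloc : ∀ x ∈ U, ∀ i, ty x = some i → fd x (loc i) ≤ ρ)
    (hsep : ∀ i j, i ≠ j → 2 * ρ + r < fd (loc i) (loc j))
    (hfar : ∀ x ∈ U, ty x = none → ∃ x' ∈ U, GDefx387.WLe w a a' r r' x x' LinearMap.id p0)
    (hp : ∀ x ∈ U, ∀ i, ty x = some i → ∃ x' ∈ U, GDefx387.WLe w a a' r r' x x' (P i) p)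
    (hq : ∀ x ∈ U, ∀ i, ty x = some i → ∃ x' ∈ U,
      GDefx387.WLe w a a' r r' x x' (LinearMap.id - P i) q)
    (hU : Packx915.Conn fd R U) (hR : 4 * R + 3 * r + 2 ≤ r') (h2 : 2 ≤ size r U)
    (hc : 1 ≤ c0) (hΛ : 1 ≤ Λ) (hΓt : Γ ≠ ∞) (hΓ : (c0 * Λ * (1 + 2 * ((1 + ε) * p))) ^ 2 ≤ Γ)
    {j : ℕ} (hj : j ≤ size r U) {K : Gr (Fld G)} (hK : pnorm (GDefx387.wU w a r U) K ≠ ∞) :
    (c0 * Γ) ^ size r' U * (Λ ^ j * pnorm (GDefx387.wU w a' r' U) (conv S K)) ≤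
      ((c0 * Λ * (1 + 2 * ((1 + ε) * p))) ^ 2 * Γ⁻¹) *
        (Γ ^ size r U * pnorm (GDefx387.wU w a r U) K) := by
  classical
  set I : Finset ι := Finset.univ.filter fun i => ∃ x ∈ U, ty x = some i with hI
  have hcard : I.card ≤ Packx915.pack fd r U := by
    refine card_le_pack_of_near fd_PD I loc (ρ := ρ) (fun i hi => ?_)
      (fun i _ j _ hij => hsep i j hij)
    obtain ⟨x, hx, hty⟩ := (Finset.mem_filter.1 hi).2
    exact ⟨x, hx, hloc x hx i hty⟩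
  simp only [Bridgex915.size_eq_pack] at h2 hj ⊢
  refine gain_room fd_PD hU hR h2 hc hΛ le_self_add hΓt hΓ hj hcard ?_
  exact any_large hg I ty P hfin hr ha hrp h0 hε hεt hpt hq4 hqp hp0
    (fun x hx i hty => Finset.mem_filter.2 ⟨Finset.mem_univ _, x, hx, hty⟩) hfar hp hq hK

end large

end Crest.Agent.R165.Srcx336
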