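import Crest.Agent.R165.SrcLin_336
import Crest.Agent.R165.SrcSys_991

/-!
# Row 165 (S0250), leaf P11: invariants and per-polymer bounds of the system with sources (helper336)

* `K_alg` : a monotone family of subalgebras which is preserved by the operations of a step contains
  all activities
* `SupS`, `sup_K` (S-1) : `coP I (K_n U) ≠ 0` implies that the faces of all sources of `I` are in `U`
* `linP_eq_linR` : the linear part of 991's step is `linR` of `SrcLin_336`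
* `linP_le` : the linear part of a step, all polymers, with the size weights
* `SrcDat`, `StepHyp`, `SrcHyp`, `PolHyp` : hypotheses; `tot` : total norm
* `cv_le`, `lin_le`, `gain_le`, `inc_le`, `tot_A3_le` : (L1)-(L4); `split_HA` : exact decomposition
-/

set_option autoImplicit false
set_option linter.unusedSectionVars false

noncomputable section

open scoped ENNReal
open Crest.Agent.R165.Gr0x606 Crest.Agent.R165.Gr1x606 Crest.Agent.R165.GeOpsx337
  Crest.Agent.R165.ExpGx337 Crest.Agent.R165.KCompx892 Crest.Agent.R165.KStepx892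
  Crest.Agent.R165.KMapx892 Crest.Agent.R165.KFlowx337 Crest.Agent.R165.GSysx387
  Crest.Agent.R165.PNormx417 Crest.Agent.R165.SrcDefx991 Crest.Agent.R165.PStepx417
  Crest.Agent.R165.Latx683 Crest.Agent.R165.GDefx387 Crest.Agent.R165.GLinx336
  Crest.Agent.R165.Srcx336 Crest.Agent.R165.WChx336 Crest.Agent.R165.W2x812
  Crest.Agent.R165.Bridgex915 Crest.Agent.R165.SrcSysx991 Crest.Agent.R165.SrcLinx336
  Crest.Agent.R165.GrLocx337 Crest.Agent.R165.Wtx898 Crest.Agent.R165.Locx901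
  Crest.Agent.R165.PlaneModesx901 Crest.Agent.R165.PlaneLocx901 Crest.Agent.R165.WtIsox898

namespace Crest.Agent.R165.SrcInvx336

/-! ### invariant subalgebras -/

section alg

variable {F : Type*} [DecidableEq F] {V : Type*} [AddCommGroup V] [Module ℝ V]

/-- **invariant subalgebras** of a system -/
theorem K_alg (D : Sys F V) (P : Finset F → Subalgebra ℝ (Ge V))
    (hP : ∀ U W : Finset F, U ⊆ W → P U ≤ P W)
    (hcv : ∀ n U, ∀ a ∈ P U, cvG (D.S n) a ∈ P U)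
    (hvac : ∀ U, ∀ a ∈ P U, D.vac a ∈ P U)
    (hX : ∀ n U, ∀ T ∈ (D.e n).out U, ∀ a ∈ P U, (D.e n).X U T a ∈ P T)
    (h0 : ∀ U, D.K0 U ∈ P U) (n : ℕ) (U : Finset F) :
    D.K n U ∈ P U ∧ D.H n U ∈ P U ∧ D.A n U ∈ P U ∧ D.B n U ∈ P U := by
  have key : ∀ n, (∀ U, D.K n U ∈ P U) →
      ∀ U, D.H n U ∈ P U ∧ D.A n U ∈ P U ∧ D.B n U ∈ P U := by
    intro n ih U
    have hH : ∀ U, D.H n U ∈ P U := fun U => hcv n U _ (ih U)
    have hA : D.A n U ∈ P U := by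
      refine Subalgebra.sub_mem _ (Subalgebra.sub_mem _ ?_ ?_) (hvac U _ (hH U))
      · refine Subalgebra.sum_mem _ fun U' hU' => ?_
        exact hX n U' U (((D.e n).mem_iff U' U).2 hU') _ (hH U')
      · refine Subalgebra.sum_mem _ fun T hT => ?_
        exact hP T U ((D.e n).sub U T hT) (hX n U T hT _ (hH U))
    exact ⟨hH U, hA, Subalgebra.sub_mem _ (gexp_mem_sub _ hA) (Subalgebra.one_mem _)⟩
  have hK : ∀ n, ∀ U, D.K n U ∈ P U := by
    intro n
    induction n with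
    | zero => exact h0
    | succ n ih =>
      intro U
      rw [Sys.K_succ]
      exact Sys.KK_mem P hP _ _ U (fun W _ => (key n ih W).1) (fun W _ => (key n ih W).2.2)
  exact ⟨hK n U, key n (hK n) U⟩

end alg

/-! ### S-1: the sources of an activity are inside the polymer -/

section sup

variable {F : Type} [DecidableEq F] {V : Type} [AddCommGroup V] [Module ℝ V] {m : ℕ}

/-- the elements whose sources have their faces in `U` -/
def SupS (sf : Fin m → Finset F) (U : Finset F) : Subalgebra ℝ (Ge (VS V m)) where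
  carrier := {a | a ∈ GS V m ∧ ∀ I : Finset (Fin m), (∃ i ∈ I, ¬ sf i ⊆ U) → coP I a = 0}
  mul_mem' := by
    rintro a b ⟨ha, ha'⟩ ⟨hb, hb'⟩
    refine ⟨Subalgebra.mul_mem _ ha hb, ?_⟩
    rintro I ⟨i, hi, hiU⟩
    rw [coP_mul ha hb]
    refine Finset.sum_eq_zero fun J hJ => ?_
    by_cases hJi : i ∈ J
    · rw [ha' J ⟨i, hJi, hiU⟩, zero_mul]
    · rw [hb' (I \ J) ⟨i, Finset.mem_sdiff.2 ⟨hi, hJi⟩, hiU⟩, mul_zero]
  add_mem' := by
    rintro a b ⟨ha, ha'⟩ ⟨hb, hb'⟩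
    refine ⟨Subalgebra.add_mem _ ha hb, fun I hI => ?_⟩
    rw [map_add, ha' I hI, hb' I hI, add_zero]
  algebraMap_mem' := by
    intro r
    refine ⟨Subalgebra.algebraMap_mem _ _, ?_⟩
    rintro I ⟨i, hi, _⟩
    have h := coP_inG (V := V) (m := m) I (algebraMap ℝ _ r)
    rw [AlgHom.commutes] at h
    rw [h, if_neg]
    rintro rfl
    exact Finset.notMem_empty i hi

theorem mem_SupS {sf : Fin m → Finset F} {U : Finset F} {a : Ge (VS V m)} :
    a ∈ SupS sf U ↔ a ∈ GS V m ∧ ∀ I : Finset (Fin m), (∃ i ∈ I, ¬ sf i ⊆ U) → coP I a = 0 :=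
  Iff.rfl

variable {sf : Fin m → Finset F}

theorem SupS_mono {U W : Finset F} (h : U ⊆ W) :
    (SupS sf U : Subalgebra ℝ (Ge (VS V m))) ≤ SupS sf W := by
  rintro a ⟨ha, ha'⟩
  refine ⟨ha, ?_⟩
  rintro I ⟨i, hi, hiW⟩
  exact ha' I ⟨i, hi, fun h' => hiW (h'.trans h)⟩

theorem inG_mem_SupS (U : Finset F) (a : Ge V) : inG m a ∈ SupS (V := V) sf U := by
  refine ⟨inG_mem a, ?_⟩
  rintro I ⟨i, hi, _⟩
  rw [coP_inG, if_neg]
  rintro rfl
  exact Finset.notMem_empty i hi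

theorem tau_inG_mem_SupS {U : Finset F} {i : Fin m} (h : sf i ⊆ U) (a : Ge V) :
    tau i * inG m a ∈ SupS (V := V) sf U := by
  refine ⟨Subalgebra.mul_mem _ (tau_mem i) (inG_mem a), ?_⟩
  rintro I ⟨j, hj, hjU⟩
  rw [coP_tau_inG, if_neg]
  rintro rfl
  rw [Finset.mem_singleton] at hj
  subst hj
  exact hjU h

theorem cvG_mem_SupS (S : Cov V) {U : Finset F} {a : Ge (VS V m)} (ha : a ∈ SupS sf U) :
    cvG (ext0 m S) a ∈ SupS sf U := by
  refine ⟨GS_cvG S ha.1, fun I hI => ?_⟩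
  rw [coP_cvG S ha.1, ha.2 I hI, map_zero]

theorem vacS_mem_SupS {U : Finset F} {a : Ge (VS V m)} (ha : a ∈ SupS sf U) :
    vacS a ∈ SupS sf U := by
  refine ⟨GS_vacH ha.1, fun I hI => ?_⟩
  rw [vacS_apply, coP_vacH ha.1, ha.2 I hI, map_zero, map_zero]

end sup

/-! ### S-1 for the system with sources -/

section sysP

variable {G : Type} [CommRing G] [CN G] [DecidableEq G] {V : Type} [AddCommGroup V] [Module ℝ V]
  {m : ℕ}
variable {B : Sys (G × G) V} {R : SData G V m} {rs : ℕ → ℕ} {dp : ℕ → Fin m → Prop}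
  {fs : Finset (G × G) → Submodule ℝ (VS V m)} {K0 : Finset (G × G) → Ge (VS V m)}

/-- **(S-1)** for all the activities -/
theorem sup_sysP (h : SOK B K0)
    (h0 : ∀ U (I : Finset (Fin m)), coP I (K0 U) ≠ 0 → ∀ i ∈ I, R.sf i ⊆ U) (n : ℕ)
    (U : Finset (G × G)) :
    (sysP B R rs dp fs K0).K n U ∈ SupS R.sf U ∧ (sysP B R rs dp fs K0).H n U ∈ SupS R.sf U ∧
      (sysP B R rs dp fs K0).A n U ∈ SupS R.sf U ∧ (sysP B R rs dp fs K0).B n U ∈ SupS R.sf U := by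
  classical
  refine K_alg (sysP B R rs dp fs K0) (SupS R.sf) (fun _ _ hUW => SupS_mono hUW)
    (fun n U a ha => cvG_mem_SupS (B.S n) ha) (fun U a ha => vacS_mem_SupS ha) ?_ ?_ n U
  · intro n U T hT a ha
    show ((if T ∈ (liftE m (B.e n)).out U then (liftE m (B.e n)).X U T else 0) +
      (if T ∈ (srcE (rs n) R.sf R.ne (dp n) R.mu R.β).out U then
        (srcE (rs n) R.sf R.ne (dp n) R.mu R.β).X U T else 0)) a ∈ _
    rw [LinearMap.add_apply]
    refine Subalgebra.add_mem _ ?_ ?_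
    · split_ifs
      · rw [liftE_X]; exact inG_mem_SupS _ _
      · exact Subalgebra.zero_mem _
    · split_ifs
      · rw [srcE_X]
        refine Subalgebra.sum_mem _ fun i hi => ?_
        rw [Finset.mem_filter] at hi
        rw [seX_apply]
        exact tau_inG_mem_SupS (hi.2.2 ▸ subset_rfl) _
      · exact Subalgebra.zero_mem _
  · intro U
    refine ⟨h.GS0 U, ?_⟩
    rintro I ⟨i, hi, hiU⟩
    by_contra hne
    exact hiU (h0 U I hne i hi)

/-- **(S-1)** : the sources of the activity of `U` have their faces in `U` -/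
theorem sup_K (h : SOK B K0)
    (h0 : ∀ U (I : Finset (Fin m)), coP I (K0 U) ≠ 0 → ∀ i ∈ I, R.sf i ⊆ U) {n : ℕ}
    {U : Finset (G × G)} {I : Finset (Fin m)} (hI : coP I ((sysP B R rs dp fs K0).K n U) ≠ 0)
    {i : Fin m} (hi : i ∈ I) : R.sf i ⊆ U := by
  by_contra hiU
  exact hI ((sup_sysP (rs := rs) (dp := dp) (fs := fs) h h0 n U).1.2 I ⟨i, hi, hiU⟩)

/-- (S-1) for the remainder -/
theorem sup_PP (h : SOK B K0)
    (h0 : ∀ U (I : Finset (Fin m)), coP I (K0 U) ≠ 0 → ∀ i ∈ I, R.sf i ⊆ U) (z0 : Fin m → ℝ)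
    {n : ℕ} {U : Finset (G × G)} {I : Finset (Fin m)}
    (hI : coP I (PP B R rs dp fs K0 z0 n U) ≠ 0) {i : Fin m} (hi : i ∈ I) : R.sf i ⊆ U := by
  have h1 : PP B R rs dp fs K0 z0 n U ∈ SupS R.sf U := by
    refine Subalgebra.sub_mem _ (Subalgebra.sub_mem _
      (sup_sysP (rs := rs) (dp := dp) (fs := fs) h h0 n U).1 (inG_mem_SupS _ _)) ?_
    refine Subalgebra.sum_mem _ fun j hj => ?_
    rw [Finset.mem_filter] at hj
    exact tau_inG_mem_SupS (hj.2 ▸ subset_rfl) _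
  by_contra hiU
  exact hI (h1.2 I ⟨i, hi, hiU⟩)

/-! ### the linear part is `linR` -/

open scoped Classical in
/-- the sources which are extracted from `U` -/
def JJ (R : SData G V m) (r : ℕ) (dp : Fin m → Prop) (U : Finset (G × G)) : Finset (Fin m) :=
  Finset.univ.filter fun i => size r U ≤ 1 ∧ dp i ∧ R.sf i ⊆ U

theorem mem_JJ {r : ℕ} {dp : Fin m → Prop} {U : Finset (G × G)} {i : Fin m} :
    i ∈ JJ R r dp U ↔ size r U ≤ 1 ∧ dp i ∧ R.sf i ⊆ U := by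
  simp [JJ]

theorem linP_eq_linR (h : SOK B K0) (z0 : Fin m → ℝ) (n : ℕ) (U : Finset (G × G)) :
    linP B R rs dp fs K0 z0 n U =
      linR (B.S n) R.mu R.β (JJ R (rs n) (dp n) U) (PP B R rs dp fs K0 z0 n U) := by
  have hP := GS_PP (rs := rs) (dp := dp) (fs := fs) (R := R) h z0 n U
  refine GS_ext (GS_linP _ _ _) (linR_mem hP) fun I => ?_
  rw [coP_linP, coP_linR hP, linC, nl]
  congr 1
  rw [Finset.sum_filter, JJ, Finset.sum_filter]
  refine Finset.sum_congr rfl fun i _ => ?_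
  by_cases hI : I = {i}
  · subst hI
    by_cases hc : size (rs n) U ≤ 1 ∧ dp n i ∧ R.sf i ⊆ U
    · rw [if_pos ⟨rfl, hc⟩, if_pos hc, if_pos rfl]
    · rw [if_neg fun hh => hc hh.2, if_neg hc]
  · rw [if_neg fun hh => hI hh.1, if_neg hI, ite_self]

end sysP

/-! ### bounds in a chart -/

section chart

variable {G : Type} [CommRing G] [CN G] [GoodG G] {w : BW G} {Z : Set (G × G)}
  {τ : G × G → ℤ × ℤ} {s : G × G → ℝ} {τ' : ℤ × ℤ → G × G} {s' : ℤ × ℤ → ℝ}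
  {C a a' : ℝ} {r r' : ℕ} {U : Finset (G × G)} {z : G × G} {S : Cov (Fld G)}
  {g : Fld G → ℝ≥0∞}

/-- the identity contracts near a plane-like source -/
theorem id_small_chart (h : BkReg C) (c : Chp w (wPl ℤ) Z τ s τ' s')
    (ha : 0 < a) (ha' : 0 < a') (haa : a' ≤ 2 * a) (hr : 1 ≤ r) (hr' : 16 * r ≤ r')
    (hL : 64 * (340000 * C + 1) ^ 2 * r ≤ r') (hzU : z ∈ U) (hU : size r U ≤ 1)
    (hz : ball z (s1 * r' + r + MM + 1) ⊆ Z) :
    ∃ p0 : ℝ≥0∞, p0 ≠ 0 ∧ p0 ≤ 1 / 4 ∧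
      (∀ x ∈ U, ∃ x' ∈ U, GDefx387.WLe w a a' r r' x x' LinearMap.id p0) ∧
      (∀ x ∈ U, ball x (s1 * r + MM + 1) ⊆ Z) ∧ ball z (s1 * r' + MM + 1) ⊆ Z := by
  have hC := h.nonneg
  have hr1 : (1 : ℝ) ≤ r := by exact_mod_cast hr
  have hr'1 : 1 ≤ r' := by omega
  have hrp : (0 : ℝ) < r' := by exact_mod_cast (by omega : 0 < r')
  have hr0 : (0 : ℝ) < r := by linarith
  set K := 340000 * C + 1 with hKd
  have hK : 1 ≤ K := by rw [hKd]; linarith
  have hK0 : 0 ≤ K := by linarith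
  set ρ : ℝ := (r : ℝ) / r' with hρ
  have hρ0 : 0 < ρ := by positivity
  set t := Real.sqrt ρ with htd
  have ht0 : 0 < t := Real.sqrt_pos.2 hρ0
  have htt : t ^ 2 = ρ := Real.sq_sqrt hρ0.le
  have hρK : 64 * K ^ 2 * ρ ≤ 1 := by
    rw [hρ, ← mul_div_assoc, div_le_one hrp]; exact hL
  have hKt : 8 * K * t ≤ 1 := by
    have h1 : (8 * K * t) ^ 2 ≤ 1 := by
      calc (8 * K * t) ^ 2 = 64 * K ^ 2 * t ^ 2 := by ring
        _ ≤ 1 := by rw [htt]; exact hρK
    nlinarith [mul_nonneg (mul_nonneg (by norm_num : (0 : ℝ) ≤ 8) hK0) ht0.le]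
  have hD := D_rho ha haa hr hr'1
  rw [← hρ, ← htd] at hD
  set D := a' * Real.sqrt r' / (a * Real.sqrt r) with hDd
  have hdist : ∀ x ∈ U, fd z x ≤ r := by
    intro x hx
    rw [Bridgex915.size_eq_pack] at hU
    exact (Packx915.pack_le_one_iff fd_PD).1 hU z hzU x hx
  have hbx' : ∀ x ∈ U, ball x (s1 * r' + MM + 1) ⊆ Z := fun x hx =>
    (ball_subset_ball (by have := hdist x hx; omega)).trans hz
  have hss : s1 * r ≤ s1 * r' := Nat.mul_le_mul_left _ (by omega)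
  have hbx : ∀ x ∈ U, ball x (s1 * r + MM + 1) ⊆ Z := fun x hx =>
    (ball_mono x (by omega)).trans (hbx' x hx)
  refine ⟨ENNReal.ofReal (2 * K * t), ?_, ?_, fun x hx => ⟨x, hx, ?_⟩, hbx, hbx' z hzU⟩
  · rw [Ne, ENNReal.ofReal_eq_zero]
    have : 0 < 2 * K * t := by positivity
    linarith
  · have h14 : (1 / 4 : ℝ≥0∞) = ENNReal.ofReal (1 / 4) := by
      rw [ENNReal.ofReal_div_of_pos (by norm_num)]; simp
    rw [h14]
    apply ENNReal.ofReal_le_ofReal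
    linarith
  · refine Wtx898.WLe.mono (c.WLe_id (hbx x hx) (hbx' x hx) (h.W1 ha ha'.le hr hr' (τ x)))
      (ENNReal.ofReal_le_ofReal ?_)
    calc D * ((340000 * C + 1) * ((r : ℝ) / r')) = K * (D * ρ) := by rw [hρ, hKd]; ring
      _ ≤ K * (2 * t) := mul_le_mul_of_nonneg_left hD hK0
      _ = _ := by ring

theorem one_add_mul_le {ε p : ℝ≥0∞} (hε : ε ≤ 1) (hp : p ≤ 1 / 4) : (1 + ε) * p ≤ 1 := by
  calc (1 + ε) * p ≤ (1 + 1) * (1 / 4) := by gcongr
    _ ≤ 1 := by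
      rw [one_add_one_eq_two, mul_one_div]
      exact ENNReal.div_le_of_le_mul (by norm_num)

/-- the convolution does not increase the norm of a small polymer at a plane-like source -/
theorem conv_small_chart (h : BkReg C) (c : Chp w (wPl ℤ) Z τ s τ' s') (hg : Gram S g)
    (ha : 0 < a) (ha' : 0 < a') (haa : a' ≤ 2 * a) (hr : 1 ≤ r) (hr' : 16 * r ≤ r')
    (hL : 64 * (340000 * C + 1) ^ 2 * r ≤ r') (hzU : z ∈ U) (hU : size r U ≤ 1)
    (hz : ball z (s1 * r' + r + MM + 1) ⊆ Z) {ε : ℝ≥0∞} (h0 : W0 w g a' r' ε U)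
    (hε : ε ≠ 0) (hε1 : ε ≤ 1) (F : Gr (Fld G)) :
    pnorm (wU w a' r' U) (conv S F) ≤ pnorm (wU w a r U) F := by
  obtain ⟨p0, hp0, hp4, hp1, -, -⟩ := id_small_chart h c ha ha' haa hr hr' hL hzU hU hz
  exact any_small hg h0 hε hp0 (one_add_mul_le hε1 hp4) hp1 F

/-- **the coefficient extracted from the convolution of a small polymer** -/
theorem coef_cv_chart (h : BkReg C) (c : Chp w (wPl ℤ) Z τ s τ' s') (hg : Gram S g)
    (ha : 0 < a) (ha' : 0 < a') (haa : a' ≤ 2 * a) (hr : 1 ≤ r) (hr' : 16 * r ≤ r')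
    (hL : 64 * (340000 * C + 1) ^ 2 * r ≤ r') (hzU : z ∈ U) (hU : size r U ≤ 1)
    (hz : ball z (s1 * r' + r + MM + 1) ⊆ Z) (j : Fin 2) {ε : ℝ≥0∞} (h0 : W0 w g a' r' ε U)
    (hε : ε ≠ 0) (hε1 : ε ≤ 1) {F : Gr (Fld G)} (hF : pnorm (wU w a r U) F ≠ ∞) :
    ‖cC τ s (conv S F)‖ₑ ≤ ENNReal.ofReal (2 * 516 ^ 2 * r / a ^ 2) *
      pnorm (wU w a r U) F := by
  obtain ⟨p0, hp0, hp4, hp1, hbx, hbz⟩ := id_small_chart h c ha ha' haa hr hr' hL hzU hU hz
  have hr0 : (0 : ℝ) < r := by exact_mod_cast (by omega : 0 < r)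
  have hs : 0 < Real.sqrt (r : ℝ) := Real.sqrt_pos.2 hr0
  have hcb : cC τ s (bb z j) ≠ 0 := by
    have := cC_bb_abs c.ch ((ball_mono z (by omega)).trans hbz) j
    intro h0'
    rw [h0', abs_zero] at this
    exact zero_ne_one this
  have key := src_coef_U (U := U) hg (mC τ s) (pC τ' s' (τ z)) (b := bb z j) (hom2_bb z j)
    (by rw [formL_mC]; exact hcb) (ε := ε) (p0 := p0)
    (μ := ENNReal.ofReal (516 * r / (a * Real.sqrt r))) h0 hε hp0
    ((mul_le_mul' hε1 hp4).trans (by rw [one_mul]))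
    (by rw [Ne, ENNReal.ofReal_eq_zero, not_le]; positivity) ENNReal.ofReal_ne_top hp1
    (fun i x hx l hl => mC_le c ha hr (hbx x hx) i hl) hF
  rw [formL_mC] at key
  refine key.trans (mul_le_mul' (le_of_eq ?_) le_rfl)
  rw [← ENNReal.ofReal_pow (by positivity), show (2 : ℝ≥0∞) = ENNReal.ofReal 2 by norm_num,
    ← ENNReal.ofReal_mul (by norm_num)]
  congr 1
  have hsq : Real.sqrt (r : ℝ) ^ 2 = r := Real.sq_sqrt hr0.le
  rw [div_pow, mul_pow a, hsq]
  field_simp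

/-- the norm of a bond form at the new scale -/
theorem bb_small_chart (h : BkReg C) (c : Chp w (wPl ℤ) Z τ s τ' s') (ha' : 0 < a')
    (hr' : 16 ≤ r') (hzU : z ∈ U) (hz : ball z (s1 * r' + MM + 1) ⊆ Z) (j : Fin 2) :
    pnorm (wU w a' r' U) (bb z j) ≤ ENNReal.ofReal (11 * C ^ 2 * a' ^ 2 / r') := by
  have hC := h.nonneg
  obtain ⟨hp1, hq1⟩ := faces_mem_ball z j
  have hr1 : 1 ≤ r' := by omega
  have hr0 : (16 : ℝ) ≤ r' := by exact_mod_cast hr'
  have hrp : (0 : ℝ) < r' := by linarith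
  have hs : 0 < Real.sqrt (r' : ℝ) := Real.sqrt_pos.2 hrp
  have e : bb z j = loc00 (P2 (mC τ s) (pC τ' s' (τ z))) (bb z j) +
      (bb z j - loc00 (P2 (mC τ s) (pC τ' s' (τ z))) (bb z j)) := by abel
  have hx : 0 ≤ a' * Real.sqrt r' * (2 * C / r') := by positivity
  have h1 : pnorm (wU w a' r' U) (loc00 (P2 (mC τ s) (pC τ' s' (τ z))) (bb z j)) ≤
      ENNReal.ofReal (a' * Real.sqrt r' * (2 * C / r')) *
        ENNReal.ofReal (a' * Real.sqrt r' * (2 * C / r')) := by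
    rw [bb_eq_mono, loc00_mono_two]
    refine (pnorm_two_le _ _ _).trans (mul_le_mul' ?_ ?_)
    · exact wU_P0_bond h c ha'.le hr1 hzU hz hp1
    · exact wU_P0_bond h c ha'.le hr1 hzU hz hq1
  have h2 := bond_rem_chart h c ha'.le hr' hzU hz j
  have h3 : pnorm (wU w a' r' U) (bb z j) ≤
      pnorm (wU w a' r' U) (loc00 (P2 (mC τ s) (pC τ' s' (τ z))) (bb z j)) +
      pnorm (wU w a' r' U) (bb z j - loc00 (P2 (mC τ s) (pC τ' s' (τ z))) (bb z j)) := by
    conv_lhs => rw [e]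
    exact pnorm_add_le _ _ _
  refine h3.trans ((add_le_add h1 h2).trans ?_)
  rw [← ENNReal.ofReal_mul hx, ← ENNReal.ofReal_add (by positivity) (by positivity)]
  apply ENNReal.ofReal_le_ofReal
  have hsq : Real.sqrt (r' : ℝ) ^ 2 = r' := Real.sq_sqrt hrp.le
  have e1 : a' * Real.sqrt r' * (2 * C / r') * (a' * Real.sqrt r' * (2 * C / r')) =
      4 * C ^ 2 * a' ^ 2 / r' := by
    have : a' * Real.sqrt r' * (2 * C / r') * (a' * Real.sqrt r' * (2 * C / r')) =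
      4 * C ^ 2 * a' ^ 2 * (Real.sqrt r' ^ 2) / r' ^ 2 := by ring
    rw [this, hsq]
    field_simp
  have e2 : 100 * C ^ 2 * a' ^ 2 / (r' : ℝ) ^ 2 ≤ 7 * C ^ 2 * a' ^ 2 / r' := by
    rw [div_le_div_iff₀ (by positivity) hrp]
    have : 0 ≤ C ^ 2 * a' ^ 2 * r' := by positivity
    nlinarith
  rw [e1]
  calc 4 * C ^ 2 * a' ^ 2 / r' + 100 * C ^ 2 * a' ^ 2 / (r' : ℝ) ^ 2
      ≤ 4 * C ^ 2 * a' ^ 2 / r' + 7 * C ^ 2 * a' ^ 2 / r' := by linarith
    _ = _ := by ring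

/-- coefficient times norm of the bond form: absolute constant `1` -/
theorem numbers_gain {C a a' : ℝ} {r r' : ℕ} (hC : 0 ≤ C) (ha : 0 < a) (ha' : 0 < a')
    (haa : a' ≤ 2 * a) (hr : 1 ≤ r) (hr' : 16 * r ≤ r')
    (hL : 64 * (340000 * C + 1) ^ 2 * r ≤ r') :
    2 * 516 ^ 2 * r / a ^ 2 * (11 * C ^ 2 * a' ^ 2 / r') ≤ 1 := by
  have hr0 : (0 : ℝ) < r := by exact_mod_cast (by omega : 0 < r)
  have hrp : (0 : ℝ) < r' := by exact_mod_cast (by omega : 0 < r')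
  have e2 : (a' / a) ^ 2 ≤ 4 := by
    have : a' / a ≤ 2 := by rw [div_le_iff₀ ha]; exact haa
    calc (a' / a) ^ 2 ≤ 2 ^ 2 := pow_le_pow_left₀ (by positivity) this 2
      _ = 4 := by norm_num
  have e3 : (r : ℝ) / r' * (64 * (340000 * C + 1) ^ 2) ≤ 1 := by
    rw [div_mul_eq_mul_div, div_le_one hrp]; linarith
  have e4 : C ^ 2 ≤ (340000 * C + 1) ^ 2 / 340000 ^ 2 := by
    rw [le_div_iff₀ (by norm_num)]
    have : (C * 340000) ^ 2 ≤ (340000 * C + 1) ^ 2 :=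
      pow_le_pow_left₀ (by positivity) (by linarith) 2
    nlinarith
  have e1 : 2 * 516 ^ 2 * r / a ^ 2 * (11 * C ^ 2 * a' ^ 2 / r') =
      22 * 516 ^ 2 * C ^ 2 * (a' / a) ^ 2 * (r / r') := by
    field_simp; ring
  have hq : 0 ≤ (340000 * C + 1) ^ 2 := sq_nonneg _
  have hρ : (0 : ℝ) ≤ r / r' := by positivity
  rw [e1]
  calc 22 * 516 ^ 2 * C ^ 2 * (a' / a) ^ 2 * (r / r')
      ≤ 22 * 516 ^ 2 * ((340000 * C + 1) ^ 2 / 340000 ^ 2) * 4 * (r / r') := by gcongr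
    _ = (22 * 516 ^ 2 * 4 / 340000 ^ 2 / 64) * ((r : ℝ) / r' * (64 * (340000 * C + 1) ^ 2)) := by
        ring
    _ ≤ (22 * 516 ^ 2 * 4 / 340000 ^ 2 / 64) * 1 := by gcongr
    _ ≤ 1 := by norm_num

end chart

/-! ### abstract bounds with sources -/

section abs

variable {V : Type*} [AddCommGroup V] [Module ℝ V] {m : ℕ} {w w' : V → ℝ≥0∞}
  {v v' : Fin m → ℝ≥0∞} {q : ℝ≥0∞} {K K' : Ge (VS V m)}

/-- coefficientwise bounds -/
theorem pG_coef_le (hw' : w' 0 = 0) (hv' : ∀ i, v' i ≠ ∞) (hv0' : ∀ i, v' i ≠ 0)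
    (hK' : K' ∈ GS V m)
    (h : ∀ I : Finset (Fin m), (∏ i ∈ I, v' i ^ 2) * pG w' (coP I K') ≤
      q * ((∏ i ∈ I, v i ^ 2) * pG w (coP I K))) :
    pG (wS w' v') K' ≤ q * pG (wS w v) K := by
  refine (pG_GS_le hw' hv' hv0' hK').trans ?_
  refine le_trans ?_ (mul_le_mul' le_rfl (sum_coP_le w v K))
  rw [Finset.mul_sum]
  exact Finset.sum_le_sum fun I _ => h I

/-- the part without fields -/
theorem pG_vacH_le (hw : w 0 = 0) (a : Ge (VS V m)) : pG (wS w v) (vacH a) ≤ pG (wS w v) a := by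
  rw [pG_def, vacH, coe_mpG]
  refine pnorm_mp_le _ (fun p => ?_) _
  have e : (LinearMap.inr ℝ V (Src m) ∘ₗ LinearMap.snd ℝ V (Src m)) p = ((0 : V), p.2) := rfl
  rw [e]
  simp only [wS, hw, zero_add]
  exact le_add_self

theorem sum_single_le (w : V → ℝ≥0∞) (v : Fin m → ℝ≥0∞) (K : Ge (VS V m)) :
    ∑ i, v i ^ 2 * pG w (coP {i} K) ≤ pG (wS w v) K := by
  refine le_trans ?_ (sum_coP_le w v K)
  have h : ∑ i, v i ^ 2 * pG w (coP {i} K) =
      ∑ I ∈ Finset.univ.image (fun i : Fin m => ({i} : Finset (Fin m))),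
        (∏ i ∈ I, v i ^ 2) * pG w (coP I K) := by
    rw [Finset.sum_image (fun i _ j _ h => Finset.singleton_injective h)]
    exact Finset.sum_congr rfl fun i _ => by rw [Finset.prod_singleton]
  rw [h]
  exact Finset.sum_le_sum_of_subset (Finset.subset_univ _)

theorem pG_tau_inG_le (hw : w 0 = 0) (hv : ∀ i, v i ≠ ∞) (hv0 : ∀ i, v i ≠ 0) (i : Fin m)
    (a : Ge V) : pG (wS w v) (tau i * inG m a) ≤ v i ^ 2 * pG w a := by
  have h := pG_basis_le hw hv hv0 {i} a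
  rwa [Finset.prod_singleton, tauP, Finset.prod_singleton] at h

end abs

/-! ### the linear bounds of a step -/

section step

variable {G : Type} [CommRing G] [CN G] [GoodG G] [DecidableEq G] {m : ℕ}

/-- the data of one source: face `z`, direction `j`, `b = u • bb z j`, `mu` the coefficient in a
chart around `z` -/
structure SrcDat (w : BW G) (Rr : ℕ) (z : G × G) (j : Fin 2) (u : ℝ)
    (mu : Ge (Fld G) →ₗ[ℝ] ℝ) (b : Ge (Fld G)) : Prop where
  b_eq : (b : Gr (Fld G)) = u • bb z j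
  u_lo : 1 / 2 ≤ |u|
  ex : ∃ (Z : Set (G × G)) (τ : G × G → ℤ × ℤ) (s : G × G → ℝ) (τ' : ℤ × ℤ → G × G)
    (s' : ℤ × ℤ → ℝ), Chp w (wPl ℤ) Z τ s τ' s' ∧ ball z Rr ⊆ Z ∧
      ∀ F : Ge (Fld G), mu F = u⁻¹ * ((cC τ s (bb z j))⁻¹ * cC τ s (F : Gr (Fld G)))

theorem SrcDat.u_ne {w : BW G} {Rr : ℕ} {z : G × G} {j : Fin 2} {u : ℝ}
    {mu : Ge (Fld G) →ₗ[ℝ] ℝ} {b : Ge (Fld G)} (h : SrcDat w Rr z j u mu b) : u ≠ 0 := by
  intro h0
  have := h.u_lo
  rw [h0, abs_zero] at this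
  linarith

theorem SrcDat.srcAt {w : BW G} {Rr : ℕ} {z : G × G} {j : Fin 2} {u : ℝ}
    {mu : Ge (Fld G) →ₗ[ℝ] ℝ} {b : Ge (Fld G)} (h : SrcDat w Rr z j u mu b) :
    SrcAt w Rr z j mu b := by
  obtain ⟨Z, τ, s, τ', s', c, hz, hmu⟩ := h.ex
  refine ⟨Z, τ, s, τ', s', c, hz, fun F => ?_⟩
  have hu := h.u_ne
  rw [Ge.coe_smul, h.b_eq, hmu, Xb_apply, smul_smul]
  congr 1
  field_simp

variable {w : BW G} {C a a' : ℝ} {r r' : ℕ} {S : Cov (Fld G)} {g : Fld G → ℝ≥0∞}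
  {U T : Finset (G × G)} {z : G × G} {j : Fin 2} {u : ℝ} {mu : Ge (Fld G) →ₗ[ℝ] ℝ}
  {b : Ge (Fld G)} {ε : ℝ≥0∞}

/-- the extraction constant: `|mu (conv S F)| * |b|` against the norm of `F` -/
theorem SrcDat.gain (hd : SrcDat w (s1 * r' + r + MM + 1) z j u mu b) (h : BkReg C)
    (hg : Gram S g) (ha : 0 < a) (ha' : 0 < a') (haa : a' ≤ 2 * a) (hr : 1 ≤ r)
    (hr' : 16 * r ≤ r') (hL : 64 * (340000 * C + 1) ^ 2 * r ≤ r') (hzU : z ∈ U) (hzT : z ∈ T)
    (hU : size r U ≤ 1) (h0 : W0 w g a' r' ε U) (hε : ε ≠ 0) (hε1 : ε ≤ 1) (F : Ge (Fld G)) :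
    ‖mu (cvG S F)‖ₑ * pG (wU w a' r' T) b ≤ pG (wU w a r U) F := by
  by_cases hF : pG (wU w a r U) F = ∞
  · rw [hF]; exact le_top
  obtain ⟨Z, τ, s, τ', s', c, hz, hmu⟩ := hd.ex
  have hbz : ball z (s1 * r' + MM + 1) ⊆ Z := (ball_mono z (by omega)).trans hz
  have h1 := coef_cv_chart h c hg ha ha' haa hr hr' hL hzU hU hz j h0 hε hε1 hF
  have h2 := bb_small_chart h c ha' (by omega : 16 ≤ r') hzT hbz j
  have hC := h.nonneg
  have hr0 : (0 : ℝ) < r := by exact_mod_cast (by omega : 0 < r)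
  have hrp : (0 : ℝ) < r' := by exact_mod_cast (by omega : 0 < r')
  have hcb1 : ‖(cC τ s (bb z j))⁻¹‖ₑ = 1 := by
    rw [Real.enorm_eq_ofReal_abs, abs_inv,
      cC_bb_abs c.ch ((ball_mono z (by omega)).trans hbz) j]
    simp
  have hu := hd.u_ne
  have huu : ‖u⁻¹‖ₑ * ‖u‖ₑ = 1 := by
    rw [← enorm_mul, inv_mul_cancel₀ hu]; simp
  have e1 : ‖mu (cvG S F)‖ₑ = ‖u⁻¹‖ₑ * ‖cC τ s (conv S (F : Gr (Fld G)))‖ₑ := by
    rw [hmu, enorm_mul, enorm_mul, hcb1, one_mul, coe_cvG]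
  have e2 : pG (wU w a' r' T) b = ‖u‖ₑ * pnorm (wU w a' r' T) (bb z j) := by
    rw [pG_def, hd.b_eq, pnorm_smul]
    exact hu
  rw [e1, e2]
  calc ‖u⁻¹‖ₑ * ‖cC τ s (conv S (F : Gr (Fld G)))‖ₑ * (‖u‖ₑ * pnorm (wU w a' r' T) (bb z j))
      = (‖u⁻¹‖ₑ * ‖u‖ₑ) * (‖cC τ s (conv S (F : Gr (Fld G)))‖ₑ *
        pnorm (wU w a' r' T) (bb z j)) := by ring
    _ ≤ 1 * ((ENNReal.ofReal (2 * 516 ^ 2 * r / a ^ 2) * pnorm (wU w a r U) F) *
        ENNReal.ofReal (11 * C ^ 2 * a' ^ 2 / r')) := by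
        rw [huu]
        exact mul_le_mul' le_rfl (mul_le_mul' h1 h2)
    _ = ENNReal.ofReal (2 * 516 ^ 2 * r / a ^ 2 * (11 * C ^ 2 * a' ^ 2 / r')) *
        pG (wU w a r U) F := by
        rw [ENNReal.ofReal_mul (by positivity), pG_def]; ring
    _ ≤ 1 * pG (wU w a r U) F := by
        gcongr
        rw [← ENNReal.ofReal_one]
        exact ENNReal.ofReal_le_ofReal (numbers_gain hC ha ha' haa hr hr' hL)
    _ = _ := one_mul _

/-- the coefficient of the convolution -/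
theorem SrcDat.coef (hd : SrcDat w (s1 * r' + r + MM + 1) z j u mu b) (h : BkReg C)
    (hg : Gram S g) (ha : 0 < a) (ha' : 0 < a') (haa : a' ≤ 2 * a) (hr : 1 ≤ r)
    (hr' : 16 * r ≤ r') (hL : 64 * (340000 * C + 1) ^ 2 * r ≤ r') (hzU : z ∈ U)
    (hU : size r U ≤ 1) (h0 : W0 w g a' r' ε U) (hε : ε ≠ 0) (hε1 : ε ≤ 1) (F : Ge (Fld G)) :
    ‖mu (cvG S F)‖ₑ ≤ ENNReal.ofReal (4 * 516 ^ 2 * r / a ^ 2) * pG (wU w a r U) F := by
  have hr0 : (0 : ℝ) < r := by exact_mod_cast (by omega : 0 < r)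
  by_cases hF : pG (wU w a r U) F = ∞
  · rw [hF, ENNReal.mul_top (by rw [Ne, ENNReal.ofReal_eq_zero, not_le]; positivity)]
    exact le_top
  obtain ⟨Z, τ, s, τ', s', c, hz, hmu⟩ := hd.ex
  have hbz : ball z (s1 * r' + MM + 1) ⊆ Z := (ball_mono z (by omega)).trans hz
  have h1 := coef_cv_chart h c hg ha ha' haa hr hr' hL hzU hU hz j h0 hε hε1 hF
  have hcb1 : ‖(cC τ s (bb z j))⁻¹‖ₑ = 1 := by
    rw [Real.enorm_eq_ofReal_abs, abs_inv,
      cC_bb_abs c.ch ((ball_mono z (by omega)).trans hbz) j]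
    simp
  have hu2 : ‖u⁻¹‖ₑ ≤ ENNReal.ofReal 2 := by
    rw [Real.enorm_eq_ofReal_abs, abs_inv]
    apply ENNReal.ofReal_le_ofReal
    have h3 := hd.u_lo
    rw [inv_le_comm₀ (by linarith) (by norm_num)]
    linarith
  have e1 : ‖mu (cvG S F)‖ₑ = ‖u⁻¹‖ₑ * ‖cC τ s (conv S (F : Gr (Fld G)))‖ₑ := by
    rw [hmu, enorm_mul, enorm_mul, hcb1, one_mul, coe_cvG]
  rw [e1]
  refine (mul_le_mul' hu2 h1).trans (le_of_eq ?_)
  rw [← mul_assoc, ← ENNReal.ofReal_mul (by norm_num), pG_def]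
  congr 2
  ring

/-- hypotheses of a step (scales, background, constants) -/
structure StepHyp (w : BW G) (C a a' : ℝ) (r r' : ℕ) (S : Cov (Fld G)) (g : Fld G → ℝ≥0∞)
    (ε A Γ c0 Λ : ℝ≥0∞) (Rc : ℕ) : Prop where
  bk : BkReg C
  gram : Gram S g
  ha : 0 < a
  ha' : 0 < a'
  haa : a' ≤ 2 * a
  hr : 1 ≤ r
  hr' : 16 * r ≤ r'
  hL : 64 * (340000 * C + 1) ^ 2 * r ≤ r'
  w0 : ∀ U, W0 w g a' r' ε U
  hε : ε ≠ 0
  hε1 : ε ≤ 1
  hRc : 4 * Rc + 3 * r + 2 ≤ r'
  hA1 : 1 ≤ A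
  hc : 1 ≤ c0
  hΛ1 : 1 ≤ Λ
  hΓ1 : 1 ≤ Γ
  hΓt : Γ ≠ ∞
  hΓ : (c0 * Λ * A) ^ 2 ≤ Γ
  /-- the coefficient bound of a large polymer without sources -/
  large : ∀ U : Finset (G × G), Packx915.Conn fd Rc U → 2 ≤ size r U →
    ∃ n ≤ size r U, ∀ k : Ge (Fld G), pG (wU w a' r' U) (cvG S k) ≤
      A ^ n * pG (wU w a r U) k

/-- hypotheses on the sources -/
structure SrcHyp (w : BW G) (r r' : ℕ) (Λ : ℝ≥0∞) (v v' : Fin m → ℝ≥0∞)
    (R : SData G (Fld G) m) (dp : Fin m → Prop) (z : Fin m → G × G) (j : Fin m → Fin 2)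
    (u : Fin m → ℝ) : Prop where
  dp : ∀ i, dp i
  hz : ∀ i, z i ∈ R.sf i
  sep : ∀ i i', i ≠ i' → r < fd (z i) (z i')
  sz : ∀ i, size r (R.sf i) ≤ 1
  dat : ∀ i, SrcDat w (s1 * r' + r + MM + 1) (z i) (j i) (u i) (R.mu i) (R.β i)
  v0 : ∀ i, v i ≠ 0
  v0' : ∀ i, v' i ≠ 0
  vt' : ∀ i, v' i ≠ ∞
  vΛ : ∀ i, v' i ^ 2 ≤ Λ * v i ^ 2

variable {A Γ c0 Λ : ℝ≥0∞} {Rc : ℕ} {v v' : Fin m → ℝ≥0∞} {R : SData G (Fld G) m}
  {dp : Fin m → Prop} {zf : Fin m → G × G} {jf : Fin m → Fin 2} {uf : Fin m → ℝ}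
  {K : Ge (VS (Fld G) m)}

/-- the invariants of the remainder of one polymer -/
structure PolHyp (R : SData G (Fld G) m) (Rc : ℕ) (U : Finset (G × G))
    (K : Ge (VS (Fld G) m)) : Prop where
  mem : K ∈ GS (Fld G) m
  noS : noS K = 0
  sup : ∀ I : Finset (Fin m), coP I K ≠ 0 → ∀ i ∈ I, R.sf i ⊆ U
  conn : K ≠ 0 → Packx915.Conn fd Rc U

/-- the factor of the convolution -/
def qH (c0 Λ A Γ : ℝ≥0∞) : ℝ≥0∞ := max (c0 * Λ) ((c0 * Λ * A) ^ 2 * Γ⁻¹)

/-- the factor of the linear part -/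
def qL (c0 Λ A Γ : ℝ≥0∞) (C : ℝ) (r r' : ℕ) : ℝ≥0∞ :=
  max (c0 * (Λ * ENNReal.ofReal (16 * (340000 * C + 1) ^ 2 * ((r : ℝ) / r') ^ 2)))
    ((c0 * Λ * A) ^ 2 * Γ⁻¹)

theorem size_weight (hc : 1 ≤ c0) (hΓ1 : 1 ≤ Γ) (hrr : r ≤ r') (hs : size r U ≤ 1) :
    (c0 * Γ) ^ size r' U ≤ c0 * Γ ^ size r U := by
  have h1 : size r' U ≤ size r U := by
    rw [Bridgex915.size_eq_pack, Bridgex915.size_eq_pack]
    exact Packx915.pack_anti (by omega)
  rw [mul_pow]
  refine mul_le_mul' ?_ (pow_le_pow_right₀ hΓ1 h1)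
  calc c0 ^ size r' U ≤ c0 ^ 1 := pow_le_pow_right₀ hc (h1.trans hs)
    _ = c0 := pow_one _

/-- **(L2)** the linear part -/
theorem lin_le (H : StepHyp w C a a' r r' S g ε A Γ c0 Λ Rc)
    (HS : SrcHyp w r r' Λ v v' R dp zf jf uf) (hU : U.Nonempty) (HP : PolHyp R Rc U K) :
    (c0 * Γ) ^ size r' U * pG (wS (wU w a' r' U) v') (linR S R.mu R.β (JJ R r dp U) K) ≤
      qL c0 Λ A Γ C r r' * (Γ ^ size r U * pG (wS (wU w a r U) v) K) := by
  by_cases hK0 : K = 0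
  · have e : linR S R.mu R.β (JJ R r dp U) (0 : Ge (VS (Fld G) m)) = 0 := by
      simp [linR]
    rw [hK0, e, pG_zero, mul_zero]
    exact zero_le
  have hconn := HP.conn hK0
  obtain ⟨n, hn, hA⟩ : ∃ n ≤ size r U, 2 ≤ size r U → ∀ k : Ge (Fld G),
      pG (wU w a' r' U) (cvG S k) ≤ A ^ n * pG (wU w a r U) k := by
    by_cases h2 : 2 ≤ size r U
    · obtain ⟨n, hn, hA⟩ := H.large U hconn h2
      exact ⟨n, hn, fun _ => hA⟩
    · exact ⟨0, Nat.zero_le _, fun h => absurd h h2⟩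
  exact src_lin H.bk H.gram H.ha H.ha' H.haa H.hr H.hr' H.hL hU (H.w0 U) H.hε H.hε1 hconn H.hRc
    H.hA1 H.hc H.hΛ1 H.hΓ1 H.hΓt H.hΓ hn hA HS.sep
    (fun hs => Finset.eq_empty_of_forall_notMem fun i hi => hs (mem_JJ.1 hi).1)
    (fun i hi => (mem_JJ.1 hi).2.2 (HS.hz i))
    (fun hs i hi => mem_JJ.2 ⟨hs, HS.dp i, HP.sup {i} hi i (Finset.mem_singleton_self i)⟩)
    (fun i _ => (HS.dat i).srcAt) HS.v0 HS.vt' HS.v0' HS.vΛ HP.mem HP.noS
    (fun I hI i hi => HP.sup I hI i hi (HS.hz i))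

/-- **(L1)** the convolution -/
theorem cv_le (H : StepHyp w C a a' r r' S g ε A Γ c0 Λ Rc)
    (HS : SrcHyp w r r' Λ v v' R dp zf jf uf) (hU : U.Nonempty) (HP : PolHyp R Rc U K) :
    (c0 * Γ) ^ size r' U * pG (wS (wU w a' r' U) v') (cvG (ext0 m S) K) ≤
      qH c0 Λ A Γ * (Γ ^ size r U * pG (wS (wU w a r U) v) K) := by
  by_cases hK0 : K = 0
  · rw [hK0, map_zero, pG_zero, mul_zero]
    exact zero_le
  have hsup : ∀ I : Finset (Fin m), coP I K ≠ 0 → ∀ i ∈ I, zf i ∈ U :=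
    fun I hI i hi => HP.sup I hI i hi (HS.hz i)
  have hcard : ∀ I : Finset (Fin m), coP I K ≠ 0 → I.card ≤ size r U := fun I hI =>
    card_src_le_size (r := r) (U := U) I zf (hsup I hI)
      (fun i _ i' _ hii => HS.sep i i' hii)
  have hempty : coP ∅ K = 0 := by rw [coP_empty, HP.noS]
  have hG := GS_cvG S HP.mem
  have hrr : r ≤ r' := by have := H.hr'; omega
  by_cases hs : size r U ≤ 1
  · have key : pG (wS (wU w a' r' U) v') (cvG (ext0 m S) K) ≤
        Λ * pG (wS (wU w a r U) v) K := by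
      refine pG_coef_le (wU_zero w a' r' hU) HS.vt' HS.v0' hG fun I => ?_
      rw [coP_cvG S HP.mem]
      by_cases hI : coP I K = 0
      · rw [hI, map_zero, pG_zero, mul_zero]; exact zero_le
      · have h1 := (hcard I hI).trans hs
        have hI0 : I ≠ ∅ := by rintro rfl; exact hI hempty
        obtain ⟨i, rfl⟩ := Finset.card_eq_one.1 (show I.card = 1 by
          have := Finset.card_pos.2 (Finset.nonempty_iff_ne_empty.2 hI0)
          omega)
        obtain ⟨Z, τ, s, τ', s', c, hz, _⟩ := (HS.dat i).ex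
        have h2 := conv_small_chart H.bk c H.gram H.ha H.ha' H.haa H.hr H.hr' H.hL
          (hsup _ hI i (Finset.mem_singleton_self i)) hs hz (H.w0 U) H.hε H.hε1
          ((coP {i} K : Ge (Fld G)) : Gr (Fld G))
        rw [Finset.prod_singleton, Finset.prod_singleton, pG_def, coe_cvG]
        calc v' i ^ 2 * _ ≤ (Λ * v i ^ 2) * pG (wU w a r U) (coP {i} K) :=
              mul_le_mul' (HS.vΛ i) h2
          _ = _ := by ring
    calc _ ≤ (c0 * Γ ^ size r U) * (Λ * pG (wS (wU w a r U) v) K) :=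
          mul_le_mul' (size_weight H.hc H.hΓ1 hrr hs) key
      _ = (c0 * Λ) * (Γ ^ size r U * pG (wS (wU w a r U) v) K) := by ring
      _ ≤ _ := mul_le_mul' (le_max_left _ _) le_rfl
  · have hconn := HP.conn hK0
    have h2 : 2 ≤ size r U := by omega
    obtain ⟨n, hn, hA⟩ := H.large U hconn h2
    refine le_trans ?_ (mul_le_mul' (le_max_right _ _) le_rfl)
    refine (mul_le_mul' le_rfl (pG_GS_le (wU_zero w a' r' hU) HS.vt' HS.v0' hG)).trans ?_
    refine le_trans ?_ (mul_le_mul' le_rfl (mul_le_mul' le_rfl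
      (sum_coP_le (wU w a r U) v K)))
    rw [Finset.mul_sum, Finset.mul_sum, Finset.mul_sum]
    refine Finset.sum_le_sum fun I _ => ?_
    rw [coP_cvG S HP.mem]
    by_cases hI : coP I K = 0
    · rw [hI, map_zero, pG_zero, mul_zero, mul_zero]
      exact zero_le
    · have hcd := hcard I hI
      have h4 := hA (coP I K)
      rw [Bridgex915.size_eq_pack] at h2 hn hcd
      have key := gain_room (A := pG (wU w a' r' U) (cvG S (coP I K)))
        (B := pG (wU w a r U) (coP I K)) fd_PD hconn H.hRc h2 H.hc H.hΛ1 H.hA1 H.hΓt H.hΓ hcd hn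
        h4
      rw [Bridgex915.size_eq_pack, Bridgex915.size_eq_pack]
      calc (c0 * Γ) ^ Packx915.pack fd r' U * ((∏ i ∈ I, v' i ^ 2) *
            pG (wU w a' r' U) (cvG S (coP I K)))
          ≤ (c0 * Γ) ^ Packx915.pack fd r' U * ((Λ ^ I.card * ∏ i ∈ I, v i ^ 2) *
            pG (wU w a' r' U) (cvG S (coP I K))) := by
            gcongr
            exact prod_le_pow HS.vΛ I
        _ = (∏ i ∈ I, v i ^ 2) * ((c0 * Γ) ^ Packx915.pack fd r' U * (Λ ^ I.card *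
            pG (wU w a' r' U) (cvG S (coP I K)))) := by ring
        _ ≤ (∏ i ∈ I, v i ^ 2) * (((c0 * Λ * A) ^ 2 * Γ⁻¹) *
            (Γ ^ Packx915.pack fd r U * pG (wU w a r U) (coP I K))) :=
            mul_le_mul' le_rfl key
        _ = _ := by ring

/-- the total norm -/
def tot (Γ : ℝ≥0∞) (r : ℕ) (nm : Finset (G × G) → ℝ≥0∞) : ℝ≥0∞ :=
  ∑' U, Set.indicator {U : Finset (G × G) | U.Nonempty} (fun U => Γ ^ size r U * nm U) U

theorem one_le_size (hU : U.Nonempty) : 1 ≤ size r U := by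
  obtain ⟨x, hx⟩ := hU
  have h := card_src_le_size (r := r) (U := U) ({x} : Finset (G × G)) (fun y => y)
    (fun y hy => by rw [Finset.mem_singleton] at hy; rwa [hy])
    (fun i hi j hj hij => by
      rw [Finset.mem_singleton] at hi hj
      exact absurd (hi.trans hj.symm) hij)
  simpa using h

theorem sum_le_tot (hΓ1 : 1 ≤ Γ) (s : Finset (Finset (G × G))) (hs : ∀ U ∈ s, U.Nonempty)
    (f nm : Finset (G × G) → ℝ≥0∞) (hf : ∀ U ∈ s, f U ≤ nm U) :
    Γ * ∑ U ∈ s, f U ≤ tot Γ r nm := by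
  rw [Finset.mul_sum]
  refine le_trans ?_ (ENNReal.sum_le_tsum s)
  refine Finset.sum_le_sum fun U hU => ?_
  rw [Set.indicator_of_mem (show U ∈ {U : Finset (G × G) | U.Nonempty} from hs U hU)]
  refine mul_le_mul' ?_ (hf U hU)
  calc Γ = Γ ^ 1 := (pow_one Γ).symm
    _ ≤ Γ ^ size r U := pow_le_pow_right₀ hΓ1 (one_le_size (hs U hU))

variable {B : Sys (G × G) (Fld G)} {rs : ℕ → ℕ} {dpn : ℕ → Fin m → Prop}
  {fs : Finset (G × G) → Submodule ℝ (VS (Fld G) m)} {K0 : Finset (G × G) → Ge (VS (Fld G) m)}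

/-- the polymers from which the coefficient of `i` is extracted -/
def innS (R : SData G (Fld G) m) (r : ℕ) (dp : Fin m → Prop) (i : Fin m) :
    Finset (Finset (G × G)) :=
  (srcE r R.sf R.ne dp R.mu R.β).inn (R.sf i)

theorem mem_innS {i : Fin m} (hdp : ∀ i, dp i) :
    U ∈ innS R r dp i ↔ size r U ≤ 1 ∧ R.sf i ⊆ U := by
  rw [innS, mem_srcE_inn]
  constructor
  · rintro ⟨h1, k, _, h2, h3⟩
    exact ⟨h1, h3 ▸ h2⟩
  · rintro ⟨h1, h2⟩
    exact ⟨h1, i, hdp i, h2, rfl⟩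

variable {P : Finset (G × G) → Ge (VS (Fld G) m)}

/-- the increment of the running coefficient -/
def incZ (R : SData G (Fld G) m) (r : ℕ) (dp : Fin m → Prop) (S : Cov (Fld G))
    (P : Finset (G × G) → Ge (VS (Fld G) m)) (i : Fin m) : ℝ :=
  ∑ U ∈ innS R r dp i, R.mu i (cvG S (coP {i} (P U)))

theorem zeta_succ' (h : SOK B K0) (z0 : Fin m → ℝ) (n : ℕ) (i : Fin m) (hdp : dpn n i)
    (hsz : size (rs n) (R.sf i) ≤ 1) :
    zeta B R rs dpn fs K0 z0 (n + 1) i = zeta B R rs dpn fs K0 z0 n i +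
      incZ R (rs n) (dpn n) (B.S n) (PP B R rs dpn fs K0 z0 n) i :=
  zeta_succ h z0 n i hdp hsz

/-- **(L4)** the increment of `zeta` -/
theorem inc_le (H : StepHyp w C a a' r r' S g ε A Γ c0 Λ Rc)
    (HS : SrcHyp w r r' Λ v v' R dp zf jf uf) (i : Fin m) :
    Γ * (v i ^ 2 * ‖incZ R r dp S P i‖ₑ) ≤ ENNReal.ofReal (4 * 516 ^ 2 * r / a ^ 2) *
      tot Γ r (fun U => pG (wS (wU w a r U) v) (P U)) := by
  have h1 : ‖incZ R r dp S P i‖ₑ ≤ ∑ U ∈ innS R r dp i,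
      ENNReal.ofReal (4 * 516 ^ 2 * r / a ^ 2) * pG (wU w a r U) (coP {i} (P U)) := by
    refine (enorm_sum_le _ _).trans (Finset.sum_le_sum fun U hU => ?_)
    rw [mem_innS HS.dp] at hU
    exact (HS.dat i).coef H.bk H.gram H.ha H.ha' H.haa H.hr H.hr' H.hL (hU.2 (HS.hz i)) hU.1
      (H.w0 U) H.hε H.hε1 _
  calc Γ * (v i ^ 2 * ‖incZ R r dp S P i‖ₑ)
      ≤ Γ * (v i ^ 2 * ∑ U ∈ innS R r dp i,
        ENNReal.ofReal (4 * 516 ^ 2 * r / a ^ 2) * pG (wU w a r U) (coP {i} (P U))) := by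
        gcongr
    _ = ENNReal.ofReal (4 * 516 ^ 2 * r / a ^ 2) * (Γ * ∑ U ∈ innS R r dp i,
        v i ^ 2 * pG (wU w a r U) (coP {i} (P U))) := by
        rw [← Finset.mul_sum, ← Finset.mul_sum]; ring
    _ ≤ _ := by
        refine mul_le_mul' le_rfl (sum_le_tot H.hΓ1 _ (fun U hU => ?_) _ _ fun U _ => ?_)
        · rw [mem_innS HS.dp] at hU
          exact ⟨_, hU.2 (HS.hz i)⟩
        · have h2 := coP_le (wU w a r U) v {i} (P U)
          rwa [Finset.prod_singleton] at h2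

/-- the norm of a leading term -/
theorem lead_le {δ : Fin m → ℝ} (hv : ∀ i, v i ≠ ∞) (hv0 : ∀ i, v i ≠ 0) (hT : T.Nonempty)
    (w : BW G) (a : ℝ) (r : ℕ) : pG (wS (wU w a r T) v) (LEAD R δ T) ≤
      ∑ i, if R.sf i = T then v i ^ 2 * (‖δ i‖ₑ * pG (wU w a r (R.sf i)) (R.β i)) else 0 := by
  rw [LEAD, ← Finset.sum_filter]
  refine (pG_sum_le _ _ _).trans ?_
  have e : ∀ i ∈ Finset.univ.filter (fun i => R.sf i = T), pG (wS (wU w a r T) v)
      (tau i * inG m (δ i • R.β i)) ≤ v i ^ 2 * (‖δ i‖ₑ * pG (wU w a r (R.sf i)) (R.β i)) := by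
    intro i hi
    rw [Finset.mem_filter] at hi
    refine (pG_tau_inG_le (wU_zero w a r hT) hv hv0 i _).trans ?_
    refine mul_le_mul' le_rfl ?_
    rw [hi.2]
    by_cases h0 : δ i = 0
    · rw [h0, zero_smul, pG_zero]; exact zero_le
    · rw [pG_def, pG_def, Ge.coe_smul, pnorm_smul]
      exact h0
  refine (Finset.sum_le_sum e).trans (le_of_eq ?_)
  refine Finset.sum_congr ?_ fun _ _ => rfl
  ext i
  simp only [Finset.mem_filter]

/-- **(L3)** the gain -/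
theorem gain_le (H : StepHyp w C a a' r r' S g ε A Γ c0 Λ Rc)
    (HS : SrcHyp w r r' Λ v v' R dp zf jf uf) :
    tot (c0 * Γ) r' (fun T => pG (wS (wU w a' r' T) v') (LEAD R (incZ R r dp S P) T)) ≤
      c0 * Λ * tot Γ r (fun U => pG (wS (wU w a r U) v) (P U)) := by
  classical
  have hrr : r ≤ r' := by have := H.hr'; omega
  -- bound of one source
  have h1 : ∀ i, (c0 * Γ) ^ size r' (R.sf i) * (v' i ^ 2 * (‖incZ R r dp S P i‖ₑ *
      pG (wU w a' r' (R.sf i)) (R.β i))) ≤ c0 * Λ * (Γ * ∑ U ∈ innS R r dp i,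
        v i ^ 2 * pG (wU w a r U) (coP {i} (P U))) := by
    intro i
    have hs1 : size r' (R.sf i) ≤ 1 := by
      refine le_trans ?_ (HS.sz i)
      rw [Bridgex915.size_eq_pack, Bridgex915.size_eq_pack]
      exact Packx915.pack_anti (by omega)
    have h2 : ‖incZ R r dp S P i‖ₑ * pG (wU w a' r' (R.sf i)) (R.β i) ≤
        ∑ U ∈ innS R r dp i, pG (wU w a r U) (coP {i} (P U)) := by
      refine (mul_le_mul' (enorm_sum_le _ _) le_rfl).trans ?_
      rw [Finset.sum_mul]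
      refine Finset.sum_le_sum fun U hU => ?_
      rw [mem_innS HS.dp] at hU
      exact (HS.dat i).gain H.bk H.gram H.ha H.ha' H.haa H.hr H.hr' H.hL (hU.2 (HS.hz i))
        (HS.hz i) hU.1 (H.w0 U) H.hε H.hε1 _
    have hcΓ : 1 ≤ c0 * Γ := one_le_mul_of_one_le_of_one_le H.hc H.hΓ1
    calc _ ≤ (c0 * Γ) ^ 1 * ((Λ * v i ^ 2) * ∑ U ∈ innS R r dp i,
          pG (wU w a r U) (coP {i} (P U))) :=
          mul_le_mul' (pow_le_pow_right₀ hcΓ hs1) (mul_le_mul' (HS.vΛ i) h2)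
      _ = _ := by rw [← Finset.mul_sum, pow_one]; ring
  calc tot (c0 * Γ) r' (fun T => pG (wS (wU w a' r' T) v') (LEAD R (incZ R r dp S P) T))
      ≤ ∑' T : Finset (G × G), ∑ i, if R.sf i = T then (c0 * Γ) ^ size r' (R.sf i) *
        (v' i ^ 2 * (‖incZ R r dp S P i‖ₑ * pG (wU w a' r' (R.sf i)) (R.β i))) else 0 := by
        refine ENNReal.tsum_le_tsum fun T => ?_
        by_cases hT : T.Nonempty
        · rw [Set.indicator_of_mem (show T ∈ {U : Finset (G × G) | U.Nonempty} from hT)]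
          refine (mul_le_mul' le_rfl (lead_le HS.vt' HS.v0' hT w a' r')).trans (le_of_eq ?_)
          rw [Finset.mul_sum]
          refine Finset.sum_congr rfl fun i _ => ?_
          split_ifs with h
          · rw [h]
          · rw [mul_zero]
        · rw [Set.indicator_of_notMem (show T ∉ {U : Finset (G × G) | U.Nonempty} from hT)]
          exact zero_le
    _ = ∑ i, ((c0 * Γ) ^ size r' (R.sf i) *
        (v' i ^ 2 * (‖incZ R r dp S P i‖ₑ * pG (wU w a' r' (R.sf i)) (R.β i)))) := by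
        rw [Summable.tsum_finsetSum (fun _ _ => ENNReal.summable)]
        refine Finset.sum_congr rfl fun i _ => ?_
        rw [tsum_eq_single (R.sf i)]
        · rw [if_pos rfl]
        · intro T hT
          rw [if_neg fun h => hT h.symm]
    _ ≤ ∑ i, c0 * Λ * (Γ * ∑ U ∈ innS R r dp i,
        v i ^ 2 * pG (wU w a r U) (coP {i} (P U))) := Finset.sum_le_sum fun i _ => h1 i
    _ = c0 * Λ * (Γ * ∑ i, ∑ U ∈ innS R r dp i,
        v i ^ 2 * pG (wU w a r U) (coP {i} (P U))) := by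
        rw [← Finset.mul_sum, ← Finset.mul_sum]
    _ ≤ _ := by
        refine mul_le_mul' le_rfl ?_
        set s := Finset.univ.biUnion (fun i => innS R r dp i) with hs
        have h3 : ∀ i, ∑ U ∈ innS R r dp i, v i ^ 2 * pG (wU w a r U) (coP {i} (P U)) ≤
            ∑ U ∈ s, v i ^ 2 * pG (wU w a r U) (coP {i} (P U)) := fun i =>
          Finset.sum_le_sum_of_subset (Finset.subset_biUnion_of_mem (fun i => innS R r dp i)
            (Finset.mem_univ i))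
        calc Γ * ∑ i, ∑ U ∈ innS R r dp i, v i ^ 2 * pG (wU w a r U) (coP {i} (P U))
            ≤ Γ * ∑ i, ∑ U ∈ s, v i ^ 2 * pG (wU w a r U) (coP {i} (P U)) :=
              mul_le_mul' le_rfl (Finset.sum_le_sum fun i _ => h3 i)
          _ = Γ * ∑ U ∈ s, ∑ i, v i ^ 2 * pG (wU w a r U) (coP {i} (P U)) := by
              rw [Finset.sum_comm]
          _ ≤ _ := by
              refine sum_le_tot H.hΓ1 s (fun U hU => ?_) _ _ fun U _ => sum_single_le _ _ _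
              rw [hs, Finset.mem_biUnion] at hU
              obtain ⟨i, _, hi⟩ := hU
              rw [mem_innS HS.dp] at hi
              exact ⟨_, hi.2 (HS.hz i)⟩

/-- per-polymer bounds give bounds of the total norms -/
theorem tot_le {q Γ' : ℝ≥0∞} {x y : Finset (G × G) → ℝ≥0∞}
    (h : ∀ U : Finset (G × G), U.Nonempty → Γ' ^ size r' U * x U ≤ q * (Γ ^ size r U * y U)) :
    tot Γ' r' x ≤ q * tot Γ r y := by
  rw [tot, tot, ← ENNReal.tsum_mul_left]
  refine ENNReal.tsum_le_tsum fun U => ?_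
  by_cases hU : U.Nonempty
  · rw [Set.indicator_of_mem (show U ∈ {U : Finset (G × G) | U.Nonempty} from hU),
      Set.indicator_of_mem (show U ∈ {U : Finset (G × G) | U.Nonempty} from hU)]
    exact h U hU
  · rw [Set.indicator_of_notMem (show U ∉ {U : Finset (G × G) | U.Nonempty} from hU)]
    exact zero_le

/-! ### the linear step of the remainder, in total norm -/

section flow

variable {z0 : Fin m → ℝ}

theorem polHyp_PP (h : SOK B K0)
    (h0 : ∀ U (I : Finset (Fin m)), coP I (K0 U) ≠ 0 → ∀ i ∈ I, R.sf i ⊆ U) (n : ℕ)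
    (U : Finset (G × G))
    (hconn : PP B R rs dpn fs K0 z0 n U ≠ 0 → Packx915.Conn fd Rc U) :
    PolHyp R Rc U (PP B R rs dpn fs K0 z0 n U) where
  mem := GS_PP h z0 n U
  noS := by rw [← coP_empty, coP_PP_zero h]
  sup I hI i hi := sup_PP h h0 z0 hI hi
  conn := hconn

theorem LEAD_add (R : SData G (Fld G) m) (x y : Fin m → ℝ) (U : Finset (G × G)) :
    LEAD R (fun i => x i + y i) U = LEAD R x U + LEAD R y U := by
  rw [LEAD, LEAD, LEAD, ← Finset.sum_add_distrib]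
  refine Finset.sum_congr rfl fun i _ => ?_
  rw [add_smul, map_add, mul_add]

/-- **exact decomposition of the activities and exponents of a step**: bulk, leading part, rest -/
theorem split_HA (h : SOK B K0) (n : ℕ) (U : Finset (G × G)) (hdp : ∀ i, dpn n i)
    (hsz : ∀ i, size (rs n) (R.sf i) ≤ 1) :
    (sysP B R rs dpn fs K0).H n U = inG m (B.H n U) +
        cvG (ext0 m (B.S n)) (LEAD R (zeta B R rs dpn fs K0 z0 n) U) +
        cvG (ext0 m (B.S n)) (PP B R rs dpn fs K0 z0 n U) ∧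
    (sysP B R rs dpn fs K0).A n U = inG m (B.A n U) +
        (LEAD R (zeta B R rs dpn fs K0 z0 n) U -
          cvG (ext0 m (B.S n)) (LEAD R (zeta B R rs dpn fs K0 z0 n) U)) +
        (LEAD R (incZ R (rs n) (dpn n) (B.S n) (PP B R rs dpn fs K0 z0 n)) U +
          linP B R rs dpn fs K0 z0 n U -
          cvG (ext0 m (B.S n)) (PP B R rs dpn fs K0 z0 n U)) := by
  have h1 : (sysP B R rs dpn fs K0).H n U = inG m (B.H n U) +
        cvG (ext0 m (B.S n)) (LEAD R (zeta B R rs dpn fs K0 z0 n) U) +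
        cvG (ext0 m (B.S n)) (PP B R rs dpn fs K0 z0 n U) := by
    have e : (sysP B R rs dpn fs K0).H n U =
        cvG (ext0 m (B.S n)) ((sysP B R rs dpn fs K0).K n U) := rfl
    rw [e, K_eq_PP z0 n U, map_add, map_add, cvG_inG]
    rfl
  refine ⟨h1, ?_⟩
  have h2 := lin_split (fs := fs) h z0 n U hdp hsz
  have h3 : zeta B R rs dpn fs K0 z0 (n + 1) = fun i => zeta B R rs dpn fs K0 z0 n i +
      incZ R (rs n) (dpn n) (B.S n) (PP B R rs dpn fs K0 z0 n) i :=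
    funext fun i => zeta_succ' h z0 n i (hdp i) (hsz i)
  rw [h3, LEAD_add, map_add, h1] at h2
  rw [← sub_eq_zero] at h2 ⊢
  rw [← h2]
  abel

variable (H : StepHyp w C a a' r r' S g ε A Γ c0 Λ Rc)
include H

/-- **(L1)** total norm of the convolved remainder -/
theorem tot_cv_le (HS : SrcHyp w r r' Λ v v' R dp zf jf uf) (HP : ∀ U, PolHyp R Rc U (P U)) :
    tot (c0 * Γ) r' (fun U => pG (wS (wU w a' r' U) v') (cvG (ext0 m S) (P U))) ≤
      qH c0 Λ A Γ * tot Γ r (fun U => pG (wS (wU w a r U) v) (P U)) :=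
  tot_le fun U hU => cv_le H HS hU (HP U)

/-- **(L2)** total norm of the linear part -/
theorem tot_lin_le (HS : SrcHyp w r r' Λ v v' R dp zf jf uf) (HP : ∀ U, PolHyp R Rc U (P U)) :
    tot (c0 * Γ) r' (fun U => pG (wS (wU w a' r' U) v') (linR S R.mu R.β (JJ R r dp U) (P U))) ≤
      qL c0 Λ A Γ C r r' * tot Γ r (fun U => pG (wS (wU w a r U) v) (P U)) :=
  tot_le fun U hU => lin_le H HS hU (HP U)

theorem tot_add_le (Γ : ℝ≥0∞) (r : ℕ) (x y : Finset (G × G) → ℝ≥0∞) :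
    tot Γ r (fun U => x U + y U) = tot Γ r x + tot Γ r y := by
  rw [tot, tot, tot, ← ENNReal.tsum_add]
  refine tsum_congr fun U => ?_
  by_cases hU : U.Nonempty
  · rw [Set.indicator_of_mem (show U ∈ {U : Finset (G × G) | U.Nonempty} from hU),
      Set.indicator_of_mem (show U ∈ {U : Finset (G × G) | U.Nonempty} from hU),
      Set.indicator_of_mem (show U ∈ {U : Finset (G × G) | U.Nonempty} from hU), mul_add]
  · rw [Set.indicator_of_notMem (show U ∉ {U : Finset (G × G) | U.Nonempty} from hU),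
      Set.indicator_of_notMem (show U ∉ {U : Finset (G × G) | U.Nonempty} from hU),
      Set.indicator_of_notMem (show U ∉ {U : Finset (G × G) | U.Nonempty} from hU), add_zero]

omit H in
theorem tot_mono (Γ : ℝ≥0∞) (r : ℕ) {x y : Finset (G × G) → ℝ≥0∞} (h : ∀ U, x U ≤ y U) :
    tot Γ r x ≤ tot Γ r y := by
  refine ENNReal.tsum_le_tsum fun U => ?_
  by_cases hU : U.Nonempty
  · rw [Set.indicator_of_mem (show U ∈ {U : Finset (G × G) | U.Nonempty} from hU),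
      Set.indicator_of_mem (show U ∈ {U : Finset (G × G) | U.Nonempty} from hU)]
    exact mul_le_mul' le_rfl (h U)
  · rw [Set.indicator_of_notMem (show U ∉ {U : Finset (G × G) | U.Nonempty} from hU)]
    exact zero_le

/-- **total norm of the rest of the exponent** -/
theorem tot_A3_le (HS : SrcHyp w r r' Λ v v' R dp zf jf uf) (HP : ∀ U, PolHyp R Rc U (P U)) :
    tot (c0 * Γ) r' (fun U => pG (wS (wU w a' r' U) v')
        (LEAD R (incZ R r dp S P) U + linR S R.mu R.β (JJ R r dp U) (P U) -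
          cvG (ext0 m S) (P U))) ≤
      (c0 * Λ + qL c0 Λ A Γ C r r' + qH c0 Λ A Γ) *
        tot Γ r (fun U => pG (wS (wU w a r U) v) (P U)) := by
  have h1 := tot_mono (c0 * Γ) r' (x := fun U => pG (wS (wU w a' r' U) v')
        (LEAD R (incZ R r dp S P) U + linR S R.mu R.β (JJ R r dp U) (P U) -
          cvG (ext0 m S) (P U)))
      (y := fun U => (pG (wS (wU w a' r' U) v') (LEAD R (incZ R r dp S P) U) +
        pG (wS (wU w a' r' U) v') (linR S R.mu R.β (JJ R r dp U) (P U))) +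
        pG (wS (wU w a' r' U) v') (cvG (ext0 m S) (P U)))
      (fun U => (pG_sub_le _ _ _).trans (add_le_add (pG_add_le _ _ _) le_rfl))
  refine h1.trans ?_
  rw [tot_add_le H, tot_add_le H, add_mul, add_mul]
  exact add_le_add (add_le_add (gain_le H HS) (tot_lin_le H HS HP)) (tot_cv_le H HS HP)

end flow

end step

end Crest.Agent.R165.SrcInvx336
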