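import Crest.Agent.R165.SrcI_336
import Crest.Agent.R165.SrcAlg_991

/-!
# Row 165 (S0250), leaf P11: linear part of the source step in the norm `pG (wS w v)` (helper336)

* `linR S mu b J K` : convolution minus the part without fields minus the terms extracted along the
  bond forms `b i`, `i ∈ J`, from the coefficients of one `tau i`
* `coP_linR`, `linR_mem`, `pG_linR_le` : coefficientwise bounds give the bound in `pG (wS w v)`
* `src_lin_small` : small polymers at a source, factor `Λ * 16 (340000 C + 1)² (r/r')²`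
* `src_lin_large` : large polymers with sources, factor `(c0 Λ (1 + 2 (1+ε) p))² / Γ` with room `c0`
-/

set_option autoImplicit false
set_option linter.unusedSectionVars false

noncomputable section

open scoped ENNReal
open Crest.Agent.R165.Gr0x606 Crest.Agent.R165.Gr1x606 Crest.Agent.R165.GeOpsx337
  Crest.Agent.R165.ExpGx337 Crest.Agent.R165.PNormx417 Crest.Agent.R165.SrcDefx991
  Crest.Agent.R165.Latx683 Crest.Agent.R165.GDefx387 Crest.Agent.R165.GLinx336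
  Crest.Agent.R165.Srcx336 Crest.Agent.R165.WChx336 Crest.Agent.R165.W2x812
  Crest.Agent.R165.Bridgex915

namespace Crest.Agent.R165.SrcLinx336

section abstract

variable {V : Type*} [AddCommGroup V] [Module ℝ V] {m : ℕ}

/-- **the linear remainder of a source term** -/
def linR (S : Cov V) (mu : Fin m → Ge V →ₗ[ℝ] ℝ) (b : Fin m → Ge V) (J : Finset (Fin m))
    (K : Ge (VS V m)) : Ge (VS V m) :=
  cvG (ext0 m S) K - vacH (cvG (ext0 m S) K) -
    ∑ i ∈ J, tau i * inG m (mu i (coP {i} (cvG (ext0 m S) K)) • b i)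

variable {S : Cov V} {mu : Fin m → Ge V →ₗ[ℝ] ℝ} {b : Fin m → Ge V} {J : Finset (Fin m)}
  {K : Ge (VS V m)}

theorem linR_mem (hK : K ∈ GS V m) : linR S mu b J K ∈ GS V m :=
  Subalgebra.sub_mem _ (Subalgebra.sub_mem _ (GS_cvG S hK) (GS_vacH (GS_cvG S hK)))
    (Subalgebra.sum_mem _ fun i _ => Subalgebra.mul_mem _ (tau_mem i) (inG_mem _))

theorem coP_linR (hK : K ∈ GS V m) (I : Finset (Fin m)) :
    coP I (linR S mu b J K) = nl (cvG S (coP I K)) -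
      ∑ i ∈ J, if I = {i} then mu i (cvG S (coP {i} K)) • b i else 0 := by
  have h1 := GS_cvG S hK
  rw [linR, map_sub, map_sub, coP_vacH h1, coP_cvG S hK, map_sum, nl]
  congr 1
  refine Finset.sum_congr rfl fun i _ => ?_
  rw [coP_tau_inG, coP_cvG S hK]

theorem coP_linR_single (hK : K ∈ GS V m) {i : Fin m} (hi : i ∈ J) :
    coP {i} (linR S mu b J K) =
      nl (cvG S (coP {i} K)) - mu i (cvG S (coP {i} K)) • b i := by
  rw [coP_linR hK, Finset.sum_eq_single i]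
  · rw [if_pos rfl]
  · intro j _ hj
    rw [if_neg fun h => hj (Finset.singleton_injective h).symm]
  · intro h; exact absurd hi h

theorem coP_linR_other (hK : K ∈ GS V m) {I : Finset (Fin m)} (hI : ∀ i ∈ J, I ≠ {i}) :
    coP I (linR S mu b J K) = nl (cvG S (coP I K)) := by
  rw [coP_linR hK, Finset.sum_eq_zero, sub_zero]
  intro i hi
  rw [if_neg (hI i hi)]

/-- **coefficientwise bounds give the bound of the linear remainder** -/
theorem pG_linR_le {w w' : V → ℝ≥0∞} {v v' : Fin m → ℝ≥0∞} {q : ℝ≥0∞} (hw' : w' 0 = 0)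
    (hv' : ∀ i, v' i ≠ ∞) (hv0' : ∀ i, v' i ≠ 0) (hK : K ∈ GS V m) (hK0 : noS K = 0)
    (h1 : ∀ i ∈ J, v' i ^ 2 * pG w' (nl (cvG S (coP {i} K)) - mu i (cvG S (coP {i} K)) • b i) ≤
      q * (v i ^ 2 * pG w (coP {i} K)))
    (h2 : ∀ I : Finset (Fin m), I ≠ ∅ → (∀ i ∈ J, I ≠ {i}) →
      (∏ i ∈ I, v' i ^ 2) * pG w' (nl (cvG S (coP I K))) ≤
        q * ((∏ i ∈ I, v i ^ 2) * pG w (coP I K))) :
    pG (wS w' v') (linR S mu b J K) ≤ q * pG (wS w v) K := by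
  refine (pG_GS_le hw' hv' hv0' (linR_mem hK)).trans ?_
  refine le_trans ?_ (mul_le_mul' le_rfl (sum_coP_le w v K))
  rw [Finset.mul_sum]
  refine Finset.sum_le_sum fun I _ => ?_
  by_cases hI0 : I = ∅
  · subst hI0
    rw [coP_linR_other hK (fun i _ => (Finset.singleton_ne_empty i).symm), coP_empty, hK0, map_zero]
    simp [nl]
  · by_cases hI : ∃ i ∈ J, I = {i}
    · obtain ⟨i, hi, rfl⟩ := hI
      rw [coP_linR_single hK hi, Finset.prod_singleton, Finset.prod_singleton]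
      exact h1 i hi
    · push Not at hI
      rw [coP_linR_other hK hI]
      exact h2 I hI0 hI

theorem prod_le_pow {v v' : Fin m → ℝ≥0∞} {Λ : ℝ≥0∞} (h : ∀ i, v' i ^ 2 ≤ Λ * v i ^ 2)
    (I : Finset (Fin m)) : ∏ i ∈ I, v' i ^ 2 ≤ Λ ^ I.card * ∏ i ∈ I, v i ^ 2 := by
  calc ∏ i ∈ I, v' i ^ 2 ≤ ∏ i ∈ I, Λ * v i ^ 2 := Finset.prod_le_prod' fun i _ => h i
    _ = _ := by rw [Finset.prod_mul_distrib, Finset.prod_const]

theorem coe_nl (a : Ge V) : ((nl a : Ge V) : Gr V) = noct (a : Gr V) := by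
  rw [nl, Ge.coe_sub, ge_coe_algebraMap, noct, ctG_apply]

theorem nl_cvG_zero (S : Cov V) : nl (cvG S (0 : Ge V)) = 0 := by
  rw [map_zero]; simp [nl]

end abstract

/-! ### the concrete weights -/

section concrete

variable {G : Type} [CommRing G] [CN G] [GoodG G] {w : BW G} {m : ℕ} {a a' C : ℝ} {r r' : ℕ}
  {U : Finset (G × G)} {S : Cov (Fld G)} {g : Fld G → ℝ≥0∞}
  {mu : Fin m → Ge (Fld G) →ₗ[ℝ] ℝ} {b : Fin m → Ge (Fld G)} {J : Finset (Fin m)}
  {K : Ge (VS (Fld G) m)} {v v' : Fin m → ℝ≥0∞} {Λ : ℝ≥0∞}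

theorem wU_zero (w : BW G) (a : ℝ) (r : ℕ) {U : Finset (G × G)} (hU : U.Nonempty) :
    GDefx387.wU w a r U 0 = 0 := by
  obtain ⟨x, hx⟩ := hU
  refine le_antisymm ?_ zero_le
  refine (WtIsox898.wU_le hx (Wtx898.suppL_zero _)).trans (le_of_eq ?_)
  exact GBulkx417.wt_zero w a r x

/-- the data of a source at the face `z`, bond `(z, j)`: the chart, and the extraction `mu • b` -/
structure SrcAt (w : BW G) (R : ℕ) (z : G × G) (j : Fin 2) (mu : Ge (Fld G) →ₗ[ℝ] ℝ)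
    (b : Ge (Fld G)) : Prop where
  ex : ∃ (Z : Set (G × G)) (τ : G × G → ℤ × ℤ) (s : G × G → ℝ) (τ' : ℤ × ℤ → G × G)
    (s' : ℤ × ℤ → ℝ), Chp w (wPl ℤ) Z τ s τ' s' ∧ ball z R ⊆ Z ∧
      ∀ F : Ge (Fld G), ((mu F • b : Ge (Fld G)) : Gr (Fld G)) =
        Xb (cC τ s) (bb z j) (F : Gr (Fld G))

/-- **small polymers** at the sources -/
theorem src_lin_small (h : BkReg C) (hg : Gram S g) (ha : 0 < a) (ha' : 0 < a')
    (haa : a' ≤ 2 * a) (hr : 1 ≤ r) (hr' : 16 * r ≤ r')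
    (hL : 64 * (340000 * C + 1) ^ 2 * r ≤ r') (hU : U.Nonempty) (hs : size r U ≤ 1)
    {z : Fin m → G × G} {j : Fin m → Fin 2} (hsep : ∀ i i', i ≠ i' → r < fd (z i) (z i'))
    (hJz : ∀ i ∈ J, z i ∈ U) (hJ : ∀ i, coP {i} K ≠ 0 → i ∈ J)
    (hsrc : ∀ i ∈ J, SrcAt w (s1 * r' + r + MM + 1) (z i) (j i) (mu i) (b i)) {ε : ℝ≥0∞}
    (h0 : W0 w g a' r' ε U) (hε : ε ≠ 0) (hε1 : ε ≤ 1) (hv : ∀ i, v i ≠ 0)
    (hv' : ∀ i, v' i ≠ ∞) (hv0' : ∀ i, v' i ≠ 0) (hΛ : ∀ i, v' i ^ 2 ≤ Λ * v i ^ 2)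
    (hK : K ∈ GS (Fld G) m) (hK0 : noS K = 0)
    (hsup : ∀ I : Finset (Fin m), coP I K ≠ 0 → ∀ i ∈ I, z i ∈ U) :
    pG (wS (GDefx387.wU w a' r' U) v') (linR S mu b J K) ≤
      (Λ * ENNReal.ofReal (16 * (340000 * C + 1) ^ 2 * ((r : ℝ) / r') ^ 2)) *
        pG (wS (GDefx387.wU w a r U) v) K := by
  have hC := h.nonneg
  have hf0 : ENNReal.ofReal (16 * (340000 * C + 1) ^ 2 * ((r : ℝ) / r') ^ 2) ≠ 0 := by
    rw [Ne, ENNReal.ofReal_eq_zero, not_le]
    have h1 : (0 : ℝ) < r := by exact_mod_cast hr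
    have h2 : (0 : ℝ) < r' := by exact_mod_cast (by omega : 0 < r')
    positivity
  set f := ENNReal.ofReal (16 * (340000 * C + 1) ^ 2 * ((r : ℝ) / r') ^ 2) with hf
  refine pG_linR_le (wU_zero w a' r' hU) hv' hv0' hK hK0 (fun i hi => ?_) fun I hI0 hI => ?_
  · have hzU : z i ∈ U := hJz i hi
    obtain ⟨Z, τ, s, τ', s', c, hz, hmu⟩ := (hsrc i hi).ex
    have hΛ0 : Λ ≠ 0 := by
      intro hh
      have := hΛ i
      rw [hh, zero_mul] at this
      exact pow_ne_zero 2 (hv0' i) (le_antisymm this zero_le)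
    by_cases hF : pG (GDefx387.wU w a r U) (coP {i} K) = ∞
    · rw [hF, ENNReal.mul_top (pow_ne_zero 2 (hv i)), ENNReal.mul_top (mul_ne_zero hΛ0 hf0)]
      exact le_top
    · have key := src_small_chart h c hg ha ha' haa hr hr' hL hzU hs hz (j i) h0 hε hε1
        (coP {i} K).2 hF
      have e1 : ((nl (cvG S (coP {i} K)) - mu i (cvG S (coP {i} K)) • b i : Ge (Fld G)) :
          Gr (Fld G)) = noct (conv S ((coP {i} K : Ge (Fld G)) : Gr (Fld G))) -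
            Xb (cC τ s) (bb (z i) (j i)) (conv S ((coP {i} K : Ge (Fld G)) : Gr (Fld G))) := by
        rw [Ge.coe_sub, coe_nl, hmu, coe_cvG]
      rw [pG_def, e1]
      calc v' i ^ 2 * _ ≤ (Λ * v i ^ 2) * (f * pG (GDefx387.wU w a r U) (coP {i} K)) :=
            mul_le_mul' (hΛ i) key
        _ = _ := by ring
  · -- no other coefficients
    have h0' : coP I K = 0 := by
      by_contra hne
      have h1 := card_src_le_size (r := r) (U := U) I z (hsup I hne)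
        (fun i _ i' _ hii => hsep i i' hii)
      have h2 : I.card = 1 := by
        have := Finset.card_pos.2 (Finset.nonempty_iff_ne_empty.2 hI0)
        omega
      obtain ⟨i, rfl⟩ := Finset.card_eq_one.1 h2
      exact hI i (hJ i hne) rfl
    rw [h0', nl_cvG_zero]
    simp

/-- **large polymers** with sources, from the bound of one coefficient -/
theorem src_lin_large' {A Γ c0 : ℝ≥0∞} {R : ℕ} (hUc : Packx915.Conn fd R U)
    (hR : 4 * R + 3 * r + 2 ≤ r') (h2 : 2 ≤ size r U) (hA1 : 1 ≤ A) (hc : 1 ≤ c0)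
    (hΛ1 : 1 ≤ Λ) (hΓt : Γ ≠ ∞) (hΓ : (c0 * Λ * A) ^ 2 ≤ Γ) {n : ℕ} (hn : n ≤ size r U)
    (hA : ∀ k : Ge (Fld G), pG (GDefx387.wU w a' r' U) (cvG S k) ≤
      A ^ n * pG (GDefx387.wU w a r U) k)
    {z : Fin m → G × G} (hsep : ∀ i i', i ≠ i' → r < fd (z i) (z i'))
    (hv' : ∀ i, v' i ≠ ∞) (hv0' : ∀ i, v' i ≠ 0) (hΛ : ∀ i, v' i ^ 2 ≤ Λ * v i ^ 2)
    (hK : K ∈ GS (Fld G) m)
    (hsup : ∀ I : Finset (Fin m), coP I K ≠ 0 → ∀ i ∈ I, z i ∈ U) :
    (c0 * Γ) ^ size r' U * pG (wS (GDefx387.wU w a' r' U) v') (linR S mu b ∅ K) ≤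
      ((c0 * Λ * A) ^ 2 * Γ⁻¹) * (Γ ^ size r U * pG (wS (GDefx387.wU w a r U) v) K) := by
  have hU : U.Nonempty := by
    rw [Finset.nonempty_iff_ne_empty]
    rintro rfl
    have : size r (∅ : Finset (G × G)) = 0 := by
      rw [Bridgex915.size_eq_pack]; unfold Packx915.pack; simp
    omega
  have h3 := pG_GS_le (w := GDefx387.wU w a' r' U) (v := v') (wU_zero w a' r' hU) hv' hv0'
    (linR_mem (S := S) (mu := mu) (b := b) (J := ∅) hK)
  refine (mul_le_mul' le_rfl h3).trans ?_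
  refine le_trans ?_ (mul_le_mul' le_rfl (mul_le_mul' le_rfl
    (sum_coP_le (GDefx387.wU w a r U) v K)))
  rw [Finset.mul_sum, Finset.mul_sum, Finset.mul_sum]
  refine Finset.sum_le_sum fun I _ => ?_
  rw [coP_linR_other hK (fun i hi => absurd hi (Finset.notMem_empty i))]
  by_cases hI : coP I K = 0
  · rw [hI, nl_cvG_zero, pG_zero, mul_zero, mul_zero]
    exact zero_le
  · have hcard : I.card ≤ Packx915.pack fd r U := by
      have := card_src_le_size (r := r) (U := U) I z (hsup I hI)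
        (fun i _ i' _ hii => hsep i i' hii)
      rwa [Bridgex915.size_eq_pack] at this
    rw [Bridgex915.size_eq_pack] at h2 hn
    have h4 : pG (GDefx387.wU w a' r' U) (nl (cvG S (coP I K))) ≤
        A ^ n * pG (GDefx387.wU w a r U) (coP I K) := by
      refine le_trans ?_ (hA (coP I K))
      rw [pG_def, coe_nl]
      exact pnorm_noct_le _ _
    have key := gain_room (A := pG (GDefx387.wU w a' r' U) (nl (cvG S (coP I K))))
      (B := pG (GDefx387.wU w a r U) (coP I K)) fd_PD hUc hR h2 hc hΛ1 hA1 hΓt hΓ hcard hn h4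
    rw [Bridgex915.size_eq_pack, Bridgex915.size_eq_pack]
    calc (c0 * Γ) ^ Packx915.pack fd r' U * ((∏ i ∈ I, v' i ^ 2) *
          pG (GDefx387.wU w a' r' U) (nl (cvG S (coP I K))))
        ≤ (c0 * Γ) ^ Packx915.pack fd r' U * ((Λ ^ I.card * ∏ i ∈ I, v i ^ 2) *
          pG (GDefx387.wU w a' r' U) (nl (cvG S (coP I K)))) := by
          gcongr
          exact prod_le_pow hΛ I
      _ = (∏ i ∈ I, v i ^ 2) * ((c0 * Γ) ^ Packx915.pack fd r' U * (Λ ^ I.card *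
          pG (GDefx387.wU w a' r' U) (nl (cvG S (coP I K))))) := by ring
      _ ≤ (∏ i ∈ I, v i ^ 2) * (((c0 * Λ * A) ^ 2 * Γ⁻¹) *
          (Γ ^ Packx915.pack fd r U * pG (GDefx387.wU w a r U) (coP I K))) :=
          mul_le_mul' le_rfl key
      _ = _ := by ring

/-- **the linear part of the source step, all polymers** -/
theorem src_lin (h : BkReg C) (hg : Gram S g) (ha : 0 < a) (ha' : 0 < a')
    (haa : a' ≤ 2 * a) (hr : 1 ≤ r) (hr' : 16 * r ≤ r')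
    (hL : 64 * (340000 * C + 1) ^ 2 * r ≤ r') (hU : U.Nonempty) {ε : ℝ≥0∞}
    (h0 : W0 w g a' r' ε U) (hε : ε ≠ 0) (hε1 : ε ≤ 1)
    {A Γ c0 : ℝ≥0∞} {R : ℕ} (hUc : Packx915.Conn fd R U)
    (hR : 4 * R + 3 * r + 2 ≤ r') (hA1 : 1 ≤ A) (hc : 1 ≤ c0)
    (hΛ1 : 1 ≤ Λ) (hΓ1 : 1 ≤ Γ) (hΓt : Γ ≠ ∞) (hΓ : (c0 * Λ * A) ^ 2 ≤ Γ) {n : ℕ}
    (hn : n ≤ size r U)
    (hA : 2 ≤ size r U → ∀ k : Ge (Fld G), pG (GDefx387.wU w a' r' U) (cvG S k) ≤
      A ^ n * pG (GDefx387.wU w a r U) k)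
    {z : Fin m → G × G} {j : Fin m → Fin 2} (hsep : ∀ i i', i ≠ i' → r < fd (z i) (z i'))
    (hJs : ¬ size r U ≤ 1 → J = ∅) (hJz : ∀ i ∈ J, z i ∈ U)
    (hJ : size r U ≤ 1 → ∀ i, coP {i} K ≠ 0 → i ∈ J)
    (hsrc : ∀ i ∈ J, SrcAt w (s1 * r' + r + MM + 1) (z i) (j i) (mu i) (b i))
    (hv : ∀ i, v i ≠ 0) (hv' : ∀ i, v' i ≠ ∞) (hv0' : ∀ i, v' i ≠ 0)
    (hΛ : ∀ i, v' i ^ 2 ≤ Λ * v i ^ 2) (hK : K ∈ GS (Fld G) m) (hK0 : noS K = 0)
    (hsup : ∀ I : Finset (Fin m), coP I K ≠ 0 → ∀ i ∈ I, z i ∈ U) :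
    (c0 * Γ) ^ size r' U * pG (wS (GDefx387.wU w a' r' U) v') (linR S mu b J K) ≤
      max (c0 * (Λ * ENNReal.ofReal (16 * (340000 * C + 1) ^ 2 * ((r : ℝ) / r') ^ 2)))
        ((c0 * Λ * A) ^ 2 * Γ⁻¹) *
        (Γ ^ size r U * pG (wS (GDefx387.wU w a r U) v) K) := by
  by_cases hs : size r U ≤ 1
  · have key := src_lin_small h hg ha ha' haa hr hr' hL hU hs hsep hJz (hJ hs) hsrc h0 hε hε1 hv
      hv' hv0' hΛ hK hK0 hsup
    have e1 : (c0 * Γ) ^ size r' U ≤ c0 * Γ ^ size r U := by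
      have h1 : size r' U ≤ size r U := by
        rw [Bridgex915.size_eq_pack, Bridgex915.size_eq_pack]
        exact Packx915.pack_anti (by omega)
      rw [mul_pow]
      refine mul_le_mul' ?_ (pow_le_pow_right₀ hΓ1 h1)
      calc c0 ^ size r' U ≤ c0 ^ 1 := pow_le_pow_right₀ hc (h1.trans hs)
        _ = c0 := pow_one _
    calc _ ≤ (c0 * Γ ^ size r U) *
          ((Λ * ENNReal.ofReal (16 * (340000 * C + 1) ^ 2 * ((r : ℝ) / r') ^ 2)) *
            pG (wS (GDefx387.wU w a r U) v) K) := mul_le_mul' e1 key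
      _ = (c0 * (Λ * ENNReal.ofReal (16 * (340000 * C + 1) ^ 2 * ((r : ℝ) / r') ^ 2))) *
          (Γ ^ size r U * pG (wS (GDefx387.wU w a r U) v) K) := by ring
      _ ≤ _ := mul_le_mul' (le_max_left _ _) le_rfl
  · have hJ0 := hJs hs
    subst hJ0
    exact (src_lin_large' hUc hR (by omega) hA1 hc hΛ1 hΓt hΓ hn (hA (by omega)) hsep hv' hv0' hΛ
      hK hsup).trans (mul_le_mul' (le_max_right _ _) le_rfl)

end concrete

end Crest.Agent.R165.SrcLinx336
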