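import Crest.Agent.R165.SrcRec_54
import Crest.Agent.R165.SrcInv_336
import Crest.Agent.R165.QuadB_915

/-!
# Row 165 (S0250), leaf P11 (sources): ONE STEP on the weights of `GDef_387` (helper54)

* `src_step_gen` : one step from the total norms of the three parts
* `ct_cv_le`, `cv_beta_le` : the constant of a convolved leading form
* `one_step` : **one step** from the hypotheses `StepHyp`, `SrcHyp` of `SrcInv_336`, the norms of
  `B.H n`, `B.A n` of the base flow, and the norm of the leading forms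
* `one_zeta` : the increment of the running coefficient
-/

set_option autoImplicit false
set_option linter.unusedSectionVars false

noncomputable section

open scoped ENNReal
open Crest.Agent.R165.Gr0x606 Crest.Agent.R165.Gr1x606 Crest.Agent.R165.GeOpsx337
  Crest.Agent.R165.ExpGx337 Crest.Agent.R165.KFlowx337 Crest.Agent.R165.KCompx892
  Crest.Agent.R165.KStepx892 Crest.Agent.R165.Quadx897 Crest.Agent.R165.ExpAx337
  Crest.Agent.R165.SrcDefx991 Crest.Agent.R165.SrcSysx991 Crest.Agent.R165.SrcStepx54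
  Crest.Agent.R165.GSysx387 Crest.Agent.R165.GDefx387 Crest.Agent.R165.PStepx417
  Crest.Agent.R165.PNormx417 Crest.Agent.R165.Latx683 Crest.Agent.R165.SrcInvx336
  Crest.Agent.R165.SrcLinx336 Crest.Agent.R165.GLinx336 Crest.Agent.R165.Packx915
  Crest.Agent.R165.NSumx915 Crest.Agent.R165.Bridgex915 Crest.Agent.R165.DefRecx915

namespace Crest.Agent.R165.SrcRecx54

section gen

variable {G : Type} [CommRing G] [CN G] [DecidableEq G] {V : Type} [AddCommGroup V] [Module ℝ V]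
  {m : ℕ}
variable {B : Sys (G × G) V} {R : SData G V m} {rs : ℕ → ℕ} {dp : ℕ → Fin m → Prop}
  {fs : Finset (G × G) → Submodule ℝ (VS V m)} {K0 : Finset (G × G) → Ge (VS V m)}
variable {W' : Finset (G × G) → V → ℝ≥0∞} {v' : Fin m → ℝ≥0∞} {Γ : ℝ≥0∞} {r' : ℕ}

/-- one step from the total norms of the parts -/
theorem src_step_gen (h : SOK B K0) (z0 : Fin m → ℝ) (n : ℕ) (hdp : ∀ i, dp n i)
    (hsz : ∀ i, size (rs n) (R.sf i) ≤ 1) (hinj : Function.Injective R.sf)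
    (hfar : ∀ i j, i ≠ j → ¬ KStepx892.touch (B.near (n + 1)) (R.sf i) (R.sf j))
    (hsymm : ∀ a b, B.near (n + 1) a b → B.near (n + 1) b a)
    (hΓ : 1 ≤ Γ) (hWanti : ∀ U U', U ⊆ U' → ∀ l, W' U' l ≤ W' U l)
    {β : Type*} {nr : β → Finset (G × G) → Prop} {C : ℝ≥0∞}
    (hSD : SumData (B.near (n + 1)) β (fun U => Γ ^ size r' U) (fun U => size r' U) nr C)
    (hC1 : 1 ≤ C) {b T E x : ℝ≥0∞} (hb0 : b ≠ 0)
    (hb : ∀ p, Sin (fun U => Γ ^ size r' U) (fun U => size r' U) nr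
        (fun U => pG (W' U) (B.H n U)) p +
      Sin (fun U => Γ ^ size r' U) (fun U => size r' U) nr (fun U => pG (W' U) (B.A n U)) p ≤ b)
    (nT : Tot3 W' v' Γ r' (fun U =>
        cvG (ext0 m (B.S n)) (LEAD R (zeta B R rs dp fs K0 z0 n) U)) +
      Tot3 W' v' Γ r' (fun U => AA vacS (exS B R rs dp n)
        (fun U => cvG (ext0 m (B.S n)) (LEAD R (zeta B R rs dp fs K0 z0 n) U)) U) ≤ T)
    (nP : Tot3 W' v' Γ r' (fun U => cvG (ext0 m (B.S n)) (PP B R rs dp fs K0 z0 n U)) +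
      Tot3 W' v' Γ r' (fun U => AA vacS (exS B R rs dp n)
        (fun U => cvG (ext0 m (B.S n)) (PP B R rs dp fs K0 z0 n U)) U) ≤ E)
    (hlin : Tot W' v' Γ r' (linP B R rs dp fs K0 z0 n) ≤ x)
    (hsm : 16 * C * (b + T + E + b * T) ≤ 1) :
    Tot W' v' Γ r' (PP B R rs dp fs K0 z0 (n + 1)) ≤ x +
      ((6 + 8 * C) * ((b + T + E + b * T) * E) + (5 + 8 * C) * (b * T)) := by
  classical
  have hW1 : ∀ U : Finset (G × G), (1 : ℝ≥0∞) ≤ Γ ^ size r' U := fun U => one_le_pow₀ hΓ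
  set H2 : Finset (G × G) → Ge (VS V m) := fun U =>
    cvG (ext0 m (B.S n)) (LEAD R (zeta B R rs dp fs K0 z0 n) U) with hH2
  set H3 : Finset (G × G) → Ge (VS V m) := fun U =>
    cvG (ext0 m (B.S n)) (PP B R rs dp fs K0 z0 n U) with hH3
  set A2 : Finset (G × G) → Ge (VS V m) := fun U => AA vacS (exS B R rs dp n) H2 U with hA2
  set A3 : Finset (G × G) → Ge (VS V m) := fun U => AA vacS (exS B R rs dp n) H3 U with hA3
  have nb : ∀ p, Sin (fun U => Γ ^ size r' U) (fun U => size r' U) nr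
        (fun U => pG (wS (W' U) v') (inG m (B.H n U))) p +
      Sin (fun U => Γ ^ size r' U) (fun U => size r' U) nr
        (fun U => pG (wS (W' U) v') (inG m (B.A n U))) p ≤ b := fun p =>
    (add_le_add (Sin_mono fun U _ => pG_inG_le _) (Sin_mono fun U _ => pG_inG_le _)).trans (hb p)
  have key := NL3 (near := B.near n) (near' := B.near (n + 1)) hsymm
    (gfam_src v' hWanti) hSD hW1 (H1 := fun U => inG m (B.H n U)) (H2 := H2) (H3 := H3)
    (A1 := fun U => inG m (B.A n U)) (A2 := A2) (A3 := A3) (β0 := b) (t := T) (T := T)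
    (e := E) nb
    (fun p => (add_le_add (Sin_le_Tin hSD _ p) (Sin_le_Tin hSD _ p)).trans nT) nT nP hC1 hb0 hsm
  have e1 : Tot W' v' Γ r' (PP B R rs dp fs K0 z0 (n + 1)) ≤
      Tout (fun U => Γ ^ size r' U) (fun U => pG (wS (W' U) v') (linP B R rs dp fs K0 z0 n U) +
        pG (wS (W' U) v') (NL (B.near n) (B.near (n + 1))
          (fun U => inG m (B.H n U) + H2 U + H3 U) (fun U => inG m (B.A n U) + A2 U + A3 U) U
          - NL (B.near n) (B.near (n + 1)) (fun U => inG m (B.H n U)) (fun U => inG m (B.A n U)) U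
          - NL (B.near n) (B.near (n + 1)) H2 A2 U)) := by
    refine Tout_mono fun U hU => ?_
    show pG (wS (W' U) v') (PP B R rs dp fs K0 z0 (n + 1) U) ≤ _
    rw [PP_succ h z0 n U hdp hsz, RemP_eq h z0 n hdp hsz hinj hfar hU]
    exact pG_add_le _ _ _
  refine e1.trans ?_
  rw [Tout_add]
  exact add_le_add hlin key

/-- the total norm of `H + A` of the leading part -/
theorem lead_norm (z : Fin m → ℝ) (n : ℕ) (hdp : ∀ i, dp n i)
    (hsz : ∀ i, size (rs n) (R.sf i) ≤ 1)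
    (hΓ : 1 ≤ Γ) (hW0 : ∀ i, W' (R.sf i) 0 = 0) (hv : ∀ i, v' i ≠ ∞) (hv0 : ∀ i, v' i ≠ 0)
    (hs' : ∀ i, size r' (R.sf i) ≤ 1) (S : Cov V) :
    Tot3 W' v' Γ r' (fun U => cvG (ext0 m S) (LEAD R z U)) +
      Tot3 W' v' Γ r' (fun U => AA vacS (exS B R rs dp n)
        (fun U => cvG (ext0 m S) (LEAD R z U)) U) ≤
    ∑ i, 3 * Γ * (v' i ^ 2 * (‖z i‖ₑ *
      (pG (W' (R.sf i)) (cvG S (R.β i)) + ‖ctG (cvG S (R.β i))‖ₑ))) := by
  classical
  have t2 := Tot3_LEAD (R := R) hW0 hv hv0 hΓ hs'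
    (fun i => z i • cvG S (R.β i)) _ (fun U => cv_LEAD S z U)
  have t3 := Tot3_LEAD (R := R) hW0 hv hv0 hΓ hs'
    (fun i => -algebraMap ℝ _ (z i * ctG (cvG S (R.β i))))
    (fun U => AA vacS (exS B R rs dp n) (fun U => cvG (ext0 m S) (LEAD R z U)) U)
    (fun U => by
      rw [AA_LEAD n _ hdp hsz, ← Finset.sum_neg_distrib]
      exact Finset.sum_congr rfl fun i _ => by rw [map_neg, mul_neg])
  refine (add_le_add t2 t3).trans ?_
  rw [← Finset.sum_add_distrib]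
  refine Finset.sum_le_sum fun i _ => ?_
  rw [← mul_add, ← mul_add, mul_add (‖z i‖ₑ)]
  refine mul_le_mul_right (mul_le_mul_right (add_le_add (pG_smul_le _ _ _) ?_) _) _
  rw [pG_neg, Algebra.algebraMap_eq_smul_one, ← enorm_mul]
  refine (pG_smul_le _ _ _).trans ?_
  exact mul_le_of_le_one_right' (pG_one_le _)

end gen

/-! ### the weights of `GDef_387` -/

section gdef

variable {G : Type} [CommRing G] [CN G] [GoodG G] [DecidableEq G] {m : ℕ}
variable {w : BW G} {C a a' : ℝ} {r r' : ℕ} {S : Cov (Fld G)} {g : Fld G → ℝ≥0∞}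
  {U T : Finset (G × G)} {ε A Γ c0 Λ : ℝ≥0∞} {Rc : ℕ} {v v' : Fin m → ℝ≥0∞}
  {R : SData G (Fld G) m} {zf : Fin m → G × G} {jf : Fin m → Fin 2} {uf : Fin m → ℝ}

/-- the constant part of a convolution -/
theorem ct_cv_le (hg : Gram S g) (h0 : W0 w g a' r' ε U) (hε : ε ≠ 0) (hε1 : ε ≤ 1)
    (F : Ge (Fld G)) : ‖ctG (cvG S F)‖ₑ ≤ pG (wU w a' r' U) F := by
  have h1 : ctG (cvG S F) = EE S (F : Gr (Fld G)) := by
    rw [ctG_cvG, EEG_apply]
  rw [h1]
  refine (EE_le_pnorm hg _).trans (pnorm_le_pnorm (fun l => ?_) _)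
  have h2 := h0.wU hε l
  rw [← GLinx336.wU_eq] at h2
  exact h2.trans (mul_le_of_le_one_left' hε1)

theorem stepHyp_one (H : StepHyp w C a a' r r' S g ε A Γ c0 Λ Rc) :
    StepHyp w C a a' r r' S g ε A Γ 1 Λ Rc :=
  { H with
    hc := le_rfl
    hΓ := by
      refine le_trans ?_ H.hΓ
      have h1 : 1 * Λ * A ≤ c0 * Λ * A := mul_le_mul_left (mul_le_mul_left H.hc _) _
      exact pow_le_pow_left' h1 2 }

theorem Tot_eq_tot (K : Finset (G × G) → Ge (VS (Fld G) m)) :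
    Tot (fun U => wU w a r U) v Γ r K = tot Γ r (fun U => pG (wS (wU w a r U) v) (K U)) := rfl

theorem Tot3_eq_tot (K : Finset (G × G) → Ge (VS (Fld G) m)) :
    Tot3 (fun U => wU w a r U) v Γ r K =
      tot (3 * Γ) r (fun U => pG (wS (wU w a r U) v) (K U)) := by
  unfold Tot3 Tin Sin tot
  congr 1
  funext U
  congr 1
  funext U
  rw [mul_pow, mul_comm (3 ^ size r U)]

/-- the net sums of the quadratic bound are the norms with the weight `3 Γ` -/
theorem Sin_le_NN (x : Finset (G × G) → ℝ≥0∞) (p : G × G) :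
    Sin (fun U => Γ ^ size r' U) (fun U => size r' U) (fun p U => near fd r' p U) x p ≤
      NN fd r' (3 * Γ) x := by
  refine le_trans (le_of_eq ?_) (bs_le_NN x p)
  rw [← bs3]
  unfold Sin
  simp only [Bridgex915.size_eq_pack]

/-- constant of the one-step bound -/
def cone (c0 Λ A Γ : ℝ≥0∞) (C : ℝ) (r r' : ℕ) : ℝ≥0∞ :=
  c0 * Λ + qL c0 Λ A Γ C r r' + 2 * qH c0 Λ A Γ

/-- constant of the short form -/
def cC1 (n3 c : ℝ≥0∞) : ℝ≥0∞ := (6 + 8 * n3) * (c * (2 + c)) + (5 + 8 * n3)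

variable {B : Sys (G × G) (Fld G)} {rs : ℕ → ℕ} {dpn : ℕ → Fin m → Prop}
  {fs : Finset (G × G) → Submodule ℝ (VS (Fld G) m)} {K0 : Finset (G × G) → Ge (VS (Fld G) m)}

/-- **ONE STEP**.  `b` = norm of the convolved bulk and of the exponent of the bulk (weight `3 Γ`),
`T` = norm of the leading part, `e` = total norm of the remainder -/
theorem one_step (h : SOK B K0)
    (hsup0 : ∀ U (I : Finset (Fin m)), coP I (K0 U) ≠ 0 → ∀ i ∈ I, R.sf i ⊆ U)
    (z0 : Fin m → ℝ) (n : ℕ) (hrn : rs n = r)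
    (H : StepHyp w C a a' r r' (B.S n) g ε A Γ 3 Λ Rc)
    (HS : SrcHyp w r r' Λ v v' R (dpn n) zf jf uf)
    (hconn : ∀ U, PP B R rs dpn fs K0 z0 n U ≠ 0 → Packx915.Conn fd Rc U)
    (hinj : Function.Injective R.sf) {R' : ℕ}
    (hnear : B.near (n + 1) = fun x y => fd x y ≤ R')
    (hfar : ∀ i j, i ≠ j → ¬ KStepx892.touch (B.near (n + 1)) (R.sf i) (R.sf j))
    {b1 b2 TT e : ℝ≥0∞}
    (hbH : NN fd r' (3 * Γ) (fun U => pG (wU w a' r' U) (B.H n U)) ≤ b1)
    (hbA : NN fd r' (3 * Γ) (fun U => pG (wU w a' r' U) (B.A n U)) ≤ b2) (hb0 : b1 + b2 ≠ 0)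
    (hT : ∑ i, 9 * Γ * (v' i ^ 2 * (‖zeta B R rs dpn fs K0 z0 n i‖ₑ *
      pG (wU w a' r' (R.sf i)) (R.β i))) ≤ TT)
    (he : Tot (fun U => wU w a r U) v Γ r (PP B R rs dpn fs K0 z0 n) ≤ e)
    (hT1 : TT ≤ 1)
    (hsm : 16 * (nn3 r' R' : ℝ≥0∞) *
      ((b1 + b2) + TT + cone 3 Λ A Γ C r r' * e + (b1 + b2) * TT) ≤ 1) :
    Tot (fun U => wU w a' r' U) v' Γ r' (PP B R rs dpn fs K0 z0 (n + 1)) ≤
      (qL 1 Λ A Γ C r r' + cC1 (nn3 r' R') (cone 3 Λ A Γ C r r') * ((b1 + b2) + TT + e)) * e +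
        cC1 (nn3 r' R') (cone 3 Λ A Γ C r r') * ((b1 + b2) * TT) := by
  subst hrn
  have hr1 : 1 ≤ rs n := H.hr
  have hrr : rs n ≤ r' := by have := H.hr'; omega
  have hr'0 : 0 < r' := by omega
  have hsz : ∀ i, size (rs n) (R.sf i) ≤ 1 := HS.sz
  have hs' : ∀ i, size r' (R.sf i) ≤ 1 := fun i => by
    refine le_trans ?_ (HS.sz i)
    rw [Bridgex915.size_eq_pack, Bridgex915.size_eq_pack]
    exact Packx915.pack_anti hrr
  have HP : ∀ U, PolHyp R Rc U (PP B R rs dpn fs K0 z0 n U) := fun U =>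
    polHyp_PP h hsup0 n U (hconn U)
  have hW0 : ∀ i, wU w a' r' (R.sf i) 0 = 0 := fun i => wU_zero w a' r' (R.ne i)
  have hSD : SumData (B.near (n + 1)) (G × G) (fun U => Γ ^ size r' U) (fun U => size r' U)
      (fun p U => near fd r' p U) (nn3 r' R' : ℝ≥0∞) := by
    rw [hnear]
    simp only [Bridgex915.size_eq_pack]
    exact Quad2x897.sumData (r' := r') (R' := R') pd_fd H.hΓ1 (cov_fd hr'0 (r' + R'))
  have hn1 : (1 : ℝ≥0∞) ≤ nn3 r' R' := by
    have : 1 ≤ nn3 r' R' := Nat.one_le_pow _ _ (by omega)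
    exact_mod_cast this
  -- the leading part
  have nT := lead_norm (B := B) (dp := dpn) (W' := fun U => wU w a' r' U) (v' := v') (Γ := Γ)
    (r' := r') (zeta B R rs dpn fs K0 z0 n) n HS.dp hsz H.hΓ1 hW0 HS.vt' HS.v0' hs' (B.S n)
  have nT' : ∑ i, 3 * Γ * (v' i ^ 2 * (‖zeta B R rs dpn fs K0 z0 n i‖ₑ *
      (pG (wU w a' r' (R.sf i)) (cvG (B.S n) (R.β i)) + ‖ctG (cvG (B.S n) (R.β i))‖ₑ))) ≤ TT := by
    refine le_trans (Finset.sum_le_sum fun i _ => ?_) hT
    have h1 := ct_cv_le (U := R.sf i) H.gram (H.w0 _) H.hε H.hε1 (R.β i)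
    have h2 : pG (wU w a' r' (R.sf i)) (cvG (B.S n) (R.β i)) ≤
        pG (wU w a' r' (R.sf i)) (R.β i) + ‖ctG (cvG (B.S n) (R.β i))‖ₑ := by
      rw [R.cv_β i (B.S n)]
      refine (pG_add_le _ _ _).trans (add_le_add le_rfl ?_)
      rw [← R.cv_β i (B.S n), Algebra.algebraMap_eq_smul_one]
      exact (pG_smul_le _ _ _).trans (mul_le_of_le_one_right' (pG_one_le _))
    calc _ ≤ 3 * Γ * (v' i ^ 2 * (‖zeta B R rs dpn fs K0 z0 n i‖ₑ *
          ((pG (wU w a' r' (R.sf i)) (R.β i) + pG (wU w a' r' (R.sf i)) (R.β i)) +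
            pG (wU w a' r' (R.sf i)) (R.β i)))) := by
          gcongr
          exact h2.trans (add_le_add le_rfl h1)
      _ = _ := by ring
  -- the remainder
  have n3 : Tot3 (fun U => wU w a' r' U) v' Γ r'
      (fun U => cvG (ext0 m (B.S n)) (PP B R rs dpn fs K0 z0 n U)) ≤ qH 3 Λ A Γ * e := by
    rw [Tot3_eq_tot]
    exact (tot_cv_le H HS HP).trans (mul_le_mul_right he _)
  have n4 : Tot3 (fun U => wU w a' r' U) v' Γ r' (fun U => AA vacS (exS B R rs dpn n)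
        (fun U => cvG (ext0 m (B.S n)) (PP B R rs dpn fs K0 z0 n U)) U) ≤
      (3 * Λ + qL 3 Λ A Γ C (rs n) r' + qH 3 Λ A Γ) * e := by
    rw [Tot3_eq_tot]
    refine le_trans (le_of_eq ?_) ((tot_A3_le H HS HP).trans (mul_le_mul_right he _))
    congr 1
    funext U
    congr 1
    have h1 := HA_PP (fs := fs) h z0 n HS.dp hsz U
    have h2 : (fun i => zeta B R rs dpn fs K0 z0 (n + 1) i - zeta B R rs dpn fs K0 z0 n i) =
        incZ R (rs n) (dpn n) (B.S n) (PP B R rs dpn fs K0 z0 n) := by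
      funext i
      rw [zeta_succ' h z0 n i (HS.dp i) (hsz i), add_sub_cancel_left]
    rw [h2, linP_eq_linR h z0 n U] at h1
    rw [← h1]
    abel
  have hlin : Tot (fun U => wU w a' r' U) v' Γ r' (linP B R rs dpn fs K0 z0 n) ≤
      qL 1 Λ A Γ C (rs n) r' * e := by
    rw [Tot_eq_tot]
    have h1 := tot_lin_le (stepHyp_one H) HS HP
    rw [one_mul] at h1
    refine le_trans (le_of_eq ?_) (h1.trans (mul_le_mul_right he _))
    congr 1
    funext U
    rw [linP_eq_linR h z0 n U]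
  have key := src_step_gen (W' := fun U => wU w a' r' U) (v' := v') (Γ := Γ) (r' := r')
    (fs := fs) h z0 n HS.dp hsz hinj hfar
    (by rw [hnear]; intro x y hxy; rw [fd_comm]; exact hxy) H.hΓ1
    (fun U U' hUU l => wU_anti w a' r' hUU l) hSD hn1 (b := b1 + b2) (T := TT)
    (E := cone 3 Λ A Γ C (rs n) r' * e) (x := qL 1 Λ A Γ C (rs n) r' * e) hb0
    (fun p => add_le_add ((Sin_le_NN _ p).trans hbH) ((Sin_le_NN _ p).trans hbA))
    (nT.trans nT')
    ((add_le_add n3 n4).trans (le_of_eq (by rw [cone]; ring))) hlin hsm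
  exact key.trans (step_short hT1)

/-- **the increment of the running coefficient** -/
theorem one_zeta (h : SOK B K0) (z0 : Fin m → ℝ) (n : ℕ) (hrn : rs n = r)
    (H : StepHyp w C a a' r r' (B.S n) g ε A Γ c0 Λ Rc)
    (HS : SrcHyp w r r' Λ v v' R (dpn n) zf jf uf) (i : Fin m) :
    Γ * (v i ^ 2 * ‖zeta B R rs dpn fs K0 z0 (n + 1) i - zeta B R rs dpn fs K0 z0 n i‖ₑ) ≤
      ENNReal.ofReal (4 * 516 ^ 2 * r / a ^ 2) *
        Tot (fun U => wU w a r U) v Γ r (PP B R rs dpn fs K0 z0 n) := by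
  subst hrn
  rw [zeta_succ' h z0 n i (HS.dp i) (HS.sz i), add_sub_cancel_left, Tot_eq_tot]
  exact inc_le H HS i

end gdef

end Crest.Agent.R165.SrcRecx54
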