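import Crest.Agent.R165.SrcStep2_54
import Crest.Agent.R165.SrcLin_336
import Crest.Agent.R165.SrcSys_991
import Crest.Agent.R165.Quad2_897
import Crest.Agent.R165.ANorm_915

/-!
# Row 165 (S0250), leaf P11 (sources), norm step and recursion (helper54)

* `AA_add`, `Rem_eq_NL`, `AA_src` : the exponent on families of source dependent activities
* `AA_LEAD`, `isLead_H`, `isLead_A`, `Rem_LEAD` : the leading part has no nonlinear part
* `HA_PP` : `H + A` of the remainder `= LEAD (increment) + linP`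
* `src_step` : **one step** of the total norm of the remainder `PP`
* `zeta_step` : the increment of the running coefficient
-/

set_option autoImplicit false
set_option linter.unusedSectionVars false

noncomputable section

open scoped ENNReal
open Crest.Agent.R165.Gr0x606 Crest.Agent.R165.Gr1x606 Crest.Agent.R165.GeOpsx337
  Crest.Agent.R165.ExpGx337 Crest.Agent.R165.KFlowx337 Crest.Agent.R165.KCompx892
  Crest.Agent.R165.KStepx892 Crest.Agent.R165.Quadx897 Crest.Agent.R165.ExpAx337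
  Crest.Agent.R165.SrcDefx991 Crest.Agent.R165.SrcSysx991 Crest.Agent.R165.SrcStepx54
  Crest.Agent.R165.GSysx387 Crest.Agent.R165.GDefx387 Crest.Agent.R165.PStepx417
  Crest.Agent.R165.PNormx417 Crest.Agent.R165.Latx683

namespace Crest.Agent.R165.SrcRecx54

/-! ### linearity -/

section lin

variable {F : Type} [DecidableEq F] {X : Type*} [AddCommGroup X] [Module ℝ X]

theorem AA_add (vac : Ge X →ₗ[ℝ] Ge X) (e : Extr F X) (H H' : Finset F → Ge X) (U : Finset F) :
    AA vac e (fun U => H U + H' U) U = AA vac e H U + AA vac e H' U := by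
  simp only [AA, Extr.gain, Extr.lost, map_add, Finset.sum_add_distrib]
  ring

/-- the remainder map is the nonlinear part -/
theorem Rem_eq_NL (vac : Ge X →ₗ[ℝ] Ge X) (e : Extr F X) (S : Cov X) (near near' : F → F → Prop)
    (K : Finset F → Ge X) {U : Finset F} (hU : U.Nonempty) :
    Rem vac e S near near' K U =
      NL near near' (fun U => cvG S (K U)) (fun U => AA vac e (fun U => cvG S (K U)) U) U := by
  have h : BB vac e (fun U => cvG S (K U)) =
      Bx (fun U => AA vac e (fun U => cvG S (K U)) U) := rfl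
  rw [Rem, h, KK_eq_NL hU]
  ring

end lin

/-! ### the exponent of source dependent families -/

section sys

variable {G : Type} [CommRing G] [CN G] [DecidableEq G] {V : Type} [AddCommGroup V] [Module ℝ V]
  {m : ℕ}
variable {B : Sys (G × G) V} {R : SData G V m} {rs : ℕ → ℕ} {dp : ℕ → Fin m → Prop}
  {fs : Finset (G × G) → Submodule ℝ (VS V m)} {K0 : Finset (G × G) → Ge (VS V m)}

open scoped Classical

variable (B R rs dp) in
/-- the extraction of the system with sources -/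
def exS (n : ℕ) : Extr (G × G) (VS V m) :=
  union (liftE m (B.e n)) (srcE (rs n) R.sf R.ne (dp n) R.mu R.β)

/-- the exponent on families without source free part -/
theorem AA_src (n : ℕ) {H : Finset (G × G) → Ge (VS V m)} (h0 : ∀ U, noS (H U) = 0)
    (U : Finset (G × G)) : AA vacS (exS B R rs dp n) H U =
      (∑ i ∈ Finset.univ.filter (fun i => dp n i ∧ R.sf i = U), tau i * inG m
        ((∑ U' ∈ (srcE (rs n) R.sf R.ne (dp n) R.mu R.β).inn U, R.mu i (coP {i} (H U'))) • R.β i))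
      - (if size (rs n) U ≤ 1 then ∑ i ∈ Finset.univ.filter (fun i => dp n i ∧ R.sf i ⊆ U),
          tau i * inG m (R.mu i (coP {i} (H U)) • R.β i) else 0)
      - vacH (H U) := by
  have hg : (B.e n).gain (fun U => noS (H U)) U = 0 := by
    rw [Extr.gain]
    exact Finset.sum_eq_zero fun W _ => by rw [h0, map_zero]
  have hl : (B.e n).lost (fun U => noS (H U)) U = 0 := by
    rw [Extr.lost]
    exact Finset.sum_eq_zero fun W _ => by rw [h0, map_zero]
  rw [exS, AA, union_gain, union_lost, liftE_gain, liftE_lost, hg, hl, map_zero, zero_add,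
    zero_add, srcE_gain, srcE_lost, vacS_apply]
  congr 2
  refine Finset.sum_congr rfl fun i _ => ?_
  simp only [seX_apply]
  rw [← Finset.mul_sum, ← map_sum, ← Finset.sum_smul]

theorem noS_LEAD (z : Fin m → ℝ) (U : Finset (G × G)) : noS (LEAD R z U) = 0 := by
  rw [← coP_empty, coP_LEAD' _ _ (by simp)]

theorem cv_LEAD (S : Cov V) (z : Fin m → ℝ) (U : Finset (G × G)) :
    cvG (ext0 m S) (LEAD R z U) =
      ∑ i ∈ Finset.univ.filter (fun i => R.sf i = U), tau i * inG m (z i • cvG S (R.β i)) := by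
  rw [LEAD, map_sum]
  refine Finset.sum_congr rfl fun i _ => ?_
  have h : (tauP {i} : Ge (VS V m)) = tau i := by simp [tauP]
  rw [← h, cvG_basis, map_smul]

theorem coP_cvLEAD (S : Cov V) (z : Fin m → ℝ) (U : Finset (G × G)) (i : Fin m) :
    coP {i} (cvG (ext0 m S) (LEAD R z U)) = if R.sf i = U then z i • cvG S (R.β i) else 0 := by
  rw [coP_cvG S (GS_LEAD z U), coP_LEAD]
  split_ifs
  · rw [map_smul]
  · rw [map_zero]

theorem noS_cvLEAD (S : Cov V) (z : Fin m → ℝ) (U : Finset (G × G)) :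
    noS (cvG (ext0 m S) (LEAD R z U)) = 0 := by
  rw [noS_cvG, noS_LEAD, map_zero]

theorem mu_cv (R : SData G V m) (S : Cov V) (i : Fin m) : R.mu i (cvG S (R.β i)) = 1 := by
  rw [R.cv_β i S, map_add, R.mu_β, R.mu_const, add_zero]

/-- the exponent of the leading part -/
theorem AA_LEAD (n : ℕ) (z : Fin m → ℝ) (hdp : ∀ i, dp n i)
    (hsz : ∀ i, size (rs n) (R.sf i) ≤ 1) (S : Cov V) (U : Finset (G × G)) :
    AA vacS (exS B R rs dp n) (fun U => cvG (ext0 m S) (LEAD R z U)) U =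
      - ∑ i ∈ Finset.univ.filter (fun i => R.sf i = U),
        tau i * inG m (algebraMap ℝ _ (z i * ctG (cvG S (R.β i)))) := by
  rw [AA_src n (fun U => noS_cvLEAD S z U)]
  have e1 : (∑ i ∈ Finset.univ.filter (fun i => dp n i ∧ R.sf i = U), (tau i : Ge (VS V m)) *
      inG m ((∑ U' ∈ (srcE (rs n) R.sf R.ne (dp n) R.mu R.β).inn U,
        R.mu i (coP {i} (cvG (ext0 m S) (LEAD R z U')))) • R.β i)) =
      ∑ i ∈ Finset.univ.filter (fun i => R.sf i = U), tau i * inG m (z i • R.β i) := by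
    refine Finset.sum_congr (by ext i; simp [hdp i]) fun i hi => ?_
    rw [Finset.mem_filter] at hi
    have hiU := hi.2
    congr 3
    rw [Finset.sum_eq_single U]
    · rw [coP_cvLEAD, if_pos hiU, map_smul, mu_cv, smul_eq_mul, mul_one]
    · intro U' _ hne
      rw [coP_cvLEAD, if_neg (fun h => hne (h.symm.trans hiU)), map_zero]
    · intro h
      refine absurd ?_ h
      rw [mem_srcE_inn]
      exact ⟨hiU ▸ hsz i, i, hdp i, hiU.subset, hiU⟩
  have e2 : (if size (rs n) U ≤ 1 then ∑ i ∈ Finset.univ.filter (fun i => dp n i ∧ R.sf i ⊆ U),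
      (tau i : Ge (VS V m)) * inG m (R.mu i (coP {i} (cvG (ext0 m S) (LEAD R z U))) • R.β i)
      else 0) = ∑ i ∈ Finset.univ.filter (fun i => R.sf i = U), tau i * inG m (z i • R.β i) := by
    split_ifs with hs
    · symm
      refine Finset.sum_subset_zero_on_sdiff ?_ ?_ ?_
      · intro i hi
        rw [Finset.mem_filter] at hi ⊢
        exact ⟨hi.1, hdp i, hi.2.subset⟩
      · intro i hi
        rw [Finset.mem_sdiff, Finset.mem_filter, Finset.mem_filter] at hi
        have : ¬ R.sf i = U := fun h => hi.2 ⟨Finset.mem_univ _, h⟩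
        rw [coP_cvLEAD, if_neg this, map_zero, zero_smul, map_zero, mul_zero]
      · intro i hi
        rw [Finset.mem_filter] at hi
        rw [coP_cvLEAD, if_pos hi.2, (R.mu i).map_smul, mu_cv, smul_eq_mul, mul_one]
    · symm
      refine Finset.sum_eq_zero fun i hi => ?_
      rw [Finset.mem_filter] at hi
      exact absurd (hi.2 ▸ hsz i) hs
  rw [e1, e2, sub_self, zero_sub, cv_LEAD, map_sum]
  congr 1
  refine Finset.sum_congr rfl fun i _ => ?_
  rw [map_mul, vacH_tau, vacH_inG]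
  simp only [map_smul, smul_eq_mul, AlgHom.commutes]

theorem isLead_H (hinj : Function.Injective R.sf) (S : Cov V) (z : Fin m → ℝ) :
    IsLead R.sf (fun i => (tau i : Ge (VS V m))) (fun U => cvG (ext0 m S) (LEAD R z U)) := by
  intro U hU
  have h : ∃ i, R.sf i = U := by
    by_contra hno
    push Not at hno
    apply hU
    show cvG (ext0 m S) (LEAD R z U) = 0
    rw [cv_LEAD]
    exact Finset.sum_eq_zero fun i hi => absurd (Finset.mem_filter.1 hi).2 (hno i)
  obtain ⟨i, hi⟩ := h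
  refine ⟨i, hi.symm, inG m (z i • cvG S (R.β i)), ?_⟩
  show cvG (ext0 m S) (LEAD R z U) = _
  rw [cv_LEAD]
  have : Finset.univ.filter (fun i => R.sf i = U) = {i} := by
    ext j
    rw [Finset.mem_filter, Finset.mem_singleton]
    exact ⟨fun h => hinj (h.2.trans hi.symm), fun h => ⟨Finset.mem_univ _, h ▸ hi⟩⟩
  rw [this, Finset.sum_singleton]

theorem isLead_A (hinj : Function.Injective R.sf) (n : ℕ) (z : Fin m → ℝ) (hdp : ∀ i, dp n i)
    (hsz : ∀ i, size (rs n) (R.sf i) ≤ 1) (S : Cov V) :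
    IsLead R.sf (fun i => (tau i : Ge (VS V m)))
      (fun U => AA vacS (exS B R rs dp n) (fun U => cvG (ext0 m S) (LEAD R z U)) U) := by
  intro U hU
  have h : ∃ i, R.sf i = U := by
    by_contra hno
    push Not at hno
    apply hU
    show AA vacS (exS B R rs dp n) (fun U => cvG (ext0 m S) (LEAD R z U)) U = 0
    rw [AA_LEAD n z hdp hsz, Finset.sum_eq_zero fun i hi => absurd (Finset.mem_filter.1 hi).2
      (hno i), neg_zero]
  obtain ⟨i, hi⟩ := h
  refine ⟨i, hi.symm, -inG m (algebraMap ℝ _ (z i * ctG (cvG S (R.β i)))), ?_⟩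
  show AA vacS (exS B R rs dp n) (fun U => cvG (ext0 m S) (LEAD R z U)) U = _
  rw [AA_LEAD n z hdp hsz]
  have : Finset.univ.filter (fun i => R.sf i = U) = {i} := by
    ext j
    rw [Finset.mem_filter, Finset.mem_singleton]
    exact ⟨fun h => hinj (h.2.trans hi.symm), fun h => ⟨Finset.mem_univ _, h ▸ hi⟩⟩
  rw [this, Finset.sum_singleton, mul_neg]

/-- `H + A` of the leading part -/
theorem HA_LEAD (n : ℕ) (z : Fin m → ℝ) (hdp : ∀ i, dp n i)
    (hsz : ∀ i, size (rs n) (R.sf i) ≤ 1) (S : Cov V) (U : Finset (G × G)) :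
    cvG (ext0 m S) (LEAD R z U) +
      AA vacS (exS B R rs dp n) (fun U => cvG (ext0 m S) (LEAD R z U)) U = LEAD R z U := by
  rw [AA_LEAD n z hdp hsz, cv_LEAD, LEAD, ← sub_eq_add_neg, ← Finset.sum_sub_distrib]
  refine Finset.sum_congr rfl fun i _ => ?_
  rw [← mul_sub, ← map_sub]
  congr 2
  have h : cvG S (R.β i) - algebraMap ℝ (Ge V) (ctG (cvG S (R.β i))) = R.β i :=
    sub_eq_of_eq_add (R.cv_β i S)
  calc z i • cvG S (R.β i) - algebraMap ℝ (Ge V) (z i * ctG (cvG S (R.β i)))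
      = z i • (cvG S (R.β i) - algebraMap ℝ (Ge V) (ctG (cvG S (R.β i)))) := by
        rw [smul_sub, Algebra.algebraMap_eq_smul_one, Algebra.algebraMap_eq_smul_one, smul_smul]
    _ = z i • R.β i := by rw [h]

theorem tau_ct (i : Fin m) : ctG (tau i : Ge (VS V m)) = 0 := by
  rw [← ctG_noS, noS_tau, map_zero]

end sys

/-! ### the remainder -/

section rem

variable {G : Type} [CommRing G] [CN G] [DecidableEq G] {V : Type} [AddCommGroup V] [Module ℝ V]
  {m : ℕ}
variable {B : Sys (G × G) V} {R : SData G V m} {rs : ℕ → ℕ} {dp : ℕ → Fin m → Prop}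
  {fs : Finset (G × G) → Submodule ℝ (VS V m)} {K0 : Finset (G × G) → Ge (VS V m)}

open scoped Classical

theorem LEAD_sub (z z' : Fin m → ℝ) (U : Finset (G × G)) :
    LEAD R (fun i => z i - z' i) U = LEAD R z U - LEAD R z' U := by
  simp only [LEAD]
  rw [← Finset.sum_sub_distrib]
  refine Finset.sum_congr rfl fun i _ => ?_
  rw [← mul_sub, ← map_sub, sub_smul]

/-- the three parts of `H` -/
theorem H_split (z0 : Fin m → ℝ) (n : ℕ) : (sysP B R rs dp fs K0).H n = fun U =>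
    inG m (B.H n U) + cvG (ext0 m (B.S n)) (LEAD R (zeta B R rs dp fs K0 z0 n) U) +
      cvG (ext0 m (B.S n)) (PP B R rs dp fs K0 z0 n U) := by
  funext U
  have h : (sysP B R rs dp fs K0).H n U = cvG (ext0 m (B.S n)) ((sysP B R rs dp fs K0).K n U) := rfl
  rw [h, K_eq_PP z0 n U, map_add, map_add, cvG_inG]
  rfl

/-- the three parts of `A` -/
theorem A_split (hvac : B.vac = vac0 V) (z0 : Fin m → ℝ) (n : ℕ) :
    (sysP B R rs dp fs K0).A n = fun U => inG m (B.A n U) +
      AA vacS (exS B R rs dp n)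
        (fun U => cvG (ext0 m (B.S n)) (LEAD R (zeta B R rs dp fs K0 z0 n) U)) U +
      AA vacS (exS B R rs dp n)
        (fun U => cvG (ext0 m (B.S n)) (PP B R rs dp fs K0 z0 n U)) U := by
  funext U
  have h : (sysP B R rs dp fs K0).A n U =
    AA vacS (exS B R rs dp n) ((sysP B R rs dp fs K0).H n) U := rfl
  rw [h, H_split z0 n, AA_add, AA_add]
  have h2 := AA_inG (B := B) (R := R) (rs := rs) (dp := dp) (m := m) n hvac (B.H n) U
  have h3 : AA vacS (exS B R rs dp n) (fun U => inG m (B.H n U)) U = inG m (B.A n U) := h2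
  rw [h3]

/-- **`H + A` of the remainder** -/
theorem HA_PP (h : SOK B K0) (z0 : Fin m → ℝ) (n : ℕ) (hdp : ∀ i, dp n i)
    (hsz : ∀ i, size (rs n) (R.sf i) ≤ 1) (U : Finset (G × G)) :
    cvG (ext0 m (B.S n)) (PP B R rs dp fs K0 z0 n U) +
      AA vacS (exS B R rs dp n)
        (fun U => cvG (ext0 m (B.S n)) (PP B R rs dp fs K0 z0 n U)) U =
      LEAD R (fun i => zeta B R rs dp fs K0 z0 (n + 1) i - zeta B R rs dp fs K0 z0 n i) U +
        linP B R rs dp fs K0 z0 n U := by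
  have h1 := lin_split h z0 n U hdp hsz (fs := fs)
  have h2 := HA_LEAD (B := B) n (zeta B R rs dp fs K0 z0 n) hdp hsz (B.S n) U
  rw [H_split z0 n, A_split h.vac z0 n] at h1
  rw [LEAD_sub, ← h2]
  rw [map_add] at h1
  have h3 : ∀ a b c d e f g k : Ge (VS V m), a + c + e + (b + d + f) = a + b + g + k →
      e + f = g - (c + d) + k := by
    intro a b c d e f g k hh
    have : e + f = (a + c + e + (b + d + f)) - a - b - c - d := by abel
    rw [this, hh]; abel
  exact h3 _ _ _ _ _ _ _ _ h1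

/-- **the nonlinear part of the step of the remainder** -/
theorem RemP_eq (h : SOK B K0) (z0 : Fin m → ℝ) (n : ℕ) (hdp : ∀ i, dp n i)
    (hsz : ∀ i, size (rs n) (R.sf i) ≤ 1) (hinj : Function.Injective R.sf)
    (hfar : ∀ i j, i ≠ j → ¬ touch (B.near (n + 1)) (R.sf i) (R.sf j))
    {U : Finset (G × G)} (hU : U.Nonempty) :
    RemP B R rs dp n ((sysP B R rs dp fs K0).K n) U - RemP B R rs dp n (fun U => inG m (B.K n U)) U =
      NL (B.near n) (B.near (n + 1))
        (fun U => inG m (B.H n U) +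
          cvG (ext0 m (B.S n)) (LEAD R (zeta B R rs dp fs K0 z0 n) U) +
          cvG (ext0 m (B.S n)) (PP B R rs dp fs K0 z0 n U))
        (fun U => inG m (B.A n U) + AA vacS (exS B R rs dp n)
          (fun U => cvG (ext0 m (B.S n)) (LEAD R (zeta B R rs dp fs K0 z0 n) U)) U +
          AA vacS (exS B R rs dp n)
            (fun U => cvG (ext0 m (B.S n)) (PP B R rs dp fs K0 z0 n U)) U) U
      - NL (B.near n) (B.near (n + 1)) (fun U => inG m (B.H n U)) (fun U => inG m (B.A n U)) U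
      - NL (B.near n) (B.near (n + 1))
          (fun U => cvG (ext0 m (B.S n)) (LEAD R (zeta B R rs dp fs K0 z0 n) U))
          (fun U => AA vacS (exS B R rs dp n)
            (fun U => cvG (ext0 m (B.S n)) (LEAD R (zeta B R rs dp fs K0 z0 n) U)) U) U := by
  have hlead : NL (B.near n) (B.near (n + 1))
      (fun U => cvG (ext0 m (B.S n)) (LEAD R (zeta B R rs dp fs K0 z0 n) U))
      (fun U => AA vacS (exS B R rs dp n)
        (fun U => cvG (ext0 m (B.S n)) (LEAD R (zeta B R rs dp fs K0 z0 n) U)) U) U = 0 :=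
    NL_lead hinj hfar tau_sq tau_ct (isLead_H hinj (B.S n) _)
      (isLead_A hinj n _ hdp hsz (B.S n)) U
  rw [hlead, sub_zero]
  have e1 : RemP B R rs dp n ((sysP B R rs dp fs K0).K n) U =
      NL (B.near n) (B.near (n + 1)) ((sysP B R rs dp fs K0).H n)
        ((sysP B R rs dp fs K0).A n) U := by
    rw [RemP, Rem_eq_NL _ _ _ _ _ _ hU]
    rfl
  have e2 : RemP B R rs dp n (fun U => inG m (B.K n U)) U =
      NL (B.near n) (B.near (n + 1)) (fun U => inG m (B.H n U)) (fun U => inG m (B.A n U)) U := by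
    rw [RemP, Rem_eq_NL _ _ _ _ _ _ hU]
    have e3 : (fun U => cvG (ext0 m (B.S n)) (inG m (B.K n U))) = fun U => inG m (B.H n U) :=
      funext fun U => cvG_inG _ _
    rw [e3]
    congr 1
    funext U
    exact AA_inG n h.vac (B.H n) U
  rw [e1, e2, H_split z0 n, A_split h.vac z0 n]

/-! ### norms -/

/-- total sum of a family supported on the sets of the sources -/
theorem Tin_src {Wo : Finset (G × G) → ℝ≥0∞} {sz : Finset (G × G) → ℕ}
    (f : Finset (G × G) → ℝ≥0∞) (x : Fin m → ℝ≥0∞)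
    (hf : ∀ U, U.Nonempty → f U ≤ ∑ i ∈ Finset.univ.filter (fun i => R.sf i = U), x i) :
    Tin Wo sz f ≤ ∑ i, Wo (R.sf i) * 3 ^ sz (R.sf i) * x i := by
  have h1 : ∀ U : Finset (G × G), Set.indicator {U : Finset (G × G) | U.Nonempty}
      (fun U => Wo U * 3 ^ sz U * f U) U ≤
      ∑ i, if R.sf i = U then Wo (R.sf i) * 3 ^ sz (R.sf i) * x i else 0 := by
    intro U
    by_cases hU : U.Nonempty
    · rw [Set.indicator_of_mem (by exact hU)]
      refine (mul_le_mul_right (hf U hU) _).trans ?_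
      rw [Finset.mul_sum, Finset.sum_filter]
      refine Finset.sum_le_sum fun i _ => ?_
      split_ifs with hi
      · rw [hi]
      · exact le_rfl
    · rw [Set.indicator_of_notMem (by exact hU)]
      exact zero_le
  refine (ENNReal.tsum_le_tsum h1).trans ?_
  rw [Summable.tsum_finsetSum fun _ _ => ENNReal.summable]
  refine Finset.sum_le_sum fun i _ => ?_
  rw [tsum_ite_eq' (R.sf i)]

theorem pG_src_le {w : V → ℝ≥0∞} (hw : w 0 = 0) {v : Fin m → ℝ≥0∞} (hv : ∀ i, v i ≠ ∞)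
    (hv0 : ∀ i, v i ≠ 0) (s : Finset (Fin m)) (a : Fin m → Ge V) :
    pG (wS w v) (∑ i ∈ s, tau i * inG m (a i)) ≤ ∑ i ∈ s, v i ^ 2 * pG w (a i) := by
  refine (pG_sum_le _ _ _).trans (Finset.sum_le_sum fun i _ => ?_)
  have h := pG_basis_le (V := V) hw hv hv0 {i} (a i)
  rw [Finset.prod_singleton] at h
  have h2 : (tauP {i} : Ge (VS V m)) = tau i := by simp [tauP]
  rwa [h2] at h

/-- the family of norms of the source system -/
theorem gfam_src {W' : Finset (G × G) → V → ℝ≥0∞} (v' : Fin m → ℝ≥0∞)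
    (hW : ∀ U U', U ⊆ U' → ∀ l, W' U' l ≤ W' U l) :
    GFam (fun U (F : Ge (VS V m)) => pG (wS (W' U) v') F) where
  gn _ := gn_pG _
  anti U U' a h := by
    have h1 : ∀ p : VS V m, wS (W' U') v' p ≤ wS (W' U) v' p := fun p => by
      unfold wS
      exact add_le_add (hW U U' h p.1) le_rfl
    exact pnorm_le_pnorm h1 _

end rem

/-! ### one step -/

section step

variable {G : Type} [CommRing G] [CN G] [DecidableEq G] {V : Type} [AddCommGroup V] [Module ℝ V]
  {m : ℕ}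
variable {B : Sys (G × G) V} {R : SData G V m} {rs : ℕ → ℕ} {dp : ℕ → Fin m → Prop}
  {fs : Finset (G × G) → Submodule ℝ (VS V m)} {K0 : Finset (G × G) → Ge (VS V m)}

theorem sum_one_le (w : V → ℝ≥0∞) (v : Fin m → ℝ≥0∞) (a : Ge (VS V m)) :
    ∑ i, v i ^ 2 * pG w (coP {i} a) ≤ pG (wS w v) a := by
  have h1 : ∑ i, v i ^ 2 * pG w (coP {i} a) =
      ∑ I ∈ Finset.univ.image (fun i : Fin m => ({i} : Finset (Fin m))),
        (∏ i ∈ I, v i ^ 2) * pG w (coP I a) := by
    rw [Finset.sum_image (fun i _ j _ h => Finset.singleton_injective h)]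
    exact Finset.sum_congr rfl fun i _ => by rw [Finset.prod_singleton]
  rw [h1]
  exact (Finset.sum_le_sum_of_subset (Finset.subset_univ _)).trans (sum_coP_le w v a)

/-- the total norm of a family at scale `r` -/
def Tot (W : Finset (G × G) → V → ℝ≥0∞) (v : Fin m → ℝ≥0∞) (Γ : ℝ≥0∞) (r : ℕ)
    (K : Finset (G × G) → Ge (VS V m)) : ℝ≥0∞ :=
  Tout (fun U => Γ ^ size r U) (fun U => pG (wS (W U) v) (K U))

/-- the total norm, input weights `3 Γ` -/
def Tot3 (W : Finset (G × G) → V → ℝ≥0∞) (v : Fin m → ℝ≥0∞) (Γ : ℝ≥0∞) (r : ℕ)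
    (K : Finset (G × G) → Ge (VS V m)) : ℝ≥0∞ :=
  Tin (fun U => Γ ^ size r U) (fun U => size r U) (fun U => pG (wS (W U) v) (K U))

variable {W W' : Finset (G × G) → V → ℝ≥0∞} {v v' : Fin m → ℝ≥0∞} {Γ : ℝ≥0∞} {r r' : ℕ}

theorem Tot3_le {K K' : Finset (G × G) → Ge (VS V m)} {c : ℝ≥0∞}
    (h : ∀ U, U.Nonempty → (3 * Γ) ^ size r' U * pG (wS (W' U) v') (K' U) ≤
      c * (Γ ^ size r U * pG (wS (W U) v) (K U))) :
    Tot3 W' v' Γ r' K' ≤ c * Tot W v Γ r K := by
  have h1 : c * Tot W v Γ r K = Tout (fun _ => 1)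
      (fun U => c * (Γ ^ size r U * pG (wS (W U) v) (K U))) := by
    rw [Tot, Tout_smul]
    unfold Tout Sout
    simp only [one_mul]
  rw [h1]
  refine ENNReal.tsum_le_tsum fun U => Set.indicator_le_indicator' fun hU => ?_
  rw [one_mul, ← mul_pow, mul_comm Γ 3]
  exact h U hU

theorem Tot_le {K K' : Finset (G × G) → Ge (VS V m)} {c : ℝ≥0∞}
    (h : ∀ U, U.Nonempty → Γ ^ size r' U * pG (wS (W' U) v') (K' U) ≤
      c * (Γ ^ size r U * pG (wS (W U) v) (K U))) :
    Tot W' v' Γ r' K' ≤ c * Tot W v Γ r K := by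
  have h1 : c * Tot W v Γ r K = Tout (fun _ => 1)
      (fun U => c * (Γ ^ size r U * pG (wS (W U) v) (K U))) := by
    rw [Tot, Tout_smul]
    unfold Tout Sout
    simp only [one_mul]
  rw [h1]
  refine ENNReal.tsum_le_tsum fun U => Set.indicator_le_indicator' fun hU => ?_
  rw [one_mul]
  exact h U hU

/-- a sum over sets containing a source is bounded by the total norm -/
theorem sum_le_Tot (hΓ : 1 ≤ Γ) (K : Finset (G × G) → Ge (VS V m)) (s : Finset (Finset (G × G)))
    (hs : ∀ U ∈ s, U.Nonempty) : ∑ U ∈ s, pG (wS (W U) v) (K U) ≤ Tot W v Γ r K := by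
  refine le_trans (Finset.sum_le_sum fun U hU => ?_) (ENNReal.sum_le_tsum s)
  rw [Set.indicator_of_mem (by exact hs U hU)]
  exact le_mul_of_one_le_left' (one_le_pow₀ hΓ)

/-- the increment of the running coefficient -/
theorem zeta_step (h : SOK B K0) (z0 : Fin m → ℝ) (n : ℕ) (hdp : ∀ i, dp n i)
    (hsz : ∀ i, size (rs n) (R.sf i) ≤ 1) (hΓ : 1 ≤ Γ) {κ : ℝ≥0∞}
    (hκ : ∀ i U, size (rs n) U ≤ 1 → R.sf i ⊆ U →
      ‖R.mu i (cvG (B.S n) (coP {i} (PP B R rs dp fs K0 z0 n U)))‖ₑ ≤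
        κ * pG (W U) (coP {i} (PP B R rs dp fs K0 z0 n U))) (i : Fin m) :
    v i ^ 2 * ‖zeta B R rs dp fs K0 z0 (n + 1) i - zeta B R rs dp fs K0 z0 n i‖ₑ ≤
      κ * Tot W v Γ r (PP B R rs dp fs K0 z0 n) := by
  have hin : ∀ U ∈ (srcE (rs n) R.sf R.ne (dp n) R.mu R.β).inn (R.sf i),
      size (rs n) U ≤ 1 ∧ R.sf i ⊆ U := by
    intro U hU
    obtain ⟨h1, j, -, h2, h3⟩ := (mem_srcE_inn _ _ _ _ _ _).1 hU
    exact ⟨h1, h3 ▸ h2⟩
  rw [zeta_succ h z0 n i (hdp i) (hsz i), add_sub_cancel_left]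
  refine (mul_le_mul_right (enorm_sum_le _ _) _).trans ?_
  rw [Finset.mul_sum]
  calc ∑ U ∈ (srcE (rs n) R.sf R.ne (dp n) R.mu R.β).inn (R.sf i),
        v i ^ 2 * ‖R.mu i (cvG (B.S n) (coP {i} (PP B R rs dp fs K0 z0 n U)))‖ₑ
      ≤ ∑ U ∈ (srcE (rs n) R.sf R.ne (dp n) R.mu R.β).inn (R.sf i),
        κ * pG (wS (W U) v) (PP B R rs dp fs K0 z0 n U) := by
        refine Finset.sum_le_sum fun U hU => ?_
        have h1 := hκ i U (hin U hU).1 (hin U hU).2
        have h2 := coP_le (W U) v {i} (PP B R rs dp fs K0 z0 n U)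
        rw [Finset.prod_singleton] at h2
        calc v i ^ 2 * ‖R.mu i (cvG (B.S n) (coP {i} (PP B R rs dp fs K0 z0 n U)))‖ₑ
            ≤ v i ^ 2 * (κ * pG (W U) (coP {i} (PP B R rs dp fs K0 z0 n U))) :=
              mul_le_mul_right h1 _
          _ = κ * (v i ^ 2 * pG (W U) (coP {i} (PP B R rs dp fs K0 z0 n U))) := by ring
          _ ≤ κ * pG (wS (W U) v) (PP B R rs dp fs K0 z0 n U) := mul_le_mul_right h2 _
    _ = κ * ∑ U ∈ (srcE (rs n) R.sf R.ne (dp n) R.mu R.β).inn (R.sf i),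
        pG (wS (W U) v) (PP B R rs dp fs K0 z0 n U) := by rw [Finset.mul_sum]
    _ ≤ κ * Tot W v Γ r (PP B R rs dp fs K0 z0 n) :=
        mul_le_mul_right (sum_le_Tot hΓ _ _ fun U hU => (R.ne i).mono (hin U hU).2) κ

open scoped Classical in
/-- total norm of a combination of leading forms -/
theorem Tot3_LEAD (hW0 : ∀ i, W' (R.sf i) 0 = 0) (hv : ∀ i, v' i ≠ ∞) (hv0 : ∀ i, v' i ≠ 0)
    (hΓ : 1 ≤ Γ) (hs' : ∀ i, size r' (R.sf i) ≤ 1) (a : Fin m → Ge V)
    (K : Finset (G × G) → Ge (VS V m))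
    (hK : ∀ U, K U = ∑ i ∈ Finset.univ.filter (fun i => R.sf i = U), tau i * inG m (a i)) :
    Tot3 W' v' Γ r' K ≤ ∑ i, 3 * Γ * (v' i ^ 2 * pG (W' (R.sf i)) (a i)) := by
  have h1 := Tin_src (R := R) (Wo := fun U => Γ ^ size r' U) (sz := fun U => size r' U)
    (fun U => pG (wS (W' U) v') (K U)) (fun i => v' i ^ 2 * pG (W' (R.sf i)) (a i)) ?_
  · refine h1.trans (Finset.sum_le_sum fun i _ => mul_le_mul_left ?_ _)
    rw [← mul_pow, mul_comm Γ 3]
    have h3 : 1 ≤ 3 * Γ := one_le_mul_of_one_le_of_one_le (by norm_num) hΓ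
    calc (3 * Γ) ^ size r' (R.sf i) ≤ (3 * Γ) ^ 1 := pow_le_pow_right₀ h3 (hs' i)
      _ = 3 * Γ := pow_one _
  · intro U _
    rw [hK]
    have hex : ∀ i ∈ Finset.univ.filter (fun i => R.sf i = U), R.sf i = U := fun i hi =>
      (Finset.mem_filter.1 hi).2
    by_cases hne : (Finset.univ.filter (fun i => R.sf i = U)).Nonempty
    · obtain ⟨j, hj⟩ := hne
      have hU0 : W' U 0 = 0 := hex j hj ▸ hW0 j
      refine (pG_src_le hU0 hv hv0 _ _).trans (Finset.sum_le_sum fun i hi => ?_)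
      rw [hex i hi]
    · rw [Finset.not_nonempty_iff_eq_empty.1 hne, Finset.sum_empty, Finset.sum_empty, pG_zero]

open scoped Classical in
/-- total norm of the increment of the leading part -/
theorem Tot3_incr (h : SOK B K0) (z0 : Fin m → ℝ) (n : ℕ) (hdp : ∀ i, dp n i)
    (hsz : ∀ i, size (rs n) (R.sf i) ≤ 1) (hΓ : 1 ≤ Γ) {κ D : ℝ≥0∞}
    (hκ : ∀ i U, size (rs n) U ≤ 1 → R.sf i ⊆ U →
      ‖R.mu i (cvG (B.S n) (coP {i} (PP B R rs dp fs K0 z0 n U)))‖ₑ ≤
        κ * pG (W U) (coP {i} (PP B R rs dp fs K0 z0 n U)))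
    (hW0 : ∀ i, W' (R.sf i) 0 = 0) (hv : ∀ i, v' i ≠ ∞) (hv0 : ∀ i, v' i ≠ 0)
    (hs' : ∀ i, size r' (R.sf i) ≤ 1)
    (hD : ∀ i, 3 * Γ * (v' i ^ 2 * pG (W' (R.sf i)) (R.β i)) * κ ≤ D * v i ^ 2) :
    Tot3 W' v' Γ r' (LEAD R fun i => zeta B R rs dp fs K0 z0 (n + 1) i -
      zeta B R rs dp fs K0 z0 n i) ≤ D * Tot W v Γ r (PP B R rs dp fs K0 z0 n) := by
  have hin : ∀ i, ∀ U ∈ (srcE (rs n) R.sf R.ne (dp n) R.mu R.β).inn (R.sf i),
      size (rs n) U ≤ 1 ∧ R.sf i ⊆ U := by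
    intro i U hU
    obtain ⟨h1, j, -, h2, h3⟩ := (mem_srcE_inn _ _ _ _ _ _).1 hU
    exact ⟨h1, h3 ▸ h2⟩
  refine (Tot3_LEAD (R := R) hW0 hv hv0 hΓ hs' (fun i => (zeta B R rs dp fs K0 z0 (n + 1) i -
      zeta B R rs dp fs K0 z0 n i) • R.β i) _ (fun U => rfl)).trans ?_
  -- each increment
  have h1 : ∀ i, 3 * Γ * (v' i ^ 2 * pG (W' (R.sf i)) ((zeta B R rs dp fs K0 z0 (n + 1) i -
      zeta B R rs dp fs K0 z0 n i) • R.β i)) ≤
      ∑ U ∈ (srcE (rs n) R.sf R.ne (dp n) R.mu R.β).inn (R.sf i),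
        D * (v i ^ 2 * pG (W U) (coP {i} (PP B R rs dp fs K0 z0 n U))) := by
    intro i
    have h2 : ‖zeta B R rs dp fs K0 z0 (n + 1) i - zeta B R rs dp fs K0 z0 n i‖ₑ ≤
        ∑ U ∈ (srcE (rs n) R.sf R.ne (dp n) R.mu R.β).inn (R.sf i),
          κ * pG (W U) (coP {i} (PP B R rs dp fs K0 z0 n U)) := by
      rw [zeta_succ h z0 n i (hdp i) (hsz i), add_sub_cancel_left]
      exact (enorm_sum_le _ _).trans (Finset.sum_le_sum fun U hU =>
        hκ i U (hin i U hU).1 (hin i U hU).2)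
    calc 3 * Γ * (v' i ^ 2 * pG (W' (R.sf i)) ((zeta B R rs dp fs K0 z0 (n + 1) i -
          zeta B R rs dp fs K0 z0 n i) • R.β i))
        ≤ 3 * Γ * (v' i ^ 2 * (‖zeta B R rs dp fs K0 z0 (n + 1) i -
          zeta B R rs dp fs K0 z0 n i‖ₑ * pG (W' (R.sf i)) (R.β i))) := by
          gcongr
          exact pG_smul_le _ _ _
      _ = 3 * Γ * (v' i ^ 2 * pG (W' (R.sf i)) (R.β i)) *
          ‖zeta B R rs dp fs K0 z0 (n + 1) i - zeta B R rs dp fs K0 z0 n i‖ₑ := by ring
      _ ≤ 3 * Γ * (v' i ^ 2 * pG (W' (R.sf i)) (R.β i)) *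
          ∑ U ∈ (srcE (rs n) R.sf R.ne (dp n) R.mu R.β).inn (R.sf i),
            κ * pG (W U) (coP {i} (PP B R rs dp fs K0 z0 n U)) := mul_le_mul_right h2 _
      _ = ∑ U ∈ (srcE (rs n) R.sf R.ne (dp n) R.mu R.β).inn (R.sf i),
            (3 * Γ * (v' i ^ 2 * pG (W' (R.sf i)) (R.β i)) * κ) *
              pG (W U) (coP {i} (PP B R rs dp fs K0 z0 n U)) := by
          rw [Finset.mul_sum]
          exact Finset.sum_congr rfl fun U _ => by ring
      _ ≤ ∑ U ∈ (srcE (rs n) R.sf R.ne (dp n) R.mu R.β).inn (R.sf i),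
            D * (v i ^ 2 * pG (W U) (coP {i} (PP B R rs dp fs K0 z0 n U))) := by
          refine Finset.sum_le_sum fun U _ => (mul_le_mul_left (hD i) _).trans (le_of_eq ?_)
          ring
  -- exchange of sums
  set s : Finset (Finset (G × G)) := Finset.univ.biUnion
    (fun i => (srcE (rs n) R.sf R.ne (dp n) R.mu R.β).inn (R.sf i)) with hs
  calc ∑ i, 3 * Γ * (v' i ^ 2 * pG (W' (R.sf i)) ((zeta B R rs dp fs K0 z0 (n + 1) i -
          zeta B R rs dp fs K0 z0 n i) • R.β i))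
      ≤ ∑ i, ∑ U ∈ s, D * (v i ^ 2 * pG (W U) (coP {i} (PP B R rs dp fs K0 z0 n U))) :=
        Finset.sum_le_sum fun i _ => (h1 i).trans (Finset.sum_le_sum_of_subset
          (Finset.subset_biUnion_of_mem (fun i => (srcE (rs n) R.sf R.ne (dp n) R.mu R.β).inn
            (R.sf i)) (Finset.mem_univ i)))
    _ = ∑ U ∈ s, D * ∑ i, v i ^ 2 * pG (W U) (coP {i} (PP B R rs dp fs K0 z0 n U)) := by
        rw [Finset.sum_comm]
        exact Finset.sum_congr rfl fun U _ => by rw [Finset.mul_sum]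
    _ ≤ ∑ U ∈ s, D * pG (wS (W U) v) (PP B R rs dp fs K0 z0 n U) :=
        Finset.sum_le_sum fun U _ => mul_le_mul_right (sum_one_le _ _ _) _
    _ = D * ∑ U ∈ s, pG (wS (W U) v) (PP B R rs dp fs K0 z0 n U) := by rw [Finset.mul_sum]
    _ ≤ D * Tot W v Γ r (PP B R rs dp fs K0 z0 n) := by
        refine mul_le_mul_right (sum_le_Tot hΓ _ _ fun U hU => ?_) _
        obtain ⟨i, _, hi⟩ := Finset.mem_biUnion.1 hU
        exact (R.ne i).mono (hin i U hi).2

/-- **ONE STEP of the total norm of the remainder** (`e ↦ q e + C (b + T + e) e + C b T`);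
`b` = bulk (net norm of the convolved bulk activities), `T` = total norm of the leading part -/
theorem src_step (h : SOK B K0) (z0 : Fin m → ℝ) (n : ℕ) (hdp : ∀ i, dp n i)
    (hsz : ∀ i, size (rs n) (R.sf i) ≤ 1) (hinj : Function.Injective R.sf)
    (hfar : ∀ i j, i ≠ j → ¬ touch (B.near (n + 1)) (R.sf i) (R.sf j))
    (hsymm : ∀ a b, B.near (n + 1) a b → B.near (n + 1) b a)
    (hΓ : 1 ≤ Γ) (hWanti : ∀ U U', U ⊆ U' → ∀ l, W' U' l ≤ W' U l)
    (hW0 : ∀ i, W' (R.sf i) 0 = 0) (hv : ∀ i, v' i ≠ ∞) (hv0 : ∀ i, v' i ≠ 0)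
    (hs' : ∀ i, size r' (R.sf i) ≤ 1)
    {β : Type*} {nr : β → Finset (G × G) → Prop} {C : ℝ≥0∞}
    (hSD : SumData (B.near (n + 1)) β (fun U => Γ ^ size r' U) (fun U => size r' U) nr C)
    (hC1 : 1 ≤ C) {b T κ D qH q3 q e : ℝ≥0∞} (hb0 : b ≠ 0)
    (hb : ∀ p, Sin (fun U => Γ ^ size r' U) (fun U => size r' U) nr
        (fun U => pG (W' U) (B.H n U)) p +
      Sin (fun U => Γ ^ size r' U) (fun U => size r' U) nr (fun U => pG (W' U) (B.A n U)) p ≤ b)
    (hT : ∑ i, 3 * Γ * (v' i ^ 2 * (‖zeta B R rs dp fs K0 z0 n i‖ₑ *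
      (pG (W' (R.sf i)) (cvG (B.S n) (R.β i)) + ‖ctG (cvG (B.S n) (R.β i))‖ₑ))) ≤ T)
    (hκ : ∀ i U, size (rs n) U ≤ 1 → R.sf i ⊆ U →
      ‖R.mu i (cvG (B.S n) (coP {i} (PP B R rs dp fs K0 z0 n U)))‖ₑ ≤
        κ * pG (W U) (coP {i} (PP B R rs dp fs K0 z0 n U)))
    (hD : ∀ i, 3 * Γ * (v' i ^ 2 * pG (W' (R.sf i)) (R.β i)) * κ ≤ D * v i ^ 2)
    (hH : ∀ U, U.Nonempty → (3 * Γ) ^ size r' U *
        pG (wS (W' U) v') (cvG (ext0 m (B.S n)) (PP B R rs dp fs K0 z0 n U)) ≤
      qH * (Γ ^ size r U * pG (wS (W U) v) (PP B R rs dp fs K0 z0 n U)))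
    (h3 : ∀ U, U.Nonempty → (3 * Γ) ^ size r' U *
        pG (wS (W' U) v') (linP B R rs dp fs K0 z0 n U) ≤
      q3 * (Γ ^ size r U * pG (wS (W U) v) (PP B R rs dp fs K0 z0 n U)))
    (h1 : ∀ U, U.Nonempty → Γ ^ size r' U *
        pG (wS (W' U) v') (linP B R rs dp fs K0 z0 n U) ≤
      q * (Γ ^ size r U * pG (wS (W U) v) (PP B R rs dp fs K0 z0 n U)))
    (he : Tot W v Γ r (PP B R rs dp fs K0 z0 n) ≤ e)
    (hsm : 16 * C * (b + T + (2 * qH + q3 + D) * e + b * T) ≤ 1) :
    Tot W' v' Γ r' (PP B R rs dp fs K0 z0 (n + 1)) ≤ q * e +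
      ((6 + 8 * C) * ((b + T + (2 * qH + q3 + D) * e + b * T) * ((2 * qH + q3 + D) * e)) +
        (5 + 8 * C) * (b * T)) := by
  classical
  have hW1 : ∀ U : Finset (G × G), (1 : ℝ≥0∞) ≤ Γ ^ size r' U := fun U => one_le_pow₀ hΓ
  -- the three families
  set H2 : Finset (G × G) → Ge (VS V m) := fun U =>
    cvG (ext0 m (B.S n)) (LEAD R (zeta B R rs dp fs K0 z0 n) U) with hH2
  set H3 : Finset (G × G) → Ge (VS V m) := fun U =>
    cvG (ext0 m (B.S n)) (PP B R rs dp fs K0 z0 n U) with hH3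
  set A2 : Finset (G × G) → Ge (VS V m) := fun U => AA vacS (exS B R rs dp n) H2 U with hA2
  set A3 : Finset (G × G) → Ge (VS V m) := fun U => AA vacS (exS B R rs dp n) H3 U with hA3
  -- norms of the bulk
  have nb : ∀ p, Sin (fun U => Γ ^ size r' U) (fun U => size r' U) nr
        (fun U => pG (wS (W' U) v') (inG m (B.H n U))) p +
      Sin (fun U => Γ ^ size r' U) (fun U => size r' U) nr
        (fun U => pG (wS (W' U) v') (inG m (B.A n U))) p ≤ b := fun p =>
    (add_le_add (Sin_mono fun U _ => pG_inG_le _) (Sin_mono fun U _ => pG_inG_le _)).trans (hb p)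
  -- norms of the leading part
  have nT : Tin (fun U => Γ ^ size r' U) (fun U => size r' U)
        (fun U => pG (wS (W' U) v') (H2 U)) +
      Tin (fun U => Γ ^ size r' U) (fun U => size r' U)
        (fun U => pG (wS (W' U) v') (A2 U)) ≤ T := by
    have t2 : Tot3 W' v' Γ r' H2 ≤ _ := Tot3_LEAD (R := R) hW0 hv hv0 hΓ hs'
      (fun i => zeta B R rs dp fs K0 z0 n i • cvG (B.S n) (R.β i)) _ (fun U => cv_LEAD _ _ U)
    have t3 : Tot3 W' v' Γ r' A2 ≤ _ := Tot3_LEAD (R := R) hW0 hv hv0 hΓ hs'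
      (fun i => -algebraMap ℝ _ (zeta B R rs dp fs K0 z0 n i * ctG (cvG (B.S n) (R.β i)))) _
      (fun U => by
        rw [hA2]
        simp only []
        rw [hH2, AA_LEAD n _ hdp hsz, ← Finset.sum_neg_distrib]
        exact Finset.sum_congr rfl fun i _ => by rw [map_neg, mul_neg])
    refine (add_le_add t2 t3).trans (le_trans ?_ hT)
    rw [← Finset.sum_add_distrib]
    refine Finset.sum_le_sum fun i _ => ?_
    rw [← mul_add, ← mul_add, mul_add (‖zeta B R rs dp fs K0 z0 n i‖ₑ)]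
    refine mul_le_mul_right (mul_le_mul_right (add_le_add (pG_smul_le _ _ _) ?_) _) _
    rw [pG_neg, Algebra.algebraMap_eq_smul_one, ← enorm_mul]
    refine (pG_smul_le _ _ _).trans ?_
    exact mul_le_of_le_one_right' (pG_one_le _)
  -- norms of the remainder
  have nlin : Tot3 W' v' Γ r' (linP B R rs dp fs K0 z0 n) ≤ q3 * e :=
    (Tot3_le h3).trans (mul_le_mul_right he _)
  have nH3 : Tot3 W' v' Γ r' H3 ≤ qH * e := (Tot3_le hH).trans (mul_le_mul_right he _)
  have ninc := (Tot3_incr (v := v) (r := r) h z0 n hdp hsz hΓ hκ hW0 hv hv0 hs' hD).trans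
    (mul_le_mul_right he D)
  have nA3 : Tot3 W' v' Γ r' A3 ≤ (qH + q3 + D) * e := by
    have e1 : ∀ U, A3 U = LEAD R (fun i => zeta B R rs dp fs K0 z0 (n + 1) i -
        zeta B R rs dp fs K0 z0 n i) U + linP B R rs dp fs K0 z0 n U - H3 U := by
      intro U
      have := HA_PP h z0 n hdp hsz (fs := fs) U
      rw [← this]
      simp only [hA3, hH3]
      abel
    have e2 : Tot3 W' v' Γ r' A3 ≤ Tin (fun U => Γ ^ size r' U) (fun U => size r' U)
        (fun U => (pG (wS (W' U) v') (LEAD R (fun i => zeta B R rs dp fs K0 z0 (n + 1) i -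
          zeta B R rs dp fs K0 z0 n i) U) +
          pG (wS (W' U) v') (linP B R rs dp fs K0 z0 n U)) + pG (wS (W' U) v') (H3 U)) :=
      Tin_mono fun U _ => by
        show pG (wS (W' U) v') (A3 U) ≤ _
        rw [e1]
        exact (pG_sub_le _ _ _).trans (add_le_add (pG_add_le _ _ _) le_rfl)
    refine e2.trans ?_
    rw [Tin_add, Tin_add]
    calc _ ≤ (D * e + q3 * e) + qH * e := add_le_add (add_le_add ninc nlin) nH3
      _ = (qH + q3 + D) * e := by ring
  have nP : Tin (fun U => Γ ^ size r' U) (fun U => size r' U)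
        (fun U => pG (wS (W' U) v') (H3 U)) +
      Tin (fun U => Γ ^ size r' U) (fun U => size r' U)
        (fun U => pG (wS (W' U) v') (A3 U)) ≤ (2 * qH + q3 + D) * e := by
    refine (add_le_add nH3 nA3).trans (le_of_eq ?_)
    ring
  have key := NL3 (near := B.near n) (near' := B.near (n + 1)) hsymm
    (gfam_src v' hWanti) hSD hW1 (H1 := fun U => inG m (B.H n U)) (H2 := H2) (H3 := H3)
    (A1 := fun U => inG m (B.A n U)) (A2 := A2) (A3 := A3) (β0 := b) (t := T) (T := T)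
    (e := (2 * qH + q3 + D) * e) nb
    (fun p => (add_le_add (Sin_le_Tin hSD _ p) (Sin_le_Tin hSD _ p)).trans nT) nT nP hC1 hb0 hsm
  -- the linear part
  have klin : Tot W' v' Γ r' (linP B R rs dp fs K0 z0 n) ≤ q * e :=
    (Tot_le h1).trans (mul_le_mul_right he _)
  have e1 : Tot W' v' Γ r' (PP B R rs dp fs K0 z0 (n + 1)) ≤
      Tout (fun U => Γ ^ size r' U) (fun U => pG (wS (W' U) v') (linP B R rs dp fs K0 z0 n U) +
        pG (wS (W' U) v') (NL (B.near n) (B.near (n + 1))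
          (fun U => inG m (B.H n U) + H2 U + H3 U) (fun U => inG m (B.A n U) + A2 U + A3 U) U
          - NL (B.near n) (B.near (n + 1)) (fun U => inG m (B.H n U)) (fun U => inG m (B.A n U)) U
          - NL (B.near n) (B.near (n + 1)) H2 A2 U)) := by
    refine Tout_mono fun U hU => ?_
    show pG (wS (W' U) v') (PP B R rs dp fs K0 z0 (n + 1) U) ≤ _
    rw [PP_succ h z0 n U hdp hsz, RemP_eq h z0 n hdp hsz hinj hfar hU]
    exact pG_add_le _ _ _
  refine e1.trans ?_
  rw [Tout_add]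
  exact add_le_add klin key

end step

/-! ### short form of the step -/

section short

/-- short form of the bound of `src_step` -/
theorem step_short {b T e c C q : ℝ≥0∞} (hT : T ≤ 1) :
    q * e + ((6 + 8 * C) * ((b + T + c * e + b * T) * (c * e)) + (5 + 8 * C) * (b * T)) ≤
      (q + ((6 + 8 * C) * (c * (2 + c)) + (5 + 8 * C)) * (b + T + e)) * e +
        ((6 + 8 * C) * (c * (2 + c)) + (5 + 8 * C)) * (b * T) := by
  have h1 : b + T + c * e + b * T ≤ (2 + c) * (b + T + e) := by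
    calc b + T + c * e + b * T ≤ b + T + c * e + b * 1 := by gcongr
      _ = 2 * b + 1 * T + c * e := by ring
      _ ≤ (2 + c) * b + (2 + c) * T + (2 + c) * e := by
          gcongr
          · exact le_self_add
          · exact le_trans (by norm_num) (le_self_add (a := (2 : ℝ≥0∞)) (b := c))
          · exact le_add_self
      _ = (2 + c) * (b + T + e) := by ring
  calc q * e + ((6 + 8 * C) * ((b + T + c * e + b * T) * (c * e)) + (5 + 8 * C) * (b * T))
      ≤ q * e + ((6 + 8 * C) * (((2 + c) * (b + T + e)) * (c * e)) + (5 + 8 * C) * (b * T)) := by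
        gcongr
    _ = (q + ((6 + 8 * C) * (c * (2 + c))) * (b + T + e)) * e + (5 + 8 * C) * (b * T) := by ring
    _ ≤ _ := add_le_add (mul_le_mul_left (add_le_add le_rfl (mul_le_mul_left le_self_add _)) _)
        (mul_le_mul_left le_add_self _)

end short

/-! ### scalar recursions -/

section scalar

/-- partial sums of a geometric series -/
theorem geo_le {ρ : ℝ≥0∞} (n : ℕ) : ∑ k ∈ Finset.range n, ρ ^ k ≤ (1 - ρ)⁻¹ := by
  rw [← ENNReal.tsum_geometric]
  exact ENNReal.sum_le_tsum _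

/-- distances of a sequence with geometrically small increments -/
theorem zeta_dist {z : ℕ → ℝ} {N : ℕ} {a ρ : ℝ≥0∞}
    (h : ∀ k < N, ‖z (k + 1) - z k‖ₑ ≤ a * ρ ^ k) {k n : ℕ} (hkn : k ≤ n) (hn : n ≤ N) :
    ‖z n - z k‖ₑ ≤ a * ρ ^ k * (1 - ρ)⁻¹ := by
  obtain ⟨j, rfl⟩ := Nat.exists_eq_add_of_le hkn
  have key : ∀ j, k + j ≤ N → ‖z (k + j) - z k‖ₑ ≤ a * ρ ^ k * ∑ i ∈ Finset.range j, ρ ^ i := by
    intro j
    induction j with
    | zero => intro _; simp
    | succ j ih =>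
      intro hj
      have e : z (k + (j + 1)) - z k = (z (k + j + 1) - z (k + j)) + (z (k + j) - z k) := by
        rw [← add_assoc]; ring
      rw [e]
      refine (enorm_add_le _ _).trans ((add_le_add (h (k + j) (by omega)) (ih (by omega))).trans
        (le_of_eq ?_))
      rw [Finset.sum_range_succ, pow_add]
      ring
  exact (key j hn).trans (mul_le_mul_right (geo_le j) _)

/-- **the joint recursion** for the total norm of the remainder and the running coefficients -/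
theorem src_rec_joint {ι : Type*} {b e : ℕ → ℝ≥0∞} {z : ℕ → ι → ℝ} {N : ℕ}
    {ε t T κ C M ρ a : ℝ≥0∞} (hρ : ρ ≤ 1)
    (hb : ∀ k ≤ N, b k ≤ ε * ρ ^ k) (h0 : e 0 ≤ M * ε * T)
    (hM : (κ + C * (ε + t + M * ε * T)) * M + C ≤ M * ρ)
    (hz0 : ∀ i, ‖z 0 i‖ₑ ≤ 3 / 2) (ha : a * (M * ε * T) * (1 - ρ)⁻¹ ≤ 1 / 2)
    (hz : ∀ k < N, ∀ i, ‖z (k + 1) i - z k i‖ₑ ≤ a * e k)
    (hstep : ∀ k < N, e k ≤ M * ε * T * ρ ^ k → (∀ i, ‖z k i‖ₑ ≤ 2) →
      e (k + 1) ≤ (κ + C * (b k + t + e k)) * e k + C * (b k * T)) :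
    ∀ k ≤ N, e k ≤ M * ε * T * ρ ^ k ∧ ∀ i, ‖z k i‖ₑ ≤ 2 := by
  have hz' : ∀ k, (∀ j < k, e j ≤ M * ε * T * ρ ^ j) → k ≤ N → ∀ i, ‖z k i‖ₑ ≤ 2 := by
    intro k hk hkN i
    have h1 := zeta_dist (z := fun k => z k i) (N := k) (a := a * (M * ε * T)) (ρ := ρ)
      (fun j hj => (hz j (by omega) i).trans ((mul_le_mul_right (hk j hj) _).trans
        (le_of_eq (by ring)))) (Nat.zero_le k) le_rfl
    rw [pow_zero, mul_one] at h1
    have e1 : z k i = (z k i - z 0 i) + z 0 i := by ring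
    rw [e1]
    refine (enorm_add_le _ _).trans ((add_le_add (h1.trans ha) (hz0 i)).trans (le_of_eq ?_))
    have h22 : (2 : ℝ≥0∞) * (2 : ℝ≥0∞)⁻¹ = 1 := ENNReal.mul_inv_cancel (by norm_num) (by norm_num)
    calc (1 / 2 + 3 / 2 : ℝ≥0∞) = 2 * (2 * 2⁻¹) := by
          rw [div_eq_mul_inv, div_eq_mul_inv]; ring
      _ = 2 := by rw [h22, mul_one]
  intro k
  induction k using Nat.strong_induction_on with
  | _ k ih =>
    intro hk
    have hzk := hz' k (fun j hj => (ih j hj (by omega)).1) hk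
    refine ⟨?_, hzk⟩
    rcases k with _ | k
    · simpa using h0
    · have ihk := (ih k (by omega) (by omega)).1
      have hzk' := (ih k (by omega) (by omega)).2
      have hqk : ρ ^ k ≤ 1 := pow_le_one₀ (by simp) hρ
      have hbk : b k ≤ ε := (hb k (by omega)).trans (mul_le_of_le_one_right' hqk)
      have hek : e k ≤ M * ε * T := ihk.trans (mul_le_of_le_one_right' hqk)
      refine (hstep k (by omega) ihk hzk').trans ?_
      calc (κ + C * (b k + t + e k)) * e k + C * (b k * T)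
          ≤ (κ + C * (ε + t + M * ε * T)) * (M * ε * T * ρ ^ k) + C * (ε * ρ ^ k * T) := by
            gcongr
            exact hb k (by omega)
        _ = ((κ + C * (ε + t + M * ε * T)) * M + C) * (ε * T * ρ ^ k) := by ring
        _ ≤ (M * ρ) * (ε * T * ρ ^ k) := mul_le_mul_left hM _
        _ = M * ε * T * ρ ^ (k + 1) := by rw [pow_succ]; ring

/-- **recursion with finitely many crude steps** `k ∈ J` (factor `Ĉ`), contracting steps otherwise
(factor `σ`); `c k` = sources, `τ k` = other activities -/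
theorem crude_rec {e τ c κ : ℕ → ℝ≥0∞} {N : ℕ} {M Ĉ σ δ τ0 : ℝ≥0∞} {J : Finset ℕ}
    (hσ : σ ≤ 1) (hC : 1 ≤ Ĉ) (hκ : ∀ k, k ∉ J → κ k + δ ≤ σ) (hκ' : ∀ k ∈ J, κ k + δ ≤ Ĉ)
    (hτ : ∀ k < N, τ k ≤ τ0)
    (hδ : M * (τ0 + Ĉ ^ J.card * (e 0 + ∑ k ∈ Finset.range N, c k)) ≤ δ)
    (hstep : ∀ k < N, M * (τ k + e k) ≤ δ →
      e (k + 1) ≤ (κ k + M * (τ k + e k)) * e k + c k) :
    ∀ k ≤ N, e k ≤ Ĉ ^ J.card * (e 0 + ∑ j ∈ Finset.range N, c j) ∧
      (k < N → M * (τ k + e k) ≤ δ) := by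
  classical
  have hP : ∀ k, Ĉ ^ (J.filter (· < k)).card ≤ Ĉ ^ J.card := fun k =>
    pow_le_pow_right₀ hC (Finset.card_filter_le _ _)
  have key : ∀ k ≤ N, e k ≤ Ĉ ^ (J.filter (· < k)).card * (e 0 + ∑ j ∈ Finset.range k, c j) := by
    intro k
    induction k with
    | zero => intro _; simp
    | succ k ih =>
      intro hk
      have ihk := ih (by omega)
      have hsum : ∑ j ∈ Finset.range k, c j ≤ ∑ j ∈ Finset.range N, c j :=
        Finset.sum_le_sum_of_subset (Finset.range_mono (by omega))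
      have hek : e k ≤ Ĉ ^ J.card * (e 0 + ∑ j ∈ Finset.range N, c j) :=
        ihk.trans (mul_le_mul' (hP k) (add_le_add le_rfl hsum))
      have hsmall : M * (τ k + e k) ≤ δ :=
        (mul_le_mul_right (add_le_add (hτ k (by omega)) hek) _).trans hδ
      refine (hstep k (by omega) hsmall).trans ?_
      have hone : 1 ≤ Ĉ ^ (J.filter (· < k + 1)).card := one_le_pow₀ hC
      have hfac : (κ k + M * (τ k + e k)) * Ĉ ^ (J.filter (· < k)).card ≤
          Ĉ ^ (J.filter (· < k + 1)).card := by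
        by_cases hkJ : k ∈ J
        · have h1 : J.filter (· < k + 1) = insert k (J.filter (· < k)) := by
            ext j
            simp only [Finset.mem_filter, Finset.mem_insert]
            constructor
            · rintro ⟨h1, h2⟩
              rcases Nat.lt_or_ge j k with h | h
              · exact Or.inr ⟨h1, h⟩
              · exact Or.inl (by omega)
            · rintro (rfl | ⟨h1, h2⟩)
              · exact ⟨hkJ, by omega⟩
              · exact ⟨h1, by omega⟩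
          have h2 : k ∉ J.filter (· < k) := by simp
          rw [h1, Finset.card_insert_of_notMem h2, pow_succ, mul_comm]
          exact mul_le_mul_right ((add_le_add le_rfl hsmall).trans (hκ' k hkJ)) _
        · have h1 : J.filter (· < k + 1) = J.filter (· < k) := by
            ext j
            simp only [Finset.mem_filter]
            constructor
            · rintro ⟨h1, h2⟩
              refine ⟨h1, ?_⟩
              rcases Nat.lt_or_ge j k with h | h
              · exact h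
              · have : j = k := by omega
                exact absurd (this ▸ h1) hkJ
            · rintro ⟨h1, h2⟩
              exact ⟨h1, by omega⟩
          rw [h1]
          calc _ ≤ 1 * Ĉ ^ (J.filter (· < k)).card :=
                mul_le_mul_left (((add_le_add le_rfl hsmall).trans (hκ k hkJ)).trans hσ) _
            _ = _ := one_mul _
      calc (κ k + M * (τ k + e k)) * e k + c k
          ≤ (κ k + M * (τ k + e k)) *
              (Ĉ ^ (J.filter (· < k)).card * (e 0 + ∑ j ∈ Finset.range k, c j)) + 1 * c k := by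
            rw [one_mul]
            exact add_le_add (mul_le_mul_right ihk _) le_rfl
        _ = ((κ k + M * (τ k + e k)) * Ĉ ^ (J.filter (· < k)).card) *
              (e 0 + ∑ j ∈ Finset.range k, c j) + 1 * c k := by ring
        _ ≤ Ĉ ^ (J.filter (· < k + 1)).card * (e 0 + ∑ j ∈ Finset.range k, c j) +
              Ĉ ^ (J.filter (· < k + 1)).card * c k := by
            gcongr
        _ = Ĉ ^ (J.filter (· < k + 1)).card * (e 0 + ∑ j ∈ Finset.range (k + 1), c j) := by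
            rw [Finset.sum_range_succ]; ring
  intro k hk
  have hsum : ∑ j ∈ Finset.range k, c j ≤ ∑ j ∈ Finset.range N, c j :=
    Finset.sum_le_sum_of_subset (Finset.range_mono hk)
  have hek : e k ≤ Ĉ ^ J.card * (e 0 + ∑ j ∈ Finset.range N, c j) :=
    (key k hk).trans (mul_le_mul' (hP k) (add_le_add le_rfl hsum))
  exact ⟨hek, fun hkN => (mul_le_mul_right (add_le_add (hτ k hkN) hek) _).trans hδ⟩

/-- the sum over all scales, uniformly in the number of steps -/
theorem crude_sum {e τ c κ : ℕ → ℝ≥0∞} {N : ℕ} {M Ĉ σ δ τ0 : ℝ≥0∞} {J : Finset ℕ}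
    (hσ : σ < 1) (hC : 1 ≤ Ĉ) (hCt : Ĉ ≠ ∞) (hκ : ∀ k, k ∉ J → κ k + δ ≤ σ)
    (hκ' : ∀ k ∈ J, κ k + δ ≤ Ĉ) (hτ : ∀ k < N, τ k ≤ τ0)
    (hδ : M * (τ0 + Ĉ ^ J.card * (e 0 + ∑ k ∈ Finset.range N, c k)) ≤ δ)
    (hfin : e 0 + ∑ k ∈ Finset.range N, c k ≠ ∞)
    (hstep : ∀ k < N, M * (τ k + e k) ≤ δ →
      e (k + 1) ≤ (κ k + M * (τ k + e k)) * e k + c k) :
    ∑ k ∈ Finset.range (N + 1), e k ≤
      (1 - σ)⁻¹ * ((1 + Ĉ * J.card * Ĉ ^ J.card) * (e 0 + ∑ k ∈ Finset.range N, c k)) := by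
  classical
  have hrec := crude_rec hσ.le hC hκ hκ' hτ hδ hstep
  set X : ℝ≥0∞ := e 0 + ∑ k ∈ Finset.range N, c k with hX
  set S : ℝ≥0∞ := ∑ k ∈ Finset.range (N + 1), e k with hS
  have hSt : S ≠ ∞ := by
    refine ENNReal.sum_ne_top.2 fun k hk => ?_
    have := (hrec k (by rw [Finset.mem_range] at hk; omega)).1
    exact ne_top_of_le_ne_top (ENNReal.mul_ne_top (ENNReal.pow_ne_top hCt) hfin) this
  have hone : ∀ k ∈ Finset.range N, e (k + 1) ≤
      σ * e k + (if k ∈ J then Ĉ * (Ĉ ^ J.card * X) else 0) + c k := by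
    intro k hk
    rw [Finset.mem_range] at hk
    obtain ⟨h1, h2⟩ := hrec k hk.le
    refine (hstep k hk (h2 hk)).trans (add_le_add ?_ le_rfl)
    split_ifs with hkJ
    · refine le_trans ?_ le_add_self
      exact mul_le_mul' ((add_le_add le_rfl (h2 hk)).trans (hκ' k hkJ)) h1
    · rw [add_zero]
      exact mul_le_mul_left ((add_le_add le_rfl (h2 hk)).trans (hκ k hkJ)) _
  have hsumJ : ∑ k ∈ Finset.range N, (if k ∈ J then Ĉ * (Ĉ ^ J.card * X) else 0) ≤
      J.card * (Ĉ * (Ĉ ^ J.card * X)) := by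
    rw [← Finset.sum_filter, Finset.sum_const, nsmul_eq_mul]
    refine mul_le_mul_left ?_ _
    exact_mod_cast Finset.card_le_card fun k hk => (Finset.mem_filter.1 hk).2
  have hS1 : S ≤ σ * S + ((1 + Ĉ * J.card * Ĉ ^ J.card) * X) := by
    calc S = ∑ k ∈ Finset.range N, e (k + 1) + e 0 := Finset.sum_range_succ' _ _
      _ ≤ ∑ k ∈ Finset.range N, (σ * e k + (if k ∈ J then Ĉ * (Ĉ ^ J.card * X) else 0) + c k)
          + e 0 := add_le_add (Finset.sum_le_sum hone) le_rfl
      _ = σ * ∑ k ∈ Finset.range N, e k +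
          ∑ k ∈ Finset.range N, (if k ∈ J then Ĉ * (Ĉ ^ J.card * X) else 0) + X := by
          rw [Finset.sum_add_distrib, Finset.sum_add_distrib, Finset.mul_sum, hX]
          ring
      _ ≤ σ * S + J.card * (Ĉ * (Ĉ ^ J.card * X)) + X := by
          refine add_le_add (add_le_add (mul_le_mul_right ?_ _) hsumJ) le_rfl
          exact Finset.sum_le_sum_of_subset (Finset.range_mono (by omega))
      _ = σ * S + ((1 + Ĉ * J.card * Ĉ ^ J.card) * X) := by ring
  have h1σ : (1 - σ) ≠ 0 := (tsub_pos_of_lt hσ).ne'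
  have h1σt : (1 - σ) ≠ ∞ := ne_top_of_le_ne_top ENNReal.one_ne_top tsub_le_self
  have hS2 : (1 - σ) * S ≤ (1 + Ĉ * J.card * Ĉ ^ J.card) * X := by
    rw [ENNReal.sub_mul (fun _ _ => hSt), one_mul]
    exact tsub_le_iff_left.2 hS1
  calc S = (1 - σ)⁻¹ * ((1 - σ) * S) := by
        rw [← mul_assoc, ENNReal.inv_mul_cancel h1σ h1σt, one_mul]
    _ ≤ _ := mul_le_mul_right hS2 _

end scalar

end Crest.Agent.R165.SrcRecx54
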