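import Crest.Agent.R165.ExpA_337
import Crest.Agent.R165.KFlow_337

/-!
# Row 165 (S0250), leaf P11 (sources), abstract step (helper54)

* `QQ_lead` : the terms with at least two items vanish EXACTLY for a leading family (supported on
  pairwise non-touching sets `U i`, values `τ i * x`, `τ i ^ 2 = 0`)
* `gexp_lead` : `gexp x - 1 - x = 0` if `x * x = 0`, `ctG x = 0`
* `Sin`, `Sout` : summed norms (input and output weights of `Quad_897`)
* `quad_diff` : Lipschitz bound for the nonlinear part `(B - A) + QQ` of one step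
* `quad_lead` : the nonlinear part of the step of `LEAD + (small)` is `O(ε η)`, `η` = small part
-/

set_option autoImplicit false
set_option linter.unusedSectionVars false

open scoped ENNReal
open Crest.Agent.R165.Gr0x606 Crest.Agent.R165.Gr1x606 Crest.Agent.R165.GeOpsx337
  Crest.Agent.R165.ExpGx337 Crest.Agent.R165.KFlowx337 Crest.Agent.R165.KCompx892
  Crest.Agent.R165.KStepx892 Crest.Agent.R165.Quadx897 Crest.Agent.R165.ExpAx337

namespace Crest.Agent.R165.SrcStepx54

/-! ### exact vanishing -/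

section lead

variable {F : Type*} [DecidableEq F] {R : Type*} [CommRing R] {near near' : F → F → Prop}
  {I : Type*} {U : I → Finset F} {τ : I → R}

/-- a leading family: supported on the sets `U i`, with values divisible by `τ i` -/
def IsLead (U : I → Finset F) (τ : I → R) (K : Finset F → R) : Prop :=
  ∀ W, K W ≠ 0 → ∃ i, W = U i ∧ ∃ x, K W = τ i * x

theorem IsLead.zero : IsLead U τ (fun _ => (0 : R)) := fun _ h => absurd rfl h

theorem QQ_lead (hinj : Function.Injective U) (hU : ∀ i j, i ≠ j → ¬ touch near' (U i) (U j))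
    (hτ : ∀ i, τ i * τ i = 0) {K B : Finset F → R} (hK : IsLead U τ K) (hB : IsLead U τ B)
    (W : Finset F) : QQ near near' K B W = 0 := by
  classical
  unfold QQ
  refine Finset.sum_eq_zero fun T hT => ?_
  rw [Finset.mem_filter] at hT
  obtain ⟨-, hc, -, h2⟩ := hT
  unfold wt
  split_ifs with hg
  swap
  · rfl
  by_contra hne
  have hfac : ∀ t ∈ T, Sum.elim K B t ≠ 0 := fun t ht h0 =>
    hne (Finset.prod_eq_zero ht h0)
  have hex : ∀ t ∈ T, ∃ i, sp t = U i ∧ ∃ x, Sum.elim K B t = τ i * x := by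
    rintro (V | V) ht
    · obtain ⟨i, hi, x, hx⟩ := hK V (hfac _ ht)
      exact ⟨i, hi, x, hx⟩
    · obtain ⟨i, hi, x, hx⟩ := hB V (hfac _ ht)
      exact ⟨i, hi, x, hx⟩
  obtain ⟨t0, ht0⟩ := hc.1
  obtain ⟨i0, hi0, -⟩ := hex t0 ht0
  have hall : T.filter (fun t => sp t = U i0) = T := by
    refine hc.2 _ (Finset.filter_subset _ _) ⟨t0, Finset.mem_filter.2 ⟨ht0, hi0⟩⟩ ?_
    intro a ha b hb hab
    rw [Finset.mem_filter] at ha
    rw [Finset.mem_sdiff, Finset.mem_filter, not_and] at hb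
    obtain ⟨j, hj, -⟩ := hex b hb.1
    have hji : i0 ≠ j := fun h => hb.2 hb.1 (by rw [hj, h])
    refine hU i0 j hji ?_
    have : touch near' (sp a) (sp b) := hab
    rwa [ha.2, hj] at this
  have hsp : ∀ t ∈ T, sp t = U i0 := fun t ht => by
    rw [← hall] at ht
    exact (Finset.mem_filter.1 ht).2
  have hsub : T ⊆ {Sum.inl (U i0), Sum.inr (U i0)} := by
    rintro (V | V) ht
    · have := hsp _ ht
      rw [sp_inl] at this
      rw [this]; simp
    · have := hsp _ ht
      rw [sp_inr] at this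
      rw [this]; simp
  have hTeq : T = {Sum.inl (U i0), Sum.inr (U i0)} := by
    refine Finset.eq_of_subset_of_card_le hsub ?_
    rw [Finset.card_pair (by simp)]
    exact h2
  apply hne
  rw [hTeq, Finset.prod_pair (by simp)]
  obtain ⟨i, hi, x, hx⟩ := hex (Sum.inl (U i0)) (by rw [hTeq]; simp)
  obtain ⟨j, hj, y, hy⟩ := hex (Sum.inr (U i0)) (by rw [hTeq]; simp)
  rw [sp_inl] at hi
  rw [sp_inr] at hj
  have e1 : i0 = i := hinj hi
  have e2 : i0 = j := hinj hj
  subst e1
  subst e2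
  rw [hx, hy]
  calc τ i0 * x * (τ i0 * y) = (τ i0 * τ i0) * (x * y) := by ring
    _ = 0 := by rw [hτ, zero_mul]

end lead

section ge

variable {V : Type*} [AddCommGroup V] [Module ℝ V]

theorem gexp_lead {x : Ge V} (h0 : ctG x = 0) (h : x * x = 0) : gexp x = 1 + x := by
  have hn : nl x = x := by rw [nl, h0, map_zero, sub_zero]
  rw [gexp, h0, Real.exp_zero, one_smul, hn, nexp_eq_sum (k := 2) (by rw [pow_two]; exact h)]
  simp [Finset.sum_range_succ]

end ge

/-! ### summed norms -/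

section sums

variable {F : Type*} [DecidableEq F] {β : Type*} {Wo : Finset F → ℝ≥0∞} {sz : Finset F → ℕ}
  {nr : β → Finset F → Prop}

/-- summed norm with the input weights -/
noncomputable def Sin (Wo : Finset F → ℝ≥0∞) (sz : Finset F → ℕ) (nr : β → Finset F → Prop)
    (x : Finset F → ℝ≥0∞) (p : β) : ℝ≥0∞ :=
  ∑' U, Set.indicator {U | nr p U} (fun U => Wo U * 3 ^ sz U * x U) U

/-- summed norm with the output weights -/
noncomputable def Sout (Wo : Finset F → ℝ≥0∞) (nr : β → Finset F → Prop)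
    (x : Finset F → ℝ≥0∞) (p : β) : ℝ≥0∞ :=
  ∑' U, Set.indicator {U | nr p U} (fun U => Wo U * x U) U

theorem Sin_mono {x y : Finset F → ℝ≥0∞} {p : β} (h : ∀ U, nr p U → x U ≤ y U) :
    Sin Wo sz nr x p ≤ Sin Wo sz nr y p := by
  refine ENNReal.tsum_le_tsum fun U => ?_
  by_cases hp : nr p U
  · rw [Set.indicator_of_mem (by exact hp), Set.indicator_of_mem (by exact hp)]
    exact mul_le_mul_right (h U hp) _
  · rw [Set.indicator_of_notMem (by exact hp)]
    exact bot_le

theorem Sout_mono {x y : Finset F → ℝ≥0∞} {p : β} (h : ∀ U, nr p U → x U ≤ y U) :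
    Sout Wo nr x p ≤ Sout Wo nr y p := by
  refine ENNReal.tsum_le_tsum fun U => ?_
  by_cases hp : nr p U
  · rw [Set.indicator_of_mem (by exact hp), Set.indicator_of_mem (by exact hp)]
    exact mul_le_mul_right (h U hp) _
  · rw [Set.indicator_of_notMem (by exact hp)]
    exact bot_le

theorem Sout_le_Sin (x : Finset F → ℝ≥0∞) (p : β) : Sout Wo nr x p ≤ Sin Wo sz nr x p := by
  refine ENNReal.tsum_le_tsum fun U => Set.indicator_le_indicator ?_
  refine mul_le_mul_left ?_ _
  calc Wo U = Wo U * 1 := (mul_one _).symm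
    _ ≤ Wo U * 3 ^ sz U := mul_le_mul_right (one_le_pow₀ (by norm_num)) _

theorem Sin_add (x y : Finset F → ℝ≥0∞) (p : β) :
    Sin Wo sz nr (fun U => x U + y U) p = Sin Wo sz nr x p + Sin Wo sz nr y p := by
  unfold Sin
  rw [← ENNReal.tsum_add]
  refine tsum_congr fun U => ?_
  by_cases h : nr p U
  · simp only [Set.indicator_of_mem (show U ∈ {U | nr p U} from h), mul_add]
  · simp only [Set.indicator_of_notMem (show U ∉ {U | nr p U} from h), add_zero]

theorem Sout_add (x y : Finset F → ℝ≥0∞) (p : β) :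
    Sout Wo nr (fun U => x U + y U) p = Sout Wo nr x p + Sout Wo nr y p := by
  unfold Sout
  rw [← ENNReal.tsum_add]
  refine tsum_congr fun U => ?_
  by_cases h : nr p U
  · simp only [Set.indicator_of_mem (show U ∈ {U | nr p U} from h), mul_add]
  · simp only [Set.indicator_of_notMem (show U ∉ {U | nr p U} from h), add_zero]

theorem Sin_smul (c : ℝ≥0∞) (x : Finset F → ℝ≥0∞) (p : β) :
    Sin Wo sz nr (fun U => c * x U) p = c * Sin Wo sz nr x p := by
  unfold Sin
  rw [← ENNReal.tsum_mul_left]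
  refine tsum_congr fun U => ?_
  by_cases h : nr p U
  · simp only [Set.indicator_of_mem (show U ∈ {U | nr p U} from h)]; ring
  · simp only [Set.indicator_of_notMem (show U ∉ {U | nr p U} from h), mul_zero]

theorem Sout_smul (c : ℝ≥0∞) (x : Finset F → ℝ≥0∞) (p : β) :
    Sout Wo nr (fun U => c * x U) p = c * Sout Wo nr x p := by
  unfold Sout
  rw [← ENNReal.tsum_mul_left]
  refine tsum_congr fun U => ?_
  by_cases h : nr p U
  · simp only [Set.indicator_of_mem (show U ∈ {U | nr p U} from h)]; ring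
  · simp only [Set.indicator_of_notMem (show U ∉ {U | nr p U} from h), mul_zero]

theorem Sin_zero (p : β) : Sin Wo sz nr (fun _ => 0) p = 0 := by
  unfold Sin
  simp

/-- one polymer -/
theorem le_Sin (hW : ∀ U, 1 ≤ Wo U) {x : Finset F → ℝ≥0∞} {p : β} {U : Finset F} (h : nr p U) :
    x U ≤ Sin Wo sz nr x p := by
  have h1 := ENNReal.le_tsum (f := fun U : Finset F =>
    Set.indicator {U | nr p U} (fun U => Wo U * 3 ^ sz U * x U) U) U
  rw [Set.indicator_of_mem (by exact h)] at h1
  refine le_trans ?_ h1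
  calc x U = 1 * 1 * x U := by ring
    _ ≤ Wo U * 3 ^ sz U * x U :=
      mul_le_mul_left (mul_le_mul' (hW U) (one_le_pow₀ (by norm_num))) _

end sums

/-! ### the nonlinear part of one step -/

section quad

variable {F : Type*} [DecidableEq F] {V : Type*} [AddCommGroup V] [Module ℝ V]
  {near near' : F → F → Prop} {β : Type*} {Wo : Finset F → ℝ≥0∞} {sz : Finset F → ℕ}
  {nr : β → Finset F → Prop} {C : ℝ≥0∞} {nm : Finset F → Ge V → ℝ≥0∞}

/-- the extraction activity -/
noncomputable def Bx (A : Finset F → Ge V) (U : Finset F) : Ge V := gexp (A U) - 1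

/-- the nonlinear part of one step: `K' = H + A + NL` -/
noncomputable def NL (near near' : F → F → Prop) (H A : Finset F → Ge V) (W : Finset F) : Ge V :=
  (Bx A W - A W) + QQ near near' H (Bx A) W

theorem KK_eq_NL {H A : Finset F → Ge V} {W : Finset F} (hW : W.Nonempty) :
    KK near near' H (Bx A) W = H W + A W + NL near near' H A W := by
  rw [KK_eq_QQ hW, NL]; ring

theorem Sys_K_succ (D : Sys F V) (k : ℕ) {W : Finset F} (hW : W.Nonempty) :
    D.K (k + 1) W = D.H k W + D.A k W + NL (D.near k) (D.near (k + 1)) (D.H k) (D.A k) W := by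
  rw [D.K_succ, ← KK_eq_NL hW]
  rfl

/-- **Lipschitz bound of the nonlinear part** -/
theorem quad_diff (hs : ∀ a b, near' a b → near' b a) (hN : GFam nm)
    (h : SumData near' β Wo sz nr C) (hW1 : ∀ U, 1 ≤ Wo U) (hC : C ≠ ∞)
    {H A H₂ A₂ : Finset F → Ge V} {ε η : ℝ≥0∞}
    (he : ∀ p, Sin Wo sz nr (fun U => nm U (H U)) p + Sin Wo sz nr (fun U => nm U (H₂ U)) p
      + (Sin Wo sz nr (fun U => nm U (A U)) p + Sin Wo sz nr (fun U => nm U (A₂ U)) p) ≤ ε)
    (hd : ∀ p, Sin Wo sz nr (fun U => nm U (H U - H₂ U)) p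
      + Sin Wo sz nr (fun U => nm U (A U - A₂ U)) p ≤ η)
    (hη : η ≠ ∞) (hε2 : ε ≤ 1 / 2) (hCε : C * (16 * ε) ≤ 1) (p : β) :
    Sout Wo nr (fun W => nm W (NL near near' H A W - NL near near' H₂ A₂ W)) p
      ≤ (6 + 128 * C) * (ε * η) := by
  have hεt : ε ≠ ∞ := ne_top_of_le_ne_top (by norm_num) hε2
  have hAp : ∀ p, Sin Wo sz nr (fun U => nm U (A U)) p ≤ ε := fun p =>
    (le_trans le_self_add (le_trans le_add_self (he p)))
  have hAp2 : ∀ p, Sin Wo sz nr (fun U => nm U (A₂ U)) p ≤ ε := fun p =>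
    (le_trans le_add_self (le_trans le_add_self (he p)))
  have hHp : ∀ p, Sin Wo sz nr (fun U => nm U (H U)) p ≤ ε := fun p =>
    (le_trans le_self_add (le_trans le_self_add (he p)))
  have hHp2 : ∀ p, Sin Wo sz nr (fun U => nm U (H₂ U)) p ≤ ε := fun p =>
    (le_trans le_add_self (le_trans le_self_add (he p)))
  have hA1 : ∀ U, U.Nonempty → nm U (A U) ≤ ε := fun U hU => by
    obtain ⟨p, hp⟩ := h.hit U hU
    exact (le_Sin (sz := sz) (x := fun U => nm U (A U)) hW1 hp).trans (hAp p)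
  have hA2 : ∀ U, U.Nonempty → nm U (A₂ U) ≤ ε := fun U hU => by
    obtain ⟨p, hp⟩ := h.hit U hU
    exact (le_Sin (sz := sz) (x := fun U => nm U (A₂ U)) hW1 hp).trans (hAp2 p)
  have hε1 : ε ≤ 1 := hε2.trans (by norm_num)
  have hne : ∀ {p U}, nr p U → U.Nonempty := by
    intro p U hp
    by_contra hc
    rw [Finset.not_nonempty_iff_eq_empty] at hc
    exact h.nempty p (hc ▸ hp)
  -- the extraction activities
  have hB : ∀ U, U.Nonempty → nm U (Bx A U) ≤ 2 * nm U (A U) := fun U hU =>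
    (hN.gn U).one_le ((hA1 U hU).trans hε1)
  have hB2 : ∀ U, U.Nonempty → nm U (Bx A₂ U) ≤ 2 * nm U (A₂ U) := fun U hU =>
    (hN.gn U).one_le ((hA2 U hU).trans hε1)
  have hrem : ∀ U, U.Nonempty → nm U ((Bx A U - A U) - (Bx A₂ U - A₂ U)) ≤
      6 * ε * nm U (A U - A₂ U) := fun U hU =>
    (hN.gn U).rem_lip (hA1 U hU) (hA2 U hU) hε2
  have hBd : ∀ U, U.Nonempty → nm U (Bx A U - Bx A₂ U) ≤ 4 * nm U (A U - A₂ U) := by
    intro U hU
    have e : Bx A U - Bx A₂ U = (A U - A₂ U) + ((Bx A U - A U) - (Bx A₂ U - A₂ U)) := by ring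
    rw [e]
    refine ((hN.gn U).add _ _).trans ((add_le_add le_rfl (hrem U hU)).trans ?_)
    have h6 : 6 * ε ≤ 3 := by
      calc 6 * ε ≤ 6 * (1 / 2) := mul_le_mul_right hε2 _
        _ = 3 := by
          rw [one_div, show (6 : ℝ≥0∞) = 3 * 2 by norm_num, mul_assoc,
            ENNReal.mul_inv_cancel (by norm_num) (by norm_num), mul_one]
    calc nm U (A U - A₂ U) + 6 * ε * nm U (A U - A₂ U)
        ≤ nm U (A U - A₂ U) + 3 * nm U (A U - A₂ U) :=
          add_le_add le_rfl (mul_le_mul_left h6 _)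
      _ = 4 * nm U (A U - A₂ U) := by ring
  -- summed bounds
  have SB : ∀ p, Sin Wo sz nr (fun U => nm U (Bx A U)) p ≤ 2 * ε := by
    intro p
    refine (Sin_mono fun U hU => hB U (hne hU)).trans ?_
    rw [Sin_smul]
    exact mul_le_mul_right (hAp p) _
  have SB2 : ∀ p, Sin Wo sz nr (fun U => nm U (Bx A₂ U)) p ≤ 2 * ε := by
    intro p
    refine (Sin_mono fun U hU => hB2 U (hne hU)).trans ?_
    rw [Sin_smul]
    exact mul_le_mul_right (hAp2 p) _
  have SdB : ∀ p, Sin Wo sz nr (fun U => nm U (Bx A U - Bx A₂ U)) p ≤ 4 * η := by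
    intro p
    refine (Sin_mono fun U hU => hBd U (hne hU)).trans ?_
    rw [Sin_smul]
    exact mul_le_mul_right (le_add_self.trans (hd p)) _
  have SdH : ∀ p, Sin Wo sz nr (fun U => nm U (H U - H₂ U)) p ≤ η := fun p =>
    le_self_add.trans (hd p)
  have key := KK_lip (near := near) hs hN.toNormFam h (K := H) (B := Bx A) (K₂ := H₂) (B₂ := Bx A₂)
    (εK := ε) (εB := 2 * ε) (εK₂ := ε) (εB₂ := 2 * ε) (ηK := η) (ηB := 4 * η)
    (ε := 0) (η := 0) hC hεt (ENNReal.mul_ne_top (by norm_num) hεt) hεt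
    (ENNReal.mul_ne_top (by norm_num) hεt) hη (ENNReal.mul_ne_top (by norm_num) hη)
    hHp SB hHp2 SB2 SdH SdB ?_ p
  swap
  · refine le_trans (le_of_eq ?_) (le_trans (mul_le_mul_right (mul_le_mul_left
      (show (12 : ℝ≥0∞) ≤ 16 by norm_num) ε) C) hCε)
    ring
  -- assembling
  have e1 : ∀ W, nr p W → nm W (NL near near' H A W - NL near near' H₂ A₂ W) ≤
      6 * ε * nm W (A W - A₂ W)
        + nm W (QQ near near' H (Bx A) W - QQ near near' H₂ (Bx A₂) W) := by
    intro W hp
    have e : NL near near' H A W - NL near near' H₂ A₂ W =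
        ((Bx A W - A W) - (Bx A₂ W - A₂ W))
          + (QQ near near' H (Bx A) W - QQ near near' H₂ (Bx A₂) W) := by
      rw [NL, NL]; ring
    rw [e]
    exact ((hN.gn W).add _ _).trans (add_le_add (hrem W (hne hp)) le_rfl)
  refine (Sout_mono e1).trans ?_
  rw [Sout_add, Sout_smul]
  have h1 : Sout Wo nr (fun W => nm W (A W - A₂ W)) p ≤ η :=
    (Sout_le_Sin (sz := sz) _ p).trans (le_add_self.trans (hd p))
  calc 6 * ε * Sout Wo nr (fun W => nm W (A W - A₂ W)) p
        + Sout Wo nr (fun W => nm W (QQ near near' H (Bx A) W - QQ near near' H₂ (Bx A₂) W)) p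
      ≤ 6 * ε * η + 4 * C * ((ε + ε) + (2 * ε + 2 * ε)) * (η + 4 * η) :=
        add_le_add (mul_le_mul_right h1 _) key
    _ = (6 + 120 * C) * (ε * η) := by ring
    _ ≤ (6 + 128 * C) * (ε * η) := by
        gcongr
        norm_num

/-- **the nonlinear part vanishes exactly on leading families** -/
theorem NL_lead {I : Type*} {U : I → Finset F} {τ : I → Ge V} (hinj : Function.Injective U)
    (hU : ∀ i j, i ≠ j → ¬ touch near' (U i) (U j)) (hτ : ∀ i, τ i * τ i = 0)
    (hτ0 : ∀ i, ctG (τ i) = 0) {H A : Finset F → Ge V} (hH : IsLead U τ H) (hA : IsLead U τ A)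
    (W : Finset F) : NL near near' H A W = 0 := by
  have hsq : ∀ W, Bx A W = A W := by
    intro W
    by_cases h0 : A W = 0
    · rw [Bx, h0, gexp_zero, sub_self]
    · obtain ⟨i, -, x, hx⟩ := hA W h0
      rw [Bx, gexp_lead]
      · ring
      · rw [hx, map_mul, hτ0, zero_mul]
      · rw [hx]
        calc τ i * x * (τ i * x) = (τ i * τ i) * (x * x) := by ring
          _ = 0 := by rw [hτ, zero_mul]
  have hB : IsLead U τ (Bx A) := by
    intro W h0
    rw [hsq] at h0
    rw [hsq]
    exact hA W h0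
  rw [NL, hsq, sub_self, zero_add, QQ_lead hinj hU hτ hH hB]

/-- **nonlinear part of `LEAD + small`** -/
theorem quad_lead (hs : ∀ a b, near' a b → near' b a) (hN : GFam nm)
    (h : SumData near' β Wo sz nr C) (hW1 : ∀ U, 1 ≤ Wo U) (hC : C ≠ ∞)
    {I : Type*} {U : I → Finset F} {τ : I → Ge V} (hinj : Function.Injective U)
    (hU : ∀ i j, i ≠ j → ¬ touch near' (U i) (U j)) (hτ : ∀ i, τ i * τ i = 0)
    (hτ0 : ∀ i, ctG (τ i) = 0)
    {H A HL AL : Finset F → Ge V} (hHL : IsLead U τ HL) (hAL : IsLead U τ AL) {t η : ℝ≥0∞}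
    (ht : ∀ p, Sin Wo sz nr (fun U => nm U (HL U)) p + Sin Wo sz nr (fun U => nm U (AL U)) p ≤ t)
    (hd : ∀ p, Sin Wo sz nr (fun U => nm U (H U - HL U)) p
      + Sin Wo sz nr (fun U => nm U (A U - AL U)) p ≤ η)
    (hε2 : 2 * t + η ≤ 1 / 2) (hCε : C * (16 * (2 * t + η)) ≤ 1) (p : β) :
    Sout Wo nr (fun W => nm W (NL near near' H A W)) p
      ≤ (6 + 128 * C) * ((2 * t + η) * η) := by
  have hηt : η ≠ ∞ := ne_top_of_le_ne_top (by norm_num) (le_add_self.trans hε2)
  have key := quad_diff (near := near) hs hN h hW1 hC (H := H) (A := A) (H₂ := HL) (A₂ := AL)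
    (ε := 2 * t + η) (η := η) ?_ hd hηt hε2 hCε p
  · simpa only [NL_lead hinj hU hτ hτ0 hHL hAL, sub_zero] using key
  · intro p
    have a1 : Sin Wo sz nr (fun U => nm U (H U)) p ≤
        Sin Wo sz nr (fun U => nm U (H U - HL U)) p + Sin Wo sz nr (fun U => nm U (HL U)) p := by
      rw [← Sin_add]
      refine Sin_mono fun W _ => ?_
      have := (hN.gn W).add (H W - HL W) (HL W)
      rwa [sub_add_cancel] at this
    have a2 : Sin Wo sz nr (fun U => nm U (A U)) p ≤
        Sin Wo sz nr (fun U => nm U (A U - AL U)) p + Sin Wo sz nr (fun U => nm U (AL U)) p := by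
      rw [← Sin_add]
      refine Sin_mono fun W _ => ?_
      have := (hN.gn W).add (A W - AL W) (AL W)
      rwa [sub_add_cancel] at this
    have b1 := ht p
    have b2 := hd p
    calc _ ≤ (Sin Wo sz nr (fun U => nm U (H U - HL U)) p + Sin Wo sz nr (fun U => nm U (HL U)) p)
          + Sin Wo sz nr (fun U => nm U (HL U)) p
          + ((Sin Wo sz nr (fun U => nm U (A U - AL U)) p + Sin Wo sz nr (fun U => nm U (AL U)) p)
            + Sin Wo sz nr (fun U => nm U (AL U)) p) := by gcongr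
      _ = 2 * (Sin Wo sz nr (fun U => nm U (HL U)) p + Sin Wo sz nr (fun U => nm U (AL U)) p)
          + (Sin Wo sz nr (fun U => nm U (H U - HL U)) p
            + Sin Wo sz nr (fun U => nm U (A U - AL U)) p) := by ring
      _ ≤ 2 * t + η := add_le_add (mul_le_mul_right b1 _) b2

end quad

end Crest.Agent.R165.SrcStepx54
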