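import Crest.Agent.R165.SrcSys_991
import Crest.Agent.R165.FlowD4_898
import Crest.Agent.R165.SrcCstD_484

/-!
# Row 165 (S0250), P11: equivariance of the systems with sources (helper922)

* `psS m p` : the field map on fields and sources (sources fixed)
* `SysEq.sysX`, `sysP_eq` : equivalence of the base systems gives equivalence of the systems with
  sources
* `zeta_eq`, `incS_eq` : running coefficients and increments of the constants are equal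
-/

set_option autoImplicit false
set_option linter.all false

noncomputable section

namespace Crest.Agent.R165.SrcSymx922

open scoped ENNReal
open Crest.Agent.R165.Gr0x606 Crest.Agent.R165.Gr1x606 Crest.Agent.R165.GeOpsx337
open Crest.Agent.R165.ExpGx337 Crest.Agent.R165.KCompx892 Crest.Agent.R165.KStepx892
open Crest.Agent.R165.KMapx892 Crest.Agent.R165.KFlowx337 Crest.Agent.R165.GSysx387
open Crest.Agent.R165.SrcDefx991 Crest.Agent.R165.SrcSysx991 Crest.Agent.R165.FlowD4x898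
open Crest.Agent.R165.Latx683 Crest.Agent.R165.GDefx387 Crest.Agent.R165.PStepx417
open Crest.Agent.R165.GrLocx337 Crest.Agent.R165.SrcCstx484

/-! ### field maps -/

section maps

variable {V : Type*} [AddCommGroup V] [Module ℝ V] {V' : Type*} [AddCommGroup V'] [Module ℝ V']
  {m : ℕ}

/-- the field map on fields and sources, identity on the sources -/
def psS (m : ℕ) (p : V →ₗ[ℝ] V') : VS V m →ₗ[ℝ] VS V' m := LinearMap.prodMap p LinearMap.id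

theorem psS_th (p : V →ₗ[ℝ] V') (i : Fin m) : psS m p (th i) = th i :=
  Prod.ext (map_zero p) rfl

theorem psS_th' (p : V →ₗ[ℝ] V') (i : Fin m) : psS m p (th' i) = th' i :=
  Prod.ext (map_zero p) rfl

theorem psS_tau (p : V →ₗ[ℝ] V') (i : Fin m) : mpG (psS m p) (tau i) = tau i := by
  rw [tau, mpG_bi, psS_th, psS_th']; rfl

theorem psS_inG (p : V →ₗ[ℝ] V') (a : Ge V) : mpG (psS m p) (inG m a) = inG m (mpG p a) := by
  unfold inG
  rw [mpG_mpG, mpG_mpG]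
  have e2 : psS m p ∘ₗ LinearMap.inl ℝ V (Src m) = LinearMap.inl ℝ V' (Src m) ∘ₗ p :=
    LinearMap.ext fun x => rfl
  rw [e2]

theorem noS_psS (p : V →ₗ[ℝ] V') (a : Ge (VS V m)) : noS (mpG (psS m p) a) = mpG p (noS a) := by
  unfold noS
  rw [mpG_mpG, mpG_mpG]
  congr 1

theorem vacH_psS (p : V →ₗ[ℝ] V') (a : Ge (VS V m)) :
    mpG (psS m p) (vacH a) = vacH (mpG (psS m p) a) := by
  unfold vacH
  rw [mpG_mpG, mpG_mpG]
  have e2 : psS m p ∘ₗ (LinearMap.inr ℝ V (Src m) ∘ₗ LinearMap.snd ℝ V (Src m)) =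
      (LinearMap.inr ℝ V' (Src m) ∘ₗ LinearMap.snd ℝ V' (Src m)) ∘ₗ psS m p :=
    LinearMap.ext fun x => Prod.ext (map_zero p) rfl
  rw [e2]

theorem cpair_psS (p : V →ₗ[ℝ] V') (j : Fin m) (a : Ge (VS V m)) :
    cpair j (mpG (psS m p) a) = mpG (psS m p) (cpair j a) := by
  apply ge_ext
  rw [coe_cpair, coe_mpG, coe_mpG, coe_cpair]
  have h1 : ∀ l : Module.Dual ℝ (VS V' m), ∀ x : Gr (VS V m),
      dd l (mp (psS m p) x) = mp (psS m p) (dd (l ∘ₗ psS m p) x) := fun l x => (mp_dd _ _ _).symm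
  rw [h1, h1]
  rfl

theorem coP_psS (p : V →ₗ[ℝ] V') (I : Finset (Fin m)) (a : Ge (VS V m)) :
    coP I (mpG (psS m p) a) = mpG p (coP I a) := by
  have key : ∀ L : List (Fin m), ∀ a : Ge (VS V m),
      ((L.map cpair).prod : Module.End ℝ (Ge (VS V' m))) (mpG (psS m p) a) =
        mpG (psS m p) (((L.map cpair).prod : Module.End ℝ (Ge (VS V m))) a) := by
    intro L
    induction L with
    | nil => intro a; rfl
    | cons i L ih =>
      intro a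
      rw [List.map_cons, List.prod_cons, List.map_cons, List.prod_cons, Module.End.mul_apply,
        Module.End.mul_apply, ih, cpair_psS]
  unfold coP
  rw [LinearMap.comp_apply, LinearMap.comp_apply]
  show noS (((List.map cpair (I.sort (· ≤ ·))).prod : Module.End ℝ (Ge (VS V' m)))
    (mpG (psS m p) a)) = mpG p (noS _)
  rw [key, noS_psS]

theorem cvG_psS {S : Cov V} {S' : Cov V'} {p : V →ₗ[ℝ] V'}
    (h : ∀ x y, S.b x y = S'.b (p x) (p y)) (a : Ge (VS V m)) :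
    mpG (psS m p) (cvG (ext0 m S) a) = cvG (ext0 m S') (mpG (psS m p) a) := by
  apply ge_ext
  rw [coe_cvG, coe_mpG, coe_mpG, coe_cvG]
  exact mp_conv (psS m p) (ext0 m S) (ext0 m S') (fun x y => h x.1 y.1) _

theorem co_psS (p : V →ₗ[ℝ] V') (I : Finset (Fin m)) (a : Ge (VS V m)) :
    co I (mpG (psS m p) a) = co I a := by
  rw [co_apply, co_apply, coP_psS, ctG_mpG]

end maps

/-! ### extractions -/

section extr

variable {F₁ : Type} [DecidableEq F₁] {F₂ : Type} [DecidableEq F₂]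

section un
variable {V₁ : Type*} [AddCommGroup V₁] [Module ℝ V₁] {V₂ : Type*} [AddCommGroup V₂]
  [Module ℝ V₂] {ψ : F₁ ≃ F₂} {Φ : Ge V₁ →ₐ[ℝ] Ge V₂} {e₁ e₁' : Extr F₁ V₁} {e₂ e₂' : Extr F₂ V₂}

theorem ExtrEq_union (h : ExtrEq ψ Φ e₁ e₂) (h' : ExtrEq ψ Φ e₁' e₂') :
    ExtrEq ψ Φ (union e₁ e₁') (union e₂ e₂') where
  out U T := by
    show T.image ψ ∈ e₂.out (U.image ψ) ∪ e₂'.out (U.image ψ) ↔ T ∈ e₁.out U ∪ e₁'.out U
    rw [Finset.mem_union, Finset.mem_union, h.out, h'.out]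
  X U T hT a := by
    show Φ (((if T ∈ e₁.out U then e₁.X U T else 0) +
      (if T ∈ e₁'.out U then e₁'.X U T else 0)) a) =
      ((if T.image ψ ∈ e₂.out (U.image ψ) then e₂.X (U.image ψ) (T.image ψ) else 0) +
        (if T.image ψ ∈ e₂'.out (U.image ψ) then e₂'.X (U.image ψ) (T.image ψ) else 0)) (Φ a)
    rw [LinearMap.add_apply, LinearMap.add_apply, map_add]
    congr 1
    · by_cases hh : T ∈ e₁.out U
      · rw [if_pos hh, if_pos ((h.out U T).2 hh), h.X U T hh]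
      · rw [if_neg hh, if_neg fun h2 => hh ((h.out U T).1 h2), LinearMap.zero_apply,
          LinearMap.zero_apply, map_zero]
    · by_cases hh : T ∈ e₁'.out U
      · rw [if_pos hh, if_pos ((h'.out U T).2 hh), h'.X U T hh]
      · rw [if_neg hh, if_neg fun h2 => hh ((h'.out U T).1 h2), LinearMap.zero_apply,
          LinearMap.zero_apply, map_zero]

end un

variable {V₁ : Type} [AddCommGroup V₁] [Module ℝ V₁] {V₂ : Type} [AddCommGroup V₂]
  [Module ℝ V₂]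

theorem ExtrEq_liftE {ψ : F₁ ≃ F₂} {p : V₁ →ₗ[ℝ] V₂} {e₁ : Extr F₁ V₁} {e₂ : Extr F₂ V₂} (m : ℕ)
    (h : ExtrEq ψ (mpG p) e₁ e₂) : ExtrEq ψ (mpG (psS m p)) (liftE m e₁) (liftE m e₂) where
  out U T := h.out U T
  X U T hT a := by
    rw [liftE_X, liftE_X, psS_inG, h.X U T hT, noS_psS]

end extr

section src

variable {G : Type} [CommRing G] [CN G] [DecidableEq G] {H : Type} [CommRing H] [CN H]
  [DecidableEq H] {V₁ : Type} [AddCommGroup V₁] [Module ℝ V₁] {V₂ : Type} [AddCommGroup V₂]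
  [Module ℝ V₂] {m : ℕ}

theorem seX_psS {p : V₁ →ₗ[ℝ] V₂} {mu : Fin m → Ge V₁ →ₗ[ℝ] ℝ} {mu' : Fin m → Ge V₂ →ₗ[ℝ] ℝ}
    {β : Fin m → Ge V₁} {β' : Fin m → Ge V₂} (i : Fin m) (hm : ∀ a, mu' i (mpG p a) = mu i a)
    (hβ : mpG p (β i) = β' i) (a : Ge (VS V₁ m)) :
    mpG (psS m p) (seX mu β i a) = seX mu' β' i (mpG (psS m p) a) := by
  rw [seX_apply, seX_apply, map_mul, psS_tau, psS_inG, map_smul, hβ, coP_psS, hm]

/-- **equivalence of the extractions of the source terms** -/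
theorem ExtrEq_srcE {ψ : G × G ≃ H × H} {p : V₁ →ₗ[ℝ] V₂} {r : ℕ}
    (hs : ∀ U : Finset (G × G), size r (U.image ψ) = size r U)
    {sf : Fin m → Finset (G × G)} {sf' : Fin m → Finset (H × H)} {hsf : ∀ i, (sf i).Nonempty}
    {hsf' : ∀ i, (sf' i).Nonempty} (hf : ∀ i, sf' i = (sf i).image ψ) {dp dp' : Fin m → Prop}
    (hd : ∀ i, dp' i ↔ dp i) {mu : Fin m → Ge V₁ →ₗ[ℝ] ℝ} {mu' : Fin m → Ge V₂ →ₗ[ℝ] ℝ}
    (hm : ∀ i a, mu' i (mpG p a) = mu i a) {β : Fin m → Ge V₁} {β' : Fin m → Ge V₂}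
    (hβ : ∀ i, mpG p (β i) = β' i) :
    ExtrEq ψ (mpG (psS m p)) (srcE r sf hsf dp mu β) (srcE r sf' hsf' dp' mu' β') where
  out U T := by
    show T.image ψ ∈ seOut r sf' dp' (U.image ψ) ↔ T ∈ seOut r sf dp U
    rw [mem_seOut, mem_seOut, hs]
    refine and_congr Iff.rfl (exists_congr fun i => and_congr (hd i) ?_)
    rw [hf i]
    constructor
    · rintro ⟨h1, h2⟩
      exact ⟨(Finset.image_subset_image_iff ψ.injective).1 h1, image_injective ψ h2⟩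
    · rintro ⟨h1, rfl⟩
      exact ⟨Finset.image_subset_image h1, rfl⟩
  X U T hT a := by
    rw [srcE_X, srcE_X, map_sum]
    refine Finset.sum_congr ?_ fun i _ => seX_psS i (hm i) (hβ i) a
    ext i
    simp only [Finset.mem_filter, Finset.mem_univ, true_and]
    rw [hd i, hf i]
    exact and_congr Iff.rfl ⟨fun h => by rw [h], fun h => image_injective ψ h⟩

end src

/-! ### systems -/

section sys

variable {F₁ : Type} [DecidableEq F₁] {F₂ : Type} [DecidableEq F₂]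
  {V₁ : Type} [AddCommGroup V₁] [Module ℝ V₁] {V₂ : Type} [AddCommGroup V₂]
  [Module ℝ V₂] {m : ℕ}

/-- **equivalence of the systems with sources** -/
theorem sysX_eq {ψ : F₁ ≃ F₂} {p : V₁ →ₗ[ℝ] V₂} {D₁ : Sys F₁ V₁} {D₂ : Sys F₂ V₂}
    (h : SysEq ψ (mpG p) D₁ D₂) (hS : ∀ k x y, (D₁.S k).b x y = (D₂.S k).b (p x) (p y))
    {fl₁ : Finset F₁ → Submodule ℝ (VS V₁ m)} {fl₂ : Finset F₂ → Submodule ℝ (VS V₂ m)}
    {e₁ : ℕ → Extr F₁ (VS V₁ m)} {e₂ : ℕ → Extr F₂ (VS V₂ m)}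
    (he : ∀ k, ExtrEq ψ (mpG (psS m p)) (e₁ k) (e₂ k)) {K₁ : Finset F₁ → Ge (VS V₁ m)}
    {K₂ : Finset F₂ → Ge (VS V₂ m)} (hK : ∀ U, mpG (psS m p) (K₁ U) = K₂ (U.image ψ)) :
    SysEq ψ (mpG (psS m p)) (sysX D₁ m fl₁ e₁ K₁) (sysX D₂ m fl₂ e₂ K₂) where
  K0 := hK
  S k a := cvG_psS (hS k) a
  near := h.near
  e k := ExtrEq_union (ExtrEq_liftE m (h.e k)) (he k)
  vac a := vacH_psS p a

/-- the increments of the constants are equal -/
theorem incS_eq {ψ : F₁ ≃ F₂} {p : V₁ →ₗ[ℝ] V₂} {D₁ : Sys F₁ (VS V₁ m)} {D₂ : Sys F₂ (VS V₂ m)}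
    (h : SysEq ψ (mpG (psS m p)) D₁ D₂) (i : Fin m) (k : ℕ) : incS D₂ i k = incS D₁ i k := by
  unfold incS
  rw [← Equiv.tsum_eq ψ.finsetCongr]
  refine tsum_congr fun U => ?_
  have e : ψ.finsetCongr U = U.image ψ := by
    rw [Equiv.finsetCongr_apply, Finset.map_eq_image]; rfl
  rw [e, ← h.H_eq, co_psS]

end sys

section sysP

variable {G : Type} [CommRing G] [CN G] [DecidableEq G] {H : Type} [CommRing H] [CN H]
  [DecidableEq H] {V₁ : Type} [AddCommGroup V₁] [Module ℝ V₁] {V₂ : Type} [AddCommGroup V₂]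
  [Module ℝ V₂] {m : ℕ}

/-- the hypotheses of the equivalence of two systems with sources -/
structure PEq (ψ : G × G ≃ H × H) (p : V₁ →ₗ[ℝ] V₂) (B₁ : Sys (G × G) V₁) (B₂ : Sys (H × H) V₂)
    (R₁ : SData G V₁ m) (R₂ : SData H V₂ m) (rs : ℕ → ℕ) (d₁ d₂ : ℕ → Fin m → Prop)
    (K₁ : Finset (G × G) → Ge (VS V₁ m)) (K₂ : Finset (H × H) → Ge (VS V₂ m)) : Prop where
  base : SysEq ψ (mpG p) B₁ B₂
  S : ∀ k x y, (B₁.S k).b x y = (B₂.S k).b (p x) (p y)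
  size : ∀ n (U : Finset (G × G)), size (rs n) (U.image ψ) = GDefx387.size (rs n) U
  sf : ∀ i, R₂.sf i = (R₁.sf i).image ψ
  dp : ∀ n i, d₂ n i ↔ d₁ n i
  mu : ∀ i a, R₂.mu i (mpG p a) = R₁.mu i a
  β : ∀ i, mpG p (R₁.β i) = R₂.β i
  K0 : ∀ U, mpG (psS m p) (K₁ U) = K₂ (U.image ψ)

variable {ψ : G × G ≃ H × H} {p : V₁ →ₗ[ℝ] V₂} {B₁ : Sys (G × G) V₁} {B₂ : Sys (H × H) V₂}
    {R₁ : SData G V₁ m} {R₂ : SData H V₂ m} {rs : ℕ → ℕ} {d₁ d₂ : ℕ → Fin m → Prop}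
    {K₁ : Finset (G × G) → Ge (VS V₁ m)} {K₂ : Finset (H × H) → Ge (VS V₂ m)}
    {f₁ : Finset (G × G) → Submodule ℝ (VS V₁ m)} {f₂ : Finset (H × H) → Submodule ℝ (VS V₂ m)}

theorem PEq.ex (h : PEq ψ p B₁ B₂ R₁ R₂ rs d₁ d₂ K₁ K₂) (n : ℕ) :
    ExtrEq ψ (mpG (psS m p)) (srcE (rs n) R₁.sf R₁.ne (d₁ n) R₁.mu R₁.β)
      (srcE (rs n) R₂.sf R₂.ne (d₂ n) R₂.mu R₂.β) :=
  ExtrEq_srcE (h.size n) h.sf (h.dp n) h.mu h.β

/-- **equivalence of the systems with sources** -/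
theorem PEq.sys (h : PEq ψ p B₁ B₂ R₁ R₂ rs d₁ d₂ K₁ K₂) :
    SysEq ψ (mpG (psS m p)) (sysP B₁ R₁ rs d₁ f₁ K₁) (sysP B₂ R₂ rs d₂ f₂ K₂) :=
  sysX_eq h.base h.S h.ex h.K0

/-- **the running coefficients are equal** -/
theorem PEq.zeta (h : PEq ψ p B₁ B₂ R₁ R₂ rs d₁ d₂ K₁ K₂) (z0 : Fin m → ℝ) (n : ℕ) (i : Fin m) :
    SrcSysx991.zeta B₂ R₂ rs d₂ f₂ K₂ z0 n i = SrcSysx991.zeta B₁ R₁ rs d₁ f₁ K₁ z0 n i := by
  cases n with
  | zero => rfl
  | succ n =>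
    rw [zeta_succ_def, zeta_succ_def, h.sf i, (h.ex n).inn_eq,
      Finset.sum_image (fun a _ b _ hab => image_injective ψ hab)]
    refine Finset.sum_congr rfl fun U _ => ?_
    rw [← (h.sys (f₁ := f₁) (f₂ := f₂)).H_eq n U, coP_psS, h.mu]

/-- **the constants are equal** -/
theorem PEq.incS (h : PEq ψ p B₁ B₂ R₁ R₂ rs d₁ d₂ K₁ K₂) (n : ℕ) (i : Fin m) :
    SrcCstx484.incS (sysP B₂ R₂ rs d₂ f₂ K₂) i n = SrcCstx484.incS (sysP B₁ R₁ rs d₁ f₁ K₁) i n :=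
  incS_eq (h.sys (f₁ := f₁) (f₂ := f₂)) i n

end sysP

end Crest.Agent.R165.SrcSymx922
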