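import Mathlib

/-!
# Row 165 (S0250), SrcTail, T3: the scalar recursion with crude steps (helper999)

`tail_rec` : lead norms `T`, rest norms `E`, bulk `b`; linear factors `q k ≤ c` for the first `J`
(crude) steps, `q k ≤ 1/8` afterwards.  Thresholds depend on `J, c, C` only.
-/

set_option autoImplicit false

open scoped ENNReal

namespace Crest.Agent.R165.SrcTailx999

section rec

variable {c C t0 : ℝ≥0∞} {J : ℕ}

/-- the weight -/
noncomputable def wr (c : ℝ≥0∞) (J k : ℕ) : ℝ≥0∞ := (4 * c) ^ (min k J) * (1 / 2) ^ k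

theorem half2 : (2 : ℝ≥0∞) * (1 / 2) = 1 := by
  rw [one_div]; exact ENNReal.mul_inv_cancel (by norm_num) (by norm_num)

theorem eighth8 : (8 : ℝ≥0∞) * (1 / 8) = 1 := by
  rw [one_div]; exact ENNReal.mul_inv_cancel (by norm_num) (by norm_num)

theorem half_le : (1 / 2 : ℝ≥0∞) ≤ 1 := by
  rw [one_div, ENNReal.inv_le_one]; norm_num

theorem wr_le (hc : 1 ≤ c) (k : ℕ) : wr c J k ≤ (4 * c) ^ J := by
  unfold wr
  have h4 : (1 : ℝ≥0∞) ≤ 4 * c := by
    calc (1 : ℝ≥0∞) = 1 * 1 := by ring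
      _ ≤ 4 * c := mul_le_mul' (by norm_num) hc
  calc (4 * c) ^ (min k J) * (1 / 2) ^ k ≤ (4 * c) ^ J * 1 :=
        mul_le_mul' (pow_le_pow_right₀ h4 (min_le_right _ _)) (pow_le_one₀ (by simp) half_le)
    _ = (4 * c) ^ J := mul_one _

theorem half_le_wr (hc : 1 ≤ c) (k : ℕ) : (1 / 2 : ℝ≥0∞) ^ k ≤ wr c J k := by
  unfold wr
  have h4 : (1 : ℝ≥0∞) ≤ 4 * c := by
    calc (1 : ℝ≥0∞) = 1 * 1 := by ring
      _ ≤ 4 * c := mul_le_mul' (by norm_num) hc
  exact le_mul_of_one_le_left' (one_le_pow₀ h4)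

theorem wr_crude {k : ℕ} (h : k < J) : wr c J (k + 1) = 2 * c * wr c J k := by
  unfold wr
  rw [min_eq_left (by omega), min_eq_left (by omega), pow_succ, pow_succ]
  calc (4 * c) ^ k * (4 * c) * ((1 / 2) ^ k * (1 / 2))
      = 2 * (2 * (1 / 2)) * c * ((4 * c) ^ k * (1 / 2) ^ k) := by ring
    _ = _ := by rw [half2, mul_one]

theorem wr_coarse {k : ℕ} (h : J ≤ k) : 2 * wr c J (k + 1) = wr c J k := by
  unfold wr
  rw [min_eq_right (by omega), min_eq_right (by omega), pow_succ]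
  calc 2 * ((4 * c) ^ J * ((1 / 2) ^ k * (1 / 2)))
      = (2 * (1 / 2)) * ((4 * c) ^ J * (1 / 2) ^ k) := by ring
    _ = _ := by rw [half2, one_mul]

theorem wr_zero : wr c J 0 = 1 := by simp [wr]

/-- one crude step: `q ≤ c`, small coefficient `s` -/
theorem crude_step {q s x y u w : ℝ≥0∞} (hc : 1 ≤ c) (hq : q ≤ c) (hs : 16 * s ≤ 1)
    (hu : 16 * u ≤ w) (hx : x ≤ w) (hy : y ≤ q * x + s * x + u) : y ≤ 2 * c * w := by
  have h16 : (16 : ℝ≥0∞) * y ≤ 16 * (2 * c * w) := by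
    calc 16 * y ≤ 16 * (q * x + s * x + u) := by gcongr
      _ = 16 * (q * x) + (16 * s) * x + 16 * u := by ring
      _ ≤ 16 * (c * w) + 1 * w + w := by gcongr
      _ = 16 * (c * w) + 2 * (1 * w) := by ring
      _ ≤ 16 * (c * w) + 16 * (c * w) := by
          gcongr
          norm_num
      _ = 16 * (2 * c * w) := by ring
  exact (ENNReal.mul_le_mul_iff_right (by norm_num) (by norm_num)).1 h16

/-- one contracting step: `q ≤ 1/8` -/
theorem coarse_step {q s x y u w w' : ℝ≥0∞} (hq : q ≤ 1 / 8) (hs : 16 * s ≤ 1)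
    (hu : 16 * u ≤ w) (hx : x ≤ w) (hw : 2 * w' = w) (hy : y ≤ q * x + s * x + u) : y ≤ w' := by
  have h16 : (16 : ℝ≥0∞) * y ≤ 16 * w' := by
    calc 16 * y ≤ 16 * (q * x + s * x + u) := by gcongr
      _ = 16 * (q * x) + (16 * s) * x + 16 * u := by ring
      _ ≤ 16 * (1 / 8 * w) + 1 * w + w := by gcongr
      _ = 2 * (8 * (1 / 8)) * w + 2 * w := by ring
      _ = 4 * w := by rw [eighth8]; ring
      _ = 8 * w' := by rw [← hw]; ring
      _ ≤ 16 * w' := by gcongr; norm_num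
  exact (ENNReal.mul_le_mul_iff_right (by norm_num) (by norm_num)).1 h16

/-- **T3: the scalar recursion** -/
theorem tail_rec (J : ℕ) {c C : ℝ≥0∞} (hc1 : 1 ≤ c) (hc : c ≠ ∞) (hC1 : 1 ≤ C) (hC : C ≠ ∞) :
    ∃ t0 : ℝ≥0∞, t0 ≠ 0 ∧ t0 ≤ 1 ∧ ∃ C0 : ℝ≥0∞, 1 ≤ C0 ∧ C0 ≠ ∞ ∧
      ∀ (N : ℕ) (q T E b : ℕ → ℝ≥0∞) (b0 : ℝ≥0∞), T 0 ≤ t0 → b0 ≤ t0 → E 0 ≤ t0 →
        (∀ k < N, b k ≤ b0 * (1 / 2) ^ k) → (∀ k < N, q k ≤ if k < J then c else 1 / 8) →
        (∀ k < N, 32 * C * (b k + c * T k + c * E k) ≤ 1 →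
          T (k + 1) ≤ q k * T k + 40 * C * (c * T k) ^ 2) →
        (∀ k < N, 32 * C * (b k + c * T k + c * E k) ≤ 1 →
          E (k + 1) ≤ q k * E k + 40 * C * ((b k + c * T k + c * E k) * (c * E k) +
            b k * (c * T k))) →
        ∀ k ≤ N, T k ≤ C0 * T 0 * (1 / 2) ^ k ∧ E k ≤ C0 * (E 0 + b0) * (1 / 2) ^ k ∧
          32 * C * (c * T k) ≤ 1 ∧ 32 * C * (b0 * (1 / 2) ^ k + c * T k + c * E k) ≤ 1 := by
  set S : ℝ≥0∞ := (4 * c) ^ J with hS
  have h4 : (1 : ℝ≥0∞) ≤ 4 * c := by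
    calc (1 : ℝ≥0∞) = 1 * 1 := by ring
      _ ≤ 4 * c := mul_le_mul' (by norm_num) hc1
  have hS1 : 1 ≤ S := one_le_pow₀ h4
  have hSt : S ≠ ∞ := ENNReal.pow_ne_top (ENNReal.mul_ne_top (by norm_num) hc)
  set D : ℝ≥0∞ := 2560 * C * c ^ 2 * S with hD
  have hDt : D ≠ ∞ := by
    rw [hD]
    exact ENNReal.mul_ne_top (ENNReal.mul_ne_top (ENNReal.mul_ne_top (by norm_num) hC)
      (ENNReal.pow_ne_top hc)) hSt
  have hc21 : 1 ≤ c ^ 2 := one_le_pow₀ hc1
  have hD1 : 1 ≤ D := by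
    calc (1 : ℝ≥0∞) = 1 * 1 * 1 * 1 := by ring
      _ ≤ 2560 * C * c ^ 2 * S := by gcongr; norm_num
  have hD0 : D ≠ 0 := fun h => by rw [h] at hD1; exact absurd hD1 (by norm_num)
  refine ⟨D⁻¹, ENNReal.inv_ne_zero.2 hDt, ENNReal.inv_le_one.2 hD1, S, hS1, hSt, ?_⟩
  intro N q T E b b0 hT0 hb0 hE0 hb hq hT hE
  have hsm : 2560 * C * c ^ 2 * (S * D⁻¹) ≤ 1 := by
    calc 2560 * C * c ^ 2 * (S * D⁻¹) = D * D⁻¹ := by rw [hD]; ring
      _ = 1 := ENNReal.mul_inv_cancel hD0 hDt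
      _ ≤ 1 := le_rfl
  set t0 : ℝ≥0∞ := D⁻¹ with ht0
  set x : ℝ≥0∞ := E 0 + b0 with hx
  have hx2 : x ≤ 2 * t0 := by
    calc x ≤ t0 + t0 := add_le_add hE0 hb0
      _ = 2 * t0 := by ring
  -- consequences of the smallness
  have small : ∀ k, T k ≤ wr c J k * T 0 → E k ≤ wr c J k * x →
      c * (b0 * (1 / 2) ^ k + c * T k + c * E k) ≤ 4 * (c ^ 2 * (S * t0)) := by
    intro k h1 h2
    have e1 : T k ≤ S * t0 := h1.trans (mul_le_mul' (wr_le hc1 k) hT0)
    have e2 : E k ≤ S * (2 * t0) := h2.trans (mul_le_mul' (wr_le hc1 k) hx2)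
    have e3 : b0 * (1 / 2) ^ k ≤ S * t0 := by
      calc b0 * (1 / 2) ^ k ≤ t0 * 1 := mul_le_mul' hb0 (pow_le_one₀ (by simp) half_le)
        _ = 1 * t0 := by ring
        _ ≤ S * t0 := by gcongr
    calc c * (b0 * (1 / 2) ^ k + c * T k + c * E k)
        ≤ c * (1 * (S * t0) + c * (S * t0) + c * (S * (2 * t0))) := by
          rw [one_mul]; gcongr
      _ ≤ c * (c * (S * t0) + c * (S * t0) + c * (S * (2 * t0))) := by gcongr
      _ = 4 * (c ^ 2 * (S * t0)) := by ring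
  have cond : ∀ k, T k ≤ wr c J k * T 0 → E k ≤ wr c J k * x →
      640 * C * (c * (b0 * (1 / 2) ^ k + c * T k + c * E k)) ≤ 1 := by
    intro k h1 h2
    calc 640 * C * (c * (b0 * (1 / 2) ^ k + c * T k + c * E k))
        ≤ 640 * C * (4 * (c ^ 2 * (S * t0))) := mul_le_mul_right (small k h1 h2) _
      _ = 2560 * C * c ^ 2 * (S * t0) := by ring
      _ ≤ 1 := hsm
  have key : ∀ k ≤ N, T k ≤ wr c J k * T 0 ∧ E k ≤ wr c J k * x := by
    intro k
    induction k with
    | zero => intro _; rw [wr_zero, one_mul, one_mul]; exact ⟨le_rfl, le_self_add⟩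
    | succ k ih =>
      intro hk
      have hk' : k < N := by omega
      obtain ⟨i1, i2⟩ := ih hk'.le
      have hcd := cond k i1 i2
      have hbk := hb k hk'
      set σ : ℝ≥0∞ := b0 * (1 / 2) ^ k + c * T k + c * E k with hσ
      have c1 : 32 * C * σ ≤ 1 := by
        refine le_trans ?_ hcd
        calc 32 * C * σ = 32 * C * (1 * σ) := by rw [one_mul]
          _ ≤ 640 * C * (c * σ) := by gcongr; norm_num
      have hTσ : c * T k ≤ σ := le_add_self.trans le_self_add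
      have c2 : 32 * C * (c * T k) ≤ 1 := (mul_le_mul_right hTσ _).trans c1
      have hσ' : b k + c * T k + c * E k ≤ σ := by rw [hσ]; gcongr
      have c3 : 32 * C * (b k + c * T k + c * E k) ≤ 1 := (mul_le_mul_right hσ' _).trans c1
      -- coefficients
      have s1 : 16 * (40 * C * (c ^ 2 * T k)) ≤ 1 := by
        refine le_trans ?_ hcd
        calc 16 * (40 * C * (c ^ 2 * T k)) = 640 * C * (c * (c * T k)) := by ring
          _ ≤ 640 * C * (c * σ) := by gcongr
      have s2 : 16 * (40 * C * (c * σ)) ≤ 1 := by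
        refine le_trans (le_of_eq ?_) hcd
        ring
      have u2 : 16 * (40 * C * (b k * (c * T k))) ≤ wr c J k * x := by
        calc 16 * (40 * C * (b k * (c * T k))) = 640 * C * (c * T k) * b k := by ring
          _ ≤ 640 * C * (c * σ) * b k := by
              gcongr
              calc T k = 1 * T k := (one_mul _).symm
                _ ≤ c * T k := by gcongr
                _ ≤ σ := hTσ
          _ ≤ 1 * b k := mul_le_mul_left hcd _
          _ = b k := one_mul _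
          _ ≤ b0 * (1 / 2) ^ k := hbk
          _ ≤ x * wr c J k := mul_le_mul' le_add_self (half_le_wr hc1 k)
          _ = wr c J k * x := mul_comm _ _
      have tT : T (k + 1) ≤ q k * T k + 40 * C * (c ^ 2 * T k) * T k + 0 := by
        refine (hT k hk' c3).trans (le_of_eq ?_)
        ring
      have tE : E (k + 1) ≤ q k * E k + 40 * C * (c * σ) * E k + 40 * C * (b k * (c * T k)) := by
        refine (hE k hk' c3).trans ?_
        calc q k * E k + 40 * C * ((b k + c * T k + c * E k) * (c * E k) + b k * (c * T k))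
            ≤ q k * E k + 40 * C * (σ * (c * E k) + b k * (c * T k)) := by gcongr
          _ = _ := by ring
      by_cases hJ : k < J
      · have hqk : q k ≤ c := by have := hq k hk'; rwa [if_pos hJ] at this
        rw [wr_crude hJ]
        constructor
        · have := crude_step hc1 hqk s1 (u := 0) (w := wr c J k * T 0) (by simp) i1 tT
          calc T (k + 1) ≤ 2 * c * (wr c J k * T 0) := this
            _ = 2 * c * wr c J k * T 0 := by ring
        · have := crude_step hc1 hqk s2 (w := wr c J k * x) u2 i2 tE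
          calc E (k + 1) ≤ 2 * c * (wr c J k * x) := this
            _ = 2 * c * wr c J k * x := by ring
      · have hqk : q k ≤ 1 / 8 := by have := hq k hk'; rwa [if_neg hJ] at this
        have hw := wr_coarse (c := c) (J := J) (k := k) (by omega)
        constructor
        · refine coarse_step hqk s1 (u := 0) (w := wr c J k * T 0) (by simp) i1 ?_ tT
          rw [← mul_assoc, hw]
        · refine coarse_step hqk s2 (w := wr c J k * x) u2 i2 ?_ tE
          rw [← mul_assoc, hw]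
  intro k hk
  obtain ⟨i1, i2⟩ := key k hk
  have hcd := cond k i1 i2
  set σ : ℝ≥0∞ := b0 * (1 / 2) ^ k + c * T k + c * E k with hσ
  have c1 : 32 * C * σ ≤ 1 := by
    refine le_trans ?_ hcd
    calc 32 * C * σ = 32 * C * (1 * σ) := by rw [one_mul]
      _ ≤ 640 * C * (c * σ) := by gcongr; norm_num
  have hTσ : c * T k ≤ σ := le_add_self.trans le_self_add
  have hw : wr c J k ≤ S * (1 / 2) ^ k := by
    unfold wr
    exact mul_le_mul_left (pow_le_pow_right₀ h4 (min_le_right _ _)) _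
  refine ⟨i1.trans ?_, i2.trans ?_, (mul_le_mul_right hTσ _).trans c1, c1⟩
  · calc wr c J k * T 0 ≤ S * (1 / 2) ^ k * T 0 := mul_le_mul_left hw _
      _ = S * T 0 * (1 / 2) ^ k := by ring
  · calc wr c J k * x ≤ S * (1 / 2) ^ k * x := mul_le_mul_left hw _
      _ = S * x * (1 / 2) ^ k := by ring

end rec

end Crest.Agent.R165.SrcTailx999
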