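import Crest.Agent.R165.SrcTail3_999
import Crest.Agent.R165.SrcTailAll_441

/-!
# Row 165 (S0250), SrcTail, T3 on the literal names of 441 (helper999)

`scalarT3` : for all `J`, `1 ≤ c < ∞`, `1 ≤ C < ∞` there are `t0 > 0`, `C0 ≥ 1` with
`ScalarT3 J c C t0 C0`.
-/

set_option autoImplicit false

open scoped ENNReal

namespace Crest.Agent.R165.SrcTailx999

open Crest.Agent.R165.SrcTailAllx441

theorem half_pow_ofReal (k : ℕ) : (1 / 2 : ℝ≥0∞) ^ k = ENNReal.ofReal ((2 ^ k : ℝ)⁻¹) := by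
  rw [ENNReal.ofReal_inv_of_pos (by positivity), ENNReal.ofReal_pow (by norm_num), one_div,
    ENNReal.inv_pow]
  norm_num

/-- **T3, literal form of 441** -/
theorem scalarT3 (J : ℕ) {c C : ℝ≥0∞} (hc1 : 1 ≤ c) (hc : c ≠ ∞) (hC1 : 1 ≤ C) (hC : C ≠ ∞) :
    ∃ t0 : ℝ, 0 < t0 ∧ ∃ C0 : ℝ, 1 ≤ C0 ∧ ScalarT3 J c C t0 C0 := by
  obtain ⟨t, ht0, ht1, C0, hC01, hC0t, H⟩ := tail_rec J hc1 hc hC1 hC
  have htt : t ≠ ∞ := ne_top_of_le_ne_top (by norm_num) ht1
  refine ⟨t.toReal, ENNReal.toReal_pos ht0 htt, C0.toReal, ?_, ?_⟩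
  · have := ENNReal.toReal_mono hC0t hC01
    simpa using this
  intro N q b T E b0 e0 τ0 hb0 he0 hτ0 hb1 he1 hτ1 hq1 hq2 hb hT hE sT sE k hk
  have hle : ∀ x : ℝ, x ≤ t.toReal → ENNReal.ofReal x ≤ t := fun x hx =>
    (ENNReal.ofReal_le_ofReal hx).trans (le_of_eq (ENNReal.ofReal_toReal htt))
  have hb' : ∀ j < N, b j ≤ ENNReal.ofReal b0 * (1 / 2) ^ j := fun j hj => by
    refine (hb j hj).trans (le_of_eq ?_)
    rw [half_pow_ofReal, ← ENNReal.ofReal_mul hb0, div_eq_mul_inv]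
  have hq' : ∀ j < N, q j ≤ if j < J then c else 1 / 8 := fun j hj => by
    split_ifs with h
    · exact hq1 j hj h
    · rw [one_div]; exact hq2 j hj (not_lt.1 h)
  obtain ⟨r1, r2, -, -⟩ := H N q T E b (ENNReal.ofReal b0) (hT.trans (hle _ hτ1)) (hle _ hb1)
    (hE.trans (hle _ he1)) hb' hq' sT sE k hk
  · have h0 : 0 ≤ C0.toReal := ENNReal.toReal_nonneg
    constructor
    · refine r1.trans ?_
      rw [half_pow_ofReal]
      calc C0 * T 0 * ENNReal.ofReal ((2 ^ k : ℝ)⁻¹)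
          ≤ ENNReal.ofReal C0.toReal * ENNReal.ofReal τ0 * ENNReal.ofReal ((2 ^ k : ℝ)⁻¹) := by
            rw [ENNReal.ofReal_toReal hC0t]; gcongr
        _ = _ := by
            rw [← ENNReal.ofReal_mul h0, ← ENNReal.ofReal_mul (by positivity), div_eq_mul_inv]
    · refine r2.trans ?_
      rw [half_pow_ofReal]
      calc C0 * (E 0 + ENNReal.ofReal b0) * ENNReal.ofReal ((2 ^ k : ℝ)⁻¹)
          ≤ ENNReal.ofReal C0.toReal * (ENNReal.ofReal e0 + ENNReal.ofReal b0) *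
              ENNReal.ofReal ((2 ^ k : ℝ)⁻¹) := by
            rw [ENNReal.ofReal_toReal hC0t]; gcongr
        _ = _ := by
            rw [← ENNReal.ofReal_add he0 hb0, ← ENNReal.ofReal_mul h0,
              ← ENNReal.ofReal_mul (by positivity), div_eq_mul_inv]

end Crest.Agent.R165.SrcTailx999
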