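import Crest.Agent.R165.SrcTailA_441

/-!
# Row 165 (S0250), leaf P11 item 8 (sources in large discs), energies and last step (helper441)

* `tail_E` : the source dependent energies of the actual run and of the lead run
* `vac_bd` : `N (vacH (cvG (ext0 S) X)) ≤ pG (wS w v) X`
* `finE_tail` : **`FinE` at the last scale** from the total norms of the lead run and of the remainder
  (`N = 0` : the case of domains)
-/

set_option autoImplicit false
set_option linter.unusedSectionVars false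
set_option linter.unusedVariables false

noncomputable section

namespace Crest.Agent.R165.SrcTailFinx441

open Finset Filter Topology
open scoped ENNReal Nat
open Crest.Agent.R165.FinBx900 Crest.Agent.R165.KStepx892 Crest.Agent.R165.KMapx892
open Crest.Agent.R165.Gr0x606 Crest.Agent.R165.Gr1x606 Crest.Agent.R165.GeOpsx337
  Crest.Agent.R165.ExpGx337 Crest.Agent.R165.PNormx417 Crest.Agent.R165.KFlowx337
  Crest.Agent.R165.SrcFinx441 Crest.Agent.R165.GrLocx337 Crest.Agent.R165.SrcCmpx441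
  Crest.Agent.R165.ExpAx337 Crest.Agent.R165.Quadx897 Crest.Agent.R165.SrcStepx54
  Crest.Agent.R165.SrcTailx441
open Crest.Agent.R165.SrcDefx991 (VS Src th th' tau tauP ext0 inG noS vacH vacS coP wS vS GS
  noS_inG noS_tau EEG_ext0 vacH_tau srcM vacH_inG cvG_inG noS_cvG GS_vacH coP_vacH GS_eq
  pG_basis_le sum_coP_le GS_cvG coP_cvG)
open Crest.Agent.R165.SrcFinBx441 (Nw ra_Nw bd_inG ra_pG)
open Crest.Agent.R165.SrcSysx991 (sysX)
open Crest.Agent.R165.PStepx417 (vac0)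

variable {F : Type} [DecidableEq F] {V : Type} [AddCommGroup V] [Module ℝ V] {m : ℕ}

section energies

variable {B : Sys F V} {D DL : Sys F (VS V m)}

theorem ctG_vacH (a : Ge (VS V m)) : ctG (vacH a) = ctG a := ctG_mpG _ a

/-- the energies of the steps `< N`: actual run = lead run + remainder + constant -/
theorem tail_E (hS : ∀ k, D.S k = ext0 m (B.S k)) (hSL : ∀ k, DL.S k = D.S k)
    (hv : D.vac = vacS) (hvL : DL.vac = vacS) (Λ : Finset F) (N : ℕ) :
    D.E Λ N = DL.E Λ N + (∑ k ∈ range N, ∑ U ∈ nes Λ,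
      vacH (cvG (ext0 m (B.S k)) (PT B D DL k U))) +
      algebraMap ℝ _ (∑ k ∈ range N, ∑ U ∈ nes Λ, ctG (B.H k U)) := by
  rw [Sys.E, Sys.E, map_sum, ← sum_add_distrib, ← sum_add_distrib]
  refine sum_congr rfl fun k _ => ?_
  rw [Sys.vacE, Sys.vacE, map_sum, ← sum_add_distrib, ← sum_add_distrib, hv, hvL]
  refine sum_congr rfl fun U _ => ?_
  show vacH (D.H k U) = vacH (DL.H k U) + _ + _
  have h1 : D.H k U = DL.H k U + cvG (ext0 m (B.S k)) (PT B D DL k U) + inG m (B.H k U) := by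
    unfold Sys.H
    rw [hSL, hS, ← cvG_inG, ← map_add, ← map_add]
    congr 1
    unfold PT
    abel
  rw [h1, map_add, map_add, vacH_inG]

theorem ctG_PT (hnoS : ∀ k U, noS (D.K k U) = B.K k U) (hL : ∀ k U, noS (DL.K k U) = 0)
    (k : ℕ) (U : Finset F) :
    ctG (vacH (cvG (ext0 m (B.S k)) (PT B D DL k U))) = 0 := by
  rw [ctG_vacH, ← SrcDefx991.ctG_noS, noS_cvG]
  have : noS (PT B D DL k U) = 0 := by
    unfold PT
    rw [map_sub, map_sub, hnoS, noS_inG, hL, sub_self, sub_zero]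
  rw [this, map_zero, map_zero]

end energies

/-- **the vacuum part of a convolution** in the final norm -/
theorem vac_bd {g : V → ℝ≥0∞} (g0 : g 0 = 0) {v : Fin m → ℝ} (hv : ∀ i, 0 < v i) {S : Cov V}
    {w : V → ℝ≥0∞} (hw : Gram S w) {X : Ge (VS V m)} (hX : X ∈ GS V m) :
    Nw g v (vacH (cvG (ext0 m S) X)) ≤ pG (wS w fun i => ENNReal.ofReal (v i)) X := by
  have hN := ra_Nw (V := V) (m := m) g v
  have h1 : vacH (cvG (ext0 m S) X) =
      ∑ I, tauP I * inG m (algebraMap ℝ _ (ctG (cvG S (coP I X)))) := by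
    conv_lhs => rw [GS_eq (GS_vacH (GS_cvG S hX))]
    refine sum_congr rfl fun I _ => ?_
    rw [coP_vacH (GS_cvG S hX), coP_cvG S hX]
  rw [h1]
  refine (hN.sum_le _ _).trans (le_trans (sum_le_sum fun I _ => ?_)
    (sum_coP_le w (fun i => ENNReal.ofReal (v i)) X))
  refine (pG_basis_le g0 (fun i => ENNReal.ofReal_ne_top)
    (fun i => (ENNReal.ofReal_pos.2 (hv i)).ne') I _).trans ?_
  refine mul_le_mul_right ?_ _
  have h2 : pG g (algebraMap ℝ (Ge V) (ctG (cvG S (coP I X)))) ≤ ‖ctG (cvG S (coP I X))‖ₑ := by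
    have h3 := (ra_pG (V := V) g).smul (ctG (cvG S (coP I X))) 1
    rw [← Algebra.algebraMap_eq_smul_one] at h3
    refine h3.trans ?_
    calc _ ≤ ‖ctG (cvG S (coP I X))‖ₑ * 1 := mul_le_mul_right (ra_pG (V := V) g).one _
      _ = _ := mul_one _
  refine h2.trans ?_
  rw [ctG_cvG]
  exact EE_le_pnorm hw _

section final

variable {B : Sys F V} {D DL : Sys F (VS V m)} {nm : ℕ → Finset F → Ge (VS V m) → ℝ≥0∞}
  {Wo : ℕ → Finset F → ℝ≥0∞}

/-- sums over the subsets of the volume are below the total norm -/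
theorem sum_le_tn {k : ℕ} (hW : ∀ U, 1 ≤ Wo k U) (Λ : Finset F) (f : Finset F → ℝ≥0∞)
    (X : Finset F → Ge (VS V m)) (h : ∀ U : Finset F, U.Nonempty → f U ≤ nm k U (X U)) :
    ∑ U ∈ nes Λ, f U ≤ tn nm Wo k X := by
  have h1 : ∑ U ∈ nes Λ, f U ≤ ∑ U ∈ nes Λ, Set.indicator {U : Finset F | U.Nonempty}
      (fun U => Wo k U * nm k U (X U)) U := by
    refine sum_le_sum fun U hU => ?_
    have hne := (mem_nes.1 hU).2
    rw [Set.indicator_of_mem (by exact hne)]
    calc f U ≤ nm k U (X U) := h U hne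
      _ = 1 * nm k U (X U) := (one_mul _).symm
      _ ≤ Wo k U * nm k U (X U) := mul_le_mul_left (hW U) _
  exact h1.trans (ENNReal.sum_le_tsum _)

/-- **final comparison data from the tail** (relative steps `0 ≤ k ≤ N`; for domains `N = 0`) -/
theorem finE_tail {N : ℕ} (hS : ∀ k, D.S k = ext0 m (B.S k)) (hSL : ∀ k, DL.S k = D.S k)
    (hv : D.vac = vacS) (hvL : DL.vac = vacS)
    (hnoS : ∀ k U, noS (D.K k U) = B.K k U) (hL : ∀ k U, noS (DL.K k U) = 0)
    {Λ : Finset F} {Sf : Cov V} {g : V → ℝ≥0∞} {v : Fin m → ℝ}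
    (hg : Gram Sf g) (v0 : ∀ i, 0 < v i) (hW : ∀ k U, 1 ≤ Wo k U)
    (hvac : ∀ k < N, ∀ U : Finset F, U.Nonempty → ∀ X, (X = PT B D DL k U ∨ X = DL.K k U) →
      Nw g v (vacH (cvG (ext0 m (B.S k)) X)) ≤ nm k U X)
    (hfin : ∀ U : Finset F, U.Nonempty → ∀ X, Nw g v X ≤ nm N U X)
    {e T : ℕ → ℝ} (he0 : ∀ k, 0 ≤ e k) (hT0 : ∀ k, 0 ≤ T k)
    (he : ∀ k ≤ N, tn nm Wo k (PT B D DL k) ≤ ENNReal.ofReal (e k))
    (hT : ∀ k ≤ N, tn nm Wo k (DL.K k) ≤ ENNReal.ofReal (T k))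
    {ε₁ ε₂ M₀ : ℝ} (hε₁ : 0 ≤ ε₁) (hε₂ : 0 ≤ ε₂) (hM₀ : 0 ≤ M₀)
    (hb : ∑ W ∈ nes Λ, pG g (B.K N W) ≤ ENNReal.ofReal ε₁)
    {E₁ E₁' : Ge (VS V m)} (hE₁ : vacH E₁ = E₁) (hE₁' : vacH E₁' = E₁')
    (hd : Bd (Nw g v) ((E₁ - algebraMap ℝ _ (ctG E₁)) - (E₁' - algebraMap ℝ _ (ctG E₁'))) ε₂)
    (hM : Bd (Nw g v) (E₁' - algebraMap ℝ _ (ctG E₁')) M₀) :
    FinE (D.near N) Λ (D.K N) (DL.K N) (E₁ + D.E Λ N) (E₁' + DL.E Λ N) Sf g v
      (ε₁ + e N + ε₂ + ∑ k ∈ range N, e k) (M₀ + T N + ∑ k ∈ range N, T k) := by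
  have hN := ra_Nw (V := V) (m := m) g v
  have se0 : 0 ≤ ∑ k ∈ range N, e k := sum_nonneg fun k _ => he0 k
  have sT0 : 0 ≤ ∑ k ∈ range N, T k := sum_nonneg fun k _ => hT0 k
  have heN := he0 N
  have hTN := hT0 N
  set X : Ge (VS V m) := ∑ k ∈ range N, ∑ U ∈ nes Λ,
    vacH (cvG (ext0 m (B.S k)) (PT B D DL k U)) with hX
  have cX : ctG X = 0 := by
    rw [hX, map_sum]
    refine sum_eq_zero fun k _ => ?_
    rw [map_sum]
    exact sum_eq_zero fun U _ => ctG_PT hnoS hL k U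
  have key := tail_E (B := B) hS hSL hv hvL Λ N
  rw [← hX] at key
  have bX : Bd (Nw g v) X (∑ k ∈ range N, e k) := by
    refine Bd.sum hN (range N) (t := e) (fun k hk => ?_) fun k _ => he0 k
    refine ((hN.sum_le _ _).trans (sum_le_tn (hW k) Λ _ _ fun U hU => ?_)).trans
      (he k (mem_range.1 hk).le)
    exact hvac k (mem_range.1 hk) U hU _ (Or.inl rfl)
  have bL : Bd (Nw g v) (DL.E Λ N) (∑ k ∈ range N, T k) := by
    rw [Sys.E]
    refine Bd.sum hN (range N) (t := T) (fun k hk => ?_) fun k _ => hT0 k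
    rw [Sys.vacE]
    refine ((hN.sum_le _ _).trans (sum_le_tn (hW k) Λ _ _ fun U hU => ?_)).trans
      (hT k (mem_range.1 hk).le)
    have h1 : DL.vac (DL.H k U) = vacH (cvG (ext0 m (B.S k)) (DL.K k U)) := by
      rw [hvL, ← hS, ← hSL]; rfl
    rw [h1]
    exact hvac k (mem_range.1 hk) U hU _ (Or.inr rfl)
  have cL : ctG (DL.E Λ N) = 0 := by
    rw [Sys.E, map_sum]
    refine sum_eq_zero fun k _ => ?_
    rw [Sys.vacE, map_sum]
    refine sum_eq_zero fun U _ => ?_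
    rw [hvL]
    show ctG (vacH (DL.H k U)) = 0
    rw [ctG_vacH, ← SrcDefx991.ctG_noS]
    unfold Sys.H
    rw [hSL, hS, noS_cvG, hL, map_zero, map_zero]
  refine ⟨hg, v0, by positivity, by positivity, ?_, ?_, fun W _ => hL N W, ?_, ?_, ?_, ?_⟩
  · rw [map_add, hE₁, vacH_E hv]
  · rw [map_add, hE₁', vacH_E hvL]
  · -- activities
    have h1 : ∀ W, D.K N W - DL.K N W = inG m (B.K N W) + PT B D DL N W := fun W => by
      unfold PT; abel
    calc ∑ W ∈ nes Λ, Nw g v (D.K N W - DL.K N W)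
        ≤ ∑ W ∈ nes Λ, (Nw g v (inG m (B.K N W)) + Nw g v (PT B D DL N W)) := by
          refine sum_le_sum fun W _ => ?_
          rw [h1]; exact hN.add _ _
      _ = ∑ W ∈ nes Λ, Nw g v (inG m (B.K N W)) + ∑ W ∈ nes Λ, Nw g v (PT B D DL N W) :=
          sum_add_distrib
      _ ≤ ENNReal.ofReal ε₁ + ENNReal.ofReal (e N) := by
          refine add_le_add (le_trans (sum_le_sum fun W _ => ?_) hb)
            ((sum_le_tn (hW N) Λ _ _ fun U hU => hfin U hU _).trans (he N le_rfl))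
          refine SrcFinBx441.pG_mp_le _ (fun x => ?_) _
          simp [wS, SrcDefx991.vS]
      _ = ENNReal.ofReal (ε₁ + e N) := (ENNReal.ofReal_add hε₁ heN).symm
      _ ≤ _ := ENNReal.ofReal_le_ofReal (by linarith)
  · refine ((sum_le_tn (hW N) Λ _ _ fun U hU => hfin U hU _).trans (hT N le_rfl)).trans
      (ENNReal.ofReal_le_ofReal (by linarith))
  · have e1 : (E₁ + D.E Λ N - algebraMap ℝ _ (ctG (E₁ + D.E Λ N))) -
        (E₁' + DL.E Λ N - algebraMap ℝ _ (ctG (E₁' + DL.E Λ N))) =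
        ((E₁ - algebraMap ℝ _ (ctG E₁)) - (E₁' - algebraMap ℝ _ (ctG E₁'))) + X := by
      rw [key]
      simp only [map_add, cX, cL, AlgHom.commutes, add_zero, zero_add]
      simp only [Algebra.algebraMap_self, RingHom.id_apply]
      abel
    rw [e1]
    exact (hd.add hN bX hε₂ se0).mono (by linarith)
  · have e1 : E₁' + DL.E Λ N - algebraMap ℝ _ (ctG (E₁' + DL.E Λ N)) =
        (E₁' - algebraMap ℝ _ (ctG E₁')) + DL.E Λ N := by
      rw [map_add, cL, add_zero]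
      abel
    rw [e1]
    exact (hM.add hN bL hM₀ sT0).mono (by linarith)

end final

end Crest.Agent.R165.SrcTailFinx441
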