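import Crest.Agent.R165.SrcSys_991
import Crest.Agent.R165.SrcStep2_54
import Crest.Agent.R165.SrcCmp_441
import Crest.Agent.R165.GSysOK_439

/-!
# Row 165 (S0250), SrcTail (note 1414, T1 + T2): the flow with sources above the scale `K(a)`
(helper999)

General form over `SrcSysx991.sysX` (any source extraction `e2`, on or off).

* `shift D k K0` : the system started at step `k`; `shift_K`, `shift_E`, `shift_OK`
* `ratio_total` (T1) : the normalised coefficient is not changed by the flow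
* `L_noS`, `L_GS` : the free run (initial activities without source-free part)
* `PT`, `PT_succ` (T2) : `K_n = inG (base flow) + free run + PT n`; exact one-step identity in the
  form of `SrcStepx54.NL3`
* `PT_step`, `L_step` : one step in total norm
* `E_tail` : the vacuum exponents
-/

set_option autoImplicit false
set_option linter.unusedSectionVars false
set_option linter.unusedVariables false

noncomputable section

namespace Crest.Agent.R165.SrcTailx999

open scoped ENNReal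
open Crest.Agent.R165.Gr0x606 Crest.Agent.R165.Gr1x606 Crest.Agent.R165.GeOpsx337
open Crest.Agent.R165.ExpGx337 Crest.Agent.R165.KCompx892 Crest.Agent.R165.KStepx892
open Crest.Agent.R165.KMapx892 Crest.Agent.R165.KFlowx337 Crest.Agent.R165.GSysx387
open Crest.Agent.R165.SrcDefx991 Crest.Agent.R165.PStepx417 Crest.Agent.R165.GDefx387
open Crest.Agent.R165.Latx683 Crest.Agent.R165.PNormx417 Crest.Agent.R165.GrLocx337
open Crest.Agent.R165.SrcSysx991 Crest.Agent.R165.SrcStepx54 Crest.Agent.R165.Quadx897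
open Crest.Agent.R165.ExpAx337

variable {F : Type} [DecidableEq F] {V : Type} [AddCommGroup V] [Module ℝ V] {m : ℕ}

/-! ### the system started at step `k` -/

section shift

variable {W : Type*} [AddCommGroup W] [Module ℝ W]

/-- the system started at step `k` from the activities `K0` -/
def shift (D : Sys F W) (k : ℕ) (K0 : Finset F → Ge W) : Sys F W where
  S n := D.S (k + n)
  near n := D.near (k + n)
  fld := D.fld
  vac := D.vac
  e n := D.e (k + n)
  K0 := K0

theorem shift_K (D : Sys F W) (k n : ℕ) : (shift D k (D.K k)).K n = D.K (k + n) := by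
  induction n with
  | zero => rfl
  | succ n ih =>
    funext U
    rw [Sys.K_succ, ← add_assoc, Sys.K_succ]
    have hH : (shift D k (D.K k)).H n = D.H (k + n) := by
      funext U
      rw [Sys.H, Sys.H, ih]; rfl
    have hB : (shift D k (D.K k)).B n = D.B (k + n) := by
      funext U
      rw [Sys.B_eq, Sys.B_eq, Sys.A, Sys.A, hH]; rfl
    rw [hH, hB]; rfl

theorem shift_H (D : Sys F W) (k n : ℕ) : (shift D k (D.K k)).H n = D.H (k + n) := by
  funext U
  rw [Sys.H, Sys.H, shift_K]; rfl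

theorem shift_A (D : Sys F W) (k n : ℕ) : (shift D k (D.K k)).A n = D.A (k + n) := by
  funext U
  rw [Sys.A, Sys.A, shift_H]; rfl

theorem shift_vacE (D : Sys F W) (Λ : Finset F) (k n : ℕ) :
    (shift D k (D.K k)).vacE Λ n = D.vacE Λ (k + n) := by
  unfold Sys.vacE
  rw [shift_H]; rfl

/-- vacuum exponents add up -/
theorem shift_E (D : Sys F W) (Λ : Finset F) (k n : ℕ) :
    D.E Λ (k + n) = D.E Λ k + (shift D k (D.K k)).E Λ n := by
  unfold Sys.E
  rw [Finset.sum_range_add]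
  congr 1
  exact Finset.sum_congr rfl fun j _ => (shift_vacE D Λ k j).symm

theorem shift_OK {D : Sys F W} {src : Submodule ℝ W} (h : D.OK src) (k : ℕ)
    {K0 : Finset F → Ge W} (hK : ∀ U, K0 U ∈ grG (D.fld U)) : (shift D k K0).OK src where
  near_mono n := h.near_mono (k + n)
  near_symm n := h.near_symm (k + n)
  near_refl n := h.near_refl (k + n)
  fld_mono := h.fld_mono
  range n := h.range (k + n)
  K0_mem := hK
  X_mem n := h.X_mem (k + n)
  vac_mem := h.vac_mem
  vac_src := h.vac_src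
  src_S n := h.src_S (k + n)

theorem shift_sysX (B : Sys F V) (fl : Finset F → Submodule ℝ (VS V m))
    (e2 : ℕ → Extr F (VS V m)) (K0 K1 : Finset F → Ge (VS V m)) (k : ℕ) :
    shift (sysX B m fl e2 K0) k K1 =
      sysX (shift B k (B.K k)) m fl (fun n => e2 (k + n)) K1 := rfl

end shift

/-! ### T1: the normalised coefficient is not changed by the flow -/

/-- **total identity with a prefactor** -/
theorem gexp_total {D : Sys F (VS V m)} {src : Submodule ℝ (VS V m)} (hD : D.OK src) {Λ : Finset F}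
    (h0 : ∀ U, ¬ U ⊆ Λ → D.K0 U = 0) (N : ℕ) (S Sf : Cov V) (Sn : ℕ → Cov V)
    (hSn : ∀ n, D.S n = ext0 m (Sn n)) (hS : S = Sf + ∑ n ∈ Finset.range N, Sn n)
    (hsrc : ∀ x ∈ src, ∀ y, (ext0 m Sf).b x y = 0) (E0 : Ge (VS V m)) :
    gexp (E0 + D.E Λ N) * cvG (ext0 m Sf) (ZZ (D.near N) Λ (D.K N)) =
      gexp E0 * cvG (ext0 m S) (ZZ (D.near 0) Λ D.K0) := by
  have e : ext0 m S = ext0 m Sf + ∑ n ∈ Finset.range N, D.S n := by
    rw [hS, GSysOKx439.ext0_add, GSysOKx439.ext0_sum]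
    congr 1
    exact Finset.sum_congr rfl fun n _ => (hSn n).symm
  rw [Sys.total' hD h0 N _ _ e hsrc, gexp_add, mul_assoc]

/-- **T1** -/
theorem ratio_total {D : Sys F (VS V m)} {src : Submodule ℝ (VS V m)} (hD : D.OK src)
    {Λ : Finset F} (h0 : ∀ U, ¬ U ⊆ Λ → D.K0 U = 0) (N : ℕ) (S Sf : Cov V) (Sn : ℕ → Cov V)
    (hSn : ∀ n, D.S n = ext0 m (Sn n)) (hS : S = Sf + ∑ n ∈ Finset.range N, Sn n)
    (hsrc : ∀ x ∈ src, ∀ y, (ext0 m Sf).b x y = 0) (E0 : Ge (VS V m)) :
    SrcCmpx441.ratio Sf (E0 + D.E Λ N) (ZZ (D.near N) Λ (D.K N)) =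
      SrcCmpx441.ratio S E0 (ZZ (D.near 0) Λ D.K0) := by
  unfold SrcCmpx441.ratio
  rw [gexp_total hD h0 N S Sf Sn hSn hS hsrc E0]

/-! ### linearity of the exponent -/

section lin

variable {W : Type*} [AddCommGroup W] [Module ℝ W]

theorem AA_add (vac : Ge W →ₗ[ℝ] Ge W) (e : Extr F W) (H1 H2 : Finset F → Ge W) (U : Finset F) :
    AA vac e (fun U => H1 U + H2 U) U = AA vac e H1 U + AA vac e H2 U := by
  simp only [AA, Extr.gain, Extr.lost, map_add, Finset.sum_add_distrib]
  abel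

theorem AA_zero (vac : Ge W →ₗ[ℝ] Ge W) (e : Extr F W) (U : Finset F) :
    AA vac e (fun _ => 0) U = 0 := by
  simp [AA, Extr.gain, Extr.lost]

theorem BB_eq_Bx (vac : Ge W →ₗ[ℝ] Ge W) (e : Extr F W) (H : Finset F → Ge W) :
    BB vac e H = Bx (AA vac e H) := rfl

theorem KK_zero {R : Type*} [CommRing R] (near near' : F → F → Prop) (U : Finset F) :
    KK near near' (fun _ => (0 : R)) (fun _ => 0) U = 0 := by
  rcases Finset.eq_empty_or_nonempty U with rfl | hU
  · exact KK_empty _ _ _ _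
  · refine Sys.KK_supp (Λ := ∅) near near' (fun _ _ => rfl) (fun _ _ => rfl) ?_
    intro h
    exact hU.ne_empty (Finset.subset_empty.1 h)

/-- the flow started from zero is zero -/
theorem K_of_zero (D : Sys F W) (h0 : ∀ U, D.K0 U = 0) (n : ℕ) (U : Finset F) : D.K n U = 0 := by
  induction n generalizing U with
  | zero => exact h0 U
  | succ n ih =>
    rw [Sys.K_succ]
    have hH : D.H n = fun _ => 0 := by
      funext U
      rw [Sys.H, ih, map_zero]
    have hB : D.B n = fun _ => 0 := by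
      funext U
      rw [Sys.B_eq, Sys.A, hH, AA_zero, gexp_zero, sub_self]
    rw [hH, hB]
    exact KK_zero _ _ _

theorem NL_zero (near near' : F → F → Prop) {U : Finset F} (hU : U.Nonempty) :
    NL near near' (fun _ => (0 : Ge W)) (fun _ => 0) U = 0 := by
  have h := KK_eq_NL (near := near) (near' := near') (H := fun _ => (0 : Ge W))
    (A := fun _ => 0) hU
  have e : (Bx fun _ : Finset F => (0 : Ge W)) = fun _ => 0 := by
    funext U
    rw [Bx, gexp_zero, sub_self]
  rw [e, KK_zero] at h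
  simpa using h.symm

end lin

/-- the nonlinear part on source-free families -/
theorem NL_inG (near near' : F → F → Prop) (H A : Finset F → Ge V) {U : Finset F}
    (hU : U.Nonempty) :
    NL near near' (fun U => inG m (H U)) (fun U => inG m (A U)) U =
      inG m (NL near near' H A U) := by
  have h1 := KK_eq_NL (near := near) (near' := near') (H := fun U => inG m (H U))
    (A := fun U => inG m (A U)) hU
  have h2 := congrArg (inG (V := V) m) (KK_eq_NL (near := near) (near' := near') (H := H) (A := A)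
    hU)
  have h3 := KK_hom (inG (V := V) m).toRingHom near near' H (Bx A) U
  have e : (fun U => (inG (V := V) m).toRingHom (Bx A U)) = Bx fun U => inG m (A U) := by
    funext U
    show inG m (gexp (A U) - 1) = gexp (inG m (A U)) - 1
    rw [map_sub, map_one]
    congr 1
    exact mpG_gexp _ _
  rw [e] at h3
  have h4 : inG m (KK near near' H (Bx A) U) =
      KK near near' (fun U => inG m (H U)) (Bx fun U => inG m (A U)) U := h3
  rw [map_add, map_add, h4, h1] at h2
  exact add_left_cancel h2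

/-! ### the free run -/

section run

variable (B : Sys F V) (fl : Finset F → Submodule ℝ (VS V m)) (e2 : ℕ → Extr F (VS V m))
  (K0 KL : Finset F → Ge (VS V m))

/-- the hypotheses on the source extraction -/
structure E2OK (e2 : ℕ → Extr F (VS V m)) : Prop where
  noS : ∀ n U, ∀ T ∈ (e2 n).out U, ∀ a, noS ((e2 n).X U T a) = 0
  inG : ∀ n U, ∀ T ∈ (e2 n).out U, ∀ a : Ge V, (e2 n).X U T (inG m a) = 0
  gs : ∀ n U, ∀ T ∈ (e2 n).out U, ∀ a ∈ GS V m, (e2 n).X U T a ∈ GS V m

theorem E2OK.none : E2OK (fun _ => Extr.none F (VS V m)) where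
  noS _ U T h := absurd h (Finset.notMem_empty _)
  inG _ U T h := absurd h (Finset.notMem_empty _)
  gs _ U T h := absurd h (Finset.notMem_empty _)

theorem E2OK.shift {e2 : ℕ → Extr F (VS V m)} (h : E2OK e2) (k : ℕ) :
    E2OK (fun n => e2 (k + n)) :=
  ⟨fun n => h.noS (k + n), fun n => h.inG (k + n), fun n => h.gs (k + n)⟩

variable {e2 KL}

/-- the free run has no source-free part -/
theorem L_noS (hvac : B.vac = vac0 V) (h2 : E2OK e2) (hL : ∀ U, noS (KL U) = 0) (n : ℕ)
    (U : Finset F) : noS ((sysX B m fl e2 KL).K n U) = 0 := by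
  have h := noS_K { B with K0 := fun _ => 0 } fl e2 KL hvac h2.noS hL n U
  have h0 := K_of_zero { B with K0 := fun _ => 0 } (fun _ => rfl) n U
  rw [h0] at h
  exact h

theorem L_noS_H (hvac : B.vac = vac0 V) (h2 : E2OK e2) (hL : ∀ U, noS (KL U) = 0) (n : ℕ)
    (U : Finset F) : noS ((sysX B m fl e2 KL).H n U) = 0 := by
  have h : noS ((sysX B m fl e2 KL).H n U) = cvG (B.S n) (noS ((sysX B m fl e2 KL).K n U)) :=
    noS_cvG _ _
  rw [h, L_noS B fl hvac h2 hL, map_zero]

theorem L_GS (h2 : E2OK e2) (hL : ∀ U, KL U ∈ GS V m) (n : ℕ) (U : Finset F) :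
    (sysX B m fl e2 KL).K n U ∈ GS V m := (GS_K B fl e2 KL h2.gs hL n U).1

variable (e2 KL)

/-! ### T2: the decomposition -/

/-- **the rest**: actual run minus base flow minus free run -/
def PT (n : ℕ) (U : Finset F) : Ge (VS V m) :=
  (sysX B m fl e2 K0).K n U - inG m (B.K n U) - (sysX B m fl e2 KL).K n U

/-- convolved rest -/
def HP (n : ℕ) (U : Finset F) : Ge (VS V m) := cvG (ext0 m (B.S n)) (PT B fl e2 K0 KL n U)

/-- exponent of the rest (linear in `HP`) -/
def AP (n : ℕ) (U : Finset F) : Ge (VS V m) :=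
  AA vacS (union (liftE m (B.e n)) (e2 n)) (HP B fl e2 K0 KL n) U

variable {e2 K0 KL}

theorem K_eq_PT (n : ℕ) (U : Finset F) : (sysX B m fl e2 K0).K n U =
    inG m (B.K n U) + (sysX B m fl e2 KL).K n U + PT B fl e2 K0 KL n U := by
  rw [PT]; abel

theorem H_eq_PT (n : ℕ) : (sysX B m fl e2 K0).H n = fun U =>
    inG m (B.H n U) + (sysX B m fl e2 KL).H n U + HP B fl e2 K0 KL n U := by
  funext U
  rw [Sys.H, K_eq_PT B fl n U (K0 := K0) (KL := KL), map_add, map_add]
  congr 2
  exact cvG_inG _ _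

/-- the exponent on source-free families -/
theorem AA_inG' (hvac : B.vac = vac0 V) (h2 : E2OK e2) (n : ℕ) (H : Finset F → Ge V)
    (U : Finset F) :
    AA vacS (union (liftE m (B.e n)) (e2 n)) (fun U => inG m (H U)) U =
      inG m (AA B.vac (B.e n) H U) := by
  have hg : (e2 n).gain (fun U => inG m (H U)) U = 0 := by
    rw [Extr.gain]
    exact Finset.sum_eq_zero fun T hT => h2.inG n T U (((e2 n).mem_iff T U).2 hT) _
  have hl : (e2 n).lost (fun U => inG m (H U)) U = 0 := by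
    rw [Extr.lost]
    exact Finset.sum_eq_zero fun T hT => h2.inG n U T hT _
  rw [AA, union_gain, union_lost, liftE_gain, liftE_lost, hg, hl, AA, map_sub, map_sub, add_zero,
    add_zero, vacS_apply, vacH_inG, hvac, vac0_apply, AlgHom.commutes]
  simp only [noS_inG]

theorem A_eq_PT (hvac : B.vac = vac0 V) (h2 : E2OK e2) (n : ℕ) :
    (sysX B m fl e2 K0).A n = fun U =>
      inG m (B.A n U) + (sysX B m fl e2 KL).A n U + AP B fl e2 K0 KL n U := by
  funext U
  rw [Sys.A, H_eq_PT B fl n (K0 := K0) (KL := KL)]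
  have e : AA (sysX B m fl e2 K0).vac ((sysX B m fl e2 K0).e n) (fun U =>
      inG m (B.H n U) + (sysX B m fl e2 KL).H n U + HP B fl e2 K0 KL n U) U =
    AA vacS (union (liftE m (B.e n)) (e2 n)) (fun U =>
      inG m (B.H n U) + (sysX B m fl e2 KL).H n U + HP B fl e2 K0 KL n U) U := rfl
  rw [e, AA_add vacS _ (fun U => inG m (B.H n U) + (sysX B m fl e2 KL).H n U)
    (HP B fl e2 K0 KL n), AA_add vacS _ (fun U => inG m (B.H n U)) ((sysX B m fl e2 KL).H n),
    AA_inG' B hvac h2]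
  rfl

/-- **T2, the exact one-step identity** -/
theorem PT_succ (hvac : B.vac = vac0 V) (h2 : E2OK e2) (n : ℕ) {U : Finset F}
    (hU : U.Nonempty) :
    PT B fl e2 K0 KL (n + 1) U =
      (HP B fl e2 K0 KL n U + AP B fl e2 K0 KL n U) +
      (NL (B.near n) (B.near (n + 1))
          (fun U => inG m (B.H n U) + (sysX B m fl e2 KL).H n U + HP B fl e2 K0 KL n U)
          (fun U => inG m (B.A n U) + (sysX B m fl e2 KL).A n U + AP B fl e2 K0 KL n U) U -
        NL (B.near n) (B.near (n + 1)) (fun U => inG m (B.H n U)) (fun U => inG m (B.A n U)) U -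
        NL (B.near n) (B.near (n + 1)) ((sysX B m fl e2 KL).H n) ((sysX B m fl e2 KL).A n) U) := by
  have h1 := Sys_K_succ (sysX B m fl e2 K0) n hU
  have h3 := Sys_K_succ (sysX B m fl e2 KL) n hU
  have h4 := Sys_K_succ B n hU
  rw [A_eq_PT B fl hvac h2 n (K0 := K0) (KL := KL), H_eq_PT B fl n (K0 := K0) (KL := KL)] at h1
  have h5 : (sysX B m fl e2 K0).near = B.near := rfl
  have h6 : (sysX B m fl e2 KL).near = B.near := rfl
  rw [h5] at h1
  rw [h6] at h3
  beta_reduce at h1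
  rw [NL_inG _ _ _ _ hU, PT, h1, h3, h4, map_add, map_add]
  abel

theorem noS_PT (hvac : B.vac = vac0 V) (h2 : E2OK e2) (hK : ∀ U, noS (K0 U) = B.K0 U)
    (hL : ∀ U, noS (KL U) = 0) (n : ℕ) (U : Finset F) : noS (PT B fl e2 K0 KL n U) = 0 := by
  rw [PT, map_sub, map_sub, noS_inG, noS_K B fl e2 K0 hvac h2.noS hK, L_noS B fl hvac h2 hL,
    sub_self, sub_zero]

theorem noS_HP (hvac : B.vac = vac0 V) (h2 : E2OK e2) (hK : ∀ U, noS (K0 U) = B.K0 U)
    (hL : ∀ U, noS (KL U) = 0) (n : ℕ) (U : Finset F) : noS (HP B fl e2 K0 KL n U) = 0 := by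
  rw [HP, noS_cvG, noS_PT B fl hvac h2 hK hL, map_zero]

theorem GS_PT (h2 : E2OK e2) (hK : ∀ U, K0 U ∈ GS V m) (hL : ∀ U, KL U ∈ GS V m) (n : ℕ)
    (U : Finset F) : PT B fl e2 K0 KL n U ∈ GS V m :=
  Subalgebra.sub_mem _ (Subalgebra.sub_mem _ (GS_K B fl e2 K0 h2.gs hK n U).1 (inG_mem _))
    (L_GS B fl h2 hL n U)

theorem GS_HP (h2 : E2OK e2) (hK : ∀ U, K0 U ∈ GS V m) (hL : ∀ U, KL U ∈ GS V m) (n : ℕ)
    (U : Finset F) : HP B fl e2 K0 KL n U ∈ GS V m := GS_cvG _ (GS_PT B fl h2 hK hL n U)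

/-- the rest of a supported run is supported -/
theorem PT_supp {Λ : Finset F} (hB : ∀ U, ¬ U ⊆ Λ → B.K0 U = 0) (hK : ∀ U, ¬ U ⊆ Λ → K0 U = 0)
    (hL : ∀ U, ¬ U ⊆ Λ → KL U = 0) (n : ℕ) {U : Finset F} (hU : ¬ U ⊆ Λ) :
    PT B fl e2 K0 KL n U = 0 := by
  have h1 : (sysX B m fl e2 K0).K n U = 0 := Sys.K_supp (D := sysX B m fl e2 K0) hK n hU
  have h2 : (sysX B m fl e2 KL).K n U = 0 := Sys.K_supp (D := sysX B m fl e2 KL) hL n hU
  rw [PT, h1, h2, Sys.K_supp hB n hU, map_zero, sub_zero, sub_zero]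

/-! ### one step in total norm -/

section norm

variable {β : Type*} {Wo : Finset F → ℝ≥0∞} {sz : Finset F → ℕ} {nr : β → Finset F → Prop}
  {C : ℝ≥0∞} {nm : Finset F → Ge (VS V m) → ℝ≥0∞}

/-- **one step of the rest, total norm** -/
theorem PT_step (hvac : B.vac = vac0 V) (h2 : E2OK e2) (n : ℕ)
    (hs : ∀ a b, B.near (n + 1) a b → B.near (n + 1) b a) (hN : GFam nm)
    (h : SumData (B.near (n + 1)) β Wo sz nr C) (hW1 : ∀ U, 1 ≤ Wo U) {b t T e : ℝ≥0∞}
    (hb : ∀ p, Sin Wo sz nr (fun U => nm U (inG m (B.H n U))) p +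
      Sin Wo sz nr (fun U => nm U (inG m (B.A n U))) p ≤ b)
    (hl : ∀ p, Sin Wo sz nr (fun U => nm U ((sysX B m fl e2 KL).H n U)) p +
      Sin Wo sz nr (fun U => nm U ((sysX B m fl e2 KL).A n U)) p ≤ t)
    (hT : Tin Wo sz (fun U => nm U ((sysX B m fl e2 KL).H n U)) +
      Tin Wo sz (fun U => nm U ((sysX B m fl e2 KL).A n U)) ≤ T)
    (hP : Tin Wo sz (fun U => nm U (HP B fl e2 K0 KL n U)) +
      Tin Wo sz (fun U => nm U (AP B fl e2 K0 KL n U)) ≤ e)
    (hC1 : 1 ≤ C) (hb0 : b ≠ 0) (hsm : 16 * C * (b + t + e + b * T) ≤ 1) :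
    Tout Wo (fun W => nm W (PT B fl e2 K0 KL (n + 1) W)) ≤
      Tout Wo (fun W => nm W (HP B fl e2 K0 KL n W + AP B fl e2 K0 KL n W)) +
        ((6 + 8 * C) * ((b + t + e + b * T) * e) + (5 + 8 * C) * (b * T)) := by
  have key := NL3 (near := B.near n) hs hN h hW1 hb hl hT hP hC1 hb0 hsm
  have h1 : ∀ W : Finset F, W.Nonempty → nm W (PT B fl e2 K0 KL (n + 1) W) ≤
      nm W (HP B fl e2 K0 KL n W + AP B fl e2 K0 KL n W) +
      nm W (NL (B.near n) (B.near (n + 1))
          (fun U => inG m (B.H n U) + (sysX B m fl e2 KL).H n U + HP B fl e2 K0 KL n U)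
          (fun U => inG m (B.A n U) + (sysX B m fl e2 KL).A n U + AP B fl e2 K0 KL n U) W -
        NL (B.near n) (B.near (n + 1)) (fun U => inG m (B.H n U)) (fun U => inG m (B.A n U)) W -
        NL (B.near n) (B.near (n + 1)) ((sysX B m fl e2 KL).H n)
          ((sysX B m fl e2 KL).A n) W) := by
    intro W hW
    rw [PT_succ B fl hvac h2 n hW (K0 := K0) (KL := KL)]
    exact (hN.gn W).add _ _
  refine (Tout_mono h1).trans ?_
  rw [Tout_add]
  exact add_le_add le_rfl key

/-- **one step of the free run, total norm** -/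
theorem L_step (n : ℕ) (hs : ∀ a b, B.near (n + 1) a b → B.near (n + 1) b a) (hN : GFam nm)
    (h : SumData (B.near (n + 1)) β Wo sz nr C) (hW1 : ∀ U, 1 ≤ Wo U) {T : ℝ≥0∞}
    (hT : Tin Wo sz (fun U => nm U ((sysX B m fl e2 KL).H n U)) +
      Tin Wo sz (fun U => nm U ((sysX B m fl e2 KL).A n U)) ≤ T)
    (hC1 : 1 ≤ C) (hT0 : T ≠ 0) (hsm : 32 * C * T ≤ 1) :
    Tout Wo (fun W => nm W ((sysX B m fl e2 KL).K (n + 1) W)) ≤
      Tout Wo (fun W => nm W ((sysX B m fl e2 KL).H n W + (sysX B m fl e2 KL).A n W)) +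
        (12 + 16 * C) * (T * T) := by
  have z1 : ∀ p, Sin Wo sz nr (fun U => nm U (0 : Ge (VS V m))) p +
      Sin Wo sz nr (fun U => nm U (0 : Ge (VS V m))) p ≤ 0 := by
    intro p
    simp [(hN.gn _).zero, Sin_zero]
  have z2 : Tin Wo sz (fun U => nm U (0 : Ge (VS V m))) +
      Tin Wo sz (fun U => nm U (0 : Ge (VS V m))) ≤ 0 := by
    unfold Tin
    simp [(hN.gn _).zero, Sin_zero]
  have key := NL3 (near := B.near n) hs hN h hW1 (H1 := fun _ => 0) (A1 := fun _ => 0)
    (H2 := fun _ => 0) (A2 := fun _ => 0) (H3 := (sysX B m fl e2 KL).H n)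
    (A3 := (sysX B m fl e2 KL).A n) (β0 := T) (t := 0) (T := 0) (e := T)
    (fun p => (z1 p).trans bot_le) z1 z2 hT hC1 hT0 (by
      refine le_trans (le_of_eq ?_) hsm
      ring)
  simp only [zero_add] at key
  have h1 : ∀ W : Finset F, W.Nonempty → nm W ((sysX B m fl e2 KL).K (n + 1) W) ≤
      nm W ((sysX B m fl e2 KL).H n W + (sysX B m fl e2 KL).A n W) +
      nm W (NL (B.near n) (B.near (n + 1)) (fun U => (sysX B m fl e2 KL).H n U)
        (fun U => (sysX B m fl e2 KL).A n U) W -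
        NL (B.near n) (B.near (n + 1)) (fun _ => 0) (fun _ => 0) W -
        NL (B.near n) (B.near (n + 1)) (fun _ => 0) (fun _ => 0) W) := by
    intro W hW
    rw [Sys_K_succ (sysX B m fl e2 KL) n hW, NL_zero _ _ hW, sub_zero, sub_zero]
    exact (hN.gn W).add _ _
  refine (Tout_mono h1).trans ?_
  rw [Tout_add]
  refine add_le_add le_rfl (key.trans (le_of_eq ?_))
  ring

end norm

/-! ### the vacuum exponents -/

/-- the vacuum exponent of the rest -/
def EP (Λ : Finset F) (N : ℕ) : Ge (VS V m) :=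
  ∑ n ∈ Finset.range N, ∑ U ∈ nes Λ, vacH (HP B fl e2 K0 KL n U)

theorem vacH_vacH (a : Ge (VS V m)) : vacH (vacH a) = vacH a := SrcCmpx441.vacH_vacH a

theorem ctG_vacH (a : Ge (VS V m)) : ctG (vacH a) = ctG a := by
  rw [vacH, ctG_mpG]

theorem ctG_noS (a : Ge (VS V m)) : ctG (noS a) = ctG a := by
  rw [noS, ctG_mpG]

/-- **the vacuum exponents**: base flow (a number), free run, rest -/
theorem E_tail (hvac : B.vac = vac0 V) (Λ : Finset F) (N : ℕ) :
    (sysX B m fl e2 K0).E Λ N = algebraMap ℝ _ (ctG (B.E Λ N)) +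
      (sysX B m fl e2 KL).E Λ N + EP B fl (e2 := e2) (K0 := K0) (KL := KL) Λ N := by
  unfold Sys.E EP Sys.vacE
  rw [map_sum, map_sum, ← Finset.sum_add_distrib, ← Finset.sum_add_distrib]
  refine Finset.sum_congr rfl fun n _ => ?_
  rw [map_sum, map_sum, ← Finset.sum_add_distrib, ← Finset.sum_add_distrib]
  refine Finset.sum_congr rfl fun U _ => ?_
  have e1 : (sysX B m fl e2 K0).vac ((sysX B m fl e2 K0).H n U) =
      vacH ((sysX B m fl e2 K0).H n U) := rfl
  have e2' : (sysX B m fl e2 KL).vac ((sysX B m fl e2 KL).H n U) =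
      vacH ((sysX B m fl e2 KL).H n U) := rfl
  rw [e1, e2', H_eq_PT B fl n (K0 := K0) (KL := KL), map_add, map_add, vacH_inG, hvac,
    vac0_apply]
  congr 3
  rw [AlgHom.commutes]; rfl

theorem ctG_EP (hvac : B.vac = vac0 V) (h2 : E2OK e2) (hK : ∀ U, noS (K0 U) = B.K0 U)
    (hL : ∀ U, noS (KL U) = 0) (Λ : Finset F) (N : ℕ) :
    ctG (EP B fl (e2 := e2) (K0 := K0) (KL := KL) Λ N) = 0 := by
  unfold EP
  rw [map_sum]
  refine Finset.sum_eq_zero fun n _ => ?_
  rw [map_sum]
  refine Finset.sum_eq_zero fun U _ => ?_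
  rw [ctG_vacH, ← ctG_noS, noS_HP B fl hvac h2 hK hL, map_zero]

theorem ctG_L_E (hvac : B.vac = vac0 V) (h2 : E2OK e2) (hL : ∀ U, noS (KL U) = 0)
    (Λ : Finset F) (N : ℕ) : ctG ((sysX B m fl e2 KL).E Λ N) = 0 := by
  unfold Sys.E Sys.vacE
  rw [map_sum]
  refine Finset.sum_eq_zero fun n _ => ?_
  rw [map_sum]
  refine Finset.sum_eq_zero fun U _ => ?_
  have e1 : (sysX B m fl e2 KL).vac ((sysX B m fl e2 KL).H n U) =
      vacH ((sysX B m fl e2 KL).H n U) := rfl
  rw [e1, ctG_vacH, ← ctG_noS, L_noS_H B fl hvac h2 hL, map_zero]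

theorem vacH_E (Λ : Finset F) (N : ℕ) :
    vacH ((sysX B m fl e2 K0).E Λ N) = (sysX B m fl e2 K0).E Λ N := by
  unfold Sys.E Sys.vacE
  rw [map_sum]
  refine Finset.sum_congr rfl fun n _ => ?_
  rw [map_sum]
  exact Finset.sum_congr rfl fun U _ => vacH_vacH _

/-- **dE of `FinE`**: the two exponents without their constants differ by `EP` -/
theorem dE_tail (hvac : B.vac = vac0 V) (h2 : E2OK e2) (hK : ∀ U, noS (K0 U) = B.K0 U)
    (hL : ∀ U, noS (KL U) = 0) (Λ : Finset F) (N : ℕ) :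
    ((sysX B m fl e2 K0).E Λ N - algebraMap ℝ _ (ctG ((sysX B m fl e2 K0).E Λ N))) -
      ((sysX B m fl e2 KL).E Λ N - algebraMap ℝ _ (ctG ((sysX B m fl e2 KL).E Λ N))) =
      EP B fl (e2 := e2) (K0 := K0) (KL := KL) Λ N := by
  have h1 := E_tail B fl (e2 := e2) (K0 := K0) (KL := KL) hvac Λ N
  have h3 : ctG ((sysX B m fl e2 K0).E Λ N) = ctG (B.E Λ N) := by
    rw [h1, map_add, map_add, ctG_L_E B fl hvac h2 hL, ctG_EP B fl hvac h2 hK hL, AlgHom.commutes]
    simp
  rw [h3, ctG_L_E B fl hvac h2 hL, h1, map_zero]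
  abel

end run

/-! ### the source extraction of helper991 -/

section srcE

variable {G : Type} [CommRing G] [CN G] [DecidableEq G]

theorem E2OK.srcE (R : SData G V m) (rs : ℕ → ℕ) (dp : ℕ → Fin m → Prop) :
    E2OK (V := V) (m := m) (fun n => srcE (rs n) R.sf R.ne (dp n) R.mu R.β) where
  noS _ U T _ a := noS_srcE _ _ _ _ _ _ U T a
  inG _ U T _ a := by
    rw [srcE_X]
    refine Finset.sum_eq_zero fun i _ => ?_
    rw [seX_apply, coP_inG, if_neg (Finset.singleton_ne_empty i), map_zero, zero_smul, map_zero,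
      mul_zero]
  gs _ U T _ a _ := GS_srcE _ _ _ _ _ _ U T a

end srcE

end Crest.Agent.R165.SrcTailx999
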