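import Crest.Agent.R165.GDef_387

/-!
# Row 165 (S0250): plane charts of the torus sectors (helper723)

`wTor M ε₁ ε₂` : the critical background of the torus of side `M` in the sector with seam signs
`ε₁` (bonds crossing the seam `i = 0`) and `ε₂` (bonds crossing the seam `j = 0`).

* `cn_zmod`       : `cn (n : ZMod M) = |n|` for `2 |n| ≤ M`
* `chart`         : `PlaneLike (wTor M ε₁ ε₂) (ball x₀ R)` for `4 (R + 1) ≤ M`
* `PlaneLike.sub` : restriction to a smaller region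
* `emb_tor`       : `Emb` for every set of faces inside a ball of radius `D`,
                    `4 (D + s2 r + 1) ≤ M`
-/

set_option autoImplicit false

noncomputable section

open Crest.Agent.R165.Gr0x606 Crest.Agent.R165.Latx683 Crest.Agent.R165.GDefx387

namespace Crest.Agent.R165.TorChartx723

/-- the critical background of a torus sector -/
def wTor (M : ℕ) (ε₁ ε₂ : ℝ) : BW (ZMod M) := fun z j =>
  (if j = 1 then (if z.1 = 0 then ε₁ else 1) else (if z.2 = 0 then ε₂ else 1)) * xc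

section one

variable {M : ℕ} [NeZero M]

/-- short integers are minimal representatives -/
theorem cn_zmod {n : ℤ} (h : 2 * n.natAbs ≤ M) : cn (n : ZMod M) = n.natAbs := by
  show ((n : ZMod M).valMinAbs).natAbs = n.natAbs
  by_cases h1 : n * 2 = -(M : ℤ)
  · have h2 : (n : ZMod M).valMinAbs = -n := by
      rw [ZMod.valMinAbs_spec]
      refine ⟨?_, ?_⟩
      · have h3 : ((-n - n : ℤ) : ZMod M) = 0 := by
          have : -n - n = (M : ℤ) := by omega
          rw [this]; simp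
        push_cast at h3 ⊢
        linear_combination -h3
      · constructor
        · have : 0 < M := Nat.pos_of_ne_zero (NeZero.ne M)
          omega
        · omega
    rw [h2, Int.natAbs_neg]
  · have h2 : (n : ZMod M).valMinAbs = n := by
      rw [ZMod.valMinAbs_spec]
      refine ⟨rfl, ?_⟩
      constructor
      · omega
      · omega
    rw [h2]

theorem cn_eq (a : ZMod M) : cn a = a.valMinAbs.natAbs := rfl

/-- lift of a coordinate near `c₀` -/
def lf (c₀ c : ZMod M) : ℤ := (c₀.val : ℤ) + (c - c₀).valMinAbs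

theorem lf_cast (c₀ c : ZMod M) : ((lf c₀ c : ℤ) : ZMod M) = c := by
  unfold lf
  push_cast
  rw [ZMod.natCast_val, ZMod.cast_id]
  ring

theorem lf_range (c₀ c : ZMod M) {R : ℕ} (h : cn (c₀ - c) ≤ R) :
    -(R : ℤ) ≤ lf c₀ c ∧ lf c₀ c < M + R := by
  have h1 : (c - c₀).valMinAbs.natAbs ≤ R := by
    rw [cn_sub_comm] at h
    exact h
  have h2 : c₀.val < M := ZMod.val_lt c₀
  unfold lf
  constructor <;> omega

theorem lf_iso (c₀ : ZMod M) {c c' : ZMod M} {R : ℕ} (hR : 4 * R ≤ M) (h : cn (c₀ - c) ≤ R)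
    (h' : cn (c₀ - c') ≤ R) : (lf c₀ c - lf c₀ c').natAbs = cn (c - c') := by
  have h1 : (c - c₀).valMinAbs.natAbs ≤ R := by
    rw [cn_sub_comm] at h; exact h
  have h2 : (c' - c₀).valMinAbs.natAbs ≤ R := by
    rw [cn_sub_comm] at h'; exact h'
  have h3 : ((lf c₀ c - lf c₀ c' : ℤ) : ZMod M) = c - c' := by
    rw [Int.cast_sub, lf_cast, lf_cast]
  rw [← h3]
  symm
  apply cn_zmod
  unfold lf
  omega

theorem lf_succ (c₀ : ZMod M) {c : ZMod M} {R : ℕ} (hR : 2 * (R + 1) ≤ M) (h : cn (c₀ - c) ≤ R) :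
    lf c₀ (c + 1) = lf c₀ c + 1 := by
  have h1 : (c - c₀).valMinAbs.natAbs ≤ R := by
    rw [cn_sub_comm] at h; exact h
  have h2 : (c + 1 - c₀).valMinAbs = (c - c₀).valMinAbs + 1 := by
    rw [ZMod.valMinAbs_spec]
    refine ⟨?_, ?_⟩
    · push_cast
      ring
    · constructor <;> omega
  unfold lf
  rw [h2]
  ring

/-- the gauge of one coordinate -/
def sg (c₀ : ZMod M) (ε : ℝ) (c : ZMod M) : ℝ := if 0 ≤ lf c₀ c ∧ lf c₀ c < M then 1 else ε

omit [NeZero M] in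
theorem sg_sq (c₀ : ZMod M) {ε : ℝ} (hε : ε * ε = 1) (c : ZMod M) : sg c₀ ε c * sg c₀ ε c = 1 := by
  unfold sg
  split_ifs
  · norm_num
  · exact hε

theorem sg_succ (c₀ : ZMod M) {ε : ℝ} (hε : ε * ε = 1) {c : ZMod M} {R : ℕ}
    (hR : 2 * (R + 1) ≤ M) (h : cn (c₀ - c) ≤ R) :
    sg c₀ ε c * sg c₀ ε (c + 1) = if c + 1 = 0 then ε else 1 := by
  have h1 := lf_range c₀ c h
  have h2 := lf_succ c₀ hR h
  have h3 : (c + 1 = 0) ↔ (lf c₀ c + 1 = 0 ∨ lf c₀ c + 1 = M) := by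
    have h4 : c + 1 = (((lf c₀ c + 1 : ℤ)) : ZMod M) := by
      rw [Int.cast_add, lf_cast, Int.cast_one]
    rw [h4, ZMod.intCast_zmod_eq_zero_iff_dvd]
    constructor
    · rintro ⟨k, hk⟩
      have hM : 0 < M := Nat.pos_of_ne_zero (NeZero.ne M)
      have hk1 : -1 < k := by
        by_contra hcon
        push Not at hcon
        have : (M : ℤ) * k ≤ M * (-1) := mul_le_mul_of_nonneg_left hcon (by positivity)
        omega
      have hk2 : k < 2 := by
        by_contra hcon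
        push Not at hcon
        have : (M : ℤ) * 2 ≤ M * k := mul_le_mul_of_nonneg_left hcon (by positivity)
        omega
      have hk3 : k = 0 ∨ k = 1 := by omega
      rcases hk3 with rfl | rfl
      · left; rw [hk]; ring
      · right; rw [hk]; ring
    · rintro (h | h)
      · rw [h]; exact dvd_zero _
      · rw [h]
  unfold sg
  rw [h2]
  by_cases h5 : c + 1 = 0
  · rw [if_pos h5]
    rcases h3.1 h5 with h6 | h6
    · rw [if_neg (by omega), if_pos (by omega), mul_one]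
    · rw [if_pos (by omega), if_neg (by omega), one_mul]
  · rw [if_neg h5]
    have h6 : ¬ (lf c₀ c + 1 = 0 ∨ lf c₀ c + 1 = M) := fun h => h5 (h3.2 h)
    by_cases h7 : 0 ≤ lf c₀ c ∧ lf c₀ c < M
    · rw [if_pos h7, if_pos (by omega), one_mul]
    · rw [if_neg h7, if_neg (by omega)]
      exact hε

end one

section two

variable {M : ℕ} [NeZero M]

theorem fd_le {f g : ZMod M × ZMod M} {R : ℕ} (h : fd f g ≤ R) :
    cn (f.1 - g.1) ≤ R ∧ cn (f.2 - g.2) ≤ R := by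
  unfold fd at h
  exact ⟨(le_max_left _ _).trans h, (le_max_right _ _).trans h⟩

/-- **the plane chart of a ball of the torus** -/
def chart {ε₁ ε₂ : ℝ} (h₁ : ε₁ * ε₁ = 1) (h₂ : ε₂ * ε₂ = 1) (x₀ : ZMod M × ZMod M) {R : ℕ}
    (hR : 4 * (R + 1) ≤ M) : PlaneLike (wTor M ε₁ ε₂) (ball x₀ R) where
  τ f := (lf x₀.1 f.1, lf x₀.2 f.2)
  s f := sg x₀.1 ε₁ f.1 * sg x₀.2 ε₂ f.2
  sq f := by
    have a := sg_sq x₀.1 h₁ f.1
    have b := sg_sq x₀.2 h₂ f.2
    calc _ = (sg x₀.1 ε₁ f.1 * sg x₀.1 ε₁ f.1) * (sg x₀.2 ε₂ f.2 * sg x₀.2 ε₂ f.2) := by ring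
      _ = 1 := by rw [a, b]; ring
  iso f hf g hg := by
    obtain ⟨f1, f2⟩ := fd_le hf
    obtain ⟨g1, g2⟩ := fd_le hg
    show max _ _ = max _ _
    have e1 := lf_iso x₀.1 (R := R) (by omega) f1 g1
    have e2 := lf_iso x₀.2 (R := R) (by omega) f2 g2
    exact congrArg₂ max e1 e2
  e1 f hf _ := by
    obtain ⟨f1, f2⟩ := fd_le hf
    show (lf x₀.1 (f.1 + 1), lf x₀.2 f.2) = _
    rw [lf_succ x₀.1 (R := R) (by omega) f1]
  e2 f hf _ := by
    obtain ⟨f1, f2⟩ := fd_le hf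
    show (lf x₀.1 f.1, lf x₀.2 (f.2 + 1)) = _
    rw [lf_succ x₀.2 (R := R) (by omega) f2]
  wE f hf _ := by
    obtain ⟨f1, f2⟩ := fd_le hf
    have e := sg_succ x₀.1 h₁ (R := R) (by omega) f1
    have b := sg_sq x₀.2 h₂ f.2
    show wTor M ε₁ ε₂ (f.1 + 1, f.2) 1 = _
    unfold wTor
    rw [if_pos rfl]
    show (if f.1 + 1 = 0 then ε₁ else 1) * xc = _
    rw [← e]
    calc _ = sg x₀.1 ε₁ f.1 * sg x₀.1 ε₁ (f.1 + 1) * 1 * xc := by ring
      _ = sg x₀.1 ε₁ f.1 * sg x₀.1 ε₁ (f.1 + 1) * (sg x₀.2 ε₂ f.2 * sg x₀.2 ε₂ f.2) * xc := by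
        rw [b]
      _ = _ := by ring
  wN f hf _ := by
    obtain ⟨f1, f2⟩ := fd_le hf
    have e := sg_succ x₀.2 h₂ (R := R) (by omega) f2
    have b := sg_sq x₀.1 h₁ f.1
    show wTor M ε₁ ε₂ (f.1, f.2 + 1) 0 = _
    unfold wTor
    rw [if_neg (by decide)]
    show (if f.2 + 1 = 0 then ε₂ else 1) * xc = _
    rw [← e]
    calc _ = sg x₀.2 ε₂ f.2 * sg x₀.2 ε₂ (f.2 + 1) * 1 * xc := by ring
      _ = sg x₀.2 ε₂ f.2 * sg x₀.2 ε₂ (f.2 + 1) * (sg x₀.1 ε₁ f.1 * sg x₀.1 ε₁ f.1) * xc := by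
        rw [b]
      _ = _ := by ring

/-- restriction of a plane chart -/
def planeSub {G : Type} [CommRing G] [CN G] {w : BW G} {Z Z' : Set (G × G)} (p : PlaneLike w Z)
    (h : Z' ⊆ Z) : PlaneLike w Z' where
  τ := p.τ
  s := p.s
  sq := p.sq
  iso f hf g hg := p.iso f (h hf) g (h hg)
  e1 f hf hf' := p.e1 f (h hf) (h hf')
  e2 f hf hf' := p.e2 f (h hf) (h hf')
  wE f hf hf' := p.wE f (h hf) (h hf')
  wN f hf hf' := p.wN f (h hf) (h hf')

theorem nbhd_sub_ball {G : Type} [CommRing G] [CN G] {U : Finset (G × G)} {x₀ : G × G} {D r : ℕ}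
    (h : ∀ u ∈ U, fd x₀ u ≤ D) : nbhd r U ⊆ ball x₀ (D + r) := by
  rintro f ⟨u, hu, huf⟩
  have := fd_triangle x₀ u f
  have := h u hu
  show fd x₀ f ≤ D + r
  omega

/-- a set of faces of small diameter is plane -/
theorem emb_tor {ε₁ ε₂ : ℝ} (h₁ : ε₁ * ε₁ = 1) (h₂ : ε₂ * ε₂ = 1) {U : Finset (ZMod M × ZMod M)}
    {x₀ : ZMod M × ZMod M} {D r : ℕ} (h : ∀ u ∈ U, fd x₀ u ≤ D)
    (hM : 4 * (D + s2 * r + 1) ≤ M) : Emb (wTor M ε₁ ε₂) r U :=
  ⟨planeSub (chart h₁ h₂ x₀ hM) (nbhd_sub_ball h)⟩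

end two

end Crest.Agent.R165.TorChartx723
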