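import Crest.Agent.R165.BridgeRB2_386
import Crest.Agent.R165.TorChart_723

/-!
# Row 165 (S0250): bulk regularity at every face of the torus sectors (helper583)

* `planeOn_tor` : the lifted weights of the sector `wTor M ε₁ ε₂` are plane (up to a gauge) in every
  box of radius `R`, `R + 1 < M`
* `rb_tor` : `RB (wTor M ε₁ ε₂) x CRB Λ 1 R` for every face `x`, `2 (R + 1) ≤ M`
-/

set_option autoImplicit false

noncomputable section

open Crest.Agent.R165.Latx683 Crest.Agent.R165.GDefx387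
  Crest.Agent.R165.Bridgex386 Crest.Agent.R165.BridgeRegx386 Crest.Agent.R165.BridgeRBx386
  Crest.Agent.R165.TorChartx723

namespace Crest.Agent.R165.TorRBx583

open Crest.Agent.R165.RIfx891 Crest.Agent.R165.Campx891

/-- the gauge of one integer coordinate -/
def sgz (M : ℕ) (ε : ℝ) (n : ℤ) : ℝ := if 0 ≤ n ∧ n < M then 1 else ε

theorem sgz_sq (M : ℕ) {ε : ℝ} (hε : ε * ε = 1) (n : ℤ) : sgz M ε n * sgz M ε n = 1 := by
  unfold sgz
  split_ifs
  · norm_num
  · exact hε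

theorem sgz_succ {M : ℕ} (hM : 0 < M) {ε : ℝ} (hε : ε * ε = 1) {n : ℤ} (h1 : -(M : ℤ) ≤ n)
    (h2 : n + 1 < 2 * M) :
    sgz M ε n * sgz M ε (n + 1) = if ((n + 1 : ℤ) : ZMod M) = 0 then ε else 1 := by
  have h3 : ((n + 1 : ℤ) : ZMod M) = 0 ↔ (n + 1 = 0 ∨ n + 1 = M) := by
    rw [ZMod.intCast_zmod_eq_zero_iff_dvd]
    constructor
    · rintro ⟨k, hk⟩
      have hk1 : -1 < k := by
        by_contra hcon
        push Not at hcon
        have : (M : ℤ) * k ≤ M * (-1) := mul_le_mul_of_nonneg_left hcon (by positivity)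
        omega
      have hk2 : k < 2 := by
        by_contra hcon
        push Not at hcon
        have : (M : ℤ) * 2 ≤ M * k := mul_le_mul_of_nonneg_left hcon (by positivity)
        omega
      have hk3 : k = 0 ∨ k = 1 := by omega
      rcases hk3 with rfl | rfl
      · left; rw [hk]; ring
      · right; rw [hk]; ring
    · rintro (h | h)
      · rw [h]; exact dvd_zero _
      · rw [h]
  unfold sgz
  by_cases h5 : ((n + 1 : ℤ) : ZMod M) = 0
  · rw [if_pos h5]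
    rcases h3.1 h5 with h6 | h6
    · rw [if_neg (by omega), if_pos (by omega), mul_one]
    · rw [if_pos (by omega), if_neg (by omega), one_mul]
  · rw [if_neg h5]
    have h6 : ¬ (n + 1 = 0 ∨ n + 1 = M) := fun h => h5 (h3.2 h)
    by_cases h7 : 0 ≤ n ∧ n < M
    · rw [if_pos h7, if_pos (by omega), one_mul]
    · rw [if_neg h7, if_neg (by omega)]
      exact hε

/-- the gauge on the lifted faces -/
def sF (M : ℕ) (ε₁ ε₂ : ℝ) (P : Face) : ℝ := sgz M ε₁ P.1 * sgz M ε₂ P.2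

/-- **the torus sectors are plane in boxes of radius smaller than the side** -/
theorem planeOn_tor {M : ℕ} [NeZero M] {ε₁ ε₂ : ℝ} (h₁ : ε₁ * ε₁ = 1) (h₂ : ε₂ * ε₂ = 1)
    {X : Face} (hX1 : 0 ≤ X.1 ∧ X.1 < M) (hX2 : 0 ≤ X.2 ∧ X.2 < M) {R : ℕ} (hR : R + 1 < M) :
    PlaneOn (wl (wTor M ε₁ ε₂)) (sF M ε₁ ε₂) X R where
  sym := sym_wl _
  gauge f := by
    unfold sF
    have a := sgz_sq M h₁ f.1
    have b := sgz_sq M h₂ f.2
    calc (sgz M ε₁ f.1 * sgz M ε₂ f.2) ^ 2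
        = (sgz M ε₁ f.1 * sgz M ε₁ f.1) * (sgz M ε₂ f.2 * sgz M ε₂ f.2) := by ring
      _ = 1 := by rw [a, b]; ring
  eq f hf h := by
    have hM0 : 0 < M := Nat.pos_of_ne_zero (NeZero.ne M)
    have hb := mem_bx_nat.1 hf
    have hb1 := abs_le.1 hb.1
    have hb2 := abs_le.1 hb.2
    have a := sgz_sq M h₁ f.1
    have b := sgz_sq M h₂ f.2
    have r1 := sgz_succ (n := f.1) hM0 h₁ (by omega) (by omega)
    have r1' := sgz_succ (n := f.1 - 1) hM0 h₁ (by omega) (by omega)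
    have r2 := sgz_succ (n := f.2) hM0 h₂ (by omega) (by omega)
    have r2' := sgz_succ (n := f.2 - 1) hM0 h₂ (by omega) (by omega)
    rw [sub_add_cancel] at r1' r2'
    fin_cases h
    · show wTor M ε₁ ε₂ ((f.1 : ZMod M), ((f.2 - 1 : ℤ) : ZMod M) + 1) 0 =
        sF M ε₁ ε₂ f * sF M ε₁ ε₂ (f.1, f.2 - 1) * xc
      have e : ((f.2 - 1 : ℤ) : ZMod M) + 1 = (f.2 : ZMod M) := by push_cast; ring
      unfold wTor sF
      rw [if_neg (by decide)]
      simp only [e]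
      rw [← r2']
      linear_combination (-(sgz M ε₂ (f.2 - 1) * sgz M ε₂ f.2 * xc)) * a
    · show wTor M ε₁ ε₂ ((f.1 : ZMod M) + 1, (f.2 : ZMod M)) 1 =
        sF M ε₁ ε₂ f * sF M ε₁ ε₂ (f.1 + 1, f.2) * xc
      have e : (f.1 : ZMod M) + 1 = ((f.1 + 1 : ℤ) : ZMod M) := by push_cast; ring
      unfold wTor sF
      rw [if_pos rfl]
      simp only [e]
      rw [← r1]
      linear_combination (-(sgz M ε₁ f.1 * sgz M ε₁ (f.1 + 1) * xc)) * b
    · show wTor M ε₁ ε₂ ((f.1 : ZMod M), (f.2 : ZMod M) + 1) 0 =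
        sF M ε₁ ε₂ f * sF M ε₁ ε₂ (f.1, f.2 + 1) * xc
      have e : (f.2 : ZMod M) + 1 = ((f.2 + 1 : ℤ) : ZMod M) := by push_cast; ring
      unfold wTor sF
      rw [if_neg (by decide)]
      simp only [e]
      rw [← r2]
      linear_combination (-(sgz M ε₂ f.2 * sgz M ε₂ (f.2 + 1) * xc)) * a
    · show wTor M ε₁ ε₂ (((f.1 - 1 : ℤ) : ZMod M) + 1, (f.2 : ZMod M)) 1 =
        sF M ε₁ ε₂ f * sF M ε₁ ε₂ (f.1 - 1, f.2) * xc
      have e : ((f.1 - 1 : ℤ) : ZMod M) + 1 = (f.1 : ZMod M) := by push_cast; ring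
      unfold wTor sF
      rw [if_pos rfl]
      simp only [e]
      rw [← r1']
      linear_combination (-(sgz M ε₁ (f.1 - 1) * sgz M ε₁ f.1 * xc)) * b

/-- **bulk regularity at every face of every sector of the torus** -/
theorem rb_tor {M : ℕ} [NeZero M] {ε₁ ε₂ : ℝ} (h₁ : ε₁ * ε₁ = 1) (h₂ : ε₂ * ε₂ = 1)
    (x : ZMod M × ZMod M) {R : ℕ} (hR : 2 * (R + 1) ≤ M) (Λ : ℕ) :
    RegGx893.RB (wTor M ε₁ ε₂) x CRB Λ 1 R := by
  have hx : (pf ((x.1.val : ℤ), (x.2.val : ℤ)) : ZMod M × ZMod M) = x := by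
    unfold pf
    ext <;> simp
  have h1 : (x.1.val : ℤ) < M := by exact_mod_cast ZMod.val_lt x.1
  have h2 : (x.2.val : ℤ) < M := by exact_mod_cast ZMod.val_lt x.2
  have key := rb_plane (G := ZMod M) (w := wTor M ε₁ ε₂) (inj_zmod M (R := R) (by omega))
    (planeOn_tor h₁ h₂ (X := ((x.1.val : ℤ), (x.2.val : ℤ))) ⟨by positivity, h1⟩
      ⟨by positivity, h2⟩ (R := R) (by omega)) Λ
  rwa [hx] at key

end Crest.Agent.R165.TorRBx583
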