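import Crest.Agent.R165.DefRec_915
import Crest.Agent.R165.W0_336
import Crest.Agent.R165.TorRB_583
import Crest.Agent.R165.GSys_387

/-!
# Row 165 (S0250): the linear bounds of one step in a homogeneous background with marks (helper583)

* `dstep_marks` : `DStep` of DefRec_915 for a background in which every face satisfies the bulk
  inequality (W1) and every small polymer is plane-like; the only defects are the marked faces
* `dstep_tor`   : the torus sectors (`wTor M ε₁ ε₂`), any set of marks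
-/

set_option autoImplicit false
set_option linter.unusedSectionVars false

noncomputable section

open scoped ENNReal
open Crest.Agent.R165.Gr0x606 Crest.Agent.R165.Gr1x606 Crest.Agent.R165.GeOpsx337
  Crest.Agent.R165.ExpGx337 Crest.Agent.R165.KFlowx337
open Crest.Agent.R165.Latx683 Crest.Agent.R165.PNormx417
open Crest.Agent.R165.GDefx387 Crest.Agent.R165.Packx915 Crest.Agent.R165.NSumx915
open Crest.Agent.R165.Bridgex915 Crest.Agent.R165.DefStepx915 Crest.Agent.R165.NKDefx915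
  Crest.Agent.R165.DefRecx915 Crest.Agent.R165.TorChartx723
  Crest.Agent.R165.BridgeRBx386

namespace Crest.Agent.R165.TorDx583

/-- **linear bounds of one step**, homogeneous background with marks -/
theorem dstep_marks {G : Type} [CommRing G] [CN G] [DecidableEq G] {w : BW G}
    {mk : Finset (G × G)} {a a' : ℝ} {r r' R : ℕ} {Γ : ℝ≥0∞} {S : Cov (Fld G)}
    {g : Fld G → ℝ≥0∞} (hg : Gram S g) {ε p : ℝ≥0∞}
    (hW0 : ∀ U, GLinx336.W0 w g a' r' ε U) (hW1 : ∀ x, WLe w a a' r r' x x LinearMap.id p)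
    (hε : ε ≠ 0) (hp0 : p ≠ 0) (hp1 : (1 + ε) * p ≤ 1) (hR : 4 * R + 3 * r + 2 ≤ r')
    (hΓt : Γ ≠ ∞) (hΓ : 9 ≤ Γ) {ac em : Finset (G × G) → Prop}
    (hac : ∀ U, ac U → Packx915.Conn fd R U)
    (hem : ∀ U, ac U → size r U ≤ 1 → ¬ em U → ∃ u ∈ U, ∃ x ∈ mk, fd u x ≤ s2 * r) :
    DStep w a a' r r' Γ (3 * Γ) S ac em
      (fun _ : Unit => (mk : Set (G × G))) (fun _ => (s2 + 1) * r) (fun _ => mk.card)
      (fun _ => ((1 + ε) * p) ^ 2) (9 * Γ⁻¹) 1 where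
  count _ := dcount_finset mk _ _
  q_ne _ := by
    refine pow_ne_zero 2 (mul_ne_zero ?_ hp0)
    exact (lt_of_lt_of_le one_pos le_self_add).ne'
  qL_ne := mul_ne_zero (by norm_num) (ENNReal.inv_ne_zero.2 hΓt)
  qT_ne := one_ne_zero
  large U hU h2 K hK := by
    have h1 : pG (wU w a' r' U) (cvG S K) ≤ pG (wU w a r U) K :=
      GLinx336.any_small (U := U) hg (hW0 U) hε hp0 hp1 (fun x hx => ⟨x, hx, hW1 x⟩) _
    rw [Bridgex915.size_eq_pack] at h2 ⊢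
    rw [Bridgex915.size_eq_pack]
    have hmono : pack fd r' U ≤ pack fd r U := pack_anti (by omega)
    have key := GLinx336.large_weighted (d := fd) (G := Γ) (a := 3) (b := pack fd r' U)
      (A := 3 ^ pack fd r' U * pG (wU w a' r' U) (cvG S K)) (B := pG (wU w a r U) K)
      pd_fd (hac U hU) hR h2 (by norm_num) hΓt (by norm_num; exact hΓ) hmono
      (mul_le_mul' le_rfl h1)
    calc (3 * Γ) ^ pack fd r' U * pG (wU w a' r' U) (cvG S K)
        = Γ ^ pack fd r' U * (3 ^ pack fd r' U * pG (wU w a' r' U) (cvG S K)) := by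
          rw [mul_pow]; ring
      _ ≤ (3 ^ 2 * Γ⁻¹) * (Γ ^ pack fd r U * pG (wU w a r U) K) := key
      _ = (9 * Γ⁻¹) * (Γ ^ pack fd r U * pG (wU w a r U) K) := by norm_num
  small U hU hs hem' := by
    refine ⟨(), ?_, fun K hK => ?_⟩
    · obtain ⟨u, hu, x, hx, hux⟩ := hem U hU hs hem'
      rw [Bridgex915.size_eq_pack] at hs
      intro v hv
      refine ⟨x, hx, ?_⟩
      have h2 := (pack_le_one_iff pd_fd).1 hs v hv u hu
      have h3 := fd_triangle v u x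
      calc fd v x ≤ r + s2 * r := by omega
        _ = (s2 + 1) * r := by ring
    · have h := GLinx336.cluster_small (U := U) (K := ((K : Ge (Fld G)) : Gr (Fld G))) hg (hW0 U) hε
        hp0 hp1 (fun x hx => ⟨x, hx, hW1 x⟩) K.2 hK
      have e : ((nl (cvG S K) : Ge (Fld G)) : Gr (Fld G)) =
          GLinx336.noct (conv S ((K : Ge (Fld G)) : Gr (Fld G))) := by
        rw [nl, Ge.coe_sub, ge_coe_algebraMap, GLinx336.noct, ctG_apply, coe_cvG]
      rw [pG_def, e]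
      exact h
  any U hU hs K hK := by
    rw [one_mul]
    exact GLinx336.any_small (U := U) hg (hW0 U) hε hp0 hp1 (fun x hx => ⟨x, hx, hW1 x⟩) _

/-! ### numerics of the scales -/

open Crest.Agent.R165.GSysx387 Crest.Agent.R165.FRDPolyx439 Crest.Agent.R165.FRDLatx439

/-- the constant of the bulk regularity, at least one -/
def CT : ℝ := max 1 CRB

theorem one_le_CT : 1 ≤ CT := le_max_left _ _

/-- the factor of (W1) for the ratio `2^l`, amplitudes growing by at most `ρ` -/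
def qW (l : ℕ) (ρ : ℝ) : ℝ≥0∞ :=
  ENNReal.ofReal (ρ * (RegGx893.K1 CT * Real.sqrt (1 / 2 ^ l)))

/-- the factor of (W0), all steps -/
def eW (C : ℝ) (l k0 : ℕ) (A0 : ℝ) : ℝ≥0∞ :=
  ENNReal.ofReal (7 * √(C * 1) * ((2 : ℝ) ^ (l * (k0 + 1))) ^ MM / A0)

theorem K1_pos : 0 < RegGx893.K1 CT := by
  unfold RegGx893.K1
  have := one_le_CT
  positivity

theorem qW_ne_zero {l : ℕ} {ρ : ℝ} (hρ : 0 < ρ) : qW l ρ ≠ 0 := by
  unfold qW
  rw [Ne, ENNReal.ofReal_eq_zero, not_le]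
  exact mul_pos hρ (mul_pos K1_pos (Real.sqrt_pos.2 (by positivity)))

theorem eW_ne_zero {C : ℝ} (hC : 0 < C) {l k0 : ℕ} {A0 : ℝ} (hA : 0 < A0) : eW C l k0 A0 ≠ 0 := by
  unfold eW
  rw [Ne, ENNReal.ofReal_eq_zero, not_le]
  have : 0 < √(C * 1) := Real.sqrt_pos.2 (by linarith)
  positivity

theorem rr_ratio (l k0 n : ℕ) : ((rr l k0 n : ℕ) : ℝ) / (rr l k0 (n + 1) : ℕ) = 1 / 2 ^ l := by
  have h := rr_succ l k0 n
  have h1 : (0 : ℝ) < (rr l k0 n : ℕ) := by exact_mod_cast rr_pos l k0 n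
  rw [h]
  push_cast
  field_simp

/-- (W1) between consecutive scales at a face with bulk regularity up to `8 r_(n+1)` -/
theorem W1_scale {G : Type} [CommRing G] [CN G] {w : BW G} {x : G × G} {l k0 n : ℕ} (hl : 3 ≤ l)
    (H : RegGx893.RB w x CRB (2 ^ l) 1 (8 * rr l k0 (n + 1))) {a a' ρ : ℝ} (ha : 0 < a)
    (ha' : 0 ≤ a') (haa : a' ≤ ρ * a) :
    WLe w a a' (rr l k0 n) (rr l k0 (n + 1)) x x LinearMap.id (qW l ρ) := by
  have H' : RegGx893.RB w x CT (2 ^ l) 1 (8 * rr l k0 (n + 1)) :=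
    H.mono (le_max_right _ _) le_rfl le_rfl le_rfl
  have h8 : 8 ≤ 2 ^ l := by
    calc 8 = 2 ^ 3 := by norm_num
      _ ≤ 2 ^ l := Nat.pow_le_pow_right (by norm_num) hl
  have hr := rr_pos l k0 n
  have hs := rr_succ l k0 n
  have h := RegGx893.W1_bulk (a := a) (a' := a') one_le_CT H' (r := rr l k0 n)
    (r' := rr l k0 (n + 1)) hr (by rw [hs]; exact Nat.mul_le_mul_right _ h8) (le_of_eq hs) le_rfl
    hr ha ha'
  refine Wtx898.WLe.mono h (ENNReal.ofReal_le_ofReal ?_)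
  rw [rr_ratio]
  refine mul_le_mul_of_nonneg_right ?_ (mul_nonneg K1_pos.le (Real.sqrt_nonneg _))
  rwa [div_le_iff₀ ha]

/-- (W0) for the slices of step `n`, all steps -/
theorem W0_scale {G : Type} [CommRing G] [CN G] {Mp K : ℕ} (D : FRD 16 Mp K) (hMp : MM + 1 ≤ Mp)
    {w : BW G} (hw : ∀ z j, |w z j| ≤ 1) (l k0 n : ℕ) {A A0 : ℝ} (hA0 : 0 < A0) (hA : A0 ≤ A)
    (U : Finset (G × G)) :
    GLinx336.W0 w (gw D w (lo l k0 n) (hi l k0 n)) A (rr l k0 (n + 1)) (eW D.C l k0 A0) U := by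
  have hAp : 0 < A := hA0.trans_le hA
  have h1 : ((rr l k0 (n + 1) : ℕ) : ℝ) ≤ (2 : ℝ) ^ (l * (k0 + 1)) * 2 ^ lo l k0 n := by
    rw [← pow_add]
    unfold rr lo
    push_cast
    refine pow_le_pow_right₀ (by norm_num) ?_
    split_ifs with h0
    · subst h0; simp
    · have : l * (k0 + (n + 1)) = l * (k0 + n) + l := by ring
      have h2 : l * (k0 + 1) = l * k0 + l := by ring
      omega
  have h2 : (2 : ℝ) ^ hi l k0 n ≤ 1 * (rr l k0 (n + 1) : ℕ) := by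
    rw [one_mul, ← hi_eq l k0 n]
    push_cast
    exact le_rfl
  have h := GLinx336.W0_next D hMp w (AopF_bdd w hw) (lo l k0 n) (hi l k0 n) (rr l k0 (n + 1)) 1
    ((2 : ℝ) ^ (l * (k0 + 1))) (one_le_pow₀ (by norm_num)) h1 h2 hAp U
  intro x hx l' hl'
  refine (h x hx l' hl').trans (mul_le_mul' (ENNReal.ofReal_le_ofReal ?_) le_rfl)
  exact div_le_div_of_nonneg_left (by positivity) hA0 hA

theorem slC_gram {G : Type} [CommRing G] [CN G] {Mp K : ℕ} (D : FRD 16 Mp K) {w : BW G}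
    (hw : ∀ z j, |w z j| ≤ 1) (l k0 n : ℕ) :
    Gram (slC D w l k0 n) (gw D w (lo l k0 n) (hi l k0 n)) := SopC_gram D w (AopF_bdd w hw) _ _

theorem nearR_le {l : ℕ} (k0 n : ℕ) (hl : 4 ≤ l) : 4 * nearR l k0 n + 3 * rr l k0 n + 2 ≤
    rr l k0 (n + 1) := by
  have h8 : 2 ^ 4 ≤ 2 ^ l := Nat.pow_le_pow_right (by norm_num) hl
  have hr := rr_pos l k0 n
  have hs := rr_succ l k0 n
  have h16 : 16 * rr l k0 n ≤ rr l k0 (n + 1) := by
    rw [hs]; exact Nat.mul_le_mul_right _ h8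
  have h1 : nearR l k0 n = rr l k0 (n + 1) / 8 := rfl
  omega

/-! ### the torus -/

theorem wTor_le {M : ℕ} {ε₁ ε₂ : ℝ} (h₁ : ε₁ * ε₁ = 1) (h₂ : ε₂ * ε₂ = 1) (z : ZMod M × ZMod M)
    (j : Fin 2) : |wTor M ε₁ ε₂ z j| ≤ 1 := by
  have a1 : |ε₁| = 1 := by
    have := abs_mul_abs_self ε₁
    nlinarith [abs_nonneg ε₁]
  have a2 : |ε₂| = 1 := by
    have := abs_mul_abs_self ε₂
    nlinarith [abs_nonneg ε₂]
  have hx : |xc| ≤ 1 := by
    rw [abs_of_pos Crest.Agent.R165.PlaneModesx901.xc_pos]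
    have h2 := Crest.Agent.R165.PlaneModesx901.xc_sq
    have h3 := Crest.Agent.R165.PlaneModesx901.xc_pos
    nlinarith
  have key : ∀ e : ℝ, |e| = 1 → |e * xc| ≤ 1 := fun e he => by rw [abs_mul, he, one_mul]; exact hx
  unfold wTor
  split_ifs
  · exact key _ a1
  · exact key _ (by norm_num)
  · exact key _ a2
  · exact key _ (by norm_num)

/-- the plane-like polymers of the torus: plane, unmarked, inside a ball of radius `< M/4` -/
def emT {M : ℕ} [NeZero M] (w : BW (ZMod M)) (mk : Finset (ZMod M × ZMod M)) (r : ℕ)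
    (U : Finset (ZMod M × ZMod M)) : Prop :=
  emM w (mk : Set (ZMod M × ZMod M)) r U ∧
    ∃ x : ZMod M × ZMod M, ∃ ρ : ℕ, 4 * (ρ + s2 * r + 1) ≤ M ∧ ∀ u ∈ U, u ∈ ball x ρ

/-- small polymers of the torus which are not plane-like are near a mark -/
theorem small_emT {M : ℕ} [NeZero M] {ε₁ ε₂ : ℝ} (h₁ : ε₁ * ε₁ = 1) (h₂ : ε₂ * ε₂ = 1)
    (mk : Finset (ZMod M × ZMod M)) {r : ℕ} (hM : 4 * (r + s2 * r + 1) ≤ M)
    {U : Finset (ZMod M × ZMod M)} (hne : U.Nonempty) (hs : size r U ≤ 1)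
    (hem : ¬ emT (wTor M ε₁ ε₂) mk r U) : ∃ u ∈ U, ∃ x ∈ mk, fd u x ≤ s2 * r := by
  rw [Bridgex915.size_eq_pack] at hs
  obtain ⟨u₀, hu₀⟩ := hne
  have hb : ∀ v ∈ U, fd u₀ v ≤ r := fun v hv => (pack_le_one_iff pd_fd).1 hs u₀ hu₀ v hv
  by_contra hcon
  push Not at hcon
  exact hem ⟨⟨emb_tor h₁ h₂ hb hM, hcon⟩, u₀, r, hM, hb⟩

/-- **linear bounds of one step on the torus**, any sector, any set of marks -/
theorem dstep_tor {M : ℕ} [NeZero M] {ε₁ ε₂ : ℝ} (h₁ : ε₁ * ε₁ = 1) (h₂ : ε₂ * ε₂ = 1)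
    {Mp K : ℕ} (D : FRD 16 Mp K) (hMp : MM + 1 ≤ Mp) (mk : Finset (ZMod M × ZMod M))
    {l k0 n : ℕ} (hl : 4 ≤ l) (hM : 2 * (8 * rr l k0 (n + 1) + 1) ≤ M)
    (hM' : 4 * (rr l k0 n + s2 * rr l k0 n + 1) ≤ M)
    {a a' ρ A0 : ℝ} (ha : 0 < a) (hA0 : 0 < A0) (hA : A0 ≤ a') (hρ : 0 < ρ) (haa : a' ≤ ρ * a)
    (hq : (1 + eW D.C l k0 A0) * qW l ρ ≤ 1) {Γ : ℝ≥0∞} (hΓt : Γ ≠ ∞) (hΓ : 9 ≤ Γ) :
    DStep (wTor M ε₁ ε₂) a a' (rr l k0 n) (rr l k0 (n + 1)) Γ (3 * Γ)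
      (slC D (wTor M ε₁ ε₂) l k0 n)
      (fun U => U.Nonempty ∧ Packx915.Conn fd (nearR l k0 n) U)
      (emT (wTor M ε₁ ε₂) mk (rr l k0 n))
      (fun _ : Unit => (mk : Set _)) (fun _ => (s2 + 1) * rr l k0 n) (fun _ => mk.card)
      (fun _ => ((1 + eW D.C l k0 A0) * qW l ρ) ^ 2) (9 * Γ⁻¹) 1 :=
  dstep_marks (R := nearR l k0 n) (slC_gram D (wTor_le h₁ h₂) l k0 n)
    (fun U => W0_scale D hMp (wTor_le h₁ h₂) l k0 n hA0 hA U)
    (fun x => W1_scale (by omega) (TorRBx583.rb_tor h₁ h₂ x hM _) ha (hA0.le.trans hA) haa)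
    (eW_ne_zero D.C_pos hA0) (qW_ne_zero hρ) hq (nearR_le k0 n hl) hΓt hΓ (fun U h => h.2)
    (fun U hU hs hem => small_emT h₁ h₂ mk hM' hU.1 hs hem)

end Crest.Agent.R165.TorDx583
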