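import Crest.Agent.R165.SrcTailFin_441
import Crest.Agent.R165.GSysOK_439
import Crest.Agent.R165.TorD_583

/-!
# Row 165 (S0250), leaf P11: the vacuum part of a slice with sources (helper583)

* `sl_le_wU` : the Gram weight of the slice of step `n` is below the weight at the OLD scale, for
  amplitudes `c0 ≤ a` (every background)
* `hvac_sl`  : the hypothesis `hvac` of helper441's `finE_all`, `finE_mid`
-/

set_option autoImplicit false
set_option linter.unusedSectionVars false

noncomputable section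

open scoped ENNReal
open Crest.Agent.R165.Gr0x606 Crest.Agent.R165.Gr1x606 Crest.Agent.R165.GeOpsx337
  Crest.Agent.R165.PNormx417 Crest.Agent.R165.Latx683 Crest.Agent.R165.GDefx387
  Crest.Agent.R165.GSysx387 Crest.Agent.R165.FRDPolyx439 Crest.Agent.R165.FRDLatx439
  Crest.Agent.R165.GSysOKx439 Crest.Agent.R165.SrcTailFinx441
open Crest.Agent.R165.SrcDefx991 (VS ext0 vacH wS vS GS)
open Crest.Agent.R165.SrcFinBx441 (Nw)

namespace Crest.Agent.R165.SrcVacx583

variable {G : Type} [CommRing G] [CN G] {m : ℕ}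

/-- the Gram weight of a slice against the weight at the old scale -/
theorem sl_le_wU {M K : ℕ} (F : FRD 16 M K) (hM : MM + 1 ≤ M) {w : BW G}
    (hw : ∀ z j, |w z j| ≤ 1) (l k0 n : ℕ) {a : ℝ} (ha : c0 F.C l k0 ≤ a)
    (U : Finset (G × G)) (y : Fld G) :
    gw F w (lo l k0 n) (hi l k0 n) y ≤ wU w a (rr l k0 n) U y := by
  have hc := c0_pos F.C_pos l k0
  have h := le_wU (A := a) (r := rr l k0 n) (ε := 1) one_ne_zero ENNReal.one_ne_top (y := y)
    (g := gw F w (lo l k0 n) (hi l k0 n)) (w := w) (fun x => ?_) U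
  · rwa [one_mul] at h
  · refine (gw_step_le_old F hM w hw l k0 n (hc.trans_le ha) x y).trans ?_
    refine mul_le_mul' ?_ le_rfl
    rw [← ENNReal.ofReal_one]
    refine ENNReal.ofReal_le_ofReal ?_
    rw [div_le_one (hc.trans_le ha)]
    exact ha

/-- **the vacuum part of a convolution with a slice**, any background, amplitude `≥ c0` -/
theorem hvac_sl {M K : ℕ} (F : FRD 16 M K) (hM : MM + 1 ≤ M) {w : BW G}
    (hw : ∀ z j, |w z j| ≤ 1) (l k0 n : ℕ) {a : ℝ} (ha : c0 F.C l k0 ≤ a)
    {g : Fld G → ℝ≥0∞} (g0 : g 0 = 0) {v : Fin m → ℝ} (hv : ∀ i, 0 < v i) (U : Finset (G × G))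
    {X : Ge (VS (Fld G) m)} (hX : X ∈ GS (Fld G) m) :
    Nw g v (vacH (cvG (ext0 m (slC F w l k0 n)) X)) ≤
      pG (wS (wU w a (rr l k0 n) U) fun i => ENNReal.ofReal (v i)) X := by
  refine (vac_bd g0 hv (TorDx583.slC_gram F hw l k0 n) hX).trans ?_
  rw [pG_def, pG_def]
  refine pnorm_le_pnorm (fun x => ?_) _
  unfold wS
  exact add_le_add (sl_le_wU F hM hw l k0 n ha U _) le_rfl

end Crest.Agent.R165.SrcVacx583
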