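import Crest.Agent.R165.GLinI_336
import Crest.Agent.R165.Loc_901

/-!
# Row 165 (S0250), block G: linear bound of a source polymer (helper336, P11 (b))

`F` is the coefficient of one source generator product `τ` (an even element of `Gr V`), `P` the
order-zero localisation at the source (rank two), `b` the bond form.

* `loc00 P`     : `P∧P` part of the quadratic part
* `quad_rem`    : `‖hom 2 F - loc00 P F‖' ≤ (2 p q + q²) ‖hom 2 F‖`
* `src_rem`     : `conv F` minus constant minus `loc00 P`: factor `11 p² q² + 2 p q + q²`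
* `BondForm`    : `loc00 P a = c a • M`; extraction `X a = (c a / c b) • b` along the bond form
* `src_small`   : the same with extraction along the bond form: additional `κ β / |c b|`
* `src_coef`    : `|c (conv F)| ≤ κ ‖F‖`
* `gain_src`    : `Λ^j` against the packing number, `j ≤ |U|` sources in a large polymer.
-/

set_option autoImplicit false
set_option linter.unusedSectionVars false

noncomputable section

namespace Crest.Agent.R165.Srcx336

open Crest.Agent.R165.Gr0x606 Crest.Agent.R165.PNormx417 Crest.Agent.R165.Packx915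
open Crest.Agent.R165.GLinx336 Crest.Agent.R165.Locx901
open scoped ENNReal Classical

variable {V : Type*} [AddCommGroup V] [Module ℝ V]

/-! ### the order-zero local part -/

/-- the `P∧P` part of the quadratic part -/
def loc00 (P : V →ₗ[ℝ] V) : Gr V →ₗ[ℝ] Gr V := (mp P).toLinearMap ∘ₗ hom 2

theorem loc00_apply (P : V →ₗ[ℝ] V) (F : Gr V) : loc00 P F = mp P (hom 2 F) := rfl

theorem loc00_hom (P : V →ₗ[ℝ] V) (F : Gr V) : loc00 P (hom 2 F) = loc00 P F := by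
  simp [loc00, hom_hom]

theorem loc00_mono_ne (P : V →ₗ[ℝ] V) {L : List V} (h : L.length ≠ 2) : loc00 P (mono L) = 0 := by
  rw [loc00_apply, hom_mono, if_neg h, map_zero]

theorem loc00_mono_two (P : V →ₗ[ℝ] V) (x y : V) : loc00 P (mono [x, y]) = mono [P x, P y] := by
  rw [loc00_apply, hom_mono, if_pos (by rfl), mp_mono]
  rfl

theorem pnorm_two_le (w : V → ℝ≥0∞) (a b : V) : pnorm w (mono [a, b]) ≤ w a * w b := by
  simpa using pnorm_mono_le w [a, b]

theorem quad_split (P : V →ₗ[ℝ] V) (x y : V) : mono [x, y] - mono [P x, P y] =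
    mono [P x, y - P y] + mono [x - P x, P y] + mono [x - P x, y - P y] := by
  simp only [mono_cons, mono_nil, mul_one]
  have h : ∀ a b : V, fi (a - b) = fi a - fi b := fun a b => by
    rw [sub_eq_add_neg, fi_add, ← neg_one_smul ℝ b, fi_smul, neg_one_smul, ← sub_eq_add_neg]
  rw [h, h]
  noncomm_ring

/-- **quadratic remainder** after subtraction of the `P∧P` part -/
theorem quad_rem (P : V →ₗ[ℝ] V) {w w' : V → ℝ≥0∞} {p q : ℝ≥0∞} (hpt : p ≠ ∞) (hqt : q ≠ ∞)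
    (hp : ∀ l, w' (P l) ≤ p * w l) (hq : ∀ l, w' (l - P l) ≤ q * w l) {F : Gr V}
    (hF : pnorm w (hom 2 F) ≠ ∞) :
    pnorm w' (hom 2 F - loc00 P F) ≤ (2 * (p * q) + q ^ 2) * pnorm w (hom 2 F) := by
  have h := bound_of_mono (pnorm_semi w') (hom 2 - loc00 P) (w := w)
    (C := 2 * (p * q) + q ^ 2) (F := hom 2 F)
    (ENNReal.add_ne_top.2 ⟨ENNReal.mul_ne_top (by norm_num) (ENNReal.mul_ne_top hpt hqt),
      ENNReal.pow_ne_top hqt⟩)
    (fun L _ => by
      rw [LinearMap.sub_apply, hom_mono]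
      split_ifs with hlen
      · obtain ⟨x, y, rfl⟩ := List.length_eq_two.1 hlen
        rw [loc00_mono_two, quad_split]
        have hb : ∀ {a b : V} {α β : ℝ≥0∞}, w' a ≤ α * w x → w' b ≤ β * w y →
            pnorm w' (mono [a, b]) ≤ (α * β) * (w x * w y) := fun {a b α β} h1 h2 =>
          (pnorm_two_le w' a b).trans ((mul_le_mul' h1 h2).trans (le_of_eq (by ring)))
        refine (pnorm_add_le _ _ _).trans (le_trans (add_le_add ((pnorm_add_le _ _ _).trans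
          (add_le_add (hb (hp x) (hq y)) (hb (hq x) (hp y)))) (hb (hq x) (hq y))) ?_)
        rw [mwt_cons, mwt_cons, mwt_nil]
        refine le_of_eq ?_
        ring
      · rw [loc00_mono_ne P hlen, sub_zero, pnorm_zero]
        exact zero_le) hF
  rw [LinearMap.sub_apply, hom_hom, if_pos rfl, loc00_hom] at h
  exact h

/-- the constant-free part of an even convolution -/
theorem conv_split (S : Cov V) {F : Gr V} (hev : IsEv F) :
    noct (conv S F) = high 4 (conv S (high 4 F)) + hom 2 (conv S F) := by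
  have hcev : IsEv (conv S F) := hev.conv S
  have e1 : noct (conv S F) = high 4 (conv S F) + hom 2 (conv S F) := by
    rw [noct_eq_sub_hom, high_apply]
    simp only [Finset.sum_range_succ, Finset.sum_range_zero]
    rw [IsEv.hom_odd hcev odd_one, IsEv.hom_odd hcev (by decide : Odd 3)]
    abel
  rw [e1, ← high_conv]

/-- **source polymer**: subtraction of the constant and of the `P∧P` part -/
theorem src_rem {S : Cov V} {g : V → ℝ≥0∞} (hg : Gram S g) (P : V →ₗ[ℝ] V)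
    [FiniteDimensional ℝ (LinearMap.range P)] (hr : Module.finrank ℝ (LinearMap.range P) ≤ 2)
    {w w' : V → ℝ≥0∞} {ε p q a : ℝ≥0∞} (hgw : ∀ l, g l ≤ ε * w' l) (hεt : ε ≠ ∞) (hpt : p ≠ ∞)
    (hq4 : (1 + ε) * q ≤ 1 / 4) (hqp : q ≤ p)
    (hp : ∀ l, w' (P l) ≤ p * w l) (hq : ∀ l, w' (l - P l) ≤ q * w l)
    (ha4 : a ≤ 1 / 4) (ha : ∀ l, g l ≤ a * w l)
    {F : Gr V} (hev : IsEv F) (hF : pnorm w F ≠ ∞) :
    pnorm w' (noct (conv S F) - loc00 P (conv S F)) ≤
      (11 * (((1 + ε) * p) ^ 2 * ((1 + ε) * q) ^ 2) + (2 * (p * q) + q ^ 2)) * pnorm w F := by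
  have h1ε : (1 + ε) ≠ ∞ := ENNReal.add_ne_top.2 ⟨ENNReal.one_ne_top, hεt⟩
  have hqt : q ≠ ∞ := by
    intro h
    rw [h, ENNReal.mul_top (by simp)] at hq4
    exact absurd hq4 (by simp)
  have e2 : noct (conv S F) - loc00 P (conv S F) =
      high 4 (conv S (high 4 F)) + (hom 2 (conv S F) - loc00 P (conv S F)) := by
    rw [conv_split S hev]; abel
  rw [e2, add_mul]
  refine (pnorm_add_le _ _ _).trans (add_le_add ?_ ?_)
  · refine (pnorm_high_le _ _ _).trans ?_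
    have hF4 : pnorm w (high 4 F) ≠ ∞ := ne_top_of_le_ne_top hF (pnorm_high_le w 4 F)
    refine (bulk4_step hg P hr (p := (1 + ε) * p) (q := (1 + ε) * q)
      (ENNReal.mul_ne_top h1ε hpt) hq4 (by gcongr) (fun l => add_gram_le hgw (hp l))
      (fun l => add_gram_le hgw (hq l)) (F := high 4 F) (fun n hn => ?_) hF4).trans ?_
    · rw [hom_high, if_pos hn]
    · exact mul_le_mul_right (pnorm_high_le w 4 F) _
  · have h2 := hom2_conv_le hg ha4 ha hF
    refine (quad_rem P hpt hqt hp hq (F := conv S F) (ne_top_of_le_ne_top hF h2)).trans ?_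
    exact mul_le_mul_right h2 _

/-! ### extraction along the bond form -/

/-- `c` is the coefficient of the order-zero local part, `b` the bond form -/
structure BondForm (P : V →ₗ[ℝ] V) (c : Gr V →ₗ[ℝ] ℝ) (M b : Gr V) : Prop where
  loc : ∀ a, loc00 P a = c a • M
  c2 : ∀ a, c (hom 2 a) = c a
  b2 : hom 2 b = b
  cb : c b ≠ 0

/-- extraction along the bond form -/
def Xb (c : Gr V →ₗ[ℝ] ℝ) (b : Gr V) : Gr V →ₗ[ℝ] Gr V := ((c b)⁻¹ • c).smulRight b

theorem Xb_apply (c : Gr V →ₗ[ℝ] ℝ) (b a : Gr V) : Xb c b a = ((c b)⁻¹ * c a) • b := by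
  simp [Xb]

theorem c_Xb {c : Gr V →ₗ[ℝ] ℝ} {b : Gr V} (h : c b ≠ 0) (a : Gr V) : c (Xb c b a) = c a := by
  rw [Xb_apply, map_smul, smul_eq_mul]
  field_simp

theorem c_sub_Xb {c : Gr V →ₗ[ℝ] ℝ} {b : Gr V} (h : c b ≠ 0) (a : Gr V) :
    c (a - Xb c b a) = 0 := by rw [map_sub, c_Xb h, sub_self]

theorem Xb_self {c : Gr V →ₗ[ℝ] ℝ} {b : Gr V} (h : c b ≠ 0) : Xb c b b = b := by
  rw [Xb_apply, inv_mul_cancel₀ h, one_smul]

variable {P : V →ₗ[ℝ] V} {c : Gr V →ₗ[ℝ] ℝ} {M b : Gr V}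

/-- a bond form is reproduced by the convolution, up to a constant -/
theorem conv_two (S : Cov V) (x y : V) :
    conv S (fi x * fi y) = fi x * fi y + algebraMap ℝ _ (S.b x y) := by
  rw [conv_fi_mul, conv_fi, dd_fi]

theorem BondForm.c_noct (H : BondForm P c M b) (a : Gr V) : c (noct a) = c a := by
  have h : hom 2 (noct a) = hom 2 a := by
    rw [noct_eq_sub_hom, map_sub, hom_hom, if_neg (by norm_num), sub_zero]
  rw [← H.c2, h, H.c2]

/-- local part against bond form -/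
theorem BondForm.split (H : BondForm P c M b) (a : Gr V) :
    loc00 P a - Xb c b a = -((c b)⁻¹ * c a) • (b - loc00 P b) := by
  have h1 : loc00 P a = ((c b)⁻¹ * c a) • loc00 P b := by
    rw [H.loc, H.loc, smul_smul]
    congr 1
    have := H.cb
    field_simp
  rw [h1, Xb_apply, smul_sub, neg_smul, neg_smul]
  abel

/-- the coefficient of the order-zero local part is bounded by the norm of the quadratic part -/
theorem coef_le {w : V → ℝ≥0∞} {κ : ℝ≥0∞} (hκt : κ ≠ ∞) (H : BondForm P c M b)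
    (hκ : ∀ x y, ‖c (mono [x, y])‖ₑ ≤ κ * (w x * w y)) {a : Gr V}
    (ha : pnorm w (hom 2 a) ≠ ∞) : ‖c a‖ₑ ≤ κ * pnorm w (hom 2 a) := by
  have h := bound_of_mono ESemi.enorm (c ∘ₗ hom 2) (w := w) (C := κ) (F := hom 2 a) hκt
    (fun L _ => by
      rw [LinearMap.comp_apply, hom_mono]
      split_ifs with hlen
      · obtain ⟨x, y, rfl⟩ := List.length_eq_two.1 hlen
        refine (hκ x y).trans (le_of_eq ?_)
        simp
      · rw [map_zero]; simp) ha
  rwa [LinearMap.comp_apply, hom_hom, if_pos rfl, H.c2] at h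

/-- **the running coefficient**: the part extracted from a source polymer -/
theorem src_coef {S : Cov V} {g : V → ℝ≥0∞} (hg : Gram S g) {w : V → ℝ≥0∞} {a κ : ℝ≥0∞}
    (hκt : κ ≠ ∞) (H : BondForm P c M b) (hκ : ∀ x y, ‖c (mono [x, y])‖ₑ ≤ κ * (w x * w y))
    (ha4 : a ≤ 1 / 4) (ha : ∀ l, g l ≤ a * w l) {F : Gr V} (hF : pnorm w F ≠ ∞) :
    ‖c (conv S F)‖ₑ ≤ κ * pnorm w F := by
  have h2 := hom2_conv_le hg ha4 ha hF
  refine (coef_le hκt H hκ (ne_top_of_le_ne_top hF h2)).trans ?_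
  gcongr

/-- **source polymer, extraction along the bond form** -/
theorem src_small {S : Cov V} {g : V → ℝ≥0∞} (hg : Gram S g)
    [FiniteDimensional ℝ (LinearMap.range P)] (hr : Module.finrank ℝ (LinearMap.range P) ≤ 2)
    (H : BondForm P c M b)
    {w w' : V → ℝ≥0∞} {ε p q a κ β : ℝ≥0∞} (hgw : ∀ l, g l ≤ ε * w' l) (hεt : ε ≠ ∞)
    (hpt : p ≠ ∞) (hq4 : (1 + ε) * q ≤ 1 / 4) (hqp : q ≤ p)
    (hp : ∀ l, w' (P l) ≤ p * w l) (hq : ∀ l, w' (l - P l) ≤ q * w l)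
    (ha4 : a ≤ 1 / 4) (ha : ∀ l, g l ≤ a * w l) (hκt : κ ≠ ∞)
    (hκ : ∀ x y, ‖c (mono [x, y])‖ₑ ≤ κ * (w x * w y)) (hβ : pnorm w' (b - loc00 P b) ≤ β)
    {F : Gr V} (hev : IsEv F) (hF : pnorm w F ≠ ∞) :
    pnorm w' (noct (conv S F) - Xb c b (conv S F)) ≤
      (11 * (((1 + ε) * p) ^ 2 * ((1 + ε) * q) ^ 2) + (2 * (p * q) + q ^ 2) +
        ‖(c b)⁻¹‖ₑ * κ * β) * pnorm w F := by
  have e : noct (conv S F) - Xb c b (conv S F) =
      (noct (conv S F) - loc00 P (conv S F)) + (loc00 P (conv S F) - Xb c b (conv S F)) := by abel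
  rw [e, add_mul]
  refine (pnorm_add_le _ _ _).trans (add_le_add
    (src_rem hg P hr hgw hεt hpt hq4 hqp hp hq ha4 ha hev hF) ?_)
  rw [H.split]
  refine (pnorm_smul_le _ _ _).trans ?_
  have h1 : ‖-((c b)⁻¹ * c (conv S F))‖ₑ = ‖(c b)⁻¹‖ₑ * ‖c (conv S F)‖ₑ := by
    rw [enorm_neg, enorm_mul]
  rw [h1]
  calc ‖(c b)⁻¹‖ₑ * ‖c (conv S F)‖ₑ * pnorm w' (b - loc00 P b) ≤
        ‖(c b)⁻¹‖ₑ * (κ * pnorm w F) * β := by
        gcongr
        exact src_coef hg hκt H hκ ha4 ha hF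
    _ = _ := by ring

/-- the remainder of a bond form `fi x * fi y` -/
theorem bond_rem {w' : V → ℝ≥0∞} (P : V →ₗ[ℝ] V) (x y : V) :
    pnorm w' (mono [x, y] - loc00 P (mono [x, y])) ≤
      w' (P x) * w' (y - P y) + w' (x - P x) * w' (P y) + w' (x - P x) * w' (y - P y) := by
  rw [loc00_mono_two, quad_split]
  refine (pnorm_add_le _ _ _).trans (add_le_add ((pnorm_add_le _ _ _).trans
    (add_le_add ?_ ?_)) ?_) <;> exact pnorm_two_le w' _ _

/-! ### two modes -/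

/-- order-zero localisation given by two modes `m₀, m₁` and two local functionals `p₀, p₁` -/
def P2 (m : Fin 2 → Module.Dual ℝ V) (p : Fin 2 → V) : V →ₗ[ℝ] V :=
  (m 0).smulRight (p 0) + (m 1).smulRight (p 1)

theorem P2_apply (m : Fin 2 → Module.Dual ℝ V) (p : Fin 2 → V) (x : V) :
    P2 m p x = m 0 x • p 0 + m 1 x • p 1 := rfl

theorem P2_eq {κ : Type*} [Fintype κ] (N : Modes V (Fin 2) κ) : N.P0 = P2 N.m N.p := by
  ext x
  rw [Modes.P0_apply, P2_apply, Fin.sum_univ_two]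

theorem P2_finrank (m : Fin 2 → Module.Dual ℝ V) (p : Fin 2 → V) :
    FiniteDimensional ℝ (LinearMap.range (P2 m p)) ∧
      Module.finrank ℝ (LinearMap.range (P2 m p)) ≤ 2 := by
  have hle : LinearMap.range (P2 m p) ≤ Submodule.span ℝ (Set.range p) := by
    rintro _ ⟨x, rfl⟩
    rw [P2_apply]
    exact Submodule.add_mem _ (Submodule.smul_mem _ _ (Submodule.subset_span ⟨0, rfl⟩))
      (Submodule.smul_mem _ _ (Submodule.subset_span ⟨1, rfl⟩))
  have hfin : FiniteDimensional ℝ (Submodule.span ℝ (Set.range p)) :=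
    FiniteDimensional.span_of_finite ℝ (Set.finite_range p)
  refine ⟨Submodule.finiteDimensional_of_le hle, (Submodule.finrank_mono hle).trans ?_⟩
  exact (finrank_range_le_card p).trans (by simp)

theorem formL_hom2 (l m : Module.Dual ℝ V) (a : Gr V) : formL l m (hom 2 a) = formL l m a := by
  have h : (formL l m ∘ₗ hom 2 : Gr V →ₗ[ℝ] ℝ) = formL l m := by
    refine LinearMap.ext fun F => linear_ext (fun L => ?_) F
    rw [LinearMap.comp_apply, hom_mono]
    split_ifs with hlen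
    · rfl
    · rw [map_zero]
      symm
      rcases L with _ | ⟨x, _ | ⟨y, _ | ⟨z, L⟩⟩⟩
      · have := form_algebraMap (V := V) 1 l m
        simpa [formL_apply] using this
      · simpa [formL_apply] using form_one_field x l m
      · exact absurd rfl hlen
      · simpa [formL_apply, mono_cons] using form_three x y z (mono L) l m
  exact LinearMap.congr_fun h a

theorem loc00_P2 (m : Fin 2 → Module.Dual ℝ V) (p : Fin 2 → V) (a : Gr V) :
    loc00 (P2 m p) a = formL (m 0) (m 1) a • (fi (p 0) * fi (p 1)) := by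
  have h : loc00 (P2 m p) = (formL (m 0) (m 1)).smulRight (fi (p 0) * fi (p 1)) := by
    refine LinearMap.ext fun F => linear_ext (fun L => ?_) F
    rw [LinearMap.smulRight_apply]
    by_cases hlen : L.length = 2
    · obtain ⟨x, y, rfl⟩ := List.length_eq_two.1 hlen
      rw [loc00_mono_two]
      simp only [mono_cons, mono_nil, mul_one]
      rw [formL_apply, form_fi_fi, P2_apply, P2_apply, fi_add, fi_add, fi_smul, fi_smul, fi_smul,
        fi_smul]
      simp only [add_mul, mul_add, smul_mul_smul_comm, fi_mul_self, smul_zero, zero_add, add_zero]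
      rw [fi_anti (p 1) (p 0), smul_neg, sub_smul]
      module
    · rw [loc00_mono_ne _ hlen, ← formL_hom2, hom_mono, if_neg hlen, map_zero, zero_smul]
  rw [h]; rfl

/-- the bond form of two modes -/
theorem bondForm_P2 (m : Fin 2 → Module.Dual ℝ V) (p : Fin 2 → V) {b : Gr V} (hb : hom 2 b = b)
    (hc : formL (m 0) (m 1) b ≠ 0) :
    BondForm (P2 m p) (formL (m 0) (m 1)) (fi (p 0) * fi (p 1)) b :=
  ⟨loc00_P2 m p, formL_hom2 _ _, hb, hc⟩

/-- bound of the coefficient from the bounds of the modes -/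
theorem formL_two_le {w : V → ℝ≥0∞} {μ : ℝ≥0∞} (m : Fin 2 → Module.Dual ℝ V)
    (hm : ∀ i l, ‖m i l‖ₑ ≤ μ * w l) (x y : V) :
    ‖formL (m 0) (m 1) (mono [x, y])‖ₑ ≤ (2 * μ ^ 2) * (w x * w y) := by
  have h : formL (m 0) (m 1) (mono [x, y]) = m 0 x * m 1 y - m 0 y * m 1 x := by
    simp only [mono_cons, mono_nil, mul_one]
    rw [formL_apply, form_fi_fi]
  rw [h]
  calc ‖m 0 x * m 1 y - m 0 y * m 1 x‖ₑ ≤ ‖m 0 x * m 1 y‖ₑ + ‖m 0 y * m 1 x‖ₑ := enorm_sub_le
    _ ≤ (μ * w x) * (μ * w y) + (μ * w y) * (μ * w x) := by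
        rw [enorm_mul, enorm_mul]
        exact add_le_add (mul_le_mul' (hm 0 x) (hm 1 y)) (mul_le_mul' (hm 0 y) (hm 1 x))
    _ = _ := by ring

/-! ### large polymers with sources -/

/-- **large polymers with `j ≤ |U|` sources**, each of which costs a factor `Λ` -/
theorem gain_src {X : Type*} {d : X → X → ℕ} {U : Finset X} {r r' R : ℕ} (hd : PD d)
    (hU : Packx915.Conn d R U)
    (h : 4 * R + 3 * r + 2 ≤ r') (h2 : 2 ≤ pack d r U) {Γ Λ a A B : ℝ≥0∞} (h1 : 1 ≤ a)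
    (hΛ : 1 ≤ Λ) (hΓt : Γ ≠ ∞) (ha : (Λ * a) ^ 2 ≤ Γ) {j n : ℕ} (hj : j ≤ pack d r U)
    (hn : n ≤ pack d r U) (hAB : A ≤ a ^ n * B) :
    Γ ^ pack d r' U * (Λ ^ j * A) ≤ ((Λ * a) ^ 2 * Γ⁻¹) * (Γ ^ pack d r U * B) := by
  refine large_weighted (b := pack d r U) hd hU h h2 (one_le_mul_of_one_le_of_one_le hΛ h1) hΓt ha
    le_rfl ?_
  calc Λ ^ j * A ≤ Λ ^ pack d r U * (a ^ pack d r U * B) := by
        refine mul_le_mul' (pow_le_pow_right₀ hΛ hj) (hAB.trans (mul_le_mul' ?_ le_rfl))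
        exact pow_le_pow_right₀ h1 hn
    _ = _ := by rw [mul_pow]; ring

/-! ### instances on `GDef_387` -/

section gdef

open Crest.Agent.R165.Latx683 Crest.Agent.R165.GDefx387

variable {G : Type} [CommRing G] [CN G] {w : BW G} {a a' : ℝ} {r r' : ℕ} {U : Finset (G × G)}
  {S : Cov (Fld G)} {g : Fld G → ℝ≥0∞}

/-- a bound at all centres of `U` is a bound by the weight of `U` -/
theorem le_wU_of_wt {N : ℝ≥0∞} {l : Fld G} {C : ℝ≥0∞} (hC : C ≠ 0)
    (h : ∀ x ∈ U, SuppL (ball x (s0 * r)) l → N ≤ C * GDefx387.wt w a r x l) :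
    N ≤ C * GDefx387.wU w a r U l := by
  rw [wU_eq]
  rcases wU_cases (fun l x => SuppL (ball x (s0 * r)) l) (GDefx387.wt w a r) U l with
    h' | ⟨x, hx, hl, he⟩
  · rw [h', ENNReal.mul_top hC]; exact le_top
  · rw [he]; exact h x hx hl

/-- transfer of `WLe` to the polymer weights of `GDef_387` -/
theorem wU_of_WLe {P : Fld G →ₗ[ℝ] Fld G} {q : ℝ≥0∞} (hq : q ≠ 0)
    (h : ∀ x ∈ U, ∃ x' ∈ U, WLe w a a' r r' x x' P q) (l : Fld G) :
    GDefx387.wU w a' r' U (P l) ≤ q * GDefx387.wU w a r U l := by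
  rw [wU_eq, wU_eq]
  refine wU_map (T := P) hq (fun l x hx hl => ?_) l
  obtain ⟨x', hx', h'⟩ := h x hx
  exact ⟨x', hx', h' l hl⟩

/-- the Gram weight against the old weight -/
theorem gram_le_old {ε p0 : ℝ≥0∞} (h0 : W0 w g a' r' ε U) (hε : ε ≠ 0) (hp0 : p0 ≠ 0)
    (h1 : ∀ x ∈ U, ∃ x' ∈ U, WLe w a a' r r' x x' LinearMap.id p0) (l : Fld G) :
    g l ≤ (ε * p0) * GDefx387.wU w a r U l := by
  have h2 := h0.wU hε l
  rw [← wU_eq] at h2
  refine h2.trans ?_
  rw [mul_assoc]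
  exact mul_le_mul_right (wU_of_WLe hp0 h1 l) _

/-- **source polymer on `GDef_387`**: `m`, `p` the two modes and their local functionals at the
source, `b` the bond form -/
theorem src_small_U (hg : Gram S g) (m : Fin 2 → Module.Dual ℝ (Fld G)) (p : Fin 2 → Fld G)
    {b : Gr (Fld G)} (hb : hom 2 b = b) (hc : formL (m 0) (m 1) b ≠ 0)
    {ε P Q p0 μ β : ℝ≥0∞} (h0 : W0 w g a' r' ε U) (hε : ε ≠ 0) (hεt : ε ≠ ∞) (hPt : P ≠ ∞)
    (hQ0 : Q ≠ 0) (hQ4 : (1 + ε) * Q ≤ 1 / 4) (hQP : Q ≤ P) (hp0 : p0 ≠ 0)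
    (hε4 : ε * p0 ≤ 1 / 4) (hμ0 : μ ≠ 0) (hμt : μ ≠ ∞)
    (h1 : ∀ x ∈ U, ∃ x' ∈ U, WLe w a a' r r' x x' LinearMap.id p0)
    (hP : ∀ x ∈ U, ∃ x' ∈ U, WLe w a a' r r' x x' (P2 m p) P)
    (hQ : ∀ x ∈ U, ∃ x' ∈ U, WLe w a a' r r' x x' (LinearMap.id - P2 m p) Q)
    (hμ : ∀ i, ∀ x ∈ U, ∀ l, SuppL (ball x (s0 * r)) l → ‖m i l‖ₑ ≤ μ * GDefx387.wt w a r x l)
    (hβ : pnorm (GDefx387.wU w a' r' U) (b - loc00 (P2 m p) b) ≤ β)
    {F : Gr (Fld G)} (hev : IsEv F) (hF : pnorm (GDefx387.wU w a r U) F ≠ ∞) :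
    pnorm (GDefx387.wU w a' r' U) (noct (conv S F) - Xb (formL (m 0) (m 1)) b (conv S F)) ≤
      (11 * (((1 + ε) * P) ^ 2 * ((1 + ε) * Q) ^ 2) + (2 * (P * Q) + Q ^ 2) +
        ‖(formL (m 0) (m 1) b)⁻¹‖ₑ * (2 * μ ^ 2) * β) * pnorm (GDefx387.wU w a r U) F := by
  have : FiniteDimensional ℝ (LinearMap.range (P2 m p)) := (P2_finrank m p).1
  have hP0 : P ≠ 0 := fun h => hQ0 (le_antisymm (h ▸ hQP) zero_le)
  refine src_small hg (P2_finrank m p).2 (bondForm_P2 m p hb hc)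
    (fun l => by rw [wU_eq]; exact h0.wU hε l) hεt hPt hQ4 hQP (fun l => wU_of_WLe hP0 hP l)
    (fun l => wU_of_WLe hQ0 hQ l) hε4 (fun l => gram_le_old h0 hε hp0 h1 l)
    (ENNReal.mul_ne_top (by norm_num) (ENNReal.pow_ne_top hμt))
    (fun x y => formL_two_le m (fun i l => le_wU_of_wt hμ0 fun x hx hl => hμ i x hx l hl) x y)
    hβ hev hF

/-- **the extracted coefficient on `GDef_387`** -/
theorem src_coef_U (hg : Gram S g) (m : Fin 2 → Module.Dual ℝ (Fld G)) (p : Fin 2 → Fld G)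
    {b : Gr (Fld G)} (hb : hom 2 b = b) (hc : formL (m 0) (m 1) b ≠ 0)
    {ε p0 μ : ℝ≥0∞} (h0 : W0 w g a' r' ε U) (hε : ε ≠ 0) (hp0 : p0 ≠ 0)
    (hε4 : ε * p0 ≤ 1 / 4) (hμ0 : μ ≠ 0) (hμt : μ ≠ ∞)
    (h1 : ∀ x ∈ U, ∃ x' ∈ U, WLe w a a' r r' x x' LinearMap.id p0)
    (hμ : ∀ i, ∀ x ∈ U, ∀ l, SuppL (ball x (s0 * r)) l → ‖m i l‖ₑ ≤ μ * GDefx387.wt w a r x l)
    {F : Gr (Fld G)} (hF : pnorm (GDefx387.wU w a r U) F ≠ ∞) :
    ‖formL (m 0) (m 1) (conv S F)‖ₑ ≤ (2 * μ ^ 2) * pnorm (GDefx387.wU w a r U) F :=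
  src_coef hg (ENNReal.mul_ne_top (by norm_num) (ENNReal.pow_ne_top hμt)) (bondForm_P2 m p hb hc)
    (fun x y => formL_two_le m (fun i l => le_wU_of_wt hμ0 fun x hx hl => hμ i x hx l hl) x y)
    hε4 (fun l => gram_le_old h0 hε hp0 h1 l) hF

end gdef

end Crest.Agent.R165.Srcx336
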