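import Crest.Agent.R165.RegI_893
import Crest.Agent.R165.QuadB_915
import Crest.Agent.R165.W0S_897
import Crest.Agent.R165.Crude_386

/-!
# Row 165, block G/P: one step of the concrete flow `GSysx387.sys` (helper897)

* `acS`, `StepGeo` : active polymers; the geometric input of one contracting step
* `TT`, `N2`, `N3`, `CF`, `CG`, `etaG` : the constants (they depend on `C, D, l, CX` only)
* `StepGeo.dstep` : the structure `DStep` for the covariance `slC` of the step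
* `good_step` : `b + c ≤ η  ⟹  c' ≤ c/4 + CG b + CG (b + c)²`
-/

set_option autoImplicit false
set_option linter.unusedSectionVars false
set_option linter.unusedVariables false

noncomputable section

open scoped ENNReal
open Crest.Agent.R165.Gr0x606 Crest.Agent.R165.Gr1x606 Crest.Agent.R165.GeOpsx337
  Crest.Agent.R165.ExpGx337 Crest.Agent.R165.KFlowx337
open Crest.Agent.R165.Latx683 Crest.Agent.R165.PNormx417
open Crest.Agent.R165.GDefx387 Crest.Agent.R165.Packx915 Crest.Agent.R165.NSumx915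
open Crest.Agent.R165.Bridgex915 Crest.Agent.R165.NKDefx915 Crest.Agent.R165.DefRecx915
open Crest.Agent.R165.FRDPolyx439 Crest.Agent.R165.FRDLatx439 Crest.Agent.R165.GSysx387
open Crest.Agent.R165.RegGx893 Crest.Agent.R165.RegIx893 Crest.Agent.R165.W0Sx897
open Crest.Agent.R165.Wtx898 Crest.Agent.R165.BgIsox432

namespace Crest.Agent.R165.StepGluex897

/-! ### numerics -/

/-- factor of the small polymers -/
def TT (C : ℝ) (D : ℕ) : ℝ≥0∞ := ENNReal.ofReal (1 + 4 * EE C D)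

/-- number of balls of the old scale covering a ball of the new scale -/
def N2 (l : ℕ) : ℕ := (2 * 2 ^ l + 3) ^ 2

/-- number of output balls -/
def N3 (l : ℕ) : ℕ := (2 * (2 ^ l + 1) + 3) ^ 2

/-- bound of the first order quantities -/
def CF (C : ℝ) (D l : ℕ) (CX : ℝ≥0∞) : ℝ≥0∞ := (1 + 3 * TT C D + 2 * (3 * CX)) * N2 l

/-- the constant of the recursion -/
def CG (C : ℝ) (D l : ℕ) (CX : ℝ≥0∞) : ℝ≥0∞ :=
  (1 + (TT C D + CX)) * N2 l + 10 * N3 l * CF C D l CX ^ 2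

/-- smallness needed for the quadratic part -/
def etaG (C : ℝ) (D l : ℕ) (CX : ℝ≥0∞) : ℝ≥0∞ := (N3 l * (3 * CF C D l CX))⁻¹

theorem TT_ne_top (C : ℝ) (D : ℕ) : TT C D ≠ ∞ := ENNReal.ofReal_ne_top

theorem one_le_TT {C : ℝ} (hC : 1 ≤ C) (D : ℕ) : 1 ≤ TT C D := by
  unfold TT
  have := EE_pos hC D
  rw [← ENNReal.ofReal_one]
  exact ENNReal.ofReal_le_ofReal (by linarith)

theorem CF_ne_top (C : ℝ) (D l : ℕ) {CX : ℝ≥0∞} (h : CX ≠ ∞) : CF C D l CX ≠ ∞ := by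
  unfold CF
  refine ENNReal.mul_ne_top (ENNReal.add_ne_top.2 ⟨ENNReal.add_ne_top.2 ⟨ENNReal.one_ne_top, ?_⟩, ?_⟩)
    (ENNReal.natCast_ne_top _)
  · exact ENNReal.mul_ne_top (by norm_num) (TT_ne_top C D)
  · exact ENNReal.mul_ne_top (by norm_num) (ENNReal.mul_ne_top (by norm_num) h)

theorem CG_ne_top (C : ℝ) (D l : ℕ) {CX : ℝ≥0∞} (h : CX ≠ ∞) : CG C D l CX ≠ ∞ := by
  unfold CG
  refine ENNReal.add_ne_top.2 ⟨ENNReal.mul_ne_top (ENNReal.add_ne_top.2 ⟨ENNReal.one_ne_top,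
    ENNReal.add_ne_top.2 ⟨TT_ne_top C D, h⟩⟩) (ENNReal.natCast_ne_top _), ?_⟩
  exact ENNReal.mul_ne_top (ENNReal.mul_ne_top (by norm_num) (ENNReal.natCast_ne_top _))
    (ENNReal.pow_ne_top (CF_ne_top C D l h))

theorem etaG_ne_zero (C : ℝ) (D l : ℕ) {CX : ℝ≥0∞} (h : CX ≠ ∞) : etaG C D l CX ≠ 0 := by
  unfold etaG
  exact ENNReal.inv_ne_zero.2 (ENNReal.mul_ne_top (ENNReal.natCast_ne_top _)
    (ENNReal.mul_ne_top (by norm_num) (CF_ne_top C D l h)))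

theorem nn2_le (l k0 n : ℕ) : nn2 (rr l k0 n) (rr l k0 (n + 1)) = N2 l := by
  unfold nn2 N2
  rw [rr_succ, Nat.mul_div_cancel _ (rr_pos l k0 n)]

theorem nn3_le (l k0 n : ℕ) : nn3 (rr l k0 (n + 1)) (nearR l k0 (n + 1)) ≤ N3 l := by
  unfold nn3 N3
  have h0 := rr_pos l k0 (n + 1)
  have h1 : (rr l k0 (n + 1) + nearR l k0 (n + 1)) / rr l k0 (n + 1) ≤ 2 ^ l + 1 := by
    refine Nat.div_le_of_le_mul ?_
    have h2 : nearR l k0 (n + 1) ≤ rr l k0 (n + 1 + 1) := Nat.div_le_self _ _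
    rw [rr_succ l k0 (n + 1)] at h2
    calc rr l k0 (n + 1) + nearR l k0 (n + 1) ≤ rr l k0 (n + 1) + 2 ^ l * rr l k0 (n + 1) := by
          omega
      _ = rr l k0 (n + 1) * (2 ^ l + 1) := by ring
  have h3 : 2 * ((rr l k0 (n + 1) + nearR l k0 (n + 1)) / rr l k0 (n + 1)) + 3 ≤
      2 * (2 ^ l + 1) + 3 := by omega
  exact Nat.pow_le_pow_left h3 2

/-- the gain of the large polymers -/
theorem qL_mul_le {C : ℝ} {D l : ℕ} {Γ : ℝ≥0∞} (hΓt : Γ ≠ ∞)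
    (hΓ : 8 * (3 * TT C D) ^ 2 * N2 l ≤ Γ) : (3 * TT C D) ^ 2 * Γ⁻¹ * N2 l ≤ 1 / 8 := by
  have h8 : (8 : ℝ≥0∞) * ((3 * TT C D) ^ 2 * Γ⁻¹ * N2 l) ≤ 1 := by
    calc (8 : ℝ≥0∞) * ((3 * TT C D) ^ 2 * Γ⁻¹ * N2 l) = (8 * (3 * TT C D) ^ 2 * N2 l) * Γ⁻¹ := by
          ring
      _ ≤ Γ * Γ⁻¹ := mul_le_mul' hΓ le_rfl
      _ ≤ 1 := ENNReal.mul_inv_le_one _
  rw [ENNReal.le_div_iff_mul_le (by norm_num) (by norm_num), mul_comm]
  exact h8

theorem one_le_N2 (l : ℕ) : (1 : ℝ≥0∞) ≤ N2 l := by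
  have : 1 ≤ N2 l := Nat.one_le_pow _ _ (by positivity)
  exact_mod_cast this

theorem qL_le {C : ℝ} {D l : ℕ} {Γ : ℝ≥0∞} (hΓt : Γ ≠ ∞)
    (hΓ : 8 * (3 * TT C D) ^ 2 * N2 l ≤ Γ) : (3 * TT C D) ^ 2 * Γ⁻¹ ≤ 1 := by
  have h1 := qL_mul_le hΓt hΓ
  refine le_trans (le_mul_of_one_le_right' (one_le_N2 l)) (h1.trans ?_)
  rw [one_div]
  exact ENNReal.inv_le_one.2 (by norm_num)

/-- bound of the first order quantities, crude step -/
def CFc (l : ℕ) (CX : ℝ≥0∞) : ℝ≥0∞ := (3 + 3 * 1 + 2 * (3 * CX)) * N2 l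

/-- the constant of a crude step -/
def CC (l : ℕ) (CX : ℝ≥0∞) : ℝ≥0∞ :=
  3 * N2 l + (((2 * (2 ^ l * 2) + 3) ^ 2 * 25 : ℕ) : ℝ≥0∞) + (3 + (1 + CX)) * N2 l +
    10 * N3 l * CFc l CX ^ 2

/-- smallness needed for the quadratic part of a crude step -/
def etaC (l : ℕ) (CX : ℝ≥0∞) : ℝ≥0∞ := (N3 l * (3 * CFc l CX))⁻¹

theorem CFc_ne_top (l : ℕ) {CX : ℝ≥0∞} (h : CX ≠ ∞) : CFc l CX ≠ ∞ := by
  unfold CFc
  exact ENNReal.mul_ne_top (ENNReal.add_ne_top.2 ⟨by norm_num, ENNReal.mul_ne_top (by norm_num)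
    (ENNReal.mul_ne_top (by norm_num) h)⟩) (ENNReal.natCast_ne_top _)

theorem CC_ne_top (l : ℕ) {CX : ℝ≥0∞} (h : CX ≠ ∞) : CC l CX ≠ ∞ := by
  unfold CC
  refine ENNReal.add_ne_top.2 ⟨ENNReal.add_ne_top.2 ⟨ENNReal.add_ne_top.2
    ⟨ENNReal.mul_ne_top (by norm_num) (ENNReal.natCast_ne_top _), ENNReal.natCast_ne_top _⟩,
    ENNReal.mul_ne_top (ENNReal.add_ne_top.2 ⟨by norm_num, ENNReal.add_ne_top.2
      ⟨ENNReal.one_ne_top, h⟩⟩) (ENNReal.natCast_ne_top _)⟩, ?_⟩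
  exact ENNReal.mul_ne_top (ENNReal.mul_ne_top (by norm_num) (ENNReal.natCast_ne_top _))
    (ENNReal.pow_ne_top (CFc_ne_top l h))

theorem etaC_ne_zero (l : ℕ) {CX : ℝ≥0∞} (h : CX ≠ ∞) : etaC l CX ≠ 0 := by
  unfold etaC
  exact ENNReal.inv_ne_zero.2 (ENNReal.mul_ne_top (ENNReal.natCast_ne_top _)
    (ENNReal.mul_ne_top (by norm_num) (CFc_ne_top l h)))

/-- `η = (N · 3 F)⁻¹` is at most `1` as soon as `1 ≤ F`, `1 ≤ N` -/
theorem eta_le_one {N F : ℝ≥0∞} (hN : 1 ≤ N) (hF : 1 ≤ F) : (N * (3 * F))⁻¹ ≤ 1 := by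
  refine ENNReal.inv_le_one.2 ?_
  exact one_le_mul hN (one_le_mul (by norm_num) hF)

theorem one_le_N3 (l : ℕ) : (1 : ℝ≥0∞) ≤ N3 l := by
  have : 1 ≤ N3 l := Nat.one_le_pow _ _ (by positivity)
  exact_mod_cast this

theorem one_le_CF (C : ℝ) (D l : ℕ) (CX : ℝ≥0∞) : 1 ≤ CF C D l CX := by
  unfold CF
  refine one_le_mul ?_ (one_le_N2 l)
  rw [add_assoc]; exact le_self_add

theorem one_le_CFc (l : ℕ) (CX : ℝ≥0∞) : 1 ≤ CFc l CX := by
  unfold CFc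
  refine one_le_mul ?_ (one_le_N2 l)
  rw [add_assoc]
  exact le_trans (by norm_num : (1 : ℝ≥0∞) ≤ 3) le_self_add

theorem etaG_le_one (C : ℝ) (D l : ℕ) (CX : ℝ≥0∞) : etaG C D l CX ≤ 1 :=
  eta_le_one (one_le_N3 l) (one_le_CF C D l CX)

theorem etaC_le_one (l : ℕ) (CX : ℝ≥0∞) : etaC l CX ≤ 1 :=
  eta_le_one (one_le_N3 l) (one_le_CFc l CX)

/-! ### geometry of one step -/

variable {G : Type} [CommRing G] [CN G]

/-- active polymers of step `n` -/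
def acS (l k0 n : ℕ) (Ac : Set (G × G)) (U : Finset (G × G)) : Prop :=
  U.Nonempty ∧ Packx915.Conn fd (nearR l k0 n) U ∧ ∀ x ∈ U, x ∈ Ac

/-- **geometric input of one contracting step** of the background `w` with the marks `mk`:
`B` = boundary centres, `Z` = marks and clusters, `loc i` = branch points, `Ac` = active faces -/
structure StepGeo (w : BW G) (mk : Finset (G × G)) (C : ℝ) (Λ r0 D l k0 n Nm Nb : ℕ) {ι : Type*}
    (loc : ι → G × G) (B Z Ac : Set (G × G)) : Prop where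
  /-- weights -/
  wle : ∀ z j, |w z j| ≤ 1
  /-- regularity at all scales up to `32 r'` -/
  geo : Geo w C Λ r0 (32 * rr l k0 (n + 1)) loc B Z Ac
  r0_le : r0 ≤ rr l k0 n
  /-- branch points are far apart -/
  sep : ∀ i j, i ≠ j → 2 * (rr l k0 (n + 1) + D * rr l k0 n) < fd (loc i) (loc j)
  /-- small polymers which are not plane-like are near a defect -/
  near : ∀ U, acS l k0 n Ac U → size (rr l k0 n) U ≤ 1 → ¬ emM w mk (rr l k0 n) U → ∃ x ∈ U,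
      (∃ y ∈ B, fd y x + rr l k0 n ≤ D * rr l k0 n) ∨
      (∃ z ∈ Z, fd z x + rr l k0 n ≤ D * rr l k0 n) ∨
      ∃ i, fd (loc i) x + rr l k0 n ≤ D * rr l k0 n
  cb : DCount fd B (rr l k0 (n + 1) + D * rr l k0 n) (rr l k0 n) Nb
  cm : DCount fd Z (rr l k0 (n + 1) + D * rr l k0 n) (rr l k0 n) Nm
  Nb_le : Nb ≤ 8 * (2 ^ l + D) + 1

section step

variable [DecidableEq G] {w : BW G} {mk : Finset (G × G)} {C : ℝ} {Λ r0 D l k0 n Nm Nb : ℕ}
  {ι : Type*} {loc : ι → G × G} {B Z Ac : Set (G × G)} {Γ : ℝ≥0∞} {a a' : ℝ}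

theorem range_le {l k0 n : ℕ} (h10 : 10 ≤ 2 ^ l) :
    4 * nearR l k0 n + 3 * rr l k0 n + 2 ≤ 2 ^ l * rr l k0 n := by
  have h0 := rr_pos l k0 n
  have h1 : nearR l k0 n = 2 ^ l * rr l k0 n / 8 := by unfold nearR; rw [rr_succ]
  have h2 : 10 * rr l k0 n ≤ 2 ^ l * rr l k0 n := Nat.mul_le_mul_right _ h10
  have h3 : 8 * nearR l k0 n ≤ 2 ^ l * rr l k0 n := by
    rw [h1]; exact Nat.mul_div_le _ _
  omega

/-- **the structure `DStep`** for the covariance of step `n` -/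
theorem StepGeo.dstep [Fintype ι] {M K : ℕ} (F : FRD 16 M K) (hM : MM + 1 ≤ M)
    (H : StepGeo w mk C Λ r0 D l k0 n Nm Nb loc B Z Ac) (hL : BigL C D Nm (1 / 8) (2 ^ l))
    (hLΛ : 2 ^ l ≤ Λ) (ha : 0 < a) (ha2 : a' ≤ 2 * a)
    (hA : cW0 F l k0 n ≤ a') (hΓt : Γ ≠ ∞) (hΓ : (3 * TT C D) ^ 2 ≤ Γ) :
    DStep w a a' (rr l k0 n) (rr l k0 (n + 1)) Γ (3 * Γ) (slC F w l k0 n) (acS l k0 n Ac)
      (emM w mk (rr l k0 n)) (dset loc B Z) (fun _ => D * rr l k0 n) (dN Nb Nm)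
      (dq (EE C D) (Real.sqrt (1 / ((2 ^ l : ℕ) : ℝ)))) ((3 * TT C D) ^ 2 * Γ⁻¹) (TT C D) := by
  have hgeo := H.geo
  have hsep := H.sep
  have hcb := H.cb
  have hcm := H.cm
  have hw0 := fun U => w0S F hM w H.wle l k0 n hA U
  rw [rr_succ] at hgeo hsep hcb hcm hw0 ⊢
  exact Geo.dstepL (Rc := nearR l k0 n) hL hgeo (gramS F w H.wle l k0 n) hLΛ H.r0_le le_rfl
    (rr_pos l k0 n) ha ((cW0_pos F l k0 n).le.trans hA) ha2 (fun U _ => hw0 U) (fun U hU => hU.2.2) (fun U hU => hU.2.1)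
    (range_le hL.ten) hsep H.near hcb hcm hΓt (by norm_num) hΓ

end step

/-! ### the step of the concrete system -/

section sysm

variable [DecidableEq G] [CNZ G] {M K : ℕ} (F : FRD 16 M K) (w : BW G) (mk : Finset (G × G))
  (l k0 : ℕ) (K0 : Finset (G × G) → Ge (Fld G)) (a : ℕ → ℝ) (Γ : ℝ≥0∞)

/-- norm of the plane-like activities of step `n` -/
def bN (n : ℕ) : ℝ≥0∞ :=
  NK w (a n) (rr l k0 n) Γ (fun U => emM w (mk : Set (G × G)) (rr l k0 n) U)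
    (fun U => (((sys F w mk l k0 K0).K n U : Ge (Fld G)) : Gr (Fld G)))

/-- norm of the defect activities of step `n` -/
def cN (n : ℕ) : ℝ≥0∞ :=
  NK w (a n) (rr l k0 n) Γ (fun U => ¬ emM w (mk : Set (G × G)) (rr l k0 n) U)
    (fun U => (((sys F w mk l k0 K0).K n U : Ge (Fld G)) : Gr (Fld G)))

theorem vacCt_sys : VacCt (sys F w mk l k0 K0) := fun _ => rfl

theorem embExtr_sys (n : ℕ) : EmbExtr (rr l k0 n) (emM w (mk : Set (G × G)) (rr l k0 (n + 1)))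
    ((sys F w mk l k0 K0).e n) := by
  classical
  intro U T hT
  obtain ⟨h1, f, hf, hd, hTf⟩ := (PStepx417.mem_exOut (deep w mk l k0 n) (rr l k0 n)).1 hT
  refine ⟨h1, f, hf, hTf, hd.1, ?_⟩
  intro u hu x hx
  rw [Finset.mem_singleton] at hu
  subst hu
  exact hd.2 x hx

variable {F w mk l k0 K0 a Γ} {C : ℝ} {Λ r0 D n Nm Nb : ℕ}
  {ι : Type*} {loc : ι → G × G} {B Z Ac : Set (G × G)} {CX : ℝ≥0∞}

/-- **CONTRACTING STEP** of the concrete flow -/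
theorem good_step [GoodG G] [Fintype ι] (hM : MM + 1 ≤ M)
    (H : StepGeo w mk C Λ r0 D l k0 n Nm Nb loc B Z Ac) (hL : BigL C D Nm (1 / 8) (2 ^ l))
    (hLΛ : 2 ^ l ≤ Λ) (ha : 0 < a n) (ha2 : a (n + 1) ≤ 2 * a n)
    (hA : cW0 F l k0 n ≤ a (n + 1)) (hΓt : Γ ≠ ∞) (hΓ : 8 * (3 * TT C D) ^ 2 * N2 l ≤ Γ)
    (hX : XBd w (a n) (a (n + 1)) (rr l k0 n) (rr l k0 (n + 1)) (acS l k0 n Ac)
      (sys F w mk l k0 K0) n CX) (hCX : CX ≠ ∞)
    (hac : ∀ U, (sys F w mk l k0 K0).K n U ≠ 0 → acS l k0 n Ac U)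
    (hbc : bN F w mk l k0 K0 a Γ n + cN F w mk l k0 K0 a Γ n ≤ etaG C D l CX) :
    cN F w mk l k0 K0 a Γ (n + 1) ≤ 1 / 4 * cN F w mk l k0 K0 a Γ n +
      CG C D l CX * bN F w mk l k0 K0 a Γ n +
      CG C D l CX * (bN F w mk l k0 K0 a Γ n + cN F w mk l k0 K0 a Γ n) ^ 2 := by
  have h8N : (1 : ℝ≥0∞) ≤ 8 * N2 l := by
    calc (1 : ℝ≥0∞) ≤ 8 * 1 := by norm_num
      _ ≤ 8 * N2 l := mul_le_mul' le_rfl (one_le_N2 l)
  have hΓ1 : (3 * TT C D) ^ 2 ≤ Γ := by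
    refine le_trans ?_ hΓ
    calc (3 * TT C D) ^ 2 = 1 * (3 * TT C D) ^ 2 := (one_mul _).symm
      _ ≤ (8 * N2 l) * (3 * TT C D) ^ 2 := mul_le_mul' h8N le_rfl
      _ = _ := by ring
  have hT1 := one_le_TT H.geo.one_le D
  have hΓ11 : 1 ≤ Γ := by
    refine le_trans ?_ hΓ1
    exact one_le_pow₀ (one_le_mul (by norm_num) hT1)
  have hst := H.dstep F hM hL hLΛ ha ha2 hA hΓt hΓ1
  set b := bN F w mk l k0 K0 a Γ n with hb
  set c := cN F w mk l k0 K0 a Γ n with hc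
  have hqL := qL_le hΓt hΓ
  have hqL2 := qL_mul_le hΓt hΓ
  set qL : ℝ≥0∞ := (3 * TT C D) ^ 2 * Γ⁻¹ with hqLd
  have hcF : cF (rr l k0 n) (rr l k0 (n + 1)) qL (TT C D) CX ≤ CF C D l CX := by
    unfold cF CF
    rw [nn2_le]
    gcongr
  have hn3 : ((nn3 (rr l k0 (n + 1)) (nearR l k0 (n + 1)) : ℕ) : ℝ≥0∞) ≤ N3 l := by
    exact_mod_cast nn3_le l k0 n
  have hCFt := CF_ne_top C D l hCX
  have hbct : b + c ≠ ∞ := by
    refine ne_top_of_le_ne_top ?_ hbc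
    unfold etaG
    refine ENNReal.inv_ne_top.2 ?_
    refine mul_ne_zero ?_ (mul_ne_zero (by norm_num) ?_)
    · have : 0 < N3 l := by unfold N3; positivity
      exact_mod_cast this.ne'
    · unfold CF
      refine mul_ne_zero ?_ ?_
      · exact (lt_of_lt_of_le one_pos (by rw [add_assoc]; exact le_self_add)).ne'
      · exact (lt_of_lt_of_le one_pos (one_le_N2 l)).ne'
  have hsmall : nn3 (rr l k0 (n + 1)) (nearR l k0 (n + 1)) *
      (3 * (cF (rr l k0 n) (rr l k0 (n + 1)) qL (TT C D) CX * (b + c))) ≤ 1 := by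
    calc (nn3 (rr l k0 (n + 1)) (nearR l k0 (n + 1)) : ℝ≥0∞) *
        (3 * (cF (rr l k0 n) (rr l k0 (n + 1)) qL (TT C D) CX * (b + c)))
        ≤ N3 l * (3 * (CF C D l CX * etaG C D l CX)) := by gcongr
      _ = (N3 l * (3 * CF C D l CX)) * etaG C D l CX := by ring
      _ ≤ 1 := ENNReal.mul_inv_le_one _
  have key := step_all (sys F w mk l k0 K0) n (em' := emM w (mk : Set (G × G)) (rr l k0 (n + 1)))
    (R' := nearR l k0 (n + 1)) hst (rr_pos l k0 n)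
    (rr_mono l k0 (Nat.le_succ n)) (deep_emM w mk ?_) hΓ11 rfl hac (fun U hU => hU.1)
    (vacCt_sys F w mk l k0 K0) (embExtr_sys F w mk l k0 K0 n) hX (b := b) (c := c) le_rfl le_rfl
    hsmall (ENNReal.mul_ne_top (ne_top_of_le_ne_top hCFt hcF) hbct)
  · refine key.trans ?_
    refine add_le_add (add_le_add (mul_le_mul' ?_ le_rfl) (mul_le_mul' ?_ le_rfl))
      (mul_le_mul' ?_ le_rfl)
    · -- contraction factor
      unfold kapD
      rw [nn2_le]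
      have h1 := hL.sum_le H.geo.one_le (rr_pos l k0 n) H.Nb_le
      refine (add_le_add hqL2 h1).trans ?_
      have e : ENNReal.ofReal (1 / 8) = 1 / 8 := by
        rw [ENNReal.ofReal_div_of_pos (by norm_num)]; norm_num
      rw [e]
      rw [ENNReal.div_add_div_same]
      rw [show (1 : ℝ≥0∞) + 1 = 2 by norm_num]
      rw [ENNReal.div_le_iff_le_mul (by norm_num) (by norm_num), one_div]
      have h48 : (4 : ℝ≥0∞)⁻¹ * 8 = 2 := by
        rw [show (8 : ℝ≥0∞) = 4 * 2 by norm_num, ← mul_assoc,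
          ENNReal.inv_mul_cancel (by norm_num) (by norm_num), one_mul]
      rw [h48]
    · unfold CG
      rw [nn2_le]
      refine le_trans ?_ le_self_add
      gcongr
    · unfold cQ CG
      refine le_trans ?_ le_add_self
      gcongr
  · have h10 := hL.ten
    have h1 : 10 * rr l k0 n ≤ rr l k0 (n + 1) := by
      rw [rr_succ]; exact Nat.mul_le_mul_right _ h10
    unfold s2
    omega

/-- **CRUDE STEP** of the concrete flow: no geometry, the amplitude drops -/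
theorem crude_step [GoodG G] (hM : MM + 1 ≤ M) (hw : ∀ z j, |w z j| ≤ 1) (h10 : 10 ≤ 2 ^ l)
    (hn : 2 ≤ rr l k0 n) (ha : 0 < a n) (ha' : 0 ≤ a (n + 1))
    (hdrop : 2 * (a (n + 1) * Real.sqrt (rr l k0 (n + 1))) ≤ a n * Real.sqrt (rr l k0 n))
    (hA : cW0 F l k0 n ≤ a (n + 1)) (hΓ : 3 ≤ Γ)
    (hX : XBd w (a n) (a (n + 1)) (rr l k0 n) (rr l k0 (n + 1)) (acS l k0 n Ac)
      (sys F w mk l k0 K0) n CX) (hCX : CX ≠ ∞)
    (hac : ∀ U, (sys F w mk l k0 K0).K n U ≠ 0 → acS l k0 n Ac U)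
    (hbc : bN F w mk l k0 K0 a Γ n + cN F w mk l k0 K0 a Γ n ≤ etaC l CX) :
    cN F w mk l k0 K0 a Γ (n + 1) ≤
      CC l CX * (bN F w mk l k0 K0 a Γ n + cN F w mk l k0 K0 a Γ n) := by
  set b := bN F w mk l k0 K0 a Γ n with hb
  set c := cN F w mk l k0 K0 a Γ n with hc
  have hΓ1 : 1 ≤ Γ := le_trans (by norm_num) hΓ
  have hrr : 4 * nearR l k0 n + 3 * rr l k0 n + 2 ≤ rr l k0 (n + 1) := by
    rw [rr_succ]; exact range_le h10
  have hst := Crudex386.crude_dstep (w := w) (a := a n) (a' := a (n + 1)) (Γ := Γ)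
    (em := emM w (mk : Set (G × G)) (rr l k0 n))
    (gramS F w hw l k0 n) ha hn ha' hdrop (ε := 1) (fun U => w0S F hM w hw l k0 n hA U)
    one_ne_zero le_rfl hΓ hrr (ac := acS l k0 n Ac) (fun U hU => hU.2.1)
  have hcF : cF (rr l k0 n) (rr l k0 (n + 1)) 3 1 CX = CFc l CX := by
    unfold cF CFc
    rw [nn2_le]
  have hn3 : ((nn3 (rr l k0 (n + 1)) (nearR l k0 (n + 1)) : ℕ) : ℝ≥0∞) ≤ N3 l := by
    exact_mod_cast nn3_le l k0 n
  have hbc1 : b + c ≤ 1 := hbc.trans (etaC_le_one l CX)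
  have hbct : b + c ≠ ∞ := ne_top_of_le_ne_top ENNReal.one_ne_top hbc1
  have hsmall : nn3 (rr l k0 (n + 1)) (nearR l k0 (n + 1)) *
      (3 * (cF (rr l k0 n) (rr l k0 (n + 1)) 3 1 CX * (b + c))) ≤ 1 := by
    rw [hcF]
    calc (nn3 (rr l k0 (n + 1)) (nearR l k0 (n + 1)) : ℝ≥0∞) * (3 * (CFc l CX * (b + c)))
        ≤ N3 l * (3 * (CFc l CX * etaC l CX)) := by gcongr
      _ = (N3 l * (3 * CFc l CX)) * etaC l CX := by ring
      _ ≤ 1 := ENNReal.mul_inv_le_one _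
  have key := step_all (sys F w mk l k0 K0) n (em' := emM w (mk : Set (G × G)) (rr l k0 (n + 1)))
    (R' := nearR l k0 (n + 1)) hst (rr_pos l k0 n)
    (rr_mono l k0 (Nat.le_succ n)) (deep_emM w mk ?_) hΓ1 rfl hac (fun U hU => hU.1)
    (vacCt_sys F w mk l k0 K0) (embExtr_sys F w mk l k0 K0 n) hX (b := b) (c := c) le_rfl le_rfl
    hsmall (by rw [hcF]; exact ENNReal.mul_ne_top (CFc_ne_top l hCX) hbct)
  · refine key.trans ?_
    have hq : (b + c) ^ 2 ≤ b + c := by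
      rw [sq]
      calc (b + c) * (b + c) ≤ 1 * (b + c) := mul_le_mul' hbc1 le_rfl
        _ = b + c := one_mul _
    have hkap : kapD (rr l k0 n) (rr l k0 (n + 1)) (fun _ : Unit => 0)
        (fun _ : Unit => (2 * (rr l k0 (n + 1) / (rr l k0 n / 2)) + 3) ^ 2) (fun _ => 1) 3 =
        3 * N2 l + (((2 * (2 ^ l * 2) + 3) ^ 2 * 25 : ℕ) : ℝ≥0∞) := by
      unfold kapD
      rw [nn2_le, Finset.univ_unique, Finset.sum_singleton, one_mul]
      have h1 : rr l k0 (n + 1) / (rr l k0 n / 2) = 2 ^ l * 2 := by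
        have h2 : 2 * (rr l k0 n / 2) = rr l k0 n := by
          have : 2 ∣ rr l k0 n := by
            unfold rr at hn ⊢
            refine dvd_pow_self 2 ?_
            intro h0
            rw [h0] at hn
            norm_num at hn
          omega
        have h3 : rr l k0 (n + 1) = 2 ^ l * 2 * (rr l k0 n / 2) := by
          rw [rr_succ, mul_assoc, h2]
        rw [h3, Nat.mul_div_cancel _ (by omega)]
      have h4 : (0 + rr l k0 n) / rr l k0 n = 1 := by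
        rw [Nat.zero_add]; exact Nat.div_self (rr_pos l k0 n)
      rw [h1, h4]
      rfl
    rw [hkap, nn2_le]
    have hcb : b ≤ b + c := le_self_add
    have hcc : c ≤ b + c := le_add_self
    have h3 : cQ (rr l k0 n) (rr l k0 (n + 1)) (nearR l k0 (n + 1)) 3 1 CX ≤
        10 * N3 l * CFc l CX ^ 2 := by
      unfold cQ
      rw [hcF]
      gcongr
    calc (3 * (N2 l : ℝ≥0∞) + (((2 * (2 ^ l * 2) + 3) ^ 2 * 25 : ℕ) : ℝ≥0∞)) * c +
          (3 + (1 + CX)) * (N2 l : ℝ≥0∞) * b +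
          cQ (rr l k0 n) (rr l k0 (n + 1)) (nearR l k0 (n + 1)) 3 1 CX * (b + c) ^ 2
        ≤ (3 * (N2 l : ℝ≥0∞) + (((2 * (2 ^ l * 2) + 3) ^ 2 * 25 : ℕ) : ℝ≥0∞)) * (b + c) +
          (3 + (1 + CX)) * (N2 l : ℝ≥0∞) * (b + c) + 10 * N3 l * CFc l CX ^ 2 * (b + c) := by
          gcongr
      _ = CC l CX * (b + c) := by unfold CC; ring
  · have h1 : 10 * rr l k0 n ≤ rr l k0 (n + 1) := by
      rw [rr_succ]; exact Nat.mul_le_mul_right _ h10
    unfold s2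
    omega

/-! ### the constants -/

/-- norm of the constants `ctG (H_n U)` of step `n`, measured at the new scale -/
def zN (F : FRD 16 M K) (w : BW G) (mk : Finset (G × G)) (l k0 : ℕ)
    (K0 : Finset (G × G) → Ge (Fld G)) (Γ : ℝ≥0∞) (n : ℕ) : ℝ≥0∞ :=
  NN fd (rr l k0 (n + 1)) Γ fun U => ‖ctG ((sys F w mk l k0 K0).H n U)‖ₑ

/-- the constants of a step with the structure `DStep` -/
theorem const_of_dstep [GoodG G] {κ : Type*} [Fintype κ] {A : κ → Set (G × G)} {m N : κ → ℕ}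
    {q : κ → ℝ≥0∞} {qL qT : ℝ≥0∞} {em : Finset (G × G) → Prop}
    (H : DStep w (a n) (a (n + 1)) (rr l k0 n) (rr l k0 (n + 1)) Γ (3 * Γ) (slC F w l k0 n)
      (acS l k0 n Ac) em A m N q qL qT) (hΓ : 1 ≤ Γ)
    (hac : ∀ U, (sys F w mk l k0 K0).K n U ≠ 0 → acS l k0 n Ac U) :
    zN F w mk l k0 K0 Γ n ≤ (qL + 3 * qT) * N2 l *
      (bN F w mk l k0 K0 a Γ n + cN F w mk l k0 K0 a Γ n) := by
  have h1 := NK_H_le (c := 3) (sys F w mk l k0 K0) n H (rr_pos l k0 n)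
    (rr_mono l k0 (Nat.le_succ n)) hΓ le_rfl hac (fun U hU => hU.1)
  rw [nn2_le] at h1
  have h2 := NK_all_le (w := w) (a := a n) (r := rr l k0 n) (Γ := Γ)
    (emM w (mk : Set (G × G)) (rr l k0 n))
    (fun U => (((sys F w mk l k0 K0).K n U : Ge (Fld G)) : Gr (Fld G)))
  have h3 : zN F w mk l k0 K0 Γ n ≤ NK w (a (n + 1)) (rr l k0 (n + 1)) (3 * Γ) allP
      (fun U => (((sys F w mk l k0 K0).H n U : Ge (Fld G)) : Gr (Fld G))) := by
    rw [NK_eq_NN]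
    have h4 : NN fd (rr l k0 (n + 1)) Γ (fun U => ‖ctG ((sys F w mk l k0 K0).H n U)‖ₑ) ≤
        NN fd (rr l k0 (n + 1)) (3 * Γ)
          (fun U => ‖ctG ((sys F w mk l k0 K0).H n U)‖ₑ) :=
      NFlowx337.NN_weight (le_mul_of_one_le_left' (by norm_num)) _
    refine h4.trans (NN_mono fun U => ?_)
    rw [act_of (p := allP) trivial, ← pG_def]
    refine le_trans le_self_add (ExpNx337.pG_split _ _)
  calc zN F w mk l k0 K0 Γ n ≤ _ := h3
    _ ≤ _ := h1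
    _ ≤ (qL + 3 * qT) * (N2 l *
        (bN F w mk l k0 K0 a Γ n + cN F w mk l k0 K0 a Γ n)) :=
      mul_le_mul' le_rfl (mul_le_mul' le_rfl h2)
    _ = _ := by ring

end sysm

end Crest.Agent.R165.StepGluex897
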