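import Crest.Agent.R165.Extr_417
import Crest.Agent.R165.FRDLat_439

/-!
# Row 165 (S0250), block G: symmetries of the plane slices

* `SopC_symm` : signed injections of half-edges which commute or anticommute with `Aop w` leave the
  slices invariant (up to the sign)
* `symS_SopC : SymS (SopC D (wPl ℤ) a b)`
* `revG` : reversal on even elements (an algebra automorphism)
* covariance of `conv S` and `cvG S` under `mp (tauV t)`, `mp (rhoV z)`, `rev' ∘ mp (sigV z)`
-/

set_option autoImplicit false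
set_option linter.unusedSectionVars false

noncomputable section

open scoped ENNReal
open Polynomial
open Crest.Agent.R165.Gr0x606 Crest.Agent.R165.Gr1x606 Crest.Agent.R165.Latx683
open Crest.Agent.R165.PNormx417 Crest.Agent.R165.GDefx387 Crest.Agent.R165.GeOpsx337
open Crest.Agent.R165.PlaneModesx901 Crest.Agent.R165.Locx901 Crest.Agent.R165.PStepx417
open Crest.Agent.R165.FRDPolyx439 Crest.Agent.R165.FRDLatx439

namespace Crest.Agent.R165.SymSx445

section general

variable {G H : Type}

theorem pair_eq_ev (l : Fld G) (f : HE G → ℝ) : pair l f = ev f l := by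
  rw [ev_apply, pair, Finsupp.sum]

theorem pair_push (p : HE G → HE H) (s : HE G → ℝ) (l : Fld G) (f : HE H → ℝ) :
    pair (push p s l) f = pair l (pull p s f) := by
  rw [pair_eq_ev, pair_eq_ev, ← ev_comp_push, LinearMap.comp_apply]

theorem push_single' (p : HE G → HE H) (s : HE G → ℝ) (h : HE G) (c : ℝ) :
    push p s (Finsupp.single h c) = Finsupp.single (p h) (s h * c) := by
  rw [push, Finsupp.linearCombination_single, Finsupp.smul_single, Finsupp.smul_single,
    smul_eq_mul, smul_eq_mul, mul_one, mul_comm]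

theorem push_apply_inj {p : HE G → HE H} (hp : Function.Injective p) (s : HE G → ℝ) (l : Fld G)
    (h : HE G) : push p s l (p h) = s h * l h := by
  induction l using Finsupp.induction_linear with
  | zero => simp
  | add f g hf hg => rw [map_add, Finsupp.add_apply, hf, hg, Finsupp.add_apply, mul_add]
  | single a b =>
    rw [push_single']
    by_cases hab : a = h
    · subst hab; simp
    · rw [Finsupp.single_eq_of_ne (fun hc => hab (hp hc).symm),
        Finsupp.single_eq_of_ne (fun hc => hab hc.symm), mul_zero]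

theorem pull_push {p : HE G → HE H} (hp : Function.Injective p) {s : HE G → ℝ}
    (hs : ∀ h, s h * s h = 1) (l : Fld G) :
    pull p s ((push p s l : Fld H) : HE H → ℝ) = (l : HE G → ℝ) := by
  funext h
  rw [pull_apply, push_apply_inj hp, ← mul_assoc, hs, one_mul]

variable [CommRing G]

theorem Qop_pull {w : BW G} {p : HE G → HE G} {s : HE G → ℝ} {ε : ℝ} (hε : ε * ε = 1)
    (hA : ∀ f, Aop w (pull p s f) = ε • pull p s (Aop w f)) (f : HE G → ℝ) :
    Qop w (pull p s f) = pull p s (Qop w f) := by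
  unfold Qop
  rw [LinearMap.neg_apply, LinearMap.neg_apply, Module.End.mul_apply, Module.End.mul_apply, hA,
    map_smul, hA, smul_smul, hε, one_smul, map_neg]

theorem aeval_pull {w : BW G} {p : HE G → HE G} {s : HE G → ℝ} {ε : ℝ} (hε : ε * ε = 1)
    (hA : ∀ f, Aop w (pull p s f) = ε • pull p s (Aop w f)) (q : ℝ[X]) (f : HE G → ℝ) :
    aeval (Qop w) q (pull p s f) = pull p s (aeval (Qop w) q f) := by
  have h1 : Commute (Qop w) (pull p s : Module.End ℝ (HE G → ℝ)) := by
    apply LinearMap.ext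
    intro f
    exact Qop_pull hε hA f
  have h2 : Commute (aeval (Qop w) q) (pull p s : Module.End ℝ (HE G → ℝ)) := by
    induction q using Polynomial.induction_on' with
    | add q r hq hr => rw [map_add]; exact Commute.add_left hq hr
    | monomial n c =>
      rw [aeval_monomial]
      exact Commute.mul_left (Algebra.commutes c _) (h1.pow_left n)
  exact congrArg (fun T : Module.End ℝ (HE G → ℝ) => T f) h2.eq

theorem slop_pull {w : BW G} {p : HE G → HE G} {s : HE G → ℝ} {ε : ℝ} (hε : ε * ε = 1)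
    (hA : ∀ f, Aop w (pull p s f) = ε • pull p s (Aop w f)) (q : ℝ[X]) (f : HE G → ℝ) :
    slop w q (pull p s f) = ε • pull p s (slop w q f) := by
  unfold slop
  rw [Module.End.mul_apply, Module.End.mul_apply, aeval_pull hε hA, hA]

variable {Λ : ℝ} {M K : ℕ} (D : FRD Λ M K)

theorem Sop_pull {w : BW G} {p : HE G → HE G} {s : HE G → ℝ} {ε : ℝ} (hε : ε * ε = 1)
    (hA : ∀ f, Aop w (pull p s f) = ε • pull p s (Aop w f)) (a b : ℕ) (f : HE G → ℝ) :
    Sop w D a b (pull p s f) = ε • pull p s (Sop w D a b f) := by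
  unfold Sop
  rw [LinearMap.sum_apply, LinearMap.sum_apply, map_sum, Finset.smul_sum]
  exact Finset.sum_congr rfl fun j _ => slop_pull hε hA _ f

/-- symmetries of the background act on the slices -/
theorem SopC_symm {w : BW G} {p : HE G → HE G} (hp : Function.Injective p) {s : HE G → ℝ}
    (hs : ∀ h, s h * s h = 1) {ε : ℝ} (hε : ε * ε = 1)
    (hA : ∀ f, Aop w (pull p s f) = ε • pull p s (Aop w f)) (a b : ℕ) (x y : Fld G) :
    (SopC D w a b).b (push p s x) (push p s y) = ε * (SopC D w a b).b x y := by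
  rw [SopC_apply, SopC_apply, pair_push]
  have h1 : pull p s (Sop w D a b ((push p s y : Fld G) : HE G → ℝ)) =
      ε • Sop w D a b (y : HE G → ℝ) := by
    have h2 := Sop_pull D hε hA a b ((push p s y : Fld G) : HE G → ℝ)
    rw [pull_push hp hs] at h2
    rw [h2, smul_smul, hε, one_smul]
  rw [h1, pair_eq_ev, pair_eq_ev, ev_smul, LinearMap.smul_apply, smul_eq_mul]

end general

/-! ### the symmetries of the plane -/

theorem tauH_inj (t : Fc) : Function.Injective (tauH t) := by
  rintro ⟨f, d⟩ ⟨g, e⟩ h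
  simp only [tauH, Prod.mk.injEq] at h
  obtain ⟨h1, rfl⟩ := h
  rw [add_left_injective t h1]

theorem rot_inj (y : Fc) : Function.Injective (rot y) := by
  rintro ⟨a, b⟩ ⟨c, d⟩ h
  simp only [rot, Prod.mk.injEq] at h
  ext <;> simp <;> omega

theorem ref_inj (y : Fc) : Function.Injective (ref y) := by
  rintro ⟨a, b⟩ ⟨c, d⟩ h
  simp only [ref, Prod.mk.injEq] at h
  ext <;> simp <;> omega

theorem rhoH_inj (y : Fc) : Function.Injective (rhoH y) := by
  rintro ⟨f, d⟩ ⟨g, e⟩ h
  simp only [rhoH, Prod.mk.injEq] at h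
  obtain ⟨h1, h2⟩ := h
  have h3 : d = e := by
    revert h2
    fin_cases d <;> fin_cases e <;> decide
  rw [rot_inj y h1, h3]

theorem sigH_inj (y : Fc) : Function.Injective (sigH y) := by
  rintro ⟨f, d⟩ ⟨g, e⟩ h
  simp only [sigH, Prod.mk.injEq] at h
  obtain ⟨h1, h2⟩ := h
  have h3 : d = e := by
    revert h2
    fin_cases d <;> fin_cases e <;> decide
  rw [ref_inj y h1, h3]

theorem rhoSgn_sq (h : HE ℤ) : rhoSgn h * rhoSgn h = 1 := by
  obtain ⟨f, d⟩ := h
  fin_cases d <;> simp [rhoSgn]

theorem sigSgn_sq (h : HE ℤ) : sigSgn h * sigSgn h = 1 := by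
  obtain ⟨f, d⟩ := h
  fin_cases d <;> simp [sigSgn]

variable {Λ : ℝ} {M K : ℕ} (D : FRD Λ M K)

/-- **the plane slices are invariant under the symmetries of the square lattice** -/
theorem symS_SopC (a b : ℕ) : SymS (SopC D (wPl ℤ) a b) where
  tau t x y := by
    have h := SopC_symm D (w := wPl ℤ) (tauH_inj t) (s := fun _ => 1) (fun _ => one_mul 1)
      (ε := 1) (one_mul 1) (fun f => by rw [one_smul]; exact Apl_tauS t f) a b x y
    rw [one_mul] at h
    exact h
  rho z x y := by
    have h := SopC_symm D (w := wPl ℤ) (rhoH_inj z) (s := rhoSgn) rhoSgn_sq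
      (ε := 1) (one_mul 1) (fun f => by rw [one_smul]; exact Apl_rhoS z f) a b x y
    rw [one_mul] at h
    exact h
  sig z x y := by
    have h := SopC_symm D (w := wPl ℤ) (sigH_inj z) (s := sigSgn) sigSgn_sq
      (ε := -1) (by norm_num) (fun f => by
        rw [neg_smul, one_smul]; exact Apl_sigS z f) a b x y
    rw [neg_one_mul] at h
    exact h

/-! ### covariance of the Gaussian convolution -/

section cov

variable {V : Type*} [AddCommGroup V] [Module ℝ V]

/-- reversal on even elements -/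
def revG (V : Type*) [AddCommGroup V] [Module ℝ V] : Ge V →ₐ[ℝ] Ge V where
  toFun a := ⟨rev' (a : Gr V), IsEv.rev' a.2⟩
  map_one' := ge_ext (by simp)
  map_mul' a b := ge_ext (by
    show rev' ((a * b : Ge V) : Gr V) = rev' (a : Gr V) * rev' (b : Gr V)
    rw [Ge.coe_mul, rev'_mul_ev a.2 b.2])
  map_zero' := ge_ext (by simp)
  map_add' a b := ge_ext (by simp)
  commutes' r := ge_ext (by simp)

@[simp] theorem coe_revG (a : Ge V) : ((revG V a : Ge V) : Gr V) = rev' (a : Gr V) := rfl

@[simp] theorem revG_revG (a : Ge V) : revG V (revG V a) = a := ge_ext (by simp)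

theorem ctG_revG (a : Ge V) : ctG (revG V a) = ctG a := by
  rw [ctG_apply, ctG_apply, coe_revG, ct_rev']

theorem cvG_revG (S : Cov V) (a : Ge V) : cvG S (revG V a) = revG V (cvG (-S) a) :=
  ge_ext (conv_rev' S _)

theorem mpG_revG {V' : Type*} [AddCommGroup V'] [Module ℝ V'] (f : V →ₗ[ℝ] V') (a : Ge V) :
    mpG f (revG V a) = revG V' (mpG f a) :=
  ge_ext (mp_rev' f _)

variable {S : Cov (Fld ℤ)}

theorem conv_tau (hS : SymS S) (t : Fc) (F : Gr (Fld ℤ)) :
    conv S (mp (tauV t) F) = mp (tauV t) (conv S F) :=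
  (mp_conv (tauV t) S S (fun x y => (hS.tau t x y).symm) F).symm

theorem conv_rho (hS : SymS S) (z : Fc) (F : Gr (Fld ℤ)) :
    conv S (mp (rhoV z) F) = mp (rhoV z) (conv S F) :=
  (mp_conv (rhoV z) S S (fun x y => (hS.rho z x y).symm) F).symm

theorem conv_sig (hS : SymS S) (z : Fc) (F : Gr (Fld ℤ)) :
    conv S (rev' (mp (sigV z) F)) = rev' (mp (sigV z) (conv S F)) := by
  rw [conv_rev', ← mp_conv (sigV z) S (-S)]
  intro x y
  rw [Cov.neg_b, LinearMap.neg_apply, LinearMap.neg_apply, hS.sig, neg_neg]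

theorem cvG_tau (hS : SymS S) (t : Fc) (F : Ge (Fld ℤ)) :
    cvG S (mpG (tauV t) F) = mpG (tauV t) (cvG S F) := ge_ext (conv_tau hS t _)

theorem cvG_rho (hS : SymS S) (z : Fc) (F : Ge (Fld ℤ)) :
    cvG S (mpG (rhoV z) F) = mpG (rhoV z) (cvG S F) := ge_ext (conv_rho hS z _)

theorem cvG_sig (hS : SymS S) (z : Fc) (F : Ge (Fld ℤ)) :
    cvG S (revG _ (mpG (sigV z) F)) = revG _ (mpG (sigV z) (cvG S F)) := ge_ext (conv_sig hS z _)

/-- invariance of the Gaussian expectation -/
theorem EE_tau (hS : SymS S) (t : Fc) (F : Gr (Fld ℤ)) : EE S (mp (tauV t) F) = EE S F :=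
  EE_mp (tauV t) S S (fun x y => (hS.tau t x y).symm) F

theorem EE_rho (hS : SymS S) (z : Fc) (F : Gr (Fld ℤ)) : EE S (mp (rhoV z) F) = EE S F :=
  EE_mp (rhoV z) S S (fun x y => (hS.rho z x y).symm) F

theorem EE_sig (hS : SymS S) (z : Fc) (F : Gr (Fld ℤ)) :
    EE S (rev' (mp (sigV z) F)) = EE S F := by
  rw [EE_apply, conv_sig hS, ct_rev', ct_mp, EE_apply]

end cov

end Crest.Agent.R165.SymSx445
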