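import Crest.Agent.R165.SysDeep_898
import Crest.Agent.R165.NDeep_337

/-!
# Row 165 (S0250), block G: the plane-like polymers of the torus (helper898)

* `InitG`, `sys_deep_gen` : the comparison of the system of any background with the plane, charts
  given by one injective map `κ f` for the polymers near `f`
* `κT`, `lf_sub`, `chart_tor` : the torus, polymers contained in a ball of radius `ρ`,
  `4 (ρ + s2 r + 1) ≤ M`
* `sys_deep_tor` : `NK (wTor M ε₁ ε₂) a r Γ (emT ..) K_n ≤ NK (wPl ℤ) a r Γ ⊤ K_n`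
-/

set_option autoImplicit false
set_option linter.unusedSectionVars false

noncomputable section

open scoped ENNReal
open Crest.Agent.R165.Gr0x606 Crest.Agent.R165.Gr1x606 Crest.Agent.R165.Latx683
open Crest.Agent.R165.GDefx387 Crest.Agent.R165.GeOpsx337 Crest.Agent.R165.KFlowx337
open Crest.Agent.R165.BgIsox432 Crest.Agent.R165.PNormx417 Crest.Agent.R165.GrLocx337
open Crest.Agent.R165.NSumx915 Crest.Agent.R165.Bridgex915
open Crest.Agent.R165.GSysx387 Crest.Agent.R165.FRDPolyx439 Crest.Agent.R165.DefRecx915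
open Crest.Agent.R165.TorChartx723

namespace Crest.Agent.R165.SysDeepx898

/-! ### any background -/

section sys

variable {G : Type} [CommRing G] [CN G] [CNZ G] [DecidableEq G]
variable {M Kd : ℕ} (D : FRD 16 M Kd)

/-- initial activities which are those of the plane, through every chart of an unmarked region -/
def InitG (w : BW G) (mk : Finset (G × G)) (l k0 : ℕ) (K0 : Finset (G × G) → Ge (Fld G))
    (K0' : Finset (ℤ × ℤ) → Ge (Fld ℤ)) : Prop :=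
  ∀ (U : Finset (G × G)) (Z : Set (G × G)) (b : BgIso w (wPl ℤ) Z), U.Nonempty →
    nbhd (s2 * rr l k0 0) U ⊆ Z → (∀ f ∈ Z, f ∉ mk) → mpG b.push (K0 U) = K0' (U.image b.τ)

theorem sysG_K_eq {w : BW G} {mk : Finset (G × G)} {l k0 : ℕ} (hl : 5 ≤ l * (k0 + 1))
    (hKd : 16 ≤ Kd) {K0 : Finset (G × G) → Ge (Fld G)} {K0' : Finset (ℤ × ℤ) → Ge (Fld ℤ)}
    (hloc : ∀ U, K0 U ∈ grG (fldU U)) (h0 : InitG w mk l k0 K0 K0') (n : ℕ)
    {U : Finset (G × G)} (hne : U.Nonempty) {Z : Set (G × G)} (b : BgIso w (wPl ℤ) Z)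
    (hU : nbhd (s2 * rr l k0 n) U ⊆ Z) (hmk : ∀ f ∈ Z, f ∉ mk) :
    mpG b.push ((sys D w mk l k0 K0).K n U) =
      (sys D (wPl ℤ) ∅ l k0 K0').K n (U.image b.τ) := by
  classical
  have hl' : 1 ≤ l := Nat.one_le_iff_ne_zero.2 fun h => by
    rw [h] at hl; omega
  have hmk' : ∀ f ∈ Z, (f ∈ mk ↔ b.τ f ∈ (∅ : Finset (ℤ × ℤ))) := fun f hf =>
    iff_of_false (hmk f hf) (Finset.notMem_empty _)
  have h := CmpBgx432.K_eq D b hmk' two_ne_zero hl' (by omega) (K0 := K0) (K0' := K0')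
    (fun U hU hZ => h0 U Z b hU hZ hmk) (GSysOKx439.sys_OK D hKd w mk hl hloc) n hne hU
  exact h

/-- **the deep part of the norm of `K_n`**, any background -/
theorem sys_deep_gen {w : BW G} {mk : Finset (G × G)} {l k0 : ℕ} (hl : 5 ≤ l * (k0 + 1))
    (hKd : 16 ≤ Kd) {K0 : Finset (G × G) → Ge (Fld G)} {K0' : Finset (ℤ × ℤ) → Ge (Fld ℤ)}
    (hloc : ∀ U, K0 U ∈ grG (fldU U)) (h0 : InitG w mk l k0 K0 K0') (n : ℕ) (a : ℝ) (Γ : ℝ≥0∞)
    {em : Finset (G × G) → Prop} (κ : G × G → G × G → ℤ × ℤ)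
    (hκ : ∀ f, Function.Injective (κ f))
    (hch : ∀ f U, em U → Near (rr l k0 n) f U → ∃ b : BgIso w (wPl ℤ) (nbhd (s2 * rr l k0 n) U),
      (∀ g ∈ U, b.τ g = κ f g) ∧ b.τ f = κ f f)
    (hmk : ∀ U, em U → ∀ f ∈ nbhd (s2 * rr l k0 n) U, f ∉ mk) :
    NK w a (rr l k0 n) Γ em (fun U => ((sys D w mk l k0 K0).K n U : Gr (Fld G))) ≤
      NK (wPl ℤ) a (rr l k0 n) Γ (fun _ => True)
        (fun U => ((sys D (wPl ℤ) ∅ l k0 K0').K n U : Gr (Fld ℤ))) := by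
  refine NK_deep_gen (rr_pos l k0 n) κ hκ
    (fun U => Sys.K_mem (GSysOKx439.sys_OK D hKd w mk hl hloc) n U) ?_
  intro f U hU _ hn
  refine ⟨trivial, ?_⟩
  obtain ⟨b, hb, hbf⟩ := hch f U hU hn
  have hne : U.Nonempty := let ⟨u, hu, _⟩ := hn; ⟨u, hu⟩
  refine ⟨b, hb, hbf, ?_⟩
  have h1 := congrArg (fun F : Ge (Fld ℤ) => (F : Gr (Fld ℤ)))
    (sysG_K_eq D hl hKd hloc h0 n hne b le_rfl (hmk U hU))
  have himg : U.image (κ f) = U.image b.τ := Finset.image_congr fun g hg => (hb g hg).symm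
  rw [himg]
  exact h1

end sys

/-! ### the torus -/

section tor

variable {M : ℕ} [NeZero M]

/-- the differences of the charts `lf` are the representatives of minimal absolute value -/
theorem lf_sub {c₀ c c' : ZMod M} {R : ℕ} (hR : 4 * R < M) (h : cn (c₀ - c) ≤ R)
    (h' : cn (c₀ - c') ≤ R) : lf c₀ c' - lf c₀ c = (c' - c).valMinAbs := by
  symm
  refine (ZMod.valMinAbs_spec (c' - c) (lf c₀ c' - lf c₀ c)).2 ⟨?_, ?_⟩
  · rw [Int.cast_sub, lf_cast, lf_cast]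
  · have h1 : (c - c₀).valMinAbs.natAbs ≤ R := by
      rw [← CN.cn_neg, neg_sub] at h; exact h
    have h2 : (c' - c₀).valMinAbs.natAbs ≤ R := by
      rw [← CN.cn_neg, neg_sub] at h'; exact h'
    unfold lf
    constructor <;> omega

/-- the canonical chart of the torus at `f` -/
def κT (f g : ZMod M × ZMod M) : ℤ × ℤ := ((g.1 - f.1).valMinAbs, (g.2 - f.2).valMinAbs)

theorem κT_injective (f : ZMod M × ZMod M) : Function.Injective (κT f) := by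
  intro g g' h
  have h1 : (g.1 - f.1).valMinAbs = (g'.1 - f.1).valMinAbs := congrArg Prod.fst h
  have h2 : (g.2 - f.2).valMinAbs = (g'.2 - f.2).valMinAbs := congrArg Prod.snd h
  have e1 := congrArg (fun z : ℤ => (z : ZMod M)) h1
  have e2 := congrArg (fun z : ℤ => (z : ZMod M)) h2
  simp only [ZMod.coe_valMinAbs, sub_left_inj] at e1 e2
  exact Prod.ext e1 e2

/-- the chart of a polymer contained in a ball, normalised at a near face -/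
theorem chart_tor {ε₁ ε₂ : ℝ} (h₁ : ε₁ * ε₁ = 1) (h₂ : ε₂ * ε₂ = 1)
    {U : Finset (ZMod M × ZMod M)} {x₀ : ZMod M × ZMod M} {ρ R r : ℕ}
    (h : ∀ u ∈ U, fd x₀ u ≤ ρ) (hM : 4 * (ρ + R + 1) ≤ M) (hr : r ≤ R) {f : ZMod M × ZMod M}
    (hf : Near r f U) : ∃ b : BgIso (wTor M ε₁ ε₂) (wPl ℤ) (nbhd R U),
      (∀ g ∈ U, b.τ g = κT f g) ∧ b.τ f = κT f f := by
  have hb0 : nbhd R U ⊆ ball x₀ (ρ + R) := nbhd_sub_ball h
  have hfb : fd x₀ f ≤ ρ + R := by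
    obtain ⟨u, hu, hfu⟩ := hf
    have h1 := fd_triangle x₀ u f
    have h2 := h u hu
    rw [fd_comm u f] at h1
    omega
  refine ⟨NDeepx337.shift (ofPlane (planeSub (chart h₁ h₂ x₀ hM) hb0))
    (-((lf x₀.1 f.1, lf x₀.2 f.2) : ℤ × ℤ)), fun g hg => ?_, ?_⟩
  · have hgb : fd x₀ g ≤ ρ + R := (h g hg).trans (by omega)
    obtain ⟨f1, f2⟩ := fd_le hfb
    obtain ⟨g1, g2⟩ := fd_le hgb
    show ((lf x₀.1 g.1, lf x₀.2 g.2) : ℤ × ℤ) + -((lf x₀.1 f.1, lf x₀.2 f.2) : ℤ × ℤ) = _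
    refine Prod.ext ?_ ?_
    · show lf x₀.1 g.1 + -lf x₀.1 f.1 = (g.1 - f.1).valMinAbs
      rw [← sub_eq_add_neg, lf_sub (R := ρ + R) (by omega) f1 g1]
    · show lf x₀.2 g.2 + -lf x₀.2 f.2 = (g.2 - f.2).valMinAbs
      rw [← sub_eq_add_neg, lf_sub (R := ρ + R) (by omega) f2 g2]
  · show ((lf x₀.1 f.1, lf x₀.2 f.2) : ℤ × ℤ) + -((lf x₀.1 f.1, lf x₀.2 f.2) : ℤ × ℤ) = κT f f
    rw [add_neg_cancel]
    unfold κT
    rw [sub_self, sub_self, ZMod.valMinAbs_zero]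
    rfl

/-- plane-like polymers of the torus: contained in a ball and away from the marks -/
def emT (mk : Set (ZMod M × ZMod M)) (ρ r : ℕ) (U : Finset (ZMod M × ZMod M)) : Prop :=
  (∃ x, ∀ u ∈ U, fd x u ≤ ρ) ∧ ∀ u ∈ U, ∀ x ∈ mk, s2 * r < fd u x

variable {Md Kd : ℕ} (D : FRD 16 Md Kd)

/-- **the deep part of the norm of the torus** -/
theorem sys_deep_tor {ε₁ ε₂ : ℝ} (h₁ : ε₁ * ε₁ = 1) (h₂ : ε₂ * ε₂ = 1)
    {mk : Finset (ZMod M × ZMod M)} {l k0 : ℕ} (hl : 5 ≤ l * (k0 + 1)) (hKd : 16 ≤ Kd)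
    {K0 : Finset (ZMod M × ZMod M) → Ge (Fld (ZMod M))} {K0' : Finset (ℤ × ℤ) → Ge (Fld ℤ)}
    (hloc : ∀ U, K0 U ∈ grG (fldU U)) (h0 : InitG (wTor M ε₁ ε₂) mk l k0 K0 K0') (n : ℕ)
    {ρ : ℕ} (hρ : 4 * (ρ + s2 * rr l k0 n + 1) ≤ M) (a : ℝ) (Γ : ℝ≥0∞) :
    NK (wTor M ε₁ ε₂) a (rr l k0 n) Γ (emT (mk : Set (ZMod M × ZMod M)) ρ (rr l k0 n))
        (fun U => ((sys D (wTor M ε₁ ε₂) mk l k0 K0).K n U : Gr (Fld (ZMod M)))) ≤
      NK (wPl ℤ) a (rr l k0 n) Γ (fun _ => True)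
        (fun U => ((sys D (wPl ℤ) ∅ l k0 K0').K n U : Gr (Fld ℤ))) := by
  refine sys_deep_gen D hl hKd hloc h0 n a Γ κT κT_injective ?_ ?_
  · rintro f U ⟨⟨x, hx⟩, -⟩ hn
    exact chart_tor h₁ h₂ hx hρ (Nat.le_mul_of_pos_left _ (by decide)) hn
  · rintro U ⟨-, hU⟩ f ⟨u, hu, huf⟩ hf
    have := hU u hu f hf
    omega

/-- the same for every predicate which provides a ball and keeps away from the marks -/
theorem sys_deep_tor_of {ε₁ ε₂ : ℝ} (h₁ : ε₁ * ε₁ = 1) (h₂ : ε₂ * ε₂ = 1)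
    {mk : Finset (ZMod M × ZMod M)} {l k0 : ℕ} (hl : 5 ≤ l * (k0 + 1)) (hKd : 16 ≤ Kd)
    {K0 : Finset (ZMod M × ZMod M) → Ge (Fld (ZMod M))} {K0' : Finset (ℤ × ℤ) → Ge (Fld ℤ)}
    (hloc : ∀ U, K0 U ∈ grG (fldU U)) (h0 : InitG (wTor M ε₁ ε₂) mk l k0 K0 K0') (n : ℕ)
    {em : Finset (ZMod M × ZMod M) → Prop}
    (hem : ∀ U, em U → ∃ x ρ, (∀ u ∈ U, fd x u ≤ ρ) ∧ 4 * (ρ + s2 * rr l k0 n + 1) ≤ M)
    (hmk : ∀ U, em U → ∀ u ∈ U, ∀ x ∈ mk, s2 * rr l k0 n < fd u x) (a : ℝ) (Γ : ℝ≥0∞) :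
    NK (wTor M ε₁ ε₂) a (rr l k0 n) Γ em
        (fun U => ((sys D (wTor M ε₁ ε₂) mk l k0 K0).K n U : Gr (Fld (ZMod M)))) ≤
      NK (wPl ℤ) a (rr l k0 n) Γ (fun _ => True)
        (fun U => ((sys D (wPl ℤ) ∅ l k0 K0').K n U : Gr (Fld ℤ))) := by
  refine sys_deep_gen D hl hKd hloc h0 n a Γ κT κT_injective ?_ ?_
  · intro f U hU hn
    obtain ⟨x, ρ, hx, hρ⟩ := hem U hU
    exact chart_tor h₁ h₂ hx hρ (Nat.le_mul_of_pos_left _ (by decide)) hn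
  · rintro U hU f ⟨u, hu, huf⟩ hf
    have := hmk U hU u hu f hf
    omega

/-- small polymers near an unmarked face are in `emT` (hypothesis `Deep` of 915) -/
theorem deep_emT [GoodG (ZMod M)] (mk : Set (ZMod M × ZMod M)) {ρ ρ' r r' : ℕ} (hρ : r ≤ ρ)
    (hr : (s2 + 1) * r ≤ s2 * r') :
    Deep (G := ZMod M) r (emT mk ρ r) (emT mk ρ' r') := by
  intro U f hf hs he
  rw [Bridgex915.size_eq_pack] at hs
  have hd := (Packx915.pack_le_one_iff pd_fd).1 hs f hf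
  refine ⟨⟨f, fun u hu => (hd u hu).trans hρ⟩, fun u hu x hx => ?_⟩
  have h1 := he.2 f (Finset.mem_singleton_self f) x hx
  have h2 := fd_triangle f u x
  have h3 := hd u hu
  have h4 : (s2 + 1) * r = s2 * r + r := by ring
  omega

end tor

end Crest.Agent.R165.SysDeepx898
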