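import Crest.Agent.R165.NFlow_337
import Crest.Agent.R165.CmpBg_432
import Crest.Agent.R165.GSysOK_439
import Crest.Agent.R165.DefRec_915
import Crest.Agent.R165.TorChart_723

/-!
# Row 165 (S0250), block G: the plane-like polymers of a composite background (helper898)

The activities `K_n` are connected at range `rr (n+1) / 8`, which is larger than the radius
`s2 * rr n` of the plane-like region when `L` is large; so arbitrary charts of `nbhd (s2 * r) U` may
move the far components of `U` against each other and `U ↦ τ_U(U)` need not be injective.  We use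
charts which are restrictions of ONE injective map `κ f` for all `U` near a given face `f`.

* `NK_deep_gen` : the abstract comparison (no connectedness)
* `idPl` : for `G = ℤ` every plane-like region has the chart `τ = id`
* `NK_deep_Z` : `NK w a r Γ em K ≤ NK (wPl ℤ) a r Γ em K'` when `em U → Emb w r U`
* `sys_deep` : **the system of GSys_387 on `ℤ²`** (domains, discs, branch points, marks)
* `chart_tor`, `NK_deep_tor`, `sys_deep_tor` : the torus, polymers contained in a ball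
-/

set_option autoImplicit false
set_option linter.unusedSectionVars false

noncomputable section

open scoped ENNReal
open Crest.Agent.R165.Gr0x606 Crest.Agent.R165.Gr1x606 Crest.Agent.R165.Latx683
open Crest.Agent.R165.GDefx387 Crest.Agent.R165.GeOpsx337 Crest.Agent.R165.KFlowx337
open Crest.Agent.R165.BgIsox432 Crest.Agent.R165.PNormx417 Crest.Agent.R165.GrLocx337
open Crest.Agent.R165.NSumx915 Crest.Agent.R165.Bridgex915
open Crest.Agent.R165.GSysx387 Crest.Agent.R165.FRDPolyx439 Crest.Agent.R165.DefRecx915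

namespace Crest.Agent.R165.SysDeepx898

/-! ### the abstract comparison -/

section gen

variable {G : Type} [CommRing G] [CN G] [CNZ G] {G' : Type} [CommRing G'] [CN G'] [CNZ G']
  [DecidableEq G']

/-- **the deep part of the norm is at most the norm of the model background** -/
theorem NK_deep_gen {w : BW G} {w' : BW G'} {r : ℕ} {a : ℝ} {Γ : ℝ≥0∞} (hr : 0 < r)
    {K : Finset (G × G) → Gr (Fld G)} {K' : Finset (G' × G') → Gr (Fld G')}
    {em : Finset (G × G) → Prop} {em' : Finset (G' × G') → Prop}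
    (κ : G × G → G × G → G' × G') (hκ : ∀ f, Function.Injective (κ f))
    (hK : ∀ U, K U ∈ gr (fldS (nbhd 1 U)))
    (h : ∀ f U, em U → K U ≠ 0 → Near r f U → em' (U.image (κ f)) ∧
      ∃ b : BgIso w w' (nbhd (s2 * r) U), (∀ g ∈ U, b.τ g = κ f g) ∧ b.τ f = κ f f ∧
        mp b.push (K U) = K' (U.image (κ f))) :
    NK w a r Γ em K ≤ NK w' a r Γ em' K' := by
  classical
  rw [NK_eq_NN, NK_eq_NN]
  have hrs : r ≤ s2 * r := Nat.le_mul_of_pos_left _ (by decide)
  have h1 : NN fd r Γ (act w a r em K) ≤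
      NN fd r Γ (Set.indicator {U | em U ∧ K U ≠ 0} fun U => pnorm (wU w a r U) (K U)) := by
    refine NN_mono fun U => ?_
    by_cases hU : em U
    · by_cases h0 : K U = 0
      · rw [act_of hU, h0]; simp
      · rw [act_of hU, Set.indicator_of_mem (by exact ⟨hU, h0⟩)]
    · rw [act_not hU]; exact bot_le
  refine h1.trans (NFlowx337.deep_le fun f => ?_)
  refine ⟨κ f f, fun U => U.image (κ f), fun U _ U' _ he =>
    Finset.image_injective (hκ f) he, ?_⟩
  rintro U hn ⟨hem, hne⟩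
  obtain ⟨hem', b, hb, hbf, heq⟩ := h f U hem hne hn
  have hsub : ∀ u ∈ U, u ∈ nbhd (s2 * r) U := fun u hu => subset_nbhd U _ hu
  have hf : f ∈ nbhd (s2 * r) U := by
    obtain ⟨u, hu, hfu⟩ := hn
    exact ⟨u, hu, by rw [fd_comm]; exact hfu.trans hrs⟩
  have himg : U.image (κ f) = U.image b.τ := Finset.image_congr fun g hg => (hb g hg).symm
  refine ⟨?_, ?_, ?_⟩
  · obtain ⟨u, hu, hd⟩ := hn
    refine ⟨κ f u, Finset.mem_image_of_mem _ hu, ?_⟩
    rw [← hb u hu, ← hbf, b.iso f hf u (hsub u hu)]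
    exact hd
  · rw [← size_eq_pack, ← size_eq_pack]
    show size r (U.image (κ f)) = _
    rw [himg]
    have := BgIsox432.size_image b r hsub
    convert this
  · rw [act_of hem']
    refine le_of_eq ?_
    have hs : nbhd (s1 * r + MM) U ⊆ nbhd (s2 * r) U := by
      refine nbhd_mono ?_
      unfold s1 s2 MM
      omega
    have h2 := pnorm_push b a r (U := U) hs (K := K U)
      (gr_mono (fldS_mono (nbhd_mono (by unfold s2; omega))) (hK U))
    rw [← heq, ← h2]
    have h3 : (U.image (κ f)) = @Finset.image _ _ (Classical.decEq (G' × G')) b.τ U := by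
      rw [himg]; congr!
    show _ = pnorm (wU w' a r (U.image (κ f))) _
    rw [h3]
    congr!

end gen

/-! ### backgrounds of `ℤ²` -/

/-- the gauge of a plane-like region does not see the chart: one may take `τ = id` -/
def idPl {w : BW ℤ} {Z : Set (ℤ × ℤ)} (p : PlaneLike w Z) : BgIso w (wPl ℤ) Z where
  τ := id
  s := p.s
  sq := p.sq
  iso _ _ _ _ := rfl
  e1 _ _ _ := rfl
  e2 _ _ _ := rfl
  wE f hf hf' := p.wE f hf hf'
  wN f hf hf' := p.wN f hf hf'

@[simp] theorem idPl_τ {w : BW ℤ} {Z : Set (ℤ × ℤ)} (p : PlaneLike w Z) : (idPl p).τ = id := rfl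

/-- **the deep part of the norm of a background of `ℤ²`** -/
theorem NK_deep_Z {w : BW ℤ} {r : ℕ} {a : ℝ} {Γ : ℝ≥0∞} (hr : 0 < r)
    {K : Finset (ℤ × ℤ) → Gr (Fld ℤ)} {K' : Finset (ℤ × ℤ) → Gr (Fld ℤ)}
    {em : Finset (ℤ × ℤ) → Prop} (hem : ∀ U, em U → Emb w r U)
    (hK : ∀ U, K U ∈ gr (fldS (nbhd 1 U)))
    (heq : ∀ U, em U → U.Nonempty → ∀ p : PlaneLike w (nbhd (s2 * r) U),
      mp (idPl p).push (K U) = K' U) :
    NK w a r Γ em K ≤ NK (wPl ℤ) a r Γ em K' := by
  classical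
  refine NK_deep_gen hr (fun _ g => g) (fun _ => Function.injective_id) hK ?_
  intro f U hU _ hn
  have hne : U.Nonempty := let ⟨u, hu, _⟩ := hn; ⟨u, hu⟩
  have hid : U.image (fun g : ℤ × ℤ => g) = U := Finset.image_id'
  obtain ⟨p⟩ := hem U hU
  rw [hid]
  exact ⟨hU, idPl p, fun _ _ => rfl, rfl, heq U hU hne p⟩

section sys

variable {M Kd : ℕ} (D : FRD 16 M Kd)

/-- initial activities which are those of the plane in the plane-like unmarked regions -/
def Init (w : BW ℤ) (mk : Finset (ℤ × ℤ)) (l k0 : ℕ) (K0 K0' : Finset (ℤ × ℤ) → Ge (Fld ℤ)) :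
    Prop :=
  ∀ (U : Finset (ℤ × ℤ)) (Z : Set (ℤ × ℤ)) (p : PlaneLike w Z), U.Nonempty →
    nbhd (s2 * rr l k0 0) U ⊆ Z → (∀ f ∈ Z, f ∉ mk) → mpG (idPl p).push (K0 U) = K0' U

theorem sys_K_eq {w : BW ℤ} {mk : Finset (ℤ × ℤ)} {l k0 : ℕ} (hl : 5 ≤ l * (k0 + 1))
    (hKd : 16 ≤ Kd) {K0 K0' : Finset (ℤ × ℤ) → Ge (Fld ℤ)} (hloc : ∀ U, K0 U ∈ grG (fldU U))
    (h0 : Init w mk l k0 K0 K0') (n : ℕ) {U : Finset (ℤ × ℤ)} (hne : U.Nonempty)
    {Z : Set (ℤ × ℤ)} (p : PlaneLike w Z) (hU : nbhd (s2 * rr l k0 n) U ⊆ Z)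
    (hmk : ∀ f ∈ Z, f ∉ mk) :
    mpG (idPl p).push ((sys D w mk l k0 K0).K n U) = (sys D (wPl ℤ) ∅ l k0 K0').K n U := by
  classical
  have hl' : 1 ≤ l := Nat.one_le_iff_ne_zero.2 fun h => by
    rw [h] at hl; omega
  have hmk' : ∀ f ∈ Z, (f ∈ mk ↔ (idPl p).τ f ∈ (∅ : Finset (ℤ × ℤ))) := fun f hf =>
    iff_of_false (hmk f hf) (Finset.notMem_empty _)
  have h := CmpBgx432.K_eq D (idPl p) hmk' two_ne_zero hl' (by omega) (K0 := K0) (K0' := K0')
    (fun U hU hZ => by
      rw [idPl_τ, Finset.image_id]; exact h0 U Z p hU hZ hmk)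
    (GSysOKx439.sys_OK D hKd w mk hl hloc) n hne hU
  rw [idPl_τ, Finset.image_id] at h
  exact h

/-- **(I2)** the deep part of the norm of `K_n` is at most the norm of the plane -/
theorem sys_deep {w : BW ℤ} {mk : Finset (ℤ × ℤ)} {l k0 : ℕ} (hl : 5 ≤ l * (k0 + 1))
    (hKd : 16 ≤ Kd) {K0 K0' : Finset (ℤ × ℤ) → Ge (Fld ℤ)} (hloc : ∀ U, K0 U ∈ grG (fldU U))
    (h0 : Init w mk l k0 K0 K0') (n : ℕ) (a : ℝ) (Γ : ℝ≥0∞) :
    NK w a (rr l k0 n) Γ (emM w (mk : Set (ℤ × ℤ)) (rr l k0 n))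
        (fun U => ((sys D w mk l k0 K0).K n U : Gr (Fld ℤ))) ≤
      NK (wPl ℤ) a (rr l k0 n) Γ (emM w (mk : Set (ℤ × ℤ)) (rr l k0 n))
        (fun U => ((sys D (wPl ℤ) ∅ l k0 K0').K n U : Gr (Fld ℤ))) := by
  refine NK_deep_Z (rr_pos l k0 n) (fun U hU => hU.1)
    (fun U => Sys.K_mem (GSysOKx439.sys_OK D hKd w mk hl hloc) n U) ?_
  intro U hU hne p
  refine congrArg (fun F : Ge (Fld ℤ) => (F : Gr (Fld ℤ)))
    (sys_K_eq D hl hKd hloc h0 n hne p le_rfl ?_)
  rintro f ⟨u, hu, huf⟩ hf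
  have := hU.2 u hu f hf
  omega

end sys

end Crest.Agent.R165.SysDeepx898
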