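import Crest.Agent.R165.Lat_683

/-!
# Row 165 (S0250), leaf R7T (helper917, note 1026), part A

The plain critical background on a finite lattice `G × G` (`G` a finite commutative ring, e.g.
`ZMod K`): `‖∇ φ‖ ≤ C ‖A φ‖`.

* `n2` : the `ℓ²` norm of a function on a finite type, with the usual rules
* `A_skew` : `⟨A φ, ψ⟩ = - ⟨φ, A ψ⟩` for every background
* `Bop` : the adjugate operator written with differences, `A_B : A (B φ) = 2 x² (-Δ φ)`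
* `gr φ` : Dirichlet energy, `gr_le : √(gr φ) ≤ C ‖A φ‖`
-/

set_option autoImplicit false

noncomputable section

open Finset
open Crest.Agent.R165.Latx683

namespace Crest.Agent.R165.TGapAx917

/-! ### the `ℓ²` norm -/

section n2
variable {ι : Type} [Fintype ι]

/-- `ℓ²` norm -/
def n2 (u : ι → ℝ) : ℝ := Real.sqrt (∑ i, u i ^ 2)

theorem n2_nonneg (u : ι → ℝ) : 0 ≤ n2 u := Real.sqrt_nonneg _

theorem n2_sq (u : ι → ℝ) : n2 u ^ 2 = ∑ i, u i ^ 2 :=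
  Real.sq_sqrt (sum_nonneg fun _ _ => sq_nonneg _)

theorem n2_eq_norm (u : ι → ℝ) : n2 u = ‖(WithLp.toLp 2 u : EuclideanSpace ℝ ι)‖ := by
  rw [EuclideanSpace.norm_eq]
  simp [n2]

theorem n2_add (u v : ι → ℝ) : n2 (fun i => u i + v i) ≤ n2 u + n2 v := by
  rw [n2_eq_norm, n2_eq_norm, n2_eq_norm]
  exact norm_add_le (WithLp.toLp 2 u : EuclideanSpace ℝ ι) (WithLp.toLp 2 v)

theorem n2_sub (u v : ι → ℝ) : n2 (fun i => u i - v i) ≤ n2 u + n2 v := by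
  rw [n2_eq_norm, n2_eq_norm, n2_eq_norm]
  exact norm_sub_le (WithLp.toLp 2 u : EuclideanSpace ℝ ι) (WithLp.toLp 2 v)

theorem n2_smul (c : ℝ) (u : ι → ℝ) : n2 (fun i => c * u i) = |c| * n2 u := by
  rw [n2, n2, ← Real.sqrt_sq_eq_abs, ← Real.sqrt_mul (sq_nonneg c), mul_sum]
  congr 1
  exact sum_congr rfl fun i _ => by ring

theorem n2_neg (u : ι → ℝ) : n2 (fun i => -u i) = n2 u := by
  simp [n2]

theorem n2_zero : n2 (fun _ : ι => (0 : ℝ)) = 0 := by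
  simp [n2]

theorem n2_mono {u v : ι → ℝ} (h : ∀ i, |u i| ≤ |v i|) : n2 u ≤ n2 v := by
  refine Real.sqrt_le_sqrt (sum_le_sum fun i _ => ?_)
  exact sq_le_sq.2 (h i)

theorem n2_comp (e : ι ≃ ι) (u : ι → ℝ) : n2 (fun i => u (e i)) = n2 u := by
  rw [n2, n2, Equiv.sum_comp e fun i => u i ^ 2]

theorem cs (u v : ι → ℝ) : ∑ i, u i * v i ≤ n2 u * n2 v := by
  have h := sum_mul_sq_le_sq_mul_sq univ u v
  rw [← n2_sq, ← n2_sq, ← mul_pow] at h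
  exact le_trans (le_abs_self _) (abs_le_of_sq_le_sq h (mul_nonneg (n2_nonneg u) (n2_nonneg v)))

end n2

/-! ### the plain operator and its adjugate -/

theorem xc_sq : xc ^ 2 = 1 - 2 * xc := by
  have h : Real.sqrt 2 * Real.sqrt 2 = 2 := Real.mul_self_sqrt (by norm_num)
  unfold xc; nlinarith

theorem xc_pos : 0 < xc := by
  have h : (1 : ℝ) < Real.sqrt 2 := by
    rw [show (1 : ℝ) = Real.sqrt 1 by simp]
    exact Real.sqrt_lt_sqrt (by norm_num) (by norm_num)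
  unfold xc; linarith

theorem xc_lt_half : xc < 1 / 2 := by
  have h : Real.sqrt 2 < 3 / 2 := by
    rw [Real.sqrt_lt' (by norm_num)]; norm_num
  unfold xc; linarith

section lattice
variable {G : Type} [CommRing G]

/-- the adjugate, south row -/
def BS (φ : HE G → ℝ) (f : G × G) : ℝ :=
    (-xc) * (φ ((f.1 - 1, f.2), 0) - φ (f, 0)) + xc * (φ ((f.1 + 1, f.2), 0) - φ (f, 0)) +
      (1 + (-2) * xc) * (φ ((f.1 - 1, f.2 - 1), 1) - φ (f, 1)) +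
      xc * (φ ((f.1 - 1, f.2), 1) - φ (f, 1)) + xc * (φ ((f.1, f.2 - 1), 1) - φ (f, 1)) +
      (-1 + 2 * xc) * (φ ((f.1 - 1, f.2 - 1), 2) - φ (f, 2)) +
      (2 + (-6) * xc) * (φ ((f.1, f.2 - 1), 2) - φ (f, 2)) +
      (-1 + 2 * xc) * (φ ((f.1 + 1, f.2 - 1), 2) - φ (f, 2)) +
      xc * (φ ((f.1, f.2 - 1), 3) - φ (f, 3)) +
      (1 + (-2) * xc) * (φ ((f.1 + 1, f.2 - 1), 3) - φ (f, 3)) +
      xc * (φ ((f.1 + 1, f.2), 3) - φ (f, 3))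

/-- the adjugate, east row -/
def BE (φ : HE G → ℝ) (f : G × G) : ℝ :=
    (-xc) * (φ ((f.1, f.2 + 1), 0) - φ (f, 0)) + (-xc) * (φ ((f.1 + 1, f.2), 0) - φ (f, 0)) +
      (-1 + 2 * xc) * (φ ((f.1 + 1, f.2 + 1), 0) - φ (f, 0)) +
      (-xc) * (φ ((f.1, f.2 - 1), 1) - φ (f, 1)) + xc * (φ ((f.1, f.2 + 1), 1) - φ (f, 1)) +
      xc * (φ ((f.1, f.2 - 1), 2) - φ (f, 2)) +
      (1 + (-2) * xc) * (φ ((f.1 + 1, f.2 - 1), 2) - φ (f, 2)) +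
      xc * (φ ((f.1 + 1, f.2), 2) - φ (f, 2)) +
      (-1 + 2 * xc) * (φ ((f.1 + 1, f.2 - 1), 3) - φ (f, 3)) +
      (2 + (-6) * xc) * (φ ((f.1 + 1, f.2), 3) - φ (f, 3)) +
      (-1 + 2 * xc) * (φ ((f.1 + 1, f.2 + 1), 3) - φ (f, 3))

/-- the adjugate, north row -/
def BN (φ : HE G → ℝ) (f : G × G) : ℝ :=
    (1 + (-2) * xc) * (φ ((f.1 - 1, f.2 + 1), 0) - φ (f, 0)) +
      (-2 + 6 * xc) * (φ ((f.1, f.2 + 1), 0) - φ (f, 0)) +
      (1 + (-2) * xc) * (φ ((f.1 + 1, f.2 + 1), 0) - φ (f, 0)) +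
      (-xc) * (φ ((f.1 - 1, f.2), 1) - φ (f, 1)) +
      (-1 + 2 * xc) * (φ ((f.1 - 1, f.2 + 1), 1) - φ (f, 1)) +
      (-xc) * (φ ((f.1, f.2 + 1), 1) - φ (f, 1)) + xc * (φ ((f.1 - 1, f.2), 2) - φ (f, 2)) +
      (-xc) * (φ ((f.1 + 1, f.2), 2) - φ (f, 2)) + xc * (φ ((f.1, f.2 + 1), 3) - φ (f, 3)) +
      xc * (φ ((f.1 + 1, f.2), 3) - φ (f, 3)) +
      (1 + (-2) * xc) * (φ ((f.1 + 1, f.2 + 1), 3) - φ (f, 3))

/-- the adjugate, west row -/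
def BW' (φ : HE G → ℝ) (f : G × G) : ℝ :=
    (-xc) * (φ ((f.1 - 1, f.2), 0) - φ (f, 0)) +
      (-1 + 2 * xc) * (φ ((f.1 - 1, f.2 + 1), 0) - φ (f, 0)) +
      (-xc) * (φ ((f.1, f.2 + 1), 0) - φ (f, 0)) +
      (1 + (-2) * xc) * (φ ((f.1 - 1, f.2 - 1), 1) - φ (f, 1)) +
      (-2 + 6 * xc) * (φ ((f.1 - 1, f.2), 1) - φ (f, 1)) +
      (1 + (-2) * xc) * (φ ((f.1 - 1, f.2 + 1), 1) - φ (f, 1)) +
      (-1 + 2 * xc) * (φ ((f.1 - 1, f.2 - 1), 2) - φ (f, 2)) +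
      (-xc) * (φ ((f.1 - 1, f.2), 2) - φ (f, 2)) + (-xc) * (φ ((f.1, f.2 - 1), 2) - φ (f, 2)) +
      xc * (φ ((f.1, f.2 - 1), 3) - φ (f, 3)) + (-xc) * (φ ((f.1, f.2 + 1), 3) - φ (f, 3))

/-- the adjugate operator (differences only) -/
def Bop (φ : HE G → ℝ) : HE G → ℝ := fun h => ![BS φ h.1, BE φ h.1, BN φ h.1, BW' φ h.1] h.2

@[simp] theorem Bop_0 (φ : HE G → ℝ) (f : G × G) : Bop φ (f, 0) = BS φ f := rfl
@[simp] theorem Bop_1 (φ : HE G → ℝ) (f : G × G) : Bop φ (f, 1) = BE φ f := rfl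
@[simp] theorem Bop_2 (φ : HE G → ℝ) (f : G × G) : Bop φ (f, 2) = BN φ f := rfl
@[simp] theorem Bop_3 (φ : HE G → ℝ) (f : G × G) : Bop φ (f, 3) = BW' φ f := rfl

/-- minus the lattice Laplacian -/
def mLap (φ : HE G → ℝ) : HE G → ℝ := fun h =>
  4 * φ h - φ ((h.1.1 + 1, h.1.2), h.2) - φ ((h.1.1 - 1, h.1.2), h.2) -
    φ ((h.1.1, h.1.2 + 1), h.2) - φ ((h.1.1, h.1.2 - 1), h.2)

theorem A_B (φ : HE G → ℝ) : Aop (wPl G) (Bop φ) = fun h => 2 * xc ^ 2 * mLap φ h := by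
  have hx := xc_sq
  funext h
  obtain ⟨f, d⟩ := h
  fin_cases d
  · simp only [Fin.zero_eta, Aop_S, Bop_1, Bop_2, Bop_3, BE, BN, BW', mLap, yN, wPl,
      sub_add_cancel]
    grind
  · simp only [Fin.mk_one, Aop_E, Bop_0, Bop_2, Bop_3, BS, BN, BW', mLap, yE, wPl,
      add_sub_cancel_right]
    grind
  · simp only [Fin.reduceFinMk, Aop_N, Bop_0, Bop_1, Bop_3, BS, BE, BW', mLap, yN, wPl,
      add_sub_cancel_right]
    grind
  · simp only [Fin.reduceFinMk, Aop_W, Bop_0, Bop_1, Bop_2, BS, BE, BN, mLap, yE, wPl,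
      sub_add_cancel]
    grind

/-- translation of half-edges -/
def tr (a : G × G) : HE G ≃ HE G where
  toFun h := ((h.1.1 + a.1, h.1.2 + a.2), h.2)
  invFun h := ((h.1.1 - a.1, h.1.2 - a.2), h.2)
  left_inv h := by simp
  right_inv h := by simp

/-- translation of faces -/
def trf (a : G × G) : G × G ≃ G × G where
  toFun f := (f.1 + a.1, f.2 + a.2)
  invFun f := (f.1 - a.1, f.2 - a.2)
  left_inv f := by simp
  right_inv f := by simp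

variable [Fintype G]

omit [CommRing G] in
theorem sum_HE (F : HE G → ℝ) :
    ∑ h, F h = ∑ f : G × G, (F (f, 0) + F (f, 1) + F (f, 2) + F (f, 3)) := by
  rw [Fintype.sum_prod_type]
  exact sum_congr rfl fun f _ => by rw [Fin.sum_univ_four]

/-- the operator of any background is antisymmetric -/
theorem A_skew (w : BW G) (φ ψ : HE G → ℝ) :
    ∑ h, Aop w φ h * ψ h = -∑ h, φ h * Aop w ψ h := by
  rw [sum_HE, sum_HE]
  have h1 : ∑ f : G × G, yN w (f.1, f.2 - 1) * φ ((f.1, f.2 - 1), 2) * ψ (f, 0) =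
      ∑ f : G × G, yN w f * φ (f, 2) * ψ ((f.1, f.2 + 1), 0) := by
    rw [← Equiv.sum_comp (trf ((0 : G), (1 : G)))]
    exact sum_congr rfl fun f _ => by simp [trf]
  have h2 : ∑ f : G × G, yE w (f.1 - 1, f.2) * φ ((f.1 - 1, f.2), 1) * ψ (f, 3) =
      ∑ f : G × G, yE w f * φ (f, 1) * ψ ((f.1 + 1, f.2), 3) := by
    rw [← Equiv.sum_comp (trf ((1 : G), (0 : G)))]
    exact sum_congr rfl fun f _ => by simp [trf]
  have h3 : ∑ f : G × G, yN w (f.1, f.2 - 1) * ψ ((f.1, f.2 - 1), 2) * φ (f, 0) =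
      ∑ f : G × G, yN w f * ψ (f, 2) * φ ((f.1, f.2 + 1), 0) := by
    rw [← Equiv.sum_comp (trf ((0 : G), (1 : G)))]
    exact sum_congr rfl fun f _ => by simp [trf]
  have h4 : ∑ f : G × G, yE w (f.1 - 1, f.2) * ψ ((f.1 - 1, f.2), 1) * φ (f, 3) =
      ∑ f : G × G, yE w f * ψ (f, 1) * φ ((f.1 + 1, f.2), 3) := by
    rw [← Equiv.sum_comp (trf ((1 : G), (0 : G)))]
    exact sum_congr rfl fun f _ => by simp [trf]
  have e1 : ∑ f : G × G, (Aop w φ (f, 0) * ψ (f, 0) + Aop w φ (f, 1) * ψ (f, 1) +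
        Aop w φ (f, 2) * ψ (f, 2) + Aop w φ (f, 3) * ψ (f, 3)) =
      ∑ f : G × G, ((φ (f, 1) + φ (f, 2) + φ (f, 3)) * ψ (f, 0) +
        (-φ (f, 0) + φ (f, 2) + φ (f, 3)) * ψ (f, 1) +
        (-φ (f, 0) - φ (f, 1) + φ (f, 3)) * ψ (f, 2) +
        (-φ (f, 0) - φ (f, 1) - φ (f, 2)) * ψ (f, 3)) +
      (∑ f : G × G, yN w (f.1, f.2 - 1) * φ ((f.1, f.2 - 1), 2) * ψ (f, 0) +
       ∑ f : G × G, yE w f * φ ((f.1 + 1, f.2), 3) * ψ (f, 1) -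
       ∑ f : G × G, yN w f * φ ((f.1, f.2 + 1), 0) * ψ (f, 2) -
       ∑ f : G × G, yE w (f.1 - 1, f.2) * φ ((f.1 - 1, f.2), 1) * ψ (f, 3)) := by
    rw [← sum_add_distrib, ← sum_sub_distrib, ← sum_sub_distrib, ← sum_add_distrib]
    refine sum_congr rfl fun f _ => ?_
    simp only [Aop_S, Aop_E, Aop_N, Aop_W]
    ring
  have e2 : ∑ f : G × G, (φ (f, 0) * Aop w ψ (f, 0) + φ (f, 1) * Aop w ψ (f, 1) +
        φ (f, 2) * Aop w ψ (f, 2) + φ (f, 3) * Aop w ψ (f, 3)) =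
      -∑ f : G × G, ((φ (f, 1) + φ (f, 2) + φ (f, 3)) * ψ (f, 0) +
        (-φ (f, 0) + φ (f, 2) + φ (f, 3)) * ψ (f, 1) +
        (-φ (f, 0) - φ (f, 1) + φ (f, 3)) * ψ (f, 2) +
        (-φ (f, 0) - φ (f, 1) - φ (f, 2)) * ψ (f, 3)) +
      (∑ f : G × G, yN w (f.1, f.2 - 1) * ψ ((f.1, f.2 - 1), 2) * φ (f, 0) +
       ∑ f : G × G, yE w f * ψ ((f.1 + 1, f.2), 3) * φ (f, 1) -
       ∑ f : G × G, yN w f * ψ ((f.1, f.2 + 1), 0) * φ (f, 2) -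
       ∑ f : G × G, yE w (f.1 - 1, f.2) * ψ ((f.1 - 1, f.2), 1) * φ (f, 3)) := by
    rw [← sum_neg_distrib, ← sum_add_distrib, ← sum_sub_distrib, ← sum_sub_distrib,
      ← sum_add_distrib]
    refine sum_congr rfl fun f _ => ?_
    simp only [Aop_S, Aop_E, Aop_N, Aop_W]
    ring
  rw [e1, e2, h1, h2, h3, h4]
  have h5 : ∑ f : G × G, yE w f * φ ((f.1 + 1, f.2), 3) * ψ (f, 1) =
      ∑ f : G × G, yE w f * ψ (f, 1) * φ ((f.1 + 1, f.2), 3) :=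
    sum_congr rfl fun f _ => by ring
  have h6 : ∑ f : G × G, yN w f * φ ((f.1, f.2 + 1), 0) * ψ (f, 2) =
      ∑ f : G × G, yN w f * ψ (f, 2) * φ ((f.1, f.2 + 1), 0) :=
    sum_congr rfl fun f _ => by ring
  have h7 : ∑ f : G × G, yN w f * φ (f, 2) * ψ ((f.1, f.2 + 1), 0) =
      ∑ f : G × G, yN w f * ψ ((f.1, f.2 + 1), 0) * φ (f, 2) :=
    sum_congr rfl fun f _ => by ring
  have h8 : ∑ f : G × G, yE w f * φ (f, 1) * ψ ((f.1 + 1, f.2), 3) =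
      ∑ f : G × G, yE w f * ψ ((f.1 + 1, f.2), 3) * φ (f, 1) :=
    sum_congr rfl fun f _ => by ring
  rw [h5, h6, h7, h8]
  ring

/-- Dirichlet energy -/
def gr (φ : HE G → ℝ) : ℝ :=
  ∑ h, ((φ (tr ((1 : G), (0 : G)) h) - φ h) ^ 2 + (φ (tr ((0 : G), (1 : G)) h) - φ h) ^ 2)

theorem gr_nonneg (φ : HE G → ℝ) : 0 ≤ gr φ :=
  sum_nonneg fun _ _ => by positivity

theorem sum_mLap (φ : HE G → ℝ) : ∑ h, φ h * mLap φ h = gr φ := by
  have e1 : ∑ h, φ h * φ ((h.1.1 - 1, h.1.2), h.2) = ∑ h, φ ((h.1.1 + 1, h.1.2), h.2) * φ h := by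
    rw [← Equiv.sum_comp (tr ((1 : G), (0 : G)))]
    exact sum_congr rfl fun f _ => by simp [tr]
  have e2 : ∑ h, φ h * φ ((h.1.1, h.1.2 - 1), h.2) = ∑ h, φ ((h.1.1, h.1.2 + 1), h.2) * φ h := by
    rw [← Equiv.sum_comp (tr ((0 : G), (1 : G)))]
    exact sum_congr rfl fun f _ => by simp [tr]
  have e3 : ∑ h : HE G, φ ((h.1.1 + 1, h.1.2), h.2) ^ 2 = ∑ h, φ h ^ 2 := by
    rw [← Equiv.sum_comp (tr ((1 : G), (0 : G))) fun h => φ h ^ 2]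
    exact sum_congr rfl fun f _ => by simp [tr]
  have e4 : ∑ h : HE G, φ ((h.1.1, h.1.2 + 1), h.2) ^ 2 = ∑ h, φ h ^ 2 := by
    rw [← Equiv.sum_comp (tr ((0 : G), (1 : G))) fun h => φ h ^ 2]
    exact sum_congr rfl fun f _ => by simp [tr]
  have e5 : gr φ = ∑ h : HE G, φ ((h.1.1 + 1, h.1.2), h.2) ^ 2 +
      ∑ h : HE G, φ ((h.1.1, h.1.2 + 1), h.2) ^ 2 +
      2 * ∑ h, φ h ^ 2 - 2 * ∑ h : HE G, φ ((h.1.1 + 1, h.1.2), h.2) * φ h -
      2 * ∑ h : HE G, φ ((h.1.1, h.1.2 + 1), h.2) * φ h := by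
    rw [gr, mul_sum, mul_sum, mul_sum, ← sum_add_distrib, ← sum_add_distrib, ← sum_sub_distrib,
      ← sum_sub_distrib]
    refine sum_congr rfl fun h _ => ?_
    simp only [tr, Equiv.coe_fn_mk, add_zero]
    ring
  have e6 : ∑ h, φ h * mLap φ h = 4 * ∑ h, φ h ^ 2 -
      ∑ h : HE G, φ ((h.1.1 + 1, h.1.2), h.2) * φ h -
      ∑ h, φ h * φ ((h.1.1 - 1, h.1.2), h.2) - ∑ h : HE G, φ ((h.1.1, h.1.2 + 1), h.2) * φ h -
      ∑ h, φ h * φ ((h.1.1, h.1.2 - 1), h.2) := by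
    rw [mul_sum, ← sum_sub_distrib, ← sum_sub_distrib, ← sum_sub_distrib, ← sum_sub_distrib]
    refine sum_congr rfl fun h _ => ?_
    simp only [mLap]
    ring
  rw [e5, e6, e1, e2, e3, e4]
  ring

/-- the energy identity `⟨A φ, B φ⟩ = - 2 x² |∇φ|²` -/
theorem energy (φ : HE G → ℝ) :
    ∑ h, Aop (wPl G) φ h * Bop φ h = -(2 * xc ^ 2 * gr φ) := by
  rw [A_skew, A_B, ← sum_mLap, mul_sum]
  congr 1
  exact sum_congr rfl fun h _ => by ring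

/-- `ℓ²` norm of a difference of one component -/
def dd (φ : HE G → ℝ) (a b : G) (k : Fin 4) : ℝ :=
  n2 fun f : G × G => φ ((f.1 + a, f.2 + b), k) - φ (f, k)

theorem dd_add (φ : HE G → ℝ) (a b a' b' : G) (k : Fin 4) :
    dd φ (a + a') (b + b') k ≤ dd φ a b k + dd φ a' b' k := by
  have h : dd φ a b k =
      n2 fun f : G × G => φ ((f.1 + (a + a'), f.2 + (b + b')), k) - φ ((f.1 + a', f.2 + b'), k) := by
    rw [dd, ← n2_comp (trf (a', b'))]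
    congr 1
    funext f
    simp only [trf, Equiv.coe_fn_mk]
    rw [add_assoc, add_assoc, add_comm a' a, add_comm b' b]
  rw [h]
  refine le_trans (le_of_eq ?_) (n2_add _ _)
  rw [dd]
  congr 1
  funext f
  ring

theorem dd_neg (φ : HE G → ℝ) (a b : G) (k : Fin 4) : dd φ (-a) (-b) k = dd φ a b k := by
  rw [dd, dd, ← n2_comp (trf (a, b)), ← n2_neg]
  congr 1
  funext f
  simp [trf]

theorem n2_le_gr {u : G × G → ℝ} {φ : HE G → ℝ} {k : Fin 4}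
    (h : ∀ f, u f ^ 2 ≤ (φ (tr ((1 : G), (0 : G)) (f, k)) - φ (f, k)) ^ 2 +
      (φ (tr ((0 : G), (1 : G)) (f, k)) - φ (f, k)) ^ 2) : n2 u ≤ Real.sqrt (gr φ) := by
  refine Real.sqrt_le_sqrt ?_
  have e : gr φ = ∑ f : G × G, ∑ k : Fin 4, ((φ (tr ((1 : G), (0 : G)) (f, k)) - φ (f, k)) ^ 2 +
      (φ (tr ((0 : G), (1 : G)) (f, k)) - φ (f, k)) ^ 2) := by
    rw [gr]; exact Fintype.sum_prod_type _
  rw [e]
  refine sum_le_sum fun f _ => (h f).trans ?_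
  exact single_le_sum (f := fun k => (φ (tr ((1 : G), (0 : G)) (f, k)) - φ (f, k)) ^ 2 +
      (φ (tr ((0 : G), (1 : G)) (f, k)) - φ (f, k)) ^ 2) (fun k _ => by positivity) (mem_univ k)

theorem dd_10 (φ : HE G → ℝ) (k : Fin 4) : dd φ 1 0 k ≤ Real.sqrt (gr φ) := by
  refine n2_le_gr (k := k) fun f => ?_
  simp only [tr, Equiv.coe_fn_mk, add_zero]
  linarith [sq_nonneg (φ ((f.1, f.2 + 1), k) - φ (f, k))]

theorem dd_01 (φ : HE G → ℝ) (k : Fin 4) : dd φ 0 1 k ≤ Real.sqrt (gr φ) := by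
  refine n2_le_gr (k := k) fun f => ?_
  simp only [tr, Equiv.coe_fn_mk, add_zero]
  linarith [sq_nonneg (φ ((f.1 + 1, f.2), k) - φ (f, k))]

theorem dd_m0 (φ : HE G → ℝ) (k : Fin 4) : dd φ (-1) 0 k ≤ Real.sqrt (gr φ) := by
  have := dd_neg φ 1 0 k
  rw [neg_zero] at this
  rw [this]; exact dd_10 φ k

theorem dd_0m (φ : HE G → ℝ) (k : Fin 4) : dd φ 0 (-1) k ≤ Real.sqrt (gr φ) := by
  have := dd_neg φ 0 1 k
  rw [neg_zero] at this
  rw [this]; exact dd_01 φ k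

theorem dd_two {φ : HE G → ℝ} {a b : G} {k : Fin 4} (h1 : dd φ a 0 k ≤ Real.sqrt (gr φ))
    (h2 : dd φ 0 b k ≤ Real.sqrt (gr φ)) : dd φ a b k ≤ 2 * Real.sqrt (gr φ) := by
  have := dd_add φ a 0 0 b k
  rw [add_zero, zero_add] at this
  linarith

omit [CommRing G] in
theorem term_le {c s : ℝ} {u : G × G → ℝ} (hc : |c| ≤ 1) (h : n2 u ≤ s) :
    n2 (fun f => c * u f) ≤ s := by
  rw [n2_smul]
  calc |c| * n2 u ≤ 1 * n2 u := mul_le_mul_of_nonneg_right hc (n2_nonneg u)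
    _ ≤ s := by linarith

theorem n2_dd {φ : HE G → ℝ} {a b : G} {k : Fin 4} {s : ℝ} (h : dd φ a b k ≤ s) :
    n2 (fun f : G × G => φ ((f.1 + a, f.2 + b), k) - φ (f, k)) ≤ s := h

theorem n2_x {φ : HE G → ℝ} {a : G} {k : Fin 4} {s : ℝ} (h : dd φ a 0 k ≤ s) :
    n2 (fun f : G × G => φ ((f.1 + a, f.2), k) - φ (f, k)) ≤ s := by
  simpa [dd] using h

theorem n2_y {φ : HE G → ℝ} {b : G} {k : Fin 4} {s : ℝ} (h : dd φ 0 b k ≤ s) :
    n2 (fun f : G × G => φ ((f.1, f.2 + b), k) - φ (f, k)) ≤ s := by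
  simpa [dd] using h

theorem xc_gt : 1 / 4 < xc := by
  have h : (5 / 4 : ℝ) < Real.sqrt 2 := by
    rw [Real.lt_sqrt (by norm_num)]; norm_num
  unfold xc; linarith

/-- the eight unit differences -/
theorem dds (φ : HE G → ℝ) (k : Fin 4) :
    (dd φ 1 0 k ≤ 2 * Real.sqrt (gr φ) ∧ dd φ 0 1 k ≤ 2 * Real.sqrt (gr φ) ∧
      dd φ (-1) 0 k ≤ 2 * Real.sqrt (gr φ) ∧ dd φ 0 (-1) k ≤ 2 * Real.sqrt (gr φ)) ∧
    (dd φ 1 1 k ≤ 2 * Real.sqrt (gr φ) ∧ dd φ 1 (-1) k ≤ 2 * Real.sqrt (gr φ) ∧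
      dd φ (-1) 1 k ≤ 2 * Real.sqrt (gr φ) ∧ dd φ (-1) (-1) k ≤ 2 * Real.sqrt (gr φ)) := by
  have hs0 : 0 ≤ Real.sqrt (gr φ) := Real.sqrt_nonneg _
  exact ⟨⟨(dd_10 φ k).trans (by linarith), (dd_01 φ k).trans (by linarith),
    (dd_m0 φ k).trans (by linarith), (dd_0m φ k).trans (by linarith)⟩,
    ⟨dd_two (dd_10 φ k) (dd_01 φ k), dd_two (dd_10 φ k) (dd_0m φ k),
    dd_two (dd_m0 φ k) (dd_01 φ k), dd_two (dd_m0 φ k) (dd_0m φ k)⟩⟩

theorem coefs : |xc| ≤ 1 ∧ |-xc| ≤ 1 ∧ |1 + (-2) * xc| ≤ 1 ∧ |-1 + 2 * xc| ≤ 1 ∧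
    |2 + (-6) * xc| ≤ 1 ∧ |-2 + 6 * xc| ≤ 1 := by
  have hx := xc_gt
  have hx' := xc_lt_half
  refine ⟨?_, ?_, ?_, ?_, ?_, ?_⟩ <;> rw [abs_le] <;> constructor <;> linarith

theorem eleven (s : ℝ) : (22 : ℝ) * s = 2 * s + 2 * s + 2 * s + 2 * s + 2 * s + 2 * s + 2 * s +
    2 * s + 2 * s + 2 * s + 2 * s := by ring

theorem n2_BS (φ : HE G → ℝ) : n2 (BS φ) ≤ 22 * Real.sqrt (gr φ) := by
  rw [eleven]
  unfold BS
  simp only [sub_eq_add_neg (_ : G)]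
  refine (n2_add _ _).trans (add_le_add ?_ (term_le coefs.1 (n2_x (dds φ 3).1.1)))
  refine (n2_add _ _).trans (add_le_add ?_ (term_le coefs.2.2.1 (n2_dd (dds φ 3).2.2.1)))
  refine (n2_add _ _).trans (add_le_add ?_ (term_le coefs.1 (n2_y (dds φ 3).1.2.2.2)))
  refine (n2_add _ _).trans (add_le_add ?_ (term_le coefs.2.2.2.1 (n2_dd (dds φ 2).2.2.1)))
  refine (n2_add _ _).trans (add_le_add ?_ (term_le coefs.2.2.2.2.1 (n2_y (dds φ 2).1.2.2.2)))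
  refine (n2_add _ _).trans (add_le_add ?_ (term_le coefs.2.2.2.1 (n2_dd (dds φ 2).2.2.2.2)))
  refine (n2_add _ _).trans (add_le_add ?_ (term_le coefs.1 (n2_y (dds φ 1).1.2.2.2)))
  refine (n2_add _ _).trans (add_le_add ?_ (term_le coefs.1 (n2_x (dds φ 1).1.2.2.1)))
  refine (n2_add _ _).trans (add_le_add ?_ (term_le coefs.2.2.1 (n2_dd (dds φ 1).2.2.2.2)))
  refine (n2_add _ _).trans (add_le_add ?_ (term_le coefs.1 (n2_x (dds φ 0).1.1)))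
  exact term_le coefs.2.1 (n2_x (dds φ 0).1.2.2.1)

theorem n2_BE (φ : HE G → ℝ) : n2 (BE φ) ≤ 22 * Real.sqrt (gr φ) := by
  rw [eleven]
  unfold BE
  simp only [sub_eq_add_neg (_ : G)]
  refine (n2_add _ _).trans (add_le_add ?_ (term_le coefs.2.2.2.1 (n2_dd (dds φ 3).2.1)))
  refine (n2_add _ _).trans (add_le_add ?_ (term_le coefs.2.2.2.2.1 (n2_x (dds φ 3).1.1)))
  refine (n2_add _ _).trans (add_le_add ?_ (term_le coefs.2.2.2.1 (n2_dd (dds φ 3).2.2.1)))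
  refine (n2_add _ _).trans (add_le_add ?_ (term_le coefs.1 (n2_x (dds φ 2).1.1)))
  refine (n2_add _ _).trans (add_le_add ?_ (term_le coefs.2.2.1 (n2_dd (dds φ 2).2.2.1)))
  refine (n2_add _ _).trans (add_le_add ?_ (term_le coefs.1 (n2_y (dds φ 2).1.2.2.2)))
  refine (n2_add _ _).trans (add_le_add ?_ (term_le coefs.1 (n2_y (dds φ 1).1.2.1)))
  refine (n2_add _ _).trans (add_le_add ?_ (term_le coefs.2.1 (n2_y (dds φ 1).1.2.2.2)))
  refine (n2_add _ _).trans (add_le_add ?_ (term_le coefs.2.2.2.1 (n2_dd (dds φ 0).2.1)))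
  refine (n2_add _ _).trans (add_le_add ?_ (term_le coefs.2.1 (n2_x (dds φ 0).1.1)))
  exact term_le coefs.2.1 (n2_y (dds φ 0).1.2.1)

theorem n2_BN (φ : HE G → ℝ) : n2 (BN φ) ≤ 22 * Real.sqrt (gr φ) := by
  rw [eleven]
  unfold BN
  simp only [sub_eq_add_neg (_ : G)]
  refine (n2_add _ _).trans (add_le_add ?_ (term_le coefs.2.2.1 (n2_dd (dds φ 3).2.1)))
  refine (n2_add _ _).trans (add_le_add ?_ (term_le coefs.1 (n2_x (dds φ 3).1.1)))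
  refine (n2_add _ _).trans (add_le_add ?_ (term_le coefs.1 (n2_y (dds φ 3).1.2.1)))
  refine (n2_add _ _).trans (add_le_add ?_ (term_le coefs.2.1 (n2_x (dds φ 2).1.1)))
  refine (n2_add _ _).trans (add_le_add ?_ (term_le coefs.1 (n2_x (dds φ 2).1.2.2.1)))
  refine (n2_add _ _).trans (add_le_add ?_ (term_le coefs.2.1 (n2_y (dds φ 1).1.2.1)))
  refine (n2_add _ _).trans (add_le_add ?_ (term_le coefs.2.2.2.1 (n2_dd (dds φ 1).2.2.2.1)))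
  refine (n2_add _ _).trans (add_le_add ?_ (term_le coefs.2.1 (n2_x (dds φ 1).1.2.2.1)))
  refine (n2_add _ _).trans (add_le_add ?_ (term_le coefs.2.2.1 (n2_dd (dds φ 0).2.1)))
  refine (n2_add _ _).trans (add_le_add ?_ (term_le coefs.2.2.2.2.2 (n2_y (dds φ 0).1.2.1)))
  exact term_le coefs.2.2.1 (n2_dd (dds φ 0).2.2.2.1)

theorem n2_BW (φ : HE G → ℝ) : n2 (BW' φ) ≤ 22 * Real.sqrt (gr φ) := by
  rw [eleven]
  unfold BW'
  simp only [sub_eq_add_neg (_ : G)]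
  refine (n2_add _ _).trans (add_le_add ?_ (term_le coefs.2.1 (n2_y (dds φ 3).1.2.1)))
  refine (n2_add _ _).trans (add_le_add ?_ (term_le coefs.1 (n2_y (dds φ 3).1.2.2.2)))
  refine (n2_add _ _).trans (add_le_add ?_ (term_le coefs.2.1 (n2_y (dds φ 2).1.2.2.2)))
  refine (n2_add _ _).trans (add_le_add ?_ (term_le coefs.2.1 (n2_x (dds φ 2).1.2.2.1)))
  refine (n2_add _ _).trans (add_le_add ?_ (term_le coefs.2.2.2.1 (n2_dd (dds φ 2).2.2.2.2)))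
  refine (n2_add _ _).trans (add_le_add ?_ (term_le coefs.2.2.1 (n2_dd (dds φ 1).2.2.2.1)))
  refine (n2_add _ _).trans (add_le_add ?_ (term_le coefs.2.2.2.2.2 (n2_x (dds φ 1).1.2.2.1)))
  refine (n2_add _ _).trans (add_le_add ?_ (term_le coefs.2.2.1 (n2_dd (dds φ 1).2.2.2.2)))
  refine (n2_add _ _).trans (add_le_add ?_ (term_le coefs.2.1 (n2_y (dds φ 0).1.2.1)))
  refine (n2_add _ _).trans (add_le_add ?_ (term_le coefs.2.2.2.1 (n2_dd (dds φ 0).2.2.2.1)))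
  exact term_le coefs.2.1 (n2_x (dds φ 0).1.2.2.1)

theorem n2_B (φ : HE G → ℝ) : n2 (Bop φ) ≤ 44 * Real.sqrt (gr φ) := by
  have hs0 : 0 ≤ Real.sqrt (gr φ) := Real.sqrt_nonneg _
  have h0 := n2_BS φ
  have h1 := n2_BE φ
  have h2 := n2_BN φ
  have h3 := n2_BW φ
  have e : n2 (Bop φ) ^ 2 = n2 (BS φ) ^ 2 + n2 (BE φ) ^ 2 + n2 (BN φ) ^ 2 + n2 (BW' φ) ^ 2 := by
    rw [n2_sq, n2_sq, n2_sq, n2_sq, n2_sq, sum_HE, ← sum_add_distrib, ← sum_add_distrib,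
      ← sum_add_distrib]
    exact sum_congr rfl fun f _ => by simp
  refine abs_le_of_sq_le_sq' ?_ (by positivity) |>.2
  rw [e]
  have k0 := pow_le_pow_left₀ (n2_nonneg _) h0 2
  have k1 := pow_le_pow_left₀ (n2_nonneg _) h1 2
  have k2 := pow_le_pow_left₀ (n2_nonneg _) h2 2
  have k3 := pow_le_pow_left₀ (n2_nonneg _) h3 2
  nlinarith

/-- **gradient bound**: `‖∇φ‖ ≤ C ‖A φ‖` for the plain critical background on a finite torus -/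
theorem sqrt_gr_le (φ : HE G → ℝ) : Real.sqrt (gr φ) ≤ 352 * n2 (Aop (wPl G) φ) := by
  have h := energy φ
  have hc := cs (fun h => -Aop (wPl G) φ h) (Bop φ)
  rw [n2_neg] at hc
  have hb := n2_B φ
  set s := Real.sqrt (gr φ) with hs
  have hs0 : 0 ≤ s := Real.sqrt_nonneg _
  have hs2 : s ^ 2 = gr φ := Real.sq_sqrt (gr_nonneg φ)
  have hx := xc_gt
  have e : ∑ h, -Aop (wPl G) φ h * Bop φ h = 2 * xc ^ 2 * s ^ 2 := by
    rw [hs2]
    have : ∑ h, -Aop (wPl G) φ h * Bop φ h = -∑ h, Aop (wPl G) φ h * Bop φ h := by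
      rw [← sum_neg_distrib]; exact sum_congr rfl fun h _ => by ring
    rw [this, h]; ring
  rw [e] at hc
  have hn := n2_nonneg (Aop (wPl G) φ)
  have h1 : 2 * xc ^ 2 * s ^ 2 ≤ n2 (Aop (wPl G) φ) * (44 * s) :=
    hc.trans (mul_le_mul_of_nonneg_left hb hn)
  have h2 : (1 / 8 : ℝ) * s ^ 2 ≤ 2 * xc ^ 2 * s ^ 2 := by
    have : (1 / 16 : ℝ) ≤ xc ^ 2 := by nlinarith
    nlinarith [sq_nonneg s]
  rcases hs0.eq_or_lt with h0 | h0
  · rw [← h0]; positivity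
  · have h3 : s * s ≤ (352 * n2 (Aop (wPl G) φ)) * s := by nlinarith
    exact le_of_mul_le_mul_right h3 h0

end lattice

end Crest.Agent.R165.TGapAx917
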