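import Crest.Agent.R165.TGapA_917

/-!
# Row 165 (S0250), leaf R7T (helper917, note 1026), part B

Elementary Gagliardo-Nirenberg inequalities on the double torus `ZMod (2 M) × ZMod (2 M)` for
functions antiperiodic (period `M`) in one of the two directions.
-/

set_option autoImplicit false

noncomputable section

open Finset
open Crest.Agent.R165.Latx683
open Crest.Agent.R165.TGapAx917

namespace Crest.Agent.R165.TGapBx917

section one

variable {K : ℕ} [NeZero K]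

/-- total variation on a cycle -/
def tv (w : ZMod K → ℝ) : ℝ := ∑ j, |w (j + 1) - w j|

theorem tv_nonneg (w : ZMod K → ℝ) : 0 ≤ tv w := sum_nonneg fun _ _ => abs_nonneg _

theorem abs_sub_le_tv (w : ZMod K → ℝ) (i : ZMod K) {m : ℕ} (hm : m ≤ K) :
    |w (i + (m : ZMod K)) - w i| ≤ tv w := by
  have h1 : w (i + (m : ZMod K)) - w i =
      ∑ k ∈ range m, (w (i + (k : ZMod K) + 1) - w (i + (k : ZMod K))) := by
    have := Finset.sum_range_sub (fun k : ℕ => w (i + (k : ZMod K))) m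
    simp only [Nat.cast_zero, add_zero] at this
    rw [← this]
    refine sum_congr rfl fun k _ => ?_
    push_cast
    rw [add_assoc]
  rw [h1]
  refine (abs_sum_le_sum_abs _ _).trans ?_
  have hinj : Set.InjOn (fun k : ℕ => i + (k : ZMod K)) (range m : Set ℕ) := by
    intro a ha b hb hab
    have ha' : a < K := lt_of_lt_of_le (by simpa using ha) hm
    have hb' : b < K := lt_of_lt_of_le (by simpa using hb) hm
    have h2 : (a : ZMod K) = (b : ZMod K) := add_left_cancel hab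
    have h3 := congrArg ZMod.val h2
    rwa [ZMod.val_natCast, ZMod.val_natCast, Nat.mod_eq_of_lt ha', Nat.mod_eq_of_lt hb'] at h3
  have h4 : ∑ k ∈ range m, |w (i + (k : ZMod K) + 1) - w (i + (k : ZMod K))| =
      ∑ j ∈ (range m).image (fun k : ℕ => i + (k : ZMod K)), |w (j + 1) - w j| := by
    rw [sum_image hinj]
  rw [h4]
  exact sum_le_sum_of_subset_of_nonneg (subset_univ _) fun _ _ _ => abs_nonneg _

/-- antiperiodic functions are bounded by half their variation -/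
theorem two_abs_le_tv {w : ZMod K → ℝ} {m : ℕ} (hm : m ≤ K)
    (h : ∀ i, w (i + (m : ZMod K)) = -w i) (i : ZMod K) : 2 * |w i| ≤ tv w := by
  have h1 := abs_sub_le_tv w i hm
  rw [h i] at h1
  have h2 : |-w i - w i| = 2 * |w i| := by
    rw [show -w i - w i = -(2 * w i) by ring, abs_neg, abs_mul, abs_two]
  rwa [h2] at h1

/-- mean plus variation -/
theorem abs_le_mean_add_tv (w : ZMod K → ℝ) (i : ZMod K) :
    |w i| ≤ (∑ j, |w j|) / K + tv w := by
  have hK : (0 : ℝ) < K := by exact_mod_cast Nat.pos_of_ne_zero (NeZero.ne K)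
  have h1 : ∀ j, |w i| ≤ |w j| + tv w := by
    intro j
    have h2 := abs_sub_le_tv w i (m := (j - i).val) (ZMod.val_lt _).le
    rw [ZMod.natCast_val, ZMod.cast_id', id, add_sub_cancel] at h2
    have h3 := abs_sub_abs_le_abs_sub (w i) (w j)
    rw [abs_sub_comm] at h3
    linarith
  have h2 : ∑ _j : ZMod K, |w i| ≤ ∑ j, (|w j| + tv w) := sum_le_sum fun j _ => h1 j
  rw [sum_add_distrib, sum_const, sum_const, card_univ, ZMod.card, nsmul_eq_mul, nsmul_eq_mul] at h2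
  rw [← sub_nonneg]
  have : 0 ≤ ((∑ j, |w j|) + K * tv w - K * |w i|) / K := div_nonneg (by linarith) hK.le
  calc (0 : ℝ) ≤ ((∑ j, |w j|) + K * tv w - K * |w i|) / K := this
    _ = (∑ j, |w j|) / K + tv w - |w i| := by field_simp

end one

section two

variable {K : ℕ} [NeZero K]

/-- `ℓ¹` norm of the first difference -/
def v1 (v : ZMod K × ZMod K → ℝ) : ℝ := ∑ z, |v (z.1 + 1, z.2) - v z|
/-- `ℓ¹` norm of the second difference -/
def v2 (v : ZMod K × ZMod K → ℝ) : ℝ := ∑ z, |v (z.1, z.2 + 1) - v z|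

theorem v1_nonneg (v : ZMod K × ZMod K → ℝ) : 0 ≤ v1 v := sum_nonneg fun _ _ => abs_nonneg _
theorem v2_nonneg (v : ZMod K × ZMod K → ℝ) : 0 ≤ v2 v := sum_nonneg fun _ _ => abs_nonneg _

/-- Gagliardo-Nirenberg, antiperiodic in the first direction -/
theorem gns1 {v : ZMod K × ZMod K → ℝ} {m : ℕ} (hm : m ≤ K)
    (h : ∀ z, v (z.1 + (m : ZMod K), z.2) = -v z) : ∑ z, v z ^ 2 ≤ (v1 v + v2 v) ^ 2 := by
  have hK : (0 : ℝ) < K := by exact_mod_cast Nat.pos_of_ne_zero (NeZero.ne K)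
  set A : ZMod K → ℝ := fun j => tv fun i => v (i, j) with hA
  set B : ZMod K → ℝ := fun i => (∑ j, |v (i, j)|) / K + tv fun j => v (i, j) with hB
  have hA0 : ∀ j, 0 ≤ A j := fun j => tv_nonneg _
  have hvA : ∀ i j, 2 * |v (i, j)| ≤ A j := fun i j =>
    two_abs_le_tv (w := fun i => v (i, j)) hm (fun i => h (i, j)) i
  have hvB : ∀ i j, |v (i, j)| ≤ B i := fun i j => abs_le_mean_add_tv (fun j => v (i, j)) j
  have hB0 : ∀ i, 0 ≤ B i := fun i => (abs_nonneg _).trans (hvB i 0)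
  have hsA : ∑ j, A j = v1 v := by
    rw [v1, Fintype.sum_prod_type_right]
    rfl
  have hs2 : ∑ i, tv (fun j => v (i, j)) = v2 v := by
    rw [v2, Fintype.sum_prod_type]
    rfl
  have hsv : ∑ i, ∑ j, |v (i, j)| ≤ K * v1 v := by
    have : ∑ i : ZMod K, ∑ j, |v (i, j)| ≤ ∑ _i : ZMod K, ∑ j, A j :=
      sum_le_sum fun i _ => sum_le_sum fun j _ => by
        have := hvA i j
        have := abs_nonneg (v (i, j))
        linarith
    rwa [hsA, sum_const, card_univ, ZMod.card, nsmul_eq_mul] at this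
  have hsB : ∑ i, B i ≤ v1 v + v2 v := by
    rw [hB, sum_add_distrib, hs2, ← sum_div]
    have : (∑ i, ∑ j, |v (i, j)|) / K ≤ v1 v := by
      rw [div_le_iff₀ hK]; linarith
    linarith
  have h1 : ∑ z, v z ^ 2 ≤ ∑ i, ∑ j, B i * A j := by
    rw [Fintype.sum_prod_type]
    refine sum_le_sum fun i _ => sum_le_sum fun j _ => ?_
    rw [← sq_abs, sq]
    refine mul_le_mul (hvB i j) ?_ (abs_nonneg _) (hB0 i)
    have := hvA i j
    have := abs_nonneg (v (i, j))
    linarith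
  refine h1.trans ?_
  have h2 : ∑ i, ∑ j, B i * A j = (∑ i, B i) * ∑ j, A j := by
    rw [sum_mul]
    exact sum_congr rfl fun i _ => (mul_sum _ _ _).symm
  rw [h2, hsA, sq]
  have hv1 := v1_nonneg v
  have hv2 := v2_nonneg v
  exact mul_le_mul hsB (by linarith) hv1 (by linarith)

theorem v1_swap (v : ZMod K × ZMod K → ℝ) : v1 (fun z => v z.swap) = v2 v := by
  rw [v1, v2, ← Equiv.sum_comp (Equiv.prodComm (ZMod K) (ZMod K))]
  rfl

theorem v2_swap (v : ZMod K × ZMod K → ℝ) : v2 (fun z => v z.swap) = v1 v := by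
  rw [v1, v2, ← Equiv.sum_comp (Equiv.prodComm (ZMod K) (ZMod K))]
  rfl

/-- antiperiodic (shift `m`) in one of the two directions -/
def Anti (m : ℕ) (v : ZMod K × ZMod K → ℝ) : Prop :=
  (∀ z, v (z.1 + (m : ZMod K), z.2) = -v z) ∨ (∀ z, v (z.1, z.2 + (m : ZMod K)) = -v z)

/-- Gagliardo-Nirenberg for antiperiodic functions -/
theorem gns {v : ZMod K × ZMod K → ℝ} {m : ℕ} (hm : m ≤ K) (h : Anti m v) :
    ∑ z, v z ^ 2 ≤ (v1 v + v2 v) ^ 2 := by
  rcases h with h | h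
  · exact gns1 hm h
  · have h1 := gns1 (v := fun z => v z.swap) hm (fun z => h z.swap)
    rw [v1_swap, v2_swap, add_comm] at h1
    rw [← Equiv.sum_comp (Equiv.prodComm (ZMod K) (ZMod K))]
    exact h1

/-- first difference -/
def d1 (u : ZMod K × ZMod K → ℝ) : ZMod K × ZMod K → ℝ := fun z => u (z.1 + 1, z.2) - u z
/-- second difference -/
def d2 (u : ZMod K × ZMod K → ℝ) : ZMod K × ZMod K → ℝ := fun z => u (z.1, z.2 + 1) - u z

/-- shift in the first direction -/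
def s1 : ZMod K × ZMod K ≃ ZMod K × ZMod K where
  toFun z := (z.1 + 1, z.2)
  invFun z := (z.1 - 1, z.2)
  left_inv z := by simp
  right_inv z := by simp
/-- shift in the second direction -/
def s2 : ZMod K × ZMod K ≃ ZMod K × ZMod K where
  toFun z := (z.1, z.2 + 1)
  invFun z := (z.1, z.2 - 1)
  left_inv z := by simp
  right_inv z := by simp

theorem l2_1 {u : ZMod K × ZMod K → ℝ} {m : ℕ} (hm : m ≤ K)
    (h : ∀ z, u (z.1 + (m : ZMod K), z.2) = -u z) : n2 u ≤ K * n2 (d1 u) := by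
  have hK : (0 : ℝ) < K := by exact_mod_cast Nat.pos_of_ne_zero (NeZero.ne K)
  have h1 : ∀ i j, u (i, j) ^ 2 ≤ K * ∑ i', d1 u (i', j) ^ 2 := by
    intro i j
    have h2 := two_abs_le_tv (w := fun i => u (i, j)) hm (fun i => h (i, j)) i
    have h3 : tv (fun i => u (i, j)) ^ 2 ≤ K * ∑ i', d1 u (i', j) ^ 2 := by
      have := sum_mul_sq_le_sq_mul_sq univ (fun _ : ZMod K => (1 : ℝ))
        (fun i' => |u (i' + 1, j) - u (i', j)|)
      simp only [one_mul, one_pow, sum_const, card_univ, ZMod.card, nsmul_eq_mul, mul_one,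
        sq_abs] at this
      exact this
    have h4 : |u (i, j)| ≤ tv (fun i => u (i, j)) := by
      have := abs_nonneg (u (i, j)); linarith
    calc u (i, j) ^ 2 = |u (i, j)| ^ 2 := (sq_abs _).symm
      _ ≤ tv (fun i => u (i, j)) ^ 2 := pow_le_pow_left₀ (abs_nonneg _) h4 2
      _ ≤ _ := h3
  have h2 : n2 u ^ 2 ≤ (K * n2 (d1 u)) ^ 2 := by
    rw [mul_pow, n2_sq, n2_sq, Fintype.sum_prod_type]
    calc ∑ i, ∑ j, u (i, j) ^ 2 ≤ ∑ _i : ZMod K, ∑ j, K * ∑ i', d1 u (i', j) ^ 2 :=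
          sum_le_sum fun i _ => sum_le_sum fun j _ => h1 i j
      _ = (K : ℝ) ^ 2 * ∑ z, d1 u z ^ 2 := by
          rw [sum_const, card_univ, ZMod.card, nsmul_eq_mul, ← mul_sum, Fintype.sum_prod_type_right]
          ring
  exact (abs_le_of_sq_le_sq' h2 (mul_nonneg hK.le (n2_nonneg _))).2

theorem n2_swap (u : ZMod K × ZMod K → ℝ) :
    n2 (fun z : ZMod K × ZMod K => u z.swap) = n2 u :=
  n2_comp (Equiv.prodComm (ZMod K) (ZMod K)) u

/-- the sum of the two difference norms -/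
def DD (u : ZMod K × ZMod K → ℝ) : ℝ := n2 (d1 u) + n2 (d2 u)

theorem DD_nonneg (u : ZMod K × ZMod K → ℝ) : 0 ≤ DD u := add_nonneg (n2_nonneg _) (n2_nonneg _)

theorem l2 {u : ZMod K × ZMod K → ℝ} {m : ℕ} (hm : m ≤ K) (h : Anti m u) :
    n2 u ≤ K * DD u := by
  have hK : (0 : ℝ) ≤ K := Nat.cast_nonneg K
  rcases h with h | h
  · refine (l2_1 hm h).trans (mul_le_mul_of_nonneg_left ?_ hK)
    rw [DD]; linarith [n2_nonneg (d2 u)]
  · have h1 := l2_1 (u := fun z => u z.swap) hm (fun z => h z.swap)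
    rw [n2_swap] at h1
    have h2 : d1 (fun z => u z.swap) = fun z => d2 u z.swap := rfl
    rw [h2, n2_swap] at h1
    refine h1.trans (mul_le_mul_of_nonneg_left ?_ hK)
    rw [DD]; linarith [n2_nonneg (d1 u)]

theorem abs_sq_sub (a b : ℝ) : abs (a * |a| - b * |b|) ≤ (|a| + |b|) * |a - b| := by
  have key : ∀ a b : ℝ, a * |a| - b * |b| =
      (|a| + |b|) * (a - b) / 2 + (|a| - |b|) * (a + b) / 2 := by
    intro a b; ring
  rw [key]
  have h1 : abs ((|a| + |b|) * (a - b) / 2) = (|a| + |b|) * |a - b| / 2 := by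
    rw [abs_div, abs_mul, abs_of_nonneg (add_nonneg (abs_nonneg a) (abs_nonneg b)), abs_two]
  have h2 : abs ((|a| - |b|) * (a + b) / 2) ≤ (|a| + |b|) * |a - b| / 2 := by
    rw [abs_div, abs_mul, abs_two]
    have h3 := abs_abs_sub_abs_le a b
    have h4 := abs_add_le a b
    have h5 := abs_nonneg (a + b)
    have h6 := abs_nonneg (a - b)
    have : abs (|a| - |b|) * abs (a + b) ≤ abs (a - b) * (|a| + |b|) := mul_le_mul h3 h4 h5 h6
    linarith
  exact (abs_add_le _ _).trans (by linarith)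

theorem abs_cube_sub (a b : ℝ) : |a ^ 3 - b ^ 3| ≤ 3 / 2 * (a ^ 2 + b ^ 2) * |a - b| := by
  have h : a ^ 3 - b ^ 3 = (a ^ 2 + a * b + b ^ 2) * (a - b) := by ring
  rw [h, abs_mul]
  refine mul_le_mul_of_nonneg_right ?_ (abs_nonneg _)
  rw [abs_le]
  constructor <;> nlinarith [sq_nonneg (a + b), sq_nonneg (a - b), sq_nonneg a, sq_nonneg b]

omit [NeZero K] in
theorem Anti_of_odd {u : ZMod K × ZMod K → ℝ} {m : ℕ} (h : Anti m u) {F : ℝ → ℝ}
    (hF : ∀ x, F (-x) = -F x) : Anti m fun z => F (u z) := by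
  rcases h with h | h
  · left; intro z; simp only [h z, hF]
  · right; intro z; simp only [h z, hF]

theorem l4 {u : ZMod K × ZMod K → ℝ} {m : ℕ} (hm : m ≤ K) (h : Anti m u) :
    ∑ z, u z ^ 4 ≤ (2 * n2 u * DD u) ^ 2 := by
  have h0 := gns hm (Anti_of_odd h (F := fun x => x * |x|) (fun x => by simp))
  have e : ∀ z, (u z * |u z|) ^ 2 = u z ^ 4 := fun z => by
    rw [mul_pow, sq_abs]; ring
  simp only [e] at h0
  refine h0.trans (pow_le_pow_left₀ (add_nonneg (v1_nonneg _) (v2_nonneg _)) ?_ 2)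
  have k1 : v1 (fun z => u z * |u z|) ≤ 2 * n2 u * n2 (d1 u) := by
    have a1 : v1 (fun z => u z * |u z|) ≤
        ∑ z, |u (z.1 + 1, z.2)| * |d1 u z| + ∑ z, |u z| * |d1 u z| := by
      rw [v1, ← sum_add_distrib]
      refine sum_le_sum fun z _ => (abs_sq_sub _ _).trans (le_of_eq ?_)
      simp only [d1, add_mul]
    have a2 := cs (fun z => |u (z.1 + 1, z.2)|) (fun z => |d1 u z|)
    have a3 := cs (fun z => |u z|) (fun z => |d1 u z|)
    have b1 : n2 (fun z => |d1 u z|) = n2 (d1 u) := by simp [n2]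
    have b2 : n2 (fun z => |u z|) = n2 u := by simp [n2]
    have b3 : n2 (fun z : ZMod K × ZMod K => |u (z.1 + 1, z.2)|) = n2 u := by
      rw [← b2]; exact n2_comp s1 fun z => |u z|
    rw [b1, b3] at a2
    rw [b1, b2] at a3
    linarith
  have k2 : v2 (fun z => u z * |u z|) ≤ 2 * n2 u * n2 (d2 u) := by
    have a1 : v2 (fun z => u z * |u z|) ≤
        ∑ z, |u (z.1, z.2 + 1)| * |d2 u z| + ∑ z, |u z| * |d2 u z| := by
      rw [v2, ← sum_add_distrib]
      refine sum_le_sum fun z _ => (abs_sq_sub _ _).trans (le_of_eq ?_)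
      simp only [d2, add_mul]
    have a2 := cs (fun z => |u (z.1, z.2 + 1)|) (fun z => |d2 u z|)
    have a3 := cs (fun z => |u z|) (fun z => |d2 u z|)
    have b1 : n2 (fun z => |d2 u z|) = n2 (d2 u) := by simp [n2]
    have b2 : n2 (fun z => |u z|) = n2 u := by simp [n2]
    have b3 : n2 (fun z : ZMod K × ZMod K => |u (z.1, z.2 + 1)|) = n2 u := by
      rw [← b2]; exact n2_comp s2 fun z => |u z|
    rw [b1, b3] at a2
    rw [b1, b2] at a3
    linarith
  rw [DD]
  linarith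

theorem l6 {u : ZMod K × ZMod K → ℝ} {m : ℕ} (hm : m ≤ K) (h : Anti m u) :
    ∑ z, u z ^ 6 ≤ 9 * (∑ z, u z ^ 4) * DD u ^ 2 := by
  have h0 := gns hm (Anti_of_odd h (F := fun x => x ^ 3) (fun x => by ring))
  have e : ∀ z, (u z ^ 3) ^ 2 = u z ^ 6 := fun z => by ring
  simp only [e] at h0
  set q := n2 (fun z => u z ^ 2) with hq
  have hq0 : 0 ≤ q := n2_nonneg _
  have hq2 : q ^ 2 = ∑ z, u z ^ 4 := by
    rw [hq, n2_sq]; exact sum_congr rfl fun z _ => by ring
  have k1 : v1 (fun z => u z ^ 3) ≤ 3 * q * n2 (d1 u) := by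
    have a1 : v1 (fun z => u z ^ 3) ≤
        3 / 2 * (∑ z, u (z.1 + 1, z.2) ^ 2 * |d1 u z| + ∑ z, u z ^ 2 * |d1 u z|) := by
      rw [v1, ← sum_add_distrib, mul_sum]
      refine sum_le_sum fun z _ => (abs_cube_sub _ _).trans (le_of_eq ?_)
      simp only [d1]; ring
    have a2 := cs (fun z => u (z.1 + 1, z.2) ^ 2) (fun z => |d1 u z|)
    have a3 := cs (fun z => u z ^ 2) (fun z => |d1 u z|)
    have b1 : n2 (fun z => |d1 u z|) = n2 (d1 u) := by simp [n2]
    have b3 : n2 (fun z : ZMod K × ZMod K => u (z.1 + 1, z.2) ^ 2) = q :=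
      n2_comp s1 fun z => u z ^ 2
    rw [b1, b3] at a2
    rw [b1, ← hq] at a3
    linarith
  have k2 : v2 (fun z => u z ^ 3) ≤ 3 * q * n2 (d2 u) := by
    have a1 : v2 (fun z => u z ^ 3) ≤
        3 / 2 * (∑ z, u (z.1, z.2 + 1) ^ 2 * |d2 u z| + ∑ z, u z ^ 2 * |d2 u z|) := by
      rw [v2, ← sum_add_distrib, mul_sum]
      refine sum_le_sum fun z _ => (abs_cube_sub _ _).trans (le_of_eq ?_)
      simp only [d2]; ring
    have a2 := cs (fun z => u (z.1, z.2 + 1) ^ 2) (fun z => |d2 u z|)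
    have a3 := cs (fun z => u z ^ 2) (fun z => |d2 u z|)
    have b1 : n2 (fun z => |d2 u z|) = n2 (d2 u) := by simp [n2]
    have b3 : n2 (fun z : ZMod K × ZMod K => u (z.1, z.2 + 1) ^ 2) = q :=
      n2_comp s2 fun z => u z ^ 2
    rw [b1, b3] at a2
    rw [b1, ← hq] at a3
    linarith
  have h1 : v1 (fun z => u z ^ 3) + v2 (fun z => u z ^ 3) ≤ 3 * q * DD u := by
    rw [DD]; linarith
  refine h0.trans ((pow_le_pow_left₀ (add_nonneg (v1_nonneg _) (v2_nonneg _)) h1 2).trans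
    (le_of_eq ?_))
  rw [← hq2]; ring

/-- `ℓ²` bound on a finite set of an antiperiodic function by its differences: subcritical power -/
theorem local_l2 {u : ZMod K × ZMod K → ℝ} {m : ℕ} (hm : m ≤ K) (h : Anti m u)
    (E : Finset (ZMod K × ZMod K)) :
    (∑ z ∈ E, u z ^ 2) ^ 3 ≤ 36 * (E.card : ℝ) ^ 2 * K ^ 2 * DD u ^ 6 := by
  have h1 := pow_sum_le_card_mul_sum_pow (s := E) (f := fun z => u z ^ 2)
    (fun z _ => sq_nonneg _) 2
  have h2 : ∑ z ∈ E, (u z ^ 2) ^ (2 + 1) ≤ ∑ z, u z ^ 6 := by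
    have e : ∀ z, (u z ^ 2) ^ (2 + 1) = u z ^ 6 := fun z => by ring
    simp only [e]
    exact sum_le_sum_of_subset_of_nonneg (subset_univ _) fun z _ _ => by positivity
  have h3 := l6 hm h
  have h4 := l4 hm h
  have h5 := l2 hm h
  have hD := DD_nonneg u
  have hn := n2_nonneg u
  have hc : (0 : ℝ) ≤ (E.card : ℝ) ^ 2 := by positivity
  have h6 : (2 * n2 u * DD u) ^ 2 ≤ 4 * K ^ 2 * DD u ^ 4 := by
    have h7 : 2 * n2 u * DD u ≤ 2 * (K * DD u) * DD u := by
      have := mul_le_mul_of_nonneg_right h5 hD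
      linarith
    have h8 := pow_le_pow_left₀ (by positivity) h7 2
    calc (2 * n2 u * DD u) ^ 2 ≤ (2 * (K * DD u) * DD u) ^ 2 := h8
      _ = 4 * K ^ 2 * DD u ^ 4 := by ring
  have h9 : ∑ z, u z ^ 6 ≤ 9 * (4 * K ^ 2 * DD u ^ 4) * DD u ^ 2 := by
    refine h3.trans (mul_le_mul_of_nonneg_right ?_ (sq_nonneg _))
    linarith
  calc (∑ z ∈ E, u z ^ 2) ^ 3 ≤ (E.card : ℝ) ^ 2 * ∑ z ∈ E, (u z ^ 2) ^ (2 + 1) := h1
    _ ≤ (E.card : ℝ) ^ 2 * (9 * (4 * K ^ 2 * DD u ^ 4) * DD u ^ 2) :=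
        mul_le_mul_of_nonneg_left (h2.trans h9) hc
    _ = _ := by ring

end two

end Crest.Agent.R165.TGapBx917
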