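import Crest.Agent.R165.PPd_63

/-!
# Row 165 (S0250), torus clause for `lam ≠ 0` (helper63): the end

* `SecData` : the output of the flow in the four sectors, with and without the marked item `t · F`
* `SecData.tendsto` : the hypotheses of `sector_tendsto`, limit `(exp e - 1) / t`
* `torBonds_of` : the torus clause
-/

set_option autoImplicit false

noncomputable section

open Filter Topology Finset
open Crest.ProbabilityR.IsingModel

namespace Crest.Agent.R165.TorFinx63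

open Crest.Agent.R165.PPdx63

/-- the output of the flow on the tori: `ZG s`, `ZT s` the weights of `G` and `G + t F` in the
sector `s`, `κ` the common normalisation, `z s` the weight of `1` -/
structure SecData (t e : ℝ) (ZG ZT : Fin 2 × Fin 2 → ℕ → ℝ) : Prop where
  ex : ∃ (κ : ℕ → ℝ) (z E0 Et R0 Rt : Fin 2 × Fin 2 → ℕ → ℝ) (η : ℕ → ℝ),
    (∀ᶠ N in atTop, 0 < κ N) ∧ (∀ s, s ≠ (0, 0) → ∀ᶠ N in atTop, 0 < z s N) ∧
    (∀ s, s ≠ (0, 0) → ∀ᶠ N in atTop, ZG s N = κ N * (z s N * (Real.exp (E0 s N) * R0 s N))) ∧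
    (∀ s, s ≠ (0, 0) → ∀ᶠ N in atTop, ZT s N = κ N * (z s N * (Real.exp (Et s N) * Rt s N))) ∧
    (∀ s, s ≠ (0, 0) → Tendsto (R0 s) atTop (𝓝 1)) ∧
    (∀ s, s ≠ (0, 0) → Tendsto (Rt s) atTop (𝓝 1)) ∧
    (∀ s, Tendsto (fun N => Et s N - E0 s N) atTop (𝓝 e)) ∧
    (Tendsto (fun N => E0 (0, 0) N - E0 (1, 1) N) atTop (𝓝 0)) ∧
    (∀ᶠ N in atTop, |ZG (0, 0) N| ≤ κ N * (z (1, 1) N * (Real.exp (E0 (0, 0) N) * η N))) ∧
    (∀ᶠ N in atTop, |ZT (0, 0) N| ≤ κ N * (z (1, 1) N * (Real.exp (Et (0, 0) N) * η N))) ∧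
    Tendsto η atTop (𝓝 0)

variable {t e : ℝ} {ZG ZT : Fin 2 × Fin 2 → ℕ → ℝ}

theorem SecData.pos (h : SecData t e ZG ZT) (s : Fin 2 × Fin 2) (hs : s ≠ (0, 0)) :
    ∀ᶠ N in atTop, 0 < ZG s N := by
  obtain ⟨κ, z, E0, Et, R0, Rt, η, hκ, hz, hG, -, hR, -⟩ := h.ex
  filter_upwards [hκ, hz s hs, hG s hs, (hR s hs).eventually (lt_mem_nhds zero_lt_one)] with N a b c d
  rw [c]
  positivity

theorem SecData.lim (h : SecData t e ZG ZT) (s : Fin 2 × Fin 2) (hs : s ≠ (0, 0)) :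
    Tendsto (fun N => (ZT s N - ZG s N) / t / ZG s N) atTop (𝓝 ((Real.exp e - 1) / t)) := by
  obtain ⟨κ, z, E0, Et, R0, Rt, η, hκ, hz, hG, hT, hR, hRt, hE, -⟩ := h.ex
  have h1 : Tendsto (fun N => (Real.exp (Et s N - E0 s N) * (Rt s N / R0 s N) - 1) / t) atTop
      (𝓝 ((Real.exp e * (1 / 1) - 1) / t)) :=
    (((Real.continuous_exp.tendsto e).comp (hE s)).mul
      ((hRt s hs).div (hR s hs) one_ne_zero)).sub_const 1 |>.div_const t
  rw [one_div_one, mul_one] at h1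
  refine h1.congr' ?_
  filter_upwards [hκ, hz s hs, hG s hs, hT s hs,
    (hR s hs).eventually (lt_mem_nhds zero_lt_one)] with N a b c d f
  rw [c, d, Real.exp_sub]
  have e1 := Real.exp_pos (E0 s N)
  field_simp

theorem SecData.pp (h : SecData t e ZG ZT) :
    Tendsto (fun N => ZG (0, 0) N / ZG (1, 1) N) atTop (𝓝 0) ∧
      Tendsto (fun N => ZT (0, 0) N / ZG (1, 1) N) atTop (𝓝 0) := by
  obtain ⟨κ, z, E0, Et, R0, Rt, η, hκ, hz, hG, -, hR, -, hE, hE0, hP, hQ, hη⟩ := h.ex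
  have hs : ((1, 1) : Fin 2 × Fin 2) ≠ (0, 0) := by decide
  have hRi : Tendsto (fun N => (R0 (1, 1) N)⁻¹) atTop (𝓝 1) := by
    simpa using (hR _ hs).inv₀ one_ne_zero
  constructor
  · have h1 : Tendsto (fun N => Real.exp (E0 (0, 0) N - E0 (1, 1) N) * (η N * (R0 (1, 1) N)⁻¹)) atTop
        (𝓝 (Real.exp 0 * (0 * 1))) :=
      ((Real.continuous_exp.tendsto 0).comp hE0).mul (hη.mul hRi)
    rw [zero_mul, mul_zero] at h1
    refine squeeze_zero_norm' ?_ h1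
    filter_upwards [hκ, hz _ hs, hG _ hs, hP,
      (hR _ hs).eventually (lt_mem_nhds zero_lt_one)] with N a b c d f
    rw [Real.norm_eq_abs, abs_div, c, abs_of_pos (a := κ N * _) (by positivity), div_le_iff₀
      (by positivity)]
    refine d.trans (le_of_eq ?_)
    rw [Real.exp_sub]
    have e1 := Real.exp_pos (E0 (1, 1) N)
    field_simp
  · have hd : Tendsto (fun N => Et (0, 0) N - E0 (1, 1) N) atTop (𝓝 e) := by
      have := (hE (0, 0)).add hE0
      rw [add_zero] at this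
      refine this.congr fun N => by ring
    have h1 : Tendsto (fun N => Real.exp (Et (0, 0) N - E0 (1, 1) N) * (η N * (R0 (1, 1) N)⁻¹)) atTop
        (𝓝 (Real.exp e * (0 * 1))) :=
      ((Real.continuous_exp.tendsto e).comp hd).mul (hη.mul hRi)
    rw [zero_mul, mul_zero] at h1
    refine squeeze_zero_norm' ?_ h1
    filter_upwards [hκ, hz _ hs, hG _ hs, hQ,
      (hR _ hs).eventually (lt_mem_nhds zero_lt_one)] with N a b c d f
    rw [Real.norm_eq_abs, abs_div, c, abs_of_pos (a := κ N * _) (by positivity), div_le_iff₀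
      (by positivity)]
    refine d.trans (le_of_eq ?_)
    rw [Real.exp_sub]
    have e1 := Real.exp_pos (E0 (1, 1) N)
    field_simp

theorem SecData.tendsto (ht : t ≠ 0) (h : SecData t e ZG ZT) :
    (∀ s, s ≠ (0, 0) → ∀ᶠ N in atTop, 0 < ZG s N) ∧
    (∀ s, s ≠ (0, 0) →
      Tendsto (fun N => (ZT s N - ZG s N) / t / ZG s N) atTop (𝓝 ((Real.exp e - 1) / t))) ∧
    Tendsto (fun N => (ZT (0, 0) N - ZG (0, 0) N) / t / ZG (1, 1) N) atTop (𝓝 0) ∧
    Tendsto (fun N => ZG (0, 0) N / ZG (1, 1) N) atTop (𝓝 0) := by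
  refine ⟨h.pos, h.lim, ?_, h.pp.1⟩
  have h1 := (h.pp.2.sub h.pp.1).div_const t
  rw [sub_zero, zero_div] at h1
  refine h1.congr fun N => ?_
  by_cases hg : ZG (1, 1) N = 0
  · simp [hg]
  · field_simp

open Crest.Agent.R165.TorusCombx922 Crest.Agent.R165.TorusJ1x922 Crest.Agent.R165.TorusJ2x922
open Crest.Agent.R165.J4RRx653 (RR)

theorem ZS_add {L : ℕ} [NeZero L] (s : Fin 2 × Fin 2) (F G : RR (Ed L)) :
    ZS s (F + G) = ZS s F + ZS s G := by
  unfold ZS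
  rw [← ZE_add]; congr 1
  exact map_add (J4RRx653.TH _) _ _

theorem ZS_smul {L : ℕ} [NeZero L] (s : Fin 2 × Fin 2) (c : ℝ) (F : RR (Ed L)) :
    ZS s (c • F) = c * ZS s F := by
  unfold ZS
  rw [← ZE_smul]; congr 1
  exact map_smul (J4RRx653.TH _) _ _

/-- **torus clause from the output of the flow** -/
theorem torBonds_of {J : ℝ} (hJ : 0 < J) {R : ℕ} {V : Finset (ℤ × ℤ) → ℝ}
    (hV : Topx683.VHyp R V) (lam β : ℝ) (S : Finset ((ℤ × ℤ) × Fin 2)) (ht : t ≠ 0)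
    (hrep : ∀ᶠ N : ℕ in atTop, ∃ F G : RR (Ed (N + 1)),
      (∀ σ, evT σ F = (∏ e ∈ S, Symx541.ep e fun z => σ (toTorus (N + 1) z)) *
        Real.exp (pertT J lam β R V σ)) ∧
      (∀ σ, evT σ G = Real.exp (pertT J lam β R V σ)) ∧
      (∀ s, ZG s N = ZS s G) ∧ (∀ s, ZT s N = ZS s (G + t • F)))
    (h : SecData t e ZG ZT) :
    Tendsto (fun N : ℕ => Symx541.torBonds N J lam R V β S) atTop (𝓝 ((Real.exp e - 1) / t)) := by
  obtain ⟨h1, h2, h3, h4⟩ := h.tendsto ht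
  refine torBonds_tendsto (f := fun s N => (ZT s N - ZG s N) / t) (g := ZG) hJ hV lam β S ?_ h1 h2 h3 h4
  filter_upwards [hrep] with N hN
  obtain ⟨F, G, hF, hG, hg, hT⟩ := hN
  refine ⟨F, G, 1, one_ne_zero, hF, hG, fun s => ?_, fun s => by rw [hg, one_mul]⟩
  rw [hg, hT, ZS_add, ZS_smul]
  field_simp
  ring

end Crest.Agent.R165.TorFinx63
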