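import Crest.Agent.R165.Tr2_40

/-!
# Row 165 (S0250): torus gaps without spins, part A (helper63)

Quasi-periodic functions on `ℤ × ℤ` (`u (f + M e_i) = a_i u f`, `a_i² = 1`), sums over a period,
summation by parts, gradient bound and Poincaré inequalities.

* `grad_le`   : `S |∇φ|² ≤ C S |A φ|²` for quasi-periodic fields at criticality
* `poin_anti1`, `poin_anti2` : antiperiodic Poincaré inequality
* `poin_mean` : periodic Poincaré inequality
-/

set_option autoImplicit false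

noncomputable section

namespace Crest.Agent.R165.TorGapAx63

open Finset Crest.Agent.R165.Tr1x40 Crest.Agent.R165.Tr2x40

/-! ### quasi-periodic functions -/

/-- quasi-periodicity -/
def QP (M : ℕ) (a b : ℝ) (u : ℤ × ℤ → ℝ) : Prop :=
  (∀ f : ℤ × ℤ, u (f.1 + M, f.2) = a * u f) ∧ (∀ f : ℤ × ℤ, u (f.1, f.2 + M) = b * u f)

variable {M : ℕ} {a b a' b' : ℝ} {u v : ℤ × ℤ → ℝ}

theorem QP.add (hu : QP M a b u) (hv : QP M a b v) : QP M a b fun f => u f + v f :=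
  ⟨fun f => by beta_reduce; rw [hu.1, hv.1]; ring, fun f => by beta_reduce; rw [hu.2, hv.2]; ring⟩

theorem QP.sub (hu : QP M a b u) (hv : QP M a b v) : QP M a b fun f => u f - v f :=
  ⟨fun f => by beta_reduce; rw [hu.1, hv.1]; ring, fun f => by beta_reduce; rw [hu.2, hv.2]; ring⟩

theorem QP.smul (c : ℝ) (hu : QP M a b u) : QP M a b fun f => c * u f :=
  ⟨fun f => by beta_reduce; rw [hu.1]; ring, fun f => by beta_reduce; rw [hu.2]; ring⟩

theorem QP.mul (hu : QP M a b u) (hv : QP M a' b' v) : QP M (a * a') (b * b') fun f => u f * v f :=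
  ⟨fun f => by beta_reduce; rw [hu.1, hv.1]; ring, fun f => by beta_reduce; rw [hu.2, hv.2]; ring⟩

theorem QP.shift (hu : QP M a b u) (x y : ℤ) : QP M a b fun f => u (f.1 + x, f.2 + y) := by
  refine ⟨fun f => ?_, fun f => ?_⟩
  · have := hu.1 (f.1 + x, f.2 + y)
    simp only at this ⊢
    rw [← this]; congr 2; ring
  · have := hu.2 (f.1 + x, f.2 + y)
    simp only at this ⊢
    rw [← this]; congr 2; ring

/-- products of functions with the same signs are periodic -/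
theorem QP.mul_per (ha : a ^ 2 = 1) (hb : b ^ 2 = 1) (hu : QP M a b u) (hv : QP M a b v) :
    QP M 1 1 fun f => u f * v f := by
  have := hu.mul hv
  rwa [← pow_two, ← pow_two, ha, hb] at this

/-! ### sums over a period -/

/-- sum over the box `[0, M)²` -/
def S (M : ℕ) (u : ℤ × ℤ → ℝ) : ℝ := ∑ i ∈ range M, ∑ j ∈ range M, u ((i : ℤ), (j : ℤ))

theorem S_add : S M (fun f => u f + v f) = S M u + S M v := by
  simp only [S, sum_add_distrib]

theorem S_sub : S M (fun f => u f - v f) = S M u - S M v := by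
  simp only [S, sum_sub_distrib]

theorem S_mul (c : ℝ) : S M (fun f => c * u f) = c * S M u := by
  simp only [S, mul_sum]

theorem S_neg : S M (fun f => -u f) = -S M u := by
  simp only [S, sum_neg_distrib]

theorem S_congr (h : ∀ f, u f = v f) : S M u = S M v := by
  rw [show u = v from funext h]

theorem S_mono (h : ∀ f, u f ≤ v f) : S M u ≤ S M v :=
  sum_le_sum fun _ _ => sum_le_sum fun _ _ => h _

theorem S_nonneg (h : ∀ f, 0 ≤ u f) : 0 ≤ S M u :=
  sum_nonneg fun _ _ => sum_nonneg fun _ _ => h _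

theorem S_sum {ι : Type*} (s : Finset ι) (w : ι → ℤ × ℤ → ℝ) :
    S M (fun f => ∑ k ∈ s, w k f) = ∑ k ∈ s, S M (w k) := by
  classical
  induction s using Finset.induction_on with
  | empty => simp [S]
  | insert k s hk ih => simp only [sum_insert hk]; rw [S_add, ih]

/-- one-dimensional shift by one -/
theorem sum_shift_one (M : ℕ) (v : ℤ → ℝ) (hv : ∀ i, v (i + M) = v i) :
    ∑ i ∈ range M, v ((i : ℤ) + 1) = ∑ i ∈ range M, v i := by
  have h1 := Finset.sum_range_succ (fun i : ℕ => v (i : ℤ)) M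
  have h2 := Finset.sum_range_succ' (fun i : ℕ => v (i : ℤ)) M
  have h3 := hv 0
  simp only [zero_add, Nat.cast_zero, Nat.cast_add, Nat.cast_one] at h1 h2 h3
  linarith

/-- one-dimensional shift -/
theorem sum_shift (M : ℕ) (v : ℤ → ℝ) (hv : ∀ i, v (i + M) = v i) (k : ℤ) :
    ∑ i ∈ range M, v ((i : ℤ) + k) = ∑ i ∈ range M, v i := by
  induction k using Int.induction_on with
  | zero => simp
  | succ n ih =>
    rw [← ih, ← sum_shift_one M (fun i => v (i + n)) (fun i => by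
      rw [show i + (M : ℤ) + n = i + n + M by ring, hv])]
    refine sum_congr rfl fun i _ => ?_
    congr 1; ring
  | pred n ih =>
    rw [← ih, ← sum_shift_one M (fun i => v (i + (-(n : ℤ) - 1))) (fun i => by
      rw [show i + (M : ℤ) + (-(n : ℤ) - 1) = i + (-(n : ℤ) - 1) + M by ring, hv])]
    refine sum_congr rfl fun i _ => ?_
    congr 1; ring

/-- **shift invariance** -/
theorem S_shift (hu : QP M 1 1 u) (x y : ℤ) : S M (fun f => u (f.1 + x, f.2 + y)) = S M u := by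
  unfold S
  have h1 : ∀ i : ℤ, ∑ j ∈ range M, u (i, (j : ℤ) + y) = ∑ j ∈ range M, u (i, (j : ℤ)) := by
    intro i
    exact sum_shift M (fun j => u (i, j)) (fun j => by
      have := hu.2 (i, j); simpa using this) y
  simp only [h1]
  exact sum_shift M (fun i => ∑ j ∈ range M, u (i, (j : ℤ))) (fun i => by
    refine sum_congr rfl fun j _ => ?_
    have := hu.1 (i, (j : ℤ)); simpa using this) x

/-- summation by parts -/
theorem S_parts (ha : a ^ 2 = 1) (hb : b ^ 2 = 1) (hu : QP M a b u) (hv : QP M a b v) (x y : ℤ) :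
    S M (fun f => u f * (v (f.1 + x, f.2 + y) - v f)) =
      S M (fun f => (u (f.1 - x, f.2 - y) - u f) * v f) := by
  have h1 : QP M 1 1 fun f => u (f.1 - x, f.2 - y) * v f := by
    have := (hu.shift (-x) (-y)).mul_per ha hb hv
    simpa only [← sub_eq_add_neg] using this
  have h2 := S_shift h1 x y
  simp only [add_sub_cancel_right] at h2
  simp only [mul_sub, sub_mul]
  rw [S_sub, S_sub, h2]

theorem S_cs (u v : ℤ × ℤ → ℝ) :
    (S M fun f => u f * v f) ^ 2 ≤ (S M fun f => u f ^ 2) * S M fun f => v f ^ 2 := by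
  unfold S
  have h := Finset.sum_mul_sq_le_sq_mul_sq (range M ×ˢ range M)
    (fun p : ℕ × ℕ => u ((p.1 : ℤ), (p.2 : ℤ))) (fun p => v ((p.1 : ℤ), (p.2 : ℤ)))
  simpa only [Finset.sum_product] using h

/-! ### Dirichlet form -/

/-- the Dirichlet form of one component -/
def N (M : ℕ) (u : ℤ × ℤ → ℝ) : ℝ :=
  S M (fun f => (u (f.1 + 1, f.2) - u f) ^ 2) + S M (fun f => (u (f.1, f.2 + 1) - u f) ^ 2)

theorem N_nonneg (u : ℤ × ℤ → ℝ) : 0 ≤ N M u :=
  add_nonneg (S_nonneg fun _ => sq_nonneg _) (S_nonneg fun _ => sq_nonneg _)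

/-- `S (u · Lap u) = N u` -/
theorem S_lap (ha : a ^ 2 = 1) (hb : b ^ 2 = 1) (hu : QP M a b u) :
    S M (fun f => u f * (4 * u f - (u (f.1 + 1, f.2) + u (f.1 - 1, f.2) + u (f.1, f.2 + 1)
      + u (f.1, f.2 - 1)))) = N M u := by
  have h1 := S_shift (QP.mul_per ha hb hu hu) 1 0
  have h2 := S_shift (QP.mul_per ha hb hu hu) 0 1
  have h3 := S_shift (QP.mul_per ha hb hu (hu.shift (-1) 0)) 1 0
  have h4 := S_shift (QP.mul_per ha hb hu (hu.shift 0 (-1))) 0 1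
  simp only [add_zero, ← sub_eq_add_neg, add_sub_cancel_right] at h1 h2 h3 h4
  unfold N
  have e1 : S M (fun f => (u (f.1 + 1, f.2) - u f) ^ 2) =
      S M (fun f => u (f.1 + 1, f.2) * u (f.1 + 1, f.2)) - 2 * S M (fun f => u (f.1 + 1, f.2) * u f)
        + S M (fun f => u f * u f) := by
    rw [← S_mul, ← S_sub, ← S_add]; exact S_congr fun f => by ring
  have e2 : S M (fun f => (u (f.1, f.2 + 1) - u f) ^ 2) =
      S M (fun f => u (f.1, f.2 + 1) * u (f.1, f.2 + 1)) - 2 * S M (fun f => u (f.1, f.2 + 1) * u f)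
        + S M (fun f => u f * u f) := by
    rw [← S_mul, ← S_sub, ← S_add]; exact S_congr fun f => by ring
  have e3 : S M (fun f => u f * (4 * u f - (u (f.1 + 1, f.2) + u (f.1 - 1, f.2) + u (f.1, f.2 + 1)
      + u (f.1, f.2 - 1)))) = 4 * S M (fun f => u f * u f) - (S M (fun f => u (f.1 + 1, f.2) * u f)
        + S M (fun f => u f * u (f.1 - 1, f.2)) + S M (fun f => u (f.1, f.2 + 1) * u f)
        + S M (fun f => u f * u (f.1, f.2 - 1))) := by
    rw [← S_mul, ← S_add, ← S_add, ← S_add, ← S_sub]; exact S_congr fun f => by ring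
  rw [e1, e2, e3]
  linarith

/-- differences at sup distance one -/
theorem S_diff_le (ha : a ^ 2 = 1) (hb : b ^ 2 = 1) (hu : QP M a b u) (x y : ℤ)
    (hx : x = -1 ∨ x = 0 ∨ x = 1) (hy : y = -1 ∨ y = 0 ∨ y = 1) :
    S M (fun f => (u (f.1 + x, f.2 + y) - u f) ^ 2) ≤ 2 * N M u := by
  have hd1 : QP M 1 1 fun f => (u (f.1 + 1, f.2) - u f) * (u (f.1 + 1, f.2) - u f) := by
    have := (hu.shift 1 0).sub hu
    simp only [add_zero] at this
    exact this.mul_per ha hb this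
  have hd2 : QP M 1 1 fun f => (u (f.1, f.2 + 1) - u f) * (u (f.1, f.2 + 1) - u f) := by
    have := (hu.shift 0 1).sub hu
    simp only [add_zero] at this
    exact this.mul_per ha hb this
  -- one-step differences in each direction, with an arbitrary base shift
  have key1 : ∀ s t : ℤ, S M (fun f => (u (f.1 + s + 1, f.2 + t) - u (f.1 + s, f.2 + t)) ^ 2) =
      S M (fun f => (u (f.1 + 1, f.2) - u f) ^ 2) := by
    intro s t
    have := S_shift hd1 s t
    simp only [← pow_two] at this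
    exact this
  have key2 : ∀ s t : ℤ, S M (fun f => (u (f.1 + s, f.2 + t + 1) - u (f.1 + s, f.2 + t)) ^ 2) =
      S M (fun f => (u (f.1, f.2 + 1) - u f) ^ 2) := by
    intro s t
    have := S_shift hd2 s t
    simp only [← pow_two] at this
    exact this
  -- horizontal part at height y
  have hX : S M (fun f => (u (f.1 + x, f.2 + y) - u (f.1, f.2 + y)) ^ 2) ≤
      S M (fun f => (u (f.1 + 1, f.2) - u f) ^ 2) := by
    rcases hx with rfl | rfl | rfl
    · have := key1 (-1) y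
      rw [← this]
      refine le_of_eq (S_congr fun f => ?_)
      rw [show f.1 + -1 + 1 = f.1 by ring]; ring
    · simp only [add_zero, sub_self]
      have : S M (fun _ => (0 : ℝ) ^ 2) = 0 := by simp [S]
      rw [this]
      exact S_nonneg fun _ => sq_nonneg _
    · have := key1 0 y
      rw [← this]
      refine le_of_eq (S_congr fun f => ?_)
      simp only [add_zero]
  have hY : S M (fun f => (u (f.1, f.2 + y) - u f) ^ 2) ≤
      S M (fun f => (u (f.1, f.2 + 1) - u f) ^ 2) := by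
    rcases hy with rfl | rfl | rfl
    · have := key2 0 (-1)
      rw [← this]
      refine le_of_eq (S_congr fun f => ?_)
      simp only [add_zero]
      rw [show f.2 + -1 + 1 = f.2 by ring]; ring
    · simp only [add_zero, sub_self]
      have : S M (fun _ => (0 : ℝ) ^ 2) = 0 := by simp [S]
      rw [this]
      exact S_nonneg fun _ => sq_nonneg _
    · exact le_rfl
  have h3 : S M (fun f => (u (f.1 + x, f.2 + y) - u f) ^ 2) ≤
      2 * S M (fun f => (u (f.1 + x, f.2 + y) - u (f.1, f.2 + y)) ^ 2) +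
        2 * S M (fun f => (u (f.1, f.2 + y) - u f) ^ 2) := by
    rw [← S_mul, ← S_mul, ← S_add]
    refine S_mono fun f => ?_
    nlinarith [sq_nonneg ((u (f.1 + x, f.2 + y) - u (f.1, f.2 + y)) - (u (f.1, f.2 + y) - u f))]
  unfold N
  linarith

/-- the pairing of `u` with a difference of `v` -/
theorem S_pair_diff (ha : a ^ 2 = 1) (hb : b ^ 2 = 1) (hu : QP M a b u) (hv : QP M a b v)
    (x y : ℤ) (hx : x = -1 ∨ x = 0 ∨ x = 1) (hy : y = -1 ∨ y = 0 ∨ y = 1) :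
    |S M (fun f => u f * (v (f.1 + x, f.2 + y) - v f))| ≤
      2 * Real.sqrt (N M u) * Real.sqrt (S M fun f => v f ^ 2) := by
  rw [S_parts ha hb hu hv]
  have h1 := S_cs (M := M) (fun f => u (f.1 - x, f.2 - y) - u f) v
  have h2 := S_diff_le ha hb hu (-x) (-y) (by omega) (by omega)
  simp only [← sub_eq_add_neg] at h2
  have h3 : 0 ≤ S M (fun f => v f ^ 2) := S_nonneg fun _ => sq_nonneg _
  have h4 : (S M fun f => (u (f.1 - x, f.2 - y) - u f) * v f) ^ 2 ≤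
      (2 * Real.sqrt (N M u) * Real.sqrt (S M fun f => v f ^ 2)) ^ 2 := by
    rw [mul_pow, mul_pow, Real.sq_sqrt (N_nonneg u), Real.sq_sqrt h3]
    refine h1.trans ?_
    have := mul_le_mul_of_nonneg_right h2 h3
    nlinarith [mul_nonneg (N_nonneg (M := M) u) h3]
  exact abs_le_of_sq_le_sq h4 (by positivity)

/-! ### the adjugate in terms of differences -/

/-- difference of the component `k` -/
def d (ψ : Fld) (x y : ℤ) (k : Fin 4) (f : ℤ × ℤ) : ℝ := ψ (f.1 + x, f.2 + y) k - ψ f k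

theorem B_row0 (ψ : Fld) (f : Face) : B xc ψ f 0 =
    xc * d ψ 1 0 0 f - xc * d ψ (-1) 0 0 f
      + (xc * d ψ (-1) 0 1 f + xc * d ψ 0 (-1) 1 f + xc ^ 2 * d ψ (-1) (-1) 1 f)
      + (-(xc + xc ^ 3) * d ψ 0 (-1) 2 f - xc ^ 2 * d ψ (-1) (-1) 2 f - xc ^ 2 * d ψ 1 (-1) 2 f)
      + (xc * d ψ 1 0 3 f + xc * d ψ 0 (-1) 3 f + xc ^ 2 * d ψ 1 (-1) 3 f) := by
  have hx := xc_sq
  simp only [B, d, add_zero, ← sub_eq_add_neg]
  linear_combination (ψ f 1 + ψ f 3 - (1 + xc) * ψ f 2) * hx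

theorem B_row1 (ψ : Fld) (f : Face) : B xc ψ f 1 =
    (-xc * d ψ 0 1 0 f - xc * d ψ 1 0 0 f - xc ^ 2 * d ψ 1 1 0 f)
      + (xc * d ψ 0 1 1 f - xc * d ψ 0 (-1) 1 f)
      + (xc * d ψ 1 0 2 f + xc * d ψ 0 (-1) 2 f + xc ^ 2 * d ψ 1 (-1) 2 f)
      + (-(xc + xc ^ 3) * d ψ 1 0 3 f - xc ^ 2 * d ψ 1 1 3 f - xc ^ 2 * d ψ 1 (-1) 3 f) := by
  have hx := xc_sq
  simp only [B, d, add_zero, ← sub_eq_add_neg]
  linear_combination (-ψ f 0 + ψ f 2 - (1 + xc) * ψ f 3) * hx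

theorem B_row2 (ψ : Fld) (f : Face) : B xc ψ f 2 =
    ((xc + xc ^ 3) * d ψ 0 1 0 f + xc ^ 2 * d ψ (-1) 1 0 f + xc ^ 2 * d ψ 1 1 0 f)
      + (-xc * d ψ (-1) 0 1 f - xc * d ψ 0 1 1 f - xc ^ 2 * d ψ (-1) 1 1 f)
      + (xc * d ψ (-1) 0 2 f - xc * d ψ 1 0 2 f)
      + (xc * d ψ 0 1 3 f + xc * d ψ 1 0 3 f + xc ^ 2 * d ψ 1 1 3 f) := by
  have hx := xc_sq
  simp only [B, d, add_zero, ← sub_eq_add_neg]
  linear_combination (-ψ f 1 + ψ f 3 + (1 + xc) * ψ f 0) * hx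

theorem B_row3 (ψ : Fld) (f : Face) : B xc ψ f 3 =
    (-xc * d ψ (-1) 0 0 f - xc * d ψ 0 1 0 f - xc ^ 2 * d ψ (-1) 1 0 f)
      + ((xc + xc ^ 3) * d ψ (-1) 0 1 f + xc ^ 2 * d ψ (-1) 1 1 f + xc ^ 2 * d ψ (-1) (-1) 1 f)
      + (-xc * d ψ (-1) 0 2 f - xc * d ψ 0 (-1) 2 f - xc ^ 2 * d ψ (-1) (-1) 2 f)
      + (xc * d ψ 0 (-1) 3 f - xc * d ψ 0 1 3 f) := by
  have hx := xc_sq
  simp only [B, d, add_zero, ← sub_eq_add_neg]
  linear_combination (-ψ f 0 - ψ f 2 + (1 + xc) * ψ f 1) * hx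

/-- quasi-periodic fields -/
def QF (M : ℕ) (a b : ℝ) (φ : Fld) : Prop := ∀ k, QP M a b fun f => φ f k

/-- total mass of a field over a period -/
def SS (M : ℕ) (φ : Fld) : ℝ := ∑ k, S M fun f => φ f k ^ 2

/-- total Dirichlet form of a field over a period -/
def NN (M : ℕ) (φ : Fld) : ℝ := ∑ k, N M fun f => φ f k

theorem SS_nonneg (φ : Fld) : 0 ≤ SS M φ := sum_nonneg fun _ _ => S_nonneg fun _ => sq_nonneg _
theorem NN_nonneg (φ : Fld) : 0 ≤ NN M φ := sum_nonneg fun _ _ => N_nonneg _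

theorem S_le_SS (φ : Fld) (k : Fin 4) : S M (fun f => φ f k ^ 2) ≤ SS M φ :=
  single_le_sum (f := fun k => S M fun f => φ f k ^ 2)
    (fun _ _ => S_nonneg fun _ => sq_nonneg _) (mem_univ k)

theorem N_le_NN (φ : Fld) (k : Fin 4) : N M (fun f => φ f k) ≤ NN M φ :=
  single_le_sum (f := fun k => N M fun f => φ f k) (fun _ _ => N_nonneg _) (mem_univ k)

/-- one term of the pairing -/
theorem term_le (ha : a ^ 2 = 1) (hb : b ^ 2 = 1) {φ ψ : Fld} (hφ : QF M a b φ)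
    (hψ : QF M a b ψ) (h k : Fin 4) (x y : ℤ) (hx : x = -1 ∨ x = 0 ∨ x = 1)
    (hy : y = -1 ∨ y = 0 ∨ y = 1) :
    |S M fun f => φ f h * d ψ x y k f| ≤ 2 * Real.sqrt (NN M φ) * Real.sqrt (SS M ψ) := by
  refine (S_pair_diff ha hb (hφ h) (hψ k) x y hx hy).trans ?_
  have h1 := Real.sqrt_le_sqrt (N_le_NN (M := M) φ h)
  have h2 := Real.sqrt_le_sqrt (S_le_SS (M := M) ψ k)
  have h3 := Real.sqrt_nonneg (N M fun f => φ f h)
  have h4 := Real.sqrt_nonneg (S M fun f => ψ f k ^ 2)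
  have h5 := Real.sqrt_nonneg (SS M ψ)
  nlinarith [mul_le_mul h1 h2 h4 (Real.sqrt_nonneg (NN M φ))]

theorem xc_bounds : 0 < xc ∧ xc < 1 / 2 := ⟨xc_pos, xc_lt_half⟩

theorem xc3 : xc ^ 3 = 5 * xc - 2 := by
  have h := xc_sq
  have : xc ^ 3 = xc * xc ^ 2 := by ring
  rw [this, h]
  nlinarith [h]

/-- pairing with one row of the adjugate -/
theorem row_le (ha : a ^ 2 = 1) (hb : b ^ 2 = 1) {φ ψ : Fld} (hφ : QF M a b φ)
    (hψ : QF M a b ψ) (h : Fin 4) :
    S M (fun f => φ f h * B xc ψ f h) ≤ 8 * (Real.sqrt (NN M φ) * Real.sqrt (SS M ψ)) := by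
  obtain ⟨x0, x1⟩ := xc_bounds
  have hx2 := xc_sq
  have hx3 := xc3
  set T := Real.sqrt (NN M φ) * Real.sqrt (SS M ψ) with hT
  have T0 : 0 ≤ T := mul_nonneg (Real.sqrt_nonneg _) (Real.sqrt_nonneg _)
  have t : ∀ (k : Fin 4) (x y : ℤ), (x = -1 ∨ x = 0 ∨ x = 1) → (y = -1 ∨ y = 0 ∨ y = 1) →
      |S M fun f => φ f h * d ψ x y k f| ≤ 2 * T := by
    intro k x y hx hy
    have := term_le ha hb hφ hψ h k x y hx hy
    rw [hT]; linarith
  have t' : ∀ (c : ℝ) (k : Fin 4) (x y : ℤ), (x = -1 ∨ x = 0 ∨ x = 1) → (y = -1 ∨ y = 0 ∨ y = 1) →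
      c * (S M fun f => φ f h * d ψ x y k f) ≤ |c| * (2 * T) := by
    intro c k x y hx hy
    calc c * (S M fun f => φ f h * d ψ x y k f) ≤ |c * (S M fun f => φ f h * d ψ x y k f)| :=
          le_abs_self _
      _ = |c| * |S M fun f => φ f h * d ψ x y k f| := abs_mul _ _
      _ ≤ _ := mul_le_mul_of_nonneg_left (t k x y hx hy) (abs_nonneg c)
  have ax : |xc| = xc := abs_of_pos x0
  have anx : |-xc| = xc := by rw [abs_neg, ax]
  have ax2 : |xc ^ 2| = xc ^ 2 := abs_of_nonneg (sq_nonneg _)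
  have anx2 : |-xc ^ 2| = xc ^ 2 := by rw [abs_neg, ax2]
  have h13 : 0 < xc + xc ^ 3 := by positivity
  have ax3 : |xc + xc ^ 3| = xc + xc ^ 3 := abs_of_pos h13
  have anx3 : |-(xc + xc ^ 3)| = xc + xc ^ 3 := by rw [abs_neg, ax3]
  have m1 : (-1 : ℤ) = -1 ∨ (-1 : ℤ) = 0 ∨ (-1 : ℤ) = 1 := by omega
  have z0 : (0 : ℤ) = -1 ∨ (0 : ℤ) = 0 ∨ (0 : ℤ) = 1 := by omega
  have p1 : (1 : ℤ) = -1 ∨ (1 : ℤ) = 0 ∨ (1 : ℤ) = 1 := by omega
  fin_cases h
  · have e : S M (fun f => φ f 0 * B xc ψ f 0) =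
        xc * S M (fun f => φ f 0 * d ψ 1 0 0 f) + (-xc) * S M (fun f => φ f 0 * d ψ (-1) 0 0 f)
        + (xc * S M (fun f => φ f 0 * d ψ (-1) 0 1 f) + xc * S M (fun f => φ f 0 * d ψ 0 (-1) 1 f)
          + xc ^ 2 * S M (fun f => φ f 0 * d ψ (-1) (-1) 1 f))
        + (-(xc + xc ^ 3) * S M (fun f => φ f 0 * d ψ 0 (-1) 2 f)
          + (-xc ^ 2) * S M (fun f => φ f 0 * d ψ (-1) (-1) 2 f)
          + (-xc ^ 2) * S M (fun f => φ f 0 * d ψ 1 (-1) 2 f))
        + (xc * S M (fun f => φ f 0 * d ψ 1 0 3 f) + xc * S M (fun f => φ f 0 * d ψ 0 (-1) 3 f)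
          + xc ^ 2 * S M (fun f => φ f 0 * d ψ 1 (-1) 3 f)) := by
      simp only [← S_mul, ← S_add]
      exact S_congr fun f => by rw [B_row0]; ring
    have r1 := t' xc 0 1 0 p1 z0
    have r2 := t' (-xc) 0 (-1) 0 m1 z0
    have r3 := t' xc 1 (-1) 0 m1 z0
    have r4 := t' xc 1 0 (-1) z0 m1
    have r5 := t' (xc ^ 2) 1 (-1) (-1) m1 m1
    have r6 := t' (-(xc + xc ^ 3)) 2 0 (-1) z0 m1
    have r7 := t' (-xc ^ 2) 2 (-1) (-1) m1 m1
    have r8 := t' (-xc ^ 2) 2 1 (-1) p1 m1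
    have r9 := t' xc 3 1 0 p1 z0
    have r10 := t' xc 3 0 (-1) z0 m1
    have r11 := t' (xc ^ 2) 3 1 (-1) p1 m1
    rw [ax] at r1 r3 r4 r9 r10
    rw [anx] at r2
    rw [ax2] at r5 r11
    rw [anx2] at r7 r8
    rw [anx3] at r6
    simp only [Fin.zero_eta, Fin.isValue] at r1 r2 r3 r4 r5 r6 r7 r8 r9 r10 r11 ⊢
    rw [e]
    nlinarith
  · have e : S M (fun f => φ f 1 * B xc ψ f 1) =
        ((-xc) * S M (fun f => φ f 1 * d ψ 0 1 0 f) + (-xc) * S M (fun f => φ f 1 * d ψ 1 0 0 f)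
          + (-xc ^ 2) * S M (fun f => φ f 1 * d ψ 1 1 0 f))
        + (xc * S M (fun f => φ f 1 * d ψ 0 1 1 f) + (-xc) * S M (fun f => φ f 1 * d ψ 0 (-1) 1 f))
        + (xc * S M (fun f => φ f 1 * d ψ 1 0 2 f) + xc * S M (fun f => φ f 1 * d ψ 0 (-1) 2 f)
          + xc ^ 2 * S M (fun f => φ f 1 * d ψ 1 (-1) 2 f))
        + (-(xc + xc ^ 3) * S M (fun f => φ f 1 * d ψ 1 0 3 f)
          + (-xc ^ 2) * S M (fun f => φ f 1 * d ψ 1 1 3 f)
          + (-xc ^ 2) * S M (fun f => φ f 1 * d ψ 1 (-1) 3 f)) := by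
      simp only [← S_mul, ← S_add]
      exact S_congr fun f => by rw [B_row1]; ring
    have r1 := t' (-xc) 0 0 1 z0 p1
    have r2 := t' (-xc) 0 1 0 p1 z0
    have r3 := t' (-xc ^ 2) 0 1 1 p1 p1
    have r4 := t' xc 1 0 1 z0 p1
    have r5 := t' (-xc) 1 0 (-1) z0 m1
    have r6 := t' xc 2 1 0 p1 z0
    have r7 := t' xc 2 0 (-1) z0 m1
    have r8 := t' (xc ^ 2) 2 1 (-1) p1 m1
    have r9 := t' (-(xc + xc ^ 3)) 3 1 0 p1 z0
    have r10 := t' (-xc ^ 2) 3 1 1 p1 p1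
    have r11 := t' (-xc ^ 2) 3 1 (-1) p1 m1
    rw [ax] at r4 r6 r7
    rw [anx] at r1 r2 r5
    rw [ax2] at r8
    rw [anx2] at r3 r10 r11
    rw [anx3] at r9
    simp only [Fin.mk_one, Fin.isValue] at r1 r2 r3 r4 r5 r6 r7 r8 r9 r10 r11 ⊢
    rw [e]
    nlinarith
  · have e : S M (fun f => φ f 2 * B xc ψ f 2) =
        ((xc + xc ^ 3) * S M (fun f => φ f 2 * d ψ 0 1 0 f)
          + xc ^ 2 * S M (fun f => φ f 2 * d ψ (-1) 1 0 f)
          + xc ^ 2 * S M (fun f => φ f 2 * d ψ 1 1 0 f))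
        + ((-xc) * S M (fun f => φ f 2 * d ψ (-1) 0 1 f) + (-xc) * S M (fun f => φ f 2 * d ψ 0 1 1 f)
          + (-xc ^ 2) * S M (fun f => φ f 2 * d ψ (-1) 1 1 f))
        + (xc * S M (fun f => φ f 2 * d ψ (-1) 0 2 f) + (-xc) * S M (fun f => φ f 2 * d ψ 1 0 2 f))
        + (xc * S M (fun f => φ f 2 * d ψ 0 1 3 f) + xc * S M (fun f => φ f 2 * d ψ 1 0 3 f)
          + xc ^ 2 * S M (fun f => φ f 2 * d ψ 1 1 3 f)) := by
      simp only [← S_mul, ← S_add]
      exact S_congr fun f => by rw [B_row2]; ring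
    have r1 := t' (xc + xc ^ 3) 0 0 1 z0 p1
    have r2 := t' (xc ^ 2) 0 (-1) 1 m1 p1
    have r3 := t' (xc ^ 2) 0 1 1 p1 p1
    have r4 := t' (-xc) 1 (-1) 0 m1 z0
    have r5 := t' (-xc) 1 0 1 z0 p1
    have r6 := t' (-xc ^ 2) 1 (-1) 1 m1 p1
    have r7 := t' xc 2 (-1) 0 m1 z0
    have r8 := t' (-xc) 2 1 0 p1 z0
    have r9 := t' xc 3 0 1 z0 p1
    have r10 := t' xc 3 1 0 p1 z0
    have r11 := t' (xc ^ 2) 3 1 1 p1 p1
    rw [ax] at r7 r9 r10
    rw [anx] at r4 r5 r8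
    rw [ax2] at r2 r3 r11
    rw [anx2] at r6
    rw [ax3] at r1
    simp only [Fin.reduceFinMk, Fin.isValue] at r1 r2 r3 r4 r5 r6 r7 r8 r9 r10 r11 ⊢
    rw [e]
    nlinarith
  · have e : S M (fun f => φ f 3 * B xc ψ f 3) =
        ((-xc) * S M (fun f => φ f 3 * d ψ (-1) 0 0 f) + (-xc) * S M (fun f => φ f 3 * d ψ 0 1 0 f)
          + (-xc ^ 2) * S M (fun f => φ f 3 * d ψ (-1) 1 0 f))
        + ((xc + xc ^ 3) * S M (fun f => φ f 3 * d ψ (-1) 0 1 f)
          + xc ^ 2 * S M (fun f => φ f 3 * d ψ (-1) 1 1 f)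
          + xc ^ 2 * S M (fun f => φ f 3 * d ψ (-1) (-1) 1 f))
        + ((-xc) * S M (fun f => φ f 3 * d ψ (-1) 0 2 f)
          + (-xc) * S M (fun f => φ f 3 * d ψ 0 (-1) 2 f)
          + (-xc ^ 2) * S M (fun f => φ f 3 * d ψ (-1) (-1) 2 f))
        + (xc * S M (fun f => φ f 3 * d ψ 0 (-1) 3 f)
          + (-xc) * S M (fun f => φ f 3 * d ψ 0 1 3 f)) := by
      simp only [← S_mul, ← S_add]
      exact S_congr fun f => by rw [B_row3]; ring
    have r1 := t' (-xc) 0 (-1) 0 m1 z0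
    have r2 := t' (-xc) 0 0 1 z0 p1
    have r3 := t' (-xc ^ 2) 0 (-1) 1 m1 p1
    have r4 := t' (xc + xc ^ 3) 1 (-1) 0 m1 z0
    have r5 := t' (xc ^ 2) 1 (-1) 1 m1 p1
    have r6 := t' (xc ^ 2) 1 (-1) (-1) m1 m1
    have r7 := t' (-xc) 2 (-1) 0 m1 z0
    have r8 := t' (-xc) 2 0 (-1) z0 m1
    have r9 := t' (-xc ^ 2) 2 (-1) (-1) m1 m1
    have r10 := t' xc 3 0 (-1) z0 m1
    have r11 := t' (-xc) 3 0 1 z0 p1
    rw [ax] at r10
    rw [anx] at r1 r2 r7 r8 r11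
    rw [ax2] at r5 r6
    rw [anx2] at r3 r9
    rw [ax3] at r4
    simp only [Fin.reduceFinMk, Fin.isValue] at r1 r2 r3 r4 r5 r6 r7 r8 r9 r10 r11 ⊢
    rw [e]
    nlinarith

/-- quasi-periodicity of `A φ` -/
theorem QF_A (ha : a ^ 2 = 1) (hb : b ^ 2 = 1) {φ : Fld} (hφ : QF M a b φ) :
    QF M a b (A (cst xc) φ) := by
  have h0 := hφ 0
  have h1 := hφ 1
  have h2 := hφ 2
  have h3 := hφ 3
  have h2' := (hφ 2).shift 0 (-1)
  have h3' := (hφ 3).shift 1 0
  have h0' := (hφ 0).shift 0 1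
  have h1' := (hφ 1).shift (-1) 0
  intro k
  fin_cases k
  · refine ⟨fun f => ?_, fun f => ?_⟩
    · have e0 := h0.1 f; have e1 := h1.1 f; have e2 := h2.1 f; have e3 := h3.1 f
      have e4 := h2'.1 f
      simp only [add_zero, ← sub_eq_add_neg] at e4
      simp only [A_S, cst, Fin.zero_eta, e1, e2, e3, e4]
      ring
    · have e0 := h0.2 f; have e1 := h1.2 f; have e2 := h2.2 f; have e3 := h3.2 f
      have e4 := h2'.2 f
      simp only [add_zero, ← sub_eq_add_neg] at e4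
      simp only [A_S, cst, Fin.zero_eta, e1, e2, e3, e4]
      ring
  · refine ⟨fun f => ?_, fun f => ?_⟩
    · have e0 := h0.1 f; have e1 := h1.1 f; have e2 := h2.1 f; have e3 := h3.1 f
      have e4 := h3'.1 f
      simp only [add_zero] at e4
      simp only [A_E, cst, Fin.mk_one, e0, e2, e3, e4]
      ring
    · have e0 := h0.2 f; have e1 := h1.2 f; have e2 := h2.2 f; have e3 := h3.2 f
      have e4 := h3'.2 f
      simp only [add_zero] at e4
      simp only [A_E, cst, Fin.mk_one, e0, e2, e3, e4]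
      ring
  · refine ⟨fun f => ?_, fun f => ?_⟩
    · have e0 := h0.1 f; have e1 := h1.1 f; have e2 := h2.1 f; have e3 := h3.1 f
      have e4 := h0'.1 f
      simp only [add_zero] at e4
      simp only [A_N, cst, Fin.reduceFinMk, e0, e1, e3, e4]
      ring
    · have e0 := h0.2 f; have e1 := h1.2 f; have e2 := h2.2 f; have e3 := h3.2 f
      have e4 := h0'.2 f
      simp only [add_zero] at e4
      simp only [A_N, cst, Fin.reduceFinMk, e0, e1, e3, e4]
      ring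
  · refine ⟨fun f => ?_, fun f => ?_⟩
    · have e0 := h0.1 f; have e1 := h1.1 f; have e2 := h2.1 f; have e3 := h3.1 f
      have e4 := h1'.1 f
      simp only [add_zero, ← sub_eq_add_neg] at e4
      simp only [A_W, cst, Fin.reduceFinMk, e0, e1, e2, e4]
      ring
    · have e0 := h0.2 f; have e1 := h1.2 f; have e2 := h2.2 f; have e3 := h3.2 f
      have e4 := h1'.2 f
      simp only [add_zero, ← sub_eq_add_neg] at e4
      simp only [A_W, cst, Fin.reduceFinMk, e0, e1, e2, e4]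
      ring

/-- **gradient bound** for quasi-periodic fields at criticality -/
theorem grad_le (ha : a ^ 2 = 1) (hb : b ^ 2 = 1) {φ : Fld} (hφ : QF M a b φ) :
    NN M φ ≤ (32 / c0) ^ 2 * SS M (A (cst xc) φ) := by
  have hA := QF_A ha hb hφ
  have e1 : c0 * NN M φ = ∑ h, S M (fun f => φ f h * B xc (A (cst xc) φ) f h) := by
    unfold NN
    rw [mul_sum]
    refine sum_congr rfl fun h _ => ?_
    rw [← S_lap ha hb (hφ h), ← S_mul]
    refine S_congr fun f => ?_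
    rw [B_A_xc, Lap]; ring
  have e2 : c0 * NN M φ ≤ 32 * (Real.sqrt (NN M φ) * Real.sqrt (SS M (A (cst xc) φ))) := by
    rw [e1, Fin.sum_univ_four]
    have r0 := row_le ha hb hφ hA 0
    have r1 := row_le ha hb hφ hA 1
    have r2 := row_le ha hb hφ hA 2
    have r3 := row_le ha hb hφ hA 3
    linarith
  have hc := c0_pos
  have h1 := Real.sqrt_nonneg (NN M φ)
  have h2 := Real.sqrt_nonneg (SS M (A (cst xc) φ))
  have h3 := Real.mul_self_sqrt (NN_nonneg (M := M) φ)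
  have h4 := Real.mul_self_sqrt (SS_nonneg (M := M) (A (cst xc) φ))
  set p := Real.sqrt (NN M φ)
  set q := Real.sqrt (SS M (A (cst xc) φ))
  rw [← h3, ← h4]
  rcases eq_or_lt_of_le h1 with h0 | h0
  · rw [← h0, mul_zero]
    exact mul_nonneg (sq_nonneg _) (mul_self_nonneg _)
  · have e3 : c0 * p ≤ 32 * q := by
      rw [← h3] at e2
      have : p * (c0 * p) ≤ p * (32 * q) := by nlinarith
      exact le_of_mul_le_mul_left this h0
    have e4 : p ≤ 32 / c0 * q := by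
      rw [div_mul_eq_mul_div, le_div_iff₀ hc]; linarith
    calc p * p ≤ (32 / c0 * q) * (32 / c0 * q) := mul_self_le_mul_self h1 e4
      _ = (32 / c0) ^ 2 * (q * q) := by ring

/-! ### Poincaré inequalities -/

theorem sq_sum_le (s : Finset ℕ) (v : ℕ → ℝ) : (∑ i ∈ s, |v i|) ^ 2 ≤ s.card * ∑ i ∈ s, v i ^ 2 := by
  have h := sq_sum_le_card_mul_sum_sq (s := s) (f := fun i => |v i|)
  simpa only [sq_abs] using h

/-- telescoping on a segment -/
theorem abs_sub_le_sum (v : ℤ → ℝ) (i : ℤ) (n : ℕ) :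
    |v (i + n) - v i| ≤ ∑ k ∈ range n, |v (i + k + 1) - v (i + k)| := by
  induction n with
  | zero => simp
  | succ n ih =>
    rw [sum_range_succ]
    have e : v (i + ((n + 1 : ℕ) : ℤ)) - v i = (v (i + n + 1) - v (i + n)) + (v (i + n) - v i) := by
      rw [show i + ((n + 1 : ℕ) : ℤ) = i + n + 1 by push_cast; ring]; ring
    rw [e]
    refine (abs_add_le _ _).trans ?_
    linarith

/-- antiperiodic functions of one variable -/
theorem anti_one (M : ℕ) (v : ℤ → ℝ) (hv : ∀ i, v (i + M) = -v i) :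
    4 * ∑ i ∈ range M, v i ^ 2 ≤ (M : ℝ) ^ 2 * ∑ i ∈ range M, (v (i + 1) - v i) ^ 2 := by
  have per : ∀ i : ℤ, |v (i + M + 1) - v (i + M)| = |v (i + 1) - v i| := by
    intro i
    rw [hv i, show i + (M : ℤ) + 1 = i + 1 + M by ring, hv (i + 1), ← abs_neg]
    congr 1; ring
  have key : ∀ i : ℤ, 4 * v i ^ 2 ≤ (M : ℝ) * ∑ k ∈ range M, (v (k + 1) - v k) ^ 2 := by
    intro i
    have h1 := abs_sub_le_sum v i M
    rw [hv i] at h1
    have h2 : ∑ k ∈ range M, |v (i + k + 1) - v (i + k)| = ∑ k ∈ range M, |v ((k : ℤ) + 1) - v k| := by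
      have := sum_shift M (fun k => |v (k + 1) - v k|) per i
      rw [← this]
      refine sum_congr rfl fun k _ => ?_
      rw [add_comm (k : ℤ) i]
    have h3 : |(-v i) - v i| = 2 * |v i| := by
      rw [show -v i - v i = -(2 * v i) by ring, abs_neg, abs_mul, abs_two]
    rw [h2, h3] at h1
    have h4 := sq_sum_le (range M) (fun k => v ((k : ℤ) + 1) - v k)
    rw [card_range] at h4
    have h5 : (2 * |v i|) ^ 2 ≤ (∑ k ∈ range M, |v ((k : ℤ) + 1) - v k|) ^ 2 :=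
      pow_le_pow_left₀ (by positivity) h1 2
    have h6 : (2 * |v i|) ^ 2 = 4 * v i ^ 2 := by rw [mul_pow, sq_abs]; norm_num
    rw [h6] at h5
    exact h5.trans h4
  calc 4 * ∑ i ∈ range M, v i ^ 2 = ∑ i ∈ range M, 4 * v i ^ 2 := by rw [mul_sum]
    _ ≤ ∑ _i ∈ range M, (M : ℝ) * ∑ k ∈ range M, (v (k + 1) - v k) ^ 2 :=
        sum_le_sum fun i _ => key i
    _ = _ := by rw [sum_const, card_range, nsmul_eq_mul]; ring

/-- antiperiodic in the first direction -/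
theorem poin_anti1 (hu : QP M (-1) b u) : 4 * S M (fun f => u f ^ 2) ≤ (M : ℝ) ^ 2 * N M u := by
  have h1 : ∀ j : ℤ, 4 * ∑ i ∈ range M, u ((i : ℤ), j) ^ 2 ≤
      (M : ℝ) ^ 2 * ∑ i ∈ range M, (u ((i : ℤ) + 1, j) - u ((i : ℤ), j)) ^ 2 := fun j =>
    anti_one M (fun i => u (i, j)) fun i => by
      have := hu.1 (i, j); simpa using this
  unfold N
  have h2 : 0 ≤ (M : ℝ) ^ 2 * S M (fun f => (u (f.1, f.2 + 1) - u f) ^ 2) :=
    mul_nonneg (sq_nonneg _) (S_nonneg fun _ => sq_nonneg _)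
  have h3 : 4 * S M (fun f => u f ^ 2) ≤
      (M : ℝ) ^ 2 * S M (fun f => (u (f.1 + 1, f.2) - u f) ^ 2) := by
    unfold S
    rw [sum_comm, sum_comm (s := range M) (t := range M) (f := fun i j =>
      (u ((i : ℤ) + 1, (j : ℤ)) - u ((i : ℤ), (j : ℤ))) ^ 2), mul_sum, mul_sum]
    exact sum_le_sum fun j _ => h1 j
  rw [mul_add]; linarith

/-- antiperiodic in the second direction -/
theorem poin_anti2 (hu : QP M a (-1) u) : 4 * S M (fun f => u f ^ 2) ≤ (M : ℝ) ^ 2 * N M u := by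
  have h1 : ∀ i : ℤ, 4 * ∑ j ∈ range M, u (i, (j : ℤ)) ^ 2 ≤
      (M : ℝ) ^ 2 * ∑ j ∈ range M, (u (i, (j : ℤ) + 1) - u (i, (j : ℤ))) ^ 2 := fun i =>
    anti_one M (fun j => u (i, j)) fun j => by
      have := hu.2 (i, j); simpa using this
  unfold N
  have h2 : 0 ≤ (M : ℝ) ^ 2 * S M (fun f => (u (f.1 + 1, f.2) - u f) ^ 2) :=
    mul_nonneg (sq_nonneg _) (S_nonneg fun _ => sq_nonneg _)
  have h3 : 4 * S M (fun f => u f ^ 2) ≤
      (M : ℝ) ^ 2 * S M (fun f => (u (f.1, f.2 + 1) - u f) ^ 2) := by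
    unfold S
    rw [mul_sum, mul_sum]
    exact sum_le_sum fun i _ => h1 i
  rw [mul_add]; linarith

/-- periodic functions of one variable: differences -/
theorem per_one (M : ℕ) (v : ℤ → ℝ) (i j : ℕ) (hi : i < M) (hj : j < M) :
    (v i - v j) ^ 2 ≤ (M : ℝ) * ∑ k ∈ range M, (v (k + 1) - v k) ^ 2 := by
  wlog hij : j ≤ i generalizing i j with H
  · have := H j i hj hi (by omega)
    rw [show (v i - v j) ^ 2 = (v j - v i) ^ 2 by ring]; exact this
  obtain ⟨n, rfl⟩ := Nat.exists_eq_add_of_le hij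
  have h1 := abs_sub_le_sum v j n
  have h2 : ∑ k ∈ range n, |v ((j : ℤ) + k + 1) - v ((j : ℤ) + k)| ≤
      ∑ k ∈ range M, |v ((k : ℤ) + 1) - v k| := by
    have e : ∑ k ∈ range n, |v ((j : ℤ) + k + 1) - v ((j : ℤ) + k)| =
        ∑ k ∈ Finset.Ico j (j + n), |v ((k : ℤ) + 1) - v k| := by
      rw [Finset.sum_Ico_eq_sum_range, Nat.add_sub_cancel_left]
      refine sum_congr rfl fun k _ => ?_
      push_cast; rfl
    rw [e]
    refine sum_le_sum_of_subset_of_nonneg (fun k hk => ?_) fun _ _ _ => abs_nonneg _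
    rw [Finset.mem_Ico] at hk
    rw [Finset.mem_range]; omega
  have h4 := sq_sum_le (range M) (fun k => v ((k : ℤ) + 1) - v k)
  rw [card_range] at h4
  have h5 : |v ((j : ℤ) + n) - v j| ^ 2 ≤ (∑ k ∈ range M, |v ((k : ℤ) + 1) - v k|) ^ 2 :=
    pow_le_pow_left₀ (abs_nonneg _) (h1.trans h2) 2
  rw [sq_abs] at h5
  push_cast
  exact h5.trans h4

/-- difference of two values on the box -/
theorem diff_two (u : ℤ × ℤ → ℝ) (i j i' j' : ℕ) (hi : i < M) (hj : j < M) (hi' : i' < M)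
    (hj' : j' < M) :
    (u ((i : ℤ), (j : ℤ)) - u ((i' : ℤ), (j' : ℤ))) ^ 2 ≤
      2 * ((M : ℝ) * ∑ k ∈ range M, (u ((k : ℤ) + 1, (j : ℤ)) - u ((k : ℤ), (j : ℤ))) ^ 2) +
      2 * ((M : ℝ) * ∑ k ∈ range M, (u ((i' : ℤ), (k : ℤ) + 1) - u ((i' : ℤ), (k : ℤ))) ^ 2) := by
  have h1 := per_one M (fun i => u (i, (j : ℤ))) i i' hi hi'
  have h2 := per_one M (fun j => u ((i' : ℤ), j)) j j' hj hj'
  nlinarith [sq_nonneg ((u ((i : ℤ), (j : ℤ)) - u ((i' : ℤ), (j : ℤ))) -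
    (u ((i' : ℤ), (j : ℤ)) - u ((i' : ℤ), (j' : ℤ))))]

/-- **Poincaré inequality with the mean** (periodicity is not even needed) -/
theorem poin_mean (hM : 0 < M) (u : ℤ × ℤ → ℝ) :
    S M (fun f => u f ^ 2) ≤ (M : ℝ) ^ 2 * N M u + (S M u) ^ 2 / (M : ℝ) ^ 2 := by
  have hM' : (0 : ℝ) < M := by exact_mod_cast hM
  -- the double sum of squared differences
  have e1 : S M (fun f => S M fun g => (u f - u g) ^ 2) =
      2 * (M : ℝ) ^ 2 * S M (fun f => u f ^ 2) - 2 * (S M u) ^ 2 := by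
    have c : ∀ c : ℝ, S M (fun _ => c) = (M : ℝ) ^ 2 * c := by
      intro c; simp only [S, sum_const, card_range, nsmul_eq_mul]; ring
    have : ∀ f, S M (fun g => (u f - u g) ^ 2) =
        (M : ℝ) ^ 2 * u f ^ 2 - 2 * (u f * S M u) + S M (fun g => u g ^ 2) := by
      intro f
      rw [← c, ← S_mul, ← S_mul, ← S_sub, ← S_add]
      exact S_congr fun g => by ring
    rw [S_congr this, S_add, S_sub, S_mul, S_mul, c]
    have h3 : S M (fun f => u f * S M u) = S M u * S M u := by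
      rw [← S_mul]; exact S_congr fun f => by ring
    rw [h3]; ring
  have e2 : S M (fun f => S M fun g => (u f - u g) ^ 2) ≤ 2 * (M : ℝ) ^ 4 * N M u := by
    have h1 : S M (fun f => S M fun g => (u f - u g) ^ 2) ≤
        ∑ i ∈ range M, ∑ j ∈ range M, ∑ i' ∈ range M, ∑ j' ∈ range M,
          (2 * ((M : ℝ) * ∑ k ∈ range M, (u ((k : ℤ) + 1, (j : ℤ)) - u ((k : ℤ), (j : ℤ))) ^ 2) +
          2 * ((M : ℝ) * ∑ k ∈ range M,
            (u ((i' : ℤ), (k : ℤ) + 1) - u ((i' : ℤ), (k : ℤ))) ^ 2)) := by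
      unfold S
      refine sum_le_sum fun i hi => sum_le_sum fun j hj => sum_le_sum fun i' hi' =>
        sum_le_sum fun j' hj' => ?_
      exact diff_two u i j i' j' (mem_range.1 hi) (mem_range.1 hj) (mem_range.1 hi')
        (mem_range.1 hj')
    refine h1.trans (le_of_eq ?_)
    simp only [sum_add_distrib, sum_const, card_range, nsmul_eq_mul, ← mul_sum]
    unfold N S
    rw [sum_comm (s := range M) (t := range M) (f := fun i j =>
      (u ((i : ℤ) + 1, (j : ℤ)) - u ((i : ℤ), (j : ℤ))) ^ 2)]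
    ring
  have h4 : 2 * (M : ℝ) ^ 2 * S M (fun f => u f ^ 2) ≤
      2 * (M : ℝ) ^ 4 * N M u + 2 * (S M u) ^ 2 := by linarith
  have h5 : (0 : ℝ) < 2 * (M : ℝ) ^ 2 := by positivity
  have h6 : 2 * (M : ℝ) ^ 2 * S M (fun f => u f ^ 2) ≤
      2 * (M : ℝ) ^ 2 * ((M : ℝ) ^ 2 * N M u + (S M u) ^ 2 / (M : ℝ) ^ 2) := by
    refine h4.trans (le_of_eq ?_)
    field_simp
  exact le_of_mul_le_mul_left h6 h5

end Crest.Agent.R165.TorGapAx63
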