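import Crest.Agent.R165.TorGapA_63
import Crest.Agent.R165.TorBr_599
import Crest.Agent.R165.FRDRest_439

/-!
# Row 165 (S0250): torus gaps without spins, part B (helper63)

Lift of the torus `ZMod M` to quasi-periodic fields on `ℤ × ℤ` and the gap of the four sectors:
`∑ φ² ≤ (K M)² ∑ (A φ)²` (sector `(0,0)`: for `φ` orthogonal to the two zero modes).
-/

set_option autoImplicit false
set_option linter.unusedSectionVars false

noncomputable section

namespace Crest.Agent.R165.TorGapBx63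

open Finset Crest.Agent.R165.Tr1x40 Crest.Agent.R165.Tr2x40 Crest.Agent.R165.TorGapAx63
open Crest.Agent.R165.Latx683 (HE BW Aop yE yN)

variable {M : ℕ} [NeZero M]

/-! ### signs -/

/-- `ε ^ ⌊i / M⌋` -/
def sgl (M : ℕ) (ε : ℝ) (i : ℤ) : ℝ := ε ^ (i / (M : ℤ))

theorem ne_of_sq {ε : ℝ} (h : ε ^ 2 = 1) : ε ≠ 0 := by
  rintro rfl; norm_num at h

theorem sgl_sq {ε : ℝ} (h : ε ^ 2 = 1) (i : ℤ) : sgl M ε i ^ 2 = 1 := by
  unfold sgl
  rw [← zpow_natCast, ← zpow_mul, mul_comm, zpow_mul, zpow_natCast, h, one_zpow]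

theorem sgl_add {ε : ℝ} (h : ε ^ 2 = 1) (i : ℤ) : sgl M ε (i + M) = ε * sgl M ε i := by
  have hM : (M : ℤ) ≠ 0 := by exact_mod_cast NeZero.ne M
  unfold sgl
  rw [show i + (M : ℤ) = i + 1 * M by ring, Int.add_mul_ediv_right _ _ hM,
    zpow_add₀ (ne_of_sq h), zpow_one]
  ring

theorem sgl_succ {ε : ℝ} (h : ε ^ 2 = 1) (i : ℤ) :
    sgl M ε (i + 1) = sgl M ε i * (if ((i + 1 : ℤ) : ZMod M) = 0 then ε else 1) := by
  have hM : (0 : ℤ) < M := by exact_mod_cast Nat.pos_of_ne_zero (NeZero.ne M)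
  unfold sgl
  have h1 := Int.emod_add_mul_ediv i M
  have h2 := Int.emod_nonneg i hM.ne'
  have h3 := Int.emod_lt_of_pos i hM
  by_cases hr : i % M + 1 = M
  · have e1 : i + 1 = (i / M + 1) * M := by linarith [mul_comm (M : ℤ) (i / M)]
    have e2 : (i + 1) / (M : ℤ) = i / M + 1 := by
      rw [e1, Int.mul_ediv_cancel _ hM.ne']
    have e3 : ((i + 1 : ℤ) : ZMod M) = 0 := by
      rw [ZMod.intCast_zmod_eq_zero_iff_dvd]
      exact ⟨i / M + 1, by rw [e1]; ring⟩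
    rw [if_pos e3, e2, zpow_add₀ (ne_of_sq h), zpow_one]
  · have e2 : (i + 1) / (M : ℤ) = i / M := by
      have : i + 1 = (i % M + 1) + (i / M) * M := by linarith [mul_comm (M : ℤ) (i / M)]
      rw [this, Int.add_mul_ediv_right _ _ hM.ne',
        Int.ediv_eq_zero_of_lt (by omega) (by omega), zero_add]
    have e3 : ((i + 1 : ℤ) : ZMod M) ≠ 0 := by
      rw [Ne, ZMod.intCast_zmod_eq_zero_iff_dvd]
      rintro ⟨c, hc⟩
      have e4 : (i + 1) % (M : ℤ) = 0 := by rw [hc]; exact Int.mul_emod_right _ _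
      have e5 : (i + 1) % (M : ℤ) = i % M + 1 := by
        have : i + 1 = (i % M + 1) + M * (i / M) := by linarith
        rw [this, Int.add_mul_emod_self_left]
        exact Int.emod_eq_of_lt (by omega) (by omega)
      omega
    rw [if_neg e3, e2, mul_one]

/-! ### the lift -/

/-- the lift of a torus field -/
def lift (a b : ℝ) (φ : HE (ZMod M) → ℝ) : Fld := fun f k =>
  sgl M a f.1 * sgl M b f.2 * φ (((f.1 : ZMod M), (f.2 : ZMod M)), k)

theorem QF_lift {a b : ℝ} (ha : a ^ 2 = 1) (hb : b ^ 2 = 1) (φ : HE (ZMod M) → ℝ) :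
    QF M a b (lift a b φ) := by
  intro k
  refine ⟨fun f => ?_, fun f => ?_⟩
  · simp only [lift]
    rw [sgl_add ha]
    push_cast
    rw [ZMod.natCast_self, add_zero]
    ring
  · simp only [lift]
    rw [sgl_add hb]
    push_cast
    rw [ZMod.natCast_self, add_zero]
    ring

/-- sector weights on `Lat_683` types -/
def wT (M : ℕ) [NeZero M] (a b : ℝ) : BW (ZMod M) := TorDetx599.wS M xc a b

theorem A_lift {a b : ℝ} (ha : a ^ 2 = 1) (hb : b ^ 2 = 1) (φ : HE (ZMod M) → ℝ) (f : Face)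
    (k : Fin 4) : A (cst xc) (lift a b φ) f k = lift a b (Aop (wT M a b) φ) f k := by
  obtain ⟨i, j⟩ := f
  have hi := sgl_succ (M := M) ha i
  have hj := sgl_succ (M := M) hb j
  have hi' := sgl_succ (M := M) ha (i - 1)
  have hj' := sgl_succ (M := M) hb (j - 1)
  rw [sub_add_cancel] at hi' hj'
  have a2 : ∀ p : Prop, [Decidable p] → (if p then a else 1) * (if p then a else 1) = 1 := by
    intro p _; split_ifs
    · rw [← pow_two, ha]
    · norm_num
  have b2 : ∀ p : Prop, [Decidable p] → (if p then b else 1) * (if p then b else 1) = 1 := by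
    intro p _; split_ifs
    · rw [← pow_two, hb]
    · norm_num
  have hi'' : sgl M a (i - 1) = sgl M a i * (if ((i : ℤ) : ZMod M) = 0 then a else 1) := by
    rw [hi', mul_assoc, a2, mul_one]
  have hj'' : sgl M b (j - 1) = sgl M b j * (if ((j : ℤ) : ZMod M) = 0 then b else 1) := by
    rw [hj', mul_assoc, b2, mul_one]
  fin_cases k
  · simp only [A_S, cst, lift, Fin.zero_eta, Latx683.Aop_S, wT, yN, TorDetx599.wS]
    rw [hj'']
    push_cast
    simp only [sub_add_cancel]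
    ring
  · simp only [A_E, cst, lift, Fin.mk_one, Latx683.Aop_E, wT, yE, TorDetx599.wS]
    rw [hi]
    push_cast
    ring
  · simp only [A_N, cst, lift, Fin.reduceFinMk, Latx683.Aop_N, wT, yN, TorDetx599.wS]
    rw [hj]
    push_cast
    ring
  · simp only [A_W, cst, lift, Fin.reduceFinMk, Latx683.Aop_W, wT, yE, TorDetx599.wS]
    rw [hi'']
    push_cast
    simp only [sub_add_cancel]
    ring

/-- sum over one period -/
theorem sum_cast (g : ZMod M → ℝ) : ∑ i ∈ range M, g ((i : ℕ) : ZMod M) = ∑ x : ZMod M, g x := by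
  refine Finset.sum_nbij (fun i : ℕ => (i : ZMod M)) (fun _ _ => mem_univ _) ?_ ?_ fun _ _ => rfl
  · intro i hi j hj hij
    have hi' := mem_range.1 hi
    have hj' := mem_range.1 hj
    have := (ZMod.natCast_eq_natCast_iff' i j M).1 hij
    rwa [Nat.mod_eq_of_lt hi', Nat.mod_eq_of_lt hj'] at this
  · intro x _
    exact ⟨x.val, by simpa using ZMod.val_lt x, by simp⟩

theorem S_lift (g : ZMod M × ZMod M → ℝ) :
    S M (fun f => g ((f.1 : ZMod M), (f.2 : ZMod M))) = ∑ z, g z := by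
  unfold S
  rw [Fintype.sum_prod_type]
  have h1 : ∀ i : ℕ, ∑ j ∈ range M, g ((((i : ℤ)) : ZMod M), (((j : ℕ) : ℤ) : ZMod M)) =
      ∑ y : ZMod M, g ((((i : ℤ)) : ZMod M), y) := by
    intro i
    have := sum_cast (fun y => g ((((i : ℤ)) : ZMod M), y))
    simpa using this
  simp only [h1]
  have := sum_cast (fun x => ∑ y : ZMod M, g (x, y))
  simpa using this

/-- squared Euclidean norm -/
def n2 (φ : HE (ZMod M) → ℝ) : ℝ := ∑ h, φ h ^ 2

theorem SS_lift {a b : ℝ} (ha : a ^ 2 = 1) (hb : b ^ 2 = 1) (φ : HE (ZMod M) → ℝ) :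
    SS M (lift a b φ) = n2 φ := by
  unfold SS n2
  rw [Fintype.sum_prod_type, sum_comm]
  refine sum_congr rfl fun k _ => ?_
  rw [← S_lift (fun z => φ (z, k) ^ 2)]
  refine S_congr fun f => ?_
  simp only [lift]
  have h1 := sgl_sq (M := M) ha f.1
  have h2 := sgl_sq (M := M) hb f.2
  rw [mul_pow, mul_pow, h1, h2]; ring

theorem SS_A_lift {a b : ℝ} (ha : a ^ 2 = 1) (hb : b ^ 2 = 1) (φ : HE (ZMod M) → ℝ) :
    SS M (A (cst xc) (lift a b φ)) = n2 (Aop (wT M a b) φ) := by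
  have : A (cst xc) (lift a b φ) = lift a b (Aop (wT M a b) φ) :=
    funext fun f => funext fun k => A_lift ha hb φ f k
  rw [this, SS_lift ha hb]

/-! ### gaps -/

/-- the absolute constant of the gap -/
def Kg : ℝ := 33 / c0

theorem Kg_pos : 0 < Kg := by unfold Kg; have := c0_pos; positivity

theorem c0_lt : c0 < 1 := by
  rw [c0_eq]; have := xc_pos; have := xc_lt_half; nlinarith

/-- gap, one antiperiodic direction -/
theorem gap_anti {a b : ℝ} (ha : a ^ 2 = 1) (hb : b ^ 2 = 1) (hab : a = -1 ∨ b = -1)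
    (φ : HE (ZMod M) → ℝ) : n2 φ ≤ (Kg * M) ^ 2 * n2 (Aop (wT M a b) φ) := by
  have hq := QF_lift ha hb φ
  have h1 := grad_le ha hb hq
  rw [SS_A_lift ha hb] at h1
  have h2 : 4 * SS M (lift a b φ) ≤ (M : ℝ) ^ 2 * NN M (lift a b φ) := by
    unfold SS NN
    rw [mul_sum, mul_sum]
    refine sum_le_sum fun k _ => ?_
    rcases hab with rfl | rfl
    · exact poin_anti1 (hq k)
    · exact poin_anti2 (hq k)
  rw [SS_lift ha hb] at h2
  have hM : (0 : ℝ) ≤ (M : ℝ) ^ 2 := sq_nonneg _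
  have hA : 0 ≤ n2 (Aop (wT M a b) φ) := sum_nonneg fun _ _ => sq_nonneg _
  have hc := c0_pos
  have h3 : 4 * n2 φ ≤ (M : ℝ) ^ 2 * ((32 / c0) ^ 2 * n2 (Aop (wT M a b) φ)) :=
    h2.trans (mul_le_mul_of_nonneg_left h1 hM)
  have h4 : (32 / c0) ^ 2 ≤ Kg ^ 2 := by
    unfold Kg
    apply pow_le_pow_left₀ (by positivity)
    exact div_le_div_of_nonneg_right (by norm_num) hc.le
  have h5 : (M : ℝ) ^ 2 * ((32 / c0) ^ 2 * n2 (Aop (wT M a b) φ)) ≤
      (M : ℝ) ^ 2 * (Kg ^ 2 * n2 (Aop (wT M a b) φ)) := by gcongr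
  have h6 : 0 ≤ (M : ℝ) ^ 2 * (Kg ^ 2 * n2 (Aop (wT M a b) φ)) := by positivity
  rw [mul_pow]
  nlinarith

/-- heavy constants: the symbol of `A` at zero momentum is `√8` times an isometry off the light
constants -/
theorem symbol_zero (s : Fin 4 → ℝ) :
    (s 1 + s 2 + s 3 + xc * s 2) ^ 2 + (-s 0 + s 2 + s 3 + xc * s 3) ^ 2
      + (-s 0 - s 1 + s 3 - xc * s 0) ^ 2 + (-s 0 - s 1 - s 2 - xc * s 1) ^ 2
    = 8 * (s 0 ^ 2 + s 1 ^ 2 + s 2 ^ 2 + s 3 ^ 2)
      - 4 * ((-(Real.sqrt 2 / 2) * s 0 + s 1 + -(Real.sqrt 2 / 2) * s 2) ^ 2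
        + (-(Real.sqrt 2 / 2) * s 0 + Real.sqrt 2 / 2 * s 2 - s 3) ^ 2) := by
  have h2 : Real.sqrt 2 ^ 2 = 2 := Real.sq_sqrt (by norm_num)
  unfold xc
  ring_nf
  rw [h2]
  ring

/-- **gap off the zero modes, periodic sector** -/
theorem gap_per (φ : HE (ZMod M) → ℝ)
    (h1 : ∑ h, TorSecx599.u1 M h * φ h = 0) (h2 : ∑ h, TorSecx599.u2 M h * φ h = 0) :
    n2 φ ≤ (Kg * M) ^ 2 * n2 (Aop (wT M 1 1) φ) := by
  have o : (1 : ℝ) ^ 2 = 1 := one_pow 2
  have hM : 0 < M := Nat.pos_of_ne_zero (NeZero.ne M)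
  have hM' : (1 : ℝ) ≤ M := by exact_mod_cast hM
  have hM0 : (0 : ℝ) < M := by linarith
  have hq := QF_lift (M := M) o o φ
  have g1 := grad_le o o hq
  rw [SS_A_lift o o] at g1
  -- means
  set s : Fin 4 → ℝ := fun k => S M fun f => lift 1 1 φ f k with hs
  have g2 : SS M (lift 1 1 φ) ≤ (M : ℝ) ^ 2 * NN M (lift 1 1 φ) + (∑ k, s k ^ 2) / (M : ℝ) ^ 2 := by
    unfold SS NN
    rw [mul_sum, sum_div, ← sum_add_distrib]
    exact sum_le_sum fun k _ => poin_mean hM _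
  rw [SS_lift o o] at g2
  -- the means are the sums of the components
  have hsk : ∀ k, s k = ∑ z, φ (z, k) := by
    intro k
    rw [hs, ← S_lift (fun z => φ (z, k))]
    refine S_congr fun f => ?_
    simp [lift, sgl]
  -- orthogonality
  have hsq : Real.sqrt 2 ≠ 0 := by positivity
  have k1 : -(Real.sqrt 2 / 2) * s 0 + s 1 + -(Real.sqrt 2 / 2) * s 2 = 0 := by
    have : ∑ h, TorSecx599.u1 M h * φ h =
        (-(Real.sqrt 2 / 2) * s 0 + s 1 + -(Real.sqrt 2 / 2) * s 2) / (Real.sqrt 2 * M) := by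
      rw [Fintype.sum_prod_type, hsk, hsk, hsk]
      simp only [TorSecx599.u1, TorSecx599.m1, Fin.sum_univ_four, sum_add_distrib]
      simp only [Matrix.cons_val_zero, Matrix.cons_val_one, Matrix.cons_val]
      simp only [← mul_sum]
      field_simp
      ring
    rw [this] at h1
    have hne : Real.sqrt 2 * (M : ℝ) ≠ 0 := mul_ne_zero hsq hM0.ne'
    rcases div_eq_zero_iff.1 h1 with h | h
    · exact h
    · exact absurd h hne
  have k2 : -(Real.sqrt 2 / 2) * s 0 + Real.sqrt 2 / 2 * s 2 - s 3 = 0 := by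
    have : ∑ h, TorSecx599.u2 M h * φ h =
        (-(Real.sqrt 2 / 2) * s 0 + Real.sqrt 2 / 2 * s 2 - s 3) / (Real.sqrt 2 * M) := by
      rw [Fintype.sum_prod_type, hsk, hsk, hsk]
      simp only [TorSecx599.u2, TorSecx599.m2, Fin.sum_univ_four, sum_add_distrib]
      simp only [Matrix.cons_val_zero, Matrix.cons_val_one, Matrix.cons_val]
      simp only [← mul_sum]
      field_simp
      ring
    rw [this] at h2
    have hne : Real.sqrt 2 * (M : ℝ) ≠ 0 := mul_ne_zero hsq hM0.ne'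
    rcases div_eq_zero_iff.1 h2 with h | h
    · exact h
    · exact absurd h hne
  -- the mean of `A φ`
  have hsum : ∀ k (x y : ℤ), S M (fun f => lift 1 1 φ (f.1 + x, f.2 + y) k) = s k := by
    intro k x y
    exact S_shift (hq k) x y
  set t : Fin 4 → ℝ := fun k => S M fun f => A (cst xc) (lift 1 1 φ) f k with ht
  have t0 : t 0 = s 1 + s 2 + s 3 + xc * s 2 := by
    rw [ht]
    simp only [A_S, cst]
    have e := hsum 2 0 (-1)
    simp only [add_zero, ← sub_eq_add_neg] at e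
    rw [S_add, S_add, S_add, S_mul, e]
  have t1 : t 1 = -s 0 + s 2 + s 3 + xc * s 3 := by
    rw [ht]
    simp only [A_E, cst]
    have e := hsum 3 1 0
    simp only [add_zero] at e
    rw [S_add, S_add, S_add, S_mul, S_neg, e]
  have t2 : t 2 = -s 0 - s 1 + s 3 - xc * s 0 := by
    rw [ht]
    simp only [A_N, cst]
    have e := hsum 0 0 1
    simp only [add_zero] at e
    rw [S_sub, S_add, S_sub, S_mul, S_neg, e]
  have t3 : t 3 = -s 0 - s 1 - s 2 - xc * s 1 := by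
    rw [ht]
    simp only [A_W, cst]
    have e := hsum 1 (-1) 0
    simp only [add_zero, ← sub_eq_add_neg] at e
    rw [S_sub, S_sub, S_sub, S_mul, S_neg, e]
  have h8 := symbol_zero s
  rw [k1, k2, ← t0, ← t1, ← t2, ← t3] at h8
  have hcs : ∀ k, t k ^ 2 ≤ (M : ℝ) ^ 2 * S M (fun f => A (cst xc) (lift 1 1 φ) f k ^ 2) := by
    intro k
    have := S_cs (M := M) (fun _ => (1 : ℝ)) (fun f => A (cst xc) (lift 1 1 φ) f k)
    simp only [one_mul, one_pow] at this
    have c : S M (fun _ => (1 : ℝ)) = (M : ℝ) ^ 2 := by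
      simp only [S, sum_const, card_range, nsmul_eq_mul]; ring
    rw [c] at this
    exact this
  have h9 : 8 * ∑ k, s k ^ 2 ≤ (M : ℝ) ^ 2 * n2 (Aop (wT M 1 1) φ) := by
    rw [← SS_A_lift o o, SS, mul_sum, Fin.sum_univ_four, Fin.sum_univ_four]
    have := hcs 0; have := hcs 1; have := hcs 2; have := hcs 3
    nlinarith
  set X := n2 (Aop (wT M 1 1) φ) with hX
  have hX0 : 0 ≤ X := sum_nonneg fun _ _ => sq_nonneg _
  have hM2 : (0 : ℝ) < (M : ℝ) ^ 2 := by positivity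
  have h10 : (∑ k, s k ^ 2) / (M : ℝ) ^ 2 ≤ X / 8 := by
    rw [div_le_iff₀ hM2]
    nlinarith
  have hc := c0_pos
  have hc1 := c0_lt
  have h11 : (M : ℝ) ^ 2 * NN M (lift 1 1 φ) ≤ (M : ℝ) ^ 2 * ((32 / c0) ^ 2 * X) :=
    mul_le_mul_of_nonneg_left g1 hM2.le
  have h12 : (32 / c0) ^ 2 + 1 / 8 ≤ Kg ^ 2 := by
    unfold Kg
    rw [div_pow, div_pow]
    have : (1 : ℝ) ≤ 1 / c0 ^ 2 := by
      rw [le_div_iff₀ (by positivity)]
      nlinarith
    have e1 : (32 : ℝ) ^ 2 / c0 ^ 2 = 1024 * (1 / c0 ^ 2) := by ring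
    have e2 : (33 : ℝ) ^ 2 / c0 ^ 2 = 1089 * (1 / c0 ^ 2) := by ring
    rw [e1, e2]; linarith
  have hM1 : (1 : ℝ) ≤ (M : ℝ) ^ 2 := one_le_pow₀ hM'
  have h13 : X / 8 ≤ (M : ℝ) ^ 2 * (1 / 8 * X) := by
    have : 0 ≤ 1 / 8 * X := by positivity
    calc X / 8 = 1 * (1 / 8 * X) := by ring
      _ ≤ _ := mul_le_mul_of_nonneg_right hM1 this
  calc n2 φ ≤ (M : ℝ) ^ 2 * ((32 / c0) ^ 2 * X) + (M : ℝ) ^ 2 * (1 / 8 * X) :=
        g2.trans (add_le_add h11 (h10.trans h13))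
    _ = (M : ℝ) ^ 2 * (((32 / c0) ^ 2 + 1 / 8) * X) := by ring
    _ ≤ (M : ℝ) ^ 2 * (Kg ^ 2 * X) := by gcongr
    _ = (Kg * M) ^ 2 * X := by ring

end Crest.Agent.R165.TorGapBx63
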