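import Crest.Agent.R165.CmpBg_432
import Crest.Agent.R165.GSysOK_439
import Crest.Agent.R165.Pin_723
import Crest.Agent.R165.Tel_337

/-!
# Row 165 (S0250): the torus flows against the plane flow (helper723)

* `torB`   : `BgIso (wPl ℤ) (wTor M ε₁ ε₂) (ball f₀ R)` with `τ = pr M`, `4 (R + 1) ≤ M`
* `idIso`  : two plane-like backgrounds on the same region, `τ = id`
* `secB`   : two sectors of the torus on a ball
* `cc_tor` : (F2) the constants of the torus on `U.image (pr M)` = constants of the plane on `U`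
* `cc_sec` : (F3) the constants of two sectors agree on sets of small diameter
-/

set_option autoImplicit false
set_option linter.unusedSectionVars false

noncomputable section

open scoped ENNReal
open Crest.Agent.R165.Gr0x606 Crest.Agent.R165.Gr1x606 Crest.Agent.R165.Latx683
open Crest.Agent.R165.GDefx387 Crest.Agent.R165.GeOpsx337 Crest.Agent.R165.KFlowx337
open Crest.Agent.R165.FRDPolyx439 Crest.Agent.R165.FRDLatx439 Crest.Agent.R165.BgIsox432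
open Crest.Agent.R165.GSysx387 Crest.Agent.R165.GSysOKx439 Crest.Agent.R165.CmpBgx432
open Crest.Agent.R165.Telx337 Crest.Agent.R165.MetGx723 Crest.Agent.R165.TorChartx723
open Crest.Agent.R165.TorWrapx723 Crest.Agent.R165.TorTanx723

namespace Crest.Agent.R165.TorIsox723

/-! ### the seam gauge on the plane -/

/-- power of a sign -/
def se (ε : ℝ) (k : ℤ) : ℝ := if Even k then 1 else ε

theorem se_sq {ε : ℝ} (hε : ε * ε = 1) (k : ℤ) : se ε k * se ε k = 1 := by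
  unfold se
  split_ifs
  · norm_num
  · exact hε

theorem se_succ {ε : ℝ} (hε : ε * ε = 1) (k : ℤ) : se ε k * se ε (k + 1) = ε := by
  unfold se
  by_cases h : Even k
  · rw [if_pos h, if_neg (by rw [Int.even_add_one]; exact not_not.2 h), one_mul]
  · rw [if_neg h, if_pos (by rw [Int.even_add_one]; exact h), mul_one]

/-- the seam gauge of one coordinate -/
def sz (M : ℕ) (ε : ℝ) (n : ℤ) : ℝ := se ε (n / M)

theorem sz_sq {M : ℕ} {ε : ℝ} (hε : ε * ε = 1) (n : ℤ) : sz M ε n * sz M ε n = 1 := se_sq hε _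

theorem sz_succ {M : ℕ} [NeZero M] {ε : ℝ} (hε : ε * ε = 1) (n : ℤ) :
    sz M ε n * sz M ε (n + 1) = if ((n : ZMod M) + 1 = 0) then ε else 1 := by
  have hM : (0 : ℤ) < M := by exact_mod_cast Nat.pos_of_ne_zero (NeZero.ne M)
  have h1 : ((n : ZMod M) + 1 = 0) ↔ (M : ℤ) ∣ n + 1 := by
    rw [← ZMod.intCast_zmod_eq_zero_iff_dvd]
    push_cast
    rfl
  unfold sz
  by_cases h : (M : ℤ) ∣ n + 1
  · rw [if_pos (h1.2 h)]
    have h2 : (n + 1) / (M : ℤ) = n / M + 1 := by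
      obtain ⟨k, hk⟩ := h
      have h3 : n = (M : ℤ) * (k - 1) + (M - 1) := by linarith
      have h4 : n / (M : ℤ) = k - 1 := by
        rw [h3, Int.add_comm, Int.add_mul_ediv_left _ _ hM.ne']
        have : ((M : ℤ) - 1) / M = 0 := Int.ediv_eq_zero_of_lt (by omega) (by omega)
        omega
      rw [hk, Int.mul_ediv_cancel_left _ hM.ne', h4]
      ring
    rw [h2, se_succ hε]
  · rw [if_neg fun h' => h (h1.1 h')]
    have h2 : (n + 1) / (M : ℤ) = n / M := by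
      have h3 := Int.emod_add_mul_ediv n M
      have h4 : 0 ≤ n % (M : ℤ) := Int.emod_nonneg _ hM.ne'
      have h5 : n % (M : ℤ) < M := Int.emod_lt_of_pos _ hM
      have h6 : n % (M : ℤ) + 1 ≠ M := by
        intro h7
        apply h
        refine ⟨n / M + 1, ?_⟩
        calc n + 1 = (n % (M : ℤ) + M * (n / M)) + 1 := by rw [h3]
          _ = (n % (M : ℤ) + 1) + M * (n / M) := by ring
          _ = M * (n / M + 1) := by rw [h7]; ring
      have h8 : n + 1 = (n % (M : ℤ) + 1) + M * (n / M) := by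
        calc n + 1 = (n % (M : ℤ) + M * (n / M)) + 1 := by rw [h3]
          _ = _ := by ring
      rw [h8, Int.add_mul_ediv_left _ _ hM.ne',
        Int.ediv_eq_zero_of_lt (by omega) (by omega), zero_add]
    rw [h2, se_sq hε]

section tor

variable {M : ℕ} [NeZero M] {ε₁ ε₂ : ℝ}

theorem yE_wPl (f : ℤ × ℤ) : yE (wPl ℤ) f = xc := rfl

theorem yN_wPl (f : ℤ × ℤ) : yN (wPl ℤ) f = xc := rfl

/-- **the torus around a point is the plane** -/
def torB (h₁ : ε₁ * ε₁ = 1) (h₂ : ε₂ * ε₂ = 1) (f₀ : ℤ × ℤ) {R : ℕ} (hR : 4 * (R + 1) ≤ M) :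
    BgIso (wPl ℤ) (wTor M ε₁ ε₂) (ball f₀ R) where
  τ := pr M
  s f := sz M ε₁ f.1 * sz M ε₂ f.2
  sq f := by
    calc _ = (sz M ε₁ f.1 * sz M ε₁ f.1) * (sz M ε₂ f.2 * sz M ε₂ f.2) := by ring
      _ = 1 := by rw [sz_sq h₁, sz_sq h₂, one_mul]
  iso f hf g hg := by
    rw [mem_ball] at hf hg
    have h := fd_triangle f f₀ g
    rw [fd_comm f f₀] at h
    rw [fd_eq_zmod, fd_eq_int]
    refine dG_pr_eq ?_
    rw [← fd_eq_int]
    omega
  e1 f _ _ := by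
    show pr M (f.1 + 1, f.2) = _
    unfold pr
    simp
  e2 f _ _ := by
    show pr M (f.1, f.2 + 1) = _
    unfold pr
    simp
  wE f _ _ := by
    show xc = _ * wTor M ε₁ ε₂ ((pr M f).1 + 1, (pr M f).2) 1
    unfold wTor
    rw [if_pos rfl]
    show xc = (sz M ε₁ f.1 * sz M ε₂ f.2) * (sz M ε₁ (f.1 + 1) * sz M ε₂ f.2) *
      ((if ((f.1 : ZMod M) + 1 = 0) then ε₁ else 1) * xc)
    have e := sz_succ (M := M) h₁ f.1
    have b := sz_sq (M := M) h₂ f.2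
    have c : (if ((f.1 : ZMod M) + 1 = 0) then ε₁ else 1) *
        (if ((f.1 : ZMod M) + 1 = 0) then ε₁ else 1) = 1 := by split_ifs <;> simp [h₁]
    calc xc = 1 * 1 * xc := by ring
      _ = ((if ((f.1 : ZMod M) + 1 = 0) then ε₁ else 1) *
        (if ((f.1 : ZMod M) + 1 = 0) then ε₁ else 1)) * (sz M ε₂ f.2 * sz M ε₂ f.2) * xc := by
          rw [c, b]
      _ = ((sz M ε₁ f.1 * sz M ε₁ (f.1 + 1)) *
        (if ((f.1 : ZMod M) + 1 = 0) then ε₁ else 1)) * (sz M ε₂ f.2 * sz M ε₂ f.2) * xc := by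
          rw [e]
      _ = _ := by ring
  wN f _ _ := by
    show xc = _ * wTor M ε₁ ε₂ ((pr M f).1, (pr M f).2 + 1) 0
    unfold wTor
    rw [if_neg (by decide)]
    show xc = (sz M ε₁ f.1 * sz M ε₂ f.2) * (sz M ε₁ f.1 * sz M ε₂ (f.2 + 1)) *
      ((if ((f.2 : ZMod M) + 1 = 0) then ε₂ else 1) * xc)
    have e := sz_succ (M := M) h₂ f.2
    have b := sz_sq (M := M) h₁ f.1
    have c : (if ((f.2 : ZMod M) + 1 = 0) then ε₂ else 1) *
        (if ((f.2 : ZMod M) + 1 = 0) then ε₂ else 1) = 1 := by split_ifs <;> simp [h₂]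
    calc xc = 1 * 1 * xc := by ring
      _ = ((if ((f.2 : ZMod M) + 1 = 0) then ε₂ else 1) *
        (if ((f.2 : ZMod M) + 1 = 0) then ε₂ else 1)) * (sz M ε₁ f.1 * sz M ε₁ f.1) * xc := by
          rw [c, b]
      _ = ((sz M ε₂ f.2 * sz M ε₂ (f.2 + 1)) *
        (if ((f.2 : ZMod M) + 1 = 0) then ε₂ else 1)) * (sz M ε₁ f.1 * sz M ε₁ f.1) * xc := by
          rw [e]
      _ = _ := by ring

@[simp] theorem torB_τ (h₁ : ε₁ * ε₁ = 1) (h₂ : ε₂ * ε₂ = 1) (f₀ : ℤ × ℤ) {R : ℕ}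
    (hR : 4 * (R + 1) ≤ M) : (torB h₁ h₂ f₀ hR).τ = pr M := rfl

/-- the mark -/
theorem torB_mark (h₁ : ε₁ * ε₁ = 1) (h₂ : ε₂ * ε₂ = 1) (f₀ : ℤ × ℤ) {R : ℕ}
    (hR : 4 * (R + 1) ≤ M) : ∀ f ∈ ball f₀ R, (f ∈ ({f₀} : Finset (ℤ × ℤ)) ↔
      (torB h₁ h₂ f₀ hR).τ f ∈ ({pr M f₀} : Finset (ZMod M × ZMod M))) := by
  intro f hf
  rw [Finset.mem_singleton, Finset.mem_singleton, torB_τ]
  constructor
  · rintro rfl; rfl
  · intro h
    refine pr_inj (N := M) ?_ h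
    rw [mem_ball, fd_comm] at hf
    rw [← fd_eq_int]
    omega

end tor

/-- two plane-like backgrounds on the same region, same chart of the faces -/
def idIso {G : Type} [CommRing G] [CN G] {w w' : BW G} {Z : Set (G × G)} (p : PlaneLike w Z)
    (p' : PlaneLike w' Z) : BgIso w w' Z where
  τ := id
  s f := p.s f * p'.s f
  sq f := by
    calc _ = (p.s f * p.s f) * (p'.s f * p'.s f) := by ring
      _ = 1 := by rw [p.sq, p'.sq, one_mul]
  iso _ _ _ _ := rfl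
  e1 _ _ _ := rfl
  e2 _ _ _ := rfl
  wE f hf hf' := by
    have h := p.wE f hf hf'
    have h' := p'.wE f hf hf'
    rw [h, show yE w' (id f) = yE w' f from rfl, h']
    have a := p'.sq f
    have b := p'.sq (f.1 + 1, f.2)
    calc _ = p.s f * p.s (f.1 + 1, f.2) * (1 * 1) * xc := by ring
      _ = p.s f * p.s (f.1 + 1, f.2) * ((p'.s f * p'.s f) *
        (p'.s (f.1 + 1, f.2) * p'.s (f.1 + 1, f.2))) * xc := by rw [a, b]
      _ = _ := by ring
  wN f hf hf' := by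
    have h := p.wN f hf hf'
    have h' := p'.wN f hf hf'
    rw [h, show yN w' (id f) = yN w' f from rfl, h']
    have a := p'.sq f
    have b := p'.sq (f.1, f.2 + 1)
    calc _ = p.s f * p.s (f.1, f.2 + 1) * (1 * 1) * xc := by ring
      _ = p.s f * p.s (f.1, f.2 + 1) * ((p'.s f * p'.s f) *
        (p'.s (f.1, f.2 + 1) * p'.s (f.1, f.2 + 1))) * xc := by rw [a, b]
      _ = _ := by ring

@[simp] theorem idIso_τ {G : Type} [CommRing G] [CN G] {w w' : BW G} {Z : Set (G × G)}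
    (p : PlaneLike w Z) (p' : PlaneLike w' Z) : (idIso p p').τ = id := rfl

/-! ### (F2), (F3) -/

section flow

variable {M : ℕ} [NeZero M] {ε₁ ε₂ ε₁' ε₂' : ℝ} {Md Kd : ℕ} (D : FRD 16 Md Kd)

/-- two sectors on a ball of the torus -/
def secB (h₁ : ε₁ * ε₁ = 1) (h₂ : ε₂ * ε₂ = 1) (h₁' : ε₁' * ε₁' = 1) (h₂' : ε₂' * ε₂' = 1)
    (x₀ : ZMod M × ZMod M) {R : ℕ} (hR : 4 * (R + 1) ≤ M) :
    BgIso (wTor M ε₁ ε₂) (wTor M ε₁' ε₂') (ball x₀ R) :=
  idIso (chart h₁ h₂ x₀ hR) (chart h₁' h₂' x₀ hR)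

theorem two_ne {M : ℕ} (hM : 3 ≤ M) : (2 : ZMod M) ≠ 0 := by
  intro h
  have h1 : ((2 : ℕ) : ZMod M) = 0 := by exact_mod_cast h
  rw [ZMod.natCast_eq_zero_iff] at h1
  have := Nat.le_of_dvd (by norm_num) h1
  omega

/-- **(F2)**: the constants of the torus around the mark are those of the plane -/
theorem cc_tor (h₁ : ε₁ * ε₁ = 1) (h₂ : ε₂ * ε₂ = 1) (hK : 16 ≤ Kd) {l k0 : ℕ}
    (hl : 5 ≤ l * (k0 + 1)) (hl1 : 1 ≤ l) (f₀ : ℤ × ℤ)
    {K0 : Finset (ℤ × ℤ) → Ge (Fld ℤ)} {K0' : Finset (ZMod M × ZMod M) → Ge (Fld (ZMod M))}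
    (hK0m : ∀ U, K0 U ∈ grG (fldU U)) (he : K0 ∅ = 0) (he' : K0' ∅ = 0) {n E : ℕ}
    (hR : 4 * (E + rhoH l k0 n + 1) ≤ M)
    (hK0 : ∀ U : Finset (ℤ × ℤ), U.Nonempty → nbhd (s2 * rr l k0 0) U ⊆ ball f₀ (E + rhoH l k0 n) →
      mpG (torB h₁ h₂ f₀ hR).push (K0 U) = K0' (U.image (pr M)))
    {U : Finset (ℤ × ℤ)} (hU : U ⊆ boxG f₀ E) :
    cc (sys D (wTor M ε₁ ε₂) {pr M f₀} l k0 K0') n (U.image (pr M)) =
      cc (sys D (wPl ℤ) {f₀} l k0 K0) n U := by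
  rcases Finset.eq_empty_or_nonempty U with rfl | hne
  · rw [Finset.image_empty]
    unfold cc
    rw [H_empty (D := sys D (wTor M ε₁ ε₂) {pr M f₀} l k0 K0') he',
      H_empty (D := sys D (wPl ℤ) {f₀} l k0 K0) he, map_zero, map_zero]
  · have hr := rr_pos l k0 (n + 1)
    have hr2 : 4 ≤ M := by omega
    refine (ct_eq D (torB h₁ h₂ f₀ hR) (torB_mark h₁ h₂ f₀ hR) (two_ne (by omega)) hl1
      (by omega) hK0 (sys_OK D hK (wPl ℤ) {f₀} hl hK0m) n hne ?_).symm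
    exact nbhd_sub_ball fun u hu => mem_box_iff.1 (hU hu)

/-- **(F3)**: two sectors agree on sets of small diameter -/
theorem cc_sec (h₁ : ε₁ * ε₁ = 1) (h₂ : ε₂ * ε₂ = 1) (h₁' : ε₁' * ε₁' = 1) (h₂' : ε₂' * ε₂' = 1)
    (hK : 16 ≤ Kd) {l k0 : ℕ} (hl : 5 ≤ l * (k0 + 1)) (hl1 : 1 ≤ l)
    {mk : Finset (ZMod M × ZMod M)}
    {K0 K0' : Finset (ZMod M × ZMod M) → Ge (Fld (ZMod M))}
    (hK0m : ∀ U, K0 U ∈ grG (fldU U)) {n E : ℕ}
    {x₀ : ZMod M × ZMod M} (hR : 4 * (E + rhoH l k0 n + 1) ≤ M)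
    (hK0 : ∀ U : Finset (ZMod M × ZMod M), U.Nonempty →
      nbhd (s2 * rr l k0 0) U ⊆ ball x₀ (E + rhoH l k0 n) →
      mpG (secB h₁ h₂ h₁' h₂' x₀ hR).push (K0 U) = K0' U)
    {U : Finset (ZMod M × ZMod M)} (hne : U.Nonempty) (hU : ∀ u ∈ U, fd x₀ u ≤ E) :
    cc (sys D (wTor M ε₁ ε₂) mk l k0 K0) n U = cc (sys D (wTor M ε₁' ε₂') mk l k0 K0') n U := by
  have hr := rr_pos l k0 (n + 1)
  have h := ct_eq D (secB h₁ h₂ h₁' h₂' x₀ hR) (mk := mk) (mk' := mk) (fun f _ => Iff.rfl)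
    (two_ne (by omega)) hl1 (by omega)
    (fun U hne hU => by
      rw [hK0 U hne hU]
      show K0' U = K0' (U.image id)
      rw [Finset.image_id]) (sys_OK D hK (wTor M ε₁ ε₂) mk hl hK0m) n hne (nbhd_sub_ball hU)
  unfold cc
  rw [h]
  show _ = _
  congr 2
  exact Finset.image_id

end flow

end Crest.Agent.R165.TorIsox723
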