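import Crest.Agent.R165.TorTan_723
import Crest.Agent.R165.GSys_387

/-!
# Row 165 (S0250): the number of steps on the torus of side `L + 1` (helper723)

`KT l k0 L` = the largest `k ≤ L` with `8 (129 rr k + 1) ≤ L + 1` (`0` if there is none).

* `KT_lt`    : `k < KT L → 8 (129 rr (k+1) + 1) ≤ L + 1`
* `KT_geo`   : `TorGeo` with `r k = rr (k+1)`, `R k = nearR k`, `q = 16`
* `KT_top`   : `KT L → ∞`
* `KT_583`   : `4 (rr K + s2 rr K + 1) ≤ L + 1` for `K = KT L` (eventually)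
* `KT_ge`    : `L + 1 < 8 (129 rr (KT L + 1) + 1)`
* `KT_ratio` : `(L + 1) ≤ 1040 * 2 ^ l * rr (KT L)`
-/

set_option autoImplicit false

noncomputable section

open Filter Topology
open Crest.Agent.R165.Latx683 Crest.Agent.R165.GDefx387 Crest.Agent.R165.GSysx387
open Crest.Agent.R165.TorTanx723

namespace Crest.Agent.R165.TorKx723

/-- the number of steps on the torus of side `L + 1` -/
def KT (l k0 L : ℕ) : ℕ := Nat.findGreatest (fun k => 8 * (129 * rr l k0 k + 1) ≤ L + 1) L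

theorem KT_spec {l k0 L : ℕ} (h : KT l k0 L ≠ 0) : 8 * (129 * rr l k0 (KT l k0 L) + 1) ≤ L + 1 :=
  Nat.findGreatest_of_ne_zero (P := fun k => 8 * (129 * rr l k0 k + 1) ≤ L + 1) rfl h

theorem KT_lt {l k0 L k : ℕ} (hk : k < KT l k0 L) :
    8 * (129 * rr l k0 (k + 1) + 1) ≤ L + 1 := by
  have h1 := KT_spec (l := l) (k0 := k0) (L := L) (by omega)
  have h2 := rr_mono l k0 (show k + 1 ≤ KT l k0 L by omega)
  omega

theorem le_KT {l k0 L k : ℕ} (hk : k ≤ L) (h : 8 * (129 * rr l k0 k + 1) ≤ L + 1) :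
    k ≤ KT l k0 L := Nat.le_findGreatest hk h

theorem KT_top (l k0 : ℕ) : Tendsto (KT l k0) atTop atTop := by
  rw [tendsto_atTop]
  intro k
  filter_upwards [eventually_ge_atTop (8 * (129 * rr l k0 k + 1)), eventually_ge_atTop k]
    with L h1 h2
  exact le_KT h2 (by omega)

/-- the geometric hypotheses of the limit theorems -/
theorem KT_geo (l k0 : ℕ) :
    TorGeo (fun k => rr l k0 (k + 1)) (nearR l k0) (KT l k0) 16 where
  q_pos := by norm_num
  r_pos k := rr_pos l k0 (k + 1)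
  K_top := KT_top l k0
  geo L k hk := by
    have h := KT_lt hk
    have hr := rr_pos l k0 (k + 1)
    have hs : s2 = 128 := rfl
    have hR : nearR l k0 k = rr l k0 (k + 1) / 8 := rfl
    rw [hR, hs]
    generalize rr l k0 (k + 1) = r at h hr
    set x := (L + 1) / r / 16 with hx
    have h1 : x * 16 * r ≤ L + 1 :=
      (Nat.mul_le_mul_right _ (Nat.div_mul_le_self _ _)).trans (Nat.div_mul_le_self _ _)
    have h2 : r + r / 8 + 1 ≤ 2 * r := by omega
    have h3 : x * (r + r / 8 + 1) ≤ x * (2 * r) := Nat.mul_le_mul_left _ h2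
    have h4 : x * 16 * r = 8 * (x * (2 * r)) := by ring
    omega

/-- the condition of `TorNorm_583` -/
theorem KT_583 {l k0 L : ℕ} (h : 8 * (129 * rr l k0 0 + 1) ≤ L + 1) :
    4 * (rr l k0 (KT l k0 L) + s2 * rr l k0 (KT l k0 L) + 1) ≤ L + 1 := by
  have hs : s2 = 128 := rfl
  rw [hs]
  by_cases h0 : KT l k0 L = 0
  · rw [h0]; omega
  · have := KT_spec h0
    omega

theorem KT_583' (l k0 : ℕ) : ∀ᶠ L in atTop,
    4 * (rr l k0 (KT l k0 L) + s2 * rr l k0 (KT l k0 L) + 1) ≤ L + 1 := by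
  filter_upwards [eventually_ge_atTop (8 * (129 * rr l k0 0 + 1))] with L hL
  exact KT_583 (by omega)

theorem KT_ge {l k0 L : ℕ} (hl : 1 ≤ l) : L + 1 < 8 * (129 * rr l k0 (KT l k0 L + 1) + 1) := by
  by_contra hcon
  rw [not_lt] at hcon
  have h1 : L + 1 < 2 ^ (L + 1) := Nat.lt_two_pow_self
  by_cases h2 : KT l k0 L + 1 ≤ L
  · have := le_KT h2 hcon
    omega
  · have h3 : 2 ^ (L + 1) ≤ rr l k0 (KT l k0 L + 1) := by
      unfold rr
      refine Nat.pow_le_pow_right (by norm_num) ?_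
      have h5 : L + 1 ≤ k0 + (KT l k0 L + 1) := by omega
      exact h5.trans (Nat.le_mul_of_pos_left _ hl)
    omega

theorem KT_ratio {l k0 L : ℕ} (hl : 1 ≤ l) : L + 1 ≤ 1040 * 2 ^ l * rr l k0 (KT l k0 L) := by
  have h := KT_ge (k0 := k0) (L := L) hl
  rw [rr_succ] at h
  have h1 : 0 < 2 ^ l * rr l k0 (KT l k0 L) := Nat.mul_pos (by positivity) (rr_pos ..)
  have h2 : 1040 * 2 ^ l * rr l k0 (KT l k0 L) = 1040 * (2 ^ l * rr l k0 (KT l k0 L)) := by ring
  rw [h2]
  omega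

end Crest.Agent.R165.TorKx723
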