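import Crest.Agent.R165.TorWrap_723
import Crest.Agent.R165.FRDRest_439
import Crest.Agent.R165.FinB_900
import Crest.Agent.R165.KFlow_337
import Crest.Agent.R165.Bridge_915

/-!
# Row 165 (S0250): the last step on a finite background (helper723)

TEXT P13, leaf T8: sectors AA, AP, PA of the torus of side `M`.

* `sum_le_NK`   : `∑_U |K U|_g ≤ n * NK` when `g ≤ wt` and the finite set is covered by `n` balls
* `last_step`   : `|EE rest (ZZ) - 1| ≤ exp (n b) - 1`
* `flow_last`   : with the flow identity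
-/

set_option autoImplicit false
set_option linter.unusedSectionVars false

noncomputable section

open Finset Filter Topology
open scoped ENNReal
open Crest.Agent.R165.Packx915 Crest.Agent.R165.NSumx915 Crest.Agent.R165.Bridgex915
open Crest.Agent.R165.Latx683 Crest.Agent.R165.GDefx387 Crest.Agent.R165.Gr0x606
open Crest.Agent.R165.Gr1x606 Crest.Agent.R165.PNormx417 Crest.Agent.R165.FinBx900
open Crest.Agent.R165.FRDPolyx439 Crest.Agent.R165.FRDAbsx439 Crest.Agent.R165.FRDLatx439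
open Crest.Agent.R165.FRDRestx439 Crest.Agent.R165.KStepx892 Crest.Agent.R165.KFlowx337
open Crest.Agent.R165.GeOpsx337

namespace Crest.Agent.R165.TorLastx723

section gen

variable {G : Type} [CommRing G] [CN G] [DecidableEq G]

/-- a weight below all local weights is below `wU` -/
theorem le_wU {w : BW G} {a : ℝ} {r : ℕ} {g : Fld G → ℝ≥0∞}
    (hg : ∀ x l, g l ≤ wt w a r x l) (U : Finset (G × G)) (l : Fld G) : g l ≤ wU w a r U l := by
  classical
  unfold wU
  refine le_iInf₂ fun x _ => ?_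
  split_ifs
  · exact hg x l
  · exact le_top

/-- total mass of a finite volume -/
theorem sum_le_NK {w : BW G} {a : ℝ} {r s n : ℕ} {Γ : ℝ≥0∞} (hΓ : 1 ≤ Γ)
    (hcov : Cov (fd : G × G → G × G → ℕ) s r n) (f₀ : G × G) {Λ : Finset (G × G)}
    (hΛ : ∀ f ∈ Λ, fd f₀ f ≤ s) {g : Fld G → ℝ≥0∞} (hg : ∀ x l, g l ≤ wt w a r x l)
    (K : Finset (G × G) → Gr (Fld G)) :
    ∑ U ∈ nes Λ, pnorm g (K U) ≤ n * NK w a r Γ (fun _ => True) K := by
  classical
  obtain ⟨net, hcard, hnet⟩ := hcov f₀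
  rw [NK_eq_NN]
  calc ∑ U ∈ nes Λ, pnorm g (K U)
      ≤ ∑ U ∈ nes Λ, ∑ x ∈ net, Set.indicator {U | near fd r x U}
          (fun U => Γ ^ pack fd r U * act w a r (fun _ => True) K U) U := by
        refine Finset.sum_le_sum fun U hU => ?_
        obtain ⟨hUΛ, u, hu⟩ := mem_nes.1 hU
        obtain ⟨x, hx, hxu⟩ := hnet u (hΛ u (hUΛ hu))
        refine le_trans ?_ (Finset.single_le_sum
          (f := fun x => Set.indicator {U | near fd r x U}
            (fun U => Γ ^ pack fd r U * act w a r (fun _ => True) K U) U)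
          (fun _ _ => zero_le) hx)
        rw [Set.indicator_of_mem (by exact ⟨u, hu, hxu⟩), act_of trivial]
        calc pnorm g (K U) ≤ pnorm (wU w a r U) (K U) := pnorm_le_pnorm (fun l => le_wU hg U l) _
          _ = 1 * pnorm (wU w a r U) (K U) := (one_mul _).symm
          _ ≤ Γ ^ pack fd r U * pnorm (wU w a r U) (K U) :=
              mul_le_mul_left (one_le_pow₀ hΓ) _
    _ = ∑ x ∈ net, ∑ U ∈ nes Λ, Set.indicator {U | near fd r x U}
          (fun U => Γ ^ pack fd r U * act w a r (fun _ => True) K U) U := Finset.sum_comm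
    _ ≤ ∑ x ∈ net, NN fd r Γ (act w a r (fun _ => True) K) :=
        Finset.sum_le_sum fun x _ => (ENNReal.sum_le_tsum _).trans (bs_le_NN _ x)
    _ = net.card * NN fd r Γ (act w a r (fun _ => True) K) := by
        rw [Finset.sum_const, nsmul_eq_mul]
    _ ≤ n * NN fd r Γ (act w a r (fun _ => True) K) :=
        mul_le_mul_left (Nat.cast_le.2 hcard) _

variable {Λ : ℝ} {M K' : ℕ} (D : FRD Λ M K') {w : BW G} {S : HE G → HE G → ℝ}
  (hS : ∀ h h', S h h' = -S h' h)
  (hinv : ∀ g h', Aop w (fun h => S h h') g = -(Pi.single h' 1 : HE G → ℝ) g)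
  (hfin : ∀ h', {h | S h h' ≠ 0}.Finite)

/-- **the last step**: gap `m`, scale `r ≤ 2 ^ J`, amplitude `a ≥ 7 √(C/(m r))` -/
theorem last_step (hM : MM ≤ M) {m : ℝ} (hm : 0 < m)
    (hgap : ABtw (preF (HE G)) (AopF w) (m ^ 2) Λ) {J r : ℕ} (hr1 : 1 ≤ r) (hr : r ≤ 2 ^ J)
    {a : ℝ} (ha : 0 < a) (hq : 7 * √(D.C / (m * r)) ≤ a) {Γ : ℝ≥0∞} (hΓ : 1 ≤ Γ) {s n : ℕ}
    (hcov : Cov (fd : G × G → G × G → ℕ) s r n) (f₀ : G × G) {Vol : Finset (G × G)}
    (hVol : ∀ f ∈ Vol, fd f₀ f ≤ s) (near : G × G → G × G → Prop)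
    (K : Finset (G × G) → Ge (Fld G)) {b : ℝ} (hb : 0 ≤ b)
    (hN : NK w a r Γ (fun _ => True) (fun U => (K U : Gr (Fld G))) ≤ ENNReal.ofReal b) :
    |EE (restC D hS hinv hfin J) ((ZZ near Vol K : Ge (Fld G)) : Gr (Fld G)) - 1| ≤
      Real.exp (n * b) - 1 := by
  have hgram := restC_gram D hS hinv hfin hm hgap J
  have h0 : ABtw (preF (HE G)) (AopF w) 0 Λ := fun x =>
    ⟨(by
      rw [zero_mul]
      exact le_trans (mul_nonneg (sq_nonneg m) ((preF (HE G)).nonneg x)) (hgap x).1), (hgap x).2⟩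
  have hg : ∀ x l, gr D w m J l ≤ wt w a r x l := by
    intro x l
    refine (gr_le_wt D hM hm h0 J r hr1 hr ha x l).trans ?_
    calc ENNReal.ofReal (7 * √(D.C / (m * r)) / a) * wt w a r x l
        ≤ ENNReal.ofReal 1 * wt w a r x l := by
          refine mul_le_mul_left (ENNReal.ofReal_le_ofReal ?_) _
          rw [div_le_one ha]
          exact hq
      _ = wt w a r x l := by rw [ENNReal.ofReal_one, one_mul]
  refine EE_zz_sub_one hgram near Vol K (by positivity) ?_
  refine (sum_le_NK hΓ hcov f₀ hVol hg fun U => (K U : Gr (Fld G))).trans ?_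
  rw [ENNReal.ofReal_mul (by positivity), ENNReal.ofReal_natCast]
  exact mul_le_mul_right hN _

/-- **flow identity with the last step**: `Z = exp(E) (1 + O(exp (n b) - 1))` -/
theorem flow_last (Sy : Sys (G × G) (Fld G)) {src : Submodule ℝ (Fld G)} (hD : Sy.OK src)
    {Vol : Finset (G × G)} (h0 : ∀ U, ¬ U ⊆ Vol → Sy.K0 U = 0) (k : ℕ) {J : ℕ}
    (hSl : ∑ j ∈ Finset.range k, Sy.S j = SopC D w 0 J)
    (hsrc : ∀ x ∈ src, ∀ y, (restC D hS hinv hfin J).b x y = 0) :
    EEG (covS S hS) (ZZ (Sy.near 0) Vol Sy.K0) = Real.exp (ctG (Sy.E Vol k)) *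
      EEG (restC D hS hinv hfin J) (ZZ (Sy.near k) Vol (Sy.K k)) := by
  refine Sys.total_real hD h0 k _ _ ?_ hsrc
  rw [covS_eq D hS hinv hfin J, hSl, add_comm]

end gen

end Crest.Agent.R165.TorLastx723
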