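import Crest.Agent.R165.TorLim_917

/-!
# Row 165 (S0250), leaf T8i (helper917): the last step in the sector with two zero modes

* `negInvZ` : the pseudo-inverse of 599 in the form `IsNegInvZ` of 439;  `restZ_one` : its covariance
* `gap_off` : gap off the zero modes;  `restZ_gram` : Gram bound of the rest
* `EE_PP` : `EE (cF (-BP)) (dd z2 (dd z1 (ZZ_0))) = exp E * EE rest (dd z2 (dd z1 (ZZ_N)))`
* `PP_last` : the last step;  `PP_bound` : the weight of the sector against the sector AA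
-/

set_option autoImplicit false
set_option linter.unusedSectionVars false

noncomputable section

open Finset Filter Topology
open scoped ENNReal
open Crest.Agent.R165.Packx915 Crest.Agent.R165.NSumx915 Crest.Agent.R165.Bridgex915
open Crest.Agent.R165.Latx683 Crest.Agent.R165.GDefx387 Crest.Agent.R165.Gr0x606
open Crest.Agent.R165.Gr1x606 Crest.Agent.R165.PNormx417 Crest.Agent.R165.FinBx900
open Crest.Agent.R165.FRDPolyx439 Crest.Agent.R165.FRDAbsx439 Crest.Agent.R165.FRDLatx439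
open Crest.Agent.R165.FRDInfx439
open Crest.Agent.R165.KStepx892 hiding wt
open Crest.Agent.R165.FRDRestx439 Crest.Agent.R165.KFlowx337 Crest.Agent.R165.BgIsox432
open Crest.Agent.R165.GeOpsx337 Crest.Agent.R165.GSysx387 Crest.Agent.R165.Covx359
open Crest.Agent.R165.ExpGx337
open Crest.Agent.R165.TorGapBx63 (Kg Kg_pos)
open Crest.Agent.R165.TorLimx917

namespace Crest.Agent.R165.TorLim2x917

/-! ### matrices on finitely supported fields -/

section mat

open Matrix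

variable {M : ℕ} [NeZero M]

/-- the half-edges of the torus -/
abbrev HT (M : ℕ) : Type := Latx683.HE (ZMod M)

/-- operator of a matrix -/
def opM (B : Matrix (HT M) (HT M) ℝ) : Fld (ZMod M) →ₗ[ℝ] Fld (ZMod M) :=
  SFof (fun h k => B h k) fun _ => Set.toFinite _

theorem opM_coe (B : Matrix (HT M) (HT M) ℝ) (x : Fld (ZMod M)) :
    (opM B x : HT M → ℝ) = B *ᵥ (x : HT M → ℝ) := by
  have key : (Finsupp.lcoeFun : Fld (ZMod M) →ₗ[ℝ] (HT M → ℝ)) ∘ₗ opM B =
      B.mulVecLin ∘ₗ (Finsupp.lcoeFun : Fld (ZMod M) →ₗ[ℝ] (HT M → ℝ)) := by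
    apply Finsupp.lhom_ext
    intro h c
    funext k
    have e1 : (Finsupp.single h c : Fld (ZMod M)) = c • Finsupp.single h 1 := by
      rw [Finsupp.smul_single, smul_eq_mul, mul_one]
    rw [e1, map_smul, map_smul]
    simp only [Pi.smul_apply]
    congr 1
    show opM B (Finsupp.single h 1) k = (B *ᵥ ((Finsupp.single h 1 : Fld (ZMod M)) : HT M → ℝ)) k
    rw [single_coe, Matrix.mulVec_single_one]
    exact SFof_single_apply _ _ k h
  exact congrArg (fun f => f x) key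

theorem dot_coe (x y : Fld (ZMod M)) :
    dotF (HT M) x y = (x : HT M → ℝ) ⬝ᵥ (y : HT M → ℝ) := by
  rw [dotF_eq_sum x y univ (subset_univ _)]
  rfl

theorem AopF_eq (w : BW (ZMod M)) : AopF w = opM (TorDetx599.hA w) := by
  ext1 h
  apply LinearMap.ext
  intro c
  apply DFunLike.coe_injective
  show (AopF w (Finsupp.single h c) : HT M → ℝ) = (opM (TorDetx599.hA w) (Finsupp.single h c) : HT M → ℝ)
  rw [AopF_coe, opM_coe, hA_mulVec]

theorem opM_comp (B C : Matrix (HT M) (HT M) ℝ) (x : Fld (ZMod M)) :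
    opM B (opM C x) = opM (B * C) x := by
  apply DFunLike.coe_injective
  show (opM B (opM C x) : HT M → ℝ) = (opM (B * C) x : HT M → ℝ)
  rw [opM_coe, opM_coe, opM_coe, Matrix.mulVec_mulVec]

end mat

section PP

open Matrix Crest.Agent.R165.TorSecx599

variable (M : ℕ) [NeZero M]

/-- the projection on the zero modes -/
def Zm : Matrix (HT M) (HT M) ℝ := vecMulVec (u1 M) (u1 M) + vecMulVec (u2 M) (u2 M)

/-- the weights of the doubly periodic sector -/
theorem wT_PP : Covx359.wT M (0, 0) = TorDetx599.wS M Latx683.xc 1 1 := by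
  rw [wT_eq]; simp

theorem ker2 : PfZx599.Ker2 (TorDetx599.hA (Covx359.wT M (0, 0))) (BP M) (u1 M) (u2 M) := by
  rw [wT_PP]; exact ker2_PP M

theorem o21 : u2 M ⬝ᵥ u1 M = 0 := by rw [dotProduct_comm]; exact n12 M

theorem Zm_mulVec (v : HT M → ℝ) : Zm M *ᵥ v = (u1 M ⬝ᵥ v) • u1 M + (u2 M ⬝ᵥ v) • u2 M := by
  unfold Zm
  rw [Matrix.add_mulVec, Matrix.vecMulVec_mulVec, Matrix.vecMulVec_mulVec]
  simp only [op_smul_eq_smul]

theorem ba : BP M * TorDetx599.hA (Covx359.wT M (0, 0)) = 1 - Zm M := by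
  have h := ker2 M
  have h1 := congrArg Matrix.transpose h.ab
  rw [Matrix.transpose_mul, h.anti, h.banti, neg_mul_neg] at h1
  rw [h1]
  unfold Zm
  simp only [Matrix.transpose_sub, Matrix.transpose_one, Matrix.transpose_vecMulVec]
  abel

theorem ab : TorDetx599.hA (Covx359.wT M (0, 0)) * BP M = 1 - Zm M := by
  rw [(ker2 M).ab]
  unfold Zm
  abel

theorem one_sub_mulVec (v : HT M → ℝ) : (1 - Zm M) *ᵥ v = v - Zm M *ᵥ v := by
  rw [Matrix.sub_mulVec, Matrix.one_mulVec]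

/-- the covariance of the sector is the pseudo-inverse -/
theorem negInvZ : IsNegInvZ (preF (HT M)) (AopF (Covx359.wT M (0, 0))) (opM (-(BP M)))
    (opM (Zm M)) where
  right x := by
    rw [AopF_eq, opM_comp]
    apply DFunLike.coe_injective
    show (opM _ x : HT M → ℝ) = -((x : HT M → ℝ) - (opM (Zm M) x : HT M → ℝ))
    rw [opM_coe, opM_coe, Matrix.mul_neg, ab, Matrix.neg_mulVec, one_sub_mulVec]
  left x := by
    rw [AopF_eq, opM_comp]
    apply DFunLike.coe_injective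
    show (opM _ x : HT M → ℝ) = -((x : HT M → ℝ) - (opM (Zm M) x : HT M → ℝ))
    rw [opM_coe, opM_coe, Matrix.neg_mul, ba, Matrix.neg_mulVec, one_sub_mulVec]
  idem x := by
    rw [opM_comp]
    apply DFunLike.coe_injective
    show (opM _ x : HT M → ℝ) = (opM (Zm M) x : HT M → ℝ)
    rw [opM_coe, opM_coe, ← Matrix.mulVec_mulVec, Zm_mulVec M (Zm M *ᵥ _), Zm_mulVec]
    simp only [dotProduct_add, dotProduct_smul, n1 M, n2 M, n12 M, o21 M, smul_eq_mul, mul_one,
      mul_zero, add_zero, zero_add]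
  symm x y := by
    rw [preF_ip, preF_ip, dot_coe, dot_coe, opM_coe, opM_coe, Zm_mulVec, Zm_mulVec]
    simp only [dotProduct_add, dotProduct_smul, add_dotProduct, smul_dotProduct, smul_eq_mul]
    rw [dotProduct_comm (x : HT M → ℝ) (u1 M), dotProduct_comm (x : HT M → ℝ) (u2 M)]
    ring
  AZ x := by
    rw [AopF_eq]
    apply DFunLike.coe_injective
    show (opM _ (opM _ x) : HT M → ℝ) = 0
    rw [opM_coe, opM_coe, Zm_mulVec, Matrix.mulVec_add, Matrix.mulVec_smul, Matrix.mulVec_smul,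
      (ker2 M).a1, (ker2 M).a2, smul_zero, smul_zero, add_zero]
  ZS x := by
    apply DFunLike.coe_injective
    show (opM _ (opM _ x) : HT M → ℝ) = 0
    rw [opM_coe, opM_coe, Zm_mulVec]
    have h1 : ∀ u : HT M → ℝ, BP M *ᵥ u = 0 → u ⬝ᵥ ((-(BP M)) *ᵥ (x : HT M → ℝ)) = 0 := by
      intro u hu
      rw [Matrix.dotProduct_mulVec, ← Matrix.mulVec_transpose, Matrix.transpose_neg, (ker2 M).banti,
        neg_neg, hu, zero_dotProduct]
    rw [h1 _ (ker2 M).b1, h1 _ (ker2 M).b2, zero_smul, zero_smul, add_zero]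

/-- the covariance left after the slices `j < J` -/
def rz {Mm K' : ℕ} (D : FRD 16 Mm K') (J : ℕ) : Cov (Fld (ZMod M)) :=
  restZ (AopF_asy (Covx359.wT M (0, 0))) (negInvZ M) (D.r J)

theorem banti' : (-(BP M))ᵀ = -(-(BP M)) := by rw [Matrix.transpose_neg, (ker2 M).banti]

theorem restZ_one : restZ (AopF_asy (Covx359.wT M (0, 0))) (negInvZ M) 1 =
    TorBrx599.cF M (-(BP M)) := by
  apply Cov.ext
  apply TorBrx599.form_ext
  intro h k
  rw [TorBrx599.cF_single M (banti' M), restZ_apply, map_one, Module.End.one_apply, preF_ip,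
    dotF_single, one_mul]
  exact SFof_single_apply _ _ h k

/-- **gap off the zero modes** -/
theorem gap_off (x : Fld (ZMod M)) :
    ((Kg * M)⁻¹) ^ 2 * (preF (HT M)).ip (x - opM (Zm M) x) (x - opM (Zm M) x) ≤
      (preF (HT M)).ip (AopF (Covx359.wT M (0, 0)) x) (AopF (Covx359.wT M (0, 0)) x) := by
  have hM : (0 : ℝ) < M := by exact_mod_cast NeZero.pos M
  have hK := Kg_pos
  have h0 : AopF (Covx359.wT M (0, 0)) x =
      AopF (Covx359.wT M (0, 0)) (x - opM (Zm M) x) := by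
    rw [map_sub, (negInvZ M).AZ, sub_zero]
  rw [h0, preF_ip, preF_ip, dotF_self, dotF_self, AopF_coe, wT_PP, inv_pow,
    inv_mul_le_iff₀ (by positivity)]
  set φ : HT M → ℝ := ((x - opM (Zm M) x : Fld (ZMod M)) : HT M → ℝ) with hφ
  have hφ2 : φ = (x : HT M → ℝ) - Zm M *ᵥ (x : HT M → ℝ) := by
    rw [hφ, ← opM_coe]; rfl
  refine TorGapBx63.gap_per φ ?_ ?_
  · show u1 M ⬝ᵥ φ = 0
    rw [hφ2, Zm_mulVec, dotProduct_sub, dotProduct_add, dotProduct_smul, dotProduct_smul, n1 M,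
      n12 M]
    simp
  · show u2 M ⬝ᵥ φ = 0
    rw [hφ2, Zm_mulVec, dotProduct_sub, dotProduct_add, dotProduct_smul, dotProduct_smul, n2 M,
      o21 M]
    simp

theorem Kg_inv_le : ((Kg * M)⁻¹) ^ 2 ≤ 16 := by
  have hM : (1 : ℝ) ≤ M := by exact_mod_cast NeZero.pos M
  have h1 : 1 ≤ Kg := by
    have h := TorGapBx63.c0_lt
    have h0 := Tr2x40.c0_pos
    show (1 : ℝ) ≤ 33 / Tr2x40.c0
    rw [le_div_iff₀ h0]
    linarith
  have h2 : (Kg * M)⁻¹ ≤ 1 := inv_le_one_of_one_le₀ (by nlinarith)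
  have h3 : 0 ≤ (Kg * M)⁻¹ := by positivity
  nlinarith

variable {Mm K' : ℕ} (D : FRD 16 Mm K')

/-- Gram bound of the rest -/
theorem rz_gram (J : ℕ) : Gram (rz M D J) (gr D (Covx359.wT M (0, 0)) (Kg * M)⁻¹ J) := by
  have hM : (0 : ℝ) < M := by exact_mod_cast NeZero.pos M
  have hK := Kg_pos
  have hm : 0 < (Kg * (M : ℝ))⁻¹ := by positivity
  have h0 : ABtw (preF (HT M)) (AopF (Covx359.wT M (0, 0))) 0 16 := AopF_bdd _ (abs_wT (0, 0))
  have hp := fun t h1 h2 => D.r_nonneg J t h1 h2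
  intro L
  have h1 : |EE (rz M D J) (L.map fi).prod| ≤
      (L.map fun x => √(((Kg * (M : ℝ))⁻¹⁻¹ • BP (preF (HT M)) (QA (AopF (Covx359.wT M (0, 0)))) (D.r J)) x x)).prod := by
    refine GramHx439.gram_hadamard _ ((Kg * (M : ℝ))⁻¹⁻¹ • FRDAbsx439.BP (preF (HT M))
      (QA (AopF (Covx359.wT M (0, 0)))) (D.r J)) ?_ ?_
      (restZ_le (AopF_asy _) (negInvZ M) hm (Kg_inv_le M) h0 (gap_off M) (D.r J) hp) L
    · intro x y
      simp only [LinearMap.smul_apply]
      rw [BP_symm (AopF_asy _).sy]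
    · intro x
      simp only [LinearMap.smul_apply, smul_eq_mul]
      have := BP_nonneg (AopF_asy (Covx359.wT M (0, 0))).sy (h0.btw (AopF_asy _)) (D.r J) hp x
      positivity
  unfold gr
  rw [mwt_ofReal (fun l => √(((Kg * (M : ℝ))⁻¹⁻¹ • FRDAbsx439.BP (preF (HT M))
    (QA (AopF (Covx359.wT M (0, 0)))) (D.r J)) l l))
    (fun l => Real.sqrt_nonneg _), Real.enorm_eq_ofReal_abs]
  exact ENNReal.ofReal_le_ofReal h1

/-! ### the flow -/

/-- the vacuum exponent is a constant -/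
theorem E_const {G : Type} [CommRing G] [CN G] [CNZ G] [DecidableEq G] (w : BW G)
    (mk : Finset (G × G)) (l k0 : ℕ) (K0 : Finset (G × G) → Ge (Fld G)) (Λ : Finset (G × G))
    (N : ℕ) : (sys D w mk l k0 K0).E Λ N =
      algebraMap ℝ (Ge (Fld G)) (ctG ((sys D w mk l k0 K0).E Λ N)) := by
  have h1 : (sys D w mk l k0 K0).E Λ N = algebraMap ℝ (Ge (Fld G))
      (∑ k ∈ range N, ∑ U ∈ nes Λ, ctG ((sys D w mk l k0 K0).H k U)) := by
    rw [map_sum]
    refine sum_congr rfl fun k _ => ?_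
    rw [map_sum]
    rfl
  have h2 : ctG ((sys D w mk l k0 K0).E Λ N) =
      ∑ k ∈ range N, ∑ U ∈ nes Λ, ctG ((sys D w mk l k0 K0).H k U) := by
    rw [h1, AlgHom.commutes]; rfl
  rw [h2, ← h1]

/-- **the sector with two zero modes through the flow** -/
theorem EE_PP (hK' : 16 ≤ K') (mk : Finset (ZMod M × ZMod M)) {l k0 : ℕ}
    (hl : 5 ≤ l * (k0 + 1)) {K0 : Finset (ZMod M × ZMod M) → Ge (Fld (ZMod M))}
    (hK0 : ∀ U, K0 U ∈ grG (fldU U)) (N : ℕ) (v₁ v₂ : Module.Dual ℝ (Fld (ZMod M))) :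
    EE (TorBrx599.cF M (-(BP M))) (dd v₂ (dd v₁
      ((KStepx892.ZZ (near l k0 0) univ K0 : Ge (Fld (ZMod M))) : Gr (Fld (ZMod M))))) =
      Real.exp (ctG ((sys D (Covx359.wT M (0, 0)) mk l k0 K0).E univ N)) *
        EE (rz M D (lo l k0 N)) (dd v₂ (dd v₁
          ((KStepx892.ZZ (near l k0 N) univ ((sys D (Covx359.wT M (0, 0)) mk l k0 K0).K N) :
            Ge (Fld (ZMod M))) : Gr (Fld (ZMod M))))) := by
  set w := Covx359.wT M (0, 0) with hw
  have h1 : TorBrx599.cF M (-(BP M)) =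
      rz M D (lo l k0 N) + ∑ n ∈ range N, slC D w l k0 n := by
    rw [GSysOKx439.sum_slC, ← restZ_one, add_comm]
    unfold SopC rz
    rw [Nat.Ico_zero_eq_range]
    exact (sum_slice_add_restZ D (AopF_asy w) (negInvZ M) (lo l k0 N)).symm
  have h2 := Sys.total (GSysOKx439.sys_OK D hK' w mk hl hK0) (Λ := univ)
    (fun U hU => absurd (subset_univ U) hU) N
  have h3 := congrArg (fun a : Ge (Fld (ZMod M)) => (a : Gr (Fld (ZMod M)))) h2
  rw [E_const, gexp_algebraMap] at h3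
  simp only [coe_cvG, Ge.coe_mul, ge_coe_algebraMap] at h3
  rw [h1, ← EE_conv, conv_dd, conv_dd]
  have h4 : conv (∑ n ∈ range N, slC D w l k0 n)
      ((KStepx892.ZZ (near l k0 0) univ K0 : Ge (Fld (ZMod M))) : Gr (Fld (ZMod M))) =
      algebraMap ℝ (Gr (Fld (ZMod M))) (Real.exp (ctG ((sys D w mk l k0 K0).E univ N))) *
        ((KStepx892.ZZ (near l k0 N) univ ((sys D w mk l k0 K0).K N) :
            Ge (Fld (ZMod M))) : Gr (Fld (ZMod M))) := h3
  rw [h4, ← Algebra.smul_def, map_smul, map_smul, map_smul, smul_eq_mul]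

/-! ### the last step -/

/-- smallest local weight -/
def wI {G : Type} [CommRing G] [CN G] (w : BW G) (a : ℝ) (r : ℕ) (l : Fld G) : ℝ≥0∞ :=
  ⨅ x : G × G, wt w a r x l

theorem wI_le {G : Type} [CommRing G] [CN G] (w : BW G) (a : ℝ) (r : ℕ) (x : G × G) (l : Fld G) :
    wI w a r l ≤ wt w a r x l := iInf_le _ x

theorem two_wt {G : Type} [CommRing G] [CN G] (w : BW G) (a : ℝ) (r : ℕ) (x : G × G)
    (l : Fld G) : 2 * wt w (a / 2) r x l = wt w a r x l := by
  unfold wt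
  rw [← mul_assoc]
  congr 1
  have h2 : (2 : ℝ≥0∞) = ENNReal.ofReal 2 := by norm_num
  rw [h2, ← ENNReal.ofReal_mul (by norm_num)]
  congr 1
  ring

theorem two_wI {G : Type} [CommRing G] [CN G] (w : BW G) (a : ℝ) (r : ℕ) (l : Fld G) :
    2 * wI w (a / 2) r l ≤ wI w a r l :=
  le_iInf fun x => (mul_le_mul_right (wI_le w (a / 2) r x l) 2).trans (two_wt w a r x l).le

theorem z1_eq : TorBrx599.z1 M = PPcx63.ev (u1 M) := by
  apply Finsupp.lhom_ext
  intro h c
  have e1 : (Finsupp.single h c : Fld (ZMod M)) = c • Finsupp.single h 1 := by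
    rw [Finsupp.smul_single, smul_eq_mul, mul_one]
  rw [e1, map_smul, map_smul, TorBrx599.z1_single, PPcx63.ev_apply, pair,
    Finsupp.sum_single_index (by simp), one_mul]

theorem z2_eq : TorBrx599.z2 M = PPcx63.ev (u2 M) := by
  apply Finsupp.lhom_ext
  intro h c
  have e1 : (Finsupp.single h c : Fld (ZMod M)) = c • Finsupp.single h 1 := by
    rw [Finsupp.smul_single, smul_eq_mul, mul_one]
  rw [e1, map_smul, map_smul, TorBrx599.z2_single, PPcx63.ev_apply, pair,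
    Finsupp.sum_single_index (by simp), one_mul]

theorem l2_eq_one {φ : HT M → ℝ} (h : φ ⬝ᵥ φ = 1) : l2 φ ≤ 1 := by
  unfold l2
  rw [tsum_fintype]
  have : ∑ h, φ h ^ 2 = 1 := by
    rw [← h]
    exact sum_congr rfl fun i _ => sq _
  rw [this, Real.sqrt_one]

theorem Aop_u1 : Aop (Covx359.wT M (0, 0)) (u1 M) = 0 := by
  rw [← hA_mulVec]; exact (ker2 M).a1

theorem Aop_u2 : Aop (Covx359.wT M (0, 0)) (u2 M) = 0 := by
  rw [← hA_mulVec]; exact (ker2 M).a2

theorem ev_le {φ : HT M → ℝ} (h : Aop (Covx359.wT M (0, 0)) φ = 0) (h1 : l2 φ ≤ 1) {a : ℝ}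
    (ha : 0 < a) {r : ℕ} (hr : 0 < r) (l : Fld (ZMod M)) :
    ‖PPcx63.ev φ l‖ₑ ≤ ENNReal.ofReal (a * Real.sqrt r)⁻¹ * wI (Covx359.wT M (0, 0)) a r l := by
  have hr' : (0 : ℝ) < Real.sqrt r := Real.sqrt_pos.2 (by exact_mod_cast hr)
  have hpos : 0 < (a * Real.sqrt r)⁻¹ := inv_pos.2 (mul_pos ha hr')
  have hne : ENNReal.ofReal (a * Real.sqrt r)⁻¹ ≠ 0 := by
    rw [Ne, ENNReal.ofReal_eq_zero, not_le]; exact hpos
  rw [PPcx63.enorm_ev]
  unfold wI
  rw [ENNReal.mul_iInf_of_ne hne ENNReal.ofReal_ne_top]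
  exact le_iInf fun x => PPcx63.pair_null_le _ ha hr x h (Summable.of_finite) h1 l

/-- **the last step in the sector with two zero modes** -/
theorem PP_last (hM : MM ≤ Mm) {J r : ℕ} (hr1 : 1 ≤ r) (hr : r ≤ 2 ^ J) {c' : ℝ} (hc : 0 < c')
    (hcr : c' * M ≤ r) {a : ℝ} (ha : A0 D.C c' ≤ a) {Γ : ℝ≥0∞} (hΓ : 1 ≤ Γ)
    (near : ZMod M × ZMod M → ZMod M × ZMod M → Prop)
    (K : Finset (ZMod M × ZMod M) → Ge (Fld (ZMod M))) {b : ℝ} (hb : 0 ≤ b)
    (hN : NK (Covx359.wT M (0, 0)) a r Γ (fun _ => True) (fun U => (K U : Gr (Fld (ZMod M)))) ≤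
      ENNReal.ofReal b) :
    |EE (rz M D J) (dd (TorBrx599.z2 M) (dd (TorBrx599.z1 M)
      ((KStepx892.ZZ near univ K : Ge (Fld (ZMod M))) : Gr (Fld (ZMod M)))))| ≤
      4 / (a ^ 2 * r) * (Real.exp (n0 c' * b) - 1) := by
  set w := Covx359.wT M (0, 0) with hw
  have hM0 : (0 : ℝ) < M := by exact_mod_cast NeZero.pos M
  have hK := Kg_pos
  have hr0 : (0 : ℝ) < r := by exact_mod_cast hr1
  have hA := A0_pos D.C_pos hc
  have ha0 : 0 < a := hA.trans_le ha
  have hm : 0 < (Kg * (M : ℝ))⁻¹ := by positivity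
  have hg : ∀ l, gr D w (Kg * M)⁻¹ J l ≤ wI w (a / 2 / 2) r l := by
    intro l
    refine le_iInf fun x => ?_
    have h1 := gr_le_wt D hM hm (AopF_bdd w (abs_wT (0, 0))) J r hr1 hr
      (A := a / 2 / 2) (by positivity) x l
    refine h1.trans ?_
    have h2 : 7 * √(D.C / ((Kg * M)⁻¹ * r)) / (a / 2 / 2) ≤ 1 := by
      rw [div_le_one (by positivity)]
      have := amp_le D.C_pos hc hr1 hcr
      linarith
    calc _ ≤ ENNReal.ofReal 1 * wt w (a / 2 / 2) r x l :=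
          mul_le_mul_left (ENNReal.ofReal_le_ofReal h2) _
      _ = _ := by rw [ENNReal.ofReal_one, one_mul]
  have hcov := TorWrapx723.cov_zmod (M := M) hr1 (M / 2)
  have hsum := TorLastx723.sum_le_NK (w := w) hΓ hcov 0 (Λ := (univ : Finset (ZMod M × ZMod M)))
    (fun f _ => TorWrapx723.fd_le_half _ _) (g := wI w a r) (fun x l => wI_le w a r x l)
    (fun U => (K U : Gr (Fld (ZMod M))))
  have h3 := cov_card hc hr1 hcr
  have hsum' : ∑ U ∈ nes (univ : Finset (ZMod M × ZMod M)), pnorm (wI w a r) (K U : Gr _) ≤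
      ENNReal.ofReal (n0 c' * b) := by
    refine hsum.trans ?_
    rw [ENNReal.ofReal_mul (n0_pos hc).le]
    refine mul_le_mul' ?_ hN
    rw [← ENNReal.ofReal_natCast]
    exact ENNReal.ofReal_le_ofReal h3
  have hη := zz_sub_one_le (rn_pnorm (wI w a r)) near univ K
    (mul_nonneg (n0_pos hc).le hb) hsum'
  have hη0 : 0 ≤ Real.exp (n0 c' * b) - 1 := by
    linarith [Real.add_one_le_exp (n0 c' * b), mul_nonneg (n0_pos hc).le hb]
  have hsq : (0 : ℝ) < Real.sqrt r := Real.sqrt_pos.2 hr0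
  have h5 := PPbx63.pp_last (rz_gram M D J) (w := wI w a r) (w' := wI w (a / 2) r)
    (fun l => (mul_le_mul_right (hg l) 2).trans (two_wI w (a / 2) r l))
    (fun l => two_wI w a r l) (TorBrx599.z2 M) (TorBrx599.z1 M)
    (t := (a / 2 * Real.sqrt r)⁻¹) (Z' := 1) (by positivity)
    (fun l => by
      rw [z2_eq]
      exact ev_le M (Aop_u2 M) (l2_eq_one M (n2 M)) (by positivity) hr1 l)
    (fun l => by
      rw [z1_eq]
      refine (ev_le M (Aop_u1 M) (l2_eq_one M (n1 M)) ha0 hr1 l).trans ?_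
      refine mul_le_mul_left (ENNReal.ofReal_le_ofReal ?_) _
      refine inv_anti₀ (by positivity) ?_
      exact mul_le_mul_of_nonneg_right (by linarith) hsq.le)
    ((KStepx892.ZZ near univ K : Ge (Fld (ZMod M))) : Gr (Fld (ZMod M))) 1 hη0
    (by
      rw [map_one]
      exact hη)
  rw [one_mul, abs_one, one_mul] at h5
  refine h5.trans (le_of_eq ?_)
  have h6 : Real.sqrt r ^ 2 = r := Real.sq_sqrt hr0.le
  rw [inv_pow, mul_pow, h6]
  congr 1
  field_simp
  norm_num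

/-- **the weight of the sector with two zero modes against the sector AA** -/
theorem PP_bound (hM : MM ≤ Mm) (hK' : 16 ≤ K') (mk : Finset (ZMod M × ZMod M)) {l k0 : ℕ}
    (hl : 5 ≤ l * (k0 + 1)) {K0 : Finset (ZMod M × ZMod M) → Ge (Fld (ZMod M))}
    (hK0 : ∀ U, K0 U ∈ grG (fldU U)) (N : ℕ) {r : ℕ} (hr1 : 1 ≤ r) (hr : r ≤ 2 ^ lo l k0 N)
    {c' : ℝ} (hc : 0 < c') (hcr : c' * M ≤ r) {a : ℝ} (ha : A0 D.C c' ≤ a) {Γ : ℝ≥0∞}
    (hΓ : 1 ≤ Γ) {b : ℝ} (hb : 0 ≤ b)
    (hN : NK (Covx359.wT M (0, 0)) a r Γ (fun _ => True)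
      (fun U => ((sys D (Covx359.wT M (0, 0)) mk l k0 K0).K N U : Gr (Fld (ZMod M)))) ≤
      ENNReal.ofReal b) :
    |TorusJ1x922.ZE (un (Covx359.wT M (0, 0))) (KStepx892.ZZ (near l k0 0) univ K0)| ≤
      8 / (Latx683.xc * c' * a ^ 2) * (Real.exp (n0 c' * b) - 1) *
        (TorusJ1x922.ZE (un (Covx359.wT M (1, 1))) 1 *
          Real.exp (ctG ((sys D (Covx359.wT M (0, 0)) mk l k0 K0).E univ N))) := by
  have hM0 : (0 : ℝ) < M := by exact_mod_cast NeZero.pos M
  have hr0 : (0 : ℝ) < r := by exact_mod_cast hr1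
  have ha0 : 0 < a := (A0_pos D.C_pos hc).trans_le ha
  have hx : 0 < Latx683.xc := TorSecx599.xc_pos
  have h1 : TorusJ1x922.ZE (un (Covx359.wT M (0, 0))) (KStepx892.ZZ (near l k0 0) univ K0) =
      ZP M * (Real.exp (ctG ((sys D (Covx359.wT M (0, 0)) mk l k0 K0).E univ N)) *
        EE (rz M D (lo l k0 N)) (dd (TorBrx599.z2 M) (dd (TorBrx599.z1 M)
          ((KStepx892.ZZ (near l k0 N) univ ((sys D (Covx359.wT M (0, 0)) mk l k0 K0).K N) :
            Ge (Fld (ZMod M))) : Gr (Fld (ZMod M)))))) := by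
    rw [← EE_PP M D hK' mk hl hK0 N]
    exact TorBrx599.ZE_PP M (KStepx892.ZZ (near l k0 0) univ K0)
  have h2 := PP_last M D hM hr1 hr hc hcr ha hΓ (near l k0 N)
    ((sys D (Covx359.wT M (0, 0)) mk l k0 K0).K N) hb hN
  have h3 : |ZP M| ≤ (2 / Latx683.xc) * M * TorusJ1x922.ZE (un (Covx359.wT M (1, 1))) 1 :=
    TorBrx599.ZP_le' M
  have h4 : 0 < TorusJ1x922.ZE (un (Covx359.wT M (1, 1))) 1 := TorBrx599.ZE_pos M (1, 1) (by decide)
  have hη0 : 0 ≤ Real.exp (n0 c' * b) - 1 := by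
    linarith [Real.add_one_le_exp (n0 c' * b), mul_nonneg (n0_pos hc).le hb]
  rw [h1, abs_mul, abs_mul, abs_of_pos (Real.exp_pos _)]
  set Z := TorusJ1x922.ZE (un (Covx359.wT M (1, 1))) 1
  set e := Real.exp (ctG ((sys D (Covx359.wT M (0, 0)) mk l k0 K0).E univ N)) with he
  have he0 : 0 < e := Real.exp_pos _
  set η := Real.exp (n0 c' * b) - 1
  calc |ZP M| * (e * |EE (rz M D (lo l k0 N)) _|)
      ≤ ((2 / Latx683.xc) * M * Z) * (e * (4 / (a ^ 2 * r) * η)) := by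
        refine mul_le_mul h3 (mul_le_mul_of_nonneg_left h2 he0.le) (by positivity) (by positivity)
    _ = 8 / (Latx683.xc * a ^ 2) * (M / r) * η * (Z * e) := by
        field_simp
        ring
    _ ≤ 8 / (Latx683.xc * a ^ 2) * (1 / c') * η * (Z * e) := by
        have h7 : (M : ℝ) / r ≤ 1 / c' := by
          rw [div_le_div_iff₀ hr0 hc]; linarith
        gcongr
    _ = 8 / (Latx683.xc * c' * a ^ 2) * η * (Z * e) := by
        field_simp

end PP

end Crest.Agent.R165.TorLim2x917
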