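import Crest.Agent.R165.TorLast_723
import Crest.Agent.R165.TorGapB_63
import Crest.Agent.R165.CovT_359
import Crest.Agent.R165.GSysOK_439
import Crest.Agent.R165.PPc_63

/-!
# Row 165 (S0250), leaf T8i (helper917): the last step in the four sectors of the torus

* `hA_mulVec`, `wT_eq` : the matrix of 599 = `Aop` of 683; sector weights in the three notations
* `tor_gap` : gap `1 / (Kg M)` of the sectors AA, AP, PA in the form `ABtw` of 439
* `tor_last` : `|EE rest (ZZ near univ K) - 1| ≤ exp (n0 b) - 1`, `n0 = n0 c'`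
* `ZE_flow` : the weight of a sector through the flow
* PP sector: `negInvZ`, `restZ_one`, `restZ_gram`, `PP_flow`, `PP_last`, `PP_bound`
-/

set_option autoImplicit false
set_option linter.unusedSectionVars false

noncomputable section

open Finset Filter Topology
open scoped ENNReal
open Crest.Agent.R165.Packx915 Crest.Agent.R165.NSumx915 Crest.Agent.R165.Bridgex915
open Crest.Agent.R165.Latx683 Crest.Agent.R165.GDefx387 Crest.Agent.R165.Gr0x606
open Crest.Agent.R165.Gr1x606 Crest.Agent.R165.PNormx417 Crest.Agent.R165.FinBx900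
open Crest.Agent.R165.FRDPolyx439 Crest.Agent.R165.FRDAbsx439 Crest.Agent.R165.FRDLatx439
open Crest.Agent.R165.FRDInfx439
open Crest.Agent.R165.FRDRestx439 Crest.Agent.R165.KStepx892 Crest.Agent.R165.KFlowx337
open Crest.Agent.R165.GeOpsx337 Crest.Agent.R165.GSysx387 Crest.Agent.R165.Covx359
open Crest.Agent.R165.TorGapBx63 (Kg Kg_pos)

namespace Crest.Agent.R165.TorLimx917

variable {M : ℕ} [NeZero M]

/-! ### the matrix and the operator -/

section mat

open Matrix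

/-- the half-edge matrix is the operator `Aop` -/
theorem hA_mulVec (w : BW (ZMod M)) (φ : Latx683.HE (ZMod M) → ℝ) :
    TorDetx599.hA w *ᵥ φ = Aop w φ := by
  funext h
  obtain ⟨f, a⟩ := h
  rw [TorSecx599.hA_mulVec_face]
  obtain ⟨i, j⟩ := f
  fin_cases a
  · simp [TorDetx599.sgn4, Fin.sum_univ_four, yN]
  · simp [TorDetx599.sgn4, Fin.sum_univ_four, yE]
  · simp [TorDetx599.sgn4, Fin.sum_univ_four, yN]
    ring
  · simp [TorDetx599.sgn4, Fin.sum_univ_four, yE]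
    ring

theorem wTor_eq (ε₁ ε₂ : ℝ) : TorChartx723.wTor M ε₁ ε₂ = TorDetx599.wS M xc ε₁ ε₂ := by
  funext z j
  unfold TorChartx723.wTor TorDetx599.wS
  ring

theorem wT_eq (s : Fin 2 × Fin 2) : Covx359.wT M s =
    TorDetx599.wS M xc (if s.2 = 0 then 1 else -1) (if s.1 = 0 then 1 else -1) :=
  TorBrx599.sec_eq M s xc

theorem wT_eq_tor (s : Fin 2 × Fin 2) : Covx359.wT M s =
    TorChartx723.wTor M (if s.2 = 0 then 1 else -1) (if s.1 = 0 then 1 else -1) := by
  rw [wT_eq, wTor_eq]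

theorem sgn_sq (i : Fin 2) : (if i = 0 then (1 : ℝ) else -1) ^ 2 = 1 := by
  split_ifs <;> norm_num

theorem abs_wT (s : Fin 2 × Fin 2) (z : ZMod M × ZMod M) (j : Fin 2) :
    |Covx359.wT M s z j| ≤ 1 := by
  rw [wT_eq]
  unfold TorDetx599.wS
  have h1 : |xc| ≤ 1 := by
    have h2 := TorGapAx63.xc_bounds
    have h3 : Tr1x40.xc = xc := rfl
    rw [← h3, abs_of_pos h2.1]
    linarith [h2.2]
  rw [abs_mul]
  refine mul_le_one₀ h1 (abs_nonneg _) ?_
  split_ifs <;> norm_num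

end mat

/-! ### the gap -/

theorem dotF_self (x : Fld (ZMod M)) :
    dotF (Latx683.HE (ZMod M)) x x = TorGapBx63.n2 (x : Latx683.HE (ZMod M) → ℝ) := by
  rw [dotF_eq_sum x x univ (subset_univ _)]
  exact sum_congr rfl fun i _ => (sq _).symm

/-- **the gap of the sectors AA, AP, PA** -/
theorem tor_gap {s : Fin 2 × Fin 2} (hs : s ≠ (0, 0)) :
    ABtw (preF (Latx683.HE (ZMod M))) (AopF (Covx359.wT M s)) (((Kg * M)⁻¹) ^ 2) 16 := by
  have hM : (0 : ℝ) < M := by exact_mod_cast NeZero.pos M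
  have hK := Kg_pos
  intro x
  refine ⟨?_, (AopF_bdd _ (abs_wT s) x).2⟩
  rw [preF_ip, preF_ip, dotF_self, dotF_self, AopF_coe, wT_eq, inv_pow,
    inv_mul_le_iff₀ (by positivity)]
  refine TorGapBx63.gap_anti (sgn_sq _) (sgn_sq _) ?_ _
  by_cases h2 : s.2 = 0
  · right
    have h1 : s.1 ≠ 0 := fun h => hs (Prod.ext h h2)
    rw [if_neg h1]
  · left; rw [if_neg h2]

/-! ### the last step in the sectors AA, AP, PA -/

/-- number of balls at the last scale -/
def n0 (c' : ℝ) : ℝ := (1 / c' + 3) ^ 2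

theorem n0_pos {c' : ℝ} (hc : 0 < c') : 0 < n0 c' := by unfold n0; positivity

theorem cov_card {c' : ℝ} (hc : 0 < c') {r : ℕ} (hr : 0 < r) (hcr : c' * M ≤ r) :
    ((((2 * ((M / 2) / r) + 3) ^ 2 : ℕ)) : ℝ) ≤ n0 c' := by
  have hr' : (0 : ℝ) < r := by exact_mod_cast hr
  have h1 : (2 * (((M / 2) / r : ℕ) : ℝ)) ≤ 1 / c' := by
    have h2 : (((M / 2) / r : ℕ) : ℝ) ≤ ((M / 2 : ℕ) : ℝ) / r := Nat.cast_div_le
    have h3 : ((M / 2 : ℕ) : ℝ) ≤ (M : ℝ) / 2 := Nat.cast_div_le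
    have h4 : ((M / 2 : ℕ) : ℝ) / r ≤ (M : ℝ) / 2 / r := by gcongr
    have h5 : 2 * ((M : ℝ) / 2 / r) ≤ 1 / c' := by
      rw [show 2 * ((M : ℝ) / 2 / r) = M / r by ring, div_le_div_iff₀ hr' hc]
      linarith
    linarith
  unfold n0
  push_cast
  have h6 : (0 : ℝ) ≤ 2 * (((M / 2) / r : ℕ) : ℝ) + 3 := by positivity
  exact pow_le_pow_left₀ h6 (by linarith) 2

/-- smallest amplitude for which the last step works -/
def A0 (C c' : ℝ) : ℝ := 28 * √(C * Kg / c')

theorem A0_pos {C c' : ℝ} (hC : 0 < C) (hc : 0 < c') : 0 < A0 C c' := by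
  have := Kg_pos
  unfold A0; positivity

theorem amp_le {C c' : ℝ} (hC : 0 < C) (hc : 0 < c') {r : ℕ} (hr : 0 < r) (hcr : c' * M ≤ r) :
    7 * √(C / ((Kg * M)⁻¹ * r)) ≤ A0 C c' / 4 := by
  have hr' : (0 : ℝ) < r := by exact_mod_cast hr
  have hM : (0 : ℝ) < M := by exact_mod_cast NeZero.pos M
  have hK := Kg_pos
  have h1 : C / ((Kg * M)⁻¹ * r) ≤ C * Kg / c' := by
    have e1 : C / ((Kg * M)⁻¹ * r) = C * Kg * (M / r) := by field_simp
    have e2 : C * Kg / c' = C * Kg * (1 / c') := by ring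
    rw [e1, e2]
    refine mul_le_mul_of_nonneg_left ?_ (by positivity)
    rw [div_le_div_iff₀ hr' hc]
    linarith
  have h2 := Real.sqrt_le_sqrt h1
  unfold A0
  linarith

section last

variable {Mm K' : ℕ} (D : FRD 16 Mm K') {s : Fin 2 × Fin 2}
  {S : Latx683.HE (ZMod M) → Latx683.HE (ZMod M) → ℝ}

/-- the covariance left after the slices `j < J` in the sector `s` -/
abbrev rest (hS : IsCov (Covx359.wT M s) S) (J : ℕ) : Cov (Fld (ZMod M)) :=
  restC D hS.skew hS.inv (fun _ => Set.toFinite _) J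

/-- **the last step, sectors AA, AP, PA** -/
theorem tor_last (hM : MM ≤ Mm) (hs : s ≠ (0, 0)) (hS : IsCov (Covx359.wT M s) S) {J r : ℕ}
    (hr1 : 1 ≤ r) (hr : r ≤ 2 ^ J) {c' : ℝ} (hc : 0 < c') (hcr : c' * M ≤ r) {a : ℝ}
    (ha : A0 D.C c' ≤ a) {Γ : ℝ≥0∞} (hΓ : 1 ≤ Γ) (near : ZMod M × ZMod M → ZMod M × ZMod M → Prop)
    (K : Finset (ZMod M × ZMod M) → Ge (Fld (ZMod M))) {b : ℝ} (hb : 0 ≤ b)
    (hN : NK (Covx359.wT M s) a r Γ (fun _ => True) (fun U => (K U : Gr (Fld (ZMod M)))) ≤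
      ENNReal.ofReal b) :
    |EE (rest D hS J) ((ZZ near univ K : Ge (Fld (ZMod M))) : Gr (Fld (ZMod M))) - 1| ≤
      Real.exp (n0 c' * b) - 1 := by
  have hM0 : (0 : ℝ) < M := by exact_mod_cast NeZero.pos M
  have hK := Kg_pos
  have hA := A0_pos D.C_pos hc
  have ha0 : 0 < a := hA.trans_le ha
  have h1 := TorLastx723.last_step D hS.skew hS.inv (fun _ => Set.toFinite _) hM
    (m := (Kg * M)⁻¹) (by positivity) (tor_gap hs) hr1 hr ha0
    (((amp_le D.C_pos hc hr1 hcr).trans (by linarith)).trans ha) hΓ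
    (TorWrapx723.cov_zmod (M := M) hr1 (M / 2)) 0 (Vol := univ)
    (fun f _ => TorWrapx723.fd_le_half _ _) near K hb hN
  refine h1.trans ?_
  have h2 := cov_card hc hr1 hcr
  have h3 : ((((2 * ((M / 2) / r) + 3) ^ 2 : ℕ)) : ℝ) * b ≤ n0 c' * b :=
    mul_le_mul_of_nonneg_right h2 hb
  linarith [Real.exp_le_exp.2 h3]

/-- **the weight of a sector through the flow** -/
theorem ZE_flow (hK' : 16 ≤ K') (hS : IsCov (Covx359.wT M s) S) (mk : Finset (ZMod M × ZMod M))
    {l k0 : ℕ} (hl : 5 ≤ l * (k0 + 1)) {K0 : Finset (ZMod M × ZMod M) → Ge (Fld (ZMod M))}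
    (hK0 : ∀ U, K0 U ∈ grG (fldU U)) (N : ℕ) :
    TorusJ1x922.ZE (un (Covx359.wT M s)) (ZZ (near l k0 0) univ K0) =
      TorusJ1x922.ZE (un (Covx359.wT M s)) 1 *
        (Real.exp (ctG ((sys D (Covx359.wT M s) mk l k0 K0).E univ N)) *
          EE (rest D hS (lo l k0 N))
            ((ZZ (near l k0 N) univ ((sys D (Covx359.wT M s) mk l k0 K0).K N) :
              Ge (Fld (ZMod M))) : Gr (Fld (ZMod M)))) := by
  rw [Covx359.ZE_isCov M hS]
  congr 1
  have h1 := Sys.total_real (GSysOKx439.sys_OK D hK' (Covx359.wT M s) mk hl hK0) (Λ := univ)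
    (fun U hU => absurd (subset_univ U) hU) N (covS S hS.skew) (rest D hS (lo l k0 N))
    (GSysOKx439.covS_split D hS.skew hS.inv (fun _ => Set.toFinite _) l k0 N)
    (fun x hx y => by
      rw [(Submodule.mem_bot ℝ).1 hx, map_zero, LinearMap.zero_apply])
  exact h1

end last

end Crest.Agent.R165.TorLimx917
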