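import Crest.Agent.R165.TorNum_583
import Crest.Agent.R165.Comp2_889
import Crest.Agent.R165.GSys2_387
import Crest.Agent.R165.SysDeep_898

/-!
# Row 165 (S0250): the norm flow on the torus (helper583)

`sys D (wTor M ε₁ ε₂) mk l k0 K0` on `ZMod M`, all sectors, up to the step `K` with
`4 (129 r_K + 1) ≤ M`.

* `str_tor`  : the structural hypotheses `Str` of Comp2_889
* `tor_comp` : the norm bounds at all scales
-/

set_option autoImplicit false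
set_option linter.unusedSectionVars false

noncomputable section

open Filter Topology
open scoped ENNReal
open Crest.Agent.R165.Gr0x606 Crest.Agent.R165.Gr1x606 Crest.Agent.R165.GeOpsx337
  Crest.Agent.R165.ExpGx337 Crest.Agent.R165.KFlowx337
open Crest.Agent.R165.Latx683 Crest.Agent.R165.PNormx417
open Crest.Agent.R165.GDefx387 Crest.Agent.R165.Packx915 Crest.Agent.R165.NSumx915
open Crest.Agent.R165.Bridgex915 Crest.Agent.R165.DefStepx915 Crest.Agent.R165.NKDefx915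
  Crest.Agent.R165.DefRecx915 Crest.Agent.R165.Compx889 Crest.Agent.R165.TorChartx723
  Crest.Agent.R165.GSysx387 Crest.Agent.R165.FRDPolyx439 Crest.Agent.R165.FRDLatx439
  Crest.Agent.R165.TorDx583 Crest.Agent.R165.TorNumx583 Crest.Agent.R165.PEndx683

namespace Crest.Agent.R165.TorNormx583

/-- active polymers -/
def acT {G : Type} [CommRing G] [CN G] (l k0 n : ℕ) (U : Finset (G × G)) : Prop :=
  U.Nonempty ∧ Packx915.Conn fd (nearR l k0 n) U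

theorem s2_le {l k0 n : ℕ} (hl : 1 ≤ l) : (s2 + 1) * rr l k0 n ≤ s2 * rr l k0 (n + 1) := by
  have h2 : 2 ≤ 2 ^ l := by
    calc 2 = 2 ^ 1 := by norm_num
      _ ≤ 2 ^ l := Nat.pow_le_pow_right (by norm_num) hl
  have h3 : 2 * rr l k0 n ≤ rr l k0 (n + 1) := by
    rw [rr_succ]; exact Nat.mul_le_mul_right _ h2
  have hs : s2 = 128 := rfl
  rw [hs]
  omega

/-- **the structural hypotheses on the torus** -/
theorem str_tor {M : ℕ} [NeZero M] {ε₁ ε₂ : ℝ} {Mp Kp : ℕ} (D : FRD 16 Mp Kp) (mk : Finset (ZMod M × ZMod M)) {l k0 : ℕ} (hl : 1 ≤ l)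
    {Γ : ℝ≥0∞} (hΓ : 1 ≤ Γ) {K : ℕ} (hM : ∀ n, n ≤ K → 4 * (rr l k0 n + s2 * rr l k0 n + 1) ≤ M)
    {K0 : Finset (ZMod M × ZMod M) → Ge (Fld (ZMod M))}
    (hac : ∀ k U, (sys D (wTor M ε₁ ε₂) mk l k0 K0).K k U ≠ 0 → acT l k0 k U) :
    Str (sys D (wTor M ε₁ ε₂) mk l k0 K0) (rr l k0) (nearR l k0) Γ (acT l k0)
      (fun k => emT (wTor M ε₁ ε₂) mk (rr l k0 k)) K where
  r_pos := rr_pos l k0
  r_mono k := rr_mono l k0 (Nat.le_succ k)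
  Γ1 := hΓ
  vac x := PStepx417.vac0_apply x
  near k hk := rfl
  hac k hk U hU := hac k U hU
  ne k hk U hU := hU.1
  deep k hk := by
    intro U f hf hs he
    refine ⟨deep_emM _ _ (s2_le hl) U f hf hs he.1, f, rr l k0 k, hM k hk.le, ?_⟩
    rw [Bridgex915.size_eq_pack] at hs
    exact fun v hv => (pack_le_one_iff pd_fd).1 hs f hf v hv
  ext k hk := by
    intro U T hT
    obtain ⟨hs, f, hf, hd, rfl⟩ := (GSysx387.mem_bulk_out ..).1 hT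
    refine ⟨hs, f, hf, rfl, ⟨hd.1, fun u hu x hx => ?_⟩, f, 0, ?_, fun u hu => ?_⟩
    · rw [Finset.mem_singleton.1 hu]
      exact hd.2 x hx
    · have := hM (k + 1) hk
      omega
    · rw [Finset.mem_singleton.1 hu, mem_ball, fd_self]

/-- numerical hypotheses on the constants (they hold by `ev_num`) -/
structure Num (C : ℝ) (N : ℕ) (l k0 : ℕ) (Γ A0 : ℝ) : Prop where
  l4 : 4 ≤ l
  Γ9 : 9 ≤ ENNReal.ofReal Γ
  A0_pos : 0 < A0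
  q1 : (1 + eW C l k0 A0) * qW l 2 ≤ 1
  kap : 9 * (ENNReal.ofReal Γ)⁻¹ * ((2 * 2 ^ l + 3) ^ 2 : ℕ) +
      ((1 + eW C l k0 A0) * qW l 2) ^ 2 * ((N * 263 ^ 2 : ℕ) : ℝ≥0∞) ≤ 1 / 4

theorem ev_Num (C : ℝ) (N : ℕ) : EvC fun c => Num C N c.p c.k0 c.Γ c.A0 :=
  (ev_num C N).mono fun _ h => ⟨h.1, h.2.1, h.2.2.1, h.2.2.2.2.2.1, h.2.2.2.2.2.2⟩

/-- the constant of the first order quantities on the torus -/
def CFT (l : ℕ) (Γ CX : ℝ≥0∞) : ℝ≥0∞ :=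
  (9 * Γ⁻¹ + 3 * 1 + 2 * (3 * CX)) * ((2 * 2 ^ l + 3) ^ 2 : ℕ)

/-- the hypotheses with numbers, one step, torus -/
theorem stepOK_tor {M : ℕ} [NeZero M] {ε₁ ε₂ : ℝ} (h₁ : ε₁ * ε₁ = 1) (h₂ : ε₂ * ε₂ = 1)
    {Mp Kp : ℕ} (D : FRD 16 Mp Kp) (hMp : MM + 1 ≤ Mp) {N l k0 : ℕ} {Γ A0 : ℝ}
    (hN : Num D.C N l k0 Γ A0) (mk : Finset (ZMod M × ZMod M)) (hmk : mk.card ≤ N) {n : ℕ}
    (hM : 4 * (rr l k0 (n + 1) + s2 * rr l k0 (n + 1) + 1) ≤ M) {a a' : ℝ} (ha : 0 < a)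
    (hA : A0 ≤ a') (haa : a' ≤ 2 * a) {K0 : Finset (ZMod M × ZMod M) → Ge (Fld (ZMod M))}
    {CX : ℝ≥0∞} (hX : XBd (wTor M ε₁ ε₂) a a' (rr l k0 n) (rr l k0 (n + 1)) (acT l k0 n)
      (sys D (wTor M ε₁ ε₂) mk l k0 K0) n CX) :
    StepOK (sys D (wTor M ε₁ ε₂) mk l k0 K0) (wTor M ε₁ ε₂) (ENNReal.ofReal Γ) n a a'
      (rr l k0 n) (rr l k0 (n + 1)) (acT l k0 n) (emT (wTor M ε₁ ε₂) mk (rr l k0 n)) (1 / 4)
      (CFT l (ENNReal.ofReal Γ) CX) := by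
  have hrr : rr l k0 n ≤ rr l k0 (n + 1) := rr_mono l k0 (Nat.le_succ n)
  have hs : s2 = 128 := rfl
  have hM1 : 2 * (8 * rr l k0 (n + 1) + 1) ≤ M := by rw [hs] at hM; omega
  have hM2 : 4 * (rr l k0 n + s2 * rr l k0 n + 1) ≤ M := by
    rw [hs] at hM ⊢
    omega
  refine ⟨Unit, inferInstance, fun _ => (mk : Set _), fun _ => (s2 + 1) * rr l k0 n,
    fun _ => mk.card, fun _ => ((1 + eW D.C l k0 A0) * qW l 2) ^ 2, 9 * (ENNReal.ofReal Γ)⁻¹, 1,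
    CX, dstep_tor h₁ h₂ D hMp mk hN.l4 hM1 hM2 ha hN.A0_pos hA (by norm_num) haa hN.q1
      ENNReal.ofReal_ne_top hN.Γ9, hX, ?_, ?_⟩
  · rw [kapD_eq]
    refine le_trans (add_le_add le_rfl (mul_le_mul' le_rfl ?_)) hN.kap
    exact_mod_cast Nat.mul_le_mul_right _ hmk
  · unfold cF CFT
    rw [nn2_eq]

/-- **the norm flow on the torus**: bounds at all scales, uniform in the side, the sector, the
marks and the initial activities -/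
theorem tor_comp {Mp Kp : ℕ} (D : FRD 16 Mp Kp) (hMp : MM + 1 ≤ Mp) {N l k0 : ℕ} {Γ A0 : ℝ}
    (hN : Num D.C N l k0 Γ A0) {CX m : ℝ≥0∞} (hCX : CX ≠ ∞) (hm : m ≠ ∞) :
    ∃ M₀ ε₀ : ℝ≥0∞, M₀ ≠ ∞ ∧ ε₀ ≠ 0 ∧
      ∀ (M : ℕ) [NeZero M] (ε₁ ε₂ : ℝ), ε₁ * ε₁ = 1 → ε₂ * ε₂ = 1 →
      ∀ (mk : Finset (ZMod M × ZMod M)), mk.card ≤ N → ∀ K : ℕ,
      (4 * (rr l k0 K + s2 * rr l k0 K + 1) ≤ M) →
      ∀ a : ℕ → ℝ, (∀ n, A0 ≤ a n) → (∀ n, a (n + 1) ≤ 2 * a n) →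
      ∀ K0 : Finset (ZMod M × ZMod M) → Ge (Fld (ZMod M)),
      (∀ k U, (sys D (wTor M ε₁ ε₂) mk l k0 K0).K k U ≠ 0 → acT l k0 k U) →
      (∀ k, k < K → XBd (wTor M ε₁ ε₂) (a k) (a (k + 1)) (rr l k0 k) (rr l k0 (k + 1))
        (acT l k0 k) (sys D (wTor M ε₁ ε₂) mk l k0 K0) k CX) →
      ∀ ε q : ℝ≥0∞, 1 / 2 ≤ q → q ≤ 1 → ε ≤ ε₀ →
      (∀ k, k ≤ K → NP (sys D (wTor M ε₁ ε₂) mk l k0 K0) (wTor M ε₁ ε₂) a (rr l k0)
        (ENNReal.ofReal Γ) (emT (wTor M ε₁ ε₂) mk (rr l k0 k)) k ≤ ε * q ^ k) →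
      NP (sys D (wTor M ε₁ ε₂) mk l k0 K0) (wTor M ε₁ ε₂) a (rr l k0) (ENNReal.ofReal Γ)
        (fun U => ¬ emT (wTor M ε₁ ε₂) mk (rr l k0 0) U) 0 ≤ m * ε →
      (∀ k, k ≤ K → NP (sys D (wTor M ε₁ ε₂) mk l k0 K0) (wTor M ε₁ ε₂) a (rr l k0)
        (ENNReal.ofReal Γ) allP k ≤ M₀ * (ε * q ^ k)) ∧
      (∀ k, k < K → NC (sys D (wTor M ε₁ ε₂) mk l k0 K0) (rr l k0) (ENNReal.ofReal Γ) k ≤
        M₀ * (ε * q ^ k)) := by
  have hΓ0 : ENNReal.ofReal Γ ≠ 0 := (lt_of_lt_of_le (by norm_num) hN.Γ9).ne'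
  have hCF : CFT l (ENNReal.ofReal Γ) CX ≠ ∞ := by
    unfold CFT
    refine ENNReal.mul_ne_top (ENNReal.add_ne_top.2 ⟨ENNReal.add_ne_top.2
      ⟨ENNReal.mul_ne_top (by norm_num) (ENNReal.inv_ne_top.2 hΓ0), by norm_num⟩,
      ENNReal.mul_ne_top (by norm_num) (ENNReal.mul_ne_top (by norm_num) hCX)⟩)
      (ENNReal.natCast_ne_top _)
  obtain ⟨M₀, ε₀, hM₀, hε₀, h⟩ := comp_good (CFT l (ENNReal.ofReal Γ) CX)
    (((2 * (1 + 2 ^ l) + 3) ^ 2 : ℕ) : ℝ≥0∞) m hCF (ENNReal.natCast_ne_top _) hm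
  refine ⟨M₀, ε₀, hM₀, hε₀, ?_⟩
  intro M _ ε₁ ε₂ h₁ h₂ mk hmk K hM a ha haa K0 hac hX ε q hq hq1 hε hb hc0
  have hM' : ∀ n, n ≤ K → 4 * (rr l k0 n + s2 * rr l k0 n + 1) ≤ M := by
    intro n hn
    have := rr_mono l k0 hn
    have hs : s2 = 128 := rfl
    rw [hs] at hM ⊢
    omega
  exact h (ZMod M) _ (wTor M ε₁ ε₂) a (rr l k0) (nearR l k0) (ENNReal.ofReal Γ) (acT l k0)
    (fun k => emT (wTor M ε₁ ε₂) mk (rr l k0 k)) K ε q hq hq1 hε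
    (str_tor D mk (by have := hN.l4; omega) (le_trans (by norm_num) hN.Γ9) hM' hac)
    (fun k _ => by exact_mod_cast nn3_le l k0 k)
    (fun k hk => stepOK_tor h₁ h₂ D hMp hN mk hmk (hM' (k + 1) hk) (hN.A0_pos.trans_le (ha k))
      (ha (k + 1)) (haa k) (hX k hk)) hb hc0

end Crest.Agent.R165.TorNormx583
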