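import Crest.Agent.R165.TorD_583
import Crest.Agent.R165.QuadB_915
import Crest.Agent.R165.PEnd_683

/-!
# Row 165 (S0250): numerics of the torus flow (helper583)

* `kapD_le`, `nn2_eq`, `nn3_eq` : the constants of `step_all` do not depend on the step
* `ev_num` : for all large `p`, `Γ`, `k0`, `A0` and small `δ` the numerical hypotheses hold
-/

set_option autoImplicit false
set_option linter.unusedSectionVars false

noncomputable section

open Filter Topology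
open scoped ENNReal
open Crest.Agent.R165.GDefx387 Crest.Agent.R165.GSysx387 Crest.Agent.R165.DefRecx915
  Crest.Agent.R165.TorDx583 Crest.Agent.R165.PEndx683

namespace Crest.Agent.R165.TorNumx583

theorem rr_div (l k0 n : ℕ) : rr l k0 (n + 1) / rr l k0 n = 2 ^ l := by
  rw [rr_succ, Nat.mul_div_cancel _ (rr_pos l k0 n)]

theorem nn2_eq (l k0 n : ℕ) : nn2 (rr l k0 n) (rr l k0 (n + 1)) = (2 * 2 ^ l + 3) ^ 2 := by
  unfold nn2
  rw [rr_div]

theorem nn3_le (l k0 n : ℕ) :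
    nn3 (rr l k0 (n + 1)) (nearR l k0 (n + 1)) ≤ (2 * (1 + 2 ^ l) + 3) ^ 2 := by
  unfold nn3
  have h : (rr l k0 (n + 1) + nearR l k0 (n + 1)) / rr l k0 (n + 1) ≤ 1 + 2 ^ l := by
    rw [Nat.add_div_left _ (rr_pos l k0 (n + 1))]
    have : nearR l k0 (n + 1) / rr l k0 (n + 1) ≤ 2 ^ l := by
      rw [← rr_div l k0 (n + 1)]
      refine Nat.div_le_div_right ?_
      exact Nat.div_le_self _ _
    omega
  exact Nat.pow_le_pow_left (by omega) 2

theorem mark_div (r : ℕ) (hr : 0 < r) : ((s2 + 1) * r + r) / r = 130 := by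
  have : (s2 + 1) * r + r = 130 * r := by
    have : s2 = 128 := rfl
    rw [this]; ring
  rw [this, Nat.mul_div_cancel _ hr]

/-- the contraction factor does not depend on the step -/
theorem kapD_eq (l k0 n N : ℕ) (q Γ : ℝ≥0∞) :
    kapD (rr l k0 n) (rr l k0 (n + 1)) (fun _ : Unit => (s2 + 1) * rr l k0 n) (fun _ => N)
      (fun _ => q) (9 * Γ⁻¹) =
      9 * Γ⁻¹ * ((2 * 2 ^ l + 3) ^ 2 : ℕ) + q * ((N * 263 ^ 2 : ℕ) : ℝ≥0∞) := by
  unfold kapD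
  rw [nn2_eq, Fintype.sum_unique, mark_div _ (rr_pos l k0 n)]

theorem tendsto_qW (ρ : ℝ) : Tendsto (fun l : ℕ => qW l ρ) atTop (𝓝 0) := by
  have h1 : Tendsto (fun l : ℕ => ρ * (RegGx893.K1 CT * Real.sqrt (1 / 2 ^ l))) atTop (𝓝 0) := by
    have h2 : Tendsto (fun l : ℕ => (1 : ℝ) / 2 ^ l) atTop (𝓝 0) := by
      have := tendsto_pow_atTop_nhds_zero_of_lt_one (r := (1 / 2 : ℝ)) (by norm_num) (by norm_num)
      refine this.congr fun l => ?_
      rw [div_pow, one_pow]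
    have h3 := (Real.continuous_sqrt.tendsto 0).comp h2
    rw [Real.sqrt_zero] at h3
    have h4 := (h3.const_mul (RegGx893.K1 CT)).const_mul ρ
    simpa using h4
  have := (ENNReal.continuous_ofReal.tendsto 0).comp h1
  rwa [ENNReal.ofReal_zero] at this

theorem tendsto_eW (C : ℝ) (l k0 : ℕ) : Tendsto (fun A0 : ℝ => eW C l k0 A0) atTop (𝓝 0) := by
  have h1 : Tendsto (fun A0 : ℝ => 7 * √(C * 1) * ((2 : ℝ) ^ (l * (k0 + 1))) ^ MM / A0) atTop
      (𝓝 0) := Tendsto.div_atTop tendsto_const_nhds tendsto_id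
  have := (ENNReal.continuous_ofReal.tendsto 0).comp h1
  rwa [ENNReal.ofReal_zero] at this

/-- **the numerical hypotheses of the torus flow hold for good constants** (`N` marks) -/
theorem ev_num (C : ℝ) (N : ℕ) : EvC fun c => 4 ≤ c.p ∧ 9 ≤ ENNReal.ofReal c.Γ ∧ 0 < c.A0 ∧
    0 < c.δ ∧ c.δ ≤ 1 ∧ (1 + eW C c.p c.k0 c.A0) * qW c.p 2 ≤ 1 ∧
    9 * (ENNReal.ofReal c.Γ)⁻¹ * ((2 * 2 ^ c.p + 3) ^ 2 : ℕ) +
      ((1 + eW C c.p c.k0 c.A0) * qW c.p 2) ^ 2 * ((N * 263 ^ 2 : ℕ) : ℝ≥0∞) ≤ 1 / 4 := by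
  -- the target for `2 qW`
  set η : ℝ≥0∞ := min 1 ((8 * ((N * 263 ^ 2 : ℕ) : ℝ≥0∞) + 1)⁻¹) with hη
  have hη0 : 0 < η := by
    refine lt_min one_pos (ENNReal.inv_pos.2 ?_)
    exact ENNReal.add_ne_top.2 ⟨ENNReal.mul_ne_top (by norm_num) (ENNReal.natCast_ne_top _),
      ENNReal.one_ne_top⟩
  have hq : ∀ᶠ l : ℕ in atTop, qW l 2 ≤ η / 2 := by
    have := (tendsto_qW 2).eventually (gt_mem_nhds (ENNReal.half_pos hη0.ne'))
    exact this.mono fun _ h => h.le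
  refine (hq.and (eventually_ge_atTop 4)).mono fun l hl => ?_
  have hΓ : ∀ᶠ Γ : ℝ in atTop, 9 * 8 * ((2 * 2 ^ l + 3) ^ 2 : ℕ) ≤ Γ ∧ 9 ≤ Γ :=
    (eventually_ge_atTop _).and (eventually_ge_atTop _)
  refine hΓ.mono fun Γ hΓ => Eventually.of_forall fun k0 => ?_
  have hA : ∀ᶠ A0 : ℝ in atTop, eW C l k0 A0 ≤ 1 ∧ 0 < A0 := by
    refine ((tendsto_eW C l k0).eventually (gt_mem_nhds one_pos)).mono (fun _ h => h.le) |>.and
      (eventually_gt_atTop 0)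
  refine hA.mono fun A0 hA0 => ?_
  have hδ : ∀ᶠ δ : ℝ in 𝓝[>] 0, 0 < δ ∧ δ ≤ 1 := by
    filter_upwards [Ioc_mem_nhdsGT (zero_lt_one' ℝ)] with δ hδ using hδ
  refine hδ.mono fun δ hδ => ?_
  have hp : (1 + eW C l k0 A0) * qW l 2 ≤ η := by
    calc (1 + eW C l k0 A0) * qW l 2 ≤ (1 + 1) * (η / 2) := by gcongr; exacts [hA0.1, hl.1]
      _ = η := by rw [one_add_one_eq_two]; exact ENNReal.mul_div_cancel (by norm_num) (by norm_num)
  refine ⟨hl.2, ?_, hA0.2, hδ.1, hδ.2, hp.trans (min_le_left _ _), ?_⟩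
  · rw [show (9 : ℝ≥0∞) = ENNReal.ofReal 9 by norm_num]
    exact ENNReal.ofReal_le_ofReal hΓ.2
  · have h1 : 9 * (ENNReal.ofReal Γ)⁻¹ * ((2 * 2 ^ l + 3) ^ 2 : ℕ) ≤ 1 / 8 := by
      have hΓ0 : 0 < Γ := by linarith [hΓ.2]
      have h2 : ENNReal.ofReal (9 * 8 * ((2 * 2 ^ l + 3) ^ 2 : ℕ)) ≤ ENNReal.ofReal Γ :=
        ENNReal.ofReal_le_ofReal hΓ.1
      rw [ENNReal.ofReal_mul (by norm_num), ENNReal.ofReal_natCast] at h2
      have h3 : (9 : ℝ≥0∞) * ((2 * 2 ^ l + 3) ^ 2 : ℕ) * 8 ≤ ENNReal.ofReal Γ := by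
        refine le_trans (le_of_eq ?_) h2
        rw [ENNReal.ofReal_mul (by norm_num)]
        norm_num
        ring
      have hΓ1 : ENNReal.ofReal Γ ≠ 0 := by
        rw [Ne, ENNReal.ofReal_eq_zero, not_le]; exact hΓ0
      rw [ENNReal.le_div_iff_mul_le (by norm_num) (by norm_num)]
      calc 9 * (ENNReal.ofReal Γ)⁻¹ * ((2 * 2 ^ l + 3) ^ 2 : ℕ) * 8
          = (9 * ((2 * 2 ^ l + 3) ^ 2 : ℕ) * 8) * (ENNReal.ofReal Γ)⁻¹ := by ring
        _ ≤ ENNReal.ofReal Γ * (ENNReal.ofReal Γ)⁻¹ := by gcongr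
        _ ≤ 1 := ENNReal.mul_inv_le_one _
    have h2 : ((1 + eW C l k0 A0) * qW l 2) ^ 2 * ((N * 263 ^ 2 : ℕ) : ℝ≥0∞) ≤ 1 / 8 := by
      set T : ℝ≥0∞ := ((N * 263 ^ 2 : ℕ) : ℝ≥0∞) with hT
      rw [ENNReal.le_div_iff_mul_le (by norm_num) (by norm_num)]
      calc ((1 + eW C l k0 A0) * qW l 2) ^ 2 * T * 8 ≤ η ^ 2 * T * 8 := by gcongr
        _ = η * (η * (8 * T)) := by ring
        _ ≤ 1 * ((8 * T + 1)⁻¹ * (8 * T + 1)) := by
            gcongr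
            · exact min_le_left _ _
            · exact min_le_right _ _
            · exact le_self_add
        _ ≤ 1 := by rw [one_mul]; exact ENNReal.inv_mul_le_one _
    calc _ ≤ (1 / 8 : ℝ≥0∞) + 1 / 8 := add_le_add h1 h2
      _ = 1 / 4 := by
        rw [← two_mul, show (8 : ℝ≥0∞) = 2 * 4 by norm_num, one_div,
          ENNReal.mul_inv (by norm_num) (by norm_num), ← mul_assoc,
          ENNReal.mul_inv_cancel (by norm_num) (by norm_num), one_mul, one_div]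

end Crest.Agent.R165.TorNumx583
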