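import Crest.Agent.R165.TorusJ1_922
import Crest.Agent.R165.J4RR_653
import Crest.Agent.R165.J4Can_653
import Crest.Agent.R165.Lat_683

/-!
Row 165, block J (helper922): the torus states as ratios of sums over the four sectors.

* `J1T_RR` : (J1) on the torus with an arbitrary element of the eps-algebra `RR` of `J4RR_653`
* `torusExpect_RR` : `torusExpect` (any `lam`, any temperature) as a ratio of four-sector sums
-/

set_option autoImplicit false
set_option linter.all false

noncomputable section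

open Finset
open Crest.ProbabilityR.IsingModel

namespace Crest.Agent.R165.TorusJ2x922

open Crest.Agent.R165.Gr0x606 Crest.Agent.R165.Gr1x606 Crest.Agent.R165.J1ax606
open Crest.Agent.R165.TorusCombx922 Crest.Agent.R165.TorusJ1x922
open Crest.Agent.R165.J4RRx653 (RR ep RR.ind TH_ep TH_one)

variable {L : ℕ} [NeZero L]

theorem ZE_add (y : Ed L → ℝ) (X Y : Ge (VI (HE (ZMod L)))) : ZE y (X + Y) = ZE y X + ZE y Y := by
  unfold ZE
  rw [mul_add, Ge.coe_add, map_add]

theorem ZE_smul (y : Ed L → ℝ) (c : ℝ) (X : Ge (VI (HE (ZMod L)))) : ZE y (c • X) = c * ZE y X := by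
  unfold ZE
  rw [mul_smul_comm, Ge.coe_smul, map_smul, smul_eq_mul]

theorem ZE_zero (y : Ed L → ℝ) : ZE y 0 = 0 := by
  have := ZE_smul y 0 0
  simpa using this

/-- the image of a bond variable in the background `y` -/
def gb (y : Ed L → ℝ) (e : Ed L) : Ge (VI (HE (ZMod L))) := 1 - (2 * y e) • bb e

/-- the weights of a sector -/
def sy (s : Fin 2 × Fin 2) (y : Ed L → ℝ) (e : Ed L) : ℝ := sec s e * y e

/-- the image of the eps-algebra in the background `y` -/
def THG (y : Ed L → ℝ) (F : RR (Ed L)) : Ge (VI (HE (ZMod L))) := J4RRx653.TH (gb y) F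

/-- evaluation of the eps-algebra at a configuration -/
def evT (σ : Vx L → Bool) (F : RR (Ed L)) : ℝ := J4RRx653.TH (epsT σ) F

theorem epsT_sq (σ : Vx L → Bool) (e : Ed L) : epsT σ e * epsT σ e = 1 := by
  rw [epsT_eq]; split_ifs <;> norm_num

theorem evT_mul (σ : Vx L → Bool) (F G : RR (Ed L)) : evT σ (F * G) = evT σ F * evT σ G :=
  J4RRx653.TH_mul_sq _ (epsT_sq σ) F G

theorem evT_prod (σ : Vx L → Bool) {ι : Type*} (s : Finset ι) (F : ι → RR (Ed L)) :
    evT σ (∏ i ∈ s, F i) = ∏ i ∈ s, evT σ (F i) :=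
  J4RRx653.TH_prod_sq _ (epsT_sq σ) s F

/-- the two notations for the bond variable agree -/
theorem epsT_eq_653 (σ : Vx L → Bool) (e : Ed L) : J4Defx653.epsT σ e = epsT σ e := by
  unfold J4Defx653.epsT epsT
  congr 3
  obtain ⟨⟨i, j⟩, k⟩ := e
  have hk : k = 0 ∨ k = 1 := by omega
  rcases hk with rfl | rfl
  · simp [tgt, toTorus, unitVec]
  · simp [tgt, toTorus, unitVec]

/-- **(J1) on the torus**, arbitrary element of the eps-algebra. -/
theorem J1T_RR (hL : 2 ≤ L) (y : Ed L → ℝ) (F : RR (Ed L)) :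
    ∑ σ : Vx L → Bool, evT σ F * ∏ e ∈ walls σ, y e =
      (1 / 2) * ∑ s : Fin 2 × Fin 2, ZE (sy s y) (THG (sy s y) F) := by
  induction F using RR.ind with
  | h0 =>
    simp only [evT, THG, map_zero, zero_mul, ZE_zero, Finset.sum_const_zero, mul_zero]
  | hadd F G hF hG =>
    simp only [evT, THG, map_add, add_mul, ZE_add, Finset.sum_add_distrib, mul_add] at hF hG ⊢
    rw [hF, hG]
  | hs c S =>
    have h := J1T_ins hL y S.support
    simp only [evT, THG, map_smul, smul_eq_mul, ZE_smul, TH_ep, mul_assoc, ← Finset.mul_sum]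
    rw [h]
    have e : ∀ s : Fin 2 × Fin 2, ZE (fun e => sec s e * y e) (TH (fun e => sec s e * y e) S.support)
        = ZE (sy s y) (∏ e ∈ S.support, gb (sy s y) e) := fun s => rfl
    simp only [e]
    ring

/-- the Boltzmann factor of the nearest neighbour part -/
theorem exp_eps (K : ℝ) (σ : Vx L → Bool) :
    Real.exp (K * ∑ e : Ed L, epsT σ e) =
      Real.exp (K * (Fintype.card (Ed L) : ℝ)) * ∏ e ∈ walls σ, Real.exp (-(2 * K)) := by
  rw [Finset.prod_const, ← Real.exp_nat_mul, ← Real.exp_add]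
  congr 1
  have h : ∑ e : Ed L, epsT σ e = (Fintype.card (Ed L) : ℝ) - 2 * ((walls σ).card : ℝ) := by
    have : ∀ e : Ed L, epsT σ e = 1 - 2 * (if e ∈ walls σ then 1 else 0) := by
      intro e
      rw [epsT_eq]
      split_ifs <;> norm_num
    simp only [this]
    rw [Finset.sum_sub_distrib, Finset.sum_const, Finset.card_univ, nsmul_eq_mul, mul_one,
      ← Finset.mul_sum, Finset.sum_boole]
    simp
  rw [h]
  ring

theorem exp_crit {J : ℝ} (hJ : J ≠ 0) :
    Real.exp (-(2 * (criticalBeta J * J))) = Latx683.xc := by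
  have h1 : 2 * (criticalBeta J * J) = Real.log (1 + Real.sqrt 2) := by
    unfold criticalBeta
    field_simp
  have hpos : (0 : ℝ) < 1 + Real.sqrt 2 := by positivity
  rw [h1, Real.exp_neg, Real.exp_log hpos, Latx683.xc]
  have h2 : Real.sqrt 2 * Real.sqrt 2 = 2 := Real.mul_self_sqrt (by norm_num)
  field_simp
  nlinarith [h2]

/-- the perturbation part of the exponent -/
def pertT (J lam β : ℝ) (R : ℕ) (V : Finset (ℤ × ℤ) → ℝ) (σ : Vx L → Bool) : ℝ :=
  ∑ u : ZMod L × ZMod L, ∑ A ∈ J4Defx653.Can (max R 1),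
    J4Defx653.tpot J lam β V A * J4Defx653.sT σ u A

theorem exp_energy {J : ℝ} (hJ : J ≠ 0) (lam β : ℝ) (R : ℕ) (V : Finset (ℤ × ℤ) → ℝ)
    (hV : J4Defx653.TrInv V) (hr : J4Defx653.Rng R V) (σ : Vx L → Bool) :
    Real.exp (-β * energy L J lam R V σ) =
      Real.exp (criticalBeta J * J * (Fintype.card (Ed L) : ℝ)) *
        (Real.exp (pertT J lam β R V σ) * ∏ e ∈ walls σ, Latx683.xc) := by
  rw [J4Defx653.neg_beta_torus L J lam β R V hV hr σ, Real.exp_add]
  have h1 : ∑ e : (ZMod L × ZMod L) × Fin 2, J4Defx653.epsT σ e = ∑ e : Ed L, epsT σ e :=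
    Finset.sum_congr rfl fun e _ => epsT_eq_653 σ e
  rw [h1, exp_eps, exp_crit hJ]
  rw [mul_assoc]
  congr 1
  rw [mul_comm]
  rfl

/-- the four-sector sum of an element of the eps-algebra at criticality -/
def Z4 (F : RR (Ed L)) : ℝ :=
  ∑ s : Fin 2 × Fin 2, ZE (sy s fun _ => Latx683.xc) (THG (sy s fun _ => Latx683.xc) F)

/-- **the torus state as a ratio of four-sector sums**: `F` represents the observable times the
perturbation, `G` represents the perturbation. -/
theorem torusExpect_RR (hL : 2 ≤ L) {J : ℝ} (hJ : J ≠ 0) (lam β : ℝ) (R : ℕ)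
    (V : Finset (ℤ × ℤ) → ℝ) (hV : J4Defx653.TrInv V) (hr : J4Defx653.Rng R V)
    (f : TorusConfig L → ℝ) (F G : RR (Ed L))
    (hF : ∀ σ, evT σ F = f σ * Real.exp (pertT J lam β R V σ))
    (hG : ∀ σ, evT σ G = Real.exp (pertT J lam β R V σ)) :
    torusExpect L J lam R V β f = Z4 F / Z4 G := by
  have key : ∀ (h : TorusConfig L → ℝ) (H : RR (Ed L)),
      (∀ σ, evT σ H = h σ * Real.exp (pertT J lam β R V σ)) →
      ∑ σ : TorusConfig L, h σ * Real.exp (-β * energy L J lam R V σ) =
        Real.exp (criticalBeta J * J * (Fintype.card (Ed L) : ℝ)) * (1 / 2) * Z4 H := by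
    intro h H hH
    have e1 : ∀ σ : Vx L → Bool, h σ * Real.exp (-β * energy L J lam R V σ) =
        Real.exp (criticalBeta J * J * (Fintype.card (Ed L) : ℝ)) *
          (evT σ H * ∏ e ∈ walls σ, Latx683.xc) := by
      intro σ
      rw [exp_energy hJ lam β R V hV hr σ, hH]
      ring
    rw [Finset.sum_congr rfl fun σ _ => e1 σ, ← Finset.mul_sum, J1T_RR hL]
    rw [← mul_assoc]
    rfl
  have h2 := key (fun _ => 1) G (fun σ => by rw [hG, one_mul])
  simp only [one_mul] at h2
  unfold torusExpect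
  rw [key f F hF, h2]
  have hne : Real.exp (criticalBeta J * J * (Fintype.card (Ed L) : ℝ)) * (1 / 2) ≠ 0 := by positivity
  rw [mul_div_mul_left _ _ hne]

/-- the unperturbed critical torus state -/
theorem torusExpect_crit (hL : 2 ≤ L) {J : ℝ} (hJ : J ≠ 0) (R : ℕ)
    (V : Finset (ℤ × ℤ) → ℝ) (f : TorusConfig L → ℝ) (F : RR (Ed L))
    (hF : ∀ σ, evT σ F = f σ) :
    torusExpect L J 0 R V (criticalBeta J) f = Z4 F / Z4 (1 : RR (Ed L)) := by
  have hind : ∀ V' : Finset (ℤ × ℤ) → ℝ,
      torusExpect L J 0 R V (criticalBeta J) f = torusExpect L J 0 R V' (criticalBeta J) f := by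
    intro V'
    unfold torusExpect energy
    simp only [zero_mul]
  rw [hind fun _ => 0]
  have hp : ∀ σ : Vx L → Bool, pertT J 0 (criticalBeta J) R (fun _ => 0) σ = 0 := by
    intro σ
    unfold pertT J4Defx653.tpot
    simp
  refine torusExpect_RR hL hJ 0 (criticalBeta J) R (fun _ => 0) (fun _ _ => rfl)
    (fun A h => absurd rfl h) f F 1 ?_ ?_
  · intro σ; rw [hp, Real.exp_zero, mul_one, hF]
  · intro σ; rw [hp, Real.exp_zero]; exact TH_one _

end Crest.Agent.R165.TorusJ2x922
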