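import Crest.Agent.R165.Tr2_40

/-!
Row 165 (helper922): gradient inequality and Poincaré inequalities for twisted-periodic fields.

`Tw N a b φ`: `φ(f + N e₁) = a φ(f)`, `φ(f + N e₂) = b φ(f)`. Norms are sums over the period box.

* `ip_A` : `A (cst xc)` is antisymmetric;
* `grad_le` : `|∇ψ|² ≤ KE |A ψ|²` in all sectors;
* `poinc1`, `poinc2` : `|ψ|² ≤ N² |∇ψ|²` when one direction is antiperiodic;
* `poinc0` : the same for fields with zero mean in the periodic sector.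
-/

set_option autoImplicit false
set_option linter.all false

noncomputable section

open Finset

namespace Crest.Agent.R165.TorusGradx922

open Crest.Agent.R165.Tr1x40 Crest.Agent.R165.Tr2x40

/-! ### sums over a period -/

/-- One-dimensional shift. -/
theorem sum_Ico_succ {N : ℤ} (hN : 0 < N) (g : ℤ → ℝ) (hg : ∀ i, g (i + N) = g i) :
    ∑ i ∈ Ico 0 N, g (i + 1) = ∑ i ∈ Ico 0 N, g i := by
  have e1 : ∑ i ∈ Ico 0 N, g (i + 1) = ∑ i ∈ Ico 1 (N + 1), g i := by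
    have : Ico (1 : ℤ) (N + 1) = (Ico 0 N).image (fun i => i + 1) := by
      ext i
      simp only [mem_Ico, mem_image]
      constructor
      · intro h; exact ⟨i - 1, by omega, by omega⟩
      · rintro ⟨j, hj, rfl⟩; omega
    rw [this, Finset.sum_image (fun x _ y _ h => by simpa using h)]
  have e2 : Ico (1 : ℤ) (N + 1) = insert N (Ico 1 N) := by
    ext i; simp only [mem_Ico, mem_insert]; omega
  have e3 : Ico (0 : ℤ) N = insert 0 (Ico 1 N) := by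
    ext i; simp only [mem_Ico, mem_insert]; omega
  rw [e1, e2, e3, sum_insert (by simp), sum_insert (by simp)]
  have := hg 0
  rw [zero_add] at this
  rw [this]

/-- The period box. -/
def bx (N : ℤ) : Finset Face := Ico 0 N ×ˢ Ico 0 N

/-- Periodic real functions. -/
structure Per (N : ℤ) (g : Face → ℝ) : Prop where
  h1 : ∀ f, g (f.1 + N, f.2) = g f
  h2 : ∀ f, g (f.1, f.2 + N) = g f

/-- Sum over the period box. -/
def Sm (N : ℤ) (g : Face → ℝ) : ℝ := ∑ f ∈ bx N, g f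

theorem Sm_eq (N : ℤ) (g : Face → ℝ) : Sm N g = ∑ i ∈ Ico 0 N, ∑ j ∈ Ico 0 N, g (i, j) := by
  rw [Sm, bx, sum_product]

theorem Sm_eq' (N : ℤ) (g : Face → ℝ) : Sm N g = ∑ j ∈ Ico 0 N, ∑ i ∈ Ico 0 N, g (i, j) := by
  rw [Sm, bx, sum_product_right]

theorem Sm_add (N : ℤ) (g g' : Face → ℝ) : Sm N (fun f => g f + g' f) = Sm N g + Sm N g' :=
  sum_add_distrib

theorem Sm_sub (N : ℤ) (g g' : Face → ℝ) : Sm N (fun f => g f - g' f) = Sm N g - Sm N g' :=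
  sum_sub_distrib _ _

theorem Sm_mul (N : ℤ) (c : ℝ) (g : Face → ℝ) : Sm N (fun f => c * g f) = c * Sm N g := by
  rw [Sm, Sm, mul_sum]

theorem Sm_mono {N : ℤ} {g g' : Face → ℝ} (h : ∀ f, g f ≤ g' f) : Sm N g ≤ Sm N g' :=
  sum_le_sum fun f _ => h f

theorem Sm_nonneg {N : ℤ} {g : Face → ℝ} (h : ∀ f, 0 ≤ g f) : 0 ≤ Sm N g :=
  sum_nonneg fun f _ => h f

theorem Sm_e1 {N : ℤ} (hN : 0 < N) {g : Face → ℝ} (hg : Per N g) :
    Sm N (fun f => g (f.1 + 1, f.2)) = Sm N g := by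
  rw [Sm_eq', Sm_eq']
  refine sum_congr rfl fun j _ => ?_
  exact sum_Ico_succ hN (fun i => g (i, j)) fun i => hg.h1 (i, j)

theorem Sm_e2 {N : ℤ} (hN : 0 < N) {g : Face → ℝ} (hg : Per N g) :
    Sm N (fun f => g (f.1, f.2 + 1)) = Sm N g := by
  rw [Sm_eq, Sm_eq]
  refine sum_congr rfl fun i _ => ?_
  exact sum_Ico_succ hN (fun j => g (i, j)) fun j => hg.h2 (i, j)

theorem Per.s1 {N : ℤ} {g : Face → ℝ} (hg : Per N g) (c : ℤ) :
    Per N (fun f => g (f.1 + c, f.2)) where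
  h1 f := by
    have := hg.h1 (f.1 + c, f.2)
    simp only at this ⊢
    rw [← this]; congr 2; ring
  h2 f := hg.h2 (f.1 + c, f.2)

theorem Per.s2 {N : ℤ} {g : Face → ℝ} (hg : Per N g) (c : ℤ) :
    Per N (fun f => g (f.1, f.2 + c)) where
  h1 f := hg.h1 (f.1, f.2 + c)
  h2 f := by
    have := hg.h2 (f.1, f.2 + c)
    simp only at this ⊢
    rw [← this]; congr 2; ring

theorem Sm_m1 {N : ℤ} (hN : 0 < N) {g : Face → ℝ} (hg : Per N g) :
    Sm N (fun f => g (f.1 - 1, f.2)) = Sm N g := by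
  have h := Sm_e1 hN (hg.s1 (-1))
  rw [show (fun f : Face => g ((f.1 + 1, f.2).1 + -1, (f.1 + 1, f.2).2)) = g from by
    funext f; simp] at h
  rw [h]; rfl

theorem Sm_m2 {N : ℤ} (hN : 0 < N) {g : Face → ℝ} (hg : Per N g) :
    Sm N (fun f => g (f.1, f.2 - 1)) = Sm N g := by
  have h := Sm_e2 hN (hg.s2 (-1))
  rw [show (fun f : Face => g ((f.1, f.2 + 1).1, (f.1, f.2 + 1).2 + -1)) = g from by
    funext f; simp] at h
  rw [h]; rfl

/-! ### twisted fields -/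

/-- Twisted periodicity. -/
structure Tw (N : ℤ) (a b : ℝ) (φ : Fld) : Prop where
  h1 : ∀ f h, φ (f.1 + N, f.2) h = a * φ f h
  h2 : ∀ f h, φ (f.1, f.2 + N) h = b * φ f h

variable {N : ℤ} {a b : ℝ}

theorem Tw.s (c d : ℤ) {φ : Fld} (hφ : Tw N a b φ) : Tw N a b (fun f => φ (f.1 + c, f.2 + d)) where
  h1 f h := by
    have := hφ.h1 (f.1 + c, f.2 + d) h
    simp only at this ⊢
    rw [← this]; congr 2; ring
  h2 f h := by
    have := hφ.h2 (f.1 + c, f.2 + d) h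
    simp only at this ⊢
    rw [← this]; congr 2; ring

theorem Tw.add {φ ψ : Fld} (hφ : Tw N a b φ) (hψ : Tw N a b ψ) :
    Tw N a b (fun f h => φ f h + ψ f h) where
  h1 f h := by simp only [hφ.h1, hψ.h1]; ring
  h2 f h := by simp only [hφ.h2, hψ.h2]; ring

theorem Tw.sub {φ ψ : Fld} (hφ : Tw N a b φ) (hψ : Tw N a b ψ) :
    Tw N a b (fun f h => φ f h - ψ f h) where
  h1 f h := by simp only [hφ.h1, hψ.h1]; ring
  h2 f h := by simp only [hφ.h2, hψ.h2]; ring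

theorem Tw.smul {φ : Fld} (hφ : Tw N a b φ) (c : ℝ) : Tw N a b (fun f h => c * φ f h) where
  h1 f h := by simp only [hφ.h1]; ring
  h2 f h := by simp only [hφ.h2]; ring

theorem Tw.opA {φ : Fld} (hφ : Tw N a b φ) (x : ℝ) : Tw N a b (A (cst x) φ) where
  h1 f h := by
    obtain ⟨i, j⟩ := f
    have e : ∀ (c d : ℤ) (k : Fin 4), φ (i + N + c, j + d) k = a * φ (i + c, j + d) k := by
      intro c d k
      have := hφ.h1 (i + c, j + d) k
      rw [← this]; congr 2; simp only; ring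
    have e0 := e 0 0
    have e1 := e 1 0
    have e2 := e (-1) 0
    have e3 := e 0 1
    have e4 := e 0 (-1)
    simp only [add_zero, ← sub_eq_add_neg] at e0 e1 e2 e3 e4
    fin_cases h <;>
      simp only [A_S, A_E, A_N, A_W, cst, e0, e1, e2, e3, e4, Fin.zero_eta, Fin.mk_one,
        Fin.reduceFinMk] <;> ring
  h2 f h := by
    obtain ⟨i, j⟩ := f
    have e : ∀ (c d : ℤ) (k : Fin 4), φ (i + c, j + N + d) k = b * φ (i + c, j + d) k := by
      intro c d k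
      have := hφ.h2 (i + c, j + d) k
      rw [← this]; congr 2; simp only; ring
    have e0 := e 0 0
    have e1 := e 1 0
    have e2 := e (-1) 0
    have e3 := e 0 1
    have e4 := e 0 (-1)
    simp only [add_zero, ← sub_eq_add_neg] at e0 e1 e2 e3 e4
    fin_cases h <;>
      simp only [A_S, A_E, A_N, A_W, cst, e0, e1, e2, e3, e4, Fin.zero_eta, Fin.mk_one,
        Fin.reduceFinMk] <;> ring

theorem Tw.opB {φ : Fld} (hφ : Tw N a b φ) (x : ℝ) : Tw N a b (B x φ) where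
  h1 f h := by
    obtain ⟨i, j⟩ := f
    have e : ∀ (c d : ℤ) (k : Fin 4), φ (i + N + c, j + d) k = a * φ (i + c, j + d) k := by
      intro c d k
      have := hφ.h1 (i + c, j + d) k
      rw [← this]; congr 2; simp only; ring
    have e00 := e 0 0
    have e10 := e 1 0
    have em0 := e (-1) 0
    have e01 := e 0 1
    have e0m := e 0 (-1)
    have e11 := e 1 1
    have e1m := e 1 (-1)
    have em1 := e (-1) 1
    have emm := e (-1) (-1)
    simp only [add_zero, ← sub_eq_add_neg] at e00 e10 em0 e01 e0m e11 e1m em1 emm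
    fin_cases h <;>
      simp only [B, e00, e10, em0, e01, e0m, e11, e1m, em1, emm] <;> ring
  h2 f h := by
    obtain ⟨i, j⟩ := f
    have e : ∀ (c d : ℤ) (k : Fin 4), φ (i + c, j + N + d) k = b * φ (i + c, j + d) k := by
      intro c d k
      have := hφ.h2 (i + c, j + d) k
      rw [← this]; congr 2; simp only; ring
    have e00 := e 0 0
    have e10 := e 1 0
    have em0 := e (-1) 0
    have e01 := e 0 1
    have e0m := e 0 (-1)
    have e11 := e 1 1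
    have e1m := e 1 (-1)
    have em1 := e (-1) 1
    have emm := e (-1) (-1)
    simp only [add_zero, ← sub_eq_add_neg] at e00 e10 em0 e01 e0m e11 e1m em1 emm
    fin_cases h <;>
      simp only [B, e00, e10, em0, e01, e0m, e11, e1m, em1, emm] <;> ring

/-- Products of twisted fields are periodic. -/
theorem per_mul (ha : a ^ 2 = 1) (hb : b ^ 2 = 1) {φ ψ : Fld} (hφ : Tw N a b φ) (hψ : Tw N a b ψ)
    (h k : Fin 4) : Per N (fun f => φ f h * ψ f k) where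
  h1 f := by simp only [hφ.h1, hψ.h1]; linear_combination (φ f h * ψ f k) * ha
  h2 f := by simp only [hφ.h2, hψ.h2]; linear_combination (φ f h * ψ f k) * hb

/-- Products with shifts. -/
theorem per_mul' (ha : a ^ 2 = 1) (hb : b ^ 2 = 1) {φ ψ : Fld} (hφ : Tw N a b φ) (hψ : Tw N a b ψ)
    (h k : Fin 4) (c d c' d' : ℤ) :
    Per N (fun f => φ (f.1 + c, f.2 + d) h * ψ (f.1 + c', f.2 + d') k) :=
  per_mul ha hb (hφ.s c d) (hψ.s c' d') h k

theorem Per.add' {g g' : Face → ℝ} (h : Per N g) (h' : Per N g') : Per N (fun f => g f + g' f) :=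
  ⟨fun f => by simp only [h.h1, h'.h1], fun f => by simp only [h.h2, h'.h2]⟩

theorem Per.mul' {g : Face → ℝ} (h : Per N g) (c : ℝ) : Per N (fun f => c * g f) :=
  ⟨fun f => by simp only [h.h1], fun f => by simp only [h.h2]⟩

/-- Inner product over a period. -/
def ip (N : ℤ) (φ ψ : Fld) : ℝ := Sm N fun f => ∑ h, φ f h * ψ f h

/-- `A` is antisymmetric on twisted fields. -/
theorem ip_A (hN : 0 < N) (ha : a ^ 2 = 1) (hb : b ^ 2 = 1) {φ ψ : Fld} (hφ : Tw N a b φ)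
    (hψ : Tw N a b ψ) (x : ℝ) :
    ip N φ (A (cst x) ψ) = -ip N (A (cst x) φ) ψ := by
  have P1 : Per N (fun f => φ (f.1, f.2) 1 * ψ (f.1 + 1, f.2) 3 + ψ (f.1, f.2) 1 * φ (f.1 + 1, f.2) 3) := by
    have h := (per_mul' ha hb hφ hψ 1 3 0 0 1 0).add' (per_mul' ha hb hψ hφ 1 3 0 0 1 0)
    simpa only [add_zero] using h
  have P2 : Per N (fun f => φ (f.1, f.2 + 1) 0 * ψ (f.1, f.2) 2 + ψ (f.1, f.2 + 1) 0 * φ (f.1, f.2) 2) := by
    have h := (per_mul' ha hb hφ hψ 0 2 0 1 0 0).add' (per_mul' ha hb hψ hφ 0 2 0 1 0 0)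
    simpa only [add_zero] using h
  have s1 := Sm_m1 hN P1
  have s2 := Sm_m2 hN P2
  have key : ∀ f : Face, (∑ h, φ f h * A (cst x) ψ f h) + ∑ h, A (cst x) φ f h * ψ f h =
      x * ((fun f : Face => φ (f.1, f.2) 1 * ψ (f.1 + 1, f.2) 3 + ψ (f.1, f.2) 1 * φ (f.1 + 1, f.2) 3) f
        - (fun f : Face => φ (f.1, f.2) 1 * ψ (f.1 + 1, f.2) 3 + ψ (f.1, f.2) 1 * φ (f.1 + 1, f.2) 3)
          (f.1 - 1, f.2))
      - x * ((fun f : Face => φ (f.1, f.2 + 1) 0 * ψ (f.1, f.2) 2 + ψ (f.1, f.2 + 1) 0 * φ (f.1, f.2) 2) f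
        - (fun f : Face => φ (f.1, f.2 + 1) 0 * ψ (f.1, f.2) 2 + ψ (f.1, f.2 + 1) 0 * φ (f.1, f.2) 2)
          (f.1, f.2 - 1)) := by
    intro f
    obtain ⟨i, j⟩ := f
    simp only [Fin.sum_univ_four, A_S, A_E, A_N, A_W, cst, sub_add_cancel]
    ring
  have hsum : ip N φ (A (cst x) ψ) + ip N (A (cst x) φ) ψ = 0 := by
    unfold ip
    rw [← Sm_add]
    rw [show (fun f => ∑ h, φ f h * A (cst x) ψ f h + ∑ h, A (cst x) φ f h * ψ f h) = _ from
      funext key]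
    rw [Sm_sub, Sm_mul, Sm_mul, Sm_sub, Sm_sub, s1, s2]
    ring
  linarith

/-! ### the gradient energy -/

/-- Energy of the first differences in direction 1. -/
def E1 (N : ℤ) (ψ : Fld) : ℝ := Sm N fun f => ∑ h, (ψ (f.1 + 1, f.2) h - ψ f h) ^ 2

/-- Energy of the first differences in direction 2. -/
def E2 (N : ℤ) (ψ : Fld) : ℝ := Sm N fun f => ∑ h, (ψ (f.1, f.2 + 1) h - ψ f h) ^ 2

theorem E1_nonneg (N : ℤ) (ψ : Fld) : 0 ≤ E1 N ψ :=
  Sm_nonneg fun f => sum_nonneg fun h _ => sq_nonneg _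

theorem E2_nonneg (N : ℤ) (ψ : Fld) : 0 ≤ E2 N ψ :=
  Sm_nonneg fun f => sum_nonneg fun h _ => sq_nonneg _

theorem per_sum4 {g : Fin 4 → Face → ℝ} (h : ∀ k, Per N (g k)) : Per N (fun f => ∑ k, g k f) :=
  ⟨fun f => sum_congr rfl fun k _ => (h k).h1 f, fun f => sum_congr rfl fun k _ => (h k).h2 f⟩

theorem ip_Lap (hN : 0 < N) (ha : a ^ 2 = 1) (hb : b ^ 2 = 1) {ψ : Fld} (hψ : Tw N a b ψ) :
    ip N ψ (Lap ψ) = E1 N ψ + E2 N ψ := by
  have P1 : Per N (fun f => ∑ h, ψ (f.1 + 1, f.2) h * (ψ (f.1 + 1, f.2) h - ψ (f.1, f.2) h)) := by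
    refine per_sum4 fun h => ?_
    have := (per_mul' ha hb hψ hψ h h 1 0 1 0).add' ((per_mul' ha hb hψ hψ h h 1 0 0 0).mul' (-1))
    simp only [add_zero] at this
    convert this using 2
    ring
  have P2 : Per N (fun f => ∑ h, ψ (f.1, f.2 + 1) h * (ψ (f.1, f.2 + 1) h - ψ (f.1, f.2) h)) := by
    refine per_sum4 fun h => ?_
    have := (per_mul' ha hb hψ hψ h h 0 1 0 1).add' ((per_mul' ha hb hψ hψ h h 0 1 0 0).mul' (-1))
    simp only [add_zero] at this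
    convert this using 2
    ring
  have s1 := Sm_m1 hN P1
  have s2 := Sm_m2 hN P2
  have key : ∀ f : Face, (∑ h, ψ f h * Lap ψ f h) =
      (((∑ h, (ψ (f.1 + 1, f.2) h - ψ f h) ^ 2) + ∑ h, (ψ (f.1, f.2 + 1) h - ψ f h) ^ 2)
      + ((fun f : Face => ∑ h, ψ (f.1 + 1, f.2) h * (ψ (f.1 + 1, f.2) h - ψ (f.1, f.2) h))
          (f.1 - 1, f.2) -
        (fun f : Face => ∑ h, ψ (f.1 + 1, f.2) h * (ψ (f.1 + 1, f.2) h - ψ (f.1, f.2) h)) f))
      + ((fun f : Face => ∑ h, ψ (f.1, f.2 + 1) h * (ψ (f.1, f.2 + 1) h - ψ (f.1, f.2) h))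
          (f.1, f.2 - 1) -
        (fun f : Face => ∑ h, ψ (f.1, f.2 + 1) h * (ψ (f.1, f.2 + 1) h - ψ (f.1, f.2) h)) f) := by
    intro f
    obtain ⟨i, j⟩ := f
    simp only [Fin.sum_univ_four, Lap, sub_add_cancel]
    ring
  unfold ip
  rw [show (fun f => ∑ h, ψ f h * Lap ψ f h) = _ from funext key]
  rw [Sm_add, Sm_add, Sm_add, Sm_sub, Sm_sub, s1, s2, E1, E2]
  ring

/-- Squared norm over a period. -/
def n2 (N : ℤ) (ψ : Fld) : ℝ := Sm N fun f => ∑ h, ψ f h ^ 2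

theorem n2_nonneg (N : ℤ) (ψ : Fld) : 0 ≤ n2 N ψ :=
  Sm_nonneg fun f => sum_nonneg fun h _ => sq_nonneg _

theorem ip_sq_le (N : ℤ) (φ ψ : Fld) : ip N φ ψ ^ 2 ≤ n2 N φ * n2 N ψ := by
  have e1 : ip N φ ψ = ∑ p ∈ bx N ×ˢ (univ : Finset (Fin 4)), φ p.1 p.2 * ψ p.1 p.2 := by
    rw [sum_product]; rfl
  have e2 : ∀ χ : Fld, n2 N χ = ∑ p ∈ bx N ×ˢ (univ : Finset (Fin 4)), χ p.1 p.2 ^ 2 := by
    intro χ
    rw [sum_product]; rfl
  rw [e1, e2, e2]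
  exact sum_mul_sq_le_sq_mul_sq _ _ _

/-! ### the bound on `B` -/

/-- Differences to the neighbours. -/
def dv (ψ : Fld) (f : Face) (c d : ℤ) (k : Fin 4) : ℝ := ψ (f.1 + c, f.2 + d) k - ψ f k

/-- Sum of the squared differences to the neighbours. -/
def Mm (ψ : Fld) (f : Face) : ℝ :=
  ∑ p ∈ Icc (-1 : ℤ) 1 ×ˢ Icc (-1 : ℤ) 1, ∑ k, dv ψ f p.1 p.2 k ^ 2

theorem dv_le (ψ : Fld) (f : Face) {c d : ℤ} (hc : c ∈ Icc (-1 : ℤ) 1) (hd : d ∈ Icc (-1 : ℤ) 1)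
    (k : Fin 4) : |dv ψ f c d k| ≤ Real.sqrt (Mm ψ f) := by
  apply Real.abs_le_sqrt
  have h1 : dv ψ f c d k ^ 2 ≤ ∑ k, dv ψ f c d k ^ 2 :=
    single_le_sum (f := fun k => dv ψ f c d k ^ 2) (fun k _ => sq_nonneg _) (mem_univ k)
  have hm : (c, d) ∈ Icc (-1 : ℤ) 1 ×ˢ Icc (-1 : ℤ) 1 := mem_product.2 ⟨hc, hd⟩
  generalize hS : Icc (-1 : ℤ) 1 ×ˢ Icc (-1 : ℤ) 1 = S at hm
  have h2 : ∑ k, dv ψ f c d k ^ 2 ≤ ∑ p ∈ S, ∑ k, dv ψ f p.1 p.2 k ^ 2 :=
    single_le_sum (f := fun p : ℤ × ℤ => ∑ k, dv ψ f p.1 p.2 k ^ 2)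
      (fun p _ => sum_nonneg fun k _ => sq_nonneg _) hm
  rw [← hS] at h2
  exact h1.trans h2

theorem abs_mul_bd {c d m : ℝ} (hc : |c| ≤ 1) (hd : |d| ≤ m) : |c * d| ≤ m := by
  rw [abs_mul]
  have h0 : 0 ≤ |d| := abs_nonneg d
  calc |c| * |d| ≤ 1 * |d| := by gcongr
    _ ≤ m := by rw [one_mul]; exact hd

theorem B_le (ψ : Fld) (f : Face) (h : Fin 4) : |B xc ψ f h| ≤ 12 * Real.sqrt (Mm ψ f) := by
  set m := Real.sqrt (Mm ψ f) with hm
  have hm0 : 0 ≤ m := Real.sqrt_nonneg _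
  have x0 := xc_pos
  have x1 := xc_lt_half
  have cx : |xc| ≤ 1 := by rw [abs_of_pos x0]; linarith
  have cx2 : |xc ^ 2| ≤ 1 := by rw [abs_of_pos (by positivity)]; nlinarith
  have cx3 : |xc + xc ^ 3| ≤ 1 := by
    rw [abs_of_pos (by positivity)]
    have : xc ^ 3 ≤ 1 / 8 := by
      have := pow_le_pow_left₀ x0.le x1.le 3
      norm_num at this ⊢; linarith
    linarith
  have i1 : (1 : ℤ) ∈ Icc (-1 : ℤ) 1 := by simp
  have i0 : (0 : ℤ) ∈ Icc (-1 : ℤ) 1 := by simp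
  have im : (-1 : ℤ) ∈ Icc (-1 : ℤ) 1 := by simp
  have key : ∀ {c : ℝ} {u v : ℤ} (k : Fin 4), |c| ≤ 1 → u ∈ Icc (-1 : ℤ) 1 → v ∈ Icc (-1 : ℤ) 1 →
      -m ≤ c * dv ψ f u v k ∧ c * dv ψ f u v k ≤ m := fun k hc hu hv =>
    abs_le.1 (abs_mul_bd hc (dv_le ψ f hu hv k))
  fin_cases h
  · have e : B xc ψ f 0 = xc * dv ψ f 1 0 0 - xc * dv ψ f (-1) 0 0 + xc * dv ψ f (-1) 0 1
        + xc * dv ψ f 0 (-1) 1 + xc ^ 2 * dv ψ f (-1) (-1) 1 - (xc + xc ^ 3) * dv ψ f 0 (-1) 2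
        - xc ^ 2 * dv ψ f (-1) (-1) 2 - xc ^ 2 * dv ψ f 1 (-1) 2 + xc * dv ψ f 1 0 3
        + xc * dv ψ f 0 (-1) 3 + xc ^ 2 * dv ψ f 1 (-1) 3 := by
      have h0 := B_const (ψ f) f 0
      simp only [B, dv, add_zero, ← sub_eq_add_neg] at h0 ⊢
      linear_combination h0
    show |B xc ψ f 0| ≤ _
    rw [e, abs_le]
    have a1 := key 0 cx i1 i0
    have a2 := key 0 cx im i0
    have a3 := key 1 cx im i0
    have a4 := key 1 cx i0 im
    have a5 := key 1 cx2 im im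
    have a6 := key 2 cx3 i0 im
    have a7 := key 2 cx2 im im
    have a8 := key 2 cx2 i1 im
    have a9 := key 3 cx i1 i0
    have a10 := key 3 cx i0 im
    have a11 := key 3 cx2 i1 im
    constructor <;> linarith
  · have e : B xc ψ f 1 = -(xc * dv ψ f 0 1 0) - xc * dv ψ f 1 0 0 - xc ^ 2 * dv ψ f 1 1 0
        + xc * dv ψ f 0 1 1 - xc * dv ψ f 0 (-1) 1 + xc * dv ψ f 1 0 2
        + xc * dv ψ f 0 (-1) 2 + xc ^ 2 * dv ψ f 1 (-1) 2 - (xc + xc ^ 3) * dv ψ f 1 0 3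
        - xc ^ 2 * dv ψ f 1 1 3 - xc ^ 2 * dv ψ f 1 (-1) 3 := by
      have h0 := B_const (ψ f) f 1
      simp only [B, dv, add_zero, ← sub_eq_add_neg] at h0 ⊢
      linear_combination h0
    show |B xc ψ f 1| ≤ _
    rw [e, abs_le]
    have a1 := key 0 cx i0 i1
    have a2 := key 0 cx i1 i0
    have a3 := key 0 cx2 i1 i1
    have a4 := key 1 cx i0 i1
    have a5 := key 1 cx i0 im
    have a6 := key 2 cx i1 i0
    have a7 := key 2 cx i0 im
    have a8 := key 2 cx2 i1 im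
    have a9 := key 3 cx3 i1 i0
    have a10 := key 3 cx2 i1 i1
    have a11 := key 3 cx2 i1 im
    constructor <;> linarith
  · have e : B xc ψ f 2 = (xc + xc ^ 3) * dv ψ f 0 1 0 + xc ^ 2 * dv ψ f (-1) 1 0
        + xc ^ 2 * dv ψ f 1 1 0 - xc * dv ψ f (-1) 0 1 - xc * dv ψ f 0 1 1
        - xc ^ 2 * dv ψ f (-1) 1 1 + xc * dv ψ f (-1) 0 2 - xc * dv ψ f 1 0 2
        + xc * dv ψ f 0 1 3 + xc * dv ψ f 1 0 3 + xc ^ 2 * dv ψ f 1 1 3 := by
      have h0 := B_const (ψ f) f 2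
      simp only [B, dv, add_zero, ← sub_eq_add_neg] at h0 ⊢
      linear_combination h0
    show |B xc ψ f 2| ≤ _
    rw [e, abs_le]
    have a1 := key 0 cx3 i0 i1
    have a2 := key 0 cx2 im i1
    have a3 := key 0 cx2 i1 i1
    have a4 := key 1 cx im i0
    have a5 := key 1 cx i0 i1
    have a6 := key 1 cx2 im i1
    have a7 := key 2 cx im i0
    have a8 := key 2 cx i1 i0
    have a9 := key 3 cx i0 i1
    have a10 := key 3 cx i1 i0
    have a11 := key 3 cx2 i1 i1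
    constructor <;> linarith
  · have e : B xc ψ f 3 = -(xc * dv ψ f (-1) 0 0) - xc * dv ψ f 0 1 0 - xc ^ 2 * dv ψ f (-1) 1 0
        + (xc + xc ^ 3) * dv ψ f (-1) 0 1 + xc ^ 2 * dv ψ f (-1) 1 1
        + xc ^ 2 * dv ψ f (-1) (-1) 1 - xc * dv ψ f (-1) 0 2 - xc * dv ψ f 0 (-1) 2
        - xc ^ 2 * dv ψ f (-1) (-1) 2 + xc * dv ψ f 0 (-1) 3 - xc * dv ψ f 0 1 3 := by
      have h0 := B_const (ψ f) f 3
      simp only [B, dv, add_zero, ← sub_eq_add_neg] at h0 ⊢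
      linear_combination h0
    show |B xc ψ f 3| ≤ _
    rw [e, abs_le]
    have a1 := key 0 cx im i0
    have a2 := key 0 cx i0 i1
    have a3 := key 0 cx2 im i1
    have a4 := key 1 cx3 im i0
    have a5 := key 1 cx2 im i1
    have a6 := key 1 cx2 im im
    have a7 := key 2 cx im i0
    have a8 := key 2 cx i0 im
    have a9 := key 2 cx2 im im
    have a10 := key 3 cx i0 im
    have a11 := key 3 cx i0 i1
    constructor <;> linarith

theorem sumsq_B_le (ψ : Fld) (f : Face) : ∑ h, B xc ψ f h ^ 2 ≤ 576 * Mm ψ f := by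
  have hM : 0 ≤ Mm ψ f := sum_nonneg fun p _ => sum_nonneg fun k _ => sq_nonneg _
  have h1 : ∀ h, B xc ψ f h ^ 2 ≤ 144 * Mm ψ f := by
    intro h
    have := B_le ψ f h
    have h2 := sq_le_sq' (by linarith [(abs_le.1 this).1]) (abs_le.1 this).2
    calc B xc ψ f h ^ 2 ≤ (12 * Real.sqrt (Mm ψ f)) ^ 2 := h2
      _ = 144 * Mm ψ f := by rw [mul_pow, Real.sq_sqrt hM]; norm_num
  calc ∑ h, B xc ψ f h ^ 2 ≤ ∑ _h : Fin 4, 144 * Mm ψ f := sum_le_sum fun h _ => h1 h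
    _ = 576 * Mm ψ f := by simp; ring

/-- periodicity of squared differences -/
theorem per_dsq (ha : a ^ 2 = 1) (hb : b ^ 2 = 1) {ψ : Fld} (hψ : Tw N a b ψ) (c d c' d' : ℤ) :
    Per N (fun f => ∑ k, (ψ (f.1 + c, f.2 + d) k - ψ (f.1 + c', f.2 + d') k) ^ 2) := by
  refine per_sum4 fun k => ?_
  have h := ((per_mul' ha hb hψ hψ k k c d c d).add' (per_mul' ha hb hψ hψ k k c' d' c' d')).add'
    ((per_mul' ha hb hψ hψ k k c d c' d').mul' (-2))
  convert h using 2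
  ring

theorem Sm_shift {N : ℤ} (hN : 0 < N) {g : Face → ℝ} (hg : Per N g) {c d : ℤ}
    (hc : c ∈ Icc (-1 : ℤ) 1) (hd : d ∈ Icc (-1 : ℤ) 1) :
    Sm N (fun f => g (f.1 + c, f.2 + d)) = Sm N g := by
  have e1 : ∀ {g : Face → ℝ}, Per N g → ∀ {c : ℤ}, c ∈ Icc (-1 : ℤ) 1 →
      Sm N (fun f => g (f.1 + c, f.2)) = Sm N g := by
    intro g hg c hc
    rw [mem_Icc] at hc
    have : c = -1 ∨ c = 0 ∨ c = 1 := by omega
    rcases this with rfl | rfl | rfl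
    · exact Sm_m1 hN hg
    · simp only [add_zero]
    · exact Sm_e1 hN hg
  have e2 : ∀ {g : Face → ℝ}, Per N g → ∀ {c : ℤ}, c ∈ Icc (-1 : ℤ) 1 →
      Sm N (fun f => g (f.1, f.2 + c)) = Sm N g := by
    intro g hg c hc
    rw [mem_Icc] at hc
    have : c = -1 ∨ c = 0 ∨ c = 1 := by omega
    rcases this with rfl | rfl | rfl
    · exact Sm_m2 hN hg
    · simp only [add_zero]
    · exact Sm_e2 hN hg
  have := e1 (hg.s2 d) hc
  simp only at this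
  rw [this, e2 hg hd]

theorem Sm_dv_le (hN : 0 < N) (ha : a ^ 2 = 1) (hb : b ^ 2 = 1) {ψ : Fld} (hψ : Tw N a b ψ)
    {c d : ℤ} (hc : c ∈ Icc (-1 : ℤ) 1) (hd : d ∈ Icc (-1 : ℤ) 1) :
    Sm N (fun f => ∑ k, dv ψ f c d k ^ 2) ≤ 2 * (E1 N ψ + E2 N ψ) := by
  have i0 : (0 : ℤ) ∈ Icc (-1 : ℤ) 1 := by simp
  -- direction 1
  have q1 : ∀ {c : ℤ}, c ∈ Icc (-1 : ℤ) 1 →
      Sm N (fun f => ∑ k, (ψ (f.1 + c, f.2) k - ψ f k) ^ 2) ≤ E1 N ψ := by
    intro c hc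
    have hc' := hc
    rw [mem_Icc] at hc'
    have : c = -1 ∨ c = 0 ∨ c = 1 := by omega
    rcases this with rfl | rfl | rfl
    · have h := Sm_m1 hN (per_dsq ha hb hψ 1 0 0 0)
      simp only [add_zero, sub_add_cancel] at h
      refine le_of_eq ?_
      unfold E1
      rw [← h]
      congr 1
      funext f
      refine sum_congr rfl fun k _ => ?_
      rw [← sub_eq_add_neg]; ring
    · have : Sm N (fun f => ∑ k, (ψ (f.1 + 0, f.2) k - ψ f k) ^ 2) = 0 := by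
        simp [Sm]
      rw [this]; exact E1_nonneg _ _
    · exact le_rfl
  have q2 : ∀ {c : ℤ}, c ∈ Icc (-1 : ℤ) 1 →
      Sm N (fun f => ∑ k, (ψ (f.1, f.2 + c) k - ψ f k) ^ 2) ≤ E2 N ψ := by
    intro c hc
    have hc' := hc
    rw [mem_Icc] at hc'
    have : c = -1 ∨ c = 0 ∨ c = 1 := by omega
    rcases this with rfl | rfl | rfl
    · have h := Sm_m2 hN (per_dsq ha hb hψ 0 1 0 0)
      simp only [add_zero, sub_add_cancel] at h
      refine le_of_eq ?_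
      unfold E2
      rw [← h]
      congr 1
      funext f
      refine sum_congr rfl fun k _ => ?_
      rw [← sub_eq_add_neg]; ring
    · have : Sm N (fun f => ∑ k, (ψ (f.1, f.2 + 0) k - ψ f k) ^ 2) = 0 := by
        simp [Sm]
      rw [this]; exact E2_nonneg _ _
    · exact le_rfl
  have h1 : Sm N (fun f => ∑ k, dv ψ f c d k ^ 2) ≤
      Sm N (fun f => 2 * ∑ k, (ψ (f.1 + c, f.2 + d) k - ψ (f.1, f.2 + d) k) ^ 2 +
        2 * ∑ k, (ψ (f.1, f.2 + d) k - ψ f k) ^ 2) := by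
    refine Sm_mono fun f => ?_
    rw [mul_sum, mul_sum, ← sum_add_distrib]
    refine sum_le_sum fun k _ => ?_
    unfold dv
    nlinarith [sq_nonneg ((ψ (f.1 + c, f.2 + d) k - ψ (f.1, f.2 + d) k) -
      (ψ (f.1, f.2 + d) k - ψ f k))]
  have h2 : Sm N (fun f => ∑ k, (ψ (f.1 + c, f.2 + d) k - ψ (f.1, f.2 + d) k) ^ 2) =
      Sm N (fun f => ∑ k, (ψ (f.1 + c, f.2) k - ψ f k) ^ 2) := by
    have h := Sm_shift hN (per_dsq ha hb hψ c 0 0 0) i0 hd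
    simp only [add_zero] at h
    exact h
  rw [Sm_add, Sm_mul, Sm_mul, h2] at h1
  have := q1 hc
  have := q2 hd
  linarith

theorem n2_B_le (hN : 0 < N) (ha : a ^ 2 = 1) (hb : b ^ 2 = 1) {ψ : Fld} (hψ : Tw N a b ψ) :
    n2 N (B xc ψ) ≤ 10368 * (E1 N ψ + E2 N ψ) := by
  have h1 : n2 N (B xc ψ) ≤ 576 * Sm N (Mm ψ) := by
    rw [← Sm_mul]
    exact Sm_mono fun f => sumsq_B_le ψ f
  have h2 : Sm N (Mm ψ) = ∑ p ∈ Icc (-1 : ℤ) 1 ×ˢ Icc (-1 : ℤ) 1,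
      Sm N (fun f => ∑ k, dv ψ f p.1 p.2 k ^ 2) := by
    unfold Sm Mm
    exact sum_comm
  have h3 : Sm N (Mm ψ) ≤ ∑ _p ∈ Icc (-1 : ℤ) 1 ×ˢ Icc (-1 : ℤ) 1, 2 * (E1 N ψ + E2 N ψ) := by
    rw [h2]
    refine sum_le_sum fun p hp => ?_
    rw [mem_product] at hp
    exact Sm_dv_le hN ha hb hψ hp.1 hp.2
  rw [sum_const] at h3
  have hcard : (Icc (-1 : ℤ) 1 ×ˢ Icc (-1 : ℤ) 1).card = 9 := by decide
  rw [hcard, nsmul_eq_mul] at h3
  push_cast at h3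
  linarith

/-- The constant of the gradient inequality. -/
def KE : ℝ := 10368 / c0 ^ 2

theorem KE_pos : 0 < KE := by
  have := c0_pos
  unfold KE; positivity

/-- **Gradient inequality**, all four sectors. -/
theorem grad_le (hN : 0 < N) (ha : a ^ 2 = 1) (hb : b ^ 2 = 1) {ψ : Fld} (hψ : Tw N a b ψ) :
    E1 N ψ + E2 N ψ ≤ KE * n2 N (A (cst xc) ψ) := by
  set E := E1 N ψ + E2 N ψ with hE
  have hE0 : 0 ≤ E := add_nonneg (E1_nonneg _ _) (E2_nonneg _ _)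
  have c0p := c0_pos
  have e1 : c0 * E = -ip N (A (cst xc) ψ) (B xc ψ) := by
    rw [← ip_A hN ha hb hψ (hψ.opB xc) xc]
    have : ip N ψ (A (cst xc) (B xc ψ)) = c0 * ip N ψ (Lap ψ) := by
      unfold ip
      rw [← Sm_mul]
      congr 1
      funext f
      rw [mul_sum]
      refine sum_congr rfl fun h _ => ?_
      rw [A_B_xc]; ring
    rw [this, ip_Lap hN ha hb hψ]
  have e2 : (c0 * E) ^ 2 ≤ n2 N (A (cst xc) ψ) * n2 N (B xc ψ) := by
    rw [e1, neg_sq]; exact ip_sq_le _ _ _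
  have e3 := n2_B_le hN ha hb hψ
  have hA0 := n2_nonneg N (A (cst xc) ψ)
  have e4 : (c0 * E) ^ 2 ≤ n2 N (A (cst xc) ψ) * (10368 * E) :=
    e2.trans (by gcongr)
  rcases hE0.eq_or_lt with h0 | h0
  · rw [← h0]; have := KE_pos; positivity
  · have e5 : c0 ^ 2 * E ≤ 10368 * n2 N (A (cst xc) ψ) := by
      have : E * (c0 ^ 2 * E) ≤ E * (10368 * n2 N (A (cst xc) ψ)) := by
        nlinarith
      exact le_of_mul_le_mul_left this h0
    unfold KE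
    rw [div_mul_eq_mul_div, le_div_iff₀ (by positivity)]
    linarith

/-! ### Poincaré inequalities -/

theorem sum_Ico_range (n : ℕ) (g : ℤ → ℝ) : ∑ i ∈ Ico (0 : ℤ) n, g i = ∑ m ∈ range n, g (m : ℤ) := by
  refine (Finset.sum_bij' (fun (m : ℕ) _ => (m : ℤ)) (fun (i : ℤ) _ => i.toNat) ?_ ?_ ?_ ?_ ?_).symm
  · intro m hm; rw [mem_Ico]; have := mem_range.1 hm; omega
  · intro i hi; rw [mem_Ico] at hi; rw [mem_range]; omega
  · intro m hm; simp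
  · intro i hi; rw [mem_Ico] at hi; omega
  · intro m _; rfl

theorem sum_range_per (n : ℕ) (g : ℤ → ℝ) (hg : ∀ i, g (i + n) = g i) (i : ℤ) :
    ∑ m ∈ range n, g (i + m) = ∑ m ∈ range n, g (m : ℤ) := by
  rcases Nat.eq_zero_or_pos n with rfl | hn
  · simp
  have step : ∀ i : ℤ, ∑ m ∈ range n, g (i + 1 + m) = ∑ m ∈ range n, g (i + m) := by
    intro i
    have h := sum_Ico_succ (N := n) (by exact_mod_cast hn) (fun j => g (i + j)) (fun j => by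
      rw [← add_assoc]; exact hg _)
    rw [sum_Ico_range, sum_Ico_range] at h
    rw [← h]
    refine sum_congr rfl fun m _ => ?_
    congr 1; ring
  induction i using Int.induction_on with
  | zero => simp
  | succ k ih => rw [step, ih]
  | pred k ih =>
    rw [← ih, ← step]
    refine sum_congr rfl fun m _ => ?_
    congr 1; ring

/-- One-dimensional inequality for antiperiodic functions. -/
theorem poinc_anti (n : ℕ) (u : ℤ → ℝ) (hu : ∀ i, u (i + n) = -u i) :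
    ∑ i ∈ Ico (0 : ℤ) n, u i ^ 2 ≤ (n : ℝ) ^ 2 * ∑ i ∈ Ico (0 : ℤ) n, (u (i + 1) - u i) ^ 2 := by
  rw [sum_Ico_range, sum_Ico_range]
  set S := ∑ m ∈ range n, (u (m + 1) - u m) ^ 2 with hS
  have hS0 : 0 ≤ S := sum_nonneg fun _ _ => sq_nonneg _
  have hpt : ∀ i : ℤ, u i ^ 2 ≤ n * S := by
    intro i
    have h1 : ∑ m ∈ range n, (u (i + m + 1) - u (i + m)) = u (i + n) - u i := by
      have h := sum_range_sub (fun m : ℕ => u (i + m)) n
      simp only [Nat.cast_zero, add_zero, Nat.cast_succ, ← add_assoc] at h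
      exact h
    rw [hu] at h1
    have h2 : (∑ m ∈ range n, (u (i + m + 1) - u (i + m))) ^ 2 ≤
        n * ∑ m ∈ range n, (u (i + m + 1) - u (i + m)) ^ 2 := by
      have := sq_sum_le_card_mul_sum_sq (s := range n) (f := fun m : ℕ => u (i + m + 1) - u (i + m))
      rwa [card_range] at this
    have h3 : ∑ m ∈ range n, (u (i + m + 1) - u (i + m)) ^ 2 = S := by
      rw [hS]
      refine sum_range_per n (fun i => (u (i + 1) - u i) ^ 2) ?_ i
      intro i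
      have e : i + (n : ℤ) + 1 = i + 1 + n := by ring
      rw [e, hu, hu]; ring
    rw [h1, h3] at h2
    nlinarith
  calc ∑ m ∈ range n, u m ^ 2 ≤ ∑ _m ∈ range n, (n : ℝ) * S := sum_le_sum fun m _ => hpt m
    _ = (n : ℝ) ^ 2 * S := by rw [sum_const, card_range, nsmul_eq_mul]; ring

/-- One-dimensional oscillation bound. -/
theorem osc_le (n : ℕ) (u : ℤ → ℝ) {i i' : ℤ} (hi : i ∈ Ico (0 : ℤ) n) (hi' : i' ∈ Ico (0 : ℤ) n) :
    (u i - u i') ^ 2 ≤ n * ∑ i ∈ Ico (0 : ℤ) n, (u (i + 1) - u i) ^ 2 := by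
  have key : ∀ a b : ℕ, a ≤ b → b < n →
      (u b - u a) ^ 2 ≤ n * ∑ i ∈ Ico (0 : ℤ) n, (u (i + 1) - u i) ^ 2 := by
    intro a b hab hb
    rw [sum_Ico_range]
    have h1 : ∑ m ∈ Ico a b, (u ((m : ℤ) + 1) - u m) = u b - u a := by
      have h := Finset.sum_Ico_sub (fun m : ℕ => u m) hab
      simp only [Nat.cast_succ] at h
      exact h
    have h2 : (∑ m ∈ Ico a b, (u ((m : ℤ) + 1) - u m)) ^ 2 ≤
        (Ico a b).card * ∑ m ∈ Ico a b, (u ((m : ℤ) + 1) - u m) ^ 2 :=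
      sq_sum_le_card_mul_sum_sq
    have h3 : ∑ m ∈ Ico a b, (u ((m : ℤ) + 1) - u m) ^ 2 ≤
        ∑ m ∈ range n, (u ((m : ℤ) + 1) - u m) ^ 2 := by
      refine sum_le_sum_of_subset_of_nonneg ?_ fun _ _ _ => sq_nonneg _
      intro m hm
      rw [Finset.mem_Ico] at hm
      rw [mem_range]; omega
    have h4 : ((Ico a b).card : ℝ) ≤ n := by
      rw [Nat.card_Ico]
      have : b - a ≤ n := by omega
      exact_mod_cast this
    have h0 : 0 ≤ ∑ m ∈ Ico a b, (u ((m : ℤ) + 1) - u m) ^ 2 := sum_nonneg fun _ _ => sq_nonneg _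
    rw [h1] at h2
    calc (u b - u a) ^ 2 ≤ ((Ico a b).card : ℝ) * ∑ m ∈ Ico a b, (u ((m : ℤ) + 1) - u m) ^ 2 := h2
      _ ≤ n * ∑ m ∈ range n, (u ((m : ℤ) + 1) - u m) ^ 2 := by gcongr
  rw [Finset.mem_Ico] at hi hi'
  obtain ⟨a, rfl⟩ := Int.eq_ofNat_of_zero_le hi.1
  obtain ⟨b, rfl⟩ := Int.eq_ofNat_of_zero_le hi'.1
  rcases le_total a b with h | h
  · have := key a b h (by exact_mod_cast hi'.2)
    rw [← neg_sub, neg_sq]; exact this
  · exact key b a h (by exact_mod_cast hi.2)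

theorem n2_eq_comp (N : ℤ) (ψ : Fld) : n2 N ψ = ∑ k, Sm N (fun f => ψ f k ^ 2) := by
  unfold n2 Sm; exact sum_comm

theorem E1_eq_comp (N : ℤ) (ψ : Fld) :
    E1 N ψ = ∑ k, Sm N (fun f => (ψ (f.1 + 1, f.2) k - ψ f k) ^ 2) := by
  unfold E1 Sm; exact sum_comm

theorem E2_eq_comp (N : ℤ) (ψ : Fld) :
    E2 N ψ = ∑ k, Sm N (fun f => (ψ (f.1, f.2 + 1) k - ψ f k) ^ 2) := by
  unfold E2 Sm; exact sum_comm

/-- Poincaré, antiperiodic in direction 1. -/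
theorem poinc1 (n : ℕ) {ψ : Fld} {b : ℝ} (hψ : Tw n (-1) b ψ) : n2 n ψ ≤ (n : ℝ) ^ 2 * E1 n ψ := by
  rw [n2_eq_comp, E1_eq_comp, mul_sum]
  refine sum_le_sum fun k _ => ?_
  rw [Sm_eq', Sm_eq', mul_sum]
  refine sum_le_sum fun j _ => ?_
  refine poinc_anti n (fun i => ψ (i, j) k) fun i => ?_
  have := hψ.h1 (i, j) k
  simp only [neg_mul, one_mul] at this
  exact this

/-- Poincaré, antiperiodic in direction 2. -/
theorem poinc2 (n : ℕ) {ψ : Fld} {a : ℝ} (hψ : Tw n a (-1) ψ) : n2 n ψ ≤ (n : ℝ) ^ 2 * E2 n ψ := by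
  rw [n2_eq_comp, E2_eq_comp, mul_sum]
  refine sum_le_sum fun k _ => ?_
  rw [Sm_eq, Sm_eq, mul_sum]
  refine sum_le_sum fun j _ => ?_
  refine poinc_anti n (fun i => ψ (j, i) k) fun i => ?_
  have := hψ.h2 (j, i) k
  simp only [neg_mul, one_mul] at this
  exact this

/-- Poincaré for a function with zero mean over the period box. -/
theorem poinc0_scalar (n : ℕ) (u : Face → ℝ) (h0 : Sm n u = 0) :
    Sm n (fun f => u f ^ 2) ≤ (n : ℝ) ^ 2 * (Sm n (fun f => (u (f.1 + 1, f.2) - u f) ^ 2) +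
      Sm n (fun f => (u (f.1, f.2 + 1) - u f) ^ 2)) := by
  rcases Nat.eq_zero_or_pos n with rfl | hn
  · simp [Sm, bx]
  set R1 : ℤ → ℝ := fun j => ∑ i ∈ Ico (0 : ℤ) n, (u (i + 1, j) - u (i, j)) ^ 2 with hR1
  set R2 : ℤ → ℝ := fun i => ∑ j ∈ Ico (0 : ℤ) n, (u (i, j + 1) - u (i, j)) ^ 2 with hR2
  have e1 : Sm n (fun f => (u (f.1 + 1, f.2) - u f) ^ 2) = ∑ j ∈ Ico (0 : ℤ) n, R1 j := by
    rw [Sm_eq']
  have e2 : Sm n (fun f => (u (f.1, f.2 + 1) - u f) ^ 2) = ∑ i ∈ Ico (0 : ℤ) n, R2 i := by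
    rw [Sm_eq]
  have hpt : ∀ f ∈ bx n, ∀ f' ∈ bx n, (u f - u f') ^ 2 ≤ 2 * (n * R1 f.2) + 2 * (n * R2 f'.1) := by
    rintro ⟨i, j⟩ hf ⟨i', j'⟩ hf'
    rw [bx, mem_product] at hf hf'
    simp only at hf hf'
    have h1 := osc_le n (fun i => u (i, j)) hf.1 hf'.1
    have h2 := osc_le n (fun j => u (i', j)) hf.2 hf'.2
    simp only at h1 h2 ⊢
    nlinarith [sq_nonneg ((u (i, j) - u (i', j)) - (u (i', j) - u (i', j')))]
  have hcard : ((bx n).card : ℝ) = (n : ℝ) ^ 2 := by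
    rw [bx, card_product, Int.card_Ico]
    simp; ring
  have hL : ∑ f ∈ bx n, ∑ f' ∈ bx n, (u f - u f') ^ 2 =
      2 * (n : ℝ) ^ 2 * Sm n (fun f => u f ^ 2) := by
    have : ∀ f f' : Face, (u f - u f') ^ 2 = u f ^ 2 + u f' ^ 2 - 2 * (u f * u f') := by
      intro f f'; ring
    simp only [this, sum_sub_distrib, sum_add_distrib, sum_const, ← mul_sum, nsmul_eq_mul]
    have h0' : ∑ f ∈ bx n, u f = 0 := h0
    simp only [h0', mul_zero, sum_const_zero, sub_zero, hcard]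
    rw [Sm]; ring
  have hR : ∑ f ∈ bx n, ∑ f' ∈ bx n, (2 * (n * R1 f.2) + 2 * (n * R2 f'.1)) =
      2 * (n : ℝ) ^ 4 * (∑ j ∈ Ico (0 : ℤ) n, R1 j + ∑ i ∈ Ico (0 : ℤ) n, R2 i) := by
    have c1 : ((Ico (0 : ℤ) n).card : ℝ) = n := by rw [Int.card_Ico]; simp
    have s1 : ∑ f ∈ bx n, R1 f.2 = n * ∑ j ∈ Ico (0 : ℤ) n, R1 j := by
      rw [bx, sum_product]; simp only [sum_const, nsmul_eq_mul, c1]
    have s2 : ∑ f ∈ bx n, R2 f.1 = n * ∑ j ∈ Ico (0 : ℤ) n, R2 j := by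
      rw [bx, sum_product_right]; simp only [sum_const, nsmul_eq_mul, c1]
    simp only [sum_add_distrib, sum_const, nsmul_eq_mul, hcard, ← mul_sum, s1, s2]
    ring
  have hle : ∑ f ∈ bx n, ∑ f' ∈ bx n, (u f - u f') ^ 2 ≤
      ∑ f ∈ bx n, ∑ f' ∈ bx n, (2 * (n * R1 f.2) + 2 * (n * R2 f'.1)) :=
    sum_le_sum fun f hf => sum_le_sum fun f' hf' => hpt f hf f' hf'
  rw [hL, hR, ← e1, ← e2] at hle
  have hn' : (0 : ℝ) < 2 * (n : ℝ) ^ 2 := by positivity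
  refine le_of_mul_le_mul_left ?_ hn'
  calc 2 * (n : ℝ) ^ 2 * Sm n (fun f => u f ^ 2) ≤ _ := hle
    _ = _ := by ring

/-- The constant field. -/
def cf (p : Fin 4 → ℝ) : Fld := fun _ => p

theorem card_bx (n : ℕ) : ((bx n).card : ℝ) = (n : ℝ) ^ 2 := by
  rw [bx, card_product, Int.card_Ico]
  simp; ring

/-- Poincaré in the periodic sector, fields with zero mean. -/
theorem poinc0 (n : ℕ) {ψ : Fld} (h0 : ∀ k, Sm n (fun f => ψ f k) = 0) :
    n2 n ψ ≤ (n : ℝ) ^ 2 * (E1 n ψ + E2 n ψ) := by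
  rw [n2_eq_comp, E1_eq_comp, E2_eq_comp, ← sum_add_distrib, mul_sum]
  exact sum_le_sum fun k _ => poinc0_scalar n (fun f => ψ f k) (h0 k)

/-- The light functionals. -/
def l1 (N : ℤ) (ψ : Fld) : ℝ :=
  Sm N fun f => -(Real.sqrt 2 / 2) * ψ f 0 + ψ f 1 - Real.sqrt 2 / 2 * ψ f 2

/-- The light functionals. -/
def l2 (N : ℤ) (ψ : Fld) : ℝ :=
  Sm N fun f => -(Real.sqrt 2 / 2) * ψ f 0 + Real.sqrt 2 / 2 * ψ f 2 - ψ f 3

theorem const_id (p : Fin 4 → ℝ) : 8 * ∑ k, p k ^ 2 = ∑ h, A (cst xc) (cf p) (0, 0) h ^ 2 +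
    4 * ((-(Real.sqrt 2 / 2) * p 0 + p 1 - Real.sqrt 2 / 2 * p 2) ^ 2 +
      (-(Real.sqrt 2 / 2) * p 0 + Real.sqrt 2 / 2 * p 2 - p 3) ^ 2) := by
  have h2 := sq2
  simp only [Fin.sum_univ_four, A_S, A_E, A_N, A_W, cst, cf, xc]
  have h2' : Real.sqrt 2 ^ 2 = 2 := by rw [pow_two]; exact h2
  ring_nf
  simp only [h2']
  ring

/-- **Gap in the periodic sector**, with the light functionals. -/
theorem gap_PP (n : ℕ) (hn : 0 < n) {ψ : Fld} (hψ : Tw n 1 1 ψ) :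
    n2 n ψ ≤ 2 * ((n : ℝ) ^ 2 * KE + 1) * n2 n (A (cst xc) ψ) +
      (l1 n ψ ^ 2 + l2 n ψ ^ 2) / (n : ℝ) ^ 2 := by
  have hnR : (0 : ℝ) < n := by exact_mod_cast hn
  have hnZ : (0 : ℤ) < n := by exact_mod_cast hn
  set p : Fin 4 → ℝ := fun k => Sm n (fun f => ψ f k) / (n : ℝ) ^ 2 with hp
  have hcf : Tw n 1 1 (cf p) := ⟨fun f h => by simp [cf], fun f h => by simp [cf]⟩
  set ψ' : Fld := fun f h => ψ f h - cf p f h with hψ'
  have hTw' : Tw n 1 1 ψ' := hψ.sub hcf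
  have hmean : ∀ k, Sm n (fun f => ψ' f k) = 0 := by
    intro k
    rw [hψ', Sm_sub]
    have : Sm n (fun f => cf p f k) = (n : ℝ) ^ 2 * p k := by
      rw [Sm]; simp only [cf, sum_const, nsmul_eq_mul, card_bx]
    rw [this, hp]; simp only
    field_simp
    ring
  have hE1 : E1 n ψ' = E1 n ψ := by
    unfold E1; congr 1; funext f; refine sum_congr rfl fun k _ => ?_
    simp only [hψ', cf]; ring
  have hE2 : E2 n ψ' = E2 n ψ := by
    unfold E2; congr 1; funext f; refine sum_congr rfl fun k _ => ?_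
    simp only [hψ', cf]; ring
  have h1 := poinc0 n hmean
  rw [hE1, hE2] at h1
  have h2 := grad_le hnZ (by norm_num) (by norm_num) hψ
  -- the mean
  have hA : ∀ h, A (cst xc) (cf p) (0, 0) h = Sm n (fun f => A (cst xc) ψ f h) / (n : ℝ) ^ 2 := by
    have P : ∀ k, Per n (fun f => ψ f k) := fun k =>
      ⟨fun f => by simpa using hψ.h1 f k, fun f => by simpa using hψ.h2 f k⟩
    intro h
    fin_cases h
    · show A (cst xc) (cf p) (0, 0) 0 = Sm n (fun f => A (cst xc) ψ f 0) / (n : ℝ) ^ 2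
      simp only [A_S, cst, cf, Sm_add, Sm_mul, Sm_m2 hnZ (P 2), hp]
      ring
    · show A (cst xc) (cf p) (0, 0) 1 = Sm n (fun f => A (cst xc) ψ f 1) / (n : ℝ) ^ 2
      have e : (fun f : Face => -ψ f 0) = fun f => (-1 : ℝ) * ψ f 0 := by funext f; ring
      simp only [A_E, cst, cf, Sm_add, Sm_mul, Sm_e1 hnZ (P 3), hp, e]
      ring
    · show A (cst xc) (cf p) (0, 0) 2 = Sm n (fun f => A (cst xc) ψ f 2) / (n : ℝ) ^ 2
      have e : (fun f : Face => -ψ f 0) = fun f => (-1 : ℝ) * ψ f 0 := by funext f; ring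
      simp only [A_N, cst, cf, Sm_add, Sm_sub, Sm_mul, Sm_e2 hnZ (P 0), hp, e]
      ring
    · show A (cst xc) (cf p) (0, 0) 3 = Sm n (fun f => A (cst xc) ψ f 3) / (n : ℝ) ^ 2
      have e : (fun f : Face => -ψ f 0) = fun f => (-1 : ℝ) * ψ f 0 := by funext f; ring
      simp only [A_W, cst, cf, Sm_add, Sm_sub, Sm_mul, Sm_m1 hnZ (P 1), hp, e]
      ring
  have h3 : (n : ℝ) ^ 2 * ∑ h, A (cst xc) (cf p) (0, 0) h ^ 2 ≤ n2 n (A (cst xc) ψ) := by
    rw [n2_eq_comp, mul_sum]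
    refine sum_le_sum fun h _ => ?_
    rw [hA h]
    have hcs : (Sm n (fun f => A (cst xc) ψ f h)) ^ 2 ≤
        (n : ℝ) ^ 2 * Sm n (fun f => A (cst xc) ψ f h ^ 2) := by
      have := sq_sum_le_card_mul_sum_sq (s := bx n) (f := fun f => A (cst xc) ψ f h)
      rwa [card_bx] at this
    rw [div_pow, mul_div_assoc', div_le_iff₀ (by positivity)]
    calc (n : ℝ) ^ 2 * (Sm n (fun f => A (cst xc) ψ f h)) ^ 2
        ≤ (n : ℝ) ^ 2 * ((n : ℝ) ^ 2 * Sm n (fun f => A (cst xc) ψ f h ^ 2)) := by gcongr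
      _ = _ := by ring
  have hl1 : -(Real.sqrt 2 / 2) * p 0 + p 1 - Real.sqrt 2 / 2 * p 2 = l1 n ψ / (n : ℝ) ^ 2 := by
    simp only [l1, Sm_add, Sm_sub, Sm_mul, hp]
    ring
  have hl2 : -(Real.sqrt 2 / 2) * p 0 + Real.sqrt 2 / 2 * p 2 - p 3 = l2 n ψ / (n : ℝ) ^ 2 := by
    simp only [l2, Sm_add, Sm_sub, Sm_mul, hp]
    ring
  have h4 := const_id p
  rw [hl1, hl2] at h4
  have h5 : n2 n (cf p) = (n : ℝ) ^ 2 * ∑ k, p k ^ 2 := by
    rw [n2, Sm]; simp only [cf, sum_const, nsmul_eq_mul, card_bx]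
  have h6 : n2 n ψ ≤ 2 * n2 n ψ' + 2 * n2 n (cf p) := by
    unfold n2
    rw [← Sm_mul, ← Sm_mul, ← Sm_add]
    refine Sm_mono fun f => ?_
    rw [mul_sum, mul_sum, ← sum_add_distrib]
    refine sum_le_sum fun k _ => ?_
    have : ψ f k = ψ' f k + cf p f k := by simp [hψ']
    rw [this]
    nlinarith [sq_nonneg (ψ' f k - cf p f k)]
  have h7 : 8 * n2 n (cf p) ≤ n2 n (A (cst xc) ψ) + 4 * (l1 n ψ ^ 2 + l2 n ψ ^ 2) / (n : ℝ) ^ 2 := by
    rw [h5]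
    calc 8 * ((n : ℝ) ^ 2 * ∑ k, p k ^ 2) = (n : ℝ) ^ 2 * (8 * ∑ k, p k ^ 2) := by ring
      _ = (n : ℝ) ^ 2 * ∑ h, A (cst xc) (cf p) (0, 0) h ^ 2 +
          4 * (l1 n ψ ^ 2 + l2 n ψ ^ 2) / (n : ℝ) ^ 2 := by
        rw [h4]; field_simp
      _ ≤ _ := by gcongr
  have h8 : n2 n ψ' ≤ (n : ℝ) ^ 2 * (KE * n2 n (A (cst xc) ψ)) :=
    h1.trans (by gcongr)
  have hA0 := n2_nonneg n (A (cst xc) ψ)
  have hL : 4 * (l1 n ψ ^ 2 + l2 n ψ ^ 2) / (n : ℝ) ^ 2 =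
      4 * ((l1 n ψ ^ 2 + l2 n ψ ^ 2) / (n : ℝ) ^ 2) := by ring
  rw [hL] at h7
  have hLn : 0 ≤ (l1 n ψ ^ 2 + l2 n ψ ^ 2) / (n : ℝ) ^ 2 := by positivity
  nlinarith

/-- **Gap in the sectors with an antiperiodic direction.** -/
theorem gap_anti (n : ℕ) (hn : 0 < n) {ψ : Fld} {a b : ℝ} (ha : a ^ 2 = 1) (hb : b ^ 2 = 1)
    (hψ : Tw n a b ψ) (hab : a = -1 ∨ b = -1) :
    n2 n ψ ≤ (n : ℝ) ^ 2 * KE * n2 n (A (cst xc) ψ) := by
  have hnZ : (0 : ℤ) < n := by exact_mod_cast hn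
  have h2 := grad_le hnZ ha hb hψ
  have h1 : n2 n ψ ≤ (n : ℝ) ^ 2 * (E1 n ψ + E2 n ψ) := by
    have e1 := E1_nonneg n ψ
    have e2 := E2_nonneg n ψ
    rcases hab with rfl | rfl
    · refine (poinc1 n hψ).trans ?_
      gcongr
      linarith
    · refine (poinc2 n hψ).trans ?_
      gcongr
      linarith
  calc n2 n ψ ≤ (n : ℝ) ^ 2 * (E1 n ψ + E2 n ψ) := h1
    _ ≤ (n : ℝ) ^ 2 * (KE * n2 n (A (cst xc) ψ)) := by gcongr
    _ = _ := by ring

end Crest.Agent.R165.TorusGradx922
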