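import Mathlib
import Crest.Agent.R165.TorusGrad_922
import Crest.Agent.R165.SpC_583
import Crest.Agent.R165.Schur_811

/-!
# Row 165 (S0250), PL1: convergence of the critical torus kernels to the plane kernel

A twisted periodic field `ψ` with `A ψ = - δ_u + O(n⁻²)` on the period box, `u` near the centre,
(and orthogonal to the light constants in the doubly periodic sector) satisfies
`|ψ w h - SP h b (w - u)| ≤ C / n` for `w` near the centre.
-/

set_option autoImplicit false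
set_option linter.all false

noncomputable section

open Finset

namespace Crest.Agent.R165.TorusKerx922

open Crest.Agent.R165.Tr1x40 Crest.Agent.R165.Tr2x40 Crest.Agent.R165.TorusGradx922
open Crest.Agent.R165.Schurx811 (dd dd_comm dd_triangle dd_self bulk_one)

/-! ### the plane Green field -/

/-- the plane Green field with pole `(u, b)` -/
def Gk (u : Face) (b : Fin 4) : Fld := fun f h => Spx583.SP h b (f.1 - u.1) (f.2 - u.2)

theorem xc_eq583 : Spx583.xc = xc := rfl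

theorem A_Gk (u : Face) (b : Fin 4) (f : Face) (h : Fin 4) :
    A (cst xc) (Gk u b) f h = -(if h = b ∧ f = u then 1 else 0) := by
  have hr := Spx583.row_SP h b (f.1 - u.1) (f.2 - u.2)
  have e1 : f.2 - 1 - u.2 = f.2 - u.2 - 1 := by ring
  have e2 : f.1 + 1 - u.1 = f.1 - u.1 + 1 := by ring
  have e3 : f.2 + 1 - u.2 = f.2 - u.2 + 1 := by ring
  have e4 : f.1 - 1 - u.1 = f.1 - u.1 - 1 := by ring
  have e : A (cst xc) (Gk u b) f h
      = Spx583.row Spx583.xc (fun c => Spx583.SP c b) h (f.1 - u.1) (f.2 - u.2) := by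
    fin_cases h
    · show A (cst xc) (Gk u b) f 0 = _
      rw [A_S]; simp only [Gk, cst, Spx583.row, e1, xc_eq583]
    · show A (cst xc) (Gk u b) f 1 = _
      rw [A_E]; simp only [Gk, cst, Spx583.row, e2, xc_eq583]
    · show A (cst xc) (Gk u b) f 2 = _
      rw [A_N]; simp only [Gk, cst, Spx583.row, e3, xc_eq583]
    · show A (cst xc) (Gk u b) f 3 = _
      rw [A_W]; simp only [Gk, cst, Spx583.row, e4, xc_eq583]
  rw [e, hr]
  by_cases hh : h = b ∧ f = u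
  · obtain ⟨rfl, rfl⟩ := hh
    simp
  · rw [if_neg hh, if_neg, neg_zero]
    rintro ⟨h3, h4, h5⟩
    exact hh ⟨h3, Prod.ext (by linarith) (by linarith)⟩

/-- the constant of the plane kernel bound -/
def K0 : ℝ := 4000000

theorem K0_pos : 0 < K0 := by unfold K0; norm_num

theorem Gk_le (u : Face) (b : Fin 4) (f : Face) (h : Fin 4) :
    |Gk u b f h| ≤ K0 / ((dd f u : ℝ) + 1) := by
  have h1 := Spx583.SP_le h b (f.1 - u.1) (f.2 - u.2)
  refine h1.trans ?_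
  unfold K0
  have h2 : (dd f u : ℝ) ≤ |((f.1 - u.1 : ℤ) : ℝ)| + |((f.2 - u.2 : ℤ) : ℝ)| := by
    rw [← Int.cast_abs, ← Int.cast_abs, Int.abs_eq_natAbs, Int.abs_eq_natAbs, Int.cast_natCast,
      Int.cast_natCast]
    have : dd f u ≤ (f.1 - u.1).natAbs + (f.2 - u.2).natAbs := by
      unfold dd; omega
    exact_mod_cast this
  apply div_le_div_of_nonneg_left (by norm_num) (by positivity) (by linarith)

/-- inversion formula for finitely supported fields -/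
theorem inv_formula (φ : Fld) (K : Finset Face) (h1 : ∀ f, f ∉ K → ∀ h, φ f h = 0)
    (h2 : ∀ f, f ∉ K → ∀ h, φ (nb f h) (op h) = 0) (u : Face) (hu : u ∈ K) (b : Fin 4) :
    φ u b = ∑ f ∈ K, ∑ h, A (cst xc) φ f h * Gk u b f h := by
  have h := A_antisymm (sym_cst xc) φ (Gk u b) K h1 (fun f hf h => by rw [h2 f hf h, mul_zero])
  have e : ∑ f ∈ K, ∑ h, φ f h * A (cst xc) (Gk u b) f h = -φ u b := by
    rw [sum_eq_single u]
    · rw [sum_eq_single b]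
      · rw [A_Gk]; simp
      · intro k _ hk; rw [A_Gk]; simp [hk]
      · intro hb; exact absurd (mem_univ _) hb
    · intro f _ hf
      refine sum_eq_zero fun k _ => ?_
      rw [A_Gk]; simp [hf]
    · intro hh; exact absurd hu hh
  rw [e] at h
  linarith

/-! ### the cut-off -/

theorem dd_nb (f c : Face) (h : Fin 4) : dd (nb f h) c ≤ dd f c + 1 ∧ dd f c ≤ dd (nb f h) c + 1 := by
  fin_cases h <;> simp only [dd, nb, Fin.zero_eta, Fin.mk_one, Fin.reduceFinMk] <;> omega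

/-- the cut-off function -/
def chi (c : Face) (ρ : ℕ) (f : Face) : ℝ := max 0 (min 1 (2 - (dd f c : ℝ) / ρ))

theorem chi_nonneg (c : Face) (ρ : ℕ) (f : Face) : 0 ≤ chi c ρ f := le_max_left _ _

theorem chi_le_one (c : Face) (ρ : ℕ) (f : Face) : chi c ρ f ≤ 1 :=
  max_le (by norm_num) (min_le_left _ _)

theorem chi_one {c : Face} {ρ : ℕ} (hρ : 0 < ρ) {f : Face} (h : dd f c ≤ ρ) : chi c ρ f = 1 := by
  have h0 : (0 : ℝ) < ρ := by exact_mod_cast hρ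
  have h1 : (dd f c : ℝ) / ρ ≤ 1 := by
    rw [div_le_one h0]; exact_mod_cast h
  unfold chi
  rw [min_eq_left (by linarith), max_eq_right (by norm_num)]

theorem chi_zero {c : Face} {ρ : ℕ} (hρ : 0 < ρ) {f : Face} (h : 2 * ρ ≤ dd f c) :
    chi c ρ f = 0 := by
  have h0 : (0 : ℝ) < ρ := by exact_mod_cast hρ
  have h1 : 2 ≤ (dd f c : ℝ) / ρ := by
    rw [le_div_iff₀ h0]; exact_mod_cast h
  unfold chi
  rw [max_eq_left]
  exact (min_le_right _ _).trans (by linarith)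

theorem chi_lip (c : Face) {ρ : ℕ} (hρ : 0 < ρ) (f : Face) (h : Fin 4) :
    |chi c ρ (nb f h) - chi c ρ f| ≤ 1 / ρ := by
  have h0 : (0 : ℝ) < ρ := by exact_mod_cast hρ
  obtain ⟨h1, h2⟩ := dd_nb f c h
  have h1' : (dd (nb f h) c : ℝ) ≤ dd f c + 1 := by exact_mod_cast h1
  have h2' : (dd f c : ℝ) ≤ dd (nb f h) c + 1 := by exact_mod_cast h2
  have h3 : (dd (nb f h) c : ℝ) / ρ ≤ dd f c / ρ + 1 / ρ := by
    rw [← add_div]; gcongr
  have h4 : (dd f c : ℝ) / ρ ≤ dd (nb f h) c / ρ + 1 / ρ := by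
    rw [← add_div]; gcongr
  have h5 : (0 : ℝ) ≤ 1 / ρ := by positivity
  unfold chi
  rw [abs_le]
  generalize (dd (nb f h) c : ℝ) / ρ = x at *
  generalize (dd f c : ℝ) / ρ = y at *
  generalize (1 : ℝ) / ρ = e at *
  constructor
  · have : max 0 (min 1 (2 - y)) ≤ max 0 (min 1 (2 - x)) + e := by
      refine max_le (by have := le_max_left (0 : ℝ) (min 1 (2 - x)); linarith) ?_
      rcases le_total 1 (2 - x) with h | h
      · rw [min_eq_left h]
        have := le_max_right (0 : ℝ) 1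
        have := min_le_left (1 : ℝ) (2 - y)
        linarith
      · rw [min_eq_right h]
        have := le_max_right (0 : ℝ) (2 - x)
        have := min_le_right (1 : ℝ) (2 - y)
        linarith
    linarith
  · have : max 0 (min 1 (2 - x)) ≤ max 0 (min 1 (2 - y)) + e := by
      refine max_le (by have := le_max_left (0 : ℝ) (min 1 (2 - y)); linarith) ?_
      rcases le_total 1 (2 - y) with h | h
      · rw [min_eq_left h]
        have := le_max_right (0 : ℝ) 1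
        have := min_le_left (1 : ℝ) (2 - x)
        linarith
      · rw [min_eq_right h]
        have := le_max_right (0 : ℝ) (2 - y)
        have := min_le_right (1 : ℝ) (2 - x)
        linarith
    linarith

/-! ### twisted periodization -/

/-- power of the twist -/
def tw (ε : ℝ) (k : ℤ) : ℝ := if Even k then 1 else ε

theorem tw_zero (ε : ℝ) : tw ε 0 = 1 := by simp [tw]

theorem tw_add_one {ε : ℝ} (h : ε ^ 2 = 1) (k : ℤ) : tw ε (k + 1) = ε * tw ε k := by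
  unfold tw
  by_cases hk : Even k
  · have : ¬ Even (k + 1) := by rw [Int.even_add_one]; simpa using hk
    simp [hk, this]
  · have : Even (k + 1) := by rw [Int.even_add_one]; exact hk
    simp only [hk, this, if_true, if_false]
    rw [← pow_two, h]

theorem tw_abs {ε : ℝ} (h : ε ^ 2 = 1) (k : ℤ) : |tw ε k| = 1 := by
  unfold tw
  split_ifs
  · simp
  · have : |ε| ^ 2 = 1 := by rw [sq_abs, h]
    have h0 := abs_nonneg ε
    nlinarith

/-- twisted periodization of a field on the period box -/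
def pe (n : ℕ) (a b : ℝ) (φ : Fld) : Fld := fun f h =>
  tw a (f.1 / n) * tw b (f.2 / n) * φ (f.1 % n, f.2 % n) h

theorem tw_pe {n : ℕ} (hn : 0 < n) {a b : ℝ} (ha : a ^ 2 = 1) (hb : b ^ 2 = 1) (φ : Fld) :
    Tw n a b (pe n a b φ) where
  h1 f h := by
    have hn' : (n : ℤ) ≠ 0 := by exact_mod_cast hn.ne'
    simp only [pe]
    rw [Int.add_emod_right, show (f.1 + (n : ℤ)) / n = f.1 / n + 1 from by
      rw [Int.add_ediv_of_dvd_right (dvd_refl _), Int.ediv_self hn'], tw_add_one ha]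
    ring
  h2 f h := by
    have hn' : (n : ℤ) ≠ 0 := by exact_mod_cast hn.ne'
    simp only [pe]
    rw [Int.add_emod_right, show (f.2 + (n : ℤ)) / n = f.2 / n + 1 from by
      rw [Int.add_ediv_of_dvd_right (dvd_refl _), Int.ediv_self hn'], tw_add_one hb]
    ring

theorem pe_bx {n : ℕ} (a b : ℝ) (φ : Fld) {f : Face} (hf : f ∈ bx n) (h : Fin 4) :
    pe n a b φ f h = φ f h := by
  rw [bx, mem_product, mem_Ico, mem_Ico] at hf
  simp only [pe]
  rw [Int.ediv_eq_zero_of_lt hf.1.1 hf.1.2, Int.ediv_eq_zero_of_lt hf.2.1 hf.2.2, tw_zero, tw_zero,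
    Int.emod_eq_of_lt hf.1.1 hf.1.2, Int.emod_eq_of_lt hf.2.1 hf.2.2]
  simp

/-- fields supported inside the box -/
def Ins (n : ℕ) (φ : Fld) : Prop :=
  ∀ g : Face, (g.1 ≤ 0 ∨ (n : ℤ) - 1 ≤ g.1 ∨ g.2 ≤ 0 ∨ (n : ℤ) - 1 ≤ g.2) → ∀ h, φ g h = 0

theorem pe_near {n : ℕ} (hn : 2 ≤ n) (a b : ℝ) {φ : Fld} (hφ : Ins n φ) {f : Face}
    (h1 : -1 ≤ f.1) (h1' : f.1 ≤ n) (h2 : -1 ≤ f.2) (h2' : f.2 ≤ n) (h : Fin 4) :
    pe n a b φ f h = φ f h := by
  by_cases hf : f ∈ bx n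
  · exact pe_bx a b φ hf h
  · rw [bx, mem_product, mem_Ico, mem_Ico] at hf
    have hz : φ f h = 0 := by
      refine hφ f ?_ h
      by_contra hc
      rw [not_or, not_or, not_or, not_le, not_le, not_le, not_le] at hc
      exact hf ⟨⟨by omega, by omega⟩, ⟨by omega, by omega⟩⟩
    rw [hz]
    simp only [pe]
    have hn0 : (0 : ℤ) < n := by omega
    have m1 := Int.emod_nonneg f.1 hn0.ne'
    have m1' := Int.emod_lt_of_pos f.1 hn0
    have m2 := Int.emod_nonneg f.2 hn0.ne'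
    have m2' := Int.emod_lt_of_pos f.2 hn0
    have d1 := Int.emod_add_mul_ediv f.1 n
    have d2 := Int.emod_add_mul_ediv f.2 n
    have key : ∀ x : ℤ, -1 ≤ x → x ≤ n → ¬ (0 ≤ x ∧ x < n) → (x % n ≤ 0 ∨ (n : ℤ) - 1 ≤ x % n) := by
      intro x hx hx' hxx
      have : x = -1 ∨ x = n := by omega
      rcases this with rfl | rfl
      · right
        have e : (-1 : ℤ) % n = n - 1 := by
          rw [← Int.add_emod_right, Int.emod_eq_of_lt (by omega) (by omega)]; ring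
        rw [e]
      · left; simp
    have hz' : φ (f.1 % n, f.2 % n) h = 0 := by
      refine hφ _ ?_ h
      by_cases hx : 0 ≤ f.1 ∧ f.1 < n
      · have hy : ¬ (0 ≤ f.2 ∧ f.2 < n) := fun hy => hf ⟨hx, hy⟩
        rcases key f.2 h2 h2' hy with h | h
        · exact Or.inr (Or.inr (Or.inl h))
        · exact Or.inr (Or.inr (Or.inr h))
      · rcases key f.1 h1 h1' hx with h | h
        · exact Or.inl h
        · exact Or.inr (Or.inl h)
    rw [hz', mul_zero]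

theorem A_pe {n : ℕ} (hn : 2 ≤ n) (a b : ℝ) {φ : Fld} (hφ : Ins n φ) {f : Face} (hf : f ∈ bx n)
    (h : Fin 4) : A (cst xc) (pe n a b φ) f h = A (cst xc) φ f h := by
  have hf' := hf
  rw [bx, mem_product, mem_Ico, mem_Ico] at hf'
  refine A_congr_field _ f h ?_ ?_
  · funext k; exact pe_bx a b φ hf k
  · refine pe_near hn a b hφ ?_ ?_ ?_ ?_ _ <;> fin_cases h <;> simp [nb] <;> omega


/-! ### the estimates -/

/-- centre of the period box -/
def ce (n : ℕ) : Face := ((n : ℤ) / 2, (n : ℤ) / 2)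

/-- the truncated Green field -/
def cG (n ρ : ℕ) (u : Face) (b : Fin 4) : Fld := fun f h => chi (ce n) ρ f * Gk u b f h

theorem ins_chi {n ρ : ℕ} (h8 : 8 * ρ ≤ n) (hρ : 8 ≤ ρ) (φ : Fld) :
    Ins n (fun f h => chi (ce n) ρ f * φ f h) := by
  intro g hg h
  have : 2 * ρ ≤ dd g (ce n) := by
    simp only [dd, ce]; omega
  simp only [chi_zero (by omega : 0 < ρ) this, zero_mul]

theorem mem_bx_of {n ρ : ℕ} (h8 : 8 * ρ ≤ n) (hρ : 8 ≤ ρ) {u : Face} (hu : 4 * dd u (ce n) ≤ ρ) :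
    u ∈ bx n := by
  rw [bx, mem_product, mem_Ico, mem_Ico]
  simp only [dd, ce] at hu
  omega

theorem sg_abs (h : Fin 4) : |sg h| = 1 := by fin_cases h <;> simp [sg]

theorem far_le {ρ : ℕ} (hρ : 8 ≤ ρ) {c u f : Face} (hu : 4 * dd u c ≤ ρ) (hf : ρ ≤ dd f c + 1)
    (g : Face) (hg : dd f c ≤ dd g c + 1) (b h : Fin 4) : |Gk u b g h| ≤ 2 * K0 / ρ := by
  refine (Gk_le u b g h).trans ?_
  have h0 : (0 : ℝ) < ρ := by exact_mod_cast (by omega : 0 < ρ)
  have ht := dd_triangle g u c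
  have h1 : ρ ≤ 2 * (dd g u + 1) := by omega
  have h1' : (ρ : ℝ) ≤ 2 * (dd g u + 1) := by exact_mod_cast h1
  rw [div_le_div_iff₀ (by positivity) h0]
  nlinarith [K0_pos]

theorem chi_diff_zero {ρ : ℕ} (hρ : 8 ≤ ρ) {c f : Face} (hf : ¬ ρ ≤ dd f c + 1) (h : Fin 4) :
    chi c ρ (nb f h) - chi c ρ f = 0 := by
  have h1 := (dd_nb f c h).1
  rw [chi_one (by omega) (by omega : dd (nb f h) c ≤ ρ), chi_one (by omega) (by omega : dd f c ≤ ρ),
    sub_self]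

theorem A_cG_le {n ρ : ℕ} (hρ : 8 ≤ ρ) {u : Face} (hu : 4 * dd u (ce n) ≤ ρ) (b : Fin 4)
    (f : Face) (h : Fin 4) :
    |A (cst xc) (cG n ρ u b) f h + (if h = b ∧ f = u then 1 else 0)| ≤ 2 * K0 / (ρ : ℝ) ^ 2 := by
  have h0 : (0 : ℝ) < ρ := by exact_mod_cast (by omega : 0 < ρ)
  unfold cG
  rw [A_cut, A_Gk]
  have e : chi (ce n) ρ f * -(if h = b ∧ f = u then (1 : ℝ) else 0)
      = -(if h = b ∧ f = u then 1 else 0) := by
    split_ifs with hh
    · rw [hh.2, chi_one (by omega) (by omega : dd u (ce n) ≤ ρ)]; ring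
    · simp
  rw [e, show ∀ x y : ℝ, -x + y + x = y from fun x y => by ring]
  by_cases hf : ρ ≤ dd f (ce n) + 1
  · rw [abs_mul, abs_mul, abs_mul, sg_abs]
    have h1 := chi_lip (ce n) (by omega : 0 < ρ) f h
    have h2 := far_le hρ hu hf (nb f h) (dd_nb f (ce n) h).2 b (op h)
    have h3 : |cst xc f h| ≤ 1 := by
      rw [cst, abs_of_pos xc_pos]; exact xc_lt_one.le
    calc 1 * |cst xc f h| * (|chi (ce n) ρ (nb f h) - chi (ce n) ρ f| * |Gk u b (nb f h) (op h)|)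
        ≤ 1 * 1 * (1 / ρ * (2 * K0 / ρ)) := by gcongr
      _ = _ := by field_simp
  · rw [chi_diff_zero hρ hf]
    simp only [zero_mul, mul_zero, abs_zero]
    have := K0_pos
    positivity

theorem sum_inv_le {n ρ : ℕ} (h8 : 8 * ρ ≤ n) (h16 : n ≤ 16 * ρ) (hρ : 8 ≤ ρ) {u : Face}
    (hu : 4 * dd u (ce n) ≤ ρ) : ∑ f ∈ bx n, 1 / ((dd f u : ℝ) + 1) ≤ 256 * ρ := by
  have h := bulk_one (bx n) u n (fun z hz => by
    have hu' := mem_bx_of h8 hρ hu
    rw [bx, mem_product, mem_Ico, mem_Ico] at hz hu'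
    simp only [dd]; omega)
  refine h.trans ?_
  have h1 : (n : ℝ) ≤ 16 * ρ := by exact_mod_cast h16
  have h2 : (8 : ℝ) ≤ ρ := by exact_mod_cast hρ
  linarith

theorem Per.abs {n : ℕ} {a b : ℝ} (ha : a ^ 2 = 1) (hb : b ^ 2 = 1) {ψ : Fld} (hψ : Tw n a b ψ)
    (k : Fin 4) : Per n (fun f => |ψ f k|) := by
  have h1 : |a| = 1 := by
    have : |a| ^ 2 = 1 := by rw [sq_abs, ha]
    have h0 := abs_nonneg a
    nlinarith
  have h2 : |b| = 1 := by
    have : |b| ^ 2 = 1 := by rw [sq_abs, hb]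
    have h0 := abs_nonneg b
    nlinarith
  exact ⟨fun f => by simp only [hψ.h1, abs_mul, h1, one_mul],
    fun f => by simp only [hψ.h2, abs_mul, h2, one_mul]⟩

theorem sum_nb {n : ℕ} (hn : 0 < n) {a b : ℝ} (ha : a ^ 2 = 1) (hb : b ^ 2 = 1) {ψ : Fld}
    (hψ : Tw n a b ψ) :
    ∑ f ∈ bx n, ∑ h, |ψ (nb f h) (op h)| = ∑ f ∈ bx n, ∑ h, |ψ f h| := by
  have hnZ : (0 : ℤ) < n := by exact_mod_cast hn
  have e0 := Sm_m2 hnZ (Per.abs ha hb hψ 2)
  have e1 := Sm_e1 hnZ (Per.abs ha hb hψ 3)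
  have e2 := Sm_e2 hnZ (Per.abs ha hb hψ 0)
  have e3 := Sm_m1 hnZ (Per.abs ha hb hψ 1)
  have L : ∑ f ∈ bx n, ∑ h, |ψ (nb f h) (op h)| = Sm n (fun f => |ψ (f.1, f.2 - 1) 2|)
      + Sm n (fun f => |ψ (f.1 + 1, f.2) 3|) + Sm n (fun f => |ψ (f.1, f.2 + 1) 0|)
      + Sm n (fun f => |ψ (f.1 - 1, f.2) 1|) := by
    simp only [Sm, ← sum_add_distrib, Fin.sum_univ_four, nb_zero, nb_one, nb_two, nb_three,
      op_zero, op_one, op_two, op_three]
  have R : ∑ f ∈ bx n, ∑ h, |ψ f h| = Sm n (fun f => |ψ f 0|) + Sm n (fun f => |ψ f 1|)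
      + Sm n (fun f => |ψ f 2|) + Sm n (fun f => |ψ f 3|) := by
    simp only [Sm, ← sum_add_distrib, Fin.sum_univ_four]
  rw [L, R, e0, e1, e2, e3]
  ring

theorem sum_abs_le {n : ℕ} {ψ : Fld} {E : ℝ} (hE : n2 n ψ ≤ E) :
    ∑ f ∈ bx n, ∑ h, |ψ f h| ≤ 2 * n * Real.sqrt E := by
  have h1 : (∑ x ∈ bx n ×ˢ (univ : Finset (Fin 4)), |ψ x.1 x.2|) ^ 2
      ≤ (bx n ×ˢ (univ : Finset (Fin 4))).card * ∑ x ∈ bx n ×ˢ (univ : Finset (Fin 4)), |ψ x.1 x.2| ^ 2 :=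
    sq_sum_le_card_mul_sum_sq
  rw [sum_product, sum_product, card_product, Nat.cast_mul, card_bx] at h1
  have h2 : ∑ x ∈ bx n, ∑ y, |ψ x y| ^ 2 = n2 n ψ := by
    rw [n2, Sm]; simp only [sq_abs]
  simp only [] at h1
  rw [h2] at h1
  have hE0 : 0 ≤ E := (n2_nonneg n ψ).trans hE
  refine abs_le_of_sq_le_sq' ?_ (by positivity) |>.2
  calc (∑ f ∈ bx n, ∑ h, |ψ f h|) ^ 2 ≤ _ := h1
    _ ≤ (n : ℝ) ^ 2 * 4 * E := by
      simp only [card_univ, Fintype.card_fin, Nat.cast_ofNat]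
      gcongr
    _ = (2 * n * Real.sqrt E) ^ 2 := by
      rw [mul_pow, Real.sq_sqrt hE0]; ring

/-- pointwise bound near the centre from the `L²` bound and the bound of `A f0` -/
theorem point_le {n ρ : ℕ} (h8 : 8 * ρ ≤ n) (h16 : n ≤ 16 * ρ) (hρ : 8 ≤ ρ) {a b : ℝ}
    (ha : a ^ 2 = 1) (hb : b ^ 2 = 1) {f0 : Fld} (hT : Tw n a b f0) {C1 E : ℝ} (hC1 : 0 ≤ C1)
    (hA : ∀ f ∈ bx n, ∀ h, |A (cst xc) f0 f h| ≤ C1 / (ρ : ℝ) ^ 2) (hE : n2 n f0 ≤ E) {w : Face}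
    (hw : 4 * dd w (ce n) ≤ ρ) (k : Fin 4) :
    |f0 w k| ≤ (1024 * C1 * K0 + 64 * K0 * Real.sqrt E) / ρ := by
  have h0 : (0 : ℝ) < ρ := by exact_mod_cast (by omega : 0 < ρ)
  have hK := K0_pos
  set φ : Fld := fun f h => chi (ce n) ρ f * f0 f h with hφ
  have hins : Ins n φ := ins_chi h8 hρ f0
  have hout : ∀ f, f ∉ bx n → ∀ h, φ f h = 0 := by
    intro f hf h
    refine hins f ?_ h
    rw [bx, mem_product, mem_Ico, mem_Ico] at hf
    by_contra hc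
    rw [not_or, not_or, not_or, not_le, not_le, not_le, not_le] at hc
    exact hf ⟨⟨by omega, by omega⟩, ⟨by omega, by omega⟩⟩
  have hout' : ∀ f, f ∉ bx n → ∀ h, φ (nb f h) (op h) = 0 := by
    intro f hf h
    refine hins (nb f h) ?_ (op h)
    rw [bx, mem_product, mem_Ico, mem_Ico] at hf
    by_contra hc
    rw [not_or, not_or, not_or, not_le, not_le, not_le, not_le] at hc
    refine hf ⟨⟨?_, ?_⟩, ⟨?_, ?_⟩⟩ <;> fin_cases h <;> simp [nb] at hc <;> omega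
  have hwb := mem_bx_of h8 hρ hw
  have hinv := inv_formula φ (bx n) hout hout' w hwb k
  have hφw : φ w k = f0 w k := by
    simp only [hφ]
    rw [chi_one (by omega) (by omega : dd w (ce n) ≤ ρ), one_mul]
  rw [hφw] at hinv
  have hterm : ∀ f ∈ bx n, ∀ h, |A (cst xc) φ f h * Gk w k f h|
      ≤ C1 * K0 / (ρ : ℝ) ^ 2 * (1 / ((dd f w : ℝ) + 1)) + 2 * K0 / (ρ : ℝ) ^ 2 * |f0 (nb f h) (op h)| := by
    intro f hf h
    have hAf := hA f hf h
    simp only [hφ]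
    rw [A_cut, add_mul]
    refine (abs_add_le _ _).trans (add_le_add ?_ ?_)
    · rw [abs_mul, abs_mul, abs_of_nonneg (chi_nonneg _ _ _)]
      calc chi (ce n) ρ f * |A (cst xc) f0 f h| * |Gk w k f h|
          ≤ 1 * (C1 / (ρ : ℝ) ^ 2) * (K0 / ((dd f w : ℝ) + 1)) := by
            have := chi_le_one (ce n) ρ f
            have h3 := Gk_le w k f h
            have := chi_nonneg (ce n) ρ f
            gcongr
        _ = _ := by field_simp
    · by_cases hf' : ρ ≤ dd f (ce n) + 1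
      · rw [abs_mul, abs_mul, abs_mul, abs_mul, sg_abs]
        have h1 := chi_lip (ce n) (by omega : 0 < ρ) f h
        have h2 := far_le hρ hw hf' f (by omega) k h
        have h3 : |cst xc f h| ≤ 1 := by
          rw [cst, abs_of_pos xc_pos]; exact xc_lt_one.le
        calc 1 * |cst xc f h| * (|chi (ce n) ρ (nb f h) - chi (ce n) ρ f| * |f0 (nb f h) (op h)|)
              * |Gk w k f h|
            ≤ 1 * 1 * (1 / ρ * |f0 (nb f h) (op h)|) * (2 * K0 / ρ) := by gcongr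
          _ = _ := by field_simp
      · rw [chi_diff_zero hρ hf']
        simp only [zero_mul, mul_zero, abs_zero]
        positivity
  rw [hinv]
  calc |∑ f ∈ bx n, ∑ h, A (cst xc) φ f h * Gk w k f h|
      ≤ ∑ f ∈ bx n, ∑ h, |A (cst xc) φ f h * Gk w k f h| := by
        refine (abs_sum_le_sum_abs _ _).trans (sum_le_sum fun f _ => abs_sum_le_sum_abs _ _)
    _ ≤ ∑ f ∈ bx n, ∑ h : Fin 4, (C1 * K0 / (ρ : ℝ) ^ 2 * (1 / ((dd f w : ℝ) + 1))
          + 2 * K0 / (ρ : ℝ) ^ 2 * |f0 (nb f h) (op h)|) :=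
        sum_le_sum fun f hf => sum_le_sum fun h _ => hterm f hf h
    _ = 4 * (C1 * K0 / (ρ : ℝ) ^ 2) * (∑ f ∈ bx n, 1 / ((dd f w : ℝ) + 1))
          + 2 * K0 / (ρ : ℝ) ^ 2 * ∑ f ∈ bx n, ∑ h, |f0 (nb f h) (op h)| := by
        simp only [sum_add_distrib, sum_const, card_univ, Fintype.card_fin, nsmul_eq_mul,
          ← mul_sum, Nat.cast_ofNat]
        ring
    _ ≤ 4 * (C1 * K0 / (ρ : ℝ) ^ 2) * (256 * ρ)
          + 2 * K0 / (ρ : ℝ) ^ 2 * (2 * n * Real.sqrt E) := by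
        have h1 := sum_inv_le h8 h16 hρ hw
        rw [sum_nb (by omega) ha hb hT]
        have h2 := sum_abs_le hE
        gcongr
    _ ≤ 4 * (C1 * K0 / (ρ : ℝ) ^ 2) * (256 * ρ)
          + 2 * K0 / (ρ : ℝ) ^ 2 * (2 * (16 * ρ) * Real.sqrt E) := by
        have h1 : (n : ℝ) ≤ 16 * ρ := by exact_mod_cast h16
        have := Real.sqrt_nonneg E
        gcongr
    _ = _ := by field_simp; ring

theorem n2_A_le {n : ℕ} {φ : Fld} {q : ℝ} (hq : 0 ≤ q) (h : ∀ f ∈ bx n, ∀ k, |φ f k| ≤ q) :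
    n2 n φ ≤ 4 * (n : ℝ) ^ 2 * q ^ 2 := by
  unfold n2 Sm
  calc ∑ f ∈ bx n, ∑ k, φ f k ^ 2 ≤ ∑ f ∈ bx n, ∑ k : Fin 4, q ^ 2 :=
        sum_le_sum fun f hf => sum_le_sum fun k _ => by
          have := h f hf k
          rw [← sq_abs]; gcongr
    _ = 4 * (n : ℝ) ^ 2 * q ^ 2 := by
        simp only [sum_const, card_univ, Fintype.card_fin, nsmul_eq_mul, card_bx, Nat.cast_ofNat]
        ring

/-- the difference field -/
def df (n ρ : ℕ) (a b : ℝ) (u : Face) (b' : Fin 4) (ψ : Fld) : Fld := fun f h =>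
  ψ f h - pe n a b (cG n ρ u b') f h

theorem A_df_le {n ρ : ℕ} (h8 : 8 * ρ ≤ n) (h16 : n ≤ 16 * ρ) (hρ : 8 ≤ ρ) {a b : ℝ} {ψ : Fld}
    {u : Face} {b' : Fin 4} (hu : 4 * dd u (ce n) ≤ ρ) {Ce : ℝ}
    (hA : ∀ f ∈ bx n, ∀ h, |A (cst xc) ψ f h + (if h = b' ∧ f = u then 1 else 0)| ≤ Ce / (ρ : ℝ) ^ 2)
    (f : Face) (hf : f ∈ bx n) (h : Fin 4) :
    |A (cst xc) (df n ρ a b u b' ψ) f h| ≤ (Ce + 2 * K0) / (ρ : ℝ) ^ 2 := by
  have e : A (cst xc) (df n ρ a b u b' ψ) f h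
      = (A (cst xc) ψ f h + (if h = b' ∧ f = u then 1 else 0))
        - (A (cst xc) (cG n ρ u b') f h + (if h = b' ∧ f = u then 1 else 0)) := by
    have e1 : df n ρ a b u b' ψ = fun f h => ψ f h + (-1) * pe n a b (cG n ρ u b') f h := by
      funext f h; simp only [df]; ring
    rw [e1, A_add, A_smul,
      A_pe (φ := cG n ρ u b') (by omega) a b (ins_chi h8 hρ (Gk u b')) hf h]
    ring
  rw [e]
  refine (abs_sub _ _).trans ?_
  have h1 := hA f hf h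
  have h2 := A_cG_le hρ hu b' f h (n := n)
  rw [add_div]
  exact add_le_add h1 h2

theorem tw_df {n ρ : ℕ} (hn : 0 < n) {a b : ℝ} (ha : a ^ 2 = 1) (hb : b ^ 2 = 1) {ψ : Fld}
    (hψ : Tw n a b ψ) (u : Face) (b' : Fin 4) : Tw n a b (df n ρ a b u b' ψ) :=
  hψ.sub (tw_pe hn ha hb _)

theorem df_near {n ρ : ℕ} (h8 : 8 * ρ ≤ n) (hρ : 8 ≤ ρ) {a b : ℝ} {ψ : Fld} {u w : Face}
    {b' : Fin 4} (hw : 4 * dd w (ce n) ≤ ρ) (h : Fin 4) :
    df n ρ a b u b' ψ w h = ψ w h - Gk u b' w h := by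
  simp only [df]
  rw [pe_bx a b _ (mem_bx_of h8 hρ hw), cG, chi_one (by omega) (by omega : dd w (ce n) ≤ ρ), one_mul]

/-- **kernel convergence, sectors with an antiperiodic direction** -/
theorem ker_anti {Ce : ℝ} (hCe : 0 ≤ Ce) : ∃ C : ℝ, 0 ≤ C ∧ ∀ (n ρ : ℕ), 8 * ρ ≤ n → n ≤ 16 * ρ →
    8 ≤ ρ → ∀ (a b : ℝ), a ^ 2 = 1 → b ^ 2 = 1 → (a = -1 ∨ b = -1) → ∀ ψ : Fld, Tw n a b ψ →
    ∀ (u : Face) (b' : Fin 4), 4 * dd u (ce n) ≤ ρ →
    (∀ f ∈ bx n, ∀ h, |A (cst xc) ψ f h + (if h = b' ∧ f = u then 1 else 0)| ≤ Ce / (ρ : ℝ) ^ 2) →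
    ∀ (w : Face) (h : Fin 4), 4 * dd w (ce n) ≤ ρ → |ψ w h - Gk u b' w h| ≤ C / ρ := by
  have hK := K0_pos
  have hKE := KE_pos
  set C1 := Ce + 2 * K0 with hC1
  have hC10 : 0 ≤ C1 := by positivity
  refine ⟨1024 * C1 * K0 + 64 * K0 * Real.sqrt (262144 * KE * C1 ^ 2), by positivity, ?_⟩
  intro n ρ h8 h16 hρ a b ha hb hab ψ hψ u b' hu hA w h hw
  have h0 : (0 : ℝ) < ρ := by exact_mod_cast (by omega : 0 < ρ)
  have hAd := A_df_le h8 h16 hρ hu hA (a := a) (b := b)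
  have hT := tw_df (ρ := ρ) (by omega) ha hb hψ u b'
  have hgap := gap_anti n (by omega) ha hb hT hab
  have hn2 := n2_A_le (q := C1 / (ρ : ℝ) ^ 2) (by positivity) (fun f hf k => hAd f hf k)
  have h16' : (n : ℝ) ≤ 16 * ρ := by exact_mod_cast h16
  have hE : n2 n (df n ρ a b u b' ψ) ≤ 262144 * KE * C1 ^ 2 := by
    refine hgap.trans ?_
    calc (n : ℝ) ^ 2 * KE * n2 n (A (cst xc) (df n ρ a b u b' ψ))
        ≤ (16 * ρ) ^ 2 * KE * (4 * (16 * ρ) ^ 2 * (C1 / (ρ : ℝ) ^ 2) ^ 2) := by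
          have h1 : n2 n (A (cst xc) (df n ρ a b u b' ψ)) ≤ 4 * (16 * ρ) ^ 2 * (C1 / (ρ : ℝ) ^ 2) ^ 2 := by
            refine hn2.trans ?_
            gcongr
          have := n2_nonneg n (A (cst xc) (df n ρ a b u b' ψ))
          gcongr
      _ = _ := by field_simp; ring
  have hp := point_le h8 h16 hρ ha hb hT hC10 hAd hE hw h
  rwa [df_near h8 hρ hw] at hp

theorem light_le {n ρ : ℕ} (h8 : 8 * ρ ≤ n) (h16 : n ≤ 16 * ρ) (hρ : 8 ≤ ρ) {u : Face}
    (hu : 4 * dd u (ce n) ≤ ρ) (b' : Fin 4) (c : Fin 4 → ℝ) (hc : ∀ k, |c k| ≤ 1) :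
    |Sm n (fun f => ∑ k, c k * cG n ρ u b' f k)| ≤ 1024 * K0 * ρ := by
  have hK := K0_pos
  unfold Sm
  refine (abs_sum_le_sum_abs _ _).trans ?_
  calc ∑ f ∈ bx n, |∑ k, c k * cG n ρ u b' f k|
      ≤ ∑ f ∈ bx n, 4 * (K0 * (1 / ((dd f u : ℝ) + 1))) := by
        refine sum_le_sum fun f _ => ?_
        refine (abs_sum_le_sum_abs _ _).trans ?_
        calc ∑ k, |c k * cG n ρ u b' f k| ≤ ∑ k : Fin 4, K0 * (1 / ((dd f u : ℝ) + 1)) := by
              refine sum_le_sum fun k _ => ?_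
              rw [cG, abs_mul, abs_mul, abs_of_nonneg (chi_nonneg _ _ _)]
              have h1 := hc k
              have h2 := chi_le_one (ce n) ρ f
              have h2' := chi_nonneg (ce n) ρ f
              have h3 := Gk_le u b' f k
              calc |c k| * (chi (ce n) ρ f * |Gk u b' f k|) ≤ 1 * (1 * (K0 / ((dd f u : ℝ) + 1))) := by
                    gcongr
                _ = _ := by ring
          _ = _ := by simp only [sum_const, card_univ, Fintype.card_fin, nsmul_eq_mul, Nat.cast_ofNat]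
    _ = 4 * K0 * ∑ f ∈ bx n, 1 / ((dd f u : ℝ) + 1) := by
        rw [mul_sum]; refine sum_congr rfl fun f _ => ?_; ring
    _ ≤ 4 * K0 * (256 * ρ) := by
        have := sum_inv_le h8 h16 hρ hu
        gcongr
    _ = _ := by ring

theorem sqrt2_half_le : Real.sqrt 2 / 2 ≤ 1 := by linarith [sq2_lt]

/-- **kernel convergence, doubly periodic sector** -/
theorem ker_PP {Ce : ℝ} (hCe : 0 ≤ Ce) : ∃ C : ℝ, 0 ≤ C ∧ ∀ (n ρ : ℕ), 8 * ρ ≤ n → n ≤ 16 * ρ →
    8 ≤ ρ → ∀ ψ : Fld, Tw n 1 1 ψ → l1 n ψ = 0 → l2 n ψ = 0 →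
    ∀ (u : Face) (b' : Fin 4), 4 * dd u (ce n) ≤ ρ →
    (∀ f ∈ bx n, ∀ h, |A (cst xc) ψ f h + (if h = b' ∧ f = u then 1 else 0)| ≤ Ce / (ρ : ℝ) ^ 2) →
    ∀ (w : Face) (h : Fin 4), 4 * dd w (ce n) ≤ ρ → |ψ w h - Gk u b' w h| ≤ C / ρ := by
  have hK := K0_pos
  have hKE := KE_pos
  set C1 := Ce + 2 * K0 with hC1
  have hC10 : 0 ≤ C1 := by positivity
  set E : ℝ := 524288 * (KE + 1) * C1 ^ 2 + 65536 * K0 ^ 2 with hEdef
  have hE0 : 0 ≤ E := by positivity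
  refine ⟨1024 * C1 * K0 + 64 * K0 * Real.sqrt E, by positivity, ?_⟩
  intro n ρ h8 h16 hρ ψ hψ hl1 hl2 u b' hu hA w h hw
  have h0 : (0 : ℝ) < ρ := by exact_mod_cast (by omega : 0 < ρ)
  have hAd := A_df_le h8 h16 hρ hu hA (a := 1) (b := 1)
  have hT := tw_df (ρ := ρ) (by omega) (by norm_num) (by norm_num) hψ u b'
  have hgap := gap_PP n (by omega) hT
  have hn2 := n2_A_le (q := C1 / (ρ : ℝ) ^ 2) (by positivity) (fun f hf k => hAd f hf k)
  have h16' : (n : ℝ) ≤ 16 * ρ := by exact_mod_cast h16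
  have h8' : 8 * (ρ : ℝ) ≤ n := by exact_mod_cast h8
  have hs0 : 0 ≤ Real.sqrt 2 / 2 := by positivity
  have L1 : |l1 n (df n ρ 1 1 u b' ψ)| ≤ 1024 * K0 * ρ := by
    have e : l1 n (df n ρ 1 1 u b' ψ) = l1 n ψ
        - Sm n (fun f => ∑ k, (![-(Real.sqrt 2 / 2), 1, -(Real.sqrt 2 / 2), 0] : Fin 4 → ℝ) k
            * cG n ρ u b' f k) := by
      unfold l1
      rw [← Sm_sub]
      unfold Sm
      refine sum_congr rfl fun f hf => ?_
      simp only [df, pe_bx 1 1 _ hf, Fin.sum_univ_four]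
      simp
      ring
    rw [e, hl1, zero_sub, abs_neg]
    refine light_le h8 h16 hρ hu b' _ fun k => ?_
    fin_cases k
    · show |-(Real.sqrt 2 / 2)| ≤ 1
      rw [abs_neg, abs_of_nonneg hs0]; exact sqrt2_half_le
    · show |(1 : ℝ)| ≤ 1
      simp
    · show |-(Real.sqrt 2 / 2)| ≤ 1
      rw [abs_neg, abs_of_nonneg hs0]; exact sqrt2_half_le
    · show |(0 : ℝ)| ≤ 1
      simp
  have L2 : |l2 n (df n ρ 1 1 u b' ψ)| ≤ 1024 * K0 * ρ := by
    have e : l2 n (df n ρ 1 1 u b' ψ) = l2 n ψ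
        - Sm n (fun f => ∑ k, (![-(Real.sqrt 2 / 2), 0, Real.sqrt 2 / 2, -1] : Fin 4 → ℝ) k
            * cG n ρ u b' f k) := by
      unfold l2
      rw [← Sm_sub]
      unfold Sm
      refine sum_congr rfl fun f hf => ?_
      simp only [df, pe_bx 1 1 _ hf, Fin.sum_univ_four]
      simp
      ring
    rw [e, hl2, zero_sub, abs_neg]
    refine light_le h8 h16 hρ hu b' _ fun k => ?_
    fin_cases k
    · show |-(Real.sqrt 2 / 2)| ≤ 1
      rw [abs_neg, abs_of_nonneg hs0]; exact sqrt2_half_le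
    · show |(0 : ℝ)| ≤ 1
      simp
    · show |Real.sqrt 2 / 2| ≤ 1
      rw [abs_of_nonneg hs0]; exact sqrt2_half_le
    · show |(-1 : ℝ)| ≤ 1
      simp
  have hE : n2 n (df n ρ 1 1 u b' ψ) ≤ E := by
    refine hgap.trans ?_
    have h1 : n2 n (A (cst xc) (df n ρ 1 1 u b' ψ)) ≤ 1024 * C1 ^ 2 / (ρ : ℝ) ^ 2 := by
      refine hn2.trans ?_
      calc 4 * (n : ℝ) ^ 2 * (C1 / (ρ : ℝ) ^ 2) ^ 2 ≤ 4 * (16 * ρ) ^ 2 * (C1 / (ρ : ℝ) ^ 2) ^ 2 := by
            gcongr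
        _ = _ := by field_simp; ring
    have h2 := n2_nonneg n (A (cst xc) (df n ρ 1 1 u b' ψ))
    have h3 : 2 * ((n : ℝ) ^ 2 * KE + 1) * n2 n (A (cst xc) (df n ρ 1 1 u b' ψ))
        ≤ 524288 * (KE + 1) * C1 ^ 2 := by
      have hρ1 : (1 : ℝ) ≤ ρ ^ 2 := by
        have : (8 : ℝ) ≤ ρ := by exact_mod_cast hρ
        nlinarith
      calc 2 * ((n : ℝ) ^ 2 * KE + 1) * n2 n (A (cst xc) (df n ρ 1 1 u b' ψ))
          ≤ 2 * ((16 * ρ) ^ 2 * KE + 256 * ρ ^ 2) * (1024 * C1 ^ 2 / (ρ : ℝ) ^ 2) := by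
            gcongr
            nlinarith
        _ = _ := by field_simp; ring
    have h4 : (l1 n (df n ρ 1 1 u b' ψ) ^ 2 + l2 n (df n ρ 1 1 u b' ψ) ^ 2) / (n : ℝ) ^ 2
        ≤ 65536 * K0 ^ 2 := by
      have hn : (0 : ℝ) < n := by linarith
      rw [div_le_iff₀ (by positivity)]
      have q1 : l1 n (df n ρ 1 1 u b' ψ) ^ 2 ≤ (1024 * K0 * ρ) ^ 2 := by
        rw [← sq_abs]; gcongr
      have q2 : l2 n (df n ρ 1 1 u b' ψ) ^ 2 ≤ (1024 * K0 * ρ) ^ 2 := by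
        rw [← sq_abs]; gcongr
      have q3 : (8 * (ρ : ℝ)) ^ 2 ≤ (n : ℝ) ^ 2 := by gcongr
      have q4 : 65536 * K0 ^ 2 * (8 * (ρ : ℝ)) ^ 2 ≤ 65536 * K0 ^ 2 * (n : ℝ) ^ 2 := by gcongr
      nlinarith
    linarith
  have hp := point_le h8 h16 hρ (by norm_num) (by norm_num) hT hC10 hAd hE hw h
  rwa [df_near h8 hρ hw] at hp

end Crest.Agent.R165.TorusKerx922
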