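import Mathlib
import Crest.Agent.R165.TorusKer_922
import Crest.Agent.R165.TorBr_599

/-!
# Row 165 (S0250), PL1: the critical torus kernels converge to the plane kernel

Lifts of torus fields to twisted periodic fields of the plane (`A_lift`), and the entries of
`-(hA)⁻¹` (three sectors) and `-BP` (doubly periodic sector) near the centre of the period box:
`|entry ((w, h), (u, b)) - SP h b (w - u)| ≤ C / ρ`.
-/

set_option autoImplicit false
set_option linter.all false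

noncomputable section

open Finset

namespace Crest.Agent.R165.TorusLiftx922

open Crest.Agent.R165.Tr1x40 Crest.Agent.R165.Tr2x40 Crest.Agent.R165.TorusGradx922
open Crest.Agent.R165.TorusKerx922
open Crest.Agent.R165.Schurx811 (dd)
open Crest.Agent.R165.TorDetx599 (hA wS sgn4)
open Crest.Agent.R165.TorusJ1x922 (sec)
open Matrix

variable (M : ℕ) [NeZero M]

/-- the half-edge type of the torus -/
abbrev HT : Type := (ZMod M × ZMod M) × Fin 4

/-- lift of a torus field -/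
def lift (a b : ℝ) (φ : HT M → ℝ) : Fld := fun f h =>
  tw a (f.1 / M) * tw b (f.2 / M) * φ (((f.1 : ZMod M), (f.2 : ZMod M)), h)

theorem succ_ediv (i : ℤ) : (i + 1) / (M : ℤ) = i / M + (if ((i + 1 : ℤ) : ZMod M) = 0 then 1 else 0) := by
  have hM : (0 : ℤ) < M := by exact_mod_cast NeZero.pos M
  have m1 := Int.emod_nonneg i hM.ne'
  have m2 := Int.emod_lt_of_pos i hM
  have d := Int.emod_add_mul_ediv i M
  split_ifs with h
  · rw [ZMod.intCast_zmod_eq_zero_iff_dvd] at h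
    have h' : (M : ℤ) ∣ i % M + 1 := by
      have : i % M + 1 = (i + 1) - M * (i / M) := by linarith
      rw [this]; exact Int.dvd_sub h (Dvd.intro _ rfl)
    have h2 : i % M + 1 = M := by
      have := Int.le_of_dvd (by omega) h'
      omega
    have := (Int.ediv_emod_unique (a := i + 1) (b := M) (q := i / M + 1) (r := 0) hM).2
      ⟨by linarith, le_refl _, hM⟩
    exact this.1
  · have h2 : i % M + 1 ≠ M := by
      intro h3
      apply h
      rw [ZMod.intCast_zmod_eq_zero_iff_dvd]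
      exact ⟨i / M + 1, by linarith⟩
    have := (Int.ediv_emod_unique (a := i + 1) (b := M) (q := i / M) (r := i % M + 1) hM).2
      ⟨by linarith, by omega, by omega⟩
    rw [this.1, add_zero]

/-- seam sign -/
def sn (ε : ℝ) (z : ZMod M) : ℝ := if z = 0 then ε else 1

theorem tw_succ {ε : ℝ} (h : ε ^ 2 = 1) (i : ℤ) :
    tw ε ((i + 1) / M) = tw ε (i / M) * sn M ε ((i + 1 : ℤ) : ZMod M) := by
  rw [succ_ediv, sn]
  split_ifs with hz
  · rw [tw_add_one h]; ring
  · rw [add_zero, mul_one]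

theorem sn_sq {ε : ℝ} (h : ε ^ 2 = 1) (z : ZMod M) : sn M ε z * sn M ε z = 1 := by
  unfold sn; split_ifs
  · rw [← pow_two, h]
  · norm_num

theorem tw_pred {ε : ℝ} (h : ε ^ 2 = 1) (i : ℤ) :
    tw ε ((i - 1) / M) = tw ε (i / M) * sn M ε ((i : ℤ) : ZMod M) := by
  have h1 := tw_succ M h (i - 1)
  rw [sub_add_cancel] at h1
  rw [h1, mul_assoc, sn_sq M h, mul_one]

theorem tw_lift {a b : ℝ} (ha : a ^ 2 = 1) (hb : b ^ 2 = 1) (φ : HT M → ℝ) :
    Tw M a b (lift M a b φ) where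
  h1 f h := by
    have hn' : (M : ℤ) ≠ 0 := by exact_mod_cast NeZero.ne M
    simp only [lift]
    rw [show (f.1 + (M : ℤ)) / M = f.1 / M + 1 from by
      rw [Int.add_ediv_of_dvd_right (dvd_refl _), Int.ediv_self hn'], tw_add_one ha]
    simp only [Int.cast_add, Int.cast_natCast, ZMod.natCast_self, add_zero]
    ring
  h2 f h := by
    have hn' : (M : ℤ) ≠ 0 := by exact_mod_cast NeZero.ne M
    simp only [lift]
    rw [show (f.2 + (M : ℤ)) / M = f.2 / M + 1 from by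
      rw [Int.add_ediv_of_dvd_right (dvd_refl _), Int.ediv_self hn'], tw_add_one hb]
    simp only [Int.cast_add, Int.cast_natCast, ZMod.natCast_self, add_zero]
    ring

theorem wS1 (a b : ℝ) (z : ZMod M × ZMod M) : wS M xc a b z 1 = xc * sn M a z.1 := by
  simp [wS, sn]

theorem wS0 (a b : ℝ) (z : ZMod M × ZMod M) : wS M xc a b z 0 = xc * sn M b z.2 := by
  simp [wS, sn]

/-- the lift intertwines the operators -/
theorem A_lift {a b : ℝ} (ha : a ^ 2 = 1) (hb : b ^ 2 = 1) (φ : HT M → ℝ) (f : Face) (h : Fin 4) :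
    A (cst xc) (lift M a b φ) f h
      = tw a (f.1 / M) * tw b (f.2 / M) * (hA (wS M xc a b) *ᵥ φ) (((f.1 : ZMod M), (f.2 : ZMod M)), h) := by
  obtain ⟨i, j⟩ := f
  rw [TorSecx599.hA_mulVec_face]
  have s1 := tw_succ M ha i
  have s2 := tw_succ M hb j
  have p1 := tw_pred M ha i
  have p2 := tw_pred M hb j
  simp only [Int.cast_add, Int.cast_one] at s1 s2
  fin_cases h
  · show A (cst xc) (lift M a b φ) (i, j) 0 = _
    rw [A_S]
    simp [lift, cst, sgn4, Fin.sum_univ_four, wS0, wS1, p2]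
    ring
  · show A (cst xc) (lift M a b φ) (i, j) 1 = _
    rw [A_E]
    simp [lift, cst, sgn4, Fin.sum_univ_four, wS0, wS1, s1]
    ring
  · show A (cst xc) (lift M a b φ) (i, j) 2 = _
    rw [A_N]
    simp [lift, cst, sgn4, Fin.sum_univ_four, wS0, wS1, s2]
    ring
  · show A (cst xc) (lift M a b φ) (i, j) 3 = _
    rw [A_W]
    simp [lift, cst, sgn4, Fin.sum_univ_four, wS0, wS1, p1]
    ring

theorem lift_bx (a b : ℝ) (φ : HT M → ℝ) {f : Face} (hf : f ∈ bx M) (h : Fin 4) :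
    lift M a b φ f h = φ (((f.1 : ZMod M), (f.2 : ZMod M)), h) := by
  rw [bx, mem_product, mem_Ico, mem_Ico] at hf
  simp only [lift]
  rw [Int.ediv_eq_zero_of_lt hf.1.1 hf.1.2, Int.ediv_eq_zero_of_lt hf.2.1 hf.2.2, tw_zero, tw_zero]
  simp

theorem A_lift_bx {a b : ℝ} (ha : a ^ 2 = 1) (hb : b ^ 2 = 1) (φ : HT M → ℝ) {f : Face}
    (hf : f ∈ bx M) (h : Fin 4) : A (cst xc) (lift M a b φ) f h
      = (hA (wS M xc a b) *ᵥ φ) (((f.1 : ZMod M), (f.2 : ZMod M)), h) := by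
  rw [A_lift M ha hb]
  rw [bx, mem_product, mem_Ico, mem_Ico] at hf
  rw [Int.ediv_eq_zero_of_lt hf.1.1 hf.1.2, Int.ediv_eq_zero_of_lt hf.2.1 hf.2.2, tw_zero, tw_zero]
  simp

/-- the torus half-edge of a plane half-edge -/
def tf (g : Face × Fin 4) : HT M := (((g.1.1 : ZMod M), (g.1.2 : ZMod M)), g.2)

theorem cast_inj {i j : ℤ} (hi : 0 ≤ i ∧ i < M) (hj : 0 ≤ j ∧ j < M)
    (h : (i : ZMod M) = (j : ZMod M)) : i = j := by
  rw [ZMod.intCast_eq_intCast_iff] at h
  have := h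
  rw [Int.ModEq, Int.emod_eq_of_lt hi.1 hi.2, Int.emod_eq_of_lt hj.1 hj.2] at this
  exact this

theorem tf_inj {f u : Face} (hf : f ∈ bx M) (hu : u ∈ bx M) {h b : Fin 4}
    (e : tf M (f, h) = tf M (u, b)) : h = b ∧ f = u := by
  rw [bx, mem_product, mem_Ico, mem_Ico] at hf hu
  simp only [tf, Prod.mk.injEq] at e
  exact ⟨e.2, Prod.ext (cast_inj M hf.1 hu.1 e.1.1) (cast_inj M hf.2 hu.2 e.1.2)⟩

theorem one_tf {f u : Face} (hf : f ∈ bx M) (hu : u ∈ bx M) (h b : Fin 4) :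
    (1 : Matrix (HT M) (HT M) ℝ) (tf M (f, h)) (tf M (u, b)) = if h = b ∧ f = u then 1 else 0 := by
  by_cases hh : h = b ∧ f = u
  · obtain ⟨rfl, rfl⟩ := hh
    simp
  · rw [if_neg hh, Matrix.one_apply_ne]
    intro e
    exact hh (tf_inj M hf hu e)

/-- **the three nonsingular sectors**: kernel convergence -/
theorem tor_ker_anti : ∃ C : ℝ, 0 ≤ C ∧ ∀ (M : ℕ) [NeZero M] (ρ : ℕ), 8 * ρ ≤ M → M ≤ 16 * ρ → 8 ≤ ρ →
    ∀ s : Fin 2 × Fin 2, s ≠ (0, 0) → ∀ (w u : Face) (h b : Fin 4), 4 * dd w (ce M) ≤ ρ →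
    4 * dd u (ce M) ≤ ρ →
    |(-(hA fun (z : ZMod M × ZMod M) (j : Fin 2) => sec s (z, j) * TorSecx599.xc)⁻¹)
      (tf M (w, h)) (tf M (u, b)) - Gk u b w h| ≤ C / ρ := by
  obtain ⟨C, hC, hmain⟩ := ker_anti (le_refl (0 : ℝ))
  refine ⟨C, hC, ?_⟩
  intro M _ ρ h8 h16 hρ s hs w u h b hw hu
  have hdet := TorBrx599.det_sec_ne M s hs
  set W := hA fun (z : ZMod M × ZMod M) (j : Fin 2) => sec s (z, j) * TorSecx599.xc with hW
  set a1 : ℝ := if s.2 = 0 then 1 else -1 with ha1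
  set b1 : ℝ := if s.1 = 0 then 1 else -1 with hb1
  have hWe : W = hA (wS M xc a1 b1) := by
    rw [hW, TorBrx599.sec_eq]; rfl
  have ha : a1 ^ 2 = 1 := by rw [ha1]; split_ifs <;> norm_num
  have hb : b1 ^ 2 = 1 := by rw [hb1]; split_ifs <;> norm_num
  have hab : a1 = -1 ∨ b1 = -1 := by
    by_cases h2 : s.2 = 0
    · right
      have h1 : s.1 ≠ 0 := fun h => hs (Prod.ext h h2)
      rw [hb1, if_neg h1]
    · left; rw [ha1, if_neg h2]
  have hub := mem_bx_of h8 hρ hu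
  have hwb := mem_bx_of h8 hρ hw
  set φ : HT M → ℝ := fun k => (-W⁻¹) k (tf M (u, b)) with hφ
  have hT := tw_lift M ha hb φ
  have hres := hmain M ρ h8 h16 hρ a1 b1 ha hb hab (lift M a1 b1 φ) hT u b hu (fun f hf k => by
    rw [A_lift_bx M ha hb φ hf k, ← hWe]
    have e : (W *ᵥ φ) (((f.1 : ZMod M), (f.2 : ZMod M)), k) = (W * (-W⁻¹)) (tf M (f, k)) (tf M (u, b)) := rfl
    rw [e, Matrix.mul_neg, Matrix.mul_nonsing_inv _ (isUnit_iff_ne_zero.2 hdet), Matrix.neg_apply,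
      one_tf M hf hub]
    simp) w h hw
  rw [lift_bx M a1 b1 φ hwb] at hres
  exact hres

/-! ### the doubly periodic sector -/

theorem sum_bx (F : ZMod M × ZMod M → ℝ) :
    ∑ f ∈ bx M, F ((f.1 : ZMod M), (f.2 : ZMod M)) = ∑ z, F z := by
  refine Finset.sum_nbij' (fun f => ((f.1 : ZMod M), (f.2 : ZMod M)))
    (fun z => ((z.1.val : ℤ), (z.2.val : ℤ))) ?_ ?_ ?_ ?_ ?_
  · intro f _; exact mem_univ _
  · intro z _
    rw [bx, mem_product, mem_Ico, mem_Ico]
    have h1 := ZMod.val_lt z.1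
    have h2 := ZMod.val_lt z.2
    simp only
    omega
  · intro f hf
    rw [bx, mem_product, mem_Ico, mem_Ico] at hf
    have key : ∀ x : ℤ, 0 ≤ x → x < M → (((x : ZMod M)).val : ℤ) = x := by
      intro x h0 h1
      rw [ZMod.val_intCast, Int.emod_eq_of_lt h0 h1]
    exact Prod.ext (key _ hf.1.1 hf.1.2) (key _ hf.2.1 hf.2.2)
  · intro z _
    simp
  · intro f _; rfl

theorem l_lift (c : Fin 4 → ℝ) (φ : HT M → ℝ) :
    Sm M (fun f => ∑ k, c k * lift M 1 1 φ f k) = ∑ k : HT M, c k.2 * φ k := by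
  unfold Sm
  rw [Fintype.sum_prod_type]
  rw [← sum_bx M (fun z => ∑ k, c k * φ (z, k))]
  refine sum_congr rfl fun f hf => sum_congr rfl fun k _ => ?_
  rw [lift_bx M 1 1 φ hf]

/-- **the doubly periodic sector**: kernel convergence -/
theorem tor_ker_PP : ∃ C : ℝ, 0 ≤ C ∧ ∀ (M : ℕ) [NeZero M] (ρ : ℕ), 8 * ρ ≤ M → M ≤ 16 * ρ → 8 ≤ ρ →
    ∀ (w u : Face) (h b : Fin 4), 4 * dd w (ce M) ≤ ρ → 4 * dd u (ce M) ≤ ρ →
    |(-(TorSecx599.BP M)) (tf M (w, h)) (tf M (u, b)) - Gk u b w h| ≤ C / ρ := by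
  obtain ⟨C, hC, hmain⟩ := ker_PP (show (0 : ℝ) ≤ 2 by norm_num)
  refine ⟨C, hC, ?_⟩
  intro M _ ρ h8 h16 hρ w u h b hw hu
  have hK := TorSecx599.ker2_PP M
  have hWe : hA (wS M TorSecx599.xc 1 1) = hA (wS M xc 1 1) := rfl
  rw [hWe] at hK
  have hub := mem_bx_of h8 hρ hu
  have hwb := mem_bx_of h8 hρ hw
  set φ : HT M → ℝ := fun k => (-(TorSecx599.BP M)) k (tf M (u, b)) with hφ
  have hT := tw_lift M (a := 1) (b := 1) (by norm_num) (by norm_num) φ
  have hM : (0 : ℝ) < M := by exact_mod_cast NeZero.pos M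
  have horth : ∀ v : HT M → ℝ, TorSecx599.BP M *ᵥ v = 0 → ∑ k : HT M, v k * φ k = 0 := by
    intro v hv
    have h1 := congrFun hv (tf M (u, b))
    have h2 : ∑ k : HT M, TorSecx599.BP M (tf M (u, b)) k * v k = 0 := h1
    rw [← h2]
    refine sum_congr rfl fun k _ => ?_
    have h3 : TorSecx599.BP M (tf M (u, b)) k = -TorSecx599.BP M k (tf M (u, b)) := by
      have := congrFun (congrFun hK.banti k) (tf M (u, b))
      simpa using this
    simp only [hφ, Matrix.neg_apply, h3]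
    ring
  have hs2 : (0 : ℝ) < Real.sqrt 2 := sq2_pos
  have L1 : l1 M (lift M 1 1 φ) = 0 := by
    have e : l1 M (lift M 1 1 φ)
        = Sm M (fun f => ∑ k, TorSecx599.m1 k * lift M 1 1 φ f k) := by
      unfold l1
      congr 1; funext f
      simp only [Fin.sum_univ_four, TorSecx599.m1]
      simp
      ring
    rw [e, l_lift]
    have h1 := horth _ hK.b1
    have h2 : ∑ k : HT M, TorSecx599.m1 k.2 * φ k = (Real.sqrt 2 * M) * ∑ k : HT M, TorSecx599.u1 M k * φ k := by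
      rw [mul_sum]
      refine sum_congr rfl fun k _ => ?_
      unfold TorSecx599.u1
      field_simp
    rw [h2, h1, mul_zero]
  have L2 : l2 M (lift M 1 1 φ) = 0 := by
    have e : l2 M (lift M 1 1 φ)
        = Sm M (fun f => ∑ k, TorSecx599.m2 k * lift M 1 1 φ f k) := by
      unfold l2
      congr 1; funext f
      simp only [Fin.sum_univ_four, TorSecx599.m2]
      simp
      ring
    rw [e, l_lift]
    have h1 := horth _ hK.b2
    have h2 : ∑ k : HT M, TorSecx599.m2 k.2 * φ k = (Real.sqrt 2 * M) * ∑ k : HT M, TorSecx599.u2 M k * φ k := by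
      rw [mul_sum]
      refine sum_congr rfl fun k _ => ?_
      unfold TorSecx599.u2
      field_simp
    rw [h2, h1, mul_zero]
  have hres := hmain M ρ h8 h16 hρ (lift M 1 1 φ) hT L1 L2 u b hu (fun f hf k => by
    rw [A_lift_bx M (by norm_num) (by norm_num) φ hf k]
    have e : (hA (wS M xc 1 1) *ᵥ φ) (((f.1 : ZMod M), (f.2 : ZMod M)), k)
        = (hA (wS M xc 1 1) * (-(TorSecx599.BP M))) (tf M (f, k)) (tf M (u, b)) := rfl
    rw [e, Matrix.mul_neg, hK.ab, Matrix.neg_apply, Matrix.sub_apply, Matrix.sub_apply,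
      one_tf M hf hub, Matrix.vecMulVec_apply, Matrix.vecMulVec_apply]
    have b1 := TorBrx599.abs_u1_le M (tf M (f, k))
    have b2 := TorBrx599.abs_u1_le M (tf M (u, b))
    have b3 := TorBrx599.abs_u2_le M (tf M (f, k))
    have b4 := TorBrx599.abs_u2_le M (tf M (u, b))
    have hρ0 : (0 : ℝ) < ρ := by exact_mod_cast (by omega : 0 < ρ)
    have hρM : (ρ : ℝ) ≤ M := by exact_mod_cast (by omega : ρ ≤ M)
    have e2 : -((if k = b ∧ f = u then (1 : ℝ) else 0)
        - TorSecx599.u1 M (tf M (f, k)) * TorSecx599.u1 M (tf M (u, b))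
        - TorSecx599.u2 M (tf M (f, k)) * TorSecx599.u2 M (tf M (u, b)))
        + (if k = b ∧ f = u then (1 : ℝ) else 0)
        = TorSecx599.u1 M (tf M (f, k)) * TorSecx599.u1 M (tf M (u, b))
          + TorSecx599.u2 M (tf M (f, k)) * TorSecx599.u2 M (tf M (u, b)) := by ring
    rw [e2]
    refine (abs_add_le _ _).trans ?_
    rw [abs_mul, abs_mul]
    have hd : (1 : ℝ) / M ≤ 1 / ρ := one_div_le_one_div_of_le hρ0 hρM
    calc |TorSecx599.u1 M (tf M (f, k))| * |TorSecx599.u1 M (tf M (u, b))|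
        + |TorSecx599.u2 M (tf M (f, k))| * |TorSecx599.u2 M (tf M (u, b))|
        ≤ 1 / M * (1 / M) + 1 / M * (1 / M) := by gcongr
      _ ≤ 1 / ρ * (1 / ρ) + 1 / ρ * (1 / ρ) := by gcongr
      _ = _ := by field_simp; ring) w h hw
  rw [lift_bx M 1 1 φ hwb] at hres
  exact hres

end Crest.Agent.R165.TorusLiftx922
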