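import Mathlib
import Crest.Agent.R165.TorusLift_922
import Crest.Agent.R165.TorusJ2_922
import Crest.Agent.R165.En_599
import Crest.Agent.R165.GeOps_337
import Crest.Agent.R165.Red2_541
import Crest.Agent.R165.SpC_583

/-!
# Row 165 (S0250), PL1: the torus clause at `lam = 0`

* `tendsto_EE` : continuity of `EE` in the covariance
* `torBonds_tendsto` : `⟨∏_{e ∈ S} ε_e⟩` on the critical torus converges to
  `EE (covOf Spl) (∏_{e ∈ S} (1 - 2 xc b_e))`
* `e0_eq` : the value for one bond is `√2/2`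
* `UTb_proof : UTb`
-/

set_option autoImplicit false
set_option linter.all false

noncomputable section

open Finset Filter Topology
open Crest.ProbabilityR.IsingModel

namespace Crest.Agent.R165.TorusUTx922

open Crest.Agent.R165.Gr0x606 Crest.Agent.R165.Gr1x606 Crest.Agent.R165.J1ax606
open Crest.Agent.R165.Enx599 (fpr fpr_nil fpr_cons pfl EE_fpr_map tendsto_pfl)

/-! ### continuity of `EE` -/

section gen
variable {V : Type*} [AddCommGroup V] [Module ℝ V]

/-- every element is in the span of products of fields -/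
theorem span_fpr (X : Gr V) : X ∈ Submodule.span ℝ (Set.range (fun L : List V => fpr L)) := by
  induction X using Gr.induction with
  | h0 r =>
    rw [Algebra.algebraMap_eq_smul_one]
    refine Submodule.smul_mem _ r (Submodule.subset_span ⟨[], rfl⟩)
  | h1 x a ih =>
    have h : ∀ b ∈ Submodule.span ℝ (Set.range (fun L : List V => fpr L)),
        fi x * b ∈ Submodule.span ℝ (Set.range (fun L : List V => fpr L)) := by
      intro b hb
      induction hb using Submodule.span_induction with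
      | mem y hy =>
        obtain ⟨L, rfl⟩ := hy
        exact Submodule.subset_span ⟨x :: L, fpr_cons x L⟩
      | zero => rw [mul_zero]; exact Submodule.zero_mem _
      | add y z _ _ hy hz => rw [mul_add]; exact Submodule.add_mem _ hy hz
      | smul c y _ hy => rw [mul_smul_comm]; exact Submodule.smul_mem _ c hy
    exact h a ih
  | h2 a b ha hb => exact Submodule.add_mem _ ha hb

/-- continuity of `EE` in the covariance -/
theorem tendsto_EE {α : Type*} {F : Filter α} (S : α → Cov V) (T : Cov V)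
    (h : ∀ x y, Tendsto (fun a => (S a).b x y) F (𝓝 (T.b x y))) (X : Gr V) :
    Tendsto (fun a => EE (S a) X) F (𝓝 (EE T X)) := by
  have hX := span_fpr X
  induction hX using Submodule.span_induction with
  | mem y hy =>
    obtain ⟨L, rfl⟩ := hy
    have e : ∀ C : Cov V, EE C (fpr L) = pfl (fun i j => C.b i j) L.length L := by
      intro C
      have := EE_fpr_map C (id : V → V) L.length L (le_refl _)
      simpa using this
    simp only [e]
    exact tendsto_pfl (fun a i j => (S a).b i j) (fun i j => T.b i j) L.length L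
      (fun i _ j _ => h i j)
  | zero => simp only [map_zero]; exact tendsto_const_nhds
  | add y z _ _ hy hz => simp only [map_add]; exact hy.add hz
  | smul c y _ hy => simp only [map_smul, smul_eq_mul]; exact hy.const_mul c

/-- pull-back of a covariance -/
def pull {W : Type*} [AddCommGroup W] [Module ℝ W] (f : V →ₗ[ℝ] W) (C : Cov W) : Cov V where
  b := C.b.compl₁₂ f f
  alt x := C.alt (f x)

theorem pull_b {W : Type*} [AddCommGroup W] [Module ℝ W] (f : V →ₗ[ℝ] W) (C : Cov W) (x y : V) :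
    (pull f C).b x y = C.b (f x) (f y) := rfl

theorem EE_pull {W : Type*} [AddCommGroup W] [Module ℝ W] (f : V →ₗ[ℝ] W) (C : Cov W) (X : Gr V) :
    EE C (mp f X) = EE (pull f C) X := EE_mp f (pull f C) C (fun _ _ => rfl) X

end gen

/-- convergence of bilinear forms from the entries -/
theorem form_tendsto {ι α : Type*} {F : Filter α} (B : α → LinearMap.BilinForm ℝ (VI ι))
    (B' : LinearMap.BilinForm ℝ (VI ι))
    (h : ∀ i j, Tendsto (fun a => B a (Finsupp.single i 1) (Finsupp.single j 1)) F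
      (𝓝 (B' (Finsupp.single i 1) (Finsupp.single j 1)))) (x y : VI ι) :
    Tendsto (fun a => B a x y) F (𝓝 (B' x y)) := by
  induction x using Finsupp.induction_linear with
  | zero => simp only [map_zero, LinearMap.zero_apply]; exact tendsto_const_nhds
  | add x x' hx hx' => simp only [map_add, LinearMap.add_apply]; exact hx.add hx'
  | single i c =>
    induction y using Finsupp.induction_linear with
    | zero => simp only [map_zero]; exact tendsto_const_nhds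
    | add y y' hy hy' => simp only [map_add]; exact hy.add hy'
    | single j d =>
      have e1 : (Finsupp.single i c : VI ι) = c • Finsupp.single i 1 := by simp
      have e2 : (Finsupp.single j d : VI ι) = d • Finsupp.single j 1 := by simp
      rw [e1, e2]
      simp only [map_smul, LinearMap.smul_apply, smul_eq_mul]
      exact (((h i j).const_mul c)).const_mul d

/-! ### embedding the plane observables near the centre of the torus -/

open Crest.Agent.R165.TorusKerx922 Crest.Agent.R165.TorusLiftx922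
open Crest.Agent.R165.TorusCombx922 (Ed Vx tgt)
open Crest.Agent.R165.TorusJ1x922 (sec ZE epsT)
open Crest.Agent.R165.TorusJ2x922
open Crest.Agent.R165.Schurx811 (dd_self dd_triangle)
open Crest.Agent.R165.Latx683 (xc)

/-- sup distance on the faces -/
abbrev ds (z w : ℤ × ℤ) : ℕ := Crest.Agent.R165.Schurx811.dd z w

/-- half-edges: translation to the centre and projection to the torus -/
def emH (M : ℕ) (h : HE ℤ) : HE (ZMod M) := tf M (h.1 + ce M, h.2)

/-- edges -/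
def emE (M : ℕ) (e : EG ℤ) : Ed M := (toTorus M (e.1 + ce M), e.2)

theorem emH_pe (M : ℕ) (e : EG ℤ) : emH M (pe e) = pe (emE M e) := by
  obtain ⟨⟨i, j⟩, k⟩ := e
  have hk : k = 0 ∨ k = 1 := by omega
  rcases hk with rfl | rfl
  · simp [emH, emE, tf, toTorus, ce]
  · simp [emH, emE, tf, toTorus, ce]
    ring

theorem emH_qe (M : ℕ) (e : EG ℤ) : emH M (qe e) = qe (emE M e) := by
  obtain ⟨⟨i, j⟩, k⟩ := e
  have hk : k = 0 ∨ k = 1 := by omega
  rcases hk with rfl | rfl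
  · simp [emH, emE, tf, toTorus, ce]
    ring
  · simp [emH, emE, tf, toTorus, ce]

/-- the map of the fields -/
def fM (M : ℕ) : VI (HE ℤ) →ₗ[ℝ] VI (HE (ZMod M)) := Finsupp.lmapDomain ℝ ℝ (emH M)

theorem fM_single (M : ℕ) (h : HE ℤ) : fM M (Finsupp.single h 1) = Finsupp.single (emH M h) 1 := by
  simp [fM]

theorem mpG_bb (M : ℕ) (e : EG ℤ) : GeOpsx337.mpG (fM M) (bb e) = bb (emE M e) := by
  unfold bb
  rw [GeOpsx337.mpG_bi, fM_single, fM_single, emH_pe, emH_qe]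

/-- the plane observable of a set of bonds -/
def XS (S : Finset (EG ℤ)) : Ge (VI (HE ℤ)) := ∏ e ∈ S, (1 - (2 * xc) • bb e)

theorem mpG_XS (M : ℕ) (S : Finset (EG ℤ)) :
    GeOpsx337.mpG (fM M) (XS S) = ∏ e ∈ S, (1 - (2 * xc) • bb (emE M e)) := by
  unfold XS
  rw [map_prod]
  refine prod_congr rfl fun e _ => ?_
  rw [map_sub, map_one, map_smul, mpG_bb]

/-! ### convergence of the kernels -/

/-- the radius -/
def rh (L : ℕ) : ℕ := (L + 1) / 8

theorem rh_spec (L : ℕ) (hL : 63 ≤ L) : 8 * rh L ≤ L + 1 ∧ L + 1 ≤ 16 * rh L ∧ 8 ≤ rh L := by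
  unfold rh; omega

theorem tendsto_rh : Tendsto (fun L : ℕ => (rh L : ℝ)) atTop atTop := by
  refine tendsto_natCast_atTop_atTop.comp ?_
  refine tendsto_atTop.2 fun b => ?_
  filter_upwards [eventually_ge_atTop (8 * b)] with L hL
  unfold rh; omega

theorem ds_add (z c : ℤ × ℤ) : ds (z + c) c = ds z 0 := by
  simp only [ds, Crest.Agent.R165.Schurx811.dd, Prod.fst_add, Prod.snd_add, Prod.fst_zero,
    Prod.snd_zero]
  congr 2 <;> ring_nf

theorem ev_near (z : ℤ × ℤ) : ∀ᶠ L : ℕ in atTop, 4 * ds (z + ce (L + 1)) (ce (L + 1)) ≤ rh L := by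
  filter_upwards [eventually_ge_atTop (8 * (4 * ds z 0))] with L hL
  rw [ds_add]; unfold rh; omega

theorem Gk_eq (z w : ℤ × ℤ) (c : ℤ × ℤ) (h b : Fin 4) :
    Gk (w + c) b (z + c) h = Spx583.Spl (z, h) (w, b) := by
  unfold Gk Spx583.Spl
  simp

theorem tendsto_of_le_div {f : ℕ → ℝ} {l C : ℝ}
    (h : ∀ᶠ L in atTop, |f L - l| ≤ C / rh L) : Tendsto f atTop (𝓝 l) := by
  rw [tendsto_iff_norm_sub_tendsto_zero]
  refine squeeze_zero' (Eventually.of_forall fun L => norm_nonneg _) h ?_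
  exact tendsto_rh.const_div_atTop C

/-- the covariance of the plane -/
def Cpl : Cov (VI (HE ℤ)) := covOf Spx583.Spl Spx583.Spl_anti

theorem Cpl_single (h k : HE ℤ) :
    Cpl.b (Finsupp.single h 1) (Finsupp.single k 1) = Spx583.Spl h k := by
  unfold Cpl
  rw [covOf_b, formOf_single]

/-- the torus matrices -/
def Bs (s : Fin 2 × Fin 2) (L : ℕ) : Matrix (HE (ZMod (L + 1))) (HE (ZMod (L + 1))) ℝ :=
  -(TorDetx599.hA fun (z : ZMod (L + 1) × ZMod (L + 1)) (j : Fin 2) => sec s (z, j) * xc)⁻¹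

theorem Bs_anti (s : Fin 2 × Fin 2) (L : ℕ) : (Bs s L).transpose = -Bs s L := by
  unfold Bs
  rw [Matrix.transpose_neg, Pfx599.inv_anti (TorDetx599.hA_t _)]

theorem Bs_tendsto (s : Fin 2 × Fin 2) (hs : s ≠ (0, 0)) (h k : HE ℤ) :
    Tendsto (fun L : ℕ => Bs s L (emH (L + 1) h) (emH (L + 1) k)) atTop
      (𝓝 (Spx583.Spl h k)) := by
  obtain ⟨C, hC, hm⟩ := tor_ker_anti
  refine tendsto_of_le_div (C := C) ?_
  filter_upwards [eventually_ge_atTop 63, ev_near h.1, ev_near k.1] with L hL h1 h2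
  obtain ⟨h8, h16, h08⟩ := rh_spec L hL
  have := hm (L + 1) (rh L) h8 h16 h08 s hs (h.1 + ce (L + 1)) (k.1 + ce (L + 1)) h.2 k.2 h1 h2
  rw [Gk_eq] at this
  exact this

theorem BP_tendsto (h k : HE ℤ) :
    Tendsto (fun L : ℕ => (-(TorSecx599.BP (L + 1))) (emH (L + 1) h) (emH (L + 1) k)) atTop
      (𝓝 (Spx583.Spl h k)) := by
  obtain ⟨C, hC, hm⟩ := tor_ker_PP
  refine tendsto_of_le_div (C := C) ?_
  filter_upwards [eventually_ge_atTop 63, ev_near h.1, ev_near k.1] with L hL h1 h2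
  obtain ⟨h8, h16, h08⟩ := rh_spec L hL
  have := hm (L + 1) (rh L) h8 h16 h08 (h.1 + ce (L + 1)) (k.1 + ce (L + 1)) h.2 k.2 h1 h2
  rw [Gk_eq] at this
  exact this

theorem EE_cF_tendsto (B : ∀ L : ℕ, Matrix (HE (ZMod (L + 1))) (HE (ZMod (L + 1))) ℝ)
    (hB : ∀ L, (B L).transpose = -B L)
    (h : ∀ h k : HE ℤ, Tendsto (fun L : ℕ => B L (emH (L + 1) h) (emH (L + 1) k)) atTop
      (𝓝 (Spx583.Spl h k))) (X : Gr (VI (HE ℤ))) :
    Tendsto (fun L : ℕ => EE (TorBrx599.cF (L + 1) (B L)) (mp (fM (L + 1)) X)) atTop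
      (𝓝 (EE Cpl X)) := by
  simp only [EE_pull]
  refine tendsto_EE _ _ (fun x y => form_tendsto (fun L => (pull (fM (L + 1))
    (TorBrx599.cF (L + 1) (B L))).b) Cpl.b (fun i j => ?_) x y) X
  simp only [pull_b, fM_single, TorBrx599.cF_single _ (hB _), Cpl_single]
  exact h i j


/-! ### the observables -/

open Crest.Agent.R165.Symx541 (torBonds torusExpect_shift)
open Crest.Agent.R165.J4RRx653 (RR)

/-- the element of the eps-algebra of a set of bonds -/
def fs {E : Type*} [DecidableEq E] (T : Finset E) : E →₀ ZMod 2 :=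
  Finsupp.onFinset T (fun e => if e ∈ T then 1 else 0) (fun e h => by
    by_contra hc
    simp [hc] at h)

theorem fs_support {E : Type*} [DecidableEq E] (T : Finset E) : (fs T).support = T := by
  ext e
  simp [fs, Finsupp.mem_support_iff]

theorem TH_fs {E A : Type*} [DecidableEq E] [CommRing A] [Algebra ℝ A] (g : E → A) (T : Finset E) :
    J4RRx653.TH g (J4RRx653.ep (fs T)) = ∏ e ∈ T, g e := by
  rw [J4RRx653.TH_ep, fs_support]

theorem torBonds_shift (L : ℕ) (J lam : ℝ) (R : ℕ) (V : Finset (ℤ × ℤ) → ℝ) (β : ℝ)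
    (S : Finset ((ℤ × ℤ) × Fin 2)) (c : ℤ × ℤ) : torBonds L J lam R V β S
      = torusExpect (L + 1) J lam R V β
          (fun σ => ∏ e ∈ S, epsT σ (toTorus (L + 1) (e.1 + c), e.2)) := by
  unfold torBonds
  rw [← torusExpect_shift (L + 1) J lam R V β
    (fun σ => ∏ e ∈ S, Symx541.ep e fun z => σ (toTorus (L + 1) z)) (toTorus (L + 1) c)]
  congr 1
  funext σ
  refine prod_congr rfl fun e _ => ?_
  obtain ⟨⟨i, j⟩, k⟩ := e
  have hk : k = 0 ∨ k = 1 := by omega
  rcases hk with rfl | rfl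
  · simp only [Symx541.ep, Symx541.shiftE, Equiv.coe_fn_mk, epsT, tgt, if_true, unitVec, toTorus,
      Prod.mk_add_mk, Prod.fst_add, Prod.snd_add]
    congr 3 <;> simp <;> ring
  · simp only [Symx541.ep, Symx541.shiftE, Equiv.coe_fn_mk, epsT, tgt, one_ne_zero, if_false,
      unitVec, toTorus, Prod.mk_add_mk, Prod.fst_add, Prod.snd_add]
    congr 3 <;> simp <;> ring

/-- the weights off the seams -/
theorem sec_one (M : ℕ) [NeZero M] (s : Fin 2 × Fin 2) (z : ZMod M × ZMod M) (j : Fin 2)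
    (h1 : z.1 ≠ 0) (h2 : z.2 ≠ 0) : sec s (z, j) = 1 := by
  have h := congrFun (congrFun (TorBrx599.sec_eq M s 1) z) j
  rw [mul_one] at h
  rw [h, TorDetx599.wS]
  simp [h1, h2]

theorem near_coord {L : ℕ} (hL : 63 ≤ L) {z : ℤ × ℤ}
    (h : 4 * ds (z + ce (L + 1)) (ce (L + 1)) ≤ rh L) :
    (0 < (z + ce (L + 1)).1 ∧ (z + ce (L + 1)).1 < ((L + 1 : ℕ) : ℤ)) ∧
      (0 < (z + ce (L + 1)).2 ∧ (z + ce (L + 1)).2 < ((L + 1 : ℕ) : ℤ)) := by
  obtain ⟨h8, h16, h08⟩ := rh_spec L hL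
  simp only [ds, Crest.Agent.R165.Schurx811.dd, ce, Prod.fst_add, Prod.snd_add] at h ⊢
  omega

theorem cast_ne {M : ℕ} [NeZero M] {i : ℤ} (h0 : 0 < i) (h1 : i < M) : (i : ZMod M) ≠ 0 := by
  intro h
  have h2 : (i : ZMod M) = ((0 : ℤ) : ZMod M) := by rw [h]; simp
  have := cast_inj M ⟨h0.le, h1⟩ ⟨le_refl _, lt_trans h0 h1⟩ h2
  omega

/-- sets near the centre -/
def Near (L : ℕ) (S : Finset (EG ℤ)) : Prop :=
  ∀ e ∈ S, 4 * ds (e.1 + ce (L + 1)) (ce (L + 1)) ≤ rh L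

theorem ev_Near (S : Finset (EG ℤ)) : ∀ᶠ L : ℕ in atTop, Near L S := by
  unfold Near
  rw [Finset.eventually_all]
  intro e _
  exact ev_near e.1

theorem emE_injOn {L : ℕ} (hL : 63 ≤ L) {S : Finset (EG ℤ)} (hS : Near L S) :
    Set.InjOn (emE (L + 1)) (S : Set (EG ℤ)) := by
  intro e he e' he' h
  have n1 := near_coord hL (hS e he)
  have n2 := near_coord hL (hS e' he')
  simp only [emE, toTorus, Prod.mk.injEq] at h
  have i1 := cast_inj (L + 1) ⟨n1.1.1.le, n1.1.2⟩ ⟨n2.1.1.le, n2.1.2⟩ h.1.1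
  have i2 := cast_inj (L + 1) ⟨n1.2.1.le, n1.2.2⟩ ⟨n2.2.1.le, n2.2.2⟩ h.1.2
  refine Prod.ext (Prod.ext ?_ ?_) h.2
  · simpa using i1
  · simpa using i2

theorem THG_near {L : ℕ} (hL : 63 ≤ L) {S : Finset (EG ℤ)} (hS : Near L S) (s : Fin 2 × Fin 2) :
    THG (sy s fun _ => xc) (J4RRx653.ep (fs (S.image (emE (L + 1)))))
      = GeOpsx337.mpG (fM (L + 1)) (XS S) := by
  unfold THG
  rw [TH_fs, prod_image (fun e he e' he' h => emE_injOn hL hS he he' h), mpG_XS]
  refine prod_congr rfl fun e he => ?_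
  have n1 := near_coord hL (hS e he)
  have h1 : sec s (emE (L + 1) e) = 1 := by
    refine sec_one (L + 1) s _ _ ?_ ?_
    · exact cast_ne n1.1.1 n1.1.2
    · exact cast_ne n1.2.1 n1.2.2
  simp only [gb, sy, h1, one_mul]

/-! ### the four sectors -/

theorem ratio_tendsto (q z1 z2 z3 e1 e2 e3 : ℕ → ℝ) (l : ℝ) (h1 : ∀ L, 0 < z1 L)
    (h2 : ∀ L, 0 < z2 L) (h3 : ∀ L, 0 < z3 L) (t1 : Tendsto e1 atTop (𝓝 l))
    (t2 : Tendsto e2 atTop (𝓝 l)) (t3 : Tendsto e3 atTop (𝓝 l))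
    (tq : Tendsto (fun L => |q L| / z3 L) atTop (𝓝 0)) :
    Tendsto (fun L => (q L + z1 L * e1 L + z2 L * e2 L + z3 L * e3 L) / (z1 L + z2 L + z3 L))
      atTop (𝓝 l) := by
  rw [tendsto_iff_norm_sub_tendsto_zero]
  have a1 := (tendsto_iff_norm_sub_tendsto_zero.1 t1)
  have a2 := (tendsto_iff_norm_sub_tendsto_zero.1 t2)
  have a3 := (tendsto_iff_norm_sub_tendsto_zero.1 t3)
  have hs := ((tq.add a1).add a2).add a3
  simp only [add_zero] at hs
  refine squeeze_zero (fun L => norm_nonneg _) (fun L => ?_) hs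
  have hz : 0 < z1 L + z2 L + z3 L := by linarith [h1 L, h2 L, h3 L]
  simp only [Real.norm_eq_abs]
  have e : (q L + z1 L * e1 L + z2 L * e2 L + z3 L * e3 L) / (z1 L + z2 L + z3 L) - l
      = (q L + z1 L * (e1 L - l) + z2 L * (e2 L - l) + z3 L * (e3 L - l))
        / (z1 L + z2 L + z3 L) := by
    field_simp
    ring
  rw [e, abs_div, abs_of_pos hz, div_le_iff₀ hz]
  have b0 := abs_nonneg (q L)
  have b1 := abs_nonneg (e1 L - l)
  have b2 := abs_nonneg (e2 L - l)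
  have b3 := abs_nonneg (e3 L - l)
  have c0 : |q L| ≤ |q L| / z3 L * (z1 L + z2 L + z3 L) := by
    have : |q L| = |q L| / z3 L * z3 L := by field_simp [(h3 L).ne']
    calc |q L| = |q L| / z3 L * z3 L := this
      _ ≤ _ := by
        have := h1 L; have := h2 L; have := h3 L
        gcongr
        linarith
  have c1 : z1 L * |e1 L - l| ≤ |e1 L - l| * (z1 L + z2 L + z3 L) := by
    nlinarith [h1 L, h2 L, h3 L, mul_nonneg b1 (h2 L).le, mul_nonneg b1 (h3 L).le]
  have c2 : z2 L * |e2 L - l| ≤ |e2 L - l| * (z1 L + z2 L + z3 L) := by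
    nlinarith [h1 L, h2 L, h3 L, mul_nonneg b2 (h1 L).le, mul_nonneg b2 (h3 L).le]
  have c3 : z3 L * |e3 L - l| ≤ |e3 L - l| * (z1 L + z2 L + z3 L) := by
    nlinarith [h1 L, h2 L, h3 L, mul_nonneg b3 (h1 L).le, mul_nonneg b3 (h2 L).le]
  calc |q L + z1 L * (e1 L - l) + z2 L * (e2 L - l) + z3 L * (e3 L - l)|
      ≤ |q L| + z1 L * |e1 L - l| + z2 L * |e2 L - l| + z3 L * |e3 L - l| := by
        refine (abs_add_le _ _).trans (add_le_add ((abs_add_le _ _).trans (add_le_add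
          ((abs_add_le _ _).trans (add_le_add (le_refl _) ?_)) ?_)) ?_)
        · rw [abs_mul, abs_of_pos (h1 L)]
        · rw [abs_mul, abs_of_pos (h2 L)]
        · rw [abs_mul, abs_of_pos (h3 L)]
    _ ≤ (|q L| / z3 L + |e1 L - l| + |e2 L - l| + |e3 L - l|) * (z1 L + z2 L + z3 L) := by
        nlinarith

/-- the partition function of a sector -/
def Zs (s : Fin 2 × Fin 2) (L : ℕ) : ℝ := ZE (fun e : Ed (L + 1) => sec s e * xc) 1

theorem Zs_pos (s : Fin 2 × Fin 2) (hs : s ≠ (0, 0)) (L : ℕ) : 0 < Zs s L :=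
  TorBrx599.ZE_pos (L + 1) s hs

/-- nonsingular sectors -/
theorem sector (s : Fin 2 × Fin 2) (hs : s ≠ (0, 0)) (L : ℕ) (X : Ge (VI (HE ℤ))) :
    ZE (sy s fun _ => xc) (GeOpsx337.mpG (fM (L + 1)) X)
      = Zs s L * EE (TorBrx599.cF (L + 1) (Bs s L)) (mp (fM (L + 1)) (X : Gr (VI (HE ℤ)))) :=
  TorBrx599.ZE_sector (L + 1) s hs (GeOpsx337.mpG (fM (L + 1)) X)

/-- first zero mode on the plane -/
def ze1 : Module.Dual ℝ (VI (HE ℤ)) :=
  Finsupp.linearCombination ℝ fun h : HE ℤ => TorSecx599.m1 h.2 / Real.sqrt 2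

/-- second zero mode on the plane -/
def ze2 : Module.Dual ℝ (VI (HE ℤ)) :=
  Finsupp.linearCombination ℝ fun h : HE ℤ => TorSecx599.m2 h.2 / Real.sqrt 2

theorem z1_fM (L : ℕ) : TorBrx599.z1 (L + 1) ∘ₗ fM (L + 1) = (1 / ((L + 1 : ℕ) : ℝ)) • ze1 := by
  refine Finsupp.lhom_ext' fun h => LinearMap.ext_ring ?_
  have h1 : (TorBrx599.z1 (L + 1) ∘ₗ fM (L + 1)) (Finsupp.single h 1)
      = TorSecx599.u1 (L + 1) (emH (L + 1) h) := by
    rw [LinearMap.comp_apply, fM_single]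
    exact TorBrx599.z1_single (L + 1) _
  show (TorBrx599.z1 (L + 1) ∘ₗ fM (L + 1)) (Finsupp.single h 1)
    = ((1 / ((L + 1 : ℕ) : ℝ)) • ze1) (Finsupp.single h 1)
  rw [h1, LinearMap.smul_apply, ze1, Finsupp.linearCombination_single, TorSecx599.u1]
  simp only [emH, tf, smul_eq_mul, one_mul]
  have : (0 : ℝ) < Real.sqrt 2 := by positivity
  field_simp

theorem z2_fM (L : ℕ) : TorBrx599.z2 (L + 1) ∘ₗ fM (L + 1) = (1 / ((L + 1 : ℕ) : ℝ)) • ze2 := by
  refine Finsupp.lhom_ext' fun h => LinearMap.ext_ring ?_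
  have h1 : (TorBrx599.z2 (L + 1) ∘ₗ fM (L + 1)) (Finsupp.single h 1)
      = TorSecx599.u2 (L + 1) (emH (L + 1) h) := by
    rw [LinearMap.comp_apply, fM_single]
    exact TorBrx599.z2_single (L + 1) _
  show (TorBrx599.z2 (L + 1) ∘ₗ fM (L + 1)) (Finsupp.single h 1)
    = ((1 / ((L + 1 : ℕ) : ℝ)) • ze2) (Finsupp.single h 1)
  rw [h1, LinearMap.smul_apply, ze2, Finsupp.linearCombination_single, TorSecx599.u2]
  simp only [emH, tf, smul_eq_mul, one_mul]
  have : (0 : ℝ) < Real.sqrt 2 := by positivity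
  field_simp

/-- the doubly periodic sector -/
theorem sectorPP (L : ℕ) (X : Ge (VI (HE ℤ))) :
    ZE (sy (0, 0) fun _ => xc) (GeOpsx337.mpG (fM (L + 1)) X)
      = TorSecx599.ZP (L + 1) * ((1 / ((L + 1 : ℕ) : ℝ)) * (1 / ((L + 1 : ℕ) : ℝ)) *
        EE (TorBrx599.cF (L + 1) (-(TorSecx599.BP (L + 1))))
          (mp (fM (L + 1)) (dd ze2 (dd ze1 (X : Gr (VI (HE ℤ))))))) := by
  have h := TorBrx599.ZE_PP (L + 1) (GeOpsx337.mpG (fM (L + 1)) X)
  have e : ZE (sy (0, 0) fun _ => xc) (GeOpsx337.mpG (fM (L + 1)) X)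
      = ZE (fun e : Ed (L + 1) => sec (0, 0) e * TorSecx599.xc) (GeOpsx337.mpG (fM (L + 1)) X) := rfl
  rw [e, h, GeOpsx337.coe_mpG, ← mp_dd, z1_fM, ← mp_dd, z2_fM, dd_smul_left, dd_smul_left,
    map_smul, map_smul, map_smul, map_smul, map_smul]
  simp only [smul_eq_mul]
  ring

theorem sectorPP_one (L : ℕ) : ZE (sy (0, 0) fun _ => xc) (1 : Ge (VI (HE (ZMod (L + 1))))) = 0 := by
  have h := sectorPP L (1 : Ge (VI (HE ℤ)))
  rw [map_one] at h
  rw [h]
  simp

theorem PP_tendsto (X : Ge (VI (HE ℤ))) :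
    Tendsto (fun L : ℕ => |ZE (sy (0, 0) fun _ => xc) (GeOpsx337.mpG (fM (L + 1)) X)|
      / Zs (1, 1) L) atTop (𝓝 0) := by
  have hK := fun L => (TorSecx599.ker2_PP (L + 1)).banti
  have ht := EE_cF_tendsto (fun L => -(TorSecx599.BP (L + 1)))
    (fun L => by rw [Matrix.transpose_neg, hK L]) BP_tendsto
    (dd ze2 (dd ze1 (X : Gr (VI (HE ℤ)))))
  have h1 : Tendsto (fun L : ℕ => (1 : ℝ) / ((L + 1 : ℕ) : ℝ)) atTop (𝓝 0) := by
    have := tendsto_one_div_add_atTop_nhds_zero_nat (𝕜 := ℝ)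
    refine this.congr fun L => ?_
    push_cast; rfl
  have h2 := (h1.const_mul (2 / xc)).mul ht.abs
  simp only [mul_zero, zero_mul] at h2
  refine squeeze_zero (fun L => by
    have := Zs_pos (1, 1) (by decide) L
    positivity) (fun L => ?_) h2
  rw [sectorPP]
  have hz := Zs_pos (1, 1) (by decide) L
  have hP : |TorSecx599.ZP (L + 1)| ≤ 2 / xc * ((L + 1 : ℕ) : ℝ) * Zs (1, 1) L :=
    TorBrx599.ZP_le' (L + 1)
  have hM : (0 : ℝ) < ((L + 1 : ℕ) : ℝ) := by positivity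
  rw [div_le_iff₀ hz, abs_mul, abs_mul, abs_mul, abs_of_pos (by positivity : (0:ℝ) < 1 / ((L + 1 : ℕ) : ℝ))]
  have hE := abs_nonneg (EE (TorBrx599.cF (L + 1) (-(TorSecx599.BP (L + 1))))
          (mp (fM (L + 1)) (dd ze2 (dd ze1 (X : Gr (VI (HE ℤ)))))))
  calc |TorSecx599.ZP (L + 1)| * (1 / ((L + 1 : ℕ) : ℝ) * (1 / ((L + 1 : ℕ) : ℝ)) *
        |EE (TorBrx599.cF (L + 1) (-(TorSecx599.BP (L + 1))))
          (mp (fM (L + 1)) (dd ze2 (dd ze1 (X : Gr (VI (HE ℤ))))))|)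
      ≤ (2 / xc * ((L + 1 : ℕ) : ℝ) * Zs (1, 1) L) * (1 / ((L + 1 : ℕ) : ℝ) * (1 / ((L + 1 : ℕ) : ℝ)) *
        |EE (TorBrx599.cF (L + 1) (-(TorSecx599.BP (L + 1))))
          (mp (fM (L + 1)) (dd ze2 (dd ze1 (X : Gr (VI (HE ℤ))))))|) := by gcongr
    _ = _ := by field_simp

/-- **the critical torus bond correlations converge** -/
theorem torBonds_tendsto {J : ℝ} (hJ : J ≠ 0) (R : ℕ) (V : Finset (ℤ × ℤ) → ℝ)
    (S : Finset ((ℤ × ℤ) × Fin 2)) :
    Tendsto (fun L : ℕ => torBonds L J 0 R V (criticalBeta J) S) atTop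
      (𝓝 (EE Cpl ((XS S : Ge (VI (HE ℤ))) : Gr (VI (HE ℤ))))) := by
  set X : Gr (VI (HE ℤ)) := ((XS S : Ge (VI (HE ℤ))) : Gr (VI (HE ℤ))) with hX
  set E : Fin 2 × Fin 2 → ℕ → ℝ := fun s L =>
    EE (TorBrx599.cF (L + 1) (Bs s L)) (mp (fM (L + 1)) X) with hE
  have hEt : ∀ s : Fin 2 × Fin 2, s ≠ (0, 0) → Tendsto (E s) atTop (𝓝 (EE Cpl X)) := fun s hs =>
    EE_cF_tendsto (Bs s) (Bs_anti s) (Bs_tendsto s hs) X
  have hr := ratio_tendsto
    (fun L => ZE (sy (0, 0) fun _ => xc) (GeOpsx337.mpG (fM (L + 1)) (XS S)))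
    (Zs (0, 1)) (Zs (1, 0)) (Zs (1, 1)) (E (0, 1)) (E (1, 0)) (E (1, 1)) (EE Cpl X)
    (Zs_pos _ (by decide)) (Zs_pos _ (by decide)) (Zs_pos _ (by decide))
    (hEt _ (by decide)) (hEt _ (by decide)) (hEt _ (by decide)) (PP_tendsto (XS S))
  refine hr.congr' ?_
  filter_upwards [eventually_ge_atTop 63, ev_Near S] with L hL hN
  rw [torBonds_shift L J 0 R V _ S (ce (L + 1))]
  rw [torusExpect_crit (by omega) hJ R V _
    (J4RRx653.ep (fs (S.image (emE (L + 1))))) (fun σ => by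
      unfold evT
      rw [TH_fs, prod_image (fun e he e' he' h => emE_injOn hL hN he he' h)]
      rfl)]
  have hF : Z4 (J4RRx653.ep (fs (S.image (emE (L + 1))))) =
      ZE (sy (0, 0) fun _ => xc) (GeOpsx337.mpG (fM (L + 1)) (XS S))
      + Zs (0, 1) L * E (0, 1) L + Zs (1, 0) L * E (1, 0) L + Zs (1, 1) L * E (1, 1) L := by
    unfold Z4
    simp only [THG_near hL hN]
    rw [Fintype.sum_prod_type, Fin.sum_univ_two, Fin.sum_univ_two, Fin.sum_univ_two,
      sector (0, 1) (by decide), sector (1, 0) (by decide), sector (1, 1) (by decide)]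
    ring
  have h1 : Z4 (1 : RR (Ed (L + 1))) = Zs (0, 1) L + Zs (1, 0) L + Zs (1, 1) L := by
    unfold Z4 THG
    simp only [J4RRx653.TH_one]
    rw [Fintype.sum_prod_type, Fin.sum_univ_two, Fin.sum_univ_two, Fin.sum_univ_two, sectorPP_one]
    unfold Zs sy
    ring
  rw [hF, h1]

/-! ### the value for one bond -/

theorem pp_zero : Spx583.pp 0 0 = 0 := Pkx583.pk_zero

theorem pp_10 : Spx583.pp 1 0 = 1 / 4 := by
  have h := Pkx583.pk_lap 0 0
  simp only [zero_add, zero_sub, and_self, if_true] at h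
  have h1 : Spx583.pp (-1) 0 = Spx583.pp 1 0 := Spx583.pp_neg1 1 0
  have h2 : Spx583.pp 0 1 = Spx583.pp 1 0 := Spx583.pp_comm 0 1
  have h3 : Spx583.pp 0 (-1) = Spx583.pp 0 1 := Spx583.pp_neg2 0 1
  have h4 := pp_zero
  unfold Spx583.pp at *
  linarith

theorem pp_m10 : Spx583.pp (-1) 0 = 1 / 4 := by rw [Spx583.pp_neg1, pp_10]
theorem pp_01 : Spx583.pp 0 1 = 1 / 4 := by rw [Spx583.pp_comm, pp_10]
theorem pp_0m1 : Spx583.pp 0 (-1) = 1 / 4 := by rw [Spx583.pp_neg2, pp_01]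

theorem val_lin (x : ℝ) (hx : x ^ 2 + 2 * x = 1) (hx0 : 0 < x) :
    1 - 2 * x * (1 / (2 * x ^ 2) * ((1 - 3 * x ^ 2) / 4)) = (1 + x) / 2 := by
  field_simp
  nlinarith [hx, mul_pos hx0 hx0]

theorem Spl_h : Spx583.Spl (pe ((0, 0), 0) : HE ℤ) (qe ((0, 0), 0)) = 1 / (2 * xc ^ 2) * ((1 - 3 * xc ^ 2) / 4) := by
  unfold Spx583.Spl Spx583.SP
  simp only [pe_zero, qe_zero]
  have : Spx583.xc = xc := rfl
  rw [this]
  simp [Spx583.TT, pp_zero, pp_10, pp_m10, pp_01, pp_0m1]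
  left
  ring

theorem Spl_v : Spx583.Spl (pe ((0, 0), 1) : HE ℤ) (qe ((0, 0), 1)) = 1 / (2 * xc ^ 2) * ((1 - 3 * xc ^ 2) / 4) := by
  unfold Spx583.Spl Spx583.SP
  simp only [pe_one, qe_one]
  have : Spx583.xc = xc := rfl
  rw [this]
  simp [Spx583.TT, pp_zero, pp_10, pp_m10, pp_01, pp_0m1]
  left
  ring

theorem EE_XS_single (e : EG ℤ) : EE Cpl ((XS {e} : Ge (VI (HE ℤ))) : Gr (VI (HE ℤ)))
    = 1 - 2 * xc * Spx583.Spl (pe e) (qe e) := by
  unfold XS
  rw [prod_singleton, Ge.coe_sub, Ge.coe_one, Ge.coe_smul, coe_bb, map_sub, map_smul, EE_one]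
  unfold ph
  rw [EE_fi_fi, Cpl_single, smul_eq_mul]

theorem EE_one_bond (j : Fin 2) :
    EE Cpl ((XS {((0, 0), j)} : Ge (VI (HE ℤ))) : Gr (VI (HE ℤ))) = Redx541.e0 := by
  have hx : xc ^ 2 + 2 * xc = 1 := Spx583.xc_rel
  have hx0 : 0 < xc := Spx583.xc_pos
  have hv := val_lin xc hx hx0
  have he : (1 + xc) / 2 = Redx541.e0 := by
    unfold Latx683.xc Redx541.e0; ring
  rw [EE_XS_single]
  have hj : j = 0 ∨ j = 1 := by omega
  rcases hj with rfl | rfl
  · rw [Spl_h, hv, he]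
  · rw [Spl_v, hv, he]

/-- **the torus clause at `lam = 0`** -/
theorem UTb_proof : Red2x541.UTb := by
  refine ⟨fun S => ⟨_, torBonds_tendsto one_ne_zero 0 (fun _ => 0) S⟩, fun j => ?_⟩
  have := torBonds_tendsto (J := 1) one_ne_zero 0 (fun _ => 0) {((0, 0), j)}
  rwa [EE_one_bond] at this

end Crest.Agent.R165.TorusUTx922
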