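import Mathlib
import Crest.Agent.R165.TorusUT_922
import Crest.Agent.R165.SpE_583

/-!
# Row 165 (S0250), PL1: `TorPl` of helper583 and its consequences

`torPl : TorPl` (torus bond sets converge to the plane Gaussian values).
-/

set_option autoImplicit false
set_option linter.all false

noncomputable section

open Filter Topology
open Crest.ProbabilityR.IsingModel

namespace Crest.Agent.R165.TorPlx922

open Crest.Agent.R165.Spx583

/-- **torus bond sets converge to their plane Gaussian values** -/
theorem torPl : TorPl := fun S =>
  TorusUTx922.torBonds_tendsto one_ne_zero 0 (fun _ => 0) S

end Crest.Agent.R165.TorPlx922
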