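import Crest.Agent.R165.TorRest_63
import Crest.Agent.R165.TorLast_723
import Crest.Agent.R165.TorChart_723
import Crest.Agent.R165.CovT_359
import Crest.Agent.R165.PPc_63

/-!
# Row 165 (S0250): the torus sectors after the slices (helper63)

* `wT_eq_wTor`, `wT359` : one background under its three names
* `gapS`        : the gap of the sectors `s ≠ (0, 0)` in the form used by `restC_gram`
* `ZE_sector_split` : `ZE` in the sectors `s ≠ (0, 0)` after the slices `j < J`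
* `pp_last_step`: the last step in the sector with two zero modes
* `pp_flow`     : exact identity of the flow in this sector
* `pp_flow_last`, `pp_flow_last'` : the bound, absolute and relative to the antiperiodic sector
-/

set_option autoImplicit false
set_option linter.unusedSectionVars false

noncomputable section

namespace Crest.Agent.R165.TorRest2x63

open Finset
open scoped ENNReal
open Crest.Agent.R165.Packx915 Crest.Agent.R165.NSumx915 Crest.Agent.R165.Bridgex915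
open Crest.Agent.R165.Gr0x606 Crest.Agent.R165.Gr1x606 Crest.Agent.R165.PNormx417
  Crest.Agent.R165.GDefx387 Crest.Agent.R165.FRDAbsx439 Crest.Agent.R165.FRDPolyx439
  Crest.Agent.R165.FRDInfx439 Crest.Agent.R165.FRDLatx439 Crest.Agent.R165.FRDRestx439
  Crest.Agent.R165.KStepx892 Crest.Agent.R165.KFlowx337 Crest.Agent.R165.GeOpsx337
  Crest.Agent.R165.FinBx900 Crest.Agent.R165.ExpGx337
open Crest.Agent.R165.Latx683 (HE BW Aop Fld IsCov covS)
open Crest.Agent.R165.TorDetx599 (hA wS)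
open Crest.Agent.R165.TorSecx599 (BP ZP u1 u2 ker2_PP)
open Crest.Agent.R165.TorusJ1x922 (ZE sec)
open Crest.Agent.R165.TorusCombx922 (Ed)
open Crest.Agent.R165.TorBrx599 Crest.Agent.R165.TorGapBx63 Crest.Agent.R165.TorRestx63

variable {M : ℕ} [NeZero M]

/-! ### names -/

/-- seam sign -/
def sgn (i : Fin 2) : ℝ := if i = 0 then 1 else -1

theorem sgn_sq (i : Fin 2) : sgn i ^ 2 = 1 := by unfold sgn; split_ifs <;> norm_num

theorem sgn_or {s : Fin 2 × Fin 2} (hs : s ≠ (0, 0)) : sgn s.2 = -1 ∨ sgn s.1 = -1 := by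
  by_cases h2 : s.2 = 0
  · right
    have h1 : s.1 ≠ 0 := fun h => hs (Prod.ext h h2)
    simp [sgn, h1]
  · left; simp [sgn, h2]

theorem wT_eq_wTor (a b : ℝ) : wT M a b = TorChartx723.wTor M a b := by
  funext z j
  simp only [wT, wS, TorChartx723.wTor]
  have hj : j = 0 ∨ j = 1 := by omega
  rcases hj with rfl | rfl
  · simp [Tr1x40.xc, Latx683.xc, mul_comm]
  · simp [Tr1x40.xc, Latx683.xc, mul_comm]

theorem wT359 (s : Fin 2 × Fin 2) : Covx359.wT M s = wT M (sgn s.2) (sgn s.1) := by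
  have := TorBrx599.sec_eq M s Latx683.xc
  exact this

/-! ### nonsingular sectors -/

/-- the gap of the sectors `s ≠ (0, 0)` -/
theorem gapS {s : Fin 2 × Fin 2} (hs : s ≠ (0, 0)) :
    ABtw (preF (HE (ZMod M))) (AopF (Covx359.wT M s)) (mg M ^ 2) 16 := by
  rw [wT359]
  exact abtw (sgn_sq _) (sgn_sq _) (sgn_or hs)

theorem fin_col (S : HE (ZMod M) → HE (ZMod M) → ℝ) (h' : HE (ZMod M)) : {h | S h h' ≠ 0}.Finite :=
  Set.toFinite _

/-- the nonsingular sectors after the slices -/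
theorem ZE_sector_split {N K : ℕ} (D : FRD 16 N K) {s : Fin 2 × Fin 2}
    {S : HE (ZMod M) → HE (ZMod M) → ℝ} (hS : IsCov (Covx359.wT M s) S) (J : ℕ)
    (X : Ge (VI (HE (ZMod M)))) :
    ZE (fun e : Ed M => sec s e * TorSecx599.xc) X =
      ZE (fun e : Ed M => sec s e * TorSecx599.xc) 1 *
        EE (restC D hS.skew hS.inv (fin_col S) J)
          (conv (SopC D (Covx359.wT M s) 0 J) (X : Gr (Fld (ZMod M)))) := by
  have h := Covx359.ZE_isCov M hS X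
  rw [Covx359.un_wT] at h
  rw [h]
  congr 1
  rw [covS_eq D hS.skew hS.inv (fin_col S) J, add_comm, ← EE_conv]

/-! ### the sector with two zero modes -/

/-- the common local weight -/
def wI (w : BW (ZMod M)) (a : ℝ) (r : ℕ) (l : Fld (ZMod M)) : ℝ≥0∞ := ⨅ x, wt w a r x l

theorem wI_le (w : BW (ZMod M)) (a : ℝ) (r : ℕ) (x : ZMod M × ZMod M) (l : Fld (ZMod M)) :
    wI w a r l ≤ wt w a r x l := iInf_le _ x

theorem gr4_le {N K : ℕ} (D : FRD 16 N K) (hN : MM ≤ N) {J r : ℕ} (hr1 : 1 ≤ r) (hr : r ≤ 2 ^ J)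
    {a : ℝ} (ha : 0 < a) (hq : 28 * √(D.C / (mg M * r)) ≤ a) (l : Fld (ZMod M)) :
    4 * gr D (wT M 1 1) (mg M) J l ≤ wI (wT M 1 1) a r l := by
  have hm := mg_pos (M := M)
  refine le_iInf fun x => ?_
  have h := gr_le_wt D hN hm (abtw0 (M := M) (one_pow 2) (one_pow 2)) J r hr1 hr ha x l
  have h1 : 7 * √(D.C / (mg M * r)) / a ≤ 1 / 4 := by
    rw [div_le_iff₀ ha]; linarith
  calc 4 * gr D (wT M 1 1) (mg M) J l
      ≤ 4 * (ENNReal.ofReal (7 * √(D.C / (mg M * r)) / a) * wt (wT M 1 1) a r x l) := by gcongr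
    _ ≤ 4 * (ENNReal.ofReal (1 / 4) * wt (wT M 1 1) a r x l) := by gcongr
    _ = wt (wT M 1 1) a r x l := by
        rw [← mul_assoc]
        have h4 : (4 : ℝ≥0∞) = ENNReal.ofReal 4 := by norm_num
        rw [h4, ← ENNReal.ofReal_mul (by norm_num)]
        norm_num

theorem summable_tor (φ : HE (ZMod M) → ℝ) : Summable fun h => φ h ^ 2 :=
  summable_of_hasFiniteSupport (Set.toFinite _)

theorem l2_tor (φ : HE (ZMod M) → ℝ) : l2 φ = √(∑ h, φ h ^ 2) := by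
  unfold l2; rw [tsum_fintype]

theorem l2_u1 : l2 (u1 M) ≤ 1 := by
  have h := (ker2_PP M).n1
  rw [l2_tor]
  have e : ∑ h, u1 M h ^ 2 = 1 := by
    rw [← h]; exact Finset.sum_congr rfl fun h _ => by ring
  rw [e, Real.sqrt_one]

theorem l2_u2 : l2 (u2 M) ≤ 1 := by
  have h := (ker2_PP M).n2
  rw [l2_tor]
  have e : ∑ h, u2 M h ^ 2 = 1 := by
    rw [← h]; exact Finset.sum_congr rfl fun h _ => by ring
  rw [e, Real.sqrt_one]

theorem A_u1 : Aop (wT M 1 1) (u1 M) = 0 := by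
  rw [Aop_eq_hA]; exact (ker2_PP M).a1

theorem A_u2 : Aop (wT M 1 1) (u2 M) = 0 := by
  rw [Aop_eq_hA]; exact (ker2_PP M).a2

theorem z1_eq : z1 M = PPcx63.ev (u1 M) := by
  refine Finsupp.lhom_ext fun h c => ?_
  have e1 : (Finsupp.single h c : Fld (ZMod M)) = c • Finsupp.single h 1 := by
    rw [Finsupp.smul_single, smul_eq_mul, mul_one]
  rw [e1, map_smul, map_smul, z1_single, PPcx63.ev_apply]
  simp [pair]

theorem z2_eq : z2 M = PPcx63.ev (u2 M) := by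
  refine Finsupp.lhom_ext fun h c => ?_
  have e1 : (Finsupp.single h c : Fld (ZMod M)) = c • Finsupp.single h 1 := by
    rw [Finsupp.smul_single, smul_eq_mul, mul_one]
  rw [e1, map_smul, map_smul, z2_single, PPcx63.ev_apply]
  simp [pair]

theorem ofReal_two_inv : ENNReal.ofReal (2⁻¹ : ℝ) = 2⁻¹ := by
  rw [ENNReal.ofReal_inv_of_pos (by norm_num)]; norm_num

/-- a normalised null vector against the common local weight -/
theorem ev_wI {a : ℝ} (ha : 0 < a) {r : ℕ} (hr : 0 < r) {φ : HE (ZMod M) → ℝ}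
    (h : Aop (wT M 1 1) φ = 0) (h1 : l2 φ ≤ 1) (l : Fld (ZMod M)) :
    ‖PPcx63.ev φ l‖ₑ ≤ ENNReal.ofReal (a * √r)⁻¹ * wI (wT M 1 1) a r l := by
  have hr' : (0 : ℝ) < √r := Real.sqrt_pos.2 (by exact_mod_cast hr)
  have hpos : 0 < (a * √r)⁻¹ := inv_pos.2 (mul_pos ha hr')
  have hne : ENNReal.ofReal (a * √r)⁻¹ ≠ 0 := by
    rw [Ne, ENNReal.ofReal_eq_zero, not_le]; exact hpos
  unfold wI
  rw [ENNReal.mul_iInf_of_ne hne ENNReal.ofReal_ne_top, PPcx63.enorm_ev]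
  exact le_iInf fun x => PPcx63.pair_null_le _ ha hr x h (summable_tor φ) h1 l

/-- **the last step in the doubly periodic sector**: gap `mg M`, scale `r ≤ 2 ^ J`,
amplitude `a ≥ 28 √(C/(mg M * r))` -/
theorem pp_last_step {N K' : ℕ} (D : FRD 16 N K') (hN : MM ≤ N) {J r : ℕ} (hr1 : 1 ≤ r)
    (hr : r ≤ 2 ^ J) {a : ℝ} (ha : 0 < a) (hq : 28 * √(D.C / (mg M * r)) ≤ a)
    {Γ : ℝ≥0∞} (hΓ : 1 ≤ Γ) {s n : ℕ}
    (hcov : Cov (fd : ZMod M × ZMod M → ZMod M × ZMod M → ℕ) s r n) (f₀ : ZMod M × ZMod M)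
    {Vol : Finset (ZMod M × ZMod M)} (hVol : ∀ f ∈ Vol, fd f₀ f ≤ s)
    (near : ZMod M × ZMod M → ZMod M × ZMod M → Prop)
    (K : Finset (ZMod M × ZMod M) → Ge (Fld (ZMod M))) {b : ℝ} (hb : 0 ≤ b)
    (hK : NK (wT M 1 1) a r Γ (fun _ => True) (fun U => (K U : Gr (Fld (ZMod M)))) ≤
      ENNReal.ofReal b) (Z' : ℝ) :
    |Z' * EE (restPP D M J) (dd (z2 M) (dd (z1 M)
      ((ZZ near Vol K : Ge (Fld (ZMod M))) : Gr (Fld (ZMod M)))))| ≤
      |Z'| * (4 / (a ^ 2 * r)) * (Real.exp (n * b) - 1) := by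
  set w2 : Fld (ZMod M) → ℝ≥0∞ := wI (wT M 1 1) a r with hw2
  set w1 : Fld (ZMod M) → ℝ≥0∞ := fun l => ENNReal.ofReal 2⁻¹ * w2 l with hw1
  have hr' : (0 : ℝ) < √r := Real.sqrt_pos.2 (by exact_mod_cast hr1)
  have ht : 0 ≤ 2 * (a * √r)⁻¹ := by positivity
  have htwo : (2 : ℝ≥0∞) = ENNReal.ofReal 2 := by norm_num
  have h1 : ∀ l, 2 * gr D (wT M 1 1) (mg M) J l ≤ w1 l := by
    intro l
    have h := gr4_le (M := M) D hN hr1 hr ha hq l
    calc 2 * gr D (wT M 1 1) (mg M) J l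
        = ENNReal.ofReal 2⁻¹ * (4 * gr D (wT M 1 1) (mg M) J l) := by
          rw [← mul_assoc]
          congr 1
          have h4 : (4 : ℝ≥0∞) = ENNReal.ofReal 4 := by norm_num
          rw [h4, ← ENNReal.ofReal_mul (by norm_num), htwo]
          norm_num
      _ ≤ ENNReal.ofReal 2⁻¹ * w2 l := by gcongr
  have h2 : ∀ l, 2 * w1 l ≤ w2 l := by
    intro l
    rw [hw1]
    show 2 * (ENNReal.ofReal 2⁻¹ * w2 l) ≤ w2 l
    rw [← mul_assoc, htwo, ← ENNReal.ofReal_mul (by norm_num)]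
    norm_num
  have hu : ∀ φ : HE (ZMod M) → ℝ, Aop (wT M 1 1) φ = 0 → l2 φ ≤ 1 → ∀ l,
      ‖PPcx63.ev φ l‖ₑ ≤ ENNReal.ofReal (2 * (a * √r)⁻¹) * w1 l := by
    intro φ h0 hn l
    refine (ev_wI ha hr1 h0 hn l).trans (le_of_eq ?_)
    rw [hw1]
    show _ = ENNReal.ofReal (2 * (a * √r)⁻¹) * (ENNReal.ofReal 2⁻¹ * w2 l)
    rw [← mul_assoc, ← ENNReal.ofReal_mul ht]
    congr 2
    ring
  have hu2 : ∀ φ : HE (ZMod M) → ℝ, Aop (wT M 1 1) φ = 0 → l2 φ ≤ 1 → ∀ l,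
      ‖PPcx63.ev φ l‖ₑ ≤ ENNReal.ofReal (2 * (a * √r)⁻¹) * w2 l := by
    intro φ h0 hn l
    refine (ev_wI ha hr1 h0 hn l).trans ?_
    gcongr
    have : 0 < (a * √r)⁻¹ := by positivity
    linarith
  have hsum : ∑ U ∈ nes Vol, pnorm w2 (K U : Gr (Fld (ZMod M))) ≤ ENNReal.ofReal (n * b) := by
    refine (TorLastx723.sum_le_NK (w := wT M 1 1) hΓ hcov f₀ hVol
      (fun x l => wI_le _ a r x l) fun U => (K U : Gr (Fld (ZMod M)))).trans ?_
    rw [ENNReal.ofReal_mul (by positivity), ENNReal.ofReal_natCast]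
    exact mul_le_mul_right hK _
  have hF : pnorm w2 (((ZZ near Vol K : Ge (Fld (ZMod M))) : Gr (Fld (ZMod M))) -
      algebraMap ℝ _ 1) ≤ ENNReal.ofReal (Real.exp (n * b) - 1) := by
    have h3 := zz_sub_one_le (rn_pnorm w2) near Vol K (by positivity) hsum
    rw [map_one]
    exact h3
  have hη : 0 ≤ Real.exp (n * b) - 1 := by
    have : (0 : ℝ) ≤ n * b := by positivity
    have := Real.one_le_exp this
    linarith
  have h4 := PPbx63.pp_last (restPP_gram (M := M) D J) h1 h2 (PPcx63.ev (u2 M)) (PPcx63.ev (u1 M)) ht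
    (hu _ A_u2 l2_u2) (hu2 _ A_u1 l2_u1)
    ((ZZ near Vol K : Ge (Fld (ZMod M))) : Gr (Fld (ZMod M))) 1 (Z' := Z') hη hF
  rw [z1_eq, z2_eq]
  refine h4.trans (le_of_eq ?_)
  have h5 : √(r : ℝ) ^ 2 = r := Real.sq_sqrt (Nat.cast_nonneg r)
  have e : (2 * (a * √r)⁻¹) ^ 2 = 4 / (a ^ 2 * r) := by
    rw [mul_pow, inv_pow, mul_pow, h5]; ring
  rw [e]

/-! ### with the flow -/

/-- elements without fields are constants -/
theorem gr_bot {V : Type*} [AddCommGroup V] [Module ℝ V] {a : Gr V}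
    (ha : a ∈ GrLocx337.gr (⊥ : Submodule ℝ V)) : a = algebraMap ℝ (Gr V) (ct a) := by
  have h : GrLocx337.gr (⊥ : Submodule ℝ V) ≤ ⊥ := by
    unfold GrLocx337.gr
    refine Algebra.adjoin_le ?_
    rintro _ ⟨x, hx, rfl⟩
    rw [SetLike.mem_coe, Submodule.mem_bot] at hx
    rw [hx, fi_zero]
    exact zero_mem _
  obtain ⟨c, hc⟩ := Algebra.mem_bot.1 (h ha)
  rw [← hc, AlgHom.commutes]
  rfl

/-- even elements without fields are constants -/
theorem ge_bot {V : Type*} [AddCommGroup V] [Module ℝ V] {a : Ge V}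
    (ha : a ∈ grG (⊥ : Submodule ℝ V)) : a = algebraMap ℝ (Ge V) (ctG a) := by
  refine Subtype.ext ?_
  exact gr_bot ha

/-- constants and derivations -/
theorem dd_dd_const {V : Type*} [AddCommGroup V] [Module ℝ V] (u v : Module.Dual ℝ V) (c : ℝ)
    (X : Gr V) : dd u (dd v (algebraMap ℝ (Gr V) c * X)) = c • dd u (dd v X) := by
  rw [← Algebra.smul_def, map_smul, map_smul]

/-- **the doubly periodic sector and the flow**: exact identity -/
theorem pp_flow {N K' : ℕ} (D : FRD 16 N K')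
    (Sy : Sys (ZMod M × ZMod M) (Fld (ZMod M))) (hD : Sy.OK ⊥)
    {Vol : Finset (ZMod M × ZMod M)} (h0 : ∀ U, ¬ U ⊆ Vol → Sy.K0 U = 0) (k : ℕ) {J : ℕ}
    (hSl : ∑ j ∈ Finset.range k, Sy.S j = SopC D (wT M 1 1) 0 J) :
    ZE (fun e : Ed M => sec (0, 0) e * TorSecx599.xc) (ZZ (Sy.near 0) Vol Sy.K0) =
      Real.exp (ctG (Sy.E Vol k)) * (ZP M * EE (restPP D M J) (dd (z2 M) (dd (z1 M)
        ((ZZ (Sy.near k) Vol (Sy.K k) : Ge (Fld (ZMod M))) : Gr (Fld (ZMod M)))))) := by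
  have h := Sys.total hD h0 k
  rw [hSl, ge_bot (Sys.E_mem hD Vol k), gexp_algebraMap] at h
  have h2 := congrArg (fun a : Ge (Fld (ZMod M)) => (a : Gr (Fld (ZMod M)))) h
  have h3 : conv (SopC D (wT M 1 1) 0 J)
      ((ZZ (Sy.near 0) Vol Sy.K0 : Ge (Fld (ZMod M))) : Gr (Fld (ZMod M))) =
      algebraMap ℝ (Gr (Fld (ZMod M))) (Real.exp (ctG (Sy.E Vol k))) *
        ((ZZ (Sy.near k) Vol (Sy.K k) : Ge (Fld (ZMod M))) : Gr (Fld (ZMod M))) := h2
  rw [ZE_PP_split D J]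
  rw [h3, dd_dd_const, map_smul, smul_eq_mul]
  ring

/-- **the doubly periodic sector and the flow**: bound -/
theorem pp_flow_last {N K' : ℕ} (D : FRD 16 N K') (hN : MM ≤ N)
    (Sy : Sys (ZMod M × ZMod M) (Fld (ZMod M))) (hD : Sy.OK ⊥)
    {Vol : Finset (ZMod M × ZMod M)} (h0 : ∀ U, ¬ U ⊆ Vol → Sy.K0 U = 0) (k : ℕ) {J r : ℕ}
    (hSl : ∑ j ∈ Finset.range k, Sy.S j = SopC D (wT M 1 1) 0 J) (hr1 : 1 ≤ r)
    (hr : r ≤ 2 ^ J) {a : ℝ} (ha : 0 < a) (hq : 28 * √(D.C / (mg M * r)) ≤ a)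
    {Γ : ℝ≥0∞} (hΓ : 1 ≤ Γ) {s n : ℕ}
    (hcov : Cov (fd : ZMod M × ZMod M → ZMod M × ZMod M → ℕ) s r n) (f₀ : ZMod M × ZMod M)
    (hVol : ∀ f ∈ Vol, fd f₀ f ≤ s) {b : ℝ} (hb : 0 ≤ b)
    (hK : NK (wT M 1 1) a r Γ (fun _ => True) (fun U => (Sy.K k U : Gr (Fld (ZMod M)))) ≤
      ENNReal.ofReal b) :
    |ZE (fun e : Ed M => sec (0, 0) e * TorSecx599.xc) (ZZ (Sy.near 0) Vol Sy.K0)| ≤
      Real.exp (ctG (Sy.E Vol k)) * (|ZP M| * (4 / (a ^ 2 * r)) * (Real.exp (n * b) - 1)) := by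
  rw [pp_flow D Sy hD h0 k hSl, abs_mul, abs_of_pos (Real.exp_pos _)]
  exact mul_le_mul_of_nonneg_left
    (pp_last_step D hN hr1 hr ha hq hΓ hcov f₀ hVol _ _ hb hK (ZP M)) (Real.exp_pos _).le

/-- the same relative to the doubly antiperiodic sector without perturbation -/
theorem pp_flow_last' {N K' : ℕ} (D : FRD 16 N K') (hN : MM ≤ N)
    (Sy : Sys (ZMod M × ZMod M) (Fld (ZMod M))) (hD : Sy.OK ⊥)
    {Vol : Finset (ZMod M × ZMod M)} (h0 : ∀ U, ¬ U ⊆ Vol → Sy.K0 U = 0) (k : ℕ) {J r : ℕ}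
    (hSl : ∑ j ∈ Finset.range k, Sy.S j = SopC D (wT M 1 1) 0 J) (hr1 : 1 ≤ r)
    (hr : r ≤ 2 ^ J) {a : ℝ} (ha : 0 < a) (hq : 28 * √(D.C / (mg M * r)) ≤ a)
    {Γ : ℝ≥0∞} (hΓ : 1 ≤ Γ) {s n : ℕ}
    (hcov : Cov (fd : ZMod M × ZMod M → ZMod M × ZMod M → ℕ) s r n) (f₀ : ZMod M × ZMod M)
    (hVol : ∀ f ∈ Vol, fd f₀ f ≤ s) {b : ℝ} (hb : 0 ≤ b)
    (hK : NK (wT M 1 1) a r Γ (fun _ => True) (fun U => (Sy.K k U : Gr (Fld (ZMod M)))) ≤
      ENNReal.ofReal b) :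
    |ZE (fun e : Ed M => sec (0, 0) e * TorSecx599.xc) (ZZ (Sy.near 0) Vol Sy.K0)| ≤
      Real.exp (ctG (Sy.E Vol k)) * (ZE (fun e : Ed M => sec (1, 1) e * TorSecx599.xc) 1 *
        (8 / TorSecx599.xc * (M / r) / a ^ 2) * (Real.exp (n * b) - 1)) := by
  refine (pp_flow_last D hN Sy hD h0 k hSl hr1 hr ha hq hΓ hcov f₀ hVol hb hK).trans ?_
  refine mul_le_mul_of_nonneg_left ?_ (Real.exp_pos _).le
  have hη : 0 ≤ Real.exp (n * b) - 1 := by
    have : (0 : ℝ) ≤ n * b := by positivity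
    have := Real.one_le_exp this
    linarith
  refine mul_le_mul_of_nonneg_right ?_ hη
  have hr' : (0 : ℝ) < r := by exact_mod_cast hr1
  calc |ZP M| * (4 / (a ^ 2 * r))
      ≤ ((2 / TorSecx599.xc) * M * ZE (fun e : Ed M => sec (1, 1) e * TorSecx599.xc) 1) *
          (4 / (a ^ 2 * r)) := mul_le_mul_of_nonneg_right (ZP_le' M) (by positivity)
    _ = _ := by
        field_simp
        ring

end Crest.Agent.R165.TorRest2x63
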