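import Crest.Agent.R165.TorRest2_63

/-!
# Row 165 (S0250): the doubly periodic sector in the form of `TorFin_599` (helper63)

* `pp_p` : `EE (cF (-BP)) (dd z2 (dd z1 ZZ₀)) = exp E * p`, `|p| ≤ 4 / (a² r) (exp (n b) - 1)`
-/

set_option autoImplicit false
set_option linter.unusedSectionVars false

noncomputable section

namespace Crest.Agent.R165.TorRest3x63

open Finset
open scoped ENNReal
open Crest.Agent.R165.Packx915 Crest.Agent.R165.NSumx915 Crest.Agent.R165.Bridgex915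
open Crest.Agent.R165.Gr0x606 Crest.Agent.R165.Gr1x606 Crest.Agent.R165.PNormx417
  Crest.Agent.R165.GDefx387 Crest.Agent.R165.FRDAbsx439 Crest.Agent.R165.FRDPolyx439
  Crest.Agent.R165.FRDInfx439 Crest.Agent.R165.FRDLatx439 Crest.Agent.R165.FRDRestx439
  Crest.Agent.R165.KStepx892 Crest.Agent.R165.KFlowx337 Crest.Agent.R165.GeOpsx337
  Crest.Agent.R165.FinBx900 Crest.Agent.R165.ExpGx337
open Crest.Agent.R165.Latx683 (HE BW Aop Fld IsCov covS)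
open Crest.Agent.R165.TorSecx599 (BP ZP u1 u2 ker2_PP)
open Crest.Agent.R165.TorBrx599 Crest.Agent.R165.TorGapBx63 Crest.Agent.R165.TorRestx63
  Crest.Agent.R165.TorRest2x63

variable {M : ℕ} [NeZero M]

/-- exact identity -/
theorem pp_p_eq {N K' : ℕ} (D : FRD 16 N K')
    (Sy : Sys (ZMod M × ZMod M) (Fld (ZMod M))) (hD : Sy.OK ⊥)
    {Vol : Finset (ZMod M × ZMod M)} (h0 : ∀ U, ¬ U ⊆ Vol → Sy.K0 U = 0) (k : ℕ) {J : ℕ}
    (hSl : ∑ j ∈ Finset.range k, Sy.S j = SopC D (wT M 1 1) 0 J) :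
    EE (cF M (-(BP M))) (dd (z2 M) (dd (z1 M)
        ((ZZ (Sy.near 0) Vol Sy.K0 : Ge (Fld (ZMod M))) : Gr (Fld (ZMod M))))) =
      Real.exp (ctG (Sy.E Vol k)) * EE (restPP D M J) (dd (z2 M) (dd (z1 M)
        ((ZZ (Sy.near k) Vol (Sy.K k) : Ge (Fld (ZMod M))) : Gr (Fld (ZMod M))))) := by
  have h := Sys.total hD h0 k
  rw [hSl, ge_bot (Sys.E_mem hD Vol k), gexp_algebraMap] at h
  have h2 := congrArg (fun a : Ge (Fld (ZMod M)) => (a : Gr (Fld (ZMod M)))) h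
  have h3 : conv (SopC D (wT M 1 1) 0 J)
      ((ZZ (Sy.near 0) Vol Sy.K0 : Ge (Fld (ZMod M))) : Gr (Fld (ZMod M))) =
      algebraMap ℝ (Gr (Fld (ZMod M))) (Real.exp (ctG (Sy.E Vol k))) *
        ((ZZ (Sy.near k) Vol (Sy.K k) : Ge (Fld (ZMod M))) : Gr (Fld (ZMod M))) := h2
  rw [cF_PP D J, add_comm, ← EE_conv, conv_dd, conv_dd, h3, dd_dd_const, map_smul, smul_eq_mul]

/-- **the doubly periodic sector**, form of `TorFin_599` -/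
theorem pp_p {N K' : ℕ} (D : FRD 16 N K') (hN : MM ≤ N)
    (Sy : Sys (ZMod M × ZMod M) (Fld (ZMod M))) (hD : Sy.OK ⊥)
    {Vol : Finset (ZMod M × ZMod M)} (h0 : ∀ U, ¬ U ⊆ Vol → Sy.K0 U = 0) (k : ℕ) {J r : ℕ}
    (hSl : ∑ j ∈ Finset.range k, Sy.S j = SopC D (wT M 1 1) 0 J) (hr1 : 1 ≤ r)
    (hr : r ≤ 2 ^ J) {a : ℝ} (ha : 0 < a) (hq : 28 * √(D.C / (mg M * r)) ≤ a)
    {Γ : ℝ≥0∞} (hΓ : 1 ≤ Γ) {s n : ℕ}
    (hcov : Cov (fd : ZMod M × ZMod M → ZMod M × ZMod M → ℕ) s r n) (f₀ : ZMod M × ZMod M)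
    (hVol : ∀ f ∈ Vol, fd f₀ f ≤ s) {b : ℝ} (hb : 0 ≤ b)
    (hK : NK (wT M 1 1) a r Γ (fun _ => True) (fun U => (Sy.K k U : Gr (Fld (ZMod M)))) ≤
      ENNReal.ofReal b) :
    ∃ p : ℝ, EE (cF M (-(BP M))) (dd (z2 M) (dd (z1 M)
        ((ZZ (Sy.near 0) Vol Sy.K0 : Ge (Fld (ZMod M))) : Gr (Fld (ZMod M))))) =
      Real.exp (ctG (Sy.E Vol k)) * p ∧ |p| ≤ 4 / (a ^ 2 * r) * (Real.exp (n * b) - 1) := by
  refine ⟨_, pp_p_eq D Sy hD h0 k hSl, ?_⟩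
  have h := pp_last_step D hN hr1 hr ha hq hΓ hcov f₀ hVol (Sy.near k) (Sy.K k) hb hK 1
  rwa [one_mul, abs_one, one_mul] at h

end Crest.Agent.R165.TorRest3x63
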