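import Crest.Agent.R165.TorRest3_63

/-!
# Row 165 (S0250): the rest of the doubly periodic sector, names of 723 and 599 (helper63)

* `gram`   : `Gram (restPP D M J) (gr D (wTor M 1 1) (mg M) J)`
* `gr2_le` : `2 * g ≤ wt (wTor M 1 1) (a / 2) r x` for `28 √(C / (mg M * r)) ≤ a`
* `cF_split` : `cF M (-(BP M)) = restPP D M J + SopC D (wTor M 1 1) 0 J`
* `mgr_le`  : the condition on the amplitude when `M ≤ c r`
-/

set_option autoImplicit false
set_option linter.unusedSectionVars false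

noncomputable section

namespace Crest.Agent.R165.TorRest4x63

open Finset
open scoped ENNReal
open Crest.Agent.R165.Gr0x606 Crest.Agent.R165.Gr1x606 Crest.Agent.R165.PNormx417
  Crest.Agent.R165.GDefx387 Crest.Agent.R165.FRDAbsx439 Crest.Agent.R165.FRDPolyx439
  Crest.Agent.R165.FRDInfx439 Crest.Agent.R165.FRDLatx439 Crest.Agent.R165.FRDRestx439
open Crest.Agent.R165.Latx683 (HE BW Aop Fld)
open Crest.Agent.R165.TorSecx599 (BP ZP)
open Crest.Agent.R165.TorChartx723 (wTor)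
open Crest.Agent.R165.TorBrx599 Crest.Agent.R165.TorGapBx63 Crest.Agent.R165.TorRestx63
  Crest.Agent.R165.TorRest2x63

variable {M : ℕ} [NeZero M]

/-- Gram weight of the rest -/
theorem gram {N K' : ℕ} (D : FRD 16 N K') (J : ℕ) :
    Gram (restPP D M J) (gr D (wTor M 1 1) (mg M) J) := by
  rw [← wT_eq_wTor]; exact restPP_gram D J

/-- the Gram weight against the local weight with half the amplitude -/
theorem gr2_le {N K' : ℕ} (D : FRD 16 N K') (hN : MM ≤ N) {J r : ℕ} (hr1 : 1 ≤ r)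
    (hr : r ≤ 2 ^ J) {a : ℝ} (ha : 0 < a) (hq : 28 * √(D.C / (mg M * r)) ≤ a)
    (x : ZMod M × ZMod M) (l : Fld (ZMod M)) :
    2 * gr D (wTor M 1 1) (mg M) J l ≤ wt (wTor M 1 1) (a / 2) r x l := by
  rw [← wT_eq_wTor]
  have hm := mg_pos (M := M)
  have h := gr_le_wt D hN hm (abtw0 (M := M) (one_pow 2) (one_pow 2)) J r hr1 hr
    (A := a / 2) (by positivity) x l
  have h1 : 7 * √(D.C / (mg M * r)) / (a / 2) ≤ 1 / 2 := by
    rw [div_le_iff₀ (by positivity)]; linarith
  calc 2 * gr D (wT M 1 1) (mg M) J l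
      ≤ 2 * (ENNReal.ofReal (7 * √(D.C / (mg M * r)) / (a / 2)) *
          wt (wT M 1 1) (a / 2) r x l) := by gcongr
    _ ≤ 2 * (ENNReal.ofReal (1 / 2) * wt (wT M 1 1) (a / 2) r x l) := by gcongr
    _ = wt (wT M 1 1) (a / 2) r x l := by
        rw [← mul_assoc]
        have h2 : (2 : ℝ≥0∞) = ENNReal.ofReal 2 := by norm_num
        rw [h2, ← ENNReal.ofReal_mul (by norm_num)]
        norm_num

/-- **decomposition** -/
theorem cF_split {N K' : ℕ} (D : FRD 16 N K') (J : ℕ) :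
    cF M (-(BP M)) = restPP D M J + SopC D (wTor M 1 1) 0 J := by
  rw [← wT_eq_wTor, cF_PP D J, add_comm]

/-- the condition on the amplitude in terms of `M / r` -/
theorem mgr_le {N K' : ℕ} (D : FRD 16 N K') {r : ℕ} (hr1 : 1 ≤ r) {c : ℝ} (hc : (M : ℝ) ≤ c * r) :
    √(D.C / (mg M * r)) ≤ √(D.C * (Kg * c)) := by
  refine Real.sqrt_le_sqrt ?_
  have hK := Kg_pos
  have hM : (0 : ℝ) < M := by exact_mod_cast NeZero.pos M
  have hr : (0 : ℝ) < r := by exact_mod_cast hr1
  have hC := D.C_pos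
  unfold mg
  rw [div_le_iff₀ (by positivity)]
  have h1 : 1 ≤ Kg * c * (1 / (Kg * M) * r) := by
    have e : Kg * c * (1 / (Kg * M) * r) = c * r / M := by field_simp
    rw [e, le_div_iff₀ hM, one_mul]
    exact hc
  calc D.C = D.C * 1 := (mul_one _).symm
    _ ≤ D.C * (Kg * c * (1 / (Kg * M) * r)) := by gcongr
    _ = _ := by ring

end Crest.Agent.R165.TorRest4x63
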