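import Crest.Agent.R165.TorGapB_63

/-!
# Row 165 (S0250): the last covariance on the torus (helper63)

* `Aop_eq_hA`  : the operator of `Lat_683` is the matrix of `TorDet_599` (torus)
* `abtw`       : `m² |l|² ≤ |A l|²` in the three nonsingular sectors, `m = 1 / (Kg M)`
* `isNegInvZ`  : the covariance `-BP` of the doubly periodic sector is `-A⁻¹` off the zero modes
* `cF_PP`      : `-BP = ∑ slices + rest`; `restPP_gram` : Gram weight `gr` of the rest
* `ZE_PP_split`: the doubly periodic sector after the slices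
-/

set_option autoImplicit false
set_option linter.unusedSectionVars false

noncomputable section

namespace Crest.Agent.R165.TorRestx63

open scoped ENNReal
open Matrix
open Polynomial Crest.Agent.R165.Gr0x606 Crest.Agent.R165.PNormx417
  Crest.Agent.R165.GDefx387 Crest.Agent.R165.FRDAbsx439 Crest.Agent.R165.FRDPolyx439
  Crest.Agent.R165.FRDInfx439 Crest.Agent.R165.FRDLatx439 Crest.Agent.R165.FRDRestx439
open Crest.Agent.R165.Latx683 (HE BW Aop Fld yE yN)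
open Crest.Agent.R165.TorDetx599 (hA hA_t wS)
open Crest.Agent.R165.TorSecx599 (BP ZP u1 u2 ker2_PP hA_mulVec_face)
open Crest.Agent.R165.TorBrx599 Crest.Agent.R165.TorGapBx63

variable {M : ℕ} [NeZero M]

/-! ### the operator is the matrix -/

theorem Aop_eq_hA (w : BW (ZMod M)) (φ : HE (ZMod M) → ℝ) : Aop w φ = hA w *ᵥ φ := by
  funext h
  obtain ⟨⟨i, j⟩, k⟩ := h
  rw [hA_mulVec_face]
  fin_cases k
  · simp [Latx683.Aop_S, yN, TorDetx599.sgn4, Fin.sum_univ_four]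
  · simp [Latx683.Aop_E, yE, TorDetx599.sgn4, Fin.sum_univ_four]
  · simp [Latx683.Aop_N, yN, TorDetx599.sgn4, Fin.sum_univ_four]
    ring
  · simp [Latx683.Aop_W, yE, TorDetx599.sgn4, Fin.sum_univ_four]
    ring

theorem dotF_eq (x y : Fld (ZMod M)) : dotF (HE (ZMod M)) x y = ∑ h, x h * y h :=
  dotF_eq_sum x y Finset.univ (Finset.subset_univ _)

theorem dotF_self (x : Fld (ZMod M)) : dotF (HE (ZMod M)) x x = n2 (x : HE (ZMod M) → ℝ) := by
  rw [dotF_eq, n2]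
  exact Finset.sum_congr rfl fun h _ => by ring

/-! ### gap of the nonsingular sectors -/

/-- the gap -/
def mg (M : ℕ) : ℝ := 1 / (Kg * M)

theorem mg_pos : 0 < mg M := by
  have := Kg_pos
  have : (0 : ℝ) < M := by exact_mod_cast NeZero.pos M
  unfold mg; positivity

theorem xc_le_one : |Tr1x40.xc| ≤ 1 := by
  rw [abs_of_pos Tr1x40.xc_pos]; linarith [Tr1x40.xc_lt_half]

theorem wT_abs {a b : ℝ} (ha : a ^ 2 = 1) (hb : b ^ 2 = 1) (z : ZMod M × ZMod M) (j : Fin 2) :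
    |wT M a b z j| ≤ 1 := by
  have ha' : |a| = 1 := by
    have : |a| ^ 2 = 1 := by rw [sq_abs, ha]
    nlinarith [abs_nonneg a]
  have hb' : |b| = 1 := by
    have : |b| ^ 2 = 1 := by rw [sq_abs, hb]
    nlinarith [abs_nonneg b]
  unfold wT TorDetx599.wS
  rw [abs_mul]
  have h1 : |if j = 1 then (if z.1 = 0 then a else 1) else if z.2 = 0 then b else 1| = 1 := by
    split_ifs <;> simp [ha', hb']
  rw [h1, mul_one]
  exact xc_le_one

theorem abtw0 {a b : ℝ} (ha : a ^ 2 = 1) (hb : b ^ 2 = 1) :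
    ABtw (preF (HE (ZMod M))) (AopF (wT M a b)) 0 16 := AopF_bdd _ (wT_abs ha hb)

/-- the gap in the form used for the last covariance -/
theorem abtw {a b : ℝ} (ha : a ^ 2 = 1) (hb : b ^ 2 = 1) (hab : a = -1 ∨ b = -1) :
    ABtw (preF (HE (ZMod M))) (AopF (wT M a b)) (mg M ^ 2) 16 := by
  intro x
  refine ⟨?_, (abtw0 ha hb x).2⟩
  have h := gap_anti ha hb hab (x : HE (ZMod M) → ℝ)
  rw [preF_ip, preF_ip, dotF_self, dotF_self, AopF_coe]
  have hK := Kg_pos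
  have hM : (0 : ℝ) < M := by exact_mod_cast NeZero.pos M
  have h1 : mg M ^ 2 * (Kg * M) ^ 2 = 1 := by
    unfold mg; field_simp
  calc mg M ^ 2 * n2 (x : HE (ZMod M) → ℝ)
      ≤ mg M ^ 2 * ((Kg * M) ^ 2 * n2 (Aop (wT M a b) (x : HE (ZMod M) → ℝ))) := by gcongr
    _ = n2 (Aop (wT M a b) (x : HE (ZMod M) → ℝ)) := by rw [← mul_assoc, h1, one_mul]

/-! ### the doubly periodic sector -/

/-- linear maps on the fields from maps on functions -/
def un (T : (HE (ZMod M) → ℝ) →ₗ[ℝ] (HE (ZMod M) → ℝ)) : Fld (ZMod M) →ₗ[ℝ] Fld (ZMod M) :=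
  (Finsupp.linearEquivFunOnFinite ℝ ℝ (HE (ZMod M))).symm.toLinearMap ∘ₗ T ∘ₗ
    (Finsupp.linearEquivFunOnFinite ℝ ℝ (HE (ZMod M))).toLinearMap

theorem un_coe (T : (HE (ZMod M) → ℝ) →ₗ[ℝ] (HE (ZMod M) → ℝ)) (x : Fld (ZMod M)) :
    (un T x : HE (ZMod M) → ℝ) = T (x : HE (ZMod M) → ℝ) := by
  unfold un
  funext h
  simp only [LinearMap.comp_apply, LinearEquiv.coe_coe]
  have := congrFun (LinearEquiv.apply_symm_apply (Finsupp.linearEquivFunOnFinite ℝ ℝ (HE (ZMod M)))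
    (T (x : HE (ZMod M) → ℝ))) h
  exact this

theorem fld_ext {x y : Fld (ZMod M)} (h : (x : HE (ZMod M) → ℝ) = y) : x = y := DFunLike.ext' h

/-- projection on the zero modes, on functions -/
def Zf : (HE (ZMod M) → ℝ) →ₗ[ℝ] (HE (ZMod M) → ℝ) :=
  (vecMulVec (u1 M) (u1 M) + vecMulVec (u2 M) (u2 M)).mulVecLin

theorem Zf_apply (φ : HE (ZMod M) → ℝ) :
    Zf φ = (u1 M ⬝ᵥ φ) • u1 M + (u2 M ⬝ᵥ φ) • u2 M := by
  unfold Zf
  rw [mulVecLin_apply, add_mulVec, vecMulVec_mulVec, vecMulVec_mulVec]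
  simp

/-- projection on the zero modes -/
def ZF (M : ℕ) [NeZero M] : Fld (ZMod M) →ₗ[ℝ] Fld (ZMod M) := un Zf

/-- the operator `-BP` -/
def SB (M : ℕ) [NeZero M] : Fld (ZMod M) →ₗ[ℝ] Fld (ZMod M) := un (-(BP M)).mulVecLin

theorem ZF_coe (x : Fld (ZMod M)) : (ZF M x : HE (ZMod M) → ℝ) =
    (u1 M ⬝ᵥ (x : HE (ZMod M) → ℝ)) • u1 M + (u2 M ⬝ᵥ (x : HE (ZMod M) → ℝ)) • u2 M := by
  rw [ZF, un_coe, Zf_apply]

theorem SB_coe (x : Fld (ZMod M)) : (SB M x : HE (ZMod M) → ℝ) = -(BP M) *ᵥ x := by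
  rw [SB, un_coe, mulVecLin_apply]

theorem A_coe (x : Fld (ZMod M)) : (AopF (wT M 1 1) x : HE (ZMod M) → ℝ) =
    hA (wS M TorSecx599.xc 1 1) *ᵥ (x : HE (ZMod M) → ℝ) := by
  rw [AopF_coe, Aop_eq_hA]; rfl

theorem preF_eq (x y : Fld (ZMod M)) : (preF (HE (ZMod M))).ip x y =
    (x : HE (ZMod M) → ℝ) ⬝ᵥ (y : HE (ZMod M) → ℝ) := by
  rw [preF_ip, dotF_eq]; rfl

theorem ba : BP M * hA (wS M TorSecx599.xc 1 1) =
    1 - vecMulVec (u1 M) (u1 M) - vecMulVec (u2 M) (u2 M) := by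
  have h := ker2_PP M
  have h1 := congrArg transpose h.ab
  rw [transpose_mul, h.anti, h.banti, neg_mul_neg] at h1
  rw [h1, transpose_sub, transpose_sub, transpose_one, transpose_vecMulVec, transpose_vecMulVec]

theorem isNegInvZ : IsNegInvZ (preF (HE (ZMod M))) (AopF (wT M 1 1)) (SB M) (ZF M) := by
  have h := ker2_PP M
  have hproj : ∀ φ : HE (ZMod M) → ℝ,
      (1 - vecMulVec (u1 M) (u1 M) - vecMulVec (u2 M) (u2 M)) *ᵥ φ =
        φ - ((u1 M ⬝ᵥ φ) • u1 M + (u2 M ⬝ᵥ φ) • u2 M) := by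
    intro φ
    rw [sub_mulVec, sub_mulVec, one_mulVec, vecMulVec_mulVec, vecMulVec_mulVec]
    simp [sub_sub]
  refine ⟨fun x => fld_ext ?_, fun x => fld_ext ?_, fun x => fld_ext ?_, fun x y => ?_,
    fun x => fld_ext ?_, fun x => fld_ext ?_⟩
  · rw [A_coe, SB_coe, neg_mulVec, mulVec_neg, mulVec_mulVec, h.ab, hproj, Finsupp.coe_neg,
      Finsupp.coe_sub, ZF_coe]
  · rw [SB_coe, A_coe, neg_mulVec, mulVec_mulVec, ba, hproj, Finsupp.coe_neg,
      Finsupp.coe_sub, ZF_coe]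
  · rw [ZF_coe, ZF_coe]
    simp only [dotProduct_add, dotProduct_smul, smul_eq_mul]
    rw [h.n1, h.n2, h.o, dotProduct_comm (u2 M) (u1 M), h.o]
    simp
  · rw [preF_eq, preF_eq, ZF_coe, ZF_coe]
    simp only [dotProduct_add, add_dotProduct, dotProduct_smul, smul_dotProduct, smul_eq_mul]
    rw [dotProduct_comm (x : HE (ZMod M) → ℝ) (u1 M), dotProduct_comm (x : HE (ZMod M) → ℝ) (u2 M)]
    ring
  · rw [A_coe, ZF_coe, mulVec_add, mulVec_smul, mulVec_smul, h.a1, h.a2]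
    simp
  · rw [ZF_coe, SB_coe]
    have e : ∀ (u : HE (ZMod M) → ℝ), BP M *ᵥ u = 0 → u ⬝ᵥ (-(BP M) *ᵥ (x : HE (ZMod M) → ℝ)) = 0 := by
      intro u hu
      rw [dotProduct_mulVec, ← mulVec_transpose, transpose_neg, h.banti, neg_neg, hu,
        zero_dotProduct]
    rw [e _ h.b1, e _ h.b2]
    simp

/-- the gap off the zero modes -/
theorem gapZ (x : Fld (ZMod M)) : mg M ^ 2 * (preF (HE (ZMod M))).ip (x - ZF M x) (x - ZF M x) ≤
    (preF (HE (ZMod M))).ip (AopF (wT M 1 1) x) (AopF (wT M 1 1) x) := by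
  have h := ker2_PP M
  have hz := isNegInvZ (M := M)
  have e1 : AopF (wT M 1 1) x = AopF (wT M 1 1) (x - ZF M x) := by
    rw [map_sub, hz.AZ, sub_zero]
  rw [e1]
  set y := x - ZF M x with hy
  have hu : ∀ u : HE (ZMod M) → ℝ, (u = u1 M ∨ u = u2 M) → ∑ h, u h * y h = 0 := by
    intro u hu
    have e2 : u ⬝ᵥ (y : HE (ZMod M) → ℝ) = 0 := by
      rw [hy, Finsupp.coe_sub, ZF_coe]
      simp only [dotProduct_sub, dotProduct_add, dotProduct_smul, smul_eq_mul]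
      rcases hu with rfl | rfl
      · rw [h.n1, h.o]; ring
      · rw [h.n2, dotProduct_comm (u2 M) (u1 M), h.o]; ring
    exact e2
  have hg := gap_per (y : HE (ZMod M) → ℝ) (hu _ (Or.inl rfl)) (hu _ (Or.inr rfl))
  rw [preF_ip, preF_ip, dotF_self, dotF_self, AopF_coe]
  have hK := Kg_pos
  have hM : (0 : ℝ) < M := by exact_mod_cast NeZero.pos M
  have h1 : mg M ^ 2 * (Kg * M) ^ 2 = 1 := by
    unfold mg; field_simp
  calc mg M ^ 2 * n2 (y : HE (ZMod M) → ℝ)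
      ≤ mg M ^ 2 * ((Kg * M) ^ 2 * n2 (Aop (wT M 1 1) (y : HE (ZMod M) → ℝ))) := by gcongr
    _ = n2 (Aop (wT M 1 1) (y : HE (ZMod M) → ℝ)) := by rw [← mul_assoc, h1, one_mul]

theorem mg_sq_le : mg M ^ 2 ≤ 16 := by
  have hM : (1 : ℝ) ≤ M := by exact_mod_cast NeZero.pos M
  have hc := Tr2x40.c0_pos
  have hc1 := c0_lt
  have hK : (1 : ℝ) ≤ Kg := by
    unfold Kg; rw [le_div_iff₀ hc]; linarith
  have h1 : mg M ≤ 1 := by
    unfold mg; rw [div_le_one (by positivity)]; nlinarith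
  have := mg_pos (M := M)
  nlinarith

/-- the rest covariance of the doubly periodic sector -/
def restPP {N K : ℕ} (D : FRD 16 N K) (M : ℕ) [NeZero M] (J : ℕ) : Cov (Fld (ZMod M)) :=
  restZ (AopF_asy (wT M 1 1)) (isNegInvZ (M := M)) (D.r J)

/-- Gram weight of the rest, doubly periodic sector -/
theorem restPP_gram {N K : ℕ} (D : FRD 16 N K) (J : ℕ) :
    Gram (restPP D M J) (gr D (wT M 1 1) (mg M) J) := by
  intro L
  have o : (1 : ℝ) ^ 2 = 1 := one_pow 2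
  have hm := mg_pos (M := M)
  have hA := AopF_asy (wT M 1 1)
  have hb := abtw0 (M := M) o o
  have hp : ∀ t, 0 ≤ t → t ≤ (16 : ℝ) → 0 ≤ (D.r J).eval t := fun t h1 h2 => D.r_nonneg J t h1 h2
  have h1 : |EE (restPP D M J) (L.map fi).prod| ≤
      (L.map fun x => √(((mg M)⁻¹ • Crest.Agent.R165.FRDAbsx439.BP (preF (HE (ZMod M)))
        (QA (AopF (wT M 1 1))) (D.r J)) x x)).prod := by
    refine Crest.Agent.R165.GramHx439.gram_hadamard _ ((mg M)⁻¹ • Crest.Agent.R165.FRDAbsx439.BP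
      (preF (HE (ZMod M))) (QA (AopF (wT M 1 1))) (D.r J)) ?_ ?_
      (restZ_le hA isNegInvZ hm mg_sq_le hb gapZ (D.r J) hp) L
    · intro x y
      simp only [LinearMap.smul_apply]
      rw [BP_symm hA.sy]
    · intro x
      simp only [LinearMap.smul_apply, smul_eq_mul]
      have := BP_nonneg hA.sy (hb.btw hA) (D.r J) hp x
      positivity
  unfold gr
  rw [mwt_ofReal (fun l => √(((mg M)⁻¹ • Crest.Agent.R165.FRDAbsx439.BP (preF (HE (ZMod M)))
    (QA (AopF (wT M 1 1))) (D.r J)) l l)) (fun l => Real.sqrt_nonneg _), Real.enorm_eq_ofReal_abs]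
  exact ENNReal.ofReal_le_ofReal h1

/-- **decomposition of the covariance of the doubly periodic sector** -/
theorem cF_PP {N K : ℕ} (D : FRD 16 N K) (J : ℕ) :
    cF M (-(BP M)) = SopC D (wT M 1 1) 0 J + restPP D M J := by
  have h := sum_slice_add_restZ D (AopF_asy (wT M 1 1)) (isNegInvZ (M := M)) J
  have h1 : SopC D (wT M 1 1) 0 J =
      ∑ j ∈ Finset.range J, FRDInfx439.slice D (AopF_asy (wT M 1 1)) j := by
    unfold SopC; rw [Nat.Ico_zero_eq_range]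
  unfold restPP
  rw [h1, h]
  apply Cov.ext
  refine LinearMap.ext fun x => LinearMap.ext fun y => ?_
  have hB : (-(BP M))ᵀ = -(-(BP M)) := by
    rw [transpose_neg, (ker2_PP M).banti]
  show (Pfx599.cv (-(BP M))).b (kp M x) (kp M y) =
    (preF (HE (ZMod M))).ip x (SB M (Polynomial.aeval (QA (AopF (wT M 1 1))) 1 y))
  rw [map_one, Module.End.one_apply, preF_eq, SB_coe, Pfx599.cv_b hB]
  rfl

theorem ZE_PP_split {N K : ℕ} (D : FRD 16 N K) (J : ℕ)
    (X : Gr1x606.Ge (Gr1x606.VI (HT M))) :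
    TorusJ1x922.ZE (fun e : TorusCombx922.Ed M => TorusJ1x922.sec (0, 0) e * TorSecx599.xc) X =
      ZP M * EE (restPP D M J)
        (dd (z2 M) (dd (z1 M) (conv (SopC D (wT M 1 1) 0 J) (X : Gr (Fld (ZMod M)))))) := by
  rw [ZE_PP, cF_PP D J, add_comm, ← EE_conv, conv_dd, conv_dd]

end Crest.Agent.R165.TorRestx63
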