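import Crest.Agent.R165.PinLim_723
import Crest.Agent.R165.TorIso_723
import Crest.Agent.R165.MarkEq_723
import Crest.Agent.R165.TorK_723

/-!
# Row 165 (S0250), TEXT P13: the exponents of the torus flows converge (helper723)

Flows `sys D (wTor (L+1) ε₁ ε₂) {pr f₀} l k0 K0` of growing tori against the plane flow with the
mark `f₀`.

* `Loc0`      : the initial activities of the tori are locally those of the plane
* `cc_loc`    : so are the constants at all scales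
* `expo_tor`  : `∑_{k < KT L} ∑_U (cc F_t - cc F_0) → expo` in one sector
* `diff_tor`  : the exponents of two sectors have the same limit (difference `→ 0`)
-/

set_option autoImplicit false
set_option linter.unusedSectionVars false

noncomputable section

open Finset Filter Topology
open scoped ENNReal
open Crest.Agent.R165.Gr0x606 Crest.Agent.R165.Gr1x606 Crest.Agent.R165.Latx683
open Crest.Agent.R165.GDefx387 Crest.Agent.R165.GeOpsx337 Crest.Agent.R165.KFlowx337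
open Crest.Agent.R165.FRDPolyx439 Crest.Agent.R165.FRDLatx439 Crest.Agent.R165.BgIsox432
open Crest.Agent.R165.GSysx387 Crest.Agent.R165.Telx337 Crest.Agent.R165.GSysOKx439
open Crest.Agent.R165.CmpBgx432 Crest.Agent.R165.TorChartx723 Crest.Agent.R165.TorTanx723
open Crest.Agent.R165.TorWrapx723 Crest.Agent.R165.MetGx723 Crest.Agent.R165.TorIsox723
open Crest.Agent.R165.Pinx723 Crest.Agent.R165.PinSysx723 Crest.Agent.R165.PinLimx723
open Crest.Agent.R165.TorKx723 Crest.Agent.R165.SpinSysx892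

namespace Crest.Agent.R165.TorSysx723

section tor

variable {Md Kd : ℕ} (D : FRD 16 Md Kd) {l k0 : ℕ} {f₀ : ℤ × ℤ} {ε₁ ε₂ ε₁' ε₂' : ℝ}

/-- the initial activities of the tori are locally those of the plane -/
structure Loc0 (l k0 : ℕ) (f₀ : ℤ × ℤ) (h₁ : ε₁ * ε₁ = 1) (h₂ : ε₂ * ε₂ = 1)
    (KP : Finset (ℤ × ℤ) → Ge (Fld ℤ))
    (KL : (L : ℕ) → Finset (ZMod (L + 1) × ZMod (L + 1)) → Ge (Fld (ZMod (L + 1)))) : Prop where
  memP : ∀ U, KP U ∈ grG (fldU U)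
  mem : ∀ L U, KL L U ∈ grG (fldU U)
  eP : KP ∅ = 0
  eL : ∀ L, KL L ∅ = 0
  loc : ∀ R : ℕ, ∀ᶠ L in atTop, ∀ (hR : 4 * (R + 1) ≤ L + 1) (U : Finset (ℤ × ℤ)), U.Nonempty →
    nbhd (s2 * rr l k0 0) U ⊆ ball f₀ R →
    mpG (torB h₁ h₂ f₀ hR).push (KP U) = KL L (U.image (pr (L + 1)))

/-- the constants of the tori are locally those of the plane -/
theorem cc_loc (hK : 16 ≤ Kd) (hl : 5 ≤ l * (k0 + 1)) (hl1 : 1 ≤ l) {h₁ : ε₁ * ε₁ = 1}
    {h₂ : ε₂ * ε₂ = 1} {KP : Finset (ℤ × ℤ) → Ge (Fld ℤ)}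
    {KL : (L : ℕ) → Finset (ZMod (L + 1) × ZMod (L + 1)) → Ge (Fld (ZMod (L + 1)))}
    (h : Loc0 l k0 f₀ h₁ h₂ KP KL) (k E : ℕ) :
    ∀ᶠ L in atTop, ∀ U ⊆ boxG f₀ E,
      cc (sys D (wTor (L + 1) ε₁ ε₂) {pr (L + 1) f₀} l k0 (KL L)) k (U.image (pr (L + 1))) =
        cc (sys D (wPl ℤ) {f₀} l k0 KP) k U := by
  filter_upwards [h.loc (E + rhoH l k0 k), eventually_ge_atTop (4 * (E + rhoH l k0 k + 1))]
    with L h3 h4 U hU
  exact cc_tor D h₁ h₂ hK hl hl1 f₀ h.memP h.eP (h.eL L) (by omega) (fun U hne hU' => h3 _ U hne hU')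
    hU

variable {r R : ℕ → ℕ} {Γ : ℝ} {E : ℕ → ℝ}

/-- **one sector**: the exponents of the ratio converge to those of the plane -/
theorem expo_tor (hK : 16 ≤ Kd) (hl : 5 ≤ l * (k0 + 1)) (hl1 : 1 ≤ l) {h₁ : ε₁ * ε₁ = 1}
    {h₂ : ε₂ * ε₂ = 1} {KP KP' : Finset (ℤ × ℤ) → Ge (Fld ℤ)}
    {KL KL' : (L : ℕ) → Finset (ZMod (L + 1) × ZMod (L + 1)) → Ge (Fld (ZMod (L + 1)))}
    (h : Loc0 l k0 f₀ h₁ h₂ KP KL) (h' : Loc0 l k0 f₀ h₁ h₂ KP' KL')
    (pin : ∀ᶠ L in atTop, ∀ U, pr (L + 1) f₀ ∉ U → KL L U = KL' L U)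
    (pinP : ∀ U, f₀ ∉ U → KP U = KP' U) (hΓ : 1 < Γ) (hE : ∀ k, 0 ≤ E k) (hs : Summable E)
    (bd1 : ∀ᶠ L in atTop, Bd (sys D (wTor (L + 1) ε₁ ε₂) {pr (L + 1) f₀} l k0 (KL L)) fd
      (fun k => rr l k0 (k + 1)) (nearR l k0) (ENNReal.ofReal Γ) E (KT l k0 L))
    (bd2 : ∀ᶠ L in atTop, Bd (sys D (wTor (L + 1) ε₁ ε₂) {pr (L + 1) f₀} l k0 (KL' L)) fd
      (fun k => rr l k0 (k + 1)) (nearR l k0) (ENNReal.ofReal Γ) E (KT l k0 L)) :
    Tendsto (fun L => ∑ k ∈ range (KT l k0 L),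
        ∑ U, cc (sys D (wTor (L + 1) ε₁ ε₂) {pr (L + 1) f₀} l k0 (KL L)) k U -
      ∑ k ∈ range (KT l k0 L),
        ∑ U, cc (sys D (wTor (L + 1) ε₁ ε₂) {pr (L + 1) f₀} l k0 (KL' L)) k U) atTop
      (𝓝 (expo (sys D (wPl ℤ) {f₀} l k0 KP) (sys D (wPl ℤ) {f₀} l k0 KP'))) := by
  have hp : PinData (atTop : Filter ℕ) (fun _ => fd) (fd : ℤ × ℤ → ℤ × ℤ → ℕ)
      (fun L => pr (L + 1) f₀) f₀ (fun L => pr (L + 1)) (fun D => boxG f₀ D)
      (fun k => rr l k0 (k + 1)) (nearR l k0) Γ E (KT l k0)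
      (fun L => sys D (wTor (L + 1) ε₁ ε₂) {pr (L + 1) f₀} l k0 (KL L))
      (fun L => sys D (wTor (L + 1) ε₁ ε₂) {pr (L + 1) f₀} l k0 (KL' L))
      (sys D (wPl ℤ) {f₀} l k0 KP) (sys D (wPl ℤ) {f₀} l k0 KP') := by
    refine PinData.of_growing (exh_tor f₀) (iso_tor f₀) hΓ hE hs (KT_top l k0) bd1 bd2 ?_ ?_
      (fun k E => cc_loc D hK hl hl1 h k E) (fun k E => cc_loc D hK hl hl1 h' k E)
    · filter_upwards [pin] with L hL k U hU
      exact MarkEqx723.cc_eq D _ _ l k0 (Finset.mem_singleton_self _) hL k hU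
    · intro k U hU
      exact MarkEqx723.cc_eq D _ _ l k0 (Finset.mem_singleton_self _) pinP k hU
  refine hp.expo_tendsto.congr fun L => ?_
  rw [← Finset.sum_sub_distrib]
  refine Finset.sum_congr rfl fun k _ => ?_
  rw [tsum_fintype, ← Finset.sum_sub_distrib]

/-- **two sectors**: the difference of the exponents vanishes -/
theorem diff_tor (hK : 16 ≤ Kd) (hl : 5 ≤ l * (k0 + 1)) (hl1 : 1 ≤ l) (h₁ : ε₁ * ε₁ = 1)
    (h₂ : ε₂ * ε₂ = 1) (h₁' : ε₁' * ε₁' = 1) (h₂' : ε₂' * ε₂' = 1)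
    {mk : (L : ℕ) → Finset (ZMod (L + 1) × ZMod (L + 1))}
    {KL KL' : (L : ℕ) → Finset (ZMod (L + 1) × ZMod (L + 1)) → Ge (Fld (ZMod (L + 1)))}
    (mem : ∀ L U, KL L U ∈ grG (fldU U)) (eL : ∀ L, KL L ∅ = 0) (eL' : ∀ L, KL' L ∅ = 0)
    (loc : ∀ (L : ℕ) (x₀ : ZMod (L + 1) × ZMod (L + 1)) (R : ℕ) (hR : 4 * (R + 1) ≤ L + 1)
      (U : Finset (ZMod (L + 1) × ZMod (L + 1))), U.Nonempty →
      nbhd (s2 * rr l k0 0) U ⊆ ball x₀ R →
      mpG (secB h₁ h₂ h₁' h₂' x₀ hR).push (KL L U) = KL' L U)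
    (hΓ : 1 < Γ) (hE : ∀ k, 0 ≤ E k) (hs : Summable E)
    (bd1 : ∀ᶠ L in atTop, Bd (sys D (wTor (L + 1) ε₁ ε₂) (mk L) l k0 (KL L)) fd
      (fun k => rr l k0 (k + 1)) (nearR l k0) (ENNReal.ofReal Γ) E (KT l k0 L))
    (bd2 : ∀ᶠ L in atTop, Bd (sys D (wTor (L + 1) ε₁' ε₂') (mk L) l k0 (KL' L)) fd
      (fun k => rr l k0 (k + 1)) (nearR l k0) (ENNReal.ofReal Γ) E (KT l k0 L)) :
    Tendsto (fun L => ∑ k ∈ range (KT l k0 L),
        ∑ U, cc (sys D (wTor (L + 1) ε₁ ε₂) (mk L) l k0 (KL L)) k U -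
      ∑ k ∈ range (KT l k0 L),
        ∑ U, cc (sys D (wTor (L + 1) ε₁' ε₂') (mk L) l k0 (KL' L)) k U) atTop (𝓝 0) := by
  classical
  -- both systems, cut to zero for the small sides
  obtain ⟨L₀, hL₀⟩ := eventually_atTop.1 (bd1.and bd2)
  set c : (L : ℕ) → ℕ → Finset (ZMod (L + 1) × ZMod (L + 1)) → ℝ := fun L k U =>
    if L₀ ≤ L then cc (sys D (wTor (L + 1) ε₁ ε₂) (mk L) l k0 (KL L)) k U else 0 with hc
  set c' : (L : ℕ) → ℕ → Finset (ZMod (L + 1) × ZMod (L + 1)) → ℝ := fun L k U =>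
    if L₀ ≤ L then cc (sys D (wTor (L + 1) ε₁' ε₂') (mk L) l k0 (KL' L)) k U else 0 with hc'
  have hNN0 : ∀ (L : ℕ) (r : ℕ) (Γ b : ℝ≥0∞),
      Packx915.PD (fd : (ZMod (L + 1) × ZMod (L + 1)) → _ → ℕ) →
      NSumx915.NN fd r Γ (fun U : Finset (ZMod (L + 1) × ZMod (L + 1)) =>
        ENNReal.ofReal |(0 : ℝ)|) ≤ b := by
    intro L r Γ b _
    refine iSup_le fun f => ?_
    unfold NSumx915.bs
    refine le_trans (le_of_eq ?_) zero_le
    refine ENNReal.tsum_eq_zero.2 fun U => ?_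
    rw [Set.indicator_apply]
    split_ifs <;> simp
  have key := tendsto_diff (KT_geo l k0) hΓ hE hs c c' ?_ ?_ ?_ ?_ ?_ ?_
  · refine (key.congr' ?_)
    filter_upwards [eventually_ge_atTop L₀] with L hL
    rw [← Finset.sum_sub_distrib]
    refine Finset.sum_congr rfl fun k _ => ?_
    simp only [hc, hc', if_pos hL]
  · intro L k hk U hne hU
    simp only [hc, hc']
    split_ifs with hL
    · obtain ⟨x₀, hx₀⟩ := hne
      have hgeo := (KT_geo l k0).geo L k hk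
      have hrho : rhoH l k0 k ≤ s2 * rr l k0 (k + 1) := by
        unfold rhoH
        refine max_le (Nat.mul_le_mul_left _ (rr_mono l k0 (Nat.le_succ k))) ?_
        exact Nat.le_mul_of_pos_left _ (by unfold s2; norm_num)
      refine cc_sec D h₁ h₂ h₁' h₂' hK hl hl1 (mem L) (E := Dr (fun k => rr l k0 (k + 1))
        (nearR l k0) 16 L k) (x₀ := x₀) ?_ (fun U' hne' hU' => loc L x₀ _ _ U' hne' hU')
        ⟨x₀, hx₀⟩ (hU x₀ hx₀)
      unfold Dr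
      simp only at hgeo ⊢
      omega
    · rfl
  · intro L k hk
    simp only [hc, hc']
    split_ifs with hL
    · unfold cc
      rw [H_empty (D := sys D (wTor (L + 1) ε₁ ε₂) (mk L) l k0 (KL L)) (eL L),
        H_empty (D := sys D (wTor (L + 1) ε₁' ε₂') (mk L) l k0 (KL' L)) (eL' L)]
    · rfl
  · intro L k hk
    by_cases hL : L₀ ≤ L
    · simp only [hc, if_pos hL]
      exact ((hL₀ L hL).1).nn k hk
    · simp only [hc, if_neg hL]
      exact hNN0 L _ _ _ pd_fd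
  · intro L k hk
    by_cases hL : L₀ ≤ L
    · simp only [hc', if_pos hL]
      exact ((hL₀ L hL).2).nn k hk
    · simp only [hc', if_neg hL]
      exact hNN0 L _ _ _ pd_fd
  · intro L k hk U hU
    simp only [hc] at hU
    split_ifs at hU with hL
    · exact (((hL₀ L hL).1).conn k hk U hU).2
    · exact absurd rfl hU
  · intro L k hk U hU
    simp only [hc'] at hU
    split_ifs at hU with hL
    · exact (((hL₀ L hL).2).conn k hk U hU).2
    · exact absurd rfl hU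

end tor

end Crest.Agent.R165.TorSysx723
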