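import Crest.Agent.R165.TorWrap_723

/-!
# Row 165 (S0250): sums of constants over the scales of a torus (helper723)

* `small_bij`     : subsets of the plane ball `B(f₀, D)` = subsets of the torus ball `B(pr f₀, D)`
* `TorGeo`        : the geometric hypotheses relating the side `L + 1`, the number of scales `K L`,
                    the scales `r k`, the ranges `R k`
* `tendsto_pinned`: pinned sums (sources) converge to the plane sum
* `tendsto_diff`  : differences between two sectors vanish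
-/

set_option autoImplicit false

noncomputable section

open Finset Filter Topology
open scoped ENNReal
open Crest.Agent.R165.Packx915 Crest.Agent.R165.NSumx915
open Crest.Agent.R165.Latx683 Crest.Agent.R165.GDefx387
open Crest.Agent.R165.MetGx723 Crest.Agent.R165.TorChartx723 Crest.Agent.R165.TorWrapx723

namespace Crest.Agent.R165.TorTanx723

section bij

variable {M : ℕ} [NeZero M]

theorem mem_box_iff {f g : ℤ × ℤ} {s : ℕ} : g ∈ boxG f s ↔ fd f g ≤ s := by
  rw [mem_boxG, ← fd_eq_int, fd_comm]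

theorem mem_box_iff' {f g : ZMod M × ZMod M} {s : ℕ} : g ∈ boxG f s ↔ fd f g ≤ s := by
  rw [mem_boxG, ← fd_eq_zmod, fd_comm]

theorem fd_pr_le (f g : ℤ × ℤ) : fd (pr M f) (pr M g) ≤ fd f g := by
  rw [fd_eq_zmod, fd_eq_int]; exact dG_pr_le M f g

theorem image_box (f₀ : ℤ × ℤ) (D : ℕ) :
    (boxG f₀ D).image (pr M) = boxG (pr M f₀) D := by
  classical
  ext g
  rw [Finset.mem_image, mem_boxG]
  constructor
  · rintro ⟨g', hg', rfl⟩
    exact (dG_pr_le M g' f₀).trans (mem_boxG.1 hg')
  · intro h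
    obtain ⟨g', hg', hd⟩ := exists_lift f₀ h
    exact ⟨g', mem_boxG.2 hd, hg'⟩

theorem injOn_box {f₀ : ℤ × ℤ} {D : ℕ} (hD : 2 * D < M) :
    Set.InjOn (pr M) (boxG f₀ D : Finset (ℤ × ℤ)) := by
  intro f hf g hg hfg
  rw [Finset.mem_coe, mem_boxG] at hf hg
  refine pr_inj (N := M) ?_ hfg
  have := dG_tri f f₀ g
  rw [dG_comm f₀ g] at this
  omega

/-- sums over the subsets of a small ball -/
theorem small_bij {f₀ : ℤ × ℤ} {D : ℕ} (hD : 2 * D < M)
    (F : Finset (ZMod M × ZMod M) → ℝ) (G : Finset (ℤ × ℤ) → ℝ)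
    (h : ∀ U ⊆ boxG f₀ D, F (U.image (pr M)) = G U) :
    ∑ U ∈ (boxG (pr M f₀) D).powerset, F U = ∑ U ∈ (boxG f₀ D).powerset, G U := by
  classical
  symm
  refine Finset.sum_bij (fun U _ => U.image (pr M)) ?_ ?_ ?_ ?_
  · intro U hU
    rw [Finset.mem_powerset] at hU ⊢
    rw [← image_box]
    exact Finset.image_subset_image hU
  · intro U hU W hW hUW
    rw [Finset.mem_powerset] at hU hW
    have h1 : (U : Set (ℤ × ℤ)) ⊆ (boxG f₀ D : Finset (ℤ × ℤ)) := by exact_mod_cast hU
    have h2 : (W : Set (ℤ × ℤ)) ⊆ (boxG f₀ D : Finset (ℤ × ℤ)) := by exact_mod_cast hW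
    have h3 : pr M '' (U : Set (ℤ × ℤ)) = pr M '' (W : Set (ℤ × ℤ)) := by
      have := congrArg (fun S : Finset (ZMod M × ZMod M) => (S : Set (ZMod M × ZMod M))) hUW
      simpa only [Finset.coe_image] using this
    have h4 := (injOn_box hD).image_eq_image_iff h1 h2 |>.1 h3
    exact_mod_cast h4
  · intro W hW
    rw [Finset.mem_powerset] at hW
    refine ⟨(boxG f₀ D).filter fun g => pr M g ∈ W, ?_, ?_⟩
    · rw [Finset.mem_powerset]; exact Finset.filter_subset _ _
    · ext g
      rw [Finset.mem_image]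
      constructor
      · rintro ⟨g', hg', rfl⟩
        exact (Finset.mem_filter.1 hg').2
      · intro hg
        have hg2 := hW hg
        rw [← image_box, Finset.mem_image] at hg2
        obtain ⟨g', hg', rfl⟩ := hg2
        exact ⟨g', Finset.mem_filter.2 ⟨hg', hg⟩, rfl⟩
  · intro U hU
    rw [Finset.mem_powerset] at hU
    exact (h U hU).symm

end bij

/-- scales `r k`, ranges `R k`, number of scales `K L` on the torus of side `L + 1`; the wrapping
sets at scale `k` have packing number at least `(L + 1) / r k / q` -/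
structure TorGeo (r R : ℕ → ℕ) (K : ℕ → ℕ) (q : ℕ) : Prop where
  q_pos : 0 < q
  r_pos : ∀ k, 0 < r k
  K_top : Tendsto K atTop atTop
  geo : ∀ L k, k < K L →
    4 * (((L + 1) / r k / q) * (r k + R k + 1) + s2 * r k + 1) ≤ L + 1

section pinned

variable {r R K : ℕ → ℕ} {q : ℕ}

/-- radius of the plane sets at scale `k` -/
def Dr (r R : ℕ → ℕ) (q L k : ℕ) : ℕ := ((L + 1) / r k / q) * (r k + R k + 1)

theorem tendsto_Dr (h : TorGeo r R K q) (k : ℕ) : Tendsto (fun L => Dr r R q L k) atTop atTop := by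
  have h1 : Tendsto (fun L : ℕ => (L + 1) / r k / q) atTop atTop :=
    (Nat.tendsto_div_const_atTop h.q_pos.ne').comp
      ((Nat.tendsto_div_const_atTop (h.r_pos k).ne').comp (tendsto_add_atTop_nat 1))
  refine tendsto_atTop_mono (fun L => ?_) h1
  unfold Dr
  exact Nat.le_mul_of_pos_right _ (by omega)

theorem two_Dr_lt (h : TorGeo r R K q) {L k : ℕ} (hk : k < K L) : 2 * Dr r R q L k < L + 1 := by
  have := h.geo L k hk
  unfold Dr
  omega

/-- the mass of the sets not contained in the ball around one of their points -/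
theorem far_le (h : TorGeo r R K q) {L k : ℕ} (hk : k < K L) {Γ : ℝ} (hΓ : 1 < Γ) {b : ℝ}
    (hb : 0 ≤ b) (c : Finset (ZMod (L + 1) × ZMod (L + 1)) → ℝ)
    (hN : NN fd (r k) (ENNReal.ofReal Γ) (fun U => ENNReal.ofReal |c U|) ≤ ENNReal.ofReal b)
    (hc : ∀ U, c U ≠ 0 → Packx915.Conn fd (R k) U)
    (p : Finset (ZMod (L + 1) × ZMod (L + 1)) → Prop) [DecidablePred p]
    (hp : ∀ U, p U → c U ≠ 0 → ∃ x ∈ U, ∃ u ∈ U, Dr r R q L k < fd x u) :
    ∑ U : Finset (ZMod (L + 1) × ZMod (L + 1)), (if p U then |c U| else 0) ≤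
      b * wrapg Γ q ((L + 1) / r k) := by
  classical
  have hcov := cov_zmod (M := L + 1) (h.r_pos k) (L + 1)
  have h1 := sum_large_le (n := (2 * ((L + 1) / r k) + 3) ^ 2) (m := (L + 1) / r k / q) hcov
    (fun f g => (fd_le_half f g).trans (Nat.div_le_self _ _)) hΓ.le hb c hN
    (fun U => p U ∧ c U ≠ 0) (fun U hU => by
      obtain ⟨x, hx, u, hu, hxu⟩ := hp U hU.1 hU.2
      refine ⟨⟨x, hx⟩, ?_⟩
      have h2 := pack_ge pd_fd (hc U hU.2) hx hu (n := (L + 1) / r k / q) (r := r k)
        (by unfold Dr at hxu; exact hxu.le)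
      omega)
  have h2 : ∑ U : Finset (ZMod (L + 1) × ZMod (L + 1)), (if p U then |c U| else 0) =
      ∑ U : Finset (ZMod (L + 1) × ZMod (L + 1)), (if p U ∧ c U ≠ 0 then |c U| else 0) := by
    refine Finset.sum_congr rfl fun U _ => ?_
    by_cases hU : p U
    · by_cases h0 : c U = 0
      · rw [if_pos hU, if_neg (fun h => h.2 h0), h0, abs_zero]
      · rw [if_pos hU, if_pos ⟨hU, h0⟩]
    · rw [if_neg hU, if_neg (fun h => hU h.1)]
  rw [h2]
  refine h1.trans (le_of_eq ?_)
  unfold wrapg
  push_cast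
  ring

/-- **pinned sums**: the sum of the constants attached to a source on the torus converges to the
plane sum. -/
theorem tendsto_pinned (h : TorGeo r R K q) {Γ : ℝ} (hΓ : 1 < Γ) {b : ℕ → ℝ} (hb0 : ∀ k, 0 ≤ b k)
    (hb : Summable b) (f₀ : ℤ × ℤ)
    (c : (L : ℕ) → ℕ → Finset (ZMod (L + 1) × ZMod (L + 1)) → ℝ)
    (cP : ℕ → Finset (ℤ × ℤ) → ℝ)
    (hcP : ∀ k, Summable fun U => |cP k U|) (hcPb : ∀ k, ∑' U, |cP k U| ≤ b k)
    (hloc : ∀ L k, k < K L → ∀ U ⊆ boxG f₀ (Dr r R q L k), c L k (U.image (pr (L + 1))) = cP k U)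
    (hN : ∀ L k, k < K L → NN fd (r k) (ENNReal.ofReal Γ) (fun U => ENNReal.ofReal |c L k U|) ≤
      ENNReal.ofReal (b k))
    (hpin : ∀ L k, k < K L → ∀ U, c L k U ≠ 0 → pr (L + 1) f₀ ∈ U)
    (hconn : ∀ L k, k < K L → ∀ U, c L k U ≠ 0 → Packx915.Conn fd (R k) U) :
    Tendsto (fun L => ∑ k ∈ Finset.range (K L), ∑ U, c L k U) atTop
      (𝓝 (∑' k, ∑' U, cP k U)) := by
  classical
  -- the two parts
  set near : (L : ℕ) → ℕ → ℝ := fun L k => ∑ U ∈ (boxG f₀ (Dr r R q L k)).powerset, cP k U
    with hnear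
  have hsplit : ∀ L k, k < K L → |∑ U, c L k U - near L k| ≤
      b k * wrapg Γ q ((L + 1) / r k) := by
    intro L k hk
    have h1 : near L k = ∑ U ∈ (boxG (pr (L + 1) f₀) (Dr r R q L k)).powerset, c L k U :=
      (small_bij (two_Dr_lt h hk) _ _ (hloc L k hk)).symm
    have h2 : ∑ U, c L k U - near L k =
        ∑ U, (if ¬ U ⊆ boxG (pr (L + 1) f₀) (Dr r R q L k) then c L k U else 0) := by
      rw [h1, ← Finset.sum_filter, Finset.filter_not]
      have e : (Finset.univ.filter fun U : Finset (ZMod (L + 1) × ZMod (L + 1)) =>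
          U ⊆ boxG (pr (L + 1) f₀) (Dr r R q L k)) =
          (boxG (pr (L + 1) f₀) (Dr r R q L k)).powerset := by
        ext U; simp
      rw [e, Finset.sum_sdiff_eq_sub (Finset.subset_univ _)]
    rw [h2]
    refine (Finset.abs_sum_le_sum_abs _ _).trans ?_
    have h3 := far_le h hk hΓ (hb0 k) (c L k) (hN L k hk) (hconn L k hk)
      (fun U => ¬ U ⊆ boxG (pr (L + 1) f₀) (Dr r R q L k)) (fun U hU hc => by
        rw [Finset.not_subset] at hU
        obtain ⟨u, hu, hnu⟩ := hU
        refine ⟨pr (L + 1) f₀, hpin L k hk U hc, u, hu, ?_⟩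
        rw [mem_box_iff'] at hnu
        exact not_le.1 hnu)
    refine le_trans (le_of_eq (Finset.sum_congr rfl fun U _ => ?_)) h3
    split_ifs <;> simp
  -- the far part vanishes
  have hfar : Tendsto (fun L => ∑ k ∈ Finset.range (K L), (∑ U, c L k U - near L k)) atTop
      (𝓝 0) := by
    have h1 := (tendsto_wrap hΓ h.q_pos hb hb0 r h.r_pos).comp (tendsto_add_atTop_nat 1)
    refine squeeze_zero_norm (fun L => ?_) h1
    rw [Real.norm_eq_abs]
    refine (Finset.abs_sum_le_sum_abs _ _).trans ?_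
    obtain ⟨C, hC0, hC⟩ := exists_wrapg_bound hΓ h.q_pos
    have hs : Summable fun k => b k * wrapg Γ q ((L + 1) / r k) := by
      refine Summable.of_nonneg_of_le (fun k => mul_nonneg (hb0 k) (wrapg_nonneg hΓ _ _))
        (fun k => mul_le_mul_of_nonneg_left (hC _) (hb0 k)) (hb.mul_right C)
    refine le_trans (Finset.sum_le_sum fun k hk => hsplit L k (Finset.mem_range.1 hk)) ?_
    exact hs.sum_le_tsum _ fun k _ => mul_nonneg (hb0 k) (wrapg_nonneg hΓ _ _)
  -- the near part converges
  have hne : Tendsto (fun L => ∑ k ∈ Finset.range (K L), near L k) atTop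
      (𝓝 (∑' k, ∑' U, cP k U)) := by
    have h1 : Tendsto (fun L => ∑' k, if k < K L then near L k else 0) atTop
        (𝓝 (∑' k, ∑' U, cP k U)) := by
      refine tendsto_tsum_of_dominated_convergence (bound := b) hb ?_ ?_
      · intro k
        have h2 : Tendsto (fun L => near L k) atTop (𝓝 (∑' U, cP k U)) := by
          have h3 : HasSum (cP k) (∑' U, cP k U) := (hcP k).of_abs.hasSum
          have h4 : Tendsto (fun D : ℕ => (boxG f₀ D).powerset) atTop atTop := by
            refine tendsto_atTop_finset_of_monotone (fun D D' hDD => ?_) fun U => ?_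
            · refine Finset.powerset_mono.2 fun g hg => ?_
              rw [mem_boxG] at hg ⊢
              omega
            · refine ⟨U.sup fun u => dG u f₀, Finset.mem_powerset.2 fun u hu => ?_⟩
              rw [mem_boxG]
              exact Finset.le_sup (f := fun u => dG u f₀) hu
          exact h3.comp (h4.comp (tendsto_Dr h k))
        refine h2.congr' ?_
        filter_upwards [h.K_top.eventually_gt_atTop k] with L hL
        rw [if_pos hL]
      · refine Eventually.of_forall fun L k => ?_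
        by_cases hk : k < K L
        · rw [if_pos hk, Real.norm_eq_abs]
          refine (Finset.abs_sum_le_sum_abs _ _).trans ?_
          refine le_trans ?_ (hcPb k)
          exact (hcP k).sum_le_tsum _ fun U _ => abs_nonneg _
        · rw [if_neg hk, norm_zero]; exact hb0 k
    refine h1.congr fun L => ?_
    rw [tsum_eq_sum (s := Finset.range (K L)) (fun k hk => by
      rw [Finset.mem_range] at hk; rw [if_neg hk])]
    exact Finset.sum_congr rfl fun k hk => by rw [if_pos (Finset.mem_range.1 hk)]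
  have := hfar.add hne
  rw [zero_add] at this
  refine this.congr fun L => ?_
  rw [← Finset.sum_add_distrib]
  exact Finset.sum_congr rfl fun k _ => by ring

/-- **differences between sectors**: if the constants of two sectors agree on the sets of small
diameter, the total difference over all scales vanishes. -/
theorem tendsto_diff (h : TorGeo r R K q) {Γ : ℝ} (hΓ : 1 < Γ) {b : ℕ → ℝ} (hb0 : ∀ k, 0 ≤ b k)
    (hb : Summable b)
    (c c' : (L : ℕ) → ℕ → Finset (ZMod (L + 1) × ZMod (L + 1)) → ℝ)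
    (hloc : ∀ L k, k < K L → ∀ U, U.Nonempty →
      (∀ x ∈ U, ∀ u ∈ U, fd x u ≤ Dr r R q L k) → c L k U = c' L k U)
    (h0 : ∀ L k, k < K L → c L k ∅ = c' L k ∅)
    (hN : ∀ L k, k < K L → NN fd (r k) (ENNReal.ofReal Γ) (fun U => ENNReal.ofReal |c L k U|) ≤
      ENNReal.ofReal (b k))
    (hN' : ∀ L k, k < K L → NN fd (r k) (ENNReal.ofReal Γ) (fun U => ENNReal.ofReal |c' L k U|) ≤
      ENNReal.ofReal (b k))
    (hconn : ∀ L k, k < K L → ∀ U, c L k U ≠ 0 → Packx915.Conn fd (R k) U)
    (hconn' : ∀ L k, k < K L → ∀ U, c' L k U ≠ 0 → Packx915.Conn fd (R k) U) :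
    Tendsto (fun L => ∑ k ∈ Finset.range (K L), (∑ U, c L k U - ∑ U, c' L k U)) atTop (𝓝 0) := by
  classical
  have key : ∀ L k, k < K L → |∑ U, c L k U - ∑ U, c' L k U| ≤
      2 * (b k * wrapg Γ q ((L + 1) / r k)) := by
    intro L k hk
    rw [← Finset.sum_sub_distrib]
    refine (Finset.abs_sum_le_sum_abs _ _).trans ?_
    set p : Finset (ZMod (L + 1) × ZMod (L + 1)) → Prop := fun U =>
      ∃ x ∈ U, ∃ u ∈ U, Dr r R q L k < fd x u with hp
    have h1 := far_le h hk hΓ (hb0 k) (c L k) (hN L k hk) (hconn L k hk) p (fun U hU _ => hU)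
    have h2 := far_le h hk hΓ (hb0 k) (c' L k) (hN' L k hk) (hconn' L k hk) p (fun U hU _ => hU)
    have h3 : ∑ U : Finset (ZMod (L + 1) × ZMod (L + 1)), |c L k U - c' L k U| ≤
        ∑ U : Finset (ZMod (L + 1) × ZMod (L + 1)),
          ((if p U then |c L k U| else 0) + (if p U then |c' L k U| else 0)) := by
      refine Finset.sum_le_sum fun U _ => ?_
      by_cases hU : p U
      · rw [if_pos hU, if_pos hU]
        exact abs_sub _ _
      · rw [if_neg hU, if_neg hU]
        have : c L k U = c' L k U := by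
          rcases Finset.eq_empty_or_nonempty U with rfl | hne
          · exact h0 L k hk
          · refine hloc L k hk U hne fun x hx u hu => ?_
            by_contra hcon
            exact hU ⟨x, hx, u, hu, not_le.1 hcon⟩
        rw [this, sub_self, abs_zero, add_zero]
    rw [Finset.sum_add_distrib] at h3
    linarith
  have h1 := ((tendsto_wrap hΓ h.q_pos hb hb0 r h.r_pos).comp (tendsto_add_atTop_nat 1)).const_mul 2
  rw [mul_zero] at h1
  refine squeeze_zero_norm (fun L => ?_) h1
  rw [Real.norm_eq_abs]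
  refine (Finset.abs_sum_le_sum_abs _ _).trans ?_
  obtain ⟨C, hC0, hC⟩ := exists_wrapg_bound hΓ h.q_pos
  have hs : Summable fun k => b k * wrapg Γ q ((L + 1) / r k) := by
    refine Summable.of_nonneg_of_le (fun k => mul_nonneg (hb0 k) (wrapg_nonneg hΓ _ _))
      (fun k => mul_le_mul_of_nonneg_left (hC _) (hb0 k)) (hb.mul_right C)
  refine le_trans (Finset.sum_le_sum fun k hk => key L k (Finset.mem_range.1 hk)) ?_
  rw [← Finset.mul_sum]
  refine mul_le_mul_of_nonneg_left ?_ (by norm_num)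
  exact hs.sum_le_tsum _ fun k _ => mul_nonneg (hb0 k) (wrapg_nonneg hΓ _ _)

end pinned

end Crest.Agent.R165.TorTanx723
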