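import Crest.Agent.R165.NSum_915
import Crest.Agent.R165.MetG_723
import Crest.Agent.R165.TorChart_723

/-!
# Row 165 (S0250): sets which wrap around the torus (helper723)

* `pack_ge`        : a connected set with two distant points has a large packing number
* `fd_eq_int`, `fd_eq_zmod` : `GDef.fd = MetG.dG`; `pd_fd`, `cov_fd` (coverings), `fd_le_half`
* `emb_or_pack`    : a connected set of torus faces is plane (`Emb`) or has packing number `≥ m`
* `sum_large_le`   : the sets with packing number `≥ m` have total mass `≤ n Γ^{-m} b`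
* `wrapg`, `tendsto_wrap` : `∑_k b_k g(M / r_k) → 0` for summable `b`
-/

set_option autoImplicit false

noncomputable section

open Finset Filter Topology
open scoped ENNReal
open Crest.Agent.R165.Packx915 Crest.Agent.R165.NSumx915
open Crest.Agent.R165.Latx683 Crest.Agent.R165.GDefx387
open Crest.Agent.R165.MetGx723 Crest.Agent.R165.TorChartx723

namespace Crest.Agent.R165.TorWrapx723

section pack

variable {X : Type*} {d : X → X → ℕ}

open scoped Classical in
/-- a connected set with two points at distance `≥ n (r + R + 1)` has `n + 1` separated points -/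
theorem pack_ge (hd : PD d) {R r n : ℕ} {U : Finset X} (hU : Packx915.Conn d R U) {p q : X}
    (hp : p ∈ U) (hq : q ∈ U) (h : n * (r + R + 1) ≤ d p q) : n + 1 ≤ pack d r U := by
  -- points `z j`, `1 ≤ j ≤ n`, at distance in `[j (r+R+1), j (r+R+1) + R)`, and `z 0 = p`
  have hz : ∀ j : ℕ, ∃ z, j ≤ n → z ∈ U ∧ j * (r + R + 1) ≤ d p z ∧
      d p z ≤ j * (r + R + 1) + R := by
    intro j
    by_cases hj : j ≤ n
    · rcases Nat.eq_zero_or_pos j with rfl | hpos
      · exact ⟨p, fun _ => ⟨hp, by rw [hd.self]; simp, by rw [hd.self]; omega⟩⟩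
      · have h1 : j * (r + R + 1) ≤ d p q := (Nat.mul_le_mul_right _ hj).trans h
        obtain ⟨z, hzU, h2, h3⟩ := hU.exists_level hd hp hq
          (Nat.mul_pos hpos (Nat.succ_pos _)) h1
        exact ⟨z, fun _ => ⟨hzU, h2, h3.le⟩⟩
    · exact ⟨p, fun h => absurd h hj⟩
  choose z hz using hz
  have hord : ∀ i j, i < j → j ≤ n → r < d (z i) (z j) := by
    intro i j hij hj
    have h1 := (hz i (hij.le.trans hj)).2.2
    have h2 := (hz j hj).2.1
    have h3 := hd.tri p (z i) (z j)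
    have h4 : (i + 1) * (r + R + 1) ≤ j * (r + R + 1) := Nat.mul_le_mul_right _ hij
    have h5 : (i + 1) * (r + R + 1) = i * (r + R + 1) + (r + R + 1) := by ring
    omega
  have hinj : Set.InjOn z (Finset.range (n + 1) : Set ℕ) := by
    intro i hi j hj hij
    rw [Finset.coe_range, Set.mem_Iio] at hi hj
    by_contra hne
    rcases lt_or_gt_of_ne hne with h | h
    · have := hord i j h (by omega)
      rw [hij, hd.self] at this; omega
    · have := hord j i h (by omega)
      rw [hij, hd.self] at this; omega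
  have hScard : ((Finset.range (n + 1)).image z).card = n + 1 := by
    rw [Finset.card_image_of_injOn hinj, Finset.card_range]
  rw [← hScard]
  refine card_le_pack (fun w hw => ?_) ?_
  · obtain ⟨j, hj, rfl⟩ := Finset.mem_image.1 hw
    exact (hz j (by have := Finset.mem_range.1 hj; omega)).1
  · intro a ha b hb hab
    obtain ⟨i, hi, rfl⟩ := Finset.mem_image.1 ha
    obtain ⟨j, hj, rfl⟩ := Finset.mem_image.1 hb
    rw [Finset.mem_range] at hi hj
    rcases lt_trichotomy i j with h | h | h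
    · exact hord i j h (by omega)
    · exact absurd (congrArg z h) hab
    · rw [hd.symm]; exact hord j i h (by omega)

/-- the sets with packing number at least `m` carry little mass -/
theorem sum_large_le [Fintype X] {R r n m : ℕ} (hcov : Cov d R r n) (hR : ∀ f g : X, d f g ≤ R)
    {Γ : ℝ} (hΓ : 1 ≤ Γ) {b : ℝ} (hb : 0 ≤ b) (c : Finset X → ℝ)
    (hN : NN d r (ENNReal.ofReal Γ) (fun U => ENNReal.ofReal |c U|) ≤ ENNReal.ofReal b)
    (p : Finset X → Prop) [DecidablePred p] (hp : ∀ U, p U → U.Nonempty ∧ m ≤ pack d r U) :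
    ∑ U : Finset X, (if p U then |c U| else 0) ≤ n * b / Γ ^ m := by
  classical
  have hΓ0 : 0 < Γ := by linarith
  rw [le_div_iff₀ (pow_pos hΓ0 m), Finset.sum_mul]
  have hreal : (0:ℝ) ≤ n * b := by positivity
  rw [← ENNReal.ofReal_le_ofReal_iff hreal,
    ENNReal.ofReal_sum_of_nonneg (fun U _ => by split_ifs <;> positivity)]
  by_cases hX : Nonempty X
  · obtain ⟨f⟩ := hX
    obtain ⟨net, hcard, hnet⟩ := hcov f
    calc ∑ U : Finset X, ENNReal.ofReal ((if p U then |c U| else 0) * Γ ^ m)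
        ≤ ∑ U : Finset X, ∑ g ∈ net, Set.indicator {U | near d r g U}
            (fun U => ENNReal.ofReal Γ ^ pack d r U * ENNReal.ofReal |c U|) U := by
          refine Finset.sum_le_sum fun U _ => ?_
          by_cases hU : p U
          · rw [if_pos hU]
            obtain ⟨⟨u, hu⟩, hm⟩ := hp U hU
            obtain ⟨g, hg, hgu⟩ := hnet u (hR f u)
            refine le_trans ?_ (Finset.single_le_sum
              (f := fun g => Set.indicator {U | near d r g U}
                (fun U => ENNReal.ofReal Γ ^ pack d r U * ENNReal.ofReal |c U|) U)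
              (fun _ _ => zero_le) hg)
            rw [Set.indicator_of_mem (by exact ⟨u, hu, hgu⟩)]
            rw [mul_comm |c U|, ENNReal.ofReal_mul (by positivity), ENNReal.ofReal_pow hΓ0.le]
            refine mul_le_mul_left ?_ _
            exact pow_le_pow_right₀ (by rw [← ENNReal.ofReal_one]; exact ENNReal.ofReal_le_ofReal hΓ) hm
          · rw [if_neg hU, zero_mul, ENNReal.ofReal_zero]
            exact zero_le
      _ = ∑ g ∈ net, ∑ U : Finset X, Set.indicator {U | near d r g U}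
            (fun U => ENNReal.ofReal Γ ^ pack d r U * ENNReal.ofReal |c U|) U := Finset.sum_comm
      _ ≤ ∑ g ∈ net, NN d r (ENNReal.ofReal Γ) (fun U => ENNReal.ofReal |c U|) := by
          refine Finset.sum_le_sum fun g _ => ?_
          refine le_trans (le_of_eq ?_) (bs_le_NN _ g)
          rw [bs, tsum_fintype]
      _ ≤ ∑ g ∈ net, ENNReal.ofReal b := Finset.sum_le_sum fun g _ => hN
      _ = net.card * ENNReal.ofReal b := by rw [Finset.sum_const, nsmul_eq_mul]
      _ ≤ n * ENNReal.ofReal b := by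
          refine mul_le_mul_left ?_ _
          exact_mod_cast hcard
      _ = ENNReal.ofReal (n * b) := by
          rw [ENNReal.ofReal_mul (Nat.cast_nonneg n), ENNReal.ofReal_natCast]
  · have : ∀ U : Finset X, ¬ p U := by
      intro U hU
      obtain ⟨⟨u, _⟩, _⟩ := hp U hU
      exact hX ⟨u⟩
    rw [Finset.sum_eq_zero]
    · exact zero_le
    · intro U _
      rw [if_neg (this U), zero_mul, ENNReal.ofReal_zero]

end pack

/-! ### `fd` and the torus -/

section fd

theorem cn_int (a : ℤ) : cn a = nrmG a := by rw [nrmG_int]; rfl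

theorem cn_zm {M : ℕ} [NeZero M] (a : ZMod M) : cn a = nrmG a := by
  have h := a.natAbs_valMinAbs_le
  have h1 : nrmG ((a.valMinAbs : ℤ) : ZMod M) = a.valMinAbs.natAbs := nrmG_zmod (by omega)
  rw [ZMod.coe_valMinAbs] at h1
  rw [h1]; rfl

theorem fd_eq_int (f g : ℤ × ℤ) : fd f g = dG f g := by
  unfold fd dG
  rw [cn_int, cn_int]

theorem fd_eq_zmod {M : ℕ} [NeZero M] (f g : ZMod M × ZMod M) : fd f g = dG f g := by
  unfold fd dG
  rw [cn_zm, cn_zm]

theorem pd_fd {G : Type} [CommRing G] [CN G] : PD (fd : G × G → G × G → ℕ) :=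
  ⟨fd_self, fd_comm, fd_triangle⟩

theorem cov_int {r : ℕ} (hr : 0 < r) (s : ℕ) :
    Cov (fd : ℤ × ℤ → ℤ × ℤ → ℕ) s r ((2 * (s / r) + 3) ^ 2) := by
  intro f
  obtain ⟨C, hC, h⟩ := exists_cover f hr s
  refine ⟨C, hC, fun u hu => ?_⟩
  rw [fd_comm, fd_eq_int] at hu
  obtain ⟨c, hc, hcu⟩ := h u hu
  exact ⟨c, hc, by rw [fd_comm, fd_eq_int]; exact hcu⟩

theorem cov_zmod {M : ℕ} [NeZero M] {r : ℕ} (hr : 0 < r) (s : ℕ) :
    Cov (fd : ZMod M × ZMod M → ZMod M × ZMod M → ℕ) s r ((2 * (s / r) + 3) ^ 2) := by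
  intro f
  obtain ⟨C, hC, h⟩ := exists_cover f hr s
  refine ⟨C, hC, fun u hu => ?_⟩
  rw [fd_comm, fd_eq_zmod] at hu
  obtain ⟨c, hc, hcu⟩ := h u hu
  exact ⟨c, hc, by rw [fd_comm, fd_eq_zmod]; exact hcu⟩

theorem fd_le_half {M : ℕ} [NeZero M] (f g : ZMod M × ZMod M) : fd f g ≤ M / 2 :=
  max_le (ZMod.natAbs_valMinAbs_le _) (ZMod.natAbs_valMinAbs_le _)

/-- **a connected set of torus faces is plane or large** -/
theorem emb_or_pack {M : ℕ} [NeZero M] {ε₁ ε₂ : ℝ} (h₁ : ε₁ * ε₁ = 1) (h₂ : ε₂ * ε₂ = 1)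
    {U : Finset (ZMod M × ZMod M)} {R r ρ m : ℕ}
    (hU : Packx915.Conn fd R U) (hne : U.Nonempty)
    (hm : 4 * (m * (ρ + R + 1) + s2 * r + 1) ≤ M) :
    Emb (wTor M ε₁ ε₂) r U ∨ m + 1 ≤ pack fd ρ U := by
  obtain ⟨x, hx⟩ := hne
  by_cases h : ∀ u ∈ U, fd x u ≤ m * (ρ + R + 1)
  · exact Or.inl (emb_tor h₁ h₂ h hm)
  · push Not at h
    obtain ⟨u, hu, hxu⟩ := h
    exact Or.inr (pack_ge pd_fd hU hx hu hxu.le)

end fd

/-! ### Sums over scales -/

section scales

/-- the wrapping factor -/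
def wrapg (Γ : ℝ) (q : ℕ) (x : ℕ) : ℝ := (2 * (x : ℝ) + 3) ^ 2 / Γ ^ (x / q)

theorem wrapg_nonneg {Γ : ℝ} (hΓ : 1 < Γ) (q x : ℕ) : 0 ≤ wrapg Γ q x := by
  unfold wrapg; positivity

theorem tendsto_wrapg {Γ : ℝ} (hΓ : 1 < Γ) {q : ℕ} (hq : 0 < q) :
    Tendsto (wrapg Γ q) atTop (𝓝 0) := by
  -- compare with `(2 q (y + 1) + 3)^2 / Γ^y` at `y = x / q`
  have h1 : Tendsto (fun y : ℕ => (2 * (q : ℝ) * ((y : ℝ) + 1) + 3) ^ 2 / Γ ^ y) atTop (𝓝 0) := by
    have hr : |Γ⁻¹| < 1 := by
      rw [abs_of_pos (by positivity)]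
      exact inv_lt_one_of_one_lt₀ hΓ
    have k0 := tendsto_pow_const_mul_const_pow_of_abs_lt_one 0 hr
    have k1 := tendsto_pow_const_mul_const_pow_of_abs_lt_one 1 hr
    have k2 := tendsto_pow_const_mul_const_pow_of_abs_lt_one 2 hr
    have h := ((k2.const_mul (4 * (q : ℝ) ^ 2)).add
      (k1.const_mul (8 * (q : ℝ) ^ 2 + 12 * q))).add
      (k0.const_mul (4 * (q : ℝ) ^ 2 + 12 * q + 9))
    simp only [mul_zero, add_zero] at h
    refine h.congr fun y => ?_
    rw [div_eq_mul_inv, ← inv_pow]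
    ring
  have h2 : Tendsto (fun x : ℕ => x / q) atTop atTop := Nat.tendsto_div_const_atTop hq.ne'
  refine squeeze_zero (fun x => wrapg_nonneg hΓ q x) (fun x => ?_) (h1.comp h2)
  unfold wrapg
  simp only [Function.comp]
  have hx : (x : ℝ) ≤ q * (((x / q : ℕ) : ℝ) + 1) := by
    have := Nat.lt_mul_div_succ x hq
    have h3 : (x : ℝ) < q * ((x / q + 1 : ℕ) : ℝ) := by exact_mod_cast this
    push_cast at h3
    exact h3.le
  refine div_le_div_of_nonneg_right ?_ (by positivity)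
  have h0 : (0 : ℝ) ≤ 2 * (x : ℝ) + 3 := by positivity
  refine pow_le_pow_left₀ h0 ?_ 2
  nlinarith

theorem exists_wrapg_bound {Γ : ℝ} (hΓ : 1 < Γ) {q : ℕ} (hq : 0 < q) :
    ∃ C, 0 ≤ C ∧ ∀ x, wrapg Γ q x ≤ C := by
  obtain ⟨C, hC⟩ := (tendsto_wrapg hΓ hq).bddAbove_range
  refine ⟨C, le_trans (wrapg_nonneg hΓ q 0) (hC ⟨0, rfl⟩), fun x => hC ⟨x, rfl⟩⟩

/-- **the total mass of the wrapping sets vanishes** -/
theorem tendsto_wrap {Γ : ℝ} (hΓ : 1 < Γ) {q : ℕ} (hq : 0 < q) {b : ℕ → ℝ} (hb : Summable b)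
    (hb0 : ∀ k, 0 ≤ b k) (r : ℕ → ℕ) (hr : ∀ k, 0 < r k) :
    Tendsto (fun M : ℕ => ∑' k, b k * wrapg Γ q (M / r k)) atTop (𝓝 0) := by
  obtain ⟨C, hC0, hC⟩ := exists_wrapg_bound hΓ hq
  have h := tendsto_tsum_of_dominated_convergence (𝓕 := atTop)
    (f := fun (M : ℕ) k => b k * wrapg Γ q (M / r k)) (g := fun _ => (0:ℝ))
    (bound := fun k => b k * C) (hb.mul_right C) ?_ ?_
  · simpa using h
  · intro k
    have h2 : Tendsto (fun M : ℕ => M / r k) atTop atTop :=
      Nat.tendsto_div_const_atTop (hr k).ne'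
    have h3 := ((tendsto_wrapg hΓ hq).comp h2).const_mul (b k)
    simpa using h3
  · refine Eventually.of_forall fun M k => ?_
    rw [Real.norm_of_nonneg (mul_nonneg (hb0 k) (wrapg_nonneg hΓ q _))]
    exact mul_le_mul_of_nonneg_left (hC _) (hb0 k)

end scales

end Crest.Agent.R165.TorWrapx723
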