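import Mathlib

/-!
Row 165, block J (helper922): combinatorics of the torus sector formula.

Primal vertices of the torus `(ℤ/L)²`, primal edges `(u, 0)` from `u` to `u + (1,0)` and `(u, 1)` from `u`
to `u + (0,1)`; the face `f` has the four edges `(f,0), (f,1), (f+(0,1),0), (f+(1,0),1)`.
-/

set_option autoImplicit false
set_option linter.all false

open Finset

namespace Crest.Agent.R165.TorusCombx922

/-- Vertices (and faces) of the torus. -/
abbrev Vx (L : ℕ) : Type := ZMod L × ZMod L
/-- Primal edges of the torus. -/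
abbrev Ed (L : ℕ) : Type := (ZMod L × ZMod L) × Fin 2

section cyc

variable {L : ℕ} [NeZero L]

theorem zmod_induction {P : ZMod L → Prop} (h0 : P 0) (h1 : ∀ k, P k → P (k + 1)) (k : ZMod L) :
    P k := by
  have : ∀ n : ℕ, P (n : ZMod L) := by
    intro n
    induction n with
    | zero => simpa using h0
    | succ n ih => rw [Nat.cast_succ]; exact h1 _ ih
  have h := this k.val
  rwa [ZMod.natCast_zmod_val] at h

theorem sum_range_zmod {A : Type*} [AddCommMonoid A] (g : ZMod L → A) :
    ∑ m ∈ range L, g (m : ZMod L) = ∑ x : ZMod L, g x := by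
  refine Finset.sum_bij' (fun m _ => (m : ZMod L)) (fun x _ => x.val) ?_ ?_ ?_ ?_ ?_
  · intro m _; exact mem_univ _
  · intro x _; exact mem_range.2 (ZMod.val_lt x)
  · intro m hm; exact ZMod.val_cast_of_lt (mem_range.1 hm)
  · intro x _; exact ZMod.natCast_zmod_val x
  · intro m _; rfl

/-- A function on the cycle with zero sum has a primitive. -/
theorem exists_primitive {A : Type*} [AddCommGroup A] (g : ZMod L → A) (h : ∑ x, g x = 0) :
    ∃ G : ZMod L → A, ∀ k, G (k + 1) = G k + g k := by
  refine ⟨fun k => ∑ m ∈ range k.val, g (m : ZMod L), fun k => ?_⟩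
  have hk : k.val < L := ZMod.val_lt k
  rcases Nat.lt_or_ge (k.val + 1) L with h1 | h1
  · have hv : (k + 1).val = k.val + 1 := by
      conv_lhs => rw [← ZMod.natCast_zmod_val k, ← Nat.cast_succ]
      exact ZMod.val_cast_of_lt h1
    simp only [hv, sum_range_succ, ZMod.natCast_zmod_val]
  · have hL : k.val + 1 = L := by omega
    have h0 : k + 1 = 0 := by
      have : ((k.val + 1 : ℕ) : ZMod L) = ((L : ℕ) : ZMod L) := by rw [hL]
      rwa [Nat.cast_succ, ZMod.natCast_zmod_val, ZMod.natCast_self] at this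
    have e1 : ∑ m ∈ range k.val, g (m : ZMod L) + g k = ∑ m ∈ range L, g (m : ZMod L) := by
      have e2 : range L = range (k.val + 1) := by rw [hL]
      rw [e2, sum_range_succ, ZMod.natCast_zmod_val]
    simp only [h0, ZMod.val_zero, range_zero, sum_empty]
    rw [e1, sum_range_zmod, h]

end cyc

section exact

variable {L : ℕ} [NeZero L]

theorem two_add (a : ZMod 2) : a + a = 0 := CharTwo.add_self_eq_zero a

/-- A closed `ZMod 2`-valued edge function with vanishing holonomies along the two basic loops is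
a coboundary. -/
theorem exact_of_closed (s : Ed L → ZMod 2)
    (hc : ∀ i j : ZMod L, s ((i, j), 0) + s ((i, j), 1) + s ((i, j + 1), 0) + s ((i + 1, j), 1) = 0)
    (h1 : ∑ i : ZMod L, s ((i, 0), 0) = 0) (h2 : ∑ j : ZMod L, s ((0, j), 1) = 0) :
    ∃ τ : ZMod L → ZMod L → ZMod 2, ∀ i j, τ (i + 1) j = τ i j + s ((i, j), 0) ∧
      τ i (j + 1) = τ i j + s ((i, j), 1) := by
  obtain ⟨G, hG⟩ := exists_primitive (fun i => s ((i, 0), 0)) h1
  have hcol : ∀ i : ZMod L, ∑ j : ZMod L, s ((i, j), 1) = 0 := by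
    intro i
    induction i using zmod_induction with
    | h0 => exact h2
    | h1 i ih =>
      have hs : ∑ j : ZMod L, (s ((i, j), 0) + s ((i, j), 1) + s ((i, j + 1), 0) +
          s ((i + 1, j), 1)) = 0 := Finset.sum_eq_zero fun j _ => hc i j
      rw [sum_add_distrib, sum_add_distrib, sum_add_distrib, ih] at hs
      have hshift : ∑ j : ZMod L, s ((i, j + 1), 0) = ∑ j : ZMod L, s ((i, j), 0) :=
        Fintype.sum_equiv (Equiv.addRight (1 : ZMod L)) _ _ fun j => rfl
      rw [hshift, add_zero, two_add, zero_add] at hs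
      exact hs
  choose K hK using fun i => exists_primitive (fun j => s ((i, j), 1)) (hcol i)
  refine ⟨fun i j => G i + (K i j - K i 0), fun i j => ⟨?_, ?_⟩⟩
  · induction j using zmod_induction with
    | h0 => simp only [sub_self, add_zero]; exact hG i
    | h1 j ih =>
      simp only at ih ⊢
      rw [hK, hK]
      have e := hc i j
      have e' : s ((i, j + 1), 0) = s ((i, j), 0) + s ((i, j), 1) + s ((i + 1, j), 1) := by
        have := congrArg (fun z => z + (s ((i, j), 0) + s ((i, j), 1) + s ((i + 1, j), 1))) e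
        simp only [zero_add] at this
        rw [← this]
        have t : ∀ a b c d : ZMod 2, c = a + b + c + d + (a + b + d) := by decide
        exact t _ _ _ _
      rw [e']
      have t : ∀ g g' k k' k0 k0' a b c : ZMod 2, g' + (k' - k0') = g + (k - k0) + a →
          g' + (k' + c - k0') = g + (k + b - k0) + (a + b + c) := by decide
      exact t _ _ _ _ _ _ _ _ _ ih
  · simp only
    rw [hK]; ring

end exact

section walls

variable {L : ℕ} [NeZero L]

/-- The far end point of an edge. -/
def tgt (e : Ed L) : Vx L := if e.2 = 0 then (e.1.1 + 1, e.1.2) else (e.1.1, e.1.2 + 1)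

/-- The set of edges with different spins at the end points. -/
def walls (σ : Vx L → Bool) : Finset (Ed L) := univ.filter fun e => σ e.1 ≠ σ (tgt e)

/-- The four edges of a vertex. -/
def starSet (v : Vx L) : Finset (Ed L) :=
  {(v, 0), (v, 1), ((v.1 - 1, v.2), 0), ((v.1, v.2 - 1), 1)}

/-- The indicator of a set of edges, in `ZMod 2`. -/
def ind (S : Finset (Ed L)) (e : Ed L) : ZMod 2 := if e ∈ S then 1 else 0

/-- `S` is even at the face `(i, j)`. -/
def EvenAt (S : Finset (Ed L)) (i j : ZMod L) : Prop :=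
  ind S ((i, j), 0) + ind S ((i, j), 1) + ind S ((i, j + 1), 0) + ind S ((i + 1, j), 1) = 0

/-- Horizontal holonomy. -/
def hol1 (S : Finset (Ed L)) : ZMod 2 := ∑ i : ZMod L, ind S ((i, 0), 0)
/-- Vertical holonomy. -/
def hol2 (S : Finset (Ed L)) : ZMod 2 := ∑ j : ZMod L, ind S ((0, j), 1)

theorem exists_config (S : Finset (Ed L)) (hc : ∀ i j, EvenAt S i j) (h1 : hol1 S = 0)
    (h2 : hol2 S = 0) : ∃ σ : Vx L → Bool, walls σ = S := by
  obtain ⟨τ, hτ⟩ := exact_of_closed (ind S) hc h1 h2
  refine ⟨fun v => decide (τ v.1 v.2 = 1), ?_⟩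
  have t : ∀ a b : ZMod 2, (decide (a = 1) ≠ decide (a + b = 1)) ↔ b = 1 := by decide
  ext e
  obtain ⟨⟨i, j⟩, k⟩ := e
  simp only [walls, mem_filter, mem_univ, true_and]
  have hk : k = 0 ∨ k = 1 := by omega
  rcases hk with rfl | rfl
  · have e1 : tgt (((i, j), 0) : Ed L) = (i + 1, j) := by simp [tgt]
    rw [e1]
    simp only
    rw [(hτ i j).1, t, ind]
    by_cases hm : ((i, j), (0 : Fin 2)) ∈ S <;> simp [hm]
  · have e1 : tgt (((i, j), 1) : Ed L) = (i, j + 1) := by simp [tgt]
    rw [e1]
    simp only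
    rw [(hτ i j).2, t, ind]
    by_cases hm : ((i, j), (1 : Fin 2)) ∈ S <;> simp [hm]

theorem walls_eq_iff (σ σ' : Vx L → Bool) :
    walls σ = walls σ' ↔ (σ' = σ ∨ σ' = fun v => !(σ v)) := by
  constructor
  · intro h
    have key : ∀ e : Ed L, (xor (σ e.1) (σ' e.1)) = (xor (σ (tgt e)) (σ' (tgt e))) := by
      intro e
      have := Finset.ext_iff.1 h e
      simp only [walls, mem_filter, mem_univ, true_and] at this
      revert this
      cases σ e.1 <;> cases σ' e.1 <;> cases σ (tgt e) <;> cases σ' (tgt e) <;> simp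
    have hrow : ∀ i j : ZMod L, xor (σ (i, j)) (σ' (i, j)) = xor (σ (0, 0)) (σ' (0, 0)) := by
      intro i j
      have a : xor (σ (i, j)) (σ' (i, j)) = xor (σ (i, 0)) (σ' (i, 0)) := by
        induction j using zmod_induction with
        | h0 => rfl
        | h1 j ih =>
          have := key ((i, j), 1)
          simp only [tgt] at this
          rw [← ih]; exact this.symm
      have b : xor (σ (i, 0)) (σ' (i, 0)) = xor (σ (0, 0)) (σ' (0, 0)) := by
        clear a
        induction i using zmod_induction with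
        | h0 => rfl
        | h1 i ih =>
          have := key ((i, 0), 0)
          simp only [tgt] at this
          rw [← ih]; exact this.symm
      rw [a, b]
    cases hx : xor (σ (0, 0)) (σ' (0, 0)) with
    | false =>
      left
      funext v
      have := hrow v.1 v.2
      rw [hx] at this
      revert this
      cases σ v <;> cases σ' v <;> simp
    | true =>
      right
      funext v
      have := hrow v.1 v.2
      rw [hx] at this
      revert this
      cases σ v <;> cases σ' v <;> simp
  · rintro (rfl | rfl)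
    · rfl
    · ext e
      simp only [walls, mem_filter, mem_univ, true_and]
      cases σ e.1 <;> cases σ (tgt e) <;> simp

theorem sum_walls (F : Finset (Ed L) → ℝ) :
    ∑ σ : Vx L → Bool, F (walls σ) =
      2 * ∑ S ∈ univ.filter (fun S : Finset (Ed L) => ∃ σ : Vx L → Bool, walls σ = S), F S := by
  classical
  rw [← Finset.sum_fiberwise_of_maps_to (s := univ)
    (t := univ.filter (fun S : Finset (Ed L) => ∃ σ : Vx L → Bool, walls σ = S))
    (g := walls) (fun σ _ => by simp), Finset.mul_sum]
  refine Finset.sum_congr rfl fun S hS => ?_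
  obtain ⟨σ0, hσ0⟩ := (mem_filter.1 hS).2
  have hset : (univ.filter fun σ : Vx L → Bool => walls σ = S) =
      {σ0, fun v => !(σ0 v)} := by
    ext σ
    simp only [mem_filter, mem_univ, true_and, mem_insert, mem_singleton]
    rw [← hσ0, eq_comm, walls_eq_iff]
  have hne : σ0 ≠ fun v => !(σ0 v) := by
    intro h
    have := congrFun h (0, 0)
    revert this
    cases σ0 (0, 0) <;> simp
  have hconst : ∀ σ ∈ univ.filter (fun σ : Vx L → Bool => walls σ = S), F (walls σ) = F S := by
    intro σ hσ
    rw [(mem_filter.1 hσ).2]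
  rw [Finset.sum_congr rfl hconst, Finset.sum_const, hset, Finset.card_pair hne]
  simp

end walls

section kappa

variable {L : ℕ} [NeZero L]

theorem ind_symmDiff (S T : Finset (Ed L)) (e : Ed L) :
    ind (symmDiff S T) e = ind S e + ind T e := by
  unfold ind
  by_cases h1 : e ∈ S <;> by_cases h2 : e ∈ T <;>
    simp [Finset.mem_symmDiff, h1, h2, two_add]

theorem mem_starSet (hL : 2 ≤ L) (v : Vx L) (e : Ed L) :
    e ∈ starSet v ↔ ((e.1 = v) ∨ (tgt e = v)) ∧ e.1 ≠ tgt e := by
  have h1 : (1 : ZMod L) ≠ 0 := by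
    haveI : Fact (1 < L) := ⟨by omega⟩
    exact one_ne_zero
  have hz : ∀ a : ZMod L, a ≠ a + 1 := fun a h => h1 (by simpa using h)
  have hs : ∀ a b : ZMod L, a = b - 1 ↔ a + 1 = b := fun a b => eq_sub_iff_add_eq
  have h10 : ¬ ((1 : Fin 2) = 0) := by decide
  have h01 : ¬ ((0 : Fin 2) = 1) := by decide
  obtain ⟨⟨i, j⟩, k⟩ := e
  obtain ⟨a, b⟩ := v
  have hk : k = 0 ∨ k = 1 := by omega
  rcases hk with rfl | rfl
  · simp only [starSet, tgt, mem_insert, mem_singleton, Prod.mk.injEq, if_true, ne_eq, hs, h01,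
      and_false, or_false, false_or, and_true, hz, not_false_eq_true]
  · simp only [starSet, tgt, mem_insert, mem_singleton, Prod.mk.injEq, if_false, ne_eq, hs, h10,
      and_false, false_or, and_true, hz, not_false_eq_true]

/-- Flipping one spin toggles the star of the vertex. -/
theorem walls_update (hL : 2 ≤ L) (σ : Vx L → Bool) (v : Vx L) :
    walls (Function.update σ v (!(σ v))) = symmDiff (walls σ) (starSet v) := by
  have h1 : (1 : ZMod L) ≠ 0 := by
    haveI : Fact (1 < L) := ⟨by omega⟩
    exact one_ne_zero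
  have hne : ∀ e : Ed L, e.1 ≠ tgt e := by
    rintro ⟨⟨i, j⟩, k⟩ h
    by_cases hk : k = 0
    · simp only [tgt, hk, if_true, Prod.mk.injEq] at h
      exact h1 (by simpa using h.1)
    · simp only [tgt, hk, if_false, Prod.mk.injEq] at h
      exact h1 (by simpa using h.2)
  ext e
  rw [Finset.mem_symmDiff, mem_starSet hL]
  simp only [walls, mem_filter, mem_univ, true_and]
  by_cases ha : e.1 = v
  · have hb : tgt e ≠ v := fun h => hne e (ha.trans h.symm)
    rw [ha, Function.update_self, Function.update_of_ne hb]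
    have : v ≠ tgt e := fun h => hb h.symm
    cases σ v <;> cases σ (tgt e) <;> simp [this]
  · by_cases hb : tgt e = v
    · rw [hb, Function.update_self, Function.update_of_ne ha]
      cases σ v <;> cases σ e.1 <;> simp [ha]
    · rw [Function.update_of_ne ha, Function.update_of_ne hb]
      simp [ha, hb]

/-- `κ` is invariant under toggling stars, hence equal to its value at `∅` on all wall sets. -/
theorem kappa_walls (hL : 2 ≤ L) (κ : Finset (Ed L) → ℝ)
    (htog : ∀ S v, κ (symmDiff S (starSet v)) = κ S) (σ : Vx L → Bool) : κ (walls σ) = κ ∅ := by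
  classical
  have h : ∀ T : Finset (Vx L), κ (walls fun v => decide (v ∈ T)) = κ ∅ := by
    intro T
    induction T using Finset.induction_on with
    | empty =>
      congr 1
      ext e; simp [walls]
    | insert a T ha ih =>
      have : (fun v => decide (v ∈ insert a T)) =
          Function.update (fun v => decide (v ∈ T)) a (!(decide (a ∈ T))) := by
        funext v
        by_cases hv : v = a
        · subst hv; simp [ha]
        · rw [Function.update_of_ne hv]; simp [hv]
      rw [this, walls_update hL, htog, ih]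
  have := h (univ.filter fun v => σ v = true)
  simpa using this

/-- Seam sign of an edge in the sector `(a, b)`. -/
def seam (a b : ℝ) (e : Ed L) : ℝ :=
  if e.2 = 0 then (if e.1.2 = 0 then a else 1) else (if e.1.1 = 0 then b else 1)

theorem prod_seam (a b : ℝ) (S : Finset (Ed L)) :
    ∏ e ∈ S, seam a b e =
      a ^ (S.filter fun e => e.2 = 0 ∧ e.1.2 = 0).card *
        b ^ (S.filter fun e => e.2 = 1 ∧ e.1.1 = 0).card := by
  classical
  rw [← Finset.prod_const, ← Finset.prod_const, Finset.prod_filter, Finset.prod_filter,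
    ← Finset.prod_mul_distrib]
  refine Finset.prod_congr rfl fun e _ => ?_
  unfold seam
  have hk : e.2 = 0 ∨ e.2 = 1 := by omega
  rcases hk with h | h
  · simp [h]
  · simp [h]

theorem hol1_eq (S : Finset (Ed L)) :
    hol1 S = ((S.filter fun e => e.2 = 0 ∧ e.1.2 = 0).card : ZMod 2) := by
  classical
  unfold hol1 ind
  rw [Finset.card_filter, Nat.cast_sum]
  have : ∀ e ∈ S, (((if e.2 = 0 ∧ e.1.2 = 0 then 1 else 0 : ℕ)) : ZMod 2) =
      if e.2 = 0 ∧ e.1.2 = 0 then 1 else 0 := by
    intro e _; split_ifs <;> simp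
  rw [Finset.sum_congr rfl this, ← Finset.sum_filter, ← Finset.sum_filter]
  simp only [Finset.sum_const]
  congr 1
  refine Finset.card_bij (fun i _ => ((i, 0), 0)) ?_ ?_ ?_
  · intro i hi
    rw [mem_filter] at hi ⊢
    exact ⟨hi.2, rfl, rfl⟩
  · intro i _ i' _ h; simpa using h
  · rintro ⟨⟨i, j⟩, k⟩ h
    rw [mem_filter] at h
    obtain ⟨hS, hk, hj⟩ := h
    dsimp only at hk hj
    subst hk hj
    exact ⟨i, by simpa using hS, rfl⟩

theorem hol2_eq (S : Finset (Ed L)) :
    hol2 S = ((S.filter fun e => e.2 = 1 ∧ e.1.1 = 0).card : ZMod 2) := by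
  classical
  unfold hol2 ind
  rw [Finset.card_filter, Nat.cast_sum]
  have : ∀ e ∈ S, (((if e.2 = 1 ∧ e.1.1 = 0 then 1 else 0 : ℕ)) : ZMod 2) =
      if e.2 = 1 ∧ e.1.1 = 0 then 1 else 0 := by
    intro e _; split_ifs <;> simp
  rw [Finset.sum_congr rfl this, ← Finset.sum_filter, ← Finset.sum_filter]
  simp only [Finset.sum_const]
  congr 1
  refine Finset.card_bij (fun j _ => ((0, j), 1)) ?_ ?_ ?_
  · intro i hi
    rw [mem_filter] at hi ⊢
    exact ⟨hi.2, rfl, rfl⟩
  · intro i _ i' _ h; simpa using h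
  · rintro ⟨⟨i, j⟩, k⟩ h
    rw [mem_filter] at h
    obtain ⟨hS, hk, hi⟩ := h
    dsimp only at hk hi
    subst hk hi
    exact ⟨j, by simpa using hS, rfl⟩

theorem even_of_cast {n : ℕ} (h : (n : ZMod 2) = 0) : Even n :=
  (ZMod.natCast_eq_zero_iff_even).1 h

theorem odd_of_cast {n : ℕ} (h : (n : ZMod 2) ≠ 0) : Odd n := by
  rw [← Nat.not_even_iff_odd]
  exact fun he => h ((ZMod.natCast_eq_zero_iff_even).2 he)

/-- Sum over the four sectors of the seam character. -/
theorem sum_seam (S : Finset (Ed L)) :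
    ∏ e ∈ S, seam 1 1 e + ∏ e ∈ S, seam 1 (-1) e + ∏ e ∈ S, seam (-1) 1 e +
        ∏ e ∈ S, seam (-1) (-1) e = if hol1 S = 0 ∧ hol2 S = 0 then 4 else 0 := by
  rw [prod_seam, prod_seam, prod_seam, prod_seam, hol1_eq, hol2_eq]
  set n := (S.filter fun e => e.2 = 0 ∧ e.1.2 = 0).card
  set m := (S.filter fun e => e.2 = 1 ∧ e.1.1 = 0).card
  simp only [one_pow, one_mul, mul_one]
  by_cases h1 : (n : ZMod 2) = 0
  · by_cases h2 : (m : ZMod 2) = 0
    · rw [if_pos ⟨h1, h2⟩, (even_of_cast h1).neg_one_pow, (even_of_cast h2).neg_one_pow]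
      norm_num
    · rw [if_neg (fun h => h2 h.2), (even_of_cast h1).neg_one_pow, (odd_of_cast h2).neg_one_pow]
      norm_num
  · by_cases h2 : (m : ZMod 2) = 0
    · rw [if_neg (fun h => h1 h.1), (odd_of_cast h1).neg_one_pow, (even_of_cast h2).neg_one_pow]
      norm_num
    · rw [if_neg (fun h => h1 h.1), (odd_of_cast h1).neg_one_pow, (odd_of_cast h2).neg_one_pow]
      norm_num

theorem walls_even (σ : Vx L → Bool) (i j : ZMod L) : EvenAt (walls σ) i j := by
  have hw : ∀ e : Ed L, ind (walls σ) e = (if σ e.1 then 1 else 0) + (if σ (tgt e) then 1 else 0) := by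
    intro e
    unfold ind walls
    simp only [mem_filter, mem_univ, true_and]
    cases σ e.1 <;> cases σ (tgt e) <;> simp [two_add]
  unfold EvenAt
  rw [hw, hw, hw, hw]
  have h10 : ¬ ((1 : Fin 2) = 0) := by decide
  simp only [tgt, if_true, if_neg h10]
  generalize (if σ (i, j) = true then (1 : ZMod 2) else 0) = a
  generalize (if σ (i + 1, j) = true then (1 : ZMod 2) else 0) = b
  generalize (if σ (i, j + 1) = true then (1 : ZMod 2) else 0) = c
  generalize (if σ (i + 1, j + 1) = true then (1 : ZMod 2) else 0) = d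
  revert a b c d
  decide

theorem walls_hol (σ : Vx L → Bool) : hol1 (walls σ) = 0 ∧ hol2 (walls σ) = 0 := by
  have hw : ∀ e : Ed L, ind (walls σ) e = (if σ e.1 then 1 else 0) + (if σ (tgt e) then 1 else 0) := by
    intro e
    unfold ind walls
    simp only [mem_filter, mem_univ, true_and]
    cases σ e.1 <;> cases σ (tgt e) <;> simp [two_add]
  have h10 : ¬ ((1 : Fin 2) = 0) := by decide
  constructor
  · unfold hol1
    simp only [hw, tgt, if_true]
    rw [sum_add_distrib]
    have : ∑ i : ZMod L, (if σ (i + 1, 0) = true then (1 : ZMod 2) else 0) =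
        ∑ i : ZMod L, (if σ (i, 0) = true then (1 : ZMod 2) else 0) :=
      Fintype.sum_equiv (Equiv.addRight (1 : ZMod L)) _ _ fun j => rfl
    rw [this, two_add]
  · unfold hol2
    simp only [hw, tgt, if_neg h10]
    rw [sum_add_distrib]
    have : ∑ i : ZMod L, (if σ (0, i + 1) = true then (1 : ZMod 2) else 0) =
        ∑ i : ZMod L, (if σ (0, i) = true then (1 : ZMod 2) else 0) :=
      Fintype.sum_equiv (Equiv.addRight (1 : ZMod L)) _ _ fun j => rfl
    rw [this, two_add]

/-- **Torus sector formula**, abstract form: `κ` is `1` at `∅`, invariant under toggling the star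
of a vertex, and `0` on sets which are odd at some face. -/
theorem torus_sectors (hL : 2 ≤ L) (κ : Finset (Ed L) → ℝ) (h0 : κ ∅ = 1)
    (htog : ∀ S v, κ (symmDiff S (starSet v)) = κ S)
    (hodd : ∀ S i j, ¬ EvenAt S i j → κ S = 0) (y : Ed L → ℝ) :
    ∑ σ : Vx L → Bool, ∏ e ∈ walls σ, y e =
      (1 / 2) * (∑ S : Finset (Ed L), (∏ e ∈ S, seam 1 1 e * y e) * κ S +
        ∑ S : Finset (Ed L), (∏ e ∈ S, seam 1 (-1) e * y e) * κ S +
        ∑ S : Finset (Ed L), (∏ e ∈ S, seam (-1) 1 e * y e) * κ S +
        ∑ S : Finset (Ed L), (∏ e ∈ S, seam (-1) (-1) e * y e) * κ S) := by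
  classical
  rw [sum_walls fun S => ∏ e ∈ S, y e, ← sum_add_distrib, ← sum_add_distrib, ← sum_add_distrib,
    Finset.sum_filter, Finset.mul_sum, Finset.mul_sum]
  refine Finset.sum_congr rfl fun S _ => ?_
  simp only [Finset.prod_mul_distrib]
  have e1 : (∏ e ∈ S, seam 1 1 e) * (∏ e ∈ S, y e) * κ S +
      (∏ e ∈ S, seam 1 (-1) e) * (∏ e ∈ S, y e) * κ S +
      (∏ e ∈ S, seam (-1) 1 e) * (∏ e ∈ S, y e) * κ S +
      (∏ e ∈ S, seam (-1) (-1) e) * (∏ e ∈ S, y e) * κ S =
      (if hol1 S = 0 ∧ hol2 S = 0 then 4 else 0) * (∏ e ∈ S, y e) * κ S := by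
    rw [← sum_seam S]; ring
  rw [e1]
  by_cases hS : ∃ σ : Vx L → Bool, walls σ = S
  · obtain ⟨σ, rfl⟩ := hS
    rw [if_pos ⟨σ, rfl⟩, if_pos (walls_hol σ), kappa_walls hL κ htog, h0]
    ring
  · rw [if_neg hS]
    by_cases hh : hol1 S = 0 ∧ hol2 S = 0
    · have : ∃ i j, ¬ EvenAt S i j := by
        by_contra hne
        push Not at hne
        exact hS (exists_config S hne hh.1 hh.2)
      obtain ⟨i, j, hij⟩ := this
      rw [hodd S i j hij]; ring
    · rw [if_neg hh]; ring

end kappa

end Crest.Agent.R165.TorusCombx922
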