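import Crest.Agent.R165.Tr2_40

/-!
# Row 165 (S0250), block R, leaf R-a, part 3: the two conservation laws tested with a cut-off,
written as sums over the edges `f → f + e₁`, `f → f + e₂`.
-/

set_option autoImplicit false
set_option linter.unusedSimpArgs false

noncomputable section

namespace Crest.Agent.R165.Tr3x40

open Finset Crest.Agent.R165.Tr1x40 Crest.Agent.R165.Tr2x40

/-- translation invariance of finite sums -/
theorem sum_shift (K : Finset Face) (F : Face → ℝ) (v : ℤ × ℤ)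
    (h1 : ∀ f, f ∉ K → F f = 0) (h2 : ∀ f, f ∉ K → F (f + v) = 0) :
    ∑ f ∈ K, F (f + v) = ∑ f ∈ K, F f := by
  classical
  have a1 : ∑ g ∈ K, F (g + v) = ∑ᶠ g : Face, F (g + v) := by
    symm
    apply finsum_eq_sum_of_support_subset
    intro g hg
    by_contra hc
    exact hg (h2 g hc)
  have a2 : ∑ g ∈ K, F g = ∑ᶠ g : Face, F g := by
    symm
    apply finsum_eq_sum_of_support_subset
    intro g hg
    by_contra hc
    exact hg (h1 g hc)
  rw [a1, a2]
  exact finsum_comp_equiv (f := F) (Equiv.addRight v)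

/-- a sum over half-edges as a sum over edges -/
theorem edge_sum (K : Finset Face) (G : Face → Fin 4 → ℝ)
    (h1 : ∀ f, f ∉ K → ∀ h, G f h = 0) (h2 : ∀ f, f ∉ K → ∀ h, G (nb f h) (op h) = 0) :
    ∑ f ∈ K, ∑ h, G f h
      = ∑ f ∈ K, ((G f 1 + G (nb f 1) 3) + (G f 2 + G (nb f 2) 0)) := by
  have s3 : ∑ f ∈ K, G (nb f 1) 3 = ∑ f ∈ K, G f 3 := by
    have := sum_shift K (fun f => G f 3) (1, 0) (fun f hf => h1 f hf 3) (fun f hf => by
      have := h2 f hf 1
      simp only [nb_one, op_one] at this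
      rw [show f + (1, 0) = (f.1 + 1, f.2) by ext <;> simp]; exact this)
    rw [← this]
    refine sum_congr rfl fun f _ => ?_
    rw [show f + (1, 0) = nb f 1 by ext <;> simp]
  have s0 : ∑ f ∈ K, G (nb f 2) 0 = ∑ f ∈ K, G f 0 := by
    have := sum_shift K (fun f => G f 0) (0, 1) (fun f hf => h1 f hf 0) (fun f hf => by
      have := h2 f hf 2
      simp only [nb_two, op_two] at this
      rw [show f + (0, 1) = (f.1, f.2 + 1) by ext <;> simp]; exact this)
    rw [← this]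
    refine sum_congr rfl fun f _ => ?_
    rw [show f + (0, 1) = nb f 2 by ext <;> simp]
  simp only [sum_add_distrib, Fin.sum_univ_four]
  rw [s3, s0]; ring

/-- **(C1) tested with a cut-off**, edge form: the flux is
`om₁ f = w² (E_f² - W_{f+e₁}²)`, `om₂ f = w² (N_f² - S_{f+e₂}²)`. -/
theorem C1_edges {w : Fld} (φ : Fld) (hw : Sym w) (c : Face → ℝ) (K : Finset Face)
    (h1 : ∀ f, f ∉ K → c f = 0) (h2 : ∀ f, f ∉ K → ∀ h, c (nb f h) = 0) :
    ∑ f ∈ K, c f * (4 * Real.sqrt 2 * hv (φ f) + ∑ h, (xc ^ 2 - w f h ^ 2) * φ f h ^ 2)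
      = ∑ f ∈ K, c f * (2 * ∑ h, A0 (φ f) h * A w φ f h - nsq (A w φ f))
        + ∑ f ∈ K, ((c (nb f 1) - c f) * (w f 1 ^ 2 * (φ f 1 ^ 2 - φ (nb f 1) 3 ^ 2))
          + (c (nb f 2) - c f) * (w f 2 ^ 2 * (φ f 2 ^ 2 - φ (nb f 2) 0 ^ 2))) := by
  rw [Tloc w φ hw c K h1 h2]
  congr 1
  have z1 : ∀ f, f ∉ K → ∀ h, (c (nb f h) - c f) * (w f h ^ 2 * φ f h ^ 2) = 0 := by
    intro f hf h; rw [h1 f hf, h2 f hf h]; ring
  have z2 : ∀ f, f ∉ K → ∀ h, (c (nb (nb f h) (op h)) - c (nb f h))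
      * (w (nb f h) (op h) ^ 2 * φ (nb f h) (op h) ^ 2) = 0 := by
    intro f hf h; rw [nb_nb_op, h1 f hf, h2 f hf h]; ring
  rw [edge_sum K (fun f h => (c (nb f h) - c f) * (w f h ^ 2 * φ f h ^ 2)) z1 z2]
  refine sum_congr rfl fun f _ => ?_
  have e1 : nb (nb f 1) 3 = f := nb_nb_op f 1
  have e2 : nb (nb f 2) 0 = f := nb_nb_op f 2
  have w1 : w (nb f 1) 3 = w f 1 := hw f 1
  have w2 : w (nb f 2) 0 = w f 2 := hw f 2
  rw [e1, e2, w1, w2]; ring

/-- **(C2) tested with a cut-off**: `∑ c ⟨φ, A φ⟩_f = ∑ edges (c f - c f') J'(f → f')`, with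
`J'(f → f+e₁) = w E_f W_{f+e₁}` and `J'(f → f+e₂) = - w N_f S_{f+e₂}`. -/
theorem C2_edges {w : Fld} (φ : Fld) (hw : Sym w) (c : Face → ℝ) (K : Finset Face)
    (h1 : ∀ f, f ∉ K → c f = 0) (h2 : ∀ f, f ∉ K → ∀ h, c (nb f h) = 0) :
    ∑ f ∈ K, c f * ∑ h, φ f h * A w φ f h
      = ∑ f ∈ K, ((c f - c (nb f 1)) * (w f 1 * (φ f 1 * φ (nb f 1) 3))
          - (c f - c (nb f 2)) * (w f 2 * (φ f 2 * φ (nb f 2) 0))) := by
  have e : ∀ f, c f * ∑ h, φ f h * A w φ f h = ∑ h, c f * J' w φ f h := by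
    intro f; rw [← C2', mul_sum]
  rw [sum_congr rfl fun f _ => e f]
  rw [edge_sum K (fun f h => c f * J' w φ f h)
    (fun f hf h => by rw [h1 f hf, zero_mul]) (fun f hf h => by rw [h2 f hf h, zero_mul])]
  refine sum_congr rfl fun f _ => ?_
  have j1 : J' w φ (nb f 1) 3 = -J' w φ f 1 := J'_bar hw φ f 1
  have j2 : J' w φ (nb f 2) 0 = -J' w φ f 2 := J'_bar hw φ f 2
  rw [j1, j2]
  simp only [J', sg_one, sg_two, op_one, op_two]; ring

/-- (C1), inequality form at a plus background: for `c ≥ 0` the boundary term and the heavy term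
are nonnegative -/
theorem C1_nonneg {w : Fld} (φ : Fld) (hw : Sym w) (hp : IsPlus w) (c : Face → ℝ)
    (hc : ∀ f, 0 ≤ c f) (K : Finset Face)
    (h1 : ∀ f, f ∉ K → c f = 0) (h2 : ∀ f, f ∉ K → ∀ h, c (nb f h) = 0) :
    0 ≤ ∑ f ∈ K, c f * (2 * ∑ h, A0 (φ f) h * A w φ f h - nsq (A w φ f))
        + ∑ f ∈ K, ((c (nb f 1) - c f) * (w f 1 ^ 2 * (φ f 1 ^ 2 - φ (nb f 1) 3 ^ 2))
          + (c (nb f 2) - c f) * (w f 2 ^ 2 * (φ f 2 ^ 2 - φ (nb f 2) 0 ^ 2))) := by
  rw [← C1_edges φ hw c K h1 h2]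
  refine sum_nonneg fun f _ => mul_nonneg (hc f) ?_
  rw [bd_eq hp]
  have := hv_nonneg (φ f)
  have := bd_nonneg w φ f
  have := sq2_pos
  positivity

/-! ### the light amplitude: `c(p) = a + i b`, `a = (P_l p)_E`, `b = -(P_l p)_W`
(convention D-R4 of helper891) -/

/-- real part of the amplitude -/
def ca (p : Fin 4 → ℝ) : ℝ := Pl p 1

/-- imaginary part of the amplitude -/
def cb (p : Fin 4 → ℝ) : ℝ := -Pl p 3

/-- the light vector with amplitude `a + i b` -/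
def lv (a b : ℝ) (h : Fin 4) : ℝ :=
  match h with
  | 0 => -(a + b) / Real.sqrt 2
  | 1 => a
  | 2 => (b - a) / Real.sqrt 2
  | 3 => -b

theorem Pl_eq_lv (p : Fin 4 → ℝ) (h : Fin 4) : Pl p h = lv (ca p) (cb p) h := by
  have h2 := sq2
  fin_cases h <;>
    simp only [Pl, lv, ca, cb, div_sq2, inv_2sq2, Fin.zero_eta, Fin.mk_one, Fin.reduceFinMk]
  · linear_combination (-1/4 * p 0) * h2
  · linear_combination (-1/4 * p 2) * h2
  · ring

theorem lt_eq_amp (p : Fin 4 → ℝ) : lt p = 2 * (ca p ^ 2 + cb p ^ 2) := by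
  rw [lt_eq_nsq, nsq_eq]
  have h0 := Pl_eq_lv p 0
  have h2' := Pl_eq_lv p 2
  have h2 := sq2
  rw [h0, h2']
  simp only [lv, ca, cb, div_sq2]
  ring_nf
  rw [show Real.sqrt 2 ^ 2 = 2 by rw [pow_two]; exact h2]
  ring

theorem ca_lv (a b : ℝ) : ca (lv a b) = a := by
  have h2 := sq2
  simp only [ca, Pl, lv, div_sq2, inv_2sq2]
  linear_combination (1/4 * a) * h2

theorem cb_lv (a b : ℝ) : cb (lv a b) = b := by
  have h2 := sq2
  simp only [cb, Pl, lv, div_sq2, inv_2sq2]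
  linear_combination (1/4 * b) * h2

/-- `A0` on a light vector: `(A0 lv(a,b))_h = x (-i)`-rotated light coordinates; explicitly
`S: x (a - b)/√2`, `E: x b`, `N: -x (a + b)/√2`, `W: x a`, up to the common sign. -/
theorem A0_lv (a b : ℝ) (h : Fin 4) :
    A0 (lv a b) h = -(sg h * xc * lv a b (op h)) := by
  have h2 := sq2
  fin_cases h <;>
    simp only [A0, lv, xc, div_sq2, sg, op, Fin.zero_eta, Fin.mk_one, Fin.reduceFinMk]
  · linear_combination (1/2 * (b - a)) * h2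
  · ring
  · linear_combination (1/2 * (a + b)) * h2
  · ring

/-- constant light fields are killed by `A` on plane rows -/
theorem A_lv (a b : ℝ) (f : Face) (h : Fin 4) : A (cst xc) (fun _ => lv a b) f h = 0 := by
  simp only [A, Y, cst, A0_lv]; ring

end Crest.Agent.R165.Tr3x40
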