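import Crest.Agent.R165.U3Ball_719

/-!
Row 165, block U3 (helper719): boundary regularity and uniqueness on the unit disc.
-/

set_option autoImplicit false

open Complex Set Metric Filter Topology MeasureTheory
open scoped ComplexConjugate ContDiff

namespace Crest.Agent.R165.U3x719

variable {n : ℕ}

/-- weak relations near the circle -/
theorem IsSpin.wbd {x : Fin n → ℂ} (hxd : ∀ j, ‖x j‖ < 1) {K : Set ℂ} (hK : IsCompact K)
    (hKb : K ⊆ ball 0 1) {F g : ℂ → ℂ} (h : IsSpin (ball 0 1) x K F)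
    (hg : DifferentiableOn ℂ g (ball 0 1 \ K))
    (hFg : ∀ᵐ z ∂volume.restrict (ball 0 1 \ K), F z * rX x z = g z) :
    ∃ r : ℝ, 0 ≤ r ∧ r < 1 ∧ K ⊆ ball 0 r ∧ (∀ j, ‖x j‖ < r) ∧
      WBd r (fun z => g z ^ 2 / PX x z) := by
  have hS : IsClosed (K ∪ range x) := hK.isClosed.union (finite_range x).isClosed
  have hSb : K ∪ range x ⊆ ball (0 : ℂ) 1 := by
    apply union_subset hKb
    rintro z ⟨j, rfl⟩
    simpa using hxd j
  obtain ⟨r', hr'1, hr'S⟩ := exists_lt_subset_ball hS hSb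
  set r := max r' 0 with hr
  have hrS : K ∪ range x ⊆ ball (0 : ℂ) r := hr'S.trans (ball_subset_ball (le_max_left _ _))
  have hKr : K ⊆ ball 0 r := subset_union_left.trans hrS
  have hxr : ∀ j, ‖x j‖ < r := fun j => by simpa using hrS (Or.inr ⟨j, rfl⟩)
  have hr1 : r < 1 := max_lt hr'1 one_pos
  have hAK : Ann r ⊆ ball 0 1 \ K := by
    intro z hz
    refine ⟨Ann_subset_ball r hz, fun hzK => ?_⟩
    have := hKr hzK
    rw [mem_ball_zero_iff] at this
    linarith [hz.1]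
  have hAx : ∀ z ∈ Ann r, ∀ j, z ≠ x j := by
    rintro z hz j rfl
    have := hxr j
    linarith [hz.1]
  have haeA : ∀ᵐ z ∂volume.restrict (Ann r), F z ^ 2 = g z ^ 2 / PX x z :=
    sq_eq (ae_restrict_of_ae_restrict_of_subset hAK hFg)
  have hdb0 : ∀ (χ : ℂ → ℝ), tsupport χ ⊆ {v | r < ‖v‖} → ∀ z, ‖z‖ ≤ r → db χ z = 0 :=
    fun χ hχ z hz => db_of_notMem (fun hh => absurd (hχ hh) (not_lt.2 hz))
  have hint : ∀ (φ : ℂ → ℝ), φ 0 = 0 → ∀ χ : ℂ → ℝ, tsupport χ ⊆ {v | r < ‖v‖} →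
      ∫ z in ball (0 : ℂ) 1, φ (g z ^ 2 / PX x z * db χ z) =
        ∫ z in ball (0 : ℂ) 1, φ (F z ^ 2 * db χ z) := by
    intro φ hφ χ hχ
    rw [ball_to_Ann (r := r) (fun z hz => by rw [hdb0 χ hχ z hz, mul_zero, hφ]),
      ball_to_Ann (r := r) (fun z hz => by rw [hdb0 χ hχ z hz, mul_zero, hφ])]
    apply integral_congr_ae
    filter_upwards [haeA] with z hz
    rw [hz]
  have hdisj : ∀ χ : ℂ → ℝ, tsupport χ ⊆ {v | r < ‖v‖} → Disjoint (tsupport χ) K := by
    intro χ hχ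
    rw [Set.disjoint_left]
    intro z hz hzK
    have h1 := hχ hz
    have h2 := hKr hzK
    rw [mem_ball_zero_iff] at h2
    simp only [mem_ofPred_eq] at h1
    linarith
  refine ⟨r, le_max_right _ _, hr1, hKr, hxr, ?_, ?_, ?_, ?_⟩
  · have hm := h.l2 (ball 0 r) isOpen_ball hKr
    have hm2 : MemLp F 2 (volume.restrict (Ann r)) := by
      refine hm.mono_measure (Measure.restrict_mono ?_ le_rfl)
      intro z hz
      refine ⟨Ann_subset_ball r hz, fun hh => ?_⟩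
      rw [mem_ball_zero_iff] at hh
      linarith [hz.1]
    have hFi : IntegrableOn (fun z => F z * F z) (Ann r) := MemLp.integrable_mul hm2 hm2
    refine hFi.congr_fun_ae ?_
    filter_upwards [haeA] with z hz
    rw [← hz, sq]
  · exact ((hg.mono hAK).pow 2).div (PX_diff x).differentiableOn (fun z hz => PX_ne (hAx z hz))
  · intro χ h1 h2 h3
    rw [hint (fun w => w.re) rfl χ h3]
    exact h.curl χ (h1.lipschitzWith_of_hasCompactSupport h2 one_ne_zero) h2 h1.contDiffOn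
      (hdisj χ h3)
  · intro χ h1 h2 h3 h4
    rw [hint (fun w => w.im) rfl χ h3]
    exact h.div χ (h1.lipschitzWith_of_hasCompactSupport h2 one_ne_zero) h2 h1.contDiffOn
      (hdisj χ h3) h4

/-- (c) **boundary regularity** on the unit disc -/
theorem IsSpin.bd {x : Fin n → ℂ} (hxd : ∀ j, ‖x j‖ < 1) {K : Set ℂ} (hK : IsCompact K)
    (hKb : K ⊆ ball 0 1) {F g : ℂ → ℂ} (h : IsSpin (ball 0 1) x K F)
    (hg : DifferentiableOn ℂ g (ball 0 1 \ K))
    (hFg : ∀ᵐ z ∂volume.restrict (ball 0 1 \ K), F z * rX x z = g z) (ξ : ℂ) (hξ : ‖ξ‖ = 1) :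
    ∃ b : ℂ, Tendsto g (𝓝[ball 0 1] ξ) (𝓝 b) ∧
      ∃ ρ : ℝ, 0 ≤ ρ ∧ I * ξ * (b ^ 2 / PX x ξ) = ρ := by
  obtain ⟨r, hr0, hr1, hKr, hxr, hW⟩ := h.wbd hxd hK hKb hg hFg
  obtain ⟨ρ, hρ, ht⟩ := villat hr0 hr1 hW hξ
  have hξ0 : ξ ≠ 0 := by intro h0; rw [h0, norm_zero] at hξ; norm_num at hξ
  have hIξ : I * ξ ≠ 0 := mul_ne_zero I_ne_zero hξ0
  have hPξ : PX x ξ ≠ 0 := PX_ne (by rintro j rfl; linarith [hxd j])
  have hrev : ∀ᶠ w in 𝓝[ball 0 1] ξ, r < ‖w‖ := by
    apply eventually_nhdsWithin_of_eventually_nhds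
    exact continuousAt_const.eventually_lt continuous_norm.continuousAt (by rw [hξ]; exact hr1)
  have h1 : Tendsto (fun w => PX x w * (I * w * (g w ^ 2 / PX x w)) / (I * w)) (𝓝[ball 0 1] ξ)
      (𝓝 (PX x ξ * ρ / (I * ξ))) := by
    have c1 : Tendsto (PX x) (𝓝[ball 0 1] ξ) (𝓝 (PX x ξ)) :=
      ((PX_cont x).tendsto ξ).mono_left nhdsWithin_le_nhds
    have c2 : Tendsto (fun w : ℂ => I * w) (𝓝[ball 0 1] ξ) (𝓝 (I * ξ)) :=
      ((continuous_const.mul continuous_id).tendsto ξ).mono_left nhdsWithin_le_nhds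
    exact (c1.mul ht).div c2 hIξ
  have h2 : Tendsto (fun w => g w ^ 2) (𝓝[ball 0 1] ξ) (𝓝 (PX x ξ * ρ / (I * ξ))) := by
    refine h1.congr' ?_
    filter_upwards [hrev] with w hw
    have hw0 : w ≠ 0 := by rintro rfl; rw [norm_zero] at hw; linarith
    have hPw : PX x w ≠ 0 := PX_ne (by rintro j rfl; linarith [hxr j])
    field_simp
  have hV : {v : ℂ | r < ‖v‖} ∈ 𝓝 ξ :=
    (isOpen_lt continuous_const continuous_norm).mem_nhds (by
      simp only [mem_ofPred_eq, hξ]; exact hr1)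
  obtain ⟨b, hb1, hb2⟩ := sqrt_limit hV (hg.continuousOn.mono (by
    rintro z ⟨hz1, hz2⟩
    refine ⟨hz1, fun hzK => ?_⟩
    have := hKr hzK
    rw [mem_ball_zero_iff] at this
    simp only [mem_ofPred_eq] at hz2
    linarith)) h2
  refine ⟨b, hb1, ρ, hρ, ?_⟩
  rw [hb2]
  field_simp

theorem sq_int {x : Fin n → ℂ} {G g : ℂ → ℂ} {c : ℂ} {δ : ℝ}
    (hm : MemLp G 2 (volume.restrict (ball c δ)))
    (hae : ∀ᵐ z ∂volume.restrict (ball c δ), G z * rX x z = g z) :
    IntegrableOn (fun z => g z ^ 2) (ball c δ) := by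
  have hFi : IntegrableOn (fun z => G z * G z) (ball c δ) := MemLp.integrable_mul hm hm
  obtain ⟨M, hM⟩ := (isCompact_closedBall c δ).exists_bound_of_continuousOn (PX_cont x).continuousOn
  have h4 : IntegrableOn (fun z => G z * G z * PX x z) (ball c δ) := by
    apply hFi.mul_bdd (c := M) (PX_cont x).aestronglyMeasurable
    filter_upwards [ae_restrict_mem measurableSet_ball] with z hz
    exact hM z (ball_subset_closedBall hz)
  refine h4.congr_fun_ae ?_
  filter_upwards [hae] with z hz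
  rw [← hz, ← rX_sq]
  ring

theorem int_of_continuousAt {d : ℂ → ℂ} {c : ℂ} {V : Set ℂ} (hV : V ∈ 𝓝 c) (hc : ContinuousAt d c)
    (hd : ContinuousOn d (V \ {c})) : ∃ δ, 0 < δ ∧ IntegrableOn (fun z => d z ^ 2) (ball c δ) := by
  have h1 : ∀ᶠ z in 𝓝 c, ‖d z‖ < ‖d c‖ + 1 :=
    (continuous_norm.continuousAt.comp hc).eventually_lt continuousAt_const (by simp)
  obtain ⟨δ, hδ, hδ2⟩ := Metric.mem_nhds_iff.1 (h1.and hV)
  refine ⟨δ, hδ, ?_⟩
  have hcont : ContinuousOn (fun z => d z ^ 2) (ball c δ \ {c}) :=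
    (hd.mono fun z hz => ⟨(hδ2 hz.1).2, hz.2⟩).pow 2
  have hms : MeasurableSet (ball c δ \ {c}) := measurableSet_ball.diff (measurableSet_singleton c)
  have h2 : IntegrableOn (fun z => d z ^ 2) (ball c δ \ {c}) := by
    have : IsFiniteMeasure (volume.restrict (ball c δ \ {c})) :=
      ⟨by rw [Measure.restrict_apply_univ]
          exact (measure_mono sdiff_subset).trans_lt measure_ball_lt_top⟩
    refine Integrable.of_bound (hcont.aestronglyMeasurable hms) ((‖d c‖ + 1) ^ 2) ?_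
    filter_upwards [ae_restrict_mem hms] with z hz
    rw [norm_pow]
    exact pow_le_pow_left₀ (norm_nonneg _) (hδ2 hz.1).1.le 2
  have h3 : IntegrableOn (fun z => d z ^ 2) {c} := by
    rw [integrableOn_singleton_iff]
    right
    simp
  exact (h2.union h3).mono_set (by
    intro z hz
    by_cases h : z = c
    · exact Or.inr h
    · exact Or.inl ⟨hz, h⟩)

/-- **uniqueness on the unit disc**, compact source set, core form -/
theorem uniq_core_ball {x : Fin n → ℂ} (hx : Function.Injective x) (hxd : ∀ j, ‖x j‖ < 1)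
    {K : Set ℂ} (hK : IsCompact K) (hKb : K ⊆ ball 0 1) {F₁ F₂ : ℂ → ℂ}
    (h₁ : IsSpin (ball 0 1) x K F₁) (h₂ : IsSpin (ball 0 1) x K F₂) {d : ℂ → ℂ}
    (hd : DifferentiableOn ℂ d (ball 0 1 \ range x))
    (hae : ∀ᵐ z ∂volume.restrict (ball 0 1 \ K), (F₁ z - F₂ z) * rX x z = d z)
    (hdK : ∀ j, x j ∈ K → ContinuousAt d (x j) ∧ ∃ k : ℝ, 0 ≤ k ∧ d (x j) ^ 2 / wX x j = -I * k) :
    ∀ z ∈ ball (0 : ℂ) 1 \ range x, d z = 0 := by
  obtain ⟨g₁, hg₁, ha₁⟩ := h₁.ext isOpen_ball hK.isClosed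
  obtain ⟨g₂, hg₂, ha₂⟩ := h₂.ext isOpen_ball hK.isClosed
  -- the difference extends
  obtain ⟨e, he, hed⟩ := removable_finite (U := ball 0 1) (S := range x) (g := d) isOpen_ball
    (finite_range x) hd (by
    rintro c ⟨j, rfl⟩ hc
    by_cases hjK : x j ∈ K
    · have h3 : (range x \ {x j})ᶜ ∈ 𝓝 (x j) :=
        ((finite_range x).subset sdiff_subset).isClosed.isOpen_compl.mem_nhds (by simp)
      refine int_of_continuousAt (inter_mem (isOpen_ball.mem_nhds hc) h3) (hdK j hjK).1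
        (hd.continuousOn.mono ?_)
      rintro z ⟨⟨h1, h2⟩, h3⟩
      exact ⟨h1, fun hz => h2 ⟨hz, h3⟩⟩
    · have hopen : IsOpen (ball (0 : ℂ) 1 \ K) := isOpen_ball.sdiff hK.isClosed
      obtain ⟨δ, hδ, hδD⟩ := Metric.isOpen_iff.1 hopen _ ⟨hc, hjK⟩
      refine ⟨δ / 2, by linarith, ?_⟩
      have hsub : closedBall (x j) (δ / 2) ⊆ ball 0 1 \ K :=
        (closedBall_subset_ball (by linarith)).trans hδD
      have hm : ∀ F : ℂ → ℂ, IsSpin (ball 0 1) x K F →
          MemLp F 2 (volume.restrict (ball (x j) (δ / 2))) := by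
        intro F hF
        have hm := hF.l2 (closedBall (x j) (δ / 2))ᶜ isClosed_closedBall.isOpen_compl
          (fun z hz h2 => (hsub h2).2 hz)
        refine hm.mono_measure (Measure.restrict_mono ?_ le_rfl)
        intro z hz
        exact ⟨(hsub (ball_subset_closedBall hz)).1, fun hh => hh (ball_subset_closedBall hz)⟩
      refine sq_int ((hm F₁ h₁).sub (hm F₂ h₂)) (x := x) ?_
      exact ae_restrict_of_ae_restrict_of_subset (ball_subset_closedBall.trans hsub) hae)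
  have hopen : IsOpen (ball (0 : ℂ) 1 \ K) := isOpen_ball.sdiff hK.isClosed
  have heg : EqOn e (fun z => g₁ z - g₂ z) (ball 0 1 \ K) := by
    apply Measure.eqOn_open_of_ae_eq (μ := volume) _ hopen
      (he.continuousOn.mono sdiff_subset) (hg₁.continuousOn.sub hg₂.continuousOn)
    filter_upwards [hae, ha₁, ha₂, ae_ne_range x (ball (0 : ℂ) 1 \ K)] with z h1 h2 h3 h4
    rw [hed z (by rintro ⟨j, rfl⟩; exact h4 j rfl), ← h1]
    show (F₁ z - F₂ z) * rX x z = g₁ z - g₂ z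
    rw [← h2, ← h3]
    ring
  have he0 : ∀ z ∈ ball (0 : ℂ) 1, e z = 0 := by
    apply uniq_disc hx hxd he
    · intro ξ hξ
      obtain ⟨b₁, hb₁, ρ₁, hρ₁, hr₁⟩ := h₁.bd hxd hK hKb hg₁ ha₁ ξ hξ
      obtain ⟨b₂, hb₂, ρ₂, hρ₂, hr₂⟩ := h₂.bd hxd hK hKb hg₂ ha₂ ξ hξ
      refine ⟨b₁ - b₂, ?_, ?_⟩
      · refine (hb₁.sub hb₂).congr' ?_
        have hKξ : Kᶜ ∈ 𝓝 ξ := hK.isClosed.isOpen_compl.mem_nhds (by
          intro hξK
          have := hKb hξK
          rw [mem_ball_zero_iff, hξ] at this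
          exact lt_irrefl _ this)
        filter_upwards [self_mem_nhdsWithin, mem_nhdsWithin_of_mem_nhds hKξ] with z h1 h2
        exact (heg ⟨h1, h2⟩).symm
      · obtain ⟨t, ht, htt⟩ := real_line (c := I * ξ / PX x ξ) (a := b₁) (b := b₂) hρ₁ hρ₂
          (by rw [← hr₁]; ring) (by rw [← hr₂]; ring)
        exact ⟨t, ht, by rw [← htt]; ring⟩
    · intro j
      have hjb : x j ∈ ball (0 : ℂ) 1 := by simpa using hxd j
      by_cases hjK : x j ∈ K
      · obtain ⟨hc, hk⟩ := hdK j hjK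
        have h1 : Tendsto e (𝓝[≠] (x j)) (𝓝 (e (x j))) :=
          ((he.differentiableAt (isOpen_ball.mem_nhds hjb)).continuousAt.tendsto).mono_left
            nhdsWithin_le_nhds
        have h2 : Tendsto e (𝓝[≠] (x j)) (𝓝 (d (x j))) := by
          refine (hc.tendsto.mono_left nhdsWithin_le_nhds).congr' ?_
          have h3 : (range x \ {x j})ᶜ ∈ 𝓝 (x j) :=
            ((finite_range x).subset sdiff_subset).isClosed.isOpen_compl.mem_nhds (by simp)
          filter_upwards [self_mem_nhdsWithin, mem_nhdsWithin_of_mem_nhds h3] with z h4 h5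
          exact (hed z (fun hz => h5 ⟨hz, h4⟩)).symm
        rw [tendsto_nhds_unique h1 h2]
        exact hk
      · obtain ⟨k₁, hk₁, hr₁⟩ := h₁.res isOpen_ball hx hK.isClosed hjb hjK hg₁ ha₁
        obtain ⟨k₂, hk₂, hr₂⟩ := h₂.res isOpen_ball hx hK.isClosed hjb hjK hg₂ ha₂
        have hw := wX_ne hx j
        obtain ⟨t, ht, htt⟩ := real_line (c := I / wX x j) (a := g₁ (x j)) (b := g₂ (x j)) hk₁ hk₂
          (by
            have : I / wX x j * g₁ (x j) ^ 2 = I * (g₁ (x j) ^ 2 / wX x j) := by ring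
            rw [this, hr₁]
            linear_combination (-(k₁ : ℂ)) * I_mul_I)
          (by
            have : I / wX x j * g₂ (x j) ^ 2 = I * (g₂ (x j) ^ 2 / wX x j) := by ring
            rw [this, hr₂]
            linear_combination (-(k₂ : ℂ)) * I_mul_I)
        refine ⟨t, ht, ?_⟩
        rw [heg ⟨hjb, hjK⟩, ← htt]
        simp only
        linear_combination (g₁ (x j) - g₂ (x j)) ^ 2 / wX x j * I_mul_I
  intro z hz
  rw [← hed z hz.2]
  exact he0 z hz.1

end Crest.Agent.R165.U3x719
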