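import Crest.Agent.R165.U3Refl_719

/-!
Row 165, block U3 (helper719), part 2: sign of the boundary values; reflection across the unit
circle for `H = Im ∫ u`, `H → 0` at the circle, with "no negative neighbourhood".
-/

set_option autoImplicit false

open Complex Set Metric Filter Topology MeasureTheory InnerProductSpace Real
open scoped ComplexConjugate

namespace Crest.Agent.R165.U3x719

/-- sign of the reflected function -/
theorem refl_half_sign {R : ℝ} {u : ℂ → ℂ}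
    {h : ℂ → ℝ} (hh : ∀ z ∈ HD R, HasFDerivAt h (ILin (u z)) z)
    (h0 : ∀ t : ℝ, |t| < R → Tendsto h (𝓝[{z : ℂ | 0 < z.im}] (t : ℂ)) (𝓝 0))
    {ρ : ℝ} (hρ : ρ < R) {U : ℂ → ℂ} (hU : DifferentiableOn ℂ U (ball 0 ρ))
    (hUu : ∀ z ∈ HD ρ, U z = u z) {t : ℝ} (ht : |t| < ρ)
    (hNN : ∃ᶠ z in 𝓝[{z : ℂ | 0 < z.im}] (t : ℂ), 0 ≤ h z) : 0 ≤ (U t).re := by
  by_contra hneg
  push Not at hneg
  have htb : (t : ℂ) ∈ ball (0 : ℂ) ρ := by simpa using ht
  have hUc : ContinuousAt (fun z => (U z).re) (t : ℂ) :=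
    Complex.continuous_re.continuousAt.comp
      (hU.differentiableAt (isOpen_ball.mem_nhds htb)).continuousAt
  have hev : ∀ᶠ z in 𝓝 (t : ℂ), (U z).re < 0 ∧ z ∈ ball (0 : ℂ) ρ :=
    (hUc.eventually (gt_mem_nhds hneg)).and (isOpen_ball.mem_nhds htb)
  obtain ⟨δ, hδ, hδ'⟩ := Metric.eventually_nhds_iff_ball.1 hev
  apply hNN
  rw [eventually_nhdsWithin_iff]
  filter_upwards [ball_mem_nhds (t : ℂ) hδ] with z hz him
  push Not
  have him' : 0 < z.im := him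
  -- points on the vertical segment
  have hseg : ∀ s : ℝ, 0 < s → s ≤ z.im → ((z.re : ℂ) + s * I) ∈ ball (t : ℂ) δ := by
    intro s hs1 hs2
    rw [mem_ball, dist_eq_norm] at hz ⊢
    refine lt_of_le_of_lt ?_ hz
    have e1 : (z.re : ℂ) + s * I - t = ((z.re - t : ℝ) : ℂ) + (s : ℝ) * I := by push_cast; ring
    have e2 : z - t = ((z.re - t : ℝ) : ℂ) + (z.im : ℝ) * I := by
      apply Complex.ext <;> simp
    rw [e1, e2, Complex.norm_add_mul_I, Complex.norm_add_mul_I]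
    apply Real.sqrt_le_sqrt
    have : s ^ 2 ≤ z.im ^ 2 := by gcongr
    linarith
  have hsegHD : ∀ s : ℝ, 0 < s → s ≤ z.im → ((z.re : ℂ) + s * I) ∈ HD ρ := by
    intro s hs1 hs2
    refine ⟨by simpa using hs1, by simpa using (hδ' _ (hseg s hs1 hs2)).2⟩
  have hder : ∀ s : ℝ, 0 < s → s ≤ z.im →
      HasDerivAt (fun s : ℝ => h ((z.re : ℂ) + s * I)) (U ((z.re : ℂ) + s * I)).re s := by
    intro s hs1 hs2
    have h1 := hh _ (HD_mono hρ.le (hsegHD s hs1 hs2))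
    have h2 : HasDerivAt (fun s : ℝ => (z.re : ℂ) + s * I) I s := by
      have := ((Complex.ofRealCLM.hasDerivAt (x := s)).mul_const I).const_add (z.re : ℂ)
      simpa using this
    rw [hUu _ (hsegHD s hs1 hs2)]
    refine (h1.comp_hasDerivAt s h2).congr_deriv ?_
    simp
  have hanti : StrictAntiOn (fun s : ℝ => h ((z.re : ℂ) + s * I)) (Ioc 0 z.im) := by
    apply strictAntiOn_of_deriv_neg (convex_Ioc 0 z.im)
    · intro s hs
      exact (hder s hs.1 hs.2).continuousAt.continuousWithinAt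
    · intro s hs
      rw [interior_Ioc] at hs
      rw [(hder s hs.1 hs.2.le).deriv]
      exact (hδ' _ (hseg s hs.1 hs.2.le)).1
  have hre : |z.re| < R := by
    have h1 := (hδ' _ hz).2
    have h2 : ‖z‖ < ρ := by simpa using h1
    exact ((Complex.abs_re_le_norm z).trans_lt h2).trans hρ
  have hlim : Tendsto (fun s : ℝ => h ((z.re : ℂ) + s * I)) (𝓝[>] 0) (𝓝 0) := by
    refine (h0 z.re hre).comp ?_
    apply tendsto_nhdsWithin_of_tendsto_nhds_of_eventually_within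
    · apply Tendsto.mono_left _ nhdsWithin_le_nhds
      have : Continuous (fun s : ℝ => (z.re : ℂ) + s * I) := by fun_prop
      simpa using this.tendsto 0
    · filter_upwards [self_mem_nhdsWithin] with s hs
      simpa using hs
  have hhalf : h ((z.re : ℂ) + (z.im / 2 : ℝ) * I) ≤ 0 := by
    apply ge_of_tendsto hlim
    filter_upwards [Ioo_mem_nhdsGT (show (0 : ℝ) < z.im / 2 by linarith)] with s hs
    exact (hanti ⟨hs.1, by linarith [hs.2]⟩ ⟨by linarith, by linarith⟩ hs.2).le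
  have hlast := hanti (show z.im / 2 ∈ Ioc 0 z.im from ⟨by linarith, by linarith⟩)
    (show z.im ∈ Ioc 0 z.im from ⟨him', le_rfl⟩) (by linarith)
  simp only [Complex.re_add_im] at hlast
  linarith

/-- the chart `w ↦ ζ exp(i w)` of the unit disc near `ζ` -/
noncomputable def cht (ζ w : ℂ) : ℂ := ζ * Complex.exp (I * w)

theorem norm_cht {ζ : ℂ} (hζ : ‖ζ‖ = 1) (w : ℂ) : ‖cht ζ w‖ = Real.exp (-w.im) := by
  simp [cht, hζ, Complex.norm_exp]

theorem cht_cont (ζ : ℂ) : Continuous (cht ζ) := by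
  unfold cht; fun_prop

theorem cht_zero (ζ : ℂ) : cht ζ 0 = ζ := by simp [cht]

theorem cht_hasDerivAt (ζ w : ℂ) : HasDerivAt (cht ζ) (I * cht ζ w) w := by
  have h1 : HasDerivAt (fun w : ℂ => I * w) I w := by simpa using (hasDerivAt_id w).const_mul I
  have h2 := (h1.cexp).const_mul ζ
  refine h2.congr_deriv ?_
  simp only [cht]; ring

theorem cht_mem {ζ : ℂ} (hζ : ‖ζ‖ = 1) {w : ℂ} : cht ζ w ∈ ball (0 : ℂ) 1 ↔ 0 < w.im := by
  simp [norm_cht hζ]

theorem cht_real {ζ : ℂ} (hζ : ‖ζ‖ = 1) (t : ℝ) : ‖cht ζ t‖ = 1 := by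
  simp [norm_cht hζ]

/-- inverse chart -/
noncomputable def chi (ζ z : ℂ) : ℂ := -I * Complex.log (z / ζ)

theorem cht_chi {ζ : ℂ} (hζ : ‖ζ‖ = 1) {z : ℂ} (hz : z ≠ 0) : cht ζ (chi ζ z) = z := by
  have hζ0 : ζ ≠ 0 := by rintro rfl; simp at hζ
  simp only [cht, chi]
  rw [show I * (-I * Complex.log (z / ζ)) = Complex.log (z / ζ) by
    rw [← mul_assoc]; simp, Complex.exp_log (div_ne_zero hz hζ0)]
  field_simp

theorem ball_slit {ζ z : ℂ} (hζ : ‖ζ‖ = 1) (hz : z ∈ ball ζ 1) : z / ζ ∈ slitPlane := by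
  have hζ0 : ζ ≠ 0 := by rintro rfl; simp at hζ
  have h1 : ‖z / ζ - 1‖ < 1 := by
    rw [div_sub_one hζ0, norm_div, hζ, div_one]
    simpa [dist_eq_norm] using hz
  left
  have h2 := Complex.abs_re_le_norm (z / ζ - 1)
  have h3 := (abs_le.1 h2).1
  simp only [Complex.sub_re, Complex.one_re] at h3
  linarith

theorem chi_diff {ζ : ℂ} (hζ : ‖ζ‖ = 1) : DifferentiableOn ℂ (chi ζ) (ball ζ 1) := by
  intro z hz
  have h1 := ball_slit hζ hz
  unfold chi
  apply DifferentiableAt.differentiableWithinAt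
  exact ((differentiableAt_id.div_const ζ).clog h1).const_mul _

theorem chi_zero {ζ : ℂ} (hζ : ‖ζ‖ = 1) : chi ζ ζ = 0 := by
  have hζ0 : ζ ≠ 0 := by rintro rfl; simp at hζ
  simp [chi, div_self hζ0]

theorem chi_im {ζ : ℂ} (hζ : ‖ζ‖ = 1) {z : ℂ} (hz : z ≠ 0) :
    Real.exp (-(chi ζ z).im) = ‖z‖ := by
  rw [← norm_cht hζ, cht_chi hζ hz]

/-- **Reflection across the unit circle**, with the sign. -/
theorem refl_circle {ζ : ℂ} (hζ : ‖ζ‖ = 1) {r : ℝ} (hr : 0 < r) {u : ℂ → ℂ}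
    (hu : DifferentiableOn ℂ u (ball 0 1 ∩ ball ζ r)) {h : ℂ → ℝ}
    (hh : ∀ z ∈ ball (0 : ℂ) 1 ∩ ball ζ r, HasFDerivAt h (ILin (u z)) z)
    (h0 : ∀ ξ : ℂ, ‖ξ‖ = 1 → ξ ∈ ball ζ r → Tendsto h (𝓝[ball 0 1] ξ) (𝓝 0)) :
    ∃ r' > 0, ∃ U : ℂ → ℂ, DifferentiableOn ℂ U (ball ζ r') ∧
      (∀ z ∈ ball (0 : ℂ) 1 ∩ ball ζ r', U z = u z) ∧
      (∀ ξ : ℂ, ‖ξ‖ = 1 → ξ ∈ ball ζ r' → (I * ξ * U ξ).im = 0) ∧
      (∀ ξ : ℂ, ‖ξ‖ = 1 → ξ ∈ ball ζ r' → (∃ᶠ z in 𝓝[ball 0 1] ξ, 0 ≤ h z) →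
        0 ≤ (I * ξ * U ξ).re) := by
  have hζ0 : ζ ≠ 0 := by rintro rfl; simp at hζ
  -- choose R
  obtain ⟨R, hR, hR1, hRr⟩ : ∃ R : ℝ, 0 < R ∧ R < 1 ∧ ∀ w ∈ ball (0 : ℂ) R, cht ζ w ∈ ball ζ r := by
    have h1 : ∀ᶠ w in 𝓝 (0 : ℂ), cht ζ w ∈ ball ζ r := by
      apply (cht_cont ζ).continuousAt.eventually
      rw [cht_zero]
      exact ball_mem_nhds ζ hr
    obtain ⟨δ, hδ, hδ'⟩ := Metric.eventually_nhds_iff_ball.1 h1
    refine ⟨min δ (1 / 2), by positivity, by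
      have := min_le_right δ (1 / 2); linarith, fun w hw => hδ' w ?_⟩
    exact ball_subset_ball (min_le_left _ _) hw
  have hmaps : ∀ w ∈ HD R, cht ζ w ∈ ball (0 : ℂ) 1 ∩ ball ζ r := fun w hw =>
    ⟨(cht_mem hζ).2 hw.1, hRr w (HD_sub_ball R hw)⟩
  set ut : ℂ → ℂ := fun w => u (cht ζ w) * (I * cht ζ w) with hut
  have hutd : DifferentiableOn ℂ ut (HD R) := by
    intro w hw
    have h1 : DifferentiableAt ℂ u (cht ζ w) :=
      hu.differentiableAt ((isOpen_ball.inter isOpen_ball).mem_nhds (hmaps w hw))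
    have h2 : DifferentiableAt ℂ (cht ζ) w := (cht_hasDerivAt ζ w).differentiableAt
    exact ((h1.comp w h2).mul (h2.const_mul I)).differentiableWithinAt
  have hht : ∀ w ∈ HD R, HasFDerivAt (fun w => h (cht ζ w)) (ILin (ut w)) w := by
    intro w hw
    have h1 := hh _ (hmaps w hw)
    have h2 := (cht_hasDerivAt ζ w).hasFDerivAt.restrictScalars ℝ
    refine (h1.comp w h2).congr_fderiv ?_
    ext v
    simp only [ContinuousLinearMap.comp_apply, ILin_apply, hut]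
    congr 1
    simp
    ring
  have htend : ∀ t : ℝ, Tendsto (cht ζ) (𝓝[{z : ℂ | 0 < z.im}] (t : ℂ))
      (𝓝[ball 0 1] (cht ζ t)) := by
    intro t
    apply tendsto_nhdsWithin_of_tendsto_nhds_of_eventually_within
    · exact (cht_cont ζ).continuousAt.mono_left nhdsWithin_le_nhds
    · filter_upwards [self_mem_nhdsWithin] with w hw
      exact (cht_mem hζ).2 hw
  have h0t : ∀ t : ℝ, |t| < R →
      Tendsto (fun w => h (cht ζ w)) (𝓝[{z : ℂ | 0 < z.im}] (t : ℂ)) (𝓝 0) := by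
    intro t ht
    exact (h0 (cht ζ t) (cht_real hζ t) (hRr t (by simpa using ht))).comp (htend t)
  obtain ⟨Ut, hUtd, hUtu, hUtr⟩ := refl_half hutd hht h0t (half_pos hR) (half_lt_self hR)
  -- choose r'
  obtain ⟨r', hr', hr'1, hr'R⟩ : ∃ r' : ℝ, 0 < r' ∧ r' < 1 ∧
      ∀ z ∈ ball ζ r', chi ζ z ∈ ball (0 : ℂ) (R / 2) := by
    have h1 : ∀ᶠ z in 𝓝 ζ, chi ζ z ∈ ball (0 : ℂ) (R / 2) := by
      have hc : ContinuousAt (chi ζ) ζ :=
        ((chi_diff hζ).differentiableAt (ball_mem_nhds ζ one_pos)).continuousAt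
      apply hc.eventually
      rw [chi_zero hζ]
      exact ball_mem_nhds 0 (half_pos hR)
    obtain ⟨δ, hδ, hδ'⟩ := Metric.eventually_nhds_iff_ball.1 h1
    refine ⟨min δ (1 / 2), by positivity, by
      have := min_le_right δ (1 / 2); linarith, fun w hw => hδ' w ?_⟩
    exact ball_subset_ball (min_le_left _ _) hw
  have hne : ∀ z ∈ ball ζ r', z ≠ 0 := by
    rintro z hz rfl
    have : ‖ζ‖ < r' := by simpa using hz
    linarith
  have hchi_real : ∀ ξ : ℂ, ‖ξ‖ = 1 → ξ ∈ ball ζ r' → chi ζ ξ = ((chi ζ ξ).re : ℂ) := by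
    intro ξ hξ hξr
    have h1 := chi_im hζ (hne ξ hξr)
    rw [hξ, Real.exp_eq_one_iff] at h1
    apply Complex.ext <;> simp
    linarith
  have hchi_pos : ∀ z : ℂ, ‖z‖ < 1 → z ∈ ball ζ r' → 0 < (chi ζ z).im := by
    intro z hz hzr
    rw [← cht_mem hζ, cht_chi hζ (hne z hzr)]
    simpa using hz
  have hval : ∀ ξ : ℂ, ξ ∈ ball ζ r' → I * ξ * (Ut (chi ζ ξ) / (I * ξ)) = Ut (chi ζ ξ) := by
    intro ξ hξr
    have := hne ξ hξr
    field_simp
  have hreal_lt : ∀ ξ : ℂ, ‖ξ‖ = 1 → ξ ∈ ball ζ r' → |(chi ζ ξ).re| < R / 2 := by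
    intro ξ hξ hξr
    have h1 := hr'R ξ hξr
    rw [hchi_real ξ hξ hξr] at h1
    simpa using h1
  refine ⟨r', hr', fun z => Ut (chi ζ z) / (I * z), ?_, ?_, ?_, ?_⟩
  · intro z hz
    have h1 : DifferentiableAt ℂ (chi ζ) z :=
      (chi_diff hζ).differentiableAt (isOpen_ball.mem_nhds (ball_subset_ball hr'1.le hz))
    have h2 : DifferentiableAt ℂ Ut (chi ζ z) :=
      hUtd.differentiableAt (isOpen_ball.mem_nhds (hr'R z hz))
    have h3 : DifferentiableAt ℂ (fun z : ℂ => I * z) z := differentiableAt_id.const_mul I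
    exact ((h2.comp z h1).div h3 (mul_ne_zero I_ne_zero (hne z hz))).differentiableWithinAt
  · rintro z ⟨hz1, hz2⟩
    have hz0 := hne z hz2
    have hz1' : ‖z‖ < 1 := by simpa using hz1
    have h1 : chi ζ z ∈ HD (R / 2) := ⟨hchi_pos z hz1' hz2, by simpa using hr'R z hz2⟩
    simp only
    rw [hUtu _ h1, hut]
    simp only
    rw [cht_chi hζ hz0]
    field_simp
  · intro ξ hξ hξr
    simp only
    rw [hval ξ hξr, hchi_real ξ hξ hξr]
    exact hUtr _ (hreal_lt ξ hξ hξr)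
  · intro ξ hξ hξr hNN
    simp only
    rw [hval ξ hξr, hchi_real ξ hξ hξr]
    refine refl_half_sign hht h0t (half_lt_self hR) hUtd hUtu (hreal_lt ξ hξ hξr) ?_
    -- transport the frequently
    have hc1 : ContinuousAt (chi ζ) ξ := ((chi_diff hζ).differentiableAt
      (isOpen_ball.mem_nhds (ball_subset_ball hr'1.le hξr))).continuousAt
    have h1 : Tendsto (chi ζ) (𝓝[ball 0 1] ξ) (𝓝[{z : ℂ | 0 < z.im}] (((chi ζ ξ).re : ℝ) : ℂ)) := by
      rw [← hchi_real ξ hξ hξr]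
      apply tendsto_nhdsWithin_of_tendsto_nhds_of_eventually_within
      · exact hc1.mono_left nhdsWithin_le_nhds
      · filter_upwards [self_mem_nhdsWithin,
          mem_nhdsWithin_of_mem_nhds (isOpen_ball.mem_nhds hξr)] with z hz hz2
        exact hchi_pos z (by simpa using hz) hz2
    refine h1.frequently (p := fun w => 0 ≤ h (cht ζ w)) ?_
    refine (hNN.and_eventually (mem_nhdsWithin_of_mem_nhds (isOpen_ball.mem_nhds hξr))).mono ?_
    rintro z ⟨hz1, hz2⟩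
    rw [cht_chi hζ (hne z hz2)]
    exact hz1

end Crest.Agent.R165.U3x719
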