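import Mathlib
import Crest.Agent.R165.U3Cov2_67
import Crest.Agent.R165.Tp_416

/-!
R165, block U3 (2)(3)(4) (helper67), part 3: transport of `IsSpin`, `IsBr`, `IsKer`.

`φ : D → E` bi-Lipschitz conformal bijection (`Tp416.BiL D E φ`), `x` in `D`, `φ ∘ x` in `E`.
* `spin_pull` : `IsSpin E (φ∘x) (φ '' K) F' → IsSpin D x K F`, if `F² = φ' (F' ∘ φ)²` a.e. and `F rX` is holomorphic;
* `br_pull` : `IsBr E (φ∘x) i g' → IsBr D x i (q g'∘φ)`;
* `ker_pull` : `IsKer E (φ∘x) (φ y) η' g' → IsKer D x y (q(y) η'/φ'(y)) (q g'∘φ)`;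
* `Ai_cov` : covariance of the logarithmic derivatives.
-/

set_option autoImplicit false

open Complex Set Metric Filter Topology MeasureTheory
open scoped ComplexConjugate

namespace Crest.Agent.R165.U3Covx67

open Crest.Agent.R165.U3x719
open Crest.Agent.R165.Geo (CD)
open Crest.Agent.R165.Tp416 (BiL)

variable {n : ℕ}

theorem BiL.injOn {D E : Set ℂ} {φ : ℂ → ℂ} (h : BiL D E φ) : InjOn φ D := h.bij.injOn

theorem preimage_image_eq' {D E : Set ℂ} {φ : ℂ → ℂ} (h : BiL D E φ) {K : Set ℂ} (hKD : K ⊆ D) :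
    D ∩ φ ⁻¹' (φ '' K) = K := by
  ext z
  constructor
  · rintro ⟨hz, k, hk, he⟩
    rwa [← h.bij.injOn (hKD hk) hz he]
  · intro hz
    exact ⟨hKD hz, z, hz, rfl⟩

/-- **transport of `IsSpin`** -/
theorem spin_pull {D E : Set ℂ} {φ : ℂ → ℂ} (h : BiL D E φ) {x : Fin n → ℂ} {K : Set ℂ}
    (hKD : K ⊆ D) {F F' : ℂ → ℂ} (hs : IsSpin E (fun j => φ (x j)) (φ '' K) F')
    (hm : AEStronglyMeasurable F (volume.restrict D))
    (hg : ∃ g : ℂ → ℂ, DifferentiableOn ℂ g (D \ (range x ∪ K)) ∧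
      ∀ᵐ z ∂volume.restrict (D \ K), F z * rX x z = g z)
    (hsq : ∀ᵐ w ∂volume.restrict D, F w ^ 2 = deriv φ w * F' (φ w) ^ 2) : IsSpin D x K F where
  l2 U hU hKU := by
    have hKE : φ '' K ⊆ E := by
      rintro _ ⟨k, hk, rfl⟩
      exact h.bij.mapsTo (hKD hk)
    refine h.memLp_off hKE (F := F') hs.l2 hm ?_ U hU ?_
    · filter_upwards [hsq] with w hw
      rw [← norm_pow, hw, norm_mul, norm_pow]
    · rw [preimage_image_eq' h hKD]; exact hKU
  holo := hg
  curl χ h1 h2 h3 h4 := by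
    have hKE : φ '' K ⊆ E := by
      rintro _ ⟨k, hk, rfl⟩
      exact h.bij.mapsTo (hKD hk)
    have := h.curl hKE (Q := fun z => F' z ^ 2) hs.curl χ h1 h2 h3
      (by rw [preimage_image_eq' h hKD]; exact h4)
    rw [← this]
    refine integral_congr_ae ?_
    filter_upwards [hsq] with w hw
    rw [hw]
  div χ h1 h2 h3 h4 h5 := by
    have hKE : φ '' K ⊆ E := by
      rintro _ ⟨k, hk, rfl⟩
      exact h.bij.mapsTo (hKD hk)
    have := h.div hKE (Q := fun z => F' z ^ 2) hs.div χ h1 h2 h3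
      (by rw [preimage_image_eq' h hKD]; exact h4) h5
    refine le_trans (le_of_eq ?_) this
    refine integral_congr_ae ?_
    filter_upwards [hsq] with w hw
    rw [hw]

/-- the relation between the two functions for `F = q g'∘φ / rX` -/
theorem q_sq_div {D : Set ℂ} {φ : ℂ → ℂ} {x : Fin n → ℂ} {q : ℂ → ℂ} (hq : IsQ D φ x q)
    (hD : IsOpen D) (hφ : DifferentiableOn ℂ φ D) (hinj : InjOn φ D) (hx : ∀ j, x j ∈ D)
    (g' : ℂ → ℂ) {z : ℂ} (hz : z ∈ D) (hxz : ∀ j, x j ≠ z) :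
    (q z * g' (φ z) / rX x z) ^ 2 =
      deriv φ z * (g' (φ z) / rX (fun j => φ (x j)) (φ z)) ^ 2 := by
  have hrel := hq.rel hD hφ hinj hx hz
  have h1 : PX x z ≠ 0 := PX_ne hxz
  have h2 : PX (fun j => φ (x j)) (φ z) ≠ 0 := PX_ne (fun j hj => hxz j (hinj (hx j) hz hj))
  rw [div_pow, div_pow, rX_sq, rX_sq, mul_pow]
  rw [← mul_div_assoc, div_eq_div_iff h1 h2]
  linear_combination (g' (φ z)) ^ 2 * hrel

theorem aesm_quot {D : Set ℂ} (hD : IsOpen D) {x : Fin n → ℂ} {g : ℂ → ℂ} {y : ℂ}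
    (hg : DifferentiableOn ℂ g (D \ {y})) :
    AEStronglyMeasurable (fun z => g z / rX x z) (volume.restrict D) := by
  have h0 : volume.restrict D = volume.restrict (D \ {y}) := by
    refine (Measure.restrict_congr_set ?_).symm
    exact sdiff_null_ae_eq_self (measure_singleton y)
  rw [h0]
  have h1 : AEStronglyMeasurable g (volume.restrict (D \ {y})) :=
    hg.continuousOn.aestronglyMeasurable (hD.measurableSet.diff (measurableSet_singleton y))
  exact (h1.aemeasurable.div (measurable_rX x).aemeasurable).aestronglyMeasurable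

/-- transport of a spinor `g'/rX` with one source -/
theorem spin_pull_q {D E : Set ℂ} {φ : ℂ → ℂ} (h : BiL D E φ) {x : Fin n → ℂ}
    (hx : ∀ j, x j ∈ D) {q : ℂ → ℂ} (hq : IsQ D φ x q) {y : ℂ} (hy : y ∈ D) {g' : ℂ → ℂ}
    (hg' : DifferentiableOn ℂ g' (E \ {φ y}))
    (hs : IsSpin E (fun j => φ (x j)) {φ y} (fun w => g' w / rX (fun j => φ (x j)) w)) :
    IsSpin D x {y} (fun z => q z * g' (φ z) / rX x z) := by
  have hD := h.open'
  have hdiff : DifferentiableOn ℂ (fun z => q z * g' (φ z)) (D \ {y}) := by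
    refine (hq.diff.mono sdiff_subset).mul ?_
    refine hg'.comp (h.diff.mono sdiff_subset) ?_
    rintro z ⟨hz, hzy⟩
    refine ⟨h.bij.mapsTo hz, fun he => hzy ?_⟩
    exact h.bij.injOn hz hy he
  refine spin_pull h (K := {y}) (by simpa using hy) (F' := fun w => g' w / rX (fun j => φ (x j)) w)
    (by rw [image_singleton]; exact hs) (aesm_quot hD hdiff) ?_ ?_
  · refine ⟨fun z => q z * g' (φ z), hdiff.mono (sdiff_subset_sdiff_right subset_union_right), ?_⟩
    rw [ae_restrict_iff' (hD.measurableSet.diff (measurableSet_singleton y))]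
    filter_upwards [ae_off x y] with z hz _
    rw [div_mul_cancel₀ _ (rX_ne hz.2)]
  · rw [ae_restrict_iff' hD.measurableSet]
    filter_upwards [ae_off x y] with z hz hzD
    exact q_sq_div hq hD h.diff h.bij.injOn hx g' hzD hz.2

/-- **transport of `IsBr`** -/
theorem br_pull {D E : Set ℂ} {φ : ℂ → ℂ} (h : BiL D E φ) {x : Fin n → ℂ}
    (hx : ∀ j, x j ∈ D) {q : ℂ → ℂ} (hq : IsQ D φ x q) {i : Fin n} {g' : ℂ → ℂ}
    (hg' : IsBr E (fun j => φ (x j)) i g') : IsBr D x i (fun z => q z * g' (φ z)) where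
  holo := hq.diff.mul (hg'.holo.comp h.diff h.bij.mapsTo)
  spin := spin_pull_q h hx hq (hx i) (hg'.holo.mono sdiff_subset) hg'.spin
  src := by
    have h1 := hq.at_x h.open' h.diff h.bij.injOn hx i
    have h2 := hg'.src
    change (q (x i) * g' (φ (x i))) ^ 2 = I * wX x i
    rw [mul_pow, h2]
    linear_combination I * h1

/-- **covariance of the logarithmic derivatives** -/
theorem Ai_cov (hU : Uniq) {D E : Set ℂ} {r M : ℝ} (hD : CD D r M) {φ : ℂ → ℂ} (h : BiL D E φ)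
    {x : Fin n → ℂ} (hxi : Function.Injective x) (hx : ∀ j, x j ∈ D) {i : Fin n} {g g' : ℂ → ℂ}
    (hg : IsBr D x i g) (hg' : IsBr E (fun j => φ (x j)) i g') :
    Ai x i g = deriv φ (x i) * Ai (fun j => φ (x j)) i g' +
      deriv (deriv φ) (x i) / (8 * deriv φ (x i)) := by
  obtain ⟨q, hq⟩ := exists_q hD h.diff h.bij.injOn x hx
  rw [Ai_unique hU hD hxi hx hg (br_pull h hx hq hg')]
  refine Ai_pull hD.isOpen h.diff h.bij.injOn hxi hx hq i ?_ hg'.src
  exact hg'.holo.differentiableAt (h.open_.mem_nhds (h.bij.mapsTo (hx i)))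

/-- **transport of `IsKer`** -/
theorem ker_pull {D E : Set ℂ} {φ : ℂ → ℂ} (h : BiL D E φ) {x : Fin n → ℂ}
    (hx : ∀ j, x j ∈ D) {q : ℂ → ℂ} (hq : IsQ D φ x q) {y η' : ℂ} (hy : y ∈ D) {g' : ℂ → ℂ}
    (hg' : IsKer E (fun j => φ (x j)) (φ y) η' g') :
    IsKer D x y (q y * η' / deriv φ y) (fun z => q z * g' (φ z)) ∧
      ∀ k' : ℂ → ℂ, DifferentiableOn ℂ k' E → (∀ w ∈ E, w ≠ φ y → g' w = η' / (w - φ y) + k' w) →
        ∀ z ∈ D, z ≠ y → q z * g' (φ z) = q y * η' / deriv φ y / (z - y) +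
          (η' * dslope (fun z => q z / dslope φ y z) y z + q z * k' (φ z)) := by
  have hD := h.open'
  have hds : ∀ z ∈ D, dslope φ y z ≠ 0 := fun z hz =>
    dslope_ne_zero' hD h.diff h.bij.injOn hy hz
  have key : ∀ k' : ℂ → ℂ, DifferentiableOn ℂ k' E →
      (∀ w ∈ E, w ≠ φ y → g' w = η' / (w - φ y) + k' w) →
      ∀ z ∈ D, z ≠ y → q z * g' (φ z) = q y * η' / deriv φ y / (z - y) +
          (η' * dslope (fun z => q z / dslope φ y z) y z + q z * k' (φ z)) := by
    intro k' _ he z hz hne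
    have hφne : φ z ≠ φ y := fun he' => hne (h.bij.injOn hz hy he')
    rw [he (φ z) (h.bij.mapsTo hz) hφne, dslope_of_ne _ hne, slope_def_field]
    simp only [dslope_same]
    rw [dslope_of_ne _ hne, slope_def_field]
    have h1 : z - y ≠ 0 := sub_ne_zero.2 hne
    have h2 : φ z - φ y ≠ 0 := sub_ne_zero.2 hφne
    have h3 : deriv φ y ≠ 0 := by have := hds y hy; rwa [dslope_same] at this
    field_simp
    ring
  refine ⟨⟨?_, ?_⟩, key⟩
  · obtain ⟨k', hk', he⟩ := hg'.pole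
    have hg'd : DifferentiableOn ℂ g' (E \ {φ y}) := by
      have h1 : DifferentiableOn ℂ (fun w => η' / (w - φ y) + k' w) (E \ {φ y}) := by
        refine DifferentiableOn.add ?_ (hk'.mono sdiff_subset)
        refine DifferentiableOn.div (differentiableOn_const _) (by fun_prop) ?_
        intro w hw
        exact sub_ne_zero.2 hw.2
      exact h1.congr (fun w hw => he w hw.1 hw.2)
    exact spin_pull_q h hx hq hy hg'd hg'.spin
  · obtain ⟨k', hk', he⟩ := hg'.pole
    refine ⟨fun z => η' * dslope (fun z => q z / dslope φ y z) y z + q z * k' (φ z), ?_,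
      key k' hk' he⟩
    have hsd : DifferentiableOn ℂ (fun z => q z / dslope φ y z) D :=
      hq.diff.div (differentiableOn_dslope' hD h.diff hy) hds
    refine DifferentiableOn.add ?_ (hq.diff.mul (hk'.comp h.diff h.bij.mapsTo))
    exact (differentiableOn_dslope' hD hsd hy).const_mul η'

end Crest.Agent.R165.U3Covx67
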