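import Mathlib
import Crest.Agent.R165.U3Cov3_67

/-!
R165, block U3 (4) (helper67), part 4: covariance of the kernels `kerB`, `kerR`
(the content of `KerCov` of `UKer_420`).
-/

set_option autoImplicit false

open Complex Set Metric Filter Topology MeasureTheory
open scoped ComplexConjugate

namespace Crest.Agent.R165.U3Covx67

open Crest.Agent.R165.U3x719
open Crest.Agent.R165.Geo (CD)
open Crest.Agent.R165.Tp416 (BiL)

variable {n : ℕ}

/-- a family of solutions with one source in the bulk -/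
def KerFam (D : Set ℂ) (x : Fin n → ℂ) (g : ℂ → ℂ → ℂ → ℂ) : Prop :=
  ∀ y ∈ D, (∀ j, x j ≠ y) → ∀ c, IsKer D x y (src x y c) (g y c)

/-- the local square root of `φ'` -/
noncomputable def rr (φ : ℂ → ℂ) (x : Fin n → ℂ) (q : ℂ → ℂ) (z : ℂ) : ℂ :=
  q z * rXa (fun j => φ (x j)) (φ z) / rXa x z

theorem rr_sq {D : Set ℂ} {φ : ℂ → ℂ} {x : Fin n → ℂ} {q : ℂ → ℂ} (hq : IsQ D φ x q)
    (hD : IsOpen D) (hφ : DifferentiableOn ℂ φ D) (hinj : InjOn φ D) (hx : ∀ j, x j ∈ D)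
    {z : ℂ} (hz : z ∈ D) (hxz : ∀ j, x j ≠ z) : rr φ x q z ^ 2 = deriv φ z := by
  have hrel := hq.rel hD hφ hinj hx hz
  have h1 : PX x z ≠ 0 := PX_ne hxz
  unfold rr
  rw [div_pow, mul_pow, rXa_sq, rXa_sq, hrel, mul_div_assoc, div_self h1, mul_one]

/-- the residue of the transported kernel -/
theorem src_cov {D : Set ℂ} {φ : ℂ → ℂ} {x : Fin n → ℂ} {q : ℂ → ℂ} (hq : IsQ D φ x q)
    (hD : IsOpen D) (hφ : DifferentiableOn ℂ φ D) (hinj : InjOn φ D) (hx : ∀ j, x j ∈ D)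
    {y : ℂ} (hy : y ∈ D) (hxy : ∀ j, x j ≠ y) (c : ℂ) :
    q y * src (fun j => φ (x j)) (φ y) (rr φ x q y * c) / deriv φ y = src x y c := by
  have hrel := hq.rel hD hφ hinj hx hy
  have h1 : deriv φ y ≠ 0 := Crest.Agent.Lib.deriv_ne_zero_of_injOn hD hφ hinj hy
  have h2 : rXa x y ≠ 0 := rXa_ne hxy
  unfold src rr
  rw [div_eq_iff h1]
  have h3 := rXa_sq x y
  have h4 := rXa_sq (fun j => φ (x j)) (φ y)
  rw [← h3, ← h4] at hrel
  field_simp
  linear_combination (e8 * c) * hrel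

/-- logarithmic derivative of `PX` -/
theorem hasDerivAt_PX {x : Fin n → ℂ} {y : ℂ} (hxy : ∀ j, x j ≠ y) :
    HasDerivAt (PX x) (PX x y * ∑ j, 1 / (y - x j)) y := by
  unfold PX
  have h1 : ∀ j ∈ (Finset.univ : Finset (Fin n)), HasDerivAt (fun z => x j - z) (-1) y :=
    fun j _ => by simpa using (hasDerivAt_id y).const_sub (x j)
  have h2 := HasDerivAt.fun_finsetProd h1
  refine h2.congr_deriv ?_
  rw [Finset.mul_sum]
  refine Finset.sum_congr rfl (fun j _ => ?_)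
  have h3 : x j - y ≠ 0 := sub_ne_zero.2 (hxy j)
  have h4 : y - x j ≠ 0 := sub_ne_zero.2 (hxy j).symm
  rw [← Finset.mul_prod_erase _ _ (Finset.mem_univ j), smul_eq_mul]
  field_simp
  ring

/-- logarithmic derivative of `q` -/
theorem deriv_q {D : Set ℂ} {φ : ℂ → ℂ} {x : Fin n → ℂ} {q : ℂ → ℂ} (hq : IsQ D φ x q)
    (hD : IsOpen D) (hφ : DifferentiableOn ℂ φ D) (hinj : InjOn φ D) (hx : ∀ j, x j ∈ D)
    {y : ℂ} (hy : y ∈ D) (hxy : ∀ j, x j ≠ y) :
    deriv q y = q y * (deriv (deriv φ) y / (2 * deriv φ y) + ∑ j, 1 / (2 * (y - x j)) -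
      deriv φ y * ∑ j, 1 / (2 * (φ y - φ (x j)))) := by
  have hφy : HasDerivAt φ (deriv φ y) y := (hφ.differentiableAt (hD.mem_nhds hy)).hasDerivAt
  have hφ'y : HasDerivAt (deriv φ) (deriv (deriv φ) y) y :=
    ((hφ.deriv hD).differentiableAt (hD.mem_nhds hy)).hasDerivAt
  have hqy : HasDerivAt q (deriv q y) y := (hq.diff.differentiableAt (hD.mem_nhds hy)).hasDerivAt
  have hxy' : ∀ j, φ (x j) ≠ φ y := fun j he => hxy j (hinj (hx j) hy he)
  have h1 : HasDerivAt (fun z => PX (fun j => φ (x j)) (φ z))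
      (PX (fun j => φ (x j)) (φ y) * ∑ j, 1 / (φ y - φ (x j)) * deriv φ y) y := by
    have := (hasDerivAt_PX hxy').comp y hφy
    refine this.congr_deriv ?_
    rw [mul_assoc, Finset.sum_mul]
  have h2 := (hqy.fun_pow 2).mul h1
  have h3 := hφ'y.mul (hasDerivAt_PX hxy)
  have hev : (fun z => deriv φ z * PX x z) =ᶠ[𝓝 y]
      (fun z => q z ^ 2 * PX (fun j => φ (x j)) (φ z)) := by
    filter_upwards [hD.mem_nhds hy] with z hz
    exact (hq.rel hD hφ hinj hx hz).symm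
  have h4 := (HasDerivAt.congr_of_eventuallyEq h2 hev).unique h3
  have hrel := hq.rel hD hφ hinj hx hy
  have hP : PX x y ≠ 0 := PX_ne hxy
  have hP' : PX (fun j => φ (x j)) (φ y) ≠ 0 := PX_ne hxy'
  have hd1 : deriv φ y ≠ 0 := Crest.Agent.Lib.deriv_ne_zero_of_injOn hD hφ hinj hy
  have hq0 : q y ≠ 0 := hq.ne y hy
  set S := ∑ j, 1 / (y - x j) with hS
  set S' := ∑ j, 1 / (φ y - φ (x j)) with hS'
  have e1 : ∑ j, 1 / (2 * (y - x j)) = S / 2 := by
    rw [hS, Finset.sum_div]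
    exact Finset.sum_congr rfl (fun j _ => by rw [div_div, mul_comm (2:ℂ)])
  have e2 : ∑ j, 1 / (2 * (φ y - φ (x j))) = S' / 2 := by
    rw [hS', Finset.sum_div]
    exact Finset.sum_congr rfl (fun j _ => by rw [div_div, mul_comm (2:ℂ)])
  have e3 : ∑ j, 1 / (φ y - φ (x j)) * deriv φ y = S' * deriv φ y := by
    rw [hS', Finset.sum_mul]
  rw [e1, e2]
  rw [e3] at h4
  simp only [Nat.cast_ofNat, Nat.add_one_sub_one, pow_one] at h4
  -- 2 q q' PX' + q² PX' S' φ' = φ'' PX + φ' PX S, with q² PX' = φ' PX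
  set A := PX (fun j => φ (x j)) (φ y) with hA
  set B := PX x y with hB
  set p := deriv φ y with hp
  have h5 : 2 * q y * deriv q y * A = deriv (deriv φ) y * B + p * B * S - p * B * S' * p := by
    linear_combination h4 - S' * p * hrel
  have h6 : B = q y ^ 2 * A / p := by
    rw [eq_div_iff hd1]; linear_combination -hrel
  rw [h6] at h5
  have h7 : 2 * q y * A ≠ 0 := mul_ne_zero (mul_ne_zero two_ne_zero hq0) hP'
  apply mul_left_cancel₀ h7
  field_simp at h5 ⊢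
  linear_combination h5

/-- the transported family -/
theorem ker_unique_pull (hU : Uniq) {D E : Set ℂ} {r M : ℝ} (hD : CD D r M) {φ : ℂ → ℂ}
    (h : BiL D E φ) {x : Fin n → ℂ} (hxi : Function.Injective x) (hx : ∀ j, x j ∈ D)
    {q : ℂ → ℂ} (hq : IsQ D φ x q) {g g' : ℂ → ℂ → ℂ → ℂ} (hg : KerFam D x g)
    (hg' : KerFam E (fun j => φ (x j)) g') {y : ℂ} (hy : y ∈ D) (hxy : ∀ j, x j ≠ y) (c : ℂ) :
    ∀ z ∈ D, z ≠ y → g y c z = q z * g' (φ y) (rr φ x q y * c) (φ z) := by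
  have hinj := h.bij.injOn
  have hxy' : ∀ j, φ (x j) ≠ φ y := fun j he => hxy j (hinj (hx j) hy he)
  have h1 := (ker_pull h hx hq hy (hg' (φ y) (h.bij.mapsTo hy) hxy' (rr φ x q y * c))).1
  rw [src_cov hq hD.isOpen h.diff hinj hx hy hxy] at h1
  exact IsKer.unique hU hD hxi hx hy hxy (hg y hy hxy c) h1

/-- **covariance of the kernel** -/
theorem kerB_cov (hU : Uniq) {D E : Set ℂ} {r M : ℝ} (hD : CD D r M) {φ : ℂ → ℂ}
    (h : BiL D E φ) {x : Fin n → ℂ} (hxi : Function.Injective x) (hx : ∀ j, x j ∈ D)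
    {q : ℂ → ℂ} (hq : IsQ D φ x q) {g g' : ℂ → ℂ → ℂ → ℂ} (hg : KerFam D x g)
    (hg' : KerFam E (fun j => φ (x j)) g') {z y : ℂ} (hz : z ∈ D) (hy : y ∈ D) (hzy : z ≠ y)
    (hxz : ∀ j, x j ≠ z) (hxy : ∀ j, x j ≠ y) (c c' : ℂ) :
    kerB x g z y c c' =
      kerB (fun j => φ (x j)) g' (φ z) (φ y) (rr φ x q z * c) (rr φ x q y * c') := by
  have hinj := h.bij.injOn
  have hxz' : ∀ j, φ (x j) ≠ φ z := fun j he => hxz j (hinj (hx j) hz he)
  unfold kerB
  rw [ker_unique_pull hU hD h hxi hx hq hg hg' hy hxy c' z hz hzy]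
  congr 1
  have h1 : rXa x z ≠ 0 := rXa_ne hxz
  have h2 : rXa (fun j => φ (x j)) (φ z) ≠ 0 := rXa_ne hxz'
  unfold rr
  field_simp

theorem limUnder_ker {D : Set ℂ} (hD : IsOpen D) {y η : ℂ} (hy : y ∈ D) {f k : ℂ → ℂ}
    (hk : DifferentiableOn ℂ k D) (he : ∀ z ∈ D, z ≠ y → f z = η / (z - y) + k z) :
    limUnder (𝓝[≠] y) (fun z => f z - η / (z - y)) = k y := by
  refine Tendsto.limUnder_eq ?_
  have h1 : Tendsto k (𝓝[≠] y) (𝓝 (k y)) :=
    ((hk.differentiableAt (hD.mem_nhds hy)).continuousAt).tendsto.mono_left nhdsWithin_le_nhds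
  refine h1.congr' ?_
  filter_upwards [self_mem_nhdsWithin, nhdsWithin_le_nhds (hD.mem_nhds hy)] with z hz hzD
  rw [he z hzD hz]; ring

/-- **covariance of the regular part** -/
theorem kerR_cov (hU : Uniq) {D E : Set ℂ} {r M : ℝ} (hD : CD D r M) {φ : ℂ → ℂ}
    (h : BiL D E φ) {x : Fin n → ℂ} (hxi : Function.Injective x) (hx : ∀ j, x j ∈ D)
    {q : ℂ → ℂ} (hq : IsQ D φ x q) {g g' : ℂ → ℂ → ℂ → ℂ} (hg : KerFam D x g)
    (hg' : KerFam E (fun j => φ (x j)) g') {y : ℂ} (hy : y ∈ D)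
    (hxy : ∀ j, x j ≠ y) (c c' : ℂ) :
    kerR x g y c c' =
      kerR (fun j => φ (x j)) g' (φ y) (rr φ x q y * c) (rr φ x q y * c') := by
  have hinj := h.bij.injOn
  have hDo := hD.isOpen
  have hxy' : ∀ j, φ (x j) ≠ φ y := fun j he => hxy j (hinj (hx j) hy he)
  have hd1 : deriv φ y ≠ 0 := Crest.Agent.Lib.deriv_ne_zero_of_injOn hDo h.diff hinj hy
  set η' := src (fun j => φ (x j)) (φ y) (rr φ x q y * c') with hη'
  set η := src x y c' with hη
  have hηη : q y * η' / deriv φ y = η := src_cov hq hDo h.diff hinj hx hy hxy c'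
  obtain ⟨k', hk', he'⟩ := (hg' (φ y) (h.bij.mapsTo hy) hxy' (rr φ x q y * c')).pole
  obtain ⟨-, hkey⟩ := ker_pull h hx hq hy (hg' (φ y) (h.bij.mapsTo hy) hxy' (rr φ x q y * c'))
  have hds : ∀ z ∈ D, dslope φ y z ≠ 0 := fun z hz => dslope_ne_zero' hDo h.diff hinj hy hz
  set s : ℂ → ℂ := fun z => q z / dslope φ y z with hs
  have hsd : DifferentiableOn ℂ s D := hq.diff.div (differentiableOn_dslope' hDo h.diff hy) hds
  set k : ℂ → ℂ := fun z => η' * dslope s y z + q z * k' (φ z) with hk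
  have hkd : DifferentiableOn ℂ k D :=
    ((differentiableOn_dslope' hDo hsd hy).const_mul η').add
      (hq.diff.mul (hk'.comp h.diff h.bij.mapsTo))
  have he : ∀ z ∈ D, z ≠ y → g y c' z = η / (z - y) + k z := by
    intro z hz hne
    rw [ker_unique_pull hU hD h hxi hx hq hg hg' hy hxy c' z hz hne,
      hkey k' hk' he' z hz hne, hηη]
  unfold kerR
  rw [limUnder_ker hDo hy hkd he, limUnder_ker h.open_ (h.bij.mapsTo hy) hk' he']
  congr 1
  -- derivative of `s`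
  have hφan : AnalyticAt ℂ φ y := h.diff.analyticAt (hDo.mem_nhds hy)
  have hqy : HasDerivAt q (deriv q y) y := (hq.diff.differentiableAt (hDo.mem_nhds hy)).hasDerivAt
  have hsder : deriv s y = (deriv q y * deriv φ y - q y * (deriv (deriv φ) y / 2)) /
      deriv φ y ^ 2 := by
    have := hqy.fun_div (hasDerivAt_dslope hφan) (hds y hy)
    rw [dslope_same] at this
    exact this.deriv
  have hky : k y = η' * deriv s y + q y * k' (φ y) := by
    rw [hk]; simp only [dslope_same]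
  rw [hky, hsder, deriv_q hq hDo h.diff hinj hx hy hxy]
  set S := ∑ j, 1 / (2 * (y - x j)) with hS
  set S' := ∑ j, 1 / (2 * (φ y - φ (x j))) with hS'
  have h1 : rXa x y ≠ 0 := rXa_ne hxy
  have h2 : rXa (fun j => φ (x j)) (φ y) ≠ 0 := rXa_ne hxy'
  rw [← hη, ← hη', ← hηη]
  have h3 : rr φ x q y = q y * rXa (fun j => φ (x j)) (φ y) / rXa x y := rfl
  rw [h3]
  field_simp
  ring

/-- **KerCov** (the covariance clause of `UKer_420`, in terms of the real functions) -/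
theorem ker_cov (hU : Uniq) {D E : Set ℂ} {r M : ℝ} (hD : CD D r M) {φ : ℂ → ℂ}
    (h : BiL D E φ) {x : Fin n → ℂ} (hxi : Function.Injective x) (hx : ∀ j, x j ∈ D)
    {g g' : ℂ → ℂ → ℂ → ℂ} (hg : KerFam D x g) (hg' : KerFam E (fun j => φ (x j)) g') :
    ∃ ρ : ℂ → ℂ, (∀ z ∈ D, (∀ i, x i ≠ z) → ρ z ^ 2 = deriv φ z) ∧
      (∀ z z', z ∈ D → z' ∈ D → z ≠ z' → (∀ i, x i ≠ z) → (∀ i, x i ≠ z') → ∀ c c',
        kerB x g z z' c c' =
          kerB (fun j => φ (x j)) g' (φ z) (φ z') (ρ z * c) (ρ z' * c')) ∧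
      ∀ z, z ∈ D → (∀ i, x i ≠ z) → ∀ c c',
        kerR x g z c c' = kerR (fun j => φ (x j)) g' (φ z) (ρ z * c) (ρ z * c') := by
  obtain ⟨q, hq⟩ := exists_q hD h.diff h.bij.injOn x hx
  refine ⟨rr φ x q, fun z hz hxz => rr_sq hq hD.isOpen h.diff h.bij.injOn hx hz hxz, ?_, ?_⟩
  · intro z z' hz hz' hne hxz hxz' c c'
    exact kerB_cov hU hD h hxi hx hq hg hg' hz hz' hne hxz hxz' c c'
  · intro z hz hxz c c'
    exact kerR_cov hU hD h hxi hx hq hg hg' hz hxz c c'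

end Crest.Agent.R165.U3Covx67
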