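import Crest.Agent.R165.U3Circ_719
import Crest.Agent.R165.U3Spin_719

/-!
Row 165, block U3 (helper719), part 3: uniqueness on the unit disc (residue theorem).
-/

set_option autoImplicit false

open Complex Set Metric Filter Topology MeasureTheory InnerProductSpace Real
open scoped ComplexConjugate

namespace Crest.Agent.R165.U3x719

variable {n : ℕ}

theorem wX_ne {x : Fin n → ℂ} (hx : Function.Injective x) (j : Fin n) : wX x j ≠ 0 := by
  unfold wX
  rw [Finset.prod_ne_zero_iff]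
  intro i hi
  rw [Finset.mem_erase] at hi
  exact sub_ne_zero.2 (fun h => hi.1 (hx h))

theorem PX_ne {x : Fin n → ℂ} {z : ℂ} (hz : ∀ j, z ≠ x j) : PX x z ≠ 0 := by
  unfold PX
  rw [Finset.prod_ne_zero_iff]
  intro i _
  exact sub_ne_zero.2 (hz i).symm

theorem PX_diff (x : Fin n → ℂ) : Differentiable ℂ (PX x) := by
  unfold PX
  intro z
  fun_prop

theorem prod_neg_eq (s : Finset (Fin n)) (a b : Fin n → ℂ) :
    ∏ i ∈ s, (a i - b i) = (-1) ^ s.card * ∏ i ∈ s, (b i - a i) := by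
  rw [← Finset.prod_const, ← Finset.prod_mul_distrib]
  exact Finset.prod_congr rfl fun i _ => by ring

/-- partial fractions -/
theorem inv_PX {x : Fin n → ℂ} (hx : Function.Injective x) (hn : 0 < n) {z : ℂ}
    (hz : ∀ j, z ≠ x j) : (PX x z)⁻¹ = ∑ j, ((x j - z) * wX x j)⁻¹ := by
  classical
  have hne : (Finset.univ : Finset (Fin n)).Nonempty := ⟨⟨0, hn⟩, Finset.mem_univ _⟩
  have h1 := Lagrange.eval_interpolate_not_at_node (s := Finset.univ) (v := x) (1 : Fin n → ℂ)
    (x := z) (fun i _ => hz i)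
  have h2 : Lagrange.interpolate Finset.univ x (1 : Fin n → ℂ) = 1 :=
    Lagrange.interpolate_one hx.injOn hne
  rw [h2, Polynomial.eval_one, Lagrange.eval_nodal] at h1
  have h3 : ∑ i, Lagrange.nodalWeight Finset.univ x i * (z - x i)⁻¹ * (1 : Fin n → ℂ) i =
      (∏ i, (z - x i))⁻¹ := eq_inv_of_mul_eq_one_right h1.symm
  have e1 : (PX x z)⁻¹ = (-1) ^ n * (∏ i, (z - x i))⁻¹ := by
    unfold PX
    rw [prod_neg_eq Finset.univ x (fun _ => z), Finset.card_univ, Fintype.card_fin,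
      mul_inv, ← inv_pow, inv_neg, inv_one]
  rw [e1, ← h3, Finset.mul_sum]
  refine Finset.sum_congr rfl fun j _ => ?_
  have hzj : z - x j ≠ 0 := sub_ne_zero.2 (hz j)
  have hw := wX_ne hx j
  have e2 : Lagrange.nodalWeight Finset.univ x j = (-1) ^ (n - 1) * (wX x j)⁻¹ := by
    unfold Lagrange.nodalWeight wX
    rw [Finset.prod_inv_distrib, prod_neg_eq (Finset.univ.erase j) (fun _ => x j) x,
      Finset.card_erase_of_mem (Finset.mem_univ _), Finset.card_univ, Fintype.card_fin,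
      mul_inv, ← inv_pow, inv_neg, inv_one]
  rw [e2]
  have e3 : (-1 : ℂ) ^ n * (-1) ^ (n - 1) = -1 := by
    rw [← pow_add]
    exact Odd.neg_one_pow ⟨n - 1, by omega⟩
  have e4 : (x j - z) ≠ 0 := sub_ne_zero.2 (hz j).symm
  simp only [Pi.one_apply, mul_one]
  rw [← mul_assoc, ← mul_assoc, e3, mul_inv, show (x j - z)⁻¹ = -(z - x j)⁻¹ by
    rw [← inv_neg, neg_sub]]
  ring

/-- the circle integral of `f / P`, `f` holomorphic -/
theorem circle_PX {x : Fin n → ℂ} (hx : Function.Injective x) (hxd : ∀ j, ‖x j‖ < 1)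
    {f : ℂ → ℂ} (hf : DiffContOnCl ℂ f (ball 0 1)) :
    (∮ z in C(0, 1), f z / PX x z) = - (2 * π * I) * ∑ j, f (x j) / wX x j := by
  rcases Nat.eq_zero_or_pos n with rfl | hn
  · simp only [PX, Finset.univ_eq_empty, Finset.prod_empty, div_one, Finset.sum_empty, mul_zero]
    exact Complex.circleIntegral_eq_zero_of_differentiable_on_off_countable zero_le_one
      countable_empty (by
        have := hf.continuousOn
        rwa [closure_ball _ one_ne_zero] at this)
      (fun z hz => hf.differentiableOn.differentiableAt (isOpen_ball.mem_nhds hz.1))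
  have hsph : ∀ z ∈ sphere (0 : ℂ) 1, ∀ j, z ≠ x j := by
    rintro z hz j rfl
    have := hxd j
    simp only [mem_sphere_zero_iff_norm] at hz
    linarith
  have e1 : (∮ z in C(0, 1), f z / PX x z) =
      ∮ z in C(0, 1), ∑ j, -(wX x j)⁻¹ • ((z - x j)⁻¹ • f z) := by
    apply circleIntegral.integral_congr zero_le_one
    intro z hz
    simp only
    rw [div_eq_mul_inv, inv_PX hx hn (hsph z hz), Finset.mul_sum]
    refine Finset.sum_congr rfl fun j _ => ?_
    rw [mul_inv, show (x j - z)⁻¹ = -(z - x j)⁻¹ by rw [← inv_neg, neg_sub]]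
    simp only [smul_eq_mul]
    ring
  have hfc : ContinuousOn f (sphere 0 1) := by
    have := hf.continuousOn
    rw [closure_ball _ one_ne_zero] at this
    exact this.mono sphere_subset_closedBall
  have hint : ∀ j, CircleIntegrable (fun z => (z - x j)⁻¹ • f z) 0 1 := by
    intro j
    apply ContinuousOn.circleIntegrable zero_le_one
    have h1 : ContinuousOn (fun z : ℂ => (z - x j)⁻¹) (sphere 0 1) := by
      apply ContinuousOn.inv₀ (by fun_prop)
      exact fun z hz => sub_ne_zero.2 (hsph z hz j)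
    exact h1.mul hfc
  rw [e1, circleIntegral.integral_fun_sum]
  · rw [Finset.mul_sum]
    refine Finset.sum_congr rfl fun j _ => ?_
    rw [circleIntegral.integral_smul, hf.circleIntegral_sub_inv_smul (by simpa using hxd j)]
    simp only [smul_eq_mul]
    field_simp
  · intro j _
    exact (hint j).const_fun_smul

/-- **uniqueness on the disc** -/
theorem uniq_disc {x : Fin n → ℂ} (hx : Function.Injective x) (hxd : ∀ j, ‖x j‖ < 1)
    {d : ℂ → ℂ} (hd : DifferentiableOn ℂ d (ball 0 1))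
    (hbd : ∀ ξ : ℂ, ‖ξ‖ = 1 → ∃ b : ℂ, Tendsto d (𝓝[ball 0 1] ξ) (𝓝 b) ∧
      ∃ ρ : ℝ, 0 ≤ ρ ∧ I * ξ * (b ^ 2 / PX x ξ) = ρ)
    (hbr : ∀ j, ∃ k : ℝ, 0 ≤ k ∧ d (x j) ^ 2 / wX x j = - I * k) :
    ∀ z ∈ ball (0 : ℂ) 1, d z = 0 := by
  have hcl : closure (ball (0 : ℂ) 1) = closedBall 0 1 := closure_ball _ one_ne_zero
  have hlim : ∀ z ∈ closedBall (0 : ℂ) 1, ∃ b, Tendsto d (𝓝[ball 0 1] z) (𝓝 b) := by
    intro z hz
    have hz1 : ‖z‖ ≤ 1 := by simpa using hz
    rcases hz1.lt_or_eq with h | h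
    · have hzb : z ∈ ball (0 : ℂ) 1 := by simpa using h
      exact ⟨d z, hd.continuousOn z hzb⟩
    · obtain ⟨b, hb, _⟩ := hbd z h
      exact ⟨b, hb⟩
  set e : ℂ → ℂ := extendFrom (ball 0 1) d with he
  have hec : ContinuousOn e (closedBall 0 1) :=
    continuousOn_extendFrom (by rw [hcl]) hlim
  have hee : ∀ z ∈ ball (0 : ℂ) 1, e z = d z := by
    intro z hz
    exact extendFrom_extends (f := d) (A := ball 0 1) hd.continuousOn z hz
  have hes : ∀ ξ : ℂ, ‖ξ‖ = 1 → ∃ ρ : ℝ, 0 ≤ ρ ∧ I * ξ * (e ξ ^ 2 / PX x ξ) = ρ := by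
    intro ξ hξ
    obtain ⟨b, hb, hρ⟩ := hbd ξ hξ
    have : e ξ = b := extendFrom_eq (by rw [hcl]; simp [hξ]) hb
    rwa [this]
  have hed : DifferentiableOn ℂ e (ball 0 1) := hd.congr hee
  have hedc : DiffContOnCl ℂ e (ball 0 1) := ⟨hed, by rwa [hcl]⟩
  have hedc2 : DiffContOnCl ℂ (fun z => e z ^ 2) (ball 0 1) :=
    ⟨hed.pow 2, by rw [hcl]; exact hec.pow 2⟩
  have hsph : ∀ z ∈ sphere (0 : ℂ) 1, ∀ j, z ≠ x j := by
    rintro z hz j rfl
    have := hxd j
    simp only [mem_sphere_zero_iff_norm] at hz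
    linarith
  -- the circle integral
  have h1 := circle_PX hx hxd hedc2
  choose k hk0 hk using hbr
  have h2 : ∑ j, e (x j) ^ 2 / wX x j = - I * ((∑ j, k j : ℝ) : ℂ) := by
    push_cast
    rw [Finset.mul_sum]
    refine Finset.sum_congr rfl fun j _ => ?_
    rw [hee _ (by simpa using hxd j), hk]
  rw [h2] at h1
  have h3 : -(2 * π * I) * (- I * ((∑ j, k j : ℝ) : ℂ)) = ((-(2 * π * ∑ j, k j) : ℝ) : ℂ) := by
    push_cast
    linear_combination (2 * π * ((∑ j, (k j : ℂ)))) * I_mul_I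
  rw [h3] at h1
  -- as a real integral
  set ρ : ℝ → ℝ := fun θ => (I * circleMap 0 1 θ *
    (e (circleMap 0 1 θ) ^ 2 / PX x (circleMap 0 1 θ))).re with hρ
  have hρ' : ∀ θ, I * circleMap 0 1 θ * (e (circleMap 0 1 θ) ^ 2 / PX x (circleMap 0 1 θ)) =
      (ρ θ : ℂ) ∧ 0 ≤ ρ θ := by
    intro θ
    obtain ⟨r, hr, hr'⟩ := hes (circleMap 0 1 θ) (by simp)
    have : ρ θ = r := by rw [hρ]; simp only [hr', Complex.ofReal_re]
    exact ⟨by rw [this, hr'], by rw [this]; exact hr⟩
  have h4 : (∮ z in C(0, 1), e z ^ 2 / PX x z) = ((∫ θ in 0..2 * π, ρ θ : ℝ) : ℂ) := by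
    rw [circleIntegral, ← intervalIntegral.integral_ofReal]
    apply intervalIntegral.integral_congr
    intro θ _
    simp only
    rw [← (hρ' θ).1, deriv_circleMap]
    simp only [smul_eq_mul]
    ring
  rw [h4] at h1
  have h5 : (∫ θ in 0..2 * π, ρ θ) = -(2 * π * ∑ j, k j) := by exact_mod_cast h1
  have hρc : Continuous ρ := by
    rw [hρ]
    apply Complex.continuous_re.comp
    have c1 : Continuous fun θ : ℝ => circleMap (0 : ℂ) 1 θ := continuous_circleMap 0 1
    have c2 : Continuous fun θ : ℝ => e (circleMap (0 : ℂ) 1 θ) :=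
      hec.comp_continuous c1 (fun θ => by simp)
    have c3 : Continuous fun θ : ℝ => PX x (circleMap (0 : ℂ) 1 θ) :=
      (PX_diff x).continuous.comp c1
    exact (continuous_const.mul c1).mul ((c2.pow 2).div c3
      (fun θ => PX_ne (hsph _ (by simp))))
  have hπ : (0 : ℝ) < 2 * π := by positivity
  have h6 : (∫ θ in 0..2 * π, ρ θ) ≤ 0 := by
    rw [h5]
    have : 0 ≤ ∑ j, k j := Finset.sum_nonneg fun j _ => hk0 j
    have : 0 ≤ 2 * π * ∑ j, k j := by positivity
    linarith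
  have h7 : ∀ θ ∈ Icc (0 : ℝ) (2 * π), ρ θ = 0 := by
    by_contra hcon
    push Not at hcon
    obtain ⟨θ, hθ, hne⟩ := hcon
    have : 0 < ∫ θ in 0..2 * π, ρ θ := by
      apply intervalIntegral.integral_pos hπ hρc.continuousOn (fun θ _ => (hρ' θ).2)
      exact ⟨θ, hθ, lt_of_le_of_ne (hρ' θ).2 (Ne.symm hne)⟩
    linarith
  -- e = 0 on the circle
  have h8 : ∀ z ∈ sphere (0 : ℂ) 1, e z = 0 := by
    intro z hz
    have hz1 : ‖z‖ = 1 := by simpa using hz
    have hz' : z ∈ circleMap 0 1 '' Ioc 0 (2 * π) := by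
      rw [image_circleMap_Ioc]
      simpa using hz1
    obtain ⟨θ, hθ, rfl⟩ := hz'
    have h9 := (hρ' θ).1
    rw [h7 θ (Ioc_subset_Icc_self hθ)] at h9
    have hc : circleMap (0 : ℂ) 1 θ ≠ 0 := by
      intro h
      rw [h] at hz1
      simp at hz1
    have hP := PX_ne (hsph _ hz)
    have h10 : e (circleMap 0 1 θ) ^ 2 / PX x (circleMap 0 1 θ) = 0 := by
      have h11 : I * circleMap 0 1 θ ≠ 0 := mul_ne_zero I_ne_zero hc
      simpa [h11] using h9
    have h12 : e (circleMap 0 1 θ) ^ 2 = 0 := by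
      rcases div_eq_zero_iff.1 h10 with h | h
      · exact h
      · exact absurd h hP
    exact pow_eq_zero_iff (two_ne_zero) |>.1 h12
  intro z hz
  rw [← hee z hz]
  have h9 : ‖e z‖ ≤ 0 := by
    apply Complex.norm_le_of_forall_mem_frontier_norm_le (U := ball (0 : ℂ) 1) isBounded_ball hedc
    · intro w hw
      rw [frontier_ball _ one_ne_zero] at hw
      rw [h8 w hw, norm_zero]
    · rw [hcl]
      exact ball_subset_closedBall hz
  exact norm_le_zero_iff.1 h9

end Crest.Agent.R165.U3x719
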