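import Mathlib

/-!
# Row 165 (S0250), block U, part U3-(E) (helper576)

The spinor with one source on the unit disc with two branch points `x, y`, in reduced form.

* `circ_class` : `G` holomorphic in the disc, continuous up to the circle, with the real-line
  condition `G z = -i z conj (G z)` on the circle is `G w = G 0 - i w conj (G 0)`.
* `two_branch` : if `i z g²/((z-x)(z-y)) ≥ 0` on the circle and `g x ^ 2 = -i (x - y)`, then
  `g y ^ 2 = i * kap2 x y * (y - x)`, `kap2 x y = (|1 - x̄ y| - |y - x|)/(|1 - x̄ y| + |y - x|)`.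
* `exists_two_branch` : such a `g` exists.
* `kap2_tendsto` : `kap2 x y → 1` when `x` and `y` merge; `0 < kap2 x y < 1`.
-/

set_option autoImplicit false

noncomputable section

open Filter Topology Metric Complex ComplexConjugate

namespace Crest.Agent.R165.U3Ex576

/-- `v ↦ -i v̄` -/
def Lc : ℂ →L[ℝ] ℂ := (ContinuousLinearMap.mul ℝ ℂ (-I)).comp (conjCLE : ℂ →L[ℝ] ℂ)

theorem Lc_apply (v : ℂ) : Lc v = -I * conj v := rfl

theorem mem_sph {z : ℂ} (hz : z ∈ sphere (0 : ℂ) |(1 : ℝ)|) : z * conj z = 1 ∧ z ≠ 0 := by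
  have h : ‖z‖ = 1 := by simpa using hz
  refine ⟨?_, fun h0 => by simp [h0] at h⟩
  rw [mul_conj, normSq_eq_norm_sq, h]; norm_num

theorem dcc_div {G : ℂ → ℂ} (hG : DiffContOnCl ℂ G (ball 0 1)) {w : ℂ} (hw : w ∈ ball (0 : ℂ) 1) :
    DiffContOnCl ℂ (fun z => G z / (1 - conj w * z)) (ball 0 1) := by
  have hw' : ‖w‖ < 1 := by simpa using hw
  have hne : ∀ z ∈ closedBall (0 : ℂ) 1, (1 - conj w * z) ≠ 0 := by
    intro z hz h
    have hz' : ‖z‖ ≤ 1 := by simpa using hz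
    have h1 : conj w * z = 1 := (sub_eq_zero.1 h).symm
    have h2 : ‖w‖ * ‖z‖ = 1 := by rw [← Complex.norm_conj w, ← norm_mul, h1, norm_one]
    nlinarith [norm_nonneg w, norm_nonneg z]
  refine ⟨?_, ?_⟩
  · refine hG.differentiableOn.div ?_ fun z hz => hne z (ball_subset_closedBall hz)
    fun_prop
  · rw [closure_ball _ one_ne_zero]
    have h1 : ContinuousOn G (closedBall 0 1) := by
      have := hG.continuousOn
      rwa [closure_ball _ one_ne_zero] at this
    refine h1.div ?_ hne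
    fun_prop

theorem circ_class {G : ℂ → ℂ} (hG : DiffContOnCl ℂ G (ball 0 1))
    (hc : ∀ z : ℂ, ‖z‖ = 1 → G z = -I * z * conj (G z)) {w : ℂ} (hw : w ∈ ball (0 : ℂ) 1) :
    G w = G 0 - I * w * conj (G 0) := by
  have hGc : ContinuousOn G (closedBall 0 1) := by
    have := hG.continuousOn
    rwa [closure_ball _ one_ne_zero] at this
  have hsub : sphere (0 : ℂ) |(1 : ℝ)| ⊆ closedBall 0 1 := by
    rw [abs_one]; exact sphere_subset_closedBall
  set A : ℂ := Real.circleAverage (fun z => z⁻¹ * G z) 0 1 with hA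
  have ci1 : CircleIntegrable (fun z => z⁻¹ * G z) 0 1 := by
    refine ContinuousOn.circleIntegrable' ?_
    refine ContinuousOn.mul ?_ (hGc.mono hsub)
    exact continuousOn_inv₀.mono fun z hz => (mem_sph hz).2
  have key : ∀ v ∈ ball (0 : ℂ) 1, G v = -I * conj (A + conj v * G 0) := by
    intro v hv
    have h1 := DiffContOnCl.circleAverage_smul_div (f := G) (c := 0) (R := 1) (w := v)
      (by rw [abs_one]; exact hG) (by rw [abs_one]; exact hv)
    have hd := dcc_div hG hv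
    have hdc : ContinuousOn (fun z => G z / (1 - conj v * z)) (closedBall 0 1) := by
      have := hd.continuousOn
      rwa [closure_ball _ one_ne_zero] at this
    have ci2 : CircleIntegrable (fun z => conj v * (G z / (1 - conj v * z))) 0 1 := by
      refine ContinuousOn.circleIntegrable' ?_
      exact (continuousOn_const.mul hdc).mono hsub
    have h2 : Real.circleAverage (fun z => ((z - 0) / (z - v)) • G z) 0 1 =
        Real.circleAverage (Lc ∘ (fun z => z⁻¹ * G z + conj v * (G z / (1 - conj v * z)))) 0 1 := by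
      refine Real.circleAverage_congr_sphere fun z hz => ?_
      obtain ⟨hz1, hz0⟩ := mem_sph hz
      have hzn : ‖z‖ = 1 := by simpa using hz
      have hv' : ‖v‖ < 1 := by simpa using hv
      have hzv : z - v ≠ 0 := by
        intro h
        rw [sub_eq_zero] at h
        rw [h] at hzn
        linarith
      have h3 := hc z hzn
      have hcz : conj z = z⁻¹ := by
        field_simp
        rw [mul_comm]; exact hz1
      have hden : 1 - v * z⁻¹ ≠ 0 := by
        intro h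
        apply hzv
        have h' : z * (1 - v * z⁻¹) = 0 := by rw [h, mul_zero]
        rw [mul_sub, mul_one, mul_comm v, ← mul_assoc, mul_inv_cancel₀ hz0, one_mul] at h'
        exact h'
      simp only [Function.comp, Lc_apply, sub_zero, smul_eq_mul, map_add, map_mul, map_div₀,
        map_sub, map_one, map_inv₀, Complex.conj_conj, hcz, inv_inv]
      have h4 : z - v = z * (1 - v * z⁻¹) := by field_simp
      rw [h4]
      conv_lhs => rw [h3]
      field_simp
      ring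
    have ci3 : CircleIntegrable (fun z => z⁻¹ * G z + conj v * (G z / (1 - conj v * z))) 0 1 :=
      ci1.add ci2
    rw [h2, Lc.circleAverage_comp_comm ci3, Real.circleAverage_fun_add ci1 ci2, Lc_apply] at h1
    have h5 : Real.circleAverage (fun z => conj v * (G z / (1 - conj v * z))) 0 1 =
        conj v * G 0 := by
      have h6 : DiffContOnCl ℂ (fun z => conj v * (G z / (1 - conj v * z))) (ball 0 |(1 : ℝ)|) := by
        rw [abs_one]
        exact (diffContOnCl_const (c := conj v)).smul hd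
      rw [DiffContOnCl.circleAverage h6]
      simp
    rw [h5] at h1
    exact h1.symm
  have h0 := key 0 (by simp)
  have hw1 := key w hw
  simp only [map_zero, zero_mul, add_zero] at h0
  rw [hw1, map_add, map_mul, Complex.conj_conj, mul_add, ← h0]
  ring

/-- the Gram factor `(1 - x̄ z)(1 - ȳ z)` has a holomorphic square root on the closed disc -/
def sst (x y z : ℂ) : ℂ := (1 - conj x * z) ^ (1 / 2 : ℂ) * (1 - conj y * z) ^ (1 / 2 : ℂ)

theorem re_pos_of {x z : ℂ} (hx : ‖x‖ < 1) (hz : ‖z‖ ≤ 1) : 0 < (1 - conj x * z).re := by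
  have h1 : (conj x * z).re ≤ ‖conj x * z‖ := re_le_norm _
  rw [norm_mul, Complex.norm_conj] at h1
  have h2 : ‖x‖ * ‖z‖ < 1 := by nlinarith [norm_nonneg x, norm_nonneg z]
  rw [sub_re, one_re]
  linarith

theorem cpow_half_sq (u : ℂ) : (u ^ (1 / 2 : ℂ)) ^ 2 = u := by
  rw [← Complex.cpow_nat_mul]
  norm_num

theorem sst_sq (x y z : ℂ) : sst x y z ^ 2 = (1 - conj x * z) * (1 - conj y * z) := by
  rw [sst, mul_pow, cpow_half_sq, cpow_half_sq]

theorem dcc_sst {x y : ℂ} (hx : ‖x‖ < 1) (hy : ‖y‖ < 1) :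
    DiffContOnCl ℂ (sst x y) (ball 0 1) := by
  have h : ∀ u : ℂ, ‖u‖ < 1 → ∀ z : ℂ, ‖z‖ ≤ 1 →
      DifferentiableAt ℂ (fun z => (1 - conj u * z) ^ (1 / 2 : ℂ)) z := by
    intro u hu z hz
    refine DifferentiableAt.cpow (by fun_prop) (by fun_prop) ?_
    exact Or.inl (re_pos_of hu hz)
  have h2 : ∀ z : ℂ, ‖z‖ ≤ 1 → DifferentiableAt ℂ (sst x y) z := fun z hz =>
    (h x hx z hz).mul (h y hy z hz)
  refine ⟨fun z hz => (h2 z (by simpa using (ball_subset_closedBall hz))).differentiableWithinAt,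
    ?_⟩
  rw [closure_ball _ one_ne_zero]
  exact fun z hz => (h2 z (by simpa using hz)).continuousAt.continuousWithinAt

/-- the value `κ² = B²` of the squared source-free coefficient at the second branch point -/
def kap2 (x y : ℂ) : ℝ := (‖1 - conj x * y‖ - ‖y - x‖) / (‖1 - conj x * y‖ + ‖y - x‖)

theorem norm_sq_id (x y : ℂ) :
    ‖1 - conj x * y‖ ^ 2 - ‖y - x‖ ^ 2 = (1 - ‖x‖ ^ 2) * (1 - ‖y‖ ^ 2) := by
  simp only [← normSq_eq_norm_sq, normSq_apply, sub_re, sub_im, mul_re, mul_im, one_re, one_im,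
    conj_re, conj_im]
  ring

theorem norm_lt_of {x y : ℂ} (hx : ‖x‖ < 1) (hy : ‖y‖ < 1) : ‖y - x‖ < ‖1 - conj x * y‖ := by
  have h := norm_sq_id x y
  have h1 : 0 < (1 - ‖x‖ ^ 2) * (1 - ‖y‖ ^ 2) := by
    apply mul_pos <;> nlinarith [norm_nonneg x, norm_nonneg y]
  nlinarith [norm_nonneg (y - x), norm_nonneg (1 - conj x * y)]

theorem kap2_pos {x y : ℂ} (hx : ‖x‖ < 1) (hy : ‖y‖ < 1) : 0 < kap2 x y := by
  have h := norm_lt_of hx hy
  have h1 := norm_nonneg (y - x)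
  exact div_pos (by linarith) (by linarith)

theorem kap2_lt_one {x y : ℂ} (hx : ‖x‖ < 1) (hy : ‖y‖ < 1) (hxy : x ≠ y) : kap2 x y < 1 := by
  have h := norm_lt_of hx hy
  have h1 : 0 < ‖y - x‖ := norm_pos_iff.2 (sub_ne_zero.2 hxy.symm)
  rw [kap2, div_lt_one (by linarith)]
  linarith

/-- merging -/
theorem kap2_tendsto {w : ℂ} (hw : ‖w‖ < 1) :
    Tendsto (fun p : ℂ × ℂ => kap2 p.1 p.2) (𝓝 (w, w)) (𝓝 1) := by
  have h : ContinuousAt (fun p : ℂ × ℂ => kap2 p.1 p.2) (w, w) := by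
    unfold kap2
    refine ContinuousAt.div (by fun_prop) (by fun_prop) ?_
    have := norm_lt_of hw hw
    simp only [sub_self, norm_zero, add_zero] at this ⊢
    exact this.ne'
  have h2 : kap2 w w = 1 := by
    unfold kap2
    have := norm_lt_of hw hw
    simp only [sub_self, norm_zero, add_zero, sub_zero] at this ⊢
    exact div_self this.ne'
  have h3 := h.tendsto
  simp only at h3
  rwa [h2] at h3

/-- the linear form of the boundary condition -/
theorem line_of {x y z g : ℂ} (hz : ‖z‖ = 1)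
    (h : ∃ t : ℝ, 0 ≤ t ∧ I * z * g ^ 2 = t * ((z - x) * (z - y))) :
    g * sst x y z = -I * z * conj (g * sst x y z) := by
  obtain ⟨t, ht, h⟩ := h
  have hzz : z * conj z = 1 := by rw [mul_conj, normSq_eq_norm_sq, hz]; norm_num
  have hz0 : z ≠ 0 := fun h0 => by simp [h0] at hz
  set G := g * sst x y z with hG
  by_cases hG0 : G = 0
  · rw [hG0]; simp
  have h1 : G ^ 2 = g ^ 2 * ((1 - conj x * z) * (1 - conj y * z)) := by
    rw [hG, mul_pow, sst_sq]
  -- `s = z² conj s*`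
  have h2 : (z - x) * (z - y) = z ^ 2 * conj ((1 - conj x * z) * (1 - conj y * z)) := by
    simp only [map_mul, map_sub, map_one, Complex.conj_conj]
    have e1 : z * (1 - x * conj z) = z - x := by
      rw [mul_sub, mul_one, mul_comm x, ← mul_assoc, hzz, one_mul]
    have e2 : z * (1 - y * conj z) = z - y := by
      rw [mul_sub, mul_one, mul_comm y, ← mul_assoc, hzz, one_mul]
    rw [← e1, ← e2]; ring
  set S := (1 - conj x * z) * (1 - conj y * z) with hS
  have h3 : I * z * G ^ 2 = (t * normSq S : ℝ) * z ^ 2 := by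
    rw [h1, ← mul_assoc, h, h2]
    push_cast
    rw [← mul_conj S]
    ring
  have h4 : I * conj z * G ^ 2 = ((t * normSq S : ℝ) : ℂ) := by
    have : I * conj z * G ^ 2 * z ^ 2 = ((t * normSq S : ℝ) : ℂ) * z ^ 2 := by
      rw [← h3]
      linear_combination (I * z * G ^ 2) * hzz
    exact mul_right_cancel₀ (pow_ne_zero 2 hz0) this
  have hτ : (0 : ℝ) ≤ t * normSq S := mul_nonneg ht (normSq_nonneg S)
  have h5 : ((t * normSq S : ℝ) : ℂ) = G * conj G := by
    rw [mul_conj, normSq_eq_norm_sq G]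
    have h6 : ‖I * conj z * G ^ 2‖ = ‖G‖ ^ 2 := by
      rw [norm_mul, norm_mul, norm_I, Complex.norm_conj, hz, norm_pow]; ring
    rw [h4, norm_real, Real.norm_eq_abs, abs_of_nonneg hτ] at h6
    rw [h6]
  rw [h5] at h4
  have h7 : I * conj z * G = conj G := by
    have : G * (I * conj z * G) = G * conj G := by rw [← h4]; ring
    exact mul_left_cancel₀ hG0 this
  rw [← h7]
  linear_combination (I * I * G) * hzz + G * I_sq

theorem dcc_G {x y : ℂ} (hx : ‖x‖ < 1) (hy : ‖y‖ < 1) {g : ℂ → ℂ}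
    (hg : DiffContOnCl ℂ g (ball 0 1)) :
    DiffContOnCl ℂ (fun z => g z * sst x y z) (ball 0 1) :=
  hg.smul (dcc_sst hx hy)

/-- **(E), uniqueness**: the squared coefficient at the second branch point is `kap2` -/
theorem two_branch {x y : ℂ} (hx : ‖x‖ < 1) (hy : ‖y‖ < 1) (hxy : x ≠ y) {g : ℂ → ℂ}
    (hg : DiffContOnCl ℂ g (ball 0 1))
    (hc : ∀ z : ℂ, ‖z‖ = 1 → ∃ t : ℝ, 0 ≤ t ∧ I * z * g z ^ 2 = t * ((z - x) * (z - y)))
    (hs : g x ^ 2 = -I * (x - y)) :
    g y ^ 2 = I * kap2 x y * (y - x) := by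
  set G : ℂ → ℂ := fun z => g z * sst x y z with hGdef
  have hG := dcc_G hx hy hg
  have hline : ∀ z : ℂ, ‖z‖ = 1 → G z = -I * z * conj (G z) := fun z hz => line_of hz (hc z hz)
  have hxb : x ∈ ball (0 : ℂ) 1 := by simpa using hx
  have hyb : y ∈ ball (0 : ℂ) 1 := by simpa using hy
  have hGx : G x = G 0 - I * x * conj (G 0) := circ_class hG hline hxb
  have hGy : G y = G 0 - I * y * conj (G 0) := circ_class hG hline hyb
  set a := G 0 with ha
  have hcx : conj (G x) = conj a + I * conj x * a := by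
    rw [hGx]; simp only [map_sub, map_mul, conj_I, Complex.conj_conj]; ring
  set p : ℂ := 1 - conj x * y with hp
  set q : ℂ := y - x with hq
  -- `G y (1 - |x|²) = G x p - i conj (G x) q`
  have hX : (1 - x * conj x) ≠ 0 := by
    rw [mul_conj, normSq_eq_norm_sq]
    intro h
    have : (1 - ‖x‖ ^ 2 : ℝ) = 0 := by exact_mod_cast h
    nlinarith [norm_nonneg x]
  have e1 : G y * (1 - x * conj x) = G x * p - I * conj (G x) * q := by
    rw [hcx, hGx, hGy, hp, hq]
    linear_combination (a * conj x * (y - x)) * I_sq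
  have hGx2 : G x ^ 2 = I * q * (1 - x * conj x) * conj p := by
    have h1 : G x ^ 2 = g x ^ 2 * ((1 - conj x * x) * (1 - conj y * x)) := by
      rw [hGdef]; simp only [mul_pow, sst_sq]
    rw [h1, hs, hp, hq]
    simp only [map_sub, map_mul, map_one, Complex.conj_conj]
    ring
  have hGy2 : G y ^ 2 = g y ^ 2 * (p * (1 - y * conj y)) := by
    have h1 : G y ^ 2 = g y ^ 2 * ((1 - conj x * y) * (1 - conj y * y)) := by
      rw [hGdef]; simp only [mul_pow, sst_sq]
    rw [h1, hp]; ring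
  -- real numbers
  have hpq := norm_lt_of hx hy
  rw [← hp, ← hq] at hpq
  have hq0 : q ≠ 0 := sub_ne_zero.2 hxy.symm
  have hqn : 0 < ‖q‖ := norm_pos_iff.2 hq0
  have hpn : 0 < ‖p‖ := hqn.trans hpq
  have hp0 : p ≠ 0 := norm_pos_iff.1 hpn
  have hnX : (0 : ℝ) < 1 - ‖x‖ ^ 2 := by nlinarith [norm_nonneg x]
  have hnY : (0 : ℝ) < 1 - ‖y‖ ^ 2 := by nlinarith [norm_nonneg y]
  have exx : (1 - x * conj x : ℂ) = ((1 - ‖x‖ ^ 2 : ℝ) : ℂ) := by
    rw [mul_conj, normSq_eq_norm_sq]; push_cast; ring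
  have eyy : (1 - y * conj y : ℂ) = ((1 - ‖y‖ ^ 2 : ℝ) : ℂ) := by
    rw [mul_conj, normSq_eq_norm_sq]; push_cast; ring
  have hpp : p * conj p = ((‖p‖ ^ 2 : ℝ) : ℂ) := by
    rw [mul_conj, normSq_eq_norm_sq]
  have hGxn : ((‖G x‖ ^ 2 : ℝ) : ℂ) = ((‖q‖ * (1 - ‖x‖ ^ 2) * ‖p‖ : ℝ) : ℂ) := by
    have h1 : ‖G x‖ ^ 2 = ‖G x ^ 2‖ := by rw [norm_pow]
    rw [h1, hGx2, exx, norm_mul, norm_mul, norm_mul, norm_I, Complex.norm_conj, norm_real,
      Real.norm_eq_abs, abs_of_pos hnX]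
    push_cast; ring
  have hGxc : G x * conj (G x) = ((‖q‖ * (1 - ‖x‖ ^ 2) * ‖p‖ : ℝ) : ℂ) := by
    rw [mul_conj, normSq_eq_norm_sq, hGxn]
  -- `G x * G y = i q |p| (|p| - |q|)`
  have hX' : ((1 - ‖x‖ ^ 2 : ℝ) : ℂ) ≠ 0 := by exact_mod_cast hnX.ne'
  have e2 : G x * G y = I * q * ((‖p‖ * (‖p‖ - ‖q‖) : ℝ) : ℂ) := by
    have h1 : G x * G y * ((1 - ‖x‖ ^ 2 : ℝ) : ℂ) =
        I * q * ((‖p‖ * (‖p‖ - ‖q‖) : ℝ) : ℂ) * ((1 - ‖x‖ ^ 2 : ℝ) : ℂ) := by
      rw [exx] at e1 hGx2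
      have h2 : G x * G y * ((1 - ‖x‖ ^ 2 : ℝ) : ℂ) =
          G x ^ 2 * p - I * (G x * conj (G x)) * q := by
        linear_combination (G x) * e1
      rw [h2, hGx2, hGxc]
      push_cast at hpp ⊢
      linear_combination (I * q * (1 - (‖x‖ : ℂ) ^ 2)) * hpp
    exact mul_right_cancel₀ hX' h1
  have e3 : G x ^ 2 * G y ^ 2 = (I * q * ((‖p‖ * (‖p‖ - ‖q‖) : ℝ) : ℂ)) ^ 2 := by
    rw [← e2]; ring
  rw [hGx2, hGy2, exx, eyy] at e3
  -- cancel
  have hcp0 : conj p ≠ 0 := (map_ne_zero _).2 hp0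
  have key : g y ^ 2 * ((1 - ‖x‖ ^ 2 : ℝ) * (1 - ‖y‖ ^ 2 : ℝ) : ℂ) =
      I * q * (((‖p‖ - ‖q‖) ^ 2 : ℝ) : ℂ) := by
    have h1 : (I * q * (p * conj p)) * (g y ^ 2 * ((1 - ‖x‖ ^ 2 : ℝ) * (1 - ‖y‖ ^ 2 : ℝ) : ℂ)) =
        (I * q * (p * conj p)) * (I * q * (((‖p‖ - ‖q‖) ^ 2 : ℝ) : ℂ)) := by
      have h2 : (I * q * (p * conj p)) *
          (g y ^ 2 * ((1 - ‖x‖ ^ 2 : ℝ) * (1 - ‖y‖ ^ 2 : ℝ) : ℂ)) =
          I * q * ((1 - ‖x‖ ^ 2 : ℝ) : ℂ) * conj p *
            (g y ^ 2 * (p * ((1 - ‖y‖ ^ 2 : ℝ) : ℂ))) := by ring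
      rw [h2, e3, hpp]
      push_cast
      ring
    refine mul_left_cancel₀ ?_ h1
    exact mul_ne_zero (mul_ne_zero I_ne_zero hq0) (mul_ne_zero hp0 hcp0)
  have hid := norm_sq_id x y
  rw [← hp, ← hq] at hid
  have hk : (kap2 x y : ℝ) * ((1 - ‖x‖ ^ 2) * (1 - ‖y‖ ^ 2)) = (‖p‖ - ‖q‖) ^ 2 := by
    rw [← hid, kap2, ← hp, ← hq]
    have : ‖p‖ + ‖q‖ ≠ 0 := by positivity
    field_simp
    ring
  have hne : ((1 - ‖x‖ ^ 2 : ℝ) * (1 - ‖y‖ ^ 2 : ℝ) : ℂ) ≠ 0 := by
    exact_mod_cast (mul_pos hnX hnY).ne'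
  refine mul_right_cancel₀ hne ?_
  rw [key, ← hk]
  push_cast
  ring

end Crest.Agent.R165.U3Ex576
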