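import Mathlib
import Crest.Agent.R165.U3Loc1_67
import Crest.Agent.R165.Cl5_722

/-!
R165, block U3 (helper67): residue signs.

* `local_sign` : `x_j ∉ K` implies `g(x_j)² = -I wX x j k`, `k ≥ 0`;
* `residue_sign` : `K = {x_i}`, `g` holomorphic on `D` implies `g(x_i)² = I wX x i t`, `t ≥ 0`
  (helper871's test function `1 - θ`).
-/

set_option autoImplicit false

open Complex Set Metric Filter Topology MeasureTheory
open scoped ComplexConjugate ENNReal

namespace Crest.Agent.R165.U3Covx67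

open Crest.Agent.R165.U3x719
open Crest.Agent.R165.Geo (CD)
open Crest.Agent.R165.Cl1x722 Crest.Agent.R165.Cl3x722 Crest.Agent.R165.Cl4x722
  Crest.Agent.R165.Cl5x722

variable {n : ℕ}

theorem db_eq_dbar {χ : ℂ → ℝ} {z : ℂ} (h : DifferentiableAt ℝ χ z) :
    db χ z = 2 * dbar (fun w => (χ w : ℂ)) z := by
  have h1 : HasFDerivAt (fun w => (χ w : ℂ)) (ofRealCLM.comp (fderiv ℝ χ z)) z :=
    ofRealCLM.hasFDerivAt.comp z h.hasFDerivAt
  unfold db dbar
  rw [h1.fderiv]
  simp only [ContinuousLinearMap.comp_apply, ofRealCLM_apply]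
  ring

theorem cauchy_pompeiu {χ : ℂ → ℂ} (h1 : ContDiff ℝ 1 χ) (h2 : HasCompactSupport χ) (c : ℂ) :
    ∫ z, (z - c)⁻¹ * dbar χ z = -(Real.pi : ℂ) * χ c := by
  have h3 : ContDiff ℝ 1 (fun w => χ (w + c)) := h1.comp (contDiff_id.add contDiff_const)
  have h4 : HasCompactSupport (fun w => χ (w + c)) := by
    have := h2.comp_homeomorph (Homeomorph.addRight c)
    exact this
  have h5 := cauchy_pompeiu_zero h3 h4
  rw [zero_add] at h5
  rw [← h5, ← integral_add_right_eq_self (μ := volume) (fun z => (z - c)⁻¹ * dbar χ z) c]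
  refine integral_congr_ae (Eventually.of_forall fun w => ?_)
  simp only [add_sub_cancel_right]
  congr 1
  unfold dbar
  rw [fderiv_comp_add_right]

/-- the local computation: `F² = -m/(z - c)` near `c`, `θ = 1` near `c` -/
theorem residue_test {c : ℂ} {δ : ℝ} {m : ℂ → ℂ} (hm : DifferentiableOn ℂ m (ball c δ))
    (hδ : 0 < δ) {θ : ℂ → ℝ} (h1 : ContDiff ℝ 1 θ) (h2 : HasCompactSupport θ)
    (h3 : tsupport θ ⊆ ball c δ) (hθ : θ c = 1) {S : Set ℂ}
    (hS : ball c δ ⊆ S) {Q : ℂ → ℂ}
    (hQ : ∀ᵐ z ∂volume.restrict (ball c δ), Q z = -(m z) / (z - c)) :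
    Integrable (fun z => Q z * db θ z) (volume.restrict S) ∧
      ∫ z in S, Q z * db θ z = 2 * Real.pi * m c := by
  set Θ : ℂ → ℂ := fun w => (θ w : ℂ) with hΘ
  have g1 : ContDiff ℝ 1 Θ := ofRealCLM.contDiff.comp h1
  have g2 : HasCompactSupport Θ := h2.comp_left (g := fun x : ℝ => (x : ℂ)) (by simp)
  have g3 : tsupport Θ ⊆ ball c δ := by
    refine (closure_mono fun z hz => ?_).trans h3
    intro h
    apply hz
    simp only [hΘ]
    have : θ z = 0 := h
    rw [this]; simp
  have hdbar : ∀ z, db θ z = 2 * dbar Θ z := fun z =>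
    db_eq_dbar ((h1.differentiable one_ne_zero) z)
  have hc := mem_ball_self (x := c) hδ
  have hds : DifferentiableOn ℂ (dslope m c) (ball c δ) :=
    (Complex.differentiableOn_dslope (isOpen_ball.mem_nhds hc)).2 hm
  have hcd : Continuous (dbar Θ) := continuous_dbar g1
  have hcs : HasCompactSupport (dbar Θ) := hasCompactSupport_dbar g2
  have hts : tsupport (dbar Θ) ⊆ ball c δ := (tsupport_dbar_subset Θ).trans g3
  have i1 : Integrable (fun z => (z - c)⁻¹ * dbar Θ z) := by
    have hl : LocallyIntegrable (fun z : ℂ => (z - c)⁻¹) := by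
      have h := locallyIntegrable_inv
      have hmap : Measure.map (Homeomorph.subRight c) (volume : Measure ℂ) = volume :=
        (measurePreserving_sub_right volume c).map_eq
      rw [← hmap] at h
      exact (locallyIntegrable_map_homeomorph (Homeomorph.subRight c)).1 h
    exact integrable_mul_test (hl.locallyIntegrableOn (ball c δ)) hcd hcs hts
  have i2 : Integrable (fun z => dslope m c z * dbar Θ z) :=
    integrable_mul_test (locallyIntegrableOn_of_differentiableOn isOpen_ball hds) hcd hcs hts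
  have e1 := cauchy_pompeiu g1 g2 c
  have e2 := integral_hol_dbar isOpen_ball hds g1 g2 g3
  have hae : ∀ᵐ z ∂volume.restrict S, Q z * db θ z =
      -2 * m c * ((z - c)⁻¹ * dbar Θ z) + -2 * (dslope m c z * dbar Θ z) := by
    rw [ae_restrict_iff' measurableSet_ball] at hQ
    refine ae_restrict_of_ae ?_
    have hne : ∀ᵐ z : ℂ ∂volume, z ≠ c := by simp [ae_iff, measure_singleton]
    filter_upwards [hQ, hne] with z hz hzc
    rw [hdbar z]
    by_cases hzb : z ∈ ball c δ
    · rw [hz hzb, dslope_of_ne _ hzc, slope_def_field]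
      have : z - c ≠ 0 := sub_ne_zero.2 hzc
      field_simp
      ring
    · have : dbar Θ z = 0 := dbar_zero_of_notMem (fun h => hzb (g3 h))
      rw [this]; ring
  have i3 : Integrable (fun z => -2 * m c * ((z - c)⁻¹ * dbar Θ z) +
      -2 * (dslope m c z * dbar Θ z)) := (i1.const_mul _).add (i2.const_mul _)
  refine ⟨(i3.integrableOn (s := S)).congr (hae.mono fun z hz => hz.symm), ?_⟩
  rw [integral_congr_ae hae]
  have hzero : ∀ z, z ∉ S → -2 * m c * ((z - c)⁻¹ * dbar Θ z) +
      -2 * (dslope m c z * dbar Θ z) = 0 := by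
    intro z hz
    have : dbar Θ z = 0 := dbar_zero_of_notMem (fun h => hz (hS (g3 h)))
    rw [this]; ring
  rw [setIntegral_eq_integral_of_forall_compl_eq_zero hzero,
    integral_add (i1.const_mul _) (i2.const_mul _), integral_const_mul, integral_const_mul,
    e1, e2]
  have : Θ c = 1 := by simp [hΘ, hθ]
  rw [this]; ring

/-- cut-off functions -/
theorem exists_bump (c : ℂ) {r R : ℝ} (hr : 0 < r) (hR : r < R) :
    ∃ θ : ℂ → ℝ, ContDiff ℝ 1 θ ∧ HasCompactSupport θ ∧ (∃ C, LipschitzWith C θ) ∧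
      tsupport θ ⊆ closedBall c R ∧ (∀ z ∈ closedBall c r, θ z = 1) ∧ (∀ z, 0 ≤ θ z) ∧
      ∀ z, θ z ≤ 1 := by
  let f : ContDiffBump c := ⟨r, R, hr, hR⟩
  have h1 : ContDiff ℝ 1 (f : ℂ → ℝ) := f.contDiff
  refine ⟨f, h1, f.hasCompactSupport, h1.lipschitzWith_of_hasCompactSupport f.hasCompactSupport
    one_ne_zero, ?_, fun z hz => f.one_of_mem_closedBall hz, fun z => f.nonneg, fun z => f.le_one⟩
  rw [f.tsupport_eq]

/-- the common computation: `F² = -m/(z - c)` near `c` -/
theorem spin_sq_near {D : Set ℂ} {x : Fin n → ℂ} {F g : ℂ → ℂ} {j : Fin n}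
    {δ : ℝ} (hball : ∀ i, x i ∈ closedBall (x j) δ → x i = x j) (hxi : Function.Injective x)
    (hg : DifferentiableOn ℂ g (ball (x j) δ)) (hsub : ball (x j) δ ⊆ D)
    (hae : ∀ᵐ z ∂volume.restrict D, F z * rX x z = g z) :
    ∃ m : ℂ → ℂ, DifferentiableOn ℂ m (ball (x j) δ) ∧ m (x j) = g (x j) ^ 2 / wX x j ∧
      ∀ᵐ z ∂volume.restrict (ball (x j) δ), F z ^ 2 = -(m z) / (z - x j) := by
  have hP : ∀ z ∈ ball (x j) δ, ∏ i ∈ Finset.univ.erase j, (x i - z) ≠ 0 := by
    intro z hz
    rw [Finset.prod_ne_zero_iff]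
    intro i hi h0
    have h1 : x i = z := sub_eq_zero.1 h0
    have h2 : x i = x j := hball i (by rw [h1]; exact ball_subset_closedBall hz)
    exact (Finset.ne_of_mem_erase hi) (hxi h2)
  refine ⟨fun z => g z ^ 2 / ∏ i ∈ Finset.univ.erase j, (x i - z), ?_, rfl, ?_⟩
  · refine (hg.pow 2).div ?_ hP
    have : Differentiable ℂ (fun z : ℂ => ∏ i ∈ Finset.univ.erase j, (x i - z)) := by fun_prop
    exact this.differentiableOn
  · have h1 : ∀ᵐ z ∂volume.restrict (ball (x j) δ), F z * rX x z = g z :=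
      ae_mono (Measure.restrict_mono hsub le_rfl) hae
    rw [ae_restrict_iff' measurableSet_ball] at h1 ⊢
    filter_upwards [h1, ae_off x (x j)] with z hz hz2 hzb
    have h3 := rX_ne hz2.2
    have h4 : F z = g z / rX x z := by rw [eq_div_iff h3]; exact hz hzb
    have h5 : z - x j ≠ 0 := sub_ne_zero.2 hz2.1
    rw [h4, div_pow, rX_sq]
    unfold PX
    rw [← Finset.mul_prod_erase _ _ (Finset.mem_univ j)]
    have h6 : x j - z = -(z - x j) := by ring
    have h7 := hP z hzb
    rw [h6]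
    field_simp

/-- **local sign** at a branch point which is not a source -/
theorem local_sign {D : Set ℂ} {x : Fin n → ℂ} {K : Set ℂ} {F g : ℂ → ℂ} (hD : IsOpen D)
    (hK : IsClosed K) (h : IsSpin D x K F) (hxi : Function.Injective x)
    (hg : DifferentiableOn ℂ g (D \ K)) (hae : ∀ᵐ z ∂volume.restrict (D \ K), F z * rX x z = g z)
    {j : Fin n} (hj : x j ∈ D) (hjK : x j ∉ K) :
    ∃ k : ℝ, 0 ≤ k ∧ g (x j) ^ 2 = -I * wX x j * k := by
  obtain ⟨δ, hδ, h1, h2, h3⟩ := exists_small_ball hD hK (x := x) hj hjK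
  have hsub : ball (x j) δ ⊆ D \ K := fun z hz =>
    ⟨h1 (ball_subset_closedBall hz),
      fun hzK => Set.disjoint_left.1 h2 (ball_subset_closedBall hz) hzK⟩
  obtain ⟨m, hm, hmj, hsq⟩ := spin_sq_near h3 hxi (hg.mono hsub) hsub hae
  obtain ⟨θ, t1, t2, t3, t4, t5, t6, t7⟩ := exists_bump (x j) (show 0 < δ / 4 by positivity)
    (show δ / 4 < δ / 2 by linarith)
  have hts : tsupport θ ⊆ ball (x j) δ :=
    t4.trans (closedBall_subset_ball (by linarith))
  have hθ : θ (x j) = 1 := t5 _ (mem_closedBall_self (by positivity))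
  obtain ⟨hint, hval⟩ := residue_test hm hδ t1 t2 hts hθ
    (fun z hz => (hsub hz).1) hsq
  have hdisj : Disjoint (tsupport θ) K :=
    Set.disjoint_left.2 (fun z hz hzK => (hsub (hts hz)).2 hzK)
  have hc := h.curl θ t3 t2 t1.contDiffOn hdisj
  have hd := h.div θ t3 t2 t1.contDiffOn hdisj t6
  have hre : ∫ z in D, (F z ^ 2 * db θ z).re = (2 * Real.pi * m (x j)).re := by
    rw [← hval]; exact integral_re hint
  have him : ∫ z in D, (F z ^ 2 * db θ z).im = (2 * Real.pi * m (x j)).im := by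
    rw [← hval]; exact integral_im hint
  rw [hre] at hc
  rw [him] at hd
  have e : (2 * Real.pi * m (x j) : ℂ) = ((2 * Real.pi : ℝ) : ℂ) * m (x j) := by push_cast; ring
  rw [e, Complex.re_ofReal_mul] at hc
  rw [e, Complex.im_ofReal_mul] at hd
  have hpi := Real.pi_pos
  have hmre : (m (x j)).re = 0 := by
    rcases mul_eq_zero.1 hc with h0 | h0
    · exact absurd h0 (by positivity)
    · exact h0
  have hmim : (m (x j)).im ≤ 0 := by
    by_contra hcon
    push Not at hcon
    have := mul_pos (show 0 < 2 * Real.pi by positivity) hcon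
    linarith
  refine ⟨-(m (x j)).im, by linarith, ?_⟩
  have hm2 : m (x j) = I * ((m (x j)).im : ℂ) := by
    apply Complex.ext <;> simp [hmre]
  have hw := wX_ne hxi j
  have h8 : g (x j) ^ 2 = m (x j) * wX x j := by rw [hmj, div_mul_cancel₀ _ hw]
  rw [h8, hm2]
  simp only [Complex.ofReal_neg, Complex.mul_im, Complex.I_re, Complex.I_im, Complex.ofReal_re,
    Complex.ofReal_im, zero_mul, one_mul, zero_add]
  ring

/-- **residue sign** at the source (helper576's (RS), helper871's proof) -/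
theorem residue_sign {D : Set ℂ} {x : Fin n → ℂ} {g : ℂ → ℂ} (hD : IsOpen D)
    (hb : Bornology.IsBounded D) {i : Fin n} (h : IsSpin D x {x i} (fun z => g z / rX x z))
    (hxi : Function.Injective x) (hi : x i ∈ D) (hg : DifferentiableOn ℂ g D) :
    ∃ t : ℝ, 0 ≤ t ∧ g (x i) ^ 2 = I * wX x i * t := by
  obtain ⟨δ, hδ, h1, -, h3⟩ := exists_small_ball hD isClosed_empty (x := x) hi (notMem_empty _)
  have hsub : ball (x i) δ ⊆ D := fun z hz => h1 (ball_subset_closedBall hz)
  set F : ℂ → ℂ := fun z => g z / rX x z with hF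
  have hae : ∀ᵐ z ∂volume.restrict D, F z * rX x z = g z := by
    refine ae_restrict_of_ae ?_
    filter_upwards [ae_off x (x i)] with z hz
    rw [hF]
    exact div_mul_cancel₀ _ (rX_ne hz.2)
  obtain ⟨m, hm, hmj, hsq⟩ := spin_sq_near h3 hxi (hg.mono hsub) hsub hae
  obtain ⟨θ, t1, t2, t3, t4, t5, t6, t7⟩ := exists_bump (x i) (show 0 < δ / 4 by positivity)
    (show δ / 4 < δ / 2 by linarith)
  have hts : tsupport θ ⊆ ball (x i) δ :=
    t4.trans (closedBall_subset_ball (by linarith))
  have hθ : θ (x i) = 1 := t5 _ (mem_closedBall_self (by positivity))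
  obtain ⟨hint, hval⟩ := residue_test hm hδ t1 t2 hts hθ hsub hsq
  -- the large cut-off
  obtain ⟨R, hR⟩ := hb.subset_ball (0:ℂ)
  have hR0 : 0 < max R 1 := lt_max_of_lt_right one_pos
  obtain ⟨κ, k1, k2, k3, k4, k5, k6, k7⟩ := exists_bump (0:ℂ) hR0
    (show max R 1 < max R 1 + 1 by linarith)
  set χ : ℂ → ℝ := fun z => κ z * (1 - θ z) with hχ
  have c1 : ContDiff ℝ 1 χ := k1.mul (contDiff_const.sub t1)
  have c2 : HasCompactSupport χ := k2.mul_right
  have c3 : ∃ C, LipschitzWith C χ := c1.lipschitzWith_of_hasCompactSupport c2 one_ne_zero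
  have c4 : ∀ z, 0 ≤ χ z := fun z => mul_nonneg (k6 z) (by linarith [t7 z])
  have c5 : Disjoint (tsupport χ) {x i} := by
    rw [Set.disjoint_singleton_right]
    intro hmem
    have hev : χ =ᶠ[𝓝 (x i)] fun _ => 0 := by
      filter_upwards [ball_mem_nhds (x i) (show 0 < δ / 4 by positivity)] with z hz
      simp only [hχ]
      rw [t5 z (ball_subset_closedBall hz)]; ring
    exact (notMem_tsupport_iff_eventuallyEq.2 hev) hmem
  have c6 : ∀ z ∈ D, db χ z = - db θ z := by
    intro z hz
    have hev : χ =ᶠ[𝓝 z] fun w => 1 - θ w := by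
      filter_upwards [isOpen_ball.mem_nhds (hR hz)] with w hw
      simp only [hχ]
      rw [k5 w (closedBall_subset_closedBall (le_max_left _ _) (ball_subset_closedBall hw))]
      ring
    unfold db
    rw [hev.fderiv_eq]
    have : fderiv ℝ (fun w => 1 - θ w) z = - fderiv ℝ θ z := by
      rw [fderiv_const_sub]
    rw [this]
    simp
    ring
  have hc := h.curl χ c3 c2 c1.contDiffOn c5
  have hd := h.div χ c3 c2 c1.contDiffOn c5 c4
  have hval2 : ∫ z in D, (F z ^ 2 * db χ z) = - (2 * Real.pi * m (x i)) := by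
    rw [← hval, ← integral_neg]
    refine setIntegral_congr_fun hD.measurableSet (fun z hz => ?_)
    have := c6 z hz
    change F z ^ 2 * db χ z = -(F z ^ 2 * db θ z)
    rw [this]; ring
  have hint2 : Integrable (fun z => F z ^ 2 * db χ z) (volume.restrict D) := by
    refine hint.neg.congr ?_
    rw [Filter.EventuallyEq, ae_restrict_iff' hD.measurableSet]
    refine Eventually.of_forall (fun z hz => ?_)
    simp only [Pi.neg_apply]
    rw [c6 z hz]; ring
  have hre : ∫ z in D, (F z ^ 2 * db χ z).re = (-(2 * Real.pi * m (x i))).re := by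
    rw [← hval2]; exact integral_re hint2
  have him : ∫ z in D, (F z ^ 2 * db χ z).im = (-(2 * Real.pi * m (x i))).im := by
    rw [← hval2]; exact integral_im hint2
  rw [hre] at hc
  rw [him] at hd
  have e : (2 * Real.pi * m (x i) : ℂ) = ((2 * Real.pi : ℝ) : ℂ) * m (x i) := by push_cast; ring
  rw [e, Complex.neg_re, Complex.re_ofReal_mul] at hc
  rw [e, Complex.neg_im, Complex.im_ofReal_mul] at hd
  have hpi := Real.pi_pos
  have hmre : (m (x i)).re = 0 := by
    rcases mul_eq_zero.1 (neg_eq_zero.1 hc) with h0 | h0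
    · exact absurd h0 (by positivity)
    · exact h0
  have hmim : 0 ≤ (m (x i)).im := by
    by_contra hcon
    push Not at hcon
    have := mul_neg_of_pos_of_neg (show 0 < 2 * Real.pi by positivity) hcon
    linarith
  refine ⟨(m (x i)).im, hmim, ?_⟩
  have hm2 : m (x i) = I * ((m (x i)).im : ℂ) := by
    apply Complex.ext <;> simp [hmre]
  have hw := wX_ne hxi i
  have h8 : g (x i) ^ 2 = m (x i) * wX x i := by rw [hmj, div_mul_cancel₀ _ hw]
  rw [h8]
  nth_rewrite 1 [hm2]
  ring

end Crest.Agent.R165.U3Covx67
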