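import Mathlib

/-!
Row 165, block U3 (helper719), part 1: Poisson integrals, maximum principle, Schwarz reflection for
harmonic functions vanishing on the flat side of a half disc, in the form needed for
`H = Im ∫ f²`.
-/

set_option autoImplicit false

open Complex Set Metric Filter Topology MeasureTheory InnerProductSpace Real
open scoped ComplexConjugate

namespace Crest.Agent.R165.U3x719

/-- the real-linear form `v ↦ Im (a v)` -/
noncomputable def ILin (a : ℂ) : ℂ →L[ℝ] ℝ := Complex.imCLM.comp (ContinuousLinearMap.mul ℝ ℂ a)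

@[simp] theorem ILin_apply (a v : ℂ) : ILin a v = (a * v).im := rfl

/-- Poisson integral of `φ` on the circle of radius `R` about `0` -/
noncomputable def PInt (φ : ℂ → ℝ) (R : ℝ) (w : ℂ) : ℝ :=
  circleAverage (poissonKernel 0 w • φ) 0 R

theorem pk_cont {R : ℝ} {w : ℂ} (hw : w ∈ ball (0 : ℂ) R) :
    ContinuousOn (poissonKernel 0 w) (sphere 0 |R|) := by
  have hR : 0 < R := pos_of_mem_ball hw
  intro z hz
  have hz1 : ‖z‖ = R := by simpa [abs_of_pos hR] using hz
  have hne : ‖(z - 0) - (w - 0)‖ ^ 2 ≠ 0 := by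
    have : z ≠ w := by
      rintro rfl
      simp [hz1] at hw
    have : z - w ≠ 0 := sub_ne_zero.2 this
    simpa using this
  unfold poissonKernel
  apply ContinuousAt.continuousWithinAt
  exact (show ContinuousAt (fun z : ℂ => ‖z - 0‖ ^ 2 - ‖w - 0‖ ^ 2) z by fun_prop).div
    (show ContinuousAt (fun z : ℂ => ‖(z - 0) - (w - 0)‖ ^ 2) z by fun_prop) hne

theorem pk_nonneg {R : ℝ} {w z : ℂ} (hw : w ∈ ball (0 : ℂ) R) (hz : z ∈ sphere (0 : ℂ) R) :
    0 ≤ poissonKernel 0 w z := by
  have hz1 : ‖z‖ = R := by simpa using hz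
  have hw1 : ‖w‖ < R := by simpa using hw
  unfold poissonKernel
  apply div_nonneg _ (by positivity)
  simp only [sub_zero, hz1]
  have := norm_nonneg w
  nlinarith

theorem pk_mul {R : ℝ} {w z : ℂ} (hw : w ∈ ball (0 : ℂ) R) (hz : z ∈ sphere (0 : ℂ) R) :
    poissonKernel 0 w z * ‖z - w‖ ^ 2 = R ^ 2 - ‖w‖ ^ 2 := by
  have hz1 : ‖z‖ = R := by simpa using hz
  have hne : ‖z - w‖ ^ 2 ≠ 0 := by
    have : z ≠ w := by
      rintro rfl
      simp [hz1] at hw
    have : z - w ≠ 0 := sub_ne_zero.2 this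
    simpa using this
  unfold poissonKernel
  simp only [sub_zero, hz1]
  exact div_mul_cancel₀ _ hne

theorem pk_avg {R : ℝ} {w : ℂ} (hw : w ∈ ball (0 : ℂ) R) :
    circleAverage (poissonKernel 0 w) 0 R = 1 := by
  have h := HarmonicOnNhd.circleAverage_poissonKernel_smul (f := fun _ : ℂ => (1 : ℝ)) (c := 0)
    (w := w) (R := R) (fun z _ => harmonicAt_const _) hw
  have e : (poissonKernel 0 w • fun _ : ℂ => (1 : ℝ)) = poissonKernel 0 w := by
    ext z; simp
  rwa [e] at h

theorem PInt_tendsto {φ : ℂ → ℝ} {R : ℝ} (hR : 0 < R) (hφ : ContinuousOn φ (sphere 0 R)) {ζ : ℂ}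
    (hζ : ζ ∈ sphere (0 : ℂ) R) : Tendsto (PInt φ R) (𝓝[ball 0 R] ζ) (𝓝 (φ ζ)) := by
  have hRabs : |R| = R := abs_of_pos hR
  -- bound
  obtain ⟨M, hM⟩ : ∃ M, ∀ z ∈ sphere (0 : ℂ) R, |φ z - φ ζ| ≤ M := by
    have hc : ContinuousOn (fun z => |φ z - φ ζ|) (sphere (0 : ℂ) R) :=
      (hφ.sub continuousOn_const).abs
    obtain ⟨M, hM⟩ := (isCompact_sphere (0 : ℂ) R).bddAbove_image hc
    exact ⟨M, fun z hz => hM (mem_image_of_mem _ hz)⟩
  have hM0 : 0 ≤ M := (abs_nonneg _).trans (hM ζ hζ)
  rw [Metric.tendsto_nhds]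
  intro ε hε
  obtain ⟨δ, hδ, hδ'⟩ := Metric.continuousWithinAt_iff.1 (hφ ζ hζ) (ε / 2) (half_pos hε)
  -- main estimate
  have key : ∀ w ∈ ball (0 : ℂ) R, dist w ζ < δ / 2 →
      |PInt φ R w - φ ζ| ≤ ε / 2 + M * (4 / δ ^ 2) * (R ^ 2 - ‖w‖ ^ 2) := by
    intro w hw hwζ
    have hkc := pk_cont hw
    have hki : CircleIntegrable (poissonKernel 0 w) 0 R := hkc.circleIntegrable'
    have hφc : ContinuousOn φ (sphere 0 |R|) := by rwa [hRabs]
    have hi1 : CircleIntegrable (poissonKernel 0 w • φ) 0 R := (hkc.smul hφc).circleIntegrable'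
    have hi2 : CircleIntegrable (poissonKernel 0 w • fun _ : ℂ => φ ζ) 0 R :=
      (hkc.smul continuousOn_const).circleIntegrable'
    have e1 : circleAverage (poissonKernel 0 w • fun _ : ℂ => φ ζ) 0 R = φ ζ := by
      have : (poissonKernel 0 w • fun _ : ℂ => φ ζ) = (φ ζ) • poissonKernel 0 w := by
        ext z; simp [mul_comm]
      rw [this, circleAverage_smul, pk_avg hw]
      simp
    have e2 : PInt φ R w - φ ζ =
        circleAverage (poissonKernel 0 w • φ - (poissonKernel 0 w • fun _ : ℂ => φ ζ)) 0 R := by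
      rw [circleAverage_sub hi1 hi2, e1]; rfl
    rw [e2]
    refine (abs_circleAverage_le_circleAverage_abs).trans ?_
    have hi3 : CircleIntegrable (fun z => |(poissonKernel 0 w • φ -
        (poissonKernel 0 w • fun _ : ℂ => φ ζ)) z|) 0 R :=
      (((hkc.smul hφc).sub (hkc.smul continuousOn_const)).abs).circleIntegrable'
    have hi4 : CircleIntegrable ((ε / 2) • poissonKernel 0 w +
        fun _ : ℂ => M * (4 / δ ^ 2) * (R ^ 2 - ‖w‖ ^ 2)) 0 R :=
      ((continuousOn_const.smul hkc).add continuousOn_const).circleIntegrable'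
    have hle : circleAverage (fun z => |(poissonKernel 0 w • φ -
        (poissonKernel 0 w • fun _ : ℂ => φ ζ)) z|) 0 R ≤
        circleAverage ((ε / 2) • poissonKernel 0 w +
        fun _ : ℂ => M * (4 / δ ^ 2) * (R ^ 2 - ‖w‖ ^ 2)) 0 R := by
      apply circleAverage_mono hi3 hi4
      intro z hz
      rw [hRabs] at hz
      have hk0 := pk_nonneg hw hz
      have hkm := pk_mul hw hz
      have hw1 : ‖w‖ < R := by simpa using hw
      have hRw : 0 ≤ R ^ 2 - ‖w‖ ^ 2 := by nlinarith [norm_nonneg w]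
      simp only [Pi.sub_apply, Pi.mul_apply, smul_eq_mul, Pi.add_apply, Pi.smul_apply]
      rw [← mul_sub, abs_mul, abs_of_nonneg hk0]
      by_cases hd : dist z ζ < δ
      · have h1 : |φ z - φ ζ| ≤ ε / 2 := by
          have := hδ' hz hd
          rw [Real.dist_eq] at this
          exact this.le
        have h2 : 0 ≤ M * (4 / δ ^ 2) * (R ^ 2 - ‖w‖ ^ 2) := by positivity
        nlinarith
      · push Not at hd
        have h3 : δ / 2 ≤ ‖z - w‖ := by
          have h4 : dist z ζ ≤ dist z w + dist w ζ := dist_triangle _ _ _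
          rw [dist_eq_norm z w] at h4
          linarith
        have h5 : 1 ≤ (4 / δ ^ 2) * ‖z - w‖ ^ 2 := by
          have h6 : (δ / 2) ^ 2 ≤ ‖z - w‖ ^ 2 := by gcongr
          rw [div_mul_eq_mul_div, le_div_iff₀ (by positivity)]
          nlinarith
        calc poissonKernel 0 w z * |φ z - φ ζ| ≤ poissonKernel 0 w z * M :=
              mul_le_mul_of_nonneg_left (hM z hz) hk0
          _ ≤ poissonKernel 0 w z * M * ((4 / δ ^ 2) * ‖z - w‖ ^ 2) :=
              le_mul_of_one_le_right (by positivity) h5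
          _ = M * (4 / δ ^ 2) * (poissonKernel 0 w z * ‖z - w‖ ^ 2) := by ring
          _ = M * (4 / δ ^ 2) * (R ^ 2 - ‖w‖ ^ 2) := by rw [hkm]
          _ ≤ ε / 2 * poissonKernel 0 w z + M * (4 / δ ^ 2) * (R ^ 2 - ‖w‖ ^ 2) := by
              have : 0 ≤ ε / 2 * poissonKernel 0 w z := by positivity
              linarith
    refine hle.trans (le_of_eq ?_)
    rw [circleAverage_add, circleAverage_smul, pk_avg hw, circleAverage_const]
    · simp
    · exact (continuousOn_const.smul hkc).circleIntegrable'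
    · exact continuousOn_const.circleIntegrable'
  -- conclusion
  have hlim : Tendsto (fun w : ℂ => ε / 2 + M * (4 / δ ^ 2) * (R ^ 2 - ‖w‖ ^ 2)) (𝓝[ball 0 R] ζ)
      (𝓝 (ε / 2 + M * (4 / δ ^ 2) * (R ^ 2 - ‖ζ‖ ^ 2))) := by
    apply Tendsto.mono_left _ nhdsWithin_le_nhds
    apply Continuous.tendsto
    fun_prop
  have hζ1 : ‖ζ‖ = R := by simpa using hζ
  rw [hζ1, sub_self, mul_zero, add_zero] at hlim
  have h1 := hlim.eventually (gt_mem_nhds (show ε / 2 < ε by linarith))
  have h2 : ∀ᶠ w in 𝓝[ball 0 R] ζ, dist w ζ < δ / 2 :=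
    mem_nhdsWithin_of_mem_nhds (ball_mem_nhds ζ (half_pos hδ))
  filter_upwards [h1, h2, self_mem_nhdsWithin] with w h3 h4 h5
  rw [Real.dist_eq]
  exact (key w h5 h4).trans_lt h3

/-- maximum principle -/
theorem max_principle {K : Set ℂ} (hK : IsCompact K) {w : ℂ → ℝ} (hw : ContinuousOn w K)
    {Ω : Set ℂ} (hΩ : IsOpen Ω) (hΩK : Ω ⊆ K) (hh : ∀ z ∈ Ω, HarmonicAt w z)
    (hb : ∀ z ∈ K \ Ω, w z ≤ 0) : ∀ z ∈ K, w z ≤ 0 := by
  by_contra hcon
  push Not at hcon
  obtain ⟨z1, hz1, hz1'⟩ := hcon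
  obtain ⟨zm, hzm, hmax⟩ := hK.exists_isMaxOn ⟨z1, hz1⟩ hw
  set m := w zm with hm
  have hmpos : 0 < m := hz1'.trans_le (hmax hz1)
  -- the set of maximum points
  have hS : IsCompact (K ∩ {z | w z = m}) := by
    have hcl : IsClosed (K ∩ {z | w z = m}) := by
      have := hw.preimage_isClosed_of_isClosed hK.isClosed (isClosed_singleton (x := m))
      exact this
    exact hK.of_isClosed_subset hcl inter_subset_left
  obtain ⟨z0, hz0, hre⟩ := hS.exists_isMaxOn ⟨zm, hzm, rfl⟩ Complex.continuous_re.continuousOn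
  have hz0Ω : z0 ∈ Ω := by
    by_contra hn
    have := hb z0 ⟨hz0.1, hn⟩
    rw [hz0.2] at this
    linarith
  obtain ⟨r, hr, hrΩ⟩ := Metric.isOpen_iff.1 hΩ z0 hz0Ω
  obtain ⟨F, hF, hFw⟩ := HarmonicOnNhd.exists_analyticOnNhd_ball_re_eq
    (f := w) (z := z0) (R := r) (fun z hz => hh z (hrΩ hz))
  have hd : ∀ᶠ z in 𝓝 z0, DifferentiableAt ℂ (fun z => Complex.exp (F z)) z := by
    filter_upwards [ball_mem_nhds z0 hr] with z hz
    exact (hF z hz).differentiableAt.cexp
  have hloc : IsLocalMax (norm ∘ fun z => Complex.exp (F z)) z0 := by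
    filter_upwards [ball_mem_nhds z0 hr] with z hz
    simp only [Function.comp_apply, Complex.norm_exp]
    have e1 := hFw hz
    have e2 := hFw (mem_ball_self hr)
    simp only at e1 e2
    rw [e1, e2, hz0.2]
    gcongr
    exact hmax (hΩK (hrΩ hz))
  have hev := Complex.norm_eventually_eq_of_isLocalMax hd hloc
  obtain ⟨ρ, hρ, hρ'⟩ := Metric.eventually_nhds_iff_ball.1 hev
  set t := min r ρ / 2 with ht
  have htpos : 0 < t := by positivity
  have hmem1 : z0 + t ∈ ball z0 r := by
    simp only [mem_ball, dist_eq_norm, add_sub_cancel_left, Complex.norm_real, Real.norm_eq_abs,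
      abs_of_pos htpos]
    have := min_le_left r ρ
    linarith
  have hmem2 : z0 + t ∈ ball z0 ρ := by
    simp only [mem_ball, dist_eq_norm, add_sub_cancel_left, Complex.norm_real, Real.norm_eq_abs,
      abs_of_pos htpos]
    have := min_le_right r ρ
    linarith
  have h1 := hρ' _ hmem2
  simp only [Complex.norm_exp, Real.exp_eq_exp] at h1
  have e1 := hFw hmem1
  have e2 := hFw (mem_ball_self hr)
  simp only at e1 e2
  rw [e1, e2, hz0.2] at h1
  have h2 := hre (show z0 + t ∈ K ∩ {z | w z = m} from ⟨hΩK (hrΩ hmem1), h1⟩)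
  simp only [mem_ofPred_eq, Complex.add_re, Complex.ofReal_re] at h2
  linarith

/-- a function with differential `Im (u dz)`, `u` holomorphic, is locally `Im` of a primitive -/
theorem exists_primitive {c : ℂ} {r : ℝ} {u : ℂ → ℂ} (hu : DifferentiableOn ℂ u (ball c r))
    {h : ℂ → ℝ} (hh : ∀ z ∈ ball c r, HasFDerivAt h (ILin (u z)) z) :
    ∃ F : ℂ → ℂ, (∀ z ∈ ball c r, HasDerivAt F (u z) z) ∧ ∀ z ∈ ball c r, h z = (F z).im := by
  rcases le_or_gt r 0 with hr | hr
  · exact ⟨0, by simp [ball_eq_empty.2 hr], by simp [ball_eq_empty.2 hr]⟩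
  obtain ⟨F0, hF0⟩ := hu.isExactOn_ball
  have hG : ∀ z ∈ ball c r, HasFDerivAt (fun z => h z - (F0 z).im) (0 : ℂ →L[ℝ] ℝ) z := by
    intro z hz
    have h1 := hh z hz
    have h2 : HasFDerivAt (fun z => (F0 z).im) (ILin (u z)) z := by
      have h3 := (hF0 z hz).hasFDerivAt.restrictScalars ℝ
      have h4 := Complex.imCLM.hasFDerivAt.comp z h3
      refine h4.congr_fderiv ?_
      ext v
      simp [mul_comm]
    have := h1.sub h2
    rwa [sub_self] at this
  have hconst : ∀ z ∈ ball c r, h z - (F0 z).im = h c - (F0 c).im := by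
    intro z hz
    exact (convex_ball c r).is_const_of_fderivWithin_eq_zero (𝕜 := ℝ)
      (f := fun z => h z - (F0 z).im)
      (fun x hx => (hG x hx).differentiableAt.differentiableWithinAt)
      (fun x hx => by
        rw [fderivWithin_of_isOpen isOpen_ball hx]
        exact (hG x hx).fderiv) hz (mem_ball_self hr)
  refine ⟨fun z => F0 z + I * ((h c - (F0 c).im : ℝ) : ℂ), fun z hz => ?_, fun z hz => ?_⟩
  · simpa using (hF0 z hz).add_const (I * ((h c - (F0 c).im : ℝ) : ℂ))
  · have := hconst z hz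
    simp only [Complex.add_im, Complex.mul_im, Complex.I_re, Complex.ofReal_im, Complex.I_im,
      Complex.ofReal_re]
    linarith

theorem harmonicAt_of_deriv {Ω : Set ℂ} (hΩ : IsOpen Ω) {u : ℂ → ℂ} (hu : DifferentiableOn ℂ u Ω)
    {h : ℂ → ℝ} (hh : ∀ z ∈ Ω, HasFDerivAt h (ILin (u z)) z) {z : ℂ} (hz : z ∈ Ω) :
    HarmonicAt h z := by
  obtain ⟨r, hr, hrΩ⟩ := Metric.isOpen_iff.1 hΩ z hz
  obtain ⟨F, hF, hFh⟩ := exists_primitive (hu.mono hrΩ) (fun w hw => hh w (hrΩ hw))
  have hFd : DifferentiableOn ℂ F (ball z r) := fun w hw =>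
    (hF w hw).differentiableAt.differentiableWithinAt
  have hFa : AnalyticAt ℂ F z := hFd.analyticAt (ball_mem_nhds z hr)
  refine (harmonicAt_congr_nhds ?_).1 hFa.harmonicAt_im
  filter_upwards [ball_mem_nhds z hr] with w hw
  exact (hFh w hw).symm

/-- upper half disc -/
def HD (R : ℝ) : Set ℂ := {z | 0 < z.im ∧ ‖z‖ < R}

theorem isOpen_HD (R : ℝ) : IsOpen (HD R) :=
  (isOpen_lt continuous_const Complex.continuous_im).inter
    (isOpen_lt continuous_norm continuous_const)

theorem HD_mono {r R : ℝ} (h : r ≤ R) : HD r ⊆ HD R := fun _ hz => ⟨hz.1, hz.2.trans_le h⟩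

theorem HD_sub_ball (R : ℝ) : HD R ⊆ ball 0 R := fun z hz => by simpa using hz.2

theorem circleAverage_conj (f : ℂ → ℝ) (R : ℝ) :
    circleAverage (fun z => f (conj z)) 0 R = circleAverage f 0 R := by
  simp only [circleAverage_def]
  congr 1
  have h := intervalIntegral.integral_comp_sub_left (a := 0) (b := 2 * π)
    (fun θ => f (circleMap 0 R θ)) (2 * π)
  simp only [sub_self, sub_zero] at h
  rw [← h]
  apply intervalIntegral.integral_congr
  intro θ _
  simp only
  congr 1
  simp only [circleMap, zero_add, map_mul, Complex.conj_ofReal, ← Complex.exp_conj, Complex.conj_I]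
  congr 1
  rw [show ((2 * π - θ : ℝ) : ℂ) * I = θ * -I + 2 * π * I by push_cast; ring, Complex.exp_add,
    Complex.exp_two_pi_mul_I, mul_one]

/-- odd extension -/
noncomputable def oddExt (h : ℂ → ℝ) (z : ℂ) : ℝ :=
  if 0 < z.im then h z else if z.im < 0 then - h (conj z) else 0

theorem oddExt_pos {h : ℂ → ℝ} {z : ℂ} (hz : 0 < z.im) : oddExt h z = h z := by
  simp [oddExt, hz]

theorem oddExt_neg {h : ℂ → ℝ} {z : ℂ} (hz : z.im < 0) : oddExt h z = - h (conj z) := by
  simp [oddExt, hz, hz.le.not_gt]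

theorem oddExt_zero {h : ℂ → ℝ} {z : ℂ} (hz : z.im = 0) : oddExt h z = 0 := by
  simp [oddExt, hz]

theorem oddExt_conj (h : ℂ → ℝ) (z : ℂ) : oddExt h (conj z) = - oddExt h z := by
  rcases lt_trichotomy z.im 0 with hz | hz | hz
  · rw [oddExt_pos (by simpa using hz), oddExt_neg hz]; simp
  · rw [oddExt_zero (by simpa using hz), oddExt_zero hz]; simp
  · rw [oddExt_neg (by simpa using hz), oddExt_pos hz]; simp

theorem oddExt_cont {R : ℝ} {h : ℂ → ℝ} (hc : ContinuousOn h (HD R))
    (h0 : ∀ t : ℝ, |t| < R → Tendsto h (𝓝[{z : ℂ | 0 < z.im}] (t : ℂ)) (𝓝 0)) :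
    ContinuousOn (oddExt h) (ball 0 R) := by
  intro z hz
  apply ContinuousAt.continuousWithinAt
  have hzR : ‖z‖ < R := by simpa using hz
  rcases lt_trichotomy z.im 0 with him | him | him
  · have h1 : conj z ∈ HD R := ⟨by simpa using him, by simpa using hzR⟩
    have h2 : ContinuousAt h (conj z) := hc.continuousAt ((isOpen_HD R).mem_nhds h1)
    have h3 : ContinuousAt (fun w : ℂ => - h (conj w)) z :=
      (ContinuousAt.comp (f := fun w : ℂ => conj w) (x := z) h2
        Complex.continuous_conj.continuousAt).neg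
    refine h3.congr ?_
    filter_upwards [(isOpen_lt Complex.continuous_im continuous_const).mem_nhds him] with w hw
    exact (oddExt_neg hw).symm
  · have hz' : z = (z.re : ℂ) := Complex.ext (by simp) (by simp [him])
    have hre : |z.re| < R := (Complex.abs_re_le_norm z).trans_lt hzR
    have h1 := h0 z.re hre
    rw [← hz'] at h1
    have hval : oddExt h z = 0 := oddExt_zero him
    have hneg : Tendsto (fun w : ℂ => - h (conj w)) (𝓝[{w : ℂ | w.im < 0}] z) (𝓝 0) := by
      have h2 : Tendsto (fun w : ℂ => conj w) (𝓝[{w : ℂ | w.im < 0}] z)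
          (𝓝[{w : ℂ | 0 < w.im}] z) := by
        apply tendsto_nhdsWithin_of_tendsto_nhds_of_eventually_within
        · have h3 : Tendsto (fun w : ℂ => conj w) (𝓝 z) (𝓝 (conj z)) :=
            Complex.continuous_conj.continuousAt
          rw [show conj z = z from Complex.conj_eq_iff_im.2 him] at h3
          exact h3.mono_left nhdsWithin_le_nhds
        · filter_upwards [self_mem_nhdsWithin] with w hw
          simpa using hw
      simpa using (h1.comp h2).neg
    rw [ContinuousAt, hval, Metric.tendsto_nhds]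
    intro ε hε
    have e1 := (Metric.tendsto_nhds.1 h1) ε hε
    have e2 := (Metric.tendsto_nhds.1 hneg) ε hε
    rw [eventually_nhdsWithin_iff] at e1 e2
    filter_upwards [e1, e2] with w h3 h4
    rcases lt_trichotomy w.im 0 with hw | hw | hw
    · rw [oddExt_neg hw]; exact h4 hw
    · rw [oddExt_zero hw]; simpa using hε
    · rw [oddExt_pos hw]; exact h3 hw
  · have h1 : z ∈ HD R := ⟨him, hzR⟩
    have h2 : ContinuousAt h z := hc.continuousAt ((isOpen_HD R).mem_nhds h1)
    refine h2.congr ?_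
    filter_upwards [(isOpen_lt continuous_const Complex.continuous_im).mem_nhds him] with w hw
    exact (oddExt_pos hw).symm

theorem pk_conj (w z : ℂ) : poissonKernel 0 (conj w) (conj z) = poissonKernel 0 w z := by
  unfold poissonKernel
  simp only [sub_zero, Complex.norm_conj, ← map_sub]

theorem PInt_odd_real (h : ℂ → ℝ) (ρ t : ℝ) : PInt (oddExt h) ρ t = 0 := by
  have h1 : PInt (oddExt h) ρ t = - PInt (oddExt h) ρ t := by
    conv_lhs => rw [PInt, ← circleAverage_conj]
    have h2 : (fun z => (poissonKernel 0 (t : ℂ) • oddExt h) (conj z)) =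
        (-1 : ℝ) • (poissonKernel 0 (t : ℂ) • oddExt h) := by
      ext z
      have h3 := pk_conj (t : ℂ) z
      rw [Complex.conj_ofReal] at h3
      simp only [smul_eq_mul, oddExt_conj, h3, Pi.smul_apply, Pi.mul_apply]
      ring
    rw [h2, circleAverage_smul]
    simp [PInt]
  linarith

/-- **Schwarz reflection**: if `dh = Im (u dz)` on the upper half disc, `u` holomorphic, and
`h → 0` at the diameter then `u` extends holomorphically across, real on the diameter. -/
theorem refl_half {R : ℝ} {u : ℂ → ℂ} (hu : DifferentiableOn ℂ u (HD R))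
    {h : ℂ → ℝ} (hh : ∀ z ∈ HD R, HasFDerivAt h (ILin (u z)) z)
    (h0 : ∀ t : ℝ, |t| < R → Tendsto h (𝓝[{z : ℂ | 0 < z.im}] (t : ℂ)) (𝓝 0))
    {ρ : ℝ} (hρ0 : 0 < ρ) (hρ : ρ < R) :
    ∃ U : ℂ → ℂ, DifferentiableOn ℂ U (ball 0 ρ) ∧ (∀ z ∈ HD ρ, U z = u z) ∧
      ∀ t : ℝ, |t| < ρ → (U t).im = 0 := by
  have hc : ContinuousOn h (HD R) := fun z hz => (hh z hz).continuousAt.continuousWithinAt
  have hodd := oddExt_cont hc h0
  have hsph : ContinuousOn (oddExt h) (sphere 0 ρ) := hodd.mono (fun z hz => by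
    simp only [mem_sphere_zero_iff_norm] at hz
    simpa [hz] using hρ)
  have hcirc : CircleIntegrable (oddExt h) 0 ρ := by
    apply ContinuousOn.circleIntegrable'
    rwa [abs_of_pos hρ0]
  have hcirc' : CircleIntegrable (fun z => ((oddExt h z : ℝ) : ℂ)) 0 ρ := by
    apply ContinuousOn.circleIntegrable'
    rw [abs_of_pos hρ0]
    exact Complex.continuous_ofReal.comp_continuousOn hsph
  set G : ℂ → ℂ := fun w => circleAverage
    (fun ζ => herglotzRieszKernel 0 w ζ • ((oddExt h ζ : ℝ) : ℂ)) 0 ρ with hG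
  have hGd : DifferentiableOn ℂ G (ball 0 ρ) :=
    differentiableOn_circleAverage_herglotzRieszKernel_smul hcirc'
  have hGre : ∀ w ∈ ball (0 : ℂ) ρ, (G w).re = PInt (oddExt h) ρ w := by
    intro w hw
    rw [hG]
    simp only
    rw [re_circleAverage_herglotzRieszKernel_smul hcirc hw, PInt,
      ← poissonKernel_eq_re_herglotzRieszKernel]
  -- the difference
  set K : Set ℂ := {z | 0 ≤ z.im} ∩ closedBall 0 ρ with hK
  have hKc : IsCompact K :=
    (isCompact_closedBall (0 : ℂ) ρ).inter_left (isClosed_le continuous_const Complex.continuous_im)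
  set D : ℂ → ℝ := fun z => if ‖z‖ < ρ then oddExt h z - (G z).re else 0 with hD
  have hDc : ContinuousOn D (closedBall 0 ρ) := by
    intro z hz
    have hz1 : ‖z‖ ≤ ρ := by simpa using hz
    rcases hz1.lt_or_eq with hz2 | hz2
    · apply ContinuousAt.continuousWithinAt
      have hzb : z ∈ ball (0 : ℂ) ρ := by simpa using hz2
      have c1 : ContinuousAt (oddExt h) z :=
        hodd.continuousAt (isOpen_ball.mem_nhds (ball_subset_ball hρ.le hzb))
      have c2 : ContinuousAt G z := (hGd.differentiableAt (isOpen_ball.mem_nhds hzb)).continuousAt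
      have c3 : ContinuousAt (fun z => oddExt h z - (G z).re) z :=
        c1.sub (Complex.continuous_re.continuousAt.comp c2)
      refine c3.congr ?_
      filter_upwards [isOpen_ball.mem_nhds hzb] with w hw
      have : ‖w‖ < ρ := by simpa using hw
      simp [hD, this]
    · have hzs : z ∈ sphere (0 : ℂ) ρ := by simpa using hz2
      have t1 := PInt_tendsto hρ0 hsph hzs
      have t2 : Tendsto (oddExt h) (𝓝[ball 0 ρ] z) (𝓝 (oddExt h z)) := by
        have : ContinuousAt (oddExt h) z := hodd.continuousAt (isOpen_ball.mem_nhds (by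
          simpa [hz2] using hρ))
        exact this.mono_left nhdsWithin_le_nhds
      have t3 : Tendsto (fun w => oddExt h w - PInt (oddExt h) ρ w) (𝓝[ball 0 ρ] z) (𝓝 0) := by
        simpa using t2.sub t1
      have hDz : D z = 0 := by simp [hD, hz2]
      rw [ContinuousWithinAt, hDz, Metric.tendsto_nhds]
      intro ε hε
      have e1 := (Metric.tendsto_nhds.1 t3) ε hε
      rw [eventually_nhdsWithin_iff] at e1 ⊢
      filter_upwards [e1] with w hw _
      by_cases hwb : ‖w‖ < ρ
      · have hwb' : w ∈ ball (0 : ℂ) ρ := by simpa using hwb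
        have := hw hwb'
        rw [← hGre w hwb'] at this
        simpa [hD, hwb] using this
      · simpa [hD, hwb] using hε
  have hDK : ContinuousOn D K := hDc.mono inter_subset_right
  have hΩK : HD ρ ⊆ K := fun z hz => ⟨hz.1.le, by simpa using hz.2.le⟩
  have hhar : ∀ z ∈ HD ρ, HarmonicAt D z := by
    intro z hz
    have a1 : HarmonicAt h z :=
      harmonicAt_of_deriv (isOpen_HD R) hu hh (HD_mono hρ.le hz)
    have a2 : HarmonicAt (fun z => (G z).re) z :=
      (hGd.analyticAt (isOpen_ball.mem_nhds (HD_sub_ball ρ hz))).harmonicAt_re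
    refine (harmonicAt_congr_nhds ?_).1 (a1.sub a2)
    filter_upwards [(isOpen_HD ρ).mem_nhds hz] with w hw
    simp [hD, hw.2, oddExt_pos hw.1]
  have hbd : ∀ z ∈ K \ HD ρ, D z = 0 := by
    intro z hz
    by_cases hzb : ‖z‖ < ρ
    · have him : z.im = 0 := by
        by_contra hne
        exact hz.2 ⟨lt_of_le_of_ne hz.1.1 (Ne.symm hne), hzb⟩
      have hz' : z = (z.re : ℂ) := Complex.ext (by simp) (by simp [him])
      have hzb' : z ∈ ball (0 : ℂ) ρ := by simpa using hzb
      have e1 := hGre z hzb'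
      have e2 := PInt_odd_real h ρ z.re
      rw [← hz'] at e2
      simp [hD, hzb, oddExt_zero him, e1, e2]
    · simp [hD, hzb]
  have hle : ∀ z ∈ K, D z ≤ 0 :=
    max_principle hKc hDK (isOpen_HD ρ) hΩK hhar (fun z hz => (hbd z hz).le)
  have hge : ∀ z ∈ K, (-D) z ≤ 0 :=
    max_principle hKc hDK.neg (isOpen_HD ρ) hΩK (fun z hz => (hhar z hz).neg)
      (fun z hz => by simp [hbd z hz])
  have heq : ∀ z ∈ HD ρ, h z = (G z).re := by
    intro z hz
    have e1 := hle z (hΩK hz)
    have e2 := hge z (hΩK hz)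
    have e3 : D z = h z - (G z).re := by simp [hD, hz.2, oddExt_pos hz.1]
    simp only [Pi.neg_apply] at e2
    linarith
  refine ⟨fun z => I * deriv G z, (hGd.deriv isOpen_ball).const_mul I, ?_, ?_⟩
  · intro z hz
    have hzb := HD_sub_ball ρ hz
    have d1 : HasDerivAt G (deriv G z) z :=
      (hGd.differentiableAt (isOpen_ball.mem_nhds hzb)).hasDerivAt
    have d2 : HasFDerivAt (fun z => (G z).re) (ILin (u z)) z := by
      refine (hh z (HD_mono hρ.le hz)).congr_of_eventuallyEq ?_
      filter_upwards [(isOpen_HD ρ).mem_nhds hz] with w hw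
      exact (heq w hw).symm
    have d3 : HasFDerivAt (fun z => (G z).re)
        (Complex.reCLM.comp (ContinuousLinearMap.mul ℝ ℂ (deriv G z))) z := by
      have h3 := d1.hasFDerivAt.restrictScalars ℝ
      have h4 := Complex.reCLM.hasFDerivAt.comp z h3
      refine h4.congr_fderiv ?_
      ext v
      simp [mul_comm]
    have d4 := d2.unique d3
    have v1 := congrArg (fun L : ℂ →L[ℝ] ℝ => L 1) d4
    have vI := congrArg (fun L : ℂ →L[ℝ] ℝ => L I) d4
    simp at v1 vI
    apply Complex.ext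
    · simp; linarith
    · simp; linarith
  · intro t ht
    have htb : (t : ℂ) ∈ ball (0 : ℂ) ρ := by simpa using ht
    have d1 : HasDerivAt G (deriv G t) (t : ℂ) :=
      (hGd.differentiableAt (isOpen_ball.mem_nhds htb)).hasDerivAt
    have d2 : HasDerivAt (fun s : ℝ => (G s).re) (deriv G t).re t := d1.real_of_complex
    have d3 : HasDerivAt (fun s : ℝ => (G s).re) 0 t := by
      refine (hasDerivAt_const t (0 : ℝ)).congr_of_eventuallyEq ?_
      have : ∀ᶠ s : ℝ in 𝓝 t, |s| < ρ :=
        (isOpen_lt continuous_abs continuous_const).mem_nhds ht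
      filter_upwards [this] with s hs
      rw [hGre s (by simpa using hs), PInt_odd_real]
    have := d2.unique d3
    simp [this]

end Crest.Agent.R165.U3x719
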