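import Crest.Agent.R165.U3Vid_719
import Crest.Agent.R165.U3Disc_719

/-!
Row 165, block U3 (helper719): removable singularities for `L²` holomorphic functions, residues.
-/

set_option autoImplicit false

open Complex Set Metric Filter Topology MeasureTheory
open scoped ComplexConjugate ContDiff

namespace Crest.Agent.R165.U3x719

/-- area mean value bound -/
theorem mv_bound : ∃ C : ℝ, 0 ≤ C ∧ ∀ (g : ℂ → ℂ) (c : ℂ) (ρ : ℝ), 0 < ρ →
    DifferentiableOn ℂ g (ball c ρ) → IntegrableOn g (ball c ρ) →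
    ‖g c‖ ≤ C / ρ ^ 2 * ∫ z in ball c ρ, ‖g z‖ := by
  obtain ⟨C, hC0, hC⟩ := step_bdd
  refine ⟨4 * C / Real.pi, by positivity, ?_⟩
  intro g c ρ hρ hg hi
  have hρ2 : 0 < ρ ^ 2 := by positivity
  set s1 := ρ ^ 2 / 4
  set s2 := ρ ^ 2 / 2
  have h12 : s1 < s2 := by simp only [s1, s2]; linarith
  set A : Set ℂ := {v : ℂ | 0 < ‖v‖ ∧ ‖v‖ < ρ} with hA
  have hAo : IsOpen A := (isOpen_lt continuous_const continuous_norm).inter
    (isOpen_lt continuous_norm continuous_const)
  have hmap : ∀ v ∈ ball (0 : ℂ) ρ, c + v ∈ ball c ρ := by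
    intro v hv
    simpa [dist_eq_norm] using hv
  have hG : DifferentiableOn ℂ (fun v => g (c + v) / v) A := by
    apply DifferentiableOn.div
    · refine hg.comp (by fun_prop) fun v hv => hmap v (by simpa using hv.2)
    · exact differentiableOn_id
    · intro v hv h0
      rw [h0, hA] at hv
      simp at hv
  have hp := polar_cut (R1 := 0) (R2 := ρ) le_rfl hρ hG (stp_contDiff s1 s2 (m := 1))
    (s1 := s1) (s2 := s2) (by simp only [s1]; linarith) (by simp only [s2]; linarith)
    (fun t ht => stp_deriv_zero h12 (Or.inl ht)) (fun t ht => stp_deriv_zero h12 (Or.inr ht))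
    (ρ := ρ / 2) (by linarith) (by linarith)
  have hJ : (∮ v in C(0, ρ / 2), g (c + v) / v) = 2 * Real.pi * I * g c := by
    have h1 : DiffContOnCl ℂ (fun v => g (c + v)) (ball 0 (ρ / 2)) := by
      have h2 : DifferentiableOn ℂ (fun v => g (c + v)) (ball 0 ρ) :=
        hg.comp (by fun_prop) hmap
      have h3 : closedBall (0 : ℂ) (ρ / 2) ⊆ ball 0 ρ := closedBall_subset_ball (by linarith)
      refine ⟨h2.mono (ball_subset_ball (by linarith)), ?_⟩
      rw [closure_ball _ (by linarith)]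
      exact h2.continuousOn.mono h3
    have h2 := h1.circleIntegral_sub_inv_smul (w := 0) (by simpa using hρ)
    rw [smul_eq_mul, add_zero] at h2
    rw [← h2]
    apply circleIntegral.integral_congr (by linarith)
    intro v _
    simp only [sub_zero, smul_eq_mul]
    rw [div_eq_inv_mul]
  rw [hJ, stp_zero h12 (t := 0 ^ 2) (by simp only [s1]; linarith),
    stp_one h12 (t := ρ ^ 2) (by simp only [s2]; linarith)] at hp
  have hp' : ∫ v in A, g (c + v) / v * (((deriv (stp s1 s2) (normSq v) : ℝ) : ℂ) * (2 * v)) =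
      2 * Real.pi * g c := by
    rw [hA, hp]
    push_cast
    linear_combination (-2 * Real.pi * g c) * I_mul_I
  have hd : ∀ t, |deriv (stp s1 s2) t| ≤ C * (4 / ρ ^ 2) := by
    intro t
    have h1 : HasDerivAt (fun t : ℝ => (t - s1) / (s2 - s1)) (1 / (s2 - s1)) t :=
      ((hasDerivAt_id t).sub_const s1).div_const _
    have h2 : HasDerivAt Real.smoothTransition (deriv Real.smoothTransition ((t - s1) / (s2 - s1)))
        ((t - s1) / (s2 - s1)) :=
      ((Real.smoothTransition.contDiff (n := 1)).differentiable one_ne_zero _).hasDerivAt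
    have h3 : HasDerivAt (stp s1 s2) _ t :=
      HasDerivAt.comp (h := fun t : ℝ => (t - s1) / (s2 - s1)) (h₂ := Real.smoothTransition) t h2 h1
    rw [h3.deriv, abs_mul]
    have h4 : s2 - s1 = ρ ^ 2 / 4 := by simp only [s1, s2]; ring
    rw [h4]
    have h5 : |1 / (ρ ^ 2 / 4)| = 4 / ρ ^ 2 := by
      rw [abs_of_pos (by positivity)]; field_simp
    rw [h5]
    exact mul_le_mul_of_nonneg_right (hC _) (by positivity)
  have hit : IntegrableOn (fun v => g (c + v)) (ball 0 ρ) := by
    have hmp : MeasurePreserving (fun v : ℂ => c + v) volume volume := measurePreserving_add_left _ c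
    have := (hmp.integrableOn_comp_preimage (measurableEmbedding_addLeft c)
      (f := g) (s := ball c ρ)).2 hi
    refine this.mono_set ?_
    intro v hv
    exact hmap v hv
  have hnorm : ‖(2 : ℂ) * Real.pi * g c‖ ≤ ∫ v in A, (8 * C / ρ ^ 2) * ‖g (c + v)‖ := by
    rw [← hp']
    refine norm_integral_le_of_norm_le ?_ ?_
    · exact ((hit.mono_set (fun v hv => by simpa using hv.2)).norm).const_mul _
    · filter_upwards [ae_restrict_mem hAo.measurableSet] with v hv
      have hv0 : v ≠ 0 := by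
        intro h0; rw [h0, hA] at hv; simp at hv
      rw [norm_mul, norm_div, norm_mul, norm_mul, norm_real, Real.norm_eq_abs]
      have hvn : ‖v‖ ≠ 0 := norm_ne_zero_iff.2 hv0
      have e : ‖g (c + v)‖ / ‖v‖ * (|deriv (stp s1 s2) (normSq v)| * (‖(2 : ℂ)‖ * ‖v‖)) =
          2 * |deriv (stp s1 s2) (normSq v)| * ‖g (c + v)‖ := by
        rw [show ‖(2 : ℂ)‖ = 2 by simp]
        field_simp
      rw [e]
      apply mul_le_mul_of_nonneg_right _ (norm_nonneg _)
      have := hd (normSq v)
      calc 2 * |deriv (stp s1 s2) (normSq v)| ≤ 2 * (C * (4 / ρ ^ 2)) := by linarith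
        _ = 8 * C / ρ ^ 2 := by ring
  have hle : ∫ v in A, (8 * C / ρ ^ 2) * ‖g (c + v)‖ ≤ (8 * C / ρ ^ 2) * ∫ z in ball c ρ, ‖g z‖ := by
    rw [integral_const_mul]
    apply mul_le_mul_of_nonneg_left _ (by positivity)
    have e1 : ∫ z in ball c ρ, ‖g z‖ = ∫ v in ball (0 : ℂ) ρ, ‖g (c + v)‖ := by
      have hmp : MeasurePreserving (fun v : ℂ => c + v) volume volume := measurePreserving_add_left _ c
      have := hmp.setIntegral_preimage_emb (measurableEmbedding_addLeft c) (fun z => ‖g z‖) (ball c ρ)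
      rw [← this]
      congr 2
      ext v
      simp [dist_eq_norm]
    rw [e1]
    apply setIntegral_mono_set hit.norm
    · exact Eventually.of_forall fun v => norm_nonneg _
    · apply LE.le.eventuallyLE
      intro v hv
      simpa using hv.2
  have h9 : ‖(2 : ℂ) * Real.pi * g c‖ = 2 * Real.pi * ‖g c‖ := by
    rw [norm_mul, norm_mul, norm_real, Real.norm_eq_abs, abs_of_pos Real.pi_pos]
    simp
  rw [h9] at hnorm
  have h10 := hnorm.trans hle
  have hpi := Real.pi_pos
  rw [show 4 * C / Real.pi / ρ ^ 2 * ∫ z in ball c ρ, ‖g z‖ =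
    (8 * C / ρ ^ 2 * ∫ z in ball c ρ, ‖g z‖) / (2 * Real.pi) by field_simp; ring]
  rw [le_div_iff₀ (by positivity)]
  linarith

/-- an isolated singularity which is square integrable is removable -/
theorem removable_L2 {g : ℂ → ℂ} {c : ℂ} {δ : ℝ} (hδ : 0 < δ)
    (hg : DifferentiableOn ℂ g (ball c δ \ {c})) (hi : IntegrableOn (fun z => g z ^ 2) (ball c δ)) :
    DifferentiableOn ℂ (Function.update g c (limUnder (𝓝[≠] c) g)) (ball c δ) := by
  obtain ⟨C, hC0, hC⟩ := mv_bound
  apply Complex.differentiableOn_update_limUnder_of_isLittleO (ball_mem_nhds c hδ) hg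
  -- the local mass
  have hmass : Tendsto (fun t : ℝ => ∫ z in ball c t, ‖g z ^ 2‖) (𝓝[>] 0) (𝓝 0) := by
    have hin : IntegrableOn (fun z => ‖g z ^ 2‖) (ball c δ) := hi.norm
    have h1 : Tendsto (fun t : ℝ => ∫ z in ball c δ, (ball c t).indicator (fun z => ‖g z ^ 2‖) z)
        (𝓝[>] 0) (𝓝 (∫ z in ball c δ, (0 : ℝ))) := by
      apply tendsto_integral_filter_of_dominated_convergence (fun z => ‖g z ^ 2‖)
      · exact Eventually.of_forall fun t => hin.aestronglyMeasurable.indicator measurableSet_ball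
      · refine Eventually.of_forall fun t => Eventually.of_forall fun z => ?_
        rw [norm_indicator_eq_indicator_norm]
        simp only [norm_norm]
        exact indicator_le_self' (fun _ _ => norm_nonneg _) z
      · exact hin
      · have : ∀ᵐ z ∂volume.restrict (ball c δ), z ≠ c := by
          apply ae_restrict_of_ae
          exact Measure.ae_ne volume c
        filter_upwards [this] with z hz
        refine tendsto_const_nhds.congr' ?_
        have hz0 : 0 < dist z c := dist_pos.2 hz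
        filter_upwards [Ioo_mem_nhdsGT hz0] with t ht
        rw [indicator_of_notMem]
        simp only [mem_ball, not_lt]
        exact ht.2.le
    rw [integral_zero] at h1
    refine h1.congr' ?_
    filter_upwards [Ioo_mem_nhdsGT hδ] with t ht
    rw [setIntegral_indicator measurableSet_ball, inter_eq_right.2 (ball_subset_ball ht.2.le)]
  -- pointwise bound
  have hpt : ∀ z : ℂ, z ≠ c → dist z c < δ / 2 →
      (dist z c * ‖g z‖) ^ 2 ≤ 4 * C * ∫ w in ball c (2 * dist z c), ‖g w ^ 2‖ := by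
    intro z hz hz2
    have hd : 0 < dist z c := dist_pos.2 hz
    have hsub : ball z (dist z c / 2) ⊆ ball c δ \ {c} := by
      intro w hw
      have hw' : dist w z < dist z c / 2 := hw
      refine ⟨?_, ?_⟩
      · have := dist_triangle w z c
        simp only [mem_ball]
        linarith
      · rintro rfl
        rw [dist_comm] at hw'
        linarith
    have hsub2 : ball z (dist z c / 2) ⊆ ball c (2 * dist z c) := by
      intro w hw
      have hw' : dist w z < dist z c / 2 := hw
      have := dist_triangle w z c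
      simp only [mem_ball]
      linarith
    have h1 := hC (fun z => g z ^ 2) z (dist z c / 2) (by linarith) ((hg.mono hsub).pow 2)
      (hi.mono_set (hsub.trans sdiff_subset))
    have h2 : ∫ w in ball z (dist z c / 2), ‖g w ^ 2‖ ≤ ∫ w in ball c (2 * dist z c), ‖g w ^ 2‖ := by
      apply setIntegral_mono_set
      · exact (hi.mono_set (ball_subset_ball (by linarith))).norm
      · exact Eventually.of_forall fun v => norm_nonneg _
      · exact LE.le.eventuallyLE hsub2
    have h3 : ‖g z ^ 2‖ = ‖g z‖ ^ 2 := norm_pow _ _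
    simp only [h3] at h1
    have h4 : (dist z c * ‖g z‖) ^ 2 = (dist z c) ^ 2 * ‖g z‖ ^ 2 := by ring
    rw [h4]
    have h5 : C / (dist z c / 2) ^ 2 = 4 * C / dist z c ^ 2 := by field_simp; ring
    rw [h5] at h1
    calc dist z c ^ 2 * ‖g z‖ ^ 2 ≤ dist z c ^ 2 * (4 * C / dist z c ^ 2 *
          ∫ w in ball z (dist z c / 2), ‖g w ^ 2‖) := by gcongr
      _ = 4 * C * ∫ w in ball z (dist z c / 2), ‖g w ^ 2‖ := by field_simp
      _ ≤ _ := by gcongr
  have hlim : Tendsto (fun z => (z - c) * g z) (𝓝[≠] c) (𝓝 0) := by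
    rw [tendsto_zero_iff_norm_tendsto_zero]
    have hd : Tendsto (fun z : ℂ => 2 * dist z c) (𝓝[≠] c) (𝓝[>] 0) := by
      rw [tendsto_nhdsWithin_iff]
      constructor
      · have : Tendsto (fun z : ℂ => 2 * dist z c) (𝓝 c) (𝓝 (2 * dist c c)) :=
          (continuous_const.mul (continuous_id.dist continuous_const)).tendsto c
        rw [dist_self, mul_zero] at this
        exact this.mono_left nhdsWithin_le_nhds
      · filter_upwards [self_mem_nhdsWithin] with z hz
        have : 0 < dist z c := dist_pos.2 hz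
        simpa using this
    have h1 := ((hmass.comp hd).const_mul (4 * C))
    rw [mul_zero] at h1
    have h2 : Tendsto (fun z : ℂ => ‖(z - c) * g z‖ ^ 2) (𝓝[≠] c) (𝓝 0) := by
      apply squeeze_zero' (Eventually.of_forall fun z => by positivity) _ h1
      have hn : ∀ᶠ z in 𝓝[≠] c, dist z c < δ / 2 := by
        apply eventually_nhdsWithin_of_eventually_nhds
        exact ball_mem_nhds c (by linarith)
      filter_upwards [hn, self_mem_nhdsWithin] with z hz1 hz2
      have := hpt z hz2 hz1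
      rw [norm_mul, ← dist_eq_norm]
      exact this
    have h3 : Tendsto (fun z : ℂ => Real.sqrt (‖(z - c) * g z‖ ^ 2)) (𝓝[≠] c) (𝓝 (Real.sqrt 0)) :=
      (Real.continuous_sqrt.tendsto 0).comp h2
    rw [Real.sqrt_zero] at h3
    refine h3.congr fun z => ?_
    exact Real.sqrt_sq (norm_nonneg _)
  rw [Asymptotics.isLittleO_iff_tendsto']
  · have h1 : Tendsto (fun z => (z - c) * g z - (z - c) * g c) (𝓝[≠] c) (𝓝 (0 - 0 * g c)) := by
      apply hlim.sub
      apply Tendsto.mul_const
      have : Tendsto (fun z : ℂ => z - c) (𝓝 c) (𝓝 (c - c)) := (continuous_id.sub continuous_const).tendsto c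
      rw [sub_self] at this
      exact this.mono_left nhdsWithin_le_nhds
    rw [zero_mul, sub_zero] at h1
    refine h1.congr fun z => ?_
    rw [div_inv_eq_mul]
    ring
  · filter_upwards [self_mem_nhdsWithin] with z hz h0
    exfalso
    exact hz (sub_eq_zero.1 (inv_eq_zero.1 h0))

/-- finitely many singularities -/
theorem removable_finite {U S : Set ℂ} (hU : IsOpen U) (hS : S.Finite) {g : ℂ → ℂ}
    (hg : DifferentiableOn ℂ g (U \ S))
    (hi : ∀ c ∈ S, c ∈ U → ∃ δ, 0 < δ ∧ IntegrableOn (fun z => g z ^ 2) (ball c δ)) :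
    ∃ e : ℂ → ℂ, DifferentiableOn ℂ e U ∧ ∀ z, z ∉ S → e z = g z := by
  classical
  refine ⟨fun z => if z ∈ S then limUnder (𝓝[≠] z) g else g z, ?_, fun z hz => by simp [hz]⟩
  intro c hc
  apply DifferentiableAt.differentiableWithinAt
  by_cases hcS : c ∈ S
  · obtain ⟨δ, hδ, hiδ⟩ := hi c hcS hc
    have h1 : (S \ {c})ᶜ ∈ 𝓝 c :=
      (hS.subset sdiff_subset).isClosed.isOpen_compl.mem_nhds (by simp)
    obtain ⟨ε, hε, hεU⟩ := Metric.isOpen_iff.1 hU c hc
    obtain ⟨ε', hε', hεS⟩ := Metric.mem_nhds_iff.1 h1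
    set η := min δ (min ε ε') with hη
    have hη0 : 0 < η := lt_min hδ (lt_min hε hε')
    have hηδ : η ≤ δ := min_le_left _ _
    have hηε : η ≤ ε := (min_le_right _ _).trans (min_le_left _ _)
    have hηε' : η ≤ ε' := (min_le_right _ _).trans (min_le_right _ _)
    have h2 := removable_L2 hη0 (g := g) (c := c) (hg.mono (by
      rintro z ⟨hz1, hz2⟩
      refine ⟨hεU (ball_subset_ball hηε hz1), ?_⟩
      intro hzS
      exact hεS (ball_subset_ball hηε' hz1) ⟨hzS, hz2⟩)) (hiδ.mono_set (ball_subset_ball hηδ))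
    have h3 := h2.differentiableAt (ball_mem_nhds c hη0)
    refine h3.congr_of_eventuallyEq ?_
    filter_upwards [ball_mem_nhds c hη0] with z hz
    by_cases hzc : z = c
    · subst hzc
      simp [hcS]
    · have hzS : z ∉ S := fun hzS => hεS (ball_subset_ball hηε' hz) ⟨hzS, hzc⟩
      simp [hzS, hzc]
  · have h1 : Sᶜ ∈ 𝓝 c := hS.isClosed.isOpen_compl.mem_nhds hcS
    have h2 : DifferentiableAt ℂ g c :=
      hg.differentiableAt ((hU.sdiff hS.isClosed).mem_nhds ⟨hc, hcS⟩)
    refine h2.congr_of_eventuallyEq ?_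
    filter_upwards [h1] with z hz
    have : z ∉ S := hz
    simp [this]

/-- the real line lemma -/
theorem real_line {c a b : ℂ} {r s : ℝ} (hr : 0 ≤ r) (hs : 0 ≤ s) (ha : c * a ^ 2 = r)
    (hb : c * b ^ 2 = s) : ∃ t : ℝ, 0 ≤ t ∧ c * (a - b) ^ 2 = t := by
  obtain ⟨γ, hγ⟩ : ∃ γ : ℂ, γ ^ 2 = c := ⟨c ^ (1 / 2 : ℂ), by
    rw [← Complex.cpow_nat_mul]; norm_num⟩
  have key : ∀ (z : ℂ) (r : ℝ), 0 ≤ r → z ^ 2 = r → z.im = 0 := by
    intro z r hr hz
    have h1 : (z ^ 2).re = r := by rw [hz]; simp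
    have h2 : (z ^ 2).im = 0 := by rw [hz]; simp
    rw [sq] at h1 h2
    simp only [mul_re, mul_im] at h1 h2
    by_contra h0
    have h3 : z.re = 0 := by
      have : z.re * z.im = 0 := by linarith
      rcases mul_eq_zero.1 this with h | h
      · exact h
      · exact absurd h h0
    rw [h3] at h1
    have : 0 < z.im * z.im := mul_self_pos.2 h0
    linarith
  have h1 := key (γ * a) r hr (by rw [mul_pow, hγ, ha])
  have h2 := key (γ * b) s hs (by rw [mul_pow, hγ, hb])
  have h3 : (γ * (a - b)).im = 0 := by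
    have : γ * (a - b) = γ * a - γ * b := by ring
    rw [this, sub_im, h1, h2, sub_zero]
  refine ⟨(γ * (a - b)).re ^ 2, sq_nonneg _, ?_⟩
  have h4 : γ * (a - b) = ((γ * (a - b)).re : ℂ) := by
    apply Complex.ext <;> simp [h3]
  rw [← hγ, ← mul_pow, h4]
  push_cast
  simp

/-- boundary limit of the square root -/
theorem sqrt_limit {g : ℂ → ℂ} {ξ L : ℂ} {V : Set ℂ} (hV : V ∈ 𝓝 ξ)
    (hg : ContinuousOn g (ball 0 1 ∩ V))
    (h : Tendsto (fun w => g w ^ 2) (𝓝[ball 0 1] ξ) (𝓝 L)) :
    ∃ b, Tendsto g (𝓝[ball 0 1] ξ) (𝓝 b) ∧ b ^ 2 = L := by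
  by_cases hL : L = 0
  · refine ⟨0, ?_, by rw [hL]; simp⟩
    rw [hL] at h
    rw [tendsto_zero_iff_norm_tendsto_zero] at h ⊢
    have h3 : Tendsto (fun z : ℂ => Real.sqrt (‖g z ^ 2‖)) (𝓝[ball 0 1] ξ) (𝓝 (Real.sqrt 0)) :=
      (Real.continuous_sqrt.tendsto 0).comp h
    rw [Real.sqrt_zero] at h3
    refine h3.congr fun z => ?_
    rw [norm_pow]
    exact Real.sqrt_sq (norm_nonneg _)
  · obtain ⟨c0, hc0⟩ : ∃ γ : ℂ, γ ^ 2 = L := ⟨L ^ (1 / 2 : ℂ), by
      rw [← Complex.cpow_nat_mul]; norm_num⟩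
    have hc00 : c0 ≠ 0 := by rintro rfl; apply hL; rw [← hc0]; simp
    have h1 : Tendsto (fun w => g w ^ 2 / L) (𝓝[ball 0 1] ξ) (𝓝 1) := by
      have := h.div_const L
      rwa [div_self hL] at this
    have h2 : ∀ᶠ w in 𝓝[ball 0 1] ξ, g w ^ 2 / L ∈ ball (1 : ℂ) 1 :=
      h1.eventually (ball_mem_nhds 1 one_pos)
    have h3 : ∀ᶠ w in 𝓝[ball 0 1] ξ, w ∈ V := eventually_nhdsWithin_of_eventually_nhds hV
    obtain ⟨ε, hε, hεs⟩ := Metric.mem_nhdsWithin_iff.1 (h2.and h3)
    set N : Set ℂ := ball ξ ε ∩ ball 0 1 with hN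
    have hNc : IsPreconnected N := ((convex_ball ξ ε).inter (convex_ball 0 1)).isPreconnected
    have hslit : ∀ w ∈ N, g w ^ 2 / L ∈ slitPlane := by
      intro w hw
      have h4 := (hεs hw).1
      left
      have h5 : |(g w ^ 2 / L - 1).re| < 1 := lt_of_le_of_lt (abs_re_le_norm _) (by
        simpa [dist_eq_norm] using h4)
      simp only [sub_re, one_re] at h5
      rw [abs_lt] at h5
      linarith [h5.1]
    set s : ℂ → ℂ := fun w => c0 * (g w ^ 2 / L) ^ (1 / 2 : ℂ) with hs
    have hgN : ContinuousOn g N := hg.mono fun w hw => ⟨hw.2, (hεs hw).2⟩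
    have hsN : ContinuousOn s N := by
      apply continuousOn_const.mul
      apply ContinuousOn.cpow_const
      · exact (hgN.pow 2).div_const L
      · intro w hw
        exact hslit w hw
    have hsq : EqOn (g ^ 2) (s ^ 2) N := by
      intro w hw
      simp only [Pi.pow_apply, hs]
      rw [mul_pow, hc0, ← Complex.cpow_nat_mul]
      norm_num
      field_simp
    have hs0 : ∀ {w}, w ∈ N → s w ≠ 0 := by
      intro w hw h0
      have h4 := hsq hw
      simp only [Pi.pow_apply, h0] at h4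
      have h5 := hslit w hw
      rw [h4] at h5
      simp at h5
    have hst : Tendsto s (𝓝[ball 0 1] ξ) (𝓝 c0) := by
      have : Tendsto (fun w => (g w ^ 2 / L) ^ (1 / 2 : ℂ)) (𝓝[ball 0 1] ξ) (𝓝 ((1 : ℂ) ^ (1 / 2 : ℂ))) := by
        exact (continuousAt_cpow_const (by simp)).tendsto.comp h1
      rw [one_cpow] at this
      have h6 := this.const_mul c0
      rw [mul_one] at h6
      exact h6
    have hNm : N ∈ 𝓝[ball 0 1] ξ := by
      rw [Metric.mem_nhdsWithin_iff]
      exact ⟨ε, hε, fun w hw => hw⟩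
    rcases hNc.eq_or_eq_neg_of_sq_eq hgN hsN hsq hs0 with h5 | h5
    · exact ⟨c0, hst.congr' (by filter_upwards [hNm] with w hw using (h5 hw).symm), hc0⟩
    · refine ⟨-c0, hst.neg.congr' (by filter_upwards [hNm] with w hw using (h5 hw).symm), ?_⟩
      rw [neg_sq, hc0]

end Crest.Agent.R165.U3x719
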