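import Crest.Agent.R165.U3Ball2_719
import Crest.Agent.R165.GeoRc_416
import Crest.Agent.R165.U3Cov3_67
import Crest.Agent.R165.MacI_610

/-!
Row 165, block U3 (helper719): **uniqueness of continuum spinors on C² domains** (`uniq`, `uniqL2`).
-/

set_option autoImplicit false

open Complex Set Metric Filter Topology MeasureTheory
open scoped ComplexConjugate ContDiff

namespace Crest.Agent.R165.U3x719

open Crest.Agent.R165.Geo (CD)
open Crest.Agent.R165.Tp416 (BiL)
open Crest.Agent.R165.U3Covx67 (IsQ)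

variable {n : ℕ}

/-- changing `F` on `K` or on a null set -/
theorem IsSpin.congr_off {D : Set ℂ} (hD : IsOpen D) {x : Fin n → ℂ} {K : Set ℂ} (hK : IsClosed K)
    {F F' : ℂ → ℂ} (h : IsSpin D x K F) (he : ∀ᵐ z ∂volume.restrict (D \ K), F z = F' z) :
    IsSpin D x K F' := by
  have hint : ∀ (φ : ℂ → ℝ), φ 0 = 0 → ∀ χ : ℂ → ℝ, Disjoint (tsupport χ) K →
      ∫ z in D, φ (F' z ^ 2 * db χ z) = ∫ z in D, φ (F z ^ 2 * db χ z) := by
    intro φ hφ χ hχ
    apply integral_congr_ae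
    rw [Filter.EventuallyEq, ae_restrict_iff' hD.measurableSet]
    rw [ae_restrict_iff' (hD.measurableSet.diff hK.measurableSet)] at he
    filter_upwards [he] with z hz hzD
    by_cases hzK : z ∈ K
    · rw [db_of_notMem (fun hh => (Set.disjoint_left.1 hχ) hh hzK)]
      simp
    · rw [hz ⟨hzD, hzK⟩]
  refine ⟨?_, ?_, ?_, ?_⟩
  · intro U hU hKU
    refine (h.l2 U hU hKU).ae_eq ?_
    exact ae_restrict_of_ae_restrict_of_subset (sdiff_subset_sdiff_right hKU) he
  · obtain ⟨g, hg, hae⟩ := h.holo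
    refine ⟨g, hg, ?_⟩
    filter_upwards [hae, he] with z h1 h2
    rw [← h2]; exact h1
  · intro χ h1 h2 h3 h4
    rw [hint (fun w => w.re) rfl χ h4]
    exact h.curl χ h1 h2 h3 h4
  · intro χ h1 h2 h3 h4 h5
    rw [hint (fun w => w.im) rfl χ h4]
    exact h.div χ h1 h2 h3 h4 h5

/-- square roots on the disc, through the Riemann map -/
theorem exists_q_ball {D : Set ℂ} {r M : ℝ} (h : CD D r M) {z₀ : ℂ} {φ ψ : ℂ → ℂ}
    (R : GeoPx67.RMap D z₀ φ ψ) (y : Fin n → ℂ) (hy : ∀ j, y j ∈ ball (0 : ℂ) 1) :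
    ∃ q, IsQ (ball 0 1) ψ y q := by
  have hinj : InjOn ψ (ball 0 1) := fun a ha b hb hab => by
    rw [← R.right a ha, ← R.right b hb, hab]
  have hd1 : ∀ z ∈ ball (0 : ℂ) 1, deriv ψ z ≠ 0 := fun z hz =>
    Crest.Agent.Lib.deriv_ne_zero_of_injOn isOpen_ball R.diff' hinj hz
  set f : ℂ → ℂ := fun z => deriv ψ z * ∏ j, (dslope ψ (y j) z)⁻¹ with hf
  have hne : ∀ z ∈ ball (0 : ℂ) 1, f z ≠ 0 := by
    intro z hz
    refine mul_ne_zero (hd1 z hz) ?_
    rw [Finset.prod_ne_zero_iff]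
    exact fun j _ => inv_ne_zero (U3Covx67.dslope_ne_zero' isOpen_ball R.diff' hinj (hy j) hz)
  have hdiff : DifferentiableOn ℂ f (ball 0 1) := by
    refine (R.diff'.deriv isOpen_ball).mul ?_
    refine DifferentiableOn.fun_finsetProd (fun j _ => ?_)
    exact (U3Covx67.differentiableOn_dslope' isOpen_ball R.diff' (hy j)).inv
      (fun z hz => U3Covx67.dslope_ne_zero' isOpen_ball R.diff' hinj (hy j) hz)
  obtain ⟨s, hs, hs2⟩ := GeoPx67.CD.exists_sqrt h (f := fun z => f (φ z))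
    (hdiff.comp R.diff R.maps) (fun z hz => hne _ (R.maps hz))
  have hsq : ∀ z ∈ ball (0 : ℂ) 1, s (ψ z) ^ 2 = f z := by
    intro z hz
    rw [hs2 _ (R.maps' hz), R.right z hz]
  refine ⟨fun z => s (ψ z), hs.comp R.diff' R.maps', fun z hz h0 => hne z hz ?_, hsq⟩
  rw [← hsq z hz, h0]; ring

/-- **uniqueness**, core form -/
theorem uniq_core {D : Set ℂ} {r M : ℝ} (hD : CD D r M) {x : Fin n → ℂ}
    (hx : Function.Injective x) (hxD : ∀ j, x j ∈ D) {K : Set ℂ} (hK : IsCompact K) (hKD : K ⊆ D)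
    {F₁ F₂ : ℂ → ℂ} (h₁ : IsSpin D x K F₁) (h₂ : IsSpin D x K F₂) {d : ℂ → ℂ}
    (hd : DifferentiableOn ℂ d (D \ range x))
    (hae : ∀ᵐ z ∂volume.restrict (D \ K), (F₁ z - F₂ z) * rX x z = d z)
    (hdK : ∀ j, x j ∈ K → ContinuousAt d (x j) ∧ ∃ k : ℝ, 0 ≤ k ∧ d (x j) ^ 2 / wX x j = -I * k) :
    ∀ z ∈ D \ range x, d z = 0 := by
  classical
  obtain ⟨z₀, hz₀⟩ := hD.conn.nonempty
  obtain ⟨φ, ψ, R⟩ := GeoPx67.CD.exists_rmap hD hz₀
  have B : BiL (ball 0 1) D ψ := hD.biL_disc R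
  have hinj : InjOn ψ (ball 0 1) := B.bij.injOn
  set y : Fin n → ℂ := fun j => φ (x j) with hy
  have hyb : ∀ j, y j ∈ ball (0 : ℂ) 1 := fun j => R.maps (hxD j)
  have hψy : (fun j => ψ (y j)) = x := by
    funext j
    exact R.left _ (hxD j)
  have hyi : Function.Injective y := by
    intro i j hij
    apply hx
    rw [← R.left _ (hxD i), ← R.left _ (hxD j)]
    exact congrArg ψ hij
  obtain ⟨q, hq⟩ := exists_q_ball hD R y hyb
  set K' : Set ℂ := φ '' K with hK'
  have hK'c : IsCompact K' := hK.image_of_continuousOn (R.diff.continuousOn.mono hKD)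
  have hK'b : K' ⊆ ball 0 1 := by
    rintro _ ⟨z, hz, rfl⟩
    exact R.maps (hKD hz)
  have hψK : ψ '' K' = K := by
    rw [hK', ← image_comp]
    ext z
    constructor
    · rintro ⟨w, hw, rfl⟩
      simp only [Function.comp_apply, R.left _ (hKD hw)]
      exact hw
    · intro hz
      exact ⟨z, hz, R.left _ (hKD hz)⟩
  have hψnK : ∀ w ∈ ball (0 : ℂ) 1, w ∉ K' → ψ w ∉ K := by
    intro w hw hwK hcon
    exact hwK ⟨ψ w, hcon, R.right w hw⟩
  have hψK' : ∀ w ∈ K', ψ w ∈ K := by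
    rintro _ ⟨z, hz, rfl⟩
    rw [R.left _ (hKD hz)]; exact hz
  -- transport of one solution
  have trans : ∀ F : ℂ → ℂ, IsSpin D x K F → ∃ g : ℂ → ℂ, DifferentiableOn ℂ g (D \ K) ∧
      (∀ᵐ z ∂volume.restrict (D \ K), F z * rX x z = g z) ∧
      IsSpin (ball 0 1) y K' (fun w => if w ∈ K' then 0 else q w * g (ψ w) / rX y w) := by
    intro F hF
    obtain ⟨g, hg, hFg⟩ := hF.ext hD.isOpen hK.isClosed
    refine ⟨g, hg, hFg, ?_⟩
    have hF' : IsSpin D x K (fun z => if z ∈ K then 0 else g z / rX x z) := by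
      refine hF.congr_off hD.isOpen hK.isClosed ?_
      filter_upwards [hFg, ae_ne_range x (D \ K),
        ae_restrict_mem (hD.isOpen.measurableSet.diff hK.isClosed.measurableSet)] with z h1 h2 h3
      rw [if_neg h3.2, ← h1, mul_div_cancel_right₀ _ (rX_ne h2)]
    have hF'' : IsSpin D (fun j => ψ (y j)) (ψ '' K') (fun z => if z ∈ K then 0 else g z / rX x z) := by
      rw [hψy, hψK]; exact hF'
    have hdiff : DifferentiableOn ℂ (fun w => q w * g (ψ w)) (ball 0 1 \ K') := by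
      refine (hq.diff.mono sdiff_subset).mul ?_
      refine hg.comp (R.diff'.mono sdiff_subset) ?_
      rintro w ⟨hw, hwK⟩
      exact ⟨R.maps' hw, hψnK w hw hwK⟩
    have hms : MeasurableSet (ball (0 : ℂ) 1 \ K') := measurableSet_ball.diff hK'c.isClosed.measurableSet
    refine U3Covx67.spin_pull B hK'b hF'' ?_ ?_ ?_
    · have e : (fun w => if w ∈ K' then 0 else q w * g (ψ w) / rX y w) =
          K'ᶜ.indicator (fun w => q w * g (ψ w) / rX y w) := by
        funext w
        by_cases hw : w ∈ K'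
        · simp [hw]
        · simp [hw]
      rw [e, aestronglyMeasurable_indicator_iff hK'c.isClosed.measurableSet.compl,
        Measure.restrict_restrict hK'c.isClosed.measurableSet.compl]
      have h1 : AEStronglyMeasurable (fun w => q w * g (ψ w)) (volume.restrict (ball 0 1 \ K')) :=
        hdiff.continuousOn.aestronglyMeasurable hms
      have h2 : K'ᶜ ∩ ball (0 : ℂ) 1 = ball 0 1 \ K' := by
        ext w; simp [and_comm]
      rw [h2]
      exact (h1.aemeasurable.div (U3Covx67.measurable_rX y).aemeasurable).aestronglyMeasurable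
    · refine ⟨fun w => q w * g (ψ w), hdiff.mono (sdiff_subset_sdiff_right subset_union_right), ?_⟩
      filter_upwards [ae_ne_range y (ball 0 1 \ K'), ae_restrict_mem hms] with w h1 h2
      rw [if_neg h2.2, div_mul_cancel₀ _ (rX_ne h1)]
    · filter_upwards [ae_ne_range y (ball (0 : ℂ) 1), ae_restrict_mem measurableSet_ball] with w h1 h2
      by_cases hw : w ∈ K'
      · rw [if_pos hw, if_pos (hψK' w hw)]; simp
      · rw [if_neg hw, if_neg (hψnK w h2 hw)]
        have := U3Covx67.q_sq_div hq isOpen_ball R.diff' hinj hyb g h2 (fun j hj => h1 j hj.symm)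
        rw [hψy] at this
        exact this
  obtain ⟨g₁, hg₁, ha₁, s₁⟩ := trans F₁ h₁
  obtain ⟨g₂, hg₂, ha₂, s₂⟩ := trans F₂ h₂
  -- `g₁ - g₂ = d`
  have hopen : IsOpen (D \ (K ∪ range x)) :=
    hD.isOpen.sdiff (hK.isClosed.union (finite_range x).isClosed)
  have hgd : EqOn (fun z => g₁ z - g₂ z) d (D \ (K ∪ range x)) := by
    have sub1 : D \ (K ∪ range x) ⊆ D \ K := sdiff_subset_sdiff_right subset_union_left
    have sub2 : D \ (K ∪ range x) ⊆ D \ range x := sdiff_subset_sdiff_right subset_union_right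
    apply Measure.eqOn_open_of_ae_eq (μ := volume) _ hopen
      ((hg₁.continuousOn.mono sub1).sub (hg₂.continuousOn.mono sub1)) (hd.continuousOn.mono sub2)
    have a := ae_restrict_of_ae_restrict_of_subset sub1 hae
    have a1 := ae_restrict_of_ae_restrict_of_subset sub1 ha₁
    have a2 := ae_restrict_of_ae_restrict_of_subset sub1 ha₂
    filter_upwards [a, a1, a2] with z h1 h2 h3
    show g₁ z - g₂ z = d z
    rw [← h1, ← h2, ← h3]
    ring
  have hmapx : ∀ w ∈ ball (0 : ℂ) 1 \ range y, ψ w ∈ D \ range x := by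
    rintro w ⟨hw, hwy⟩
    refine ⟨R.maps' hw, ?_⟩
    rintro ⟨j, hj⟩
    apply hwy
    exact ⟨j, by simp only [hy, hj, R.right w hw]⟩
  have key := uniq_core_ball (x := y) hyi (fun j => by simpa using hyb j) hK'c hK'b s₁ s₂
    (d := fun w => q w * d (ψ w))
    ((hq.diff.mono sdiff_subset).mul (hd.comp (R.diff'.mono sdiff_subset) hmapx)) (by
      have hms : MeasurableSet (ball (0 : ℂ) 1 \ K') :=
        measurableSet_ball.diff hK'c.isClosed.measurableSet
      filter_upwards [ae_ne_range y (ball 0 1 \ K'), ae_restrict_mem hms] with w h1 h2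
      rw [if_neg h2.2, if_neg h2.2, ← sub_div, div_mul_cancel₀ _ (rX_ne h1), ← mul_sub]
      congr 1
      have h3 := hmapx w ⟨h2.1, by rintro ⟨j, hj⟩; exact h1 j hj.symm⟩
      refine hgd ⟨h3.1, ?_⟩
      rintro (h4 | h4)
      · exact hψnK w h2.1 h2.2 h4
      · exact h3.2 h4) (by
      intro j hj
      have hjK : x j ∈ K := by
        have := hψK' _ hj
        rwa [show ψ (y j) = x j from congrFun hψy j] at this
      obtain ⟨hc, k, hk, hkk⟩ := hdK j hjK
      have hψj : ψ (y j) = x j := congrFun hψy j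
      refine ⟨?_, k, hk, ?_⟩
      · have c1 : ContinuousAt q (y j) :=
          (hq.diff.differentiableAt (isOpen_ball.mem_nhds (hyb j))).continuousAt
        have c2 : ContinuousAt ψ (y j) :=
          (R.diff'.differentiableAt (isOpen_ball.mem_nhds (hyb j))).continuousAt
        have c3 : ContinuousAt d (ψ (y j)) := by rw [hψj]; exact hc
        exact c1.mul (ContinuousAt.comp c3 c2)
      · have h1 := hq.at_x isOpen_ball R.diff' hinj hyb j
        rw [hψy] at h1
        have hw := wX_ne hx j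
        have hqn : q (y j) ≠ 0 := hq.ne _ (hyb j)
        rw [hψj, ← h1, ← hkk]
        field_simp)
  intro z hz
  have h1 : φ z ∈ ball (0 : ℂ) 1 \ range y := by
    refine ⟨R.maps hz.1, ?_⟩
    rintro ⟨j, hj⟩
    apply hz.2
    refine ⟨j, ?_⟩
    rw [← R.left _ (hxD j), ← R.left z hz.1]
    exact congrArg ψ hj
  have h2 := key _ h1
  simp only [R.left z hz.1] at h2
  rcases mul_eq_zero.1 h2 with h3 | h3
  · exact absurd h3 (hq.ne _ h1.1)
  · exact h3

theorem ae_of_zero {D : Set ℂ} (hD : MeasurableSet D) {x : Fin n → ℂ} {F₁ F₂ d : ℂ → ℂ}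
    (hae : ∀ᵐ z ∂volume.restrict D, (F₁ z - F₂ z) * rX x z = d z)
    (hd : ∀ z ∈ D \ range x, d z = 0) : F₁ =ᵐ[volume.restrict D] F₂ := by
  filter_upwards [hae, ae_ne_range x D, ae_restrict_mem hD] with z h1 h2 h3
  rw [hd z ⟨h3, by rintro ⟨j, hj⟩; exact h2 j hj.symm⟩] at h1
  rcases mul_eq_zero.1 h1 with h4 | h4
  · exact sub_eq_zero.1 h4
  · exact absurd h4 (rX_ne h2)

/-- **610's form** -/
theorem uniqL2 {D : Set ℂ} {r M : ℝ} (hD : CD D r M) : MacIx610.UniqL2 D := by
  intro n x hx hxD K hK hKO F₁ F₂ _ _ h₁ h₂ d hd hae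
  have hOm : K ⊆ D ∧ ∀ j, x j ∉ K := by
    constructor
    · intro z hz; exact (hKO hz).1
    · intro j hj
      exact (hKO hj).2 ⟨j, rfl⟩
  refine ae_of_zero hD.isOpen.measurableSet hae ?_
  refine uniq_core hD hx hxD hK hOm.1 h₁ h₂ (d := d) hd ?_ ?_
  · exact ae_restrict_of_ae_restrict_of_subset sdiff_subset hae
  · intro j hj; exact absurd hj (hOm.2 j)

/-- two functions continuous at `c` and a.e. equal near `c` -/
theorem eq_of_ae_near {e d : ℂ → ℂ} {c : ℂ} {V : Set ℂ} (hV : V ∈ 𝓝 c) (he : ContinuousAt e c)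
    (hd : ContinuousAt d c) (hae : ∀ᵐ z ∂volume.restrict V, e z = d z) : e c = d c := by
  by_contra hne
  have h1 : ∀ᶠ z in 𝓝 c, e z ≠ d z := (he.prodMk hd).eventually
    (isOpen_ne_fun continuous_fst continuous_snd |>.mem_nhds hne)
  obtain ⟨δ, hδ, hδ2⟩ := Metric.mem_nhds_iff.1 (h1.and hV)
  have h2 : ∀ᵐ z ∂volume.restrict (ball c δ), e z = d z :=
    ae_restrict_of_ae_restrict_of_subset (fun z hz => (hδ2 hz).2) hae
  have h3 : ∀ᵐ z ∂volume.restrict (ball c δ), False := by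
    filter_upwards [h2, ae_restrict_mem measurableSet_ball] with z h4 h5
    exact (hδ2 h5).1 h4
  rw [ae_iff] at h3
  simp only [not_false_eq_true] at h3
  have h4 : volume (ball c δ) = 0 := by
    have : {z : ℂ | True} = univ := by ext; simp
    rw [this, Measure.restrict_apply_univ] at h3
    exact h3
  exact (measure_ball_pos volume c hδ).ne' h4

/-- **UNIQUENESS** -/
theorem uniq : Uniq := by
  intro D r M hD n x hx hxD K hK hKD F₁ F₂ h₁ h₂ hL d hae hdK
  have hKc : IsClosed K := hK.isClosed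
  obtain ⟨g₁, hg₁, ha₁⟩ := h₁.ext hD.isOpen hKc
  obtain ⟨g₂, hg₂, ha₂⟩ := h₂.ext hD.isOpen hKc
  have hD0 := hD.isOpen
  -- a.e. on `D`
  have hup : ∀ p : ℂ → Prop, (∀ᵐ z ∂volume.restrict (D \ K), p z) → ∀ᵐ z ∂volume.restrict D, p z := by
    intro p hp
    have h1 : ∀ᵐ z ∂volume.restrict D, z ∉ K := ae_notMem_finite hK D
    rw [ae_restrict_iff' (hD0.measurableSet.diff hKc.measurableSet)] at hp
    rw [ae_restrict_iff' hD0.measurableSet] at h1 ⊢
    filter_upwards [hp, h1] with z h2 h3 hz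
    exact h2 ⟨hz, h3 hz⟩
  have hgg : ∀ᵐ z ∂volume.restrict D, (F₁ z - F₂ z) * rX x z = g₁ z - g₂ z := by
    filter_upwards [hup _ ha₁, hup _ ha₂] with z h1 h2
    rw [← h1, ← h2]; ring
  obtain ⟨e, he, heg⟩ := removable_finite (U := D) (S := range x ∪ K)
    (g := fun z => g₁ z - g₂ z) hD0 ((finite_range x).union hK)
    (((hg₁.sub hg₂)).mono (sdiff_subset_sdiff_right subset_union_right)) (by
      intro c _ hcD
      obtain ⟨δ, hδ, hδD⟩ := Metric.isOpen_iff.1 hD0 c hcD
      exact ⟨δ, hδ, sq_int (x := x) (hL.mono_measure (Measure.restrict_mono hδD le_rfl))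
        (ae_restrict_of_ae_restrict_of_subset hδD hgg)⟩)
  have hee : ∀ᵐ z ∂volume.restrict D, (F₁ z - F₂ z) * rX x z = e z := by
    have h1 : ∀ᵐ z ∂volume.restrict D, z ∉ range x ∪ K :=
      ae_notMem_finite ((finite_range x).union hK) D
    filter_upwards [hgg, h1] with z h2 h3
    rw [heg z h3]; exact h2
  refine ae_of_zero hD0.measurableSet hee ?_
  refine uniq_core hD hx hxD hK.isCompact hKD h₁ h₂ (he.mono sdiff_subset)
    (ae_restrict_of_ae_restrict_of_subset sdiff_subset hee) ?_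
  intro j hj
  obtain ⟨hc, k, hk, hkk⟩ := hdK j hj
  have hce : ContinuousAt e (x j) := (he.differentiableAt (hD0.mem_nhds (hxD j))).continuousAt
  have hed : e (x j) = d (x j) := by
    refine eq_of_ae_near (hD0.mem_nhds (hxD j)) hce hc ?_
    filter_upwards [hee, hae] with z h1 h2
    rw [← h1, ← h2]
  exact ⟨hce, k, hk, by rw [hed]; exact hkk⟩

end Crest.Agent.R165.U3x719
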