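import Crest.Agent.R165.U3Vil_719

/-!
Row 165, block U3 (helper719): weak holomorphy, boundary functionals on the disc.
-/

set_option autoImplicit false

open Complex Set Metric Filter Topology MeasureTheory
open scoped ComplexConjugate ContDiff

namespace Crest.Agent.R165.U3x719

theorem int_aux {U : Set ℂ} {f g : ℂ → ℂ} (hf : ContinuousOn f U) (hg : Continuous g)
    (hc : HasCompactSupport g) (hs : tsupport g ⊆ U) : Integrable (fun z => f z * g z) := by
  have h1 : ContinuousOn (fun z => f z * g z) (tsupport g) :=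
    (hf.mono hs).mul hg.continuousOn
  have h2 : IntegrableOn (fun z => f z * g z) (tsupport g) :=
    h1.integrableOn_compact hc.isCompact
  rw [← integrableOn_iff_integrable_of_support_subset (s := tsupport g)]
  · exact h2
  · intro z hz
    by_contra h
    have : g z = 0 := image_eq_zero_of_notMem_tsupport h
    simp [this] at hz

theorem weak_hol {U : Set ℂ} (hU : IsOpen U) {Q : ℂ → ℂ} (hQ : DifferentiableOn ℂ Q U) {φ : ℂ → ℂ}
    (hφ : ContDiff ℝ 1 φ) (hc : HasCompactSupport φ) (hs : tsupport φ ⊆ U) :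
    ∫ z, Q z * dc φ z = 0 := by
  have hfd : Continuous (fderiv ℝ φ) := hφ.continuous_fderiv one_ne_zero
  have hfdc : HasCompactSupport (fderiv ℝ φ) := hc.fderiv (𝕜 := ℝ)
  have hgv : ∀ v : ℂ, Continuous (fun z => fderiv ℝ φ z v) := fun v => hfd.clm_apply continuous_const
  have hgs : ∀ v : ℂ, tsupport (fun z => fderiv ℝ φ z v) ⊆ tsupport φ := by
    intro v
    apply closure_minimal _ (isClosed_tsupport φ)
    intro z hz
    by_contra h
    have : fderiv ℝ φ z = 0 := by
      by_contra h2
      exact h (support_fderiv_subset ℝ h2)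
    simp [this] at hz
  have hgc : ∀ v : ℂ, HasCompactSupport (fun z => fderiv ℝ φ z v) := fun v =>
    hc.of_isClosed_subset (isClosed_tsupport _) (hgs v)
  have hdQ : ∀ z ∈ U, DifferentiableAt ℂ Q z := fun z hz => hQ.differentiableAt (hU.mem_nhds hz)
  have hdQr : ∀ z ∈ U, DifferentiableAt ℝ Q z := fun z hz => (hdQ z hz).restrictScalars ℝ
  have hQc : ContDiffOn ℝ 1 Q U := by
    have : ContDiffOn ℂ 1 Q U := hQ.contDiffOn hU
    exact this.restrict_scalars ℝ
  have hfQ : ContinuousOn (fderiv ℝ Q) U := hQc.continuousOn_fderiv_of_isOpen hU le_rfl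
  have i1 : ∀ v : ℂ, Integrable (fun z => Q z * fderiv ℝ φ z v) := fun v =>
    int_aux hQ.continuousOn (hgv v) (hgc v) ((hgs v).trans hs)
  have i2 : ∀ v : ℂ, Integrable (fun z => fderiv ℝ Q z v * φ z) := fun v =>
    int_aux (hfQ.clm_apply continuousOn_const) hφ.continuous hc hs
  have i3 : Integrable (fun z => Q z * φ z) := int_aux hQ.continuousOn hφ.continuous hc hs
  have key : ∀ v : ℂ, ∫ z, Q z * fderiv ℝ φ z v = -∫ z, fderiv ℝ Q z v * φ z := fun v =>
    integral_mul_fderiv_eq_neg_fderiv_mul_of_integrable (i2 v) (i1 v) i3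
      (fun z hz => hdQr z (hs hz)) (fun z _ => (hφ.differentiable one_ne_zero) z)
  have e : ∀ z, Q z * dc φ z = Q z * fderiv ℝ φ z 1 + I * (Q z * fderiv ℝ φ z I) := by
    intro z; unfold dc; ring
  simp_rw [e]
  rw [integral_add (i1 1) ((i1 I).const_mul I), integral_const_mul, key, key]
  have : ∫ z, (fderiv ℝ Q z 1 * φ z + I * (fderiv ℝ Q z I * φ z)) = 0 := by
    rw [← integral_zero ℂ ℂ]
    congr 1
    funext z
    by_cases hz : z ∈ U
    · have := dc_hol (hdQ z hz)
      unfold dc at this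
      linear_combination (φ z) * this
    · have : φ z = 0 := image_eq_zero_of_notMem_tsupport (fun h => hz (hs h))
      simp [this]
  rw [integral_add (i2 1) ((i2 I).const_mul I), integral_const_mul] at this
  linear_combination -this

/-- the open annulus `r < ‖v‖ < 1` -/
def Ann (r : ℝ) : Set ℂ := {v | r < ‖v‖ ∧ ‖v‖ < 1}

theorem isOpen_Ann (r : ℝ) : IsOpen (Ann r) := (isOpen_lt continuous_const continuous_norm).inter
    (isOpen_lt continuous_norm continuous_const)

theorem Ann_subset_ball (r : ℝ) : Ann r ⊆ ball 0 1 := fun v hv => by simpa using hv.2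

/-- weak boundary relations on the disc -/
structure WBd (r : ℝ) (Q : ℂ → ℂ) : Prop where
  int : IntegrableOn Q (Ann r)
  holo : DifferentiableOn ℂ Q (Ann r)
  curl : ∀ χ : ℂ → ℝ, ContDiff ℝ 1 χ → HasCompactSupport χ → tsupport χ ⊆ {v | r < ‖v‖} →
    ∫ z in ball (0 : ℂ) 1, (Q z * db χ z).re = 0
  div : ∀ χ : ℂ → ℝ, ContDiff ℝ 1 χ → HasCompactSupport χ → tsupport χ ⊆ {v | r < ‖v‖} →
    (∀ z, 0 ≤ χ z) → ∫ z in ball (0 : ℂ) 1, (Q z * db χ z).im ≤ 0

theorem ball_to_Ann {E : Type*} [NormedAddCommGroup E] [NormedSpace ℝ E] {r : ℝ} {f : ℂ → E}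
    (h : ∀ z, ‖z‖ ≤ r → f z = 0) : ∫ z in ball (0 : ℂ) 1, f z = ∫ z in Ann r, f z := by
  apply setIntegral_eq_of_subset_of_forall_sdiff_eq_zero measurableSet_ball (Ann_subset_ball r)
  rintro z ⟨hz1, hz2⟩
  apply h
  by_contra hcon
  exact hz2 ⟨not_le.1 hcon, by simpa using hz1⟩

theorem dc_eq_zero_of {χ : ℂ → ℂ} {r : ℝ} (hs : tsupport χ ⊆ {v | r < ‖v‖}) {z : ℂ} (hz : ‖z‖ ≤ r) :
    dc χ z = 0 :=
  dc_of_notMem (fun h => absurd (hs h) (not_lt.2 hz))

theorem continuous_dc {χ : ℂ → ℂ} (h : ContDiff ℝ 1 χ) : Continuous (dc χ) := by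
  have hfd : Continuous (fderiv ℝ χ) := h.continuous_fderiv one_ne_zero
  unfold dc
  exact (hfd.clm_apply continuous_const).add (continuous_const.mul (hfd.clm_apply continuous_const))

theorem dc_bdd {χ : ℂ → ℂ} (h : ContDiff ℝ 1 χ) (hc : HasCompactSupport χ) :
    ∃ C : ℝ, 0 ≤ C ∧ ∀ z, ‖dc χ z‖ ≤ C := by
  have h1 : HasCompactSupport (dc χ) := by
    refine hc.of_isClosed_subset (isClosed_tsupport _) ?_
    apply closure_minimal _ (isClosed_tsupport χ)
    intro z hz
    by_contra h2
    exact hz (dc_of_notMem h2)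
  obtain ⟨C, hC⟩ := (continuous_dc h).bounded_above_of_compact_support h1
  exact ⟨max C 0, le_max_right _ _, fun z => (hC z).trans (le_max_left _ _)⟩

/-- the smooth step -/
theorem step_bdd : ∃ C : ℝ, 0 ≤ C ∧ ∀ t, |deriv Real.smoothTransition t| ≤ C := by
  have hc : Continuous (deriv Real.smoothTransition) :=
    (Real.smoothTransition.contDiff (n := 1)).continuous_deriv le_rfl
  obtain ⟨C, hC⟩ := isCompact_Icc.exists_bound_of_continuousOn (s := Icc (0 : ℝ) 1) hc.continuousOn
  refine ⟨max C 0, le_max_right _ _, fun t => ?_⟩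
  by_cases ht : t ∈ Icc (0 : ℝ) 1
  · exact (hC t ht).trans (le_max_left _ _)
  · have : deriv Real.smoothTransition t = 0 := by
      rw [mem_Icc, not_and_or, not_le, not_le] at ht
      rcases ht with h | h
      · have e : Real.smoothTransition =ᶠ[𝓝 t] fun _ => 0 := by
          filter_upwards [gt_mem_nhds h] with s hs
          exact Real.smoothTransition.zero_of_nonpos (le_of_lt hs)
        rw [e.deriv_eq]; simp
      · have e : Real.smoothTransition =ᶠ[𝓝 t] fun _ => 1 := by
          filter_upwards [lt_mem_nhds h] with s hs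
          exact Real.smoothTransition.one_of_one_le (le_of_lt hs)
        rw [e.deriv_eq]; simp
    rw [this, abs_zero]
    exact le_max_right _ _

/-- the step from `0` (below `s1`) to `1` (above `s2`) -/
noncomputable def stp (s1 s2 : ℝ) (t : ℝ) : ℝ := Real.smoothTransition ((t - s1) / (s2 - s1))

theorem stp_contDiff (s1 s2 : ℝ) {m : ℕ∞} : ContDiff ℝ m (stp s1 s2) := by
  unfold stp
  exact Real.smoothTransition.contDiff.comp (by fun_prop)

theorem stp_zero {s1 s2 t : ℝ} (h : s1 < s2) (ht : t ≤ s1) : stp s1 s2 t = 0 :=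
  Real.smoothTransition.zero_of_nonpos (div_nonpos_of_nonpos_of_nonneg (by linarith) (by linarith))

theorem stp_one {s1 s2 t : ℝ} (h : s1 < s2) (ht : s2 ≤ t) : stp s1 s2 t = 1 :=
  Real.smoothTransition.one_of_one_le (by rw [le_div_iff₀ (by linarith)]; linarith)

theorem stp_nonneg (s1 s2 t : ℝ) : 0 ≤ stp s1 s2 t := Real.smoothTransition.nonneg _

theorem stp_le_one (s1 s2 t : ℝ) : stp s1 s2 t ≤ 1 := Real.smoothTransition.le_one _

theorem stp_deriv_zero {s1 s2 t : ℝ} (h : s1 < s2) (ht : t ≤ s1 ∨ s2 ≤ t) :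
    deriv (stp s1 s2) t = 0 := by
  have hc : Continuous (deriv (stp s1 s2)) := (stp_contDiff s1 s2 (m := 1)).continuous_deriv le_rfl
  rcases ht with ht | ht
  · have : ∀ t ∈ Iio s1, deriv (stp s1 s2) t = 0 := by
      intro t ht
      have e : stp s1 s2 =ᶠ[𝓝 t] fun _ => 0 := by
        filter_upwards [gt_mem_nhds ht] with s hs
        exact stp_zero h (le_of_lt hs)
      rw [e.deriv_eq]; simp
    have h2 : closure (Iio s1) ⊆ {t | deriv (stp s1 s2) t = 0} :=
      closure_minimal this (isClosed_eq hc continuous_const)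
    rw [closure_Iio] at h2
    exact h2 ht
  · have : ∀ t ∈ Ioi s2, deriv (stp s1 s2) t = 0 := by
      intro t ht
      have e : stp s1 s2 =ᶠ[𝓝 t] fun _ => 1 := by
        filter_upwards [lt_mem_nhds ht] with s hs
        exact stp_one h (le_of_lt hs)
      rw [e.deriv_eq]; simp
    have h2 : closure (Ioi s2) ⊆ {t | deriv (stp s1 s2) t = 0} :=
      closure_minimal this (isClosed_eq hc continuous_const)
    rw [closure_Ioi] at h2
    exact h2 ht

/-- the boundary functional only sees the boundary values -/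
theorem weak_vanish {r : ℝ} {Q : ℂ → ℂ} (hQ : DifferentiableOn ℂ Q (Ann r))
    (hi : IntegrableOn Q (Ann r)) {χ : ℂ → ℂ} (hχ : ContDiff ℝ 1 χ) (hc : HasCompactSupport χ)
    (hs : tsupport χ ⊆ {v | r < ‖v‖}) (hz : ∀ z, ‖z‖ = 1 → χ z = 0) :
    ∫ z in ball (0 : ℂ) 1, Q z * dc χ z = 0 := by
  rw [ball_to_Ann (r := r) (fun z h => by rw [dc_eq_zero_of hs h, mul_zero])]
  -- Lipschitz bound
  obtain ⟨L, hL⟩ : ∃ L, LipschitzWith L χ := hχ.lipschitzWith_of_hasCompactSupport hc one_ne_zero
  have hLz : ∀ z : ℂ, z ≠ 0 → ‖z‖ ≤ 1 → ‖χ z‖ ≤ L * (1 - ‖z‖) := by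
    intro z hz0 hz1
    have hn : ‖z‖ ≠ 0 := norm_ne_zero_iff.2 hz0
    have h1 : ‖((‖z‖⁻¹ : ℝ) : ℂ) * z‖ = 1 := by
      rw [norm_mul, norm_real, Real.norm_eq_abs, abs_of_nonneg (by positivity)]
      exact inv_mul_cancel₀ hn
    have h2 := hL.dist_le_mul z (((‖z‖⁻¹ : ℝ) : ℂ) * z)
    rw [dist_eq_norm, hz _ h1, sub_zero] at h2
    refine h2.trans (le_of_eq ?_)
    congr 1
    rw [dist_eq_norm]
    have : z - ((‖z‖⁻¹ : ℝ) : ℂ) * z = ((1 - ‖z‖⁻¹ : ℝ) : ℂ) * z := by push_cast; ring
    rw [this, norm_mul, norm_real, Real.norm_eq_abs, abs_of_nonpos]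
    · field_simp; ring
    · have : 1 ≤ ‖z‖⁻¹ := (one_le_inv₀ (norm_pos_iff.2 hz0)).2 hz1
      linarith
  obtain ⟨C, hC0, hC⟩ := step_bdd
  obtain ⟨C', hC'0, hC'⟩ := dc_bdd hχ hc
  -- the cut-offs
  set b : ℕ → ℝ → ℝ := fun n t => Real.smoothTransition ((n + 1) * (1 - t) - 1) with hb
  have hbC : ∀ n, ContDiff ℝ 1 (b n) := by
    intro n
    rw [hb]
    exact Real.smoothTransition.contDiff.comp (by fun_prop)
  have hbd : ∀ n t, deriv (b n) t = -(n + 1) * deriv Real.smoothTransition ((n + 1) * (1 - t) - 1) := by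
    intro n t
    have h1 : HasDerivAt (fun t : ℝ => ((n : ℝ) + 1) * (1 - t) - 1) (-(n + 1)) t := by
      have := (((hasDerivAt_id t).const_sub 1).const_mul ((n : ℝ) + 1)).sub_const 1
      simpa using this
    have h2 : HasDerivAt Real.smoothTransition (deriv Real.smoothTransition ((n + 1) * (1 - t) - 1))
        ((n + 1) * (1 - t) - 1) :=
      ((Real.smoothTransition.contDiff (n := 1)).differentiable one_ne_zero _).hasDerivAt
    have h3 : HasDerivAt (fun t : ℝ => Real.smoothTransition (((n : ℝ) + 1) * (1 - t) - 1))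
        (deriv Real.smoothTransition (((n : ℝ) + 1) * (1 - t) - 1) * (-((n : ℝ) + 1))) t :=
      HasDerivAt.comp (h := fun t : ℝ => ((n : ℝ) + 1) * (1 - t) - 1)
        (h₂ := Real.smoothTransition) t h2 h1
    have h4 : b n = fun t : ℝ => Real.smoothTransition (((n : ℝ) + 1) * (1 - t) - 1) := rfl
    rw [h4, h3.deriv]; ring
  set X : ℕ → ℂ → ℂ := fun n z => χ z * (rad 0 (b n) z : ℂ) with hX
  have hXC : ∀ n, ContDiff ℝ 1 (X n) := by
    intro n
    exact hχ.mul (Complex.ofRealCLM.contDiff.comp (rad_contDiff 0 (hbC n)))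
  have hXd : ∀ n z, dc (X n) z = dc χ z * (rad 0 (b n) z : ℂ) +
      χ z * (((deriv (b n) (normSq z) : ℝ) : ℂ) * (2 * z)) := by
    intro n z
    have hr : DifferentiableAt ℝ (rad 0 (b n)) z :=
      (rad_contDiff 0 (hbC n)).differentiable one_ne_zero z
    have h1 := dc_mul (hχ.differentiable one_ne_zero z)
      (Complex.ofRealCLM.differentiableAt.comp z hr)
    have h2 : dc (fun w => (rad 0 (b n) w : ℂ)) z = db (rad 0 (b n)) z := dc_ofReal hr
    rw [db_rad 0 ((hbC n).differentiable one_ne_zero), sub_zero] at h2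
    have h3 : dc (X n) z = dc χ z * (rad 0 (b n) z : ℂ) + χ z * dc (fun w => (rad 0 (b n) w : ℂ)) z := h1
    rw [h3, h2]
  have hXs : ∀ n, tsupport (X n) ⊆ Ann r := by
    intro n
    have h1 : tsupport (X n) ⊆ tsupport χ := by
      apply closure_mono
      intro z hz h
      exact hz (by simp only [hX, h, zero_mul])
    have h2 : tsupport (X n) ⊆ {z | normSq z ≤ 1 - 1 / (n + 1)} := by
      apply closure_minimal _ (isClosed_le continuous_normSq continuous_const)
      intro z hz
      by_contra h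
      have h' : 1 - 1 / ((n : ℝ) + 1) < normSq z := not_le.1 h
      have hn : (0 : ℝ) < n + 1 := by positivity
      have : rad 0 (b n) z = 0 := by
        simp only [rad, sub_zero, hb]
        apply Real.smoothTransition.zero_of_nonpos
        have h3 : ((n : ℝ) + 1) * (1 - normSq z) < ((n : ℝ) + 1) * (1 / (n + 1)) :=
          mul_lt_mul_of_pos_left (by linarith) hn
        rw [mul_one_div_cancel hn.ne'] at h3
        linarith
      exact hz (by simp only [hX, this, ofReal_zero, mul_zero])
    intro z hz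
    refine ⟨hs (h1 hz), ?_⟩
    have h3 := h2 hz
    simp only [mem_ofPred_eq, normSq_eq_norm_sq] at h3
    have h4 : ‖z‖ ^ 2 < 1 := by
      have : (0 : ℝ) < 1 / (n + 1) := by positivity
      linarith
    nlinarith [norm_nonneg z]
  have hXc : ∀ n, HasCompactSupport (X n) := fun n => hc.mul_right
  have hzero : ∀ n, ∫ z in Ann r, Q z * dc (X n) z = 0 := by
    intro n
    rw [setIntegral_eq_integral_of_forall_compl_eq_zero]
    · exact weak_hol (isOpen_Ann r) hQ (hXC n) (hXc n) (hXs n)
    · intro z hz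
      rw [dc_of_notMem (fun h => hz (hXs n h)), mul_zero]
  have hlim : Tendsto (fun n => ∫ z in Ann r, Q z * dc (X n) z) atTop
      (𝓝 (∫ z in Ann r, Q z * dc χ z)) := by
    apply tendsto_integral_of_dominated_convergence (fun z => ‖Q z‖ * (C' + 4 * L * C))
    · intro n
      exact hi.aestronglyMeasurable.mul (continuous_dc (hXC n)).aestronglyMeasurable
    · exact hi.norm.mul_const _
    · intro n
      filter_upwards [ae_restrict_mem (isOpen_Ann r).measurableSet] with z hzA
      rw [norm_mul]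
      apply mul_le_mul_of_nonneg_left _ (norm_nonneg _)
      rw [hXd]
      refine (norm_add_le _ _).trans (add_le_add ?_ ?_)
      · have hr0 : 0 ≤ rad 0 (b n) z := Real.smoothTransition.nonneg _
        have hr1 : rad 0 (b n) z ≤ 1 := Real.smoothTransition.le_one _
        rw [norm_mul, norm_real, Real.norm_eq_abs, abs_of_nonneg hr0]
        calc ‖dc χ z‖ * rad 0 (b n) z ≤ ‖dc χ z‖ * 1 :=
              mul_le_mul_of_nonneg_left hr1 (norm_nonneg _)
          _ ≤ C' := by rw [mul_one]; exact hC' z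
      · rw [norm_mul, norm_mul, norm_real, Real.norm_eq_abs, norm_mul]
        have hz1 : ‖z‖ ≤ 1 := hzA.2.le
        have hn2 : ‖(2 : ℂ)‖ = 2 := by simp
        rw [hn2]
        by_cases hz0 : z = 0
        · subst hz0
          simp only [norm_zero, mul_zero]
          positivity
        have hχz := hLz z hz0 hz1
        by_cases hd : deriv (b n) (normSq z) = 0
        · rw [hd, abs_zero, zero_mul, mul_zero]; positivity
        · -- here `(n+1)(1 - |z|²) ≤ 2`
          have h1 : ((n : ℝ) + 1) * (1 - normSq z) ≤ 2 := by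
            by_contra hcon
            apply hd
            rw [hbd]
            have h2 : (1 : ℝ) < (n + 1) * (1 - normSq z) - 1 := by linarith [not_le.1 hcon]
            have e : Real.smoothTransition =ᶠ[𝓝 ((n + 1) * (1 - normSq z) - 1)] fun _ => 1 := by
              filter_upwards [lt_mem_nhds h2] with s hs
              exact Real.smoothTransition.one_of_one_le (le_of_lt hs)
            rw [e.deriv_eq]; simp
          have h2 : ((n : ℝ) + 1) * (1 - ‖z‖) ≤ 2 := by
            rw [normSq_eq_norm_sq] at h1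
            have hn : (0 : ℝ) < n + 1 := by positivity
            have : 1 - ‖z‖ ≤ 1 - ‖z‖ ^ 2 := by nlinarith [norm_nonneg z]
            nlinarith
          have h3 : |deriv (b n) (normSq z)| ≤ (n + 1) * C := by
            rw [hbd, abs_mul, abs_neg, abs_of_pos (by positivity : (0 : ℝ) < n + 1)]
            exact mul_le_mul_of_nonneg_left (hC _) (by positivity)
          have hL0 : (0 : ℝ) ≤ L := L.2
          have h1z : 0 ≤ 1 - ‖z‖ := by linarith
          calc ‖χ z‖ * (|deriv (b n) (normSq z)| * (2 * ‖z‖))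
              ≤ (L * (1 - ‖z‖)) * (((n + 1) * C) * (2 * 1)) := by
                gcongr
            _ = 2 * L * C * ((n + 1) * (1 - ‖z‖)) := by ring
            _ ≤ 2 * L * C * 2 := by gcongr
            _ = 4 * L * C := by ring
    · filter_upwards [ae_restrict_mem (isOpen_Ann r).measurableSet] with z hzA
      apply Tendsto.const_mul
      have hpos : 0 < 1 - normSq z := by
        rw [normSq_eq_norm_sq]
        nlinarith [norm_nonneg z, hzA.2]
      refine tendsto_const_nhds.congr' ?_
      have hev : ∀ᶠ n : ℕ in atTop, 2 < ((n : ℝ) + 1) * (1 - normSq z) := by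
        have : Tendsto (fun n : ℕ => ((n : ℝ) + 1) * (1 - normSq z)) atTop atTop :=
          (tendsto_natCast_atTop_atTop.atTop_add tendsto_const_nhds).atTop_mul_const hpos
        exact this.eventually_gt_atTop 2
      filter_upwards [hev] with n hn
      rw [hXd]
      have h1 : rad 0 (b n) z = 1 := by
        simp only [rad, sub_zero, hb]
        exact Real.smoothTransition.one_of_one_le (by linarith)
      have h2 : deriv (b n) (normSq z) = 0 := by
        rw [hbd]
        have h2 : (1 : ℝ) < (n + 1) * (1 - normSq z) - 1 := by linarith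
        have e : Real.smoothTransition =ᶠ[𝓝 ((n + 1) * (1 - normSq z) - 1)] fun _ => 1 := by
          filter_upwards [lt_mem_nhds h2] with s hs
          exact Real.smoothTransition.one_of_one_le (le_of_lt hs)
        rw [e.deriv_eq]; simp
      rw [h1, h2]; simp
  simp_rw [hzero] at hlim
  exact (tendsto_nhds_unique hlim tendsto_const_nhds).symm ▸ rfl

end Crest.Agent.R165.U3x719
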