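import Crest.Agent.R165.U3Vib_719

/-!
Row 165, block U3 (helper719): Schwarz-Villat formula, boundary values of `i w Q(w)`.
-/

set_option autoImplicit false

open Complex Set Metric Filter Topology MeasureTheory
open scoped ComplexConjugate ContDiff

namespace Crest.Agent.R165.U3x719

theorem integrable_mul_dc {r : ℝ} {Q : ℂ → ℂ} (hi : IntegrableOn Q (Ann r)) {χ : ℂ → ℂ}
    (hχ : ContDiff ℝ 1 χ) (hc : HasCompactSupport χ) (hs : tsupport χ ⊆ {v | r < ‖v‖}) :
    IntegrableOn (fun z => Q z * dc χ z) (ball 0 1) := by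
  obtain ⟨C, hC0, hC⟩ := dc_bdd hχ hc
  have h1 : IntegrableOn (fun z => Q z * dc χ z) (Ann r) :=
    hi.mul_bdd (c := C) (continuous_dc hχ).aestronglyMeasurable (Eventually.of_forall hC)
  have h2 : IntegrableOn (fun z => Q z * dc χ z) {z | ‖z‖ ≤ r} := by
    refine (integrableOn_zero (μ := volume)).congr_fun (fun z hz => ?_)
      (isClosed_le continuous_norm continuous_const).measurableSet
    rw [dc_eq_zero_of hs hz, mul_zero]
  refine (h1.union h2).mono_set ?_
  intro z hz
  by_cases h : ‖z‖ ≤ r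
  · exact Or.inr h
  · exact Or.inl ⟨not_le.1 h, by simpa using hz⟩

theorem bd_fun {r : ℝ} (hr0 : 0 ≤ r) {Q : ℂ → ℂ} (h : WBd r Q) {s : ℝ} (hs : r ≤ s) (hs1 : s < 1)
    {S : ℝ} (hS : 1 < S) {ζ : ℂ → ℂ} (hζ : DifferentiableOn ℂ ζ {v | s < ‖v‖ ∧ ‖v‖ < S})
    (hre : ∀ v : ℂ, ‖v‖ = 1 → (ζ v).im = 0) {ρ : ℝ} (hρ : s < ρ) (hρ1 : ρ < 1) :
    (∮ v in C(0, ρ), Q v * ζ v).im = 0 ∧
      ((∀ v : ℂ, s < ‖v‖ → ‖v‖ < S → 0 ≤ (ζ v).re) → 0 ≤ (∮ v in C(0, ρ), Q v * ζ v).re) := by
  have hs0 : 0 ≤ s := hr0.trans hs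
  set V : Set ℂ := {v | s < ‖v‖ ∧ ‖v‖ < S} with hV
  have hVo : IsOpen V := (isOpen_lt continuous_const continuous_norm).inter
    (isOpen_lt continuous_norm continuous_const)
  have hss : s ^ 2 < 1 := by nlinarith
  have hSS : 1 < S ^ 2 := by nlinarith
  obtain ⟨s1, h1a, h1b⟩ := exists_between hss
  obtain ⟨s2, h2a, h2b⟩ := exists_between h1b
  obtain ⟨s4, h4a, h4b⟩ := exists_between hSS
  obtain ⟨s3, h3a, h3b⟩ := exists_between h4a
  set α : ℝ → ℝ := fun t => stp s1 s2 t * (1 - stp s3 s4 t) with hα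
  have hαC : ContDiff ℝ 1 α := (stp_contDiff s1 s2 (m := 1)).mul
    (contDiff_const.sub (stp_contDiff s3 s4 (m := 1)))
  have hα0 : ∀ t, 0 ≤ α t := fun t =>
    mul_nonneg (stp_nonneg _ _ _) (by linarith [stp_le_one s3 s4 t])
  have ha : ContDiff ℝ 1 (rad 0 α) := rad_contDiff 0 hαC
  have hts : tsupport (rad 0 α) ⊆ {v | s1 ≤ normSq v ∧ normSq v ≤ s4} := by
    apply closure_minimal
    · intro v hv
      simp only [Function.mem_support, rad, sub_zero, hα] at hv
      constructor
      · by_contra hcon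
        rw [stp_zero h2a (le_of_lt (not_le.1 hcon)), zero_mul] at hv
        exact hv rfl
      · by_contra hcon
        rw [stp_one h3b (le_of_lt (not_le.1 hcon)), sub_self, mul_zero] at hv
        exact hv rfl
    · exact (isClosed_le continuous_const continuous_normSq).inter
        (isClosed_le continuous_normSq continuous_const)
  have htV : tsupport (rad 0 α) ⊆ V := by
    intro v hv
    have := hts hv
    simp only [mem_ofPred_eq, normSq_eq_norm_sq] at this
    exact ⟨lt_of_pow_lt_pow_left₀ 2 (norm_nonneg v) (by linarith [this.1]),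
      lt_of_pow_lt_pow_left₀ 2 (by linarith) (by linarith [this.2])⟩
  have hac : HasCompactSupport (rad 0 α) := by
    apply HasCompactSupport.of_support_subset_isCompact (isCompact_closedBall (0 : ℂ) S)
    intro v hv
    have := htV (subset_tsupport _ hv)
    simpa using this.2.le
  -- the complex test function
  set Z : ℂ → ℂ := fun v => (rad 0 α v : ℂ) * ζ v with hZ
  have hZs : tsupport Z ⊆ tsupport (rad 0 α) := by
    apply closure_mono
    intro v hv hcon
    exact hv (by simp only [hZ, hcon, ofReal_zero, zero_mul])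
  have hZC : ContDiff ℝ 1 Z := by
    rw [contDiff_iff_contDiffAt]
    intro v
    by_cases hv : v ∈ tsupport (rad 0 α)
    · have h1 : ContDiffAt ℝ 1 ζ v := by
        have : ContDiffAt ℂ 1 ζ v := (hζ.contDiffOn hVo).contDiffAt (hVo.mem_nhds (htV hv))
        exact this.restrict_scalars ℝ
      exact (Complex.ofRealCLM.contDiff.comp ha).contDiffAt.mul h1
    · have : Z =ᶠ[𝓝 v] fun _ => 0 := by
        filter_upwards [(isClosed_tsupport (rad 0 α)).isOpen_compl.mem_nhds hv] with w hw
        have : rad 0 α w = 0 := image_eq_zero_of_notMem_tsupport hw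
        simp only [hZ, this, ofReal_zero, zero_mul]
      exact contDiffAt_const.congr_of_eventuallyEq this
  have hZc : HasCompactSupport Z := hac.of_isClosed_subset (isClosed_tsupport _) hZs
  set χR : ℂ → ℝ := fun v => (Z v).re with hχR
  set χI : ℂ → ℝ := fun v => (Z v).im with hχI
  have hRC : ContDiff ℝ 1 χR := Complex.reCLM.contDiff.comp hZC
  have hIC : ContDiff ℝ 1 χI := Complex.imCLM.contDiff.comp hZC
  have hRs : tsupport χR ⊆ tsupport Z := by
    apply closure_mono
    intro v hv hcon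
    exact hv (by simp only [hχR, hcon, zero_re])
  have hIs : tsupport χI ⊆ tsupport Z := by
    apply closure_mono
    intro v hv hcon
    exact hv (by simp only [hχI, hcon, zero_im])
  have hRc : HasCompactSupport χR := hZc.of_isClosed_subset (isClosed_tsupport _) hRs
  have hIc : HasCompactSupport χI := hZc.of_isClosed_subset (isClosed_tsupport _) hIs
  have hZr : tsupport Z ⊆ {v | r < ‖v‖} := fun v hv => lt_of_le_of_lt hs (htV (hZs hv)).1
  set YR : ℂ → ℂ := fun v => (χR v : ℂ) with hYR
  set YI : ℂ → ℂ := fun v => (χI v : ℂ) with hYI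
  have hYRC : ContDiff ℝ 1 YR := Complex.ofRealCLM.contDiff.comp hRC
  have hYIC : ContDiff ℝ 1 YI := Complex.ofRealCLM.contDiff.comp hIC
  have hYRs : tsupport YR ⊆ tsupport χR := by
    apply closure_mono
    intro v hv hcon
    exact hv (by simp only [hYR, hcon, ofReal_zero])
  have hYIs : tsupport YI ⊆ tsupport χI := by
    apply closure_mono
    intro v hv hcon
    exact hv (by simp only [hYI, hcon, ofReal_zero])
  have hYRc : HasCompactSupport YR := hRc.of_isClosed_subset (isClosed_tsupport _) hYRs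
  have hYIc : HasCompactSupport YI := hIc.of_isClosed_subset (isClosed_tsupport _) hYIs
  have hdR : ∀ z, dc YR z = db χR z := fun z => dc_ofReal (hRC.differentiable one_ne_zero z)
  have hdI : ∀ z, dc YI z = db χI z := fun z => dc_ofReal (hIC.differentiable one_ne_zero z)
  have hdZ : ∀ z, dc Z z = dc YR z + I * dc YI z := by
    intro z
    have e : Z = fun w => YR w + I * YI w := by
      funext w
      simp only [hYR, hYI, hχR, hχI]
      rw [mul_comm I, re_add_im]
    have h1 : DifferentiableAt ℝ (fun w => I * YI w) z :=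
      (differentiableAt_const I).mul (hYIC.differentiable one_ne_zero z)
    have h2 := dc_add (hYRC.differentiable one_ne_zero z) h1
    have h3 := dc_mul (z := z) (differentiableAt_const (𝕜 := ℝ) I) (hYIC.differentiable one_ne_zero z)
    have h4 : dc (fun _ : ℂ => I) z = 0 := by simp [dc]
    rw [h4, zero_mul, zero_add] at h3
    rw [e, h2, h3]
  -- the integral
  have hint1 : IntegrableOn (fun z => Q z * dc YR z) (ball 0 1) :=
    integrable_mul_dc h.int hYRC hYRc ((hYRs.trans hRs).trans hZr)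
  have hint2 : IntegrableOn (fun z => Q z * dc YI z) (ball 0 1) :=
    integrable_mul_dc h.int hYIC hYIc ((hYIs.trans hIs).trans hZr)
  have hvan : ∫ z in ball (0 : ℂ) 1, Q z * dc YI z = 0 := by
    apply weak_vanish h.holo h.int hYIC hYIc ((hYIs.trans hIs).trans hZr)
    intro z hz
    simp only [hYI, hχI, hZ, im_ofReal_mul, hre z hz, mul_zero, ofReal_zero]
  set m : ℂ := ∫ z in ball (0 : ℂ) 1, Q z * dc YR z with hm
  have hmZ : ∫ z in ball (0 : ℂ) 1, Q z * dc Z z = m := by
    have : ∀ z, Q z * dc Z z = Q z * dc YR z + I * (Q z * dc YI z) := by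
      intro z; rw [hdZ]; ring
    simp_rw [this]
    rw [integral_add hint1 (hint2.const_mul I), integral_const_mul, hvan, mul_zero, add_zero]
  have hmre : m.re = 0 := by
    have h1 : m.re = ∫ z in ball (0 : ℂ) 1, (Q z * dc YR z).re := by
      rw [hm]; exact (integral_re hint1).symm
    rw [h1]
    simp_rw [hdR]
    exact h.curl χR hRC hRc (hRs.trans hZr)
  have hmim : (∀ v, 0 ≤ χR v) → m.im ≤ 0 := by
    intro hpos
    have h1 : m.im = ∫ z in ball (0 : ℂ) 1, (Q z * dc YR z).im := by
      rw [hm]; exact (integral_im hint1).symm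
    rw [h1]
    simp_rw [hdR]
    exact h.div χR hRC hRc (hRs.trans hZr) hpos
  -- polar coordinates
  have hZeq : ∀ z ∈ ball (0 : ℂ) 1, dc Z z =
      ζ z * (((deriv (stp s1 s2) (normSq z) : ℝ) : ℂ) * (2 * z)) := by
    intro z hz
    have hz1 : normSq z < 1 := by
      rw [normSq_eq_norm_sq]
      have : ‖z‖ < 1 := by simpa using hz
      nlinarith [norm_nonneg z]
    have hdα : deriv α (normSq z) = deriv (stp s1 s2) (normSq z) := by
      apply Filter.EventuallyEq.deriv_eq
      filter_upwards [gt_mem_nhds (hz1.trans h3a)] with t ht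
      simp only [hα]
      rw [stp_zero h3b (le_of_lt ht), sub_zero, mul_one]
    by_cases hzV : z ∈ V
    · have h1 : DifferentiableAt ℂ ζ z := hζ.differentiableAt (hVo.mem_nhds hzV)
      have h2 : DifferentiableAt ℝ (rad 0 α) z := ha.differentiable one_ne_zero z
      have h3 := dc_mul (z := z) (Complex.ofRealCLM.differentiableAt.comp z h2)
        (h1.restrictScalars ℝ)
      have h4 : dc Z z = dc (fun w => (rad 0 α w : ℂ)) z * ζ z + (rad 0 α z : ℂ) * dc ζ z := h3
      rw [h4, dc_hol h1, mul_zero, add_zero, dc_ofReal h2, db_rad 0 (hαC.differentiable one_ne_zero),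
        sub_zero, hdα]
      ring
    · have h1 : dc Z z = 0 := dc_of_notMem (fun hh => hzV (htV (hZs hh)))
      have h2 : normSq z ≤ s1 := by
        have h3 : ‖z‖ ≤ s := by
          by_contra hcon
          refine hzV ⟨not_le.1 hcon, ?_⟩
          have : ‖z‖ < 1 := by simpa using hz
          linarith
        rw [normSq_eq_norm_sq]
        nlinarith [norm_nonneg z]
      rw [h1, stp_deriv_zero h2a (Or.inl h2)]; simp
  set J : ℂ := ∮ v in C(0, ρ), Q v * ζ v with hJ
  have hpol := polar_cut hs0 hs1 (G := fun v => Q v * ζ v)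
    (((h.holo.mono fun v hv => ⟨lt_of_le_of_lt hs hv.1, hv.2⟩).mul
      (hζ.mono fun v hv => ⟨hv.1, hv.2.trans hS⟩)))
    (stp_contDiff s1 s2 (m := 1)) (s1 := s1) (s2 := s2) h1a (by rw [one_pow]; exact h2b)
    (fun t ht => stp_deriv_zero h2a (Or.inl ht)) (fun t ht => stp_deriv_zero h2a (Or.inr ht)) hρ hρ1
  rw [stp_zero h2a h1a.le, stp_one h2a (by rw [one_pow]; exact h2b.le), ← hJ] at hpol
  have hmJ : m = -I * J := by
    rw [← hmZ, setIntegral_congr_fun measurableSet_ball (g := fun z => Q z *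
      (ζ z * (((deriv (stp s1 s2) (normSq z) : ℝ) : ℂ) * (2 * z)))) (fun z hz => by
        simp only [hZeq z hz])]
    rw [ball_to_Ann (r := s)]
    · have e : ∀ z, Q z * (ζ z * (((deriv (stp s1 s2) (normSq z) : ℝ) : ℂ) * (2 * z))) =
          Q z * ζ z * (((deriv (stp s1 s2) (normSq z) : ℝ) : ℂ) * (2 * z)) := fun z => by ring
      simp_rw [e]
      unfold Ann
      rw [hpol]
      push_cast
      ring
    · intro z hz
      have : normSq z ≤ s1 := by
        rw [normSq_eq_norm_sq]
        nlinarith [norm_nonneg z]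
      rw [stp_deriv_zero h2a (Or.inl this)]; simp
  have hJre : m.im = -J.re := by rw [hmJ]; simp
  have hJim : m.re = J.im := by rw [hmJ]; simp
  refine ⟨by rw [← hJim, hmre], fun hpos => ?_⟩
  have h1 : m.im ≤ 0 := by
    apply hmim
    intro v
    simp only [hχR, hZ, re_ofReal_mul]
    by_cases hv : v ∈ V
    · exact mul_nonneg (hα0 _) (hpos v hv.1 hv.2)
    · have : rad 0 α v = 0 := image_eq_zero_of_notMem_tsupport (fun hh => hv (htV hh))
      rw [this, zero_mul]
  linarith

end Crest.Agent.R165.U3x719
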