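import Crest.Agent.R165.U3Vic_719

/-!
Row 165, block U3 (helper719): Schwarz-Villat formula, boundary values of `i w Q(w)`.
-/

set_option autoImplicit false

open Complex Set Metric Filter Topology MeasureTheory
open scoped ComplexConjugate ContDiff

namespace Crest.Agent.R165.U3x719

theorem circ_eq {r : ℝ} (hr : 0 ≤ r) {f : ℂ → ℂ} (hf : DifferentiableOn ℂ f (Ann r)) {a b : ℝ}
    (ha : r < a) (ha1 : a < 1) (hb : r < b) (hb1 : b < 1) :
    (∮ v in C(0, a), f v) = ∮ v in C(0, b), f v := by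
  have key : ∀ a b : ℝ, r < a → a ≤ b → b < 1 → (∮ v in C(0, b), f v) = ∮ v in C(0, a), f v := by
    intro a b h1 h2 h3
    have hr0 : 0 < a := lt_of_le_of_lt hr h1
    apply Complex.circleIntegral_eq_of_differentiable_on_annulus_off_countable hr0 h2 countable_empty
    · refine hf.continuousOn.mono ?_
      rintro z ⟨hz1, hz2⟩
      simp only [mem_closedBall, dist_zero_right, mem_ball, not_lt] at hz1 hz2
      exact ⟨lt_of_lt_of_le h1 hz2, lt_of_le_of_lt hz1 h3⟩
    · rintro z ⟨⟨hz1, hz2⟩, -⟩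
      simp only [mem_closedBall, dist_zero_right, mem_ball, not_le] at hz1 hz2
      exact hf.differentiableAt ((isOpen_Ann r).mem_nhds ⟨h1.trans hz2, hz1.trans h3⟩)
  rcases le_total a b with h | h
  · exact (key a b ha h hb1).symm
  · exact key b a hb h ha1

theorem sphere_subset_Ann {r a : ℝ} (ha : r < a) (ha1 : a < 1) : sphere (0 : ℂ) a ⊆ Ann r := by
  intro v hv
  have : ‖v‖ = a := by simpa using hv
  exact ⟨by rw [this]; exact ha, by rw [this]; exact ha1⟩

theorem circ_int {r a : ℝ} (hr : 0 ≤ r) (ha : r < a) (ha1 : a < 1) {f : ℂ → ℂ}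
    (hf : ContinuousOn f (Ann r)) : CircleIntegrable f 0 a :=
  (hf.mono (sphere_subset_Ann ha ha1)).circleIntegrable (hr.trans ha.le)

theorem cont_Theta {r1 : ℝ} (h1 : 0 < r1) {Q : ℂ → ℂ} (hQ : ContinuousOn Q (sphere 0 r1)) {u0 : ℂ}
    (hu : ‖u0‖ * r1 < 1) : ContinuousAt (fun u : ℂ => ∮ v in C(0, r1), Q v / (1 - u * v)) u0 := by
  unfold circleIntegral
  obtain ⟨M, hM⟩ := (isCompact_sphere (0 : ℂ) r1).exists_bound_of_continuousOn hQ
  obtain ⟨t, ht1, ht2⟩ := exists_between hu
  have hev : ∀ᶠ u in 𝓝 u0, ‖u‖ * r1 < t := by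
    have : Continuous fun u : ℂ => ‖u‖ * r1 := by fun_prop
    exact this.continuousAt.eventually_lt continuousAt_const ht1
  have hcs : ∀ θ, circleMap (0 : ℂ) r1 θ ∈ sphere (0 : ℂ) r1 := fun θ =>
    circleMap_mem_sphere 0 h1.le θ
  have hcn : ∀ θ, ‖circleMap (0 : ℂ) r1 θ‖ = r1 := fun θ => by simpa using hcs θ
  have hlow : ∀ u : ℂ, ‖u‖ * r1 < t → ∀ θ, 1 - t ≤ ‖1 - u * circleMap 0 r1 θ‖ := by
    intro u hu θ
    have h2 : ‖(1 : ℂ)‖ - ‖u * circleMap 0 r1 θ‖ ≤ ‖1 - u * circleMap 0 r1 θ‖ := norm_sub_norm_le _ _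
    rw [norm_one, norm_mul, hcn] at h2
    linarith
  apply intervalIntegral.continuousAt_of_dominated_interval (bound := fun _ => r1 * (M / (1 - t)))
  · filter_upwards [hev] with u hu'
    apply Continuous.aestronglyMeasurable
    have c1 : Continuous fun θ => Q (circleMap 0 r1 θ) :=
      hQ.comp_continuous (continuous_circleMap 0 r1) hcs
    have c2 : Continuous fun θ => 1 - u * circleMap 0 r1 θ :=
      continuous_const.sub (continuous_const.mul (continuous_circleMap 0 r1))
    have c3 : Continuous fun θ => deriv (circleMap (0 : ℂ) r1) θ := by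
      simp_rw [deriv_circleMap]
      exact (continuous_circleMap 0 r1).mul continuous_const
    refine c3.smul (c1.div c2 fun θ => ?_)
    intro h0
    have := hlow u hu' θ
    rw [h0, norm_zero] at this
    linarith
  · filter_upwards [hev] with u hu'
    refine Eventually.of_forall fun θ _ => ?_
    rw [norm_smul, deriv_circleMap, norm_mul, hcn, norm_I, mul_one, norm_div]
    apply mul_le_mul_of_nonneg_left _ h1.le
    have h3 := hlow u hu' θ
    have h4 := hM _ (hcs θ)
    have h5 : 0 ≤ M := (norm_nonneg _).trans h4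
    exact div_le_div₀ h5 h4 (by linarith) h3
  · exact intervalIntegrable_const
  · refine Eventually.of_forall fun θ _ => ?_
    have h3 := hlow u0 ht1 θ
    have h4 : 1 - u0 * circleMap 0 r1 θ ≠ 0 := by
      intro h0
      rw [h0, norm_zero] at h3
      linarith
    have c1 : ContinuousAt (fun x : ℂ => Q (circleMap 0 r1 θ) / (1 - x * circleMap 0 r1 θ)) u0 := by
      have c2 : ContinuousAt (fun x : ℂ => 1 - x * circleMap 0 r1 θ) u0 := by fun_prop
      exact (continuousAt_const (y := Q (circleMap 0 r1 θ))).div c2 h4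
    exact (continuousAt_const (y := deriv (circleMap (0 : ℂ) r1) θ)).smul c1

theorem thin {V : Set ℂ} (hV : IsOpen V) (h : sphere (0 : ℂ) 1 ⊆ V) (s0 : ℝ) (hs0 : s0 < 1) :
    ∃ s S : ℝ, s0 ≤ s ∧ s < 1 ∧ 1 < S ∧ ∀ v : ℂ, s < ‖v‖ → ‖v‖ < S → v ∈ V := by
  obtain ⟨δ, hδ, hδV⟩ := (isCompact_sphere (0 : ℂ) 1).exists_thickening_subset_open hV h
  refine ⟨max (max s0 0) (1 - δ), 1 + δ, (le_max_left _ _).trans (le_max_left _ _),
    max_lt (max_lt hs0 one_pos) (by linarith), by linarith, ?_⟩
  intro v hv1 hv2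
  have h0 : 0 < ‖v‖ := lt_of_le_of_lt ((le_max_right _ _).trans (le_max_left _ _)) hv1
  have h1 : 1 - δ < ‖v‖ := lt_of_le_of_lt (le_max_right _ _) hv1
  apply hδV
  rw [mem_thickening_iff]
  refine ⟨((‖v‖⁻¹ : ℝ) : ℂ) * v, ?_, ?_⟩
  · simp only [mem_sphere_iff_norm, sub_zero, norm_mul, norm_real, Real.norm_eq_abs,
      abs_of_pos (inv_pos.2 h0)]
    exact inv_mul_cancel₀ h0.ne'
  · rw [dist_eq_norm]
    have : v - ((‖v‖⁻¹ : ℝ) : ℂ) * v = ((1 - ‖v‖⁻¹ : ℝ) : ℂ) * v := by push_cast; ring
    rw [this, norm_mul, norm_real, Real.norm_eq_abs]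
    have h2 : |1 - ‖v‖⁻¹| * ‖v‖ = |‖v‖ - 1| := by
      rw [← abs_of_pos h0, ← abs_mul, abs_of_pos h0, sub_mul, one_mul, inv_mul_cancel₀ h0.ne']
    rw [h2, abs_lt]
    constructor <;> linarith

theorem annulus_cauchy {r : ℝ} (hr : 0 ≤ r) {f : ℂ → ℂ} (hf : DifferentiableOn ℂ f (Ann r)) {a b : ℝ}
    (ha : r < a) {w : ℂ} (haw : a < ‖w‖) (hwb : ‖w‖ < b) (hb1 : b < 1) :
    (∮ v in C(0, b), f v / (v - w)) - (∮ v in C(0, a), f v / (v - w)) = 2 * Real.pi * I * f w := by
  have hwA : w ∈ Ann r := ⟨ha.trans haw, hwb.trans hb1⟩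
  have h1 : DifferentiableOn ℂ (dslope f w) (Ann r) :=
    (Complex.differentiableOn_dslope ((isOpen_Ann r).mem_nhds hwA)).2 hf
  have h2 := circ_eq hr h1 ha (haw.trans (hwb.trans hb1)) ((ha.trans haw).trans hwb) hb1
  have ha0 : 0 < a := lt_of_le_of_lt hr ha
  have hb0 : 0 < b := (ha0.trans haw).trans hwb
  have gen : ∀ c : ℝ, r < c → c < 1 → c ≠ ‖w‖ → 0 < c → (∮ v in C(0, c), dslope f w v) =
      (∮ v in C(0, c), f v / (v - w)) - f w * ∮ v in C(0, c), (v - w)⁻¹ := by
    intro c hc hc1 hcw hc0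
    have hne : ∀ v ∈ sphere (0 : ℂ) c, v - w ≠ 0 := by
      intro v hv h0
      have : v = w := sub_eq_zero.1 h0
      subst this
      apply hcw
      symm
      simpa using hv
    have i1 : CircleIntegrable (fun v => f v / (v - w)) 0 c := by
      apply ContinuousOn.circleIntegrable hc0.le
      exact (hf.continuousOn.mono (sphere_subset_Ann hc hc1)).div (by fun_prop) hne
    have i2 : CircleIntegrable (fun v => f w * (v - w)⁻¹) 0 c := by
      apply ContinuousOn.circleIntegrable hc0.le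
      exact continuousOn_const.mul (ContinuousOn.inv₀ (by fun_prop) hne)
    rw [← circleIntegral.integral_const_mul, ← circleIntegral.integral_sub i1 i2]
    apply circleIntegral.integral_congr hc0.le
    intro v hv
    simp only
    rw [dslope_of_ne _ (fun h => hne v hv (sub_eq_zero.2 h)), slope_def_field]
    have := hne v hv
    field_simp
  rw [gen a ha (haw.trans (hwb.trans hb1)) haw.ne ha0, gen b ((ha.trans haw).trans hwb) hb1 hwb.ne' hb0]
    at h2
  have h3 : (∮ v in C(0, b), (v - w)⁻¹) = 2 * Real.pi * I :=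
    circleIntegral.integral_sub_inv_of_mem_ball (by simpa using hwb)
  have h4 : (∮ v in C(0, a), (v - w)⁻¹) = 0 := by
    apply Complex.circleIntegral_eq_zero_of_differentiable_on_off_countable ha0.le countable_empty
    · apply ContinuousOn.inv₀ (by fun_prop)
      intro v hv h0
      have : v = w := sub_eq_zero.1 h0
      subst this
      simp only [mem_closedBall, dist_zero_right] at hv
      linarith
    · rintro v ⟨hv, -⟩
      have : v - w ≠ 0 := by
        intro h0
        have : v = w := sub_eq_zero.1 h0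
        subst this
        simp only [mem_ball, dist_zero_right] at hv
        linarith
      exact (differentiableAt_id.sub_const w).inv this
  rw [h3, h4] at h2
  linear_combination -h2

/-- **Schwarz-Villat**: boundary values of `i w Q(w)` exist, are real and nonnegative. -/
theorem villat {r : ℝ} (hr0 : 0 ≤ r) (hr1 : r < 1) {Q : ℂ → ℂ} (h : WBd r Q) {ξ : ℂ} (hξ : ‖ξ‖ = 1) :
    ∃ ρ : ℝ, 0 ≤ ρ ∧ Tendsto (fun w => I * w * Q w) (𝓝[ball 0 1] ξ) (𝓝 (ρ : ℂ)) := by
  obtain ⟨r1, hrr1, hr11⟩ := exists_between hr1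
  have hr10 : 0 < r1 := lt_of_le_of_lt hr0 hrr1
  set Θ : ℂ → ℂ := fun u => ∮ v in C(0, r1), Q v / (1 - u * v) with hΘ
  have hΘc : ∀ u : ℂ, ‖u‖ * r1 < 1 → ContinuousAt Θ u := fun u hu =>
    cont_Theta hr10 (h.holo.continuousOn.mono (sphere_subset_Ann hrr1 hr11)) hu
  have key : ∀ w : ℂ, r1 < ‖w‖ → ‖w‖ < 1 →
      I * w * Q w = (conj (Θ (conj w)) - Θ 0 + Θ w⁻¹) / (2 * Real.pi) ∧ (Θ 0).im = 0 ∧
        0 ≤ 2 * (Θ (conj w)).re - (Θ 0).re := by
    intro w hw1 hw2
    have hw0 : w ≠ 0 := by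
      intro h0; rw [h0, norm_zero] at hw1; linarith
    have hwp : 0 < ‖w‖ := norm_pos_iff.2 hw0
    obtain ⟨ρ, hρ1, hρ2⟩ := exists_between hw2
    have hS : 1 < ‖w‖⁻¹ := (one_lt_inv₀ hwp).2 hw2
    have hrw : r ≤ ‖w‖ := (hrr1.trans hw1).le
    have hrρ : r < ρ := lt_of_le_of_lt hrw hρ1
    set ζA : ℂ → ℂ := fun v => v / (v - w) with hζA
    set ζB : ℂ → ℂ := fun v => 1 / (1 - conj w * v) with hζB
    have neA : ∀ v : ℂ, ‖w‖ < ‖v‖ → v - w ≠ 0 := by
      intro v hv h0
      rw [sub_eq_zero.1 h0] at hv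
      exact lt_irrefl _ hv
    have neB : ∀ v : ℂ, ‖v‖ < ‖w‖⁻¹ → 1 - conj w * v ≠ 0 := by
      intro v hv h0
      have h1 : conj w * v = 1 := (sub_eq_zero.1 h0).symm
      have h2 : ‖w‖ * ‖v‖ = 1 := by
        rw [← Complex.norm_conj w, ← norm_mul, h1, norm_one]
      have h3 : ‖w‖ * ‖v‖ < ‖w‖ * ‖w‖⁻¹ := mul_lt_mul_of_pos_left hv hwp
      rw [mul_inv_cancel₀ hwp.ne'] at h3
      linarith
    set V : Set ℂ := {v | ‖w‖ < ‖v‖ ∧ ‖v‖ < ‖w‖⁻¹} with hV
    have dA : DifferentiableOn ℂ ζA V := by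
      apply DifferentiableOn.div differentiableOn_id (by fun_prop)
      exact fun v hv => neA v hv.1
    have dB : DifferentiableOn ℂ ζB V := by
      apply DifferentiableOn.div (differentiableOn_const _) (by fun_prop)
      exact fun v hv => neB v hv.2
    -- conjugation on the circle
    have hconj : ∀ v : ℂ, ‖v‖ = 1 → ζB v = conj (ζA v) := by
      intro v hv
      have hv0 : v ≠ 0 := by intro h0; rw [h0, norm_zero] at hv; norm_num at hv
      have hvv : conj v = v⁻¹ := by
        rw [inv_def, normSq_eq_norm_sq, hv]; simp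
      simp only [hζA, hζB, map_div₀, map_sub, hvv]
      rw [div_eq_div_iff, one_mul]
      · field_simp
      · exact neB v (by rw [hv]; exact hS)
      · intro h0
        have h1 : v⁻¹ = conj w := sub_eq_zero.1 h0
        have h2 : ‖v⁻¹‖ = ‖w‖ := by rw [h1, Complex.norm_conj]
        rw [norm_inv, hv] at h2
        norm_num at h2
        linarith
    set A : ℂ := ∮ v in C(0, ρ), Q v * ζA v with hA
    set B : ℂ := ∮ v in C(0, ρ), Q v * ζB v with hB
    set C : ℂ := ∮ v in C(0, ρ), Q v with hC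
    have hρV : sphere (0 : ℂ) ρ ⊆ V := by
      intro v hv
      have : ‖v‖ = ρ := by simpa using hv
      exact ⟨by rw [this]; exact hρ1, by rw [this]; exact hρ2.trans hS⟩
    have hρ0 : 0 < ρ := hwp.trans hρ1
    have cQ : ContinuousOn Q (sphere 0 ρ) := h.holo.continuousOn.mono (sphere_subset_Ann hrρ hρ2)
    have iA : CircleIntegrable (fun v => Q v * ζA v) 0 ρ :=
      (cQ.mul (dA.continuousOn.mono hρV)).circleIntegrable hρ0.le
    have iB : CircleIntegrable (fun v => Q v * ζB v) 0 ρ :=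
      (cQ.mul (dB.continuousOn.mono hρV)).circleIntegrable hρ0.le
    have iC : CircleIntegrable Q 0 ρ := cQ.circleIntegrable hρ0.le
    -- the three test functions
    have h1 := bd_fun hr0 h hrw hw2 hS (ζ := fun v => I * (ζA v - ζB v))
      ((differentiableOn_const I).mul (dA.sub dB)) (fun v hv => by
        simp only [hconj v hv, mul_im, sub_re, sub_im, conj_re, conj_im, I_re, I_im]; ring) hρ1 hρ2
    have h2 := bd_fun hr0 h hrw hw2 hS (ζ := fun v => ζA v + ζB v - 1)
      ((dA.add dB).sub (differentiableOn_const 1)) (fun v hv => by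
        simp only [hconj v hv, sub_im, add_im, conj_im, one_im]; ring) hρ1 hρ2
    have h3 := bd_fun hr0 h hrw hw2 hS (ζ := fun _ => 1)
      (differentiableOn_const 1) (fun v hv => by simp) hρ1 hρ2
    have e1 : (∮ v in C(0, ρ), Q v * (I * (ζA v - ζB v))) = I * (A - B) := by
      have : ∀ v, Q v * (I * (ζA v - ζB v)) = I * (Q v * ζA v - Q v * ζB v) := fun v => by ring
      simp_rw [this]
      rw [circleIntegral.integral_const_mul, circleIntegral.integral_sub iA iB]
    have e2 : (∮ v in C(0, ρ), Q v * (ζA v + ζB v - 1)) = A + B - C := by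
      have : ∀ v, Q v * (ζA v + ζB v - 1) = (Q v * ζA v + Q v * ζB v) - Q v := fun v => by ring
      simp_rw [this]
      have iAB : CircleIntegrable (fun v => Q v * ζA v + Q v * ζB v) 0 ρ := iA.add iB
      rw [circleIntegral.integral_sub iAB iC, circleIntegral.integral_add iA iB]
    have e3 : (∮ v in C(0, ρ), Q v * 1) = C := by simp_rw [mul_one]; rfl
    rw [e1] at h1
    rw [e2] at h2
    rw [e3] at h3
    -- positivity
    have hpos : 0 ≤ (A + B - C).re := by
      have hpc : ∀ v : ℂ, ‖v‖ = 1 → 0 < (ζA v + ζB v - 1).re := by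
        intro v hv
        have hvw := neA v (by rw [hv]; exact hw2)
        have h5 : ‖ζA v - 1‖ < ‖ζA v‖ := by
          have : ζA v - 1 = w / (v - w) := by
            simp only [hζA]; field_simp; ring
          rw [this]
          simp only [hζA, norm_div, hv]
          exact div_lt_div_of_pos_right hw2 (norm_pos_iff.2 hvw)
        have h6 : normSq (ζA v - 1) < normSq (ζA v) := by
          rw [normSq_eq_norm_sq, normSq_eq_norm_sq]
          exact pow_lt_pow_left₀ h5 (norm_nonneg _) two_ne_zero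
        simp only [normSq_apply, sub_re, sub_im, one_re, one_im] at h6
        simp only [hconj v hv, sub_re, add_re, conj_re, one_re]
        nlinarith
      have hcont : ContinuousOn (fun v => (ζA v + ζB v - 1).re) V :=
        Complex.continuous_re.comp_continuousOn
          ((dA.continuousOn.add dB.continuousOn).sub continuousOn_const)
      have hVo : IsOpen V := (isOpen_lt continuous_const continuous_norm).inter
        (isOpen_lt continuous_norm continuous_const)
      have hV' : IsOpen (V ∩ (fun v => (ζA v + ζB v - 1).re) ⁻¹' (Ioi 0)) :=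
        hcont.isOpen_inter_preimage hVo isOpen_Ioi
      obtain ⟨s', S', hs'0, hs'1, hS'1, hVV⟩ := thin hV' (by
        intro v hv
        have hv1 : ‖v‖ = 1 := by simpa using hv
        exact ⟨⟨by rw [hv1]; exact hw2, by rw [hv1]; exact hS⟩, hpc v hv1⟩) ‖w‖ hw2
      obtain ⟨ρ', hρ'1, hρ'2⟩ := exists_between hs'1
      have h6 := bd_fun hr0 h (hrw.trans hs'0) hs'1 hS'1 (ζ := fun v => ζA v + ζB v - 1)
        (((dA.add dB).sub (differentiableOn_const 1)).mono fun v hv => (hVV v hv.1 hv.2).1)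
        (fun v hv => by
          simp only [hconj v hv, sub_im, add_im, conj_im, one_im]; ring) hρ'1 hρ'2
      have h7 := h6.2 (fun v h1 h2 => (hVV v h1 h2).2.le)
      have h8 : (∮ v in C(0, ρ'), Q v * (ζA v + ζB v - 1)) = A + B - C := by
        rw [← e2]
        apply circ_eq (norm_nonneg w)
        · refine (h.holo.mono fun v hv => ⟨lt_of_le_of_lt hrw hv.1, hv.2⟩).mul ?_
          exact ((dA.add dB).sub (differentiableOn_const 1)).mono
            fun v hv => ⟨hv.1, hv.2.trans hS⟩
        · exact lt_of_le_of_lt hs'0 hρ'1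
        · exact hρ'2
        · exact hρ1
        · exact hρ2
      rwa [h8] at h7
    have hCim : C.im = 0 := h3.1
    have hABim : A.im + B.im = 0 := by
      have := h2.1
      simp only [sub_im, add_im, hCim, sub_zero] at this
      exact this
    have hABre : A.re - B.re = 0 := by
      have := h1.1
      simp only [mul_im, I_re, I_im, zero_mul, one_mul, zero_add, sub_re] at this
      exact this
    have hAB : A = conj B := by
      apply Complex.ext
      · rw [conj_re]; linarith
      · rw [conj_im]; linarith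
    have hBΘ : B = Θ (conj w) := by
      have e4 : B = ∮ v in C(0, ρ), Q v / (1 - conj w * v) := by
        rw [hB]
        apply circleIntegral.integral_congr hρ0.le
        intro v _
        simp only [hζB]
        ring
      rw [e4]
      apply circ_eq hr0 _ hrρ hρ2 hrr1 hr11
      apply h.holo.div (by fun_prop)
      exact fun v hv => neB v (hv.2.trans hS)
    have hCΘ : C = Θ 0 := by
      simp only [hΘ, zero_mul, sub_zero, div_one]
      exact circ_eq hr0 h.holo hrρ hρ2 hrr1 hr11
    have hcau := annulus_cauchy hr0 (f := fun v => v * Q v)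
      (differentiableOn_id.mul h.holo) hrr1 hw1 hρ1 hρ2
    have hA' : (∮ v in C(0, ρ), v * Q v / (v - w)) = A := by
      rw [hA]
      apply circleIntegral.integral_congr hρ0.le
      intro v _
      simp only [hζA]
      ring
    have hA'' : (∮ v in C(0, r1), v * Q v / (v - w)) = Θ 0 - Θ w⁻¹ := by
      have cQ1 : ContinuousOn Q (sphere 0 r1) :=
        h.holo.continuousOn.mono (sphere_subset_Ann hrr1 hr11)
      have ne1 : ∀ v ∈ sphere (0 : ℂ) r1, v - w ≠ 0 ∧ 1 - w⁻¹ * v ≠ 0 := by
        intro v hv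
        have hv1 : ‖v‖ = r1 := by simpa using hv
        have h5 : v - w ≠ 0 := by
          intro h0
          rw [sub_eq_zero.1 h0] at hv1
          linarith
        refine ⟨h5, ?_⟩
        intro h0
        apply h5
        have : w⁻¹ * v = 1 := (sub_eq_zero.1 h0).symm
        have h6 : v = w := by
          calc v = w * (w⁻¹ * v) := by rw [← mul_assoc, mul_inv_cancel₀ hw0, one_mul]
            _ = w := by rw [this, mul_one]
        rw [h6, sub_self]
      have i1 : CircleIntegrable (fun v => Q v / (1 - (0 : ℂ) * v)) 0 r1 := by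
        apply ContinuousOn.circleIntegrable hr10.le
        simp only [zero_mul, sub_zero, div_one]
        exact cQ1
      have i2 : CircleIntegrable (fun v => Q v / (1 - w⁻¹ * v)) 0 r1 := by
        apply ContinuousOn.circleIntegrable hr10.le
        exact cQ1.div (by fun_prop) (fun v hv => (ne1 v hv).2)
      simp only [hΘ]
      rw [← circleIntegral.integral_sub i1 i2]
      apply circleIntegral.integral_congr hr10.le
      intro v hv
      obtain ⟨h5, h6⟩ := ne1 v hv
      simp only [zero_mul, sub_zero, div_one]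
      have h7 : w - v ≠ 0 := by
        intro h0; apply h5; linear_combination -h0
      have h8 : 1 - w⁻¹ * v = (w - v) / w := by field_simp
      rw [h8]
      field_simp
      ring
    rw [hA', hA''] at hcau
    refine ⟨?_, by rw [← hCΘ]; exact hCim, ?_⟩
    · rw [← hBΘ, ← hAB]
      rw [eq_div_iff (by simp [Real.pi_ne_zero])]
      linear_combination -hcau
    · rw [← hBΘ, ← hCΘ]
      simp only [sub_re, add_re] at hpos
      linarith
  -- the limit
  have hξ0 : ξ ≠ 0 := by intro h0; rw [h0, norm_zero] at hξ; norm_num at hξ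
  have hξc : ξ⁻¹ = conj ξ := by
    rw [inv_def, normSq_eq_norm_sq, hξ]; simp
  have hcξ : ‖conj ξ‖ * r1 < 1 := by rw [Complex.norm_conj, hξ, one_mul]; exact hr11
  have hev : ∀ᶠ w in 𝓝[ball 0 1] ξ, r1 < ‖w‖ ∧ ‖w‖ < 1 := by
    have h1 : ∀ᶠ w in 𝓝[ball 0 1] ξ, r1 < ‖w‖ := by
      apply eventually_nhdsWithin_of_eventually_nhds
      exact continuousAt_const.eventually_lt continuous_norm.continuousAt (by rw [hξ]; exact hr11)
    filter_upwards [h1, self_mem_nhdsWithin] with w hw1 hw2
    exact ⟨hw1, by simpa using hw2⟩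
  have t1 : Tendsto (fun w : ℂ => Θ (conj w)) (𝓝[ball 0 1] ξ) (𝓝 (Θ (conj ξ))) := by
    have := (hΘc (conj ξ) hcξ).tendsto.comp (Complex.continuous_conj.tendsto ξ)
    exact this.mono_left nhdsWithin_le_nhds
  have t2 : Tendsto (fun w : ℂ => Θ w⁻¹) (𝓝[ball 0 1] ξ) (𝓝 (Θ (conj ξ))) := by
    have h1 : Tendsto (fun w : ℂ => w⁻¹) (𝓝 ξ) (𝓝 (conj ξ)) := by
      rw [← hξc]; exact tendsto_inv₀ hξ0
    exact ((hΘc (conj ξ) hcξ).tendsto.comp h1).mono_left nhdsWithin_le_nhds
  have : (𝓝[ball (0 : ℂ) 1] ξ).NeBot := by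
    apply mem_closure_iff_nhdsWithin_neBot.1
    rw [closure_ball _ one_ne_zero]
    simp [hξ]
  have hΘ0 : (Θ 0).im = 0 := by
    obtain ⟨w, hw⟩ := hev.exists
    exact (key w hw.1 hw.2).2.1
  refine ⟨(2 * (Θ (conj ξ)).re - (Θ 0).re) / (2 * Real.pi), ?_, ?_⟩
  · apply div_nonneg _ (by positivity)
    have t3 : Tendsto (fun w : ℂ => 2 * (Θ (conj w)).re - (Θ 0).re) (𝓝[ball 0 1] ξ)
        (𝓝 (2 * (Θ (conj ξ)).re - (Θ 0).re)) :=
      (((Complex.continuous_re.tendsto _).comp t1).const_mul 2).sub_const _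
    exact ge_of_tendsto t3 (hev.mono fun w hw => (key w hw.1 hw.2).2.2)
  · have t4 : Tendsto (fun w : ℂ => (conj (Θ (conj w)) - Θ 0 + Θ w⁻¹) / (2 * Real.pi))
        (𝓝[ball 0 1] ξ) (𝓝 ((conj (Θ (conj ξ)) - Θ 0 + Θ (conj ξ)) / (2 * Real.pi))) :=
      ((((Complex.continuous_conj.tendsto _).comp t1).sub_const _).add t2).div_const _
    have e : (conj (Θ (conj ξ)) - Θ 0 + Θ (conj ξ)) / (2 * Real.pi) =
        (((2 * (Θ (conj ξ)).re - (Θ 0).re) / (2 * Real.pi) : ℝ) : ℂ) := by
      have h1 : (Θ 0) = ((Θ 0).re : ℂ) := by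
        apply Complex.ext <;> simp [hΘ0]
      have h2 : Θ (conj ξ) + conj (Θ (conj ξ)) = ((2 * (Θ (conj ξ)).re : ℝ) : ℂ) := add_conj _
      push_cast at h2 ⊢
      rw [← h1, ← h2]
      ring
    rw [e] at t4
    refine t4.congr' ?_
    filter_upwards [hev] with w hw
    exact (key w hw.1 hw.2).1.symm

end Crest.Agent.R165.U3x719
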