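import Crest.Agent.R165.U3Spin_719
import Crest.Agent.R165.Cl1_722

/-!
Row 165, block U3 (helper719): from the weak boundary relations on the disc to boundary values
(Schwarz-Villat formula).
-/

set_option autoImplicit false

open Complex Set Metric Filter Topology MeasureTheory
open scoped ComplexConjugate ContDiff

namespace Crest.Agent.R165.U3x719

/-- `f_x + i f_y` for complex `f` -/
noncomputable def dc (f : ℂ → ℂ) (z : ℂ) : ℂ := fderiv ℝ f z 1 + I * fderiv ℝ f z I

theorem dc_mul {f g : ℂ → ℂ} {z : ℂ} (hf : DifferentiableAt ℝ f z) (hg : DifferentiableAt ℝ g z) :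
    dc (fun w => f w * g w) z = dc f z * g z + f z * dc g z := by
  have h : fderiv ℝ (fun w => f w * g w) z = f z • fderiv ℝ g z + g z • fderiv ℝ f z :=
    fderiv_fun_mul hf hg
  simp only [dc, h, _root_.add_apply, _root_.smul_apply, smul_eq_mul]
  ring

theorem dc_add {f g : ℂ → ℂ} {z : ℂ} (hf : DifferentiableAt ℝ f z) (hg : DifferentiableAt ℝ g z) :
    dc (fun w => f w + g w) z = dc f z + dc g z := by
  have h : fderiv ℝ (fun w => f w + g w) z = fderiv ℝ f z + fderiv ℝ g z := fderiv_fun_add hf hg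
  simp only [dc, h, _root_.add_apply]
  ring

theorem dc_hol {f : ℂ → ℂ} {z : ℂ} (hf : DifferentiableAt ℂ f z) : dc f z = 0 := by
  have h : HasFDerivAt f ((fderiv ℂ f z).restrictScalars ℝ) z :=
    hf.hasFDerivAt.restrictScalars ℝ
  simp only [dc, h.fderiv]
  simp only [ContinuousLinearMap.coe_restrictScalars']
  have h2 : fderiv ℂ f z I = I * fderiv ℂ f z 1 := by
    have := (fderiv ℂ f z).map_smul I 1
    rwa [smul_eq_mul, smul_eq_mul, mul_one] at this
  rw [h2]
  linear_combination (fderiv ℂ f z 1) * I_mul_I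

theorem dc_ofReal {χ : ℂ → ℝ} {z : ℂ} (h : DifferentiableAt ℝ χ z) :
    dc (fun w => (χ w : ℂ)) z = db χ z := by
  have h1 : HasFDerivAt (fun w => (χ w : ℂ)) (Complex.ofRealCLM.comp (fderiv ℝ χ z)) z :=
    Complex.ofRealCLM.hasFDerivAt.comp z h.hasFDerivAt
  simp only [dc, db, h1.fderiv]
  rfl

theorem dc_congr {f g : ℂ → ℂ} {z : ℂ} (h : f =ᶠ[𝓝 z] g) : dc f z = dc g z := by
  simp only [dc, h.fderiv_eq]

theorem dc_of_notMem {f : ℂ → ℂ} {z : ℂ} (hz : z ∉ tsupport f) : dc f z = 0 := by
  have : fderiv ℝ f z = 0 := by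
    by_contra h
    exact hz (support_fderiv_subset ℝ h)
  simp [dc, this]

theorem db_of_notMem {f : ℂ → ℝ} {z : ℂ} (hz : z ∉ tsupport f) : db f z = 0 := by
  have : fderiv ℝ f z = 0 := by
    by_contra h
    exact hz (support_fderiv_subset ℝ h)
  simp [db, this]

/-- the radial cut-off -/
noncomputable def rad (c : ℂ) (α : ℝ → ℝ) (z : ℂ) : ℝ := α (normSq (z - c))

theorem rad_contDiff (c : ℂ) {α : ℝ → ℝ} {m : WithTop ℕ∞} (hα : ContDiff ℝ m α) :
    ContDiff ℝ m (rad c α) := by
  unfold rad
  refine hα.comp ?_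
  have : (fun z : ℂ => normSq (z - c)) = fun z => reCLM (z - c) * reCLM (z - c) +
      imCLM (z - c) * imCLM (z - c) := by
    funext z; simp [normSq_apply]
  rw [this]
  fun_prop

theorem db_rad (c : ℂ) {α : ℝ → ℝ} (hα : Differentiable ℝ α) (z : ℂ) :
    db (rad c α) z = ((deriv α (normSq (z - c)) : ℝ) : ℂ) * (2 * (z - c)) := by
  have e : (fun z : ℂ => normSq (z - c)) = fun z => reCLM (z - c) * reCLM (z - c) +
      imCLM (z - c) * imCLM (z - c) := by
    funext z; simp [normSq_apply]
  have h0 : HasFDerivAt (fun z : ℂ => z - c) (ContinuousLinearMap.id ℝ ℂ) z :=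
    (hasFDerivAt_id z).sub_const c
  have h1 : HasFDerivAt (fun z : ℂ => reCLM (z - c)) (reCLM.comp (ContinuousLinearMap.id ℝ ℂ)) z :=
    reCLM.hasFDerivAt.comp z h0
  have h2 : HasFDerivAt (fun z : ℂ => imCLM (z - c)) (imCLM.comp (ContinuousLinearMap.id ℝ ℂ)) z :=
    imCLM.hasFDerivAt.comp z h0
  have h5 : HasFDerivAt (fun z : ℂ => normSq (z - c))
      ((2 * (z - c).re) • reCLM + (2 * (z - c).im) • imCLM : ℂ →L[ℝ] ℝ) z := by
    rw [e]
    refine HasFDerivAt.congr_fderiv ((h1.fun_mul h1).fun_add (h2.fun_mul h2)) ?_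
    ext <;> simp <;> ring
  have h4 : HasDerivAt α (deriv α (normSq (z - c))) (normSq (z - c)) := (hα _).hasDerivAt
  have h7 : HasFDerivAt (rad c α) (deriv α (normSq (z - c)) •
      ((2 * (z - c).re) • reCLM + (2 * (z - c).im) • imCLM : ℂ →L[ℝ] ℝ)) z :=
    h4.comp_hasFDerivAt z h5
  simp only [db, h7.fderiv]
  simp only [reCLM_apply, imCLM_apply, _root_.smul_apply, _root_.add_apply,
    smul_eq_mul, one_re, one_im, I_re, I_im]
  push_cast
  have hz : z - c = ((z - c).re : ℂ) + ((z - c).im : ℂ) * I := (re_add_im _).symm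
  generalize ((deriv α (normSq (z - c)) : ℝ) : ℂ) = δ
  generalize z - c = w at hz ⊢
  conv_rhs => rw [hz]
  ring

/-- polar coordinates against a radial cut-off -/
theorem polar_cut {R1 R2 : ℝ} (hR1 : 0 ≤ R1) (h12 : R1 < R2) {G : ℂ → ℂ}
    (hG : DifferentiableOn ℂ G {v | R1 < ‖v‖ ∧ ‖v‖ < R2}) {α : ℝ → ℝ} (hα : ContDiff ℝ 1 α)
    {s1 s2 : ℝ} (hs1 : R1 ^ 2 < s1) (hs2 : s2 < R2 ^ 2) (h1 : ∀ t ≤ s1, deriv α t = 0)
    (h2 : ∀ t, s2 ≤ t → deriv α t = 0) {ρ : ℝ} (hρ1 : R1 < ρ) (hρ2 : ρ < R2) :
    ∫ v in {v : ℂ | R1 < ‖v‖ ∧ ‖v‖ < R2}, G v * (((deriv α (normSq v) : ℝ) : ℂ) * (2 * v)) =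
      - I * (∮ v in C(0, ρ), G v) * ((α (R2 ^ 2) - α (R1 ^ 2) : ℝ) : ℂ) := by
  set A : Set ℂ := {v : ℂ | R1 < ‖v‖ ∧ ‖v‖ < R2} with hA
  have hAo : IsOpen A := (isOpen_lt continuous_const continuous_norm).inter
    (isOpen_lt continuous_norm continuous_const)
  have hR2 : 0 < R2 := lt_of_le_of_lt hR1 h12
  set f : ℂ → ℂ := A.indicator (fun v => G v * (((deriv α (normSq v) : ℝ) : ℂ) * (2 * v))) with hf
  have hda : Continuous (deriv α) := hα.continuous_deriv le_rfl
  have hf0 : ∀ v : ℂ, (normSq v ≤ s1 ∨ s2 ≤ normSq v) → f v = 0 := by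
    intro v hv
    rw [hf]
    by_cases hvA : v ∈ A
    · rw [indicator_of_mem hvA]
      rcases hv with h | h
      · rw [h1 _ h]; simp
      · rw [h2 _ h]; simp
    · rw [indicator_of_notMem hvA]
  have hfc : Continuous f := by
    rw [continuous_iff_continuousAt]
    intro v
    by_cases hv : s1 ≤ normSq v ∧ normSq v ≤ s2
    · have hvA : v ∈ A := by
        rw [normSq_eq_norm_sq] at hv
        exact ⟨lt_of_pow_lt_pow_left₀ 2 (norm_nonneg v) (by linarith [hv.1]),
          lt_of_pow_lt_pow_left₀ 2 hR2.le (by linarith [hv.2])⟩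
      have e : f =ᶠ[𝓝 v] fun v => G v * (((deriv α (normSq v) : ℝ) : ℂ) * (2 * v)) := by
        filter_upwards [hAo.mem_nhds hvA] with w hw
        rw [hf, indicator_of_mem hw]
      refine ContinuousAt.congr ?_ e.symm
      have c1 : ContinuousAt G v := (hG.differentiableAt (hAo.mem_nhds hvA)).continuousAt
      have c2 : Continuous fun v : ℂ => (((deriv α (normSq v) : ℝ) : ℂ) * (2 * v)) := by
        have : Continuous fun v : ℂ => ((deriv α (normSq v) : ℝ) : ℂ) :=
          continuous_ofReal.comp (hda.comp continuous_normSq)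
        exact this.mul (continuous_const.mul continuous_id)
      exact c1.mul c2.continuousAt
    · have e : f =ᶠ[𝓝 v] fun _ => 0 := by
        rcases not_and_or.1 hv with h | h
        · filter_upwards [(isOpen_lt continuous_normSq continuous_const).mem_nhds
            (show normSq v < s1 by simpa using h)] with w hw
          exact hf0 w (Or.inl (le_of_lt hw))
        · filter_upwards [(isOpen_lt continuous_const continuous_normSq).mem_nhds
            (show s2 < normSq v by simpa using h)] with w hw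
          exact hf0 w (Or.inr (le_of_lt hw))
      exact ContinuousAt.congr continuousAt_const e.symm
  have e0 : ∫ v in A, G v * (((deriv α (normSq v) : ℝ) : ℂ) * (2 * v)) = ∫ v, f v := by
    rw [hf, integral_indicator hAo.measurableSet]
  rw [e0, ← Complex.integral_comp_polarCoord_symm]
  have htarget : polarCoord.target = Ioi (0 : ℝ) ×ˢ Ioo (-Real.pi) Real.pi := rfl
  rw [htarget]
  set e : ℝ → ℂ := fun t => exp (t * I) with he
  have hec : Continuous e := by fun_prop
  set F : ℝ × ℝ → ℂ := fun p => (p.1 : ℂ) * f ((p.1 : ℂ) * e p.2) with hF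
  have hFc : Continuous F := by
    have : Continuous (fun p : ℝ × ℝ => (p.1 : ℂ) * e p.2) := by
      simp only [he]; fun_prop
    exact (continuous_ofReal.comp continuous_fst).mul (hfc.comp this)
  have hpn : ∀ r t : ℝ, normSq ((r : ℂ) * e t) = r ^ 2 := by
    intro r t
    rw [normSq_eq_norm_sq, norm_mul, he]
    simp [norm_exp_ofReal_mul_I]
  have hF0 : ∀ p : ℝ × ℝ, R2 < p.1 → F p = 0 := by
    intro p hp
    rw [hF]
    simp only
    rw [hf0 _ (Or.inr ?_), mul_zero]
    rw [hpn]
    nlinarith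
  have hFi := Cl1x722.integrableOn_of_zero hFc R2 hF0
  have hcongr : ∫ p in Ioi (0 : ℝ) ×ˢ Ioo (-Real.pi) Real.pi, p.1 • f (Complex.polarCoord.symm p) =
      ∫ p in Ioi (0 : ℝ) ×ˢ Ioo (-Real.pi) Real.pi, F p := by
    refine setIntegral_congr_fun (measurableSet_Ioi.prod measurableSet_Ioo) ?_
    rintro ⟨r, t⟩ ⟨hr, -⟩
    have hs : Complex.polarCoord.symm (r, t) = (r : ℂ) * e t := by
      rw [Complex.polarCoord_symm_apply, he]
      simp only
      rw [Complex.exp_mul_I]; push_cast; ring
    simp only [hs, hF, real_smul]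
  rw [hcongr]
  rw [Measure.volume_eq_prod] at hFi ⊢
  rw [setIntegral_prod _ hFi]
  set J : ℂ := ∮ v in C(0, ρ), G v with hJ
  -- the circle integrals do not depend on the radius
  have hJr : ∀ r, R1 < r → r < R2 → (∮ v in C(0, r), G v) = J := by
    have key : ∀ r r', R1 < r → r ≤ r' → r' < R2 → (∮ v in C(0, r'), G v) = ∮ v in C(0, r), G v := by
      intro r r' h1 h2 h3
      have hr0 : 0 < r := lt_of_le_of_lt hR1 h1
      apply Complex.circleIntegral_eq_of_differentiable_on_annulus_off_countable hr0 h2 countable_empty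
      · refine hG.continuousOn.mono ?_
        rintro z ⟨hz1, hz2⟩
        simp only [mem_closedBall, dist_zero_right, mem_ball, not_lt] at hz1 hz2
        exact ⟨lt_of_lt_of_le h1 hz2, lt_of_le_of_lt hz1 h3⟩
      · rintro z ⟨⟨hz1, hz2⟩, -⟩
        simp only [mem_closedBall, dist_zero_right, mem_ball, not_le] at hz1 hz2
        exact hG.differentiableAt (hAo.mem_nhds ⟨h1.trans hz2, hz1.trans h3⟩)
    intro r h1 h2
    rcases le_total r ρ with h | h
    · rw [hJ, key r ρ h1 h hρ2]
    · rw [hJ, key ρ r hρ1 h h2]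
  have hin : ∀ r ∈ Ioi (0 : ℝ), ∫ t in Ioo (-Real.pi) Real.pi, F (r, t) =
      ((2 * r * deriv α (r ^ 2) : ℝ) : ℂ) * (- I * J) := by
    intro r hr
    have hr0 : (0 : ℝ) < r := hr
    by_cases hrA : R1 < r ∧ r < R2
    · have e1 : ∀ t : ℝ, F (r, t) = ((2 * r * deriv α (r ^ 2) : ℝ) : ℂ) *
          (- I * (deriv (circleMap 0 r) t * G (circleMap 0 r t))) := by
        intro t
        have hm : (r : ℂ) * e t = circleMap 0 r t := by simp [circleMap, he]
        rw [hF]
        simp only
        rw [hf, indicator_of_mem]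
        · rw [hpn, hm, deriv_circleMap]
          push_cast
          linear_combination (2 * (r : ℂ) * ((deriv α (r ^ 2) : ℝ) : ℂ) * circleMap 0 r t *
            G (circleMap 0 r t)) * I_mul_I
        · have : ‖(r : ℂ) * e t‖ = r := by
            simp [he, norm_exp_ofReal_mul_I, abs_of_pos hr0]
          rw [hA]; simp only [mem_ofPred_eq, this]; exact hrA
      simp_rw [e1]
      rw [integral_const_mul, integral_const_mul]
      congr 2
      rw [← hJr r hrA.1 hrA.2, circleIntegral, ← integral_Ioc_eq_integral_Ioo,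
        ← intervalIntegral.integral_of_le (by linarith [Real.pi_pos])]
      have hper : Function.Periodic (fun θ => deriv (circleMap 0 r) θ * G (circleMap 0 r θ))
          (2 * Real.pi) := by
        intro θ
        simp only [deriv_circleMap]
        rw [periodic_circleMap 0 r θ]
      have := hper.intervalIntegral_add_eq (-Real.pi) 0
      rw [show -Real.pi + 2 * Real.pi = Real.pi by ring, zero_add] at this
      rw [this]
      simp only [smul_eq_mul]
    · have hz : deriv α (r ^ 2) = 0 := by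
        rcases not_and_or.1 hrA with h | h
        · apply h1
          have : r ≤ R1 := not_lt.1 h
          nlinarith
        · apply h2
          have : R2 ≤ r := not_lt.1 h
          nlinarith
      have : ∀ t, F (r, t) = 0 := by
        intro t
        rw [hF]
        simp only
        rw [hf]
        by_cases hm : (r : ℂ) * e t ∈ A
        · rw [indicator_of_mem hm, hpn, hz]; simp
        · rw [indicator_of_notMem hm]; simp
      simp_rw [this]
      rw [hz]; simp
  rw [setIntegral_congr_fun measurableSet_Ioi hin, integral_mul_const, integral_complex_ofReal]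
  have hlast : ∫ r in Ioi (0 : ℝ), (2 * r * deriv α (r ^ 2)) = α (R2 ^ 2) - α (R1 ^ 2) := by
    have e2 : ∫ r in Ioi (0 : ℝ), (2 * r * deriv α (r ^ 2)) =
        ∫ r in Ioc R1 R2, (2 * r * deriv α (r ^ 2)) := by
      apply setIntegral_eq_of_subset_of_forall_sdiff_eq_zero measurableSet_Ioi
      · intro r hr; exact lt_of_le_of_lt hR1 hr.1
      · rintro r ⟨hr0, hr⟩
        have hr0' : (0 : ℝ) < r := hr0
        have hz : deriv α (r ^ 2) = 0 := by
          simp only [mem_Ioc, not_and_or, not_lt, not_le] at hr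
          rcases hr with h | h
          · apply h1; nlinarith
          · apply h2; nlinarith
        rw [hz, mul_zero]
    rw [e2, ← intervalIntegral.integral_of_le h12.le]
    have hd : ∀ r ∈ uIcc R1 R2, HasDerivAt (fun r => α (r ^ 2)) (2 * r * deriv α (r ^ 2)) r := by
      intro r _
      have h3 : HasDerivAt (fun r : ℝ => r ^ 2) (2 * r) r := by
        simpa using hasDerivAt_pow 2 r
      have h4 : HasDerivAt α (deriv α (r ^ 2)) (r ^ 2) :=
        ((hα.differentiable one_ne_zero) _).hasDerivAt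
      have h5 : HasDerivAt (α ∘ fun r : ℝ => r ^ 2) (deriv α (r ^ 2) * (2 * r)) r :=
        HasDerivAt.comp r h4 h3
      refine h5.congr_deriv ?_
      ring
    rw [intervalIntegral.integral_eq_sub_of_hasDerivAt hd]
    apply Continuous.intervalIntegrable
    exact (continuous_const.mul continuous_id).mul (hda.comp (continuous_id.pow 2))
  rw [hlast]
  ring

end Crest.Agent.R165.U3x719
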