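import Crest.Prelude.Def_PerturbedIsing

/-!
# Row 165 (S0250), U6-DOM part A (helper420)

Finite Gibbs averages of the unperturbed model in a finite site set `T` (free / plus / minus) as
ratios of "wall sums", first over configurations on `T`, then over configurations on any finite box
`B ⊇ T` (spins outside `B` frozen to `+`), with edge weights
* plus : `x_c` for edges meeting `T`, `0` for all other edges (needs: `Tᶜ` connected)
* free : `x_c` for edges inside `T`, `1` for all other edges.
-/

set_option autoImplicit false

noncomputable section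

open Crest.ProbabilityR.IsingModel Finset

namespace Crest.Agent.R165.UDomAx420

/-- lattice sites -/
abbrev Site : Type := ℤ × ℤ

/-- primal edges: `(z, j)` is the bond `{z, z + e_j}` -/
abbrev PEdge : Type := (ℤ × ℤ) × Fin 2

/-- second endpoint -/
def tip (e : PEdge) : Site := e.1 + unitVec e.2

/-- bond variable -/
def eps (s : Site → Bool) (e : PEdge) : ℝ := spinSign (s e.1) * spinSign (s (tip e))

theorem spinSign_sq (b : Bool) : spinSign b * spinSign b = 1 := by
  cases b <;> simp [spinSign]

theorem eps_eq (s : Site → Bool) (e : PEdge) :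
    eps s e = if s e.1 = s (tip e) then 1 else -1 := by
  unfold eps
  cases s e.1 <;> cases s (tip e) <;> simp [spinSign]

/-- the bonds with both endpoints in `T` -/
def EFree (T : Finset Site) : Finset PEdge :=
  (T ×ˢ (univ : Finset (Fin 2))).filter fun e => tip e ∈ T

/-- the bonds with at least one endpoint in `T` -/
def EPlus (T : Finset Site) : Finset PEdge :=
  (T ×ˢ (univ : Finset (Fin 2))) ∪
    (T ×ˢ (univ : Finset (Fin 2))).image fun e => (e.1 - unitVec e.2, e.2)

theorem mem_EFree {T : Finset Site} {e : PEdge} : e ∈ EFree T ↔ e.1 ∈ T ∧ tip e ∈ T := by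
  simp [EFree]

theorem mem_EPlus {T : Finset Site} {e : PEdge} : e ∈ EPlus T ↔ e.1 ∈ T ∨ tip e ∈ T := by
  simp only [EPlus, mem_union, mem_product, mem_univ, and_true, mem_image, tip]
  constructor
  · rintro (h | ⟨f, hf, rfl⟩)
    · exact Or.inl h
    · right; simpa using hf
  · rintro (h | h)
    · exact Or.inl h
    · right; exact ⟨(e.1 + unitVec e.2, e.2), h, by simp⟩

/-- the bonds of the model in `T` with boundary condition `b` -/
def EB (T : Finset Site) (b : BoundaryCondition) : Finset PEdge :=
  if b = BoundaryCondition.free then EFree T else EPlus T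

/-- the unperturbed energy -/
theorem energy_zero (T : Finset Site) (b : BoundaryCondition) (J : ℝ) (R : ℕ)
    (V : Finset (ℤ × ℤ) → ℝ) (s : Site → Bool) :
    domainEnergy T b J 0 R V s = -J * ∑ e ∈ EB T b, eps s e := by
  unfold domainEnergy
  rw [zero_mul, sub_zero]
  congr 1
  rw [← Finset.sum_product', ← Finset.sum_product']
  unfold EB
  by_cases hb : b = BoundaryCondition.free
  · simp only [hb, true_and, ne_eq, not_true_eq_false, false_and, if_false, Finset.sum_const_zero,
      add_zero, if_true]
    unfold EFree
    rw [Finset.sum_filter]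
    refine Finset.sum_congr rfl fun e _ => ?_
    unfold eps tip
    by_cases h : e.1 + unitVec e.2 ∈ T <;> simp [h]
  · simp only [hb, false_and, if_false, ne_eq, not_false_eq_true, true_and]
    have hsplit : EPlus T = (T ×ˢ (univ : Finset (Fin 2))) ∪
        ((T ×ˢ (univ : Finset (Fin 2))).filter fun e => e.1 - unitVec e.2 ∉ T).image
          fun e => (e.1 - unitVec e.2, e.2) := by
      ext e
      simp only [mem_EPlus, mem_union, mem_product, mem_univ, and_true, mem_image, mem_filter, tip]
      constructor
      · rintro (h | h)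
        · exact Or.inl h
        · by_cases h' : e.1 ∈ T
          · exact Or.inl h'
          · right; exact ⟨(e.1 + unitVec e.2, e.2), ⟨h, by simpa using h'⟩, by simp⟩
      · rintro (h | ⟨f, ⟨hf, _⟩, rfl⟩)
        · exact Or.inl h
        · right; simpa using hf
    rw [hsplit, Finset.sum_union]
    · congr 1
      rw [Finset.sum_image, Finset.sum_filter]
      · refine Finset.sum_congr rfl fun e _ => ?_
        unfold eps tip
        simp
      · intro e _ f _ h
        simp only [Prod.mk.injEq] at h
        have h2 := h.2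
        have h1 := h.1
        rw [h2] at h1
        exact Prod.ext (sub_left_injective h1) h2
    · rw [Finset.disjoint_left]
      rintro e he hf
      simp only [mem_product, mem_univ, and_true] at he
      simp only [mem_image, mem_filter, mem_product, mem_univ, and_true] at hf
      obtain ⟨f, ⟨_, hf2⟩, rfl⟩ := hf
      exact hf2 he

/-- the critical weight `√2 - 1` -/
def xc : ℝ := Real.sqrt 2 - 1

theorem xc_pos : 0 < xc := by
  have : (1 : ℝ) < Real.sqrt 2 := by
    rw [Real.lt_sqrt (by norm_num)]; norm_num
  unfold xc; linarith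

theorem xc_mul : xc * (Real.sqrt 2 + 1) = 1 := by
  have : Real.sqrt 2 * Real.sqrt 2 = 2 := Real.mul_self_sqrt (by norm_num)
  unfold xc; linear_combination this

theorem exp_neg_two_criticalBeta : Real.exp (-(2 * criticalBeta 1)) = xc := by
  unfold criticalBeta
  have h : -(2 * (Real.log (1 + Real.sqrt 2) / (2 * 1))) = -Real.log (1 + Real.sqrt 2) := by ring
  have hpos : (0 : ℝ) < 1 + Real.sqrt 2 := by positivity
  rw [h, Real.exp_neg, Real.exp_log hpos]
  have := xc_mul
  rw [add_comm] at this
  exact (eq_inv_of_mul_eq_one_left this).symm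

/-- weight of a bond: `w` on walls, `1` otherwise -/
def wt (w : PEdge → ℝ) (s : Site → Bool) (e : PEdge) : ℝ :=
  if s e.1 = s (tip e) then 1 else w e

/-- wall weight of a configuration -/
def wallW (E : Finset PEdge) (w : PEdge → ℝ) (s : Site → Bool) : ℝ := ∏ e ∈ E, wt w s e

theorem exp_eps (β : ℝ) (s : Site → Bool) (e : PEdge) :
    Real.exp (β * eps s e) = Real.exp β * wt (fun _ => Real.exp (-(2 * β))) s e := by
  rw [eps_eq]; unfold wt
  split_ifs
  · simp
  · rw [← Real.exp_add]; congr 1; ring

theorem exp_energy_zero (T : Finset Site) (b : BoundaryCondition) (J β : ℝ) (R : ℕ)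
    (V : Finset (ℤ × ℤ) → ℝ) (s : Site → Bool) :
    Real.exp (-β * domainEnergy T b J 0 R V s) =
      Real.exp (β * J) ^ (EB T b).card *
        wallW (EB T b) (fun _ => Real.exp (-(2 * (β * J)))) s := by
  rw [energy_zero]
  have : -β * (-J * ∑ e ∈ EB T b, eps s e) = ∑ e ∈ EB T b, (β * J) * eps s e := by
    rw [← Finset.mul_sum]; ring
  rw [this, Real.exp_sum]
  simp only [exp_eps]
  rw [Finset.prod_mul_distrib, Finset.prod_const, wallW]

/-- wall average on the configurations of `T`, extended by the exterior spin -/
def wallAvg (T : Finset Site) (b : BoundaryCondition) (x : ℝ) (f : (Site → Bool) → ℝ) : ℝ :=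
  (∑ σ : T → Bool, f (extendConfig T b σ) * wallW (EB T b) (fun _ => x) (extendConfig T b σ)) /
    ∑ σ : T → Bool, wallW (EB T b) (fun _ => x) (extendConfig T b σ)

/-- the Gibbs average of the unperturbed model is a wall average -/
theorem domainExpect_eq (D : Set ℂ) (a : ℝ) (h : (domainSites D a).Finite)
    (b : BoundaryCondition) (J β : ℝ) (R : ℕ) (V : Finset (ℤ × ℤ) → ℝ)
    (f : (ℤ × ℤ → Bool) → ℝ) :
    domainExpect D a b J 0 R V β f = wallAvg h.toFinset b (Real.exp (-(2 * (β * J)))) f := by
  unfold domainExpect wallAvg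
  rw [dif_pos h]
  simp only [exp_energy_zero]
  have hc : Real.exp (β * J) ^ (EB h.toFinset b).card ≠ 0 := pow_ne_zero _ (Real.exp_pos _).ne'
  have e1 : ∀ σ : h.toFinset → Bool,
      f (extendConfig h.toFinset b σ) * (Real.exp (β * J) ^ (EB h.toFinset b).card *
        wallW (EB h.toFinset b) (fun _ => Real.exp (-(2 * (β * J)))) (extendConfig h.toFinset b σ)) =
      Real.exp (β * J) ^ (EB h.toFinset b).card * (f (extendConfig h.toFinset b σ) *
        wallW (EB h.toFinset b) (fun _ => Real.exp (-(2 * (β * J)))) (extendConfig h.toFinset b σ)) := by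
    intro σ; ring
  simp only [e1]
  rw [← Finset.mul_sum, ← Finset.mul_sum, mul_div_mul_left _ _ hc]

theorem domainExpect_crit (D : Set ℂ) (a : ℝ) (h : (domainSites D a).Finite)
    (b : BoundaryCondition) (R : ℕ) (V : Finset (ℤ × ℤ) → ℝ) (f : (ℤ × ℤ → Bool) → ℝ) :
    domainExpect D a b 1 0 R V (criticalBeta 1) f = wallAvg h.toFinset b xc f := by
  rw [domainExpect_eq D a h, mul_one, exp_neg_two_criticalBeta]

end Crest.Agent.R165.UDomAx420
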