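import Crest.Agent.R165.En_599
import Crest.Agent.R165.Red_541

/-!
# Row 165 (S0250), U6-DOM part B (helper420): the energy half of `UDc` and `UCc`

Abstract wiring, for one domain `D`, boundary condition, spins `x`, bonds `(y, j)`:

* `BondJ2`  (block J): for small `a`,
  `⟨σ_x ∏ (ε_k - √2/2)⟩ = ⟨σ_x⟩ · E_{S_a}[∏_k (1 - 2 w_k φ_{p_k} φ_{q_k} - √2/2)]`, `w_k = γ_{k0} γ_{k1} x_c`;
* `KerLim` (block U4): `a⁻¹ (γ γ' S_a(h, h') - δ_{kl} (±√2/4)) → Sl(e_h, e_{h'})`, where the limit is an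
  alternating real bilinear form `Sl` on `Fin m → ℂ` (field at `y_k` tested against `c ∈ ℂ`:
  `Re (c ψ(y_k))`), `e_E = 1`, `e_W = i`, `e_S = e^{3πi/4}`, `e_N = e^{-3πi/4}`;
* `SpinLim` (block U5): `a^{-n/8} ⟨σ_x⟩ → F`.
* covariance: `Sl_D(c_k, c_l) = Sl_{D'}(r_k c_k, r_l c_l)`, `r_k² = φ'(y_k)`.
-/

set_option autoImplicit false

noncomputable section

open Filter Topology Finset
open Crest.ProbabilityR.IsingModel

namespace Crest.Agent.R165.UDomBx420

open Crest.Agent.R165.Gr0x606 Crest.Agent.R165.Enx599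
open Crest.Agent.R165.Topx683 Crest.Agent.R165.Redx541 Crest.Agent.R165.Centx541

/-- critical weight -/
def xc : ℝ := Real.sqrt 2 - 1

/-- plane value of `E[φ_{hp} φ_{hq}]` -/
def cP : ℝ := Real.sqrt 2 / 4

theorem one_sub_e0 : 1 - e0 = 2 * xc * cP := by
  have h : Real.sqrt 2 * Real.sqrt 2 = 2 := Real.mul_self_sqrt (by norm_num)
  unfold e0 xc cP
  linear_combination (-(1:ℝ) / 2) * h

/-- the direction of a half-edge as a test vector: `j = 1` (vertical bond, `E`, `W`),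
`j = 0` (horizontal bond, `S`, `N`) -/
def ed (j : Fin 2) (i : Fin 2) : ℂ :=
  if j = 1 then (if i = 0 then 1 else Complex.I)
  else (if i = 0 then ⟨-(Real.sqrt 2 / 2), Real.sqrt 2 / 2⟩ else ⟨-(Real.sqrt 2 / 2), -(Real.sqrt 2 / 2)⟩)

theorem ed_norm (j i : Fin 2) : ‖ed j i‖ = 1 := by
  have h : Real.sqrt 2 * Real.sqrt 2 = 2 := Real.mul_self_sqrt (by norm_num)
  have key : Complex.normSq (ed j i) = 1 := by
    unfold ed
    split_ifs
    · simp
    · simp
    · rw [Complex.normSq_mk]; linear_combination h / 2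
    · rw [Complex.normSq_mk]; linear_combination h / 2
  rw [← Complex.sq_norm] at key
  have h0 : 0 ≤ ‖ed j i‖ := norm_nonneg _
  nlinarith

/-! ### algebra: taking out the factors -/

variable {V : Type*} [AddCommGroup V] [Module ℝ V]

/-- product of the bond variables `1 - 2 w_k φφ` centred by `c` -/
def bpr {κ : Type*} (p : κ → Fin 2 → V) (w c : κ → ℝ) (K : List κ) : Gr V :=
  (K.map fun k => 1 - (2 * w k) • (fi (p k 0) * fi (p k 1)) - algebraMap ℝ (Gr V) (c k)).prod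

theorem bpr_eq {κ : Type*} (p : κ → Fin 2 → V) (w : κ → ℝ) (γ : κ → Fin 2 → ℝ)
    (hγ : ∀ k, w k = γ k 0 * γ k 1 * xc) (K : List κ) :
    bpr p w (fun _ => e0) K =
      (-2 * xc) ^ K.length • cpr (fun k i => γ k i • p k i) (fun _ => cP) K := by
  induction K with
  | nil => simp [bpr, cpr]
  | cons k K ih =>
    have e : (1 - (2 * w k) • (fi (p k 0) * fi (p k 1)) - algebraMap ℝ (Gr V) e0) =
        (-2 * xc) • (fi (γ k 0 • p k 0) * fi (γ k 1 • p k 1) - algebraMap ℝ (Gr V) cP) := by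
      have h1 : (1 : Gr V) - algebraMap ℝ (Gr V) e0 = algebraMap ℝ (Gr V) (2 * xc * cP) := by
        rw [← one_sub_e0, map_sub, map_one]
      have h2 : (1 - (2 * w k) • (fi (p k 0) * fi (p k 1)) - algebraMap ℝ (Gr V) e0) =
          (1 - algebraMap ℝ (Gr V) e0) - (2 * w k) • (fi (p k 0) * fi (p k 1)) := by abel
      rw [h2, h1, smul_sub, hγ, fi_smul, fi_smul, smul_mul_smul_comm, smul_smul,
        Algebra.algebraMap_eq_smul_one, Algebra.algebraMap_eq_smul_one, smul_smul]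
      have h3 : 2 * (γ k 0 * γ k 1 * xc) = -(-2 * xc * (γ k 0 * γ k 1)) := by ring
      have h4 : 2 * xc * cP = -(-2 * xc * cP) := by ring
      rw [h3, h4, neg_smul, neg_smul]
      abel
    simp only [bpr, cpr, List.map_cons, List.prod_cons, List.length_cons] at *
    rw [ih, e, smul_mul_smul_comm, pow_succ, mul_comm]

/-! ### the lattice input and the limit -/

/-- matrix of the limit form -/
def M0 {m : ℕ} (Sl : Cov (Fin m → ℂ)) (j : Fin m → Fin 2) (p q : Fin m × Fin 2) : ℝ :=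
  Sl.b (Pi.single p.1 (ed (j p.1) p.2)) (Pi.single q.1 (ed (j q.1) q.2))

/-- centring block -/
def cBlock {m : ℕ} (p q : Fin m × Fin 2) : ℝ :=
  if p.1 = q.1 then (if p.2 = 0 ∧ q.2 = 1 then cP else if p.2 = 1 ∧ q.2 = 0 then -cP else 0) else 0

/-- block J: bonds as Grassmann bilinears in the background `(D, a, b, x)` -/
def BondJ2 (W : ℝ → Type) [∀ a, AddCommGroup (W a)] [∀ a, Module ℝ (W a)]
    (S : ∀ a, Cov (W a)) (D : Set ℂ) (b : BoundaryCondition) {n m : ℕ} (x : Fin n → ℂ)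
    (y : Fin m → ℂ) (j : Fin m → Fin 2) (p : ∀ a, Fin m → Fin 2 → W a) (w : ℝ → Fin m → ℝ) :
    Prop :=
  ∀ᶠ a in 𝓝[>] (0 : ℝ), D0c D a b x y j =
    D0c D a b x (![] : Fin 0 → ℂ) ![] * EE (S a) (bpr (p a) (w a) (fun _ => e0) (List.finRange m))

/-- block U4: convergence of the rescaled kernels at the bonds -/
def KerLim (W : ℝ → Type) [∀ a, AddCommGroup (W a)] [∀ a, Module ℝ (W a)]
    (S : ∀ a, Cov (W a)) {m : ℕ} (j : Fin m → Fin 2) (p : ∀ a, Fin m → Fin 2 → W a)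
    (w : ℝ → Fin m → ℝ) (Sl : Cov (Fin m → ℂ)) : Prop :=
  ∃ γ : ℝ → Fin m → Fin 2 → ℝ,
    (∀ᶠ a in 𝓝[>] (0 : ℝ), ∀ k, w a k = γ a k 0 * γ a k 1 * xc) ∧
    ∀ q q' : Fin m × Fin 2,
      Tendsto (fun a => a⁻¹ * (γ a q.1 q.2 * γ a q'.1 q'.2 * (S a).b (p a q.1 q.2) (p a q'.1 q'.2) -
        cBlock q q')) (𝓝[>] 0) (𝓝 (M0 Sl j q q'))

/-- block U5: spin limit -/
def SpinLim (D : Set ℂ) (b : BoundaryCondition) {n : ℕ} (x : Fin n → ℂ) (F : ℝ) : Prop :=
  Tendsto (fun a : ℝ => scl n 0 a * D0c D a b x (![] : Fin 0 → ℂ) ![]) (𝓝[>] 0) (𝓝 F)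

/-- the energy Pfaffian of the limit form -/
def Epf {m : ℕ} (Sl : Cov (Fin m → ℂ)) (j : Fin m → Fin 2) : ℝ :=
  EE Sl (cpr (fun k i => (Pi.single k (ed (j k) i) : Fin m → ℂ)) (fun _ => 0) (List.finRange m))

theorem scl_add (n m : ℕ) {a : ℝ} (ha : 0 < a) : scl n m a = scl n 0 a * (a⁻¹) ^ m := by
  unfold scl
  rw [← Real.rpow_natCast, Real.inv_rpow ha.le, ← Real.rpow_neg ha.le, ← Real.rpow_add ha]
  congr 1
  push_cast
  ring

/-- **energy half of `UDc`** -/
theorem domain_limit (W : ℝ → Type) [∀ a, AddCommGroup (W a)] [∀ a, Module ℝ (W a)]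
    (S : ∀ a, Cov (W a)) (D : Set ℂ) (b : BoundaryCondition) {n m : ℕ} (x : Fin n → ℂ)
    (y : Fin m → ℂ) (j : Fin m → Fin 2) (p : ∀ a, Fin m → Fin 2 → W a) (w : ℝ → Fin m → ℝ)
    (Sl : Cov (Fin m → ℂ)) (F : ℝ)
    (hJ : BondJ2 W S D b x y j p w) (hK : KerLim W S j p w Sl) (hS : SpinLim D b x F) :
    Tendsto (fun a : ℝ => scl n m a * D0c D a b x y j) (𝓝[>] 0)
      (𝓝 ((-2 * xc) ^ m * Epf Sl j * F)) := by
  obtain ⟨γ, hγ, hlim⟩ := hK
  have h1 : Tendsto (fun a : ℝ => (a⁻¹) ^ (List.finRange m).length *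
      EE (S a) (cpr (fun k i => γ a k i • p a k i) (fun _ => cP) (List.finRange m))) (𝓝[>] 0)
      (𝓝 (pfl (M0 Sl j) (2 * (List.finRange m).length) (idx (List.finRange m)))) := by
    refine tendsto_EE_cpr (F := 𝓝[>] (0:ℝ)) S (fun a k i => γ a k i • p a k i) (fun _ _ => cP)
      (fun a => a) (List.finRange m) (List.nodup_finRange m) (M0 Sl j) ?_
    intro q _ q' _
    refine (hlim q q').congr fun a => ?_
    congr 1
    unfold cmat cBlock
    simp only [map_smul, LinearMap.smul_apply, smul_eq_mul]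
    ring
  have h2 : Epf Sl j = pfl (M0 Sl j) (2 * (List.finRange m).length) (idx (List.finRange m)) := by
    unfold Epf
    rw [EE_cpr Sl _ _ _ (List.nodup_finRange m) _ le_rfl]
    congr 1
    funext q q'
    unfold cmat M0
    simp
  rw [← h2, List.length_finRange] at h1
  have h3 : Tendsto (fun a : ℝ => (-2 * xc) ^ m * ((a⁻¹) ^ m *
      EE (S a) (cpr (fun k i => γ a k i • p a k i) (fun _ => cP) (List.finRange m))) *
      (scl n 0 a * D0c D a b x (![] : Fin 0 → ℂ) ![])) (𝓝[>] 0)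
      (𝓝 ((-2 * xc) ^ m * Epf Sl j * F)) := (h1.const_mul _).mul hS
  refine h3.congr' ?_
  filter_upwards [hJ, hγ, self_mem_nhdsWithin] with a ha hγa ha0
  have ha0' : (0 : ℝ) < a := ha0
  rw [ha, bpr_eq (p a) (w a) (γ a) hγa, List.length_finRange, map_smul, smul_eq_mul,
    scl_add n m ha0']
  ring

/-! ### covariance -/

/-- multiplication by `r_k` at `y_k` -/
def rmul {m : ℕ} (r : Fin m → ℂ) : (Fin m → ℂ) →ₗ[ℝ] (Fin m → ℂ) where
  toFun c := fun k => r k * c k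
  map_add' c d := by funext k; simp [mul_add]
  map_smul' t c := by
    funext k
    simp only [Pi.smul_apply, RingHom.id_apply, Complex.real_smul]
    ring

theorem rmul_single {m : ℕ} (r : Fin m → ℂ) (k : Fin m) (c : ℂ) :
    rmul r (Pi.single k c) = Pi.single k (r k * c) := by
  funext l
  by_cases h : l = k
  · subst h; simp [rmul]
  · simp [rmul, h]

/-- 2-dimensional determinant rule for a pair of fields at one point -/
theorem fi_fi_single {m : ℕ} (k : Fin m) (c d : ℂ) :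
    (fi (Pi.single k c : Fin m → ℂ) * fi (Pi.single k d : Fin m → ℂ) : Gr (Fin m → ℂ)) =
      (c.re * d.im - c.im * d.re) •
        (fi (Pi.single k 1 : Fin m → ℂ) * fi (Pi.single k Complex.I : Fin m → ℂ)) := by
  have hs : ∀ z : ℂ, (Pi.single k z : Fin m → ℂ) =
      z.re • (Pi.single k 1 : Fin m → ℂ) + z.im • (Pi.single k Complex.I : Fin m → ℂ) := by
    intro z
    funext l
    by_cases h : l = k
    · subst h; simp [Complex.re_add_im]
    · simp [h]
  rw [hs c, hs d]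
  simp only [fi_add, fi_smul, mul_add, add_mul, smul_mul_smul_comm, fi_mul_self, smul_zero,
    zero_add, add_zero]
  rw [fi_anti (Pi.single k Complex.I : Fin m → ℂ) (Pi.single k 1), smul_neg, ← neg_smul,
    ← add_smul]
  congr 1
  ring

theorem cpr_smul {κ : Type*} (A B : κ → Gr V) (t : κ → ℝ) (h : ∀ k, A k = t k • B k)
    (K : List κ) : (K.map A).prod = (K.map t).prod • (K.map B).prod := by
  induction K with
  | nil => simp
  | cons k K ih =>
    simp only [List.map_cons, List.prod_cons]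
    rw [ih, h k, smul_mul_smul_comm]

theorem Epf_pullback {m : ℕ} (Sl Sl' : Cov (Fin m → ℂ)) (j : Fin m → Fin 2) (r : Fin m → ℂ)
    (h : ∀ k l c d, Sl.b (Pi.single k c) (Pi.single l d) =
      Sl'.b (Pi.single k (r k * c)) (Pi.single l (r l * d))) :
    Epf Sl j = (∏ k, ‖r k‖ ^ 2) * Epf Sl' j := by
  have hcov : ∀ u v : Fin m → ℂ, Sl.b u v = Sl'.b (rmul r u) (rmul r v) := by
    intro u v
    have hu : u = ∑ k, Pi.single k (u k) := (Finset.univ_sum_single u).symm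
    have hv : v = ∑ k, Pi.single k (v k) := (Finset.univ_sum_single v).symm
    rw [hu, hv]
    simp only [map_sum, LinearMap.sum_apply, rmul_single]
    refine Finset.sum_congr rfl fun k _ => Finset.sum_congr rfl fun l _ => ?_
    exact h _ _ _ _
  unfold Epf
  rw [← EE_mp (rmul r) Sl Sl' hcov]
  have h1 : mp (rmul r) (cpr (fun k i => (Pi.single k (ed (j k) i) : Fin m → ℂ)) (fun _ => 0)
      (List.finRange m)) = ((List.finRange m).map fun k => ‖r k‖ ^ 2).prod •
      (cpr (fun k i => (Pi.single k (ed (j k) i) : Fin m → ℂ)) (fun _ => 0) (List.finRange m)) := by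
    unfold cpr
    rw [map_list_prod, List.map_map]
    refine cpr_smul _ _ _ ?_ _
    intro k
    simp only [Function.comp_apply, map_zero, sub_zero, map_mul, mp_fi, rmul_single]
    rw [fi_fi_single k (r k * ed (j k) 0), fi_fi_single k (ed (j k) 0), smul_smul]
    congr 1
    rw [Complex.sq_norm, Complex.normSq_apply]
    simp only [Complex.mul_re, Complex.mul_im]
    ring
  rw [h1, map_smul, smul_eq_mul, ← List.ofFn_eq_map, List.prod_ofFn]

/-- everything needed for one `(D, b, x, y, j)` -/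
structure DomData (D : Set ℂ) (b : BoundaryCondition) {n m : ℕ} (x : Fin n → ℂ)
    (y : Fin m → ℂ) (j : Fin m → Fin 2) (Sl : Cov (Fin m → ℂ)) (F : ℝ) where
  /-- spaces of fields -/
  W : ℝ → Type
  /-- group structure -/
  grp : ∀ a, AddCommGroup (W a)
  /-- vector space structure -/
  vsp : ∀ a, Module ℝ (W a)
  /-- covariances -/
  S : ∀ a, Cov (W a)
  /-- half-edge fields -/
  p : ∀ a, Fin m → Fin 2 → W a
  /-- signed weights -/
  w : ℝ → Fin m → ℝ
  j2 : BondJ2 W S D b x y j p w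
  ker : KerLim W S j p w Sl
  spin : SpinLim D b x F

theorem DomData.limit {D : Set ℂ} {b : BoundaryCondition} {n m : ℕ} {x : Fin n → ℂ}
    {y : Fin m → ℂ} {j : Fin m → Fin 2} {Sl : Cov (Fin m → ℂ)} {F : ℝ}
    (H : DomData D b x y j Sl F) :
    Tendsto (fun a : ℝ => scl n m a * D0c D a b x y j) (𝓝[>] 0)
      (𝓝 ((-2 * xc) ^ m * Epf Sl j * F)) := by
  let _ := H.grp
  let _ := H.vsp
  exact domain_limit H.W H.S D b x y j H.p H.w Sl F H.j2 H.ker H.spin

/-- **energy half of `UCc`** -/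
theorem domain_covariance {D D' : Set ℂ} {φ : ℂ → ℂ} {b : BoundaryCondition} {n m : ℕ}
    {x : Fin n → ℂ} {y : Fin m → ℂ} {j : Fin m → Fin 2} {Sl Sl' : Cov (Fin m → ℂ)} {F F' : ℝ}
    (H : DomData D b x y j Sl F)
    (H' : DomData D' b (fun i => φ (x i)) (fun k => φ (y k)) j Sl' F')
    (hS : ∃ r : Fin m → ℂ, (∀ k, r k ^ 2 = deriv φ (y k)) ∧
      ∀ k l c d, Sl.b (Pi.single k c) (Pi.single l d) =
        Sl'.b (Pi.single k (r k * c)) (Pi.single l (r l * d)))
    (hF : F = (∏ i, ‖deriv φ (x i)‖ ^ ((1 : ℝ) / 8)) * F') :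
    ∃ G G' : ℝ,
      Tendsto (fun a : ℝ => scl n m a * D0c D a b x y j) (𝓝[>] 0) (𝓝 G) ∧
      Tendsto (fun a : ℝ => scl n m a * D0c D' a b (fun i => φ (x i)) (fun k => φ (y k)) j)
        (𝓝[>] 0) (𝓝 G') ∧
      G = (∏ i, ‖deriv φ (x i)‖ ^ ((1 : ℝ) / 8)) * (∏ k, ‖deriv φ (y k)‖) * G' := by
  obtain ⟨r, hr, hS⟩ := hS
  refine ⟨_, _, H.limit, H'.limit, ?_⟩
  have h1 : (∏ k, ‖deriv φ (y k)‖) = ∏ k, ‖r k‖ ^ 2 := by
    refine Finset.prod_congr rfl fun k _ => ?_
    rw [← hr k, norm_pow]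
  rw [h1, Epf_pullback Sl Sl' j r hS, hF]
  ring

end Crest.Agent.R165.UDomBx420
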