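import Crest.Agent.R165.UDomA_420
import Crest.Agent.R165.Lat_683
import Crest.Agent.R165.J1b_606

/-!
# Row 165 (S0250), U6-DOM part C (helper420): Gibbs averages as sums over sets of minus spins

* `conf N` : the configuration whose minus spins are the sites of the finite set `N`
* `sum_conf` : `Σ_{σ : T → Bool} G (ext σ) = Σ_{N ⊆ T} G (conf N)` (exterior `+`)
* `wallW_plus`, `wallW_free` : the wall weight as `Π_{e ∈ walls N} wDom T e`
* `domainExpect_N` : the critical Gibbs average (free, plus) as a ratio of `N`-sums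
* `domainExpect_minus` : minus = plus after a global flip
* `prod_ray` : `Π_i σ_{X i} = Π_{e ∈ walls N} ray X e` (horizontal rays to `+∞`)
* `wallProd_eps` : multiplication by a bond variable flips the sign of its weight
-/

set_option autoImplicit false

noncomputable section

open Crest.ProbabilityR.IsingModel Finset

namespace Crest.Agent.R165.UDomCx420

open Crest.Agent.R165.UDomAx420 Crest.Agent.R165.J1ax606 Crest.Agent.R165.J1bx606
open Crest.Agent.R165.Latx683 (BW wDom ray wX)

/-- the configuration with minus set `N` -/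
def conf (N : Finset (ℤ × ℤ)) (z : ℤ × ℤ) : Bool := decide (z ∉ N)

theorem conf_true {N : Finset (ℤ × ℤ)} {z : ℤ × ℤ} : conf N z = true ↔ z ∉ N := by simp [conf]

theorem conf_eq_iff {N : Finset (ℤ × ℤ)} {z z' : ℤ × ℤ} :
    conf N z = conf N z' ↔ (z ∈ N ↔ z' ∈ N) := by
  unfold conf
  by_cases h : z ∈ N <;> by_cases h' : z' ∈ N <;> simp [h, h']

theorem uv_eq (j : Fin 2) : (uv j : ℤ × ℤ) = unitVec j := rfl

theorem mem_walls_conf {N : Finset (ℤ × ℤ)} {e : EG ℤ} :
    e ∈ walls N ↔ conf N e.1 ≠ conf N (tip e) := by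
  rw [mem_walls, Ne, conf_eq_iff]
  exact Iff.rfl

/-- configurations on `T` with exterior `+` are the sets of minus spins -/
theorem sum_conf (T : Finset (ℤ × ℤ)) (b : BoundaryCondition)
    (hb : b ≠ BoundaryCondition.minus) (G : (ℤ × ℤ → Bool) → ℝ) :
    ∑ σ : T → Bool, G (extendConfig T b σ) = ∑ N ∈ T.powerset, G (conf N) := by
  have hext : b.exterior = true := by cases b <;> simp_all [BoundaryCondition.exterior]
  refine Finset.sum_bij' (fun σ _ => (T.attach.filter fun z => σ z = false).map
      ⟨Subtype.val, Subtype.val_injective⟩) (fun N _ => fun z => conf N z) ?_ ?_ ?_ ?_ ?_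
  · intro σ _
    rw [Finset.mem_powerset]
    intro z hz
    simp only [Finset.mem_map, Finset.mem_filter, Finset.mem_attach, true_and,
      Function.Embedding.coeFn_mk] at hz
    obtain ⟨w, _, rfl⟩ := hz
    exact w.2
  · intro N _; exact Finset.mem_univ _
  · intro σ _
    funext z
    simp only [conf, Finset.mem_map, Finset.mem_filter, Finset.mem_attach, true_and,
      Function.Embedding.coeFn_mk, Subtype.exists, exists_and_right, exists_eq_right, not_exists]
    cases h : σ z
    · simp only [decide_eq_false_iff_not, not_forall]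
      exact ⟨z.2, by simpa using h⟩
    · simp only [decide_eq_true_eq]
      intro hz
      simpa using h
  · intro N hN
    rw [Finset.mem_powerset] at hN
    ext z
    simp only [conf, Finset.mem_map, Finset.mem_filter, Finset.mem_attach, true_and,
      Function.Embedding.coeFn_mk, Subtype.exists, exists_and_right, exists_eq_right,
      decide_eq_false_iff_not, not_not]
    exact ⟨fun ⟨_, h⟩ => h, fun h => ⟨hN h, h⟩⟩
  · intro σ _
    congr 1
    funext z
    unfold extendConfig
    split_ifs with h
    · simp only [conf, Finset.mem_map, Finset.mem_filter, Finset.mem_attach, true_and,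
        Function.Embedding.coeFn_mk, Subtype.exists, exists_and_right, exists_eq_right, not_exists]
      cases h' : σ ⟨z, h⟩
      · symm
        simp only [decide_eq_false_iff_not, not_forall]
        exact ⟨h, by simpa using h'⟩
      · symm
        simp only [decide_eq_true_eq]
        intro hz
        simpa using h'
    · rw [hext]
      symm
      rw [conf_true]
      simp only [Finset.mem_map, Finset.mem_filter, Finset.mem_attach, true_and,
        Function.Embedding.coeFn_mk, Subtype.exists, exists_and_right, exists_eq_right, not_exists]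
      intro hz
      exact absurd hz h

theorem wallW_eq_prod (E : Finset PEdge) (w : PEdge → ℝ) (N : Finset (ℤ × ℤ)) :
    wallW E w (conf N) = ∏ e ∈ E ∩ walls N, w e := by
  unfold wallW wt
  rw [← Finset.prod_filter_mul_prod_filter_not E (fun e => conf N e.1 = conf N (tip e))]
  rw [Finset.prod_congr rfl (g := fun _ => (1 : ℝ))
    (fun e he => if_pos (Finset.mem_filter.1 he).2), Finset.prod_const_one, one_mul]
  refine Finset.prod_congr ?_ fun e he => ?_
  · ext e
    rw [Finset.mem_filter, Finset.mem_inter, mem_walls_conf]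
  · rw [if_neg]
    rw [Finset.mem_inter, mem_walls_conf] at he
    exact he.2

theorem wDom_plus {T : Finset (ℤ × ℤ)} {e : EG ℤ} (h : e.1 ∈ T ∨ e.1 + unitVec e.2 ∈ T) :
    wDom (T : Set (ℤ × ℤ)) false e.1 e.2 = UDomAx420.xc := by
  unfold wDom
  simp only [Bool.false_eq_true, if_false, Finset.mem_coe]
  rw [if_pos h]
  rfl

theorem wDom_free (T : Finset (ℤ × ℤ)) (e : EG ℤ) :
    wDom (T : Set (ℤ × ℤ)) true e.1 e.2 = if e ∈ EFree T then UDomAx420.xc else 1 := by
  unfold wDom
  simp only [if_true, Finset.mem_coe, mem_EFree, tip]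
  rfl

theorem wallW_dom (T : Finset (ℤ × ℤ)) (b : BoundaryCondition) {N : Finset (ℤ × ℤ)} (hN : N ⊆ T) :
    wallW (EB T b) (fun _ => UDomAx420.xc) (conf N) =
      ∏ e ∈ walls N, wDom (T : Set (ℤ × ℤ)) (decide (b = BoundaryCondition.free)) e.1 e.2 := by
  rw [wallW_eq_prod]
  unfold EB
  by_cases hf : b = BoundaryCondition.free
  · rw [if_pos hf, decide_eq_true hf]
    rw [← Finset.prod_filter_mul_prod_filter_not (walls N) (fun e => e ∈ EFree T)]
    have h2 : ∏ e ∈ (walls N).filter (fun e => ¬ e ∈ EFree T),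
        wDom (T : Set (ℤ × ℤ)) true e.1 e.2 = 1 := by
      refine Finset.prod_eq_one fun e he => ?_
      rw [wDom_free, if_neg (Finset.mem_filter.1 he).2]
    rw [h2, mul_one]
    have h3 : EFree T ∩ walls N = (walls N).filter (fun e => e ∈ EFree T) := by
      ext e; rw [Finset.mem_inter, Finset.mem_filter, and_comm]
    rw [h3]
    refine Finset.prod_congr rfl fun e he => ?_
    rw [wDom_free, if_pos (Finset.mem_filter.1 he).2]
  · rw [if_neg hf, decide_eq_false hf]
    have h3 : EPlus T ∩ walls N = walls N := by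
      rw [Finset.inter_eq_right]
      intro e he
      rw [mem_walls] at he
      rw [mem_EPlus]
      by_contra hc
      rw [not_or] at hc
      apply he
      exact ⟨fun h' => absurd (hN h') hc.1, fun h' => absurd (hN h') hc.2⟩
    rw [h3]
    refine Finset.prod_congr rfl fun e he => ?_
    rw [wDom_plus]
    rw [mem_walls] at he
    by_contra hc
    rw [not_or] at hc
    exact he ⟨fun h' => absurd (hN h') hc.1, fun h' => absurd (hN h') hc.2⟩

/-- `N`-sum of an observable in the background `w` -/
def Nsum (T : Finset (ℤ × ℤ)) (w : BW ℤ) (f : (ℤ × ℤ → Bool) → ℝ) : ℝ :=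
  ∑ N ∈ T.powerset, f (conf N) * ∏ e ∈ walls N, w e.1 e.2

/-- **critical Gibbs average (free, plus) as a ratio of sums over minus sets** -/
theorem domainExpect_N (D : Set ℂ) (a : ℝ) (h : (domainSites D a).Finite)
    (b : BoundaryCondition) (hb : b ≠ BoundaryCondition.minus) (R : ℕ)
    (V : Finset (ℤ × ℤ) → ℝ) (f : (ℤ × ℤ → Bool) → ℝ) :
    domainExpect D a b 1 0 R V (criticalBeta 1) f =
      Nsum h.toFinset (wDom (domainSites D a) (decide (b = BoundaryCondition.free))) f /
      Nsum h.toFinset (wDom (domainSites D a) (decide (b = BoundaryCondition.free)))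
        (fun _ => 1) := by
  rw [domainExpect_crit D a h, wallAvg]
  have hc : ((h.toFinset : Finset (ℤ × ℤ)) : Set (ℤ × ℤ)) = domainSites D a := h.coe_toFinset
  have key : ∀ g : (ℤ × ℤ → Bool) → ℝ, ∑ σ : h.toFinset → Bool, g (extendConfig h.toFinset b σ) *
      wallW (EB h.toFinset b) (fun _ => UDomAx420.xc) (extendConfig h.toFinset b σ) =
      Nsum h.toFinset (wDom (domainSites D a) (decide (b = BoundaryCondition.free))) g := by
    intro g
    rw [sum_conf h.toFinset b hb (fun s => g s *
      wallW (EB h.toFinset b) (fun _ => UDomAx420.xc) s)]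
    unfold Nsum
    refine Finset.sum_congr rfl fun N hN => ?_
    rw [wallW_dom h.toFinset b (Finset.mem_powerset.1 hN), hc]
  rw [key f, ← key (fun _ => 1)]
  simp only [one_mul]

/-! ### minus boundary condition -/

theorem extendConfig_not (T : Finset (ℤ × ℤ)) (σ : T → Bool) :
    extendConfig T BoundaryCondition.minus (fun z => !σ z) =
      fun z => !extendConfig T BoundaryCondition.plus σ z := by
  funext z
  unfold extendConfig
  split_ifs <;> simp [BoundaryCondition.exterior]

theorem wallW_not (E : Finset PEdge) (w : PEdge → ℝ) (s : ℤ × ℤ → Bool) :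
    wallW E w (fun z => !s z) = wallW E w s := by
  unfold wallW wt
  refine Finset.prod_congr rfl fun e _ => ?_
  simp only [Bool.not_inj_iff]

/-- minus = plus after a global flip -/
theorem domainExpect_minus (D : Set ℂ) (a : ℝ) (h : (domainSites D a).Finite) (R : ℕ)
    (V : Finset (ℤ × ℤ) → ℝ) (f : (ℤ × ℤ → Bool) → ℝ) :
    domainExpect D a BoundaryCondition.minus 1 0 R V (criticalBeta 1) f =
      domainExpect D a BoundaryCondition.plus 1 0 R V (criticalBeta 1)
        (fun s => f (fun z => !s z)) := by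
  rw [domainExpect_crit D a h, domainExpect_crit D a h, wallAvg, wallAvg]
  have key : ∀ g : (ℤ × ℤ → Bool) → ℝ,
      ∑ σ : h.toFinset → Bool, g (extendConfig h.toFinset BoundaryCondition.minus σ) *
        wallW (EB h.toFinset BoundaryCondition.minus) (fun _ => UDomAx420.xc)
          (extendConfig h.toFinset BoundaryCondition.minus σ) =
      ∑ σ : h.toFinset → Bool, g (fun z => !extendConfig h.toFinset BoundaryCondition.plus σ z) *
        wallW (EB h.toFinset BoundaryCondition.plus) (fun _ => UDomAx420.xc)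
          (extendConfig h.toFinset BoundaryCondition.plus σ) := by
    intro g
    have hE : EB h.toFinset BoundaryCondition.minus = EB h.toFinset BoundaryCondition.plus := by
      simp [EB]
    rw [hE]
    refine (Fintype.sum_equiv (Equiv.arrowCongr (Equiv.refl _) (Equiv.boolNot)) _ _ ?_).symm
    intro σ
    have e1 : (Equiv.arrowCongr (Equiv.refl (h.toFinset : Type)) Equiv.boolNot) σ =
        fun z => !σ z := by
      funext z; rfl
    rw [e1, extendConfig_not, wallW_not]
  rw [key f]
  congr 1
  have := key (fun _ => 1)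
  simp only [one_mul] at this
  exact this

/-! ### spin insertions -/

theorem spinSign_mul (b c : Bool) : spinSign b * spinSign c = if b = c then 1 else -1 := by
  cases b <;> cases c <;> simp [spinSign]

theorem walk (c : ℕ → Bool) (K : ℕ) :
    ∏ k ∈ Finset.range K, (if c k = c (k + 1) then (1 : ℝ) else -1) =
      spinSign (c 0) * spinSign (c K) := by
  induction K with
  | zero => rw [Finset.prod_range_zero, UDomAx420.spinSign_sq]
  | succ K ih =>
    rw [Finset.prod_range_succ, ih, ← spinSign_mul]
    have := UDomAx420.spinSign_sq (c K)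
    linear_combination (spinSign (c 0) * spinSign (c (K + 1))) * this

/-- one ray -/
theorem prod_ray_one (N : Finset (ℤ × ℤ)) (x : ℤ × ℤ) :
    ∏ e ∈ walls N, (if e.2 = 0 ∧ x.2 = e.1.2 ∧ x.1 ≤ e.1.1 then (-1 : ℝ) else 1) =
      spinSign (conf N x) := by
  obtain ⟨K, hK⟩ : ∃ K : ℕ, ∀ z ∈ N, z.1 < x.1 + K := by
    refine ⟨(∑ z ∈ N, |z.1| - x.1 + 1).toNat, fun z hz => ?_⟩
    have h1 : |z.1| ≤ ∑ z ∈ N, |z.1| :=
      Finset.single_le_sum (f := fun z : ℤ × ℤ => |z.1|) (fun z _ => abs_nonneg _) hz
    have h2 := le_abs_self z.1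
    have h3 := Int.self_le_toNat (∑ z ∈ N, |z.1| - x.1 + 1)
    omega
  set c : ℕ → Bool := fun k => conf N (x.1 + k, x.2) with hc
  have h0 : c 0 = conf N x := by simp [hc]
  have hK' : c K = true := by
    simp only [hc, conf_true]
    intro h
    exact absurd (hK _ h) (lt_irrefl _)
  have hw := walk c K
  rw [h0, hK'] at hw
  have e1 : spinSign true = 1 := by simp [spinSign]
  rw [e1, mul_one] at hw
  rw [← hw, Finset.prod_ite, Finset.prod_ite, Finset.prod_const_one, Finset.prod_const_one, mul_one,
    one_mul]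
  symm
  refine Finset.prod_bij (fun k _ => (((x.1 + (k : ℤ), x.2) : ℤ × ℤ), (0 : Fin 2))) ?_ ?_ ?_ ?_
  · intro k hk
    rw [Finset.mem_filter] at hk
    rw [Finset.mem_filter, mem_walls_conf]
    refine ⟨?_, rfl, rfl, by simp⟩
    have := hk.2
    simp only [hc] at this
    have e2 : tip (((x.1 + (k : ℤ), x.2) : ℤ × ℤ), (0 : Fin 2)) = (x.1 + ((k + 1 : ℕ) : ℤ), x.2) := by
      simp [tip, unitVec, add_assoc]
    rw [e2]
    exact this
  · intro k _ k' _ h
    simpa using h
  · intro e he
    rw [Finset.mem_filter, mem_walls_conf] at he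
    obtain ⟨hw', hj, h2, h1⟩ := he
    obtain ⟨⟨z1, z2⟩, j⟩ := e
    simp only at hj h2 h1
    subst hj
    subst h2
    obtain ⟨k, rfl⟩ : ∃ k : ℕ, z1 = x.1 + k := ⟨(z1 - x.1).toNat, by omega⟩
    have e2 : tip (((x.1 + (k : ℤ), x.2) : ℤ × ℤ), (0 : Fin 2)) = (x.1 + ((k + 1 : ℕ) : ℤ), x.2) := by
      simp [tip, unitVec, add_assoc]
    refine ⟨k, ?_, rfl⟩
    rw [Finset.mem_filter, Finset.mem_range]
    rw [e2] at hw'
    refine ⟨?_, hw'⟩
    by_contra hkK
    apply hw'
    have a1 : conf N (x.1 + (k : ℤ), x.2) = true := by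
      rw [conf_true]; intro h; have := hK _ h; simp only at this; omega
    have a2 : conf N (x.1 + ((k + 1 : ℕ) : ℤ), x.2) = true := by
      rw [conf_true]; intro h; have := hK _ h; simp only at this; push_cast at this; omega
    simp only at a1 ⊢
    rw [a1, a2]
  · intro k _; rfl

/-- **spin insertions are ray signs** -/
theorem prod_ray {n : ℕ} (N : Finset (ℤ × ℤ)) (X : Fin n → ℤ × ℤ) :
    ∏ e ∈ walls N, ray X e.1 e.2 = ∏ i, spinSign (conf N (X i)) := by
  unfold ray
  rw [Finset.prod_comm]
  exact Finset.prod_congr rfl fun i _ => prod_ray_one N (X i)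

theorem Nsum_ray (T : Finset (ℤ × ℤ)) (w : BW ℤ) {n : ℕ} (X : Fin n → ℤ × ℤ)
    (f : (ℤ × ℤ → Bool) → ℝ) :
    Nsum T w (fun s => (∏ i, spinSign (s (X i))) * f s) = Nsum T (wX w X) f := by
  unfold Nsum
  refine Finset.sum_congr rfl fun N _ => ?_
  have : ∏ e ∈ walls N, wX w X e.1 e.2 =
      (∏ i, spinSign (conf N (X i))) * ∏ e ∈ walls N, w e.1 e.2 := by
    rw [← prod_ray, ← Finset.prod_mul_distrib]
    rfl
  rw [this]
  ring

/-! ### bond insertions -/

/-- flip the sign of the weight of one bond -/
def flipW (w : BW ℤ) (e : EG ℤ) : BW ℤ := fun z j => if (z, j) = e then -w z j else w z j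

theorem wallProd_eps (w : BW ℤ) (e : EG ℤ) (N : Finset (ℤ × ℤ)) :
    eps (conf N) e * ∏ e' ∈ walls N, w e'.1 e'.2 = ∏ e' ∈ walls N, flipW w e e'.1 e'.2 := by
  rw [eps_eq]
  by_cases h : e ∈ walls N
  · rw [if_neg (mem_walls_conf.1 h), ← Finset.mul_prod_erase _ _ h, ← Finset.mul_prod_erase _ _ h]
    have h1 : flipW w e e.1 e.2 = -w e.1 e.2 := by simp [flipW]
    have h2 : ∏ e' ∈ (walls N).erase e, flipW w e e'.1 e'.2 =
        ∏ e' ∈ (walls N).erase e, w e'.1 e'.2 := by
      refine Finset.prod_congr rfl fun e' he' => ?_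
      have : ¬((e'.1, e'.2) = e) := fun hh => (Finset.mem_erase.1 he').1 hh
      simp [flipW, this]
    rw [h1, h2]; ring
  · have h0 : conf N e.1 = conf N (tip e) := by
      by_contra hc; exact h (mem_walls_conf.2 hc)
    rw [if_pos h0, one_mul]
    refine Finset.prod_congr rfl fun e' he' => ?_
    have : ¬((e'.1, e'.2) = e) := fun hh => h (hh ▸ he')
    simp [flipW, this]

theorem Nsum_eps (T : Finset (ℤ × ℤ)) (w : BW ℤ) (e : EG ℤ) (f : (ℤ × ℤ → Bool) → ℝ) :
    Nsum T w (fun s => eps s e * f s) = Nsum T (flipW w e) f := by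
  unfold Nsum
  refine Finset.sum_congr rfl fun N _ => ?_
  rw [← wallProd_eps]
  ring

end Crest.Agent.R165.UDomCx420
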