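import Crest.Agent.R165.WtIso_898
import Crest.Agent.R165.PlaneSum_901
import Crest.Agent.R165.FRDLat_439
import Crest.Agent.R165.GeOps_337

/-!
# Row 165 (S0250), block G: global symmetries (translations, rotation, reflection) (helper898)

`GIso w v` : a signed bijection of the half-edges, isometric on faces, which intertwines the
operators `A_w`, `A_v` up to a sign `ε = ±1` (`ε = -1` for the real form of the reflection).

* `iter_pull`, `nnB_pull`, `dn_push`, `wt_push`, `wU_push`, `pnorm_push` : invariance of the weights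
* `revG : Ge V →ₐ Ge V`, `pnorm_rev'`, `cvG_revG`
* `pull_slop`, `pull_Sop`, `SopC_push` : the slices are invariant up to `ε`
* `GIso.Φ : Ge (Fld G) →ₐ Ge (Fld H)` : `mpG push` for `ε = 1`, `revG ∘ mpG push` for `ε = -1`;
  `Φ_cvG`, `pG_Φ`, `ctG_Φ`, `EEG_Φ`
* `size_image`, `near_image`, `touch_image`, `NK_image`
* `gTau t`, `gRho y`, `gSig y : GIso (wPl ℤ) (wPl ℤ)` and the dictionary with 901's maps
-/

set_option autoImplicit false
set_option linter.unusedSectionVars false

noncomputable section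

open scoped ENNReal
open Polynomial
open Crest.Agent.R165.Gr0x606 Crest.Agent.R165.Gr1x606 Crest.Agent.R165.Latx683
  Crest.Agent.R165.PNormx417 Crest.Agent.R165.GDefx387 Crest.Agent.R165.Wtx898
  Crest.Agent.R165.WtIsox898 Crest.Agent.R165.PlaneModesx901 Crest.Agent.R165.Locx901
  Crest.Agent.R165.GeOpsx337 Crest.Agent.R165.GrLocx337 Crest.Agent.R165.FRDPolyx439
  Crest.Agent.R165.FRDLatx439

namespace Crest.Agent.R165.WtD4x898

/-! ### reversal -/

section rev

variable {V : Type*} [AddCommGroup V] [Module ℝ V] {V' : Type*} [AddCommGroup V'] [Module ℝ V']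

theorem rev'_mono (L : List V) : rev' (mono L) = mono L.reverse := by
  induction L with
  | nil => simp
  | cons x L ih => rw [mono_cons, rev'_mul, ih, rev'_fi, List.reverse_cons, mono_append,
      mono_singleton]

theorem mwt_reverse (w : V → ℝ≥0∞) (L : List V) : mwt w L.reverse = mwt w L := by
  rw [mwt, mwt, List.map_reverse, List.prod_reverse]

theorem pnorm_rev'_le (w : V → ℝ≥0∞) (F : Gr V) : pnorm w (rev' F) ≤ pnorm w F :=
  bound_of_mono_one (pnorm_semi w) (rev' (V := V)) (fun L _ => by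
    rw [rev'_mono]
    exact (pnorm_mono_le w _).trans (mwt_reverse w L).le) F

/-- the projective norms are invariant under reversal -/
theorem pnorm_rev' (w : V → ℝ≥0∞) (F : Gr V) : pnorm w (rev' F) = pnorm w F :=
  le_antisymm (pnorm_rev'_le w F) (by
    conv_lhs => rw [← rev'_rev' F]
    exact pnorm_rev'_le w _)

/-- reversal is an algebra map on the even part -/
def revG : Ge V →ₐ[ℝ] Ge V where
  toFun a := ⟨rev' (a : Gr V), IsEv.rev' a.2⟩
  map_one' := ge_ext (by simp)
  map_mul' a b := ge_ext (by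
    show rev' ((a * b : Ge V) : Gr V) = _
    rw [Ge.coe_mul, rev'_mul_ev (Ge.isEv a) (Ge.isEv b)]
    rfl)
  map_zero' := ge_ext (by show rev' (0 : Gr V) = 0; rw [map_zero])
  map_add' a b := ge_ext (by
    show rev' ((a : Gr V) + (b : Gr V)) = rev' (a : Gr V) + rev' (b : Gr V)
    rw [map_add])
  commutes' r := ge_ext (by show rev' (algebraMap ℝ (Gr V) r) = algebraMap ℝ (Gr V) r; simp)

@[simp] theorem coe_revG (a : Ge V) : ((revG a : Ge V) : Gr V) = rev' (a : Gr V) := rfl

@[simp] theorem revG_revG (a : Ge V) : revG (revG a) = a := ge_ext (by simp)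

theorem revG_mpG (f : V →ₗ[ℝ] V') (a : Ge V) : revG (mpG f a) = mpG f (revG a) :=
  ge_ext (by rw [coe_revG, coe_mpG, coe_mpG, coe_revG, mp_rev'])

theorem cvG_revG (S : Cov V) (a : Ge V) : cvG S (revG a) = revG (cvG (-S) a) :=
  ge_ext (by rw [coe_cvG, coe_revG, coe_revG, coe_cvG, conv_rev'])

theorem ctG_revG (a : Ge V) : ctG (revG a) = ctG a := by
  rw [ctG_apply, ctG_apply, coe_revG, ct_rev']

theorem pG_revG (w : V → ℝ≥0∞) (a : Ge V) : pG w (revG a) = pG w a := by
  rw [pG_def, pG_def, coe_revG, pnorm_rev']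

theorem rev'_mem_gr {W : Submodule ℝ V} {a : Gr V} (ha : a ∈ gr W) : rev' a ∈ gr W := by
  refine gr_ind (P := fun b => rev' b ∈ gr W) ?_ ?_ ?_ ha
  · intro r
    show rev' (algebraMap ℝ (Gr V) r) ∈ gr W
    rw [rev'_algebraMap]; exact Subalgebra.algebraMap_mem _ _
  · intro x hx b _ ih
    show rev' (fi x * b) ∈ gr W
    rw [rev'_mul, rev'_fi]; exact mul_mem ih (fi_mem_gr hx)
  · intro b _ c _ ihb ihc
    show rev' (b + c) ∈ gr W
    rw [map_add]; exact add_mem ihb ihc

theorem revG_mem {W : Submodule ℝ V} {a : Ge V} (ha : a ∈ grG W) : revG a ∈ grG W :=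
  rev'_mem_gr ha

end rev


/-! ### global symmetries -/

variable {G : Type} [CommRing G] [CN G] {H : Type} [CommRing H] [CN H]

theorem card_le_size {r : ℕ} {U P : Finset (G × G)} (hP : P ⊆ U)
    (h : ∀ a ∈ P, ∀ b ∈ P, a ≠ b → r < fd a b) : P.card ≤ size r U := by
  classical
  unfold size
  refine Finset.le_sup (f := Finset.card) ?_
  rw [Finset.mem_filter, Finset.mem_powerset]
  exact ⟨hP, h⟩

theorem size_le_of {r n : ℕ} {U : Finset (G × G)}
    (h : ∀ P ⊆ U, (∀ a ∈ P, ∀ b ∈ P, a ≠ b → r < fd a b) → P.card ≤ n) : size r U ≤ n := by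
  classical
  unfold size
  refine Finset.sup_le fun P hP => ?_
  rw [Finset.mem_filter, Finset.mem_powerset] at hP
  exact h P hP.1 hP.2

/-- a signed bijection of half-edges which intertwines the operators up to a sign -/
structure GIso (w : BW G) (v : BW H) where
  /-- on half-edges -/
  p : HE G ≃ HE H
  /-- signs -/
  s : HE G → ℝ
  /-- on faces -/
  φ : G × G ≃ H × H
  /-- the sign of the symmetry -/
  ε : ℝ
  fst : ∀ h, (p h).1 = φ h.1
  iso : ∀ f g, fd (φ f) (φ g) = fd f g
  sq : ∀ h, s h * s h = 1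
  εsq : ε * ε = 1
  A : ∀ f : HE H → ℝ, Aop w (pull p s f) = ε • pull p s (Aop v f)

namespace GIso

variable {w : BW G} {v : BW H} (c : GIso w v)

theorem pull_symm_pull (f : HE G → ℝ) :
    pull c.p c.s (pull c.p.symm (fun g => c.s (c.p.symm g)) f) = f := by
  funext h
  rw [pull_apply, pull_apply, Equiv.symm_apply_apply, ← mul_assoc, c.sq, one_mul]

theorem pull_pull_symm (f : HE H → ℝ) :
    pull c.p.symm (fun g => c.s (c.p.symm g)) (pull c.p c.s f) = f := by
  funext h
  rw [pull_apply, pull_apply, Equiv.apply_symm_apply, ← mul_assoc, c.sq, one_mul]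

/-- the inverse symmetry -/
def symm : GIso v w where
  p := c.p.symm
  s g := c.s (c.p.symm g)
  φ := c.φ.symm
  ε := c.ε
  fst g := by
    have h := c.fst (c.p.symm g)
    rw [Equiv.apply_symm_apply] at h
    rw [h, Equiv.symm_apply_apply]
  iso f g := by
    have h := c.iso (c.φ.symm f) (c.φ.symm g)
    rw [Equiv.apply_symm_apply, Equiv.apply_symm_apply] at h
    exact h.symm
  sq g := c.sq _
  εsq := c.εsq
  A f := by
    have h1 := c.A (pull c.p.symm (fun g => c.s (c.p.symm g)) f)
    rw [c.pull_symm_pull] at h1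
    rw [h1, map_smul, c.pull_pull_symm, smul_smul, c.εsq, one_smul]

theorem symm_p : c.symm.p = c.p.symm := rfl
theorem symm_φ : c.symm.φ = c.φ.symm := rfl
theorem symm_ε : c.symm.ε = c.ε := rfl

theorem abs_ε : |c.ε| = 1 := by
  have h := c.εsq
  have h1 : |c.ε| * |c.ε| = 1 := by rw [abs_mul_abs_self, h]
  nlinarith [abs_nonneg c.ε]

theorem ε_or : c.ε = 1 ∨ c.ε = -1 := mul_self_eq_one_iff.1 c.εsq

theorem iter_pull (f : HE H → ℝ) (n : ℕ) :
    (Aop w)^[n] (pull c.p c.s f) = c.ε ^ n • pull c.p c.s ((Aop v)^[n] f) := by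
  induction n with
  | zero => simp
  | succ n ih =>
    rw [Function.iterate_succ_apply', ih, map_smul, c.A, smul_smul,
      Function.iterate_succ_apply', pow_succ]

theorem mem_ball {x f : G × G} {R : ℕ} : c.φ f ∈ ball (c.φ x) R ↔ f ∈ ball x R := by
  rw [GDefx387.mem_ball, GDefx387.mem_ball, c.iso]

theorem l2_pull (x : G × G) (R : ℕ) (f : HE H → ℝ) :
    l2 (restr (ball x R) (pull c.p c.s f)) = l2 (restr (ball (c.φ x) R) f) := by
  classical
  unfold l2
  congr 1
  rw [← c.p.tsum_eq]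
  refine tsum_congr fun h => ?_
  unfold restr
  have h1 : (c.p h).1 ∈ ball (c.φ x) R ↔ h.1 ∈ ball x R := by rw [c.fst, c.mem_ball]
  by_cases hh : h.1 ∈ ball x R
  · rw [if_pos hh, if_pos (h1.2 hh), pull_apply, mul_pow, pow_two (c.s h), c.sq, one_mul]
  · rw [if_neg hh, if_neg fun hc => hh (h1.1 hc)]

theorem l2_smul_eps (n : ℕ) (x : G × G) (R : ℕ) (f : HE G → ℝ) :
    l2 (restr (ball x R) (c.ε ^ n • f)) = l2 (restr (ball x R) f) := by
  have h := L2on_smul (ball_finite x R) (c.ε ^ n) f
  rw [abs_pow, c.abs_ε, one_pow, one_mul] at h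
  exact h

/-- invariance of the local test norms -/
theorem nnB_pull (r : ℕ) (x : G × G) (f : HE H → ℝ) :
    nnB w r x (pull c.p c.s f) = nnB v r (c.φ x) f := by
  unfold nnB
  refine Finset.sum_congr rfl fun n _ => ?_
  rw [c.iter_pull, c.l2_smul_eps, c.l2_pull]

/-! #### action on the fields -/

/-- the action on the fields -/
def psh : Fld G →ₗ[ℝ] Fld H := push c.p c.s

theorem psh_def : c.psh = push c.p c.s := rfl

theorem psh_single (h : HE G) (a : ℝ) :
    c.psh (Finsupp.single h a) = Finsupp.single (c.p h) (a * c.s h) := by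
  have : (Finsupp.single h a : Fld G) = a • Finsupp.single h 1 := by
    rw [Finsupp.smul_single, smul_eq_mul, mul_one]
  rw [this, map_smul, psh, push_single, Finsupp.smul_single, Finsupp.smul_single, smul_eq_mul,
    smul_eq_mul, mul_one]

theorem symm_psh_psh : c.symm.psh ∘ₗ c.psh = LinearMap.id := by
  refine Finsupp.lhom_ext fun h a => ?_
  rw [LinearMap.comp_apply, psh_single, psh_single]
  show Finsupp.single (c.p.symm (c.p h)) (a * c.s h * c.s (c.p.symm (c.p h))) = _
  rw [Equiv.symm_apply_apply, mul_assoc, c.sq, mul_one]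
  rfl

theorem psh_symm_psh : c.psh ∘ₗ c.symm.psh = LinearMap.id := by
  refine Finsupp.lhom_ext fun h a => ?_
  rw [LinearMap.comp_apply, psh_single, psh_single]
  show Finsupp.single (c.p (c.p.symm h)) (a * c.s (c.p.symm h) * c.s (c.p.symm h)) = _
  rw [Equiv.apply_symm_apply, mul_assoc, c.sq, mul_one]
  rfl

@[simp] theorem symm_psh (l : Fld G) : c.symm.psh (c.psh l) = l := by
  have := congrArg (fun T => T l) c.symm_psh_psh
  exact this

@[simp] theorem psh_symm (l : Fld H) : c.psh (c.symm.psh l) = l := by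
  have := congrArg (fun T => T l) c.psh_symm_psh
  exact this

theorem psh_apply (l : Fld G) (h : HE G) : c.psh l (c.p h) = c.s h * l h := by
  classical
  induction l using Finsupp.induction_linear with
  | zero => simp
  | add l l' ihl ihl' => rw [map_add, Finsupp.add_apply, ihl, ihl', Finsupp.add_apply]; ring
  | single h' a =>
    rw [psh_single, Finsupp.single_apply, Finsupp.single_apply]
    by_cases hh : h' = h
    · subst hh; rw [if_pos rfl, if_pos rfl]; ring
    · rw [if_neg fun e => hh (c.p.injective e), if_neg hh, mul_zero]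

theorem pull_psh (l : Fld G) : pull c.p c.s (c.psh l) = (l : HE G → ℝ) := by
  funext h
  rw [pull_apply, psh_apply, ← mul_assoc, c.sq, one_mul]

theorem pair_psh (l : Fld G) (f : HE H → ℝ) : pair (c.psh l) f = pair l (pull c.p c.s f) :=
  pair_push _ _ _ _

theorem suppL_psh {x : G × G} {R : ℕ} {l : Fld G} :
    SuppL (ball (c.φ x) R) (c.psh l) ↔ SuppL (ball x R) l := by
  constructor
  · intro h e he
    have h1 : c.psh l (c.p e) ≠ 0 := by
      rw [psh_apply]
      refine mul_ne_zero (fun h0 => ?_) he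
      have := c.sq e
      rw [h0] at this; norm_num at this
    have h2 := h _ h1
    rw [c.fst, c.mem_ball] at h2
    exact h2
  · intro h e he
    obtain ⟨e', rfl⟩ := c.p.surjective e
    rw [c.fst, c.mem_ball]
    refine h e' fun h0 => he ?_
    rw [psh_apply, h0, mul_zero]

theorem dn_psh_le (r : ℕ) (x : G × G) (l : Fld G) : dn v r (c.φ x) (c.psh l) ≤ dn w r x l :=
  dn_le fun f hf => by
    rw [c.pair_psh]
    exact le_dn (by rw [c.nnB_pull]; exact hf) l

/-- invariance of the dual norms -/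
theorem dn_psh (r : ℕ) (x : G × G) (l : Fld G) : dn v r (c.φ x) (c.psh l) = dn w r x l := by
  refine le_antisymm (c.dn_psh_le r x l) ?_
  have h := c.symm.dn_psh_le r (c.φ x) (c.psh l)
  rwa [symm_psh, symm_φ, Equiv.symm_apply_apply] at h

/-- **invariance of the weights** -/
theorem wt_psh (a : ℝ) (r : ℕ) (x : G × G) (l : Fld G) :
    wt v a r (c.φ x) (c.psh l) = wt w a r x l := by
  rw [Wtx898.wt_eq, Wtx898.wt_eq, c.dn_psh]

/-- **invariance of the weights relative to a set of faces** -/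
theorem wU_psh [DecidableEq H] (a : ℝ) (r : ℕ) (U : Finset (G × G)) (l : Fld G) :
    wU v a r (U.image c.φ) (c.psh l) = wU w a r U l := by
  classical
  unfold wU
  have : ∀ x, (if SuppL (ball (c.φ x) (s0 * r)) (c.psh l) then wt v a r (c.φ x) (c.psh l) else ∞) =
      (if SuppL (ball x (s0 * r)) l then wt w a r x l else ∞) := by
    intro x
    by_cases hl : SuppL (ball x (s0 * r)) l
    · rw [if_pos hl, if_pos (c.suppL_psh.2 hl), c.wt_psh]
    · rw [if_neg hl, if_neg fun h => hl (c.suppL_psh.1 h)]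
  refine le_antisymm ?_ ?_
  · refine le_iInf₂ fun x hx => ?_
    rw [← this x]
    exact iInf₂_le (c.φ x) (Finset.mem_image_of_mem _ hx)
  · refine le_iInf₂ fun y hy => ?_
    obtain ⟨x, hx, rfl⟩ := Finset.mem_image.1 hy
    rw [this x]
    exact iInf₂_le x hx

theorem image_symm_image [DecidableEq G] [DecidableEq H] (U : Finset (G × G)) :
    (U.image c.φ).image c.symm.φ = U := by
  rw [Finset.image_image]
  have : (c.symm.φ ∘ c.φ : G × G → G × G) = id := by
    funext x; simp [symm_φ]
  rw [this, Finset.image_id]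

/-- **invariance of the norms of the activities** -/
theorem pnorm_psh [DecidableEq G] [DecidableEq H] (a : ℝ) (r : ℕ) (U : Finset (G × G))
    (F : Gr (Fld G)) : pnorm (wU v a r (U.image c.φ)) (mp c.psh F) = pnorm (wU w a r U) F := by
  refine le_antisymm (pnorm_mp_le _ (fun l => (c.wU_psh a r U l).le) F) ?_
  have h := pnorm_mp_le (w := wU v a r (U.image c.φ)) (w' := wU w a r U) c.symm.psh (fun l => by
    have h1 := c.symm.wU_psh a r (U.image c.φ) l
    rw [c.image_symm_image] at h1
    exact h1.le) (mp c.psh F)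
  rwa [mp_mp, symm_psh_psh, GrLocx337.mp_id] at h

/-! #### slices -/

theorem pull_Qop (f : HE H → ℝ) : pull c.p c.s (Qop v f) = Qop w (pull c.p c.s f) := by
  have h1 : ∀ (u : BW H) (g : HE H → ℝ), Qop u g = -(Aop u (Aop u g)) := fun _ _ => rfl
  have h2 : ∀ (u : BW G) (g : HE G → ℝ), Qop u g = -(Aop u (Aop u g)) := fun _ _ => rfl
  rw [h1, h2, map_neg, c.A, map_smul, c.A, smul_smul, c.εsq, one_smul]

theorem pull_Qop_pow (n : ℕ) (f : HE H → ℝ) :
    pull c.p c.s ((Qop v ^ n) f) = (Qop w ^ n) (pull c.p c.s f) := by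
  induction n with
  | zero => simp
  | succ n ih => rw [pow_succ', pow_succ', Module.End.mul_apply, Module.End.mul_apply, c.pull_Qop,
      ih]

theorem pull_aeval (q : ℝ[X]) (f : HE H → ℝ) :
    pull c.p c.s (aeval (Qop v) q f) = aeval (Qop w) q (pull c.p c.s f) := by
  induction q using Polynomial.induction_on' with
  | add q q' ih ih' =>
    rw [map_add, map_add, LinearMap.add_apply, LinearMap.add_apply, map_add, ih, ih']
  | monomial n a =>
    rw [aeval_monomial, aeval_monomial, Module.End.mul_apply, Module.End.mul_apply,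
      Module.algebraMap_end_apply, Module.algebraMap_end_apply, map_smul, c.pull_Qop_pow]

theorem slop_pull (q : ℝ[X]) (f : HE H → ℝ) :
    slop w q (pull c.p c.s f) = c.ε • pull c.p c.s (slop v q f) := by
  unfold slop
  rw [Module.End.mul_apply, Module.End.mul_apply, ← c.pull_aeval, c.A]

variable {Λ : ℝ} {M K : ℕ} (D : FRD Λ M K)

/-- the slices intertwine up to the sign of the symmetry -/
theorem Sop_pull (a b : ℕ) (f : HE H → ℝ) :
    Sop w D a b (pull c.p c.s f) = c.ε • pull c.p c.s (Sop v D a b f) := by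
  unfold Sop
  rw [LinearMap.sum_apply, LinearMap.sum_apply, map_sum, Finset.smul_sum]
  exact Finset.sum_congr rfl fun j _ => c.slop_pull _ f

/-- **the covariances of the slices are invariant up to the sign of the symmetry** -/
theorem SopC_psh (a b : ℕ) (l m : Fld G) :
    (SopC D v a b).b (c.psh l) (c.psh m) = c.ε * (SopC D w a b).b l m := by
  rw [SopC_apply, SopC_apply, c.pair_psh]
  have h := c.Sop_pull D a b (c.psh m)
  rw [c.pull_psh] at h
  rw [h, Wtx898.pair_smul_right, ← mul_assoc, c.εsq, one_mul]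

/-- the action of the symmetry on the even elements -/
def Φ : Ge (Fld G) →ₐ[ℝ] Ge (Fld H) :=
  open Classical in if c.ε = 1 then mpG c.psh else revG.comp (mpG c.psh)

theorem Φ_of_one (h : c.ε = 1) : c.Φ = mpG c.psh := by unfold Φ; rw [if_pos h]

theorem Φ_of_neg (h : c.ε = -1) : c.Φ = revG.comp (mpG c.psh) := by
  unfold Φ; rw [if_neg (by rw [h]; norm_num)]

/-- **the convolution by the slices commutes with the symmetry** -/
theorem Φ_cvG {S : Cov (Fld G)} {T : Cov (Fld H)}
    (h : ∀ x y, T.b (c.psh x) (c.psh y) = c.ε * S.b x y) (F : Ge (Fld G)) :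
    c.Φ (cvG S F) = cvG T (c.Φ F) := by
  rcases c.ε_or with h1 | h1
  · rw [c.Φ_of_one h1]
    refine ge_ext ?_
    rw [coe_mpG, coe_cvG, coe_cvG, coe_mpG]
    exact mp_conv c.psh S T (fun x y => by rw [h, h1, one_mul]) _
  · rw [c.Φ_of_neg h1, AlgHom.comp_apply, AlgHom.comp_apply, cvG_revG]
    congr 1
    refine ge_ext ?_
    rw [coe_mpG, coe_cvG, coe_cvG, coe_mpG]
    exact mp_conv c.psh S (-T) (fun x y => by
      rw [Cov.neg_b, LinearMap.neg_apply, LinearMap.neg_apply, h, h1]; ring) _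

theorem Φ_cvG_Sop (a b : ℕ) (F : Ge (Fld G)) :
    c.Φ (cvG (SopC D w a b) F) = cvG (SopC D v a b) (c.Φ F) :=
  c.Φ_cvG (c.SopC_psh D a b) F

theorem ctG_Φ (F : Ge (Fld G)) : ctG (c.Φ F) = ctG F := by
  rcases c.ε_or with h1 | h1
  · rw [c.Φ_of_one h1, ctG_mpG]
  · rw [c.Φ_of_neg h1, AlgHom.comp_apply, ctG_revG, ctG_mpG]

theorem EEG_Φ {S : Cov (Fld G)} {T : Cov (Fld H)}
    (h : ∀ x y, T.b (c.psh x) (c.psh y) = c.ε * S.b x y) (F : Ge (Fld G)) :
    EEG T (c.Φ F) = EEG S F := by
  rw [← ctG_cvG, ← c.Φ_cvG h, c.ctG_Φ, ctG_cvG]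

/-- **invariance of the norms** -/
theorem pG_Φ [DecidableEq G] [DecidableEq H] (a : ℝ) (r : ℕ) (U : Finset (G × G))
    (F : Ge (Fld G)) : pG (wU v a r (U.image c.φ)) (c.Φ F) = pG (wU w a r U) F := by
  rcases c.ε_or with h1 | h1
  · rw [c.Φ_of_one h1, pG_def, coe_mpG, c.pnorm_psh]; rfl
  · rw [c.Φ_of_neg h1, AlgHom.comp_apply, pG_revG, pG_def, coe_mpG, c.pnorm_psh]; rfl

theorem Φ_mem {W : Submodule ℝ (Fld G)} {F : Ge (Fld G)} (h : F ∈ grG W) :
    c.Φ F ∈ grG (W.map c.psh) := by
  rcases c.ε_or with h1 | h1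
  · rw [c.Φ_of_one h1]
    exact mpG_mem _ (fun x hx => Submodule.mem_map_of_mem hx) h
  · rw [c.Φ_of_neg h1]
    exact revG_mem (mpG_mem _ (fun x hx => Submodule.mem_map_of_mem hx) h)

/-- the Gram forms of the slices are invariant -/
theorem pull_Sop_one (a b : ℕ) (f : HE H → ℝ) :
    pull c.p c.s (Sop v D a b f) = c.ε • Sop w D a b (pull c.p c.s f) := by
  rw [c.Sop_pull, smul_smul, c.εsq, one_smul]

/-! #### sets of faces -/

theorem size_le [DecidableEq H] (r : ℕ) (U : Finset (G × G)) :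
    size r (U.image c.φ) ≤ size r U := by
  classical
  refine size_le_of fun P hP hsep => ?_
  obtain ⟨Q, hQ, rfl⟩ := Finset.subset_image_iff.1 hP
  rw [Finset.card_image_of_injective _ c.φ.injective]
  refine card_le_size (fun x hx => hQ hx) fun a ha b hb hab => ?_
  have := hsep _ (Finset.mem_image_of_mem _ ha) _ (Finset.mem_image_of_mem _ hb)
    (fun h => hab (c.φ.injective h))
  rwa [c.iso] at this

theorem size_image [DecidableEq G] [DecidableEq H] (r : ℕ) (U : Finset (G × G)) :
    size r (U.image c.φ) = size r U := by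
  refine le_antisymm (c.size_le r U) ?_
  have h := c.symm.size_le r (U.image c.φ)
  rwa [c.image_symm_image] at h

theorem near_image [DecidableEq H] (r : ℕ) (f : G × G) (U : Finset (G × G)) :
    Near r (c.φ f) (U.image c.φ) ↔ Near r f U := by
  unfold Near
  constructor
  · rintro ⟨u, hu, h⟩
    obtain ⟨u', hu', rfl⟩ := Finset.mem_image.1 hu
    exact ⟨u', hu', by rwa [c.iso] at h⟩
  · rintro ⟨u, hu, h⟩
    exact ⟨c.φ u, Finset.mem_image_of_mem _ hu, by rwa [c.iso]⟩

theorem touch_image [DecidableEq H] (R : ℕ) (U U' : Finset (G × G)) :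
    GDefx387.touch R (U.image c.φ) (U'.image c.φ) ↔ GDefx387.touch R U U' := by
  unfold GDefx387.touch
  constructor
  · rintro ⟨u, hu, u', hu', h⟩
    obtain ⟨x, hx, rfl⟩ := Finset.mem_image.1 hu
    obtain ⟨x', hx', rfl⟩ := Finset.mem_image.1 hu'
    exact ⟨x, hx, x', hx', by rwa [c.iso] at h⟩
  · rintro ⟨u, hu, u', hu', h⟩
    exact ⟨c.φ u, Finset.mem_image_of_mem _ hu, c.φ u', Finset.mem_image_of_mem _ hu', by
      rwa [c.iso]⟩

/-- the bijection of the sets of faces -/
def img [DecidableEq G] [DecidableEq H] : Finset (G × G) ≃ Finset (H × H) where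
  toFun U := U.image c.φ
  invFun U := U.image c.φ.symm
  left_inv U := by
    show (U.image c.φ).image c.φ.symm = U
    rw [Finset.image_image]; simp
  right_inv U := by
    show (U.image c.φ.symm).image c.φ = U
    rw [Finset.image_image]; simp

@[simp] theorem img_apply [DecidableEq G] [DecidableEq H] (U : Finset (G × G)) :
    c.img U = U.image c.φ := rfl

open Classical in
/-- **invariance of the norm of the families of activities** -/
theorem NK_image (a : ℝ) (r : ℕ) (Γ : ℝ≥0∞) {q : Finset (G × G) → Prop}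
    {q' : Finset (H × H) → Prop} {K : Finset (G × G) → Gr (Fld G)}
    {K' : Finset (H × H) → Gr (Fld H)} (hq : ∀ U, q' (U.image c.φ) ↔ q U)
    (hK : ∀ U, pnorm (wU v a r (U.image c.φ)) (K' (U.image c.φ)) = pnorm (wU w a r U) (K U)) :
    NK v a r Γ q' K' = NK w a r Γ q K := by
  unfold NK
  rw [← c.φ.iSup_comp]
  refine iSup_congr fun f => ?_
  rw [← c.img.tsum_eq]
  refine tsum_congr fun U => ?_
  rw [c.img_apply]
  have h1 : (Near r (c.φ f) (U.image c.φ) ∧ q' (U.image c.φ)) ↔ (Near r f U ∧ q U) := by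
    rw [c.near_image, hq]
  by_cases h : Near r f U ∧ q U
  · rw [if_pos h, if_pos (h1.2 h), c.size_image, hK]
  · rw [if_neg h, if_neg fun hc => h (h1.1 hc)]

open Classical in
/-- the same for even activities related by the action of the symmetry -/
theorem NK_Φ (a : ℝ) (r : ℕ) (Γ : ℝ≥0∞) {q : Finset (G × G) → Prop}
    {q' : Finset (H × H) → Prop} {K : Finset (G × G) → Ge (Fld G)}
    {K' : Finset (H × H) → Ge (Fld H)} (hq : ∀ U, q' (U.image c.φ) ↔ q U)
    (hK : ∀ U, c.Φ (K U) = K' (U.image c.φ)) :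
    NK v a r Γ q' (fun U => (K' U : Gr (Fld H))) = NK w a r Γ q (fun U => (K U : Gr (Fld G))) :=
  c.NK_image a r Γ hq fun U => by
    rw [← hK]
    exact c.pG_Φ a r U (K U)

end GIso


/-! ### the symmetries of the plane -/

section plane

open Crest.Agent.R165.PlaneSumx901 Crest.Agent.R165.PlaneCovx901 Crest.Agent.R165.PlaneLocx901

/-- translations -/
def gTau (t : Fc) : GIso (wPl ℤ) (wPl ℤ) where
  p :=
    { toFun := tauH t
      invFun := tauH (-t)
      left_inv := fun h => by
        refine Prod.ext ?_ rfl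
        show h.1 + t + -t = h.1
        abel
      right_inv := fun h => by
        refine Prod.ext ?_ rfl
        show h.1 + -t + t = h.1
        abel }
  s _ := 1
  φ := Equiv.addRight t
  ε := 1
  fst h := rfl
  iso f g := fd_add f g t
  sq _ := one_mul _
  εsq := one_mul _
  A f := by rw [one_smul]; exact Apl_tauS t f

/-- the inverse rotation of faces -/
def rotI (y x : Fc) : Fc := (y.1 + (x.2 - y.2), y.2 - (x.1 - y.1))

theorem rotI_rot (y x : Fc) : rotI y (rot y x) = x := by ext <;> simp [rot, rotI]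
theorem rot_rotI (y x : Fc) : rot y (rotI y x) = x := by ext <;> simp [rot, rotI]
theorem ref_ref (y x : Fc) : ref y (ref y x) = x := by ext <;> simp [ref]

/-- the cyclic permutation of the directions -/
def cyc4 : Fin 4 ≃ Fin 4 where
  toFun := ![1, 2, 3, 0]
  invFun := ![3, 0, 1, 2]
  left_inv d := by fin_cases d <;> rfl
  right_inv d := by fin_cases d <;> rfl

/-- the reflection of the directions -/
def swp4 : Fin 4 ≃ Fin 4 where
  toFun := ![0, 3, 2, 1]
  invFun := ![0, 3, 2, 1]
  left_inv d := by fin_cases d <;> rfl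
  right_inv d := by fin_cases d <;> rfl

/-- the rotation of faces about `y` -/
def rotE (y : Fc) : Fc ≃ Fc := ⟨rot y, rotI y, rotI_rot y, rot_rotI y⟩

/-- the reflection of faces about `y` -/
def refE (y : Fc) : Fc ≃ Fc := ⟨ref y, ref y, ref_ref y, ref_ref y⟩

/-- rotation by a right angle about the centre of the face `y` -/
def gRho (y : Fc) : GIso (wPl ℤ) (wPl ℤ) where
  p := Equiv.prodCongr (rotE y) cyc4
  s := rhoSgn
  φ := rotE y
  ε := 1
  fst h := rfl
  iso f g := fd_rot y f g
  sq h := by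
    obtain ⟨x, d⟩ := h
    fin_cases d <;> simp [rhoSgn]
  εsq := one_mul _
  A f := by rw [one_smul]; exact Apl_rhoS y f

/-- reflection about the centre of the face `y` -/
def gSig (y : Fc) : GIso (wPl ℤ) (wPl ℤ) where
  p := Equiv.prodCongr (refE y) swp4
  s := sigSgn
  φ := refE y
  ε := -1
  fst h := rfl
  iso f g := fd_ref y f g
  sq h := by
    obtain ⟨x, d⟩ := h
    fin_cases d <;> simp [sigSgn]
  εsq := by norm_num
  A f := by rw [neg_one_smul]; exact Apl_sigS y f

@[simp] theorem gTau_φ (t : Fc) : ((gTau t).φ : Fc → Fc) = (· + t) := rfl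
@[simp] theorem gRho_φ (y : Fc) : ((gRho y).φ : Fc → Fc) = rot y := rfl
@[simp] theorem gSig_φ (y : Fc) : ((gSig y).φ : Fc → Fc) = ref y := rfl
@[simp] theorem gTau_psh (t : Fc) : (gTau t).psh = tauV t := rfl
@[simp] theorem gRho_psh (y : Fc) : (gRho y).psh = rhoV y := rfl
@[simp] theorem gSig_psh (y : Fc) : (gSig y).psh = sigV y := rfl
theorem gTau_Φ (t : Fc) : (gTau t).Φ = mpG (tauV t) := GIso.Φ_of_one _ rfl
theorem gRho_Φ (y : Fc) : (gRho y).Φ = mpG (rhoV y) := GIso.Φ_of_one _ rfl
theorem gSig_Φ (y : Fc) : (gSig y).Φ = revG.comp (mpG (sigV y)) := GIso.Φ_of_neg _ rfl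

@[simp] theorem coe_gTau_Φ (t : Fc) (F : Ge (Fld ℤ)) :
    (((gTau t).Φ F : Ge (Fld ℤ)) : Gr (Fld ℤ)) = mp (tauV t) F := by rw [gTau_Φ]; rfl
@[simp] theorem coe_gRho_Φ (y : Fc) (F : Ge (Fld ℤ)) :
    (((gRho y).Φ F : Ge (Fld ℤ)) : Gr (Fld ℤ)) = mp (rhoV y) F := by rw [gRho_Φ]; rfl
@[simp] theorem coe_gSig_Φ (y : Fc) (F : Ge (Fld ℤ)) :
    (((gSig y).Φ F : Ge (Fld ℤ)) : Gr (Fld ℤ)) = rev' (mp (sigV y) (F : Gr (Fld ℤ))) := by
  rw [gSig_Φ]; rfl

/-- the generating symmetries of the plane -/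
def PlGen (c : GIso (wPl ℤ) (wPl ℤ)) : Prop := (∃ t, c = gTau t) ∨ c = gRho 0 ∨ c = gSig 0

/-- covariance of a family of even activities under one symmetry -/
def Cv (c : GIso (wPl ℤ) (wPl ℤ)) (K : Finset Fc → Ge (Fld ℤ)) : Prop :=
  ∀ U, c.Φ (K U) = K (U.image c.φ)

/-- 901's covariance is covariance under the generating symmetries -/
theorem plSym_iff {K : Finset Fc → Ge (Fld ℤ)} :
    PlSym (fun U => (K U : Gr (Fld ℤ))) ↔ ∀ c, PlGen c → Cv c K := by
  constructor
  · rintro h c (⟨t, rfl⟩ | rfl | rfl) U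
    · exact ge_ext (by rw [coe_gTau_Φ, gTau_φ]; exact (h.tau t U).symm)
    · exact ge_ext (by rw [coe_gRho_Φ, gRho_φ]; exact (h.rho U).symm)
    · exact ge_ext (by rw [coe_gSig_Φ, gSig_φ]; exact (h.sig U).symm)
  · intro h
    refine ⟨fun t U => ?_, fun U => ?_, fun U => ?_⟩
    · have := congrArg (fun F : Ge (Fld ℤ) => (F : Gr (Fld ℤ))) (h _ (Or.inl ⟨t, rfl⟩) U)
      simp only [coe_gTau_Φ, gTau_φ] at this
      exact this.symm
    · have := congrArg (fun F : Ge (Fld ℤ) => (F : Gr (Fld ℤ))) (h _ (Or.inr (Or.inl rfl)) U)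
      simp only [coe_gRho_Φ, gRho_φ] at this
      exact this.symm
    · have := congrArg (fun F : Ge (Fld ℤ) => (F : Gr (Fld ℤ))) (h _ (Or.inr (Or.inr rfl)) U)
      simp only [coe_gSig_Φ, gSig_φ] at this
      exact this.symm

/-- invariance of the norm of a covariant activity under a symmetry -/
theorem pG_cv {c : GIso (wPl ℤ) (wPl ℤ)} {K : Finset Fc → Ge (Fld ℤ)} (h : Cv c K) (a : ℝ) (r : ℕ)
    (U : Finset Fc) :
    pG (wU (wPl ℤ) a r (U.image c.φ)) (K (U.image c.φ)) = pG (wU (wPl ℤ) a r U) (K U) := by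
  rw [← h U, c.pG_Φ]

open Classical in
/-- the norm of a translation covariant family is a sum over the sets near one face -/
theorem NK_eq_at {K : Finset Fc → Gr (Fld ℤ)} (hK : ∀ t U, K (U.image (· + t)) = mp (tauV t) (K U))
    {q : Finset Fc → Prop} (hq : ∀ t U, q (U.image (· + t)) ↔ q U) (a : ℝ) (r : ℕ) (Γ : ℝ≥0∞)
    (f : Fc) : NK (wPl ℤ) a r Γ q K =
      ∑' U : Finset Fc, if Near r f U ∧ q U then
        Γ ^ size r U * pnorm (wU (wPl ℤ) a r U) (K U) else 0 := by
  unfold NK
  have key : ∀ g : Fc, (∑' U : Finset Fc, if Near r g U ∧ q U then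
      Γ ^ size r U * pnorm (wU (wPl ℤ) a r U) (K U) else 0) =
      ∑' U : Finset Fc, if Near r f U ∧ q U then
        Γ ^ size r U * pnorm (wU (wPl ℤ) a r U) (K U) else 0 := by
    intro g
    have hg : (gTau (g - f)).φ f = g := by
      show f + (g - f) = g
      abel
    rw [← (gTau (g - f)).img.tsum_eq]
    refine tsum_congr fun U => ?_
    rw [GIso.img_apply]
    have h1 : (Near r g (U.image (gTau (g - f)).φ) ∧ q (U.image (gTau (g - f)).φ)) ↔
        (Near r f U ∧ q U) := by
      conv_lhs => rw [← hg]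
      rw [hg]
      have h2 := (gTau (g - f)).near_image r f U
      rw [hg] at h2
      rw [h2]
      exact and_congr Iff.rfl (hq _ U)
    by_cases h : Near r f U ∧ q U
    · rw [if_pos h, if_pos (h1.2 h), GIso.size_image]
      congr 1
      have h3 := (gTau (g - f)).pnorm_psh a r U (K U)
      rw [gTau_psh, ← hK] at h3
      exact h3
    · rw [if_neg h, if_neg fun hc => h (h1.1 hc)]
  exact le_antisymm (iSup_le fun g => (key g).le) (le_iSup_of_le f le_rfl)

end plane

end Crest.Agent.R165.WtD4x898
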