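import Mathlib

/-!
# Row 165 (S0250), block U2-P3, part 1: Wu's diagonal law (helper408)

`Dg n = (2/π)^n ∏_{m=1}^{n-1} (1 - 1/(4m²))^{m-n}` in recursive form:
`Dg 0 = 1`, `Dg (n+1) = Dg n * (W n / (π/2))` with `W` the Wallis product.

* `Dg_asymp : ∃ C > 0, Tendsto (fun n => Dg n * n^(1/4)) atTop (𝓝 C)`, with rate `Dg_rate`
* `det_cauchy` : the Cauchy double alternant in recursive form
* `det_toeplitz` : `det (1/(π (k - j + 1/2)))_{j,k<n} = Dg n`
-/

set_option autoImplicit false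

noncomputable section

open Filter Topology Finset

namespace Crest.Agent.R165.WuAsyx408

open Real.Wallis in
/-- the critical diagonal two-point function of the square lattice Ising model -/
def Dg (n : ℕ) : ℝ := ∏ k ∈ range n, (W k / (Real.pi / 2))

open Real.Wallis

theorem Dg_zero : Dg 0 = 1 := by simp [Dg]

theorem Dg_succ (n : ℕ) : Dg (n + 1) = Dg n * (W n / (Real.pi / 2)) := by
  rw [Dg, prod_range_succ, ← Dg]

theorem Dg_pos (n : ℕ) : 0 < Dg n :=
  prod_pos fun k _ => div_pos (W_pos k) (by positivity)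

theorem Dg_one : Dg 1 = 2 / Real.pi := by
  rw [Dg_succ, Dg_zero, W]
  have : Real.pi ≠ 0 := Real.pi_ne_zero
  simp

/-- `W n * exp (1/(4n+2))` is decreasing -/
theorem anti_aux : Antitone fun n : ℕ => W n * Real.exp (1 / (4 * n + 2)) := by
  refine antitone_nat_of_succ_le fun n => ?_
  rw [W_succ]
  have hn : (0 : ℝ) ≤ n := n.cast_nonneg
  set N : ℝ := (n : ℝ) + 1 with hN
  have hN1 : 1 ≤ N := by rw [hN]; linarith
  have hW := W_pos n
  have h1 : ((2 * (n : ℝ) + 2) / (2 * n + 1) * ((2 * n + 2) / (2 * n + 3)))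
      ≤ Real.exp (1 / (4 * n + 2) - 1 / (4 * (n + 1 : ℝ) + 2)) := by
    have h2 : ((2 * (n : ℝ) + 2) / (2 * n + 1) * ((2 * n + 2) / (2 * n + 3)))
      = (1 / (4 * n + 2) - 1 / (4 * (n + 1 : ℝ) + 2)) + 1 := by
      field_simp
      ring
    rw [h2]
    exact Real.add_one_le_exp _
  have h3 : Real.exp (1 / (4 * (n : ℝ) + 2)) = Real.exp (1 / (4 * n + 2) - 1 / (4 * (n + 1 : ℝ) + 2)) *
      Real.exp (1 / (4 * (n + 1 : ℝ) + 2)) := by
    rw [← Real.exp_add]; congr 1; ring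
  rw [h3]
  push_cast
  have h4 := mul_le_mul_of_nonneg_right h1 (mul_nonneg hW.le (Real.exp_pos (1 / (4 * (n + 1 : ℝ) + 2))).le)
  nlinarith [h4]

/-- `W n * exp (1/(4n+4))` is increasing -/
theorem mono_aux : Monotone fun n : ℕ => W n * Real.exp (1 / (4 * n + 4)) := by
  refine monotone_nat_of_le_succ fun n => ?_
  rw [W_succ]
  have hn : (0 : ℝ) ≤ n := n.cast_nonneg
  have hW := W_pos n
  have h1 : Real.exp (1 / (4 * (n : ℝ) + 4) - 1 / (4 * (n + 1 : ℝ) + 4))
      ≤ ((2 * (n : ℝ) + 2) / (2 * n + 1) * ((2 * n + 2) / (2 * n + 3))) := by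
    have hinv : ((2 * (n : ℝ) + 1) / (2 * n + 2) * ((2 * n + 3) / (2 * n + 2)))
        ≤ Real.exp (-(1 / (4 * (n : ℝ) + 4) - 1 / (4 * (n + 1 : ℝ) + 4))) := by
      have h2 := Real.add_one_le_exp (-(1 / (4 * (n : ℝ) + 4) - 1 / (4 * (n + 1 : ℝ) + 4)))
      refine le_trans ?_ h2
      rw [div_mul_div_comm, div_le_iff₀ (by positivity)]
      have e : (-(1 / (4 * (n : ℝ) + 4) - 1 / (4 * (n + 1 : ℝ) + 4)) + 1) * ((2 * n + 2) * (2 * n + 2))
        = (2 * n + 2) * (2 * n + 2) - (n + 1) / (n + 2) := by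
        field_simp
        ring
      rw [e]
      have : ((n : ℝ) + 1) / (n + 2) ≤ 1 := by
        rw [div_le_one (by positivity)]; linarith
      nlinarith
    rw [Real.exp_neg] at hinv
    have hpos : 0 < Real.exp (1 / (4 * (n : ℝ) + 4) - 1 / (4 * (n + 1 : ℝ) + 4)) := Real.exp_pos _
    have h5 := mul_le_mul_of_nonneg_right hinv hpos.le
    rw [inv_mul_cancel₀ hpos.ne'] at h5
    have h6 : ((2 * (n : ℝ) + 2) / (2 * n + 1) * ((2 * n + 2) / (2 * n + 3))) *
      ((2 * (n : ℝ) + 1) / (2 * n + 2) * ((2 * n + 3) / (2 * n + 2))) = 1 := by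
      field_simp
    have h7 : 0 ≤ ((2 * (n : ℝ) + 2) / (2 * n + 1) * ((2 * n + 2) / (2 * n + 3))) := by positivity
    have h8 := mul_le_mul_of_nonneg_left h5 h7
    rw [← mul_assoc, h6, one_mul, mul_one] at h8
    exact h8
  have h3 : Real.exp (1 / (4 * (n : ℝ) + 4)) = Real.exp (1 / (4 * n + 4) - 1 / (4 * (n + 1 : ℝ) + 4)) *
      Real.exp (1 / (4 * (n + 1 : ℝ) + 4)) := by
    rw [← Real.exp_add]; congr 1; ring
  rw [h3]
  push_cast
  have h4 := mul_le_mul_of_nonneg_right h1 (mul_nonneg hW.le (Real.exp_pos (1 / (4 * (n + 1 : ℝ) + 4))).le)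
  nlinarith [h4]

theorem tend_W_exp (c : ℝ) :
    Tendsto (fun n : ℕ => W n * Real.exp (1 / (4 * n + c))) atTop (𝓝 (Real.pi / 2)) := by
  have h : Tendsto (fun n : ℕ => (1 : ℝ) / (4 * n + c)) atTop (𝓝 0) := by
    refine Tendsto.div_atTop tendsto_const_nhds ?_
    refine tendsto_atTop_add_const_right _ _ ?_
    exact (tendsto_natCast_atTop_atTop (R := ℝ)).const_mul_atTop (by norm_num)
  have h2 := tendsto_W_nhds_pi_div_two.mul ((Real.continuous_exp.tendsto 0).comp h)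
  simpa using h2

theorem ratio_ge (n : ℕ) : Real.exp (-(1 / (4 * n + 2))) ≤ W n / (Real.pi / 2) := by
  have h := anti_aux.le_of_tendsto (tend_W_exp 2) n
  rw [Real.exp_neg, le_div_iff₀ (by positivity), ← div_eq_inv_mul, div_le_iff₀ (Real.exp_pos _)]
  exact h

theorem ratio_le (n : ℕ) : W n / (Real.pi / 2) ≤ Real.exp (-(1 / (4 * n + 4))) := by
  have h := mono_aux.ge_of_tendsto (tend_W_exp 4) n
  rw [Real.exp_neg, div_le_iff₀ (by positivity), ← div_eq_inv_mul, le_div_iff₀ (Real.exp_pos _)]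
  exact h

/-- `n^(1/4) Dg n` has consecutive ratios `1 + O(1/n²)`: logarithmic form -/
theorem log_step (n : ℕ) (hn : 1 ≤ n) :
    |(Real.log (Dg (n + 1)) + 1 / 4 * Real.log (n + 1 : ℕ)) - (Real.log (Dg n) + 1 / 4 * Real.log n)|
      ≤ 1 / (4 * n) - 1 / (4 * (n + 1 : ℕ)) := by
  have hn0 : (0 : ℝ) < n := by exact_mod_cast hn
  have hW : 0 < W n / (Real.pi / 2) := div_pos (W_pos n) (by positivity)
  rw [Dg_succ, Real.log_mul (Dg_pos n).ne' hW.ne']
  have h1 : -(1 / (4 * (n : ℝ) + 2)) ≤ Real.log (W n / (Real.pi / 2)) := by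
    have := Real.log_le_log (Real.exp_pos _) (ratio_ge n)
    rwa [Real.log_exp] at this
  have h2 : Real.log (W n / (Real.pi / 2)) ≤ -(1 / (4 * (n : ℝ) + 4)) := by
    have := Real.log_le_log hW (ratio_le n)
    rwa [Real.log_exp] at this
  have h3 : Real.log (n + 1 : ℕ) - Real.log n ≤ 1 / n := by
    rw [← Real.log_div (by positivity) hn0.ne']
    have := Real.log_le_sub_one_of_pos (x := ((n + 1 : ℕ) : ℝ) / n) (by positivity)
    refine this.trans (le_of_eq ?_)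
    push_cast; field_simp; ring
  have h4 : 1 / (n + 1 : ℝ) ≤ Real.log (n + 1 : ℕ) - Real.log n := by
    rw [← Real.log_div (by positivity) hn0.ne']
    have := Real.log_le_sub_one_of_pos (x := (n : ℝ) / ((n + 1 : ℕ) : ℝ)) (by positivity)
    have e : Real.log (((n + 1 : ℕ) : ℝ) / n) = - Real.log ((n : ℝ) / ((n + 1 : ℕ) : ℝ)) := by
      rw [← Real.log_inv]; congr 1; rw [inv_div]
    rw [e]
    have e2 : (n : ℝ) / ((n + 1 : ℕ) : ℝ) - 1 = -(1 / (n + 1 : ℝ)) := by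
      push_cast; field_simp; ring
    rw [e2] at this
    linarith
  have h5 : 1 / (4 * (n : ℝ) + 2) ≤ 1 / (4 * n) := by
    apply one_div_le_one_div_of_le <;> linarith
  have e4 : 1 / (4 * ((n + 1 : ℕ) : ℝ)) = 1 / (4 * n + 4) := by push_cast; ring_nf
  have e5 : 1 / (4 * (n : ℝ)) = 1 / 4 * (1 / n) := by rw [one_div_mul_one_div]
  have e6 : 1 / (4 * (n : ℝ) + 4) = 1 / 4 * (1 / (n + 1 : ℝ)) := by
    rw [one_div_mul_one_div]; ring_nf
  rw [abs_le, e4]
  constructor <;> nlinarith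

theorem log_cauchy_aux (n m : ℕ) (hn : 1 ≤ n) (h : n ≤ m) :
    |(Real.log (Dg m) + 1 / 4 * Real.log m) - (Real.log (Dg n) + 1 / 4 * Real.log n)|
      ≤ 1 / (4 * n) - 1 / (4 * m) := by
  induction m, h using Nat.le_induction with
  | base => simp
  | succ m hm ih =>
    have h1 := log_step m (hn.trans hm)
    have := abs_sub_le (Real.log (Dg (m + 1)) + 1 / 4 * Real.log (m + 1 : ℕ))
      (Real.log (Dg m) + 1 / 4 * Real.log m) (Real.log (Dg n) + 1 / 4 * Real.log n)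
    linarith

theorem exists_log_lim : ∃ c : ℝ, ∀ n : ℕ, 1 ≤ n →
    |c - (Real.log (Dg n) + 1 / 4 * Real.log n)| ≤ 1 / (4 * n) := by
  set u : ℕ → ℝ := fun n => Real.log (Dg n) + 1 / 4 * Real.log n with hu
  have hc : CauchySeq u := by
    refine Metric.cauchySeq_iff'.2 fun ε hε => ?_
    obtain ⟨N, hN⟩ := exists_nat_gt (1 / ε)
    refine ⟨N + 1, fun m hm => ?_⟩
    have h := log_cauchy_aux (N + 1) m (by omega) hm
    rw [Real.dist_eq]
    have h2 : 1 / (4 * ((N + 1 : ℕ) : ℝ)) < ε := by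
      rw [div_lt_iff₀ (by positivity)]
      have : 1 < ε * N := by rwa [div_lt_iff₀' hε] at hN
      push_cast; nlinarith
    have h3 : 0 ≤ 1 / (4 * (m : ℝ)) := by positivity
    simp only [hu]
    linarith
  obtain ⟨c, hc⟩ := cauchySeq_tendsto_of_complete hc
  refine ⟨c, fun n hn => ?_⟩
  have h1 : Tendsto (fun m => |u m - u n|) atTop (𝓝 |c - u n|) := (hc.sub_const _).abs
  refine le_of_tendsto h1 ?_
  filter_upwards [eventually_ge_atTop n] with m hm
  have h := log_cauchy_aux n m hn hm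
  have h3 : 0 ≤ 1 / (4 * (m : ℝ)) := by positivity
  simp only [hu]
  linarith

/-- **Wu's asymptotics** with a rate -/
theorem Dg_rate : ∃ C : ℝ, 0 < C ∧ ∀ n : ℕ, 1 ≤ n →
    |Dg n * (n : ℝ) ^ ((1 : ℝ) / 4) - C| ≤ C / n := by
  obtain ⟨c, hc⟩ := exists_log_lim
  refine ⟨Real.exp c, Real.exp_pos c, fun n hn => ?_⟩
  have hn0 : (0 : ℝ) < n := by exact_mod_cast hn
  have h := hc n hn
  have e : Dg n * (n : ℝ) ^ ((1 : ℝ) / 4) = Real.exp (Real.log (Dg n) + 1 / 4 * Real.log n) := by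
    rw [Real.exp_add, Real.exp_log (Dg_pos n), Real.rpow_def_of_pos hn0, mul_comm (Real.log _)]
  rw [e]
  set t := Real.log (Dg n) + 1 / 4 * Real.log n with ht
  have e2 : Real.exp t - Real.exp c = Real.exp c * (Real.exp (t - c) - 1) := by
    rw [mul_sub, ← Real.exp_add]; ring_nf
  rw [e2, abs_mul, abs_of_pos (Real.exp_pos c), div_eq_mul_inv]
  refine mul_le_mul_of_nonneg_left ?_ (Real.exp_pos c).le
  have h1 : |t - c| ≤ 1 / (4 * n) := by rwa [abs_sub_comm] at h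
  have hn1 : (1 : ℝ) ≤ n := by exact_mod_cast hn
  have h2 : 1 / (4 * (n : ℝ)) ≤ 1 / 4 := by
    apply one_div_le_one_div_of_le <;> linarith
  have h3 := Real.abs_exp_sub_one_le (x := t - c) (by linarith)
  refine h3.trans ?_
  have : 2 * (1 / (4 * (n : ℝ))) ≤ (n : ℝ)⁻¹ := by
    rw [mul_one_div, div_le_iff₀ (by positivity)]
    field_simp; norm_num
  linarith

theorem Dg_asymp : ∃ C : ℝ, 0 < C ∧
    Tendsto (fun n : ℕ => Dg n * (n : ℝ) ^ ((1 : ℝ) / 4)) atTop (𝓝 C) := by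
  obtain ⟨C, hC, h⟩ := Dg_rate
  refine ⟨C, hC, ?_⟩
  rw [tendsto_iff_norm_sub_tendsto_zero]
  refine squeeze_zero' (Eventually.of_forall fun n => norm_nonneg _) ?_
    (tendsto_const_div_atTop_nhds_zero_nat C)
  filter_upwards [eventually_ge_atTop 1] with n hn
  exact h n hn

end Crest.Agent.R165.WuAsyx408
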