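import Crest.Agent.R165.XBd_915
import Crest.Agent.R165.BkFin_806

/-!
# Row 165, block G/P: `XBd` with absolute constants (helper915)

`exists_xbd`: there is an absolute finite constant `CX` such that the extraction maps of the system
`sys D w mk l k0 K0` satisfy `XBd w a a' (rr n) (rr (n+1)) ac (sys ..) n CX` for every background with
`|w| ≤ 1`, every step, every class `ac`, as soon as `2 c0 ≤ a`, `0 < a' ≤ 2 a`.
-/

set_option autoImplicit false

open scoped ENNReal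
open Crest.Agent.R165.Gr0x606 Crest.Agent.R165.Gr1x606 Crest.Agent.R165.GeOpsx337
  Crest.Agent.R165.KFlowx337 Crest.Agent.R165.GrLocx337
open Crest.Agent.R165.Latx683 Crest.Agent.R165.PNormx417 Crest.Agent.R165.GDefx387
open Crest.Agent.R165.FRDPolyx439 Crest.Agent.R165.FRDLatx439
open Crest.Agent.R165.BgIsox432 Crest.Agent.R165.Bridgex915 Crest.Agent.R165.DefRecx915 Crest.Agent.R165.GSysx387 Crest.Agent.R165.GSysOKx439

namespace Crest.Agent.R165.XBdx915

theorem bkReg_mono {C C' : ℝ} (h : W2x812.BkReg C) (hC : C ≤ C') : W2x812.BkReg C' where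
  amp y ρ hρ f hf := by
    have h1 : C / (ρ : ℝ) ≤ C' / ρ := div_le_div_of_nonneg_right hC (by positivity)
    exact ⟨(h.amp y ρ hρ f hf).1.trans h1, (h.amp y ρ hρ f hf).2.trans h1⟩
  slope y ρ hρ f hf := by
    have h1 : C / (ρ : ℝ) ^ 2 ≤ C' / ρ ^ 2 := div_le_div_of_nonneg_right hC (by positivity)
    obtain ⟨e1, e2, e3, e4⟩ := h.slope y ρ hρ f hf
    exact ⟨e1.trans h1, e2.trans h1, e3.trans h1, e4.trans h1⟩
  taylor x r ρ hr hρ f hf n hn := by
    refine (h.taylor x r ρ hr hρ f hf n hn).trans (mul_le_mul_of_nonneg_right hC (by positivity))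

theorem pX_le {C a a' : ℝ} {r r' : ℕ} (hC : 0 ≤ C) (ha : 0 < a) (haa : a' ≤ 2 * a)
    (hr : 1 ≤ r) (hrr : r ≤ r') : pX C a a' r r' ≤ ENNReal.ofReal (320000 * C) := by
  have h1 : (0 : ℝ) < r := by exact_mod_cast hr
  have h2 : (0 : ℝ) < r' := by exact_mod_cast (hr.trans hrr)
  have h3 : (r : ℝ) ≤ r' := by exact_mod_cast hrr
  have hs1 : 0 < Real.sqrt r := Real.sqrt_pos.2 h1
  have hs2 : 0 < Real.sqrt r' := Real.sqrt_pos.2 h2
  refine ENNReal.ofReal_le_ofReal ?_
  have e1 : Real.sqrt r' / Real.sqrt r * ((r : ℝ) / r') = Real.sqrt r / Real.sqrt r' := by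
    have q1 : (r : ℝ) = Real.sqrt r * Real.sqrt r := (Real.mul_self_sqrt h1.le).symm
    have q2 : (r' : ℝ) = Real.sqrt r' * Real.sqrt r' := (Real.mul_self_sqrt h2.le).symm
    rw [div_mul_div_comm, div_eq_div_iff (by positivity) (by positivity)]
    calc Real.sqrt r' * r * Real.sqrt r' = r * (Real.sqrt r' * Real.sqrt r') := by ring
      _ = r * r' := by rw [← q2]
      _ = Real.sqrt r * Real.sqrt r * r' := by rw [← q1]
      _ = _ := by ring
  have e2 : Real.sqrt r / Real.sqrt r' ≤ 1 := by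
    rw [div_le_one hs2]
    exact Real.sqrt_le_sqrt h3
  have e3 : a' / a ≤ 2 := by rw [div_le_iff₀ ha]; exact haa
  calc a' * Real.sqrt r' / (a * Real.sqrt r) * (160000 * C * ((r : ℝ) / r'))
      = (a' / a) * (Real.sqrt r' / Real.sqrt r * ((r : ℝ) / r')) * (160000 * C) := by
        field_simp
    _ = (a' / a) * (Real.sqrt r / Real.sqrt r') * (160000 * C) := by rw [e1]
    _ ≤ 2 * 1 * (160000 * C) := by gcongr
    _ = _ := by ring

variable {G : Type} [CommRing G] [CN G]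

/-- the Gram weight of a step is at most half of the old weight -/
theorem w0_old [CNZ G] {M K : ℕ} (D : FRD 16 M K) (hM : MM + 1 ≤ M) (w : BW G)
    (hw : ∀ z j, |w z j| ≤ 1) (l k0 n : ℕ) {a : ℝ} (ha : 2 * c0 D.C l k0 ≤ a)
    (U : Finset (G × G)) :
    GLinx336.W0 w (gw D w (lo l k0 n) (hi l k0 n)) a (rr l k0 n) (1 / 2) U := by
  intro x _ y _
  have hc := c0_pos D.C_pos l k0
  have ha0 : 0 < a := by linarith
  refine (gw_step_le_old D hM w hw l k0 n ha0 x y).trans (mul_le_mul' ?_ le_rfl)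
  have h1 : c0 D.C l k0 / a ≤ 1 / 2 := by
    rw [div_le_iff₀ ha0]; linarith
  calc ENNReal.ofReal (c0 D.C l k0 / a) ≤ ENNReal.ofReal (1 / 2) := ENNReal.ofReal_le_ofReal h1
    _ = 1 / 2 := by
      rw [ENNReal.ofReal_div_of_pos (by norm_num)]
      norm_num

/-- **`XBd` with an absolute constant**, every background with `|w| ≤ 1`, every step, every class -/
theorem exists_xbd : ∃ CX : ℝ≥0∞, CX ≠ ∞ ∧ ∀ (G : Type) [CommRing G] [CN G] [CNZ G] [GoodG G]
    [DecidableEq G] (w : BW G) (_ : ∀ z j, |w z j| ≤ 1) (M K : ℕ) (D : FRD 16 M K)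
    (_ : MM + 1 ≤ M) (mk : Finset (G × G)) (l k0 : ℕ) (K0 : Finset (G × G) → Ge (Fld G))
    (_ : (sys D w mk l k0 K0).OK ⊥) (n : ℕ) (a a' : ℝ) (_ : 2 * c0 D.C l k0 ≤ a) (_ : 0 < a')
    (_ : a' ≤ 2 * a) (ac : Finset (G × G) → Prop),
    XBd w a a' (rr l k0 n) (rr l k0 (n + 1)) ac (sys D w mk l k0 K0) n CX := by
  obtain ⟨C, hC⟩ := BkFinx806.exists_BkReg
  have hC' : W2x812.BkReg (C + 1) := by
    exact bkReg_mono hC (by linarith)
  have hC0 : 0 < C + 1 := by have := hC.nonneg; linarith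
  refine ⟨12 * ENNReal.ofReal (320000 * (C + 1)) ^ 2, ENNReal.mul_ne_top (by norm_num)
    (ENNReal.pow_ne_top ENNReal.ofReal_ne_top), ?_⟩
  intro G _ _ _ _ _ w hw M K D hM mk l k0 K0 hOK n a a' ha ha' haa ac
  have ha0 : 0 < a := by
    have := c0_pos D.C_pos l k0
    linarith
  intro U hU
  refine (xbd_sys D hC' hC0 ha0 ha' hOK (slC_gram D w hw l k0 n)
    (fun U _ _ => w0_old D hM w hw l k0 n ha U) U hU).trans (mul_le_mul' ?_ le_rfl)
  exact mul_le_mul' le_rfl (pow_le_pow_left' (pX_le hC0.le ha0 haa (rr_pos l k0 n)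
    (rr_mono l k0 (Nat.le_succ n))) 2)

end Crest.Agent.R165.XBdx915
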