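import Crest.Agent.R165.SrcRec_54

/-!
# Row 165 (S0250), leaf P11 (sources): closing of the joint recursion (helper915)

* `close_rec'`, `close_rec` : constants `M, ε0, T0` for `src_rec_joint`, `κ ≤ 1/8`, rate `1/2`
* `zeta_real` : real form of the increments of the running coefficients
* `zeta_induct` : induction on the number of steps
* `zeta_limit` : limit, rate, distance to the initial value
-/

set_option autoImplicit false
set_option linter.unusedSectionVars false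

noncomputable section

open scoped ENNReal
open Crest.Agent.R165.SrcRecx54 Crest.Agent.R165.SrcStepx54

namespace Crest.Agent.R165.ZeSx915

theorem half_ofReal : (1 / 2 : ℝ≥0∞) = ENNReal.ofReal (1 / 2) := by
  rw [ENNReal.ofReal_div_of_pos (by norm_num)]
  simp

theorem inv_one_sub_half : (1 - (1 / 2 : ℝ≥0∞))⁻¹ = 2 := by
  have h1 : (1 : ℝ≥0∞) - 1 / 2 = 1 / 2 := by
    rw [one_div]
    exact ENNReal.one_sub_inv_two
  rw [h1, one_div, inv_inv]

/-- **closing of the joint recursion**: for a contraction `κ ≤ 1/8` and a start `e 0 ≤ M0 ε T` the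
bound `e k ≤ M ε T 2^{-k}` and `|ζ_k| ≤ 2` hold for small `ε`, `T`; `T0` depends only on `C`; the step may
use `C (b k + T + e k) ≤ 1`. -/
theorem close_rec2 {C : ℝ≥0∞} (hC : C ≠ ∞) : ∃ T0 : ℝ, 0 < T0 ∧
    ∀ {M0 a : ℝ≥0∞}, M0 ≠ ∞ → a ≠ ∞ → ∃ M : ℝ, 0 < M ∧ ∃ ε0 : ℝ, 0 < ε0 ∧
      ∀ {ι : Type} {b e : ℕ → ℝ≥0∞} {z : ℕ → ι → ℝ} {N : ℕ} {ε T κ : ℝ≥0∞},
        κ ≤ 1 / 8 → ε ≤ ENNReal.ofReal ε0 → T ≤ ENNReal.ofReal T0 → T ≠ 0 →
        (∀ k ≤ N, b k ≤ ε * (1 / 2) ^ k) → e 0 ≤ M0 * ε * T → (∀ i, ‖z 0 i‖ₑ ≤ 3 / 2) →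
        (∀ k < N, ∀ i, T * ‖z (k + 1) i - z k i‖ₑ ≤ a * e k) →
        (∀ k < N, e k ≤ 1 → C * (b k + T + e k) ≤ 1 → (∀ i, ‖z k i‖ₑ ≤ 2) →
          e (k + 1) ≤ (κ + C * (b k + T + e k)) * e k + C * (b k * T)) →
        ∀ k ≤ N, e k ≤ ENNReal.ofReal M * ε * T * (1 / 2) ^ k ∧ ∀ i, ‖z k i‖ₑ ≤ 2 := by
  set C' : ℝ := C.toReal with hC'
  have hC0 : 0 ≤ C' := ENNReal.toReal_nonneg
  refine ⟨1 / (32 * (C' + 1)), by positivity, ?_⟩
  intro M0 a hM0 ha
  set M0' : ℝ := M0.toReal with hM0'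
  set a' : ℝ := a.toReal with ha'
  have hM00 : 0 ≤ M0' := ENNReal.toReal_nonneg
  have ha0 : 0 ≤ a' := ENNReal.toReal_nonneg
  have eC : C = ENNReal.ofReal C' := (ENNReal.ofReal_toReal hC).symm
  have eM0 : M0 = ENNReal.ofReal M0' := (ENNReal.ofReal_toReal hM0).symm
  have ea : a = ENNReal.ofReal a' := (ENNReal.ofReal_toReal ha).symm
  set M : ℝ := M0' + 4 * C' + 1 with hM
  have hMp : 0 < M := by positivity
  have hC1 : (0 : ℝ) < C' + 1 := by positivity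
  have ha1 : (0 : ℝ) < a' + 1 := by positivity
  refine ⟨M, hMp, 1 / (32 * (C' + 1) * M * (a' + 1)), by positivity, ?_⟩
  intro ι b e z N ε T κ hκ hε hT hT0 hb h0 hz0 hz hstep
  have hTt : T ≠ ∞ := ne_top_of_le_ne_top ENNReal.ofReal_ne_top hT
  have hεt : ε ≠ ∞ := ne_top_of_le_ne_top ENNReal.ofReal_ne_top hε
  obtain ⟨T', hT'0, rfl⟩ : ∃ T' : ℝ, 0 ≤ T' ∧ T = ENNReal.ofReal T' :=
    ⟨T.toReal, ENNReal.toReal_nonneg, (ENNReal.ofReal_toReal hTt).symm⟩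
  obtain ⟨ε', hε'0, rfl⟩ : ∃ ε' : ℝ, 0 ≤ ε' ∧ ε = ENNReal.ofReal ε' :=
    ⟨ε.toReal, ENNReal.toReal_nonneg, (ENNReal.ofReal_toReal hεt).symm⟩
  have hTp : 0 < T' := by
    rcases hT'0.lt_or_eq with h | h
    · exact h
    · exact absurd (by rw [← h, ENNReal.ofReal_zero]) hT0
  have hε1 : ε' ≤ 1 / (32 * (C' + 1) * M * (a' + 1)) :=
    (ENNReal.ofReal_le_ofReal_iff (by positivity)).1 hε
  have hT1 : T' ≤ 1 / (32 * (C' + 1)) := (ENNReal.ofReal_le_ofReal_iff (by positivity)).1 hT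
  have hT2 : T' ≤ 1 / 32 := hT1.trans (by
    rw [div_le_div_iff₀ (by positivity) (by norm_num)]; nlinarith)
  have hM1 : 1 ≤ M := by rw [hM]; linarith
  have hε2 : C' * ε' * 32 ≤ 1 := by
    rw [le_div_iff₀ (by positivity)] at hε1
    have h1 : C' * ε' * 32 ≤ ε' * (32 * (C' + 1) * M * (a' + 1)) := by
      have h2 : (1 : ℝ) ≤ M * (a' + 1) := by nlinarith
      have h3 : 0 ≤ 32 * (C' + 1) * ε' := by positivity
      nlinarith
    linarith
  have hε3 : M * a' * ε' * 32 ≤ 1 := by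
    rw [le_div_iff₀ (by positivity)] at hε1
    have h1 : M * a' * ε' * 32 ≤ ε' * (32 * (C' + 1) * M * (a' + 1)) := by
      have h3 : 0 ≤ 32 * M * (a' + 1) * ε' := by positivity
      have h4 : 0 ≤ 32 * M * ε' := by positivity
      nlinarith
    linarith
  have hε4 : M * ε' * 32 ≤ 1 := by
    rw [le_div_iff₀ (by positivity)] at hε1
    have h1 : M * ε' * 32 ≤ ε' * (32 * (C' + 1) * M * (a' + 1)) := by
      have h2 : (1 : ℝ) ≤ (C' + 1) * (a' + 1) := by nlinarith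
      have h3 : 0 ≤ 32 * M * ε' := by positivity
      nlinarith
    linarith
  have hT3 : C' * T' * 32 ≤ 1 := by
    rw [le_div_iff₀ (by positivity)] at hT1
    nlinarith
  have hMεT : M * ε' * T' ≤ 1 := by nlinarith [mul_nonneg hMp.le hε'0]
  refine src_rec_joint (ε := ENNReal.ofReal ε') (t := ENNReal.ofReal T') (T := ENNReal.ofReal T')
    (κ := κ) (C := C) (M := ENNReal.ofReal M) (ρ := 1 / 2) (a := a / ENNReal.ofReal T')
    (by rw [one_div]; exact ENNReal.inv_le_one.2 (by norm_num)) hb ?_ ?_ hz0 ?_ ?_ ?_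
  · refine h0.trans ?_
    gcongr
    rw [eM0]
    exact ENNReal.ofReal_le_ofReal (by rw [hM]; linarith)
  · have h18 : (1 / 8 : ℝ≥0∞) = ENNReal.ofReal (1 / 8) := by
      rw [ENNReal.ofReal_div_of_pos (by norm_num)]; simp
    have e1 : (1 / 8 + C * (ENNReal.ofReal ε' + ENNReal.ofReal T' +
        ENNReal.ofReal M * ENNReal.ofReal ε' * ENNReal.ofReal T')) * ENNReal.ofReal M + C =
        ENNReal.ofReal ((1 / 8 + C' * (ε' + T' + M * ε' * T')) * M + C') := by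
      rw [eC, h18, ← ENNReal.ofReal_mul hMp.le, ← ENNReal.ofReal_mul (by positivity),
        ← ENNReal.ofReal_add hε'0 hT'0, ← ENNReal.ofReal_add (by positivity) (by positivity),
        ← ENNReal.ofReal_mul hC0, ← ENNReal.ofReal_add (by positivity) (by positivity),
        ← ENNReal.ofReal_mul (by positivity), ← ENNReal.ofReal_add (by positivity) hC0]
    have e2 : ENNReal.ofReal M * (1 / 2) = ENNReal.ofReal (M * (1 / 2)) := by
      rw [half_ofReal, ← ENNReal.ofReal_mul hMp.le]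
    calc (κ + C * (ENNReal.ofReal ε' + ENNReal.ofReal T' +
          ENNReal.ofReal M * ENNReal.ofReal ε' * ENNReal.ofReal T')) * ENNReal.ofReal M + C
        ≤ (1 / 8 + C * (ENNReal.ofReal ε' + ENNReal.ofReal T' +
          ENNReal.ofReal M * ENNReal.ofReal ε' * ENNReal.ofReal T')) * ENNReal.ofReal M + C := by
          gcongr
      _ ≤ ENNReal.ofReal M * (1 / 2) := by
          rw [e1, e2]
          apply ENNReal.ofReal_le_ofReal
          have h1 : C' * (ε' + T' + M * ε' * T') ≤ 3 / 32 := by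
            have h2 : C' * (M * ε' * T') ≤ 1 / 32 := by
              have h4 : M * ε' * T' ≤ T' := by nlinarith
              nlinarith
            nlinarith
          have h5 : (1 / 8 + C' * (ε' + T' + M * ε' * T')) * M ≤ (1 / 8 + 3 / 32) * M := by
            gcongr
          have h6 : C' ≤ M / 4 := by rw [hM]; linarith
          linarith
  · rw [inv_one_sub_half]
    have e1 : a / ENNReal.ofReal T' * (ENNReal.ofReal M * ENNReal.ofReal ε' * ENNReal.ofReal T') * 2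
        = ENNReal.ofReal (a' * M * ε' * 2) := by
      have h2 : (2 : ℝ≥0∞) = ENNReal.ofReal 2 := by simp
      rw [ea, ← ENNReal.ofReal_div_of_pos hTp, h2, ← ENNReal.ofReal_mul hMp.le,
        ← ENNReal.ofReal_mul (by positivity), ← ENNReal.ofReal_mul (by positivity),
        ← ENNReal.ofReal_mul (by positivity)]
      congr 1
      field_simp
    rw [e1, half_ofReal]
    apply ENNReal.ofReal_le_ofReal
    nlinarith
  · intro k hk i
    have h1 := hz k hk i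
    rw [div_eq_mul_inv, mul_assoc, mul_comm _ (e k), ← mul_assoc, ← div_eq_mul_inv,
      ENNReal.le_div_iff_mul_le (Or.inl hT0) (Or.inl hTt), mul_comm _ (ENNReal.ofReal T')]
    exact h1
  · intro k hk hek hzk
    have h1 : (1 / 2 : ℝ≥0∞) ^ k ≤ 1 := pow_le_one₀ (by simp) (by
      rw [one_div]; exact ENNReal.inv_le_one.2 (by norm_num))
    have hek2 : e k ≤ ENNReal.ofReal (M * ε' * T') := by
      refine (hek.trans (mul_le_of_le_one_right' h1)).trans (le_of_eq ?_)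
      rw [← ENNReal.ofReal_mul hMp.le, ← ENNReal.ofReal_mul (by positivity)]
    refine hstep k hk (hek2.trans ?_) ?_ hzk
    · rw [← ENNReal.ofReal_one]
      exact ENNReal.ofReal_le_ofReal hMεT
    · calc C * (b k + ENNReal.ofReal T' + e k)
          ≤ C * (ENNReal.ofReal ε' + ENNReal.ofReal T' + ENNReal.ofReal (M * ε' * T')) := by
            gcongr
            exact (hb k hk.le).trans (mul_le_of_le_one_right' h1)
        _ = ENNReal.ofReal (C' * (ε' + T' + M * ε' * T')) := by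
            rw [eC, ← ENNReal.ofReal_add hε'0 hT'0, ← ENNReal.ofReal_add (by positivity)
              (by positivity), ← ENNReal.ofReal_mul hC0]
        _ ≤ 1 := by
            rw [← ENNReal.ofReal_one]
            apply ENNReal.ofReal_le_ofReal
            have h4 : M * ε' * T' ≤ T' := by nlinarith
            nlinarith

/-- **closing of the joint recursion**: for a contraction `κ ≤ 1/8` and a start `e 0 ≤ M0 ε T` the
bound `e k ≤ M ε T 2^{-k}` and `|ζ_k| ≤ 2` hold for small `ε`, `T`; `T0` depends only on `C`. -/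
theorem close_rec' {C : ℝ≥0∞} (hC : C ≠ ∞) : ∃ T0 : ℝ, 0 < T0 ∧
    ∀ {M0 a : ℝ≥0∞}, M0 ≠ ∞ → a ≠ ∞ → ∃ M : ℝ, 0 < M ∧ ∃ ε0 : ℝ, 0 < ε0 ∧
      ∀ {ι : Type} {b e : ℕ → ℝ≥0∞} {z : ℕ → ι → ℝ} {N : ℕ} {ε T κ : ℝ≥0∞},
        κ ≤ 1 / 8 → ε ≤ ENNReal.ofReal ε0 → T ≤ ENNReal.ofReal T0 → T ≠ 0 →
        (∀ k ≤ N, b k ≤ ε * (1 / 2) ^ k) → e 0 ≤ M0 * ε * T → (∀ i, ‖z 0 i‖ₑ ≤ 3 / 2) →
        (∀ k < N, ∀ i, T * ‖z (k + 1) i - z k i‖ₑ ≤ a * e k) →
        (∀ k < N, e k ≤ 1 → (∀ i, ‖z k i‖ₑ ≤ 2) →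
          e (k + 1) ≤ (κ + C * (b k + T + e k)) * e k + C * (b k * T)) →
        ∀ k ≤ N, e k ≤ ENNReal.ofReal M * ε * T * (1 / 2) ^ k ∧ ∀ i, ‖z k i‖ₑ ≤ 2 := by
  obtain ⟨T0, hT0, h⟩ := close_rec2 hC
  refine ⟨T0, hT0, fun {M0 a} hM0 ha => ?_⟩
  obtain ⟨M, hM, ε0, hε0, h2⟩ := h hM0 ha
  exact ⟨M, hM, ε0, hε0, fun {ι b e z N ε T κ} h1 h3 h4 h5 h6 h7 h8 h9 h10 =>
    h2 h1 h3 h4 h5 h6 h7 h8 h9 fun k hk he _ hz => h10 k hk he hz⟩

/-- `close_rec'` with the constants in one block -/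
theorem close_rec {C M0 a : ℝ≥0∞} (hC : C ≠ ∞) (hM0 : M0 ≠ ∞) (ha : a ≠ ∞) :
    ∃ M : ℝ, 0 < M ∧ ∃ ε0 : ℝ, 0 < ε0 ∧ ∃ T0 : ℝ, 0 < T0 ∧
      ∀ {ι : Type} {b e : ℕ → ℝ≥0∞} {z : ℕ → ι → ℝ} {N : ℕ} {ε T κ : ℝ≥0∞},
        κ ≤ 1 / 8 → ε ≤ ENNReal.ofReal ε0 → T ≤ ENNReal.ofReal T0 → T ≠ 0 →
        (∀ k ≤ N, b k ≤ ε * (1 / 2) ^ k) → e 0 ≤ M0 * ε * T → (∀ i, ‖z 0 i‖ₑ ≤ 3 / 2) →
        (∀ k < N, ∀ i, T * ‖z (k + 1) i - z k i‖ₑ ≤ a * e k) →
        (∀ k < N, e k ≤ 1 → (∀ i, ‖z k i‖ₑ ≤ 2) →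
          e (k + 1) ≤ (κ + C * (b k + T + e k)) * e k + C * (b k * T)) →
        ∀ k ≤ N, e k ≤ ENNReal.ofReal M * ε * T * (1 / 2) ^ k ∧ ∀ i, ‖z k i‖ₑ ≤ 2 := by
  obtain ⟨T0, hT0, h⟩ := close_rec' hC
  obtain ⟨M, hM, ε0, hε0, h2⟩ := h hM0 ha
  exact ⟨M, hM, ε0, hε0, T0, hT0, h2⟩

/-- the increments in real form -/
theorem zeta_real {ι : Type} {e : ℕ → ℝ≥0∞} {z : ℕ → ι → ℝ} {T a M ε : ℝ} (hT : 0 < T)
    (ha : 0 ≤ a) (hM : 0 ≤ M) (hε : 0 ≤ ε) {k : ℕ} {i : ι}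
    (hz : ENNReal.ofReal T * ‖z (k + 1) i - z k i‖ₑ ≤ ENNReal.ofReal a * e k)
    (he : e k ≤ ENNReal.ofReal M * ENNReal.ofReal ε * ENNReal.ofReal T * (1 / 2) ^ k) :
    |z (k + 1) i - z k i| ≤ a * M * ε * (1 / 2) ^ k := by
  have h1 : ENNReal.ofReal (T * |z (k + 1) i - z k i|) ≤
      ENNReal.ofReal (T * (a * M * ε * (1 / 2) ^ k)) := by
    rw [ENNReal.ofReal_mul hT.le, ← Real.enorm_eq_ofReal_abs]
    refine hz.trans ((mul_le_mul' le_rfl he).trans (le_of_eq ?_))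
    rw [half_ofReal, ← ENNReal.ofReal_pow (by norm_num), ← ENNReal.ofReal_mul hM,
      ← ENNReal.ofReal_mul (by positivity), ← ENNReal.ofReal_mul (by positivity),
      ← ENNReal.ofReal_mul ha]
    congr 1
    ring
  have h2 := (ENNReal.ofReal_le_ofReal_iff (by positivity)).1 h1
  exact le_of_mul_le_mul_left h2 hT

/-- **induction on the number of steps**: a bound of the remainders up to `N` which assumes
`|ζ_k| ≤ 2` for `k < N`, and the increments, give both for all `k` -/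
theorem zeta_induct {e : ℕ → ℝ≥0∞} {z : ℕ → ℝ} {A M ε t : ℝ} (hA : 0 ≤ A) (hM : 0 ≤ M)
    (hε : 0 ≤ ε) (ht : 0 < t) (hsm : 2 * (A * M * ε) ≤ 1) (hz0 : z 0 = 1)
    (hS : ∀ N, (∀ k < N, |z k| ≤ 2) → ∀ k ≤ N, e k ≤ ENNReal.ofReal (M * ε * t * (1 / 2) ^ k))
    (hz : ∀ k, ENNReal.ofReal t * ‖z (k + 1) - z k‖ₑ ≤ ENNReal.ofReal A * e k) :
    (∀ k, |z k| ≤ 2) ∧ (∀ k, e k ≤ ENNReal.ofReal (M * ε * t * (1 / 2) ^ k)) ∧
      ∀ k, |z (k + 1) - z k| ≤ A * M * ε * (1 / 2) ^ k := by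
  have hinc : ∀ k, e k ≤ ENNReal.ofReal (M * ε * t * (1 / 2) ^ k) →
      |z (k + 1) - z k| ≤ A * M * ε * (1 / 2) ^ k := by
    intro k hk
    have h1 : ENNReal.ofReal (t * |z (k + 1) - z k|) ≤
        ENNReal.ofReal (t * (A * M * ε * (1 / 2) ^ k)) := by
      rw [ENNReal.ofReal_mul ht.le, ← Real.enorm_eq_ofReal_abs]
      refine (hz k).trans ((mul_le_mul' le_rfl hk).trans (le_of_eq ?_))
      rw [← ENNReal.ofReal_mul hA]
      congr 1
      ring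
    exact le_of_mul_le_mul_left ((ENNReal.ofReal_le_ofReal_iff (by positivity)).1 h1) ht
  have key : ∀ N, ∀ k ≤ N, |z k| ≤ 2 := by
    intro N
    induction N with
    | zero =>
      intro k hk
      rw [Nat.le_zero.1 hk, hz0]
      norm_num
    | succ N ih =>
      intro k hk
      have he := hS N (fun j hj => ih j hj.le)
      have h2 := zeta_bound (z := z) (N := N + 1) (a := A * M * ε) (q := 1 / 2) (by positivity)
        (by norm_num) (by norm_num) (fun j hj => hinc j (he j (by omega))) 0 k (Nat.zero_le k) hk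
      rw [hz0] at h2
      have h3 : A * M * ε * (1 / 2) ^ 0 / (1 - 1 / 2) = 2 * (A * M * ε) := by ring
      rw [h3] at h2
      have h4 := abs_le.1 (h2.trans hsm)
      rw [abs_le]
      constructor <;> linarith [h4.1, h4.2]
  have hze : ∀ k, |z k| ≤ 2 := fun k => key k k le_rfl
  have he : ∀ k, e k ≤ ENNReal.ofReal (M * ε * t * (1 / 2) ^ k) := fun k =>
    hS k (fun j _ => hze j) k le_rfl
  exact ⟨hze, he, fun k => hinc k (he k)⟩

/-- **the limit of the running coefficient** with rate and distance to the start -/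
theorem zeta_limit {z : ℕ → ℝ} {A : ℝ} (hA : 0 ≤ A)
    (h : ∀ k, |z (k + 1) - z k| ≤ A * (1 / 2) ^ k) :
    ∃ Ze : ℝ, Filter.Tendsto z Filter.atTop (nhds Ze) ∧
      (∀ k, |z k - Ze| ≤ 2 * A * (1 / 2) ^ k) ∧ |z 0 - Ze| ≤ 2 * A := by
  obtain ⟨Ze, h1, h2⟩ := zeta_lim (q := 1 / 2) hA (by norm_num) (by norm_num) h
  have h3 : ∀ k, |z k - Ze| ≤ 2 * A * (1 / 2) ^ k := by
    intro k
    refine (h2 k).trans (le_of_eq ?_)
    rw [show (1 : ℝ) - 1 / 2 = 1 / 2 by norm_num]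
    ring
  refine ⟨Ze, h1, h3, ?_⟩
  simpa using h3 0

end Crest.Agent.R165.ZeSx915
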